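import Crest.Agent.R320.Def_915

/-!
# Row 320: s1, s2, cc of the top theorem for the concrete schemes (helper915)
-/

set_option autoImplicit false

namespace Crest.Agent.R320.Inst_915

open Crest.Agent.R320.Def_915

variable {α V S : Type} [AddCommGroup V] [Monoid S] {p : Par α V S} {N2 C0 R : ℕ}

theorem s1 (h : p.Ok N2 C0 R) (P : List α) (v : V) (Q : List α) (b : V) (hP : p.LP1 P v)
    (hQ : p.R1 Q = some b) : P ++ Q ∈ p.XX ∧ p.T v (P ++ Q) = b := by
  classical
  obtain ⟨h1, h2, h3⟩ := hP
  unfold Par.R1 at hQ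
  split_ifs at hQ with hl
  obtain ⟨l1, l2, l3⟩ := hl
  have hz := h.hz
  have hnQ : p.n ≤ Q.length := h.wo_len Q l2
  refine ⟨⟨by rw [List.length_append]; omega, (h.wo_app P Q hnQ).2 l2, ?_⟩, ?_⟩
  · intro t ht1 ht2
    rw [List.length_append] at ht2
    have e : (P ++ Q).take t = P ++ Q.take (t - P.length) := by
      rw [List.take_append, List.take_of_length_le (by omega)]
    rw [e]
    intro hw
    have hlen : (Q.take (t - P.length)).length = t - P.length := by
      rw [List.length_take]; omega
    rw [h.wo_app _ _ (by omega)] at hw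
    exact l3 _ (by omega) (by omega) hw
  · have e1 : (P ++ Q).take p.p0 = P.take p.p0 := by
      rw [List.take_append_of_le_length h1]
    have e2 : (P ++ Q).drop p.p0 = P.drop p.p0 ++ Q := by
      rw [List.drop_append_of_le_length h1]
    unfold Par.T
    rw [e1, e2]
    exact (h.sound1 _ _ _ _ h3 hQ).symm

theorem comp1 (h : p.Ok N2 C0 R) (X : List α) (hX : X ∈ p.XX) (hb : ¬ p.Bad X) (v : V) :
    ∃ P Q, X = P ++ Q ∧ p.LP1 P v ∧ (p.R1 Q).isSome := by
  classical
  obtain ⟨x1, x2, x3⟩ := hX
  unfold Par.Bad at hb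
  push Not at hb
  obtain ⟨b1, b2, b3⟩ := hb
  have hz := h.hz
  obtain ⟨P, Q, e, hPl, hP, hQ⟩ := h.compl1 (X.drop p.p0) (by rw [List.length_drop]; omega)
    (by rw [List.length_drop]; exact b3) (p.act v (p.φ (X.take p.p0)) + p.nu2 (X.take p.p0))
  have eX : X = (X.take p.p0 ++ P) ++ Q := by
    rw [List.append_assoc, e, List.take_append_drop]
  have hl0 : (X.take p.p0).length = p.p0 := by rw [List.length_take]; omega
  have hlX : X.length = p.p0 + P.length + Q.length := by
    have := congrArg List.length eX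
    rw [List.length_append, List.length_append, hl0] at this
    exact this
  refine ⟨X.take p.p0 ++ P, Q, eX, ⟨by rw [List.length_append]; omega,
    by rw [List.length_append]; omega, ?_⟩, ?_⟩
  · have e1 : (X.take p.p0 ++ P).drop p.p0 = P := by
      rw [List.drop_append_of_le_length (by omega), List.drop_of_length_le (by omega)]; rfl
    have e2 : (X.take p.p0 ++ P).take p.p0 = X.take p.p0 := by
      rw [List.take_append_of_le_length (by omega), List.take_of_length_le (by omega)]
    rw [e1, e2]; exact hP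
  · have hWQ : p.Wo Q := by
      have := x2
      rw [eX, h.wo_app _ _ (by omega)] at this
      exact this
    have hleg : p.Leg1 Q := by
      refine ⟨by omega, hWQ, ?_⟩
      intro t ht1 ht2 hw
      have hlen : (Q.take t).length = t := by rw [List.length_take]; omega
      have e3 : X.take (p.p0 + P.length + t) = (X.take p.p0 ++ P) ++ Q.take t := by
        conv_lhs => rw [eX]
        rw [List.take_append, List.take_of_length_le (by rw [List.length_append]; omega)]
        congr 2
        rw [List.length_append]; omega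
      have hw' : p.Wo (X.take (p.p0 + P.length + t)) := by
        rw [e3, h.wo_app _ _ (by omega)]; exact hw
      by_cases hc : p.z ≤ p.p0 + P.length + t
      · exact x3 _ hc (by omega) hw'
      · exact b2 _ (by omega) (by omega) hw'
    unfold Par.R1
    rw [if_pos hleg]; exact hQ

omit [AddCommGroup V] [Monoid S] in
/-- uniqueness of the first wall -/
theorem IsF.unique {o : ℕ} {Q : List α} {t t' : ℕ} (h1 : p.IsF o Q t) (h2 : p.IsF o Q t') :
    t = t' := by
  obtain ⟨a1, a2, a3, a4⟩ := h1
  obtain ⟨b1, b2, b3, b4⟩ := h2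
  rcases Nat.lt_trichotomy t t' with h | h | h
  · exact absurd a3 (b4 t a1 h)
  · exact h
  · exact absurd b3 (a4 t' b1 h)

omit [AddCommGroup V] [Monoid S] in
theorem exists_isF {o : ℕ} {Q : List α} (h : ∃ t, p.z ≤ t + o ∧ t ≤ Q.length ∧ p.Wo (Q.take t)) :
    ∃ t, p.IsF o Q t := by
  classical
  refine ⟨Nat.find h, (Nat.find_spec h).1, (Nat.find_spec h).2.1, (Nat.find_spec h).2.2, ?_⟩
  intro s hs1 hs2 hw
  exact Nat.find_min h hs2 ⟨hs1, by have := (Nat.find_spec h).2.1; omega, hw⟩

/-- the block belonging to a start -/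
theorem isF_block (h : p.Ok N2 C0 R) {P Q : List α} {t : ℕ} (hP : P.length ≤ p.p0)
    (hF : p.IsF P.length Q t) : P ++ Q.take t ∈ p.XX := by
  obtain ⟨a1, a2, a3, a4⟩ := hF
  have hz := h.hz
  have hlen : (Q.take t).length = t := by rw [List.length_take]; omega
  refine ⟨by rw [List.length_append]; omega, ?_, ?_⟩
  · rw [h.wo_app _ _ (h.wo_len _ a3)]; exact a3
  · intro s hs1 hs2 hw
    rw [List.length_append, hlen] at hs2
    have e : (P ++ Q.take t).take s = P ++ Q.take (s - P.length) := by
      rw [List.take_append, List.take_of_length_le (by omega), List.take_take,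
        min_eq_left (by omega)]
    rw [e, h.wo_app _ _ (by rw [List.length_take]; omega)] at hw
    exact a4 _ (by omega) (by omega) hw

/-- badness of the block of a start -/
theorem badAt_of_bad (h : p.Ok N2 C0 R) {P Q : List α} {t : ℕ} (hP : P.length ≤ p.p0)
    (hF : p.IsF P.length Q t) (hB : p.Bad (P ++ Q.take t)) : p.BadAt P.length Q := by
  have hz := h.hz
  have hF' := hF
  obtain ⟨a1, a2, a3, a4⟩ := hF'
  have hlen : (Q.take t).length = t := by rw [List.length_take]; omega
  refine ⟨t, hF, ?_⟩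
  rcases hB with hB | ⟨s, hs1, hs2, hs3⟩ | hB
  · left; rw [List.length_append, hlen] at hB; omega
  · right; left
    refine ⟨s - P.length, by omega, by omega, ?_⟩
    have e : (P ++ Q.take t).take s = P ++ Q.take (s - P.length) := by
      rw [List.take_append, List.take_of_length_le (by omega), List.take_take,
        min_eq_left (by omega)]
    rw [e, h.wo_app _ _ (by rw [List.length_take]; omega)] at hs3
    exact hs3
  · right; right
    rw [List.length_append, hlen, Nat.add_comm] at hB
    exact hB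

theorem s2 (h : p.Ok N2 C0 R) (P : List α) (v : V) (Q : List α) (b : V) (hP : p.LP2 P v)
    (hQ : p.R2 Q = some b)
    (H : ∀ X ∈ p.XX, X <+: P ++ Q → ∀ P' Q', X = P' ++ Q' → P.length ≤ P'.length →
      p.LP1 P' v → (p.R1 Q').isSome → False) :
    ∃ Q1 X2, Q = Q1 ++ X2 ∧ Q1 ≠ [] ∧ P ++ Q1 ∈ p.XX ∧ X2 ∈ p.XX ∧
      p.T (p.T v (P ++ Q1)) X2 = b := by
  classical
  have hz := h.hz
  obtain ⟨k0, hk0, hPl, hlam⟩ := hP
  have hR2 : p.RR2 Q b := by
    unfold Par.R2 at hQ
    split_ifs at hQ with hh
    have := hh.choose_spec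
    rw [Option.some.injEq] at hQ
    rw [hQ] at this
    exact this
  obtain ⟨k, hk, hG, t, r, hF, hX2, hrho, hb⟩ := hR2
  have hp0 : P.length ≤ p.p0 := by rw [hPl]; exact h.hc k0 hk0
  have hWQ : p.Wo Q := by
    have h1 : p.Wo (Q.drop t) := hX2.2.1
    have h2 := (h.wo_app (Q.take t) (Q.drop t) (h.wo_len _ h1)).2 h1
    rwa [List.take_append_drop] at h2
  have hlQ : p.z ≤ Q.length := by
    have h1 := hX2.1
    rw [List.length_drop] at h1
    omega
  obtain ⟨t0, hF0⟩ := exists_isF (p := p) (o := P.length) (Q := Q)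
    ⟨Q.length, by omega, le_rfl, by rw [List.take_length]; exact hWQ⟩
  have hX0 := isF_block h hp0 hF0
  have hB : p.Bad (P ++ Q.take t0) := by
    by_contra hnb
    obtain ⟨P', Q', e, hL, hR⟩ := comp1 h _ hX0 hnb v
    refine H _ hX0 ?_ P' Q' e (le_trans hp0 hL.1) hL hR
    exact ⟨Q.drop t0, by rw [List.append_assoc, List.take_append_drop]⟩
  have hBA := badAt_of_bad h hp0 hF0 hB
  rw [hPl] at hBA
  have hkk : k0 = k := (hG k0 hk0).1 hBA
  subst hkk
  have hF1 : p.IsF P.length Q t := by rw [hPl]; exact hF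
  have hXX := isF_block h hp0 hF1
  obtain ⟨a1, a2, a3, a4⟩ := hF
  have hlen : (Q.take t).length = t := by rw [List.length_take]; omega
  refine ⟨Q.take t, Q.drop t, (List.take_append_drop t Q).symm, ?_, hXX, hX2, ?_⟩
  · intro he
    have := h.wo_len _ a3
    rw [he] at this
    have hn := h.hn
    simp only [List.length_nil] at this
    omega
  · rw [hb]
    congr 1
    unfold Par.T
    have e1 : (P ++ Q.take t).take p.p0 = P ++ (Q.take t).take (p.p0 - p.c k0) := by
      rw [List.take_append, List.take_of_length_le hp0, hPl]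
    have e2 : (P ++ Q.take t).drop p.p0 = (Q.take t).drop (p.p0 - p.c k0) := by
      rw [List.drop_append, List.drop_of_length_le hp0, hPl]; rfl
    rw [e1, e2, h.sound2 k0 hk0 P _ v r hPl hlam hrho]

theorem RR2.unique {Q : List α} {b b' : V} (h1 : p.RR2 Q b) (h2 : p.RR2 Q b') : b = b' := by
  obtain ⟨k, hk, hG, t, r, hF, hX2, hrho, hb⟩ := h1
  obtain ⟨k', hk', hG', t', r', hF', hX2', hrho', hb'⟩ := h2
  have e : k = k' := (hG' k hk).1 ((hG k hk).2 rfl)
  subst e
  have e2 : t = t' := IsF.unique hF hF'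
  subst e2
  rw [hrho] at hrho'
  rw [Option.some.injEq] at hrho'
  subst hrho'
  rw [hb, hb']

theorem cc (h : p.Ok N2 C0 R)
    (spoil : ∀ X ∈ p.XX, ∀ X2 ∈ p.XX, ∀ I : Finset ℕ,
      (∀ k ∈ I, k < p.K ∧ ∃ k' < p.K, k' ≠ k ∧ p.BadAt (p.c k') (X.drop (p.c k) ++ X2)) →
      I.card ≤ 1 + 2 * C0)
    (X : List α) (hX : X ∈ p.XX) (X2 : List α) (hX2 : X2 ∈ p.XX) (v : V) :
    (∃ P Q, X = P ++ Q ∧ p.LP1 P v ∧ (p.R1 Q).isSome) ∨
    (∃ P Q, X ++ X2 = P ++ Q ∧ P.length < X.length ∧ p.LP2 P v ∧ (p.R2 Q).isSome) := by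
  classical
  by_cases hb : p.Bad X
  swap
  · exact Or.inl (comp1 h X hX hb v)
  right
  have hz := h.hz
  have hn := h.hn
  have hXl := hX.1
  have hlu : (X.take p.p0).length = p.p0 := by rw [List.length_take]; omega
  obtain ⟨I, hI1, hI2⟩ := h.compl2 (X.take p.p0) v hlu
  have hex : ∃ k ∈ I, ¬ ∃ k' < p.K, k' ≠ k ∧ p.BadAt (p.c k') (X.drop (p.c k) ++ X2) := by
    by_contra hcon
    push Not at hcon
    have := spoil X hX X2 hX2 I fun k hk => ⟨(hI2 k hk).1, by
      obtain ⟨k', h1, h2, h3⟩ := hcon k hk; exact ⟨k', h1, h2, h3⟩⟩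
    have := h.hR
    omega
  obtain ⟨k, hkI, hk⟩ := hex
  obtain ⟨hkK, hlam, hrho⟩ := hI2 k hkI
  have hck := h.hc k hkK
  have hkl : (X.take (p.c k)).length = p.c k := by rw [List.length_take]; omega
  have hdl : (X.drop (p.c k)).length = X.length - p.c k := List.length_drop
  have etk : (X.drop (p.c k) ++ X2).take (X.length - p.c k) = X.drop (p.c k) := by
    rw [List.take_append_of_le_length (by omega), List.take_of_length_le (by omega)]
  have edr : (X.drop (p.c k) ++ X2).drop (X.length - p.c k) = X2 := by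
    rw [List.drop_append_of_le_length (by omega), List.drop_of_length_le (by omega)]; rfl
  have hFk : p.IsF (p.c k) (X.drop (p.c k) ++ X2) (X.length - p.c k) := by
    refine ⟨by omega, by rw [List.length_append]; omega, ?_, ?_⟩
    · rw [etk]
      have h1 : p.Wo (X.take (p.c k) ++ X.drop (p.c k)) := by
        rw [List.take_append_drop]; exact hX.2.1
      rwa [h.wo_app _ _ (by omega)] at h1
    · intro s hs1 hs2 hw
      rw [List.take_append_of_le_length (by omega)] at hw
      refine hX.2.2 (s + p.c k) hs1 (by omega) ?_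
      have e : X.take (s + p.c k) = X.take (p.c k) ++ (X.drop (p.c k)).take s := by
        rw [← List.take_append_drop (p.c k) (X.take (s + p.c k)), List.take_take,
          min_eq_left (by omega), List.drop_take]
        congr 2; omega
      rw [e, h.wo_app _ _ (by rw [List.length_take]; omega)]
      exact hw
  have hBk : p.BadAt (p.c k) (X.drop (p.c k) ++ X2) := by
    have h1 : p.IsF (X.take (p.c k)).length (X.drop (p.c k) ++ X2) (X.length - p.c k) := by
      rw [hkl]; exact hFk
    have h2 := badAt_of_bad h (P := X.take (p.c k)) (by omega) h1 (by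
      rw [etk, List.take_append_drop]; exact hb)
    rwa [hkl] at h2
  refine ⟨X.take (p.c k), X.drop (p.c k) ++ X2, ?_, by omega, ⟨k, hkK, hkl, ?_⟩, ?_⟩
  · rw [← List.append_assoc, List.take_append_drop]
  · rw [List.take_take, min_eq_left hck] at hlam
    exact hlam
  · obtain ⟨r, hr⟩ := Option.isSome_iff_exists.1 hrho
    have hRR : ∃ b, p.RR2 (X.drop (p.c k) ++ X2) b := by
      refine ⟨_, k, hkK, ?_, X.length - p.c k, r, hFk, by rw [edr]; exact hX2, ?_, rfl⟩
      · intro k' hk'
        constructor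
        · intro hB
          by_contra hne
          exact hk ⟨k', hk', hne, hB⟩
        · rintro rfl; exact hBk
      · rw [etk]
        rw [List.drop_take] at hr
        exact hr
    unfold Par.R2
    rw [dif_pos hRR]
    rfl

end Crest.Agent.R320.Inst_915
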