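import Crest.Agent.R320.FewVal_228
import Crest.Agent.R320.Reg_143

/-!
# Row 320: the concrete blocks of the two schemes on all words (helper920)

Left-looking walls, natural chain rule, gadget 1 given as a hypothesis (all contents), exact gadget
with ruler places as scheme 2.  Target: the hypotheses of `Top5_163.top`.
-/

set_option autoImplicit false

namespace Crest.Agent.R320.Inst_920

open Crest.Agent.R320.FewWalls_228

universe u

variable {α : Type u}

/-- left-looking wall at `y` -/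
def Wa (n : ℕ) (S : Set (List α)) (w : List α) (y : ℕ) : Prop :=
  n ≤ y ∧ y ≤ w.length ∧ (w.drop (y - n)).take n ∈ S

theorem wa_wl {n : ℕ} {S : Set (List α)} {w : List α} {y : ℕ} (h : Wa n S w y) :
    Wl n S w (y - n) := by
  obtain ⟨h1, h2, h3⟩ := h
  exact ⟨by omega, h3⟩

theorem wl_wa {n : ℕ} {S : Set (List α)} {w : List α} {x : ℕ} (h : Wl n S w x) :
    Wa n S w (x + n) := by
  obtain ⟨h1, h2⟩ := h
  refine ⟨by omega, by omega, ?_⟩
  rwa [Nat.add_sub_cancel]

theorem wa_left {n : ℕ} {S : Set (List α)} {P Q : List α} {y : ℕ} (h : y ≤ P.length) :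
    Wa n S (P ++ Q) y ↔ Wa n S P y := by
  unfold Wa
  by_cases hn : n ≤ y
  · have e : ((P ++ Q).drop (y - n)).take n = (P.drop (y - n)).take n := by
      rw [List.drop_append_of_le_length (by omega), List.take_append_of_le_length]
      rw [List.length_drop]; omega
    rw [e, List.length_append]
    constructor
    · rintro ⟨a, b, c⟩; exact ⟨a, h, c⟩
    · rintro ⟨a, b, c⟩; exact ⟨a, by omega, c⟩
  · constructor
    · rintro ⟨a, _⟩; exact (hn a).elim
    · rintro ⟨a, _⟩; exact (hn a).elim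

theorem wa_right {n : ℕ} {S : Set (List α)} {P Q : List α} {y : ℕ} (h : P.length + n ≤ y) :
    Wa n S (P ++ Q) y ↔ Wa n S Q (y - P.length) := by
  unfold Wa
  have e : (P ++ Q).drop (y - n) = Q.drop (y - P.length - n) := by
    rw [List.drop_append, List.drop_eq_nil_of_le (by omega), List.nil_append]
    congr 1
    omega
  rw [e, List.length_append]
  constructor
  · rintro ⟨a, b, c⟩; exact ⟨by omega, by omega, c⟩
  · rintro ⟨a, b, c⟩; exact ⟨by omega, by omega, c⟩

theorem wa_take {n : ℕ} {S : Set (List α)} {w : List α} {m y : ℕ} (h : y ≤ m) :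
    Wa n S (w.take m) y ↔ Wa n S w y := by
  by_cases hm : m ≤ w.length
  · conv_rhs => rw [← List.take_append_drop m w]
    exact (wa_left (by rw [List.length_take]; omega)).symm
  · rw [List.take_of_length_le (by omega)]

/-- first wall at a place `≥ c` -/
def Fst (n : ℕ) (S : Set (List α)) (w : List α) (c e : ℕ) : Prop :=
  Wa n S w e ∧ c ≤ e ∧ ∀ y, c ≤ y → y < e → ¬ Wa n S w y

theorem fst_ex {n : ℕ} {S : Set (List α)} {w : List α} {c y : ℕ} (h : Wa n S w y) (hc : c ≤ y) :
    ∃ e ≤ y, Fst n S w c e := by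
  classical
  have hex : ∃ e, Wa n S w e ∧ c ≤ e := ⟨y, h, hc⟩
  refine ⟨Nat.find hex, Nat.find_min' hex ⟨h, hc⟩, (Nat.find_spec hex).1, (Nat.find_spec hex).2,
    fun x hx hx' hw => Nat.find_min hex hx' ⟨hw, hx⟩⟩

theorem fst_uniq {n : ℕ} {S : Set (List α)} {w : List α} {c e e' : ℕ} (h : Fst n S w c e)
    (h' : Fst n S w c e') : e = e' := by
  rcases Nat.lt_trichotomy e e' with hl | hl | hl
  · exact (h'.2.2 e h.2.1 hl h.1).elim
  · exact hl
  · exact (h.2.2 e' h'.2.1 hl h'.1).elim

/-- blocks -/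
def XX (n : ℕ) (S : Set (List α)) (z : ℕ) : Set (List α) := {X | Fst n S X z X.length}

theorem block_of {n : ℕ} {S : Set (List α)} {z : ℕ} {P Q : List α} {c e : ℕ}
    (h : Fst n S Q c e) (h1 : P.length + c ≤ z) (h2 : n ≤ c) (h3 : z ≤ P.length + e) :
    P ++ Q.take e ∈ XX n S z := by
  have he : e ≤ Q.length := h.1.2.1
  have hl : (P ++ Q.take e).length = P.length + e := by
    rw [List.length_append, List.length_take]; omega
  show Fst n S (P ++ Q.take e) z (P ++ Q.take e).length
  rw [hl]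
  have hc : c ≤ e := h.2.1
  refine ⟨?_, h3, fun y hy hy' => ?_⟩
  · rw [wa_right (by omega), Nat.add_sub_cancel_left, wa_take le_rfl]
    exact h.1
  · rw [wa_right (by omega), wa_take (by omega)]
    exact h.2.2 _ (by omega) (by omega)

theorem xx_prefix {n : ℕ} {S : Set (List α)} {z : ℕ} {X Y : List α} (hX : X ∈ XX n S z)
    (hY : X ++ Y ∈ XX n S z) : Y = [] := by
  by_contra hne
  have hl : 0 < Y.length := List.length_pos_iff.2 hne
  have h1 : Fst n S X z X.length := hX
  have h2 : Fst n S (X ++ Y) z (X ++ Y).length := hY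
  refine h2.2.2 X.length h1.2.1 (by rw [List.length_append]; omega) ?_
  rw [wa_left le_rfl]
  exact h1.1

/-- all data -/
structure Dt (α : Type u) (S V : Type) where
  n : ℕ
  Sw : Set (List α)
  W : ℕ
  φ : List α → S
  act : V → S → V
  z : ℕ
  p0 : ℕ
  q0 : ℕ
  N1 : ℕ
  La : ℕ
  K : ℕ
  R0 : ℕ
  pos : ℕ → ℕ
  Bad : ℕ → Prop
  lam : List α → Option V
  rho : List α → Option V
  nu1 : List α → V
  lam2 : List α → Option V
  rho2 : List α → Option V
  nu2 : List α → V

namespace Dt

variable {S V : Type} [Monoid S] [AddCommGroup V] (D : Dt α S V)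

/-- wall -/
def W_ (w : List α) (y : ℕ) : Prop := Wa D.n D.Sw w y
/-- blocks -/
def X : Set (List α) := XX D.n D.Sw D.z
/-- token map of a block -/
def T (v : V) (X : List α) : V :=
  D.act (D.act v (D.φ (X.take D.p0)) + D.nu2 (X.take D.p0)) (D.φ (X.drop D.p0)) +
    D.nu1 (X.drop D.p0)
/-- left-legal for scheme 1 -/
def LP1 (P : List α) (v : V) : Prop :=
  D.p0 ≤ P.length ∧
    D.lam (P.drop D.p0) = some (D.act v (D.φ (P.take D.p0)) + D.nu2 (P.take D.p0))
/-- right-legal for scheme 1 -/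
def RW (Q : List α) : Prop := D.q0 + D.N1 ≤ Q.length ∧ Fst D.n D.Sw Q D.q0 Q.length
open Classical in
/-- right label of scheme 1 -/
noncomputable def R1 (Q : List α) : Option V := if D.RW Q then D.rho Q else none
/-- left-legal for scheme 2 -/
def LP2 (P : List α) (v : V) : Prop := (∃ j < D.K, P.length = D.pos j) ∧ D.lam2 P = some v
/-- hypothesis `j` claims a bad block -/
def HB (Q : List α) (j : ℕ) : Prop :=
  (∃ y, Wa D.n D.Sw Q y ∧ D.z ≤ y + D.pos j + D.N1 ∧ y + D.pos j < D.z + D.N1) ∨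
  (∃ e, Fst D.n D.Sw Q (D.z - D.pos j) e ∧ D.Bad (e + D.pos j - D.p0))
/-- right label of scheme 2, as a relation -/
def R2r (Q : List α) (b : V) : Prop :=
  ∃ j < D.K, D.HB Q j ∧ (∀ j' < D.K, D.HB Q j' → j' = j) ∧
    ∃ e, Fst D.n D.Sw Q (D.z - D.pos j) e ∧ Q.drop e ∈ D.X ∧
      ∃ y, D.rho2 (Q.take (D.p0 - D.pos j)) = some y ∧
        b = D.T (D.act y (D.φ ((Q.take e).drop (D.p0 - D.pos j))) +
          D.nu1 ((Q.take e).drop (D.p0 - D.pos j))) (Q.drop e)
open Classical in
/-- right label of scheme 2 -/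
noncomputable def R2 (Q : List α) : Option V := if h : ∃ b, D.R2r Q b then some h.choose else none

/-- all hypotheses -/
structure Ok : Prop where
  hφ : ∀ u v, D.φ (u ++ v) = D.φ u * D.φ v
  act_mul : ∀ v s s', D.act (D.act v s) s' = D.act v (s * s')
  act_add : ∀ v w s, D.act (v + w) s = D.act v s + D.act w s
  hn : 0 < D.n
  hz : D.z = D.p0 + D.q0 + D.N1
  hq : D.n ≤ D.q0
  hLa : D.La ≤ D.q0
  hLa2 : 3 * D.p0 ≤ D.q0
  hp0 : 0 < D.q0
  hpos : ∀ j < D.K, D.pos j ≤ D.p0
  sep : ∀ (w : List α) (x y : ℕ), x < y → Wl D.n D.Sw w x → Wl D.n D.Sw w y → x + D.W ≤ y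
  hW : 4 * D.p0 + 4 * D.N1 + 4 ≤ D.W
  lamN : ∀ p v, D.lam p = some v → p.length ≤ D.N1
  s1 : ∀ p q v r, D.lam p = some v → D.rho q = some r → D.La ≤ q.length →
    r = D.act v (D.φ (p ++ q)) + D.nu1 (p ++ q)
  c1 : ∀ u, D.La ≤ u.length → ¬ D.Bad u.length → ∀ v, ∃ p q, p ++ q = u ∧ D.lam p = some v ∧
    (D.rho q).isSome
  s2 : ∀ p q v b, p.length + q.length = D.p0 → D.lam2 p = some v → D.rho2 q = some b →
    b = D.act v (D.φ (p ++ q)) + D.nu2 (p ++ q)
  c2 : ∀ (u : List α) (v : V), u.length = D.p0 → ∃ J : Finset ℕ, D.R0 < J.card ∧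
    ∀ j ∈ J, j < D.K ∧ D.lam2 (u.take (D.pos j)) = some v ∧ (D.rho2 (u.drop (D.pos j))).isSome
  sp : ∀ (w1 w2 : ℕ) (J : Finset ℕ), D.La + 2 * D.p0 ≤ w1 → D.La + 2 * D.p0 ≤ w2 →
    (∀ j ∈ J, j < D.K ∧ ∃ j' < D.K, j' ≠ j ∧
      ((D.z + D.pos j ≤ w1 + D.pos j' + D.N1 ∧ w1 + D.pos j' < D.z + D.N1 + D.pos j) ∨
        D.Bad (w1 + D.pos j' - D.pos j - D.p0) ∨ D.Bad (w2 + D.pos j' - D.pos j - D.p0))) →
    J.card ≤ D.R0

variable {D}

theorem R2r_fun {Q : List α} {b b' : V} (h : D.R2r Q b) (h' : D.R2r Q b') : b = b' := by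
  obtain ⟨j, hj, hb, hu, e, he, hx, y, hy, rfl⟩ := h
  obtain ⟨j', hj', hb', hu', e', he', hx', y', hy', rfl⟩ := h'
  obtain rfl := hu j' hj' hb'
  obtain rfl := fst_uniq he he'
  rw [hy] at hy'
  obtain rfl := Option.some.inj hy'
  rfl

theorem R2_iff {Q : List α} {b : V} : D.R2 Q = some b ↔ D.R2r Q b := by
  classical
  unfold R2
  split_ifs with h
  · constructor
    · intro hb
      have := Option.some.inj hb
      exact this ▸ h.choose_spec
    · intro hb
      rw [R2r_fun h.choose_spec hb]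
  · constructor
    · intro hb; exact absurd hb (by simp)
    · intro hb; exact (h ⟨b, hb⟩).elim

theorem R1_iff {Q : List α} {b : V} : D.R1 Q = some b ↔ D.RW Q ∧ D.rho Q = some b := by
  classical
  unfold R1
  split_ifs with h
  · exact ⟨fun hb => ⟨h, hb⟩, fun hb => hb.2⟩
  · exact ⟨fun hb => absurd hb (by simp), fun hb => (h hb.1).elim⟩

theorem sound1 (hD : D.Ok) (P : List α) (v : V) (Q : List α) (b : V) (hP : D.LP1 P v)
    (hQ : D.R1 Q = some b) : P ++ Q ∈ D.X ∧ D.T v (P ++ Q) = b := by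
  rw [R1_iff] at hQ
  obtain ⟨⟨hq1, hq2⟩, hr⟩ := hQ
  obtain ⟨hp1, hp2⟩ := hP
  have hlen := hD.lamN _ _ hp2
  rw [List.length_drop] at hlen
  have hz := hD.hz
  have h3 := hD.hq
  have h4 := hD.hLa
  constructor
  · have := block_of (P := P) (z := D.z) hq2 (by omega) (by omega) (by omega)
    rwa [List.take_of_length_le le_rfl] at this
  · unfold T
    rw [List.take_append_of_le_length hp1, List.drop_append_of_le_length hp1]
    exact (hD.s1 _ _ _ _ hp2 hr (by omega)).symm

/-- a block which is not bad is cut by scheme 1 -/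
theorem cut1 (hD : D.Ok) {X : List α} (hX : X ∈ D.X)
    (hE : ∀ y, D.z ≤ y + D.N1 → y < D.z + D.N1 → ¬ Wa D.n D.Sw X y)
    (hB : ¬ D.Bad (X.length - D.p0)) (v : V) :
    ∃ P Q, X = P ++ Q ∧ D.p0 ≤ P.length ∧ D.LP1 P v ∧ (D.R1 Q).isSome := by
  have hX' : Fst D.n D.Sw X D.z X.length := hX
  have hz := hD.hz
  have h3 := hD.hq
  have h4 := hD.hLa
  have hXl : D.z + D.N1 ≤ X.length := by
    by_contra hlt
    exact hE X.length (by have := hX'.2.1; omega) (by omega) hX'.1
  have hdl : (X.drop D.p0).length = X.length - D.p0 := List.length_drop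
  obtain ⟨p, q, hpq, hl, hr⟩ := hD.c1 (X.drop D.p0) (by omega) (by rw [hdl]; exact hB)
    (D.act v (D.φ (X.take D.p0)) + D.nu2 (X.take D.p0))
  have hlen := hD.lamN _ _ hl
  have htl : (X.take D.p0).length = D.p0 := by rw [List.length_take]; omega
  have hXe : X = (X.take D.p0 ++ p) ++ q := by
    rw [List.append_assoc, hpq, List.take_append_drop]
  have hql : q.length = X.length - D.p0 - p.length := by
    have := congrArg List.length hpq
    rw [List.length_append, hdl] at this
    omega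
  have hPl : (X.take D.p0 ++ p).length = D.p0 + p.length := by
    rw [List.length_append, htl]
  refine ⟨X.take D.p0 ++ p, q, hXe, by omega, ⟨by omega, ?_⟩, ?_⟩
  · rw [List.take_append_of_le_length (by omega), List.drop_append_of_le_length (by omega),
      List.drop_eq_nil_of_le (by omega), List.nil_append, List.take_of_length_le (by omega)]
    exact hl
  · have hRW : D.RW q := by
      refine ⟨by omega, ?_, by omega, fun y hy hy' => ?_⟩
      · have h5 := hX'.1
        have h6 : X.length = (X.take D.p0 ++ p).length + q.length := by omega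
        rw [h6] at h5
        have h7 : Wa D.n D.Sw ((X.take D.p0 ++ p) ++ q) ((X.take D.p0 ++ p).length + q.length) := by
          rw [← hXe]; exact h5
        rw [wa_right (by omega), Nat.add_sub_cancel_left] at h7
        exact h7
      · intro hw
        have h7 : Wa D.n D.Sw X ((X.take D.p0 ++ p).length + y) := by
          have h8 : Wa D.n D.Sw ((X.take D.p0 ++ p) ++ q) ((X.take D.p0 ++ p).length + y) := by
            rw [wa_right (by omega), Nat.add_sub_cancel_left]
            exact hw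
          rwa [← hXe] at h8
        by_cases hc : (X.take D.p0 ++ p).length + y < D.z + D.N1
        · exact hE _ (by omega) hc h7
        · exact hX'.2.2 _ (by omega) (by omega) h7
    obtain ⟨r, hr'⟩ := Option.isSome_iff_exists.1 hr
    rw [R1_iff.2 ⟨hRW, hr'⟩]
    rfl

theorem sound2 (hD : D.Ok) (P : List α) (v : V) (Q : List α) (b : V) (hP : D.LP2 P v)
    (hQ : D.R2 Q = some b)
    (hun : ∀ X ∈ D.X, X <+: P ++ Q → ∀ P' Q', X = P' ++ Q' → P.length ≤ P'.length →
      D.LP1 P' v → (D.R1 Q').isSome → False) :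
    ∃ Q1 X2, Q = Q1 ++ X2 ∧ Q1 ≠ [] ∧ P ++ Q1 ∈ D.X ∧ X2 ∈ D.X ∧
      D.T (D.T v (P ++ Q1)) X2 = b := by
  rw [R2_iff] at hQ
  obtain ⟨j, hj, hb, hu, e, he, hx, y, hy, hbe⟩ := hQ
  obtain ⟨⟨j0, hj0, hPl⟩, hl2⟩ := hP
  have hz := hD.hz
  have h3 := hD.hq
  have h4 := hD.hLa
  have hpj := hD.hpos j hj
  have hpj0 := hD.hpos j0 hj0
  have hp0 := hD.hp0
  have heQ : e ≤ Q.length := he.1.2.1
  have hce : D.z - D.pos j ≤ e := he.2.1
  -- the wall at the end of Q
  have hx' : Fst D.n D.Sw (Q.drop e) D.z (Q.drop e).length := hx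
  have hdl : (Q.drop e).length = Q.length - e := List.length_drop
  have hxz := hx'.2.1
  have hWQ : Wa D.n D.Sw Q Q.length := by
    have h5 : Wa D.n D.Sw (Q.take e ++ Q.drop e) Q.length := by
      have htl : (Q.take e).length = e := by rw [List.length_take]; omega
      rw [wa_right (by omega), htl, ← hdl]
      exact hx'.1
    rwa [List.take_append_drop] at h5
  have hj0j : j0 = j := by
    apply hu j0 hj0
    by_contra hnb
    obtain ⟨e0, -, he0⟩ := fst_ex (c := D.z - D.pos j0) hWQ (by omega)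
    have hce0 := he0.2.1
    have he0Q := he0.1.2.1
    have hblk : P ++ Q.take e0 ∈ D.X := block_of he0 (by omega) (by omega) (by omega)
    have hlen : (P ++ Q.take e0).length = D.pos j0 + e0 := by
      rw [List.length_append, List.length_take]; omega
    have hE : ∀ y, D.z ≤ y + D.N1 → y < D.z + D.N1 → ¬ Wa D.n D.Sw (P ++ Q.take e0) y := by
      intro w hw1 hw2 hw
      rw [wa_right (by omega)] at hw
      have hw' := hw.2.1
      rw [List.length_take] at hw'
      rw [wa_take (by omega)] at hw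
      exact hnb (Or.inl ⟨w - P.length, hw, by omega, by omega⟩)
    have hB : ¬ D.Bad ((P ++ Q.take e0).length - D.p0) := by
      intro hB
      refine hnb (Or.inr ⟨e0, he0, ?_⟩)
      rw [hlen] at hB
      rwa [Nat.add_comm e0]
    obtain ⟨P', Q', h1, h2, h3', h4'⟩ := cut1 hD hblk hE hB v
    exact hun _ hblk ⟨Q.drop e0, by rw [List.append_assoc, List.take_append_drop]⟩ P' Q' h1
      (by omega) h3' h4'
  subst hj0j
  have hblk : P ++ Q.take e ∈ D.X := block_of he (by omega) (by omega) (by omega)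
  refine ⟨Q.take e, Q.drop e, (List.take_append_drop e Q).symm, ?_, hblk, hx, ?_⟩
  · intro h0
    have := congrArg List.length h0
    rw [List.length_take, List.length_nil] at this
    omega
  · rw [hbe]
    congr 1
    have hle : D.p0 - D.pos j0 ≤ e := by omega
    have htk : (P ++ Q.take e).take D.p0 = P ++ Q.take (D.p0 - D.pos j0) := by
      rw [List.take_append, List.take_of_length_le (by omega), hPl, List.take_take,
        Nat.min_eq_left hle]
    have hdr : (P ++ Q.take e).drop D.p0 = (Q.take e).drop (D.p0 - D.pos j0) := by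
      rw [List.drop_append, List.drop_eq_nil_of_le (by omega), List.nil_append, hPl]
    unfold T
    rw [htk, hdr]
    rw [hD.s2 P (Q.take (D.p0 - D.pos j0)) v y (by rw [List.length_take]; omega) hl2 hy]

end Dt

end Crest.Agent.R320.Inst_920
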