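import Crest.Agent.R320.Top5_467
import Crest.Agent.R320.P3_943
import Crest.Agent.R320.WallU_228
import Crest.Agent.R320.Reg_852
import Crest.Agent.R320.InstA_970

/-!
Row 320: the instance.  `GadgetHyp` (the thin-time U-gadget of scheme 1 with its ruler) ⟹ height 3.
-/

set_option autoImplicit false

namespace Crest.Agent.R320.Inst_970

open Crest.RegLang Crest.Agent.R320.Hk_851 Crest.Agent.R320.Blk467
  Crest.Agent.R320.FewWalls_228 Crest.Agent.R320.WallU_228 Crest.Agent.R320.InstA_970

/-- thin-time gadget of scheme 1, with ruler; every content, every total -/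
def GadgetHyp (S V : Type) [Monoid S] [AddCommGroup V] (act : V → S → V) : Prop :=
  ∃ C0 : ℕ, ∀ K : ℕ, ∃ (N M0 : ℕ) (x : ℕ → ℕ) (BadT : ℕ → Prop), 0 < M0 ∧
    (∀ T, BadT (T + M0) ↔ BadT T) ∧
    (∀ i j, i < j → j < K → x i < x j) ∧
    (∀ a b d e, a < K → b < K → d < K → e < K → a ≠ b → d ≠ e → ¬ (a = d ∧ b = e) →
      2 * (N : ℤ) < |((x a : ℤ) - x b) - ((x d : ℤ) - x e)|) ∧
    (∀ T, ∀ F : Finset (ℕ × ℕ), (∀ p ∈ F, p.1 < K ∧ p.2 < K ∧ p.1 ≠ p.2 ∧ x p.2 ≤ T ∧
      BadT (T + x p.1 - x p.2)) → F.card ≤ C0) ∧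
    ∀ (α : Type) (φ : List α → S), φ [] = 1 → (∀ u v, φ (u ++ v) = φ u * φ v) →
      ∃ (lam rho : List α → Option V) (nu : List α → V),
        (∀ P v, lam P = some v → P.length ≤ N) ∧
        (∀ P v Q b, lam P = some v → rho Q = some b → b = act v (φ (P ++ Q)) + nu (P ++ Q)) ∧
        (∀ u, 2 * N ≤ u.length → ¬ BadT u.length → ∀ v, ∃ P Q, u = P ++ Q ∧ lam P = some v ∧
          (rho Q).isSome) ∧
        (∀ u u', 2 * N ≤ u.length → 2 * N ≤ u'.length → u.take (2 * N) = u'.take (2 * N) →
          u.length % M0 = u'.length % M0 → φ (u.drop (2 * N)) = φ (u'.drop (2 * N)) → nu u = nu u')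

/-! ### regularity from a key -/

section key

variable {α : Type} [Finite α] {S : Type} [Monoid S] [Finite S]

def kst (φ : α → S) (K M : ℕ) (hM : 0 < M) (q : {h : List α // h.length ≤ K} × Fin M × S) (a : α) :
    {h : List α // h.length ≤ K} × Fin M × S :=
  if h : q.1.1.length < K then
    (⟨q.1.1 ++ [a], by rw [List.length_append]; simp; omega⟩,
      ⟨(q.2.1.1 + 1) % M, Nat.mod_lt _ hM⟩, 1)
  else (q.1, ⟨(q.2.1.1 + 1) % M, Nat.mod_lt _ hM⟩, q.2.2 * φ a)

theorem kst_run (φ : α → S) (K M : ℕ) (hM : 0 < M) (w : List α) :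
    w.foldl (kst φ K M hM) (⟨[], Nat.zero_le _⟩, ⟨0, hM⟩, 1) =
      (⟨w.take K, by rw [List.length_take]; omega⟩, ⟨w.length % M, Nat.mod_lt _ hM⟩,
        ((w.drop K).map φ).prod) := by
  induction w using List.reverseRecOn with
  | nil => simp
  | append_singleton w a ih =>
    rw [List.foldl_append, ih]
    simp only [List.foldl_cons, List.foldl_nil, kst]
    by_cases h : w.length < K
    · have h1 : (w.take K).length < K := by rw [List.length_take]; omega
      rw [dif_pos h1]
      have e1 : w.take K = w := List.take_of_length_le (by omega)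
      have e2 : (w ++ [a]).take K = w ++ [a] := List.take_of_length_le (by simp; omega)
      have e3 : (w ++ [a]).drop K = [] := List.drop_eq_nil_of_le (by simp; omega)
      refine Prod.ext (Subtype.ext ?_) (Prod.ext (Fin.ext ?_) ?_)
      · simp only [e1, e2]
      · simp only [List.length_append, List.length_singleton, Nat.mod_add_mod]
      · simp only [e3, List.map_nil, List.prod_nil]
    · have h1 : ¬ (w.take K).length < K := by rw [List.length_take]; omega
      rw [dif_neg h1]
      refine Prod.ext (Subtype.ext ?_) (Prod.ext (Fin.ext ?_) ?_)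
      · simp only [List.take_append_of_le_length (by omega : K ≤ w.length)]
      · simp only [List.length_append, List.length_singleton, Nat.mod_add_mod]
      · simp only [List.drop_append_of_le_length (by omega : K ≤ w.length), List.map_append,
          List.prod_append, List.map_cons, List.map_nil, List.prod_singleton]

theorem reg_key (φ : α → S) (K M : ℕ) (hM : 0 < M) (p : List α → Prop)
    (hp : ∀ u u', K ≤ u.length → K ≤ u'.length → u.take K = u'.take K →
      u.length % M = u'.length % M → ((u.drop K).map φ).prod = ((u'.drop K).map φ).prod →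
      (p u ↔ p u')) :
    Language.IsRegular ({u | K ≤ u.length ∧ p u} : Language α) := by
  classical
  haveI : Finite {h : List α // h.length ≤ K} := by
    have := List.finite_length_le α K
    exact this
  haveI := Fintype.ofFinite {h : List α // h.length ≤ K}
  haveI := Fintype.ofFinite S
  refine ⟨{h : List α // h.length ≤ K} × Fin M × S, inferInstance,
    ⟨kst φ K M hM, (⟨[], Nat.zero_le _⟩, ⟨0, hM⟩, 1),
      {q | ∃ u : List α, K ≤ u.length ∧ p u ∧ q = u.foldl (kst φ K M hM)
        (⟨[], Nat.zero_le _⟩, ⟨0, hM⟩, 1)}⟩, ?_⟩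
  ext w
  rw [DFA.mem_accepts]
  constructor
  · rintro ⟨u, hu, hpu, e⟩
    have e' : w.foldl (kst φ K M hM) (⟨[], Nat.zero_le _⟩, ⟨0, hM⟩, 1) =
      u.foldl (kst φ K M hM) (⟨[], Nat.zero_le _⟩, ⟨0, hM⟩, 1) := e
    rw [kst_run, kst_run] at e'
    have h1 : w.take K = u.take K := congrArg (fun q => q.1.1) e'
    have h2 : w.length % M = u.length % M := congrArg (fun q => q.2.1.1) e'
    have h3 : ((w.drop K).map φ).prod = ((u.drop K).map φ).prod := congrArg (fun q => q.2.2) e'
    have h4 : K ≤ w.length := by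
      have := congrArg List.length h1
      rw [List.length_take, List.length_take] at this
      omega
    exact ⟨h4, (hp w u h4 hu h1 h2 h3).2 hpu⟩
  · rintro ⟨h1, h2⟩
    exact ⟨w, h1, h2, rfl⟩

end key

/-! ### the instance -/

section inst

variable {α : Type} [Finite α]

theorem reg_inter {L M : Language α} (hL : L.IsRegular) (hM : M.IsRegular) :
    Language.IsRegular ({w | w ∈ L ∧ w ∈ M} : Language α) := hL.inf hM

/-- words with walls only below `z` or at the end -/
theorem nw_bound {n : ℕ} {S : Set (List α)} {z : ℕ} (w : List α)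
    (h : ∀ t, t ≤ w.length → Wo n S (w.take t) → t < z ∨ t = w.length) : nw n S w ≤ z + 1 := by
  classical
  unfold nw
  have hsub : (Finset.range (w.length + 1)).filter (fun x => Wl n S w x) ⊆
      Finset.range z ∪ {w.length - n} := by
    intro x hx
    obtain ⟨hx1, hx2⟩ := Finset.mem_filter.1 hx
    obtain ⟨h1, h2⟩ := wo_take.1 hx2
    rw [Finset.mem_union, Finset.mem_range, Finset.mem_singleton]
    rcases h (x + n) h1 h2 with h3 | h3
    · left; omega
    · right; omega
  calc _ ≤ _ := Finset.card_le_card hsub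
    _ ≤ _ := Finset.card_union_le _ _
    _ = z + 1 := by simp

theorem HL_Wo (k n : ℕ) (S : Set (List α)) : HL k ({w | Wo n S w} : Language α) := by
  let F : Language α := {s | s.length = n ∧ s ∈ S}
  have h1 : HL k ((⊤ : Language α) * F) := by
    refine HL.mul HL.top (HL.finite ?_)
    exact (List.finite_length_eq α n).subset fun s hs => hs.1
  refine h1.congr fun w => Iff.symm ?_
  rw [Language.mem_mul]
  constructor
  · rintro ⟨a, _, b, ⟨hb1, hb2⟩, rfl⟩
    refine ⟨by rw [List.length_append]; omega, ?_⟩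
    have : (a ++ b).length - n = a.length := by rw [List.length_append]; omega
    rw [this, List.drop_left]
    exact hb2
  · rintro ⟨h2, h3⟩
    refine ⟨w.take (w.length - n), trivial, w.drop (w.length - n), ⟨?_, h3⟩, List.take_append_drop _ _⟩
    rw [List.length_drop]; omega

theorem HL_XX (k n : ℕ) (S : Set (List α)) (z : ℕ) :
    HL k ({w | w ∈ XX (Wo n S) z} : Language α) := by
  let D : Language α := {w | Stop (Wo n S) z w}
  have hD : HL k D := HL.setOf_and (HL_Wo k n S) (HL.length_ge z)
  let G1 : Language α := {w | 1 ≤ w.length}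
  have h2 : HL k (D * G1) := HL.mul hD (HL.length_ge 1)
  refine (hD.inf h2.compl).congr fun w => Iff.symm ?_
  constructor
  · rintro ⟨h3, h4⟩
    refine ⟨h3, fun P hP hs => ?_⟩
    obtain ⟨R, rfl⟩ := hP
    by_contra hne
    refine h4 (Language.mem_mul.2 ⟨P, hs, R, ?_, rfl⟩)
    rcases R with _ | ⟨a, R⟩
    · exact absurd (by simp) hne
    · show 1 ≤ (a :: R).length
      simp
  · rintro ⟨h3, h4⟩
    refine ⟨h3, fun hm => ?_⟩
    obtain ⟨P, hP, R, hR, rfl⟩ := Language.mem_mul.1 hm
    have := h4 P (List.prefix_append _ _) hP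
    have h5 := congrArg List.length this
    rw [List.length_append] at h5
    have h6 : 1 ≤ R.length := hR
    omega

theorem HL_EE (k n : ℕ) (S : Set (List α)) (z N : ℕ) :
    HL k ({w | EE (Wo n S) z N w} : Language α) := by
  have hfin : ({P : List α | Wo n S P ∧ z ≤ P.length + N ∧ P.length < z + N} : Set (List α)).Finite :=
    (List.finite_length_le α (z + N)).subset fun P hP => hP.2.2.le
  refine (HL.prefix (k := k) (HL.finite hfin)).congr fun w => Iff.symm ?_
  constructor
  · rintro ⟨P, ⟨h1, h2, h3⟩, hP⟩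
    change EE (Wo n S) z N w
    refine ⟨P.length, hP.length_le, ?_, h2, h3⟩
    rw [← List.prefix_iff_eq_take.1 hP]; exact h1
  · intro hw
    obtain ⟨t, h1, h2, h3, h4⟩ : EE (Wo n S) z N w := hw
    have hl : (w.take t).length = t := by rw [List.length_take]; omega
    exact ⟨w.take t, ⟨h2, by rw [hl]; exact h3, by rw [hl]; exact h4⟩, List.take_prefix _ _⟩

theorem row_of_gadget {S : Type} [Monoid S] [Finite S] (φ : α → S)
    (hG : ∀ act : (S → ZMod 2) → S → (S → ZMod 2), GadgetHyp S (S → ZMod 2) act) (s : S) :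
    HL 3 ({w | (w.map φ).prod = s} : Language α) := by
  classical
  haveI := Fintype.ofFinite S
  obtain ⟨act, hadd, hone, hmul, hfaith⟩ := exists_module S
  obtain ⟨C0, hG⟩ := hG act
  let φ' : List α → S := fun w => (w.map φ).prod
  have hφ1 : φ' [] = 1 := by simp [φ']
  have hφ : ∀ u v, φ' (u ++ v) = φ' u * φ' v := fun u v => by simp [φ']
  obtain ⟨K, hK⟩ := P3_943.scheme2 φ' hφ1 hφ act (2 + 2 * C0)
  obtain ⟨N, M0, x, BadT, hM0, hper, hmono, hrul, hthin, hgad⟩ := hG K
  obtain ⟨lam1, rho1, nu1, l1, l2, l3, l4⟩ := hgad α φ' hφ1 hφ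
  obtain ⟨nu2, lam2, hS2⟩ := hK x hmono
  obtain ⟨L, hL⟩ : ∃ L, ∀ k < K, x k ≤ L :=
    ⟨∑ k ∈ Finset.range K, x k, fun k hk =>
      Finset.single_le_sum (f := x) (fun _ _ => Nat.zero_le _) (Finset.mem_range.2 hk)⟩
  obtain ⟨n, cc, PP, S', hn, hPP, happ, hgap, -, -, hfew⟩ := walls_full (α := α) (2 * L + 2 * N)
  have hW : Wall n (2 * L + 2 * N) (Wo n S') := ⟨happ, fun P h => h.1, hgap⟩
  set p0 : ℕ := L with hp0
  obtain ⟨z, hz⟩ : ∃ z, z = p0 + L + 4 * N + n + 1 := ⟨_, rfl⟩
  set XS : Set (List α) := XX (Wo n S') z with hXS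
  set BS : Set (List α) := {X | X ∈ XS ∧ (EE (Wo n S') z N X ∨ BadT (X.length - p0))} with hBS
  let nu : List α → S → ZMod 2 := fun X => act (nu2 (X.take p0)) (φ' (X.drop p0)) + nu1 (X.drop p0)
  have hTT : ∀ v X, P3_943.TT φ' act nu2 nu1 p0 v X = act v (X.map φ).prod + nu X := by
    intro v X
    have e : (X.map φ).prod = φ' (X.take p0) * φ' (X.drop p0) := by
      rw [← hφ, List.take_append_drop]
    simp only [P3_943.TT, nu]
    rw [hadd, e, hmul, add_assoc]
  -- prefix code
  have hnil : ([] : List α) ∉ XS := by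
    rintro ⟨⟨_, h2⟩, _⟩
    simp at h2; omega
  have hC : PCode XS := ⟨hnil, fun X hX Y hY h => unique hX hY h List.prefix_rfl⟩
  have hBX : BS ⊆ XS := fun X hX => hX.1
  -- the languages
  let LP1 : (S → ZMod 2) → Language α := fun v => {P | p0 ≤ P.length ∧
    lam1 (P.drop p0) = some (act v (φ' (P.take p0)) + nu2 (P.take p0))}
  let RQ1 : (S → ZMod 2) → Language α := fun b => {Q | ∀ v P, P ∈ LP1 v →
    P ++ Q ∈ XS ∧ act v ((P ++ Q).map φ).prod + nu (P ++ Q) = b}
  let LP2 : (S → ZMod 2) → Language α := fun v => {P | ∃ k < K, P.length = x k ∧ lam2 k P = some v}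
  let RQ2 : (S → ZMod 2) → Language α := fun b => {Q | ∀ v P, P ∈ LP2 v →
    (∃ X, (X ∈ XS ∧ X ∉ BS) ∧ X <+: P ++ Q) ∨ ∃ X ∈ XS, ∃ X2 ∈ XS, P ++ Q = X ++ X2 ∧
      act (act v (X.map φ).prod + nu X) (X2.map φ).prod + nu X2 = b}
  have hLP1len : ∀ v P, P ∈ LP1 v → p0 ≤ P.length ∧ P.length ≤ p0 + N := by
    intro v P hP
    have := l1 _ _ hP.2
    rw [List.length_drop] at this
    exact ⟨hP.1, by omega⟩
  have hval1 : ∀ v P Q, P ∈ LP1 v → ∀ b, rho1 Q = some b →
      act v ((P ++ Q).map φ).prod + nu (P ++ Q) = b := by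
    intro v P Q hP b hb
    have h1 := l2 _ _ _ _ hP.2 hb
    rw [← hTT]
    simp only [P3_943.TT]
    rw [List.take_append_of_le_length hP.1, List.drop_append_of_le_length hP.1, h1]
  -- few walls
  have hXfew : ∀ X ∈ XS, nw n S' X ≤ z + 1 := by
    intro X hX
    refine nw_bound X fun t ht hw => ?_
    rcases Nat.lt_or_ge t z with h | h
    · exact Or.inl h
    · right
      have hl : (X.take t).length = t := by rw [List.length_take]; omega
      have := hX.2 (X.take t) (List.take_prefix _ _) ⟨hw, by rw [hl]; exact h⟩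
      have := congrArg List.length this
      omega
  have few : ∀ A : Language α, A.IsRegular → (∀ w ∈ A, nw n S' w ≤ z + 1) → HL 1 A := by
    intro A hA h
    refine (hfew A hA (z + 1)).congr fun w => Iff.symm ?_
    constructor
    · intro hw
      have hw' : w ∈ A ∧ nw n S' w ≤ z + 1 := hw
      exact hw'.1
    · intro hw
      exact (⟨hw, h w hw⟩ : w ∈ A ∧ nw n S' w ≤ z + 1)
  have rXS : Language.IsRegular ({w | w ∈ XS} : Language α) :=
    Reg_852.HL.isRegular (HL_XX 0 n S' z)
  have hXz : ∀ X ∈ XS, z ≤ X.length := fun X hX => hX.1.2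
  have hmodT : ∀ a b : ℕ, p0 ≤ a → p0 ≤ b → a % M0 = b % M0 → (a - p0) % M0 = (b - p0) % M0 := by
    intro a b ha hb h
    have h1 : (a - p0) + p0 ≡ (b - p0) + p0 [MOD M0] := by
      rw [Nat.sub_add_cancel ha, Nat.sub_add_cancel hb]; exact h
    exact Nat.ModEq.add_right_cancel' p0 h1
  have hBadmod : ∀ a b : ℕ, a % M0 = b % M0 → (BadT a ↔ BadT b) := by
    have h1 : ∀ q r, BadT (r + M0 * q) ↔ BadT r := by
      intro q r
      induction q with
      | zero => simp
      | succ q ih =>
        have : r + M0 * (q + 1) = (r + M0 * q) + M0 := by ring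
        rw [this, hper, ih]
    intro a b h
    rw [← Nat.mod_add_div a M0, ← Nat.mod_add_div b M0, h1, h1, h]
  have hXXT : ∀ v b, HL 1 ({X | X ∈ XS ∧ act v (X.map φ).prod + nu X = b} : Language α) := by
    intro v b
    refine few _ ?_ (fun X hX => hXfew X hX.1)
    have h1 : Language.IsRegular ({X | p0 + 2 * N ≤ X.length ∧
        act v (X.map φ).prod + nu X = b} : Language α) := by
      refine reg_key φ (p0 + 2 * N) M0 hM0 _ fun u u' hu hu' e1 e2 e3 => ?_
      have t1 : u.take p0 = u'.take p0 := by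
        have := congrArg (List.take p0) e1
        rwa [List.take_take, List.take_take, min_eq_left (by omega)] at this
      have t2 : (u.drop p0).take (2 * N) = (u'.drop p0).take (2 * N) := by
        have := congrArg (List.drop p0) e1
        rwa [List.drop_take, List.drop_take, Nat.add_sub_cancel_left] at this
      have t3 : (u.map φ).prod = (u'.map φ).prod := by
        rw [← List.take_append_drop (p0 + 2 * N) u, ← List.take_append_drop (p0 + 2 * N) u',
          List.map_append, List.map_append, List.prod_append, List.prod_append, e1, e3]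
      have t4 : φ' ((u.drop p0).drop (2 * N)) = φ' ((u'.drop p0).drop (2 * N)) := by
        rw [List.drop_drop, List.drop_drop]; exact e3
      have t5 : nu1 (u.drop p0) = nu1 (u'.drop p0) := by
        refine l4 _ _ ?_ ?_ t2 ?_ t4
        · rw [List.length_drop]; omega
        · rw [List.length_drop]; omega
        · rw [List.length_drop, List.length_drop]
          exact hmodT _ _ (by omega) (by omega) e2
      have t6 : φ' (u.drop p0) = φ' (u'.drop p0) := by
        rw [← List.take_append_drop (2 * N) (u.drop p0), ← List.take_append_drop (2 * N) (u'.drop p0),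
          hφ, hφ, t2, t4]
      have t7 : nu u = nu u' := by
        simp only [nu]
        rw [t1, t5, t6]
      rw [t3, t7]
    have h2 := rXS.inf h1
    have e : ({X | X ∈ XS ∧ act v (X.map φ).prod + nu X = b} : Language α) =
        ({w | w ∈ XS} : Language α) ⊓ ({X | p0 + 2 * N ≤ X.length ∧
        act v (X.map φ).prod + nu X = b} : Language α) := by
      ext X
      constructor
      · rintro ⟨g1, g2⟩
        exact ⟨g1, by have := hXz X g1; omega, g2⟩
      · rintro ⟨g1, g2, g3⟩
        exact ⟨g1, g3⟩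
    rw [e]; exact h2
  have rBS : Language.IsRegular ({w | w ∈ BS} : Language α) := by
    have h1 : Language.IsRegular ({X | p0 ≤ X.length ∧ BadT (X.length - p0)} : Language α) := by
      refine reg_key φ p0 M0 hM0 _ fun u u' hu hu' e1 e2 e3 => ?_
      exact hBadmod _ _ (hmodT _ _ hu hu' e2)
    have h2 : Language.IsRegular ({X | EE (Wo n S') z N X} : Language α) :=
      Reg_852.HL.isRegular (HL_EE 0 n S' z N)
    have h3 := rXS.inf (h2.compl.inf h1.compl).compl
    have e : ({w | w ∈ BS} : Language α) = ({w | w ∈ XS} : Language α) ⊓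
        (({X | EE (Wo n S') z N X} : Language α)ᶜ ⊓
          ({X | p0 ≤ X.length ∧ BadT (X.length - p0)} : Language α)ᶜ)ᶜ := by
      ext X
      constructor
      · rintro ⟨g1, g2⟩
        refine ⟨g1, fun h => ?_⟩
        rcases g2 with g | g
        · exact h.1 g
        · exact h.2 ⟨by have := hXz X g1; omega, g⟩
      · rintro ⟨g1, g2⟩
        refine ⟨g1, ?_⟩
        by_contra hne
        push Not at hne
        exact g2 ⟨fun h => hne.1 h, fun h => hne.2 h.2⟩
    rw [e]; exact h3
  have hBad : HL 1 (BS : Language α) := by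
    exact few ({w | w ∈ BS} : Language α) rBS (fun X hX => hXfew X (hBX hX))
  have hXSH : HL 1 ({w | w ∈ XS} : Language α) := HL_XX 1 n S' z
  have finLP1 : ∀ v, (LP1 v : Set (List α)).Finite := fun v =>
    (List.finite_length_le α (p0 + N)).subset fun P hP => (hLP1len v P hP).2
  have finLP2 : ∀ v, (LP2 v : Set (List α)).Finite := fun v =>
    (List.finite_length_le α L).subset fun P hP => by
      obtain ⟨k, hk, h1, _⟩ := hP
      have := hL k hk
      show P.length ≤ L
      omega
  have hL1 : ∀ v, HL 2 (LP1 v) := fun v => HL.finite (finLP1 v)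
  have hL2 : ∀ v, HL 1 (LP2 v) := fun v => HL.finite (finLP2 v)
  have hR1 : ∀ b, HL 2 (RQ1 b) := by
    intro b
    have h1 : HL 1 ({Q | ∀ v : S → ZMod 2, Q ∈ ({Q | ∀ P ∈ (LP1 v : Set (List α)),
        Q ∈ ({Q | P ++ Q ∈ ({X | X ∈ XS ∧ act v (X.map φ).prod + nu X = b} : Language α)} :
          Language α)} : Language α)} : Language α) := by
      refine HL.iInter fun v => HL.biInter (finLP1 v) fun P _ => ?_
      exact (hXXT v b).lquot P
    refine (h1.mono (by norm_num)).congr fun Q => Iff.symm ?_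
    constructor
    · intro h v P hP
      exact h v P hP
    · intro h v P hP
      exact h v P hP
  have hR2 : ∀ b, HL 1 (RQ2 b) := by
    intro b
    let GX : Language α := {X | X ∈ XS ∧ X ∉ BS}
    have hGX : HL 1 GX := HL.setOf_and hXSH (HL.setOf_not hBad)
    let XT : (S → ZMod 2) → (S → ZMod 2) → Language α := fun v b =>
      {X | X ∈ XS ∧ act v (X.map φ).prod + nu X = b}
    have hW2 : ∀ v, HL 1 ({w | w ∈ ({w | ∃ v ∈ GX, v <+: w} : Language α) ∨
        w ∈ ({w | ∃ v1 : S → ZMod 2, w ∈ (XT v v1 * XT v1 b : Language α)} : Language α)} :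
          Language α) := by
      intro v
      exact HL.setOf_or (HL.prefix hGX) (HL.iUnion fun v1 => HL.mul (hXXT v v1) (hXXT v1 b))
    have h1 : HL 1 ({Q | ∀ v : S → ZMod 2, Q ∈ ({Q | ∀ P ∈ (LP2 v : Set (List α)),
        Q ∈ ({Q | P ++ Q ∈ ({w | w ∈ ({w | ∃ v ∈ GX, v <+: w} : Language α) ∨
        w ∈ ({w | ∃ v1 : S → ZMod 2, w ∈ (XT v v1 * XT v1 b : Language α)} : Language α)} :
          Language α)} : Language α)} : Language α)} : Language α) := by
      refine HL.iInter fun v => HL.biInter (finLP2 v) fun P _ => ?_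
      exact (hW2 v).lquot P
    refine h1.congr fun Q => Iff.symm ?_
    constructor
    · intro h v P hP
      rcases h v P hP with ⟨X, hX, hXP⟩ | ⟨v1, hv1⟩
      · exact Or.inl ⟨X, hX, hXP⟩
      · right
        obtain ⟨X, hX, X2, hX2, e⟩ := Language.mem_mul.1 hv1
        refine ⟨X, hX.1, X2, hX2.1, e.symm, ?_⟩
        rw [hX.2]; exact hX2.2
    · intro h v P hP
      rcases h v P hP with ⟨X, hX, hXP⟩ | ⟨X, hX, X2, hX2, e, hb⟩
      · exact Or.inl ⟨X, hX, hXP⟩
      · exact Or.inr ⟨_, Language.mem_mul.2 ⟨X, ⟨hX, rfl⟩, X2, ⟨hX2, hb⟩, e.symm⟩⟩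
  have hD : ∀ v v', HL 2 ({X | X ∈ BS ∧ act v (X.map φ).prod + nu X = v'} : Language α) := by
    intro v v'
    have h1 : HL 1 ({X | X ∈ BS ∧ X ∈ ({X | X ∈ XS ∧ act v (X.map φ).prod + nu X = v'} :
      Language α)} : Language α) := HL.setOf_and hBad (hXXT v v')
    refine (h1.mono (by norm_num)).congr fun X => Iff.symm ?_
    constructor
    · rintro ⟨g1, g2⟩; exact ⟨g1, g2.2⟩
    · rintro ⟨g1, g2⟩; exact ⟨g1, hBX g1, g2⟩
  have htail : ∀ s, HL 3 ({w | (∀ X ∈ XS, ¬ X <+: w) ∧ (w.map φ).prod = s} : Language α) := by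
    intro s
    have h0 : Language.IsRegular ({w | ∃ X ∈ ({w | w ∈ XS} : Language α), X <+: w} : Language α) :=
      Reg_852.HL.isRegular (HL.prefix hXSH)
    have h1 := h0.compl.inf (Reg_852.isRegular_prod φ s)
    have e : ({w | (∀ X ∈ XS, ¬ X <+: w) ∧ (w.map φ).prod = s} : Language α) =
        ({w | ∃ X ∈ ({w | w ∈ XS} : Language α), X <+: w} : Language α)ᶜ ⊓
          ({w | (w.map φ).prod = s} : Language α) := by
      ext w
      constructor
      · rintro ⟨g1, g2⟩
        exact ⟨fun ⟨X, hX, h⟩ => g1 X hX h, g2⟩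
      · rintro ⟨g1, g2⟩
        exact ⟨fun X hX h => g1 ⟨X, hX, h⟩, g2⟩
    have h2 : HL 1 ({w | (∀ X ∈ XS, ¬ X <+: w) ∧ (w.map φ).prod = s} : Language α) := by
      refine few _ (by rw [e]; exact h1) fun w hw => ?_
      refine nw_bound w fun t ht hwt => ?_
      left
      by_contra hlt
      have hl : (w.take t).length = t := by rw [List.length_take]; omega
      obtain ⟨X, hX, hXP⟩ := exists_block (Wo := Wo n S') (z := z) (P := w.take t)
        ⟨hwt, by rw [hl]; omega⟩
      exact hw.1 X hX (hXP.trans (List.take_prefix _ _))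
    exact h2.mono (by norm_num)
  -- scheme 2
  have hlen2 : ∀ X ∈ XS, p0 < X.length := fun X hX => by have := hXz X hX; omega
  obtain ⟨R2, r1, r2, r3⟩ := hS2 p0 XS (fun X => X ∈ BS) nu1 (fun k hk => hL k hk) hlen2
    (fun X hX Y hXY => by
      have := unique hX hXY (List.prefix_append X Y) List.prefix_rfl
      have h := congrArg List.length this
      rw [List.length_append] at h
      exact List.length_eq_zero_iff.1 (by omega))
    (fun u u' Q hl hu h => loc hW (p0 := p0) (by omega) hl hu h)
    (fun k hk k' hk' u u' Q1 X2 hu hu' h1 h2 => by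
      have hst : Stop (Wo n S') z (u ++ (Q1 ++ X2)) := by
        refine ⟨?_, ?_⟩
        · rw [← List.append_assoc]
          exact (hW.app _ _ (by have := hXz X2 h2; omega)).2 h2.1.1
        · have := hXz X2 h2
          simp only [List.length_append]; omega
      exact exists_block hst)
    (fun X hX X2 hX2 hB I hI hR => by
      by_contra hcon
      push Not at hcon
      have hU : L + p0 ≤ (X ++ X2).length := by
        have := hXz X hX
        have := hXz X2 hX2
        rw [List.length_append]; omega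
      have := count (z := z) hW (p0 := p0) (N := N) (L := L) (K := K) (C0 := C0) x BadT hL le_rfl (by rw [hz]; omega)
        le_rfl hrul hthin (X ++ X2) hU I hI ?_
      · omega
      · intro k hk
        obtain ⟨k', hk', hcd, hne⟩ := hcon k hk
        obtain ⟨u, Y, hu, hY, hYU, hYB⟩ := hcd
        exact ⟨k', hk', hne, u, Y, hu, hY, hYU, hYB.2⟩)
  -- soundness of scheme 2 on `Bad` products
  have hStr : ∀ X ∈ XS, ∀ w, X ++ w ∈ Str BS → X ∈ BS ∧ w ∈ Str BS := by
    rintro X hX w ⟨l, hl, e⟩
    rcases l with _ | ⟨Y, l⟩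
    · exfalso
      have h := congrArg List.length e
      have := hXz X hX
      simp only [List.flatten_nil, List.length_nil, List.length_append] at h
      omega
    · rw [List.flatten_cons] at e
      have hY : Y ∈ BS := hl Y List.mem_cons_self
      have hXY : X = Y := unique hX (hBX hY) (List.prefix_append X w) (e ▸ List.prefix_append Y _)
      subst hXY
      exact ⟨hY, l, fun Z hZ => hl Z (List.mem_cons_of_mem _ hZ), List.append_cancel_left e⟩
  refine Top5_467.top5 φ act hadd hone hmul hfaith nu XS BS hC hBX LP1 RQ1 LP2 RQ2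
    ?_ ?_ ?_ ?_ hBad hL2 hR2 hL1 hR1 hD htail s
  · intro v b P Q hP hQ
    exact hQ v P hP
  · intro X hX hXB v
    have hXz' := hXz X hX
    have hnB : ¬ BadT (X.length - p0) := fun h => hXB ⟨hX, Or.inr h⟩
    have hnE : ¬ EE (Wo n S') z N X := fun h => hXB ⟨hX, Or.inl h⟩
    obtain ⟨P', Q, hPQ, hlam, hrho⟩ := l3 (X.drop p0) (by rw [List.length_drop]; omega)
      (by rw [List.length_drop]; exact hnB) (act v (φ' (X.take p0)) + nu2 (X.take p0))
    obtain ⟨b, hb⟩ := Option.isSome_iff_exists.1 hrho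
    have hXe : X.take p0 ++ P' ++ Q = X := by
      rw [List.append_assoc, ← hPQ, List.take_append_drop]
    have hl0 : (X.take p0).length = p0 := by rw [List.length_take]; omega
    have hP1 : X.take p0 ++ P' ∈ LP1 v := by
      refine ⟨by rw [List.length_append]; omega, ?_⟩
      rw [List.drop_append_of_le_length (by omega), List.take_append_of_le_length (by omega),
        List.take_of_length_le (by omega : (X.take p0).length ≤ p0),
        List.drop_of_length_le (by omega : (X.take p0).length ≤ p0), List.nil_append]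
      exact hlam
    refine ⟨X.take p0 ++ P', Q, hXe, hP1, ?_⟩
    intro v2 P2 hP2
    obtain ⟨a1, a2⟩ := hLP1len v _ hP1
    obtain ⟨a3, a4⟩ := hLP1len v2 _ hP2
    refine ⟨junction hW (p0 := p0) (N := N) (by omega) a1 a2 a3 a4 (by rw [hXe]; exact hX)
      (by rw [hXe]; exact hnE), ?_⟩
    rw [hval1 v2 P2 Q hP2 b hb, ← hval1 v _ Q hP1 b hb, hXe]
  · intro v b P Q r hP hQ hS
    have hPne : ∀ X ∈ XS, X <+: P ++ Q → X ∈ BS := by
      intro X hX hXP
      obtain ⟨t, ht⟩ := hXP
      refine (hStr X hX (t ++ r) ?_).1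
      rw [← List.append_assoc, ht]; exact hS
    rcases hQ v P hP with ⟨X, ⟨hX, hXB⟩, hXP⟩ | ⟨X, hX, X2, hX2, e, hb⟩
    · exact absurd (hPne X hX hXP) hXB
    · rw [e] at hS
      have h1 := hStr X hX (X2 ++ r) (by rw [← List.append_assoc]; exact hS)
      have h2 := hStr X2 hX2 r h1.2
      rw [e]
      refine ⟨[X, X2], ?_, by simp, ?_⟩
      · intro Y hY
        rcases List.mem_cons.1 hY with rfl | hY
        · exact h1.1
        · rcases List.mem_cons.1 hY with rfl | hY
          · exact h2.1
          · simp at hY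
      · simpa using hb
  · intro X hX X' hX' v
    obtain ⟨P, Q, hPQ, hPl, hP, hQ⟩ := r3 X (hBX hX) X' (hBX hX') hX v
    obtain ⟨b, hb⟩ := Option.isSome_iff_exists.1 hQ
    refine ⟨P, Q, hPQ.symm, hP, ?_⟩
    have huniq : ∀ Y ∈ XS, Y <+: P ++ Q → Y = X := by
      intro Y hY h
      exact unique hY (hBX hX) h (hPQ ▸ List.prefix_append X X')
    obtain ⟨Q1, X2, e1, _, e2, e3, e4⟩ := r2 P v Q b hP hb (fun Y hY h => by
      rw [huniq Y hY h]; exact hX)
    have e5 : P ++ Q1 = X := huniq _ e2 (by rw [e1, ← List.append_assoc]; exact List.prefix_append _ _)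
    have e6 : X2 = X' := by
      have : X ++ X2 = X ++ X' := by rw [hPQ, e1, ← List.append_assoc, e5]
      exact List.append_cancel_left this
    rw [hTT, hTT, e5, e6] at e4
    rw [e4]
    intro v' P' hP'
    by_cases hg : ∃ Y, (Y ∈ XS ∧ Y ∉ BS) ∧ Y <+: P' ++ Q
    · exact Or.inl hg
    · right
      push Not at hg
      obtain ⟨Q1', X2', f1, _, f2, f3, f4⟩ := r2 P' v' Q b hP' hb (fun Y hY h => by
        by_contra hn
        exact hg Y ⟨hY, hn⟩ h)
      rw [hTT, hTT] at f4
      exact ⟨P' ++ Q1', f2, X2', f3, by rw [f1, List.append_assoc], f4⟩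

end inst

end Crest.Agent.R320.Inst_970
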