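import Mathlib

/-!
Row 320 (helper985): the two schemes on walls of ALL words, natural chain rule (693 #13203, 163 #13363).
Block form, left-looking walls, one token system.  Input: a scheme-1 gadget box (no small walls),
an exact gadget at places `x k`, a left-looking wall rule.  Output: `s1`, `s2`, `cc` of 163's `top`.
-/

set_option autoImplicit false

namespace Crest.Agent.R320.Inst_985

variable {α V S : Type*}

/-- data of the construction -/
structure Dat (α V S : Type*) where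
  φ : List α → S
  act : V → S → V
  Wl : List α → Prop
  n : ℕ
  W : ℕ
  z : ℕ
  p0 : ℕ
  N : ℕ
  span : ℕ
  K : ℕ
  C0 : ℕ
  x : ℕ → ℕ
  Bad : ℕ → Prop
  lam : List α → Option V
  rho : List α → Option V
  nu1 : List α → V
  lam2 : ℕ → List α → Option V
  rho2 : ℕ → List α → Option V
  nu2 : List α → V

variable [Monoid S] [AddCommGroup V] (d : Dat α V S)

/-- the blocks -/
def XX : Set (List α) := {X | d.z ≤ X.length ∧ d.Wl X ∧ ∀ t, d.z ≤ t → t < X.length → ¬ d.Wl (X.take t)}

/-- value at the anchor moved to the place `p0` -/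
def mid (v : V) (X : List α) : V := d.act v (d.φ (X.take d.p0)) + d.nu2 (X.take d.p0)

/-- zone map -/
def T (v : V) (X : List α) : V :=
  d.act (mid d v X) (d.φ (X.drop d.p0)) + d.nu1 (X.drop d.p0)

def nu (X : List α) : V := d.act (d.nu2 (X.take d.p0)) (d.φ (X.drop d.p0)) + d.nu1 (X.drop d.p0)

def LP1 (P : List α) (v : V) : Prop := d.p0 ≤ P.length ∧ d.lam (P.drop d.p0) = some (mid d v P)

def C1 (Q : List α) : Prop :=
  d.Wl Q ∧ d.z ≤ Q.length + d.p0 ∧ ∀ t, t < Q.length → d.z ≤ t + d.p0 + d.N → ¬ d.Wl (Q.take t)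

open Classical in
noncomputable def R1 (Q : List α) : Option V := if C1 d Q then d.rho Q else none

def LP2 (P : List α) (v : V) : Prop := ∃ k < d.K, P.length = d.x k ∧ d.lam2 k P = some v

/-- first block end of the candidate `k` -/
def FB (k : ℕ) (Q : List α) (t : ℕ) : Prop :=
  t ≤ Q.length ∧ d.z ≤ t + d.x k ∧ d.Wl (Q.take t) ∧ ∀ t' < t, d.z ≤ t' + d.x k → ¬ d.Wl (Q.take t')

def EK (k : ℕ) (Q : List α) : Prop :=
  ∃ t, t ≤ Q.length ∧ d.z ≤ t + d.x k + d.N ∧ t + d.x k < d.z + d.N ∧ d.Wl (Q.take t)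

def bd (k : ℕ) (Q : List α) : Prop := EK d k Q ∨ ∃ t, FB d k Q t ∧ d.Bad (t + d.x k - d.p0)

/-- right-legal words of scheme 2 -/
def R2r (Q : List α) (b : V) : Prop :=
  ∃ k < d.K, bd d k Q ∧ (∀ k' < d.K, bd d k' Q → k' = k) ∧ ∃ Q1 X2, Q = Q1 ++ X2 ∧ FB d k Q Q1.length ∧
    X2 ∈ XX d ∧ ∃ b', d.rho2 k (Q1.take (d.p0 - d.x k)) = some b' ∧
      b = T d (d.act b' (d.φ (Q1.drop (d.p0 - d.x k))) + d.nu1 (Q1.drop (d.p0 - d.x k))) X2

open Classical in
noncomputable def R2 (Q : List α) : Option V := if h : ∃ b, R2r d Q b then some h.choose else none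

/-- standing hypotheses -/
structure Ok : Prop where
  φ1 : d.φ [] = 1
  φm : ∀ u v, d.φ (u ++ v) = d.φ u * d.φ v
  act_mul : ∀ v s s', d.act (d.act v s) s' = d.act v (s * s')
  act_add : ∀ v w s, d.act (v + w) s = d.act v s + d.act w s
  loc : ∀ P Q, d.n ≤ Q.length → (d.Wl (P ++ Q) ↔ d.Wl Q)
  len : ∀ P, d.Wl P → d.n ≤ P.length
  gap : ∀ P e, d.Wl P → 0 < e → e ≤ d.W → ¬ d.Wl (P.take (P.length - e))
  hn : 0 < d.n
  hx : ∀ k < d.K, d.x k ≤ d.span
  hp0 : d.span ≤ d.p0
  hW : 2 * d.N + 2 * d.span ≤ d.W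
  hz : d.p0 + 2 * d.N + 3 * d.span + d.n < d.z
  gol : ∀ a b c e, a < d.K → b < d.K → c < d.K → e < d.K → a ≠ b →
    (d.x a : ℤ) - d.x b < (d.x c : ℤ) - d.x e + 2 * d.N → (d.x c : ℤ) - d.x e < (d.x a : ℤ) - d.x b + 2 * d.N →
      a = c ∧ b = e
  thin : ∀ T, d.span ≤ T → ∀ A : Finset (ℕ × ℕ), (∀ ab ∈ A, ab.1 < d.K ∧ ab.2 < d.K ∧ ab.1 ≠ ab.2 ∧
    d.Bad (T + d.x ab.1 - d.x ab.2)) → A.card ≤ d.C0
  left : ∀ p v, d.lam p = some v → p.length < d.N
  sound1 : ∀ p q v b, d.lam p = some v → d.rho q = some b → b = d.act v (d.φ (p ++ q)) + d.nu1 (p ++ q)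
  compl1 : ∀ u : List α, 2 * d.N ≤ u.length → ¬ d.Bad u.length → ∀ v, ∃ p q, p ++ q = u ∧
    d.lam p = some v ∧ (d.rho q).isSome
  sound2 : ∀ k < d.K, ∀ (P Q : List α) v b, P.length = d.x k → d.lam2 k P = some v →
    d.rho2 k Q = some b → b = d.act v (d.φ (P ++ Q)) + d.nu2 (P ++ Q)
  compl2 : ∀ (u : List α) v, (∀ k < d.K, d.x k ≤ u.length) → ∃ I : Finset ℕ, 2 * d.C0 + 2 ≤ I.card ∧
    ∀ k ∈ I, k < d.K ∧ d.lam2 k (u.take (d.x k)) = some v ∧ (d.rho2 k (u.drop (d.x k))).isSome

variable {d}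

theorem prefix_code : ∀ X ∈ XX d, ∀ Y, X ++ Y ∈ XX d → Y = [] := by
  intro X hX Y hY
  by_contra hne
  have hl : 0 < Y.length := List.length_pos_iff.2 hne
  refine hY.2.2 X.length hX.1 ?_ ?_
  · rw [List.length_append]; omega
  · rw [List.take_left']
    · exact hX.2.1
    · rfl

theorem nil_notin (h : Ok d) : [] ∉ XX d := by
  intro h0
  have := h0.1
  have := h.hz
  simp at *
  omega

theorem T_eq (h : Ok d) (X : List α) (v : V) : T d v X = d.act v (d.φ X) + nu d X := by
  unfold T mid nu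
  have e : d.φ X = d.φ (X.take d.p0) * d.φ (X.drop d.p0) := by
    rw [← h.φm, List.take_append_drop]
  rw [h.act_add, h.act_mul, ← e]
  abel

theorem take_app (P Q : List α) (t : ℕ) : (P ++ Q).take (P.length + t) = P ++ Q.take t := by
  rw [List.take_append]
  simp [List.take_of_length_le]

/-- walls seen from the right word -/
theorem wl_right (h : Ok d) {P Q : List α} {t : ℕ} (ht : d.n ≤ t) (htQ : t ≤ Q.length) :
    d.Wl ((P ++ Q).take (P.length + t)) ↔ d.Wl (Q.take t) := by
  rw [take_app]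
  apply h.loc
  rw [List.length_take]
  omega

theorem C1_block (h : Ok d) {P Q : List α} (h1 : d.p0 ≤ P.length) (h2 : P.length < d.p0 + d.N)
    (hQ : C1 d Q) : P ++ Q ∈ XX d := by
  have hz := h.hz
  refine ⟨?_, ?_, ?_⟩
  · have := hQ.2.1
    rw [List.length_append]; omega
  · exact (h.loc P Q (h.len _ hQ.1)).2 hQ.1
  · intro t ht1 ht2 hw
    rw [List.length_append] at ht2
    obtain ⟨t', rfl⟩ : ∃ t', t = P.length + t' := ⟨t - P.length, by omega⟩
    rw [wl_right h (by omega) (by omega)] at hw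
    exact hQ.2.2 t' (by omega) (by omega) hw

theorem LP1_lt (h : Ok d) {P : List α} {v : V} (hP : LP1 d P v) : P.length < d.p0 + d.N := by
  have h1 := h.left _ _ hP.2
  have h2 := hP.1
  rw [List.length_drop] at h1
  omega

theorem s1 (h : Ok d) : ∀ P v Q b, LP1 d P v → R1 d Q = some b → P ++ Q ∈ XX d ∧ T d v (P ++ Q) = b := by
  intro P v Q b hP hR
  unfold R1 at hR
  split_ifs at hR with hC
  refine ⟨C1_block h hP.1 (LP1_lt h hP) hC, ?_⟩
  have e1 : (P ++ Q).take d.p0 = P.take d.p0 := List.take_append_of_le_length hP.1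
  have e2 : (P ++ Q).drop d.p0 = P.drop d.p0 ++ Q := List.drop_append_of_le_length hP.1
  have := h.sound1 _ _ _ _ hP.2 hR
  unfold T mid
  rw [e1, e2, this]
  rfl

theorem R1_ne (h : Ok d) : ∀ Q b, R1 d Q = some b → Q ≠ [] := by
  intro Q b hR
  unfold R1 at hR
  split_ifs at hR with hC
  rintro rfl
  have := h.len _ hC.1
  have := h.hn
  simp at *
  omega

/-- badness of a block -/
def badX (d : Dat α V S) (X : List α) : Prop :=
  (∃ t, t ≤ X.length ∧ d.z ≤ t + d.N ∧ t < d.z + d.N ∧ d.Wl (X.take t)) ∨ d.Bad (X.length - d.p0)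

theorem cut1 (h : Ok d) {X : List α} (hX : X ∈ XX d) (hb : ¬ badX d X) (v : V) :
    ∃ P Q, X = P ++ Q ∧ d.p0 ≤ P.length ∧ LP1 d P v ∧ (R1 d Q).isSome := by
  have hz := h.hz
  have hXz := hX.1
  have hlen : d.z + d.N ≤ X.length := by
    by_contra hc
    apply hb
    left
    refine ⟨X.length, le_rfl, by omega, by omega, ?_⟩
    rw [List.take_length]
    exact hX.2.1
  obtain ⟨p, q, e, hp, hq⟩ := h.compl1 (X.drop d.p0) (by rw [List.length_drop]; omega)
    (by rw [List.length_drop]; exact fun hB => hb (Or.inr hB)) (mid d v X)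
  have hXe : X = (X.take d.p0 ++ p) ++ q := by
    rw [List.append_assoc, e, List.take_append_drop]
  have hPl : (X.take d.p0 ++ p).length = d.p0 + p.length := by
    rw [List.length_append, List.length_take]; omega
  have hpl := h.left _ _ hp
  have hql : X.length = d.p0 + p.length + q.length := by
    conv_lhs => rw [hXe]
    rw [List.length_append, hPl]
  refine ⟨X.take d.p0 ++ p, q, hXe, by omega, ⟨by omega, ?_⟩, ?_⟩
  · have e1 : (X.take d.p0).length = d.p0 := by rw [List.length_take]; omega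
    have e2 : (X.take d.p0 ++ p).drop d.p0 = p := List.drop_left' e1
    have e3 : (X.take d.p0 ++ p).take d.p0 = X.take d.p0 := List.take_left' e1
    rw [e2, hp]
    unfold mid
    rw [e3]
  · have hC : C1 d q := by
      refine ⟨?_, by omega, ?_⟩
      · have := hX.2.1
        rw [hXe] at this
        exact (h.loc _ _ (by omega)).1 this
      · intro t ht1 ht2 hw
        have hw' : d.Wl (X.take ((X.take d.p0 ++ p).length + t)) := by
          conv => rw [hXe]
          have e4 : ((List.take d.p0 X ++ p ++ q).take d.p0 ++ p) = X.take d.p0 ++ p := by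
            rw [← hXe]
          rw [e4]
          exact (wl_right h (by omega) (by omega)).2 hw
        rw [hPl] at hw'
        by_cases hc : d.z ≤ d.p0 + p.length + t
        · exact hX.2.2 _ hc (by omega) hw'
        · exact hb (Or.inl ⟨d.p0 + p.length + t, by omega, by omega, by omega, hw'⟩)
    unfold R1
    rw [if_pos hC]
    exact hq

theorem FB_unique {k : ℕ} {Q : List α} {t t' : ℕ} (h1 : FB d k Q t) (h2 : FB d k Q t') : t = t' := by
  rcases lt_trichotomy t t' with hc | hc | hc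
  · exact absurd h1.2.2.1 (h2.2.2.2 t hc h1.2.1)
  · exact hc
  · exact absurd h2.2.2.1 (h1.2.2.2 t' hc h2.2.1)

theorem R2r_unique {Q : List α} {b b' : V} (h1 : R2r d Q b) (h2 : R2r d Q b') : b = b' := by
  obtain ⟨k, hk, hb, hu, Q1, X2, e, hF, hX2, c, hc, rfl⟩ := h1
  obtain ⟨k', hk', hb', hu', Q1', X2', e', hF', hX2', c', hc', rfl⟩ := h2
  obtain rfl : k = k' := hu' k hk hb
  have hl := FB_unique hF hF'
  have : Q1 ++ X2 = Q1' ++ X2' := by rw [← e, ← e']
  obtain ⟨rfl, rfl⟩ := List.append_inj this hl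
  rw [hc] at hc'
  cases hc'
  rfl

theorem R2_iff {Q : List α} {b : V} : R2 d Q = some b ↔ R2r d Q b := by
  unfold R2
  constructor
  · intro h
    split_ifs at h with hc
    cases h
    exact hc.choose_spec
  · intro h
    have hc : ∃ b, R2r d Q b := ⟨b, h⟩
    rw [dif_pos hc]
    congr 1
    exact R2r_unique hc.choose_spec h

theorem bd_iff_badX (h : Ok d) {k : ℕ} (hk : k < d.K) {P Q : List α} (hP : P.length = d.x k) {t0 : ℕ}
    (hF : FB d k Q t0) : (P ++ Q.take t0 ∈ XX d) ∧ (badX d (P ++ Q.take t0) → bd d k Q) := by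
  have hz := h.hz
  have hx := h.hx k hk
  have hp0 := h.hp0
  have hlt : (Q.take t0).length = t0 := by rw [List.length_take]; have := hF.1; omega
  have hwl : ∀ t, d.n ≤ t → t ≤ t0 → (d.Wl ((P ++ Q.take t0).take (d.x k + t)) ↔ d.Wl (Q.take t)) := by
    intro t h1 h2
    have := wl_right h (P := P) (Q := Q.take t0) h1 (by omega)
    rw [hP] at this
    rw [this, List.take_take, min_eq_left h2]
  have hF2 := hF.2.1
  constructor
  · refine ⟨?_, ?_, ?_⟩
    · rw [List.length_append, hlt, hP]; omega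
    · exact (h.loc _ _ (by omega)).2 hF.2.2.1
    · intro t h1 h2 hw
      rw [List.length_append, hlt, hP] at h2
      obtain ⟨t', rfl⟩ : ∃ t', t = d.x k + t' := ⟨t - d.x k, by omega⟩
      rw [hwl t' (by omega) (by omega)] at hw
      exact hF.2.2.2 t' (by omega) (by omega) hw
  · rintro (⟨t, h1, h2, h3, hw⟩ | hB)
    · rw [List.length_append, hlt, hP] at h1
      obtain ⟨t', rfl⟩ : ∃ t', t = d.x k + t' := ⟨t - d.x k, by omega⟩
      rw [hwl t' (by omega) (by omega)] at hw
      have := hF.1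
      exact Or.inl ⟨t', by omega, by omega, by omega, hw⟩
    · right
      refine ⟨t0, hF, ?_⟩
      rw [List.length_append, hlt, hP] at hB
      rwa [Nat.add_comm t0]

theorem s2 (h : Ok d) : ∀ P v Q b, LP2 d P v → R2 d Q = some b →
    (∀ X ∈ XX d, X <+: P ++ Q → ∀ P' Q', X = P' ++ Q' → P.length ≤ P'.length → LP1 d P' v →
      (R1 d Q').isSome → False) →
    ∃ Q1 X2, Q = Q1 ++ X2 ∧ Q1 ≠ [] ∧ P ++ Q1 ∈ XX d ∧ X2 ∈ XX d ∧ T d (T d v (P ++ Q1)) X2 = b := by
  classical
  intro P v Q b hP hR H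
  rw [R2_iff] at hR
  obtain ⟨k, hk, hPl, hlam⟩ := hP
  obtain ⟨k', hk', hb', hu, Q1, X2, e, hF, hX2, c, hc, hbv⟩ := hR
  have hz := h.hz
  have hx := h.hx k hk
  have hp0 := h.hp0
  -- first block end for the true candidate
  have hex : ∃ t, t ≤ Q.length ∧ d.z ≤ t + d.x k ∧ d.Wl (Q.take t) := by
    refine ⟨Q.length, le_rfl, ?_, ?_⟩
    · have := hX2.1
      rw [e, List.length_append]; omega
    · rw [List.take_length, e]
      exact (h.loc _ _ (by have := hX2.1; omega)).2 hX2.2.1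
  have hF0 : FB d k Q (Nat.find hex) := by
    obtain ⟨h1, h2, h3⟩ := Nat.find_spec hex
    refine ⟨h1, h2, h3, fun t' ht' h4 h5 => ?_⟩
    exact Nat.find_min hex ht' ⟨by omega, h4, h5⟩
  obtain ⟨hXX, hbad⟩ := bd_iff_badX h hk hPl hF0
  have hbk : bd d k Q := by
    apply hbad
    by_contra hnb
    obtain ⟨P', Q', e', hl', hLP, hR1⟩ := cut1 h hXX hnb v
    refine H _ hXX ?_ P' Q' e' (by omega) hLP hR1
    exact List.prefix_append_right_inj P |>.2 (List.take_prefix _ _)
  obtain rfl : k = k' := hu k hk hbk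
  have ht0 := FB_unique hF0 hF
  rw [ht0] at hXX
  have hQ1 : Q.take Q1.length = Q1 := by rw [e, List.take_left']; rfl
  rw [hQ1] at hXX
  refine ⟨Q1, X2, e, ?_, hXX, hX2, ?_⟩
  · rintro rfl
    have := hXX.1
    simp at this
    omega
  · have hsum := hXX.1
    rw [List.length_append, hPl] at hsum
    have e1 : (P ++ Q1).take d.p0 = P ++ Q1.take (d.p0 - d.x k) := by
      have := take_app P Q1 (d.p0 - d.x k)
      rw [hPl, show d.x k + (d.p0 - d.x k) = d.p0 by omega] at this
      exact this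
    have e2 : (P ++ Q1).drop d.p0 = Q1.drop (d.p0 - d.x k) := by
      rw [List.drop_append, hPl, List.drop_eq_nil_of_le (by omega), List.nil_append]
    have hs := h.sound2 k hk P (Q1.take (d.p0 - d.x k)) v c hPl hlam hc
    have e3 : T d v (P ++ Q1) = d.act c (d.φ (Q1.drop (d.p0 - d.x k))) + d.nu1 (Q1.drop (d.p0 - d.x k)) := by
      unfold T mid
      rw [e1, e2, ← hs]
    rw [e3, hbv]

theorem R2_ne (h : Ok d) : ∀ Q b, R2 d Q = some b → Q ≠ [] := by
  intro Q b hR
  rw [R2_iff] at hR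
  obtain ⟨k', hk', hb', hu, Q1, X2, e, hF, hX2, c, hc, hbv⟩ := hR
  rintro rfl
  have h1 := hX2.1
  have h2 := congrArg List.length e
  have := h.hz
  rw [List.length_append] at h2
  simp at h2
  omega


theorem app_drop {X X2 : List α} {m : ℕ} (hm : m ≤ X.length) :
    (X ++ X2).drop m = X.drop m ++ X2 := List.drop_append_of_le_length hm

/-- walls of `U` seen in `U.drop m` -/
theorem wl_drop (h : Ok d) (U : List α) {m t : ℕ} (ht : d.n ≤ t) (hm : m + t ≤ U.length) :
    d.Wl (U.take (m + t)) ↔ d.Wl ((U.drop m).take t) := by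
  have e : U.take m ++ U.drop m = U := List.take_append_drop _ _
  have hl : (U.take m).length = m := by rw [List.length_take]; omega
  have := wl_right h (P := U.take m) (Q := U.drop m) ht (by rw [List.length_drop]; omega)
  rw [e, hl] at this
  exact this

theorem wl_near (h : Ok d) (U : List α) {s t : ℕ} (hs : s ≤ U.length) (ht : t ≤ U.length)
    (h1 : d.Wl (U.take s)) (h2 : d.Wl (U.take t)) (hst : s ≤ t + d.W) (hts : t ≤ s + d.W) : s = t := by
  rcases lt_trichotomy s t with hc | hc | hc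
  · exfalso
    have := h.gap _ (t - s) h2 (by omega) (by omega)
    rw [List.length_take, min_eq_left ht, List.take_take, show t - (t - s) = s by omega,
      min_eq_left (by omega)] at this
    exact this h1
  · exact hc
  · exfalso
    have := h.gap _ (s - t) h1 (by omega) (by omega)
    rw [List.length_take, min_eq_left hs, List.take_take, show s - (s - t) = t by omega,
      min_eq_left (by omega)] at this
    exact this h2

theorem card_le_one_of {A : Finset ℕ} (hA : ∀ a ∈ A, ∀ b ∈ A, a = b) : A.card ≤ 1 :=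
  Finset.card_le_one.2 hA

theorem spoil_card (h : Ok d) (I : Finset ℕ) (hI : ∀ k ∈ I, k < d.K) (T : ℕ) (hT : d.span ≤ T)
    (A : Finset ℕ) (hA : A ⊆ I) (hA2 : ∀ k ∈ A, ∃ k' < d.K, k' ≠ k ∧ d.Bad (T + d.x k' - d.x k)) :
    A.card ≤ d.C0 := by
  classical
  choose! f hf using hA2
  have hinj : (A.image (fun k => (f k, k))).card = A.card := by
    apply Finset.card_image_of_injOn
    intro a _ b _ hab
    exact (Prod.ext_iff.1 hab).2
  rw [← hinj]
  apply h.thin T hT
  intro ab hab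
  obtain ⟨k, hk, rfl⟩ := Finset.mem_image.1 hab
  exact ⟨(hf k hk).1, hI k (hA hk), (hf k hk).2.1, (hf k hk).2.2⟩

theorem cc (h : Ok d) : ∀ X ∈ XX d, ∀ X2 ∈ XX d, ∀ v,
    (∃ P Q, X = P ++ Q ∧ LP1 d P v ∧ (R1 d Q).isSome) ∨
    (∃ P Q, X ++ X2 = P ++ Q ∧ P.length < X.length ∧ LP2 d P v ∧ (R2 d Q).isSome) := by
  classical
  intro X hX X2 hX2 v
  by_cases hb : badX d X
  swap
  · left
    obtain ⟨P, Q, e, -, h1, h2⟩ := cut1 h hX hb v
    exact ⟨P, Q, e, h1, h2⟩
  right
  have hz := h.hz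
  have hp0 := h.hp0
  have hXz := hX.1
  have hX2z := hX2.1
  have hWW := h.hW
  obtain ⟨I, hI, hI2⟩ := h.compl2 (X.take d.p0) v (fun k hk => by
    rw [List.length_take]; have := h.hx k hk; omega)
  have hIK : ∀ k ∈ I, k < d.K := fun k hk => (hI2 k hk).1
  set U := X ++ X2 with hU
  have hUl : U.length = X.length + X2.length := by rw [hU, List.length_append]
  have hWU : d.Wl (U.take U.length) := by
    rw [List.take_length, hU]
    exact (h.loc _ _ (by omega)).2 hX2.2.1
  have hex1 : ∃ t, d.z + d.N + d.span ≤ t ∧ t ≤ U.length ∧ d.Wl (U.take t) :=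
    ⟨U.length, by omega, le_rfl, hWU⟩
  obtain ⟨a1, a2, a3⟩ := Nat.find_spec hex1
  have a4 := fun m => Nat.find_min hex1 (m := m)
  set t1 := Nat.find hex1 with ht1
  obtain ⟨t0, ht0l, ht0z, ht0⟩ : ∃ t0, t0 ≤ U.length ∧ d.z ≤ t0 + d.N + d.span ∧
      ∀ τ, τ ≤ U.length → d.z ≤ τ + d.N + d.span → τ < d.z + d.N + d.span → d.Wl (U.take τ) → τ = t0 := by
    by_cases hr : ∃ τ, τ ≤ U.length ∧ d.z ≤ τ + d.N + d.span ∧ τ < d.z + d.N + d.span ∧ d.Wl (U.take τ)
    · obtain ⟨τ0, b1, b2, b3, b4⟩ := hr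
      exact ⟨τ0, b1, b2, fun τ c1 c2 c3 c4 => wl_near h U c1 b1 c4 b4 (by omega) (by omega)⟩
    · exact ⟨t1, a2, by omega, fun τ c1 c2 c3 c4 => absurd ⟨τ, c1, c2, c3, c4⟩ hr⟩
  -- spoiled elements
  set SE := I.filter (fun k => ∃ k' < d.K, k' ≠ k ∧ EK d k' (U.drop (d.x k))) with hSE
  set S0 := I.filter (fun k => ∃ k' < d.K, k' ≠ k ∧ d.Bad (t0 - d.p0 + d.x k' - d.x k)) with hS0
  set S1 := I.filter (fun k => ∃ k' < d.K, k' ≠ k ∧ d.Bad (t1 - d.p0 + d.x k' - d.x k)) with hS1
  have cE : SE.card ≤ 1 := by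
    apply card_le_one_of
    intro k hk l hl
    obtain ⟨hkI, k', hk', hkk, t, b1, b2, b3, b4⟩ := Finset.mem_filter.1 hk
    obtain ⟨hlI, l', hl', hll, t', c1, c2, c3, c4⟩ := Finset.mem_filter.1 hl
    have x1 := h.hx k (hIK k hkI)
    have x2 := h.hx l (hIK l hlI)
    have x3 := h.hx k' hk'
    have x4 := h.hx l' hl'
    rw [List.length_drop] at b1 c1
    have w1 : d.Wl (U.take (d.x k + t)) := (wl_drop h U (by omega) (by omega)).2 b4
    have w2 : d.Wl (U.take (d.x l + t')) := (wl_drop h U (by omega) (by omega)).2 c4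
    have e1 := ht0 _ (by omega) (by omega) (by omega) w1
    have e2 := ht0 _ (by omega) (by omega) (by omega) w2
    exact (h.gol k k' l l' (hIK k hkI) hk' (hIK l hlI) hl' (Ne.symm hkk) (by omega) (by omega)).1
  have c0 : S0.card ≤ d.C0 := spoil_card h I hIK (t0 - d.p0) (by omega) S0 (Finset.filter_subset _ _)
    (fun k hk => (Finset.mem_filter.1 hk).2)
  have c1 : S1.card ≤ d.C0 := spoil_card h I hIK (t1 - d.p0) (by omega) S1 (Finset.filter_subset _ _)
    (fun k hk => (Finset.mem_filter.1 hk).2)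
  obtain ⟨k, hkI, hkn⟩ : ∃ k ∈ I, k ∉ SE ∪ (S0 ∪ S1) := by
    by_contra hcon
    push Not at hcon
    have hsub : I ⊆ SE ∪ (S0 ∪ S1) := fun k hk => hcon k hk
    have := Finset.card_le_card hsub
    have e1 := Finset.card_union_le SE (S0 ∪ S1)
    have e2 := Finset.card_union_le S0 S1
    omega
  simp only [Finset.mem_union, not_or] at hkn
  obtain ⟨n1, n2, n3⟩ := hkn
  obtain ⟨hkK, hlam, hrho⟩ := hI2 k hkI
  have hxk := h.hx k hkK
  have hQe : U.drop (d.x k) = X.drop (d.x k) ++ X2 := app_drop (by omega)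
  have hPl : (X.take (d.x k)).length = d.x k := by rw [List.length_take]; omega
  have htk : (U.drop (d.x k)).take (X.length - d.x k) = X.drop (d.x k) := by
    rw [hQe, List.take_left']
    rw [List.length_drop]
  have hPX : X.take (d.x k) ++ X.drop (d.x k) = X := List.take_append_drop _ _
  have hUX : ∀ t, t ≤ X.length → U.take t = X.take t := fun t ht => List.take_append_of_le_length ht
  have hFB : FB d k (U.drop (d.x k)) (X.length - d.x k) := by
    refine ⟨by rw [List.length_drop]; omega, by omega, ?_, ?_⟩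
    · rw [← wl_drop h U (by omega) (by omega), show d.x k + (X.length - d.x k) = X.length by omega,
        hUX _ le_rfl, List.take_length]
      exact hX.2.1
    · intro t' h1 h2 h3
      rw [← wl_drop h U (by omega) (by omega), hUX _ (by omega)] at h3
      exact hX.2.2 _ (by omega) (by omega) h3
  have hbk : bd d k (U.drop (d.x k)) := by
    apply (bd_iff_badX h hkK hPl hFB).2
    rw [htk, hPX]
    exact hb
  have huniq : ∀ k' < d.K, bd d k' (U.drop (d.x k)) → k' = k := by
    intro k' hk' hbd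
    by_contra hne
    have hxk' := h.hx k' hk'
    rcases hbd with hE | ⟨t, hF, hB⟩
    · exact n1 (Finset.mem_filter.2 ⟨hkI, k', hk', hne, hE⟩)
    · obtain ⟨f1, f2, f3, f4⟩ := hF
      rw [List.length_drop] at f1
      have w1 : d.Wl (U.take (d.x k + t)) := (wl_drop h U (by omega) (by omega)).2 f3
      have hcase : d.x k + t = t0 ∨ d.x k + t = t1 := by
        by_cases hc : d.x k + t < d.z + d.N + d.span
        · left
          exact ht0 _ (by omega) (by omega) hc w1
        · right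
          rcases lt_trichotomy (d.x k + t) t1 with hl | hl | hl
          · exact absurd ⟨by omega, by omega, w1⟩ (a4 _ hl)
          · exact hl
          · exfalso
            refine f4 (t1 - d.x k) (by omega) (by omega) ?_
            rw [← wl_drop h U (by omega) (by omega), show d.x k + (t1 - d.x k) = t1 by omega]
            exact a3
      rcases hcase with hc | hc
      · refine n2 (Finset.mem_filter.2 ⟨hkI, k', hk', hne, ?_⟩)
        rwa [show t0 - d.p0 + d.x k' - d.x k = t + d.x k' - d.p0 by omega]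
      · refine n3 (Finset.mem_filter.2 ⟨hkI, k', hk', hne, ?_⟩)
        rwa [show t1 - d.p0 + d.x k' - d.x k = t + d.x k' - d.p0 by omega]
  refine ⟨X.take (d.x k), U.drop (d.x k), ?_, by omega, ⟨k, hkK, hPl, ?_⟩, ?_⟩
  · rw [hQe, ← List.append_assoc, hPX]
  · rw [List.take_take, min_eq_left (by omega)] at hlam
    exact hlam
  · obtain ⟨c, hc⟩ := Option.isSome_iff_exists.1 hrho
    have e5 : (X.drop (d.x k)).take (d.p0 - d.x k) = (X.take d.p0).drop (d.x k) := by
      rw [List.drop_take]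
    have hR : R2r d (U.drop (d.x k)) (T d (d.act c (d.φ ((X.drop (d.x k)).drop (d.p0 - d.x k))) +
        d.nu1 ((X.drop (d.x k)).drop (d.p0 - d.x k))) X2) := by
      refine ⟨k, hkK, hbk, huniq, X.drop (d.x k), X2, hQe, ?_, hX2, c, ?_, rfl⟩
      · rw [List.length_drop]; exact hFB
      · rw [e5]; exact hc
    rw [R2_iff.2 hR]
    rfl

end Crest.Agent.R320.Inst_985
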