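import Crest.Agent.R320.Two_621

/-!
# Row 320: instance of the two nested wall schemes (helper999)

Left-looking walls `wl`, natural chain with helper621's block end: a block ends at the next wall after
the first wall at a place `≥ z`.  The two gadgets are black boxes.
-/

set_option autoImplicit false

namespace Crest.Agent.R320.Inst_999

open Crest.Agent.R320.Star_621 Crest.Agent.R320.Two_621

/-- all data and hypotheses -/
structure Inst (α S V : Type*) [Monoid S] [AddCommGroup V] where
  φ : List α → S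
  φ_app : ∀ a b, φ (a ++ b) = φ a * φ b
  act : V → S → V
  act_mul : ∀ v s t, act (act v s) t = act v (s * t)
  act_add : ∀ v w s, act (v + w) s = act v s + act w s
  wl : List α → Prop
  n : ℕ
  Wg : ℕ
  len : ∀ u : List α, wl u → n ≤ u.length
  loc : ∀ (x u : List α), n ≤ u.length → (wl (x ++ u) ↔ wl u)
  gap : ∀ (u x : List α), wl u → wl (u ++ x) → x ≠ [] → Wg < x.length
  z : ℕ
  p : ℕ
  q : ℕ
  N1 : ℕ
  N0 : ℕ
  La : ℕ
  K : ℕ
  c : ℕ → ℕ
  hz : z = p + q + N1
  hq : n ≤ q
  hq0 : N0 ≤ q
  hp : 0 < p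
  hla : La + N1 + n ≤ z
  hlap : La ≤ p
  hlaq : La ≤ q
  hWg : 2 * (La + N1) < Wg
  hc : ∀ k, k < K → c k ≤ La ∧ 0 < c k
  -- gadget 1
  lam1 : List α → V → Prop
  rho1 : List α → Option V
  nu1 : List α → V
  BadT : ℕ → Prop
  s1 : ∀ (P Q : List α) v b, lam1 P v → rho1 Q = some b → b = act v (φ (P ++ Q)) + nu1 (P ++ Q)
  l1 : ∀ (P : List α) v, lam1 P v → P.length ≤ N1
  c1 : ∀ Y : List α, N0 ≤ Y.length → ¬ BadT Y.length → ∀ v, ∃ P Q r, P ++ Q = Y ∧ lam1 P v ∧
    rho1 Q = some r
  -- gadget 2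
  lam2 : ℕ → List α → V → Prop
  rho2 : ℕ → List α → Option V
  nu2 : List α → V
  R : ℕ
  s2 : ∀ k (P Q : List α) v b, k < K → P.length = c k → (P ++ Q).length = p → lam2 k P v →
    rho2 k Q = some b → b = act v (φ (P ++ Q)) + nu2 (P ++ Q)
  c2 : ∀ X : List α, X.length = p → ∀ v, ∃ s : Finset ℕ, R ≤ s.card ∧ ∀ k ∈ s, k < K ∧
    lam2 k (X.take (c k)) v ∧ ∃ r, rho2 k (X.drop (c k)) = some r
  -- spoiling
  C0 : ℕ
  spB : ∀ T, z ≤ T + La + p → ∃ s : Finset ℕ, s.card ≤ C0 ∧ ∀ k k', k < K → k' < K → k' ≠ k →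
    BadT (T + c k' - c k) → k ∈ s
  spE : ∀ w, ∃ s : Finset ℕ, s.card ≤ 1 ∧ ∀ k k', k < K → k' < K → k' ≠ k →
    w + c k' ≤ z + c k + N1 → z + c k ≤ w + c k' + N1 → k ∈ s
  hR : 3 * C0 + 1 < R

namespace Inst

variable {α S V : Type*} [Monoid S] [AddCommGroup V] (I : Inst α S V)

/-- `X` ends in a wall and exactly one place `t` of `[s, |X|)` is a wall -/
def Blk (s : ℕ) (X : List α) (t : ℕ) : Prop :=
  s ≤ t ∧ t < X.length ∧ I.wl (X.take t) ∧ I.wl X ∧
    ∀ y, s ≤ y → y < X.length → I.wl (X.take y) → y = t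

/-- first wall at a place `≥ s` -/
def FW (s : ℕ) (X : List α) (t : ℕ) : Prop :=
  s ≤ t ∧ t ≤ X.length ∧ I.wl (X.take t) ∧ ∀ y, s ≤ y → y < t → ¬ I.wl (X.take y)

theorem Blk.unique {s : ℕ} {X : List α} {t t' : ℕ} (h : I.Blk s X t) (h' : I.Blk s X t') :
    t = t' := h'.2.2.2.2 t h.1 h.2.1 h.2.2.1

theorem take_app (P Q : List α) (y : ℕ) : (P ++ Q).take (P.length + y) = P ++ Q.take y := by
  rw [List.take_append, List.take_of_length_le (by omega)]
  congr 2; omega

theorem wl_take (P Q : List α) {y : ℕ} (h : I.n ≤ y) (hy : y ≤ Q.length) :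
    I.wl ((P ++ Q).take (P.length + y)) ↔ I.wl (Q.take y) := by
  rw [take_app]
  exact I.loc P _ (by rw [List.length_take]; omega)

theorem Blk.append {s : ℕ} {P Q : List α} {t : ℕ} (h : I.Blk s Q t) (hn : I.n ≤ s)
    {s' : ℕ} (h1 : P.length + s ≤ s') (h2 : s' ≤ P.length + t) : I.Blk s' (P ++ Q) (P.length + t) := by
  obtain ⟨a, b, c, d, e⟩ := h
  refine ⟨h2, by rw [List.length_append]; omega, (I.wl_take P Q (by omega) (by omega)).2 c,
    (I.loc P Q (by omega)).2 d, ?_⟩
  intro y hy1 hy2 hy3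
  rw [List.length_append] at hy2
  obtain ⟨y', rfl⟩ : ∃ y', y = P.length + y' := ⟨y - P.length, by omega⟩
  rw [I.wl_take P Q (by omega) (by omega)] at hy3
  rw [e y' (by omega) (by omega) hy3]

/-- blocks -/
def Z : Language α := {X | ∃ t, I.Blk I.z X t}

theorem pref {X Y x y : List α} (hX : X ∈ I.Z) (hY : Y ∈ I.Z) (h : X ++ x = Y ++ y) : X = Y := by
  have key : ∀ {X Y x y : List α}, X ∈ I.Z → Y ∈ I.Z → X ++ x = Y ++ y → X.length ≤ Y.length →
      X = Y := by
    intro X Y x y hX hY h hl
    obtain ⟨t, ht⟩ := hX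
    obtain ⟨t', ht'⟩ := hY
    obtain ⟨r, rfl⟩ : ∃ r, Y = X ++ r := by
      have := List.prefix_of_prefix_length_le (l₁ := X) (l₂ := Y) (l₃ := X ++ x)
        ⟨x, rfl⟩ ⟨y, h.symm⟩ hl
      obtain ⟨r, hr⟩ := this
      exact ⟨r, hr.symm⟩
    rcases List.eq_nil_or_concat r with rfl | hr
    · simp
    · exfalso
      have hr0 : 0 < r.length := by
        obtain ⟨a, b, rfl⟩ := hr
        simp
      obtain ⟨a1, a2, a3, a4, a5⟩ := ht
      obtain ⟨b1, b2, b3, b4, b5⟩ := ht'
      rw [List.length_append] at b5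
      have e1 := b5 t a1 (by omega) (by rw [List.take_append_of_le_length (by omega)]; exact a3)
      have e2 := b5 X.length (by omega) (by omega) (by simpa using a4)
      omega
  rcases Nat.le_total X.length Y.length with hl | hl
  · exact key hX hY h hl
  · exact (key hY hX h.symm hl).symm

theorem code : Code I.Z := by
  refine ⟨?_, fun X Y x y hX hY h => I.pref hX hY h⟩
  rintro ⟨t, ht⟩
  have := ht.2.1
  simp at this

open Classical in
/-- the accepted wall -/
noncomputable def tt (X : List α) : ℕ := if h : ∃ t, I.Blk I.z X t then h.choose else 0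

theorem tt_eq {X : List α} {t : ℕ} (h : I.Blk I.z X t) : I.tt X = t := by
  have he : ∃ t, I.Blk I.z X t := ⟨t, h⟩
  rw [tt, dif_pos he]
  exact Blk.unique I he.choose_spec h

/-- the noise -/
noncomputable def d (X : List α) : V :=
  I.act (I.act (I.nu2 (X.take I.p)) (I.φ ((X.take (I.tt X)).drop I.p)) +
    I.nu1 ((X.take (I.tt X)).drop I.p)) (I.φ (X.drop (I.tt X)))

/-- the zone map -/
noncomputable def T (X : List α) (v : V) : V := I.act v (I.φ X) + I.d X

theorem T_eq {X : List α} {t : ℕ} (h : I.tt X = t) (hp : I.p ≤ t) (ht : t ≤ X.length) (v : V) :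
    I.T X v = I.act (I.act (I.act v (I.φ (X.take I.p)) + I.nu2 (X.take I.p))
      (I.φ ((X.take t).drop I.p)) + I.nu1 ((X.take t).drop I.p)) (I.φ (X.drop t)) := by
  have e : X = X.take I.p ++ (X.take t).drop I.p ++ X.drop t := by
    have h1 : X.take I.p = (X.take t).take I.p := by rw [List.take_take, Nat.min_eq_left hp]
    rw [h1, List.take_append_drop, List.take_append_drop]
  have e2 : I.φ X = I.φ (X.take I.p) * I.φ ((X.take t).drop I.p) * I.φ (X.drop t) := by
    conv_lhs => rw [e]
    rw [I.φ_app, I.φ_app]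
  rw [T, d, h, e2]
  simp only [I.act_add, I.act_mul, mul_assoc, add_assoc]

/-- left language of scheme 1 -/
def LA (v : V) : Language α :=
  {P | I.p ≤ P.length ∧ I.lam1 (P.drop I.p) (I.act v (I.φ (P.take I.p)) + I.nu2 (P.take I.p))}

/-- right language of scheme 1 -/
def RA (b : V) : Language α :=
  {Q | ∃ t r, I.Blk I.q Q t ∧ I.q + I.N1 ≤ t ∧ I.rho1 (Q.take t) = some r ∧
    b = I.act r (I.φ (Q.drop t))}

/-- a block is bad -/
def BadX (X : List α) (t : ℕ) : Prop :=
  (∃ y, I.z ≤ y + I.N1 ∧ y ≤ I.z + I.N1 ∧ y ≤ X.length ∧ I.wl (X.take y)) ∨ I.BadT (t - I.p)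

def Zc : Language α := {X | ∃ t, I.Blk I.z X t ∧ I.BadX X t}

theorem soundA : Sound I.Z I.T I.LA I.RA := by
  have hz := I.hz
  have hq := I.hq
  have hp := I.hp
  refine ⟨fun v h => ?_, ?_⟩
  · have := h.1
    simp at this; omega
  · intro v b P Q X x y hP hQ hX h
    obtain ⟨hP1, hP2⟩ := hP
    obtain ⟨t, r, hQ1, hQ2, hQ3, rfl⟩ := hQ
    have hl := I.l1 _ _ hP2
    rw [List.length_drop] at hl
    have hB : I.Blk I.z (P ++ Q) (P.length + t) := Blk.append I hQ1 hq (by omega) (by omega)
    have e : P ++ Q = X := I.pref ⟨_, hB⟩ hX h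
    refine ⟨e, ?_⟩
    subst e
    have e1 : ((P ++ Q).take (P.length + t)).drop I.p = P.drop I.p ++ Q.take t := by
      rw [take_app, List.drop_append_of_le_length hP1]
    have e2 : (P ++ Q).take I.p = P.take I.p := List.take_append_of_le_length hP1
    have e3 : (P ++ Q).drop (P.length + t) = Q.drop t := by
      rw [List.drop_append]; simp
    rw [I.T_eq (I.tt_eq hB) (by omega) (by have := hB.2.1; omega), e1, e2, e3]
    have := I.s1 _ _ _ _ hP2 hQ3
    rw [← this]

theorem cutA {X : List α} (hX : X ∈ I.Z) (hc : X ∉ I.Zc) (v : V) : Cut I.LA I.RA v X := by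
  obtain ⟨t, ht⟩ := hX
  have hnb : ¬ I.BadX X t := fun h => hc ⟨t, ht, h⟩
  have hE : ∀ y, I.z ≤ y + I.N1 → y ≤ I.z + I.N1 → y ≤ X.length → ¬ I.wl (X.take y) :=
    fun y a b c d => hnb (Or.inl ⟨y, a, b, c, d⟩)
  have hT : ¬ I.BadT (t - I.p) := fun h => hnb (Or.inr h)
  obtain ⟨h1, h2, h3, h4, h5⟩ := ht
  have hz := I.hz
  have hq := I.hq
  have hq0 := I.hq0
  have htz : I.z + I.N1 < t := by
    by_contra hlt
    exact hE t (by omega) (by omega) (by omega) h3
  have hYl : ((X.take t).drop I.p).length = t - I.p := by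
    rw [List.length_drop, List.length_take]; omega
  obtain ⟨P', Q', r, e, hP', hQ'⟩ := I.c1 ((X.take t).drop I.p) (by omega) (by rw [hYl]; exact hT)
    (I.act v (I.φ (X.take I.p)) + I.nu2 (X.take I.p))
  have hl := I.l1 _ _ hP'
  have hlen : P'.length + Q'.length = t - I.p := by rw [← List.length_append, e, hYl]
  have hX1 : (X.take I.p).length = I.p := by rw [List.length_take]; omega
  have eX : X = (X.take I.p ++ P') ++ (Q' ++ X.drop t) := by
    have h1 : X.take I.p = (X.take t).take I.p := by rw [List.take_take, Nat.min_eq_left (by omega)]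
    rw [List.append_assoc, ← List.append_assoc P', e, h1, ← List.append_assoc,
      List.take_append_drop, List.take_append_drop]
  have hPl : (X.take I.p ++ P').length = I.p + P'.length := by rw [List.length_append, hX1]
  have hdl : (X.drop t).length = X.length - t := List.length_drop
  have hwl : ∀ y, I.n ≤ y → y ≤ (Q' ++ X.drop t).length →
      (I.wl ((Q' ++ X.drop t).take y) ↔ I.wl (X.take (I.p + P'.length + y))) := by
    intro y hy1 hy2
    rw [← I.wl_take (X.take I.p ++ P') (Q' ++ X.drop t) hy1 hy2, hPl, ← eX]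
  have hQl : (Q' ++ X.drop t).length = X.length - I.p - P'.length := by
    rw [List.length_append, hdl]; omega
  refine ⟨X.take I.p ++ P', Q' ++ X.drop t, I.act r (I.φ (X.drop t)), eX, ⟨by omega, ?_⟩,
    Q'.length, r, ⟨by omega, by omega, ?_, ?_, ?_⟩, by omega, ?_, ?_⟩
  · rw [List.drop_append_of_le_length (by omega), List.drop_of_length_le (by omega),
      List.nil_append, List.take_append_of_le_length (by omega), List.take_take, Nat.min_self]
    exact hP'
  · rw [hwl _ (by omega) (by omega)]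
    have : I.p + P'.length + Q'.length = t := by omega
    rw [this]; exact h3
  · rw [eX] at h4
    exact (I.loc _ _ (by omega)).1 h4
  · intro y hy1 hy2 hy3
    rw [hwl _ (by omega) (by omega)] at hy3
    by_cases hyz : I.p + P'.length + y < I.z
    · exact absurd hy3 (hE _ (by omega) (by omega) (by omega))
    · have := h5 _ (by omega) (by omega) hy3
      omega
  · rw [List.take_left']
    · exact hQ'
    · rfl
  · rw [List.drop_left']
    rfl

/-- candidate `k` is bad and visible for the right word `Q` -/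
def CB (Q : List α) (k : ℕ) : Prop :=
  ∃ t, I.FW (I.z - I.c k) Q t ∧
    ((∃ y, I.z - I.c k ≤ y + I.N1 ∧ y ≤ I.z - I.c k + I.N1 ∧ y ≤ Q.length ∧ I.wl (Q.take y)) ∨
      I.BadT (t + I.c k - I.p))

def LB (v : V) : Language α := {P | ∃ k, k < I.K ∧ P.length = I.c k ∧ I.lam2 k P v}

def RB (b : V) : Language α :=
  {Q | ∃ k, k < I.K ∧ (∀ k', k' < I.K → I.CB Q k' → k' = k) ∧ ∃ t r, I.Blk (I.z - I.c k) Q t ∧
    I.rho2 k (Q.take (I.p - I.c k)) = some r ∧
    b = I.act (I.act r (I.φ ((Q.take t).drop (I.p - I.c k))) +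
      I.nu1 ((Q.take t).drop (I.p - I.c k))) (I.φ (Q.drop t))}

theorem soundB : Sound I.Zc I.T I.LB I.RB := by
  have hz := I.hz
  have hla := I.hla
  have hlap := I.hlap
  have hWg := I.hWg
  refine ⟨?_, ?_⟩
  · rintro v ⟨k, hk, h, -⟩
    have := (I.hc k hk).2
    simp at h; omega
  · intro v b P Q X x y hP hQ hX h
    obtain ⟨k0, hk0, hP1, hP2⟩ := hP
    obtain ⟨k, hk, huni, t, r, hBlk, hr, rfl⟩ := hQ
    obtain ⟨t0, hX0, hbad⟩ := hX
    have hc0 := I.hc k0 hk0
    have hck := I.hc k hk
    -- the common text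
    have hXL : ∀ m, m ≤ X.length → X.take m = (P ++ Q ++ x).take m := by
      intro m hm; rw [h, List.take_append_of_le_length hm]
    have hQL : ∀ m, I.n ≤ m → m ≤ Q.length →
        (I.wl ((P ++ Q ++ x).take (I.c k0 + m)) ↔ I.wl (Q.take m)) := by
      intro m h1 h2
      rw [List.append_assoc, ← hP1, I.wl_take P (Q ++ x) h1 (by rw [List.length_append]; omega),
        List.take_append_of_le_length h2]
    obtain ⟨b1, b2, b3, b4, b5⟩ := hBlk
    obtain ⟨a1, a2, a3, a4, a5⟩ := hX0
    -- gap between the two walls of `Q`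
    have hgap : I.Wg < Q.length - t := by
      have := I.gap (Q.take t) (Q.drop t) b3 (by rw [List.take_append_drop]; exact b4)
        (by intro hh; have := congrArg List.length hh; rw [List.length_drop] at this; simp at this; omega)
      rwa [List.length_drop] at this
    have ht0 : t0 ≤ I.c k0 + Q.length := by
      by_contra hlt
      have hw : I.wl (X.take (I.c k0 + Q.length)) := by
        rw [hXL _ (by omega), hQL Q.length (by omega) le_rfl, List.take_length]; exact b4
      have := a5 _ (by omega) (by omega) hw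
      omega
    have hCB : I.CB Q k0 := by
      refine ⟨t0 - I.c k0, ⟨by omega, by omega, ?_, ?_⟩, ?_⟩
      · rw [← hQL _ (by omega) (by omega)]
        have : I.c k0 + (t0 - I.c k0) = t0 := by omega
        rw [this, ← hXL _ (by omega)]; exact a3
      · intro y' h1 h2 h3
        rw [← hQL _ (by omega) (by omega), ← hXL _ (by omega)] at h3
        have := a5 _ (by omega) (by omega) h3
        omega
      · rcases hbad with ⟨y1, g1, g2, g3, g4⟩ | hb
        · left
          by_cases hy : y1 ≤ t0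
          · refine ⟨y1 - I.c k0, by omega, by omega, by omega, ?_⟩
            rw [← hQL _ (by omega) (by omega)]
            have : I.c k0 + (y1 - I.c k0) = y1 := by omega
            rw [this, ← hXL _ (by omega)]; exact g4
          · refine ⟨t0 - I.c k0, by omega, by omega, by omega, ?_⟩
            rw [← hQL _ (by omega) (by omega)]
            have : I.c k0 + (t0 - I.c k0) = t0 := by omega
            rw [this, ← hXL _ (by omega)]; exact a3
        · right
          have : t0 - I.c k0 + I.c k0 - I.p = t0 - I.p := by omega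
          rw [this]; exact hb
    have hkk := huni k0 hk0 hCB
    subst hkk
    have hB : I.Blk I.z (P ++ Q) (P.length + t) :=
      Blk.append I ⟨b1, b2, b3, b4, b5⟩ (by omega) (by omega) (by omega)
    have e : P ++ Q = X := I.pref ⟨_, hB⟩ ⟨t0, a1, a2, a3, a4, a5⟩ h
    refine ⟨e, ?_⟩
    subst e
    have hQp : I.p - I.c k0 ≤ t := by omega
    have e1 : ((P ++ Q).take (P.length + t)).drop I.p = (Q.take t).drop (I.p - I.c k0) := by
      rw [take_app, List.drop_append, List.drop_of_length_le (by omega), List.nil_append, hP1]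
    have e2 : (P ++ Q).take I.p = P ++ Q.take (I.p - I.c k0) := by
      have : I.p = P.length + (I.p - I.c k0) := by omega
      conv_lhs => rw [this]
      rw [take_app]
    have e3 : (P ++ Q).drop (P.length + t) = Q.drop t := by
      rw [List.drop_append]; simp
    rw [I.T_eq (I.tt_eq hB) (by omega) (by have := hB.2.1; omega), e1, e2, e3]
    have hlen : (P ++ Q.take (I.p - I.c k0)).length = I.p := by
      rw [List.length_append, List.length_take]; omega
    have := I.s2 k0 P (Q.take (I.p - I.c k0)) v r hk0 hP1 hlen hP2 hr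
    rw [← this]

/-- walls of a word of `Z` are more than `Wg` apart -/
theorem far {X : List α} {s t : ℕ} (hst : s < t) (ht : t ≤ X.length) (hs : I.wl (X.take s))
    (h : I.wl (X.take t)) : s + I.Wg < t := by
  have e : X.take t = X.take s ++ (X.take t).drop s := by
    have : X.take s = (X.take t).take s := by rw [List.take_take, Nat.min_eq_left (by omega)]
    rw [this, List.take_append_drop]
  have hl : ((X.take t).drop s).length = t - s := by
    rw [List.length_drop, List.length_take]; omega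
  have := I.gap (X.take s) ((X.take t).drop s) hs (by rw [← e]; exact h)
    (by intro hh; have := congrArg List.length hh; rw [hl] at this; simp at this; omega)
  omega

theorem cutB {X : List α} (hX : X ∈ I.Zc) (v : V) : Cut I.LB I.RB v X := by
  classical
  obtain ⟨t0, ht0, -⟩ := hX
  have hz := I.hz
  have hla := I.hla
  have hlap := I.hlap
  have hlaq := I.hlaq
  have hWg := I.hWg
  obtain ⟨a1, a2, a3, a4, a5⟩ := ht0
  have hg0 : t0 + I.Wg < X.length := I.far a2 le_rfl a3 (by rw [List.take_length]; exact a4)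
  -- walls below `z`
  obtain ⟨s, hs, hcard⟩ := I.c2 (X.take I.p) (by rw [List.length_take]; omega) v
  -- an earlier wall in `[z - La, z)`, if any
  obtain ⟨w0, hw0⟩ : ∃ w0, (I.z ≤ w0 + I.La ∧ w0 ≤ X.length) ∧
      ∀ y, I.z ≤ y + I.La → y < I.z → I.wl (X.take y) → y = w0 := by
    by_cases h : ∃ y, I.z ≤ y + I.La ∧ y < I.z ∧ I.wl (X.take y)
    · obtain ⟨y, h1, h2, h3⟩ := h
      refine ⟨y, ⟨h1, by omega⟩, fun y' h1' h2' h3' => ?_⟩
      rcases Nat.lt_trichotomy y' y with h | h | h
      · have := I.far h (by omega) h3' h3; omega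
      · exact h
      · have := I.far h (by omega) h3 h3'; omega
    · exact ⟨t0, ⟨by omega, by omega⟩, fun y h1 h2 h3 => absurd ⟨y, h1, h2, h3⟩ h⟩
  -- a wall near `z`
  obtain ⟨w1, hw1⟩ : ∃ w1, ∀ y, I.z ≤ y + (I.La + I.N1) → y ≤ I.z + (I.La + I.N1) → y ≤ X.length →
      I.wl (X.take y) → y = w1 := by
    by_cases h : ∃ y, I.z ≤ y + (I.La + I.N1) ∧ y ≤ I.z + (I.La + I.N1) ∧ y ≤ X.length ∧
        I.wl (X.take y)
    · obtain ⟨y, h1, h2, h4, h3⟩ := h
      refine ⟨y, fun y' h1' h2' h4' h3' => ?_⟩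
      rcases Nat.lt_trichotomy y' y with h | h | h
      · have := I.far h (by omega) h3' h3; omega
      · exact h
      · have := I.far h (by omega) h3 h3'; omega
    · exact ⟨0, fun y h1 h2 h4 h3 => absurd ⟨y, h1, h2, h4, h3⟩ h⟩
  obtain ⟨f1, f1c, hf1⟩ := I.spB (w0 - I.p) (by omega)
  obtain ⟨f2, f2c, hf2⟩ := I.spB (t0 - I.p) (by omega)
  obtain ⟨f3, f3c, hf3⟩ := I.spB (X.length - I.p) (by omega)
  obtain ⟨f4, f4c, hf4⟩ := I.spE w1
  obtain ⟨k, hks, hkf⟩ : ∃ k ∈ s, k ∉ f1 ∪ f2 ∪ f3 ∪ f4 := by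
    by_contra hh
    push Not at hh
    have hsub : s ⊆ f1 ∪ f2 ∪ f3 ∪ f4 := fun k hk => hh k hk
    have h1 := Finset.card_le_card hsub
    have h2 := Finset.card_union_le (f1 ∪ f2 ∪ f3) f4
    have h3 := Finset.card_union_le (f1 ∪ f2) f3
    have h4 := Finset.card_union_le f1 f2
    have := I.hR
    omega
  simp only [Finset.mem_union, not_or] at hkf
  obtain ⟨⟨⟨hk1, hk2⟩, hk3⟩, hk4⟩ := hkf
  obtain ⟨hkK, hkl, r, hkr⟩ := hcard k hks
  have hck := I.hc k hkK
  have hPl : (X.take (I.c k)).length = I.c k := by rw [List.length_take]; omega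
  have hQl : (X.drop (I.c k)).length = X.length - I.c k := List.length_drop
  have hwl : ∀ y, I.n ≤ y → y + I.c k ≤ X.length →
      (I.wl ((X.drop (I.c k)).take y) ↔ I.wl (X.take (I.c k + y))) := by
    intro y h1 h2
    have := I.wl_take (X.take (I.c k)) (X.drop (I.c k)) h1 (by omega)
    rw [hPl, List.take_append_drop] at this
    exact this.symm
  refine ⟨X.take (I.c k), X.drop (I.c k), _, (List.take_append_drop _ _).symm,
    ⟨k, hkK, hPl, ?_⟩, k, hkK, ?_, t0 - I.c k, r, ⟨by omega, by omega, ?_, ?_, ?_⟩, ?_, rfl⟩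
  · have : (X.take I.p).take (I.c k) = X.take (I.c k) := by
      rw [List.take_take, Nat.min_eq_left (by omega)]
    rw [← this]; exact hkl
  · -- uniqueness of the bad candidate
    intro k' hk' hCB
    by_contra hne
    have hck' := I.hc k' hk'
    obtain ⟨t, ⟨b1, b2, b3, b4⟩, hbad⟩ := hCB
    rw [hQl] at b2
    rcases hbad with ⟨y, g1, g2, g3, g4⟩ | hb
    · rw [hQl] at g3
      rw [hwl y (by omega) (by omega)] at g4
      have := hw1 (I.c k + y) (by omega) (by omega) (by omega) g4
      exact hk4 (hf4 k k' hkK hk' hne (by omega) (by omega))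
    · rw [hwl t (by omega) (by omega)] at b3
      -- the place `c k + t` is one of the three walls
      rcases Nat.lt_or_ge (I.c k + t) I.z with h1 | h1
      · have e := hw0.2 (I.c k + t) (by omega) h1 b3
        refine hk1 (hf1 k k' hkK hk' hne ?_)
        have : w0 - I.p + I.c k' - I.c k = t + I.c k' - I.p := by omega
        rw [this]; exact hb
      · rcases Nat.lt_or_ge (I.c k + t) X.length with h2 | h2
        · have e := a5 _ h1 h2 b3
          refine hk2 (hf2 k k' hkK hk' hne ?_)
          have : t0 - I.p + I.c k' - I.c k = t + I.c k' - I.p := by omega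
          rw [this]; exact hb
        · refine hk3 (hf3 k k' hkK hk' hne ?_)
          have : X.length - I.p + I.c k' - I.c k = t + I.c k' - I.p := by omega
          rw [this]; exact hb
  · rw [hwl _ (by omega) (by omega)]
    have : I.c k + (t0 - I.c k) = t0 := by omega
    rw [this]; exact a3
  · have : X = X.take (I.c k) ++ X.drop (I.c k) := (List.take_append_drop _ _).symm
    rw [this] at a4
    exact (I.loc _ _ (by omega)).1 a4
  · intro y h1 h2 h3
    rw [hwl _ (by omega) (by omega)] at h3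
    have := a5 (I.c k + y) (by omega) (by omega) h3
    omega
  · have : (X.drop (I.c k)).take (I.p - I.c k) = (X.take I.p).drop (I.c k) := by
      rw [List.drop_take]
    rw [this]; exact hkr

end Inst

end Crest.Agent.R320.Inst_999
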