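import Crest.Agent.R320.Hk2_851

/-!
# Row 320, finite-state functions of words; transfer between alphabets (helper431)
-/

set_option autoImplicit false

namespace Crest.Agent.R320.Int_431

open Crest.RegLang Crest.Agent.R320.Hk_851

universe u v

section FS

variable {α : Type} {β γ : Type v}

/-- finite-state functions of words -/
def FS {α : Type} {β : Type v} (f : List α → β) : Prop :=
  ∃ (σ : Type) (_ : Finite σ) (st : List α → σ),
    (∀ u v a, st u = st v → st (u ++ [a]) = st (v ++ [a])) ∧ ∀ u v, st u = st v → f u = f v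

theorem st_append {σ : Type} {st : List α → σ}
    (h : ∀ u v a, st u = st v → st (u ++ [a]) = st (v ++ [a])) (r : List α) :
    ∀ u v, st u = st v → st (u ++ r) = st (v ++ r) := by
  induction r with
  | nil => intro u v e; simpa using e
  | cons a r ih =>
    intro u v e
    have := ih (u ++ [a]) (v ++ [a]) (h u v a e)
    simpa using this

theorem FS.comp {f : List α → β} (h : FS f) (g : β → γ) : FS (fun w => g (f w)) := by
  obtain ⟨σ, i, st, h1, h2⟩ := h
  exact ⟨σ, i, st, h1, fun u v e => by show g (f u) = g (f v); rw [h2 u v e]⟩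

theorem FS.congr {f g : List α → β} (h : FS f) (e : ∀ w, g w = f w) : FS g := by
  have : g = f := funext e
  rw [this]; exact h

theorem FS.pair {f : List α → β} {g : List α → γ} (h : FS f) (h' : FS g) :
    FS (fun w => (f w, g w)) := by
  obtain ⟨σ, i, st, h1, h2⟩ := h
  obtain ⟨σ', i', st', h1', h2'⟩ := h'
  refine ⟨σ × σ', inferInstance, fun w => (st w, st' w), ?_, ?_⟩
  · intro u v a e
    simp only [Prod.mk.injEq] at e ⊢
    exact ⟨h1 u v a e.1, h1' u v a e.2⟩
  · intro u v e
    simp only [Prod.mk.injEq] at e ⊢
    exact ⟨h2 u v e.1, h2' u v e.2⟩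

theorem FS.comp2 {δ : Type v} {f : List α → β} {g : List α → γ} (h : FS f) (h' : FS g)
    (F : β → γ → δ) : FS (fun w => F (f w) (g w)) :=
  (h.pair h').comp (fun p => F p.1 p.2)

theorem FS.const (b : β) : FS (fun _ : List α => b) :=
  ⟨Unit, inferInstance, fun _ => (), fun _ _ _ _ => rfl, fun _ _ _ => rfl⟩

/-- left quotient -/
theorem FS.lq {f : List α → β} (h : FS f) (P : List α) : FS (fun w => f (P ++ w)) := by
  obtain ⟨σ, i, st, h1, h2⟩ := h
  refine ⟨σ, i, fun w => st (P ++ w), ?_, fun u v e => h2 _ _ e⟩
  intro u v a e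
  have := h1 _ _ a e
  simpa [List.append_assoc] using this

theorem FS.rex {f : List α → Prop} (h : FS f) : FS (fun w => ∃ r, f (w ++ r)) := by
  obtain ⟨σ, i, st, h1, h2⟩ := h
  refine ⟨σ, i, st, h1, fun u v e => ?_⟩
  apply propext
  constructor
  · rintro ⟨r, hr⟩
    exact ⟨r, by rw [← h2 _ _ (st_append h1 r u v e)]; exact hr⟩
  · rintro ⟨r, hr⟩
    exact ⟨r, by rw [h2 _ _ (st_append h1 r u v e)]; exact hr⟩

theorem FS.and {f g : List α → Prop} (h : FS f) (h' : FS g) : FS (fun w => f w ∧ g w) :=
  h.comp2 h' (fun a b => a ∧ b)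

theorem FS.or {f g : List α → Prop} (h : FS f) (h' : FS g) : FS (fun w => f w ∨ g w) :=
  h.comp2 h' (fun a b => a ∨ b)

theorem FS.imp {f g : List α → Prop} (h : FS f) (h' : FS g) : FS (fun w => f w → g w) :=
  h.comp2 h' (fun a b => a → b)

theorem FS.not {f : List α → Prop} (h : FS f) : FS (fun w => ¬ f w) :=
  h.comp (fun a => ¬ a)

theorem FS.fun {ι : Type} [Finite ι] {f : ι → List α → β} (h : ∀ i, FS (f i)) :
    FS (fun w => fun i => f i w) := by
  choose σ hσ st h1 h2 using h
  refine ⟨∀ i, σ i, inferInstance, fun w i => st i w, ?_, ?_⟩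
  · intro u v a e
    funext i
    exact h1 i u v a (congrFun e i)
  · intro u v e
    funext i
    exact h2 i u v (congrFun e i)

theorem FS.all {ι : Type} [Finite ι] {f : ι → List α → Prop} (h : ∀ i, FS (f i)) :
    FS (fun w => ∀ i, f i w) := by
  have := (FS.fun h).comp (fun F : ι → Prop => ∀ i, F i)
  exact this

theorem FS.take [Finite α] (B : ℕ) : FS (fun w : List α => w.take B) := by
  refine ⟨{l : List α // l.length ≤ B}, (List.finite_length_le α B).to_subtype,
    fun w => ⟨w.take B, by rw [List.length_take]; omega⟩, ?_, ?_⟩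
  · intro u v a e
    simp only [Subtype.mk.injEq] at e ⊢
    by_cases h : u.length < B
    · have hu : u.take B = u := List.take_of_length_le (by omega)
      have hl : (v.take B).length = u.length := by rw [← e, hu]
      rw [List.length_take] at hl
      have hv : v.take B = v := List.take_of_length_le (by omega)
      rw [hu, hv] at e
      rw [e]
    · have hl : (v.take B).length = B := by rw [← e, List.length_take]; omega
      rw [List.length_take] at hl
      rw [List.take_append_of_le_length (by omega), List.take_append_of_le_length (by omega), e]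
  · intro u v e
    simpa using e

theorem FS.prod {S : Type} [Monoid S] [Finite S] (φ : α → S) :
    FS (fun w : List α => (w.map φ).prod) := by
  refine ⟨S, inferInstance, fun w => (w.map φ).prod, ?_, fun _ _ e => e⟩
  intro u v a e
  simp only [List.map_append, List.prod_append, e]

theorem FS.mod (P : ℕ) (hP : 0 < P) : FS (fun w : List α => w.length % P) := by
  refine ⟨Fin P, inferInstance, fun w => ⟨w.length % P, Nat.mod_lt _ hP⟩, ?_, ?_⟩
  · intro u v a e
    simp only [Fin.mk.injEq] at e ⊢
    rw [List.length_append, List.length_append, Nat.add_mod, e, ← Nat.add_mod]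
  · intro u v e
    simpa using e

/-- the last `n` letters -/
theorem FS.last [Finite α] (n : ℕ) : FS (fun w : List α => w.drop (w.length - n)) := by
  refine ⟨{l : List α // l.length ≤ n}, (List.finite_length_le α n).to_subtype,
    fun w => ⟨w.drop (w.length - n), by rw [List.length_drop]; omega⟩, ?_, ?_⟩
  · have key : ∀ (u : List α) (a : α), (u ++ [a]).drop ((u ++ [a]).length - n) =
        ((u.drop (u.length - n)) ++ [a]).drop (((u.drop (u.length - n)) ++ [a]).length - n) := by
      intro u a
      simp only [List.length_append, List.length_drop, List.length_singleton]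
      by_cases h : u.length < n
      · have e : u.length - n = 0 := by omega
        rw [e, List.drop_zero]
        congr 1
      · rcases Nat.eq_zero_or_pos n with rfl | hn
        · rw [Nat.sub_zero, Nat.sub_zero]
          rw [List.drop_eq_nil_of_le (by simp), List.drop_eq_nil_of_le (by simp)]
        · rw [List.drop_append_of_le_length (by omega), List.drop_append_of_le_length
            (by rw [List.length_drop]; omega), List.drop_drop]
          congr 2
          omega
    intro u v a e
    simp only [Subtype.mk.injEq] at e ⊢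
    rw [key u a, key v a, e]
  · intro u v e
    simpa using e

theorem min_succ {a b z : ℕ} (h : min a z = min b z) : min (a + 1) z = min (b + 1) z := by omega

theorem le_iff_of_min {a b z : ℕ} (h : min a z = min b z) : z ≤ a ↔ z ≤ b := by omega

/-- prefixes -/
theorem FS.pre {f : List α → Prop} (h : FS f) (z : ℕ) :
    FS (fun w => ∃ t, z ≤ t ∧ t < w.length ∧ f (w.take t)) := by
  classical
  obtain ⟨σ, i, st, h1, h2⟩ := h
  refine ⟨σ × Fin (z + 1) × Prop, inferInstance, fun w =>
    (st w, ⟨min w.length z, by omega⟩, ∃ t, z ≤ t ∧ t < w.length ∧ f (w.take t)), ?_, ?_⟩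
  · intro u v a e
    simp only [Prod.mk.injEq, Fin.mk.injEq, eq_iff_iff] at e
    obtain ⟨e1, e2, e3⟩ := e
    have key : ∀ w : List α, (∃ t, z ≤ t ∧ t < (w ++ [a]).length ∧ f ((w ++ [a]).take t)) ↔
        ((∃ t, z ≤ t ∧ t < w.length ∧ f (w.take t)) ∨ (z ≤ w.length ∧ f w)) := by
      intro w
      simp only [List.length_append, List.length_singleton]
      constructor
      · rintro ⟨t, ht1, ht2, ht3⟩
        rcases Nat.lt_or_ge t w.length with h | h
        · left
          refine ⟨t, ht1, h, ?_⟩
          rwa [List.take_append_of_le_length (by omega)] at ht3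
        · right
          have : t = w.length := by omega
          subst this
          rw [List.take_left] at ht3
          exact ⟨ht1, ht3⟩
      · rintro (⟨t, ht1, ht2, ht3⟩ | ⟨h, h'⟩)
        · exact ⟨t, ht1, by omega, by rwa [List.take_append_of_le_length (by omega)]⟩
        · exact ⟨w.length, h, by omega, by rwa [List.take_left]⟩
    simp only [Prod.mk.injEq, Fin.mk.injEq, eq_iff_iff]
    refine ⟨h1 u v a e1, ?_, ?_⟩
    · simp only [List.length_append, List.length_singleton]; exact min_succ e2
    · rw [key u, key v, e3, h2 u v e1, le_iff_of_min e2]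
  · intro u v e
    simp only [Prod.mk.injEq, eq_iff_iff] at e
    exact propext e.2.2

/-- concatenation -/
theorem FS.cat {f g : List α → Prop} (h : FS f) (h' : FS g) :
    FS (fun w => ∃ x y, w = x ++ y ∧ f x ∧ g y) := by
  obtain ⟨σ, i, st, h1, h2⟩ := h
  obtain ⟨σ', i', st', h1', h2'⟩ := h'
  refine ⟨σ × Set σ', inferInstance, fun w => (st w, {s | ∃ x y, w = x ++ y ∧ f x ∧ st' y = s}),
    ?_, ?_⟩
  · intro u v a e
    simp only [Prod.mk.injEq] at e ⊢
    obtain ⟨e1, e2⟩ := e
    have e3 := h1 u v a e1
    refine ⟨e3, ?_⟩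
    have key : ∀ u v : List α, {s | ∃ x y, u = x ++ y ∧ f x ∧ st' y = s} =
        {s | ∃ x y, v = x ++ y ∧ f x ∧ st' y = s} → st (u ++ [a]) = st (v ++ [a]) →
        {s | ∃ x y, u ++ [a] = x ++ y ∧ f x ∧ st' y = s} ⊆
        {s | ∃ x y, v ++ [a] = x ++ y ∧ f x ∧ st' y = s} := by
      rintro u v e2 e3 s ⟨x, y, hxy, hx, hy⟩
      rcases List.eq_nil_or_concat y with rfl | ⟨y', b, rfl⟩
      · rw [List.append_nil] at hxy
        subst hxy
        exact ⟨v ++ [a], [], by simp, by rw [← h2 _ _ e3]; exact hx, hy⟩
      · have h4 : u ++ [a] = (x ++ y') ++ [b] := by simpa [List.append_assoc] using hxy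
        obtain ⟨h5, h6⟩ := List.append_inj' h4 rfl
        have hb : a = b := by simpa using h6
        subst hb
        have h7 : st' y' ∈ {s | ∃ x y, v = x ++ y ∧ f x ∧ st' y = s} := by
          rw [← e2]; exact ⟨x, y', h5, hx, rfl⟩
        obtain ⟨x2, y2, hv, hx2, hy2⟩ := h7
        refine ⟨x2, y2 ++ [a], by rw [hv, List.append_assoc], hx2, ?_⟩
        rw [h1' _ _ a hy2, ← hy]
        simp
    exact Set.Subset.antisymm (key u v e2 e3) (key v u e2.symm e3.symm)
  · intro u v e
    simp only [Prod.mk.injEq] at e
    obtain ⟨_, e2⟩ := e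
    have key : ∀ u v : List α, {s | ∃ x y, u = x ++ y ∧ f x ∧ st' y = s} =
        {s | ∃ x y, v = x ++ y ∧ f x ∧ st' y = s} → (∃ x y, u = x ++ y ∧ f x ∧ g y) →
        (∃ x y, v = x ++ y ∧ f x ∧ g y) := by
      rintro u v e2 ⟨x, y, hu, hx, hy⟩
      have h7 : st' y ∈ {s | ∃ x y, v = x ++ y ∧ f x ∧ st' y = s} := by
        rw [← e2]; exact ⟨x, y, hu, hx, rfl⟩
      obtain ⟨x2, y2, hv, hx2, hy2⟩ := h7
      exact ⟨x2, y2, hv, hx2, by rw [h2' _ _ hy2]; exact hy⟩
    exact propext ⟨key u v e2, key v u e2.symm⟩

/-- functions of a bounded prefix and of the rest -/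
theorem FS.split [Finite α] {p : ℕ} {g : List α → List α → β} (h : ∀ u, FS (g u)) :
    FS (fun w => g (w.take p) (w.drop p)) := by
  choose σ hσ st h1 h2 using h
  haveI : Finite {l : List α // l.length ≤ p} := (List.finite_length_le α p).to_subtype
  refine ⟨{l : List α // l.length ≤ p} × (∀ u : {l : List α // l.length ≤ p}, σ u.1),
    inferInstance, fun w => (⟨w.take p, by rw [List.length_take]; omega⟩,
      fun u => st u.1 (w.drop p)), ?_, ?_⟩
  · intro u v a e
    simp only [Prod.mk.injEq, Subtype.mk.injEq] at e ⊢
    obtain ⟨e1, e2⟩ := e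
    by_cases h : u.length < p
    · have hu : u.take p = u := List.take_of_length_le (by omega)
      have hl : (v.take p).length = u.length := by rw [← e1, hu]
      rw [List.length_take] at hl
      have hv : v.take p = v := List.take_of_length_le (by omega)
      rw [hu, hv] at e1
      subst e1
      exact ⟨rfl, rfl⟩
    · have hl : (v.take p).length = p := by rw [← e1, List.length_take]; omega
      rw [List.length_take] at hl
      refine ⟨?_, ?_⟩
      · rw [List.take_append_of_le_length (by omega), List.take_append_of_le_length (by omega), e1]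
      · funext x
        rw [List.drop_append_of_le_length (by omega), List.drop_append_of_le_length (by omega)]
        exact h1 x.1 _ _ a (congrFun e2 x)
  · intro u v e
    simp only [Prod.mk.injEq, Subtype.mk.injEq] at e
    obtain ⟨e1, e2⟩ := e
    have := congrFun e2 ⟨u.take p, by rw [List.length_take]; omega⟩
    show g (u.take p) (u.drop p) = g (v.take p) (v.drop p)
    rw [← e1]
    exact h2 _ _ _ this

theorem FS.reg {f : List α → Prop} (h : FS f) : Language.IsRegular ({w | f w} : Language α) := by
  classical
  obtain ⟨σ, i, st, h1, h2⟩ := h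
  haveI : Fintype σ := Fintype.ofFinite σ
  let step : σ → α → σ := fun s a => if hs : ∃ w, st w = s then st (hs.choose ++ [a]) else s
  let D : DFA α σ := ⟨step, st [], {s | ∃ w, st w = s ∧ f w}⟩
  have key : ∀ w : List α, D.eval w = st w := by
    intro w
    induction w using List.reverseRecOn with
    | nil => rfl
    | append_singleton w a ih =>
      rw [DFA.eval_append_singleton, ih]
      have hs : ∃ w', st w' = st w := ⟨w, rfl⟩
      show step (st w) a = _
      simp only [step, dif_pos hs]
      exact h1 _ _ a hs.choose_spec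
  refine ⟨σ, inferInstance, D, ?_⟩
  ext w
  rw [DFA.mem_accepts, key]
  constructor
  · rintro ⟨w', e, hw⟩
    show f w
    rw [← h2 _ _ e]; exact hw
  · intro hw
    exact ⟨w, rfl, hw⟩

/-- languages of height `k` are finite state -/
theorem FS.of_reg {L : Language α} (h : L.IsRegular) : FS (fun w => w ∈ L) := by
  obtain ⟨σ, hσ, D, rfl⟩ := h
  refine ⟨σ, inferInstance, fun w => D.eval w, ?_, ?_⟩
  · intro u v a e
    show D.eval (u ++ [a]) = D.eval (v ++ [a])
    have e' : D.eval u = D.eval v := e
    rw [DFA.eval_append_singleton, DFA.eval_append_singleton, e']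
  · intro u v e
    apply propext
    have e' : D.eval u = D.eval v := e
    show (u ∈ D.accepts) ↔ (v ∈ D.accepts)
    rw [DFA.mem_accepts, DFA.mem_accepts, e']

end FS

/-- transfer of heights along an equivalence of alphabets -/
theorem HL.map {α : Type u} {β : Type v} (e : α ≃ β) : ∀ g : GRegExp β,
    HL g.height ({w | w.map e ∈ g.lang} : Language α)
  | .zero => HL.bot.congr fun w => ⟨fun h => h.elim, fun h => h.elim⟩
  | .eps => by
    refine HL.one.congr fun w => ?_
    constructor
    · intro hw
      have : w.map e = [] := hw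
      have : w = [] := List.map_eq_nil_iff.1 this
      exact this
    · intro hw
      have : w = [] := hw
      subst this
      exact rfl
  | .char b => by
    refine (HL.char (e.symm b)).congr fun w => ?_
    constructor
    · intro hw
      have h1 : w.map e = [b] := hw
      have h2 : (w.map e).map e.symm = [e.symm b] := by rw [h1]; rfl
      have h3 : w = [e.symm b] := by simpa using h2
      exact h3
    · intro hw
      have h1 : w = [e.symm b] := hw
      subst h1
      show [e.symm b].map e = [b]
      simp
  | .union P Q => by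
    have h1 := (HL.map e P).mono (le_max_left P.height Q.height)
    have h2 := (HL.map e Q).mono (le_max_right P.height Q.height)
    exact h1.add h2
  | .cat P Q => by
    have h1 := (HL.map e P).mono (le_max_left P.height Q.height)
    have h2 := (HL.map e Q).mono (le_max_right P.height Q.height)
    refine (h1.mul h2).congr fun w => ?_
    constructor
    · intro hw
      obtain ⟨x, hx, y, hy, hxy⟩ := Language.mem_mul.1 hw
      obtain ⟨a, b, rfl, ha, hb⟩ := List.map_eq_append_iff.1 hxy.symm
      exact Language.mem_mul.2 ⟨a, by show a.map e ∈ P.lang; rw [ha]; exact hx, b,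
        by show b.map e ∈ Q.lang; rw [hb]; exact hy, rfl⟩
    · intro hw
      obtain ⟨x, hx, y, hy, rfl⟩ := Language.mem_mul.1 hw
      exact Language.mem_mul.2 ⟨x.map e, hx, y.map e, hy, by rw [List.map_append]⟩
  | .not P => (HL.map e P).compl
  | .star P => by
    refine (HL.map e P).star.congr fun w => ?_
    constructor
    · intro hw
      obtain ⟨S, hS, hm⟩ := Language.mem_kstar.1 (show w.map e ∈ KStar.kstar P.lang from hw)
      refine (Language.mem_kstar.2 ⟨S.map (fun x => x.map e.symm), ?_, ?_⟩)
      · have h2 : (w.map e).map e.symm = (S.flatten).map e.symm := by rw [hS]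
        have h3 : w = (S.flatten).map e.symm := by simpa using h2
        rw [h3, List.map_flatten]
      · intro y hy
        obtain ⟨x, hx, rfl⟩ := List.mem_map.1 hy
        show (x.map e.symm).map e ∈ P.lang
        have : (x.map e.symm).map e = x := by simp
        rw [this]
        exact hm x hx
    · intro hw
      obtain ⟨S, rfl, hS⟩ := Language.mem_kstar.1 hw
      show (S.flatten).map e ∈ KStar.kstar P.lang
      rw [List.map_flatten]
      refine Language.mem_kstar.2 ⟨_, rfl, ?_⟩
      intro y hy
      obtain ⟨x, hx, rfl⟩ := List.mem_map.1 hy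
      exact hS x hx

/-- row 320 for alphabets in `Type` implies it for all alphabets -/
theorem transfer {k : ℕ} (h : ∀ (β : Type) [Finite β] (M : Type) [Monoid M] [Finite M] (φ : β → M)
    (s : M), HL k ({w | (w.map φ).prod = s} : Language β)) (α : Type u) [Finite α]
    (L : Language α) (hL : L.IsRegular) : HL k L := by
  obtain ⟨n, ⟨e⟩⟩ := Finite.exists_equiv_fin α
  have hL' : Language.IsRegular ({w | w.map e.symm ∈ L} : Language (Fin n)) := by
    obtain ⟨σ, hσ, D, rfl⟩ := hL
    exact ⟨σ, hσ, D.comap e.symm, by rw [DFA.accepts_comap]; rfl⟩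
  have h1 : HL k ({w | w.map e.symm ∈ L} : Language (Fin n)) :=
    of_monoid (fun S _ _ φ s => h (Fin n) S φ s) _ hL'
  obtain ⟨g, hg1, hg2⟩ := h1
  refine ((HL.map e g).mono hg1).congr fun w => ?_
  show w ∈ L ↔ w.map e ∈ g.lang
  rw [hg2]
  show w ∈ L ↔ (w.map e).map e.symm ∈ L
  have : (w.map e).map e.symm = w := by simp
  rw [this]

end Crest.Agent.R320.Int_431
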