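import Crest.Agent.R320.ExactR_237

/-!
Row 320, P3 (helper590): scheme 2 in block form, for helper163's `top` (#13363).

Blocks `XX` (prefix code).  Places `c k` in the first `p0` letters of a block.  The right word is
the rest of the block plus one more block.  Abstract hypotheses on the blocks: `loc` (the first
`p0` letters are irrelevant for being a block and for badness), `geo` (all hypotheses for the
anchor see the end of their block inside the right word), `spoil` (fewer than `R` places of a bad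
block have a wrong bad hypothesis).
-/

set_option autoImplicit false
set_option linter.unusedSectionVars false

namespace Crest.Agent.R320.Sc2b_590

open Crest.Agent.R320.ExactR_237

variable {A S V : Type} [Monoid S] [Fintype S] [Fintype V] [AddCommGroup V]

/-- the hypothesis "the anchor is `o` letters before the right word `Q`" is bad. -/
def BadQ (XX : Set (List A)) (Bd : List A → Prop) (o : ℕ) (Q : List A) : Prop :=
  ∃ u R S' : List A, u.length = o ∧ Q = R ++ S' ∧ u ++ R ∈ XX ∧ Bd (u ++ R)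

/-- zone map of both schemes -/
def TT (f : A → S) (act : V → S → V) (p0 : ℕ) (nu2 nu1 : List A → V) (v : V) (X : List A) : V :=
  act (act v (pr f (X.take p0)) + nu2 (X.take p0)) (pr f (X.drop p0)) + nu1 (X.drop p0)

/-- data of the right word for the place `k`. -/
def Spl (f : A → S) (act : V → S → V) (rho : ℕ → List A → S → Option V) (c : ℕ → ℕ) (p0 : ℕ)
    (nu2 nu1 : List A → V) (XX : Set (List A)) (k : ℕ) (Q : List A) (b : V) : Prop :=
  ∃ (u R X2 : List A) (b1 : V), Q = R ++ X2 ∧ u.length = c k ∧ u ++ R ∈ XX ∧ X2 ∈ XX ∧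
    rho k (R.take (p0 - c k)) 1 = some b1 ∧
    b = TT f act p0 nu2 nu1 (act b1 (pr f (R.drop (p0 - c k))) + nu1 (R.drop (p0 - c k))) X2

/-- right legality of scheme 2 with label `b`. -/
def RR2 (f : A → S) (act : V → S → V) (rho : ℕ → List A → S → Option V) (c : ℕ → ℕ) (p0 K : ℕ)
    (nu2 nu1 : List A → V) (XX : Set (List A)) (Bd : List A → Prop) (Q : List A) (b : V) : Prop :=
  ∃ k, k < K ∧ BadQ XX Bd (c k) Q ∧ (∀ k', k' < K → k' ≠ k → ¬ BadQ XX Bd (c k') Q) ∧
    Spl f act rho c p0 nu2 nu1 XX k Q b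

theorem eq_of_pref {XX : Set (List A)} (hPC : ∀ X ∈ XX, ∀ Y, X ++ Y ∈ XX → Y = [])
    {P R R' S S' : List A} (h : R ++ S = R' ++ S') (h1 : P ++ R ∈ XX) (h2 : P ++ R' ∈ XX) :
    R = R' := by
  rcases List.append_eq_append_iff.1 h with ⟨a, ha, _⟩ | ⟨a, ha, _⟩
  · rw [ha, ← List.append_assoc] at h2
    rw [ha, hPC _ h1 a h2, List.append_nil]
  · rw [ha, ← List.append_assoc] at h1
    rw [ha, hPC _ h2 a h1, List.append_nil]

open Classical in
/-- **Scheme 2, block form.** -/
theorem sc2_block (f : A → S) (act : V → S → V) (R : ℕ) :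
    ∃ K : ℕ, ∀ c : ℕ → ℕ, (∀ i j, i < j → j < K → c i < c j) →
    ∃ (lam : ℕ → List A → Option V) (rho : ℕ → List A → S → Option V) (nu2 : List A → V),
      ∀ (p0 : ℕ) (XX : Set (List A)) (Bd : List A → Prop) (nu1 : List A → V),
      (∀ k < K, c k ≤ p0) → (∀ X ∈ XX, p0 < X.length) →
      (∀ X ∈ XX, ∀ Y, X ++ Y ∈ XX → Y = []) →
      (∀ u u' r : List A, u.length = u'.length → u.length ≤ p0 → u ++ r ∈ XX → u' ++ r ∈ XX) →
      (∀ k < K, ∀ k' < K, ∀ u u' r X2 : List A, u.length = c k → u'.length = c k' → u ++ r ∈ XX →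
        X2 ∈ XX → ∃ r' s' : List A, r ++ X2 = r' ++ s' ∧ u' ++ r' ∈ XX) →
      (∀ X ∈ XX, Bd X → ∀ X2 ∈ XX, ((Finset.range K).filter fun k => ∃ k' < K, k' ≠ k ∧
          BadQ XX Bd (c k') (X.drop (c k) ++ X2)).card < R) →
      (∀ Q b b', RR2 f act rho c p0 K nu2 nu1 XX Bd Q b → RR2 f act rho c p0 K nu2 nu1 XX Bd Q b' →
        b = b') ∧
      (∀ (P : List A) (v : V) (Q : List A) (b : V), (∃ k < K, P.length = c k ∧ lam k P = some v) →
        RR2 f act rho c p0 K nu2 nu1 XX Bd Q b →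
        (∀ Q1 Q2, Q = Q1 ++ Q2 → P ++ Q1 ∈ XX → Bd (P ++ Q1)) →
        ∃ Q1 X2, Q = Q1 ++ X2 ∧ Q1 ≠ [] ∧ P ++ Q1 ∈ XX ∧ X2 ∈ XX ∧
          TT f act p0 nu2 nu1 (TT f act p0 nu2 nu1 v (P ++ Q1)) X2 = b) ∧
      (∀ X ∈ XX, Bd X → ∀ X2 ∈ XX, ∀ v, ∃ P Q, X ++ X2 = P ++ Q ∧ P.length < X.length ∧
        (∃ k < K, P.length = c k ∧ lam k P = some v) ∧
        ∃ b, RR2 f act rho c p0 K nu2 nu1 XX Bd Q b) := by
  obtain ⟨K, hK⟩ := exact_gadget A S V f act R
  refine ⟨K, fun c hc => ?_⟩
  obtain ⟨lam, rho, nu, hs, hcmp⟩ := hK c hc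
  refine ⟨lam, rho, fun X => nu X 1, ?_⟩
  intro p0 XX Bd nu1 hcp hlen hPC loc geo hsp
  refine ⟨?_, ?_, ?_⟩
  · rintro Q b b' ⟨k, hk, hb, hu, hS⟩ ⟨k', hk', hb', hu', hS'⟩
    have hkk : k' = k := by
      by_contra hne
      exact hu k' hk' hne hb'
    subst hkk
    obtain ⟨u, R1, X2, b1, e1, e2, e3, e4, e5, e6⟩ := hS
    obtain ⟨u', R1', X2', b1', e1', e2', e3', e4', e5', e6'⟩ := hS'
    have h3 := loc u' u R1' (by omega) (by rw [e2']; exact hcp _ hk) e3'
    have hRR : R1 = R1' := eq_of_pref hPC (e1.symm.trans e1') e3 h3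
    subst hRR
    have hXX : X2 = X2' := by
      have := e1.symm.trans e1'
      exact List.append_cancel_left this
    subst hXX
    rw [e5] at e5'
    have : b1 = b1' := Option.some.inj e5'
    subst this
    rw [e6, e6']
  · rintro P v Q b ⟨k0, hk0, hP, hlam⟩ ⟨k, hk, hb, hu, u, R1, X2, b1, e1, e2, e3, e4, e5, e6⟩ hpr
    obtain ⟨r', s', g1, g2⟩ := geo k hk k0 hk0 u P R1 X2 e2 hP e3 e4
    have hbd := hpr r' s' (e1.trans g1) g2
    have hkk : k0 = k := by
      by_contra hne
      exact hu k0 hk0 hne ⟨P, r', s', hP, e1.trans g1, g2, hbd⟩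
    subst hkk
    have h3 : P ++ R1 ∈ XX := loc u P R1 (by omega) (by rw [e2]; exact hcp _ hk) e3
    have hck := hcp _ hk
    have hl := hlen _ h3
    rw [List.length_append] at hl
    have t1 : (P ++ R1).take p0 = P ++ R1.take (p0 - c k0) := by
      rw [List.take_append, hP, List.take_of_length_le (by omega)]
    have t2 : (P ++ R1).drop p0 = R1.drop (p0 - c k0) := by
      rw [List.drop_append, hP, List.drop_of_length_le (by omega), List.nil_append]
    have hex := hs k0 hk P (R1.take (p0 - c k0)) 1 v b1 hP hlam e5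
    rw [mul_one] at hex
    refine ⟨R1, X2, e1, ?_, h3, e4, ?_⟩
    · rintro rfl
      simp at hl
      omega
    · rw [e6]
      congr 1
      unfold TT
      rw [t1, t2, ← hex]
  · intro X hX hbad X2 hX2 v
    have hXl := hlen X hX
    have hX0 : (X.take p0).length = p0 := by rw [List.length_take]; omega
    obtain ⟨I, hI1, hI2⟩ := hcmp (X.take p0) 1 v (fun k hk => by rw [hX0]; exact hcp k hk)
    have hspt := hsp X hX hbad X2 hX2
    have : ∃ k ∈ I, k ∉ (Finset.range K).filter fun k => ∃ k' < K, k' ≠ k ∧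
          BadQ XX Bd (c k') (X.drop (c k) ++ X2) := by
      by_contra hcon
      push Not at hcon
      have := Finset.card_le_card (fun k hk => hcon k hk)
      omega
    obtain ⟨k, hkI, hkn⟩ := this
    obtain ⟨hkK, hl, hrh⟩ := hI2 k hkI
    have hck := hcp k hkK
    have hPl : (X.take (c k)).length = c k := by rw [List.length_take]; omega
    refine ⟨X.take (c k), X.drop (c k) ++ X2, ?_, by omega, ⟨k, hkK, hPl, ?_⟩, ?_⟩
    · rw [← List.append_assoc, List.take_append_drop]
    · rw [List.take_take, min_eq_left hck] at hl; exact hl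
    · obtain ⟨b1, hb1⟩ := Option.isSome_iff_exists.1 hrh
      refine ⟨_, k, hkK, ⟨X.take (c k), X.drop (c k), X2, hPl, rfl, ?_, ?_⟩, ?_,
        X.take (c k), X.drop (c k), X2, b1, rfl, hPl, ?_, hX2, ?_, rfl⟩
      · rw [List.take_append_drop]; exact hX
      · rw [List.take_append_drop]; exact hbad
      · intro k' hk' hne hb'
        apply hkn
        rw [Finset.mem_filter, Finset.mem_range]
        exact ⟨hkK, k', hk', hne, hb'⟩
      · rw [List.take_append_drop]; exact hX
      · rw [← hb1]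
        congr 1
        rw [List.drop_take]

end Crest.Agent.R320.Sc2b_590
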