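import Crest.Agent.R320.Top5_467
import Crest.Agent.R320.Sc2b_590
import Crest.Agent.R320.WallU_228
import Crest.Agent.R320.IntA_431

/-!
# Row 320: integration (helper431)

Everything of row 320 from the zone gadget on all words (`UGI`, helper772's literal form).
-/

set_option autoImplicit false
set_option maxHeartbeats 1000000

namespace Crest.Agent.R320.Int_431

open Crest.RegLang Crest.Agent.R320.Hk_851 Crest.Agent.R320.Blk467 Crest.Agent.R320.ExactR_237
  Crest.Agent.R320.FewWalls_228 Crest.Agent.R320.WallU_228 Crest.Agent.R320.Sc2b_590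

universe u

/-- the gadget of scheme 1 on all words (helper772 #13437) -/
def UGI (S V : Type) [Monoid S] [AddCommGroup V] (act : V → S → V) : Prop :=
  ∃ C0 : ℕ, ∀ K : ℕ, ∃ (N1 Pm La : ℕ) (c : ℕ → ℕ) (Bad : ℕ → Prop),
    0 < Pm ∧ (∀ i j, i < j → j < K → c i < c j) ∧
    (∀ i j k l, i < K → j < K → k < K → l < K → i ≠ j → k ≠ l → (i, j) ≠ (k, l) →
      c i + c l + 4 * N1 < c k + c j ∨ c k + c j + 4 * N1 < c i + c l) ∧
    (∀ T, Bad (T + Pm) ↔ Bad T) ∧
    (∀ T, La ≤ T → ∀ F : Finset (ℕ × ℕ), (∀ p ∈ F, p.1 < K ∧ p.2 < K ∧ p.1 ≠ p.2 ∧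
      Bad (T + c p.2 - c p.1)) → F.card ≤ C0) ∧
    ∀ (A : Type) (phi : A → S), ∃ (lam rho : List A → Option V) (nu : List A → V),
      (∀ p v, lam p = some v → p.length ≤ N1) ∧
      (∀ p q v r, lam p = some v → rho q = some r → La ≤ q.length →
        r = act v ((p ++ q).map phi).prod + nu (p ++ q)) ∧
      (∀ u, La ≤ u.length → ¬ Bad u.length → ∀ v, ∃ p q, p ++ q = u ∧ lam p = some v ∧
        (rho q).isSome) ∧
      (∀ q q', La ≤ q.length → La ≤ q'.length → q.take La = q'.take La →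
        q.length % Pm = q'.length % Pm → (q.map phi).prod = (q'.map phi).prod →
        rho q = rho q' ∧ nu q = nu q')

section Blocks

variable {A : Type} {n : ℕ} {Sw : Set (List A)}

/-- blocks: first wall at distance at least `z` -/
def XX (n : ℕ) (Sw : Set (List A)) (z : ℕ) : Set (List A) :=
  {X | z ≤ X.length ∧ Wo n Sw X ∧ ∀ t, z ≤ t → t < X.length → ¬ Wo n Sw (X.take t)}

/-- bad end: a wall near `z` -/
def EE (n : ℕ) (Sw : Set (List A)) (z N1 : ℕ) (X : List A) : Prop :=
  X.length < z + N1 ∨ ∃ t, z ≤ t + N1 ∧ t < z ∧ t < X.length ∧ Wo n Sw (X.take t)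

theorem wo_len {P : List A} (h : Wo n Sw P) : n ≤ P.length := h.1

theorem wo_iff_take {P Q : List A} {t : ℕ} (h1 : P.length + n ≤ t) (h2 : t ≤ P.length + Q.length) :
    Wo n Sw ((P ++ Q).take t) ↔ Wo n Sw (Q.take (t - P.length)) := by
  rw [List.take_append, List.take_of_length_le (by omega)]
  exact wo_append P _ (by rw [List.length_take]; omega)

theorem pcode {z : ℕ} (hz : 0 < z) : PCode (XX n Sw z) := by
  refine ⟨fun h => ?_, ?_⟩
  · have := h.1
    simp only [List.length_nil] at this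
    omega
  · intro X hX Y hY hp
    obtain ⟨R, rfl⟩ := hp
    by_contra hne
    have hR : R ≠ [] := fun h => hne (by rw [h, List.append_nil])
    have hl : 0 < R.length := List.length_pos_of_ne_nil hR
    refine hY.2.2 X.length hX.1 (by rw [List.length_append]; omega) ?_
    rw [List.take_left]
    exact hX.2.1

theorem FS_wo [Finite A] : FS (fun w : List A => Wo n Sw w) := by
  refine ((FS.last n).comp (fun l : List A => n ≤ l.length ∧ l ∈ Sw)).congr fun w => ?_
  apply propext
  unfold Wo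
  rw [List.length_drop]
  constructor
  · rintro ⟨h1, h2⟩; exact ⟨by omega, h2⟩
  · rintro ⟨h1, h2⟩; exact ⟨by omega, h2⟩

theorem FS_len [Finite A] (z : ℕ) : FS (fun w : List A => z ≤ w.length) := by
  refine ((FS.take z).comp (fun l : List A => z ≤ l.length)).congr fun w => ?_
  apply propext
  rw [List.length_take]
  omega

theorem FS_XX [Finite A] (z : ℕ) : FS (fun w : List A => w ∈ XX n Sw z) := by
  refine ((FS_len z).and ((FS_wo (n := n) (Sw := Sw)).and ((FS_wo (n := n) (Sw := Sw)).pre z).not)).congr fun w => ?_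
  apply propext
  constructor
  · rintro ⟨h1, h2, h3⟩
    exact ⟨h1, h2, fun ⟨t, ht1, ht2, ht3⟩ => h3 t ht1 ht2 ht3⟩
  · rintro ⟨h1, h2, h3⟩
    exact ⟨h1, h2, fun t ht1 ht2 ht3 => h3 ⟨t, ht1, ht2, ht3⟩⟩

theorem FS_EE [Finite A] (z N1 : ℕ) : FS (fun w : List A => EE n Sw z N1 w) := by
  refine ((FS.take (z + N1)).comp (fun l : List A => EE n Sw z N1 l)).congr fun w => ?_
  apply propext
  unfold EE
  rw [List.length_take]
  constructor
  · rintro (h | ⟨t, h1, h2, h3, h4⟩)
    · left; omega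
    · by_cases h5 : w.length < z + N1
      · left; omega
      · right
        exact ⟨t, h1, h2, by omega, by rwa [List.take_take, min_eq_left (by omega)]⟩
  · rintro (h | ⟨t, h1, h2, h3, h4⟩)
    · left; omega
    · right
      refine ⟨t, h1, h2, by omega, ?_⟩
      rwa [List.take_take, min_eq_left (by omega)] at h4

/-- a word is a block or not: the walls of `t` at the places `x` -/
def Wt (n : ℕ) (Sw : Set (List A)) (t : List A) (x : ℕ) : Prop := x ≤ t.length ∧ Wo n Sw (t.take x)

theorem Wt.gap {W : ℕ} (hgap : ∀ (P : List A) (d : ℕ), Wo n Sw P → 0 < d → d ≤ W →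
    ¬ Wo n Sw (P.take (P.length - d))) {t : List A} {x y : ℕ} (hx : Wt n Sw t x)
    (hy : Wt n Sw t y) (h : x < y) : x + W < y := by
  by_contra hcon
  have hl : (t.take y).length = y := by rw [List.length_take]; exact min_eq_left hy.1
  refine hgap (t.take y) (y - x) hy.2 (by omega) (by omega) ?_
  rw [hl, List.take_take]
  have : min (y - (y - x)) y = x := by omega
  rw [this]
  exact hx.2

/-- walls of a suffix -/
theorem Wt.right {P Q : List A} {x : ℕ} (h1 : P.length + n ≤ x) :
    Wt n Sw (P ++ Q) x ↔ Wt n Sw Q (x - P.length) := by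
  unfold Wt
  rw [List.length_append]
  constructor
  · rintro ⟨h2, h3⟩
    exact ⟨by omega, (wo_iff_take h1 h2).1 h3⟩
  · rintro ⟨h2, h3⟩
    exact ⟨by omega, (wo_iff_take h1 (by omega)).2 h3⟩

/-- walls of a prefix -/
theorem Wt.left {P Q : List A} {x : ℕ} (h1 : x ≤ P.length) :
    Wt n Sw (P ++ Q) x ↔ Wt n Sw P x := by
  unfold Wt
  rw [List.length_append, List.take_append_of_le_length h1]
  constructor
  · rintro ⟨h2, h3⟩; exact ⟨h1, h3⟩
  · rintro ⟨h2, h3⟩; exact ⟨by omega, h3⟩

theorem XX_iff {z : ℕ} {X : List A} : X ∈ XX n Sw z ↔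
    z ≤ X.length ∧ Wt n Sw X X.length ∧ ∀ t, z ≤ t → t < X.length → ¬ Wt n Sw X t := by
  constructor
  · rintro ⟨h1, h2, h3⟩
    exact ⟨h1, ⟨le_rfl, by rw [List.take_length]; exact h2⟩, fun t ht1 ht2 ht => h3 t ht1 ht2 ht.2⟩
  · rintro ⟨h1, h2, h3⟩
    refine ⟨h1, ?_, fun t ht1 ht2 ht => h3 t ht1 ht2 ⟨by omega, ht⟩⟩
    have := h2.2
    rwa [List.take_length] at this

/-- the spoiling count -/
theorem count {K p0 N1 C0 La z W : ℕ} {c : ℕ → ℕ} {BadN W' : ℕ → Prop}
    (hc : ∀ k < K, c k ≤ p0)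
    (hres : ∀ i j k l, i < K → j < K → k < K → l < K → i ≠ j → k ≠ l → (i, j) ≠ (k, l) →
      c i + c l + 4 * N1 < c k + c j ∨ c k + c j + 4 * N1 < c i + c l)
    (hcnt : ∀ T, La ≤ T → ∀ F : Finset (ℕ × ℕ), (∀ p ∈ F, p.1 < K ∧ p.2 < K ∧ p.1 ≠ p.2 ∧
      BadN (T + c p.2 - c p.1)) → F.card ≤ C0)
    (hz : 2 * p0 + La ≤ z) (hW : 2 * p0 + 2 * N1 ≤ W)
    (gap : ∀ x y, W' x → W' y → x < y → x + W < y)
    (G : Finset ℕ) (hG : ∀ k ∈ G, k < K ∧ ∃ k' < K, k' ≠ k ∧ ∃ e, W' e ∧ z + c k ≤ e + c k' ∧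
      (∀ x, z + c k ≤ x + c k' → x < e → ¬ W' x) ∧
      ((∃ x, W' x ∧ z + c k ≤ x + c k' + N1 ∧ x + c k' < z + N1 + c k) ∨
        BadN (e + c k' - c k - p0))) : G.card < 2 * C0 + 2 := by
  classical
  choose! g hg using fun k (hk : k ∈ G) => (hG k hk).2
  have hK := fun k (hk : k ∈ G) => (hG k hk).1
  set w0 : ℕ := sInf {x | W' x ∧ z ≤ x + p0} with hw0
  set w1 : ℕ := sInf {x | W' x ∧ w0 < x} with hw1
  let IE := G.filter fun k => ∃ x, W' x ∧ z + c k ≤ x + c (g k) + N1 ∧ x + c (g k) < z + N1 + c k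
  let I0 := G.filter fun k => z ≤ w0 + p0 ∧ BadN (w0 + c (g k) - c k - p0)
  let I1 := G.filter fun k => z ≤ w1 + p0 ∧ BadN (w1 + c (g k) - c k - p0)
  have hsub : G ⊆ IE ∪ (I0 ∪ I1) := by
    intro k hk
    obtain ⟨h1, h2, e, h3, h4, h5, h6⟩ := hg k hk
    have hck := hc k (hK k hk)
    have hcg := hc (g k) h1
    rw [Finset.mem_union, Finset.mem_union]
    rcases h6 with h6 | h6
    · left
      exact Finset.mem_filter.2 ⟨hk, h6⟩
    · right
      have hne : ({x | W' x ∧ z ≤ x + p0} : Set ℕ).Nonempty := ⟨e, h3, by omega⟩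
      have hm0 : W' w0 ∧ z ≤ w0 + p0 := Nat.sInf_mem hne
      have hle : w0 ≤ e := Nat.sInf_le (show e ∈ {x | W' x ∧ z ≤ x + p0} from ⟨h3, by omega⟩)
      rcases Nat.eq_or_lt_of_le hle with he | he
      · left
        exact Finset.mem_filter.2 ⟨hk, hm0.2, by rw [he]; exact h6⟩
      · right
        have hne1 : ({x | W' x ∧ w0 < x} : Set ℕ).Nonempty := ⟨e, h3, he⟩
        have hm1 : W' w1 ∧ w0 < w1 := Nat.sInf_mem hne1
        have hle1 : w1 ≤ e := Nat.sInf_le (show e ∈ {x | W' x ∧ w0 < x} from ⟨h3, he⟩)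
        have h7 : w0 + c (g k) < z + c k := by
          by_contra hcon
          exact h5 w0 (by omega) he hm0.1
        have h8 := gap _ _ hm0.1 hm1.1 hm1.2
        have h9 : w1 = e := by
          by_contra hne
          exact h5 w1 (by omega) (by omega) hm1.1
        exact Finset.mem_filter.2 ⟨hk, by omega, by rw [h9]; exact h6⟩
  have hE : IE.card ≤ 1 := by
    rw [Finset.card_le_one]
    intro k hk i hi
    obtain ⟨hk1, x, hx1, hx2, hx3⟩ := Finset.mem_filter.1 hk
    obtain ⟨hi1, y, hy1, hy2, hy3⟩ := Finset.mem_filter.1 hi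
    have a1 := hc k (hK k hk1)
    have a2 := hc (g k) (hg k hk1).1
    have a3 := hc i (hK i hi1)
    have a4 := hc (g i) (hg i hi1).1
    have hxy : x = y := by
      rcases Nat.lt_trichotomy x y with h | h | h
      · have := gap _ _ hx1 hy1 h; omega
      · exact h
      · have := gap _ _ hy1 hx1 h; omega
    subst hxy
    by_contra hne
    have := hres k (g k) i (g i) (hK k hk1) (hg k hk1).1 (hK i hi1) (hg i hi1).1
      (Ne.symm (hg k hk1).2.1) (Ne.symm (hg i hi1).2.1) (fun h => hne (by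
        simpa using congrArg Prod.fst h))
    omega
  have hB : ∀ w : ℕ, (G.filter fun k => z ≤ w + p0 ∧ BadN (w + c (g k) - c k - p0)).card ≤ C0 := by
    intro w
    by_cases hw : z ≤ w + p0
    · rw [← Finset.card_image_of_injective (f := fun k => (k, g k)) _
        (fun a b h => by simpa using congrArg Prod.fst h)]
      refine hcnt (w - p0) (by omega) _ ?_
      intro p hp
      obtain ⟨k, hk, rfl⟩ := Finset.mem_image.1 hp
      obtain ⟨hk1, _, hk2⟩ := Finset.mem_filter.1 hk
      refine ⟨hK k hk1, (hg k hk1).1, Ne.symm (hg k hk1).2.1, ?_⟩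
      have a1 := hc k (hK k hk1)
      have a2 := hc (g k) (hg k hk1).1
      have : w - p0 + c (g k) - c k = w + c (g k) - c k - p0 := by omega
      show BadN (w - p0 + c (g k) - c k)
      rw [this]
      exact hk2
    · rw [Finset.filter_false_of_mem (fun k _ h => hw h.1)]
      simp
  have h0 := hB w0
  have h1 := hB w1
  have h2 := Finset.card_le_card hsub
  have h3 := Finset.card_union_le IE (I0 ∪ I1)
  have h4 := Finset.card_union_le I0 I1
  have h5 : I0.card ≤ C0 := h0
  have h6 : I1.card ≤ C0 := h1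
  omega

/-- number of walls -/
theorem nw_le {w : List A} (F : Finset ℕ) (h : ∀ x, n ≤ x → Wt n Sw w x → x ∈ F) :
    nw n Sw w ≤ F.card := by
  classical
  unfold nw
  rw [← Finset.card_image_of_injective (f := fun x => x + n) _ (fun a b h => by
    simpa using h)]
  refine Finset.card_le_card ?_
  intro y hy
  obtain ⟨x, hx, rfl⟩ := Finset.mem_image.1 hy
  have h2 := wo_take.1 (Finset.mem_filter.1 hx).2
  exact h _ (by omega) ⟨h2.1, h2.2⟩

/-- the walls of a product of two blocks -/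
theorem nw_two {z : ℕ} (hz : n ≤ z) {X X' : List A} (hX : X ∈ XX n Sw z) (hX' : X' ∈ XX n Sw z)
    (P Q : List A) (e : P ++ Q = X ++ X') : nw n Sw Q ≤ 2 * z + 2 := by
  classical
  let F : Finset ℕ := Finset.range z ∪ ({X.length} ∪ (Finset.Ico X.length (X.length + z) ∪
    {(X ++ X').length}))
  have hF : F.card ≤ 2 * z + 2 := by
    refine (Finset.card_union_le _ _).trans ?_
    have h1 := Finset.card_union_le ({X.length} : Finset ℕ)
      (Finset.Ico X.length (X.length + z) ∪ {(X ++ X').length})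
    have h2 := Finset.card_union_le (Finset.Ico X.length (X.length + z)) {(X ++ X').length}
    simp only [Finset.card_range, Finset.card_singleton, Nat.card_Ico] at *
    omega
  refine le_trans (nw_le (F.image (fun x => x - P.length)) ?_) (Finset.card_image_le.trans hF)
  intro x hnx hx
  have h1 : Wt n Sw (P ++ Q) (x + P.length) := by
    rw [Wt.right (by omega)]
    rwa [Nat.add_sub_cancel]
  rw [e] at h1
  refine Finset.mem_image.2 ⟨x + P.length, ?_, by omega⟩
  have hX1 := XX_iff.1 hX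
  have hX2 := XX_iff.1 hX'
  rw [Finset.mem_union, Finset.mem_union, Finset.mem_union, Finset.mem_range,
    Finset.mem_singleton, Finset.mem_Ico, Finset.mem_singleton]
  by_contra hcon
  push Not at hcon
  obtain ⟨c1, c2, c3, c4⟩ := hcon
  have hle := h1.1
  rcases Nat.lt_or_ge (x + P.length) X.length with h | h
  · exact hX1.2.2 _ c1 h ((Wt.left (by omega)).1 h1)
  · have c5 := c3 h
    refine hX2.2.2 (x + P.length - X.length) (by omega) ?_ ((Wt.right (by omega)).1 h1)
    rw [List.length_append] at hle c4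
    omega

end Blocks

end Crest.Agent.R320.Int_431
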