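import Crest.Agent.R320.IntB_431

/-!
# Row 320: integration, main theorem (helper431)
-/

set_option autoImplicit false
set_option maxHeartbeats 1000000

namespace Crest.Agent.R320.Int_431

open Crest.RegLang Crest.Agent.R320.Hk_851 Crest.Agent.R320.Blk467 Crest.Agent.R320.ExactR_237
  Crest.Agent.R320.FewWalls_228 Crest.Agent.R320.WallU_228 Crest.Agent.R320.Sc2b_590

section Geo

variable {A : Type} {n : ℕ} {Sw : Set (List A)} {z : ℕ}

theorem take_mem {w : List A} {t0 : ℕ} (h1 : z ≤ t0) (h2 : Wt n Sw w t0)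
    (h3 : ∀ t, z ≤ t → t < t0 → ¬ Wt n Sw w t) : w.take t0 ∈ XX n Sw z := by
  have hl : (w.take t0).length = t0 := by rw [List.length_take]; exact min_eq_left h2.1
  have key : ∀ x, x ≤ t0 → (Wt n Sw (w.take t0) x ↔ Wt n Sw w x) := by
    intro x hx
    have := Wt.left (n := n) (Sw := Sw) (P := w.take t0) (Q := w.drop t0) (x := x) (by omega)
    rw [List.take_append_drop] at this
    exact this.symm
  refine XX_iff.2 ⟨by omega, ?_, ?_⟩
  · rw [hl]; exact (key _ le_rfl).2 h2
  · intro t ht1 ht2 ht3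
    rw [hl] at ht2
    exact h3 t ht1 ht2 ((key t (by omega)).1 ht3)

theorem exists_block {w : List A} (h : ∃ t, z ≤ t ∧ Wt n Sw w t) :
    ∃ t0, z ≤ t0 ∧ t0 ≤ w.length ∧ w.take t0 ∈ XX n Sw z := by
  classical
  have h1 := Nat.find_spec h
  exact ⟨Nat.find h, h1.1, h1.2.1, take_mem h1.1 h1.2 fun t ht1 ht2 ht3 =>
    Nat.find_min h ht2 ⟨ht1, ht3⟩⟩

theorem loc_XX {u u' r : List A} (h1 : u.length = u'.length) (h2 : u.length + n ≤ z)
    (h : u ++ r ∈ XX n Sw z) : u' ++ r ∈ XX n Sw z := by
  obtain ⟨a1, a2, a3⟩ := XX_iff.1 h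
  rw [List.length_append] at a1 a2 a3
  refine XX_iff.2 ⟨by rw [List.length_append]; omega, ?_, ?_⟩
  · rw [List.length_append, Wt.right (by omega)]
    rw [Wt.right (by omega)] at a2
    rw [← h1]; exact a2
  · intro t ht1 ht2 ht3
    rw [List.length_append] at ht2
    rw [Wt.right (by omega)] at ht3
    refine a3 t ht1 (by omega) ?_
    rw [Wt.right (by omega), h1]
    exact ht3

theorem geo_XX {u' r X2 : List A} (h1 : u'.length ≤ z) (h0 : n ≤ z)
    (h : X2 ∈ XX n Sw z) :
    ∃ r' s' : List A, r ++ X2 = r' ++ s' ∧ u' ++ r' ∈ XX n Sw z := by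
  have h2 := XX_iff.1 h
  have h3 : Wt n Sw ((u' ++ r) ++ X2) ((u' ++ r).length + X2.length) := by
    rw [Wt.right (by omega)]
    have : (u' ++ r).length + X2.length - (u' ++ r).length = X2.length := by omega
    rw [this]
    exact h2.2.1
  obtain ⟨t0, b1, b2, b3⟩ := exists_block (n := n) (Sw := Sw) (z := z)
    (w := (u' ++ r) ++ X2) ⟨_, by omega, h3⟩
  refine ⟨(r ++ X2).take (t0 - u'.length), (r ++ X2).drop (t0 - u'.length),
    (List.take_append_drop _ _).symm, ?_⟩
  have e : ((u' ++ r) ++ X2).take t0 = u' ++ (r ++ X2).take (t0 - u'.length) := by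
    rw [List.append_assoc, List.take_append, List.take_of_length_le (by omega)]
  rw [← e]
  exact b3

theorem nw_one (hz : n ≤ z) {X : List A} (hX : X ∈ XX n Sw z)
    (P Q : List A) (e : P ++ Q = X) : nw n Sw Q ≤ 2 * z + 2 := by
  classical
  let F : Finset ℕ := Finset.range z ∪ {X.length}
  have hF : F.card ≤ 2 * z + 2 := by
    refine (Finset.card_union_le _ _).trans ?_
    simp only [Finset.card_range, Finset.card_singleton]
    omega
  refine le_trans (nw_le (F.image (fun x => x - P.length)) ?_) (Finset.card_image_le.trans hF)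
  intro x hnx hx
  have h1 : Wt n Sw (P ++ Q) (x + P.length) := by
    rw [Wt.right (by omega)]
    rwa [Nat.add_sub_cancel]
  rw [e] at h1
  refine Finset.mem_image.2 ⟨x + P.length, ?_, by omega⟩
  have hX1 := XX_iff.1 hX
  rw [Finset.mem_union, Finset.mem_range, Finset.mem_singleton]
  by_contra hcon
  push Not at hcon
  obtain ⟨c1, c2⟩ := hcon
  have hle := h1.1
  exact hX1.2.2 _ c1 (by omega) h1

theorem nw_tail {w : List A} (h : ∀ X ∈ XX n Sw z, ¬ X <+: w) : nw n Sw w ≤ 2 * z + 2 := by
  refine le_trans (nw_le (Finset.range z) ?_) (by rw [Finset.card_range]; omega)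
  intro x _ hx
  rw [Finset.mem_range]
  by_contra hcon
  obtain ⟨t0, _, _, b3⟩ := exists_block (z := z) ⟨x, by omega, hx⟩
  exact h _ b3 (List.take_prefix _ _)

end Geo

section Main

variable {A S V : Type} [Finite A] [Monoid S] [Finite S]

/-- regularity of the noise -/
theorem FS_nu {φ : A → S} {La Pm : ℕ} (hPm : 0 < Pm) {β : Type} {nu : List A → β}
    (h : ∀ q q', La ≤ q.length → La ≤ q'.length → q.take La = q'.take La →
      q.length % Pm = q'.length % Pm → (q.map φ).prod = (q'.map φ).prod → nu q = nu q') :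
    FS nu := by
  have h1 := (FS.take (α := A) La).pair ((FS.mod (α := A) Pm hPm).pair (FS.prod φ))
  obtain ⟨σ, i, st, g1, g2⟩ := h1
  refine ⟨σ, i, st, g1, fun u v e => ?_⟩
  have := g2 u v e
  simp only [Prod.mk.injEq] at this
  obtain ⟨e1, e2, e3⟩ := this
  have hl := congrArg List.length e1
  rw [List.length_take, List.length_take] at hl
  by_cases hu : La ≤ u.length
  · exact h u v hu (by omega) e1 e2 e3
  · rw [List.take_of_length_le (by omega), List.take_of_length_le (by omega)] at e1
    rw [e1]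

theorem FS.exi {α ι : Type} [Finite ι] {f : ι → List α → Prop} (h : ∀ i, FS (f i)) :
    FS (fun w => ∃ i, f i w) := by
  have := (FS.fun h).comp (fun F : ι → Prop => ∃ i, F i)
  exact this

theorem FS_per {BadN : ℕ → Prop} {Pm : ℕ} (hPm : 0 < Pm) (hper : ∀ T, BadN (T + Pm) ↔ BadN T)
    (p0 : ℕ) : FS (fun w : List A => BadN (w.length - p0)) := by
  have h0 : ∀ k T, BadN (T + Pm * k) ↔ BadN T := by
    intro k
    induction k with
    | zero => intro T; simp
    | succ k ih => intro T; rw [Nat.mul_succ, ← Nat.add_assoc, hper, ih]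
  have h1 : ∀ T, BadN T ↔ BadN (T % Pm) := by
    intro T
    have := h0 (T / Pm) (T % Pm)
    rwa [Nat.mod_add_div] at this
  have h2 : FS (fun w : List A => BadN w.length) :=
    ((FS.mod (α := A) Pm hPm).comp (fun m => BadN m)).congr fun w => propext (h1 _)
  have h3 := FS.split (p := p0) (g := fun (_ Y : List A) => BadN Y.length) (fun _ => h2)
  refine h3.congr fun w => ?_
  rw [List.length_drop]

theorem FS_prefix {f : List A → Prop} (h : FS f) : FS (fun w => ∀ X, f X → ¬ X <+: w) := by
  refine ((h.pre 0).or h).not.congr fun w => ?_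
  apply propext
  constructor
  · rintro h1 (⟨t, _, _, h2⟩ | h2)
    · exact h1 _ h2 (List.take_prefix _ _)
    · exact h1 _ h2 (List.prefix_refl _)
  · intro h1 X hX hp
    apply h1
    have hl := hp.length_le
    rcases Nat.lt_or_ge X.length w.length with h3 | h3
    · left
      refine ⟨X.length, by omega, h3, ?_⟩
      rw [← List.prefix_iff_eq_take.1 hp]
      exact hX
    · right
      rw [← hp.eq_of_length (by omega)]
      exact hX

end Main

end Crest.Agent.R320.Int_431
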