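import Crest.Agent.R320.IntC_431

/-!
# Row 320: everything from the zone gadget on all words (helper431)
-/

set_option autoImplicit false
set_option maxHeartbeats 2000000

namespace Crest.Agent.R320.Int_431

open Crest.RegLang Crest.Agent.R320.Hk_851 Crest.Agent.R320.Blk467 Crest.Agent.R320.ExactR_237
  Crest.Agent.R320.FewWalls_228 Crest.Agent.R320.WallU_228 Crest.Agent.R320.Sc2b_590

/-- **row 320 from the gadget** -/
theorem main {A S V : Type} [Finite A] [Monoid S] [Finite S] [AddCommGroup V] [Finite V]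
    (φ : A → S) (act : V → S → V)
    (hadd : ∀ a b s, act (a + b) s = act a s + act b s)
    (hone : ∀ v, act v 1 = v) (hmul : ∀ v s t, act v (s * t) = act (act v s) t)
    (hfaith : ∀ s t, (∀ v, act v s = act v t) → s = t) (hU : UGI S V act) (s : S) :
    HL 3 ({w | (w.map φ).prod = s} : Language A) := by
  classical
  haveI := Fintype.ofFinite S
  haveI := Fintype.ofFinite V
  obtain ⟨C0, hC0⟩ := hU
  obtain ⟨K, hK⟩ := sc2_block (A := A) φ act (2 * C0 + 2)
  obtain ⟨N1, Pm, La, c, BadN, hPm, hc, hres, hper, hcnt, hg⟩ := hC0 K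
  obtain ⟨lam1, rho1, nu1, hl1, hs1, hc1, hr1⟩ := hg A φ
  obtain ⟨lam2, rho2, nu2, h2⟩ := hK c hc
  obtain ⟨p0, hp0⟩ : ∃ p0, ∀ k < K, c k ≤ p0 :=
    ⟨∑ k ∈ Finset.range K, c k, fun k hk =>
      Finset.single_le_sum (f := c) (fun _ _ => Nat.zero_le _) (Finset.mem_range.2 hk)⟩
  obtain ⟨n, cc, P, Sw, hn, hPp, hloc, hgap, hpieces, hpieces2, hfew⟩ :=
    walls_full (α := A) (2 * p0 + 2 * N1 + 1)
  obtain ⟨z, hz⟩ : ∃ z, z = 2 * p0 + 2 * N1 + La + n + 1 := ⟨_, rfl⟩
  let XS : Set (List A) := XX n Sw z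
  let Bd : List A → Prop := fun X => EE n Sw z N1 X ∨ BadN (X.length - p0)
  have hPC : PCode XS := pcode (by omega)
  -- scheme 2 of helper590
  have hlen : ∀ X ∈ XS, p0 < X.length := fun X hX => by have := hX.1; omega
  have hPC2 : ∀ X ∈ XS, ∀ Y, X ++ Y ∈ XS → Y = [] := by
    intro X hX Y hY
    have := hPC.2 X hX _ hY (List.prefix_append _ _)
    simpa using this
  have hspoil : ∀ X ∈ XS, Bd X → ∀ X2 ∈ XS, ((Finset.range K).filter fun k => ∃ k' < K, k' ≠ k ∧
      BadQ XS Bd (c k') (X.drop (c k) ++ X2)).card < 2 * C0 + 2 := by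
    intro X hX _ X2 hX2
    refine count (W' := Wt n Sw (X ++ X2)) hp0 hres hcnt (by omega) (W := 2 * p0 + 2 * N1 + 1)
      (by omega) (fun x y hx hy h => Wt.gap hgap hx hy h) (z := z) _ ?_
    intro k hk
    obtain ⟨hk1, k', hk', hne, u, R, S', hu, e, hXu, hbd⟩ := Finset.mem_filter.1 hk
    have hkK := Finset.mem_range.1 hk1
    have hck := hp0 k hkK
    have hck' := hp0 k' hk'
    have hXl := hlen X hX
    have ht : X ++ X2 = X.take (c k) ++ (R ++ S') := by
      rw [← e, ← List.append_assoc, List.take_append_drop]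
    have hPl : (X.take (c k)).length = c k := by rw [List.length_take]; omega
    have key : ∀ y, c k' + n ≤ y → y ≤ c k' + R.length →
        (Wt n Sw (u ++ R) y ↔ Wt n Sw (X ++ X2) (c k + y - c k')) := by
      intro y hy1 hy2
      rw [ht, Wt.right (by omega), Wt.right (by omega), Wt.left (by omega)]
      have e1 : y - u.length = c k + y - c k' - (X.take (c k)).length := by omega
      rw [e1]
    obtain ⟨a1, a2, a3⟩ := XX_iff.1 hXu
    rw [List.length_append, hu] at a1 a2 a3
    refine ⟨hkK, k', hk', hne, c k + R.length, ?_, by omega, ?_, ?_⟩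
    · have := (key _ (by omega) le_rfl).1 a2
      have e1 : c k + (c k' + R.length) - c k' = c k + R.length := by omega
      rwa [e1] at this
    · intro x hx1 hx2 hx3
      refine a3 (x + c k' - c k) (by omega) (by omega) ((key _ (by omega) (by omega)).2 ?_)
      have e1 : c k + (x + c k' - c k) - c k' = x := by omega
      rwa [e1]
    · rcases hbd with hE | hB
      · left
        rcases hE with hE | ⟨t, ht1, ht2, ht3, ht4⟩
        · rw [List.length_append, hu] at hE
          refine ⟨c k + R.length, ?_, by omega, by omega⟩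
          have := (key _ (by omega) le_rfl).1 a2
          have e1 : c k + (c k' + R.length) - c k' = c k + R.length := by omega
          rwa [e1] at this
        · rw [List.length_append, hu] at ht3
          refine ⟨c k + t - c k', (key t (by omega) (by omega)).1
            ⟨by rw [List.length_append]; omega, ht4⟩, by omega, by omega⟩
      · right
        rw [List.length_append, hu] at hB
        have e1 : c k' + R.length - p0 = c k + R.length + c k' - c k - p0 := by omega
        rwa [e1] at hB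
  obtain ⟨-, h2b, h2c⟩ := h2 p0 XS Bd nu1 hp0 hlen hPC2
    (fun u u' r h3 h4 h5 => loc_XX h3 (by omega) h5)
    (fun k hk k' hk' u u' r X2 _ h4 _ h6 => geo_XX
      (by rw [h4]; have := hp0 k' hk'; omega) (by omega) h6)
    hspoil
  let nu : List A → V := fun X => act (nu2 (X.take p0)) (pr φ (X.drop p0)) + nu1 (X.drop p0)
  let T : V → List A → V := fun v X => act v (X.map φ).prod + nu X
  have hT : ∀ v X, TT φ act p0 nu2 nu1 v X = T v X := by
    intro v X
    show act (act v (pr φ (X.take p0)) + nu2 (X.take p0)) (pr φ (X.drop p0)) + nu1 (X.drop p0) =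
      act v (X.map φ).prod + (act (nu2 (X.take p0)) (pr φ (X.drop p0)) + nu1 (X.drop p0))
    rw [hadd, ← hmul, add_assoc]
    congr 2
    show (pr φ (X.take p0)) * (pr φ (X.drop p0)) = _
    unfold pr
    rw [← List.prod_append, ← List.map_append, List.take_append_drop]
  let Bad : Set (List A) := {X | X ∈ XS ∧ Bd X}
  have hBX : Bad ⊆ XS := fun X hX => hX.1
  let LP1 : V → Language A := fun v => {Q | p0 ≤ Q.length ∧ Q.length ≤ p0 + N1 ∧
    lam1 (Q.drop p0) = some (act v (pr φ (Q.take p0)) + nu2 (Q.take p0))}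
  let LP2 : V → Language A := fun v => {Q | ∃ k < K, Q.length = c k ∧ lam2 k Q = some v}
  let L1 : V → List A → Prop := fun b Q => ∀ v, ∀ Pp, Pp.length ≤ p0 + N1 → Pp ∈ LP1 v →
    Pp ++ Q ∈ XS ∧ T v (Pp ++ Q) = b
  let H2 : V → V → List A → Prop := fun v b w => (∀ X, (X ∈ XS ∧ ¬ Bd X) → ¬ X <+: w) →
    ∃ v' : V, ∃ x y, w = x ++ y ∧ (x ∈ XS ∧ T v x = v') ∧ (y ∈ XS ∧ T v' y = b)
  let L2 : V → List A → Prop := fun b Q => ∀ v, ∀ Pp, Pp.length ≤ p0 → Pp ∈ LP2 v →
    H2 v b (Pp ++ Q)
  let RQ1 : V → Language A := fun b => {Q | L1 b Q ∧ nw n Sw Q ≤ 2 * z + 2}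
  let RQ2 : V → Language A := fun b => {Q | L2 b Q ∧ nw n Sw Q ≤ 2 * z + 2}
  -- finite-state facts
  have fXS : FS (fun w : List A => w ∈ XS) := FS_XX z
  have fBd : FS (fun w : List A => Bd w) := (FS_EE z N1).or (FS_per hPm hper p0)
  have fnu1 : FS nu1 := FS_nu (φ := φ) hPm fun q q' b1 b2 b3 b4 b5 => (hr1 q q' b1 b2 b3 b4 b5).2
  have fT : ∀ v, FS (fun w : List A => T v w) := by
    intro v
    have h3 := FS.split (α := A) (p := p0) (g := fun u Y =>
      act (act v (pr φ u) + nu2 u) (pr φ Y) + nu1 Y) (fun u =>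
        (FS.prod φ).comp2 fnu1 (fun a b => act (act v (pr φ u) + nu2 u) a + b))
    exact h3.congr fun w => (hT v w).symm
  have fTe : ∀ v b, FS (fun w : List A => T v w = b) := fun v b => (fT v).comp (fun x => x = b)
  have fBad : FS (fun w : List A => w ∈ Bad) := fXS.and fBd
  have finB : ∀ B : ℕ, Finite {l : List A // l.length ≤ B} := fun B =>
    (List.finite_length_le A B).to_subtype
  have fL1 : ∀ b, FS (fun w : List A => L1 b w) := by
    intro b
    haveI := finB (p0 + N1)
    have h3 : FS (fun w : List A => ∀ i : V × {l : List A // l.length ≤ p0 + N1},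
        (i.2.1 ∈ LP1 i.1 → (i.2.1 ++ w ∈ XS ∧ T i.1 (i.2.1 ++ w) = b))) :=
      FS.all fun i => (FS.const _).imp ((fXS.lq i.2.1).and ((fTe i.1 b).lq i.2.1))
    refine h3.congr fun w => propext ⟨fun h i hi => h i.1 i.2.1 i.2.2 hi, fun h v Pp h4 h5 =>
      h (v, ⟨Pp, h4⟩) h5⟩
  have fH2 : ∀ v b, FS (fun w : List A => H2 v b w) := by
    intro v b
    exact (FS_prefix (fXS.and fBd.not)).imp (FS.exi fun v' =>
      FS.cat (fXS.and (fTe v v')) (fXS.and (fTe v' b)))
  have fL2 : ∀ b, FS (fun w : List A => L2 b w) := by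
    intro b
    haveI := finB p0
    have h3 : FS (fun w : List A => ∀ i : V × {l : List A // l.length ≤ p0},
        (i.2.1 ∈ LP2 i.1 → H2 i.1 b (i.2.1 ++ w))) :=
      FS.all fun i => (FS.const _).imp ((fH2 i.1 b).lq i.2.1)
    refine h3.congr fun w => propext ⟨fun h i hi => h i.1 i.2.1 i.2.2 hi, fun h v Pp h4 h5 =>
      h (v, ⟨Pp, h4⟩) h5⟩
  -- scheme 1
  have s1 : ∀ v b Pp Q, Pp ∈ LP1 v → Q ∈ RQ1 b →
      Pp ++ Q ∈ XS ∧ act v ((Pp ++ Q).map φ).prod + nu (Pp ++ Q) = b := by
    intro v b Pp Q hP hQ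
    exact hQ.1 v Pp hP.2.1 hP
  have c1 : ∀ X ∈ XS, X ∉ Bad → ∀ v, ∃ Pp Q, Pp ++ Q = X ∧ Pp ∈ LP1 v ∧
      Q ∈ RQ1 (act v (X.map φ).prod + nu X) := by
    intro X hX hnb v
    have hnBd : ¬ Bd X := fun h => hnb ⟨hX, h⟩
    have hnE : ¬ EE n Sw z N1 X := fun h => hnBd (Or.inl h)
    have hnB : ¬ BadN (X.length - p0) := fun h => hnBd (Or.inr h)
    obtain ⟨a1, a2, a3⟩ := XX_iff.1 hX
    have hXl : z + N1 ≤ X.length := by
      by_contra hcon
      exact hnE (Or.inl (by omega))
    have hX0 : (X.take p0).length = p0 := by rw [List.length_take]; omega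
    obtain ⟨p, q, hpq, hlp, hrq⟩ := hc1 (X.drop p0) (by rw [List.length_drop]; omega)
      (by rw [List.length_drop]; exact hnB) (act v (pr φ (X.take p0)) + nu2 (X.take p0))
    obtain ⟨r, hr⟩ := Option.isSome_iff_exists.1 hrq
    have hpN := hl1 _ _ hlp
    have hXe : (X.take p0 ++ p) ++ q = X := by
      rw [List.append_assoc, hpq, List.take_append_drop]
    have hql : p0 + p.length + q.length = X.length := by
      have := congrArg List.length hXe
      rw [List.length_append, List.length_append, hX0] at this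
      exact this
    have hTv : ∀ v' Pp, Pp ∈ LP1 v' → T v' (Pp ++ q) = r := by
      intro v' Pp hP
      obtain ⟨b1, b2, b3⟩ := hP
      have h4 := hs1 (Pp.drop p0) q _ r b3 hr (by omega)
      rw [← hT]
      show act (act v' (pr φ ((Pp ++ q).take p0)) + nu2 ((Pp ++ q).take p0))
        (pr φ ((Pp ++ q).drop p0)) + nu1 ((Pp ++ q).drop p0) = r
      rw [List.take_append_of_le_length b1, List.drop_append_of_le_length b1, h4]
      rfl
    have hPm1 : X.take p0 ++ p ∈ LP1 v := by
      refine ⟨by rw [List.length_append]; omega, by rw [List.length_append]; omega, ?_⟩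
      have e1 : (X.take p0 ++ p).drop p0 = p := by
        rw [List.drop_append_of_le_length (by omega), List.drop_of_length_le (by omega),
          List.nil_append]
      have e2 : (X.take p0 ++ p).take p0 = X.take p0 := by
        rw [List.take_append_of_le_length (by omega), List.take_of_length_le (by omega)]
      rw [e1, e2]
      exact hlp
    have hTX : T v X = r := by
      have := hTv v _ hPm1
      rwa [hXe] at this
    refine ⟨X.take p0 ++ p, q, hXe, hPm1, ⟨?_, nw_one (by omega) hX _ _ hXe⟩⟩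
    intro v' Pp _ hP
    refine ⟨?_, (hTv v' Pp hP).trans hTX.symm⟩
    obtain ⟨b1, b2, b3⟩ := hP
    have key : ∀ t, z ≤ t → (Wt n Sw (Pp ++ q) t ↔ Wt n Sw X (t - Pp.length + (p0 + p.length))) := by
      intro t ht
      rw [← hXe, Wt.right (by omega), Wt.right (by
        rw [List.length_append, hX0]; omega), List.length_append, hX0]
      have e1 : t - Pp.length + (p0 + p.length) - (p0 + p.length) = t - Pp.length := by omega
      rw [e1]
    refine XX_iff.2 ⟨by rw [List.length_append]; omega, ?_, ?_⟩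
    · rw [List.length_append, key _ (by omega)]
      have e1 : Pp.length + q.length - Pp.length + (p0 + p.length) = X.length := by omega
      rw [e1]
      exact a2
    · intro t ht1 ht2 ht3
      rw [List.length_append] at ht2
      rw [key t ht1] at ht3
      rcases Nat.lt_or_ge (t - Pp.length + (p0 + p.length)) z with h5 | h5
      · exact hnE (Or.inr ⟨_, by omega, h5, by omega, ht3.2⟩)
      · exact a3 _ h5 (by omega) ht3
  -- scheme 2
  have s2 : ∀ v b Pp Q r, Pp ∈ LP2 v → Q ∈ RQ2 b → Pp ++ Q ++ r ∈ Str Bad →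
      Pp ++ Q ∈ Lg Bad (fun v X => act v (X.map φ).prod + nu X) v b := by
    intro v b Pp Q r hP hQ hr
    obtain ⟨l, hl, he⟩ := hr
    obtain ⟨k, hk, hk1, _⟩ := id hP
    have h3 := hQ.1 v Pp (by rw [hk1]; exact hp0 k hk) hP
    have hlX : ∀ X ∈ l, X ∈ XS := fun X hX => (hl X hX).1
    obtain ⟨v', x, y, hxy, ⟨hx1, hx2⟩, hy1, hy2⟩ := h3 (by
      rintro X ⟨hX1, hX2⟩ ⟨R, hR⟩
      obtain ⟨l', h4, _⟩ := Crest.Agent.R320.Top5_467.PCode.first hPC hX1 (r := R ++ r) l hlX (by
        rw [he, ← hR, List.append_assoc])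
      exact hX2 (hl X (by rw [h4]; simp)).2)
    obtain ⟨l', h4, h5⟩ := Crest.Agent.R320.Top5_467.PCode.first hPC hx1 (r := y ++ r) l hlX (by
        rw [he, hxy, List.append_assoc])
    obtain ⟨l'', h6, _⟩ := Crest.Agent.R320.Top5_467.PCode.first hPC hy1 (r := r) l'
      (fun X hX => hlX X (by rw [h4]; simp [hX])) h5
    have hxB : x ∈ Bad := hl x (by rw [h4]; simp)
    have hyB : y ∈ Bad := hl y (by rw [h4, h6]; simp)
    refine ⟨[x, y], ?_, ?_, ?_⟩
    · intro X hX
      simp only [List.mem_cons, List.not_mem_nil, or_false] at hX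
      rcases hX with rfl | rfl
      · exact hxB
      · exact hyB
    · rw [hxy]; simp
    · show T (T v x) y = b
      rw [hx2, hy2]
  have c2 : ∀ X ∈ Bad, ∀ X' ∈ Bad, ∀ v, ∃ Pp Q, Pp ++ Q = X ++ X' ∧ Pp ∈ LP2 v ∧
      Q ∈ RQ2 (act (act v (X.map φ).prod + nu X) (X'.map φ).prod + nu X') := by
    intro X hX X' hX' v
    obtain ⟨Pp, Q, h3, h4, h5, b, h6⟩ := h2c X hX.1 hX.2 X' hX'.1 v
    have hb : T (T v X) X' = b := by
      obtain ⟨Q1, X2, g1, g2, g3, g4, g5⟩ := h2b Pp v Q b h5 h6 (by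
        intro Q1 Q2 hq hQ1
        have : Pp ++ Q1 = X := by
          rcases List.prefix_or_prefix_of_prefix (l₁ := Pp ++ Q1) (l₂ := X) (l₃ := X ++ X')
            ⟨Q2, by rw [h3, hq, List.append_assoc]⟩ (List.prefix_append _ _) with h | h
          · exact hPC.2 _ hQ1 _ hX.1 h
          · exact (hPC.2 _ hX.1 _ hQ1 h).symm
        rw [this]; exact hX.2)
      have e1 : Pp ++ Q1 = X := by
        rcases List.prefix_or_prefix_of_prefix (l₁ := Pp ++ Q1) (l₂ := X) (l₃ := X ++ X')
          ⟨X2, by rw [h3, g1, List.append_assoc]⟩ (List.prefix_append _ _) with h | h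
        · exact hPC.2 _ g3 _ hX.1 h
        · exact (hPC.2 _ hX.1 _ g3 h).symm
      have e2 : X2 = X' := by
        have : X ++ X' = X ++ X2 := by rw [h3, g1, ← List.append_assoc, e1]
        exact (List.append_cancel_left this).symm
      rw [e1, e2, hT, hT] at g5
      exact g5
    refine ⟨Pp, Q, h3.symm, h5, ⟨?_, nw_two (by omega) hX.1 hX'.1 Pp Q h3.symm⟩⟩
    intro v' P' _ hP' hprem
    obtain ⟨Q1, X2, g1, g2, g3, g4, g5⟩ := h2b P' v' Q b hP' h6 (by
      intro Q1 Q2 hq hQ1
      by_contra hcon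
      exact hprem _ ⟨hQ1, hcon⟩ ⟨Q2, by rw [hq, List.append_assoc]⟩)
    rw [hT, hT] at g5
    exact ⟨T v' (P' ++ Q1), P' ++ Q1, X2, by rw [g1, List.append_assoc], ⟨g3, rfl⟩, g4,
      g5.trans hb.symm⟩
  -- heights
  have hL1 : ∀ v, HL 1 (LP1 v) := fun v => HL.finite
    ((List.finite_length_le A (p0 + N1)).subset fun w hw => hw.2.1)
  have hL2 : ∀ v, HL 1 (LP2 v) := fun v => HL.finite
    ((List.finite_length_le A p0).subset fun w hw => by
      obtain ⟨k, hk, hk1, _⟩ := hw
      show w.length ≤ p0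
      rw [hk1]; exact hp0 k hk)
  have hR1 : ∀ v, HL 1 (RQ1 v) := fun v => hfew _ (fL1 v).reg _
  have hR2 : ∀ v, HL 1 (RQ2 v) := fun v => hfew _ (fL2 v).reg _
  have hBad : HL 1 (Bad : Language A) := by
    refine (hfew _ fBad.reg (2 * z + 2)).congr fun w => ?_
    exact ⟨fun h => ⟨h, nw_one (by omega) h.1 [] w rfl⟩, fun h => h.1⟩
  have hD : ∀ v v', HL 1 ({X | X ∈ Bad ∧ act v (X.map φ).prod + nu X = v'} : Language A) := by
    intro v v'
    refine (hfew _ (fBad.and (fTe v v')).reg (2 * z + 2)).congr fun w => ?_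
    exact ⟨fun h => ⟨h, nw_one (by omega) h.1.1 [] w rfl⟩, fun h => h.1⟩
  have htail : ∀ s, HL 1 ({w | (∀ X ∈ XS, ¬ X <+: w) ∧ (w.map φ).prod = s} : Language A) := by
    intro s
    have h3 : FS (fun w : List A => (∀ X, X ∈ XS → ¬ X <+: w) ∧ (w.map φ).prod = s) :=
      (FS_prefix fXS).and ((FS.prod φ).comp (fun x => x = s))
    refine (hfew _ h3.reg (2 * z + 2)).congr fun w => ?_
    exact ⟨fun h => ⟨h, nw_tail h.1⟩, fun h => h.1⟩
  exact Crest.Agent.R320.Top5_467.top5 φ act hadd hone hmul hfaith nu XS Bad hPC hBX LP1 RQ1 LP2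
    RQ2 s1 c1 s2 c2 hBad hL2 hR2 (fun v => (hL1 v).mono (by omega))
    (fun v => (hR1 v).mono (by omega)) (fun v v' => (hD v v').mono (by omega))
    (fun s => (htail s).mono (by omega)) s

/-- **S0495 from the gadget** -/
theorem final (hU : ∀ (S V : Type) [Monoid S] [Finite S] [AddCommGroup V] [Finite V]
    (act : V → S → V), UGI S V act) {α : Type*} [Finite α] (L : Language α) (hL : L.IsRegular) :
    ∃ e : GRegExp α, e.height ≤ 3 ∧ e.lang = L := by
  refine transfer (k := 3) (fun β _ M _ _ φ s => ?_) α L hL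
  obtain ⟨act, h1, h2, h3, h4⟩ := exists_module M
  exact main φ act h1 h2 h3 h4 (hU M (M → ZMod 2) act) s

end Crest.Agent.R320.Int_431
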