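import Mathlib
import Crest.Agent.R320.ExactR_237

/-!
# Row 320: integration of the two schemes (helper785)

Natural chain rule (first left-looking wall at distance `≥ z`), content-free gadget 1 (693 / 638 / 852)
as hypothesis, exact gadget 2 (237), on all words.  Output: `cc` in the semantic form of 445.
-/

set_option autoImplicit false

namespace Crest.Agent.R320.Int_785

open Crest.Agent.R320.ExactR_237

/-- left-looking walls -/
structure Wa {A : Type} (n W : ℕ) (Wo : List A → Prop) : Prop where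
  loc : ∀ P Q : List A, n ≤ Q.length → (Wo (P ++ Q) ↔ Wo Q)
  len : ∀ P, Wo P → n ≤ P.length
  gap : ∀ (P : List A) (d : ℕ), Wo P → 0 < d → d ≤ W → ¬ Wo (P.take (P.length - d))

/-- the blocks -/
def XX {A : Type} (Wo : List A → Prop) (z : ℕ) : Set (List A) :=
  {X | z ≤ X.length ∧ Wo X ∧ ∀ t, z ≤ t → t < X.length → ¬ Wo (X.take t)}

section

variable {A S V : Type} [Monoid S] [AddCommGroup V]

/-- gadget 1, arithmetic part -/
structure Ar (C0 K N1 La : ℕ) (c : ℕ → ℕ) (Bad : ℕ → Prop) : Prop where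
  inc : ∀ i j, i < j → j < K → c i < c j
  sp : ∀ i j k l, i < K → j < K → k < K → l < K → i ≠ j → k ≠ l → (i, j) ≠ (k, l) →
    c i + c l + 4 * N1 < c k + c j ∨ c k + c j + 4 * N1 < c i + c l
  cnt : ∀ T, La ≤ T → ∀ F : Finset (ℕ × ℕ),
    (∀ ij ∈ F, ij.1 < K ∧ ij.2 < K ∧ ij.1 ≠ ij.2 ∧ Bad (T + c ij.2 - c ij.1)) → F.card ≤ C0

/-- gadget 1, word part -/
structure G1 (f : A → S) (act : V → S → V) (N1 La : ℕ) (Bad : ℕ → Prop)
    (lam rho : List A → Option V) (nu1 : List A → V) : Prop where
  short : ∀ P v, lam P = some v → P.length ≤ N1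
  sound : ∀ P Q v b, lam P = some v → rho Q = some b → La ≤ Q.length →
    b = act v (pr f (P ++ Q)) + nu1 (P ++ Q)
  compl : ∀ u, La ≤ u.length → ¬ Bad u.length → ∀ v, ∃ P Q, P ++ Q = u ∧ lam P = some v ∧
    (rho Q).isSome

/-- gadget 2 -/
structure G2 (f : A → S) (act : V → S → V) (R K : ℕ) (c : ℕ → ℕ)
    (lam2 : ℕ → List A → Option V) (rho2 : ℕ → List A → Option V) (nu2 : List A → V) : Prop where
  sound : ∀ k < K, ∀ (P Q : List A) (v b : V), P.length = c k →
    lam2 k P = some v → rho2 k Q = some b → b = act v (pr f (P ++ Q)) + nu2 (P ++ Q)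
  compl : ∀ (u : List A) (v : V), (∀ k < K, c k ≤ u.length) →
    ∃ I : Finset ℕ, R ≤ I.card ∧ ∀ k ∈ I, k < K ∧ lam2 k (u.take (c k)) = some v ∧
      (rho2 k (u.drop (c k))).isSome

/-- zone map -/
def T (f : A → S) (act : V → S → V) (p : ℕ) (nu1 nu2 : List A → V) (v : V) (X : List A) : V :=
  act (act v (pr f (X.take p)) + nu2 (X.take p)) (pr f (X.drop p)) + nu1 (X.drop p)

def LP1 (f : A → S) (act : V → S → V) (p : ℕ) (lam : List A → Option V) (nu2 : List A → V)
    (P : List A) (v : V) : Prop :=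
  p ≤ P.length ∧ lam (P.drop p) = some (act v (pr f (P.take p)) + nu2 (P.take p))

def LP2 (K : ℕ) (c : ℕ → ℕ) (lam2 : ℕ → List A → Option V) (P : List A) (v : V) : Prop :=
  ∃ k < K, P.length = c k ∧ lam2 k P = some v

/-- semantic right legality of level 1 -/
def Leg1 (XX : Set (List A)) (T : V → List A → V) (LP1 : List A → V → Prop) (Q : List A) (b : V) :
    Prop :=
  Q ≠ [] ∧ ∀ P v, LP1 P v → P ++ Q ∈ XX ∧ T v (P ++ Q) = b

/-- no cut of level 1 -/
def NC1 (XX : Set (List A)) (T : V → List A → V) (LP1 : List A → V → Prop) (P : List A) (v : V)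
    (Q : List A) : Prop :=
  ∀ X ∈ XX, X <+: P ++ Q → ∀ P' Q', X = P' ++ Q' → P.length ≤ P'.length → LP1 P' v →
    ∀ b, ¬ Leg1 XX T LP1 Q' b

variable {n W z p N1 La C0 K : ℕ} {Wo : List A → Prop} {c : ℕ → ℕ} {Bad : ℕ → Prop}
  {f : A → S} {act : V → S → V} {lam rho : List A → Option V} {nu1 nu2 : List A → V}
  {lam2 rho2 : ℕ → List A → Option V}

theorem wo_take_append (hW : Wa n W Wo) (P Q : List A) (t : ℕ) (h1 : P.length + n ≤ t)
    (h2 : t ≤ P.length + Q.length) :
    Wo ((P ++ Q).take t) ↔ Wo (Q.take (t - P.length)) := by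
  rw [List.take_append, List.take_of_length_le (by omega)]
  exact hW.loc _ _ (by rw [List.length_take]; omega)

/-- the wall band at the end of the zone -/
def EE (Wo : List A → Prop) (z N1 : ℕ) (X : List A) : Prop :=
  ∃ t, t ≤ X.length ∧ z ≤ t + N1 ∧ t ≤ z + N1 ∧ Wo (X.take t)

theorem junction (hW : Wa n W Wo) (hz : 3 * p + 3 * N1 + n + La + 1 ≤ z) {P Q : List A}
    (hX : P ++ Q ∈ XX Wo z) (hE : ¬ EE Wo z N1 (P ++ Q)) (h1 : p ≤ P.length)
    (h2 : P.length ≤ p + N1) {P' : List A} (h3 : p ≤ P'.length) (h4 : P'.length ≤ p + N1) :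
    P' ++ Q ∈ XX Wo z := by
  obtain ⟨hl, hw, hno⟩ := hX
  have hE' : ∀ t, t ≤ P.length + Q.length → z ≤ t + N1 → t ≤ z + N1 → ¬ Wo ((P ++ Q).take t) := by
    intro t a b c' d
    exact hE ⟨t, by rw [List.length_append]; exact a, b, c', d⟩
  rw [List.length_append] at hl
  have hend : z + N1 < P.length + Q.length := by
    by_contra hcon
    push Not at hcon
    refine hE' (P.length + Q.length) le_rfl (by omega) hcon ?_
    rw [List.take_of_length_le (by rw [List.length_append])]
    exact hw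
  have hQ : n ≤ Q.length := by omega
  refine ⟨by rw [List.length_append]; omega, (hW.loc P' Q hQ).2 ((hW.loc P Q hQ).1 hw), ?_⟩
  intro t' ht1 ht2 hwt
  rw [List.length_append] at ht2
  rw [wo_take_append hW P' Q t' (by omega) (by omega)] at hwt
  have e : Wo ((P ++ Q).take (P.length + (t' - P'.length))) := by
    rw [wo_take_append hW P Q _ (by omega) (by omega)]
    rw [Nat.add_sub_cancel_left]
    exact hwt
  by_cases hc : z ≤ P.length + (t' - P'.length)
  · exact hno _ hc (by rw [List.length_append]; omega) e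
  · exact hE' _ (by omega) (by omega) (by omega) e

theorem pr_append' (u v : List A) : pr f (u ++ v) = pr f u * pr f v := pr_append f u v

theorem T_append (P Q : List A) (h : p ≤ P.length) (v : V) :
    T f act p nu1 nu2 v (P ++ Q) =
      act (act v (pr f (P.take p)) + nu2 (P.take p)) (pr f (P.drop p ++ Q)) + nu1 (P.drop p ++ Q) := by
  unfold T
  rw [List.take_append_of_le_length h, List.drop_append_of_le_length h]

/-- completeness of scheme 1 off the bad set -/
theorem cc1 (hW : Wa n W Wo) (hz : 3 * p + 3 * N1 + n + La + 1 ≤ z)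
    (g1 : G1 f act N1 La Bad lam rho nu1) {X : List A} (hX : X ∈ XX Wo z)
    (hE : ¬ EE Wo z N1 X) (hB : ¬ Bad (X.length - p)) (v : V) :
    ∃ P Q, X = P ++ Q ∧ Q ≠ [] ∧ LP1 f act p lam nu2 P v ∧
      ∃ b, Leg1 (XX Wo z) (T f act p nu1 nu2) (LP1 f act p lam nu2) Q b := by
  have hl := hX.1
  have hY : (X.drop p).length = X.length - p := List.length_drop
  obtain ⟨P1, Q, hPQ, hlam, hrho⟩ := g1.compl (X.drop p) (by omega) (by rw [hY]; exact hB)
    (act v (pr f (X.take p)) + nu2 (X.take p))
  obtain ⟨b, hb⟩ := Option.isSome_iff_exists.1 hrho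
  have hP1 := g1.short _ _ hlam
  have hlen : P1.length + Q.length = X.length - p := by
    rw [← hY, ← hPQ, List.length_append]
  have htl : (X.take p).length = p := by rw [List.length_take]; omega
  have hXe : X = (X.take p ++ P1) ++ Q := by
    rw [List.append_assoc, hPQ, List.take_append_drop]
  have hPl : (X.take p ++ P1).length = p + P1.length := by rw [List.length_append, htl]
  have ht : (X.take p ++ P1).take p = X.take p := by
    rw [List.take_append_of_le_length (by omega), List.take_of_length_le (by omega)]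
  have hd : (X.take p ++ P1).drop p = P1 := by
    rw [List.drop_append, htl, List.drop_of_length_le (by omega)]; simp
  refine ⟨X.take p ++ P1, Q, hXe, ?_, ⟨by omega, ?_⟩, b, ?_, ?_⟩
  · intro h
    rw [h] at hlen
    simp at hlen
    omega
  · rw [hd, ht]; exact hlam
  · intro h
    rw [h] at hlen
    simp at hlen
    omega
  · intro P' v' hP'
    obtain ⟨h1, h2⟩ := hP'
    have h3 := g1.short _ _ h2
    rw [List.length_drop] at h3
    refine ⟨junction (p := p) (N1 := N1) (La := La) hW hz (P := X.take p ++ P1) (by rw [← hXe]; exact hX)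
      (by rw [← hXe]; exact hE) (by omega) (by omega) h1 (by omega), ?_⟩
    rw [T_append P' Q h1]
    exact (g1.sound _ _ _ _ h2 hb (by omega)).symm

theorem same_len (hW : Wa n W Wo) (hz : 3 * p + 3 * N1 + n + La + 1 ≤ z) {P P' Q : List A}
    (hX : P ++ Q ∈ XX Wo z) (h : P'.length = P.length) (hp : P.length ≤ p) :
    P' ++ Q ∈ XX Wo z := by
  obtain ⟨hl, hw, hno⟩ := hX
  rw [List.length_append] at hl
  have hQ : n ≤ Q.length := by omega
  refine ⟨by rw [List.length_append]; omega, (hW.loc P' Q hQ).2 ((hW.loc P Q hQ).1 hw), ?_⟩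
  intro t h1 h2 hwt
  rw [List.length_append] at h2
  rw [wo_take_append hW P' Q t (by omega) (by omega), h] at hwt
  exact hno t h1 (by rw [List.length_append]; omega)
    ((wo_take_append hW P Q t (by omega) (by omega)).2 hwt)

theorem gapU (hW : Wa n W Wo) {U : List A} {s s' : ℕ} (h : s < s') (h' : s' ≤ s + W)
    (hs' : s' ≤ U.length) (h1 : Wo (U.take s)) (h2 : Wo (U.take s')) : False := by
  have hl : (U.take s').length = s' := by rw [List.length_take]; omega
  have := hW.gap (U.take s') (s' - s) h2 (by omega) (by omega)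
  rw [hl, List.take_take] at this
  have e : min (s' - (s' - s)) s' = s := by omega
  rw [e] at this
  exact this h1

/-- the spoil count -/
theorem spoil (hW : Wa n W Wo) (hWW : 2 * p + 2 * N1 + 1 ≤ W)
    (hz : 3 * p + 3 * N1 + n + La + 1 ≤ z) (ar : Ar C0 K N1 La c Bad) (hc : ∀ k < K, c k ≤ p)
    (U : List A) (I : Finset ℕ) (hI : 2 * C0 + 2 ≤ I.card) (hIK : ∀ k ∈ I, k < K) :
    ∃ k ∈ I, ∀ k' < K, k' ≠ k →
      (∀ s ≤ U.length, Wo (U.take s) → z + c k ≤ s + c k' + N1 → s + c k' ≤ z + c k + N1 → False) ∧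
      (∀ s ≤ U.length, Wo (U.take s) → z + c k ≤ s + c k' →
        (∀ s' < s, Wo (U.take s') → s' + c k' < z + c k) → ¬ Bad (s + c k' - c k - p)) := by
  classical
  by_contra hcon
  push Not at hcon
  -- the two candidate walls
  obtain ⟨t1, ht1, hu1⟩ : ∃ t1, (z ≤ t1 + p + N1) ∧
      ∀ s ≤ U.length, Wo (U.take s) → z ≤ s + p + N1 → s ≤ z + p + N1 → s = t1 := by
    by_cases h : ∃ s ≤ U.length, Wo (U.take s) ∧ z ≤ s + p + N1 ∧ s ≤ z + p + N1
    · obtain ⟨t1, h1, h2, h3, h4⟩ := h
      refine ⟨t1, h3, fun s a b c' d => ?_⟩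
      rcases lt_trichotomy s t1 with hlt | heq | hgt
      · exact (gapU hW hlt (by omega) h1 b h2).elim
      · exact heq
      · exact (gapU hW hgt (by omega) a h2 b).elim
    · exact ⟨z, by omega, fun s a b c' d => (h ⟨s, a, b, c', d⟩).elim⟩
  obtain ⟨t2, ht2, hu2⟩ : ∃ t2, z + p ≤ t2 ∧
      ∀ s ≤ U.length, Wo (U.take s) → z + p < s →
        (∀ s' < s, Wo (U.take s') → s' ≤ z + p) → s = t2 := by
    by_cases h : ∃ s, s ≤ U.length ∧ Wo (U.take s) ∧ z + p < s
    · refine ⟨Nat.find h, (Nat.find_spec h).2.2.le, fun s a b c' d => ?_⟩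
      have hle : Nat.find h ≤ s := Nat.find_min' h ⟨a, b, c'⟩
      rcases Nat.lt_or_ge (Nat.find h) s with hlt | hge
      · have := d _ hlt (Nat.find_spec h).2.1
        have := (Nat.find_spec h).2.2
        omega
      · omega
    · exact ⟨z + p, le_rfl, fun s a b c' d => (h ⟨s, a, b, c'⟩).elim⟩
  let F : ℕ → Finset (ℕ × ℕ) := fun t => (Finset.range K ×ˢ Finset.range K).filter
    fun ij => ij.1 ≠ ij.2 ∧ Bad (t - p + c ij.2 - c ij.1)
  have hF : ∀ t, La + p ≤ t → (F t).card ≤ C0 := by
    intro t ht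
    refine ar.cnt (t - p) (by omega) (F t) fun ij hij => ?_
    rw [Finset.mem_filter, Finset.mem_product, Finset.mem_range, Finset.mem_range] at hij
    exact ⟨hij.1.1, hij.1.2, hij.2.1, hij.2.2⟩
  let G : Finset (ℕ × ℕ) := (Finset.range K ×ˢ Finset.range K).filter
    fun ij => ij.1 ≠ ij.2 ∧ z + c ij.1 ≤ t1 + c ij.2 + N1 ∧ t1 + c ij.2 ≤ z + c ij.1 + N1
  have hG : G.card ≤ 1 := by
    rw [Finset.card_le_one]
    rintro ⟨i, j⟩ hij ⟨k, l⟩ hkl
    rw [Finset.mem_filter, Finset.mem_product, Finset.mem_range, Finset.mem_range] at hij hkl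
    by_contra hne
    obtain ⟨⟨a1, a2⟩, a3, a4, a5⟩ := hij
    obtain ⟨⟨b1, b2⟩, b3, b4, b5⟩ := hkl
    simp only at a1 a2 a3 a4 a5 b1 b2 b3 b4 b5
    rcases ar.sp i j k l a1 a2 b1 b2 a3 b3 hne with h | h <;> omega
  have hsub : I ⊆ ((F t1 ∪ F t2) ∪ G).image Prod.fst := by
    intro k hk
    have hkK := hIK k hk
    have hck := hc k hkK
    obtain ⟨k', hk', hne, h⟩ := hcon k hk
    have hck' := hc k' hk'
    rw [Finset.mem_image]
    refine ⟨(k, k'), ?_, rfl⟩
    rw [Finset.mem_union, Finset.mem_union]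
    by_cases hA : ∀ s ≤ U.length, Wo (U.take s) → z + c k ≤ s + c k' + N1 →
        s + c k' ≤ z + c k + N1 → False
    · obtain ⟨s, b1, b2, b3, b4, b5⟩ := h hA
      left
      rcases Nat.lt_or_ge (z + p) s with hlt | hge
      · right
        have hs : s = t2 := hu2 s b1 b2 hlt fun s' h1 h2 => by
          have := b4 s' h1 h2; omega
        rw [Finset.mem_filter, Finset.mem_product, Finset.mem_range, Finset.mem_range]
        refine ⟨⟨hkK, hk'⟩, fun h => hne h.symm, ?_⟩
        have e : t2 - p + c k' - c k = s + c k' - c k - p := by omega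
        show Bad (t2 - p + c k' - c k)
        rw [e]; exact b5
      · left
        have hs : s = t1 := hu1 s b1 b2 (by omega) (by omega)
        rw [Finset.mem_filter, Finset.mem_product, Finset.mem_range, Finset.mem_range]
        refine ⟨⟨hkK, hk'⟩, fun h => hne h.symm, ?_⟩
        have e : t1 - p + c k' - c k = s + c k' - c k - p := by omega
        show Bad (t1 - p + c k' - c k)
        rw [e]; exact b5
    · push Not at hA
      obtain ⟨s, b1, b2, b3, b4, -⟩ := hA
      right
      have hs : s = t1 := hu1 s b1 b2 (by omega) (by omega)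
      rw [Finset.mem_filter, Finset.mem_product, Finset.mem_range, Finset.mem_range]
      subst hs
      exact ⟨⟨hkK, hk'⟩, fun h => hne h.symm, b3, b4⟩
  have h1 := Finset.card_le_card hsub
  have h2 : (((F t1 ∪ F t2) ∪ G).image Prod.fst).card ≤ ((F t1 ∪ F t2) ∪ G).card :=
    Finset.card_image_le
  have h3 := Finset.card_union_le (F t1 ∪ F t2) G
  have h4 := Finset.card_union_le (F t1) (F t2)
  have h5 := hF t1 (by omega)
  have h6 := hF t2 (by omega)
  omega

/-- **every block is cut by scheme 2** (its soundness is only promised on blocks which are not cut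
by scheme 1) -/
theorem cc2 (hW : Wa n W Wo) (hWW : 2 * p + 2 * N1 + 1 ≤ W)
    (hz : 3 * p + 3 * N1 + n + La + 1 ≤ z) (ar : Ar C0 K N1 La c Bad) (hc : ∀ k < K, c k ≤ p)
    (g1 : G1 f act N1 La Bad lam rho nu1) (g2 : G2 f act (2 * C0 + 2) K c lam2 rho2 nu2)
    {X X2 : List A} (hX : X ∈ XX Wo z) (hX2 : X2 ∈ XX Wo z) (v : V) :
    ∃ P Q, X ++ X2 = P ++ Q ∧ P.length < X.length ∧ LP2 K c lam2 P v ∧ ∃ b, ∀ P' v',
      LP2 K c lam2 P' v' → NC1 (XX Wo z) (T f act p nu1 nu2) (LP1 f act p lam nu2) P' v' Q →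
      ∃ Q1 X2', Q = Q1 ++ X2' ∧ Q1 ≠ [] ∧ P' ++ Q1 ∈ XX Wo z ∧ X2' ∈ XX Wo z ∧
        T f act p nu1 nu2 (T f act p nu1 nu2 v' (P' ++ Q1)) X2' = b := by
  classical
  have hl := hX.1
  have hl2 := hX2.1
  have htl : (X.take p).length = p := by rw [List.length_take]; omega
  obtain ⟨I, hI, hIp⟩ := g2.compl (X.take p) v (fun k hk => by rw [htl]; exact hc k hk)
  obtain ⟨k, hkI, hk⟩ := spoil hW hWW hz ar hc (X ++ X2) I hI (fun k hk => (hIp k hk).1)
  obtain ⟨hkK, hlam, hrho⟩ := hIp k hkI
  have hck := hc k hkK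
  obtain ⟨b2, hb2⟩ := Option.isSome_iff_exists.1 hrho
  have hPl : (X.take (c k)).length = c k := by rw [List.length_take]; omega
  have htt : (X.take p).take (c k) = X.take (c k) := by
    rw [List.take_take, Nat.min_eq_left hck]
  rw [htt] at hlam
  have hU : X ++ X2 = X.take (c k) ++ (X.drop (c k) ++ X2) := by
    rw [← List.append_assoc, List.take_append_drop]
  have hdl : (X.drop (c k)).length = X.length - c k := List.length_drop
  refine ⟨X.take (c k), X.drop (c k) ++ X2, hU, by omega, ⟨k, hkK, hPl, hlam⟩,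
    T f act p nu1 nu2 (T f act p nu1 nu2 v X) X2, ?_⟩
  rintro P' v' ⟨k', hk', hlen', hlam'⟩ hNC
  have hck' := hc k' hk'
  by_cases hkk : k' = k
  · subst hkk
    refine ⟨X.drop (c k'), X2, rfl, ?_, same_len (p := p) (N1 := N1) (La := La) hW hz
      (P := X.take (c k')) (by rw [List.take_append_drop]; exact hX) (by omega) (by omega), hX2, ?_⟩
    · intro h
      have := congrArg List.length h
      rw [hdl, List.length_nil] at this
      omega
    · have e1 : (P' ++ X.drop (c k')).take p = P' ++ (X.take p).drop (c k') := by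
        rw [List.take_append, List.take_of_length_le (by omega), hlen', List.drop_take]
      have e2 : (P' ++ X.drop (c k')).drop p = X.drop p := by
        rw [List.drop_append, List.drop_of_length_le (by omega), List.nil_append, List.drop_drop,
          hlen']
        congr 1
        omega
      have e3 : X.take (c k') ++ (X.take p).drop (c k') = X.take p := by
        rw [← htt, List.take_append_drop]
      have s1 := g2.sound k' hk' P' _ v' b2 hlen' hlam' hb2
      have s2 := g2.sound k' hk' _ _ v b2 hPl hlam hb2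
      rw [e3] at s2
      have : T f act p nu1 nu2 v' (P' ++ X.drop (c k')) = T f act p nu1 nu2 v X := by
        unfold T
        rw [e1, e2, ← s1, ← s2]
      rw [this]
  · exfalso
    obtain ⟨hkE, hkB⟩ := hk k' hk' hkk
    have hex : ∃ s, s ≤ (X ++ X2).length ∧ Wo ((X ++ X2).take s) ∧ z + c k ≤ s + c k' := by
      refine ⟨(X ++ X2).length, le_rfl, ?_, by rw [List.length_append]; omega⟩
      rw [List.take_of_length_le le_rfl]
      exact (hW.loc X X2 (by omega)).2 hX2.2.1
    obtain ⟨hs1, hs2, hs3⟩ := Nat.find_spec hex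
    have hmin : ∀ s' < Nat.find hex, ¬ (s' ≤ (X ++ X2).length ∧ Wo ((X ++ X2).take s') ∧
        z + c k ≤ s' + c k') := fun s' h => Nat.find_min hex h
    set s := Nat.find hex with hsdef
    have hUl : (X ++ X2).length = c k + (X.drop (c k) ++ X2).length := by
      rw [hU, List.length_append, hPl]
    have hul : (P' ++ (X.drop (c k) ++ X2)).length = c k' + (X.drop (c k) ++ X2).length := by
      rw [List.length_append, hlen']
    have hwall : ∀ t, c k' + n ≤ t → t ≤ c k' + (X.drop (c k) ++ X2).length →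
        (Wo ((P' ++ (X.drop (c k) ++ X2)).take t) ↔ Wo ((X ++ X2).take (t + c k - c k'))) := by
      intro t h1 h2
      rw [wo_take_append hW P' _ t (by omega) (by omega), hU,
        wo_take_append hW (X.take (c k)) _ (t + c k - c k') (by omega) (by omega), hPl, hlen']
      have : t + c k - c k' - c k = t - c k' := by omega
      rw [this]
    set t' := s + c k' - c k with ht'
    have hXl : ((P' ++ (X.drop (c k) ++ X2)).take t').length = t' := by
      rw [List.length_take]; omega
    have hX' : (P' ++ (X.drop (c k) ++ X2)).take t' ∈ XX Wo z := by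
      refine ⟨by omega, ?_, ?_⟩
      · rw [hwall t' (by omega) (by omega)]
        have : t' + c k - c k' = s := by omega
        rw [this]; exact hs2
      · intro t h1 h2 hwt
        rw [hXl] at h2
        rw [List.take_take, Nat.min_eq_left h2.le, hwall t (by omega) (by omega)] at hwt
        exact hmin (t + c k - c k') (by omega) ⟨by omega, hwt, by omega⟩
    have hE' : ¬ EE Wo z N1 ((P' ++ (X.drop (c k) ++ X2)).take t') := by
      rintro ⟨t, h1, h2, h3, hwt⟩
      rw [hXl] at h1
      rw [List.take_take, Nat.min_eq_left h1, hwall t (by omega) (by omega)] at hwt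
      exact hkE (t + c k - c k') (by omega) hwt (by omega) (by omega)
    have hB' : ¬ Bad (((P' ++ (X.drop (c k) ++ X2)).take t').length - p) := by
      rw [hXl]
      refine hkB s hs1 hs2 hs3 fun s' h1 h2 => ?_
      by_contra hcon
      push Not at hcon
      exact hmin s' h1 ⟨by omega, h2, hcon⟩
    obtain ⟨P'', Q'', he, hne, hLP, b, hLeg⟩ := cc1 (nu2 := nu2) hW hz g1 hX' hE' hB' v'
    exact hNC _ hX' (List.take_prefix _ _) P'' Q'' he (by rw [hlen']; exact hck'.trans hLP.1) hLP b hLeg

end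

end Crest.Agent.R320.Int_785
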