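import Mathlib

/-!
Row 320: the two concrete schemes on blocks (left-looking walls, prefix code, semantic legality).
From an abstract zone gadget (scheme 1), an exact redundant gadget (scheme 2), a wall rule and
residue thresholds: the statements (s1), (s2), (cc) of the top theorem (163's literal form).
-/

set_option autoImplicit false

namespace Crest.Agent.R320.Int_798

open Finset

structure Dat (α S V : Type*) [Monoid S] [AddCommGroup V] where
  φ : List α → S
  act : V → S → V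
  Wo : List α → Prop
  no : ℕ
  W : ℕ
  thr : ℕ → ℕ
  Z0 : ℕ
  Z1 : ℕ
  Mp : ℕ
  N : ℕ
  p0 : ℕ
  K : ℕ
  L : ℕ
  C0 : ℕ
  x : ℕ → ℕ
  lam : List α → Option V
  rho : List α → Option V
  nu1 : List α → V
  lam2 : ℕ → List α → Option V
  rho2 : ℕ → List α → Option V
  nu2 : List α → V
  BadT : ℕ → Prop

variable {α S V : Type*} [Monoid S] [AddCommGroup V]

namespace Dat

variable (D : Dat α S V)

/-- position `t` of `w` is a qualified wall -/
def Qual (t : ℕ) (w : List α) : Prop := D.Wo (w.take t) ∧ D.thr (t % D.Mp) ≤ t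

/-- the block code -/
def XX : Set (List α) := {X | D.Qual X.length X ∧ ∀ t < X.length, ¬ D.Qual t X}

def T (v : V) (X : List α) : V :=
  D.act (D.act v (D.φ (X.take D.p0)) + D.nu2 (X.take D.p0)) (D.φ (X.drop D.p0)) + D.nu1 (X.drop D.p0)

def LP1 (P : List α) (v : V) : Prop :=
  D.p0 ≤ P.length ∧ D.lam (P.drop D.p0) = some (D.act v (D.φ (P.take D.p0)) + D.nu2 (P.take D.p0))

/-- right-legal text for scheme 1 -/
def Leg1 (Q : List α) : Prop :=
  ∀ P : List α, D.p0 ≤ P.length → P.length ≤ D.p0 + D.N → D.Mp ∣ P.length - D.p0 → P ++ Q ∈ D.XX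

open Classical in
noncomputable def R1 (Q : List α) : Option V := if D.Leg1 Q then D.rho Q else none

def Cut1 (X : List α) (v : V) : Prop := ∃ P Q, X = P ++ Q ∧ D.LP1 P v ∧ (D.R1 Q).isSome

def Bad (X : List α) : Prop := ∃ v, ¬ D.Cut1 X v

def LP2 (P : List α) (v : V) : Prop := ∃ k < D.K, P.length = D.x k ∧ D.lam2 k P = some v

def Alive (k : ℕ) (q : List α) : Prop :=
  ∃ P : List α, P.length = D.x k ∧ ∃ X ∈ D.XX, D.Bad X ∧ X <+: P ++ q

def Rel (q : List α) (b : V) : Prop :=
  ∃ k < D.K, D.Alive k q ∧ (∀ k' < D.K, D.Alive k' q → k' = k) ∧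
    ∃ (Q1 Y X2 : List α) (c : V), q = Q1 ++ (Y ++ X2) ∧ D.x k + Q1.length = D.p0 ∧ X2 ∈ D.XX ∧
      (∀ P : List α, P.length = D.x k → P ++ (Q1 ++ Y) ∈ D.XX) ∧ D.rho2 k Q1 = some c ∧
      b = D.T (D.act c (D.φ Y) + D.nu1 Y) X2

open Classical in
noncomputable def R2 (q : List α) : Option V := if h : ∃ b, D.Rel q b then some h.choose else none

structure Ok : Prop where
  hφ : ∀ u v, D.φ (u ++ v) = D.φ u * D.φ v
  hWo : ∀ P Q : List α, D.no ≤ Q.length → (D.Wo (P ++ Q) ↔ D.Wo Q)
  hsep : ∀ (w : List α) (t t' : ℕ), t < t' → t' ≤ w.length → D.Wo (w.take t) → D.Wo (w.take t') →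
    D.W < t' - t
  hMp : 0 < D.Mp
  hthr0 : ∀ r, D.Z0 ≤ D.thr r
  hthr1 : ∀ r, D.thr r ≤ D.Z1
  hthrsep : ∀ r r', r < D.Mp → r' < D.Mp → D.thr r ≤ D.thr r' + (2 * D.N + 2 * D.L) →
    D.thr r' ≤ D.thr r + (2 * D.N + 2 * D.L) → r = r'
  hZ0 : D.p0 + 2 * D.N + D.no + D.L + 1 ≤ D.Z0
  hZ1 : D.Z1 + D.L ≤ 2 * D.Z0
  hW : D.Z1 + 2 * D.N + 2 * D.L + 2 ≤ D.Z0 + D.W
  hx : ∀ k < D.K, D.x k ≤ D.L
  hL : D.L ≤ D.p0
  golomb : ∀ a b c d, a < D.K → b < D.K → c < D.K → d < D.K →
    (D.Mp : ℤ) ∣ ((D.x a : ℤ) - D.x b) - (D.x c - D.x d) → (a = c ∧ b = d) ∨ (a = b ∧ c = d)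
  lam_len : ∀ p v, D.lam p = some v → D.Mp ∣ p.length ∧ p.length ≤ D.N
  ug_sound : ∀ p q v r, D.lam p = some v → D.rho q = some r →
    r = D.act v (D.φ (p ++ q)) + D.nu1 (p ++ q)
  ug_complete : ∀ u, 2 * D.N ≤ u.length → ¬ D.BadT u.length → ∀ v, ∃ p q, p ++ q = u ∧
    D.lam p = some v ∧ (D.rho q).isSome
  ug_spoil : ∀ T, D.N ≤ T → ∀ A : Finset ℕ, (∀ b ∈ A, b < D.K ∧ ∃ a < D.K, a ≠ b ∧
    D.BadT (T + D.x a - D.x b)) → A.card ≤ D.C0
  ex_sound : ∀ k < D.K, ∀ P Q v b, P.length = D.x k → D.lam2 k P = some v → D.rho2 k Q = some b →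
    b = D.act v (D.φ (P ++ Q)) + D.nu2 (P ++ Q)
  ex_complete : ∀ (u : List α) (v : V), u.length = D.p0 → ∃ I : Finset ℕ, 2 * D.C0 + 2 ≤ I.card ∧
    ∀ k ∈ I, k < D.K ∧ D.lam2 k (u.take (D.x k)) = some v ∧ (D.rho2 k (u.drop (D.x k))).isSome

variable {D}

theorem xx_len (h : D.Ok) {X : List α} (hX : X ∈ D.XX) : D.Z0 ≤ X.length :=
  le_trans (h.hthr0 _) hX.1.2

theorem xx_wo {X : List α} (hX : X ∈ D.XX) : D.Wo X := by
  have := hX.1.1
  rwa [List.take_length] at this

theorem pc {X Y : List α} (hX : X ∈ D.XX) (hXY : X ++ Y ∈ D.XX) : Y = [] := by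
  by_contra hne
  have hpos : 0 < Y.length := List.length_pos_iff.2 hne
  refine hXY.2 X.length (by rw [List.length_append]; omega) ⟨?_, hX.1.2⟩
  rw [List.take_left]
  exact xx_wo hX

theorem pc' {X X' : List α} (hX : X ∈ D.XX) (hX' : X' ∈ D.XX) (h : X <+: X') : X = X' := by
  obtain ⟨Y, rfl⟩ := h
  rw [pc hX hX', List.append_nil]

theorem pc_cmp {X X' w : List α} (hX : X ∈ D.XX) (hX' : X' ∈ D.XX) (h : X <+: w) (h' : X' <+: w) :
    X = X' := by
  rcases List.prefix_or_prefix_of_prefix h h' with h1 | h1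
  · exact pc' hX hX' h1
  · exact (pc' hX' hX h1).symm

theorem take_app (P u : List α) (t : ℕ) (ht : P.length ≤ t) :
    (P ++ u).take t = P ++ u.take (t - P.length) := by
  rw [List.take_append, List.take_of_length_le ht]

/-- walls far behind `P` do not depend on `P` -/
theorem wo_exchange (h : D.Ok) (P P' u : List α) (t : ℕ) (ht : D.no ≤ t) (htu : t ≤ u.length) :
    D.Wo ((P ++ u).take (P.length + t)) ↔ D.Wo ((P' ++ u).take (P'.length + t)) := by
  rw [take_app P u _ (by omega), take_app P' u _ (by omega)]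
  have e1 : P.length + t - P.length = t := by omega
  have e2 : P'.length + t - P'.length = t := by omega
  rw [e1, e2, h.hWo _ _ (by rw [List.length_take]; omega), h.hWo _ _ (by rw [List.length_take]; omega)]

theorem exchange (h : D.Ok) {P P' u : List α} (hP : P.length = P'.length)
    (hl : P.length + D.no ≤ D.Z0) (hX : P ++ u ∈ D.XX) : P' ++ u ∈ D.XX := by
  have key : ∀ t, t ≤ (P ++ u).length → (D.Qual t (P' ++ u) → D.Qual t (P ++ u)) := by
    intro t ht hq
    refine ⟨?_, hq.2⟩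
    have h0 : D.Z0 ≤ t := le_trans (h.hthr0 _) hq.2
    have h1 := hq.1
    rw [List.length_append] at ht
    have e1 : t = P'.length + (t - P'.length) := by omega
    have e2 : t = P.length + (t - P.length) := by omega
    rw [e1] at h1
    rw [e2]
    have e3 : t - P.length = t - P'.length := by omega
    rw [e3]
    exact (wo_exchange h P' P u _ (by omega) (by omega)).1 h1
  have key' : ∀ t, t ≤ (P ++ u).length → (D.Qual t (P ++ u) → D.Qual t (P' ++ u)) := by
    intro t ht hq
    refine ⟨?_, hq.2⟩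
    have h0 : D.Z0 ≤ t := le_trans (h.hthr0 _) hq.2
    have h1 := hq.1
    rw [List.length_append] at ht
    have e1 : t = P'.length + (t - P'.length) := by omega
    have e2 : t = P.length + (t - P.length) := by omega
    rw [e2] at h1
    rw [e1]
    have e3 : t - P.length = t - P'.length := by omega
    rw [e3] at h1
    exact (wo_exchange h P P' u _ (by omega) (by omega)).1 h1
  have hlen : (P' ++ u).length = (P ++ u).length := by simp [hP]
  refine ⟨?_, ?_⟩
  · rw [hlen]
    exact key' _ le_rfl hX.1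
  · intro t ht hq
    rw [hlen] at ht
    exact hX.2 t ht (key t ht.le hq)

theorem exists_first {w : List α} {t : ℕ} (ht : t ≤ w.length) (hq : D.Qual t w) :
    ∃ X ∈ D.XX, X <+: w := by
  classical
  have hex : ∃ t, t ≤ w.length ∧ D.Qual t w := ⟨t, ht, hq⟩
  obtain ⟨h1, h2⟩ := Nat.find_spec hex
  have hmin : ∀ s < Nat.find hex, ¬ (s ≤ w.length ∧ D.Qual s w) := fun s hs => Nat.find_min hex hs
  set t0 := Nat.find hex
  have hlen : (w.take t0).length = t0 := by rw [List.length_take]; omega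
  refine ⟨w.take t0, ⟨?_, ?_⟩, List.take_prefix _ _⟩
  · rw [hlen]
    refine ⟨?_, h2.2⟩
    rw [List.take_take, min_self]
    exact h2.1
  · intro s hs hqs
    rw [hlen] at hs
    refine hmin s hs ⟨by omega, ?_, hqs.2⟩
    have := hqs.1
    rwa [List.take_take, min_eq_left hs.le] at this

/-- (s1) -/
theorem s1 (h : D.Ok) {P Q : List α} {v b : V} (hP : D.LP1 P v) (hQ : D.R1 Q = some b) :
    P ++ Q ∈ D.XX ∧ D.T v (P ++ Q) = b := by
  classical
  unfold R1 at hQ
  split_ifs at hQ with hleg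
  obtain ⟨hp, hl⟩ := hP
  obtain ⟨hd, hn⟩ := h.lam_len _ _ hl
  rw [List.length_drop] at hd hn
  refine ⟨hleg P hp (by omega) hd, ?_⟩
  have := h.ug_sound _ _ _ _ hl hQ
  unfold T
  rw [List.take_append_of_le_length hp, List.drop_append_of_le_length hp]
  exact this.symm

theorem r1_some {Q : List α} (hQ : (D.R1 Q).isSome) : D.Leg1 Q := by
  classical
  unfold R1 at hQ
  split_ifs at hQ with hleg
  · exact hleg
  · simp at hQ

theorem rel_of_r2 {q : List α} {b : V} (h : D.R2 q = some b) : D.Rel q b := by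
  classical
  unfold R2 at h
  split_ifs at h with h1
  have := h1.choose_spec
  rw [Option.some.injEq] at h
  rwa [h] at this

theorem r2_of_rel {q : List α} {b : V} (h : D.Rel q b) : (D.R2 q).isSome := by
  classical
  unfold R2
  rw [dif_pos ⟨b, h⟩]
  rfl

/-- (s2) -/
theorem s2 (h : D.Ok) {P Q : List α} {v b : V} (hP : D.LP2 P v) (hQ : D.R2 Q = some b)
    (hno : ∀ X ∈ D.XX, X <+: P ++ Q → ∀ P' Q', X = P' ++ Q' → P.length ≤ P'.length →
      D.LP1 P' v → (D.R1 Q').isSome → False) :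
    ∃ Q1 X2, Q = Q1 ++ X2 ∧ Q1 ≠ [] ∧ P ++ Q1 ∈ D.XX ∧ X2 ∈ D.XX ∧ D.T (D.T v (P ++ Q1)) X2 = b := by
  obtain ⟨k, hk, hPl, hlam⟩ := hP
  obtain ⟨k0, hk0, ⟨P0, hP0, _⟩, huniq, Q1, Y, X2, c, rfl, hQ1, hX2, hXX, hrho, rfl⟩ := rel_of_r2 hQ
  have hxk := h.hx k hk
  have hxk0 := h.hx k0 hk0
  have hL := h.hL
  have hX1 := hXX P0 hP0
  have hlen1 := xx_len h hX1
  have hlen2 := xx_len h hX2
  have hZ1 := h.hZ1
  have hZ0 := h.hZ0
  have hlen3 : D.Z0 ≤ D.x k0 + (Q1 ++ Y).length := by
    rw [List.length_append, hP0] at hlen1; exact hlen1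
  have hq : D.Qual (P ++ (Q1 ++ (Y ++ X2))).length (P ++ (Q1 ++ (Y ++ X2))) := by
    refine ⟨?_, ?_⟩
    · rw [List.take_length]
      have e : P ++ (Q1 ++ (Y ++ X2)) = (P ++ (Q1 ++ Y)) ++ X2 := by simp
      rw [e, h.hWo _ _ (by omega)]
      exact xx_wo hX2
    · refine le_trans (h.hthr1 _) ?_
      have : (P ++ (Q1 ++ (Y ++ X2))).length = P.length + (Q1 ++ Y).length + X2.length := by
        simp; omega
      rw [this]
      omega
  obtain ⟨X, hX, hXp⟩ := exists_first le_rfl hq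
  have hal : D.Alive k (Q1 ++ (Y ++ X2)) := by
    refine ⟨P, hPl, X, hX, ⟨v, ?_⟩, hXp⟩
    rintro ⟨P', Q', he, hl, hr⟩
    exact hno X hX hXp P' Q' he (by have := hl.1; omega) hl hr
  have hkk := huniq k hk hal
  subst hkk
  refine ⟨Q1 ++ Y, X2, by simp, ?_, hXX P hPl, hX2, ?_⟩
  · intro he
    rw [he] at hlen3
    simp at hlen3
    omega
  · congr 1
    unfold T
    have e1 : P ++ (Q1 ++ Y) = (P ++ Q1) ++ Y := by simp
    have e2 : (P ++ Q1).length = D.p0 := by rw [List.length_append, hPl, hQ1]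
    rw [e1, ← e2, List.take_left, List.drop_left, ← h.ex_sound k hk P Q1 v c hPl hlam hrho]

/-- a bad block has an edge wall or a bad length -/
theorem bad_imp (h : D.Ok) {X : List α} (hX : X ∈ D.XX) (hB : D.Bad X) :
    (∃ σ ≤ X.length, D.Wo (X.take σ) ∧ σ ≤ D.thr (σ % D.Mp) + D.N ∧ D.thr (σ % D.Mp) ≤ σ + D.N) ∨
      D.BadT (X.length - D.p0) := by
  classical
  by_contra hcon
  push Not at hcon
  obtain ⟨hE, hT⟩ := hcon
  obtain ⟨v, hv⟩ := hB
  have hlen := xx_len h hX
  have hZ0 := h.hZ0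
  obtain ⟨p, q, hpq, hlam, hrho⟩ := h.ug_complete (X.drop D.p0)
    (by rw [List.length_drop]; omega) (by rw [List.length_drop]; exact hT)
    (D.act v (D.φ (X.take D.p0)) + D.nu2 (X.take D.p0))
  obtain ⟨hdp, hnp⟩ := h.lam_len _ _ hlam
  have htl : (X.take D.p0).length = D.p0 := by rw [List.length_take]; omega
  set P3 := X.take D.p0 ++ p with hP3
  have hP3l : P3.length = D.p0 + p.length := by rw [hP3, List.length_append, htl]
  have hXe : X = P3 ++ q := by
    rw [hP3, List.append_assoc, hpq, List.take_append_drop]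
  have hXl : X.length = P3.length + q.length := by
    conv_lhs => rw [hXe]
    exact List.length_append
  have hLP : D.LP1 P3 v := by
    refine ⟨by omega, ?_⟩
    have e1 : P3.drop D.p0 = p := by
      rw [hP3]
      nth_rewrite 1 [← htl]
      rw [List.drop_left]
    have e2 : P3.take D.p0 = X.take D.p0 := by
      rw [hP3]
      nth_rewrite 1 [← htl]
      rw [List.take_left]
    rw [e1, e2]
    exact hlam
  have hnl : ¬ D.Leg1 q := by
    intro hleg
    refine hv ⟨P3, q, hXe, hLP, ?_⟩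
    unfold R1
    rw [if_pos hleg]
    exact hrho
  unfold Leg1 at hnl
  push Not at hnl
  obtain ⟨P4, h1, h2, h3, h4⟩ := hnl
  apply h4
  have hmod : ∀ t, (P4.length + t) % D.Mp = (P3.length + t) % D.Mp := by
    intro t
    obtain ⟨a, ha⟩ := h3
    obtain ⟨b, hb⟩ := hdp
    have e3 : P4.length + t = (D.p0 + t) + D.Mp * a := by omega
    have e4 : P3.length + t = (D.p0 + t) + D.Mp * b := by omega
    rw [e3, e4, Nat.add_mul_mod_self_left, Nat.add_mul_mod_self_left]
  have hX3 : P3 ++ q ∈ D.XX := hXe ▸ hX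
  -- transfer of qualification
  have tr : ∀ t, D.no ≤ t → t ≤ q.length →
      (D.Qual (P4.length + t) (P4 ++ q) ↔ D.Qual (P3.length + t) (P3 ++ q)) := by
    intro t ht htq
    have hwo := wo_exchange h P4 P3 q t ht htq
    constructor
    · rintro ⟨g1, g2⟩
      refine ⟨hwo.1 g1, ?_⟩
      by_contra hlt
      have g3 := hwo.1 g1
      have := hE (P3.length + t) (by omega)
        (by rw [hXe]; exact g3)
      rw [hmod] at g2
      push Not at hlt
      have := this (by omega)
      omega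
    · rintro ⟨g1, g2⟩
      refine ⟨hwo.2 g1, ?_⟩
      by_contra hlt
      rw [hmod] at hlt
      push Not at hlt
      have := hE (P3.length + t) (by omega)
        (by rw [hXe]; exact g1) (by omega)
      omega
  have hge : ∀ (R : List α), R.length ≤ D.p0 + D.N → ∀ t, D.Qual t (R ++ q) →
      ∃ s, t = R.length + s ∧ D.no ≤ s := by
    intro R hR t ht
    have : D.Z0 ≤ t := le_trans (h.hthr0 _) ht.2
    exact ⟨t - R.length, by omega, by omega⟩
  refine ⟨?_, ?_⟩
  · have h5 := hX3.1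
    have e5 : (P3 ++ q).length = P3.length + q.length := List.length_append
    have e6 : (P4 ++ q).length = P4.length + q.length := List.length_append
    have h5' : D.Qual (P3.length + q.length) (P3 ++ q) := e5 ▸ h5
    rw [e6]
    have h0 : D.Z0 ≤ P3.length + q.length := le_trans (h.hthr0 _) h5'.2
    exact (tr q.length (by omega) le_rfl).2 h5'
  · intro t ht hq
    rw [List.length_append] at ht
    obtain ⟨s, rfl, hs'⟩ := hge P4 (by omega) _ hq
    have h6 := (tr s hs' (by omega)).1 hq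
    have e5 : (P3 ++ q).length = P3.length + q.length := List.length_append
    exact hX3.2 (P3.length + s) (by omega) h6

/-- correspondence of walls between the candidate text and the true text -/
theorem corr (h : D.Ok) {w P : List α} {a t : ℕ} (ha : a ≤ w.length)
    (ht : P.length + D.no ≤ t) (htl : t ≤ (P ++ w.drop a).length) :
    D.Wo ((P ++ w.drop a).take t) ↔ D.Wo (w.take (t - P.length + a)) := by
  have hlen : (w.take a).length = a := by rw [List.length_take]; omega
  rw [List.length_append, List.length_drop] at htl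
  have h1 := wo_exchange h P (w.take a) (w.drop a) (t - P.length) (by omega)
    (by rw [List.length_drop]; omega)
  rw [List.take_append_drop, hlen] at h1
  have e1 : P.length + (t - P.length) = t := by omega
  rw [e1] at h1
  rw [h1]
  have e2 : a + (t - P.length) = t - P.length + a := by omega
  rw [e2]

/-- `τ` is a wall of `w` -/
def Wall (D : Dat α S V) (w : List α) (τ : ℕ) : Prop := τ ≤ w.length ∧ D.Wo (w.take τ)

theorem wall_near (h : D.Ok) {w : List α} {τ τ' : ℕ} (h1 : D.Wall w τ) (h2 : D.Wall w τ')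
    (h3 : τ ≤ τ' + D.W) (h4 : τ' ≤ τ + D.W) : τ = τ' := by
  rcases lt_trichotomy τ τ' with h5 | h5 | h5
  · have := h.hsep w τ τ' h5 h2.1 h1.2 h2.2
    omega
  · exact h5
  · have := h.hsep w τ' τ h5 h1.1 h2.2 h1.2
    omega

/-- edge event of the pair `(a, b)`: true place `x b`, candidate `x a` -/
def Ev (D : Dat α S V) (w : List α) (a b : ℕ) : Prop :=
  ∃ σ τ, τ + D.x a = σ + D.x b ∧ D.Wall w τ ∧ σ ≤ D.thr (σ % D.Mp) + D.N ∧
    D.thr (σ % D.Mp) ≤ σ + D.N

theorem ev_unique (h : D.Ok) {w : List α} {a b c d : ℕ} (ha : a < D.K) (hb : b < D.K)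
    (hc : c < D.K) (hd : d < D.K) (hab : a ≠ b) (h1 : D.Ev w a b) (h2 : D.Ev w c d) : b = d := by
  obtain ⟨σ, τ, e1, w1, l1, l2⟩ := h1
  obtain ⟨σ', τ', e1', w1', l1', l2'⟩ := h2
  have xa := h.hx a ha
  have xb := h.hx b hb
  have xc := h.hx c hc
  have xd := h.hx d hd
  have t0 := h.hthr0 (σ % D.Mp)
  have t1 := h.hthr1 (σ % D.Mp)
  have t0' := h.hthr0 (σ' % D.Mp)
  have t1' := h.hthr1 (σ' % D.Mp)
  have hW := h.hW
  have hZ0 := h.hZ0
  have hτ : τ = τ' := wall_near h w1 w1' (by omega) (by omega)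
  subst hτ
  have hr : σ % D.Mp = σ' % D.Mp := h.hthrsep _ _ (Nat.mod_lt _ h.hMp) (Nat.mod_lt _ h.hMp)
    (by omega) (by omega)
  have hdvd : (D.Mp : ℤ) ∣ ((D.x a : ℤ) - D.x b) - (D.x c - D.x d) := by
    have h5 : ((D.x a : ℤ) - D.x b) - (D.x c - D.x d) = (σ : ℤ) - σ' := by omega
    rw [h5]
    exact (Nat.modEq_iff_dvd.1 (show σ' ≡ σ [MOD D.Mp] from hr.symm))
  rcases h.golomb a b c d ha hb hc hd hdvd with h6 | h6
  · exact h6.2
  · exact absurd h6.1 hab

open Classical in
/-- at most `2 C0 + 1` places are ambiguous -/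
theorem count (h : D.Ok) {X X2 : List α} (hX : X ∈ D.XX) (hX2 : X2 ∈ D.XX) (A : Finset ℕ)
    (hA : ∀ b ∈ A, b < D.K ∧ ∃ a < D.K, a ≠ b ∧ D.Alive a ((X ++ X2).drop (D.x b))) :
    A.card ≤ 2 * D.C0 + 1 := by
  set w := X ++ X2 with hw
  have hlenX := xx_len h hX
  have hlenX2 := xx_len h hX2
  have hwl : w.length = X.length + X2.length := by rw [hw, List.length_append]
  have hZ0 := h.hZ0
  have hZ1 := h.hZ1
  have hW := h.hW
  -- the two possible ends
  let t1 : ℕ := if g : ∃ τ, D.Wall w τ ∧ D.Z0 ≤ τ + D.L ∧ τ ≤ D.Z1 + D.L then g.choose else D.Z0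
  let t2 : ℕ := if g : ∃ τ, D.Wall w τ ∧ D.Z1 + D.L < τ ∧
    ∀ τ', D.Wall w τ' → D.Z1 + D.L < τ' → τ ≤ τ' then g.choose else D.Z0
  have ht1 : D.Z0 ≤ t1 + D.L := by
    show D.Z0 ≤ (if g : ∃ τ, D.Wall w τ ∧ D.Z0 ≤ τ + D.L ∧ τ ≤ D.Z1 + D.L then g.choose else D.Z0) + D.L
    split_ifs with g
    · exact g.choose_spec.2.1
    · omega
  have ht2 : D.Z0 ≤ t2 + D.L := by
    show D.Z0 ≤ (if g : ∃ τ, D.Wall w τ ∧ D.Z1 + D.L < τ ∧
      ∀ τ', D.Wall w τ' → D.Z1 + D.L < τ' → τ ≤ τ' then g.choose else D.Z0) + D.L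
    split_ifs with g
    · have := g.choose_spec.2.1
      have h01 := h.hthr0 0
      have h02 := h.hthr1 0
      omega
    · omega
  let A0 := A.filter (fun b => ∃ a < D.K, a ≠ b ∧ D.Ev w a b)
  let A1 := A.filter (fun b => ∃ a < D.K, a ≠ b ∧ D.BadT ((t1 - D.p0) + D.x a - D.x b))
  let A2 := A.filter (fun b => ∃ a < D.K, a ≠ b ∧ D.BadT ((t2 - D.p0) + D.x a - D.x b))
  have hcov : A ⊆ A0 ∪ (A1 ∪ A2) := by
    intro b hb
    obtain ⟨hbK, a, haK, hab, P, hPl, X', hX', hB', hpre⟩ := hA b hb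
    have xa := h.hx a haK
    have xb := h.hx b hbK
    have hL := h.hL
    have hlenX' := xx_len h hX'
    obtain ⟨R, hR⟩ := hpre
    have hXtake : ∀ t ≤ X'.length, X'.take t = (P ++ w.drop (D.x b)).take t := by
      intro t ht
      rw [← hR, List.take_append_of_le_length ht]
    have hXle : X'.length ≤ (P ++ w.drop (D.x b)).length := by
      rw [← hR, List.length_append]; omega
    have hPw : (P ++ w.drop (D.x b)).length = D.x a + (w.length - D.x b) := by
      rw [List.length_append, List.length_drop, hPl]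
    have hcw : ∀ t, D.x a + D.no ≤ t → t ≤ X'.length →
        (D.Wo (X'.take t) ↔ D.Wall w (t - D.x a + D.x b)) := by
      intro t ht ht'
      rw [hXtake t ht', corr h (by omega) (by rw [hPl]; exact ht) (by omega), hPl]
      constructor
      · intro hh
        exact ⟨by omega, hh⟩
      · intro hh
        exact hh.2
    rcases bad_imp h hX' hB' with ⟨σ, hσ, hwo, hl1, hl2⟩ | hT
    · refine mem_union_left _ (mem_filter.2 ⟨hb, a, haK, hab, σ, σ - D.x a + D.x b, ?_, ?_, hl1, hl2⟩)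
      · have := h.hthr0 (σ % D.Mp)
        omega
      · have := h.hthr0 (σ % D.Mp)
        exact (hcw σ (by omega) hσ).1 hwo
    · refine mem_union_right _ ?_
      -- the end of the candidate block
      set τ := X'.length - D.x a + D.x b with hτ
      have hwτ : D.Wall w τ := by
        refine (hcw X'.length (by omega) le_rfl).1 ?_
        rw [List.take_length]
        exact xx_wo hX'
      by_cases hcase : τ ≤ D.Z1 + D.L
      · refine mem_union_left _ (mem_filter.2 ⟨hb, a, haK, hab, ?_⟩)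
        have g : ∃ τ, D.Wall w τ ∧ D.Z0 ≤ τ + D.L ∧ τ ≤ D.Z1 + D.L := ⟨τ, hwτ, by omega, hcase⟩
        have e : t1 = τ := by
          have e1 : t1 = g.choose := dif_pos g
          rw [e1]
          obtain ⟨g1, g2, g3⟩ := g.choose_spec
          exact wall_near h g1 hwτ (by omega) (by omega)
        have e2 : (t1 - D.p0) + D.x a - D.x b = X'.length - D.p0 := by omega
        rw [e2]
        exact hT
      · refine mem_union_right _ (mem_filter.2 ⟨hb, a, haK, hab, ?_⟩)
        push Not at hcase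
        have h01 := h.hthr0 0
        have h02 := h.hthr1 0
        have hfirst : ∀ τ', D.Wall w τ' → D.Z1 + D.L < τ' → τ ≤ τ' := by
          intro τ' h1 h2
          by_contra hlt
          push Not at hlt
          have h3 : D.Wo (X'.take (τ' + D.x a - D.x b)) := by
            refine (hcw _ (by omega) (by omega)).2 ?_
            have : τ' + D.x a - D.x b - D.x a + D.x b = τ' := by omega
            rw [this]
            exact h1
          refine hX'.2 (τ' + D.x a - D.x b) (by omega) ⟨h3, ?_⟩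
          have := h.hthr1 ((τ' + D.x a - D.x b) % D.Mp)
          omega
        have g : ∃ τ, D.Wall w τ ∧ D.Z1 + D.L < τ ∧
          ∀ τ', D.Wall w τ' → D.Z1 + D.L < τ' → τ ≤ τ' := ⟨τ, hwτ, hcase, hfirst⟩
        have e : t2 = τ := by
          have e1 : t2 = g.choose := dif_pos g
          rw [e1]
          obtain ⟨g1, g2, g3⟩ := g.choose_spec
          exact le_antisymm (g3 τ hwτ hcase) (hfirst _ g1 g2)
        have e2 : (t2 - D.p0) + D.x a - D.x b = X'.length - D.p0 := by omega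
        rw [e2]
        exact hT
  have c0 : A0.card ≤ 1 := by
    refine Finset.card_le_one.2 ?_
    intro b hb d hd
    obtain ⟨hb1, a, ha, hab, he⟩ := mem_filter.1 hb
    obtain ⟨hd1, c, hc, hcd, he'⟩ := mem_filter.1 hd
    exact ev_unique h ha (hA b hb1).1 hc (hA d hd1).1 hab he he'
  have c1 : A1.card ≤ D.C0 := by
    refine h.ug_spoil (t1 - D.p0) (by omega) A1 ?_
    intro b hb
    obtain ⟨hb1, a, ha, hab, he⟩ := mem_filter.1 hb
    exact ⟨(hA b hb1).1, a, ha, hab, he⟩
  have c2 : A2.card ≤ D.C0 := by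
    refine h.ug_spoil (t2 - D.p0) (by omega) A2 ?_
    intro b hb
    obtain ⟨hb1, a, ha, hab, he⟩ := mem_filter.1 hb
    exact ⟨(hA b hb1).1, a, ha, hab, he⟩
  have := Finset.card_le_card hcov
  have h7 := Finset.card_union_le A0 (A1 ∪ A2)
  have h8 := Finset.card_union_le A1 A2
  omega

open Classical in
/-- (cc) -/
theorem cc (h : D.Ok) {X X2 : List α} (hX : X ∈ D.XX) (hX2 : X2 ∈ D.XX) (v : V) :
    (∃ P Q, X = P ++ Q ∧ D.LP1 P v ∧ (D.R1 Q).isSome) ∨
      (∃ P Q, X ++ X2 = P ++ Q ∧ P.length < X.length ∧ D.LP2 P v ∧ (D.R2 Q).isSome) := by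
  by_cases hc : D.Cut1 X v
  · exact Or.inl hc
  · right
    have hlenX := xx_len h hX
    have hZ0 := h.hZ0
    have hL := h.hL
    set w := X ++ X2 with hw
    let Sp := (Finset.range D.K).filter (fun b => ∃ a < D.K, a ≠ b ∧ D.Alive a (w.drop (D.x b)))
    have hSp : Sp.card ≤ 2 * D.C0 + 1 := by
      refine count h hX hX2 Sp ?_
      intro b hb
      obtain ⟨h1, h2⟩ := mem_filter.1 hb
      exact ⟨Finset.mem_range.1 h1, h2⟩
    have hul : (X.take D.p0).length = D.p0 := by rw [List.length_take]; omega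
    obtain ⟨I, hI, hI2⟩ := h.ex_complete (X.take D.p0) v hul
    obtain ⟨k, hkI, hkS⟩ : ∃ k ∈ I, k ∉ Sp := by
      by_contra hcon
      push Not at hcon
      have : I ⊆ Sp := fun k hk => hcon k hk
      have := Finset.card_le_card this
      omega
    obtain ⟨hkK, hlam, hrho⟩ := hI2 k hkI
    have hxk := h.hx k hkK
    have hal : D.Alive k (w.drop (D.x k)) :=
      ⟨X.take (D.x k), by rw [List.length_take]; omega, X, hX, ⟨v, hc⟩, ⟨X2, by
        rw [hw, List.drop_append_of_le_length (by omega), ← List.append_assoc,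
          List.take_append_drop]⟩⟩
    have hun : ∀ k' < D.K, D.Alive k' (w.drop (D.x k)) → k' = k := by
      intro k' hk' ha
      by_contra hne
      exact hkS (mem_filter.2 ⟨Finset.mem_range.2 hkK, k', hk', hne, ha⟩)
    obtain ⟨c, hc'⟩ := Option.isSome_iff_exists.1 hrho
    have e3 : X.drop (D.x k) = (X.take D.p0).drop (D.x k) ++ X.drop D.p0 := by
      conv_lhs => rw [← List.take_append_drop D.p0 X]
      rw [List.drop_append_of_le_length (by omega)]
    refine ⟨X.take (D.x k), w.drop (D.x k), ?_, ?_, ⟨k, hkK, ?_, ?_⟩, ?_⟩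
    · rw [hw, List.drop_append_of_le_length (by omega), ← List.append_assoc,
        List.take_append_drop]
    · rw [List.length_take]; omega
    · rw [List.length_take]; omega
    · rw [List.take_take, min_eq_left (by omega)] at hlam
      exact hlam
    · refine r2_of_rel (b := D.T (D.act c (D.φ (X.drop D.p0)) + D.nu1 (X.drop D.p0)) X2)
        ⟨k, hkK, hal, hun, (X.take D.p0).drop (D.x k), X.drop D.p0, X2, c, ?_, ?_, hX2, ?_, hc', rfl⟩
      · rw [hw, List.drop_append_of_le_length (by omega), e3, List.append_assoc]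
      · rw [List.length_drop]; omega
      · intro P hP
        rw [← e3]
        refine exchange h (P := X.take (D.x k)) (by rw [List.length_take]; omega)
          (by rw [List.length_take]; omega) ?_
        rw [List.take_append_drop]
        exact hX

/-- uniqueness of the right label of scheme 2 -/
theorem rel_unique {q : List α} {b b' : V} (h : D.Rel q b) (h' : D.Rel q b') : b = b' := by
  obtain ⟨k, hk, ⟨P0, hP0, _⟩, huniq, Q1, Y, X2, c, he, hQ1, hX2, hXX, hrho, rfl⟩ := h
  obtain ⟨k', hk', hal', huniq', Q1', Y', X2', c', he', hQ1', hX2', hXX', hrho', rfl⟩ := h'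
  have hkk := huniq k' hk' hal'
  subst hkk
  subst he
  have hl : Q1.length = Q1'.length := by omega
  obtain ⟨h1, h2⟩ := List.append_inj he' hl
  subst h1
  have h3 := hXX P0 hP0
  have h4 := hXX' P0 hP0
  have h5 : P0 ++ (Q1 ++ Y) = P0 ++ (Q1 ++ Y') :=
    pc_cmp h3 h4 (w := P0 ++ (Q1 ++ (Y ++ X2))) ⟨X2, by simp⟩ ⟨X2', by simp [h2]⟩
  have h6 : Y = Y' := by simpa using h5
  subst h6
  have h7 : X2 = X2' := by simpa using h2
  subst h7
  rw [hrho] at hrho'
  obtain rfl := Option.some.inj hrho'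
  rfl

theorem r2_iff {q : List α} {b : V} : D.R2 q = some b ↔ D.Rel q b := by
  constructor
  · exact rel_of_r2
  · intro h
    obtain ⟨b', hb'⟩ := Option.isSome_iff_exists.1 (r2_of_rel h)
    rw [hb', rel_unique (rel_of_r2 hb') h]

end Dat

end Crest.Agent.R320.Int_798
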