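import Crest.Agent.R320.Top5_120
import Crest.Agent.R320.Sc2n_937
import Crest.Agent.R320.P4_933

/-!
# Row 320: join of TOP (120), the two schemes (937) and P4 (933)   (helper925)
-/

set_option autoImplicit false
set_option linter.all false

namespace Crest.Agent.R320.J1_925

open Crest.RegLang Crest.Agent.R320.Hk_851 Crest.Agent.R320.Blk467 Crest.Agent.R320.Sc2n_937
open Crest.Agent.R320.BddReg_746

universe u

section reg

variable {α : Type u} [Finite α]

abbrev Reg (L : Language α) : Prop := L.IsRegular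

theorem reg_congr {L M : Language α} (h : Reg L) (e : ∀ w, w ∈ L ↔ w ∈ M) : Reg M := by
  have : L = M := by ext w; exact e w
  rwa [← this]

theorem reg_or {p q : List α → Prop} (hp : Reg {w | p w}) (hq : Reg {w | q w}) :
    Reg {w | p w ∨ q w} :=
  reg_congr (Language.IsRegular.add hp hq) fun w => Iff.rfl

theorem reg_not {p : List α → Prop} (hp : Reg {w | p w}) : Reg {w | ¬ p w} :=
  reg_congr (Language.IsRegular.compl hp) fun w => Iff.rfl

theorem reg_and {p q : List α → Prop} (hp : Reg {w | p w}) (hq : Reg {w | q w}) :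
    Reg {w | p w ∧ q w} :=
  reg_congr (Language.IsRegular.inf hp hq) fun w => Iff.rfl

theorem reg_hl {k : ℕ} {L : Language α} (h : HL k L) : Reg L :=
  Crest.Agent.R320.Reg_852.HL.isRegular h

theorem reg_const (p : Prop) : Reg {w : List α | p} := reg_hl (HL.const (k := 0) p)

theorem reg_biUnion {ι : Type*} {s : Set ι} (hs : s.Finite) {L : ι → Language α}
    (h : ∀ i ∈ s, Reg (L i)) : Reg {w | ∃ i ∈ s, w ∈ L i} := by
  induction s, hs using Set.Finite.induction_on with
  | empty =>
    exact reg_congr (reg_const False) fun w => ⟨fun h => h.elim, fun ⟨i, hi, _⟩ => hi.elim⟩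
  | insert _ _ ih =>
    have h1 := Language.IsRegular.add (h _ (Set.mem_insert _ _))
      (ih fun i hi => h i (Set.mem_insert_of_mem _ hi))
    refine reg_congr h1 fun w => ?_
    constructor
    · rintro (hw | ⟨i, hi, hw⟩)
      · exact ⟨_, Or.inl rfl, hw⟩
      · exact ⟨i, Or.inr hi, hw⟩
    · rintro ⟨i, hi | hi, hw⟩
      · left; rw [← hi]; exact hw
      · right; exact ⟨i, hi, hw⟩

/-- a finite-valued function with regular fibres -/
def RegF {ι : Type*} (t : List α → ι) : Prop := ∀ i, Reg {w | t w = i}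

theorem RegF.pred {ι : Type*} [Finite ι] {t : List α → ι} (h : RegF t) (P : ι → Prop) :
    Reg {w | P (t w)} := by
  refine reg_congr (reg_biUnion (Set.toFinite {i | P i}) (L := fun i => {w | t w = i})
    fun i _ => h i) fun w => ?_
  constructor
  · rintro ⟨i, hi, hw⟩
    have hw' : t w = i := hw
    show P (t w)
    rw [hw']; exact hi
  · intro hw; exact ⟨_, hw, rfl⟩

theorem RegF.prod {ι κ : Type*} {t : List α → ι} {s : List α → κ} (h : RegF t) (h' : RegF s) :
    RegF (fun w => (t w, s w)) := by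
  rintro ⟨i, j⟩
  refine reg_congr (reg_and (h i) (h' j)) fun w => ?_
  show (t w = i ∧ s w = j) ↔ (t w, s w) = (i, j)
  rw [Prod.mk.injEq]

theorem RegF.map {ι κ : Type*} [Finite ι] {t : List α → ι} (h : RegF t) (f : ι → κ) :
    RegF (fun w => f (t w)) := fun j => h.pred (fun i => f i = j)

theorem regF_ph {S : Type*} [Monoid S] [Finite S] (φ : α → S) :
    RegF (fun w : List α => (w.map φ).prod) := fun s =>
  Crest.Agent.R320.Reg_852.isRegular_prod φ s

theorem reg_drop (p : ℕ) {L : Language α} (h : Reg L) : Reg {w : List α | w.drop p ∈ L} := by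
  let A : Language α := {w : List α | w.length = p}
  have hA : Reg A := reg_hl (HL.length_eq (k := 0) p)
  have h1 : Reg (A * L) := Crest.Agent.R320.Reg_852.IsRegular.mul hA h
  have h2 : Reg {w : List α | w.length < p ∧ ([] : List α) ∈ L} :=
    reg_and (reg_hl (HL.length_lt (k := 0) p)) (reg_const _)
  refine reg_congr (Language.IsRegular.add h1 h2) fun w => ?_
  constructor
  · rintro (hw | ⟨h3, h4⟩)
    · obtain ⟨a, ha, b, hb, rfl⟩ := Language.mem_mul.1 hw
      have ha' : a.length = p := ha
      show (a ++ b).drop p ∈ L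
      rw [← ha', List.drop_left]; exact hb
    · show w.drop p ∈ L
      rw [List.drop_of_length_le h3.le]; exact h4
  · intro hw
    have hw' : w.drop p ∈ L := hw
    by_cases hl : w.length < p
    · right
      rw [List.drop_of_length_le hl.le] at hw'
      exact ⟨hl, hw'⟩
    · left
      refine Language.mem_mul.2 ⟨w.take p, ?_, w.drop p, hw', List.take_append_drop _ _⟩
      show (w.take p).length = p
      rw [List.length_take]; omega

theorem RegF.drop {ι : Type*} (p : ℕ) {t : List α → ι} (h : RegF t) :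
    RegF (fun w => t (w.drop p)) := fun i => reg_drop p (h i)

theorem regF_take (p : ℕ) :
    RegF (fun w : List α => (⟨w.take p, by rw [List.length_take]; omega⟩ :
      {l : List α // l.length ≤ p})) := by
  rintro ⟨l, hl⟩
  by_cases h : l.length = p
  · refine reg_congr (reg_hl (HL.prefix (k := 0) (HL.word l))) fun w => ?_
    constructor
    · rintro ⟨v, hv, hvw⟩
      have hv' : v = l := hv
      subst hv'
      apply Subtype.ext
      show w.take p = v
      obtain ⟨y, rfl⟩ := hvw
      rw [← h, List.take_left]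
    · intro hw
      have e : w.take p = l := congrArg Subtype.val hw
      exact ⟨l, rfl, ⟨w.drop p, by rw [← e, List.take_append_drop]⟩⟩
  · refine reg_congr (reg_hl (HL.word (k := 0) l)) fun w => ?_
    constructor
    · intro hw
      have hw' : w = l := hw
      subst hw'
      apply Subtype.ext
      show w.take p = w
      exact List.take_of_length_le hl
    · intro hw
      have e : w.take p = l := congrArg Subtype.val hw
      show w = l
      have h2 := congrArg List.length e
      rw [List.length_take] at h2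
      rw [← e, List.take_of_length_le (by omega)]

theorem regF_mod (M : ℕ) (hM : 0 < M) : RegF (fun w : List α => w.length % M) := by
  intro i
  refine Crest.Agent.R320.P4_933.regular_of_class (S := Unit) (fun _ => ()) 0 M hM
    (fun w => w.length % M = i) ?_
  intro u u' _ _ _ h _
  rw [h]

/-- fibres of a function which only depends on a long prefix, the length and the value behind -/
theorem regF_class {S ι : Type*} [Monoid S] [Finite S] (φ : α → S) (A M : ℕ) (hM : 0 < M)
    (t : List α → ι)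
    (ht : ∀ Q Q' : List α, A ≤ Q.length → A ≤ Q'.length → Q.take A = Q'.take A →
      ((Q.drop A).map φ).prod = ((Q'.drop A).map φ).prod →
      Q.length % M = Q'.length % M → t Q = t Q') (i : ι) :
    Reg {w | A ≤ w.length ∧ t w = i} := by
  let τ : List α → {l : List α // l.length ≤ A} × S × ℕ := fun w =>
    (⟨w.take A, by rw [List.length_take]; omega⟩, ((w.drop A).map φ).prod, w.length % M)
  haveI : Finite {l : List α // l.length ≤ A} := List.finite_length_le α A
  let τ' : List α → {l : List α // l.length ≤ A} × S × Fin M := fun w =>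
    (⟨w.take A, by rw [List.length_take]; omega⟩, ((w.drop A).map φ).prod,
      ⟨w.length % M, Nat.mod_lt _ hM⟩)
  have hmod : RegF (fun w : List α => (⟨w.length % M, Nat.mod_lt _ hM⟩ : Fin M)) := by
    rintro ⟨j, hj⟩
    refine reg_congr (regF_mod M hM j) fun w => ?_
    show w.length % M = j ↔ (⟨w.length % M, _⟩ : Fin M) = ⟨j, hj⟩
    rw [Fin.mk.injEq]
  have hτ : RegF τ' := (regF_take A).prod (((regF_ph φ).drop A).prod hmod)
  have h1 : Reg {w : List α | A ≤ w.length} := reg_hl (HL.length_ge (k := 0) A)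
  have h2 := hτ.pred (fun x => ∃ Q : List α, A ≤ Q.length ∧ t Q = i ∧ τ' Q = x)
  refine reg_congr (reg_and h1 h2) fun w => ?_
  constructor
  · rintro ⟨h3, Q, h4, h5, h6⟩
    refine ⟨h3, ?_⟩
    rw [← h5]
    have e1 : Q.take A = w.take A := congrArg (fun x => x.1.1) h6
    have e2 : ((Q.drop A).map φ).prod = ((w.drop A).map φ).prod := congrArg (fun x => x.2.1) h6
    have e3 : Q.length % M = w.length % M := congrArg (fun x => x.2.2.1) h6
    exact (ht Q w h4 h3 e1 e2 e3).symm
  · rintro ⟨h3, h4⟩
    exact ⟨h3, w, h3, h4, rfl⟩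

end reg

section join

variable {α : Type u} [Finite α]

theorem join {S V : Type*} [Monoid S] [Finite S] [AddCommGroup V] [Finite V]
    (act : V → S → V)
    (hadd : ∀ a b s, act (a + b) s = act a s + act b s)
    (hone : ∀ v, act v 1 = v) (hmul : ∀ v s t, act v (s * t) = act (act v s) t)
    (hfaith : ∀ s t, (∀ v, act v s = act v t) → s = t)
    (φ : α → S) (g : Geo α) (len : ∀ P, g.Wo P → g.n ≤ P.length)
    (B R : ℕ)
    (free : ∀ u : List α, (∀ t < u.length, ¬ g.Wo (u.take t)) → u ∈ (PN B R : Language α))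
    (hgap : ∀ P Q : List α, g.Wo P → g.Wo (P ++ Q) → Q ≠ [] → 2 * g.p0 + 2 * g.N1 < Q.length)
    -- gadget 1
    (lam rho : List α → Option V) (nu1 : List α → V)
    (hlen : ∀ P v, lam P = some v → P.length ≤ g.N1)
    (hex1 : ∀ P Q v b, lam P = some v → rho Q = some b →
      b = act v ((P ++ Q).map φ).prod + nu1 (P ++ Q))
    (BadT : ℕ → Prop) (A0 : ℕ) (hA0 : A0 + g.p0 ≤ g.z)
    (hc1 : ∀ u : List α, A0 ≤ u.length → ¬ BadT u.length → ∀ v, ∃ P Q,
      u = P ++ Q ∧ lam P = some v ∧ (rho Q).isSome)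
    (hnu : RegF nu1) (hBT : Reg {u : List α | BadT u.length})
    -- gadget 2
    (K : ℕ) (c : ℕ → ℕ) (lam2 rho2 : ℕ → List α → Option V) (nu2 : List α → V)
    (hc : ∀ k, k < K → c k ≤ g.p0)
    (hex2 : ∀ k, k < K → ∀ (P Q : List α) (v u : V), P.length = c k →
      lam2 k P = some v → rho2 k Q = some u → u = act v ((P ++ Q).map φ).prod + nu2 (P ++ Q))
    (C0 : ℕ)
    (hc2 : ∀ X : List α, X.length = g.p0 → ∀ v, ∃ I : Finset ℕ, 2 * C0 + 2 ≤ I.card ∧
      ∀ k ∈ I, k < K ∧ lam2 k (X.take (c k)) = some v ∧ (rho2 k (X.drop (c k))).isSome)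
    (hsp : ∀ k k' l l', k < K → k' < K → l < K → l' < K → k' ≠ k → l' ≠ l →
      c k + c l' < c l + c k' + 2 * g.N1 → c l + c k' < c k + c l' + 2 * g.N1 → k = l)
    (hthin : ∀ τ, g.z ≤ τ + g.p0 → ∀ J : Finset ℕ, (∀ k ∈ J, k < K ∧
      ∃ k', k' < K ∧ k' ≠ k ∧ BadT (τ + c k' - c k - g.p0)) → J.card ≤ C0)
    (s : S) : HL 3 ({w | (w.map φ).prod = s} : Language α) := by
  classical
  have hz := g.hz
  have hq := g.hq
  have hN := g.hN
  let ph : List α → S := fun w => (w.map φ).prod
  have phm : ∀ a b, ph (a ++ b) = ph a * ph b := by intro a b; simp [ph]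
  let pre : List α → V → V := fun X v => act v (ph X) + nu2 X
  let post : V → List α → V := fun v Y => act v (ph Y) + nu1 Y
  let nuX : List α → V := fun X => act (nu2 (X.take g.p0)) (ph (X.drop g.p0)) + nu1 (X.drop g.p0)
  have hT : ∀ v X, g.T pre post v X = act v (ph X) + nuX X := by
    intro v X
    show act (act v (ph (X.take g.p0)) + nu2 (X.take g.p0)) (ph (X.drop g.p0)) + nu1 (X.drop g.p0)
      = act v (ph X) + (act (nu2 (X.take g.p0)) (ph (X.drop g.p0)) + nu1 (X.drop g.p0))
    rw [hadd, ← hmul, ← phm, List.take_append_drop, add_assoc]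
  let C : Set (List α) := {X | g.XX X}
  let Bad : Set (List α) := {X | g.XX X ∧ g.BadX BadT X}
  let L1 : V → Set (List α) := fun v => {P | g.LP1 pre lam v P}
  let L2 : V → Set (List α) := fun v => {P | Geo.LP2 K c lam2 v P}
  have hexp : ∀ P Q u b, lam P = some u → rho Q = some b → b = post u (P ++ Q) :=
    fun P Q u b h1 h2 => hex1 P Q u b h1 h2
  have hexq : ∀ k, k < K → ∀ P Q v u, P.length = c k → Q.length = g.p0 - c k →
      lam2 k P = some v → rho2 k Q = some u → u = pre (P ++ Q) v :=
    fun k hk P Q v u h1 _ h2 h3 => hex2 k hk P Q v u h1 h2 h3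
  have hPC : PCode C := by
    refine ⟨fun h => ?_, ?_⟩
    · have := h.1
      simp at this
      omega
    · rintro X hX Y hY ⟨R', h⟩
      exact g.prefix_code (R := R') (R' := []) hX hY (by rw [h, List.append_nil])
  -- regular pieces
  have rT : ∀ x y, Reg {X : List α | act x (ph X) + nuX X = y} := by
    intro x y
    haveI : Finite {l : List α // l.length ≤ g.p0} := List.finite_length_le α g.p0
    have h1 := (regF_take g.p0 (α := α)).prod ((regF_ph φ).prod
      (((regF_ph φ).drop g.p0).prod (hnu.drop g.p0)))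
    have h2 := h1.pred (fun q => act x q.2.1 + (act (nu2 q.1.1) q.2.2.1 + q.2.2.2) = y)
    exact reg_congr h2 fun w => Iff.rfl
  have rE : Reg {X : List α | g.E X} := by
    have hfin : ({v : List α | v.length < g.z + g.N1 ∧ g.Wo v ∧ g.z ≤ v.length + g.N1} :
        Set (List α)).Finite :=
      (List.finite_length_lt α (g.z + g.N1)).subset fun v hv => hv.1
    refine reg_congr (reg_hl (HL.prefix (k := 0) (HL.finite hfin))) fun w => ?_
    constructor
    · rintro ⟨v, ⟨h1, h2, h3⟩, R', rfl⟩
      refine ⟨v.length, by simp, ?_, h3, h1⟩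
      rw [List.take_left]; exact h2
    · rintro ⟨t, h1, h2, h3, h4⟩
      have hl : (w.take t).length = t := by rw [List.length_take]; omega
      exact ⟨w.take t, ⟨by omega, h2, by omega⟩, List.take_prefix _ _⟩
  have rB : Reg {X : List α | g.BadX BadT X} := by
    have h1 := reg_drop g.p0 hBT
    refine reg_congr (reg_or rE h1) fun w => ?_
    show (g.E w ∨ BadT (w.drop g.p0).length) ↔ g.E w ∨ BadT (w.length - g.p0)
    rw [List.length_drop]
  have xxiff : ∀ X, Crest.Agent.R320.P4_933.XX g.Wo g.z X ↔ g.XX X := by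
    intro X
    constructor
    · rintro ⟨h1, h2, h3⟩; exact ⟨h2, h1, fun t ht hl => h3 t hl ht⟩
    · rintro ⟨h1, h2, h3⟩; exact ⟨h2, h1, fun t hl ht => h3 t ht hl⟩
  have hCT : ∀ x y, HL 1 ({X | X ∈ C ∧ act x (X.map φ).prod + nuX X = y} : Language α) := by
    intro x y
    refine (Crest.Agent.R320.P4_933.hl_XX (z := g.z) g.loc len free (rT x y)).congr fun w => ?_
    show (g.XX w ∧ _) ↔ (Crest.Agent.R320.P4_933.XX g.Wo g.z w ∧ _)
    rw [xxiff]
  have hBTl : ∀ x y, HL 1 ({X | X ∈ Bad ∧ act x (X.map φ).prod + nuX X = y} : Language α) := by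
    intro x y
    refine (Crest.Agent.R320.P4_933.hl_XX (z := g.z) g.loc len free
      (reg_and rB (rT x y))).congr fun w => ?_
    show ((g.XX w ∧ g.BadX BadT w) ∧ _) ↔
      (Crest.Agent.R320.P4_933.XX g.Wo g.z w ∧ g.BadX BadT w ∧ _)
    rw [xxiff, and_assoc]
  have htail : ∀ s, HL 1 ({w | (∀ X ∈ C, ¬ X <+: w) ∧ (w.map φ).prod = s} : Language α) := by
    intro s
    refine (Crest.Agent.R320.P4_933.hl_NB (z := g.z) g.loc len free
      (regF_ph φ s)).congr fun w => ?_
    show ((∀ X ∈ C, ¬ X <+: w) ∧ _) ↔ (Crest.Agent.R320.P4_933.NB g.Wo g.z w ∧ _)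
    rw [Crest.Agent.R320.P4_933.NB_iff]
    refine and_congr_left fun _ => ?_
    constructor
    · intro h P hP hx; exact h P ((xxiff P).1 hx) hP
    · intro h P hP hx; exact h P hx ((xxiff P).2 hP)
  have hf1 : ∀ v, (L1 v).Finite := by
    intro v
    refine (List.finite_length_le α (g.p0 + g.N1)).subset ?_
    rintro P ⟨h1, h2⟩
    have := hlen _ _ h2
    rw [List.length_drop] at this
    show P.length ≤ _
    omega
  have hf2 : ∀ v, (L2 v).Finite := by
    intro v
    refine (List.finite_length_le α g.p0).subset ?_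
    rintro P ⟨k, h1, h2, h3⟩
    show P.length ≤ _
    rw [h2]; exact hc k h1
  refine Crest.Agent.R320.Top5_120.top5 act hadd hone hmul hfaith φ nuX C Bad hPC
    (fun X hX => hX.1) L1 L2 hf1 hf2 hCT hBTl htail ?_ ?_ s
  · intro X hX hXb v
    have hE : ¬ g.E X := fun h => hXb ⟨hX, Or.inl h⟩
    have hBd : ¬ BadT (X.length - g.p0) := fun h => hXb ⟨hX, Or.inr h⟩
    have hXz : g.z ≤ X.length := hX.1
    obtain ⟨P, Q, b, h1, h2, h3⟩ := g.complete1 pre hlen hX hE
      (fun u => hc1 (X.drop g.p0) (by rw [List.length_drop]; omega)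
        (by rw [List.length_drop]; exact hBd) u) v
    refine ⟨P, Q, h1.symm, h2, fun x P' hP' => ?_⟩
    obtain ⟨h4, h5⟩ := g.sound1 pre post hlen hexp hP' h3
    obtain ⟨h6, h7⟩ := g.sound1 pre post hlen hexp h2 h3
    refine ⟨h4, ?_⟩
    rw [hT] at h5 h7
    rw [h1]
    exact h5.trans h7.symm
  · intro X hX Y hY v
    have hXz : g.z ≤ X.length := hX.1.1
    obtain ⟨I, hI1, hI2⟩ := hc2 (X.take g.p0) (by rw [List.length_take]; omega) v
    obtain ⟨P, Q, b, h1, h2, h3⟩ := g.complete2 pre post (BadT := BadT) (K := K) (c := c)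
      (lam2 := lam2) (rho2 := rho2) (C0 := C0) hc hgap hsp hthin hX.1 hY.1 v
      ⟨I, hI1, fun k hk => by
        obtain ⟨a1, a2, a3⟩ := hI2 k hk
        have := hc k a1
        rw [List.take_take, Nat.min_eq_left this] at a2
        exact ⟨a1, a2, a3⟩⟩
    refine ⟨P, Q, h1, h2, fun x P' hP' => ?_⟩
    have hb : b = g.T pre post (g.T pre post v X) Y := by
      obtain ⟨X2, h4, h5, h6⟩ := g.sound2 pre post (BadT := BadT) hc hexq hX.1 hX.2 h2 h3
        (R := []) (R' := Y) (by rw [List.append_nil, h1])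
      have : X2 = Y := List.append_cancel_left (h5.symm.trans h1)
      rw [← this]; exact h6.symm
    have hP'0 := hP'
    have h30 := h3
    obtain ⟨k0, hk0, hPl, hl⟩ := hP'
    obtain ⟨k, hk, l, hend, hgood, hX2, u, hr, hbb⟩ := h3
    have hpre : ∃ l', g.CEnd Q (c k0) l' := by
      by_cases he : k0 = k
      · rw [he]; exact ⟨l, hend⟩
      · obtain ⟨l', he', _⟩ := hgood k0 hk0 he
        exact ⟨l', he'⟩
    obtain ⟨l', hl'⟩ := hpre
    have hXX' : g.XX (P' ++ Q.take l') :=
      g.xx_of_cend (by rw [hPl]; exact hc k0 hk0) (by rw [hPl]; exact hl')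
    have hpf : P' ++ Q.take l' ++ Q.drop l' = P' ++ Q := by
      rw [List.append_assoc, List.take_append_drop]
    by_cases hbad : g.BadX BadT (P' ++ Q.take l')
    · left
      obtain ⟨X2, h4, h5, h6⟩ := g.sound2 pre post (BadT := BadT) hc hexq hXX' hbad hP'0 h30
        (R := []) (R' := Q.drop l') (by rw [List.append_nil, hpf])
      refine ⟨P' ++ Q.take l', ⟨hXX', hbad⟩, X2, h4, h5.symm, ?_⟩
      rw [hT, hT] at h6
      rw [hT, hT] at hb
      exact h6.trans hb
    · right
      exact ⟨P' ++ Q.take l', hXX', fun h => hbad h.2, ⟨Q.drop l', hpf⟩⟩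

end join

end Crest.Agent.R320.J1_925
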