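import Mathlib
import Crest.Agent.R320.Block_467
import Crest.Agent.R320.ExactR_237

/-!
Row 320 (helper980): combinatorial joint for the design 693 #13203 / 110 / 727 (semantic schemes):
walls on all words (left looking), zones = first wall at a place >= z, gadget 1 = black box `G1`
(no small walls), gadget 2 = exact gadget (237).  Here: completeness of both schemes.
-/

set_option autoImplicit false
set_option linter.unusedSectionVars false

namespace Crest.Agent.R320.J_980

open Crest.Agent.R320.Blk467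

/-- the black box: scheme 1 on contents `Y : List S` -/
structure G1 (S V : Type) [Monoid S] [AddCommGroup V] (act : V → S → V) (R K : ℕ) where
  N1 : ℕ
  c : ℕ → ℕ
  Bad : ℕ → Prop
  lam : List S → Option V
  rho : List S → Option V
  nu : List S → V
  c_mono : ∀ i j, i < j → j < K → c i < c j
  lam_len : ∀ P v, lam P = some v → P.length ≤ N1
  sound : ∀ P Q v b, lam P = some v → rho Q = some b → b = act v (P ++ Q).prod + nu (P ++ Q)
  compl : ∀ Y : List S, N1 ≤ Y.length → ¬ Bad Y.length → ∀ v, ∃ P Q, P ++ Q = Y ∧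
    lam P = some v ∧ (rho Q).isSome
  sep : ∀ a b a' b', a < K → b < K → a' < K → b' < K → a ≠ b → a' ≠ b' →
    |((c b : ℤ) - c a) - ((c b' : ℤ) - c a')| ≤ 2 * (N1 : ℤ) → a = a' ∧ b = b'
  thin : ∀ T : ℕ, (∀ k < K, c k ≤ T) →
    Set.ncard {p : ℕ × ℕ | p.1 < K ∧ p.2 < K ∧ p.1 ≠ p.2 ∧ Bad (T + c p.2 - c p.1)} ≤ R
  reg : ∀ x : V, Language.IsRegular ({Y | nu Y = x} : Language S)

/-- left looking walls on all words -/
structure Walls (A : Type) (W : ℕ) where
  n : ℕ
  Wo : List A → Prop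
  loc : ∀ P Q : List A, n ≤ Q.length → (Wo (P ++ Q) ↔ Wo Q)
  len : ∀ Q : List A, Wo Q → n ≤ Q.length
  spc : ∀ (Q : List A) (s t : ℕ), Wo (Q.take s) → Wo (Q.take t) → s < t → t ≤ Q.length →
    W < t - s

section

variable {A S V : Type} [Monoid S] [AddCommGroup V] [Fintype S] [Fintype V]
variable (φ : A → S) (act : V → S → V) {R K W : ℕ}

/-- semantic right words of scheme 1 -/
def R1 (XX : Set (List A)) (T : V → List A → V) (L1 : V → Set (List A)) (y : V) :
    Set (List A) :=
  {Q | ∀ x, ∀ P ∈ L1 x, P ++ Q ∈ XX ∧ T x (P ++ Q) = y}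

def Good (XX : Set (List A)) (T : V → List A → V) (L1 : V → Set (List A)) : Set (List A) :=
  {X | X ∈ XX ∧ ∀ x, ∃ P ∈ L1 x, ∃ Q ∈ R1 XX T L1 (T x X), P ++ Q = X}

def BadS (XX : Set (List A)) (T : V → List A → V) (L1 : V → Set (List A)) : Set (List A) :=
  {X | X ∈ XX ∧ X ∉ Good XX T L1}

/-- semantic right words of scheme 2 -/
def R2 (XX : Set (List A)) (T : V → List A → V) (L1 L2 : V → Set (List A)) (y : V) :
    Set (List A) :=
  {Q | ∀ x, ∀ P ∈ L2 x,
    (∃ X1 ∈ BadS XX T L1, ∃ X2 ∈ BadS XX T L1, P ++ Q = X1 ++ X2 ∧ T (T x X1) X2 = y) ∨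
    (∃ X ∈ Good XX T L1, X <+: P ++ Q) ∨
    (∃ X1 ∈ BadS XX T L1, ∃ X2 ∈ Good XX T L1, X1 ++ X2 <+: P ++ Q)}

/-- data of the joint -/
structure Dat (A S V : Type) [Monoid S] [AddCommGroup V] (act : V → S → V) (R K W : ℕ) where
  G : G1 S V act R K
  Wl : Walls A W
  p0 : ℕ
  hp0 : ∀ k < K, G.c k ≤ p0
  hW : 2 * p0 + 2 * G.N1 ≤ W
  z : ℕ
  hz : 4 * p0 + 4 * G.N1 + Wl.n + 1 ≤ z
  lam2 : ℕ → List S → Option V
  rho2 : ℕ → List S → S → Option V
  nu2 : List S → S → V
  ex_sound : ∀ k < K, ∀ (P Q : List S) (y : S) (v b : V), P.length = G.c k →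
    lam2 k P = some v → rho2 k Q y = some b → b = act v ((P ++ Q).prod * y) + nu2 (P ++ Q) y
  ex_compl : ∀ (u : List S) (y : S) (v : V), (∀ k < K, G.c k ≤ u.length) →
    ∃ I : Finset ℕ, 2 * R + 2 ≤ I.card ∧ ∀ k ∈ I, k < K ∧ lam2 k (u.take (G.c k)) = some v ∧
      (rho2 k (u.drop (G.c k)) y).isSome

namespace Dat

variable {act}
variable (D : Dat A S V act R K W)

/-- zones -/
def XX : Set (List A) :=
  {X | D.z ≤ X.length ∧ D.Wl.Wo X ∧ ∀ t, D.z ≤ t → t < X.length → ¬ D.Wl.Wo (X.take t)}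

/-- the value before gadget 1 -/
def vX (x : V) (X0 : List A) : V :=
  act x (X0.map φ).prod + D.nu2 (X0.map φ) 1

/-- zone map -/
def T (x : V) (X : List A) : V :=
  act (D.vX φ x (X.take D.p0)) ((X.drop D.p0).map φ).prod + D.G.nu ((X.drop D.p0).map φ)

def L1 (x : V) : Set (List A) :=
  {P | D.p0 ≤ P.length ∧ D.G.lam ((P.drop D.p0).map φ) = some (D.vX φ x (P.take D.p0))}

def L2 (x : V) : Set (List A) :=
  {P | ∃ k, k < K ∧ P.length = D.G.c k ∧ D.lam2 k (P.map φ) = some x}

theorem wall_shift (P P' Q : List A) (m : ℕ) (hm : D.Wl.n ≤ m) (hm2 : m ≤ Q.length) :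
    D.Wl.Wo ((P ++ Q).take (P.length + m)) ↔ D.Wl.Wo ((P' ++ Q).take (P'.length + m)) := by
  rw [List.take_length_add_append, List.take_length_add_append, D.Wl.loc, D.Wl.loc]
  · rw [List.length_take]; omega
  · rw [List.length_take]; omega

theorem L1_len {x : V} {P : List A} (hP : P ∈ D.L1 φ x) :
    D.p0 ≤ P.length ∧ P.length ≤ D.p0 + D.G.N1 := by
  obtain ⟨h1, h2⟩ := hP
  have := D.G.lam_len _ _ h2
  rw [List.length_map, List.length_drop] at this
  omega

/-- completeness of scheme 1 -/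
theorem good_of {X : List A} (hX : X ∈ D.XX)
    (hE : ∀ t, D.z - D.G.N1 ≤ t → t < D.z + D.G.N1 → t ≤ X.length → ¬ D.Wl.Wo (X.take t))
    (hB : ¬ D.G.Bad (X.length - D.p0)) : X ∈ Good D.XX (D.T φ) (D.L1 φ) := by
  refine ⟨hX, fun x => ?_⟩
  obtain ⟨hX1, hX2, hX3⟩ := hX
  have hz := D.hz
  have hlen : D.z + D.G.N1 ≤ X.length := by
    by_contra hlt
    push Not at hlt
    exact hE X.length (by omega) hlt le_rfl (by rwa [List.take_length])
  obtain ⟨P1, Q1, hPQ, hP1, hQ1⟩ := D.G.compl ((X.drop D.p0).map φ)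
    (by rw [List.length_map, List.length_drop]; omega)
    (by rw [List.length_map, List.length_drop]; exact hB) (D.vX φ x (X.take D.p0))
  obtain ⟨b, hb⟩ := Option.isSome_iff_exists.1 hQ1
  have hP1l := D.G.lam_len _ _ hP1
  have hl2 : P1.length ≤ (X.drop D.p0).length := by
    have := congrArg List.length hPQ
    rw [List.length_append, List.length_map] at this
    omega
  have eP : P1 = ((X.drop D.p0).take P1.length).map φ := by
    have := congrArg (List.take P1.length) hPQ
    rw [List.take_left, ← List.map_take] at this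
    exact this
  have eQ : Q1 = ((X.drop D.p0).drop P1.length).map φ := by
    have := congrArg (List.drop P1.length) hPQ
    rw [List.drop_left, ← List.map_drop] at this
    exact this
  set o := P1.length with ho
  set P := X.take (D.p0 + o) with hP
  set Q := X.drop (D.p0 + o) with hQ
  have hPl : P.length = D.p0 + o := by
    rw [hP, List.length_take]; omega
  have hQl : Q.length = X.length - (D.p0 + o) := by rw [hQ, List.length_drop]
  have hXPQ : P ++ Q = X := List.take_append_drop _ _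
  have eQ' : Q1 = Q.map φ := by rw [eQ, List.drop_drop]
  have key : ∀ x' P', P' ∈ D.L1 φ x' → P' ++ Q ∈ D.XX ∧ D.T φ x' (P' ++ Q) = b := by
    intro x' P' hP'
    have hl := D.L1_len φ hP'
    obtain ⟨g1, g2⟩ := hP'
    constructor
    · refine ⟨by rw [List.length_append]; omega, ?_, ?_⟩
      · rw [D.Wl.loc P' Q (by omega)]
        rw [← hXPQ] at hX2
        exact (D.Wl.loc P Q (by omega)).1 hX2
      · intro t ht1 ht2 ht3
        rw [List.length_append] at ht2
        have e : t = P'.length + (t - P'.length) := by omega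
        rw [e, D.wall_shift P' P Q (t - P'.length) (by omega) (by omega), hXPQ, hPl] at ht3
        by_cases hc : D.z ≤ D.p0 + o + (t - P'.length)
        · exact hX3 _ hc (by omega) ht3
        · exact hE _ (by omega) (by omega) (by omega) ht3
    · have h := D.G.sound _ _ _ _ g2 (eQ' ▸ hb)
      rw [← List.map_append] at h
      unfold Dat.T
      rw [List.take_append_of_le_length g1, List.drop_append_of_le_length g1]
      exact h.symm
  have hPL : P ∈ D.L1 φ x := by
    refine ⟨by omega, ?_⟩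
    have e1 : P.drop D.p0 = (X.drop D.p0).take o := by
      rw [hP, List.drop_take]; congr 1; omega
    have e2 : P.take D.p0 = X.take D.p0 := by
      rw [hP, List.take_take]; congr 1; omega
    rw [e1, e2, ← eP, hP1]
  refine ⟨P, hPL, Q, ?_, hXPQ⟩
  intro x' P' hP'
  obtain ⟨h1, h2⟩ := key x' P' hP'
  obtain ⟨h3, h4⟩ := key x P hPL
  refine ⟨h1, ?_⟩
  rw [h2, ← h4, hXPQ]

end Dat

end

end Crest.Agent.R320.J_980
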