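import Crest.Agent.R320.J1_980

/-! Row 320 (helper980): completeness of scheme 2 (two bad zones). -/

set_option autoImplicit false
set_option linter.unusedSectionVars false

namespace Crest.Agent.R320.J_980

open Crest.Agent.R320.Blk467

variable {A S V : Type} [Monoid S] [AddCommGroup V] [Fintype S] [Fintype V]
variable (φ : A → S) {act : V → S → V} {R K W : ℕ}

namespace Dat

variable (D : Dat A S V act R K W)

/-- the pair of places `(k, k')` is spoiled; `t0`, `t1` the first two walls -/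
def Spoil (t0 t1 k k' : ℕ) : Prop :=
  (D.z - D.G.N1 + D.G.c k ≤ t0 + D.G.c k' ∧ t0 + D.G.c k' < D.z + D.G.N1 + D.G.c k) ∨
  D.G.Bad (t0 - D.p0 + D.G.c k' - D.G.c k) ∨ D.G.Bad (t1 - D.p0 + D.G.c k' - D.G.c k)

theorem good_k (t0 t1 : ℕ) (h0 : 2 * D.p0 ≤ t0) (h1 : 2 * D.p0 ≤ t1) (I : Finset ℕ)
    (hI : 2 * R + 2 ≤ I.card) (hIK : ∀ k ∈ I, k < K) :
    ∃ k ∈ I, ∀ k' < K, k' ≠ k → ¬ D.Spoil t0 t1 k k' := by
  classical
  by_contra hcon
  push Not at hcon
  choose! g hg1 hg2 hg3 using hcon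
  let U : Set (ℕ × ℕ) := {p | p.1 < K ∧ p.2 < K ∧ p.1 ≠ p.2}
  have hU : U.Finite := by
    refine Set.Finite.subset ((Finset.range K ×ˢ Finset.range K).finite_toSet) ?_
    rintro ⟨a, b⟩ ⟨ha, hb, _⟩
    simp only [Finset.coe_product, Finset.coe_range, Set.mem_prod, Set.mem_Iio]
    exact ⟨ha, hb⟩
  let E : Set (ℕ × ℕ) := {p | p.1 < K ∧ p.2 < K ∧ p.1 ≠ p.2 ∧
    (D.z - D.G.N1 + D.G.c p.1 ≤ t0 + D.G.c p.2 ∧ t0 + D.G.c p.2 < D.z + D.G.N1 + D.G.c p.1)}
  let B0 : Set (ℕ × ℕ) := {p | p.1 < K ∧ p.2 < K ∧ p.1 ≠ p.2 ∧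
    D.G.Bad (t0 - D.p0 + D.G.c p.2 - D.G.c p.1)}
  let B1 : Set (ℕ × ℕ) := {p | p.1 < K ∧ p.2 < K ∧ p.1 ≠ p.2 ∧
    D.G.Bad (t1 - D.p0 + D.G.c p.2 - D.G.c p.1)}
  have hEf : E.Finite := hU.subset (fun p hp => ⟨hp.1, hp.2.1, hp.2.2.1⟩)
  have hB0f : B0.Finite := hU.subset (fun p hp => ⟨hp.1, hp.2.1, hp.2.2.1⟩)
  have hB1f : B1.Finite := hU.subset (fun p hp => ⟨hp.1, hp.2.1, hp.2.2.1⟩)
  have hz := D.hz
  have cE : E.ncard ≤ 1 := by
    rw [Set.ncard_le_one hEf]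
    rintro ⟨a, b⟩ ⟨h1, h2, h3, h4, h5⟩ ⟨a', b'⟩ ⟨h1', h2', h3', h4', h5'⟩
    simp only at h1 h2 h3 h4 h5 h1' h2' h3' h4' h5'
    obtain ⟨e1, e2⟩ := D.G.sep a b a' b' h1 h2 h1' h2' h3 h3' (by
      rw [abs_le]
      constructor <;> omega)
    rw [e1, e2]
  have cB0 : B0.ncard ≤ R := D.G.thin (t0 - D.p0) (fun k hk => by
    have := D.hp0 k hk; omega)
  have cB1 : B1.ncard ≤ R := D.G.thin (t1 - D.p0) (fun k hk => by
    have := D.hp0 k hk; omega)
  have hsub : (fun k => (k, g k)) '' (I : Set ℕ) ⊆ E ∪ (B0 ∪ B1) := by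
    rintro p ⟨k, hk, rfl⟩
    have hk' : k ∈ I := hk
    have a1 := hIK k hk'
    have a2 := hg1 k hk'
    have a3 : k ≠ g k := (hg2 k hk').symm
    rcases hg3 k hk' with h | h | h
    · exact Or.inl ⟨a1, a2, a3, h⟩
    · exact Or.inr (Or.inl ⟨a1, a2, a3, h⟩)
    · exact Or.inr (Or.inr ⟨a1, a2, a3, h⟩)
  have hc := Set.ncard_le_ncard hsub (hEf.union (hB0f.union hB1f))
  have hinj : Set.InjOn (fun k => (k, g k)) (I : Set ℕ) := by
    intro a _ b _ hab
    exact (Prod.mk.inj hab).1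
  rw [Set.ncard_image_of_injOn hinj, Set.ncard_coe_finset] at hc
  have h2 := Set.ncard_union_le E (B0 ∪ B1)
  have h3 := Set.ncard_union_le B0 B1
  omega

/-- an unspoiled pair: the shifted text starts with a good zone -/
theorem good_prefix {w : List A} {t0 t1 k k' : ℕ} (hk : k < K) (hk' : k' < K)
    (ht0 : D.z - D.G.N1 - D.p0 ≤ t0) (hw0 : D.Wl.Wo (w.take t0)) (hl0 : t0 ≤ w.length)
    (hm0 : ∀ t, D.z - D.G.N1 - D.p0 ≤ t → t < t0 → ¬ D.Wl.Wo (w.take t))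
    (ht1 : t0 < t1) (hw1 : D.Wl.Wo (w.take t1)) (hl1 : t1 ≤ w.length)
    (hm1 : ∀ t, t0 < t → t < t1 → ¬ D.Wl.Wo (w.take t))
    (P P' Q : List A) (hP : P.length = D.G.c k) (hP' : P'.length = D.G.c k') (hw : P ++ Q = w)
    (hS : ¬ D.Spoil t0 t1 k k') : ∃ X ∈ Good D.XX (D.T φ) (D.L1 φ), X <+: P' ++ Q := by
  have hz := D.hz
  have hW := D.hW
  have c1 := D.hp0 k hk
  have c2 := D.hp0 k' hk'
  have hsp := D.Wl.spc w t0 t1 hw0 hw1 ht1 hl1
  unfold Spoil at hS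
  push Not at hS
  obtain ⟨s1, s2, s3⟩ := hS
  have hwl : w.length = D.G.c k + Q.length := by rw [← hw, List.length_append, hP]
  have tr : ∀ t, D.G.c k + D.Wl.n ≤ t → t ≤ w.length →
      (D.Wl.Wo (w.take t) ↔ D.Wl.Wo ((P' ++ Q).take (t - D.G.c k + D.G.c k'))) := by
    intro t h1 h2
    have h := D.wall_shift P P' Q (t - D.G.c k) (by omega) (by omega)
    rw [hw, hP, hP'] at h
    have e1 : D.G.c k + (t - D.G.c k) = t := by omega
    have e2 : D.G.c k' + (t - D.G.c k) = t - D.G.c k + D.G.c k' := by omega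
    rw [e1, e2] at h
    exact h
  obtain ⟨Ts, q1, q2, q3, q4, q5⟩ : ∃ Ts, Ts ≤ w.length ∧ D.Wl.Wo (w.take Ts) ∧
      D.z + D.G.c k ≤ Ts + D.G.c k' ∧
      (∀ t, D.z + D.G.c k ≤ t + D.G.c k' → t < Ts → ¬ D.Wl.Wo (w.take t)) ∧
      ¬ D.G.Bad (Ts - D.p0 + D.G.c k' - D.G.c k) := by
    by_cases h : D.z + D.G.c k ≤ t0 + D.G.c k'
    · exact ⟨t0, hl0, hw0, h, fun t h1 h2 => hm0 t (by omega) h2, s2⟩
    · refine ⟨t1, hl1, hw1, by omega, fun t h1 h2 => ?_, s3⟩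
      exact hm1 t (by omega) h2
  have hl' : (P' ++ Q).length = D.G.c k' + Q.length := by rw [List.length_append, hP']
  have hXl : ((P' ++ Q).take (Ts - D.G.c k + D.G.c k')).length = Ts - D.G.c k + D.G.c k' := by
    rw [List.length_take]; omega
  have htk : ∀ t, t ≤ Ts - D.G.c k + D.G.c k' →
      ((P' ++ Q).take (Ts - D.G.c k + D.G.c k')).take t = (P' ++ Q).take t := by
    intro t ht
    rw [List.take_take]; congr 1; omega
  refine ⟨(P' ++ Q).take (Ts - D.G.c k + D.G.c k'), D.good_of φ ⟨?_, ?_, ?_⟩ ?_ ?_,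
    List.take_prefix _ _⟩
  · rw [hXl]; omega
  · exact (tr Ts (by omega) q1).1 q2
  · intro t h1 h2 h3
    rw [hXl] at h2
    rw [htk t (by omega)] at h3
    have e : t = (t - D.G.c k' + D.G.c k) - D.G.c k + D.G.c k' := by omega
    rw [e] at h3
    exact q4 _ (by omega) (by omega) ((tr _ (by omega) (by omega)).2 h3)
  · intro t h1 h2 h3 h4
    rw [hXl] at h3
    rw [htk t (by omega)] at h4
    have e : t = (t - D.G.c k' + D.G.c k) - D.G.c k + D.G.c k' := by omega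
    rw [e] at h4
    have h5 := (tr _ (by omega) (by omega)).2 h4
    set s := t - D.G.c k' + D.G.c k with hs
    have h6 : t0 ≤ s := by
      by_contra hlt
      exact hm0 s (by omega) (by omega) h5
    rcases Nat.eq_or_lt_of_le h6 with h7 | h7
    · have := s1 (by omega)
      omega
    · have h8 : t1 ≤ s := by
        by_contra hlt
        exact hm1 s h7 (by omega) h5
      omega
  · rw [hXl]
    have e : Ts - D.G.c k + D.G.c k' - D.p0 = Ts - D.p0 + D.G.c k' - D.G.c k := by omega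
    rw [e]; exact q5

/-- **completeness of scheme 2** -/
theorem hC2 {X1 X2 : List A} (h1 : X1 ∈ BadS D.XX (D.T φ) (D.L1 φ))
    (h2 : X2 ∈ BadS D.XX (D.T φ) (D.L1 φ)) (x : V) :
    ∃ P ∈ D.L2 φ x, ∃ Q ∈ R2 D.XX (D.T φ) (D.L1 φ) (D.L2 φ) (D.T φ (D.T φ x X1) X2),
      P ++ Q = X1 ++ X2 := by
  classical
  have hz := D.hz
  obtain ⟨⟨a1, a2, a3⟩, _⟩ := h1
  have h2' := h2
  obtain ⟨⟨b1, b2, b3⟩, _⟩ := h2
  set w := X1 ++ X2 with hw
  have hwl : w.length = X1.length + X2.length := by rw [hw, List.length_append]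
  have hwX1 : w.take X1.length = X1 := by rw [hw, List.take_left]
  have hwW : D.Wl.Wo w := by rw [hw, D.Wl.loc X1 X2 (by omega)]; exact b2
  have e0 : ∃ t, D.z - D.G.N1 - D.p0 ≤ t ∧ D.Wl.Wo (w.take t) :=
    ⟨X1.length, by omega, by rw [hwX1]; exact a2⟩
  obtain ⟨t0, ⟨ht0, hw0⟩, hm0, hle0⟩ : ∃ t0, (D.z - D.G.N1 - D.p0 ≤ t0 ∧ D.Wl.Wo (w.take t0)) ∧
      (∀ t, D.z - D.G.N1 - D.p0 ≤ t → t < t0 → ¬ D.Wl.Wo (w.take t)) ∧ t0 ≤ X1.length := by
    refine ⟨Nat.find e0, Nat.find_spec e0, fun t h1 h2 h3 => Nat.find_min e0 h2 ⟨h1, h3⟩,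
      Nat.find_min' e0 ⟨by omega, by rw [hwX1]; exact a2⟩⟩
  have hlw : w.take w.length = w := List.take_length
  have e1 : ∃ t, t0 < t ∧ D.Wl.Wo (w.take t) := ⟨w.length, by omega, by rw [hlw]; exact hwW⟩
  obtain ⟨t1, ⟨ht1, hw1⟩, hm1, hle1⟩ : ∃ t1, (t0 < t1 ∧ D.Wl.Wo (w.take t1)) ∧
      (∀ t, t0 < t → t < t1 → ¬ D.Wl.Wo (w.take t)) ∧ t1 ≤ w.length := by
    refine ⟨Nat.find e1, Nat.find_spec e1, fun t h1 h2 h3 => Nat.find_min e1 h2 ⟨h1, h3⟩,
      Nat.find_min' e1 ⟨by omega, by rw [hlw]; exact hwW⟩⟩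
  obtain ⟨I, hI, hI2⟩ := D.ex_compl ((X1.take D.p0).map φ) 1 x (by
    intro k hk
    rw [List.length_map, List.length_take]
    have := D.hp0 k hk
    omega)
  obtain ⟨k, hkI, hk⟩ := D.good_k t0 t1 (by omega) (by omega) I hI (fun k hk => (hI2 k hk).1)
  obtain ⟨hkK, hlam, hrho⟩ := hI2 k hkI
  obtain ⟨b, hb⟩ := Option.isSome_iff_exists.1 hrho
  have ck := D.hp0 k hkK
  set P := X1.take (D.G.c k) with hP
  set Y := X1.drop (D.G.c k) with hY
  have hPl : P.length = D.G.c k := by rw [hP, List.length_take]; omega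
  have hPY : P ++ Y = X1 := List.take_append_drop _ _
  have hYl : Y.length = X1.length - D.G.c k := by rw [hY, List.length_drop]
  have hPw : P ++ (Y ++ X2) = w := by rw [← List.append_assoc, hPY]
  have hPm : D.lam2 k (P.map φ) = some x := by
    rw [← hlam, hP, ← List.map_take, List.take_take]
    congr 3; omega
  have hYm : ((X1.take D.p0).map φ).drop (D.G.c k) = (Y.take (D.p0 - D.G.c k)).map φ := by
    rw [← List.map_drop, hY, List.drop_take]
  rw [hYm] at hb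
  -- value
  have val : ∀ x' P', P'.length = D.G.c k → D.lam2 k (P'.map φ) = some x' →
      D.vX φ x' ((P' ++ Y).take D.p0) = b := by
    intro x' P' hl hx
    have h := D.ex_sound k hkK (P'.map φ) ((Y.take (D.p0 - D.G.c k)).map φ) 1 x' b
      (by rw [List.length_map]; exact hl) hx hb
    rw [mul_one, ← List.map_append] at h
    unfold Dat.vX
    have e : (P' ++ Y).take D.p0 = P' ++ Y.take (D.p0 - D.G.c k) := by
      rw [List.take_append, hl, List.take_of_length_le (by omega)]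
    rw [e]
    exact h.symm
  have dr : ∀ P' : List A, P'.length = D.G.c k → (P' ++ Y).drop D.p0 = X1.drop D.p0 := by
    intro P' hl
    rw [List.drop_append, hl, List.drop_eq_nil_of_le (by omega), List.nil_append, hY,
      List.drop_drop]
    congr 1; omega
  refine ⟨P, ⟨k, hkK, hPl, hPm⟩, Y ++ X2, ?_, hPw⟩
  rintro x' P' ⟨k', hk'K, hl', hx'⟩
  by_cases hkk : k' = k
  · subst hkk
    have ht : D.T φ x' (P' ++ Y) = D.T φ x X1 := by
      unfold Dat.T
      rw [val x' P' hl' hx', dr P' hl']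
      have := val x P hPl hPm
      rw [hPY] at this
      rw [this]
    have hXX : P' ++ Y ∈ D.XX := by
      refine ⟨by rw [List.length_append]; omega, ?_, ?_⟩
      · rw [D.Wl.loc P' Y (by omega)]
        rw [← hPY] at a2
        exact (D.Wl.loc P Y (by omega)).1 a2
      · intro t g1 g2 g3
        rw [List.length_append] at g2
        have e : t = P'.length + (t - P'.length) := by omega
        rw [e, D.wall_shift P' P Y (t - P'.length) (by omega) (by omega), hPY] at g3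
        exact a3 _ (by omega) (by omega) g3
    by_cases hg : P' ++ Y ∈ Good D.XX (D.T φ) (D.L1 φ)
    · refine Or.inr (Or.inl ⟨P' ++ Y, hg, ?_⟩)
      rw [← List.append_assoc]
      exact List.prefix_append _ _
    · exact Or.inl ⟨P' ++ Y, ⟨hXX, hg⟩, X2, h2', by rw [List.append_assoc], by rw [ht]⟩
  · refine Or.inr (Or.inl ?_)
    exact D.good_prefix φ hkK hk'K ht0 hw0 (by omega) hm0 ht1 hw1 hle1 hm1 P P' (Y ++ X2) hPl hl'
      hPw (hk k' hk'K hkk)

end Dat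

end Crest.Agent.R320.J_980
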