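import Crest.Agent.R320.Joint_487
import Crest.Agent.R320.Top5_163

/-! Row 320: `Top5_163.top` applied to `Joint_487` (gadget without small walls). -/

set_option autoImplicit false
set_option linter.unusedVariables false

namespace Crest.Agent.R320.JTop_487

open Crest.RegLang Crest.Agent.R320.Hgt1_903 Crest.Agent.R320.Joint_487

variable {α S V : Type*}

open Classical in
noncomputable def R1 (Wo : List α → Prop) (rho : List α → Option V) (N z p0 : ℕ) (Q : List α) :
    Option V :=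
  if h : ∃ b, RQ1 Wo rho N z p0 b Q then some h.choose else none

theorem R1_iff {Wo : List α → Prop} {rho : List α → Option V} {N z p0 : ℕ} {Q : List α} {b : V} :
    R1 Wo rho N z p0 Q = some b ↔ RQ1 Wo rho N z p0 b Q := by
  classical
  unfold R1
  constructor
  · intro h
    split_ifs at h with h1
    simp only [Option.some.injEq] at h
    rw [← h]; exact h1.choose_spec
  · intro h
    have h1 : ∃ b, RQ1 Wo rho N z p0 b Q := ⟨b, h⟩
    rw [dif_pos h1]
    have h2 := h1.choose_spec.2.2.2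
    have h3 := h.2.2.2
    rw [h2] at h3
    exact h3

section
variable [AddCommGroup V]

open Classical in
noncomputable def R2 (act : V → S → V) (ph : List α → S) (Wo : List α → Prop) (Bad : ℕ → Prop)
    (N z p0 K : ℕ) (c : ℕ → ℕ) (rho2 : ℕ → List α → Option V) (nu2 nu1 : List α → V)
    (Q : List α) : Option V :=
  if h : ∃ b, RQ2 act ph Wo Bad N z p0 K c rho2 nu2 nu1 b Q then some h.choose else none

theorem RQ2_fun {act : V → S → V} {ph : List α → S} {Wo : List α → Prop} {Bad : ℕ → Prop}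
    {N z p0 K : ℕ} {c : ℕ → ℕ} {rho2 : ℕ → List α → Option V} {nu2 nu1 : List α → V}
    {Q : List α} {b b' : V} (h : RQ2 act ph Wo Bad N z p0 K c rho2 nu2 nu1 b Q)
    (h' : RQ2 act ph Wo Bad N z p0 K c rho2 nu2 nu1 b' Q) : b = b' := by
  obtain ⟨k, hk, hCB, hu, he, t, y, ht, hy, hX, hb⟩ := h
  obtain ⟨k', hk', hCB', hu', he', t', y', ht', hy', hX', hb'⟩ := h'
  have e1 : k = k' := by
    by_contra hne
    exact hu k' hk' (fun h => hne h.symm) hCB'
  subst e1
  have e2 := ht.uniq ht'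
  subst e2
  rw [hy] at hy'
  simp only [Option.some.injEq] at hy'
  subst hy'
  rw [hb, hb']

theorem R2_iff {act : V → S → V} {ph : List α → S} {Wo : List α → Prop} {Bad : ℕ → Prop}
    {N z p0 K : ℕ} {c : ℕ → ℕ} {rho2 : ℕ → List α → Option V} {nu2 nu1 : List α → V}
    {Q : List α} {b : V} :
    R2 act ph Wo Bad N z p0 K c rho2 nu2 nu1 Q = some b ↔
      RQ2 act ph Wo Bad N z p0 K c rho2 nu2 nu1 b Q := by
  classical
  unfold R2
  constructor
  · intro h
    split_ifs at h with h1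
    simp only [Option.some.injEq] at h
    rw [← h]; exact h1.choose_spec
  · intro h
    have h1 : ∃ b, RQ2 act ph Wo Bad N z p0 K c rho2 nu2 nu1 b Q := ⟨b, h⟩
    rw [dif_pos h1, RQ2_fun h1.choose_spec h]

open Classical in
theorem jtop [Finite V] [Monoid S] [Finite S] (φ : List α → S)
    (hφ1 : φ [] = 1) (hφ : ∀ u v, φ (u ++ v) = φ u * φ v) (act : V → S → V)
    (act_mul : ∀ v s s', act (act v s) s' = act v (s * s'))
    (act_add : ∀ v w s, act (v + w) s = act v s + act w s)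
    (faith : ∀ s s', (∀ v, act v s = act v s') → s = s')
    {Wo : List α → Prop} {n W z p0 N K C0 T0 : ℕ} {c : ℕ → ℕ} {Bad : ℕ → Prop}
    {lam rho : List α → Option V} {nu1 nu2 : List α → V} {lam2 rho2 : ℕ → List α → Option V}
    (hn : 0 < n) (hW : LW Wo n W) (hG1 : G1 act φ N Bad lam rho nu1)
    (hG2 : G2 act φ p0 K (1 + 2 * C0) c lam2 rho2 nu2)
    (hz : p0 + N + n ≤ z) (hWb : 2 * (p0 + N) ≤ W) (hT0 : T0 + 2 * p0 ≤ z)
    (hc : ∀ k < K, c k ≤ p0)
    (hgol : ∀ a b a' b', a < K → b < K → a' < K → b' < K → a ≠ b →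
      |((c a : ℤ) - c b) - ((c a' : ℤ) - c b')| ≤ 2 * N → a = a' ∧ b = b')
    (hspoil : ∀ t, T0 ≤ t → ((Finset.range K ×ˢ Finset.range K).filter
      (fun ab => ab.1 ≠ ab.2 ∧ Bad (t + c ab.1 - c ab.2))).card ≤ C0)
    (hXT : ∀ v v', H 1 ({X | X ∈ XX Wo z ∧ T act φ p0 nu2 nu1 v X = v'} : Language α))
    (hNP : ∀ s, H 1 ({r | (∀ X ∈ XX Wo z, ¬ X <+: r) ∧ φ r = s} : Language α))
    (hL1 : ∀ v, H 1 ({P | LP1 act φ lam nu2 p0 v P} : Language α))
    (hL2 : ∀ v, H 1 ({P | LP2 K c lam2 v P} : Language α))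
    (hQ1 : ∀ b, H 1 ({Q | RQ1 Wo rho N z p0 b Q} : Language α))
    (hQ2 : ∀ b, H 1 ({Q | RQ2 act φ Wo Bad N z p0 K c rho2 nu2 nu1 b Q} : Language α)) (s : S) :
    H 3 ({w | φ w = s} : Language α) := by
  refine Top5_163.top φ hφ1 hφ act act_mul act_add faith (XX Wo z) ?_ ?_
    (T act φ p0 nu2 nu1) (fun X => act (nu2 (X.take p0)) (φ (X.drop p0)) + nu1 (X.drop p0)) ?_
    (fun P v => LP1 act φ lam nu2 p0 v P) (fun P v => LP2 K c lam2 v P)
    (R1 Wo rho N z p0) (R2 act φ Wo Bad N z p0 K c rho2 nu2 nu1) ?_ ?_ ?_ ?_ ?_ hXT hNP hL1 hL2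
    ?_ ?_ s
  · rintro ⟨-, h, -⟩
    simp only [List.length_nil] at h
    omega
  · intro X hX Y hY
    by_contra hne
    have hl : 0 < Y.length := List.length_pos_iff.2 hne
    have := hY.2.2 X.length hX.2.1 (by rw [List.length_append]; omega)
    rw [List.take_left] at this
    exact this hX.1
  · intro X hX v
    show act (act v (φ (X.take p0)) + nu2 (X.take p0)) (φ (X.drop p0)) + nu1 (X.drop p0) = _
    rw [act_add, act_mul, ← hφ, List.take_append_drop, add_assoc]
  · intro Q b h hQ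
    rw [R1_iff] at h
    have := h.2.1
    rw [hQ, List.length_nil] at this
    omega
  · intro Q b h hQ
    rw [R2_iff] at h
    obtain ⟨k, hk, -, -, -, t, y, ht, -⟩ := h
    have h1 := ht.1
    have h2 := ht.2.1
    have h3 := hc k hk
    rw [hQ, List.length_nil] at h1
    omega
  · intro P v Q b hP hQ
    rw [R1_iff] at hQ
    exact s1 nu2 hW hG1 hz v b P Q hP hQ
  · intro P v Q b hP hQ hyp
    rw [R2_iff] at hQ
    have hPl : P.length ≤ p0 := by
      obtain ⟨k, hk, h, -⟩ := hP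
      rw [h]; exact hc k hk
    obtain ⟨X, X2, hX, hX2, hPQ, hT⟩ := s2 hW hG2 hz hc v b P Q hP hQ (by
      intro X Y hX hXY
      by_contra hb
      obtain ⟨P', Q', h1, h2, h3⟩ := c1 nu2 hW hG1 hz X hX hb v
      refine hyp X hX ⟨Y, hXY⟩ P' Q' h1.symm (le_trans hPl h2.1) h2 ?_
      rw [R1_iff.2 h3]; rfl)
    have hXl := hX.2.1
    have hpre : P <+: X := by
      refine List.prefix_of_prefix_length_le (l₃ := X ++ X2) ⟨Q, hPQ⟩ ⟨X2, rfl⟩ (by omega)
    obtain ⟨Q1, rfl⟩ := hpre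
    refine ⟨Q1, X2, ?_, ?_, hX, hX2, hT⟩
    · rw [List.append_assoc] at hPQ
      exact List.append_cancel_left hPQ
    · rintro rfl
      rw [List.append_nil] at hXl
      omega
  · intro X hX X2 hX2 v
    have hXl := hX.2.1
    by_cases hb : BadX Wo Bad N z p0 X
    · right
      obtain ⟨P, Q, h1, h2, h3⟩ := c2 hW hG2 hz hWb hT0 hc hgol hspoil X X2 hX hX2 hb v
      have hPl : P.length ≤ p0 := by
        obtain ⟨k, hk, h, -⟩ := h2
        rw [h]; exact hc k hk
      refine ⟨P, Q, h1.symm, by omega, h2, ?_⟩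
      rw [R2_iff.2 h3]; rfl
    · left
      obtain ⟨P, Q, h1, h2, h3⟩ := c1 nu2 hW hG1 hz X hX hb v
      refine ⟨P, Q, h1.symm, h2, ?_⟩
      rw [R1_iff.2 h3]; rfl
  · intro b
    exact (hQ1 b).congr fun w => R1_iff.symm
  · intro b
    exact (hQ2 b).congr fun w => R2_iff.symm

end

end Crest.Agent.R320.JTop_487
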