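import Crest.Agent.R320.JX_108

/-!
# Row 320: joint, completeness of the second scheme (helper108)
-/

set_option autoImplicit false

namespace Crest.Agent.R320.JX_108

open Crest.RegLang Crest.Agent.R320.Hk_851 Crest.Agent.R320.Half1_180

universe u

namespace Dat

variable {α S V : Type u} [Monoid S] [AddCommGroup V] (D : Dat α S V)

/-- the wall band of the pair `k, k'` -/
def EE (Z : List α) (k k' : ℕ) : Prop := ∃ x, D.z + D.c k ≤ x + D.N1 + D.c k' ∧
  x + D.c k' < D.z + D.N1 + D.c k ∧ x ≤ Z.length ∧ D.Wo (Z.take x)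

theorem pair_cases (Z P' : List α) (k k' w0 w1 : ℕ) (hk : k < D.K) (hk' : k' < D.K)
    (hP' : P'.length = D.c k') (hZ : 2 * D.z ≤ Z.length) (hZw : D.Wo (Z.take Z.length))
    (hw0 : D.z ≤ w0 + D.p0) (hw0Z : w0 ≤ Z.length) (hw0w : D.Wo (Z.take w0))
    (hw0m : ∀ t, D.z ≤ t + D.p0 → t < w0 → ¬ D.Wo (Z.take t))
    (hw1 : D.z + D.p0 ≤ w1) (hw1Z : w1 ≤ Z.length) (hw1w : D.Wo (Z.take w1))
    (hw1m : ∀ t, D.z + D.p0 ≤ t → t < w1 → ¬ D.Wo (Z.take t)) :
    D.EE Z k k' ∨ D.B (w0 - D.p0 + D.c k' - D.c k) ∨ D.B (w1 - D.p0 + D.c k' - D.c k) ∨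
      ∃ X ∈ D.Good, X <+: P' ++ Z.drop (D.c k) := by
  have hz := D.hz
  have hW := D.hW
  have hck := D.hc k hk
  have hck' := D.hc k' hk'
  set U := P' ++ Z.drop (D.c k) with hU
  have hUl : U.length = D.c k' + (Z.length - D.c k) := by
    rw [hU, List.length_append, List.length_drop, hP']
  have htr : ∀ t, D.c k' + D.n ≤ t → t ≤ U.length →
      (D.Wo (U.take t) ↔ D.Wo (Z.take (t - D.c k' + D.c k))) := by
    intro t h1 h2
    have := D.tr Z P' (D.c k) (t - D.c k' + D.c k) (by omega) (by omega)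
    rw [hP'] at this
    have e : D.c k' + (t - D.c k' + D.c k - D.c k) = t := by omega
    rw [e] at this
    exact this
  have hend : D.Wo (U.take U.length) := by
    rw [htr U.length (by omega) le_rfl]
    have e : U.length - D.c k' + D.c k = Z.length := by omega
    rw [e]; exact hZw
  obtain ⟨τ, h1, h2, h3, h4, h5⟩ := D.exists_block U U.length (by omega) le_rfl hend
  by_cases hB : D.BadX (U.take τ)
  swap
  · exact Or.inr (Or.inr (Or.inr ⟨_, ⟨h5, hB⟩, List.take_prefix _ _⟩))
  have hτl : (U.take τ).length = τ := by rw [List.length_take]; omega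
  rcases hB with ⟨t, ht1, ht2, ht3, ht4⟩ | hB
  · left
    rw [hτl] at ht3
    rw [List.take_take, Nat.min_eq_left ht3, htr t (by omega) (by omega)] at ht4
    exact ⟨t - D.c k' + D.c k, by omega, by omega, by omega, ht4⟩
  · rw [hτl] at hB
    right
    have hτw : D.Wo (Z.take (τ - D.c k' + D.c k)) := (htr τ (by omega) h2).1 h3
    have hmin : ∀ t, D.z + D.c k ≤ t + D.c k' → t < τ - D.c k' + D.c k → ¬ D.Wo (Z.take t) := by
      intro t ht1 ht2 hw
      refine h4 (t - D.c k + D.c k') (by omega) (by omega) ?_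
      rw [htr _ (by omega) (by omega)]
      have e : t - D.c k + D.c k' - D.c k' + D.c k = t := by omega
      rw [e]; exact hw
    by_cases hy : D.z + D.c k ≤ w0 + D.c k'
    · left
      have e1 : τ - D.c k' + D.c k ≤ w0 := by
        by_contra h
        exact hmin w0 hy (by omega) hw0w
      have e2 : w0 ≤ τ - D.c k' + D.c k := by
        by_contra h
        exact hw0m _ (by omega) (by omega) hτw
      have e : w0 - D.p0 + D.c k' - D.c k = τ - D.p0 := by omega
      rw [e]; exact hB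
    · right; left
      have g := D.wall_gap Z w0 (τ - D.c k' + D.c k) (by omega) (by omega) hw0w hτw
      have e1 : w1 ≤ τ - D.c k' + D.c k := by
        by_contra h
        exact hw1m _ (by omega) (by omega) hτw
      have e2 : τ - D.c k' + D.c k ≤ w1 := by
        by_contra h
        exact hmin w1 (by omega) (by omega) hw1w
      have e : w1 - D.p0 + D.c k' - D.c k = τ - D.p0 := by omega
      rw [e]; exact hB

theorem ee_unique (Z : List α) {k1 k1' k2 k2' : ℕ} (h1 : k1 < D.K) (h1' : k1' < D.K)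
    (h2 : k2 < D.K) (h2' : k2' < D.K) (hn1 : k1 ≠ k1') (hn2 : k2 ≠ k2')
    (e1 : D.EE Z k1 k1') (e2 : D.EE Z k2 k2') : (k1, k1') = (k2, k2') := by
  have hz := D.hz
  have hW := D.hW
  by_contra hne
  obtain ⟨x, a1, a2, a3, a4⟩ := e1
  obtain ⟨y, b1, b2, b3, b4⟩ := e2
  have c1 := D.hc k1 h1
  have c1' := D.hc k1' h1'
  have c2 := D.hc k2 h2
  have c2' := D.hc k2' h2'
  have hxy : x = y := by
    rcases lt_trichotomy x y with h | h | h
    · have := D.wall_gap Z x y h b3 a4 b4
      omega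
    · exact h
    · have := D.wall_gap Z y x h a3 b4 a4
      omega
  subst hxy
  rcases D.spread k1 k1' k2 k2' h1 h1' h2 h2' hn1 hn2 hne with h | h
  · omega
  · omega

theorem first_wall (Z : List α) (y : ℕ) (hy : y ≤ Z.length) (hZw : D.Wo (Z.take Z.length)) :
    ∃ w, y ≤ w ∧ w ≤ Z.length ∧ D.Wo (Z.take w) ∧ ∀ t, y ≤ t → t < w → ¬ D.Wo (Z.take t) := by
  classical
  have hex : ∃ w, y ≤ w ∧ D.Wo (Z.take w) := ⟨Z.length, hy, hZw⟩
  obtain ⟨h4, h5⟩ := Nat.find_spec hex
  exact ⟨Nat.find hex, h4, Nat.find_min' hex ⟨hy, hZw⟩, h5,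
    fun t' ha hb hc => Nat.find_min hex hb ⟨ha, hc⟩⟩

theorem compl2' (Y1 : List α) (hY1 : Y1 ∈ D.Bad) (Y2 : List α) (hY2 : Y2 ∈ D.Bad) (v : V) :
    ∃ P Q, Y1 ++ Y2 = P ++ Q ∧ P ∈ D.LP2 v ∧ Q ∈ D.RQ2 (D.T Y2 (D.T Y1 v)) := by
  classical
  have hz := D.hz
  have hW := D.hW
  obtain ⟨⟨y1, y2, y3⟩, -⟩ := hY1
  have hY2X := hY2.1
  obtain ⟨⟨z1, z2, z3⟩, -⟩ := hY2
  set Z := Y1 ++ Y2 with hZdef
  have hZl : Z.length = Y1.length + Y2.length := by rw [hZdef, List.length_append]
  have hZw : D.Wo (Z.take Z.length) := by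
    rw [List.take_length, hZdef, D.loc _ _ (by omega)]
    exact z2
  obtain ⟨w0, a1, a2, a3, a4⟩ := D.first_wall Z (D.z - D.p0) (by omega) hZw
  obtain ⟨w1, b1, b2, b3, b4⟩ := D.first_wall Z (D.z + D.p0) (by omega) hZw
  have hX1l : (Y1.take D.p0).length = D.p0 := by rw [List.length_take]; omega
  obtain ⟨I, hI, hIk⟩ := D.compl2 (Y1.take D.p0) v (fun k hk => by
    rw [hX1l]; exact D.hc k hk)
  let R2 : Finset (ℕ × ℕ) := ((Finset.range D.K) ×ˢ (Finset.range D.K)).filter
    (fun ab => ab.1 ≠ ab.2)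
  let AE := R2.filter (fun ab => D.EE Z ab.1 ab.2)
  let A0 := R2.filter (fun ab => D.B (w0 - D.p0 + D.c ab.2 - D.c ab.1))
  let A1 := R2.filter (fun ab => D.B (w1 - D.p0 + D.c ab.2 - D.c ab.1))
  have hR2 : ∀ ab ∈ R2, ab.1 < D.K ∧ ab.2 < D.K ∧ ab.1 ≠ ab.2 := by
    intro ab hab
    obtain ⟨h, h'⟩ := Finset.mem_filter.1 hab
    obtain ⟨h1, h2⟩ := Finset.mem_product.1 h
    exact ⟨Finset.mem_range.1 h1, Finset.mem_range.1 h2, h'⟩
  have hAE : AE.card ≤ 1 := by
    rw [Finset.card_le_one]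
    intro a ha b hb
    obtain ⟨ha1, ha2⟩ := Finset.mem_filter.1 ha
    obtain ⟨hb1, hb2⟩ := Finset.mem_filter.1 hb
    obtain ⟨c1, c2, c3⟩ := hR2 a ha1
    obtain ⟨d1, d2, d3⟩ := hR2 b hb1
    exact D.ee_unique Z c1 c2 d1 d2 c3 d3 ha2 hb2
  have hA0 : A0.card ≤ D.C0 := by
    refine D.count (w0 - D.p0) (by omega) A0 ?_
    intro ab hab
    obtain ⟨h, h'⟩ := Finset.mem_filter.1 hab
    obtain ⟨c1, c2, c3⟩ := hR2 ab h
    exact ⟨c1, c2, c3, h'⟩
  have hA1 : A1.card ≤ D.C0 := by
    refine D.count (w1 - D.p0) (by omega) A1 ?_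
    intro ab hab
    obtain ⟨h, h'⟩ := Finset.mem_filter.1 hab
    obtain ⟨c1, c2, c3⟩ := hR2 ab h
    exact ⟨c1, c2, c3, h'⟩
  have hcard : ((AE ∪ A0 ∪ A1).image Prod.fst).card < I.card := by
    have h1 := Finset.card_image_le (s := AE ∪ A0 ∪ A1) (f := Prod.fst)
    have h2 := Finset.card_union_le (AE ∪ A0) A1
    have h3 := Finset.card_union_le AE A0
    omega
  obtain ⟨k, hkI, hk⟩ := Finset.exists_mem_notMem_of_card_lt_card hcard
  obtain ⟨hkK, hlam, hrho⟩ := hIk k hkI
  obtain ⟨b, hb⟩ := Option.isSome_iff_exists.1 hrho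
  have hck := D.hc k hkK
  have hZtake : Z.take (D.c k) = (Y1.take D.p0).take (D.c k) := by
    rw [hZdef, List.take_append_of_le_length (by omega), List.take_take,
      Nat.min_eq_left hck]
  have hlen : ((Y1.take D.p0).take (D.c k)).length = D.c k := by
    rw [List.length_take]; omega
  refine ⟨Z.take (D.c k), Z.drop (D.c k), (List.take_append_drop _ _).symm, ?_, ?_⟩
  · rw [hZtake]
    exact ⟨k, hkK, hlen, hlam⟩
  · rintro v' P' ⟨k', hk'K, hP'l, hP'⟩
    by_cases hkk : k' = k
    · subst hkk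
      left
      refine ⟨P' ++ Y1.drop (D.c k'), ⟨?_, ?_, ?_⟩, Y2, hY2X, ?_, ?_⟩
      · rw [List.length_append, List.length_drop]; omega
      · rw [D.loc _ _ (by rw [List.length_drop]; omega)]
        have e := List.take_append_drop (D.c k') Y1
        rw [← e, D.loc _ _ (by rw [List.length_drop]; omega)] at y2
        exact y2
      · intro t ht1 ht2 hw
        rw [List.length_append, List.length_drop] at ht2
        have key := D.tr Y1 P' (D.c k') t (by omega) (by omega)
        have e : P'.length + (t - D.c k') = t := by omega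
        rw [e] at key
        exact y3 t ht1 (by omega) (key.1 hw)
      · rw [hZdef, List.drop_append_of_le_length (by omega), List.append_assoc]
      · have s1 := D.sound2 k' hkK _ _ _ _ hlen hlam hb
        have s2 := D.sound2 k' hkK _ _ _ _ hP'l hP' hb
        rw [List.take_append_drop] at s1
        have e1 : (P' ++ Y1.drop (D.c k')).take D.p0 = P' ++ (Y1.take D.p0).drop (D.c k') := by
          rw [List.take_append, List.take_of_length_le (by omega), List.drop_take, hP'l]
        have e2 : (P' ++ Y1.drop (D.c k')).drop D.p0 = Y1.drop D.p0 := by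
          rw [List.drop_append, List.drop_of_length_le (by omega), List.nil_append,
            List.drop_drop]
          congr 1
          omega
        congr 1
        unfold T
        rw [e1, e2]
        unfold pr
        rw [← s2, ← s1]
    · right
      have hnot : ∀ A, A = AE ∨ A = A0 ∨ A = A1 → (k, k') ∉ A := by
        intro A hA hmem
        apply hk
        rw [Finset.mem_image]
        refine ⟨(k, k'), ?_, rfl⟩
        rw [Finset.mem_union, Finset.mem_union]
        rcases hA with rfl | rfl | rfl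
        · exact Or.inl (Or.inl hmem)
        · exact Or.inl (Or.inr hmem)
        · exact Or.inr hmem
      have hmR2 : (k, k') ∈ R2 := by
        refine Finset.mem_filter.2 ⟨Finset.mem_product.2 ⟨Finset.mem_range.2 hkK,
          Finset.mem_range.2 hk'K⟩, fun h => hkk h.symm⟩
      rcases D.pair_cases Z P' k k' w0 w1 hkK hk'K hP'l (by omega) hZw (by omega) a2 a3
        (fun t ht1 ht2 => a4 t (by omega) ht2) b1 b2 b3 b4 with h | h | h | h
      · exact absurd (Finset.mem_filter.2 ⟨hmR2, h⟩) (hnot AE (Or.inl rfl))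
      · exact absurd (Finset.mem_filter.2 ⟨hmR2, h⟩) (hnot A0 (Or.inr (Or.inl rfl)))
      · exact absurd (Finset.mem_filter.2 ⟨hmR2, h⟩) (hnot A1 (Or.inr (Or.inr rfl)))
      · exact h

end Dat

end Crest.Agent.R320.JX_108
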