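import Crest.Agent.R320.JX2_108
import Crest.Agent.R320.WallU_228
import Crest.Agent.R320.Reg_852
import Crest.Agent.R320.RegCongr_253

/-!
# Row 320: joint, the height one families (helper108)
-/

set_option autoImplicit false

namespace Crest.Agent.R320.JX_108

open Crest.RegLang Crest.Agent.R320.Hk_851 Crest.Agent.R320.Half1_180
  Crest.Agent.R320.FewWalls_228

universe u

theorem nw_le {α : Type u} {n z : ℕ} {S : Set (List α)} (w : List α)
    (h : ∀ t, z ≤ t → t < w.length → ¬ WallU_228.Wo n S (w.take t)) : nw n S w ≤ z + 1 := by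
  classical
  unfold nw
  have hsub : ((Finset.range (w.length + 1)).filter (fun x => Wl n S w x)) ⊆
      insert (w.length - n) (Finset.range z) := by
    intro x hx
    obtain ⟨-, h2⟩ := Finset.mem_filter.1 hx
    obtain ⟨h3, h4⟩ := WallU_228.wo_take.1 h2
    rw [Finset.mem_insert, Finset.mem_range]
    by_contra hne
    push Not at hne
    exact h (x + n) (by omega) (by omega) h4
  have h1 := Finset.card_le_card hsub
  have h2 := Finset.card_insert_le (w.length - n) (Finset.range z)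
  rw [Finset.card_range] at h2
  omega

theorem HL_Wo {α : Type u} [Finite α] (n : ℕ) (S : Set (List α)) :
    HL 1 ({w | WallU_228.Wo n S w} : Language α) := by
  have hfin : ({v | v ∈ S ∧ v.length = n} : Set (List α)).Finite :=
    (List.finite_length_eq α n).subset fun v hv => hv.2
  refine (HL.suffix (HL.finite (k := 1) hfin)).congr fun w => ?_
  constructor
  · rintro ⟨h1, h2⟩
    exact ⟨_, ⟨h2, by rw [List.length_drop]; omega⟩, List.drop_suffix _ _⟩
  · rintro ⟨v, ⟨hv, hl⟩, ⟨t, rfl⟩⟩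
    refine ⟨by rw [List.length_append]; omega, ?_⟩
    have e : (t ++ v).length - n = t.length := by rw [List.length_append]; omega
    rw [e, List.drop_left]
    exact hv

namespace Dat

variable {α S V : Type u} [Monoid S] [AddCommGroup V] (D : Dat α S V)

theorem HL_XX [Finite α] (hWo : HL 1 ({w | D.Wo w} : Language α)) :
    HL 1 ({w | w ∈ D.XX} : Language α) := by
  have hA : HL 1 ({w | D.z ≤ w.length ∧ D.Wo w} : Language α) :=
    HL.setOf_and (HL.length_ge D.z) hWo
  have hB := hA.mul (HL.length_ge (α := α) (k := 1) 1)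
  refine (hA.inf hB.compl).congr fun w => ?_
  constructor
  · rintro ⟨h1, h2, h3⟩
    refine ⟨⟨h1, h2⟩, ?_⟩
    intro hm
    obtain ⟨a, ⟨ha1, ha2⟩, b, hb, rfl⟩ := Language.mem_mul.1 hm
    have hb' : 1 ≤ b.length := hb
    refine h3 a.length ha1 (by rw [List.length_append]; omega) ?_
    rw [List.take_left]; exact ha2
  · rintro ⟨⟨h1, h2⟩, h3⟩
    refine ⟨h1, h2, ?_⟩
    intro t ht1 ht2 hw
    refine h3 (Language.mem_mul.2 ⟨w.take t, ⟨?_, hw⟩, w.drop t, ?_, List.take_append_drop _ _⟩)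
    · rw [List.length_take]; omega
    · show 1 ≤ (w.drop t).length
      rw [List.length_drop]; omega

theorem view {q q' : List α} {A C : ℕ} (h : q.take (A + C) = q'.take (A + C)) :
    q.take A = q'.take A ∧ (q.drop A).take C = (q'.drop A).take C := by
  constructor
  · have := congrArg (List.take A) h
    rwa [List.take_take, List.take_take, Nat.min_eq_left (by omega)] at this
  · have := congrArg (List.drop A) h
    rw [List.drop_take, List.drop_take] at this
    simpa using this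

variable {Pm : ℕ}

theorem mod_sub {a b p P : ℕ} (ha : p ≤ a) (hb : p ≤ b) (h : a % P = b % P) :
    (a - p) % P = (b - p) % P := by
  have h1 : (a - p) + p ≡ (b - p) + p [MOD P] := by
    rw [Nat.sub_add_cancel ha, Nat.sub_add_cancel hb]; exact h
  exact Nat.ModEq.add_right_cancel' p h1

/-- the finite state clause of `nu1` -/
def FS (Pm : ℕ) : Prop := ∀ q q' : List α, D.La ≤ q.length → D.La ≤ q'.length →
  q.take D.La = q'.take D.La → q.length % Pm = q'.length % Pm →
  ((q.drop D.La).map D.f).prod = ((q'.drop D.La).map D.f).prod → D.nu1 q = D.nu1 q'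

theorem T_congr (hFS : D.FS Pm) {q q' : List α} (h1 : D.p0 + D.La ≤ q.length)
    (h2 : D.p0 + D.La ≤ q'.length) (h3 : q.take (D.p0 + D.La) = q'.take (D.p0 + D.La))
    (h4 : q.length % Pm = q'.length % Pm)
    (h5 : ((q.drop (D.p0 + D.La)).map D.f).prod = ((q'.drop (D.p0 + D.La)).map D.f).prod)
    (v : V) : D.T q v = D.T q' v := by
  obtain ⟨e1, e2⟩ := view h3
  have e3 : ∀ r : List α, (r.drop D.p0).drop D.La = r.drop (D.p0 + D.La) := by
    intro r; rw [List.drop_drop]
  have e4 : D.pr (q.drop D.p0) = D.pr (q'.drop D.p0) := by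
    rw [← List.take_append_drop D.La (q.drop D.p0), ← List.take_append_drop D.La (q'.drop D.p0),
      D.pr_append, D.pr_append, e2, e3, e3]
    unfold pr
    rw [h5]
  have e5 : D.nu1 (q.drop D.p0) = D.nu1 (q'.drop D.p0) := by
    refine hFS _ _ (by rw [List.length_drop]; omega) (by rw [List.length_drop]; omega) e2 ?_ ?_
    · rw [List.length_drop, List.length_drop]
      exact mod_sub (by omega) (by omega) h4
    · rw [e3, e3]; exact h5
  unfold T
  rw [e1, e4, e5]

theorem regT [Finite α] [Finite S] (hPm : 0 < Pm) (hFS : D.FS Pm) (v b : V) :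
    Language.IsRegular ({X | D.T X v = b} : Language α) := by
  refine RegCongr_253.regular_of_congr D.f (D.p0 + D.La) Pm hPm _ ?_
  intro q q' h1 h2 h3 h4 h5 hq
  have hq' : D.T q v = b := hq
  show D.T q' v = b
  rw [← D.T_congr hFS h1 h2 h3 h4 h5 v]
  exact hq'

theorem B_congr (hB : ∀ T, D.B (T + Pm) ↔ D.B T) {a b : ℕ} (h : a % Pm = b % Pm) :
    D.B a ↔ D.B b := by
  have key : ∀ k r, D.B (r + k * Pm) ↔ D.B r := by
    intro k
    induction k with
    | zero => intro r; simp
    | succ k ih =>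
      intro r
      rw [Nat.succ_mul, ← Nat.add_assoc, hB, ih]
  have ea := Nat.mod_add_div a Pm
  have eb := Nat.mod_add_div b Pm
  rw [← ea, ← eb, Nat.mul_comm Pm, Nat.mul_comm Pm, key, key, h]

theorem regBad [Finite α] [Finite S] (hPm : 0 < Pm) (hB : ∀ T, D.B (T + Pm) ↔ D.B T) :
    Language.IsRegular ({X | D.BadX X} : Language α) := by
  have hz := D.hz
  refine RegCongr_253.regular_of_congr D.f (D.z + D.N1) Pm hPm _ ?_
  intro q q' h1 h2 h3 h4 h5 hq
  rcases hq with ⟨t, ht1, ht2, ht3, ht4⟩ | hq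
  · left
    refine ⟨t, ht1, ht2, by omega, ?_⟩
    have e : q.take t = q'.take t := by
      have := congrArg (List.take t) h3
      rwa [List.take_take, List.take_take, Nat.min_eq_left (by omega)] at this
    rw [← e]; exact ht4
  · right
    refine (D.B_congr hB ?_).1 hq
    exact mod_sub (by omega) (by omega) h4

theorem fin_words [Finite α] (m : ℕ) (p : List α → Prop) (hp : ∀ w, p w → w.length ≤ m) :
    ({w | p w} : Set (List α)).Finite :=
  (List.finite_length_le α m).subset fun w hw => hp w hw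

theorem LP1_fin [Finite α] (v : V) : (D.LP1 v : Set (List α)).Finite :=
  fin_words (D.p0 + D.N1) (fun w => w ∈ D.LP1 v) fun _ hw => hw.2.1

theorem LP2_fin [Finite α] (v : V) : (D.LP2 v : Set (List α)).Finite :=
  fin_words D.p0 (fun w => w ∈ D.LP2 v) fun _ hw => by
    obtain ⟨k, hk, hl, -⟩ := hw
    rw [hl]; exact D.hc k hk

theorem HL_RQ1 [Finite α] [Finite V]
    (hXT : ∀ v b, HL 1 ({X | X ∈ D.XX ∧ D.T X v = b} : Language α)) (b : V) :
    HL 1 (D.RQ1 b) := by
  have h1 : ∀ v, HL 1 ({Q | ∀ P ∈ (D.LP1 v : Set (List α)), Q ∈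
      ({Q | P ++ Q ∈ ({X | X ∈ D.XX ∧ D.T X v = b} : Language α)} : Language α)} : Language α) :=
    fun v => HL.biInter (D.LP1_fin v) fun P _ => HL.lquot P (hXT v b)
  refine (HL.iInter h1).congr fun w => ?_
  exact Iff.rfl

/-- the blocks with their token map -/
def XT (v b : V) : Language α := {X | X ∈ D.XX ∧ D.T X v = b}

/-- the good blocks as a language -/
def GoodL : Language α := {X | X ∈ D.Good}

/-- the words allowed for the second scheme -/
def MM (v b : V) : Language α :=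
  {w | (∃ v1 : V, w ∈ D.XT v v1 * D.XT v1 b) ∨ ∃ X ∈ D.GoodL, X <+: w}

theorem HL_MM [Finite V] (hXT : ∀ v b, HL 1 (D.XT v b)) (hG : HL 1 D.GoodL) (v b : V) :
    HL 1 (D.MM v b) :=
  HL.setOf_or (HL.iUnion fun v1 => (hXT v v1).mul (hXT v1 b)) (HL.prefix hG)

theorem HL_RQ2 [Finite α] [Finite V] (hXT : ∀ v b, HL 1 (D.XT v b)) (hG : HL 1 D.GoodL) (b : V) :
    HL 1 (D.RQ2 b) := by
  have h1 : ∀ v, HL 1 ({Q | ∀ P ∈ (D.LP2 v : Set (List α)), Q ∈
      ({Q | P ++ Q ∈ D.MM v b} : Language α)} : Language α) :=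
    fun v => HL.biInter (D.LP2_fin v) fun P _ => HL.lquot P (D.HL_MM hXT hG v b)
  refine (HL.iInter h1).congr fun w => ?_
  constructor
  · intro hw v P hP
    rcases hw v P hP with ⟨X1, hX1, X2, hX2, he, hb⟩ | h
    · exact Or.inl ⟨D.T X1 v, Language.mem_mul.2 ⟨X1, ⟨hX1, rfl⟩, X2, ⟨hX2, hb⟩, he.symm⟩⟩
    · exact Or.inr h
  · intro hw v P hP
    rcases hw v P hP with ⟨v1, hv1⟩ | h
    · obtain ⟨X1, ⟨hX1, h1⟩, X2, ⟨hX2, h2⟩, he⟩ := Language.mem_mul.1 hv1
      refine Or.inl ⟨X1, hX1, X2, hX2, he.symm, ?_⟩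
      rw [h1]; exact h2
    · exact Or.inr h

/-- **The all-words joint**: height three for the fibres. -/
theorem main [Finite α] [Finite S] [Finite V]
    (act_zero : ∀ s, D.act 0 s = 0) (act_one : ∀ v, D.act v 1 = v)
    (faithful : ∀ s s', (∀ v, D.act v s = D.act v s') → s = s')
    (Sw : Set (List α)) (hWo : ∀ w, D.Wo w ↔ WallU_228.Wo D.n Sw w)
    (hHL : ∀ (L : Language α), L.IsRegular → ∀ r, HL 1 ({w | w ∈ L ∧ nw D.n Sw w ≤ r} : Language α))
    (hPm : 0 < Pm) (hFS : D.FS Pm) (hB : ∀ T, D.B (T + Pm) ↔ D.B T) (s : S) :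
    HL 3 ({w | (w.map D.f).prod = s} : Language α) := by
  have hWoL : HL 1 ({w | D.Wo w} : Language α) :=
    (HL_Wo D.n Sw).congr fun w => hWo w
  have hXXL := D.HL_XX hWoL
  have hXXr : Language.IsRegular ({w | w ∈ D.XX} : Language α) := Reg_852.HL.isRegular hXXL
  -- few walls in the blocks
  have few : ∀ w ∈ D.XX, nw D.n Sw w ≤ D.z + 1 := by
    intro w hw
    refine nw_le w fun t ht1 ht2 h => ?_
    exact hw.2.2 t ht1 ht2 ((hWo _).2 h)
  have key : ∀ L : Language α, L.IsRegular → HL 1 ({w | w ∈ D.XX ∧ w ∈ L} : Language α) := by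
    intro L hL
    refine (hHL _ (hXXr.inf hL) (D.z + 1)).congr fun w => ?_
    constructor
    · intro h; exact ⟨h, few w h.1⟩
    · rintro ⟨h, -⟩; exact h
  have hbr := D.regBad (Pm := Pm) hPm hB
  have hXT : ∀ v b, HL 1 (D.XT v b) := fun v b => key _ (D.regT hPm hFS v b)
  have hG : HL 1 D.GoodL := key _ hbr.compl
  have hBad : HL 1 (Lof D.Bad) := key _ hbr
  have hBT : ∀ v b, HL 1 (Lg (fun Y => Y ∈ D.Bad ∧ D.T Y v = b)) := by
    intro v b
    refine (key _ (hbr.inf (D.regT hPm hFS v b))).congr fun w => ?_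
    exact ⟨fun h => ⟨h.1.1, h.1.2, h.2⟩, fun h => ⟨⟨h.1, h.2.1⟩, h.2.2⟩⟩
  have htail : ∀ s, HL (1 + 2) (Lg (fun E => E ∈ Tail D.XX ∧ (E.map D.f).prod = s)) := by
    intro s
    have hz := D.hz
    have h1 : Language.IsRegular (({w | ∃ X ∈ ({w | w ∈ D.XX} : Language α), X <+: w} :
        Language α)ᶜ) := (Reg_852.HL.isRegular (HL.prefix hXXL)).compl
    have h2 := hHL _ (h1.inf (Reg_852.isRegular_prod D.f s)) (D.z + 1)
    refine (h2.mono (by omega)).congr fun w => ?_
    constructor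
    · rintro ⟨hw1, hw2⟩
      refine ⟨⟨?_, hw2⟩, ?_⟩
      · rintro ⟨X, hX, hp⟩
        exact hw1 X hX hp
      · refine nw_le w fun t ht1 ht2 h => ?_
        obtain ⟨τ, -, -, -, -, h5⟩ := D.exists_block w t ht1 (by omega) ((hWo _).2 h)
        exact hw1 _ h5 (List.take_prefix _ _)
    · rintro ⟨⟨hw1, hw2⟩, -⟩
      exact ⟨fun X hX hp => hw1 ⟨X, hX, hp⟩, hw2⟩
  exact top2 (k := 1) D.f D.act act_zero act_one D.act_mul faithful D.XX D.Good D.Bad D.pf D.hXX
    D.T (fun X _ v v' => D.hT X v v') D.LP1 D.RQ1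
    (fun v => HL.finite (D.LP1_fin v)) (fun b => (D.HL_RQ1 hXT b).mono (by omega))
    D.sound1' D.compl1' hBad D.LP2 D.RQ2 (fun v => HL.finite (D.LP2_fin v))
    (D.HL_RQ2 hXT hG) hBT D.sound2' D.compl2' htail s

end Dat

end Crest.Agent.R320.JX_108
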