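import Crest.Agent.R320.Top_180

/-!
# Row 320: joint of a zone gadget without small walls with an exact gadget, over `Top_180.top2`
(helper108)
-/

set_option autoImplicit false

namespace Crest.Agent.R320.JX_108

open Crest.RegLang Crest.Agent.R320.Hk_851 Crest.Agent.R320.Half1_180

universe u

structure Dat (α S V : Type u) [Monoid S] [AddCommGroup V] where
  f : α → S
  act : V → S → V
  Wo : List α → Prop
  n : ℕ
  W : ℕ
  z : ℕ
  p0 : ℕ
  N1 : ℕ
  La : ℕ
  K : ℕ
  C0 : ℕ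
  c : ℕ → ℕ
  B : ℕ → Prop
  lam1 : List α → Option V
  rho1 : List α → Option V
  nu1 : List α → V
  lam2 : ℕ → List α → Option V
  rho2 : ℕ → List α → Option V
  nu2 : List α → V
  act_mul : ∀ v s s', act (act v s) s' = act v (s * s')
  act_add : ∀ v w s, act (v + w) s = act v s + act w s
  loc : ∀ P Q : List α, n ≤ Q.length → (Wo (P ++ Q) ↔ Wo Q)
  gap : ∀ (P : List α) (d : ℕ), Wo P → 0 < d → d ≤ W → ¬ Wo (P.take (P.length - d))
  hz : 3 * p0 + 2 * N1 + n + La + 1 ≤ z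
  hW : 2 * (p0 + N1) + 1 ≤ W
  hc : ∀ k < K, c k ≤ p0
  spread : ∀ i j k l, i < K → j < K → k < K → l < K → i ≠ j → k ≠ l → (i, j) ≠ (k, l) →
    c i + c l + 4 * N1 < c k + c j ∨ c k + c j + 4 * N1 < c i + c l
  count : ∀ T, La ≤ T → ∀ A : Finset (ℕ × ℕ), (∀ ab ∈ A, ab.1 < K ∧ ab.2 < K ∧ ab.1 ≠ ab.2 ∧
    B (T + c ab.2 - c ab.1)) → A.card ≤ C0
  left1 : ∀ (p : List α) (v : V), lam1 p = some v → p.length ≤ N1
  sound1 : ∀ (p q : List α) (v b : V), lam1 p = some v → rho1 q = some b → La ≤ q.length →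
    b = act v ((p ++ q).map f).prod + nu1 (p ++ q)
  compl1 : ∀ u : List α, La ≤ u.length → ¬ B u.length → ∀ v, ∃ p q, p ++ q = u ∧ lam1 p = some v ∧
    (rho1 q).isSome
  sound2 : ∀ k < K, ∀ (P Q : List α) (v b : V), P.length = c k → lam2 k P = some v → rho2 k Q = some b →
    b = act v ((P ++ Q).map f).prod + nu2 (P ++ Q)
  compl2 : ∀ (u : List α) (v : V), (∀ k < K, c k ≤ u.length) → ∃ I : Finset ℕ, 2 * C0 + 2 ≤ I.card ∧
    ∀ k ∈ I, k < K ∧ lam2 k (u.take (c k)) = some v ∧ (rho2 k (u.drop (c k))).isSome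

namespace Dat

variable {α S V : Type u} [Monoid S] [AddCommGroup V] (D : Dat α S V)

def pr (w : List α) : S := (w.map D.f).prod

theorem pr_append (u v : List α) : D.pr (u ++ v) = D.pr u * D.pr v := by
  simp [pr]

def XX : Set (List α) := {X | D.z ≤ X.length ∧ D.Wo X ∧
  ∀ t, D.z ≤ t → t < X.length → ¬ D.Wo (X.take t)}

def T (X : List α) (v : V) : V :=
  D.act (D.act v (D.pr (X.take D.p0)) + D.nu2 (X.take D.p0)) (D.pr (X.drop D.p0)) +
    D.nu1 (X.drop D.p0)

def BadX (X : List α) : Prop :=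
  (∃ t, D.z ≤ t + D.N1 ∧ t < D.z + D.N1 ∧ t ≤ X.length ∧ D.Wo (X.take t)) ∨
    D.B (X.length - D.p0)

def Good : Set (List α) := {X | X ∈ D.XX ∧ ¬ D.BadX X}

def Bad : Set (List α) := {X | X ∈ D.XX ∧ D.BadX X}

def LP1 (v : V) : Language α := {P | D.p0 ≤ P.length ∧ P.length ≤ D.p0 + D.N1 ∧
  D.lam1 (P.drop D.p0) = some (D.act v (D.pr (P.take D.p0)) + D.nu2 (P.take D.p0))}

def RQ1 (b : V) : Language α := {Q | ∀ v, ∀ P ∈ D.LP1 v, P ++ Q ∈ D.XX ∧ D.T (P ++ Q) v = b}

def LP2 (v : V) : Language α := {P | ∃ k < D.K, P.length = D.c k ∧ D.lam2 k P = some v}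

def RQ2 (b : V) : Language α := {Q | ∀ v, ∀ P ∈ D.LP2 v,
  (∃ X1 ∈ D.XX, ∃ X2 ∈ D.XX, P ++ Q = X1 ++ X2 ∧ D.T X2 (D.T X1 v) = b) ∨
    ∃ X ∈ D.Good, X <+: P ++ Q}

theorem hXX : D.XX = D.Good ∪ D.Bad := by
  classical
  ext X
  constructor
  · intro h
    by_cases hb : D.BadX X
    · exact Or.inr ⟨h, hb⟩
    · exact Or.inl ⟨h, hb⟩
  · rintro (h | h)
    · exact h.1
    · exact h.1

theorem pf : PF D.XX := by
  have hz := D.hz
  refine ⟨?_, ?_⟩
  · rintro X ⟨h1, _⟩ rfl
    simp at h1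
    omega
  · rintro X ⟨h1, h2, h3⟩ Y ⟨h4, h5, h6⟩ ⟨t, rfl⟩
    rcases Nat.eq_zero_or_pos t.length with h | h
    · rw [List.length_eq_zero_iff.1 h, List.append_nil]
    · exfalso
      refine h6 X.length h1 (by rw [List.length_append]; omega) ?_
      rw [List.take_left]
      exact h2

theorem hT (X : List α) (v v' : V) :
    D.T X v - D.T X v' = D.act (v - v') (X.map D.f).prod := by
  have hsub : ∀ (a b : V) (s : S), D.act a s - D.act b s = D.act (a - b) s := by
    intro a b s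
    have := D.act_add (a - b) b s
    rw [sub_add_cancel] at this
    rw [this]; abel
  have e : (X.map D.f).prod = D.pr (X.take D.p0) * D.pr (X.drop D.p0) := by
    rw [← pr_append, List.take_append_drop]; rfl
  unfold T
  rw [add_sub_add_right_eq_sub, hsub, add_sub_add_right_eq_sub, hsub, D.act_mul, ← e]

theorem tr (Z P' : List α) (a t : ℕ) (h1 : a + D.n ≤ t) (h2 : t ≤ Z.length) :
    D.Wo ((P' ++ Z.drop a).take (P'.length + (t - a))) ↔ D.Wo (Z.take t) := by
  have e1 : (P' ++ Z.drop a).take (P'.length + (t - a)) = P' ++ (Z.drop a).take (t - a) := by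
    rw [List.take_append, List.take_of_length_le (by omega)]
    congr 2
    omega
  have e2 : Z.take t = Z.take a ++ (Z.drop a).take (t - a) := by
    rw [← List.take_add]
    congr 1
    omega
  have hl : D.n ≤ ((Z.drop a).take (t - a)).length := by
    rw [List.length_take, List.length_drop]; omega
  rw [e1, e2, D.loc _ _ hl, D.loc _ _ hl]

theorem exists_block (U : List α) (t : ℕ) (h1 : D.z ≤ t) (h2 : t ≤ U.length)
    (h3 : D.Wo (U.take t)) : ∃ τ, D.z ≤ τ ∧ τ ≤ t ∧ D.Wo (U.take τ) ∧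
      (∀ t', D.z ≤ t' → t' < τ → ¬ D.Wo (U.take t')) ∧ U.take τ ∈ D.XX := by
  classical
  have hex : ∃ τ, D.z ≤ τ ∧ D.Wo (U.take τ) := ⟨t, h1, h3⟩
  obtain ⟨h4, h5⟩ := Nat.find_spec hex
  have h6 : Nat.find hex ≤ t := Nat.find_min' hex ⟨h1, h3⟩
  have h7 : ∀ t', D.z ≤ t' → t' < Nat.find hex → ¬ D.Wo (U.take t') := fun t' ha hb hc =>
    Nat.find_min hex hb ⟨ha, hc⟩
  refine ⟨Nat.find hex, h4, h6, h5, h7, ?_, h5, ?_⟩
  · rw [List.length_take]; omega
  · intro t' ha hb
    rw [List.length_take] at hb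
    rw [List.take_take, Nat.min_eq_left (by omega)]
    exact h7 t' ha (by omega)

theorem T_cut {P Q : List α} {v b : V} (hP : P ∈ D.LP1 v) (hQ : D.rho1 Q = some b)
    (hl : D.La ≤ Q.length) : D.T (P ++ Q) v = b := by
  obtain ⟨h1, h2, h3⟩ := hP
  have := D.sound1 _ _ _ _ h3 hQ hl
  unfold T
  rw [List.take_append_of_le_length h1, List.drop_append_of_le_length h1]
  exact this.symm

theorem sound1' (v v' : V) (P Q : List α) (hP : P ∈ D.LP1 v) (hQ : Q ∈ D.RQ1 v') :
    P ++ Q ∈ D.XX ∧ D.T (P ++ Q) v = v' := hQ v P hP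

theorem compl1' (X : List α) (hX : X ∈ D.Good) (v : V) :
    ∃ P Q, X = P ++ Q ∧ P ∈ D.LP1 v ∧ Q ∈ D.RQ1 (D.T X v) := by
  have hz := D.hz
  obtain ⟨⟨hX1, hX2, hX3⟩, hX4⟩ := hX
  have hlen : D.z + D.N1 ≤ X.length := by
    by_contra h
    refine hX4 (Or.inl ⟨X.length, by omega, by omega, le_rfl, ?_⟩)
    rw [List.take_length]; exact hX2
  have hB : ¬ D.B (X.drop D.p0).length := by
    rw [List.length_drop]
    exact fun h => hX4 (Or.inr h)
  obtain ⟨p, q, hpq, hp, hq⟩ := D.compl1 (X.drop D.p0) (by rw [List.length_drop]; omega) hB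
    (D.act v (D.pr (X.take D.p0)) + D.nu2 (X.take D.p0))
  obtain ⟨b, hb⟩ := Option.isSome_iff_exists.1 hq
  have hpl := D.left1 _ _ hp
  have htl : (X.take D.p0).length = D.p0 := by rw [List.length_take]; omega
  have hXe : X = (X.take D.p0 ++ p) ++ q := by
    rw [List.append_assoc, hpq, List.take_append_drop]
  have hP : X.take D.p0 ++ p ∈ D.LP1 v := by
    refine ⟨by rw [List.length_append]; omega, by rw [List.length_append]; omega, ?_⟩
    rw [List.take_left' htl, List.drop_left' htl]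
    exact hp
  set P := X.take D.p0 ++ p with hPdef
  have hPl : P.length = D.p0 + p.length := by rw [hPdef, List.length_append, htl]
  have hXl : X.length = P.length + q.length := by
    conv_lhs => rw [hXe]
    rw [List.length_append]
  have hql : D.La ≤ q.length := by omega
  have hTX : D.T X v = b := by
    conv_lhs => rw [hXe]
    exact D.T_cut hP hb hql
  refine ⟨P, q, hXe, hP, ?_⟩
  intro v' P' hP'
  rw [hTX]
  refine ⟨?_, D.T_cut hP' hb hql⟩
  obtain ⟨hP1, hP2, -⟩ := hP'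
  have hq' : q = X.drop P.length := by
    conv_rhs => rw [hXe]
    rw [List.drop_left]
  refine ⟨by rw [List.length_append]; omega, ?_, ?_⟩
  · rw [D.loc _ _ (by omega)]
    rw [hXe, D.loc _ _ (by omega)] at hX2
    exact hX2
  · intro t' ht1 ht2 hw
    rw [List.length_append] at ht2
    have key := D.tr X P' P.length (t' - P'.length + P.length) (by omega) (by omega)
    rw [← hq'] at key
    have e : P'.length + (t' - P'.length + P.length - P.length) = t' := by omega
    rw [e] at key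
    have hw' := key.1 hw
    by_cases hlt : t' - P'.length + P.length < D.z
    · exact hX4 (Or.inl ⟨t' - P'.length + P.length, by omega, by omega, by omega, hw'⟩)
    · exact hX3 _ (by omega) (by omega) hw'

theorem bs_inv {X w : List α} (hX : X ∈ D.XX) (h : Bs D.Bad (X ++ w)) : X ∈ D.Bad ∧ Bs D.Bad w := by
  generalize hu : X ++ w = u at h
  cases h with
  | nil =>
    exfalso
    have := D.pf.1 X hX
    simp at hu
    exact this hu.1
  | cons hY hw =>
    obtain ⟨h1, h2⟩ := D.pf.eq hX hY.1 hu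
    subst h1; subst h2
    exact ⟨hY, hw⟩

theorem sound2' (v v' : V) (P Q R : List α) (hP : P ∈ D.LP2 v) (hQ : Q ∈ D.RQ2 v')
    (hB : Bs D.Bad (P ++ (Q ++ R))) : Tr D.XX D.T v (P ++ Q) v' ∧ Bs D.Bad R := by
  rcases hQ v P hP with ⟨X1, h1, X2, h2, he, hb⟩ | ⟨X, hX, ⟨t, ht⟩⟩
  · rw [← List.append_assoc, he, List.append_assoc] at hB
    obtain ⟨-, h3⟩ := D.bs_inv h1 hB
    obtain ⟨-, h4⟩ := D.bs_inv h2 h3
    refine ⟨?_, h4⟩
    rw [he, ← hb]
    exact Tr.cons h1 (Tr.single h2)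
  · exfalso
    rw [← List.append_assoc, ← ht, List.append_assoc] at hB
    exact hX.2 (D.bs_inv hX.1 hB).1.2

theorem wall_gap (Z : List α) (x y : ℕ) (hxy : x < y) (hy : y ≤ Z.length)
    (h1 : D.Wo (Z.take x)) (h2 : D.Wo (Z.take y)) : x + D.W < y := by
  by_contra h
  have hl : (Z.take y).length = y := by rw [List.length_take]; omega
  refine D.gap (Z.take y) (y - x) h2 (by omega) (by omega) ?_
  rw [hl, List.take_take]
  have e : min (y - (y - x)) y = x := by omega
  rw [e]; exact h1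

end Dat

end Crest.Agent.R320.JX_108
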