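import Crest.Agent.R320.Top5_110
import Crest.Agent.R320.WallU_228

/-!
# Row 320: the joint of the two schemes, in the form of 110's `top_sem` (helper974)

Natural block code of left-looking walls, one token system, right labels semantic.
`comp1`, `comp2` : the two completeness statements `C1`, `C2` of `Top5_110.top_sem`.
-/

set_option autoImplicit false

namespace Crest.Agent.R320.Jnt_974

open Crest.Agent.R320.Hk_851 Crest.Agent.R320.Code110

universe u v

variable {α : Type u}

/-- blocks: up to the first wall at a place `≥ z` -/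
def XX (Wo : List α → Prop) (z : ℕ) : Language α :=
  {X | z ≤ X.length ∧ Wo X ∧ ∀ t, z ≤ t → t < X.length → ¬ Wo (X.take t)}

/-- bad blocks: a wall in the band around `z`, or a bad length -/
def Bd (Wo : List α → Prop) (z N1 p0 : ℕ) (BT : ℕ → Prop) : Language α :=
  {X | X ∈ XX Wo z ∧ ((∃ t, z ≤ t + N1 ∧ t < z + N1 ∧ t ≤ X.length ∧ Wo (X.take t)) ∨
    BT (X.length - p0))}

theorem Bd_sub {Wo : List α → Prop} {z N1 p0 : ℕ} {BT : ℕ → Prop} :
    ∀ u ∈ Bd Wo z N1 p0 BT, u ∈ XX Wo z := fun _ h => h.1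

theorem XX_pc {Wo : List α → Prop} {z : ℕ} (hz : 0 < z) : PC (XX Wo z) where
  ne := by
    rintro ⟨h, -⟩
    simp only [List.length_nil] at h
    omega
  pf := by
    rintro u ⟨hu1, hu2, -⟩ v ⟨-, -, hv⟩ huv
    by_contra hne
    have hl : u.length < v.length := by
      rcases lt_or_eq_of_le huv.length_le with h | h
      · exact h
      · exact (hne (huv.eq_of_length h)).elim
    have := hv u.length hu1 hl
    rw [← List.prefix_iff_eq_take.1 huv] at this
    exact this hu2

variable {S : Type v} [Monoid S] {V : Type v} [AddCommGroup V]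

/-- the zone map -/
def Tm (act : V → S → V) (φ : List α → S) (p0 : ℕ) (nu1 nu2 : List α → V) (X : List α) (v : V) :
    V :=
  act (act v (φ (X.take p0)) + nu2 (X.take p0)) (φ (X.drop p0)) + nu1 (X.drop p0)

def L1 (act : V → S → V) (φ : List α → S) (p0 : ℕ) (nu2 : List α → V)
    (lam : List α → Option V) (x : V) : Language α :=
  {P | ∃ X1 p, P = X1 ++ p ∧ X1.length = p0 ∧ lam p = some (act x (φ X1) + nu2 X1)}

def L2 (K : ℕ) (c : ℕ → ℕ) (lam2 : ℕ → List α → Option V) (x : V) : Language α :=
  {P | ∃ k < K, P.length = c k ∧ lam2 k P = some x}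

theorem ex1 {Z : Language α} {T : List α → V → V} {u : List α} {x y : V} (hu : u ∈ Z)
    (hT : T u x = y) : u ∈ Exactly Z T 1 x y := by
  refine ⟨y, ?_⟩
  rw [Language.mem_mul]
  exact ⟨u, ⟨hu, hT⟩, [], ⟨rfl, rfl⟩, by simp⟩

theorem ex2 {Z : Language α} {T : List α → V → V} {u u' : List α} {x y : V} (hu : u ∈ Z)
    (hu' : u' ∈ Z) (hT : T u' (T u x) = y) : u ++ u' ∈ Exactly Z T 2 x y := by
  refine ⟨T u x, ?_⟩
  rw [Language.mem_mul]
  exact ⟨u, ⟨hu, rfl⟩, u', ex1 hu' hT, rfl⟩

theorem take_add (P q : List α) (s : ℕ) : (P ++ q).take (P.length + s) = P ++ q.take s := by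
  rw [List.take_append]
  simp

theorem wo_shift {Wo : List α → Prop} {n : ℕ}
    (hloc : ∀ P Q : List α, n ≤ Q.length → (Wo (P ++ Q) ↔ Wo Q)) (P P' q : List α) (s : ℕ)
    (hs : n ≤ s) (hq : s ≤ q.length) :
    Wo ((P ++ q).take (P.length + s)) ↔ Wo ((P' ++ q).take (P'.length + s)) := by
  have hl : (q.take s).length = s := by rw [List.length_take]; omega
  rw [take_add, take_add, hloc P _ (by rw [hl]; exact hs), hloc P' _ (by rw [hl]; exact hs)]

/-- **completeness of scheme 1** -/
theorem comp1 {Wo : List α → Prop} {n z N1 p0 La : ℕ} {BT : ℕ → Prop}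
    {act : V → S → V} {φ : List α → S} {nu1 nu2 : List α → V} {lam rho : List α → Option V}
    (hloc : ∀ P Q : List α, n ≤ Q.length → (Wo (P ++ Q) ↔ Wo Q))
    (hlam : ∀ p v, lam p = some v → p.length ≤ N1)
    (hsd : ∀ p q v r, lam p = some v → rho q = some r → La ≤ q.length →
      r = act v (φ (p ++ q)) + nu1 (p ++ q))
    (hcp : ∀ u : List α, La ≤ u.length → ¬ BT u.length → ∀ v, ∃ p q, p ++ q = u ∧
      lam p = some v ∧ (rho q).isSome)
    (hz : p0 + 2 * N1 + n + La ≤ z) (u : List α) (hu : u ∈ XX Wo z)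
    (hb : u ∉ Bd Wo z N1 p0 BT) (x : V) (t : List α) (ht : t ∈ (XX Wo z) ^ 0) :
    ∃ p q y, u ++ t = p ++ q ∧ p ∈ L1 act φ p0 nu2 lam x ∧
      q ∈ Rsem (XX Wo z) (XX Wo z) (Tm act φ p0 nu1 nu2) 0 (L1 act φ p0 nu2 lam) y := by
  have ht0 : t = [] := by simpa using ht
  subst ht0
  obtain ⟨hu1, hu2, hu3⟩ := hu
  have hnE : ¬ ∃ t, z ≤ t + N1 ∧ t < z + N1 ∧ t ≤ u.length ∧ Wo (u.take t) := fun h =>
    hb ⟨⟨hu1, hu2, hu3⟩, Or.inl h⟩
  have hnB : ¬ BT (u.length - p0) := fun h => hb ⟨⟨hu1, hu2, hu3⟩, Or.inr h⟩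
  have hlong : z + N1 ≤ u.length := by
    by_contra h
    exact hnE ⟨u.length, by omega, by omega, le_rfl, by rw [List.take_length]; exact hu2⟩
  have hX1 : (u.take p0).length = p0 := by rw [List.length_take]; omega
  have hY : (u.drop p0).length = u.length - p0 := List.length_drop
  obtain ⟨p, q, hpq, hl, hr⟩ := hcp (u.drop p0) (by rw [hY]; omega) (by rw [hY]; exact hnB)
    (act x (φ (u.take p0)) + nu2 (u.take p0))
  obtain ⟨r, hr⟩ := Option.isSome_iff_exists.1 hr
  have hp := hlam p _ hl
  have hlen : p.length + q.length = u.length - p0 := by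
    rw [← hY, ← hpq, List.length_append]
  have hu' : u = (u.take p0 ++ p) ++ q := by
    rw [List.append_assoc, hpq, List.take_append_drop]
  refine ⟨u.take p0 ++ p, q, r, by rw [List.append_nil]; exact hu',
    ⟨u.take p0, p, rfl, hX1, hl⟩, ?_⟩
  rintro x' P ⟨X1, p', rfl, hX1', hl'⟩
  left
  have hp' := hlam p' _ hl'
  have hPl : (X1 ++ p').length = p0 + p'.length := by rw [List.length_append, hX1']
  have hul : (u.take p0 ++ p).length = p0 + p.length := by rw [List.length_append, hX1]
  refine ex1 ⟨?_, ?_, ?_⟩ ?_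
  · rw [List.length_append, hPl]; omega
  · have h1 := hloc (u.take p0 ++ p) q (by omega)
    rw [← hu'] at h1
    exact (hloc (X1 ++ p') q (by omega)).2 (h1.1 hu2)
  · intro t ht1 ht2 hw
    rw [List.length_append, hPl] at ht2
    obtain ⟨s, hs⟩ : ∃ s, t = (X1 ++ p').length + s := ⟨t - (p0 + p'.length), by rw [hPl]; omega⟩
    subst hs
    rw [hPl] at ht1 ht2
    rw [wo_shift hloc (X1 ++ p') (u.take p0 ++ p) q s (by omega) (by omega), ← hu', hul] at hw
    by_cases h : z ≤ p0 + p.length + s
    · exact hu3 _ h (by omega) hw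
    · exact hnE ⟨_, by omega, by omega, by omega, hw⟩
  · have h1 : ((X1 ++ p') ++ q).take p0 = X1 := by
      rw [List.append_assoc, List.take_append_of_le_length (by omega), ← hX1', List.take_length]
    have h2 : ((X1 ++ p') ++ q).drop p0 = p' ++ q := by
      rw [List.append_assoc, ← hX1', List.drop_left]
    unfold Tm
    rw [h1, h2]
    exact (hsd p' q _ r hl' hr (by omega)).symm

/-- the place number `k` is spoiled in `w` -/
def Sp (Wo : List α → Prop) (z N1 p0 K : ℕ) (c : ℕ → ℕ) (BT : ℕ → Prop) (w : List α) (k : ℕ) :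
    Prop :=
  ∃ k' < K, k' ≠ k ∧
    ((∃ t, t ≤ w.length ∧ Wo (w.take t) ∧ z + c k ≤ t + c k' + N1 ∧ t + c k' < z + N1 + c k) ∨
     (∃ t, t ≤ w.length ∧ Wo (w.take t) ∧ z + c k ≤ t + c k' ∧
      (∀ t' < t, z + c k ≤ t' + c k' → ¬ Wo (w.take t')) ∧ BT (t + c k' - c k - p0)))

open Classical in
/-- **completeness of scheme 2** -/
theorem comp2 {Wo : List α → Prop} {n z N1 p0 K R : ℕ} {BT : ℕ → Prop} {c : ℕ → ℕ}
    {act : V → S → V} {φ : List α → S} {nu1 nu2 : List α → V}
    {lam2 rho2 : ℕ → List α → Option V}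
    (hloc : ∀ P Q : List α, n ≤ Q.length → (Wo (P ++ Q) ↔ Wo Q))
    (hc : ∀ k < K, c k ≤ p0)
    (hex : ∀ k < K, ∀ P Q v b, P.length = c k → lam2 k P = some v → rho2 k Q = some b →
      b = act v (φ (P ++ Q)) + nu2 (P ++ Q))
    (hcp : ∀ X1 : List α, X1.length = p0 → ∀ v, ∃ I : Finset ℕ, R ≤ I.card ∧ ∀ k ∈ I, k < K ∧
      lam2 k (X1.take (c k)) = some v ∧ (rho2 k (X1.drop (c k))).isSome)
    (hsp : ∀ X ∈ Bd Wo z N1 p0 BT, ∀ X' ∈ Bd Wo z N1 p0 BT,
      ((Finset.range K).filter (fun k => Sp Wo z N1 p0 K c BT (X ++ X') k)).card < R)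
    (hz : 2 * p0 + N1 + n + 1 ≤ z) (u : List α) (hu : u ∈ Bd Wo z N1 p0 BT)
    (x : V) (t : List α) (ht : t ∈ (Bd Wo z N1 p0 BT) ^ 1) :
    ∃ p q y, u ++ t = p ++ q ∧ p ∈ L2 K c lam2 x ∧
      q ∈ Rsem (XX Wo z) (Bd Wo z N1 p0 BT) (Tm act φ p0 nu1 nu2) 1 (L2 K c lam2) y := by
  rw [pow_one] at ht
  have hu0 := hu
  have ht0 := ht
  obtain ⟨⟨hu1, hu2, hu3⟩, huB⟩ := hu
  obtain ⟨⟨ht1, ht2, ht3⟩, htB⟩ := ht
  have hX1 : (u.take p0).length = p0 := by rw [List.length_take]; omega
  obtain ⟨I, hI, hI'⟩ := hcp (u.take p0) hX1 x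
  obtain ⟨k, hkI, hkS⟩ : ∃ k ∈ I, ¬ Sp Wo z N1 p0 K c BT (u ++ t) k := by
    by_contra hcon
    push Not at hcon
    have hsub : I ⊆ (Finset.range K).filter (fun k => Sp Wo z N1 p0 K c BT (u ++ t) k) := by
      intro k hk
      rw [Finset.mem_filter, Finset.mem_range]
      exact ⟨(hI' k hk).1, hcon k hk⟩
    have := Finset.card_le_card hsub
    have := hsp u hu0 t ht0
    omega
  obtain ⟨hkK, hlk, hrk⟩ := hI' k hkI
  obtain ⟨b, hb⟩ := Option.isSome_iff_exists.1 hrk
  have hck := hc k hkK
  have htk : (u.take p0).take (c k) = u.take (c k) := by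
    rw [List.take_take]; congr 1; omega
  have hulen : (u.take (c k)).length = c k := by rw [List.length_take]; omega
  refine ⟨u.take (c k), u.drop (c k) ++ t,
    Tm act φ p0 nu1 nu2 t (act b (φ (u.drop p0)) + nu1 (u.drop p0)),
    by rw [← List.append_assoc, List.take_append_drop], ⟨k, hkK, hulen, by rw [← htk]; exact hlk⟩,
    ?_⟩
  rintro x' P ⟨k', hk', hPl, hlP⟩
  have hck' := hc k' hk'
  by_cases hkk : k' = k
  · subst hkk
    left
    rw [← List.append_assoc]
    have hlenu : (P ++ u.drop (c k')).length = u.length := by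
      rw [List.length_append, List.length_drop]; omega
    have hwal : ∀ t, p0 + n ≤ t → t ≤ u.length →
        (Wo ((P ++ u.drop (c k')).take t) ↔ Wo (u.take t)) := by
      intro t h1 h2
      obtain ⟨s, hs⟩ : ∃ s, t = c k' + s := ⟨t - c k', by omega⟩
      subst hs
      have h3 := wo_shift hloc P (u.take (c k')) (u.drop (c k')) s (by omega)
        (by rw [List.length_drop]; omega)
      rw [List.take_append_drop, hulen, hPl] at h3
      exact h3
    have hwo : Wo (P ++ u.drop (c k')) := by
      have h3 := (hwal u.length (by omega) le_rfl).2 (by rw [List.take_length]; exact hu2)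
      rwa [← hlenu, List.take_length] at h3
    refine ex2 ⟨⟨by omega, hwo, ?_⟩, ?_⟩ ht0 ?_
    · intro t h1 h2 h3
      rw [hlenu] at h2
      exact hu3 t h1 h2 ((hwal t (by omega) (by omega)).1 h3)
    · rcases huB with ⟨t, h1, h2, h3, h4⟩ | h
      · exact Or.inl ⟨t, h1, h2, by omega, (hwal t (by omega) (by omega)).2 h4⟩
      · right; rw [hlenu]; exact h
    · congr 1
      unfold Tm
      have h1 : (P ++ u.drop (c k')).take p0 = P ++ (u.take p0).drop (c k') := by
        rw [List.take_append, List.take_of_length_le (by omega), List.drop_take, hPl]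
      have h2 : (P ++ u.drop (c k')).drop p0 = u.drop p0 := by
        rw [List.drop_append, List.drop_eq_nil_of_le (by omega), List.nil_append, List.drop_drop]
        congr 1
        omega
      rw [h1, h2, ← hex k' hkK P _ _ b hPl hlP hb]
  · right
    left
    -- the text seen from the wrong anchor
    set w : List α := u ++ t with hw
    have hwl : w.length = u.length + t.length := by rw [hw, List.length_append]
    have hqe : u.drop (c k) ++ t = w.drop (c k) := by
      rw [hw, List.drop_append_of_le_length (by omega)]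
    rw [hqe]
    have hwtake : w.take (c k) = u.take (c k) := by
      rw [hw, List.take_append_of_le_length (by omega)]
    have hlw : (P ++ w.drop (c k)).length = c k' + (w.length - c k) := by
      rw [List.length_append, List.length_drop, hPl]
    have hsh : ∀ s, n ≤ s → s ≤ w.length - c k →
        (Wo ((P ++ w.drop (c k)).take (c k' + s)) ↔ Wo (w.take (c k + s))) := by
      intro s h1 h2
      have h3 := wo_shift hloc P (w.take (c k)) (w.drop (c k)) s h1
        (by rw [List.length_drop]; exact h2)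
      rw [List.take_append_drop, hPl, hwtake, hulen] at h3
      exact h3
    have hWw : Wo w := by
      rw [hw]; exact (hloc u t (by omega)).2 ht2
    have hexw : ∃ b', z ≤ b' ∧ b' ≤ (P ++ w.drop (c k)).length ∧
        Wo ((P ++ w.drop (c k)).take b') := by
      refine ⟨c k' + (w.length - c k), by omega, by rw [hlw], ?_⟩
      rw [hsh _ (by omega) le_rfl]
      have : c k + (w.length - c k) = w.length := by omega
      rw [this, List.take_length]
      exact hWw
    obtain ⟨hb1, hb2, hb3⟩ := Nat.find_spec hexw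
    have hbmin := fun m (hm : m < Nat.find hexw) => Nat.find_min hexw hm
    set b' := Nat.find hexw with hb'
    have hul' : ((P ++ w.drop (c k)).take b').length = b' := by
      rw [List.length_take]; omega
    refine ⟨(P ++ w.drop (c k)).take b', ⟨by omega, hb3, ?_⟩, ?_, List.take_prefix _ _⟩
    · intro t h1 h2 h3
      rw [hul'] at h2
      rw [List.take_take, min_eq_left (by omega)] at h3
      exact hbmin t h2 ⟨h1, by omega, h3⟩
    · rintro ⟨-, hE | hB⟩
      · obtain ⟨t0, h1, h2, h3, h4⟩ := hE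
        rw [hul'] at h3
        rw [List.take_take, min_eq_left (by omega)] at h4
        obtain ⟨s, hs⟩ : ∃ s, t0 = c k' + s := ⟨t0 - c k', by omega⟩
        subst hs
        rw [hsh s (by omega) (by omega)] at h4
        exact hkS ⟨k', hk', hkk, Or.inl ⟨c k + s, by omega, h4, by omega, by omega⟩⟩
      · rw [hul'] at hB
        obtain ⟨s, hs⟩ : ∃ s, b' = c k' + s := ⟨b' - c k', by omega⟩
        rw [hs] at hb3 hB
        rw [hsh s (by omega) (by omega)] at hb3
        refine hkS ⟨k', hk', hkk, Or.inr ⟨c k + s, by omega, hb3, by omega, ?_, ?_⟩⟩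
        · intro t' h1 h2 h3
          obtain ⟨s', hs'⟩ : ∃ s', t' = c k + s' := ⟨t' - c k, by omega⟩
          subst hs'
          rw [← hsh s' (by omega) (by omega)] at h3
          exact hbmin (c k' + s') (by omega) ⟨by omega, by omega, h3⟩
        · have : c k + s + c k' - c k - p0 = c k' + s - p0 := by omega
          rw [this]
          exact hB

open Classical in
/-- **the spoil count** -/
theorem spoil {Wo : List α → Prop} {z N1 p0 K La C0 W : ℕ} {BT : ℕ → Prop} {c : ℕ → ℕ}
    (hc : ∀ k < K, c k ≤ p0)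
    (hres : ∀ i j k l, i < K → j < K → k < K → l < K → i ≠ j → k ≠ l → (i, j) ≠ (k, l) →
      c i + c l + 4 * N1 < c k + c j ∨ c k + c j + 4 * N1 < c i + c l)
    (hB : ∀ T, La ≤ T → (((Finset.range K) ×ˢ (Finset.range K)).filter
      (fun ij => ij.1 ≠ ij.2 ∧ BT (T + c ij.2 - c ij.1))).card ≤ C0)
    (hW : 2 * p0 + 2 * N1 ≤ W) (hz : 2 * p0 + N1 + La ≤ z) (w : List α)
    (hgap : ∀ s t, s < t → t ≤ w.length → Wo (w.take s) → Wo (w.take t) → W < t - s) :
    ((Finset.range K).filter (fun k => Sp Wo z N1 p0 K c BT w k)).card < 2 * C0 + 2 := by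
  set isW : ℕ → Prop := fun t => t ≤ w.length ∧ Wo (w.take t) with hisW
  -- the set spoiled by the band
  let AE := (Finset.range K).filter (fun k => ∃ k' < K, k' ≠ k ∧
    (∃ t, t ≤ w.length ∧ Wo (w.take t) ∧ z + c k ≤ t + c k' + N1 ∧ t + c k' < z + N1 + c k))
  let AB : ℕ → Finset ℕ := fun T => (Finset.range K).filter (fun k => ∃ k' < K, k' ≠ k ∧
    z ≤ T + p0 ∧ BT (T + c k' - c k - p0))
  have hAE : AE.card ≤ 1 := by
    rw [Finset.card_le_one]
    intro k hk l hl
    rw [Finset.mem_filter, Finset.mem_range] at hk hl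
    obtain ⟨hk, k', hk', hkk, t, ht1, ht2, ht3, ht4⟩ := hk
    obtain ⟨hl, l', hl', hll, s, hs1, hs2, hs3, hs4⟩ := hl
    have a1 := hc k hk
    have a2 := hc l hl
    have a3 := hc k' hk'
    have a4 := hc l' hl'
    have hst : s = t := by
      rcases lt_trichotomy s t with h | h | h
      · have := hgap s t h ht1 hs2 ht2; omega
      · exact h
      · have := hgap t s h hs1 ht2 hs2; omega
    subst hst
    by_contra hne
    rcases hres k k' l l' hk hk' hl hl' (Ne.symm hkk) (Ne.symm hll)
      (fun h => hne (Prod.mk.inj h).1) with h | h <;> omega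
  have hAB : ∀ T, (AB T).card ≤ C0 := by
    intro T
    by_cases hT : z ≤ T + p0
    · refine le_trans ?_ (hB (T - p0) (by omega))
      have hsub : AB T ⊆ ((((Finset.range K) ×ˢ (Finset.range K)).filter
          (fun ij => ij.1 ≠ ij.2 ∧ BT (T - p0 + c ij.2 - c ij.1))).image Prod.fst) := by
        intro k hk
        rw [Finset.mem_filter, Finset.mem_range] at hk
        obtain ⟨hk, k', hk', hkk, -, hb⟩ := hk
        rw [Finset.mem_image]
        refine ⟨(k, k'), ?_, rfl⟩
        rw [Finset.mem_filter, Finset.mem_product, Finset.mem_range, Finset.mem_range]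
        refine ⟨⟨hk, hk'⟩, Ne.symm hkk, ?_⟩
        have a1 := hc k hk
        have : T - p0 + c k' - c k = T + c k' - c k - p0 := by omega
        show BT (T - p0 + c k' - c k)
        rw [this]
        exact hb
      exact (Finset.card_le_card hsub).trans Finset.card_image_le
    · have : AB T = ∅ := by
        rw [Finset.filter_eq_empty_iff]
        rintro k - ⟨k', -, -, h, -⟩
        exact hT h
      rw [this, Finset.card_empty]
      exact Nat.zero_le _
  -- the two candidates
  obtain ⟨t1, t2, h12⟩ : ∃ t1 t2, ∀ k k' t, k < K → k' < K → t ≤ w.length → Wo (w.take t) →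
      z + c k ≤ t + c k' → (∀ t' < t, z + c k ≤ t' + c k' → ¬ Wo (w.take t')) →
      t = t1 ∨ t = t2 := by
    by_cases he1 : ∃ t, z ≤ t + p0 ∧ isW t
    · obtain ⟨f1, f2, f3⟩ := Nat.find_spec he1
      have fmin := fun m (hm : m < Nat.find he1) => Nat.find_min he1 hm
      by_cases he2 : ∃ t, Nat.find he1 < t ∧ isW t
      · obtain ⟨g1, g2, g3⟩ := Nat.find_spec he2
        have gmin := fun m (hm : m < Nat.find he2) => Nat.find_min he2 hm
        refine ⟨Nat.find he1, Nat.find he2, ?_⟩
        intro k k' t hk hk' ht1 ht2 ht3 ht4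
        have a1 := hc k hk
        have a2 := hc k' hk'
        have b1 : Nat.find he1 ≤ t := by
          by_contra h
          exact fmin t (by omega) ⟨by omega, ht1, ht2⟩
        rcases Nat.eq_or_lt_of_le b1 with h | h
        · exact Or.inl h.symm
        · right
          have b2 : Nat.find he2 ≤ t := by
            by_contra h'
            exact gmin t (by omega) ⟨h, ht1, ht2⟩
          rcases Nat.eq_or_lt_of_le b2 with h' | h'
          · exact h'.symm
          · exfalso
            have := hgap _ _ g1 g2 f3 g3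
            exact ht4 _ h' (by omega) g3
      · refine ⟨Nat.find he1, 0, ?_⟩
        intro k k' t hk hk' ht1 ht2 ht3 ht4
        have a2 := hc k' hk'
        left
        have b1 : Nat.find he1 ≤ t := by
          by_contra h
          exact fmin t (by omega) ⟨by omega, ht1, ht2⟩
        rcases Nat.eq_or_lt_of_le b1 with h | h
        · exact h.symm
        · exact (he2 ⟨t, h, ht1, ht2⟩).elim
    · refine ⟨0, 0, ?_⟩
      intro k k' t hk hk' ht1 ht2 ht3 ht4
      have a2 := hc k' hk'
      exact (he1 ⟨t, by omega, ht1, ht2⟩).elim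
  have hsub : (Finset.range K).filter (fun k => Sp Wo z N1 p0 K c BT w k) ⊆
      AE ∪ (AB t1 ∪ AB t2) := by
    intro k hk
    rw [Finset.mem_filter, Finset.mem_range] at hk
    obtain ⟨hk, k', hk', hkk, h | ⟨t, ht1, ht2, ht3, ht4, ht5⟩⟩ := hk
    · rw [Finset.mem_union]
      left
      rw [Finset.mem_filter, Finset.mem_range]
      exact ⟨hk, k', hk', hkk, h⟩
    · have a2 := hc k' hk'
      rw [Finset.mem_union, Finset.mem_union]
      right
      rcases h12 k k' t hk hk' ht1 ht2 ht3 ht4 with h | h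
      · left
        rw [Finset.mem_filter, Finset.mem_range]
        exact ⟨hk, k', hk', hkk, by omega, h ▸ ht5⟩
      · right
        rw [Finset.mem_filter, Finset.mem_range]
        exact ⟨hk, k', hk', hkk, by omega, h ▸ ht5⟩
  have e1 := Finset.card_le_card hsub
  have e2 := Finset.card_union_le AE (AB t1 ∪ AB t2)
  have e3 := Finset.card_union_le (AB t1) (AB t2)
  have e4 := hAB t1
  have e5 := hAB t2
  omega

end Crest.Agent.R320.Jnt_974
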