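import Crest.Agent.R320.Sc2n_937

/-! Row 320: the two completeness statements of 120's `top5` from 937's natural chain. -/

set_option autoImplicit false

namespace Crest.Agent.R320.Join_432

open Crest.Agent.R320.Sc2n_937

variable {A V : Type*}

theorem cc1 (g : Geo A) (pre : List A → V → V) (post : V → List A → V)
    {lam rho : List A → Option V} {BadT : ℕ → Prop}
    (hlen : ∀ P v, lam P = some v → P.length ≤ g.N1)
    (hex : ∀ P Q u b, lam P = some u → rho Q = some b → b = post u (P ++ Q))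
    (hcomp : ∀ X, g.XX X → ¬ g.E X → ¬ BadT (X.length - g.p0) → ∀ u : V, ∃ P Q,
      X.drop g.p0 = P ++ Q ∧ lam P = some u ∧ (rho Q).isSome)
    {X : List A} (hX : g.XX X) (hb : ¬ g.BadX BadT X) (v : V) :
    ∃ P Q, P ++ Q = X ∧ g.LP1 pre lam v P ∧ ∀ x P', g.LP1 pre lam x P' →
      g.XX (P' ++ Q) ∧ g.T pre post x (P' ++ Q) = g.T pre post v X := by
  have hE : ¬ g.E X := fun h => hb (Or.inl h)
  have hB : ¬ BadT (X.length - g.p0) := fun h => hb (Or.inr h)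
  obtain ⟨P, Q, b, e, hP, hQ⟩ := g.complete1 pre hlen hX hE (hcomp X hX hE hB) v
  have h1 := g.sound1 pre post hlen hex hP hQ
  rw [← e] at h1
  refine ⟨P, Q, e.symm, hP, fun x P' hP' => ?_⟩
  have h2 := g.sound1 pre post hlen hex hP' hQ
  exact ⟨h2.1, h2.2.trans h1.2.symm⟩

theorem cc2 (g : Geo A) (pre : List A → V → V) (post : V → List A → V)
    {BadT : ℕ → Prop} {K : ℕ} {c : ℕ → ℕ} {lam2 rho2 : ℕ → List A → Option V}
    {C0 : ℕ}
    (hc : ∀ k, k < K → c k ≤ g.p0)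
    (hex : ∀ k, k < K → ∀ P Q v u, P.length = c k → Q.length = g.p0 - c k →
      lam2 k P = some v → rho2 k Q = some u → u = pre (P ++ Q) v)
    (hgap : ∀ P Q : List A, g.Wo P → g.Wo (P ++ Q) → Q ≠ [] → 2 * g.p0 + 2 * g.N1 < Q.length)
    (hsp : ∀ k k' l l', k < K → k' < K → l < K → l' < K → k' ≠ k → l' ≠ l →
      c k + c l' < c l + c k' + 2 * g.N1 → c l + c k' < c k + c l' + 2 * g.N1 → k = l)
    (hthin : ∀ τ, g.z ≤ τ + g.p0 → ∀ J : Finset ℕ, (∀ k ∈ J, k < K ∧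
      ∃ k', k' < K ∧ k' ≠ k ∧ BadT (τ + c k' - c k - g.p0)) → J.card ≤ C0)
    (hI : ∀ X, g.XX X → ∀ v, ∃ I : Finset ℕ, 2 * C0 + 2 ≤ I.card ∧ ∀ k ∈ I, k < K ∧
      lam2 k (X.take (c k)) = some v ∧ (rho2 k ((X.take g.p0).drop (c k))).isSome)
    {X Y : List A} (hX : g.XX X) (hbX : g.BadX BadT X) (hY : g.XX Y) (v : V) :
    ∃ P Q, P ++ Q = X ++ Y ∧ Geo.LP2 K c lam2 v P ∧ ∀ x P', Geo.LP2 K c lam2 x P' →
      (∃ X', (g.XX X' ∧ g.BadX BadT X') ∧ ∃ Y', g.XX Y' ∧ X' ++ Y' = P' ++ Q ∧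
        g.T pre post (g.T pre post x X') Y' = g.T pre post (g.T pre post v X) Y) ∨
      (∃ X', g.XX X' ∧ ¬ (g.XX X' ∧ g.BadX BadT X') ∧ X' <+: P' ++ Q) := by
  obtain ⟨P, Q, b, e, hP, hQ⟩ := g.complete2 pre post hc hgap hsp hthin hX hY v (hI X hX v)
  have hb : g.T pre post (g.T pre post v X) Y = b := by
    obtain ⟨X2, -, h2, h3⟩ := g.sound2 pre post hc hex hX hbX hP hQ (R := []) (R' := Y)
      (by rw [List.append_nil]; exact e)
    rw [e] at h2
    have := List.append_cancel_left h2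
    rw [this]; exact h3
  refine ⟨P, Q, e, hP, fun x P' hP' => ?_⟩
  -- candidate block for P'
  have hcand : ∃ l, g.CEnd Q P'.length l ∧ P'.length ≤ g.p0 := by
    obtain ⟨k', hk', hl', -⟩ := hP'
    obtain ⟨k, hk, l, hend, hgood, -⟩ := hQ
    by_cases hkk : k' = k
    · subst hkk
      exact ⟨l, by rw [hl']; exact hend, by rw [hl']; exact hc _ hk⟩
    · obtain ⟨l', h1, -⟩ := hgood k' hk' hkk
      exact ⟨l', by rw [hl']; exact h1, by rw [hl']; exact hc _ hk'⟩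
  obtain ⟨l, hl, hp⟩ := hcand
  have hXX' := g.xx_of_cend hp hl
  have hpre : (P' ++ Q.take l) ++ Q.drop l = P' ++ Q := by
    rw [List.append_assoc, List.take_append_drop]
  by_cases hbad : g.BadX BadT (P' ++ Q.take l)
  · left
    obtain ⟨X2, h1, h2, h3⟩ := g.sound2 pre post hc hex hXX' hbad hP' hQ (R := [])
      (R' := Q.drop l) (by rw [List.append_nil]; exact hpre.symm)
    exact ⟨P' ++ Q.take l, ⟨hXX', hbad⟩, X2, h1, h2.symm, h3.trans hb.symm⟩
  · right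
    exact ⟨P' ++ Q.take l, hXX', fun h => hbad h.2, ⟨Q.drop l, hpre⟩⟩

end Crest.Agent.R320.Join_432
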