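import Crest.Agent.R320.Top5_120
import Crest.Agent.R320.InstA_926
import Crest.Agent.R320.P4_440

/-!
# Row 320: join of the landed pieces, part 1 (helper484)

`row_of_ok`: the concrete data of helper926 (`Inst_926.Ok D`), the semantic top theorem of
helper120 (`Top5_120.top5`) and helper440's `HL 1` facts give `HL 3` of every fibre.
-/

set_option autoImplicit false
set_option linter.unusedSectionVars false

namespace Crest.Agent.R320.Join_484

open Crest.RegLang Crest.Agent.R320.Hk_851 Crest.Agent.R320.Blk467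
open Crest.Agent.R320.Inst_926

variable {α S V : Type} [Monoid S] [AddCommGroup V] {D : Dat α S V} (H : Ok D)

include H

/-- candidate bad -> block bad -/
theorem BadX_of_bad {k : ℕ} {P Q : List α} (hP : P.length = D.c k) {t : ℕ}
    (h : D.FW k Q t) (hb : D.BadAt k Q) : D.BadX (P ++ Q.take t) := by
  obtain ⟨t', h', hb⟩ := hb
  have htt := FW_unique h h'
  subst htt
  have hl : (Q.take t).length = t := by rw [List.length_take]; have := h.1; omega
  rcases hb with ⟨τ, g1, g2, g3⟩ | hb | hb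
  · left
    have h1 := h.1
    have hn := H.wlen _ g2
    rw [List.length_take] at hn
    refine ⟨P.length + τ, by rw [List.length_append, hl]; omega, ?_, by omega⟩
    rw [← wall_append H P (Q.take t) τ (by omega) (by omega), List.take_take, min_eq_left (by omega)]
    exact g2
  · right; left
    rw [List.length_append, hl]; omega
  · right; right
    rw [List.length_append, hl, hP, add_comm (D.c k) t]
    exact hb

/-- value of a correct candidate -/
theorem val {k : ℕ} (hk : k < D.K) {P Q : List α} (hP : P.length = D.c k) {v b1 : V} {t : ℕ}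
    (hl : D.lam2 k P = some v) (h1 : D.FW k Q t)
    (h5 : D.rho2 k (Q.take (D.p0 - D.c k)) = some b1) :
    D.T v (P ++ Q.take t) = D.act b1 (D.φ ((Q.take t).drop (D.p0 - D.c k))) +
      D.nu1 ((Q.take t).drop (D.p0 - D.c k)) := by
  have hz0 := H.hz
  have hc := H.cle k hk
  have htl : (Q.take t).length = t := by rw [List.length_take]; have := h1.1; omega
  have ht3 := h1.2.2.1
  have e0 : (Q.take t).take (D.p0 - D.c k) = Q.take (D.p0 - D.c k) := by
    rw [List.take_take, min_eq_left (by omega)]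
  have e1 : (P ++ Q.take t).take D.p0 = P ++ Q.take (D.p0 - D.c k) := by
    rw [List.take_append, List.take_of_length_le (by omega), hP, e0]
  have e2 : (P ++ Q.take t).drop D.p0 = (Q.take t).drop (D.p0 - D.c k) := by
    rw [List.drop_append, List.drop_of_length_le (by omega), hP, List.nil_append]
  have e3 : D.φ (P ++ Q.take t) = D.φ (P ++ Q.take (D.p0 - D.c k)) *
      D.φ ((Q.take t).drop (D.p0 - D.c k)) := by
    rw [← H.hφ, List.append_assoc, ← e0, List.take_append_drop]
  have h7 := H.sound2 k hk P _ v b1 hP hl h5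
  unfold Dat.T Dat.ν
  rw [e1, e2, e3, h7, H.aadd, H.amul, add_assoc]

theorem cc2 (X : List α) (hX : X ∈ D.XX) (hb : D.BadX X) (X2 : List α) (hX2 : X2 ∈ D.XX) (v : V) :
    ∃ P Q, P ++ Q = X ++ X2 ∧ D.LP2 P v ∧ ∀ (x : V) (P' : List α), D.LP2 P' x →
      (∃ X' ∈ D.XX, D.BadX X' ∧ ∃ Y' ∈ D.XX, X' ++ Y' = P' ++ Q ∧
        D.T (D.T x X') Y' = D.T (D.T v X) X2) ∨
      (∃ X' ∈ D.XX, ¬ D.BadX X' ∧ X' <+: P' ++ Q) := by
  classical
  have hz0 := H.hz
  have l1 := hX.1
  have l2 := hX2.1
  have hsp := spoil H (X ++ X2) ((H.wloc _ _ (H.wlen _ hX2.2.1)).2 hX2.2.1)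
    (by rw [List.length_append]; omega)
  obtain ⟨I, hI, hIk⟩ := H.comp2 (X.take D.p0) v (by
    intro k hk; rw [List.length_take]; have := H.cle k hk; omega)
  obtain ⟨k, hkI, hkS⟩ : ∃ k ∈ I, k ∉ (Finset.range D.K).filter
      (fun k => ∃ k' < D.K, k' ≠ k ∧ D.BadAt k' ((X ++ X2).drop (D.c k))) := by
    by_contra h
    push Not at h
    have := Finset.card_le_card (show I ⊆ _ from fun k hk => h k hk)
    omega
  obtain ⟨hk, hl, hr⟩ := hIk k hkI
  have hc := H.cle k hk
  rw [Finset.mem_filter, Finset.mem_range] at hkS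
  push Not at hkS
  have hkS' := hkS hk
  have hlenP : (X.take (D.c k)).length = D.c k := by rw [List.length_take]; omega
  have hdl : (X.drop (D.c k)).length = X.length - D.c k := List.length_drop
  have hdrop : (X ++ X2).drop (D.c k) = X.drop (D.c k) ++ X2 := by
    rw [List.drop_append_of_le_length (by omega)]
  rw [hdrop] at hkS'
  set Q := X.drop (D.c k) ++ X2 with hQ
  have hQl : Q.length = X.length - D.c k + X2.length := by rw [hQ, List.length_append, hdl]
  have hQt : Q.take (X.length - D.c k) = X.drop (D.c k) := by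
    rw [hQ, ← hdl, List.take_left]
  have hQd : Q.drop (X.length - D.c k) = X2 := by
    rw [hQ, ← hdl, List.drop_left]
  have hFW : D.FW k Q (X.length - D.c k) := by
    refine ⟨by omega, ?_, by omega, ?_⟩
    · rw [hQt]
      have := hX.2.1
      rw [← List.take_append_drop (D.c k) X] at this
      exact (H.wloc _ _ (by omega)).1 this
    · intro t' ht' hz hw
      have e : Q.take t' = (X.drop (D.c k)).take t' := by
        rw [hQ, List.take_append_of_le_length (by omega)]
      rw [e, wall_drop H X (D.c k) t' (by omega) (by omega)] at hw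
      exact hX.2.2 _ (by omega) (by omega) hw
  have hPX : X.take (D.c k) ++ Q.take (X.length - D.c k) = X := by
    rw [hQt, List.take_append_drop]
  have hbk : D.BadAt k Q := by
    refine bad_of_BadX H hk hlenP hFW ?_
    rw [hPX]
    exact hb
  have hWQ : D.Wl Q := (H.wloc _ _ (H.wlen _ hX2.2.1)).2 hX2.2.1
  have e3 : Q.take (D.p0 - D.c k) = (X.take D.p0).drop (D.c k) := by
    rw [hQ, List.take_append_of_le_length (by omega), List.drop_take]
  obtain ⟨b1, hb1⟩ := Option.isSome_iff_exists.1 hr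
  rw [← e3] at hb1
  have hl' : D.lam2 k (X.take (D.c k)) = some v := by
    rw [List.take_take, min_eq_left (by omega)] at hl
    exact hl
  have hval := val H hk hlenP hl' hFW hb1
  rw [hPX] at hval
  refine ⟨X.take (D.c k), Q, ?_, ⟨k, hk, hlenP, hl'⟩, ?_⟩
  · rw [hQ, ← List.append_assoc, List.take_append_drop]
  intro x P' hP'
  obtain ⟨k0, hk0, hlen0, hl0⟩ := hP'
  by_cases hkk : k0 = k
  · subst hkk
    left
    refine ⟨P' ++ Q.take (X.length - D.c k0), block_of_FW H hk0 hlen0 hFW,
      BadX_of_bad H hlen0 hFW hbk, X2, hX2, ?_, ?_⟩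
    · rw [List.append_assoc, ← hQd, List.take_append_drop]
    · rw [val H hk0 hlen0 hl0 hFW hb1, hval]
  · right
    obtain ⟨t', ht'⟩ := exists_FW H hk0 hWQ (by omega)
    refine ⟨P' ++ Q.take t', block_of_FW H hk0 hlen0 ht', fun hbad => ?_,
      ⟨Q.drop t', by rw [List.append_assoc, List.take_append_drop]⟩⟩
    exact hkS' k0 hk0 hkk (bad_of_BadX H hk0 hlen0 ht' hbad)

theorem cc1 (X : List α) (hX : X ∈ D.XX) (hb : ¬ D.BadX X) (v : V) :
    ∃ P Q, P ++ Q = X ∧ D.LP1 P v ∧ ∀ (x : V) (P' : List α), D.LP1 P' x →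
      P' ++ Q ∈ D.XX ∧ D.T x (P' ++ Q) = D.T v X := by
  obtain ⟨P, Q, e, hP, hQ⟩ := comp_one H X hX hb v
  obtain ⟨b, hb⟩ := Option.isSome_iff_exists.1 hQ
  refine ⟨P, Q, e.symm, hP, fun x P' hP' => ?_⟩
  obtain ⟨h1, h2⟩ := s1 H P' x Q b hP' hb
  obtain ⟨_, h3⟩ := s1 H P v Q b hP hb
  rw [← e] at h3
  exact ⟨h1, by rw [h2, h3]⟩

omit H in
theorem pcode (H : Ok D) : PCode D.XX := by
  refine ⟨nil_notMem H, ?_⟩
  rintro X hX Y hY ⟨R, rfl⟩
  have := code H X hX R hY
  rw [this, List.append_nil]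

omit H in
/-- **the join** : concrete data + few walls => every fibre has height `≤ 3` -/
theorem row_of_ok [Finite α] [Finite S] [Finite V] (f : α → S) (H : Ok D)
    (hφ : D.φ = fun w => (w.map f).prod) (hone : ∀ v, D.act v 1 = v)
    (hfaith : ∀ s t, (∀ v, D.act v s = D.act v t) → s = t)
    (Sw : Set (List α)) (hWl : D.Wl = WallU_228.Wo D.n Sw)
    (hfew : ∀ (L : Language α), L.IsRegular → ∀ r,
      HL 1 ({w | w ∈ L ∧ FewWalls_228.nw D.n Sw w ≤ r} : Language α))
    (A M : ℕ) (hM : 0 < M)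
    (hnu1 : ∀ u u' : List α, A ≤ u.length → A ≤ u'.length → u.take A = u'.take A →
      D.φ (u.drop A) = D.φ (u'.drop A) → u.length ≡ u'.length [MOD M] → D.nu1 u = D.nu1 u')
    (hBad : ∀ a a' : ℕ, A ≤ a → A ≤ a' → a ≡ a' [MOD M] → (D.Bad a ↔ D.Bad a'))
    (s : S) : HL 3 ({w | (w.map f).prod = s} : Language α) := by
  classical
  have hz0 := H.hz
  set B := D.z + D.p0 + A + D.N + D.n with hB
  have hXXeq : ∀ X, X ∈ D.XX ↔ X ∈ P4_440.XX D.n Sw D.z := by
    intro X
    constructor
    · rintro ⟨h1, h2, h3⟩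
      refine ⟨h1, by rw [← hWl]; exact h2, fun t ht ht' hw => h3 t ht' ht (by rw [hWl]; exact hw)⟩
    · rintro ⟨h1, h2, h3⟩
      refine ⟨h1, by rw [hWl]; exact h2, fun t ht ht' hw => h3 t ht' ht (by rw [← hWl]; exact hw)⟩
  have hφm : ∀ u v, D.φ (u ++ v) = D.φ u * D.φ v := H.hφ
  -- prefix facts
  have htk : ∀ (w w' : List α), w.take B = w'.take B → ∀ j ≤ B, w.take j = w'.take j := by
    intro w w' h j hj
    have := congrArg (List.take j) h
    rwa [List.take_take, List.take_take, min_eq_left hj] at this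
  have hdr : ∀ (w w' : List α), B ≤ w.length → B ≤ w'.length → w.take B = w'.take B →
      D.φ (w.drop B) = D.φ (w'.drop B) → ∀ j ≤ B, D.φ (w.drop j) = D.φ (w'.drop j) := by
    intro w w' hw hw' h h' j hj
    have e : ∀ u : List α, B ≤ u.length → u.drop j = (u.take B).drop j ++ u.drop B := by
      intro u hu
      conv_lhs => rw [← List.take_append_drop B u]
      rw [List.drop_append_of_le_length (by rw [List.length_take]; omega)]
    rw [e w hw, e w' hw', hφm, hφm, h, h']
  have hT : ∀ (x : V) (w w' : List α), B ≤ w.length → B ≤ w'.length → w.take B = w'.take B →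
      D.φ (w.drop B) = D.φ (w'.drop B) → w.length ≡ w'.length [MOD M] → D.T x w = D.T x w' := by
    intro x w w' hw hw' h h' hm
    have h0 := hdr w w' hw hw' h h' 0 (Nat.zero_le _)
    rw [List.drop_zero, List.drop_zero] at h0
    have h1 := hdr w w' hw hw' h h' D.p0 (by omega)
    have h2 := htk w w' h D.p0 (by omega)
    have h3 : D.nu1 (w.drop D.p0) = D.nu1 (w'.drop D.p0) := by
      apply hnu1
      · rw [List.length_drop]; omega
      · rw [List.length_drop]; omega
      · have := htk w w' h (D.p0 + A) (by omega)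
        have := congrArg (List.drop D.p0) this
        rw [List.drop_take, List.drop_take] at this
        simpa using this
      · rw [List.drop_drop, List.drop_drop]
        exact hdr w w' hw hw' h h' _ (by omega)
      · rw [List.length_drop, List.length_drop]
        have e1 : w.length = (w.length - D.p0) + D.p0 := by omega
        have e2 : w'.length = (w'.length - D.p0) + D.p0 := by omega
        rw [e1, e2] at hm
        exact Nat.ModEq.add_right_cancel' _ hm
    unfold Dat.T Dat.ν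
    rw [h0, h1, h2, h3]
  let BX : List α → Prop := fun X => (∃ τ < D.z, D.Wl (X.take τ) ∧ D.z < τ + D.N) ∨
    X.length < D.z + D.N ∨ D.Bad (X.length - D.p0)
  have hBX : ∀ X ∈ D.XX, D.BadX X ↔ BX X := by
    rintro X ⟨h1, h2, h3⟩
    constructor
    · rintro (⟨τ, g1, g2, g3⟩ | h | h)
      · left
        refine ⟨τ, ?_, g2, g3⟩
        by_contra hc
        exact h3 τ g1 (by omega) g2
      · exact Or.inr (Or.inl h)
      · exact Or.inr (Or.inr h)
    · rintro (⟨τ, g1, g2, g3⟩ | h | h)
      · exact Or.inl ⟨τ, by omega, g2, g3⟩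
      · exact Or.inr (Or.inl h)
      · exact Or.inr (Or.inr h)
  have hBXr : ∀ (w w' : List α), B ≤ w.length → B ≤ w'.length → w.take B = w'.take B →
      w.length ≡ w'.length [MOD M] → (BX w ↔ BX w') := by
    intro w w' hw hw' h hm
    have e1 : (∃ τ < D.z, D.Wl (w.take τ) ∧ D.z < τ + D.N) ↔
        (∃ τ < D.z, D.Wl (w'.take τ) ∧ D.z < τ + D.N) := by
      constructor
      · rintro ⟨τ, g1, g2, g3⟩
        exact ⟨τ, g1, by rw [← htk w w' h τ (by omega)]; exact g2, g3⟩
      · rintro ⟨τ, g1, g2, g3⟩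
        exact ⟨τ, g1, by rw [htk w w' h τ (by omega)]; exact g2, g3⟩
    have e2 : D.Bad (w.length - D.p0) ↔ D.Bad (w'.length - D.p0) := by
      apply hBad
      · omega
      · omega
      · have e1 : w.length = (w.length - D.p0) + D.p0 := by omega
        have e2 : w'.length = (w'.length - D.p0) + D.p0 := by omega
        rw [e1, e2] at hm
        exact Nat.ModEq.add_right_cancel' _ hm
    show (_ ∨ _ ∨ _) ↔ (_ ∨ _ ∨ _)
    rw [e1, e2]
    have a1 : ¬ w.length < D.z + D.N := by omega
    have a2 : ¬ w'.length < D.z + D.N := by omega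
    simp only [a1, a2]
  have hTeq : ∀ (x : V) (X : List α), D.act x (X.map f).prod + D.ν X = D.T x X := by
    intro x X
    unfold Dat.T
    rw [hφ]
  refine Top5_120.top5 (V := V) D.act H.aadd hone (fun v s t => (H.amul v s t).symm) hfaith f D.ν
    D.XX {X | X ∈ D.XX ∧ D.BadX X} (pcode H) (fun X hX => hX.1)
    (fun v => {P | D.LP1 P v}) (fun v => {P | D.LP2 P v}) ?_ ?_ ?_ ?_ ?_ ?_ ?_ s
  · intro v
    refine (List.finite_length_le α (D.p0 + D.N)).subset ?_
    rintro P ⟨h1, h2⟩
    have := H.lamlt _ _ h2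
    rw [List.length_drop] at this
    show P.length ≤ _
    omega
  · intro v
    refine (List.finite_length_le α D.p0).subset ?_
    rintro P ⟨k, hk, h1, h2⟩
    have := H.cle k hk
    show P.length ≤ _
    omega
  · intro x y
    refine (P4_440.HL_block (φ := D.φ) (n := D.n) (S := Sw) (z := D.z) (B := B) (P := M)
      hφm (by omega) (by omega) hM hfew (R := fun X => D.T x X = y) ?_).congr fun X => Iff.symm ?_
    · intro w w' hw hw' h h' hm
      show D.T x w = y ↔ D.T x w' = y
      rw [hT x w w' hw hw' h h' hm]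
    · show (X ∈ P4_440.XX D.n Sw D.z ∧ D.T x X = y) ↔ (X ∈ D.XX ∧ _ = y)
      rw [hTeq, hXXeq]
  · intro x y
    refine (P4_440.HL_block (φ := D.φ) (n := D.n) (S := Sw) (z := D.z) (B := B) (P := M)
      hφm (by omega) (by omega) hM hfew (R := fun X => BX X ∧ D.T x X = y) ?_).congr fun X => Iff.symm ?_
    · intro w w' hw hw' h h' hm
      show (BX w ∧ D.T x w = y) ↔ (BX w' ∧ D.T x w' = y)
      rw [hT x w w' hw hw' h h' hm, hBXr w w' hw hw' h hm]
    · show (X ∈ P4_440.XX D.n Sw D.z ∧ BX X ∧ D.T x X = y) ↔ ((X ∈ D.XX ∧ D.BadX X) ∧ _ = y)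
      rw [hTeq, ← hXXeq, and_assoc]
      constructor
      · rintro ⟨h1, h2, h3⟩
        exact ⟨h1, (hBX X h1).2 h2, h3⟩
      · rintro ⟨h1, h2, h3⟩
        exact ⟨h1, (hBX X h1).1 h2, h3⟩
  · intro s
    refine (P4_440.HL_rest (φ := D.φ) (n := D.n) (S := Sw) (z := D.z) (B := B) (P := M)
      hφm (by omega) (by omega) hM hfew (R := fun X => D.φ X = s) ?_).congr fun X => Iff.symm ?_
    · intro w w' hw hw' h h' hm
      have h0 := hdr w w' hw hw' h h' 0 (Nat.zero_le _)
      rw [List.drop_zero, List.drop_zero] at h0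
      show D.φ w = s ↔ D.φ w' = s
      rw [h0]
    · show ((∀ u ∈ P4_440.XX D.n Sw D.z, ¬ u <+: X) ∧ D.φ X = s) ↔
        ((∀ u ∈ D.XX, ¬ u <+: X) ∧ (X.map f).prod = s)
      rw [hφ]
      constructor
      · rintro ⟨h1, h2⟩
        exact ⟨fun u hu => h1 u ((hXXeq u).1 hu), h2⟩
      · rintro ⟨h1, h2⟩
        exact ⟨fun u hu => h1 u ((hXXeq u).2 hu), h2⟩
  · intro X hX hXb v
    obtain ⟨P, Q, e, hP, h⟩ := cc1 H X hX (fun hb => hXb ⟨hX, hb⟩) v
    refine ⟨P, Q, e, hP, fun x P' hP' => ?_⟩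
    obtain ⟨h1, h2⟩ := h x P' hP'
    refine ⟨h1, ?_⟩
    rw [hTeq, hTeq]
    exact h2
  · rintro X ⟨hX, hXb⟩ Y ⟨hY, hYb⟩ v
    obtain ⟨P, Q, e, hP, h⟩ := cc2 H X hX hXb Y hY v
    refine ⟨P, Q, e, hP, fun x P' hP' => ?_⟩
    rcases h x P' hP' with ⟨X', h1, h2, Y', h3, h4, h5⟩ | ⟨X', h1, h2, h3⟩
    · left
      refine ⟨X', ⟨h1, h2⟩, Y', h3, h4, ?_⟩
      rw [hTeq, hTeq, hTeq, hTeq]
      exact h5
    · right
      exact ⟨X', h1, fun hc => h2 hc.2, h3⟩

end Crest.Agent.R320.Join_484
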