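import Crest.Agent.R320.P4_933

/-! # Row 320, join (helper671): finite-state classes and the noise of the grid gadget -/

set_option autoImplicit false

namespace Crest.Agent.R320.Join_671

open Crest.RegLang Crest.Agent.R320.Hk_851 Crest.Agent.R320.P4_933

/-- finite-state properties (prefix of length `A`, length mod `M0`, value of the rest) -/
theorem reg_class {α : Type} [Finite α] {S : Type} [Monoid S] [Finite S] (φ : α → S) (A M0 : ℕ)
    (hM : 0 < M0) (f : List α → Prop)
    (hf : ∀ u u' : List α, A ≤ u.length → A ≤ u'.length → u.take A = u'.take A →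
      u.length % M0 = u'.length % M0 →
      ((u.drop A).map φ).prod = ((u'.drop A).map φ).prod → (f u ↔ f u')) :
    Language.IsRegular ({u | f u} : Language α) := by
  classical
  haveI : NeZero M0 := ⟨by omega⟩
  have hfin : Finite {l : List α // l.length ≤ A} := List.finite_length_le α A
  let σ := {l : List α // l.length ≤ A} × ZMod M0 × S
  haveI : Fintype σ := Fintype.ofFinite σ
  let st : List α → σ := fun u =>
    (⟨u.take A, by rw [List.length_take]; omega⟩, (u.length : ZMod M0), ((u.drop A).map φ).prod)
  let M : DFA α σ :=
    { step := fun q a =>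
        (if h : q.1.1.length < A then ⟨q.1.1 ++ [a], by simp; omega⟩ else q.1,
          q.2.1 + 1, if q.1.1.length < A then q.2.2 else q.2.2 * φ a)
      start := st []
      accept := {q | ∃ u, f u ∧ st u = q} }
  have hev : ∀ u, M.eval u = st u := by
    intro u
    induction u using List.reverseRecOn with
    | nil => rfl
    | append_singleton u a ih =>
      rw [DFA.eval_append_singleton, ih]
      refine Prod.ext ?_ (Prod.ext ?_ ?_)
      · apply Subtype.ext
        show (if h : (u.take A).length < A then (⟨u.take A ++ [a], by simp at h ⊢; omega⟩ :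
          {l : List α // l.length ≤ A}) else ⟨u.take A, by rw [List.length_take]; omega⟩).1
          = (u ++ [a]).take A
        rw [take_snoc]
        split_ifs <;> rfl
      · show (u.length : ZMod M0) + 1 = (((u ++ [a]).length : ℕ) : ZMod M0)
        simp
      · show (if (u.take A).length < A then ((u.drop A).map φ).prod
          else ((u.drop A).map φ).prod * φ a) = (((u ++ [a]).drop A).map φ).prod
        by_cases h : u.length < A
        · have h1 : (u.take A).length < A := by rw [List.length_take]; omega
          rw [if_pos h1, List.drop_of_length_le (by omega),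
            List.drop_of_length_le (by simp; omega)]
        · have h1 : ¬ (u.take A).length < A := by rw [List.length_take]; omega
          rw [if_neg h1, List.drop_append_of_le_length (by omega)]
          simp
  refine Language.isRegular_iff.2 ⟨σ, inferInstance, M, ?_⟩
  ext u
  rw [DFA.mem_accepts, hev]
  constructor
  · rintro ⟨u', h1, h2⟩
    have e1 : u'.take A = u.take A := congrArg (fun q : σ => q.1.1) h2
    have e2 : (u'.length : ZMod M0) = (u.length : ZMod M0) := congrArg (fun q : σ => q.2.1) h2
    have e3 : ((u'.drop A).map φ).prod = ((u.drop A).map φ).prod :=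
      congrArg (fun q : σ => q.2.2) h2
    have e2' : u'.length % M0 = u.length % M0 := (ZMod.natCast_eq_natCast_iff' _ _ _).1 e2
    have e4 := congrArg List.length e1
    rw [List.length_take, List.length_take] at e4
    by_cases h : u.length < A
    · rw [List.take_of_length_le (by omega), List.take_of_length_le (by omega)] at e1
      rw [← e1]; exact h1
    · exact (hf u' u (by omega) (by omega) e1 e2' e3).1 h1
  · intro h
    exact ⟨u, h, rfl⟩

section Noise

variable {α S V : Type} [Monoid S] [AddCommGroup V]

/-- the equivalence of finite-state classes -/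
def Same (φ : α → S) (A M0 : ℕ) (u u' : List α) : Prop :=
  A ≤ u.length ∧ A ≤ u'.length ∧ u.take A = u'.take A ∧ u.length % M0 = u'.length % M0 ∧
    ((u.drop A).map φ).prod = ((u'.drop A).map φ).prod

theorem Same.symm {φ : α → S} {A M0 : ℕ} {u u' : List α} (h : Same φ A M0 u u') :
    Same φ A M0 u' u := ⟨h.2.1, h.1, h.2.2.1.symm, h.2.2.2.1.symm, h.2.2.2.2.symm⟩

/-- dropping `i` letters and shortening the window -/
theorem Same.drop {φ : α → S} {A A' M0 i : ℕ} {u u' : List α} (h : Same φ A M0 u u')
    (hi : i + A' ≤ A) : Same φ A' M0 (u.drop i) (u'.drop i) := by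
  obtain ⟨h1, h2, h3, h4, h5⟩ := h
  refine ⟨by rw [List.length_drop]; omega, by rw [List.length_drop]; omega, ?_, ?_, ?_⟩
  · have e : ∀ w : List α, (w.drop i).take A' = ((w.take A).drop i).take A' := by
      intro w
      rw [List.drop_take, List.take_take, min_eq_left (by omega)]
    rw [e u, e u', h3]
  · rw [List.length_drop, List.length_drop]
    have h6 : u.length - i + i ≡ u'.length - i + i [MOD M0] := by
      have e1 : u.length - i + i = u.length := by omega
      have e2 : u'.length - i + i = u'.length := by omega
      rw [e1, e2]; exact h4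
    exact Nat.ModEq.add_right_cancel' i h6
  · have e : ∀ w : List α, A ≤ w.length → (((w.drop i).drop A').map φ).prod =
        (((w.take A).drop (i + A')).map φ).prod * ((w.drop A).map φ).prod := by
      intro w hw
      rw [← List.prod_append, ← List.map_append]
      congr 2
      rw [List.drop_drop]
      conv_lhs => rw [← List.take_append_drop A w]
      rw [List.drop_append_of_le_length (by rw [List.length_take]; omega)]
    rw [e u h1, e u' h2, h3, h5]

theorem Same.take {φ : α → S} {A M0 i : ℕ} {u u' : List α} (h : Same φ A M0 u u')
    (hi : i ≤ A) : u.take i = u'.take i := by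
  have e : ∀ w : List α, w.take i = (w.take A).take i := by
    intro w
    rw [List.take_take, min_eq_left hi]
  rw [e u, e u', h.2.2.1]

theorem Same.prod {φ : α → S} {A M0 : ℕ} {u u' : List α} (h : Same φ A M0 u u') :
    (u.map φ).prod = (u'.map φ).prod := by
  have e : ∀ w : List α, (w.map φ).prod = ((w.take A).map φ).prod * ((w.drop A).map φ).prod := by
    intro w
    rw [← List.prod_append, ← List.map_append, List.take_append_drop]
  rw [e u, e u', h.2.2.1, h.2.2.2.2]

open Classical in
/-- the noise, set to `0` where it is never used -/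
noncomputable def nuF (lam rho : List α → Option V) (nu : List α → V) (u : List α) : V :=
  if ∃ P Q v b, u = P ++ Q ∧ lam P = some v ∧ rho Q = some b then nu u else 0

theorem nuF_sound {φ : α → S} {act : V → S → V} {lam rho : List α → Option V} {nu : List α → V}
    (hs : ∀ P Q v b, lam P = some v → rho Q = some b →
      b = act v ((P ++ Q).map φ).prod + nu (P ++ Q)) {P Q : List α} {v b : V}
    (h1 : lam P = some v) (h2 : rho Q = some b) :
    b = act v ((P ++ Q).map φ).prod + nuF lam rho nu (P ++ Q) := by
  classical
  unfold nuF
  rw [if_pos ⟨P, Q, v, b, rfl, h1, h2⟩]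
  exact hs P Q v b h1 h2

theorem nuF_same {φ : α → S} {act : V → S → V} {lam rho : List α → Option V} {nu : List α → V}
    {N1 A1 M0 : ℕ} (hlen : ∀ P v, lam P = some v → P.length < N1)
    (hs : ∀ P Q v b, lam P = some v → rho Q = some b →
      b = act v ((P ++ Q).map φ).prod + nu (P ++ Q))
    (hr : ∀ Q Q', Same φ A1 M0 Q Q' → rho Q = rho Q') {u u' : List α}
    (h : Same φ (N1 + A1) M0 u u') : nuF lam rho nu u = nuF lam rho nu u' := by
  classical
  have key : ∀ u u' : List α, Same φ (N1 + A1) M0 u u' →
      (∃ P Q v b, u = P ++ Q ∧ lam P = some v ∧ rho Q = some b) →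
      (∃ P Q v b, u' = P ++ Q ∧ lam P = some v ∧ rho Q = some b) ∧ nu u = nu u' := by
    rintro u u' h ⟨P, Q, v, b, hu, h1, h2⟩
    have hP := hlen P v h1
    have eP : u.take P.length = P := by rw [hu, List.take_left]
    have eQ : u.drop P.length = Q := by rw [hu, List.drop_left]
    have h3 : u'.take P.length = P := by rw [← h.take (by omega), eP]
    have h4 : rho (u'.drop P.length) = some b := by
      rw [← hr _ _ (h.drop (i := P.length) (A' := A1) (by omega)), eQ, h2]
    have hu' : u' = P ++ u'.drop P.length := by
      conv_lhs => rw [← List.take_append_drop P.length u']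
      rw [h3]
    refine ⟨⟨P, _, v, b, hu', h1, h4⟩, ?_⟩
    have e1 := hs P Q v b h1 h2
    have e2 := hs P _ v b h1 h4
    rw [← hu] at e1
    rw [← hu'] at e2
    rw [h.prod] at e1
    have e3 := e1.symm.trans e2
    exact add_left_cancel e3
  unfold nuF
  by_cases h1 : ∃ P Q v b, u = P ++ Q ∧ lam P = some v ∧ rho Q = some b
  · obtain ⟨h2, h3⟩ := key u u' h h1
    rw [if_pos h1, if_pos h2, h3]
  · have h2 : ¬ ∃ P Q v b, u' = P ++ Q ∧ lam P = some v ∧ rho Q = some b :=
      fun h2 => h1 (key u' u h.symm h2).1
    rw [if_neg h1, if_neg h2]

end Noise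

end Crest.Agent.R320.Join_671
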