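import Mathlib
import Crest.Agent.R320.GridClk_7

set_option autoImplicit false

/-! Row 320: the noise of the grid gadget is finite-state. -/

namespace Crest.Agent.R320.Grid7

open Finset

section fs

variable {Γ C : Type} (Gam PM m : ℕ) (lv : Γ → ℕ) (nmL nmR : ℕ → Option Γ)

theorem nR_add (hlv : ∀ g, lv g < m) (hper : Function.Periodic nmR PM) {t : ℕ}
    (ht : Am Gam PM m ≤ t) (k : ℕ) :
    nR Gam PM m lv nmR (t + PM * G Gam m * k) = nR Gam PM m lv nmR t := by
  apply Option.ext
  intro g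
  rw [nR_iff, nR_iff]
  have h1 : nmR (t + PM * G Gam m * k) = nmR t := by
    have h0 := hper.nat_mul (G Gam m * k) t
    rw [Nat.cast_id] at h0
    rw [← h0]
    congr 1
    ring
  have h2 : G Gam (lv g) ∣ t + PM * G Gam m * k ↔ G Gam (lv g) ∣ t := by
    have : G Gam (lv g) ∣ PM * G Gam m * k :=
      Dvd.dvd.mul_right (Dvd.dvd.mul_left (G_dvd Gam (hlv g).le) _) _
    exact (Nat.dvd_add_left this)
  have h3 : ∀ j, j ≤ m → (t + PM * G Gam m * k + A Gam PM (lv g) - Am Gam PM j) % G Gam j =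
      (t + A Gam PM (lv g) - Am Gam PM j) % G Gam j := by
    intro j hj
    obtain ⟨x, hx⟩ : G Gam j ∣ PM * G Gam m * k :=
      Dvd.dvd.mul_right (Dvd.dvd.mul_left (G_dvd Gam hj) _) _
    have hAm := (Am_mono Gam PM hj).trans ht
    rw [hx]
    have : t + G Gam j * x + A Gam PM (lv g) - Am Gam PM j =
        (t + A Gam PM (lv g) - Am Gam PM j) + G Gam j * x := by omega
    rw [this, Nat.add_mul_mod_self_left]
  rw [h1, h2]
  constructor
  · rintro ⟨a, b, c, d⟩
    exact ⟨a, ht, c, fun j h h' => by rw [← h3 j h']; exact d j h h'⟩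
  · rintro ⟨a, b, c, d⟩
    exact ⟨a, by omega, c, fun j h h' => by rw [h3 j h']; exact d j h h'⟩

end fs

section fs2

variable {α S V W : Type} [Monoid S] [AddCommGroup V] [AddCommGroup W] {m : ℕ}
  (e : Fin m → S → W) (F : S → W → V) (act : V → S → V)
  (K : Clk m (Cx.lv (e := e) (F := F) (act := act)) Cx.col) (φ : List α → S)

theorem pc_take (u u' : List α) {a b A1 : ℕ} (hab : a ≤ b) (hb : b ≤ A1)
    (h : u.take A1 = u'.take A1) : pc u a b = pc u' a b := by
  have key : ∀ w : List α, pc w a b = pc (w.take A1) a b := by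
    intro w
    unfold pc
    rw [List.drop_take, List.take_take, min_eq_left (by omega)]
  rw [key u, key u', h]

/-- abstract finite-state property of the clocks -/
structure Fs (A1 L : ℕ) : Prop where
  hN : K.N ≤ A1
  beta_le : ∀ n, A1 ≤ n → ∀ l ≤ m, K.beta n l ≤ A1
  beta_per : ∀ n k, A1 ≤ n → ∀ l ≤ m, K.beta (n + L * k) l = K.beta n l
  gd_per : ∀ n k, K.Gd (n + L * k) ↔ K.Gd n
  left : ∀ t g, K.nmL t = some g → t + K.N ≤ A1
  right : ∀ t k, K.N ≤ t → K.nmR (t + L * k) = K.nmR t

theorem seen_add {A1 L : ℕ} (h : Fs e F act K A1 L) {n : ℕ} (hn : A1 ≤ n) (k : ℕ) :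
    seen e F act K (n + L * k) = seen e F act K n := by
  ext x
  constructor
  · rintro ⟨t, t', g, g', h1, h2, h3, h4⟩
    have h5 := h.left _ _ h2
    refine ⟨t, n - t, g, g', by omega, h2, ?_, h4⟩
    rw [← h.right (n - t) k (by omega), ← h3]
    congr 1
    omega
  · rintro ⟨t, t', g, g', h1, h2, h3, h4⟩
    have h5 := h.left _ _ h2
    refine ⟨t, t' + L * k, g, g', by omega, h2, ?_, h4⟩
    rw [h.right t' k (by omega), ← h3]

theorem nu_add {A1 L : ℕ} (h : Fs e F act K A1 L) (u u' : List α) (k : ℕ)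
    (hu : A1 ≤ u.length) (hk : u'.length = u.length + L * k)
    (ht : u.take A1 = u'.take A1) (hp : φ u = φ u') :
    nu e F act K 1 φ u = nu e F act K 1 φ u' := by
  classical
  unfold nu
  have e1 : (u'.length / 1) = u.length + L * k := by rw [Nat.div_one, hk]
  have e2 : u.length / 1 = u.length := Nat.div_one _
  have hw : wt e F act K 1 φ u = wt e F act K 1 φ u' := by
    unfold wt
    rw [e1, e2]
    apply Finset.sum_congr rfl
    intro l _
    have hl : (l : ℕ) < m := l.2
    rw [h.beta_per _ _ hu _ (by omega), h.beta_per _ _ hu _ (by omega)]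
    congr 2
    have hm := K.beta_mono u.length (h.hN.trans hu) l hl
    exact pc_take u u' (by omega) (by have := h.beta_le _ hu (l + 1) hl; omega) ht
  rw [hw, hp, e1, e2]
  have hg := h.gd_per u.length k
  have hs := seen_add e F act K h hu k
  by_cases hG : K.Gd u.length
  · rw [if_pos hG, if_pos (hg.2 hG)]
  · rw [if_neg hG, if_neg (fun h' => hG (hg.1 h'))]
    have key : ∀ s s' : Set (V × V), s = s' →
        (if h : s.Nonempty then h.some.2 - act h.some.1 (φ u') else 0) =
        (if h : s'.Nonempty then h.some.2 - act h.some.1 (φ u') else 0) := by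
      rintro s _ rfl; rfl
    exact key _ _ hs.symm

theorem nu_fs {A1 L : ℕ} (h : Fs e F act K A1 L) (u u' : List α)
    (hu : A1 ≤ u.length) (hu' : A1 ≤ u'.length) (hk : u.length % L = u'.length % L)
    (ht : u.take A1 = u'.take A1) (hp : φ u = φ u') :
    nu e F act K 1 φ u = nu e F act K 1 φ u' := by
  rcases le_total u.length u'.length with hle | hle
  · have : L ∣ u'.length - u.length := (Nat.modEq_iff_dvd' hle).1 hk
    obtain ⟨k, hk'⟩ := this
    exact nu_add e F act K φ h u u' k hu (by omega) ht hp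
  · have : L ∣ u.length - u'.length := (Nat.modEq_iff_dvd' hle).1 hk.symm
    obtain ⟨k, hk'⟩ := this
    exact (nu_add e F act K φ h u' u k hu' (by omega) ht.symm hp.symm).symm

end fs2

section inst

variable {S V W : Type} [Monoid S] [AddCommGroup V] [AddCommGroup W] {m : ℕ}
  (e : Fin m → S → W) (F : S → W → V) (act : V → S → V)
  (Gam PM : ℕ) (Ms : Finset ℕ) (nmL nmR : ℕ → Option (Cx e F act))

theorem gridClk_fs (hGam : 0 < Gam) (hPM : PM = ∏ k ∈ Ms, k) (hPM0 : 0 < PM)
    (hcop : Nat.Coprime PM Gam)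
    (hlv : ∀ g : Cx e F act, g.lv < m)
    (h1 : ∀ t, nmL (t + ∏ k ∈ Ms, k) = nmL t) (h2 : ∀ t, nmR (t + ∏ k ∈ Ms, k) = nmR t) (h3) (h4)
    (h5) :
    Fs e F act (gridClk Gam PM m (Cx.lv (e := e) (F := F) (act := act)) Cx.col Ms nmL nmR hGam hPM
      hPM0 hcop hlv h1 h2 h3 h4 h5) (2 * Am Gam PM m + G Gam m) (PM * G Gam m) where
  hN := by
    show Am Gam PM m ≤ _
    omega
  beta_le := by
    intro n hn l hl
    show Am Gam PM l + (n - Am Gam PM l) % G Gam l ≤ _
    have h1 := Nat.mod_lt (n - Am Gam PM l) (G_pos Gam hGam l)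
    have h2 := Am_mono Gam PM hl
    have h3 : G Gam l ≤ G Gam m := Nat.le_of_dvd (G_pos Gam hGam m) (G_dvd Gam hl)
    omega
  beta_per := by
    intro n k hn l hl
    show Am Gam PM l + (n + PM * G Gam m * k - Am Gam PM l) % G Gam l =
      Am Gam PM l + (n - Am Gam PM l) % G Gam l
    obtain ⟨x, hx⟩ : G Gam l ∣ PM * G Gam m * k :=
      Dvd.dvd.mul_right (Dvd.dvd.mul_left (G_dvd Gam hl) _) _
    have hAm := (Am_mono Gam PM hl)
    have h3 : n + PM * G Gam m * k - Am Gam PM l = n - Am Gam PM l + G Gam l * x := by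
      rw [hx]; omega
    rw [h3, Nat.add_mul_mod_self_left]
  gd_per := by
    intro n k
    show (∀ q ∈ Ms, ¬ q ∣ n + PM * G Gam m * k) ↔ (∀ q ∈ Ms, ¬ q ∣ n)
    refine forall₂_congr fun q hq => ?_
    have hd : q ∣ PM * G Gam m * k := by
      rw [hPM]
      exact Dvd.dvd.mul_right (Dvd.dvd.mul_right (Finset.dvd_prod_of_mem _ hq) _) _
    rw [Nat.dvd_add_left hd]
  left := by
    intro t g h
    have h' : nL Gam PM _ nmL t = some g := h
    rw [nL_iff] at h'
    have h1 : t < Am Gam PM m := h'.2.2.trans_le (Am_mono Gam PM (hlv g))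
    show t + Am Gam PM m ≤ _
    omega
  right := by
    intro t k ht
    exact nR_add Gam PM m _ nmR hlv (fun x => by rw [hPM]; exact h2 x) ht k

end inst

end Crest.Agent.R320.Grid7
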