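import Crest.Agent.R320.Sc2n_937
import Crest.Agent.R320.P4_933
import Crest.Agent.R320.Reg_236

/-! Row 320: the height one families of the join. -/

set_option autoImplicit false

namespace Crest.Agent.R320.Join_432

open Crest.RegLang Crest.Agent.R320.Hk_851 Crest.Agent.R320.BddReg_746
open Crest.Agent.R320.Sc2n_937 Crest.Agent.R320.P4_933

universe u

variable {α : Type u}

theorem reg_zero : (0 : Language α).IsRegular := Crest.Agent.R320.Reg_236.isRegular_zero

theorem reg_congr {L M : Language α} (h : M.IsRegular) (e : ∀ w, w ∈ L ↔ w ∈ M) :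
    L.IsRegular := by
  have : L = M := by ext w; exact e w
  rw [this]; exact h

theorem reg_biUnion {ι : Type*} {s : Set ι} (hs : s.Finite) (L : ι → Language α)
    (h : ∀ i ∈ s, (L i).IsRegular) :
    Language.IsRegular ({w | ∃ i ∈ s, w ∈ L i} : Language α) := by
  induction s, hs using Set.Finite.induction_on with
  | empty =>
    refine reg_congr reg_zero fun w => ?_
    constructor
    · rintro ⟨i, hi, -⟩; exact absurd hi (Set.notMem_empty i)
    · intro h; exact absurd h (Language.notMem_zero w)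
  | @insert a s ha hs ih =>
    have h1 := ih fun i hi => h i (Set.mem_insert_of_mem _ hi)
    have h2 := h a (Set.mem_insert _ _)
    refine reg_congr (h2.add h1) fun w => ?_
    constructor
    · rintro ⟨i, hi, hw⟩
      rcases Set.mem_insert_iff.1 hi with rfl | hi
      · exact Or.inl hw
      · exact Or.inr ⟨i, hi, hw⟩
    · rintro (hw | ⟨i, hi, hw⟩)
      · exact ⟨a, Set.mem_insert _ _, hw⟩
      · exact ⟨i, Set.mem_insert_of_mem _ hi, hw⟩

/-- fibre of a prefix -/
def PF (f : List α → List α → Prop) (X1 : List α) : Language α := {Y | f X1 Y}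

theorem reg_drop [Finite α] (p : ℕ) (f : List α → List α → Prop)
    (hf : ∀ X1 : List α, X1.length = p → (PF f X1).IsRegular) :
    Language.IsRegular ({X | p ≤ X.length ∧ f (X.take p) (X.drop p)} : Language α) := by
  have hfin : {X1 : List α | X1.length = p}.Finite := List.finite_length_eq α p
  have hw : ∀ X1 : List α, ({X1} : Language α).IsRegular := fun X1 =>
    Crest.Agent.R320.Reg_236.HL.isRegular (HL.word (k := 0) X1)
  have h := reg_biUnion hfin (fun X1 => ({X1} : Language α) * PF f X1)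
    (fun X1 hX1 => Crest.Agent.R320.Reg_236.isRegular_mul (hw X1) (hf X1 hX1))
  refine reg_congr h fun w => ?_
  constructor
  · rintro ⟨h1, h2⟩
    refine ⟨w.take p, by show (w.take p).length = p; rw [List.length_take]; omega, ?_⟩
    exact Language.mem_mul.2 ⟨w.take p, rfl, w.drop p, h2, List.take_append_drop p w⟩
  · rintro ⟨X1, hX1, hw⟩
    obtain ⟨a, ha, b, hb, rfl⟩ := Language.mem_mul.1 hw
    have ha' : a = X1 := ha
    subst ha'
    have hl : a.length = p := hX1
    refine ⟨by rw [List.length_append]; omega, ?_⟩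
    show f ((a ++ b).take p) ((a ++ b).drop p)
    rw [← hl, List.take_left, List.drop_left]
    exact hb

theorem free_of {Wo : List α → Prop} {B W : ℕ}
    (hfree : ∀ X : List α, (∀ t < X.length, ¬ Wo (X.take t)) →
        ∃ (u x v : List α) (k : ℕ), u.length ≤ B ∧ x.length ≤ W ∧ v.length ≤ B ∧
          X = u ++ (List.replicate k x).flatten ++ v) :
    ∀ u : List α, (∀ t < u.length, ¬ Wo (u.take t)) → u ∈ (PN (max B W) 2 : Language α) := by
  intro X hX
  obtain ⟨u, x, v, k, h1, h2, h3, rfl⟩ := hfree X hX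
  refine Language.mem_mul.2 ⟨u ++ (List.replicate k x).flatten,
    ⟨u, x, k, h1.trans (le_max_left _ _), h2.trans (le_max_right _ _), rfl⟩, v, ?_, rfl⟩
  refine Language.mem_mul.2 ⟨v, ⟨v, [], 0, h3.trans (le_max_left _ _), by simp, by simp [pw]⟩,
    [], rfl, by simp⟩

theorem xx_iff (g : Geo α) (X : List α) : g.XX X ↔ XX g.Wo g.z X := by
  constructor
  · rintro ⟨h1, h2, h3⟩
    exact ⟨h2, h1, fun t ht hz => h3 t hz ht⟩
  · rintro ⟨h1, h2, h3⟩
    exact ⟨h2, h1, fun t hz ht => h3 t ht hz⟩

/-- the band is seen in a bounded prefix -/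
theorem E_congr (g : Geo α) {X X' : List α} (h1 : g.z + g.N1 ≤ X.length)
    (h2 : g.z + g.N1 ≤ X'.length) (h : X.take (g.z + g.N1) = X'.take (g.z + g.N1)) :
    g.E X → g.E X' := by
  rintro ⟨t, -, h4, h5, h6⟩
  refine ⟨t, by omega, ?_, h5, h6⟩
  have e : ∀ Y : List α, Y.take t = (Y.take (g.z + g.N1)).take t := by
    intro Y; rw [List.take_take, Nat.min_eq_left (by omega)]
  rw [e X', ← h, ← e X]; exact h4

theorem reg_bad [Finite α] (g : Geo α) (BadT : ℕ → Prop) (T0 M0 : ℕ) (hM0 : 0 < M0)
    (hT0 : T0 ≤ g.z + g.N1 - g.p0)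
    (hper : ∀ T T', T0 ≤ T → T0 ≤ T' → T % M0 = T' % M0 → (BadT T → BadT T')) :
    Language.IsRegular ({X | g.BadX BadT X} : Language α) := by
  refine regular_of_class (S := Unit) (fun _ => ()) (g.z + g.N1) M0 hM0
    (fun X => g.BadX BadT X) ?_
  have hz := g.hz
  have key : ∀ X X' : List α, g.z + g.N1 ≤ X.length → g.z + g.N1 ≤ X'.length →
      X.take (g.z + g.N1) = X'.take (g.z + g.N1) → X.length % M0 = X'.length % M0 →
      g.BadX BadT X → g.BadX BadT X' := by
    intro X X' h1 h2 h3 h4 h5
    rcases h5 with h5 | h5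
    · exact Or.inl (E_congr g h1 h2 h3 h5)
    · right
      refine hper _ _ (by omega) (by omega) ?_ h5
      have h6 : X.length ≡ X'.length [MOD M0] := h4
      have h7 : (X.length - g.p0) + g.p0 ≡ (X'.length - g.p0) + g.p0 [MOD M0] := by
        rw [Nat.sub_add_cancel (by omega), Nat.sub_add_cancel (by omega)]; exact h6
      exact Nat.ModEq.add_right_cancel' _ h7
  intro X X' h1 h2 h3 h4 _
  exact ⟨key X X' h1 h2 h3 h4, key X' X h2 h1 h3.symm h4.symm⟩

end Crest.Agent.R320.Join_432
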