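import Crest.Agent.R320.Join3_484
import Crest.Agent.R320.Grid_390
import Crest.Agent.R320.GridRuler_692
import Crest.Agent.R320.ExactR_237

/-!
# Row 320: join of the landed pieces, part 2: the constants (helper484)
-/

set_option autoImplicit false
set_option maxHeartbeats 1000000

namespace Crest.Agent.R320.Join2_484

open Crest.RegLang Crest.Agent.R320.Hk_851 Finset
open Crest.Agent.R320.Grid_390 (G Am G_pos G_dvd Am_mono)

theorem G_sum (M κ K j : ℕ) (hM : 0 < M) (hκ : κ = K + 6 + M) :
    16 * 2 ^ K * (∑ i ∈ range (j + 1), M * G κ i) < G κ (j + 1) := by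
  have h2 : M < 2 ^ M := Nat.lt_two_pow_self
  have key : ∀ j, ∑ i ∈ range (j + 1), M * G κ i ≤ 2 * M * G κ j := by
    intro j
    induction j with
    | zero => simp [G]; omega
    | succ j ih =>
      rw [sum_range_succ]
      have h3 : 2 * G κ j ≤ G κ (j + 1) := by
        unfold G
        rw [Nat.mul_succ, pow_add]
        have : 2 ^ 1 ≤ 2 ^ κ := Nat.pow_le_pow_right (by norm_num) (by omega)
        nlinarith [Nat.pow_pos (n := κ * j) (show 0 < 2 by norm_num)]
      have h4 : M * (2 * G κ j) ≤ M * G κ (j + 1) := Nat.mul_le_mul_left _ h3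
      have h5 : 2 * M * G κ j = M * (2 * G κ j) := by ring
      have h6 : 2 * M * G κ (j + 1) = M * G κ (j + 1) + M * G κ (j + 1) := by ring
      omega
  have h7 : G κ (j + 1) = 2 ^ κ * G κ j := by
    unfold G
    rw [Nat.mul_succ, pow_add, Nat.mul_comm]
  have h8 : 32 * 2 ^ K * M < 2 ^ κ := by
    rw [hκ, pow_add, pow_add]
    have h9 : 0 < 2 ^ K := by positivity
    nlinarith
  have hG : 0 < G κ j := G_pos j
  calc 16 * 2 ^ K * (∑ i ∈ range (j + 1), M * G κ i) ≤ 16 * 2 ^ K * (2 * M * G κ j) :=
        Nat.mul_le_mul_left _ (key j)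
    _ = (32 * 2 ^ K * M) * G κ j := by ring
    _ < 2 ^ κ * G κ j := Nat.mul_lt_mul_of_pos_right h8 hG
    _ = G κ (j + 1) := h7.symm

theorem fibre (α : Type) [Finite α] (S : Type) [Monoid S] [Finite S] (f : α → S) (s : S) :
    HL 3 ({w | (w.map f).prod = s} : Language α) := by
  classical
  haveI := Fintype.ofFinite S
  let act : (S → ZMod 2) → S → (S → ZMod 2) := fun v s t => v (s * t)
  have hadd : ∀ a b s, act (a + b) s = act a s + act b s := fun a b s => rfl
  have hone : ∀ v, act v 1 = v := fun v => by funext t; show v (1 * t) = v t; rw [one_mul]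
  have hmul : ∀ v s t, act (act v s) t = act v (s * t) := fun v s t => by
    funext r
    show v (s * (t * r)) = v (s * t * r)
    rw [mul_assoc]
  have hfaith : ∀ s t, (∀ v, act v s = act v t) → s = t := by
    intro s t h
    have h1 := congrFun (h (fun r => if r = s then 1 else 0)) 1
    have h2 : (if s * 1 = s then (1 : ZMod 2) else 0) = (if t * 1 = s then 1 else 0) := h1
    rw [mul_one, mul_one, if_pos rfl] at h2
    by_contra hne
    rw [if_neg (fun h => hne h.symm)] at h2
    exact absurd h2 (by decide)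
  obtain ⟨k, m, HG⟩ := Crest.Agent.R320.Grid_390.grid_gadget S (S → ZMod 2) act
  obtain ⟨K, HE⟩ := ExactR_237.exact_gadget α S (S → ZMod 2) f act (2 * (k + m) + 2)
  let q : Fin k → ℕ := fun j => Nat.nth Nat.Prime (4 * 2 ^ K + 2 + j)
  have hqp : ∀ j, (q j).Prime := fun j => Nat.prime_nth_prime _
  have hmono : StrictMono (Nat.nth Nat.Prime) := Nat.nth_strictMono Nat.infinite_setOf_prime
  have hqinj : Function.Injective q := by
    intro i j h
    have := hmono.injective h
    exact Fin.ext (by omega)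
  have hqlt : ∀ j, 4 * 2 ^ K + 2 ≤ q j := by
    intro j
    have := hmono.le_apply (x := 4 * 2 ^ K + 2 + (j : ℕ))
    show _ ≤ Nat.nth Nat.Prime _
    omega
  have hodd : ∀ j, Odd (q j) := fun j => (hqp j).odd_of_ne_two (by
    have := hqlt j
    have h9 : 0 < 2 ^ K := by positivity
    omega)
  have hcop : Pairwise (fun i j => Nat.Coprime (q i) (q j)) := fun i j hij =>
    (Nat.coprime_primes (hqp i) (hqp j)).2 (fun h => hij (hqinj h))
  obtain ⟨M, hMdef⟩ : ∃ M, M = ∏ j, q j := ⟨_, rfl⟩
  have hM : 0 < M := by rw [hMdef]; exact Finset.prod_pos (fun j _ => (hqp j).pos)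
  have hMdvd : ∀ j, q j ∣ M := fun j => by rw [hMdef]; exact Finset.dvd_prod_of_mem q (mem_univ j)
  have hModd : Odd M := by
    rw [hMdef]
    exact Finset.prod_induction q Odd (fun a b ha hb => ha.mul hb) odd_one (fun j _ => hodd j)
  obtain ⟨κ, hκ⟩ : ∃ κ, κ = K + 6 + M := ⟨_, rfl⟩
  let φ : List α → S := fun w => (w.map f).prod
  have hφ : ∀ u v, φ (u ++ v) = φ u * φ v := fun u v => by
    show ((u ++ v).map f).prod = _
    rw [List.map_append, List.prod_append]
  obtain ⟨lam, rho, nu, g1, g2, g3, g4, g5⟩ := HG q hodd hcop κ α φ hφ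
  rw [← hMdef] at g1 g2 g4 g5
  obtain ⟨N, hN⟩ : ∃ N, N = Am M κ (m + 1) := ⟨_, rfl⟩
  obtain ⟨x, x1, x2, x3⟩ := GridRuler_692.grid_ruler K M m (G κ) (fun i => M * G κ i) (Am M κ)
    (univ.image q)
    (by
      intro a ha
      rw [mem_image] at ha
      obtain ⟨j, _, rfl⟩ := ha
      have := hqlt j
      exact ⟨hMdvd j, by omega⟩)
    (by
      unfold G
      exact Nat.Coprime.pow_right _ (Nat.coprime_two_right.2 hModd))
    hM (G_pos m) (fun i j hij _ => G_dvd hij) (fun i => dvd_mul_left _ _)
    (fun i => Nat.mul_pos hM (G_pos i)) (fun j _ => G_sum M κ K j hM hκ) N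
  have hcard : (univ.image q).card ≤ k := by
    refine le_trans card_image_le ?_
    simp
  obtain ⟨lam2, rho2, nu2, e1, e2⟩ := HE x (fun i j h _ => x1 i j h)
  have hxle : ∀ a < K, x a ≤ x K := fun a ha => (x1 a K ha).le
  obtain ⟨W, hW⟩ : ∃ W, W = 2 * x K + 2 * N := ⟨_, rfl⟩
  obtain ⟨n, c', P', Sw, hn, -, w1, w2, -, -, w3⟩ := WallU_228.walls_full (α := α) W
  obtain ⟨T0, hT0⟩ : ∃ T0, T0 = x K + 2 * N := ⟨_, rfl⟩
  let Bad : ℕ → Prop := fun T =>
    GridRuler_692.BadZ (univ.image q) m (G κ) (fun i => M * G κ i) (Am M κ) (T : ℤ)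
  let D : Inst_484.Dat α S (S → ZMod 2) :=
    { φ := φ, act := act, Wl := WallU_228.Wo n Sw, n := n, W := W, z := 2 * x K + N + n + T0 + 1,
      p0 := x K, N := N, T0 := T0, K := K, C0 := k + m, c := x, Bad := Bad, lam := lam, rho := rho,
      nu1 := nu, lam2 := lam2, rho2 := fun a Q => rho2 a Q 1, nu2 := fun u => nu2 u 1 }
  have H : Inst_484.Ok D := by
    refine ⟨hφ, hmul, hadd, w1, fun Q h => h.1, ?_, hn, le_refl _, ?_, hxle, ?_, ?_, ?_, ?_, ?_, ?_, ?_⟩
    · -- gap
      intro w t t' h1 h2 h3 h4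
      by_contra hc
      have hc' : t' ≤ t + W := by
        have : ¬ t + W < t' := hc
        omega
      have h5 := w2 (w.take t') (t' - t) h4 (by omega) (by omega)
      rw [List.length_take, min_eq_left h2, List.take_take, min_eq_left (by omega),
        show t' - (t' - t) = t by omega] at h5
      exact h5 h3
    · show 2 * x K + 2 * N ≤ W
      omega
    · -- spaced
      intro a ha b hb a' ha' b' hb' hab hab' h
      exact x2 a b a' b' ha hb ha' hb' hab (by
        have h' : |((x a : ℤ) - x b) - ((x a' : ℤ) - x b')| < 2 * N := h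
        exact h'.le)
    · -- count
      intro T hT
      have hT' : T0 ≤ T := hT
      have h := x3 (T : ℤ) (((range K ×ˢ range K).filter
        (fun ab => ab.1 ≠ ab.2 ∧ Bad (T + x ab.1 - x ab.2))).image Prod.swap) (by
          intro p hp
          rw [mem_image] at hp
          obtain ⟨⟨a, b⟩, hab, rfl⟩ := hp
          rw [mem_filter, mem_product, mem_range, mem_range] at hab
          obtain ⟨⟨ha, hb⟩, hne, hbad⟩ := hab
          refine ⟨hb, ha, fun h => hne h.symm, ?_⟩
          have hbx := hxle b hb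
          have e : ((T + x a - x b : ℕ) : ℤ) = (T : ℤ) - ((x b : ℤ) - x a) := by
            have : x b ≤ T + x a := by omega
            push_cast [Nat.cast_sub this]
            ring
          have hbad' : GridRuler_692.BadZ (univ.image q) m (G κ) (fun i => M * G κ i) (Am M κ)
            ((T + x a - x b : ℕ) : ℤ) := hbad
          rw [e] at hbad'
          exact hbad')
      rw [card_image_of_injective _ Prod.swap_injective] at h
      exact h.trans (by
        show (univ.image q).card + m ≤ k + m
        omega)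
    · -- lamlt
      intro P v h
      have h1 := (g1 P v h).1
      have h2 : Am M κ m ≤ Am M κ (m + 1) := Am_mono (Nat.le_succ m)
      show P.length < N
      omega
    · exact g3
    · -- comp1
      intro u hu hb v
      have hu' : T0 ≤ u.length := hu
      have hb' : ¬ GridRuler_692.BadZ (univ.image q) m (G κ) (fun i => M * G κ i) (Am M κ)
        (u.length : ℤ) := hb
      unfold GridRuler_692.BadZ at hb'
      push Not at hb'
      obtain ⟨b1, b2⟩ := hb'
      refine g4 u (by omega) ?_ ?_ v
      · intro j hj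
        exact b1 (q j) (mem_image_of_mem q (mem_univ j)) (by exact_mod_cast hj)
      · intro j hj1 hj2
        obtain ⟨b3, b4⟩ := b2 (j - 1) (by omega)
        rw [show j - 1 + 1 = j by omega] at b3 b4
        have hAm : Am M κ j ≤ u.length := by
          have := Am_mono (Ms := M) (κ := κ) (show j ≤ m + 1 by omega)
          omega
        have e : ((u.length : ℤ) - Am M κ j) % (G κ j : ℤ) =
            (((u.length - Am M κ j) % G κ j : ℕ) : ℤ) := by
          rw [← Nat.cast_sub hAm, Int.natCast_mod]
        rw [e] at b3 b4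
        constructor
        · exact_mod_cast b3
        · have b5 : (((u.length - Am M κ j) % G κ j : ℕ) : ℤ) + ((M * G κ (j - 1) : ℕ) : ℤ) <
            ((G κ j : ℕ) : ℤ) := by linarith
          have b6 : (u.length - Am M κ j) % G κ j + M * G κ (j - 1) < G κ j := by exact_mod_cast b5
          exact b6.le
    · -- sound2
      intro a ha P Q v b hP h1 h2
      have := e1 a ha P Q 1 v b hP h1 h2
      rw [mul_one] at this
      exact this
    · -- comp2
      intro u v h
      exact e2 u 1 v h
  refine Join3_484.row_of_ok f H rfl hone hfaith Sw rfl w3 (Am M κ (m + 1)) (M * G κ m)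
    (Nat.mul_pos hM (G_pos m)) ?_ ?_ s
  · intro u u' h1 h2 h3 h4 h5
    exact (g5 u u' h1 h2 h3 h5 h4).2
  · intro a a' _ _ haa
    have hd : ((M * G κ m : ℕ) : ℤ) ∣ (a' : ℤ) - a := (Nat.modEq_iff_dvd.1 haa)
    have key : ∀ b b' : ℤ, ((M * G κ m : ℕ) : ℤ) ∣ b' - b →
        GridRuler_692.BadZ (univ.image q) m (G κ) (fun i => M * G κ i) (Am M κ) b →
        GridRuler_692.BadZ (univ.image q) m (G κ) (fun i => M * G κ i) (Am M κ) b' := by
      intro b b' hbb h
      rcases h with ⟨r, hr, h⟩ | ⟨j, hj, h⟩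
      · left
        refine ⟨r, hr, ?_⟩
        rw [mem_image] at hr
        obtain ⟨j, _, rfl⟩ := hr
        have h1 : ((q j : ℕ) : ℤ) ∣ ((M * G κ m : ℕ) : ℤ) :=
          Int.natCast_dvd_natCast.2 ((hMdvd j).trans (dvd_mul_right _ _))
        have h2 := dvd_add (h1.trans hbb) h
        rwa [sub_add_cancel] at h2
      · right
        refine ⟨j, hj, ?_⟩
        have h1 : ((G κ (j + 1) : ℕ) : ℤ) ∣ ((M * G κ m : ℕ) : ℤ) :=
          Int.natCast_dvd_natCast.2 ((G_dvd (show j + 1 ≤ m by omega)).trans (dvd_mul_left _ _))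
        have h2 : (b' - Am M κ (j + 1)) % (G κ (j + 1) : ℤ) = (b - Am M κ (j + 1)) % (G κ (j + 1) : ℤ) := by
          apply Int.ModEq.symm
          rw [Int.modEq_iff_dvd]
          have h3 := h1.trans hbb
          have e : b' - (Am M κ (j + 1) : ℤ) - (b - Am M κ (j + 1)) = b' - b := by ring
          rw [e]
          exact h3
        rw [h2]
        exact h
    constructor
    · exact key _ _ hd
    · exact key _ _ (by
        have := dvd_neg.2 hd
        rwa [neg_sub] at this)

end Crest.Agent.R320.Join2_484
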