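import Crest.Agent.R320.Join1_671
import Crest.Agent.R320.Sc2n_937

/-! # Row 320, join (helper671): `hcc1`, `hcc2` of 120's `top5` from 937's two schemes -/

set_option autoImplicit false

namespace Crest.Agent.R320.Join_671

open Crest.Agent.R320.Sc2n_937

variable {α S V : Type} [Monoid S] [AddCommGroup V]

/-- map of the first part of a block -/
def pre (act : V → S → V) (f : α → S) (nu2 : List α → V) (X : List α) (v : V) : V :=
  act v (X.map f).prod + nu2 X

/-- map of the rest -/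
def post (act : V → S → V) (f : α → S) (nu1 : List α → V) (u : V) (Y : List α) : V :=
  act u (Y.map f).prod + nu1 Y

/-- the noise of a block -/
def nuT (act : V → S → V) (f : α → S) (nu1 nu2 : List α → V) (p0 : ℕ) (X : List α) : V :=
  act (nu2 (X.take p0)) ((X.drop p0).map f).prod + nu1 (X.drop p0)

variable (act : V → S → V) (f : α → S) (nu1 nu2 : List α → V) (g : Geo α)

theorem T_eq (hadd : ∀ a b s, act (a + b) s = act a s + act b s)
    (hmul : ∀ v s t, act v (s * t) = act (act v s) t) (v : V) (X : List α) :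
    g.T (pre act f nu2) (post act f nu1) v X =
      act v (X.map f).prod + nuT act f nu1 nu2 g.p0 X := by
  have e : (X.map f).prod = ((X.take g.p0).map f).prod * ((X.drop g.p0).map f).prod := by
    rw [← List.prod_append, ← List.map_append, List.take_append_drop]
  unfold Geo.T pre post nuT
  rw [hadd, e, hmul, add_assoc]

theorem cc1 (hadd : ∀ a b s, act (a + b) s = act a s + act b s)
    (hmul : ∀ v s t, act v (s * t) = act (act v s) t) {lam rho : List α → Option V}
    {BadT : ℕ → Prop}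
    (hlen : ∀ P v, lam P = some v → P.length ≤ g.N1)
    (hex : ∀ P Q u b, lam P = some u → rho Q = some b → b = post act f nu1 u (P ++ Q))
    (hc : ∀ u : List α, g.z ≤ u.length + g.p0 → ¬ BadT u.length → ∀ v : V, ∃ P Q, u = P ++ Q ∧
      lam P = some v ∧ (rho Q).isSome)
    {X : List α} (hX : g.XX X) (hB : ¬ g.BadX BadT X) (v : V) :
    ∃ P Q, P ++ Q = X ∧ g.LP1 (pre act f nu2) lam v P ∧
      ∀ x, ∀ P', g.LP1 (pre act f nu2) lam x P' → g.XX (P' ++ Q) ∧
        act x ((P' ++ Q).map f).prod + nuT act f nu1 nu2 g.p0 (P' ++ Q) =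
          act v (X.map f).prod + nuT act f nu1 nu2 g.p0 X := by
  unfold Geo.BadX at hB
  push Not at hB
  have hz := g.hz
  have hXz := hX.1
  obtain ⟨P, Q, b, hPQ, hP, hQ⟩ := g.complete1 (pre act f nu2) hlen hX hB.1
    (fun u => hc (X.drop g.p0) (by rw [List.length_drop]; omega)
      (by rw [List.length_drop]; exact hB.2) u) v
  refine ⟨P, Q, hPQ.symm, hP, fun x P' hP' => ?_⟩
  obtain ⟨h1, h2⟩ := g.sound1 (pre act f nu2) (post act f nu1) hlen hex hP' hQ
  obtain ⟨h3, h4⟩ := g.sound1 (pre act f nu2) (post act f nu1) hlen hex hP hQ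
  rw [T_eq act f nu1 nu2 g hadd hmul] at h2 h4
  rw [← hPQ] at h4
  exact ⟨h1, h2.trans h4.symm⟩

theorem exists_block {w : List α} (hw : g.Wo w) (hl : g.z ≤ w.length) :
    ∃ X, g.XX X ∧ X <+: w := by
  classical
  have hex : ∃ t, g.z ≤ t ∧ t ≤ w.length ∧ g.Wo (w.take t) :=
    ⟨w.length, hl, le_rfl, by rw [List.take_length]; exact hw⟩
  obtain ⟨h1, h2, h3⟩ := Nat.find_spec hex
  refine ⟨w.take (Nat.find hex), ⟨?_, h3, ?_⟩, List.take_prefix _ _⟩
  · rw [List.length_take]; omega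
  · intro t ht htl hW
    rw [List.length_take] at htl
    rw [List.take_take, min_eq_left (by omega)] at hW
    exact Nat.find_min hex (m := t) (by omega) ⟨ht, by omega, hW⟩

theorem cc2 (hadd : ∀ a b s, act (a + b) s = act a s + act b s)
    (hmul : ∀ v s t, act v (s * t) = act (act v s) t)
    {BadT : ℕ → Prop} {K : ℕ} {c : ℕ → ℕ} {lam2 rho2 : ℕ → List α → Option V} {C0 : ℕ}
    (hc : ∀ k, k < K → c k ≤ g.p0)
    (hex : ∀ k, k < K → ∀ P Q v u, P.length = c k → Q.length = g.p0 - c k →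
      lam2 k P = some v → rho2 k Q = some u → u = pre act f nu2 (P ++ Q) v)
    (hgap : ∀ P Q : List α, g.Wo P → g.Wo (P ++ Q) → Q ≠ [] → 2 * g.p0 + 2 * g.N1 < Q.length)
    (hsp : ∀ k k' l l', k < K → k' < K → l < K → l' < K → k' ≠ k → l' ≠ l →
      c k + c l' < c l + c k' + 2 * g.N1 → c l + c k' < c k + c l' + 2 * g.N1 → k = l)
    (hthin : ∀ τ, g.z ≤ τ + g.p0 → ∀ J : Finset ℕ, (∀ k ∈ J, k < K ∧
      ∃ k', k' < K ∧ k' ≠ k ∧ BadT (τ + c k' - c k - g.p0)) → J.card ≤ C0)
    {X Y : List α} (hX : g.XX X) (hXB : g.BadX BadT X) (hY : g.XX Y) (v : V)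
    (hI : ∃ I : Finset ℕ, 2 * C0 + 2 ≤ I.card ∧ ∀ k ∈ I, k < K ∧
      lam2 k (X.take (c k)) = some v ∧ (rho2 k ((X.take g.p0).drop (c k))).isSome) :
    ∃ P Q, P ++ Q = X ++ Y ∧ Geo.LP2 K c lam2 v P ∧
      ∀ x, ∀ P', Geo.LP2 K c lam2 x P' →
        (∃ X', (g.XX X' ∧ g.BadX BadT X') ∧ ∃ Y', g.XX Y' ∧ X' ++ Y' = P' ++ Q ∧
          act (act x (X'.map f).prod + nuT act f nu1 nu2 g.p0 X') (Y'.map f).prod +
            nuT act f nu1 nu2 g.p0 Y' =
            act (act v (X.map f).prod + nuT act f nu1 nu2 g.p0 X) (Y.map f).prod +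
              nuT act f nu1 nu2 g.p0 Y) ∨
        (∃ X', g.XX X' ∧ ¬ (g.XX X' ∧ g.BadX BadT X') ∧ X' <+: P' ++ Q) := by
  have hz := g.hz
  have hq := g.hq
  obtain ⟨P, Q, b, hPQ, hP, hQ⟩ := g.complete2 (pre act f nu2) (post act f nu1) hc hgap hsp hthin
    hX hY v hI
  have hTe := T_eq act f nu1 nu2 g hadd hmul
  have h0 : ∃ X2, g.XX X2 ∧ P ++ Q = X ++ X2 ∧
      g.T (pre act f nu2) (post act f nu1) (g.T (pre act f nu2) (post act f nu1) v X) X2 = b :=
    g.sound2 (pre act f nu2) (post act f nu1) (R := []) (R' := Y) hc hex hX hXB hP hQ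
      (by rw [List.append_nil, hPQ])
  obtain ⟨X2, -, h2, h3⟩ := h0
  have hX2 : X2 = Y := by
    rw [hPQ] at h2
    exact (List.append_cancel_left h2).symm
  subst hX2
  refine ⟨P, Q, hPQ, hP, fun x P' hP' => ?_⟩
  -- the word `P' ++ Q` starts with a block
  have hW : g.Wo (P' ++ Q) ∧ g.z ≤ (P' ++ Q).length := by
    obtain ⟨k, hk, l, hend, -, hX2', -⟩ := hQ
    have hl1 := hend.1
    have h5 := hX2'.1
    rw [List.length_drop] at h5
    have hnz : g.n ≤ g.z := by omega
    constructor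
    · rw [g.loc _ _ (by omega)]
      have h6 := hX2'.2.1
      have e : Q = Q.take l ++ Q.drop l := (List.take_append_drop l Q).symm
      rw [e, g.loc _ _ (by rw [List.length_drop]; omega)]
      exact h6
    · rw [List.length_append]; omega
  obtain ⟨X', hX', hpre⟩ := exists_block g hW.1 hW.2
  by_cases hB : g.BadX BadT X'
  · left
    obtain ⟨R', hR'⟩ := hpre
    obtain ⟨X3, h4, h5, h6⟩ := g.sound2 (pre act f nu2) (post act f nu1) (R := []) (R' := R')
      hc hex hX' hB hP' hQ (by rw [List.append_nil, hR'])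
    refine ⟨X', ⟨hX', hB⟩, X3, h4, h5.symm, ?_⟩
    rw [← hTe, ← hTe, ← hTe, ← hTe, h6, h3]
  · right
    exact ⟨X', hX', fun h => hB h.2, hpre⟩

end Crest.Agent.R320.Join_671
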