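import Mathlib
import Crest.Agent.R320.Join1_7
import Crest.Agent.R320.RulerG_799
import Crest.Agent.R320.P4_933

set_option autoImplicit false

/-! Row 320: regularity of finite-state properties with the value of the rest; thin totals. -/

namespace Crest.Agent.R320.Grid7

open Finset Crest.RegLang Crest.Agent.R320.RulerG_799 Crest.Agent.R320.P4_933

theorem drop_snoc {α : Type} (A : ℕ) (u : List α) (a : α) :
    (u ++ [a]).drop A = if (u.take A).length < A then [] else u.drop A ++ [a] := by
  by_cases h : u.length < A
  · rw [List.take_of_length_le (l := u) (by omega), if_pos h]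
    exact List.drop_eq_nil_of_le (by simp; omega)
  · have h1 : (u.take A).length = A := by rw [List.length_take]; omega
    rw [if_neg (by omega), List.drop_append_of_le_length (by omega)]

/-- finite-state properties are regular -/
theorem regular_of_rest {α : Type} [Finite α] {S : Type} [Monoid S] [Finite S] (φ : α → S)
    (A M0 : ℕ) (hM : 0 < M0) (f : List α → Prop)
    (hf : ∀ u u' : List α, A ≤ u.length → A ≤ u'.length → u.take A = u'.take A →
      u.length % M0 = u'.length % M0 → ((u.drop A).map φ).prod = ((u'.drop A).map φ).prod →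
      (f u ↔ f u')) :
    Language.IsRegular ({u | f u} : Language α) := by
  classical
  haveI : NeZero M0 := ⟨by omega⟩
  have hfin : Finite {l : List α // l.length ≤ A} := List.finite_length_le α A
  let σ := {l : List α // l.length ≤ A} × ZMod M0 × S
  haveI : Fintype σ := Fintype.ofFinite σ
  let st : List α → σ := fun u =>
    (⟨u.take A, by rw [List.length_take]; omega⟩, (u.length : ZMod M0), ((u.drop A).map φ).prod)
  let M : DFA α σ :=
    { step := fun q a =>
        (if h : q.1.1.length < A then ⟨q.1.1 ++ [a], by simp; omega⟩ else q.1,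
          q.2.1 + 1, if q.1.1.length < A then 1 else q.2.2 * φ a)
      start := st []
      accept := {q | ∃ u, f u ∧ st u = q} }
  have hev : ∀ u, M.eval u = st u := by
    intro u
    induction u using List.reverseRecOn with
    | nil => rfl
    | append_singleton u a ih =>
      rw [DFA.eval_append_singleton, ih]
      refine Prod.ext ?_ (Prod.ext ?_ ?_)
      · apply Subtype.ext
        show (if h : (u.take A).length < A then (⟨u.take A ++ [a], by simp at h ⊢; omega⟩ :
          {l : List α // l.length ≤ A}) else ⟨u.take A, by rw [List.length_take]; omega⟩).1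
          = (u ++ [a]).take A
        rw [take_snoc]
        split_ifs <;> rfl
      · show (u.length : ZMod M0) + 1 = (((u ++ [a]).length : ℕ) : ZMod M0)
        simp
      · show (if (u.take A).length < A then (1 : S) else ((u.drop A).map φ).prod * φ a) =
          (((u ++ [a]).drop A).map φ).prod
        rw [drop_snoc]
        split_ifs <;> simp
  refine Language.isRegular_iff.2 ⟨σ, inferInstance, M, ?_⟩
  ext u
  rw [DFA.mem_accepts, hev]
  constructor
  · rintro ⟨u', h1, h2⟩
    have e1 : u'.take A = u.take A := congrArg (fun q : σ => q.1.1) h2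
    have e2 : (u'.length : ZMod M0) = (u.length : ZMod M0) := congrArg (fun q : σ => q.2.1) h2
    have e3 : ((u'.drop A).map φ).prod = ((u.drop A).map φ).prod :=
      congrArg (fun q : σ => q.2.2) h2
    have e2' : u'.length % M0 = u.length % M0 := (ZMod.natCast_eq_natCast_iff' _ _ _).1 e2
    have e4 := congrArg List.length e1
    rw [List.length_take, List.length_take] at e4
    by_cases h : u.length < A
    · rw [List.take_of_length_le (by omega), List.take_of_length_le (by omega)] at e1
      rw [← e1]; exact h1
    · exact (hf u' u (by omega) (by omega) e1 e2' e3).1 h1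
  · intro h
    exact ⟨u, h, rfl⟩

/-- a bad total of the clocks is bad for the ruler -/
theorem badZ_of_badN {Gam PM m n : ℕ} {Ms : Finset ℕ} (hGam : 0 < Gam) (hn : Am Gam PM m ≤ n)
    (h : BadN Gam PM m Ms n) :
    BadZ Ms (fun j => Gam ^ j) (fun j => PM * Gam ^ j) (Am Gam PM) m (n : ℤ) := by
  rcases h with ⟨k, hk, hd⟩ | ⟨j, h1, h2, h3⟩
  · exact Or.inl ⟨k, hk, by exact_mod_cast hd⟩
  · right
    refine ⟨j, h1, h2, ?_⟩
    have hAm : Am Gam PM j ≤ n := (Am_mono Gam PM h2).trans hn
    have hG : 0 < G Gam j := G_pos Gam hGam j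
    have hlt := Nat.mod_lt (n - Am Gam PM j) hG
    have hdm := Nat.div_add_mod (n - Am Gam PM j) (G Gam j)
    set r := (n - Am Gam PM j) % G Gam j with hr
    set d := (n - Am Gam PM j) / G Gam j with hd
    have hz : (n : ℤ) - (Am Gam PM j : ℤ) = (G Gam j : ℤ) * d + r := by
      have : ((n - Am Gam PM j : ℕ) : ℤ) = (G Gam j : ℤ) * d + r := by
        rw [← hdm]; push_cast; ring
      rw [← this]; push_cast [Nat.cast_sub hAm]; ring
    have hGG : (((fun j => Gam ^ j) j : ℕ) : ℤ) = (G Gam j : ℤ) := rfl
    have hcc : (((fun j => PM * Gam ^ j) (j - 1) : ℕ) : ℤ) = ((PM * G Gam (j - 1) : ℕ) : ℤ) := rfl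
    rw [hGG, hcc]
    by_cases hc : PM * G Gam (j - 1) ≤ r
    · have h4 : G Gam j < r + PM * G Gam (j - 1) := by
        by_contra h5
        exact h3 ⟨hc, by omega⟩
      refine ⟨d + 1, ?_⟩
      rw [abs_le]
      constructor
      · have : (G Gam j : ℤ) < r + (PM * G Gam (j - 1) : ℕ) := by exact_mod_cast h4
        nlinarith
      · have : (r : ℤ) < G Gam j := by exact_mod_cast hlt
        have h0 : (0 : ℤ) ≤ ((PM * G Gam (j - 1) : ℕ) : ℤ) := by positivity
        nlinarith
    · refine ⟨d, ?_⟩
      rw [abs_le]
      have h5 : (r : ℤ) < ((PM * G Gam (j - 1) : ℕ) : ℤ) := by exact_mod_cast (not_le.1 hc)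
      have h6 : (0 : ℤ) ≤ r := by positivity
      constructor
      · nlinarith
      · nlinarith

end Crest.Agent.R320.Grid7
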