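import Crest.Agent.R320.Join1_432
import Crest.Agent.R320.Join2_432
import Crest.Agent.R320.Top5_120

/-! Row 320: the join of the natural chain, before the choice of constants. -/

set_option autoImplicit false

namespace Crest.Agent.R320.Join_432

open Crest.RegLang Crest.Agent.R320.Hk_851 Crest.Agent.R320.BddReg_746
open Crest.Agent.R320.Sc2n_937 Crest.Agent.R320.P4_933

variable {α : Type}

theorem core [Finite α] {S V : Type} [Monoid S] [Finite S] [AddCommGroup V] [Finite V]
    (act : V → S → V)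
    (hadd : ∀ a b s, act (a + b) s = act a s + act b s)
    (hone : ∀ v, act v 1 = v) (hmul : ∀ v s t, act v (s * t) = act (act v s) t)
    (hfaith : ∀ s t, (∀ v, act v s = act v t) → s = t)
    (φ : α → S) (g : Geo α) (len : ∀ P, g.Wo P → g.n ≤ P.length) {B W : ℕ}
    (hfree : ∀ X : List α, (∀ t < X.length, ¬ g.Wo (X.take t)) →
        ∃ (u x v : List α) (k : ℕ), u.length ≤ B ∧ x.length ≤ W ∧ v.length ≤ B ∧
          X = u ++ (List.replicate k x).flatten ++ v)
    (hgap : ∀ P Q : List α, g.Wo P → g.Wo (P ++ Q) → Q ≠ [] → 2 * g.p0 + 2 * g.N1 < Q.length)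
    (lam rho : List α → Option V) (nu1 : List α → V)
    (hlen : ∀ P v, lam P = some v → P.length ≤ g.N1)
    (hs : ∀ P Q v b, lam P = some v → rho Q = some b →
      b = act v ((P ++ Q).map φ).prod + nu1 (P ++ Q))
    (BadT : ℕ → Prop) (T0 M0 A0 : ℕ) (hM0 : 0 < M0) (hT0 : T0 ≤ g.z + g.N1 - g.p0)
    (hper : ∀ T T', T0 ≤ T → T0 ≤ T' → T % M0 = T' % M0 → (BadT T → BadT T'))
    (hcomp : ∀ Y : List α, g.N1 + g.q0 ≤ Y.length → ¬ BadT Y.length → ∀ v, ∃ P Q,
      P ++ Q = Y ∧ lam P = some v ∧ (rho Q).isSome)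
    (hfs : ∀ Y Y' : List α, A0 ≤ Y.length → A0 ≤ Y'.length → Y.take A0 = Y'.take A0 →
      Y.length % M0 = Y'.length % M0 → (Y.map φ).prod = (Y'.map φ).prod → nu1 Y = nu1 Y')
    (K : ℕ) (c : ℕ → ℕ) (lam2 : ℕ → List α → Option V) (rho2 : ℕ → List α → Option V)
    (nu2 : List α → V) (C0 : ℕ)
    (hc : ∀ k, k < K → c k ≤ g.p0)
    (hex : ∀ k, k < K → ∀ P Q v u, P.length = c k → Q.length = g.p0 - c k →
      lam2 k P = some v → rho2 k Q = some u →
        u = act v ((P ++ Q).map φ).prod + nu2 (P ++ Q))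
    (hsp : ∀ k k' l l', k < K → k' < K → l < K → l' < K → k' ≠ k → l' ≠ l →
      c k + c l' < c l + c k' + 2 * g.N1 → c l + c k' < c k + c l' + 2 * g.N1 → k = l)
    (hthin : ∀ τ, g.z ≤ τ + g.p0 → ∀ J : Finset ℕ, (∀ k ∈ J, k < K ∧
      ∃ k', k' < K ∧ k' ≠ k ∧ BadT (τ + c k' - c k - g.p0)) → J.card ≤ C0)
    (hI : ∀ X, g.XX X → ∀ v, ∃ I : Finset ℕ, 2 * C0 + 2 ≤ I.card ∧ ∀ k ∈ I, k < K ∧
      lam2 k (X.take (c k)) = some v ∧ (rho2 k ((X.take g.p0).drop (c k))).isSome)
    (s : S) : HL 3 ({w | (w.map φ).prod = s} : Language α) := by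
  classical
  set pre : List α → V → V := fun X v => act v (X.map φ).prod + nu2 X with hpre
  set post : V → List α → V := fun u Y => act u (Y.map φ).prod + nu1 Y with hpost
  set nu : List α → V := fun X =>
    act (nu2 (X.take g.p0)) ((X.drop g.p0).map φ).prod + nu1 (X.drop g.p0) with hnu
  have hT : ∀ (v : V) (X : List α), g.T pre post v X = act v (X.map φ).prod + nu X := by
    intro v X
    have e : (X.map φ).prod = ((X.take g.p0).map φ).prod * ((X.drop g.p0).map φ).prod := by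
      rw [← List.prod_append, ← List.map_append, List.take_append_drop]
    show act (act v ((X.take g.p0).map φ).prod + nu2 (X.take g.p0)) ((X.drop g.p0).map φ).prod
      + nu1 (X.drop g.p0) = _
    rw [e, hmul, hadd, hnu]
    simp only [add_assoc]
  have loc := g.loc
  have free := free_of (B := B) (W := W) hfree
  have hz := g.hz
  set C : Set (List α) := {X | g.XX X} with hCdef
  set Bad : Set (List α) := {X | g.XX X ∧ g.BadX BadT X} with hBdef
  have hnil : ([] : List α) ∉ C := by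
    rintro ⟨h1, h2, -⟩
    have h3 := g.hN
    simp only [List.length_nil] at h1
    omega
  have hPC : ∀ X ∈ C, ∀ Y ∈ C, X <+: Y → X = Y := by
    rintro X hX Y hY ⟨R, hR⟩
    exact g.prefix_code (R := R) (R' := []) hX hY (by rw [List.append_nil]; exact hR)
  have hfinlen : ∀ N : ℕ, {P : List α | P.length ≤ N}.Finite := fun N =>
    List.finite_length_le α N
  -- regularity of the fibres
  have hreg : ∀ x y, Language.IsRegular
      ({X | g.p0 ≤ X.length ∧ act x (((X.take g.p0) ++ (X.drop g.p0)).map φ).prod +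
        (act (nu2 (X.take g.p0)) ((X.drop g.p0).map φ).prod + nu1 (X.drop g.p0)) = y} :
        Language α) := by
    intro x y
    refine reg_drop g.p0 (fun X1 Y => act x ((X1 ++ Y).map φ).prod +
        (act (nu2 X1) (Y.map φ).prod + nu1 Y) = y) fun X1 _ => ?_
    refine regular_of_class φ A0 M0 hM0 (fun Y => act x ((X1 ++ Y).map φ).prod +
        (act (nu2 X1) (Y.map φ).prod + nu1 Y) = y) ?_
    intro Y Y' h1 h2 h3 h4 h5
    rw [List.map_append, List.prod_append, List.map_append, List.prod_append, h5,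
      hfs Y Y' h1 h2 h3 h4 h5]
  have hfreg : ∀ x y, Language.IsRegular
      ({X | g.p0 ≤ X.length ∧ act x (X.map φ).prod + nu X = y} : Language α) := by
    intro x y
    refine reg_congr (hreg x y) fun w => ?_
    constructor
    · rintro ⟨h1, h2⟩
      refine ⟨h1, ?_⟩
      rw [List.take_append_drop]; exact h2
    · rintro ⟨h1, h2⟩
      refine ⟨h1, ?_⟩
      rw [List.take_append_drop] at h2; exact h2
  refine Crest.Agent.R320.Top5_120.top5 act hadd hone hmul hfaith φ nu C Bad ⟨hnil, hPC⟩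
    (fun X hX => hX.1) (fun v => {P | g.LP1 pre lam v P}) (fun v => {P | Geo.LP2 K c lam2 v P})
    ?_ ?_ ?_ ?_ ?_ ?_ ?_ s
  · intro v
    refine (hfinlen (g.p0 + g.N1)).subset ?_
    rintro P ⟨h1, h2⟩
    have := hlen _ _ h2
    rw [List.length_drop] at this
    show P.length ≤ _
    omega
  · intro v
    refine (hfinlen g.p0).subset ?_
    rintro P ⟨k, hk, h1, -⟩
    show P.length ≤ _
    rw [h1]; exact hc k hk
  · intro x y
    refine (hl_XX (Wo := g.Wo) (z := g.z) loc len free (hfreg x y)).congr fun w => ?_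
    constructor
    · rintro ⟨h1, h2⟩
      have h3 : g.z ≤ w.length := h1.1
      exact ⟨(xx_iff g w).1 h1, by omega, h2⟩
    · rintro ⟨h1, -, h2⟩
      exact ⟨(xx_iff g w).2 h1, h2⟩
  · intro x y
    have h1 := reg_bad g BadT T0 M0 hM0 hT0 hper
    have h2 := (hfreg x y).inf h1
    have h3 : Language.IsRegular ({X | (g.p0 ≤ X.length ∧ act x (X.map φ).prod + nu X = y) ∧
        g.BadX BadT X} : Language α) := reg_congr h2 fun w => Iff.rfl
    refine (hl_XX (Wo := g.Wo) (z := g.z) loc len free h3).congr fun w => ?_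
    constructor
    · rintro ⟨⟨h4, h5⟩, h6⟩
      have h7 : g.z ≤ w.length := h4.1
      exact ⟨(xx_iff g w).1 h4, ⟨by omega, h6⟩, h5⟩
    · rintro ⟨h4, ⟨-, h5⟩, h6⟩
      exact ⟨⟨(xx_iff g w).2 h4, h6⟩, h5⟩
  · intro s
    have h1 : Language.IsRegular ({w | (w.map φ).prod = s} : Language α) := by
      refine regular_of_class φ 0 1 one_pos (fun w => (w.map φ).prod = s) ?_
      intro u u' _ _ _ _ h; rw [h]
    refine (hl_NB (Wo := g.Wo) (z := g.z) loc len free h1).congr fun w => ?_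
    have key : (∀ X ∈ C, ¬ X <+: w) ↔ NB g.Wo g.z w := by
      rw [NB_iff]
      constructor
      · intro h P hP hX
        exact h P ((xx_iff g P).2 hX) hP
      · intro h X hX hP
        exact h X hP ((xx_iff g X).1 hX)
    constructor
    · rintro ⟨h2, h3⟩
      exact ⟨key.1 h2, h3⟩
    · rintro ⟨h2, h3⟩
      exact ⟨key.2 h2, h3⟩
  · intro X hX hXb v
    obtain ⟨P, Q, e, hP, h⟩ := cc1 g pre post hlen
      (fun P Q u b h1 h2 => hs P Q u b h1 h2) (BadT := BadT)
      (fun X hX _ hB u => by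
        have h3 : g.z ≤ X.length := hX.1
        obtain ⟨P, Q, e, h4, h5⟩ := hcomp (X.drop g.p0)
          (by rw [List.length_drop]; omega) (by rw [List.length_drop]; exact hB) u
        exact ⟨P, Q, e.symm, h4, h5⟩) hX (fun hb => hXb ⟨hX, hb⟩) v
    refine ⟨P, Q, e, hP, fun x P' hP' => ?_⟩
    obtain ⟨h1, h2⟩ := h x P' hP'
    refine ⟨h1, ?_⟩
    rw [← hT, ← hT]; exact h2
  · intro X hX Y hY v
    obtain ⟨P, Q, e, hP, h⟩ := cc2 g pre post hc (fun k hk P Q v u h1 h2 h3 h4 =>
      hex k hk P Q v u h1 h2 h3 h4) hgap hsp hthin hI hX.1 hX.2 hY.1 v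
    refine ⟨P, Q, e, hP, fun x P' hP' => ?_⟩
    rcases h x P' hP' with ⟨X', hX', Y', hY', e', h'⟩ | ⟨X', hX', hn, hp⟩
    · left
      refine ⟨X', hX', Y', hY', e', ?_⟩
      simp only [hT] at h'
      exact h'
    · exact Or.inr ⟨X', hX', hn, hp⟩

end Crest.Agent.R320.Join_432
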