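import Crest.Agent.R320.Grid_899
import Crest.Agent.R320.Thin_963

/-! # Row 320, join (helper671): constants, thin bad totals -/

set_option autoImplicit false

namespace Crest.Agent.R320.Join_671

open Crest.Agent.R320

/-- the completeness condition of the grid gadget fails -/
def BadN {kk : ℕ} (q : Fin kk → ℕ) (κ m n : ℕ) : Prop :=
  ¬ ((∀ j, ¬ q j ∣ n) ∧ ∀ j, 1 ≤ j → j ≤ m →
    (∏ j, q j) * Grid_899.G κ (j - 1) ≤ (n - Grid_899.Am (∏ j, q j) κ j) % Grid_899.G κ j ∧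
    (n - Grid_899.Am (∏ j, q j) κ j) % Grid_899.G κ j + (∏ j, q j) * Grid_899.G κ (j - 1) ≤
      Grid_899.G κ j)

theorem exists_primes (kk N : ℕ) :
    ∃ q : Fin kk → ℕ, Function.Injective q ∧ ∀ j, (q j).Prime ∧ N ≤ q j := by
  have hinf : {p : ℕ | p.Prime ∧ N ≤ p}.Infinite := by
    apply Set.infinite_of_not_bddAbove
    rintro ⟨b, hb⟩
    obtain ⟨p, hp1, hp2⟩ := Nat.exists_infinite_primes (max N (b + 1))
    have h1 : p ≤ b := hb ⟨hp2, le_trans (le_max_left _ _) hp1⟩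
    have h2 := le_trans (le_max_right _ _) hp1
    omega
  let e := hinf.natEmbedding
  refine ⟨fun j => (e j : ℕ), fun i j h => ?_, fun j => (e j).2⟩
  have h1 : e i = e j := Subtype.ext h
  exact Fin.ext (e.injective h1)

theorem badN_thin {kk : ℕ} (q : Fin kk → ℕ) (κ m n : ℕ)
    (hn : Grid_899.Am (∏ j, q j) κ m ≤ n) (h : BadN q κ m n) :
    Thin963.BadT (Finset.univ.image q) m (fun i => ((Grid_899.G κ i : ℕ) : ℤ))
      (fun i => (((∏ j, q j) * Grid_899.G κ i : ℕ) : ℤ))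
      (fun i => ((Grid_899.Am (∏ j, q j) κ i : ℕ) : ℤ)) (n : ℤ) := by
  classical
  unfold BadN at h
  unfold Thin963.BadT
  rw [not_and_or] at h
  rcases h with h | h
  · left
    push Not at h
    obtain ⟨j, hj⟩ := h
    exact ⟨q j, Finset.mem_image_of_mem _ (Finset.mem_univ _), by exact_mod_cast hj⟩
  · right
    push Not at h
    obtain ⟨j, h1, h2, h3⟩ := h
    obtain ⟨i, rfl⟩ : ∃ i, j = i + 1 := ⟨j - 1, by omega⟩
    rw [Nat.add_sub_cancel] at h3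
    refine ⟨i, by omega, ?_⟩
    set Mq := ∏ j, q j with hMq
    have hA : Grid_899.Am Mq κ (i + 1) ≤ n := le_trans (Grid_899.Am_mono h2) hn
    set a := n - Grid_899.Am Mq κ (i + 1) with ha
    set r := a % Grid_899.G κ (i + 1) with hr
    have hG := Grid_899.G_pos (κ := κ) (i + 1)
    have hrG : r < Grid_899.G κ (i + 1) := Nat.mod_lt _ hG
    have hdm : Grid_899.G κ (i + 1) * (a / Grid_899.G κ (i + 1)) + r = a := Nat.div_add_mod _ _
    have hna : (n : ℤ) - (Grid_899.Am Mq κ (i + 1) : ℕ) = (a : ℤ) := by omega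
    have hdm' : ((Grid_899.G κ (i + 1) : ℕ) : ℤ) * ((a / Grid_899.G κ (i + 1) : ℕ) : ℤ) + r = a := by
      exact_mod_cast hdm
    by_cases hc : Mq * Grid_899.G κ i ≤ r
    · have h4 := h3 hc
      refine ⟨((Grid_899.G κ (i + 1) : ℕ) : ℤ) - r, ?_,
        ((a / Grid_899.G κ (i + 1) : ℕ) : ℤ) + 1, ?_⟩
      · show |((Grid_899.G κ (i + 1) : ℕ) : ℤ) - r| ≤ ((Mq * Grid_899.G κ i : ℕ) : ℤ)
        rw [abs_le]
        constructor <;> omega
      · rw [hna, ← hdm']; ring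
    · refine ⟨-(r : ℤ), ?_, ((a / Grid_899.G κ (i + 1) : ℕ) : ℤ), ?_⟩
      · show |-(r : ℤ)| ≤ ((Mq * Grid_899.G κ i : ℕ) : ℤ)
        rw [abs_neg, abs_of_nonneg (by positivity)]
        omega
      · rw [hna, ← hdm']; ring

theorem growth (K m Mq : ℕ) (i : ℕ) (hi : i < m) :
    (2 : ℤ) ^ (K + 4) * ∑ j ∈ Finset.range (i + 1),
      ((Mq * Grid_899.G (K + 4 + m * Mq) j : ℕ) : ℤ) ≤
      ((Grid_899.G (K + 4 + m * Mq) (i + 1) : ℕ) : ℤ) := by
  set κ := K + 4 + m * Mq with hκ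
  have h1 : ∑ j ∈ Finset.range (i + 1), Mq * Grid_899.G κ j ≤ m * (Mq * Grid_899.G κ i) := by
    have h2 : ∑ j ∈ Finset.range (i + 1), Mq * Grid_899.G κ j ≤
        ∑ j ∈ Finset.range (i + 1), Mq * Grid_899.G κ i := by
      apply Finset.sum_le_sum
      intro j hj
      have hj' : j ≤ i := by
        have := Finset.mem_range.1 hj
        omega
      exact Nat.mul_le_mul_left _ (Nat.le_of_dvd (Grid_899.G_pos i) (Grid_899.G_dvd hj'))
    refine le_trans h2 ?_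
    rw [Finset.sum_const, Finset.card_range, smul_eq_mul]
    exact Nat.mul_le_mul_right _ (by omega)
  have h3 : Grid_899.G κ (i + 1) = 2 ^ κ * Grid_899.G κ i := by
    unfold Grid_899.G
    rw [← pow_add]
    congr 1
    ring
  have h4 : m * Mq ≤ 2 ^ (m * Mq) := Nat.lt_two_pow_self.le
  have h5 : 2 ^ (K + 4) * (m * (Mq * Grid_899.G κ i)) ≤ Grid_899.G κ (i + 1) := by
    have h3' : 2 ^ κ = 2 ^ (K + 4) * 2 ^ (m * Mq) := by rw [hκ, pow_add]
    calc 2 ^ (K + 4) * (m * (Mq * Grid_899.G κ i))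
        = 2 ^ (K + 4) * ((m * Mq) * Grid_899.G κ i) := by ring
      _ ≤ 2 ^ (K + 4) * (2 ^ (m * Mq) * Grid_899.G κ i) :=
          Nat.mul_le_mul_left _ (Nat.mul_le_mul_right _ h4)
      _ = Grid_899.G κ (i + 1) := by rw [h3, h3']; ring
  have h6 : 2 ^ (K + 4) * ∑ j ∈ Finset.range (i + 1), Mq * Grid_899.G κ j ≤
      Grid_899.G κ (i + 1) := le_trans (Nat.mul_le_mul_left _ h1) h5
  exact_mod_cast h6

/-- **the ruler** -/
theorem exists_ruler (K m : ℕ) {kk : ℕ} (q : Fin kk → ℕ) (hq : ∀ j, (q j).Prime ∧ 2 ^ (K + 1) ≤ q j)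
    (hMq : 0 < ∏ j, q j) (hq2 : ∀ j, q j ≠ 2) (N0 : ℕ) :
    ∃ X : ℕ, N0 ≤ X ∧ 0 < X ∧ ∀ (τ p0 : ℕ),
      (∀ k < K, ∀ k' < K, X * 2 ^ k + p0 + Grid_899.Am (∏ j, q j) (K + 4 + m * ∏ j, q j) m ≤
        τ + X * 2 ^ k') → ∀ J : Finset ℕ, (∀ k ∈ J, k < K ∧ ∃ k', k' < K ∧ k' ≠ k ∧
          BadN q (K + 4 + m * ∏ j, q j) m (τ + X * 2 ^ k' - X * 2 ^ k - p0)) →
        J.card ≤ kk + m := by
  classical
  set κ := K + 4 + m * ∏ j, q j with hκ
  obtain ⟨X, hX1, hX2, hX3⟩ := Thin963.thin K m (Finset.univ.image q)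
    (fun i => ((Grid_899.G κ i : ℕ) : ℤ)) (fun i => (((∏ j, q j) * Grid_899.G κ i : ℕ) : ℤ))
    (fun i => ((Grid_899.Am (∏ j, q j) κ i : ℕ) : ℤ))
    (by
      intro a ha
      obtain ⟨j, -, rfl⟩ := Finset.mem_image.1 ha
      exact hq j)
    (by
      intro a ha
      obtain ⟨j, -, rfl⟩ := Finset.mem_image.1 ha
      rw [Nat.isCoprime_iff_coprime]
      unfold Grid_899.G
      exact Nat.Coprime.pow_right _ ((Nat.coprime_primes (hq j).1 Nat.prime_two).2 (hq2 j)))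
    (by
      show (0 : ℤ) < ((Grid_899.G κ m : ℕ) : ℤ)
      exact_mod_cast Grid_899.G_pos (κ := κ) m)
    (by
      intro i j hij
      show ((Grid_899.G κ i : ℕ) : ℤ) ∣ ((Grid_899.G κ j : ℕ) : ℤ)
      exact_mod_cast Grid_899.G_dvd (κ := κ) hij)
    (by
      intro i
      show (0 : ℤ) < (((∏ j, q j) * Grid_899.G κ i : ℕ) : ℤ)
      exact_mod_cast Nat.mul_pos hMq (Grid_899.G_pos (κ := κ) i))
    (by
      intro i
      show ((Grid_899.G κ i : ℕ) : ℤ) ∣ (((∏ j, q j) * Grid_899.G κ i : ℕ) : ℤ)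
      exact_mod_cast Dvd.intro_left _ rfl)
    (fun i hi => growth K m (∏ j, q j) i hi) (N0 : ℤ)
  obtain ⟨Xn, rfl⟩ := Int.eq_ofNat_of_zero_le hX2.le
  refine ⟨Xn, by exact_mod_cast hX1, by exact_mod_cast hX2, ?_⟩
  intro τ p0 hτ J hJ
  have hcard : (Finset.univ.image q).card ≤ kk := by
    refine le_trans Finset.card_image_le ?_
    simp
  choose! kf hkf using fun k (hk : k ∈ J) => (hJ k hk).2
  have h1 := hX3 ((τ : ℤ) - p0)
  refine le_trans ?_ (le_trans h1 (by omega))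
  refine Finset.card_le_card_of_injOn (fun k => (kf k, k)) ?_ ?_
  · intro k hk
    have hk' : k ∈ J := hk
    obtain ⟨h2, h3, h4⟩ := hkf k hk'
    have hkK := (hJ k hk').1
    rw [Finset.mem_coe, Finset.mem_filter, Finset.mem_product]
    refine ⟨⟨Finset.mem_range.2 h2, Finset.mem_range.2 hkK⟩, h3, ?_⟩
    have h5 := hτ k hkK (kf k) h2
    have h6 := badN_thin q κ m (τ + Xn * 2 ^ kf k - Xn * 2 ^ k - p0) (by omega) h4
    have e : ((τ + Xn * 2 ^ kf k - Xn * 2 ^ k - p0 : ℕ) : ℤ) =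
        (τ : ℤ) - p0 + (Xn : ℤ) * 2 ^ kf k - (Xn : ℤ) * 2 ^ k := by
      rw [Nat.cast_sub (by omega), Nat.cast_sub (by omega)]
      push_cast
      ring
    rw [e] at h6
    exact h6
  · intro a _ b _ h
    exact congrArg Prod.snd h

theorem spacing {X N1 : ℕ} (hX : 2 * N1 ≤ X) (hX0 : 0 < X) {k k' l l' : ℕ} (hk : k' ≠ k)
    (hl : l' ≠ l)
    (h1 : X * 2 ^ k + X * 2 ^ l' < X * 2 ^ l + X * 2 ^ k' + 2 * N1)
    (h2 : X * 2 ^ l + X * 2 ^ k' < X * 2 ^ k + X * 2 ^ l' + 2 * N1) : k = l := by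
  have hX' : (0 : ℤ) < X := by exact_mod_cast hX0
  have h1' : (X : ℤ) * 2 ^ k + X * 2 ^ l' < X * 2 ^ l + X * 2 ^ k' + 2 * N1 := by exact_mod_cast h1
  have h2' : (X : ℤ) * 2 ^ l + X * 2 ^ k' < X * 2 ^ k + X * 2 ^ l' + 2 * N1 := by exact_mod_cast h2
  have hX'' : (2 : ℤ) * N1 ≤ X := by exact_mod_cast hX
  have h3 : (X : ℤ) * ((2 ^ k - 2 ^ k') - (2 ^ l - 2 ^ l')) < X * 1 := by
    have e : (X : ℤ) * ((2 ^ k - 2 ^ k') - (2 ^ l - 2 ^ l')) =
      (X * 2 ^ k + X * 2 ^ l') - (X * 2 ^ l + X * 2 ^ k') := by ring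
    rw [e]; linarith
  have h4 : (X : ℤ) * (-((2 ^ k - 2 ^ k') - (2 ^ l - 2 ^ l'))) < X * 1 := by
    have e : (X : ℤ) * (-((2 ^ k - 2 ^ k') - (2 ^ l - 2 ^ l'))) =
      (X * 2 ^ l + X * 2 ^ k') - (X * 2 ^ k + X * 2 ^ l') := by ring
    rw [e]; linarith
  have h5 := lt_of_mul_lt_mul_left h3 hX'.le
  have h6 := lt_of_mul_lt_mul_left h4 hX'.le
  have h7 : (2 : ℤ) ^ k - 2 ^ k' = 2 ^ l - 2 ^ l' := by omega
  exact (G369.pow_diff (Ne.symm hk) (Ne.symm hl) h7).1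

end Crest.Agent.R320.Join_671
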