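import Crest.Agent.R320.Top5_120
import Crest.Agent.R320.Sc2n_937
import Crest.Agent.R320.P4_933
import Crest.Agent.R320.Reg_852

/-!
# Row 320: the join over `Top5_120.top5` with all constants as hypotheses (helper185)
-/

set_option autoImplicit false

namespace Crest.Agent.R320.Join_185

open Crest.RegLang Crest.Agent.R320.Hk_851 Crest.Agent.R320.Blk467 Crest.Agent.R320.BddReg_746
open Crest.Agent.R320.Sc2n_937

/-- language of a predicate -/
def lg {α : Type} (p : List α → Prop) : Language α := {w | p w}

variable {α : Type} [Finite α]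

theorem reg_iUnion {ι : Type*} [Finite ι] (L : ι → Language α) (h : ∀ i, (L i).IsRegular) :
    Language.IsRegular (lg fun w => ∃ i, w ∈ L i) := by
  classical
  have := Fintype.ofFinite ι
  have key : ∀ s : Finset ι, Language.IsRegular (lg fun w => ∃ i ∈ s, w ∈ L i) := by
    intro s
    induction s using Finset.induction_on with
    | empty =>
      have e : (lg fun w => ∃ i ∈ (∅ : Finset ι), w ∈ L i) = 0 := by
        ext w
        constructor
        · rintro ⟨i, hi, _⟩
          exact absurd hi (Finset.notMem_empty i)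
        · intro h; exact h.elim
      rw [e]; exact Reg_852.isRegular_zero
    | insert a s ha ih =>
      have e : (lg fun w => ∃ i ∈ insert a s, w ∈ L i) =
          L a + (lg fun w => ∃ i ∈ s, w ∈ L i) := by
        ext w
        constructor
        · rintro ⟨i, hi, hw⟩
          rcases Finset.mem_insert.1 hi with rfl | hi
          · exact Or.inl hw
          · exact Or.inr ⟨i, hi, hw⟩
        · rintro (hw | ⟨i, hi, hw⟩)
          · exact ⟨a, Finset.mem_insert_self _ _, hw⟩
          · exact ⟨i, Finset.mem_insert_of_mem hi, hw⟩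
      rw [e]; exact (h a).add ih
  have h1 := key Finset.univ
  have e : (lg fun w => ∃ i, w ∈ L i) = (lg fun w => ∃ i ∈ Finset.univ, w ∈ L i) := by
    ext w
    constructor
    · rintro ⟨i, hw⟩; exact ⟨i, Finset.mem_univ _, hw⟩
    · rintro ⟨i, _, hw⟩; exact ⟨i, hw⟩
  rw [e]; exact h1

theorem reg_finite {L : Language α} (h : (L : Set (List α)).Finite) : L.IsRegular :=
  Reg_852.HL.isRegular (HL.finite (k := 0) h)

theorem reg_split (A : ℕ) {τ : Type*} [Finite τ] (g : List α → τ)
    (hg : ∀ t, Language.IsRegular (lg fun Y => g Y = t)) (f : List α → Prop)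
    (hf : ∀ X X' : List α, A ≤ X.length → A ≤ X'.length → X.take A = X'.take A →
      g (X.drop A) = g (X'.drop A) → (f X ↔ f X')) :
    Language.IsRegular (lg fun X => A ≤ X.length ∧ f X) := by
  classical
  have : Finite {l : List α // l.length = A} := List.finite_length_eq α A
  let ι := {p : {l : List α // l.length = A} × τ // ∃ Y, g Y = p.2 ∧ f (p.1.1 ++ Y)}
  have h1 := reg_iUnion (ι := ι)
    (fun p => (lg fun w => w = p.1.1.1) * (lg fun Y => g Y = p.1.2))
    (fun p => Reg_852.IsRegular.mul (reg_finite (L := lg fun w => w = p.1.1.1) (Set.finite_singleton p.1.1.1)) (hg _))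
  have e : (lg fun X => A ≤ X.length ∧ f X) =
      (lg fun w => ∃ p : ι, w ∈ (lg fun w => w = p.1.1.1) * (lg fun Y => g Y = p.1.2)) := by
    ext w
    constructor
    · rintro ⟨hA, hw⟩
      have hl : (w.take A).length = A := by rw [List.length_take]; omega
      refine ⟨⟨(⟨w.take A, hl⟩, g (w.drop A)), w.drop A, rfl, ?_⟩, ?_⟩
      · show f (w.take A ++ w.drop A)
        rwa [List.take_append_drop]
      · exact Language.mem_mul.2 ⟨w.take A, rfl, w.drop A, rfl, List.take_append_drop _ _⟩
    · rintro ⟨⟨⟨⟨P, hP⟩, t⟩, Y, hY, hfY⟩, hw⟩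
      obtain ⟨P', hP', Z, hZ, rfl⟩ := Language.mem_mul.1 hw
      have hP'' : P' = P := hP'
      subst hP''
      have hZ' : g Z = t := hZ
      refine ⟨by rw [List.length_append]; omega, ?_⟩
      refine (hf (P' ++ Y) (P' ++ Z) (by rw [List.length_append]; omega)
        (by rw [List.length_append]; omega) ?_ ?_).1 hfY
      · rw [List.take_append_of_le_length hP.ge, List.take_append_of_le_length hP.ge]
      · rw [List.drop_append_of_le_length hP.ge, List.drop_append_of_le_length hP.ge,
          List.drop_of_length_le hP.le]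
        simp only [List.nil_append]
        rw [hY, hZ']
  rw [e]; exact h1

theorem reg_pair {τ σ : Type*} (g : List α → τ) (h : List α → σ)
    (hg : ∀ t, Language.IsRegular (lg fun Y => g Y = t))
    (hh : ∀ t, Language.IsRegular (lg fun Y => h Y = t)) (p : τ × σ) :
    Language.IsRegular (lg fun Y => (g Y, h Y) = p) := by
  have h1 := (hg p.1).inf (hh p.2)
  have e : (lg fun Y => (g Y, h Y) = p) =
      (lg fun Y => g Y = p.1) ⊓ (lg fun Y => h Y = p.2) := by
    ext Y
    constructor
    · intro hY
      have hY' : (g Y, h Y) = p := hY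
      subst hY'
      exact ⟨rfl, rfl⟩
    · rintro ⟨h1, h2⟩
      exact Prod.ext h1 h2
  rw [e]; exact h1

theorem reg_len (M : ℕ) (hM : 0 < M) (r : ℕ) :
    Language.IsRegular (lg fun Y : List α => Y.length % M = r) := by
  have := P4_933.regular_of_class (α := α) (S := Unit) (fun _ => ()) 0 M hM
    (fun Y : List α => Y.length % M = r) (fun u u' _ _ _ h _ => by rw [h])
  exact this

theorem reg_len_fin (M : ℕ) (hM : 0 < M) (r : Fin M) :
    Language.IsRegular (lg fun Y : List α => (⟨Y.length % M, Nat.mod_lt _ hM⟩ : Fin M) = r) := by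
  have h := reg_len (α := α) M hM r.1
  have e : (lg fun Y : List α => (⟨Y.length % M, Nat.mod_lt _ hM⟩ : Fin M) = r) =
      (lg fun Y : List α => Y.length % M = r.1) := by
    ext Y
    constructor
    · intro h; exact congrArg Fin.val h
    · intro h; exact Fin.ext h
  rw [e]; exact h

variable {S : Type} [Monoid S] [Finite S] {V : Type} [AddCommGroup V] [Finite V]

section nu

variable (act : V → S → V) (φ : α → S) (lam rho : List α → Option V) (nu1 : List α → V)

/-- `X` has a cut -/
def HasCut (X : List α) : Prop := ∃ v b P Q, X = P ++ Q ∧ lam P = some v ∧ rho Q = some b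

open Classical in
/-- noise, zero on words without cut -/
noncomputable def nu' (X : List α) : V := if HasCut lam rho X then nu1 X else 0

theorem nu'_reg (hfin : ∀ v, {P : List α | lam P = some v}.Finite)
    (hreg : ∀ b, Language.IsRegular (lg fun Q => rho Q = some b))
    (hex : ∀ P Q u b, lam P = some u → rho Q = some b →
      b = act u ((P ++ Q).map φ).prod + nu1 (P ++ Q)) (y : V) :
    Language.IsRegular (lg fun X => nu' lam rho nu1 X = y) := by
  classical
  have hm : ∀ v b, Language.IsRegular
      ((lg fun P => lam P = some v) * (lg fun Q => rho Q = some b)) :=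
    fun v b => Reg_852.IsRegular.mul (reg_finite (hfin v)) (hreg b)
  have hcut : Language.IsRegular (lg fun X => HasCut lam rho X) := by
    have h1 := reg_iUnion (ι := V × V) (fun p =>
      (lg fun P => lam P = some p.1) * (lg fun Q => rho Q = some p.2))
      (fun p => hm p.1 p.2)
    have e : (lg fun X => HasCut lam rho X) = (lg fun w => ∃ p : V × V, w ∈
        (lg fun P => lam P = some p.1) * (lg fun Q => rho Q = some p.2)) := by
      ext w
      constructor
      · rintro ⟨v, b, P, Q, rfl, h1, h2⟩
        exact ⟨(v, b), Language.mem_mul.2 ⟨P, h1, Q, h2, rfl⟩⟩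
      · rintro ⟨⟨v, b⟩, hw⟩
        obtain ⟨P, h1, Q, h2, rfl⟩ := Language.mem_mul.1 hw
        exact ⟨v, b, P, Q, rfl, h1, h2⟩
    rw [e]; exact h1
  have hval : Language.IsRegular (lg fun X => HasCut lam rho X ∧ nu1 X = y) := by
    let ι := {p : (V × V) × S // p.1.2 - act p.1.1 p.2 = y}
    have h1 := reg_iUnion (ι := ι) (fun p =>
      ((lg fun P => lam P = some p.1.1.1) * (lg fun Q => rho Q = some p.1.1.2)) ⊓
        (lg fun w => (w.map φ).prod = p.1.2))
      (fun p => (hm p.1.1.1 p.1.1.2).inf (Reg_852.isRegular_prod φ p.1.2))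
    have e : (lg fun X => HasCut lam rho X ∧ nu1 X = y) = (lg fun w => ∃ p : ι, w ∈
        ((lg fun P => lam P = some p.1.1.1) * (lg fun Q => rho Q = some p.1.1.2)) ⊓
        (lg fun w => (w.map φ).prod = p.1.2)) := by
      ext w
      constructor
      · rintro ⟨⟨v, b, P, Q, rfl, h1, h2⟩, h3⟩
        refine ⟨⟨((v, b), ((P ++ Q).map φ).prod), ?_⟩, Language.mem_mul.2 ⟨P, h1, Q, h2, rfl⟩, rfl⟩
        show b - act v ((P ++ Q).map φ).prod = y
        rw [hex P Q v b h1 h2, h3, add_sub_cancel_left]
      · rintro ⟨⟨⟨⟨v, b⟩, s⟩, hp⟩, hw, hs⟩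
        obtain ⟨P, h1, Q, h2, rfl⟩ := Language.mem_mul.1 hw
        refine ⟨⟨v, b, P, Q, rfl, h1, h2⟩, ?_⟩
        have hs' : ((P ++ Q).map φ).prod = s := hs
        have hp' : b - act v s = y := hp
        have h3 := hex P Q v b h1 h2
        rw [← hp', h3, hs', add_sub_cancel_left]
    rw [e]; exact h1
  by_cases hy : y = 0
  · have e : (lg fun X => nu' lam rho nu1 X = y) =
        (lg fun X => HasCut lam rho X ∧ nu1 X = y) + (lg fun X => HasCut lam rho X)ᶜ := by
      ext w
      constructor
      · intro h
        have h' : nu' lam rho nu1 w = y := h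
        unfold nu' at h'
        by_cases hc : HasCut lam rho w
        · rw [if_pos hc] at h'; exact Or.inl ⟨hc, h'⟩
        · exact Or.inr hc
      · rintro (⟨h1, h2⟩ | h1)
        · show nu' lam rho nu1 w = y
          unfold nu'; rw [if_pos h1]; exact h2
        · show nu' lam rho nu1 w = y
          have h1' : ¬ HasCut lam rho w := h1
          unfold nu'; rw [if_neg h1', hy]
    rw [e]; exact hval.add hcut.compl
  · have e : (lg fun X => nu' lam rho nu1 X = y) =
        (lg fun X => HasCut lam rho X ∧ nu1 X = y) := by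
      ext w
      constructor
      · intro h
        have h' : nu' lam rho nu1 w = y := h
        unfold nu' at h'
        by_cases hc : HasCut lam rho w
        · rw [if_pos hc] at h'; exact ⟨hc, h'⟩
        · rw [if_neg hc] at h'; exact absurd h'.symm hy
      · rintro ⟨h1, h2⟩
        show nu' lam rho nu1 w = y
        unfold nu'; rw [if_pos h1]; exact h2
    rw [e]; exact hval

end nu

end Crest.Agent.R320.Join_185
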