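import Crest.Agent.R320.Top5_120
import Crest.Agent.R320.Sc2n_937

set_option autoImplicit false

namespace Crest.Agent.R320.JoinA_224

open Crest.RegLang Crest.Agent.R320.Hk_851 Crest.Agent.R320.Sc2n_937

variable {α S V : Type} [Monoid S] [AddCommGroup V]

/-- value of a word -/
def ph (f : α → S) (w : List α) : S := (w.map f).prod

theorem ph_append (f : α → S) (u w : List α) : ph f (u ++ w) = ph f u * ph f w := by
  simp [ph]

def nuX (g : Geo α) (act : V → S → V) (f : α → S) (nu1 nu2 : List α → V) (X : List α) : V :=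
  act (nu2 (X.take g.p0)) (ph f (X.drop g.p0)) + nu1 (X.drop g.p0)

section
variable (g : Geo α) (act : V → S → V) (f : α → S) (nu1 nu2 : List α → V)
variable (hadd : ∀ a b s, act (a + b) s = act a s + act b s)
  (hmul : ∀ v s t, act v (s * t) = act (act v s) t)

abbrev pre (act : V → S → V) (f : α → S) (nu2 : List α → V) (Y : List α) (v : V) : V :=
  act v (ph f Y) + nu2 Y
abbrev post (act : V → S → V) (f : α → S) (nu1 : List α → V) (v : V) (Y : List α) : V :=
  act v (ph f Y) + nu1 Y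

include hadd hmul in
theorem T_eq (v : V) (X : List α) :
    g.T (pre act f nu2) (post act f nu1) v X = act v (ph f X) + nuX g act f nu1 nu2 X := by
  have h : ph f X = ph f (X.take g.p0) * ph f (X.drop g.p0) := by
    rw [← ph_append, List.take_append_drop]
  unfold Geo.T pre post nuX
  rw [hadd, h, hmul, add_assoc]

def C (g : Geo α) : Set (List α) := {X | g.XX X}
def Bad (g : Geo α) (BadT : ℕ → Prop) : Set (List α) := {X | g.XX X ∧ g.BadX BadT X}

variable (BadT : ℕ → Prop) (lam rho : List α → Option V)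

include hadd hmul in
theorem hcc1 (hlen : ∀ P v, lam P = some v → P.length ≤ g.N1)
    (hex : ∀ P Q u b, lam P = some u → rho Q = some b → b = act u (ph f (P ++ Q)) + nu1 (P ++ Q))
    (Z0 : ℕ) (hZ0 : Z0 + g.p0 ≤ g.z)
    (hcomp : ∀ Y : List α, Z0 ≤ Y.length → ¬ BadT Y.length → ∀ v, ∃ P Q, Y = P ++ Q ∧
      lam P = some v ∧ (rho Q).isSome) :
    ∀ X ∈ C g, X ∉ Bad g BadT → ∀ v, ∃ P Q, P ++ Q = X ∧
      P ∈ ({P | g.LP1 (pre act f nu2) lam v P} : Set (List α)) ∧
      ∀ x, ∀ P' ∈ ({P | g.LP1 (pre act f nu2) lam x P} : Set (List α)), P' ++ Q ∈ C g ∧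
        act x (ph f (P' ++ Q)) + nuX g act f nu1 nu2 (P' ++ Q) =
          act v (ph f X) + nuX g act f nu1 nu2 X := by
  intro X hX hb v
  have hX' : g.XX X := hX
  have hE : ¬ g.E X := fun h => hb ⟨hX', Or.inl h⟩
  have hB : ¬ BadT (X.length - g.p0) := fun h => hb ⟨hX', Or.inr h⟩
  obtain ⟨P, Q, b, h1, h2, h3⟩ := g.complete1 (pre act f nu2) hlen hX' hE (fun u => by
    have hl : (X.drop g.p0).length = X.length - g.p0 := List.length_drop ..
    have := hX'.1
    obtain ⟨P, Q, h1, h2, h3⟩ := hcomp (X.drop g.p0) (by omega) (by rw [hl]; exact hB) u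
    exact ⟨P, Q, h1, h2, h3⟩) v
  have hpost : ∀ P Q u b, lam P = some u → rho Q = some b → b = post act f nu1 u (P ++ Q) := hex
  refine ⟨P, Q, h1.symm, h2, fun x P' hP' => ?_⟩
  have e1 := g.sound1 (pre act f nu2) (post act f nu1) hlen hpost h2 h3
  have e2 := g.sound1 (pre act f nu2) (post act f nu1) hlen hpost (show g.LP1 _ lam x P' from hP') h3
  refine ⟨e2.1, ?_⟩
  rw [← T_eq g act f nu1 nu2 hadd hmul, ← T_eq g act f nu1 nu2 hadd hmul, e2.2, h1, e1.2]

variable (K C0 : ℕ) (c : ℕ → ℕ) (lam2 rho2 : ℕ → List α → Option V)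

include hadd hmul in
theorem hcc2 (hc : ∀ k, k < K → c k ≤ g.p0)
    (hex2 : ∀ k, k < K → ∀ P Q v u, P.length = c k → Q.length = g.p0 - c k →
      lam2 k P = some v → rho2 k Q = some u → u = act v (ph f (P ++ Q)) + nu2 (P ++ Q))
    (hgap : ∀ P Q : List α, g.Wo P → g.Wo (P ++ Q) → Q ≠ [] → 2 * g.p0 + 2 * g.N1 < Q.length)
    (hsp : ∀ k k' l l', k < K → k' < K → l < K → l' < K → k' ≠ k → l' ≠ l →
      c k + c l' < c l + c k' + 2 * g.N1 → c l + c k' < c k + c l' + 2 * g.N1 → k = l)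
    (hthin : ∀ τ, g.z ≤ τ + g.p0 → ∀ J : Finset ℕ, (∀ k ∈ J, k < K ∧
      ∃ k', k' < K ∧ k' ≠ k ∧ BadT (τ + c k' - c k - g.p0)) → J.card ≤ C0)
    (hcomp2 : ∀ u : List α, g.p0 ≤ u.length → ∀ v : V, ∃ I : Finset ℕ, 2 * C0 + 2 ≤ I.card ∧
      ∀ k ∈ I, k < K ∧ lam2 k ((u.take g.p0).take (c k)) = some v ∧
        (rho2 k ((u.take g.p0).drop (c k))).isSome) :
    ∀ X ∈ Bad g BadT, ∀ Y ∈ Bad g BadT, ∀ v, ∃ P Q, P ++ Q = X ++ Y ∧
      P ∈ ({P | Geo.LP2 K c lam2 v P} : Set (List α)) ∧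
      ∀ x, ∀ P' ∈ ({P | Geo.LP2 K c lam2 x P} : Set (List α)),
        (∃ X' ∈ Bad g BadT, ∃ Y' ∈ C g, X' ++ Y' = P' ++ Q ∧
          act (act x (ph f X') + nuX g act f nu1 nu2 X') (ph f Y') + nuX g act f nu1 nu2 Y' =
            act (act v (ph f X) + nuX g act f nu1 nu2 X) (ph f Y) + nuX g act f nu1 nu2 Y) ∨
        (∃ X' ∈ C g, X' ∉ Bad g BadT ∧ X' <+: P' ++ Q) := by
  intro X hX Y hY v
  have hex' : ∀ k, k < K → ∀ P Q v u, P.length = c k → Q.length = g.p0 - c k →
      lam2 k P = some v → rho2 k Q = some u → u = pre act f nu2 (P ++ Q) v := hex2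
  have hXz := hX.1.1
  have hz := g.hz
  obtain ⟨P, Q, b, h1, h2, h3⟩ := g.complete2 (pre act f nu2) (post act f nu1) (BadT := BadT)
    (lam2 := lam2) (rho2 := rho2) (C0 := C0) hc hgap hsp hthin hX.1 hY.1 v (by
      obtain ⟨I, hI, h⟩ := hcomp2 X (by omega) v
      refine ⟨I, hI, fun k hk => ?_⟩
      obtain ⟨a1, a2, a3⟩ := h k hk
      refine ⟨a1, ?_, a3⟩
      rw [List.take_take, Nat.min_eq_left (hc k a1)] at a2
      exact a2)
  refine ⟨P, Q, h1, h2, fun x P' hP' => ?_⟩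
  -- value of the true parse
  obtain ⟨X2, hX2, e2, t2⟩ := g.sound2 (pre act f nu2) (post act f nu1) hc hex' hX.1 hX.2 h2 h3
    (R := []) (R' := Y) (by rw [List.append_nil]; exact h1)
  have hYX : X2 = Y := List.append_cancel_left (e2.symm.trans h1)
  subst hYX
  obtain ⟨k', hk', hPl', hl'⟩ := id hP'
  obtain ⟨k, hk, l, hend, hgood, hX2', u, hr, hb⟩ := id h3
  by_cases hkk : k' = k
  · subst hkk
    have hbl : g.XX (P' ++ Q.take l) := g.xx_of_cend (by rw [hPl']; exact hc k' hk')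
      (by rw [hPl']; exact hend)
    by_cases hbad : P' ++ Q.take l ∈ Bad g BadT
    · left
      obtain ⟨Y', hY', e3, t3⟩ := g.sound2 (pre act f nu2) (post act f nu1) hc hex' hbad.1 hbad.2
        (show Geo.LP2 K c lam2 x P' from hP') h3 (R := []) (R' := Q.drop l) (by
          rw [List.append_nil, List.append_assoc, List.take_append_drop])
      refine ⟨_, hbad, Y', hY', e3.symm, ?_⟩
      rw [← T_eq g act f nu1 nu2 hadd hmul, ← T_eq g act f nu1 nu2 hadd hmul,
        ← T_eq g act f nu1 nu2 hadd hmul, ← T_eq g act f nu1 nu2 hadd hmul, t3, t2]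
    · right
      refine ⟨_, hbl, hbad, ⟨Q.drop l, ?_⟩⟩
      rw [List.append_assoc, List.take_append_drop]
  · right
    obtain ⟨l', he', hg'⟩ := hgood k' hk' hkk
    have hbl : g.XX (P' ++ Q.take l') := g.xx_of_cend (by rw [hPl']; exact hc k' hk')
      (by rw [hPl']; exact he')
    refine ⟨_, hbl, fun hbad => ?_, ⟨Q.drop l', ?_⟩⟩
    · apply hg'
      have := g.cbad_of_bad (BadT := BadT) (P := P') (Q := Q) (l := l')
        (by rw [hPl']; exact hc k' hk') (by rw [hPl']; exact he') hbad.2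
      rw [hPl'] at this
      exact this
    · rw [List.append_assoc, List.take_append_drop]

end

end Crest.Agent.R320.JoinA_224
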