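import Crest.Agent.R320.Top5_120
import Crest.Agent.R320.Sc2n_937
import Crest.Agent.R320.P4_933
import Crest.Agent.R320.Thin_963

/-! Row 320, join (helper265), part A: regularity with the value behind a prefix; the two
semantic completeness statements of `Top5_120.top5` from `Sc2n_937`. -/

set_option autoImplicit false

namespace Crest.Agent.R320.JoinA265

open Crest.Agent.R320.P4_933 Crest.Agent.R320.Sc2n_937

universe u

variable {α : Type u}

theorem regular' [Finite α] {S : Type*} [Monoid S] [Finite S] (φ : α → S) (A M0 : ℕ)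
    (hM : 0 < M0) (f : List α → Prop)
    (hf : ∀ u u' : List α, A ≤ u.length → A ≤ u'.length → u.take A = u'.take A →
      u.length % M0 = u'.length % M0 → ((u.drop A).map φ).prod = ((u'.drop A).map φ).prod →
      (f u ↔ f u')) :
    Language.IsRegular ({u | f u} : Language α) := by
  classical
  haveI : NeZero M0 := ⟨by omega⟩
  have hfin : Finite {l : List α // l.length ≤ A} := List.finite_length_le α A
  let σ := {l : List α // l.length ≤ A} × ZMod M0 × S
  haveI : Fintype σ := Fintype.ofFinite σ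
  let st : List α → σ := fun u =>
    (⟨u.take A, by rw [List.length_take]; omega⟩, (u.length : ZMod M0),
      ((u.drop A).map φ).prod)
  let M : DFA α σ :=
    { step := fun q a =>
        (if h : q.1.1.length < A then ⟨q.1.1 ++ [a], by simp; omega⟩ else q.1,
          q.2.1 + 1, if q.1.1.length < A then 1 else q.2.2 * φ a)
      start := st []
      accept := {q | ∃ u, f u ∧ st u = q} }
  have hev : ∀ u, M.eval u = st u := by
    intro u
    induction u using List.reverseRecOn with
    | nil => rfl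
    | append_singleton u a ih =>
      rw [DFA.eval_append_singleton, ih]
      refine Prod.ext ?_ (Prod.ext ?_ ?_)
      · apply Subtype.ext
        show (if h : (u.take A).length < A then (⟨u.take A ++ [a], by simp at h ⊢; omega⟩ :
          {l : List α // l.length ≤ A}) else ⟨u.take A, by rw [List.length_take]; omega⟩).1
          = (u ++ [a]).take A
        rw [take_snoc]
        split_ifs <;> rfl
      · show (u.length : ZMod M0) + 1 = (((u ++ [a]).length : ℕ) : ZMod M0)
        simp
      · show (if (u.take A).length < A then 1 else ((u.drop A).map φ).prod * φ a) =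
          (((u ++ [a]).drop A).map φ).prod
        rw [List.length_take]
        by_cases h : u.length < A
        · rw [if_pos (by omega), List.drop_of_length_le (by simp; omega)]
          simp
        · rw [if_neg (by omega), List.drop_append_of_le_length (by omega)]
          simp
  refine Language.isRegular_iff.2 ⟨σ, inferInstance, M, ?_⟩
  ext u
  rw [DFA.mem_accepts, hev]
  constructor
  · rintro ⟨u', h1, h2⟩
    have e1 : u'.take A = u.take A := congrArg (fun q : σ => q.1.1) h2
    have e2 : (u'.length : ZMod M0) = (u.length : ZMod M0) := congrArg (fun q : σ => q.2.1) h2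
    have e3 : ((u'.drop A).map φ).prod = ((u.drop A).map φ).prod :=
      congrArg (fun q : σ => q.2.2) h2
    have e2' : u'.length % M0 = u.length % M0 := (ZMod.natCast_eq_natCast_iff' _ _ _).1 e2
    have e4 := congrArg List.length e1
    rw [List.length_take, List.length_take] at e4
    by_cases h : u.length < A
    · rw [List.take_of_length_le (by omega), List.take_of_length_le (by omega)] at e1
      rw [← e1]; exact h1
    · exact (hf u' u (by omega) (by omega) e1 e2' e3).1 h1
  · intro h
    exact ⟨u, h, rfl⟩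

section

variable {V : Type*} (g : Geo α) {pre : List α → V → V} {post : V → List α → V}

theorem cc1 {lam rho : List α → Option V}
    (hlen : ∀ P v, lam P = some v → P.length ≤ g.N1)
    (hex : ∀ P Q u b, lam P = some u → rho Q = some b → b = post u (P ++ Q))
    {X : List α} (hX : g.XX X) (hE : ¬ g.E X)
    (hc : ∀ u : V, ∃ P Q, X.drop g.p0 = P ++ Q ∧ lam P = some u ∧ (rho Q).isSome) (v : V) :
    ∃ P Q, P ++ Q = X ∧ g.LP1 pre lam v P ∧ ∀ x, ∀ P', g.LP1 pre lam x P' →
      g.XX (P' ++ Q) ∧ g.T pre post x (P' ++ Q) = g.T pre post v X := by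
  obtain ⟨P, Q, b, e, hP, hQ⟩ := g.complete1 pre hlen hX hE hc v
  refine ⟨P, Q, e.symm, hP, fun x P' hP' => ?_⟩
  have h1 := g.sound1 pre post hlen hex hP' hQ
  have h2 := g.sound1 pre post hlen hex hP hQ
  refine ⟨h1.1, ?_⟩
  rw [h1.2, e, h2.2]

theorem cc2 {BadT : ℕ → Prop} {K : ℕ} {c : ℕ → ℕ} {lam2 rho2 : ℕ → List α → Option V}
    {C0 : ℕ}
    (hinj : ∀ k k', k < K → k' < K → c k = c k' → k = k')
    (hc : ∀ k, k < K → c k ≤ g.p0)
    (hex : ∀ k, k < K → ∀ P Q v u, P.length = c k → Q.length = g.p0 - c k →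
      lam2 k P = some v → rho2 k Q = some u → u = pre (P ++ Q) v)
    (hgap : ∀ P Q : List α, g.Wo P → g.Wo (P ++ Q) → Q ≠ [] → 2 * g.p0 + 2 * g.N1 < Q.length)
    (hsp : ∀ k k' l l', k < K → k' < K → l < K → l' < K → k' ≠ k → l' ≠ l →
      c k + c l' < c l + c k' + 2 * g.N1 → c l + c k' < c k + c l' + 2 * g.N1 → k = l)
    (hthin : ∀ τ, g.z ≤ τ + g.p0 → ∀ J : Finset ℕ, (∀ k ∈ J, k < K ∧
      ∃ k', k' < K ∧ k' ≠ k ∧ BadT (τ + c k' - c k - g.p0)) → J.card ≤ C0)
    {X X2 : List α} (hX : g.XX X) (hbad : g.BadX BadT X) (hX2 : g.XX X2) (v : V)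
    (hI : ∃ I : Finset ℕ, 2 * C0 + 2 ≤ I.card ∧ ∀ k ∈ I, k < K ∧
      lam2 k (X.take (c k)) = some v ∧ (rho2 k ((X.take g.p0).drop (c k))).isSome) :
    ∃ P Q, P ++ Q = X ++ X2 ∧ Geo.LP2 K c lam2 v P ∧ ∀ x, ∀ P', Geo.LP2 K c lam2 x P' →
      (∃ X', (g.XX X' ∧ g.BadX BadT X') ∧ ∃ Y', g.XX Y' ∧ X' ++ Y' = P' ++ Q ∧
        g.T pre post (g.T pre post x X') Y' = g.T pre post (g.T pre post v X) X2) ∨
      (∃ X', g.XX X' ∧ ¬ (g.XX X' ∧ g.BadX BadT X') ∧ X' <+: P' ++ Q) := by
  obtain ⟨P, Q, b, e, hP, hQ⟩ := g.complete2 pre post hc hgap hsp hthin hX hX2 v hI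
  refine ⟨P, Q, e, hP, fun x P' hP' => ?_⟩
  -- the value of the true text
  obtain ⟨Y2, h1, h2, h3⟩ := g.sound2 pre post (R := []) (R' := X2) hc hex hX hbad hP hQ
    (by rw [List.append_nil, e])
  have h4 : X2 = Y2 := by
    have : X ++ X2 = X ++ Y2 := by rw [← e, h2]
    exact List.append_cancel_left this
  subst h4
  have hval := h3
  -- candidate
  obtain ⟨k1, hk1, hl1, hlam1⟩ := hP'
  obtain ⟨k, hk, l, hend, hgood, hrest⟩ := id hQ
  by_cases hkk : k1 = k
  · subst hkk
    have hend' : g.CEnd Q P'.length l := by rw [hl1]; exact hend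
    have hXX := g.xx_of_cend (by rw [hl1]; exact hc k1 hk1) hend'
    by_cases hb : g.BadX BadT (P' ++ Q.take l)
    · left
      obtain ⟨Z, a1, a2, a3⟩ := g.sound2 pre post (R := []) (R' := Q.drop l) hc hex hXX hb
        ⟨k1, hk1, hl1, hlam1⟩ hQ (by
          rw [List.append_nil, List.append_assoc, List.take_append_drop])
      exact ⟨_, ⟨hXX, hb⟩, Z, a1, a2.symm, a3.trans hval.symm⟩
    · right
      refine ⟨P' ++ Q.take l, hXX, fun h => hb h.2, ⟨Q.drop l, ?_⟩⟩
      rw [List.append_assoc, List.take_append_drop]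
  · right
    obtain ⟨l', he', hg'⟩ := hgood k1 hk1 hkk
    have hend' : g.CEnd Q P'.length l' := by rw [hl1]; exact he'
    have hXX := g.xx_of_cend (by rw [hl1]; exact hc k1 hk1) hend'
    refine ⟨P' ++ Q.take l', hXX, fun h => hg' ?_, ⟨Q.drop l', ?_⟩⟩
    · have := g.cbad_of_bad (by rw [hl1]; exact hc k1 hk1) hend' h.2
      rw [hl1] at this
      exact this
    · rw [List.append_assoc, List.take_append_drop]

end

end Crest.Agent.R320.JoinA265
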