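import Crest.Agent.R320.Inst_272
import Crest.Agent.R320.Top5_120
import Crest.Agent.R320.P4_933

/-!
# Row 320: `Inst_272.Data.Ok` + finite-state noise + walls of all words give height three (helper272)
-/

set_option autoImplicit false

namespace Crest.Agent.R320.JoinA_272

open Crest.RegLang Crest.Agent.R320.Hk_851 Crest.Agent.R320.Inst_272
  Crest.Agent.R320.BddReg_746

universe u

variable {α : Type u}

/-- finite-state properties (prefix of length `A`, length mod `M0`, product behind `p`) -/
theorem regular_of_class [Finite α] {S : Type*} [Monoid S] [Finite S] (φ : α → S) (A p M0 : ℕ)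
    (hp : p ≤ A) (hM : 0 < M0) (f : List α → Prop)
    (hf : ∀ u u' : List α, A ≤ u.length → A ≤ u'.length → u.take A = u'.take A →
      u.length % M0 = u'.length % M0 → ((u.drop p).map φ).prod = ((u'.drop p).map φ).prod →
      (f u ↔ f u')) :
    Language.IsRegular ({u | f u} : Language α) := by
  classical
  haveI : NeZero M0 := ⟨by omega⟩
  have hfin : Finite {l : List α // l.length ≤ A} := List.finite_length_le α A
  let σ := {l : List α // l.length ≤ A} × ZMod M0 × S
  haveI : Fintype σ := Fintype.ofFinite σ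
  let st : List α → σ := fun u =>
    (⟨u.take A, by rw [List.length_take]; omega⟩, (u.length : ZMod M0), ((u.drop p).map φ).prod)
  let M : DFA α σ :=
    { step := fun q a =>
        (if h : q.1.1.length < A then ⟨q.1.1 ++ [a], by simp; omega⟩ else q.1,
          q.2.1 + 1, if q.1.1.length < p then q.2.2 else q.2.2 * φ a)
      start := st []
      accept := {q | ∃ u, f u ∧ st u = q} }
  have hev : ∀ u, M.eval u = st u := by
    intro u
    induction u using List.reverseRecOn with
    | nil => rfl
    | append_singleton u a ih =>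
      rw [DFA.eval_append_singleton, ih]
      refine Prod.ext ?_ (Prod.ext ?_ ?_)
      · apply Subtype.ext
        show (if h : (u.take A).length < A then (⟨u.take A ++ [a], by simp at h ⊢; omega⟩ :
          {l : List α // l.length ≤ A}) else ⟨u.take A, by rw [List.length_take]; omega⟩).1
          = (u ++ [a]).take A
        rw [P4_933.take_snoc]
        split_ifs <;> rfl
      · show (u.length : ZMod M0) + 1 = (((u ++ [a]).length : ℕ) : ZMod M0)
        simp
      · show (if (u.take A).length < p then ((u.drop p).map φ).prod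
          else ((u.drop p).map φ).prod * φ a) = (((u ++ [a]).drop p).map φ).prod
        rw [List.length_take]
        by_cases hlt : u.length < p
        · rw [if_pos (by omega), List.drop_of_length_le (by omega),
            List.drop_of_length_le (by simp; omega)]
        · rw [if_neg (by omega), List.drop_append_of_le_length (by omega)]
          simp
  refine Language.isRegular_iff.2 ⟨σ, inferInstance, M, ?_⟩
  ext u
  rw [DFA.mem_accepts, hev]
  constructor
  · rintro ⟨u', h1, h2⟩
    have e1 : u'.take A = u.take A := congrArg (fun q : σ => q.1.1) h2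
    have e2 : (u'.length : ZMod M0) = (u.length : ZMod M0) := congrArg (fun q : σ => q.2.1) h2
    have e3 : ((u'.drop p).map φ).prod = ((u.drop p).map φ).prod :=
      congrArg (fun q : σ => q.2.2) h2
    have e2' : u'.length % M0 = u.length % M0 := (ZMod.natCast_eq_natCast_iff' _ _ _).1 e2
    have e4 := congrArg List.length e1
    rw [List.length_take, List.length_take] at e4
    by_cases h : u.length < A
    · rw [List.take_of_length_le (by omega), List.take_of_length_le (by omega)] at e1
      rw [← e1]; exact h1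
    · exact (hf u' u (by omega) (by omega) e1 e2' e3).1 h1
  · intro h
    exact ⟨u, h, rfl⟩

theorem row [Finite α] {S V : Type*} [Monoid S] [Finite S] [AddCommGroup V] [Finite V]
    (D : Data α V S) (h : D.Ok) (f : α → S) (hphi : ∀ w, D.φ w = (w.map f).prod)
    (hone : ∀ v, D.act v 1 = v) (hfaith : ∀ s t, (∀ v, D.act v s = D.act v t) → s = t)
    {B R : ℕ}
    (free : ∀ u : List α, (∀ t < u.length, ¬ D.Wo (u.take t)) → u ∈ (PN B R : Language α))
    (A M0 : ℕ) (hM0 : 0 < M0)
    (hnu1 : ∀ Y Y' : List α, A ≤ Y.length → A ≤ Y'.length → Y.take A = Y'.take A →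
      Y.length % M0 = Y'.length % M0 → D.φ Y = D.φ Y' → D.nu1 Y = D.nu1 Y')
    (hBT : ∀ t t', A ≤ t → A ≤ t' → t % M0 = t' % M0 → (D.BadT t ↔ D.BadT t')) (s : S) :
    HL 3 ({w | (w.map f).prod = s} : Language α) := by
  classical
  have hz := h.hz
  set A' := A + D.p0 + D.z + D.N1 with hA'
  -- the class function
  have cls : ∀ u u' : List α, A' ≤ u.length → A' ≤ u'.length → u.take A' = u'.take A' →
      u.length % M0 = u'.length % M0 → ((u.drop D.p0).map f).prod = ((u'.drop D.p0).map f).prod →
      (u.map f).prod = (u'.map f).prod ∧ D.nu u = D.nu u' ∧ (D.Bad u ↔ D.Bad u') := by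
    intro u u' h1 h2 h3 h4 h5
    have tk : ∀ t, t ≤ A' → u.take t = u'.take t := by
      intro t ht
      have := congrArg (List.take t) h3
      rwa [List.take_take, List.take_take, Nat.min_eq_left ht] at this
    have e0 := tk D.p0 (by omega)
    have hprod : (u.map f).prod = (u'.map f).prod := by
      rw [← List.take_append_drop D.p0 u, ← List.take_append_drop D.p0 u', List.map_append,
        List.map_append, List.prod_append, List.prod_append, h5, e0]
    have hmod : (u.length - D.p0) % M0 = (u'.length - D.p0) % M0 := by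
      have a1 : (u.length - D.p0) + D.p0 ≡ (u'.length - D.p0) + D.p0 [MOD M0] := by
        rw [Nat.sub_add_cancel (by omega), Nat.sub_add_cancel (by omega)]
        exact h4
      exact Nat.ModEq.add_right_cancel' D.p0 a1
    refine ⟨hprod, ?_, ?_⟩
    · unfold Data.nu
      have e1 : D.φ (u.drop D.p0) = D.φ (u'.drop D.p0) := by rw [hphi, hphi, h5]
      have e2 : D.nu1 (u.drop D.p0) = D.nu1 (u'.drop D.p0) := by
        apply hnu1
        · rw [List.length_drop]; omega
        · rw [List.length_drop]; omega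
        · have := congrArg (List.drop D.p0) (tk (D.p0 + A) (by omega))
          rwa [List.drop_take, List.drop_take, Nat.add_sub_cancel_left] at this
        · rw [List.length_drop, List.length_drop]; exact hmod
        · exact e1
      rw [e0, e1, e2]
    · unfold Data.Bad
      rw [hBT (u.length - D.p0) (u'.length - D.p0) (by omega) (by omega) hmod]
      constructor
      · rintro (a | ⟨y, a1, a2, a3, a4⟩ | a)
        · omega
        · exact Or.inr (Or.inl ⟨y, by omega, a2, a3, by rw [← tk y (by omega)]; exact a4⟩)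
        · exact Or.inr (Or.inr a)
      · rintro (a | ⟨y, a1, a2, a3, a4⟩ | a)
        · omega
        · exact Or.inr (Or.inl ⟨y, by omega, a2, a3, by rw [tk y (by omega)]; exact a4⟩)
        · exact Or.inr (Or.inr a)
  have hmemXX : ∀ X : List α, X ∈ D.XX ↔ P4_933.XX D.Wo D.z X := fun X =>
    ⟨fun ⟨a, b, c⟩ => ⟨b, a, c⟩, fun ⟨a, b, c⟩ => ⟨b, a, c⟩⟩
  have hTX : ∀ X ∈ D.XX, ∀ v, D.T v X = D.act v (X.map f).prod + D.nu X := by
    intro X hX v
    rw [h.hT X hX v, hphi]
  let Bad : Set (List α) := {X | X ∈ D.XX ∧ D.Bad X}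
  have hPC : Blk467.PCode D.XX := ⟨h.hnil, by
    rintro X hX Y hY ⟨Z, rfl⟩
    rw [h.hPC X hX Z hY, List.append_nil]⟩
  refine Top5_120.top5 (S := S) (V := V) D.act (fun a b s => h.act_add a b s) hone
    (fun v s t => (h.act_mul v s t).symm) hfaith f D.nu D.XX Bad hPC (fun X hX => hX.1)
    (fun v => {P | D.LP1 P v}) (fun v => {P | D.LP2 P v}) ?_ ?_ ?_ ?_ ?_ ?_ ?_ s
  · -- finite L1
    intro v
    refine (List.finite_length_le α (D.p0 + D.N1)).subset ?_
    rintro P ⟨h1, h2⟩
    have := h.u_len _ _ h2
    rw [List.length_drop] at this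
    show P.length ≤ D.p0 + D.N1
    omega
  · intro v
    refine (List.finite_length_le α D.Lam).subset ?_
    rintro P ⟨k, hk, h1, h2⟩
    show P.length ≤ D.Lam
    rw [h1]
    exact (h.hK k hk).1
  · -- hCT
    intro x y
    have hreg := regular_of_class f A' D.p0 M0 (by omega) hM0
      (fun X => D.act x (X.map f).prod + D.nu X = y)
      (fun u u' h1 h2 h3 h4 h5 => by
        obtain ⟨c1, c2, c3⟩ := cls u u' h1 h2 h3 h4 h5
        rw [c1, c2])
    exact (P4_933.hl_XX (z := D.z) h.w_loc h.w_len free hreg).congr fun X =>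
      and_congr_left fun _ => hmemXX X
  · -- hBT
    intro x y
    have hreg := regular_of_class f A' D.p0 M0 (by omega) hM0
      (fun X => D.Bad X ∧ D.act x (X.map f).prod + D.nu X = y)
      (fun u u' h1 h2 h3 h4 h5 => by
        obtain ⟨c1, c2, c3⟩ := cls u u' h1 h2 h3 h4 h5
        rw [c1, c2, c3])
    refine (P4_933.hl_XX (z := D.z) h.w_loc h.w_len free hreg).congr fun X => ?_
    constructor
    · rintro ⟨⟨a, b⟩, c⟩
      exact ⟨(hmemXX X).1 a, b, c⟩
    · rintro ⟨a, b, c⟩
      exact ⟨⟨(hmemXX X).2 a, b⟩, c⟩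
  · -- tail
    intro s'
    have hreg := regular_of_class f A' D.p0 M0 (by omega) hM0
      (fun X => (X.map f).prod = s')
      (fun u u' h1 h2 h3 h4 h5 => by
        obtain ⟨c1, c2, c3⟩ := cls u u' h1 h2 h3 h4 h5
        rw [c1])
    refine (P4_933.hl_NB (z := D.z) h.w_loc h.w_len free hreg).congr fun X => ?_
    constructor
    · rintro ⟨a, b⟩
      refine ⟨(P4_933.NB_iff D.Wo D.z X).2 ?_, b⟩
      intro P hP hPX
      exact a P ((hmemXX P).2 hPX) hP
    · rintro ⟨a, b⟩
      refine ⟨fun P hP hPX => ?_, b⟩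
      exact (P4_933.NB_iff D.Wo D.z X).1 a P hPX ((hmemXX P).1 hP)
  · -- hcc1
    intro X hX hXb v
    have hb : ¬ D.Bad X := fun hb => hXb ⟨hX, hb⟩
    obtain ⟨P, Q, e, hP, hQ⟩ := h.complete1 hX hb v
    obtain ⟨b, hb'⟩ := Option.isSome_iff_exists.1 hQ
    refine ⟨P, Q, e.symm, hP, fun x P' hP' => ?_⟩
    obtain ⟨m1, m2⟩ := h.s1 P v Q b hP hb'
    obtain ⟨m3, m4⟩ := h.s1 P' x Q b hP' hb'
    refine ⟨m3, ?_⟩
    rw [← hTX _ m3, ← hTX X hX, m4, e, m2]
  · -- hcc2
    rintro X ⟨hX, hXb⟩ Y ⟨hY, -⟩ v
    obtain ⟨P, Q, e, hP, hQ, _⟩ := h.cc2 X hX Y hY v hXb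
    obtain ⟨b, hb'⟩ := Option.isSome_iff_exists.1 hQ
    refine ⟨P, Q, e.symm, hP, fun x P' hP' => ?_⟩
    have key : ∀ x P', D.LP2 P' x → (∃ X' ∈ Bad, ∃ Y' ∈ D.XX, X' ++ Y' = P' ++ Q ∧
        D.T (D.T x X') Y' = b) ∨ (∃ X' ∈ D.XX, X' ∉ Bad ∧ X' <+: P' ++ Q) := by
      intro x P' hP'
      by_cases hc : ∃ X' ∈ D.XX, X' ∉ Bad ∧ X' <+: P' ++ Q
      · exact Or.inr hc
      left
      push Not at hc
      obtain ⟨Q1, X2, e1, e2, e3, e4, e5⟩ := h.s2' P' x Q b hP' hb'
        (fun X' hX' hpre => by
          by_contra hnb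
          exact hc X' hX' (fun hB => hnb hB.2) hpre)
      refine ⟨P' ++ Q1, ⟨e3, ?_⟩, X2, e4, by rw [e1, List.append_assoc], e5⟩
      by_contra hnb
      exact hc _ e3 (fun hB => hnb hB.2) (by rw [e1, ← List.append_assoc]; exact List.prefix_append _ _)
    have hval : D.T (D.T v X) Y = b := by
      rcases key v P hP with ⟨X', hX', Y', hY', e1, e2⟩ | ⟨X', hX', hB', hpre⟩
      · have e3 : X' ++ Y' = X ++ Y := by rw [e1, ← e]
        have e4 : X' = X := by
          rcases List.append_eq_append_iff.1 e3 with ⟨a, c1, c2⟩ | ⟨a, c1, c2⟩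
          · have := h.hPC X' hX'.1 a (by rw [← c1]; exact hX)
            rw [c1, this, List.append_nil]
          · have := h.hPC X hX a (by rw [← c1]; exact hX'.1)
            rw [c1, this, List.append_nil]
        subst e4
        have e5 : Y' = Y := List.append_cancel_left e3
        rw [← e5]; exact e2
      · exfalso
        rw [← e] at hpre
        have e4 : X' = X := by
          rcases List.prefix_or_prefix_of_prefix hpre (List.prefix_append X Y) with ⟨a, c1⟩ | ⟨a, c1⟩
          · have := h.hPC X' hX' a (by rw [c1]; exact hX)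
            rw [← c1, this, List.append_nil]
          · have := h.hPC X hX a (by rw [c1]; exact hX')
            rw [← c1, this, List.append_nil]
        exact hB' (by rw [e4]; exact ⟨hX, hXb⟩)
    rcases key x P' hP' with ⟨X', hX', Y', hY', e1, e2⟩ | hr
    · left
      refine ⟨X', hX', Y', hY', e1, ?_⟩
      rw [← hTX Y' hY', ← hTX X' hX'.1, ← hTX Y hY, ← hTX X hX, e2, hval]
    · exact Or.inr hr

end Crest.Agent.R320.JoinA_272
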