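import Crest.Agent.R320.Top5_120
import Crest.Agent.R320.Sc2n_937
import Crest.Agent.R320.P4_933

/-! Row 320: join of `Top5_120.top5`, `Sc2n_937` and `P4_933` (helper329). -/

set_option autoImplicit false

namespace Crest.Agent.R320.JoinA_329

open Crest.RegLang Crest.Agent.R320.Hk_851 Crest.Agent.R320.Blk467 Crest.Agent.R320.BddReg_746
open Crest.Agent.R320

variable {α : Type}

/-- same class : same first `A` letters, same length mod `M0`, same product of the rest -/
def Cls {S : Type*} [Monoid S] (φ : α → S) (A M0 : ℕ) (u u' : List α) : Prop :=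
  A ≤ u.length ∧ A ≤ u'.length ∧ u.take A = u'.take A ∧ u.length % M0 = u'.length % M0 ∧
    ((u.drop A).map φ).prod = ((u'.drop A).map φ).prod

theorem Cls.symm {S : Type*} [Monoid S] {φ : α → S} {A M0 : ℕ} {u u' : List α}
    (h : Cls φ A M0 u u') : Cls φ A M0 u' u :=
  ⟨h.2.1, h.1, h.2.2.1.symm, h.2.2.2.1.symm, h.2.2.2.2.symm⟩

theorem take_eq_of {A j : ℕ} (hj : j ≤ A) {u u' : List α} (h : u.take A = u'.take A) :
    u.take j = u'.take j := by
  have := congrArg (fun l => l.take j) h
  simpa [List.take_take, min_eq_left hj] using this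

theorem drop_prod {S : Type*} [Monoid S] {φ : α → S} {A M0 j : ℕ} {u u' : List α}
    (h : Cls φ A M0 u u') (hj : j ≤ A) :
    ((u.drop j).map φ).prod = ((u'.drop j).map φ).prod := by
  have key : ∀ w : List α, A ≤ w.length → w.drop j = (w.take A).drop j ++ w.drop A := by
    intro w hw
    have h1 : w.drop j = (w.take A ++ w.drop A).drop j := by rw [List.take_append_drop]
    rw [h1, List.drop_append_of_le_length (by rw [List.length_take]; omega)]
  rw [key u h.1, key u' h.2.1, List.map_append, List.map_append, List.prod_append,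
    List.prod_append, h.2.2.1, h.2.2.2.2]

theorem Cls.drop {S : Type*} [Monoid S] {φ : α → S} {A M0 j B : ℕ} {u u' : List α}
    (h : Cls φ A M0 u u') (hj : j + B ≤ A) : Cls φ B M0 (u.drop j) (u'.drop j) := by
  obtain ⟨h1, h2, h3, h4, h5⟩ := h
  refine ⟨?_, ?_, ?_, ?_, ?_⟩
  · rw [List.length_drop]; omega
  · rw [List.length_drop]; omega
  · have := take_eq_of (j := j + B) (by omega) h3
    have := congrArg (fun l => l.drop j) this
    simpa [List.drop_take] using this
  · rw [List.length_drop, List.length_drop]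
    have h4' : (u.length - j) + j ≡ (u'.length - j) + j [MOD M0] := by
      rw [Nat.sub_add_cancel (by omega), Nat.sub_add_cancel (by omega)]
      exact h4
    exact Nat.ModEq.add_right_cancel' j h4'
  · rw [List.drop_drop, List.drop_drop]
    exact drop_prod (A := A) (M0 := M0) ⟨h1, h2, h3, h4, h5⟩ (by omega)

/-- finite-state properties are regular (product of the rest) -/
theorem regular_of_cls [Finite α] {S : Type*} [Monoid S] [Finite S] (φ : α → S) (A M0 : ℕ)
    (hM : 0 < M0) (f : List α → Prop)
    (hf : ∀ u u' : List α, Cls φ A M0 u u' → (f u → f u')) :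
    Language.IsRegular ({u | f u} : Language α) := by
  classical
  haveI : NeZero M0 := ⟨by omega⟩
  have hfin : Finite {l : List α // l.length ≤ A} := List.finite_length_le α A
  let σ := {l : List α // l.length ≤ A} × ZMod M0 × S
  haveI : Fintype σ := Fintype.ofFinite σ
  let st : List α → σ := fun u =>
    (⟨u.take A, by rw [List.length_take]; omega⟩, (u.length : ZMod M0), ((u.drop A).map φ).prod)
  let M : DFA α σ :=
    { step := fun q a =>
        (if h : q.1.1.length < A then ⟨q.1.1 ++ [a], by simp; omega⟩ else q.1,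
          q.2.1 + 1, if q.1.1.length < A then 1 else q.2.2 * φ a)
      start := st []
      accept := {q | ∃ u, f u ∧ st u = q} }
  have hev : ∀ u, M.eval u = st u := by
    intro u
    induction u using List.reverseRecOn with
    | nil => rfl
    | append_singleton u a ih =>
      rw [DFA.eval_append_singleton, ih]
      refine Prod.ext ?_ (Prod.ext ?_ ?_)
      · apply Subtype.ext
        show (if h : (u.take A).length < A then (⟨u.take A ++ [a], by simp at h ⊢; omega⟩ :
          {l : List α // l.length ≤ A}) else ⟨u.take A, by rw [List.length_take]; omega⟩).1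
          = (u ++ [a]).take A
        rw [P4_933.take_snoc]
        split_ifs <;> rfl
      · show (u.length : ZMod M0) + 1 = (((u ++ [a]).length : ℕ) : ZMod M0)
        simp
      · show (if (u.take A).length < A then 1 else ((u.drop A).map φ).prod * φ a) =
          (((u ++ [a]).drop A).map φ).prod
        by_cases h : u.length < A
        · have h1 : (u.take A).length < A := by rw [List.length_take]; omega
          rw [if_pos h1, List.drop_of_length_le (by simp; omega)]
          rfl
        · have h1 : ¬ (u.take A).length < A := by rw [List.length_take]; omega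
          rw [if_neg h1, List.drop_append_of_le_length (by omega)]
          simp
  refine Language.isRegular_iff.2 ⟨σ, inferInstance, M, ?_⟩
  ext u
  rw [DFA.mem_accepts, hev]
  constructor
  · rintro ⟨u', h1, h2⟩
    have e1 : u'.take A = u.take A := congrArg (fun q : σ => q.1.1) h2
    have e2 : (u'.length : ZMod M0) = (u.length : ZMod M0) := congrArg (fun q : σ => q.2.1) h2
    have e3 : ((u'.drop A).map φ).prod = ((u.drop A).map φ).prod :=
      congrArg (fun q : σ => q.2.2) h2
    have e2' : u'.length % M0 = u.length % M0 := (ZMod.natCast_eq_natCast_iff' _ _ _).1 e2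
    have e4 := congrArg List.length e1
    rw [List.length_take, List.length_take] at e4
    by_cases h : u.length < A
    · rw [List.take_of_length_le (by omega), List.take_of_length_le (by omega)] at e1
      rw [← e1]; exact h1
    · exact hf u' u ⟨by omega, by omega, e1, e2', e3⟩ h1
  · intro h
    exact ⟨u, h, rfl⟩

/-- **JOIN.** -/
theorem join [Finite α] {S V : Type} [Monoid S] [Finite S] [AddCommGroup V] [Finite V]
    (act : V → S → V)
    (hadd : ∀ a b s, act (a + b) s = act a s + act b s)
    (hone : ∀ v, act v 1 = v) (hmul : ∀ v s t, act v (s * t) = act (act v s) t)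
    (hfaith : ∀ s t, (∀ v, act v s = act v t) → s = t)
    (φ : α → S) (g : Sc2n_937.Geo α) (hlenW : ∀ P, g.Wo P → g.n ≤ P.length)
    (hgap : ∀ P Q : List α, g.Wo P → g.Wo (P ++ Q) → Q ≠ [] → 2 * g.p0 + 2 * g.N1 < Q.length)
    {B R : ℕ}
    (free : ∀ u : List α, (∀ t < u.length, ¬ g.Wo (u.take t)) → u ∈ (PN B R : Language α))
    (nu1 nu2 : List α → V) (lam rho : List α → Option V)
    (lam2 rho2 : ℕ → List α → Option V) (K : ℕ) (c : ℕ → ℕ) (C0 : ℕ) (BadT : ℕ → Prop)
    (h1len : ∀ P v, lam P = some v → P.length ≤ g.N1)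
    (h1ex : ∀ P Q u b, lam P = some u → rho Q = some b →
      b = act u ((P ++ Q).map φ).prod + nu1 (P ++ Q))
    (h1c : ∀ u : List α, g.q0 ≤ u.length → ¬ BadT u.length → ∀ v, ∃ P Q, u = P ++ Q ∧
      lam P = some v ∧ (rho Q).isSome)
    (h2c : ∀ k, k < K → c k ≤ g.p0)
    (h2ex : ∀ k, k < K → ∀ P Q v u, P.length = c k → Q.length = g.p0 - c k →
      lam2 k P = some v → rho2 k Q = some u → u = act v ((P ++ Q).map φ).prod + nu2 (P ++ Q))
    (h2compl : ∀ (u : List α) (v : V), u.length = g.p0 →
      ∃ I : Finset ℕ, 2 * C0 + 2 ≤ I.card ∧ ∀ k ∈ I, k < K ∧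
        lam2 k (u.take (c k)) = some v ∧ (rho2 k (u.drop (c k))).isSome)
    (hsp : ∀ k k' l l', k < K → k' < K → l < K → l' < K → k' ≠ k → l' ≠ l →
      c k + c l' < c l + c k' + 2 * g.N1 → c l + c k' < c k + c l' + 2 * g.N1 → k = l)
    (hthin : ∀ τ, g.z ≤ τ + g.p0 → ∀ J : Finset ℕ, (∀ k ∈ J, k < K ∧
      ∃ k', k' < K ∧ k' ≠ k ∧ BadT (τ + c k' - c k - g.p0)) → J.card ≤ C0)
    (A M0 : ℕ) (hM0 : 0 < M0)
    (hnu1 : ∀ Y Y' : List α, Cls φ A M0 Y Y' → nu1 Y = nu1 Y')
    (hBT : ∀ n n' : ℕ, n % M0 = n' % M0 → (BadT n → BadT n'))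
    (s : S) : HL 3 ({w | (w.map φ).prod = s} : Language α) := by
  classical
  let pre : List α → V → V := fun P v => act v (P.map φ).prod + nu2 P
  let post : V → List α → V := fun v Q => act v (Q.map φ).prod + nu1 Q
  let nu : List α → V := fun X =>
    act (nu2 (X.take g.p0)) ((X.drop g.p0).map φ).prod + nu1 (X.drop g.p0)
  let C : Set (List α) := {X | g.XX X}
  let Bad : Set (List α) := {X | g.XX X ∧ g.BadX BadT X}
  let L1 : V → Set (List α) := fun v => {P | g.LP1 pre lam v P}
  let L2 : V → Set (List α) := fun v => {P | Sc2n_937.Geo.LP2 K c lam2 v P}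
  have hz := g.hz
  have hT : ∀ v X, act v (X.map φ).prod + nu X = g.T pre post v X := by
    intro v X
    have e1 : (X.map φ).prod = ((X.take g.p0).map φ).prod * ((X.drop g.p0).map φ).prod := by
      rw [← List.prod_append, ← List.map_append, List.take_append_drop]
    simp only [nu, Sc2n_937.Geo.T, pre, post]
    rw [e1, hmul, hadd, add_assoc]
  have hXXeq : ∀ X, P4_933.XX g.Wo g.z X ↔ g.XX X := by
    intro X
    constructor
    · rintro ⟨h1, h2, h3⟩
      exact ⟨h2, h1, fun t ht htl => h3 t htl ht⟩
    · rintro ⟨h1, h2, h3⟩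
      exact ⟨h2, h1, fun t htl ht => h3 t ht htl⟩
  have hPC : PCode C := by
    refine ⟨?_, ?_⟩
    · intro h
      have h1 : g.z ≤ ([] : List α).length := h.1
      have h2 := g.hN
      simp at h1
      omega
    · rintro X hX Y hY ⟨r, hr⟩
      exact g.prefix_code (R := r) (R' := []) hX hY (by rw [hr, List.append_nil])
  -- finiteness
  have hf1 : ∀ v, (L1 v).Finite := by
    intro v
    refine (List.finite_length_le α (g.p0 + g.N1)).subset ?_
    rintro P ⟨h1, h2⟩
    have := h1len _ _ h2
    rw [List.length_drop] at this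
    show P.length ≤ g.p0 + g.N1
    omega
  have hf2 : ∀ v, (L2 v).Finite := by
    intro v
    refine (List.finite_length_le α g.p0).subset ?_
    rintro P ⟨k, hk, h1, h2⟩
    show P.length ≤ g.p0
    rw [h1]; exact h2c k hk
  -- regularity
  let A1 := g.p0 + A + g.z + g.N1
  have hreg : ∀ (x y : V), ∀ u u' : List α, Cls φ A1 M0 u u' →
      (act x (u.map φ).prod + nu u = y → act x (u'.map φ).prod + nu u' = y) := by
    intro x y u u' h hu
    have e0 : (u.map φ).prod = (u'.map φ).prod := by
      have := drop_prod h (j := 0) (by omega)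
      simpa using this
    have e1 : u.take g.p0 = u'.take g.p0 := take_eq_of (by simp only [A1]; omega) h.2.2.1
    have e2 : ((u.drop g.p0).map φ).prod = ((u'.drop g.p0).map φ).prod :=
      drop_prod h (by simp only [A1]; omega)
    have e3 : nu1 (u.drop g.p0) = nu1 (u'.drop g.p0) :=
      hnu1 _ _ (h.drop (by simp only [A1]; omega))
    have e4 : nu u = nu u' := by
      simp only [nu]
      rw [e1, e2, e3]
    rw [← e0, ← e4]; exact hu
  have hregB : ∀ u u' : List α, Cls φ A1 M0 u u' → (g.BadX BadT u → g.BadX BadT u') := by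
    intro u u' h hu
    rcases hu with ⟨t, h1, h2, h3, h4⟩ | hu
    · left
      have e : u.take t = u'.take t := take_eq_of (by simp only [A1]; omega) h.2.2.1
      refine ⟨t, ?_, by rw [← e]; exact h2, h3, h4⟩
      have := h.2.1
      simp only [A1] at this
      omega
    · right
      refine hBT _ _ ?_ hu
      have := (h.drop (j := g.p0) (B := 0) (by simp only [A1]; omega)).2.2.2.1
      rw [List.length_drop, List.length_drop] at this
      exact this
  have hCT : ∀ x y, HL 1 ({X | X ∈ C ∧ act x (X.map φ).prod + nu X = y} : Language α) := by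
    intro x y
    refine (P4_933.hl_XX (z := g.z) g.loc hlenW free
      (f := fun X => act x (X.map φ).prod + nu X = y)
      (regular_of_cls φ A1 M0 hM0 _ (hreg x y))).congr fun w => ?_
    show (g.XX w ∧ _) ↔ (P4_933.XX g.Wo g.z w ∧ _)
    rw [hXXeq]
  have hBTT : ∀ x y, HL 1 ({X | X ∈ Bad ∧ act x (X.map φ).prod + nu X = y} : Language α) := by
    intro x y
    refine (P4_933.hl_XX (z := g.z) g.loc hlenW free
      (f := fun X => g.BadX BadT X ∧ act x (X.map φ).prod + nu X = y)
      (regular_of_cls φ A1 M0 hM0 _ (fun u u' h hu =>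
        ⟨hregB u u' h hu.1, hreg x y u u' h hu.2⟩))).congr fun w => ?_
    show ((g.XX w ∧ g.BadX BadT w) ∧ _) ↔ (P4_933.XX g.Wo g.z w ∧ (g.BadX BadT w ∧ _))
    rw [hXXeq, and_assoc]
  have htail : ∀ s, HL 1 ({w | (∀ X ∈ C, ¬ X <+: w) ∧ (w.map φ).prod = s} : Language α) := by
    intro s
    refine (P4_933.hl_NB (z := g.z) g.loc hlenW free
      (f := fun X => (X.map φ).prod = s)
      (regular_of_cls φ 0 1 Nat.one_pos _ (fun u u' h hu => ?_))).congr fun w => ?_
    · have := h.2.2.2.2
      simp only [List.drop_zero] at this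
      rw [← this]; exact hu
    · show _ ↔ (P4_933.NB g.Wo g.z w ∧ _)
      rw [P4_933.NB_iff]
      constructor
      · rintro ⟨h1, h2⟩
        exact ⟨fun P hp hP => h1 P ((hXXeq P).1 hP) hp, h2⟩
      · rintro ⟨h1, h2⟩
        exact ⟨fun X hX hp => h1 X hp ((hXXeq X).2 hX), h2⟩
  refine Top5_120.top5 act hadd hone hmul hfaith φ nu C Bad hPC (fun X hX => hX.1) L1 L2 hf1 hf2
    hCT hBTT htail ?_ ?_ s
  · intro X hX hXb v
    have hE : ¬ g.E X := fun h => hXb ⟨hX, Or.inl h⟩
    have hB : ¬ BadT (X.length - g.p0) := fun h => hXb ⟨hX, Or.inr h⟩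
    have hXz : g.z ≤ X.length := hX.1
    obtain ⟨P, Q, b, hPQ, hP, hQ⟩ := g.complete1 pre (lam := lam) (rho := rho) h1len hX hE
      (fun u => by
        refine h1c (X.drop g.p0) ?_ ?_ u
        · rw [List.length_drop]; omega
        · rw [List.length_drop]; exact hB) v
    have hb : g.T pre post v X = b := by
      have := (g.sound1 pre post (lam := lam) (rho := rho) h1len h1ex hP hQ).2
      rw [← hPQ] at this
      exact this
    refine ⟨P, Q, hPQ.symm, hP, fun x P' hP' => ?_⟩
    obtain ⟨h1, h2⟩ := g.sound1 pre post (lam := lam) (rho := rho) h1len h1ex hP' hQ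
    refine ⟨h1, ?_⟩
    rw [hT, hT, h2, hb]
  · intro X hX Y hY v
    obtain ⟨P, Q, b, hPQ, hP, hQ⟩ := g.complete2 pre post (BadT := BadT) (K := K) (c := c)
      (lam2 := lam2) (rho2 := rho2) (C0 := C0) h2c hgap hsp hthin hX.1 hY.1 v (by
        have hl : (X.take g.p0).length = g.p0 := by
          rw [List.length_take]
          have : g.z ≤ X.length := hX.1.1
          omega
        obtain ⟨I, hI, h⟩ := h2compl (X.take g.p0) v hl
        refine ⟨I, hI, fun k hk => ?_⟩
        obtain ⟨h1, h2, h3⟩ := h k hk
        refine ⟨h1, ?_, h3⟩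
        rw [List.take_take, min_eq_left (h2c k h1)] at h2
        exact h2)
    have hex : ∀ k, k < K → ∀ P Q v u, P.length = c k → Q.length = g.p0 - c k →
        lam2 k P = some v → rho2 k Q = some u → u = pre (P ++ Q) v := h2ex
    have hb : g.T pre post (g.T pre post v X) Y = b := by
      obtain ⟨X2, h1, h2, h3⟩ := g.sound2 pre post (BadT := BadT) (K := K) (c := c)
        (lam2 := lam2) (rho2 := rho2) h2c hex (R := []) (R' := Y) hX.1 hX.2 hP hQ
        (by rw [List.append_nil, hPQ])
      rw [h2] at hPQ
      have := List.append_cancel_left hPQ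
      rw [← this]; exact h3
    refine ⟨P, Q, hPQ, hP, fun x P' hP' => ?_⟩
    obtain ⟨k', hk', hPl, hl'⟩ := hP'
    have hQ' := hQ
    obtain ⟨k, hk, l, hend, hgood, hX2, -⟩ := hQ
    have hlen' : P'.length ≤ g.p0 := by rw [hPl]; exact h2c k' hk'
    by_cases hkk : k' = k
    · subst hkk
      have hX' : g.XX (P' ++ Q.take l) := g.xx_of_cend hlen' (by rw [hPl]; exact hend)
      by_cases hbad : g.BadX BadT (P' ++ Q.take l)
      · left
        obtain ⟨X2, h1, h2, h3⟩ := g.sound2 pre post (BadT := BadT) (K := K) (c := c)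
          (lam2 := lam2) (rho2 := rho2) h2c hex (v := x) (b := b) (P := P') (Q := Q)
          (R := []) (R' := Q.drop l) hX' hbad
          ⟨k', hk', hPl, hl'⟩ hQ' (by
            rw [List.append_nil, List.append_assoc, List.take_append_drop])
        refine ⟨P' ++ Q.take l, ⟨hX', hbad⟩, X2, h1, h2.symm, ?_⟩
        rw [hT, hT, hT, hT, h3, hb]
      · right
        refine ⟨P' ++ Q.take l, hX', fun h => hbad h.2, Q.drop l, ?_⟩
        rw [List.append_assoc, List.take_append_drop]
    · obtain ⟨l', he', hg'⟩ := hgood k' hk' hkk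
      right
      have hX' : g.XX (P' ++ Q.take l') := g.xx_of_cend hlen' (by rw [hPl]; exact he')
      refine ⟨P' ++ Q.take l', hX', fun h => hg' ?_, Q.drop l', ?_⟩
      · have := g.cbad_of_bad (BadT := BadT) (P := P') (Q := Q) (l := l') hlen'
          (by rw [hPl]; exact he') h.2
        rw [hPl] at this
        exact this
      · rw [List.append_assoc, List.take_append_drop]

end Crest.Agent.R320.JoinA_329
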