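import Crest.Agent.R320.Top5_120
import Crest.Agent.R320.Sc2n_937
import Crest.Agent.R320.LWallAll_922
import Crest.Agent.R320.P4_933
import Crest.Agent.R320.Bridge_975

/-!
Row 320, the join: top5 (120) + both schemes (937) + walls (922) + HL 1 (933), over an abstract
grid gadget, an abstract exact gadget and a ruler (helper41).
-/

set_option autoImplicit false

namespace Crest.Agent.R320.JoinA_41

open Crest.RegLang Crest.Agent.R320.Hk_851 Crest.Agent.R320.Blk467

/-- product of the values -/
def pr {α S : Type} [Monoid S] (f : α → S) (u : List α) : S := (u.map f).prod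

theorem pr_append {α S : Type} [Monoid S] (f : α → S) (u v : List α) :
    pr f (u ++ v) = pr f u * pr f v := by simp [pr]

theorem per_add {p : ℕ → Prop} {A M : ℕ} (h : ∀ T, A ≤ T → (p (T + M) ↔ p T)) (k : ℕ) :
    ∀ T, A ≤ T → (p (T + k * M) ↔ p T) := by
  induction k with
  | zero => intro T _; simp
  | succ k ih =>
    intro T hT
    have e : T + (k + 1) * M = (T + k * M) + M := by ring
    rw [e, h _ (by omega), ih T hT]

theorem per_mod {p : ℕ → Prop} {A M : ℕ} (h : ∀ T, A ≤ T → (p (T + M) ↔ p T)) {T T' : ℕ}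
    (hT : A ≤ T) (hT' : A ≤ T') (hm : T % M = T' % M) : p T ↔ p T' := by
  have key : ∀ {T T' : ℕ}, A ≤ T → T ≤ T' → T % M = T' % M → (p T ↔ p T') := by
    intro T T' hT hle hm
    obtain ⟨k, hk⟩ := (Nat.modEq_iff_dvd' hle).1 hm
    have e : T' = T + k * M := by
      have : T' = T + (T' - T) := by omega
      rw [this, hk, mul_comm]
    rw [e, per_add h k T hT]
  rcases le_total T T' with h1 | h1
  · exact key hT h1 hm
  · exact (key hT' h1 hm.symm).symm

section

variable {α : Type} {S V : Type} [Monoid S] [AddCommGroup V] (act : V → S → V) (φ : α → S)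

/-- first part of the zone map -/
def pre (nu2 : List α → V) (X : List α) (v : V) : V := act v (pr φ X) + nu2 X

/-- second part of the zone map -/
def post (nu1 : List α → V) (u : V) (Y : List α) : V := act u (pr φ Y) + nu1 Y

/-- total noise -/
def nuT (p0 : ℕ) (nu1 nu2 : List α → V) (X : List α) : V :=
  act (nu2 (X.take p0)) (pr φ (X.drop p0)) + nu1 (X.drop p0)

theorem T_eq (hadd : ∀ a b s, act (a + b) s = act a s + act b s)
    (hmul : ∀ v s t, act v (s * t) = act (act v s) t) (g : Sc2n_937.Geo α)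
    (nu1 nu2 : List α → V) (v : V) (X : List α) :
    g.T (pre act φ nu2) (post act φ nu1) v X = act v (pr φ X) + nuT act φ g.p0 nu1 nu2 X := by
  unfold Sc2n_937.Geo.T pre post nuT
  rw [hadd, ← add_assoc, ← hmul, ← pr_append, List.take_append_drop]

end

theorem join {α : Type} [Finite α] {S V : Type} [Monoid S] [Finite S] [AddCommGroup V] [Finite V]
    (act : V → S → V)
    (hadd : ∀ a b s, act (a + b) s = act a s + act b s)
    (hone : ∀ v, act v 1 = v) (hmul : ∀ v s t, act v (s * t) = act (act v s) t)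
    (hfaith : ∀ s t, (∀ v, act v s = act v t) → s = t)
    (φ : α → S)
    -- gadget 1
    (lam rho : List α → Option V) (nu1 : List α → V) (N1 A1 M0 : ℕ) (BadT : ℕ → Prop)
    (hN1 : 0 < N1) (hM0 : 0 < M0)
    (g1len : ∀ P v, lam P = some v → P.length ≤ N1)
    (g1ex : ∀ P Q v b, lam P = some v → rho Q = some b → b = act v (pr φ (P ++ Q)) + nu1 (P ++ Q))
    (g1c : ∀ u : List α, A1 ≤ u.length → ¬ BadT u.length → ∀ v, ∃ P Q, u = P ++ Q ∧
      lam P = some v ∧ (rho Q).isSome)
    (g1per : ∀ T, A1 ≤ T → (BadT (T + M0) ↔ BadT T))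
    (g1nu : ∀ u u' : List α, A1 ≤ u.length → A1 ≤ u'.length → u.take A1 = u'.take A1 →
      u.length % M0 = u'.length % M0 → pr φ (u.drop A1) = pr φ (u'.drop A1) → nu1 u = nu1 u')
    -- ruler
    (K C0 : ℕ) (c : ℕ → ℕ) (p0 : ℕ) (hcp : ∀ k < K, c k ≤ p0)
    (hsp : ∀ k k' l l', k < K → k' < K → l < K → l' < K → k' ≠ k → l' ≠ l →
      c k + c l' < c l + c k' + 2 * N1 → c l + c k' < c k + c l' + 2 * N1 → k = l)
    (hthin : ∀ T, p0 + A1 ≤ T → ∀ J : Finset ℕ, (∀ k ∈ J, k < K ∧
      ∃ k', k' < K ∧ k' ≠ k ∧ BadT (T + c k' - c k)) → J.card ≤ C0)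
    -- gadget 2
    (lam2 rho2 : ℕ → List α → Option V) (nu2 : List α → V)
    (g2ex : ∀ k < K, ∀ P Q v b, P.length = c k → lam2 k P = some v → rho2 k Q = some b →
      b = act v (pr φ (P ++ Q)) + nu2 (P ++ Q))
    (g2c : ∀ (u : List α) (v : V), (∀ k < K, c k ≤ u.length) →
      ∃ I : Finset ℕ, 2 * C0 + 2 ≤ I.card ∧ ∀ k ∈ I, k < K ∧ lam2 k (u.take (c k)) = some v ∧
        (rho2 k (u.drop (c k))).isSome) (s : S) :
    HL 3 ({w | (w.map φ).prod = s} : Language α) := by
  classical
  -- walls
  obtain ⟨n, -, B, Wo, hLW, hgap, -, -, hfree⟩ :=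
    LWallAll_922.walls_all_left α (2 * p0 + 2 * N1 + 1) (by omega)
  let q0 := n + 2 * p0 + A1
  let g : Sc2n_937.Geo α :=
    { Wo := Wo, n := n, z := p0 + N1 + q0, p0 := p0, q0 := q0, N1 := N1
      loc := hLW.app, hz := rfl, hq := by omega, hN := hN1, hqp := by omega }
  let C : Set (List α) := {X | g.XX X}
  let Bad : Set (List α) := {X | g.XX X ∧ g.BadX BadT X}
  let pre' := pre act φ nu2
  let post' := post act φ nu1
  let nu : List α → V := nuT act φ p0 nu1 nu2
  have hT : ∀ v X, g.T pre' post' v X = act v (X.map φ).prod + nu X := fun v X =>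
    T_eq act φ hadd hmul g nu1 nu2 v X
  have hz : g.z = p0 + N1 + q0 := rfl
  have hXlen : ∀ X, g.XX X → p0 + N1 + q0 ≤ X.length := fun X hX => hX.1
  have hPC : PCode C := by
    refine ⟨fun h => ?_, fun X hX Y hY hXY => ?_⟩
    · have := hXlen _ h
      simp only [List.length_nil] at this
      omega
    · obtain ⟨R, rfl⟩ := hXY
      have h1 : X ++ R = (X ++ R) ++ [] := by simp
      exact g.prefix_code hX hY h1
  -- finite-state data
  let A : ℕ := g.z + N1 + p0 + A1 + 1
  have hA : A = p0 + N1 + q0 + N1 + p0 + A1 + 1 := rfl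
  have hloc : ∀ u u' : List α, A ≤ u.length → A ≤ u'.length → u.take A = u'.take A →
      u.length ≡ u'.length [MOD M0] → ((u.drop A).map φ).prod = ((u'.drop A).map φ).prod →
      pr φ u = pr φ u' ∧ nu u = nu u' ∧ (g.BadX BadT u ↔ g.BadX BadT u') := by
    intro u u' hu hu' htk hmod hpr
    have htj : ∀ j, j ≤ A → u.take j = u'.take j := by
      intro j hj
      have h1 : u.take j = (u.take A).take j := by rw [List.take_take, min_eq_left hj]
      have h2 : u'.take j = (u'.take A).take j := by rw [List.take_take, min_eq_left hj]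
      rw [h1, h2, htk]
    have hdj : ∀ j, j ≤ A → pr φ (u.drop j) = pr φ (u'.drop j) := by
      intro j hj
      have e : ∀ w : List α, w.drop j = (w.take A).drop j ++ w.drop A := by
        intro w
        rw [List.drop_take]
        have : w.drop A = (w.drop j).drop (A - j) := by
          rw [List.drop_drop]; congr 1; omega
        rw [this, List.take_append_drop]
      rw [e u, e u', pr_append, pr_append, htk]
      congr 1
    have hpu : pr φ u = pr φ u' := by
      have := hdj 0 (by omega)
      simpa using this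
    have hmod' : (u.length - p0) % M0 = (u'.length - p0) % M0 := by
      have h3 : (u.length - p0) + p0 ≡ (u'.length - p0) + p0 [MOD M0] := by
        rw [Nat.sub_add_cancel (by omega), Nat.sub_add_cancel (by omega)]
        exact hmod
      exact Nat.ModEq.add_right_cancel' p0 h3
    refine ⟨hpu, ?_, ?_⟩
    · show act (nu2 (u.take p0)) (pr φ (u.drop p0)) + nu1 (u.drop p0) =
        act (nu2 (u'.take p0)) (pr φ (u'.drop p0)) + nu1 (u'.drop p0)
      rw [htj p0 (by omega), hdj p0 (by omega)]
      congr 1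
      refine g1nu _ _ ?_ ?_ ?_ ?_ ?_
      · rw [List.length_drop]; omega
      · rw [List.length_drop]; omega
      · have e : ∀ w : List α, (w.drop p0).take A1 = (w.take (p0 + A1)).drop p0 := by
          intro w
          rw [List.drop_take]; congr 1; omega
        rw [e u, e u', htj (p0 + A1) (by omega)]
      · rw [List.length_drop, List.length_drop]; exact hmod'
      · rw [List.drop_drop, List.drop_drop]
        exact hdj _ (by omega)
    · have hE : g.E u ↔ g.E u' := by
        constructor
        · rintro ⟨t, ht, hw, h1, h2⟩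
          have h2' : t < p0 + N1 + q0 + N1 := h2
          refine ⟨t, by omega, ?_, h1, h2⟩
          rw [← htj t (by omega)]; exact hw
        · rintro ⟨t, ht, hw, h1, h2⟩
          have h2' : t < p0 + N1 + q0 + N1 := h2
          refine ⟨t, by omega, ?_, h1, h2⟩
          rw [htj t (by omega)]; exact hw
      have hB : BadT (u.length - g.p0) ↔ BadT (u'.length - g.p0) := by
        show BadT (u.length - p0) ↔ BadT (u'.length - p0)
        exact per_mod g1per (by omega) (by omega) hmod'
      unfold Sc2n_937.Geo.BadX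
      rw [hE, hB]
  -- wall-free words
  have free : ∀ u : List α, (∀ t < u.length, ¬ Wo (u.take t)) →
      u ∈ (BddReg_746.PN (max B (2 * p0 + 2 * N1 + 1)) 2 : Language α) := by
    intro u hu
    obtain ⟨a, x, b, k, h1, h2, h3, rfl⟩ := hfree u hu
    refine Language.mem_mul.2 ⟨a ++ (List.replicate k x).flatten, ⟨a, x, k, ?_, ?_, rfl⟩, b, ?_, rfl⟩
    · exact h1.trans (le_max_left _ _)
    · exact h2.trans (le_max_right _ _)
    · refine Language.mem_mul.2 ⟨b, ⟨b, [], 0, h3.trans (le_max_left _ _), by simp, by simp⟩,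
        [], ?_, by simp⟩
      exact rfl
  have hXX : ∀ X : List α, P4_933.XX Wo g.z X ↔ g.XX X := by
    intro X
    constructor
    · rintro ⟨h1, h2, h3⟩
      exact ⟨h2, h1, fun t ht htl => h3 t htl ht⟩
    · rintro ⟨h1, h2, h3⟩
      exact ⟨h2, h1, fun t htl ht => h3 t ht htl⟩
  have hreg : ∀ f : List α → Prop, (∀ u u' : List α, A ≤ u.length → A ≤ u'.length →
      u.take A = u'.take A → u.length ≡ u'.length [MOD M0] →
      ((u.drop A).map φ).prod = ((u'.drop A).map φ).prod → (f u ↔ f u')) →
      Language.IsRegular ({u | f u} : Language α) := fun f hf =>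
    Bridge_975.reg_of_local φ A M0 hM0 f hf
  have hCT : ∀ x y, HL 1 ({X | X ∈ C ∧ act x (X.map φ).prod + nu X = y} : Language α) := by
    intro x y
    refine (P4_933.hl_XX (z := g.z) hLW.app hLW.len free
      (f := fun X => act x (X.map φ).prod + nu X = y)
      (hreg _ fun u u' h1 h2 h3 h4 h5 => ?_)).congr fun w => Iff.symm ?_
    · obtain ⟨e1, e2, -⟩ := hloc u u' h1 h2 h3 h4 h5
      have e1' : (u.map φ).prod = (u'.map φ).prod := e1
      rw [e1', e2]
    · exact and_congr_left fun _ => hXX w
  have hBT : ∀ x y, HL 1 ({X | X ∈ Bad ∧ act x (X.map φ).prod + nu X = y} : Language α) := by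
    intro x y
    refine (P4_933.hl_XX (z := g.z) hLW.app hLW.len free
      (f := fun X => g.BadX BadT X ∧ act x (X.map φ).prod + nu X = y)
      (hreg _ fun u u' h1 h2 h3 h4 h5 => ?_)).congr fun w => Iff.symm ?_
    · obtain ⟨e1, e2, e3⟩ := hloc u u' h1 h2 h3 h4 h5
      have e1' : (u.map φ).prod = (u'.map φ).prod := e1
      rw [e1', e2, e3]
    · constructor
      · rintro ⟨h1, h2, h3⟩
        exact ⟨⟨(hXX w).1 h1, h2⟩, h3⟩
      · rintro ⟨⟨h1, h2⟩, h3⟩
        exact ⟨(hXX w).2 h1, h2, h3⟩
  have htail : ∀ s, HL 1 ({w | (∀ X ∈ C, ¬ X <+: w) ∧ (w.map φ).prod = s} : Language α) := by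
    intro s
    refine (P4_933.hl_NB (z := g.z) hLW.app hLW.len free
      (f := fun X => (X.map φ).prod = s)
      (hreg _ fun u u' h1 h2 h3 h4 h5 => ?_)).congr fun w => Iff.symm ?_
    · obtain ⟨e1, -, -⟩ := hloc u u' h1 h2 h3 h4 h5
      have e1' : (u.map φ).prod = (u'.map φ).prod := e1
      rw [e1']
    · refine and_congr_left fun _ => ?_
      rw [P4_933.NB_iff]
      constructor
      · intro h X hX hp
        exact h X hp ((hXX X).2 hX)
      · intro h X hp hX
        exact h X ((hXX X).1 hX) hp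
  -- the finite left words
  let L1 : V → Set (List α) := fun v => {P | g.LP1 pre' lam v P}
  let L2 : V → Set (List α) := fun v => {P | Sc2n_937.Geo.LP2 K c lam2 v P}
  have hf1 : ∀ v, (L1 v).Finite := by
    intro v
    refine (List.finite_length_le α (p0 + N1)).subset ?_
    rintro P ⟨h1, h2⟩
    have h3 := g1len _ _ h2
    rw [List.length_drop] at h3
    show P.length ≤ p0 + N1
    have h4 : g.p0 = p0 := rfl
    omega
  have hf2 : ∀ v, (L2 v).Finite := by
    intro v
    refine (List.finite_length_le α p0).subset ?_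
    rintro P ⟨k, hk, h1, h2⟩
    show P.length ≤ p0
    rw [h1]; exact hcp k hk
  have hex1 : ∀ P Q u b, lam P = some u → rho Q = some b → b = post' u (P ++ Q) :=
    fun P Q u b h1 h2 => g1ex P Q u b h1 h2
  have hex2 : ∀ k, k < K → ∀ P Q v u, P.length = c k → Q.length = g.p0 - c k →
      lam2 k P = some v → rho2 k Q = some u → u = pre' (P ++ Q) v :=
    fun k hk P Q v u h1 _ h3 h4 => g2ex k hk P Q v u h1 h3 h4
  refine Top5_120.top5 act hadd hone hmul hfaith φ nu C Bad hPC (fun X hX => hX.1) L1 L2 hf1 hf2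
    hCT hBT htail ?_ ?_ s
  · intro X hX hXb v
    have hE : ¬ g.E X := fun h => hXb ⟨hX, Or.inl h⟩
    have hBt : ¬ BadT (X.length - p0) := fun h => hXb ⟨hX, Or.inr h⟩
    have hl := hXlen X hX
    obtain ⟨P, Q, b, hPQ, hP, hQ⟩ := g.complete1 pre' g1len (rho := rho) hX hE (fun u => by
      obtain ⟨P, Q, h1, h2, h3⟩ := g1c (X.drop p0) (by rw [List.length_drop]; omega)
        (by rw [List.length_drop]; exact hBt) u
      exact ⟨P, Q, h1, h2, h3⟩) v
    refine ⟨P, Q, hPQ.symm, hP, fun x P' hP' => ?_⟩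
    obtain ⟨h1, h2⟩ := g.sound1 pre' post' g1len hex1 hP' hQ
    obtain ⟨h3, h4⟩ := g.sound1 pre' post' g1len hex1 hP hQ
    refine ⟨h1, ?_⟩
    rw [← hT, h2, ← hT, hPQ, h4]
  · intro X hX Y hY v
    obtain ⟨P, Q, b, hPQ, hP, hQ⟩ := g.complete2 pre' post' (BadT := BadT) (K := K) (c := c)
      (lam2 := lam2) (rho2 := rho2) (C0 := C0) hcp
      (fun P Q h1 h2 h3 => by
        have hQl : 0 < Q.length := List.length_pos_iff.2 h3
        have := hgap (P ++ Q) P.length (P.length + Q.length) (by omega) (by simp)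
          (by rw [List.take_left]; exact h1)
          (by rw [← List.length_append, List.take_length]; exact h2)
        show 2 * p0 + 2 * N1 < Q.length
        omega)
      hsp
      (fun τ hτ J hJ => by
        have hτ' : p0 + N1 + q0 ≤ τ + p0 := hτ
        refine hthin (τ - p0) (by omega) J fun k hk => ?_
        obtain ⟨h1, k', h2, h3, h4⟩ := hJ k hk
        refine ⟨h1, k', h2, h3, ?_⟩
        have h5 := hcp k h1
        have e : τ - p0 + c k' - c k = τ + c k' - c k - p0 := by omega
        rw [e]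
        exact h4)
      hX.1 hY.1 v (by
        have hl := hXlen X hX.1
        obtain ⟨I, hI, hIk⟩ := g2c (X.take p0) v (fun k hk => by
          rw [List.length_take]
          have := hcp k hk
          omega)
        refine ⟨I, hI, fun k hk => ?_⟩
        obtain ⟨h1, h2, h3⟩ := hIk k hk
        refine ⟨h1, ?_, h3⟩
        rw [List.take_take, min_eq_left (hcp k h1)] at h2
        exact h2)
    refine ⟨P, Q, hPQ, hP, fun x P' hP' => ?_⟩
    -- the true pair
    obtain ⟨X2, hX2, e2, t2⟩ := g.sound2 pre' post' (R := []) (R' := Y) hcp hex2 hX.1 hX.2 hP hQ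
      (by rw [hPQ, List.append_nil])
    have hXY : X2 = Y := by
      rw [hPQ] at e2
      exact (List.append_cancel_left e2).symm
    subst hXY
    -- the first block of P' ++ Q
    have hblk : ∃ X' R', g.XX X' ∧ P' ++ Q = X' ++ R' := by
      obtain ⟨k0, hk0, hl0, -⟩ := hP'
      obtain ⟨k, hk, l, hend, hgood, -⟩ := hQ
      have hc0 : P'.length ≤ g.p0 := by rw [hl0]; exact hcp k0 hk0
      have hex : ∃ l', g.CEnd Q (c k0) l' := by
        by_cases h : k0 = k
        · exact ⟨l, by rw [h]; exact hend⟩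
        · obtain ⟨l', h1, -⟩ := hgood k0 hk0 h
          exact ⟨l', h1⟩
      obtain ⟨l', hl'⟩ := hex
      refine ⟨P' ++ Q.take l', Q.drop l', g.xx_of_cend hc0 (by rw [hl0]; exact hl'), ?_⟩
      rw [List.append_assoc, List.take_append_drop]
    obtain ⟨X', R', hX', e'⟩ := hblk
    by_cases hb : g.BadX BadT X'
    · left
      obtain ⟨X3, hX3, e3, t3⟩ := g.sound2 pre' post' (R := []) (R' := R') hcp hex2 hX' hb hP' hQ
        (by rw [e', List.append_nil])
      refine ⟨X', ⟨hX', hb⟩, X3, hX3, e3.symm, ?_⟩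
      rw [hT, hT] at t3 t2
      rw [← add_assoc] at *
      rw [t3, t2]
    · right
      exact ⟨X', hX', fun h => hb h.2, ⟨R', e'.symm⟩⟩

end Crest.Agent.R320.JoinA_41
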