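import Crest.Agent.R320.Top5_120
import Crest.Agent.R320.Sc2n_937
import Crest.Agent.R320.P4_933
import Crest.Agent.R320.Bridge_975

/-!
# Row 320: the join of the landed pieces over `Top5_120.top5` (helper430), abstract part
-/

set_option autoImplicit false

namespace Crest.Agent.R320.JoinA_430

open Crest.Agent.R320.Hk_851 Crest.Agent.R320.Blk467

section Key

variable {α S : Type*} [Monoid S]

def Key (φ : α → S) (A Mo : ℕ) (U U' : List α) : Prop :=
  A ≤ U.length ∧ A ≤ U'.length ∧ U.take A = U'.take A ∧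
    ((U.drop A).map φ).prod = ((U'.drop A).map φ).prod ∧ U.length ≡ U'.length [MOD Mo]

variable {φ : α → S} {A Mo : ℕ} {U U' : List α}

theorem Key.symm (h : Key φ A Mo U U') : Key φ A Mo U' U :=
  ⟨h.2.1, h.1, h.2.2.1.symm, h.2.2.2.1.symm, h.2.2.2.2.symm⟩

theorem Key.take (h : Key φ A Mo U U') {i : ℕ} (hi : i ≤ A) : U.take i = U'.take i := by
  have := congrArg (fun l => l.take i) h.2.2.1
  simpa [List.take_take, min_eq_left hi] using this

theorem Key.prodDrop (h : Key φ A Mo U U') {i : ℕ} (hi : i ≤ A) :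
    ((U.drop i).map φ).prod = ((U'.drop i).map φ).prod := by
  have e : ∀ W : List α, A ≤ W.length → W.drop i = (W.take A).drop i ++ W.drop A := by
    intro W hW
    conv_lhs => rw [← List.take_append_drop A W]
    rw [List.drop_append_of_le_length (by rw [List.length_take]; omega)]
  rw [e U h.1, e U' h.2.1, List.map_append, List.map_append, List.prod_append, List.prod_append,
    h.2.2.2.1, h.2.2.1]

theorem Key.prod (h : Key φ A Mo U U') : (U.map φ).prod = (U'.map φ).prod := by
  have := h.prodDrop (i := 0) (Nat.zero_le _)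
  simpa using this

theorem Key.drop (h : Key φ A Mo U U') {i A' : ℕ} (hi : i + A' ≤ A) :
    Key φ A' Mo (U.drop i) (U'.drop i) := by
  have h1 := h.1
  have h2 := h.2.1
  refine ⟨by rw [List.length_drop]; omega, by rw [List.length_drop]; omega, ?_, ?_, ?_⟩
  · have := h.take hi
    have e : ∀ W : List α, (W.drop i).take A' = (W.take (i + A')).drop i := by
      intro W
      rw [List.drop_take, Nat.add_sub_cancel_left]
    rw [e, e, this]
  · rw [List.drop_drop, List.drop_drop]
    exact h.prodDrop hi
  · rw [List.length_drop, List.length_drop]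
    apply Nat.ModEq.add_right_cancel' i
    rw [Nat.sub_add_cancel (by omega), Nat.sub_add_cancel (by omega)]
    exact h.2.2.2.2

end Key

section Nu

variable {α S V : Type*} [Monoid S] [AddCommGroup V] {φ : α → S} {act : V → S → V}
  {lam rho : List α → Option V} {nu : List α → V} {N1 LA Mo : ℕ}

open Classical in
/-- the noise, made finite-state -/
noncomputable def nuR (lam rho : List α → Option V) (nu : List α → V) (Y : List α) : V :=
  if ∃ P Q, P ++ Q = Y ∧ (lam P).isSome ∧ (rho Q).isSome then nu Y else 0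

theorem nuR_of {P Q : List α} {v b : V} (h1 : lam P = some v) (h2 : rho Q = some b) :
    nuR lam rho nu (P ++ Q) = nu (P ++ Q) := by
  unfold nuR
  rw [if_pos ⟨P, Q, rfl, by rw [h1]; rfl, by rw [h2]; rfl⟩]

theorem nuR_key (hlen : ∀ P v, lam P = some v → P.length ≤ N1)
    (hex : ∀ P Q v b, lam P = some v → rho Q = some b →
      b = act v ((P ++ Q).map φ).prod + nu (P ++ Q))
    (hloc : ∀ Q Q' : List α, Key φ LA Mo Q Q' → rho Q = rho Q')
    {Y Y' : List α} (h : Key φ (N1 + LA) Mo Y Y') : nuR lam rho nu Y = nuR lam rho nu Y' := by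
  classical
  have key : ∀ Y Y' : List α, Key φ (N1 + LA) Mo Y Y' →
      (∃ P Q, P ++ Q = Y ∧ (lam P).isSome ∧ (rho Q).isSome) →
      (∃ P Q, P ++ Q = Y' ∧ (lam P).isSome ∧ (rho Q).isSome) ∧ nu Y = nu Y' := by
    rintro Y Y' h ⟨P, Q, rfl, hP, hQ⟩
    obtain ⟨v, hv⟩ := Option.isSome_iff_exists.1 hP
    obtain ⟨b, hb⟩ := Option.isSome_iff_exists.1 hQ
    have hl := hlen P v hv
    have e1 : Y'.take P.length = P := by
      have := h.take (i := P.length) (by omega)
      rw [List.take_left] at this
      exact this.symm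
    have hk := h.drop (i := P.length) (A' := LA) (by omega)
    rw [List.drop_left] at hk
    have hr := hloc _ _ hk
    have e2 : P ++ Y'.drop P.length = Y' := by
      conv_lhs => rw [← e1]
      rw [e1]
      conv_rhs => rw [← List.take_append_drop P.length Y', e1]
    refine ⟨⟨P, Y'.drop P.length, e2, hP, by rw [← hr]; exact hQ⟩, ?_⟩
    have a1 := hex P Q v b hv hb
    have a2 := hex P (Y'.drop P.length) v b hv (by rw [← hr]; exact hb)
    rw [e2] at a2
    have hp := h.prod
    rw [hp] at a1
    exact add_left_cancel (a1.symm.trans a2)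
  unfold nuR
  by_cases hY : ∃ P Q, P ++ Q = Y ∧ (lam P).isSome ∧ (rho Q).isSome
  · obtain ⟨h1, h2⟩ := key Y Y' h hY
    rw [if_pos hY, if_pos h1, h2]
  · by_cases hY' : ∃ P Q, P ++ Q = Y' ∧ (lam P).isSome ∧ (rho Q).isSome
    · exact absurd (key Y' Y h.symm hY').1 hY
    · rw [if_neg hY, if_neg hY']

end Nu

end Crest.Agent.R320.JoinA_430
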