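import Crest.Agent.R320.Sc2n_937
import Crest.Agent.R320.Top5_120
import Crest.Agent.R320.P4_933

/-!
# Row 320: the join (937's two schemes, 120's top, 933's HL 1 families)
-/

set_option autoImplicit false

namespace Crest.Agent.R320.JoinA_901

open Crest.RegLang Crest.Agent.R320.Hk_851 Crest.Agent.R320.Blk467 Crest.Agent.R320.BddReg_746
open Crest.Agent.R320.Sc2n_937

theorem drop_snoc {α : Type*} (A : ℕ) (u : List α) (a : α) (h : A ≤ u.length) :
    (u ++ [a]).drop A = u.drop A ++ [a] := List.drop_append_of_le_length h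

/-- finite-state properties are regular, product of the rest after `A` letters -/
theorem regular_of_class2 {α : Type*} [Finite α] {S : Type*} [Monoid S] [Finite S] (φ : α → S)
    (A M0 : ℕ) (hM : 0 < M0) (f : List α → Prop)
    (hf : ∀ u u' : List α, A ≤ u.length → A ≤ u'.length → u.take A = u'.take A →
      u.length % M0 = u'.length % M0 → ((u.drop A).map φ).prod = ((u'.drop A).map φ).prod →
      (f u ↔ f u')) :
    Language.IsRegular ({u | f u} : Language α) := by
  classical
  haveI : NeZero M0 := ⟨by omega⟩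
  have hfin : Finite {l : List α // l.length ≤ A} := List.finite_length_le α A
  let σ := {l : List α // l.length ≤ A} × ZMod M0 × S
  haveI : Fintype σ := Fintype.ofFinite σ
  let st : List α → σ := fun u =>
    (⟨u.take A, by rw [List.length_take]; omega⟩, (u.length : ZMod M0), ((u.drop A).map φ).prod)
  let M : DFA α σ :=
    { step := fun q a =>
        (if h : q.1.1.length < A then ⟨q.1.1 ++ [a], by simp; omega⟩ else q.1,
          q.2.1 + 1, if q.1.1.length < A then q.2.2 else q.2.2 * φ a)
      start := st []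
      accept := {q | ∃ u, f u ∧ st u = q} }
  have hev : ∀ u, M.eval u = st u := by
    intro u
    induction u using List.reverseRecOn with
    | nil => rfl
    | append_singleton u a ih =>
      rw [DFA.eval_append_singleton, ih]
      refine Prod.ext ?_ (Prod.ext ?_ ?_)
      · apply Subtype.ext
        show (if h : (u.take A).length < A then (⟨u.take A ++ [a], by simp at h ⊢; omega⟩ :
          {l : List α // l.length ≤ A}) else ⟨u.take A, by rw [List.length_take]; omega⟩).1
          = (u ++ [a]).take A
        rw [P4_933.take_snoc]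
        split_ifs <;> rfl
      · show (u.length : ZMod M0) + 1 = (((u ++ [a]).length : ℕ) : ZMod M0)
        simp
      · show (if (u.take A).length < A then ((u.drop A).map φ).prod
          else ((u.drop A).map φ).prod * φ a) = (((u ++ [a]).drop A).map φ).prod
        by_cases h : u.length < A
        · rw [if_pos (by rw [List.length_take]; omega), List.drop_of_length_le (by omega),
            List.drop_of_length_le (by simp; omega)]
        · rw [if_neg (by rw [List.length_take]; omega), drop_snoc A u a (by omega)]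
          simp
  refine Language.isRegular_iff.2 ⟨σ, inferInstance, M, ?_⟩
  ext u
  rw [DFA.mem_accepts, hev]
  constructor
  · rintro ⟨u', h1, h2⟩
    have e1 : u'.take A = u.take A := congrArg (fun q : σ => q.1.1) h2
    have e2 : (u'.length : ZMod M0) = (u.length : ZMod M0) := congrArg (fun q : σ => q.2.1) h2
    have e3 : ((u'.drop A).map φ).prod = ((u.drop A).map φ).prod :=
      congrArg (fun q : σ => q.2.2) h2
    have e2' : u'.length % M0 = u.length % M0 := (ZMod.natCast_eq_natCast_iff' _ _ _).1 e2
    have e4 := congrArg List.length e1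
    rw [List.length_take, List.length_take] at e4
    by_cases h : u.length < A
    · rw [List.take_of_length_le (by omega), List.take_of_length_le (by omega)] at e1
      rw [← e1]; exact h1
    · exact (hf u' u (by omega) (by omega) e1 e2' e3).1 h1
  · intro h
    exact ⟨u, h, rfl⟩

/-- product of a word -/
def pr {α S : Type*} [Monoid S] (φ : α → S) (w : List α) : S := (w.map φ).prod

theorem pr_append {α S : Type*} [Monoid S] (φ : α → S) (u v : List α) :
    pr φ (u ++ v) = pr φ u * pr φ v := by simp [pr]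

section

variable {α S V : Type} [Finite α] [Monoid S] [Finite S] [AddCommGroup V] [Finite V]

/-- the noise of a whole block -/
def nuB (act : V → S → V) (φ : α → S) (p0 : ℕ) (nu1 nu2 : List α → V) (X : List α) : V :=
  act (nu2 (X.take p0)) (pr φ (X.drop p0)) + nu1 (X.drop p0)

theorem join (act : V → S → V)
    (hadd : ∀ a b s, act (a + b) s = act a s + act b s)
    (hone : ∀ v, act v 1 = v) (hmul : ∀ v s t, act v (s * t) = act (act v s) t)
    (hfaith : ∀ s t, (∀ v, act v s = act v t) → s = t)
    (φ : α → S) (g : Geo α) (hWlen : ∀ P, g.Wo P → g.n ≤ P.length) {B R : ℕ}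
    (free : ∀ u : List α, (∀ t < u.length, ¬ g.Wo (u.take t)) → u ∈ (PN B R : Language α))
    (hgap : ∀ P Q : List α, g.Wo P → g.Wo (P ++ Q) → Q ≠ [] → 2 * g.p0 + 2 * g.N1 < Q.length)
    (BadT : ℕ → Prop) (lam1 rho1 : List α → Option V) (nu1 nu2 : List α → V)
    (hlen : ∀ P v, lam1 P = some v → P.length ≤ g.N1)
    (hex1 : ∀ P Q u b, lam1 P = some u → rho1 Q = some b →
      b = act u (pr φ (P ++ Q)) + nu1 (P ++ Q))
    (hc1 : ∀ Y : List α, ¬ BadT Y.length → ∀ u, ∃ P Q, Y = P ++ Q ∧ lam1 P = some u ∧
      (rho1 Q).isSome)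
    {A M0 : ℕ} (hM0 : 0 < M0)
    (hnu : ∀ Q Q' : List α, Q.take A = Q'.take A → pr φ (Q.drop A) = pr φ (Q'.drop A) →
      Q.length % M0 = Q'.length % M0 → nu1 Q = nu1 Q')
    (hBadT : ∀ n n', n % M0 = n' % M0 → (BadT n ↔ BadT n'))
    {K : ℕ} {c : ℕ → ℕ} (hc : ∀ k, k < K → c k ≤ g.p0) (lam2 rho2 : ℕ → List α → Option V)
    (hex2 : ∀ k, k < K → ∀ P Q v u, P.length = c k → Q.length = g.p0 - c k →
      lam2 k P = some v → rho2 k Q = some u → u = act v (pr φ (P ++ Q)) + nu2 (P ++ Q))
    {C0 : ℕ}
    (hsp : ∀ k k' l l', k < K → k' < K → l < K → l' < K → k' ≠ k → l' ≠ l →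
      c k + c l' < c l + c k' + 2 * g.N1 → c l + c k' < c k + c l' + 2 * g.N1 → k = l)
    (hthin : ∀ τ, g.z ≤ τ + g.p0 → ∀ J : Finset ℕ, (∀ k ∈ J, k < K ∧
      ∃ k', k' < K ∧ k' ≠ k ∧ BadT (τ + c k' - c k - g.p0)) → J.card ≤ C0)
    (hI : ∀ (u : List α) (v : V), (∀ k < K, c k ≤ u.length) →
      ∃ I : Finset ℕ, 2 * C0 + 2 ≤ I.card ∧ ∀ k ∈ I, k < K ∧
      lam2 k (u.take (c k)) = some v ∧ (rho2 k (u.drop (c k))).isSome)
    (s : S) : HL 3 ({w | (w.map φ).prod = s} : Language α) := by
  classical
  set pre : List α → V → V := fun X v => act v (pr φ X) + nu2 X with hpre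
  set post : V → List α → V := fun u Y => act u (pr φ Y) + nu1 Y with hpost
  set nu := nuB act φ g.p0 nu1 nu2 with hnuB
  have hTeq : ∀ v X, g.T pre post v X = act v (X.map φ).prod + nu X := by
    intro v X
    show act (act v (pr φ (X.take g.p0)) + nu2 (X.take g.p0)) (pr φ (X.drop g.p0)) +
      nu1 (X.drop g.p0) = act v (pr φ X) + (act (nu2 (X.take g.p0)) (pr φ (X.drop g.p0)) +
        nu1 (X.drop g.p0))
    rw [hadd, ← hmul, ← pr_append, List.take_append_drop, add_assoc]
  let C : Set (List α) := {X | g.XX X}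
  let Bad : Set (List α) := {X | g.XX X ∧ g.BadX BadT X}
  have hz := g.hz
  have hN := g.hN
  have hCc : PCode C := by
    refine ⟨?_, ?_⟩
    · intro h
      have h1 : g.z ≤ ([] : List α).length := h.1
      simp at h1
      omega
    · intro X hX Y hY ⟨R', hR'⟩
      refine g.prefix_code hX hY (R := R') (R' := []) ?_
      rw [hR', List.append_nil]
  have hBC : Bad ⊆ C := fun X hX => hX.1
  have hf1 : ∀ v, ({P | g.LP1 pre lam1 v P} : Set (List α)).Finite := by
    intro v
    refine (List.finite_length_le α (g.p0 + g.N1)).subset ?_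
    rintro P ⟨h1, h2⟩
    have := hlen _ _ h2
    rw [List.length_drop] at this
    show P.length ≤ g.p0 + g.N1
    omega
  have hf2 : ∀ v, ({P | Geo.LP2 K c lam2 v P} : Set (List α)).Finite := by
    intro v
    refine (List.finite_length_le α g.p0).subset ?_
    rintro P ⟨k, hk, h1, -⟩
    show P.length ≤ g.p0
    rw [h1]; exact hc k hk
  -- regularity
  set A' := max (g.p0 + A) (g.z + g.N1) with hA'
  have hEcl : ∀ u u' : List α, A' ≤ u.length → A' ≤ u'.length → u.take A' = u'.take A' →
      g.E u → g.E u' := by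
    rintro u u' h1 h2 h3 ⟨t, ht, hw, ht1, ht2⟩
    refine ⟨t, by omega, ?_, ht1, ht2⟩
    have e1 : u.take t = u'.take t := by
      have := congrArg (List.take t) h3
      rwa [List.take_take, List.take_take, min_eq_left (by omega)] at this
    rw [← e1]; exact hw
  have hnucl : ∀ u u' : List α, A' ≤ u.length → A' ≤ u'.length → u.take A' = u'.take A' →
      u.length % M0 = u'.length % M0 → pr φ (u.drop A') = pr φ (u'.drop A') →
      nu u = nu u' := by
    intro u u' h1 h2 h3 h4 h5
    have hsplit : ∀ (w : List α) (i : ℕ), i ≤ A' → w.drop i = (w.take A').drop i ++ w.drop A' := by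
      intro w i hi
      rcases le_or_gt A' w.length with hw | hw
      · conv_lhs => rw [← List.take_append_drop A' w]
        rw [List.drop_append_of_le_length (by rw [List.length_take]; omega)]
      · rw [List.take_of_length_le hw.le, List.drop_of_length_le hw.le, List.append_nil]
    have e1 : u.take g.p0 = u'.take g.p0 := by
      have := congrArg (List.take g.p0) h3
      rwa [List.take_take, List.take_take, min_eq_left (by omega)] at this
    have e2 : pr φ (u.drop g.p0) = pr φ (u'.drop g.p0) := by
      rw [hsplit u _ (by omega), hsplit u' _ (by omega), pr_append, pr_append, h3, h5]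
    have e3 : nu1 (u.drop g.p0) = nu1 (u'.drop g.p0) := by
      apply hnu
      · have := congrArg (fun w => (w.take (g.p0 + A)).drop g.p0) h3
        simp only [List.take_take] at this
        rw [min_eq_left (by omega)] at this
        rw [List.drop_take, List.drop_take, show g.p0 + A - g.p0 = A by omega] at this
        exact this
      · rw [List.drop_drop, List.drop_drop, hsplit u _ (by omega), hsplit u' _ (by omega),
          pr_append, pr_append, h3, h5]
      · rw [List.length_drop, List.length_drop]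
        have h6 : u.length - g.p0 + g.p0 ≡ u'.length - g.p0 + g.p0 [MOD M0] := by
          rw [Nat.sub_add_cancel (by omega), Nat.sub_add_cancel (by omega)]; exact h4
        exact Nat.ModEq.add_right_cancel' _ h6
    show act (nu2 (u.take g.p0)) (pr φ (u.drop g.p0)) + nu1 (u.drop g.p0) =
      act (nu2 (u'.take g.p0)) (pr φ (u'.drop g.p0)) + nu1 (u'.drop g.p0)
    rw [e1, e2, e3]
  have hBTcl : ∀ u u' : List α, A' ≤ u.length → A' ≤ u'.length →
      u.length % M0 = u'.length % M0 → BadT (u.length - g.p0) → BadT (u'.length - g.p0) := by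
    intro u u' h1 h2 h4 h
    refine (hBadT _ _ ?_).1 h
    have h6 : u.length - g.p0 + g.p0 ≡ u'.length - g.p0 + g.p0 [MOD M0] := by
      rw [Nat.sub_add_cancel (by omega), Nat.sub_add_cancel (by omega)]; exact h4
    exact Nat.ModEq.add_right_cancel' _ h6
  have hprcl : ∀ u u' : List α, u.take A' = u'.take A' → pr φ (u.drop A') = pr φ (u'.drop A') →
      pr φ u = pr φ u' := by
    intro u u' h3 h5
    rw [← List.take_append_drop A' u, ← List.take_append_drop A' u', pr_append, pr_append, h3, h5]
  have hXXe : ∀ X, g.XX X ↔ P4_933.XX g.Wo g.z X := by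
    intro X
    constructor
    · rintro ⟨h1, h2, h3⟩; exact ⟨h2, h1, fun t h4 h5 => h3 t h5 h4⟩
    · rintro ⟨h1, h2, h3⟩; exact ⟨h2, h1, fun t h4 h5 => h3 t h5 h4⟩
  refine Top5_120.top5 act hadd hone hmul hfaith φ nu C Bad hCc hBC
    (fun v => {P | g.LP1 pre lam1 v P}) (fun v => {P | Geo.LP2 K c lam2 v P}) hf1 hf2
    ?_ ?_ ?_ ?_ ?_ s
  · intro x y
    have hreg : Language.IsRegular ({X | act x (X.map φ).prod + nu X = y} : Language α) := by
      refine regular_of_class2 φ A' M0 hM0 _ ?_
      intro u u' h1 h2 h3 h4 h5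
      show act x (pr φ u) + nu u = y ↔ act x (pr φ u') + nu u' = y
      rw [hprcl u u' h3 h5, hnucl u u' h1 h2 h3 h4 h5]
    refine (P4_933.hl_XX (z := g.z) g.loc hWlen free hreg).congr fun X => ?_
    exact and_congr (hXXe X) Iff.rfl
  · intro x y
    have hreg : Language.IsRegular ({X | g.BadX BadT X ∧ act x (X.map φ).prod + nu X = y} :
        Language α) := by
      refine regular_of_class2 φ A' M0 hM0 _ ?_
      intro u u' h1 h2 h3 h4 h5
      refine and_congr ⟨?_, ?_⟩ ?_
      · rintro (h | h)
        · exact Or.inl (hEcl u u' h1 h2 h3 h)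
        · exact Or.inr (hBTcl u u' h1 h2 h4 h)
      · rintro (h | h)
        · exact Or.inl (hEcl u' u h2 h1 h3.symm h)
        · exact Or.inr (hBTcl u' u h2 h1 h4.symm h)
      · show act x (pr φ u) + nu u = y ↔ act x (pr φ u') + nu u' = y
        rw [hprcl u u' h3 h5, hnucl u u' h1 h2 h3 h4 h5]
    refine (P4_933.hl_XX (z := g.z) g.loc hWlen free hreg).congr fun X => ?_
    constructor
    · rintro ⟨⟨h1, h2⟩, h3⟩; exact ⟨(hXXe X).1 h1, h2, h3⟩
    · rintro ⟨h1, h2, h3⟩; exact ⟨⟨(hXXe X).2 h1, h2⟩, h3⟩
  · intro s'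
    have hreg : Language.IsRegular ({X | (X.map φ).prod = s'} : Language α) := by
      refine regular_of_class2 φ A' M0 hM0 _ ?_
      intro u u' h1 h2 h3 h4 h5
      show pr φ u = s' ↔ pr φ u' = s'
      rw [hprcl u u' h3 h5]
    refine (P4_933.hl_NB (z := g.z) g.loc hWlen free hreg).congr fun w => ?_
    refine and_congr ?_ Iff.rfl
    rw [P4_933.NB_iff]
    constructor
    · intro h P hP hX
      exact h P ((hXXe P).2 hX) hP
    · intro h X hX hP
      exact h X hP ((hXXe X).1 hX)
  · intro X hX hB v
    have hE : ¬ g.E X := fun h => hB ⟨hX, Or.inl h⟩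
    have hBT : ¬ BadT (X.length - g.p0) := fun h => hB ⟨hX, Or.inr h⟩
    obtain ⟨P, Q, b, h1, h2, h3⟩ := g.complete1 pre hlen hX hE (fun u =>
      hc1 (X.drop g.p0) (by rw [List.length_drop]; exact hBT) u) v
    refine ⟨P, Q, h1.symm, h2, ?_⟩
    have hs := g.sound1 pre post hlen (fun P Q u b h h' => hex1 P Q u b h h') h2 h3
    intro x P' hP'
    have hs' := g.sound1 pre post hlen (fun P Q u b h h' => hex1 P Q u b h h') hP' h3
    refine ⟨hs'.1, ?_⟩
    have e1 := hs'.2
    have e2 := hs.2
    rw [← h1, hTeq] at e2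
    rw [hTeq] at e1
    rw [e1, e2]
  · intro X hX Y hY v
    have hlX : g.p0 ≤ X.length := by have := hX.1.1; omega
    obtain ⟨P, Q, b, h1, h2, h3⟩ := g.complete2 pre post (BadT := BadT) (K := K) (c := c)
      (lam2 := lam2) (rho2 := rho2) (C0 := C0) hc hgap hsp hthin hX.1 hY.1 v (by
        obtain ⟨I, hI1, hI2⟩ := hI (X.take g.p0) v (by
          intro k hk
          have := hc k hk
          rw [List.length_take]; omega)
        refine ⟨I, hI1, fun k hk => ?_⟩
        obtain ⟨a1, a2, a3⟩ := hI2 k hk
        refine ⟨a1, ?_, a3⟩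
        rw [List.take_take, min_eq_left (hc k a1)] at a2
        exact a2)
    have hex2' : ∀ k, k < K → ∀ P Q v u, P.length = c k → Q.length = g.p0 - c k →
        lam2 k P = some v → rho2 k Q = some u → u = pre (P ++ Q) v := hex2
    have hs : g.T pre post (g.T pre post v X) Y = b := by
      obtain ⟨X2, hX2, e1, e2⟩ := g.sound2 pre post hc hex2' hX.1 hX.2 h2 h3 (R := [])
        (R' := Y) (by rw [List.append_nil]; exact h1)
      have : X2 = Y := by
        rw [h1] at e1
        exact (List.append_cancel_left e1).symm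
      rw [← this]; exact e2
    refine ⟨P, Q, h1, h2, ?_⟩
    intro x P' hP'
    -- the first block of `P' ++ Q`
    have hblock : ∃ X', g.XX X' ∧ X' <+: P' ++ Q := by
      obtain ⟨k', hk', hl', -⟩ := hP'
      obtain ⟨k, hk, l, hl, hgood, -⟩ := h3
      by_cases hkk : k' = k
      · subst hkk
        refine ⟨P' ++ Q.take l, g.xx_of_cend (by rw [hl']; exact hc _ hk') (by rw [hl']; exact hl), ?_⟩
        exact ⟨Q.drop l, by rw [List.append_assoc, List.take_append_drop]⟩
      · obtain ⟨l', hl1, -⟩ := hgood k' hk' hkk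
        refine ⟨P' ++ Q.take l', g.xx_of_cend (by rw [hl']; exact hc _ hk')
          (by rw [hl']; exact hl1), ?_⟩
        exact ⟨Q.drop l', by rw [List.append_assoc, List.take_append_drop]⟩
    obtain ⟨X', hX', hpf⟩ := hblock
    by_cases hbad : g.BadX BadT X'
    · left
      obtain ⟨R', hR'⟩ := hpf
      obtain ⟨X2, hX2, e1, e2⟩ := g.sound2 pre post hc hex2' hX' hbad hP' h3 (R := [])
        (R' := R') (by rw [List.append_nil]; exact hR'.symm)
      refine ⟨X', ⟨hX', hbad⟩, X2, hX2, e1.symm, ?_⟩
      rw [← hTeq, ← hTeq, ← hTeq, ← hTeq, e2, hs]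
    · right
      exact ⟨X', hX', fun h => hbad h.2, hpf⟩

end

end Crest.Agent.R320.JoinA_901
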