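import Crest.Agent.R320.JoinA_185

/-!
# Row 320: the join over `Top5_120.top5` with all constants as hypotheses, part B (helper185)
-/

set_option autoImplicit false

namespace Crest.Agent.R320.Join_185

open Crest.RegLang Crest.Agent.R320.Hk_851 Crest.Agent.R320.Blk467 Crest.Agent.R320.BddReg_746
open Crest.Agent.R320.Sc2n_937

variable {α : Type} [Finite α] {S : Type} [Monoid S] [Finite S] {V : Type} [AddCommGroup V]
  [Finite V]

theorem finite_le (N : ℕ) (p : List α → Prop) (h : ∀ P, p P → P.length ≤ N) :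
    {P : List α | p P}.Finite :=
  (List.finite_length_le α N).subset fun P hP => h P hP

theorem join (act : V → S → V)
    (hadd : ∀ a b s, act (a + b) s = act a s + act b s)
    (hone : ∀ v, act v 1 = v) (hmul : ∀ v s t, act v (s * t) = act (act v s) t)
    (hfaith : ∀ s t, (∀ v, act v s = act v t) → s = t)
    (φ : α → S) (g : Geo α) (len : ∀ Q, g.Wo Q → g.n ≤ Q.length) {B R : ℕ}
    (free : ∀ u : List α, (∀ t < u.length, ¬ g.Wo (u.take t)) → u ∈ (PN B R : Language α))
    (hgap : ∀ P Q : List α, g.Wo P → g.Wo (P ++ Q) → Q ≠ [] → 2 * g.p0 + 2 * g.N1 < Q.length)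
    (lam rho : List α → Option V) (nu1 : List α → V)
    (hlen : ∀ P v, lam P = some v → P.length ≤ g.N1)
    (hex : ∀ P Q u b, lam P = some u → rho Q = some b →
      b = act u ((P ++ Q).map φ).prod + nu1 (P ++ Q))
    (A M0 : ℕ) (hM0 : 0 < M0) (hrA : ∀ Q b, rho Q = some b → A ≤ Q.length)
    (hrho : ∀ Q Q' : List α, A ≤ Q.length → A ≤ Q'.length → Q.take A = Q'.take A →
      ((Q.drop A).map φ).prod = ((Q'.drop A).map φ).prod → Q.length % M0 = Q'.length % M0 →
      rho Q = rho Q')
    (BadT : ℕ → Prop) (M1 : ℕ) (hM1 : 0 < M1)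
    (hper : ∀ T T', T % M1 = T' % M1 → (BadT T ↔ BadT T'))
    (hco : ∀ X : List α, g.N1 + g.q0 ≤ X.length → ¬ BadT X.length → ∀ v, ∃ P Q,
      X = P ++ Q ∧ lam P = some v ∧ (rho Q).isSome)
    (K : ℕ) (c : ℕ → ℕ) (hc : ∀ k, k < K → c k ≤ g.p0) (C0 : ℕ) (hc0 : ∀ k, k < K → 0 < c k)
    (hsp : ∀ k k' l l', k < K → k' < K → l < K → l' < K → k' ≠ k → l' ≠ l →
      c k + c l' < c l + c k' + 2 * g.N1 → c l + c k' < c k + c l' + 2 * g.N1 → k = l)
    (hthin : ∀ τ, g.z ≤ τ + g.p0 → ∀ J : Finset ℕ, (∀ k ∈ J, k < K ∧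
      ∃ k', k' < K ∧ k' ≠ k ∧ BadT (τ + c k' - c k - g.p0)) → J.card ≤ C0)
    (lam2 rho2 : ℕ → List α → Option V) (nu2 : List α → V)
    (hex2 : ∀ k, k < K → ∀ P Q v u, P.length = c k → lam2 k P = some v → rho2 k Q = some u →
      u = act v ((P ++ Q).map φ).prod + nu2 (P ++ Q))
    (hco2 : ∀ X : List α, X.length = g.p0 → ∀ v, ∃ I : Finset ℕ, 2 * C0 + 2 ≤ I.card ∧
      ∀ k ∈ I, k < K ∧ lam2 k (X.take (c k)) = some v ∧ (rho2 k (X.drop (c k))).isSome)
    (s : S) : HL 3 ({w | (w.map φ).prod = s} : Language α) := by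
  classical
  have hz := g.hz
  have hq := g.hq
  -- noise with finite state
  set nu1' : List α → V := nu' lam rho nu1 with hnu1'
  have hex' : ∀ P Q u b, lam P = some u → rho Q = some b →
      b = act u ((P ++ Q).map φ).prod + nu1' (P ++ Q) := by
    intro P Q u b h1 h2
    have hcut : HasCut lam rho (P ++ Q) := ⟨u, b, P, Q, rfl, h1, h2⟩
    rw [hnu1']; unfold nu'; rw [if_pos hcut]; exact hex P Q u b h1 h2
  have hrhoreg : ∀ b, Language.IsRegular (lg fun Q : List α => rho Q = some b) := by
    intro b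
    let gg : List α → S × Fin M0 := fun Y =>
      ((Y.map φ).prod, (⟨Y.length % M0, Nat.mod_lt _ hM0⟩ : Fin M0))
    have h1 := reg_split (α := α) A gg (fun t => reg_pair _ _
      (fun s => Reg_852.isRegular_prod φ s) (fun r => reg_len_fin M0 hM0 r) t)
      (fun Q => rho Q = some b) (fun X X' hX hX' ht hg => by
        have hg1 : ((X.drop A).map φ).prod = ((X'.drop A).map φ).prod := congrArg Prod.fst hg
        have hg2 : (X.drop A).length % M0 = (X'.drop A).length % M0 :=
          congrArg (fun p => p.2.1) hg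
        have hl : X.length % M0 = X'.length % M0 := by
          rw [List.length_drop, List.length_drop] at hg2
          have e1 : X.length = A + (X.length - A) := by omega
          have e2 : X'.length = A + (X'.length - A) := by omega
          rw [e1, e2, Nat.add_mod, hg2, ← Nat.add_mod]
        show rho X = some b ↔ rho X' = some b
        rw [hrho X X' hX hX' ht hg1 hl])
    have e : (lg fun Q : List α => rho Q = some b) =
        (lg fun Q : List α => A ≤ Q.length ∧ rho Q = some b) := by
      ext Q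
      exact ⟨fun h => ⟨hrA Q b h, h⟩, fun h => h.2⟩
    rw [e]; exact h1
  have hnureg : ∀ y, Language.IsRegular (lg fun X : List α => nu1' X = y) := fun y =>
    nu'_reg act φ lam rho nu1 (fun v => finite_le g.N1 _ fun P h => hlen P v h) hrhoreg hex y
  -- block noise
  let nu : List α → V := fun X => act (nu2 (X.take g.p0)) ((X.drop g.p0).map φ).prod +
    nu1' (X.drop g.p0)
  let pre : List α → V → V := fun X v => act v (X.map φ).prod + nu2 X
  let post : V → List α → V := fun u Y => act u (Y.map φ).prod + nu1' Y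
  have hT : ∀ (v : V) (X : List α), g.T pre post v X = act v (X.map φ).prod + nu X := by
    intro v X
    show act (act v ((X.take g.p0).map φ).prod + nu2 (X.take g.p0)) ((X.drop g.p0).map φ).prod +
      nu1' (X.drop g.p0) = act v (X.map φ).prod + nu X
    rw [hadd, ← hmul, ← List.prod_append, ← List.map_append, List.take_append_drop, add_assoc]
  let C : Set (List α) := {X | g.XX X}
  let Bad : Set (List α) := {X | g.XX X ∧ g.BadX BadT X}
  let L1 : V → Set (List α) := fun v => {P | g.LP1 pre lam v P}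
  let L2 : V → Set (List α) := fun v => {P | Geo.LP2 K c lam2 v P}
  have hTreg : ∀ x y, Language.IsRegular
      (lg fun X : List α => g.p0 ≤ X.length ∧ act x (X.map φ).prod + nu X = y) := by
    intro x y
    refine reg_split (α := α) g.p0 (fun Y => ((Y.map φ).prod, nu1' Y))
      (fun t => reg_pair _ _ (fun s => Reg_852.isRegular_prod φ s) hnureg t) _ ?_
    intro X X' hX hX' ht hg
    have hg1 : ((X.drop g.p0).map φ).prod = ((X'.drop g.p0).map φ).prod := congrArg Prod.fst hg
    have hg2 : nu1' (X.drop g.p0) = nu1' (X'.drop g.p0) := congrArg Prod.snd hg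
    have e1 : (X.map φ).prod = (X'.map φ).prod := by
      conv_lhs => rw [← List.take_append_drop g.p0 X]
      conv_rhs => rw [← List.take_append_drop g.p0 X']
      rw [List.map_append, List.map_append, List.prod_append, List.prod_append, ht, hg1]
    have e2 : nu X = nu X' := by
      show act (nu2 (X.take g.p0)) ((X.drop g.p0).map φ).prod + nu1' (X.drop g.p0) =
        act (nu2 (X'.take g.p0)) ((X'.drop g.p0).map φ).prod + nu1' (X'.drop g.p0)
      rw [ht, hg1, hg2]
    show act x (X.map φ).prod + nu X = y ↔ act x (X'.map φ).prod + nu X' = y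
    rw [e1, e2]
  have hbadreg : Language.IsRegular (lg fun X : List α => g.BadX BadT X) := by
    have := P4_933.regular_of_class (α := α) (S := Unit) (fun _ => ()) (g.z + g.N1) M1 hM1
      (fun X => g.BadX BadT X) (fun X X' hX hX' ht hl _ => by
        have key : ∀ Y Y' : List α, g.z + g.N1 ≤ Y.length → g.z + g.N1 ≤ Y'.length →
            Y.take (g.z + g.N1) = Y'.take (g.z + g.N1) → Y.length % M1 = Y'.length % M1 →
            g.BadX BadT Y → g.BadX BadT Y' := by
          intro Y Y' hY hY' ht hl hb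
          rcases hb with ⟨t, h1, h2, h3, h4⟩ | hb
          · refine Or.inl ⟨t, by omega, ?_, h3, h4⟩
            have e : Y'.take t = Y.take t := by
              have := congrArg (fun l => l.take t) ht
              simp only [List.take_take, Nat.min_eq_left (show t ≤ g.z + g.N1 by omega)] at this
              exact this.symm
            rw [e]; exact h2
          · refine Or.inr ((hper _ _ ?_).1 hb)
            have e1 : Y.length = g.p0 + (Y.length - g.p0) := by omega
            have e2 : Y'.length = g.p0 + (Y'.length - g.p0) := by omega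
            rw [e1, e2] at hl
            exact Nat.ModEq.add_left_cancel' g.p0 hl
        exact ⟨key X X' hX hX' ht hl, key X' X hX' hX ht.symm hl.symm⟩)
    exact this
  have hXX : ∀ X, g.XX X ↔ P4_933.XX g.Wo g.z X := by
    intro X
    constructor
    · rintro ⟨h1, h2, h3⟩
      exact ⟨h2, h1, fun t ht hzt => h3 t hzt ht⟩
    · rintro ⟨h1, h2, h3⟩
      exact ⟨h2, h1, fun t hzt ht => h3 t ht hzt⟩
  have snd1 : ∀ {v b : V} {P Q : List α}, P ∈ L1 v → g.RQ1 rho b Q →
      g.XX (P ++ Q) ∧ g.T pre post v (P ++ Q) = b := fun hP hQ =>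
    g.sound1 pre post hlen (fun P Q u b h1 h2 => hex' P Q u b h1 h2) hP hQ
  refine Top5_120.top5 act hadd hone hmul hfaith φ nu C Bad ?_ (fun X hX => hX.1) L1 L2
    ?_ ?_ ?_ ?_ ?_ ?_ ?_ s
  · -- prefix code
    refine ⟨?_, ?_⟩
    · intro h
      have h1 := h.1
      have := g.hN
      simp at h1
      omega
    · intro X hX Y hY hXY
      obtain ⟨R, hR⟩ := hXY
      exact g.prefix_code hX hY (R := R) (R' := []) (by rw [hR, List.append_nil])
  · intro v
    refine finite_le (g.p0 + g.N1) _ fun P hP => ?_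
    obtain ⟨h1, h2⟩ := hP
    have := hlen _ _ h2
    rw [List.length_drop] at this
    omega
  · intro v
    refine finite_le g.p0 _ fun P hP => ?_
    obtain ⟨k, hk, hl, _⟩ := hP
    have := hc k hk
    omega
  · intro x y
    refine (P4_933.hl_XX (z := g.z) g.loc len free (f := fun X => g.p0 ≤ X.length ∧
      act x (X.map φ).prod + nu X = y) (hTreg x y)).congr fun X => Iff.symm ?_
    constructor
    · rintro ⟨h1, h2, h3⟩
      exact ⟨(hXX X).2 h1, h3⟩
    · rintro ⟨h1, h3⟩
      exact ⟨(hXX X).1 h1, by have := h1.1; omega, h3⟩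
  · intro x y
    refine (P4_933.hl_XX (z := g.z) g.loc len free (f := fun X => (g.p0 ≤ X.length ∧
      act x (X.map φ).prod + nu X = y) ∧ g.BadX BadT X) ((hTreg x y).inf hbadreg)).congr
        fun X => Iff.symm ?_
    constructor
    · rintro ⟨h1, ⟨h2, h3⟩, h4⟩
      exact ⟨⟨(hXX X).2 h1, h4⟩, h3⟩
    · rintro ⟨⟨h1, h4⟩, h3⟩
      exact ⟨(hXX X).1 h1, ⟨by have := h1.1; omega, h3⟩, h4⟩
  · intro s
    refine (P4_933.hl_NB (z := g.z) g.loc len free (f := fun X => (X.map φ).prod = s)
      (Reg_852.isRegular_prod φ s)).congr fun X => Iff.symm ?_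
    constructor
    · rintro ⟨h1, h2⟩
      exact ⟨fun Y hY hp => (P4_933.NB_iff _ _ _).1 h1 Y hp ((hXX Y).1 hY), h2⟩
    · rintro ⟨h1, h2⟩
      exact ⟨(P4_933.NB_iff _ _ _).2 fun P hp hP => h1 P ((hXX P).2 hP) hp, h2⟩
  · -- completeness 1
    intro X hX hb v
    have hE : ¬ g.E X := fun h => hb ⟨hX, Or.inl h⟩
    have hBT : ¬ BadT (X.length - g.p0) := fun h => hb ⟨hX, Or.inr h⟩
    obtain ⟨P, Q, b, e, hP, hQ⟩ := g.complete1 pre hlen hX hE (fun u => by
      have hXl := hX.1
      exact hco (X.drop g.p0) (by rw [List.length_drop]; omega)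
        (by rw [List.length_drop]; exact hBT) u) v
    refine ⟨P, Q, e.symm, hP, fun x P' hP' => ?_⟩
    obtain ⟨h1, h2⟩ := snd1 hP' hQ
    obtain ⟨_, h4⟩ := snd1 hP hQ
    refine ⟨h1, ?_⟩
    rw [← hT, ← hT, h2, e, h4]
  · -- completeness 2
    intro X hX Y hY v
    have hex2' : ∀ k, k < K → ∀ P Q v u, P.length = c k → Q.length = g.p0 - c k →
        lam2 k P = some v → rho2 k Q = some u → u = pre (P ++ Q) v :=
      fun k hk P Q v u h1 _ h3 h4 => hex2 k hk P Q v u h1 h3 h4
    obtain ⟨P, Q, b, e, hP, hQ⟩ := g.complete2 pre post hc hgap hsp hthin hX.1 hY.1 v (by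
      have hXl := hX.1.1
      obtain ⟨I, hI, h⟩ := hco2 (X.take g.p0) (by rw [List.length_take]; omega) v
      refine ⟨I, hI, fun k hk => ?_⟩
      obtain ⟨h1, h2, h3⟩ := h k hk
      refine ⟨h1, ?_, h3⟩
      rwa [List.take_take, Nat.min_eq_left (hc k h1)] at h2)
    refine ⟨P, Q, e, hP, fun x P' hP' => ?_⟩
    have hv : g.T pre post (g.T pre post v X) Y = b := by
      obtain ⟨X2, h1, h2, h3⟩ := g.sound2 pre post hc hex2' (R := []) (R' := Y) hX.1 hX.2 hP hQ
        (by rw [List.append_nil]; exact e)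
      have h4 : X ++ X2 = X ++ Y := by rw [← h2, e]
      rw [List.append_cancel_left h4] at h3
      exact h3
    obtain ⟨k', hk', hl', hlam'⟩ := id hP'
    obtain ⟨k, hk, l, hend, hgood, hX2, u, hu, hb⟩ := id hQ
    obtain ⟨l', hend'⟩ : ∃ l', g.CEnd Q (c k') l' := by
      by_cases hkk : k' = k
      · subst hkk; exact ⟨l, hend⟩
      · obtain ⟨l', h1, _⟩ := hgood k' hk' hkk
        exact ⟨l', h1⟩
    have hbl : g.XX (P' ++ Q.take l') :=
      g.xx_of_cend (by rw [hl']; exact hc k' hk') (by rw [hl']; exact hend')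
    have hsplit : P' ++ Q = (P' ++ Q.take l') ++ Q.drop l' := by
      rw [List.append_assoc, List.take_append_drop]
    by_cases hbad : g.BadX BadT (P' ++ Q.take l')
    · left
      obtain ⟨X2, h1, h2, h3⟩ := g.sound2 pre post hc hex2' (R := []) (R' := Q.drop l') hbl hbad
        hP' hQ (by rw [List.append_nil]; exact hsplit)
      refine ⟨P' ++ Q.take l', ⟨hbl, hbad⟩, X2, h1, h2.symm, ?_⟩
      rw [← hT, ← hT, ← hT, ← hT, h3, hv]
    · right
      refine ⟨P' ++ Q.take l', hbl, fun h => hbad h.2, ?_⟩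
      rw [hsplit]; exact List.prefix_append _ _

end Crest.Agent.R320.Join_185
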