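import Crest.Agent.R320.JoinA_224
import Crest.Agent.R320.P4_933
import Crest.Agent.R320.Loc_645

set_option autoImplicit false

namespace Crest.Agent.R320.JoinB_224

open Crest.RegLang Crest.Agent.R320.Hk_851 Crest.Agent.R320.Sc2n_937 Crest.Agent.R320.JoinA_224

variable {α S V : Type} [Monoid S] [AddCommGroup V]

structure Rel (f : α → S) (A M : ℕ) (q q' : List α) : Prop where
  l1 : A ≤ q.length
  l2 : A ≤ q'.length
  tk : q.take A = q'.take A
  pr : ph f (q.drop A) = ph f (q'.drop A)
  md : q.length % M = q'.length % M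

variable {f : α → S} {A M : ℕ} {q q' : List α}

theorem drop_split (q : List α) {j A : ℕ} (h : j ≤ A) :
    q.drop j = (q.take A).drop j ++ q.drop A := by
  rcases Nat.lt_or_ge q.length A with h1 | h1
  · rw [List.take_of_length_le (by omega), List.drop_of_length_le (l := q) (i := A) (by omega),
      List.append_nil]
  · conv_lhs => rw [← List.take_append_drop A q]
    rw [List.drop_append_of_le_length (by rw [List.length_take]; omega)]

theorem Rel.symm (h : Rel f A M q q') : Rel f A M q' q :=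
  ⟨h.l2, h.l1, h.tk.symm, h.pr.symm, h.md.symm⟩

theorem Rel.dropPh (h : Rel f A M q q') {j : ℕ} (hj : j ≤ A) :
    ph f (q.drop j) = ph f (q'.drop j) := by
  rw [drop_split q hj, drop_split q' hj, ph_append, ph_append, h.tk, h.pr]

theorem Rel.takeEq (h : Rel f A M q q') {j : ℕ} (hj : j ≤ A) : q.take j = q'.take j := by
  have := congrArg (List.take j) h.tk
  rwa [List.take_take, List.take_take, Nat.min_eq_left hj] at this

theorem Rel.phi (h : Rel f A M q q') : ph f q = ph f q' := by
  have := h.dropPh (Nat.zero_le _)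
  simpa using this

theorem Rel.mono {B : ℕ} (h : Rel f A M q q') (hB : B ≤ A) : Rel f B M q q' :=
  ⟨hB.trans h.l1, hB.trans h.l2, h.takeEq hB, h.dropPh hB, h.md⟩

theorem Rel.drop {j B : ℕ} (h : Rel f A M q q') (hB : j + B ≤ A) :
    Rel f B M (q.drop j) (q'.drop j) := by
  have h1 := h.l1
  have h2 := h.l2
  refine ⟨by rw [List.length_drop]; omega, by rw [List.length_drop]; omega, ?_, ?_, ?_⟩
  · rw [List.take_drop, List.take_drop, h.takeEq hB]
  · rw [List.drop_drop, List.drop_drop]; exact h.dropPh hB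
  · rw [List.length_drop, List.length_drop]
    have h3 : j + (q.length - j) ≡ j + (q'.length - j) [MOD M] := by
      have e1 : j + (q.length - j) = q.length := by omega
      have e2 : j + (q'.length - j) = q'.length := by omega
      rw [e1, e2]; exact h.md
    exact Nat.ModEq.add_left_cancel' j h3

section nu
variable (act : V → S → V) (f) (lam rho : List α → Option V) (nu : List α → V)

open Classical in
noncomputable def nu' (u : List α) : V :=
  if ∃ P Q v b, u = P ++ Q ∧ lam P = some v ∧ rho Q = some b then nu u else 0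

theorem nu'_sound
    (hex : ∀ P Q v b, lam P = some v → rho Q = some b → b = act v (ph f (P ++ Q)) + nu (P ++ Q)) :
    ∀ P Q v b, lam P = some v → rho Q = some b →
      b = act v (ph f (P ++ Q)) + nu' lam rho nu (P ++ Q) := by
  intro P Q v b h1 h2
  have : nu' lam rho nu (P ++ Q) = nu (P ++ Q) := if_pos ⟨P, Q, v, b, rfl, h1, h2⟩
  rw [this]
  exact hex P Q v b h1 h2

theorem nu'_rel {N1 A0 M0 : ℕ}
    (hex : ∀ P Q v b, lam P = some v → rho Q = some b → b = act v (ph f (P ++ Q)) + nu (P ++ Q))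
    (hlen : ∀ P v, lam P = some v → P.length ≤ N1)
    (hreg : ∀ Q Q' : List α, Rel f A0 M0 Q Q' → rho Q = rho Q')
    {u u' : List α} (h : Rel f (N1 + A0) M0 u u') :
    nu' lam rho nu u = nu' lam rho nu u' := by
  have key : ∀ {u u' : List α}, Rel f (N1 + A0) M0 u u' →
      (∃ P Q v b, u = P ++ Q ∧ lam P = some v ∧ rho Q = some b) →
      (∃ P Q v b, u' = P ++ Q ∧ lam P = some v ∧ rho Q = some b) ∧ nu u = nu u' := by
    rintro u u' h ⟨P, Q, v, b, rfl, h1, h2⟩
    have hl := hlen _ _ h1
    have e1 : (P ++ Q).drop P.length = Q := by simp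
    have e2 : (P ++ Q).take P.length = P := by simp
    have e3 : u'.take P.length = P := by
      rw [← h.takeEq (j := P.length) (by omega), e2]
    have hr : Rel f A0 M0 Q (u'.drop P.length) := by
      have := h.drop (j := P.length) (B := A0) (by omega)
      rwa [e1] at this
    have h3 : rho (u'.drop P.length) = some b := by rw [← hreg _ _ hr]; exact h2
    have e4 : u' = P ++ u'.drop P.length := by
      conv_lhs => rw [← List.take_append_drop P.length u', e3]
    refine ⟨⟨P, _, v, b, e4, h1, h3⟩, ?_⟩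
    have a1 := hex _ _ _ _ h1 h2
    have a2 := hex _ _ _ _ h1 h3
    rw [← e4, ← h.phi] at a2
    exact add_left_cancel (a1.symm.trans a2)
  unfold nu'
  by_cases hu : ∃ P Q v b, u = P ++ Q ∧ lam P = some v ∧ rho Q = some b
  · obtain ⟨hu', e⟩ := key h hu
    rw [if_pos hu, if_pos hu', e]
  · have hu' : ¬ ∃ P Q v b, u' = P ++ Q ∧ lam P = some v ∧ rho Q = some b := fun hc =>
      hu (key h.symm hc).1
    rw [if_neg hu, if_neg hu']

end nu

theorem regular_of_rel [Finite α] [Finite S] (f : α → S) (A M : ℕ) (hM : 0 < M)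
    (P : List α → Prop) (h : ∀ q q' : List α, Rel f A M q q' → P q → P q') :
    Language.IsRegular ({q | P q} : Language α) :=
  Crest.Agent.R320.Loc_645.isRegular_of_read' f A M hM P fun q q' h1 h2 h3 h4 h5 =>
    h q q' ⟨h1, h2, h3, h4, h5⟩

section lang
variable [Finite α] [Finite S] (g : Geo α) (act : V → S → V) (f) (nu1 nu2 : List α → V)
variable (BadT : ℕ → Prop) {B R A M0 : ℕ}

theorem xx_iff (X : List α) : g.XX X ↔ Crest.Agent.R320.P4_933.XX g.Wo g.z X := by
  unfold Geo.XX Crest.Agent.R320.P4_933.XX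
  constructor
  · rintro ⟨h1, h2, h3⟩; exact ⟨h2, h1, fun t a b => h3 t b a⟩
  · rintro ⟨h2, h1, h3⟩; exact ⟨h1, h2, fun t a b => h3 t b a⟩

theorem val_rel (hnu1 : ∀ u u' : List α, Rel f A M0 u u' → nu1 u = nu1 u')
    {q q' : List α} (h : Rel f (g.p0 + A) M0 q q') (x : V) :
    act x (ph f q) + nuX g act f nu1 nu2 q = act x (ph f q') + nuX g act f nu1 nu2 q' := by
  unfold nuX
  rw [h.phi, h.takeEq (j := g.p0) (by omega), h.dropPh (j := g.p0) (by omega),
    hnu1 _ _ (h.drop (j := g.p0) (B := A) le_rfl)]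

theorem badX_rel (hB : ∀ T T', T % M0 = T' % M0 → BadT T → BadT T')
    {q q' : List α} (h : Rel f (g.z + g.N1) M0 q q') (hb : g.BadX BadT q) : g.BadX BadT q' := by
  have hz := g.hz
  rcases hb with ⟨t, h1, h2, h3, h4⟩ | hb
  · left
    refine ⟨t, ?_, ?_, h3, h4⟩
    · have := h.l2; omega
    · rw [← h.takeEq (j := t) (by omega)]; exact h2
  · right
    have h5 := (h.drop (j := g.p0) (B := 0) (by omega)).md
    rw [List.length_drop, List.length_drop] at h5
    exact hB _ _ h5 hb

theorem hCT (len : ∀ P, g.Wo P → g.n ≤ P.length)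
    (free : ∀ u : List α, (∀ t < u.length, ¬ g.Wo (u.take t)) →
      u ∈ (Crest.Agent.R320.BddReg_746.PN B R : Language α)) (hM : 0 < M0)
    (hnu1 : ∀ u u' : List α, Rel f A M0 u u' → nu1 u = nu1 u') (x y : V) :
    HL 1 ({X | X ∈ C g ∧ act x (ph f X) + nuX g act f nu1 nu2 X = y} : Language α) := by
  have hr : Language.IsRegular
      ({X | act x (ph f X) + nuX g act f nu1 nu2 X = y} : Language α) :=
    regular_of_rel f (g.p0 + A) M0 hM _ fun q q' h hq => by
      rw [← val_rel f g act nu1 nu2 hnu1 h x]; exact hq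
  refine (Crest.Agent.R320.P4_933.hl_XX (z := g.z) g.loc len free hr).congr fun w => ?_
  exact and_congr (xx_iff g w) Iff.rfl

theorem hBT (len : ∀ P, g.Wo P → g.n ≤ P.length)
    (free : ∀ u : List α, (∀ t < u.length, ¬ g.Wo (u.take t)) →
      u ∈ (Crest.Agent.R320.BddReg_746.PN B R : Language α)) (hM : 0 < M0)
    (hnu1 : ∀ u u' : List α, Rel f A M0 u u' → nu1 u = nu1 u')
    (hB : ∀ T T', T % M0 = T' % M0 → BadT T → BadT T') (x y : V) :
    HL 1 ({X | X ∈ Bad g BadT ∧ act x (ph f X) + nuX g act f nu1 nu2 X = y} : Language α) := by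
  have hr : Language.IsRegular
      ({X | g.BadX BadT X ∧ act x (ph f X) + nuX g act f nu1 nu2 X = y} : Language α) :=
    regular_of_rel f (g.p0 + A + (g.z + g.N1)) M0 hM _ fun q q' h hq => by
      refine ⟨badX_rel f g BadT hB (h.mono (B := g.z + g.N1) (by omega)) hq.1, ?_⟩
      rw [← val_rel f g act nu1 nu2 hnu1 (h.mono (B := g.p0 + A) (by omega)) x]; exact hq.2
  refine (Crest.Agent.R320.P4_933.hl_XX (z := g.z) g.loc len free hr).congr fun w => ?_
  constructor
  · rintro ⟨⟨h1, h2⟩, h3⟩; exact ⟨(xx_iff g w).1 h1, h2, h3⟩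
  · rintro ⟨h1, h2, h3⟩; exact ⟨⟨(xx_iff g w).2 h1, h2⟩, h3⟩

theorem htail (len : ∀ P, g.Wo P → g.n ≤ P.length)
    (free : ∀ u : List α, (∀ t < u.length, ¬ g.Wo (u.take t)) →
      u ∈ (Crest.Agent.R320.BddReg_746.PN B R : Language α)) (s : S) :
    HL 1 ({w | (∀ X ∈ C g, ¬ X <+: w) ∧ ph f w = s} : Language α) := by
  have hr : Language.IsRegular ({X | ph f X = s} : Language α) :=
    regular_of_rel f 0 1 one_pos _ fun q q' h hq => by rw [← h.phi]; exact hq
  refine (Crest.Agent.R320.P4_933.hl_NB (z := g.z) g.loc len free hr).congr fun w => ?_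
  refine and_congr ?_ Iff.rfl
  rw [Crest.Agent.R320.P4_933.NB_iff]
  constructor
  · intro h P hp hX
    exact h P ((xx_iff g P).2 hX) hp
  · intro h X hX hp
    exact h X hp ((xx_iff g X).1 hX)

end lang

theorem pcode (g : Geo α) (hz : 0 < g.z) : Crest.Agent.R320.Blk467.PCode (C g) := by
  refine ⟨fun h => ?_, fun X hX Y hY h => ?_⟩
  · have h0 : g.XX [] := h
    have := h0.1
    simp at this
    omega
  · obtain ⟨r, hr⟩ := h
    exact g.prefix_code (R := r) (R' := []) hX hY (by rw [List.append_nil]; exact hr)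

end Crest.Agent.R320.JoinB_224
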