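import Crest.Agent.R320.JoinA_430

/-!
# Row 320: the join of the landed pieces over `Top5_120.top5` (helper430), main theorem
-/

set_option autoImplicit false

namespace Crest.Agent.R320.JoinB_430

open Crest.Agent.R320.Hk_851 Crest.Agent.R320.Blk467 Crest.Agent.R320.JoinA_430
  Crest.Agent.R320.BddReg_746

variable {α S V : Type*}

theorem join {α : Type} {S : Type} {V : Type} [Finite α] [Monoid S] [Finite S] [AddCommGroup V]
    [Finite V] (φ : α → S) (act : V → S → V)
    (hadd : ∀ a b s, act (a + b) s = act a s + act b s)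
    (hone : ∀ v, act v 1 = v) (hmul : ∀ v s t, act v (s * t) = act (act v s) t)
    (hfaith : ∀ s t, (∀ v, act v s = act v t) → s = t)
    (Wo : List α → Prop) (n : ℕ)
    (loc : ∀ P Q : List α, n ≤ Q.length → (Wo (P ++ Q) ↔ Wo Q))
    (len : ∀ P, Wo P → n ≤ P.length) (B R : ℕ)
    (free : ∀ u : List α, (∀ t < u.length, ¬ Wo (u.take t)) → u ∈ (PN B R : Language α))
    (p0 N1 : ℕ) (hN : 0 < N1)
    (hgap : ∀ P Q : List α, Wo P → Wo (P ++ Q) → Q ≠ [] → 2 * p0 + 2 * N1 < Q.length)
    (LA Mo : ℕ) (hMo : 0 < Mo) (lam rho : List α → Option V) (nu : List α → V) (BadT : ℕ → Prop)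
    (hlen : ∀ P v, lam P = some v → P.length ≤ N1)
    (hex : ∀ P Q v b, lam P = some v → rho Q = some b →
      b = act v ((P ++ Q).map φ).prod + nu (P ++ Q))
    (hcomp : ∀ Y : List α, 2 * LA ≤ Y.length → ¬ BadT Y.length → ∀ v, ∃ P Q, Y = P ++ Q ∧
      lam P = some v ∧ (rho Q).isSome)
    (hloc : ∀ Q Q' : List α, Key φ LA Mo Q Q' → rho Q = rho Q')
    (hper : ∀ T T', LA ≤ T → LA ≤ T' → T ≡ T' [MOD Mo] → (BadT T → BadT T'))
    (K C0 : ℕ) (c : ℕ → ℕ) (hc : ∀ k, k < K → c k ≤ p0)
    (lam2 rho2 : ℕ → List α → Option V) (nu2 : List α → V)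
    (hex2 : ∀ k < K, ∀ (P Q : List α) (v b : V), P.length = c k →
      lam2 k P = some v → rho2 k Q = some b → b = act v ((P ++ Q).map φ).prod + nu2 (P ++ Q))
    (hI : ∀ (u : List α) (v : V), p0 ≤ u.length →
      ∃ I : Finset ℕ, 2 * C0 + 2 ≤ I.card ∧ ∀ k ∈ I, k < K ∧ lam2 k (u.take (c k)) = some v ∧
        (rho2 k (u.drop (c k))).isSome)
    (hsp : ∀ k k' l l', k < K → k' < K → l < K → l' < K → k' ≠ k → l' ≠ l →
      c k + c l' < c l + c k' + 2 * N1 → c l + c k' < c k + c l' + 2 * N1 → k = l)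
    (hthin : ∀ T, p0 + 2 * LA ≤ T → ∀ J : Finset ℕ, (∀ k ∈ J, k < K ∧
      ∃ k', k' < K ∧ k' ≠ k ∧ BadT (T + c k' - c k)) → J.card ≤ C0)
    (s : S) : HL 3 ({w | (w.map φ).prod = s} : Language α) := by
  classical
  let g : Crest.Agent.R320.Sc2n_937.Geo α :=
    { Wo := Wo, n := n, z := p0 + N1 + (n + 2 * p0 + 2 * LA), p0 := p0,
      q0 := n + 2 * p0 + 2 * LA, N1 := N1, loc := loc, hz := rfl, hq := by omega, hN := hN,
      hqp := by omega }
  have hgz : g.z = p0 + N1 + (n + 2 * p0 + 2 * LA) := rfl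
  have hgp : g.p0 = p0 := rfl
  have hgN : g.N1 = N1 := rfl
  have hgn : g.n = n := rfl
  set nu1 : List α → V := nuR lam rho nu with hnu1
  set pre : List α → V → V := fun U v => act v (U.map φ).prod + nu2 U with hpre
  set post : V → List α → V := fun u Y => act u (Y.map φ).prod + nu1 Y with hpost
  set NU : List α → V := fun X =>
    act (nu2 (X.take p0)) ((X.drop p0).map φ).prod + nu1 (X.drop p0) with hNU
  have hT : ∀ v X, g.T pre post v X = act v (X.map φ).prod + NU X := by
    intro v X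
    show act (act v ((X.take p0).map φ).prod + nu2 (X.take p0)) ((X.drop p0).map φ).prod +
      nu1 (X.drop p0) = _
    rw [hadd, ← hmul, ← List.prod_append, ← List.map_append, List.take_append_drop, hNU, add_assoc]
  have hex' : ∀ P Q u b, lam P = some u → rho Q = some b → b = post u (P ++ Q) := by
    intro P Q u b h1 h2
    rw [hpost, hnu1]
    show b = act u ((P ++ Q).map φ).prod + nuR lam rho nu (P ++ Q)
    rw [nuR_of h1 h2]
    exact hex P Q u b h1 h2
  have hex2' : ∀ k, k < K → ∀ P Q v u, P.length = c k → Q.length = g.p0 - c k →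
      lam2 k P = some v → rho2 k Q = some u → u = pre (P ++ Q) v := by
    intro k hk P Q v u hP _ h1 h2
    exact hex2 k hk P Q v u hP h1 h2
  have hc' : ∀ k, k < K → c k ≤ g.p0 := hc
  set C : Set (List α) := {X | g.XX X} with hC
  set Bad : Set (List α) := {X | g.XX X ∧ g.BadX BadT X} with hBad
  have hPC : PCode C := by
    refine ⟨?_, ?_⟩
    · intro h
      have h1 : g.z ≤ ([] : List α).length := h.1
      simp only [List.length_nil] at h1
      omega
    · rintro X hX Y hY ⟨R', hR'⟩
      exact g.prefix_code (R := R') (R' := []) hX hY (by rw [hR', List.append_nil])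
  -- locality
  set LB : ℕ := g.z + N1 + p0 + N1 + LA + 1 with hLB
  have kNU : ∀ X X' : List α, Key φ LB Mo X X' → NU X = NU X' := by
    intro X X' h
    rw [hNU]
    show act (nu2 (X.take p0)) ((X.drop p0).map φ).prod + nu1 (X.drop p0) =
      act (nu2 (X'.take p0)) ((X'.drop p0).map φ).prod + nu1 (X'.drop p0)
    rw [h.take (i := p0) (by omega), h.prodDrop (i := p0) (by omega)]
    congr 1
    exact nuR_key (act := act) hlen hex hloc (h.drop (i := p0) (A' := N1 + LA) (by omega))
  have kT : ∀ x y, ∀ X X' : List α, Key φ LB Mo X X' →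
      (act x (X.map φ).prod + NU X = y → act x (X'.map φ).prod + NU X' = y) := by
    intro x y X X' h e
    rw [← h.prod, ← kNU X X' h]
    exact e
  have kBad : ∀ X X' : List α, Key φ LB Mo X X' → g.BadX BadT X → g.BadX BadT X' := by
    intro X X' h hb
    have h1 := h.1
    have h2 := h.2.1
    rcases hb with ⟨t, ht, hw, h3, h4⟩ | hb
    · left
      refine ⟨t, by omega, ?_, h3, h4⟩
      rw [← h.take (i := t) (by omega)]
      exact hw
    · right
      refine hper _ _ (by omega) (by omega) ?_ hb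
      apply Nat.ModEq.add_right_cancel' g.p0
      rw [Nat.sub_add_cancel (by omega), Nat.sub_add_cancel (by omega)]
      exact h.2.2.2.2
  have reg : ∀ f : List α → Prop, (∀ X X' : List α, Key φ LB Mo X X' → f X → f X') →
      Language.IsRegular ({u | f u} : Language α) := by
    intro f hf
    refine Crest.Agent.R320.Bridge_975.reg_of_local φ LB Mo hMo f ?_
    intro q q2 h1 h2 h3 h4 h5
    have hk : Key φ LB Mo q q2 := ⟨h1, h2, h3, h5, h4⟩
    exact ⟨hf _ _ hk, hf _ _ hk.symm⟩
  have hXXeq : ∀ X, g.XX X ↔ Crest.Agent.R320.P4_933.XX Wo g.z X := by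
    intro X
    constructor
    · rintro ⟨h1, h2, h3⟩
      exact ⟨h2, h1, fun t ht hz => h3 t hz ht⟩
    · rintro ⟨h1, h2, h3⟩
      exact ⟨h2, h1, fun t hz ht => h3 t ht hz⟩
  have hCf : ∀ f : List α → Prop, Language.IsRegular ({u | f u} : Language α) →
      HL 1 ({X | X ∈ C ∧ f X} : Language α) := by
    intro f hf
    refine (Crest.Agent.R320.P4_933.hl_XX (z := g.z) loc len free hf).congr fun w => ?_
    constructor
    · rintro ⟨h1, h2⟩
      first
        | exact ⟨(hXXeq w).1 h1, h2⟩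
        | exact ⟨(hXXeq w).2 h1, h2⟩
    · rintro ⟨h1, h2⟩
      first
        | exact ⟨(hXXeq w).1 h1, h2⟩
        | exact ⟨(hXXeq w).2 h1, h2⟩
  refine Crest.Agent.R320.Top5_120.top5 act hadd hone hmul hfaith φ NU C Bad hPC
    (fun X hX => hX.1) (fun v => {P | g.LP1 pre lam v P})
    (fun v => {P | Crest.Agent.R320.Sc2n_937.Geo.LP2 K c lam2 v P}) ?_ ?_ ?_ ?_ ?_ ?_ ?_ s
  · intro v
    refine (List.finite_length_le α (p0 + N1)).subset ?_
    rintro P ⟨h1, h2⟩
    have := hlen _ _ h2
    rw [List.length_drop] at this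
    show P.length ≤ p0 + N1
    omega
  · intro v
    refine (List.finite_length_le α p0).subset ?_
    rintro P ⟨k, hk, h1, h2⟩
    show P.length ≤ p0
    rw [h1]; exact hc k hk
  · intro x y
    exact hCf _ (reg _ (kT x y))
  · intro x y
    have h1 := hCf (fun X => g.BadX BadT X ∧ act x (X.map φ).prod + NU X = y)
      (reg _ (fun X X' h e => ⟨kBad X X' h e.1, kT x y X X' h e.2⟩))
    refine h1.congr fun w => ?_
    constructor
    · rintro h
      first
        | exact ⟨⟨h.1, h.2.1⟩, h.2.2⟩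
        | exact ⟨h.1.1, h.1.2, h.2⟩
    · rintro h
      first
        | exact ⟨⟨h.1, h.2.1⟩, h.2.2⟩
        | exact ⟨h.1.1, h.1.2, h.2⟩
  · intro s'
    have h1 := Crest.Agent.R320.P4_933.hl_NB (z := g.z) loc len free
      (f := fun w => (w.map φ).prod = s') (reg _ (fun X X' h e => by rw [← h.prod]; exact e))
    have h2 : ∀ w : List α, Crest.Agent.R320.P4_933.NB Wo g.z w ↔ ∀ X ∈ C, ¬ X <+: w := by
      intro w
      rw [Crest.Agent.R320.P4_933.NB_iff]
      constructor
      · intro h X hX hp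
        exact h X hp ((hXXeq X).1 hX)
      · intro h X hp hX
        exact h X ((hXXeq X).2 hX) hp
    refine h1.congr fun w => ?_
    constructor
    · rintro ⟨h3, h4⟩
      first
        | exact ⟨(h2 w).1 h3, h4⟩
        | exact ⟨(h2 w).2 h3, h4⟩
    · rintro ⟨h3, h4⟩
      first
        | exact ⟨(h2 w).1 h3, h4⟩
        | exact ⟨(h2 w).2 h3, h4⟩
  · -- scheme 1
    intro X hX hXb v
    have hX' : g.XX X := hX
    have hnb : ¬ g.BadX BadT X := fun h => hXb ⟨hX, h⟩
    have hE : ¬ g.E X := fun h => hnb (Or.inl h)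
    have hBT : ¬ BadT (X.length - g.p0) := fun h => hnb (Or.inr h)
    have hXl := hX'.1
    obtain ⟨P, Q, b, e, hP, hQ⟩ := g.complete1 pre (lam := lam) (rho := rho) hlen hX' hE
      (fun u => hcomp (X.drop p0) (by rw [List.length_drop]; omega)
        (by rw [List.length_drop]; exact hBT) u) v
    refine ⟨P, Q, e.symm, hP, ?_⟩
    intro x P' hP'
    obtain ⟨h1, h2⟩ := g.sound1 pre post (lam := lam) (rho := rho) hlen hex' hP' hQ
    obtain ⟨h3, h4⟩ := g.sound1 pre post (lam := lam) (rho := rho) hlen hex' hP hQ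
    refine ⟨h1, ?_⟩
    rw [hT] at h2 h4
    rw [← e] at h4
    rw [h2, h4]
  · -- scheme 2
    intro X hX Y hY v
    have hXl := hX.1.1
    have hYl := hY.1.1
    obtain ⟨P, Q, b, e, hP, hQ⟩ := g.complete2 pre post (BadT := BadT) (K := K) (c := c)
      (lam2 := lam2) (rho2 := rho2) (C0 := C0) hc' (by intro P Q h1 h2 h3; exact hgap P Q h1 h2 h3)
      hsp (by
        intro τ hτ J hJ
        refine hthin (τ - p0) (by omega) J ?_
        intro k hk
        obtain ⟨h1, k', h2, h3, h4⟩ := hJ k hk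
        refine ⟨h1, k', h2, h3, ?_⟩
        have := hc k h1
        have e : τ - p0 + c k' - c k = τ + c k' - c k - g.p0 := by omega
        rw [e]; exact h4) hX.1 hY.1 v (by
        obtain ⟨I, h1, h2⟩ := hI (X.take p0) v (by rw [List.length_take]; omega)
        refine ⟨I, h1, fun k hk => ?_⟩
        obtain ⟨h3, h4, h5⟩ := h2 k hk
        refine ⟨h3, ?_, h5⟩
        rw [List.take_take, min_eq_left (hc k h3)] at h4
        exact h4)
    refine ⟨P, Q, e, hP, ?_⟩
    -- value
    obtain ⟨Y2, hY2, e2, hval⟩ := g.sound2 pre post (R := []) (R' := Y) hc' hex2' hX.1 hX.2 hP hQ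
      (by rw [List.append_nil, e])
    have hYY : Y2 = Y := by
      rw [e] at e2
      exact (List.append_cancel_left e2).symm
    subst hYY
    rw [hT, hT] at hval
    intro x P' hP'
    -- first block of `P' ++ Q`
    obtain ⟨k, hk, l, hend, hgood, hXl2, u, hr, hb⟩ := id hQ
    have hQw : Wo Q := by
      have h1 : Wo (Q.drop l) := hXl2.2.1
      have h2 := hXl2.1
      rw [← List.take_append_drop l Q]
      exact (loc _ _ (by omega)).2 h1
    have hQl : g.z ≤ Q.length := by
      have h2 := hXl2.1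
      rw [List.length_drop] at h2
      omega
    have hexw : ∃ t, g.z ≤ t ∧ t ≤ (P' ++ Q).length ∧ Wo ((P' ++ Q).take t) :=
      ⟨(P' ++ Q).length, by rw [List.length_append]; omega, le_rfl, by
        rw [List.take_length]
        exact (loc _ _ (by omega)).2 hQw⟩
    obtain ⟨t1, t2, t3⟩ := Nat.find_spec hexw
    have hmin := fun {m : ℕ} (hm : m < Nat.find hexw) => Nat.find_min hexw hm
    generalize Nat.find hexw = t at t1 t2 t3 hmin
    have hlt : ((P' ++ Q).take t).length = t := by rw [List.length_take]; omega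
    have hX'C : g.XX ((P' ++ Q).take t) := by
      refine ⟨by rw [hlt]; exact t1, t3, ?_⟩
      intro r hr1 hr2 hw
      rw [hlt] at hr2
      rw [List.take_take, min_eq_left hr2.le] at hw
      exact hmin hr2 ⟨hr1, by omega, hw⟩
    by_cases hbx : g.BadX BadT ((P' ++ Q).take t)
    · left
      obtain ⟨X2, hX2, e3, hval2⟩ := g.sound2 pre post (R := []) (R' := (P' ++ Q).drop t) hc' hex2'
        hX'C hbx hP' hQ (by rw [List.append_nil, List.take_append_drop])
      rw [hT, hT] at hval2
      exact ⟨_, ⟨hX'C, hbx⟩, X2, hX2, e3.symm, by rw [hval2, hval]⟩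
    · right
      exact ⟨_, hX'C, fun h => hbx h.2, List.take_prefix _ _⟩

end Crest.Agent.R320.JoinB_430
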