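import Crest.Agent.R320.JoinB_224
import Crest.Agent.R320.Grid_899
import Crest.Agent.R320.Thin_963
import Crest.Agent.R320.LWallAll_922
import Crest.Agent.R320.ExactR_237

set_option autoImplicit false

namespace Crest.Agent.R320.JoinC_224

open Crest.RegLang Crest.Agent.R320.Hk_851 Crest.Agent.R320.Sc2n_937 Crest.Agent.R320.JoinA_224
  Crest.Agent.R320.JoinB_224
open Crest.Agent.R320.Grid_899 (G Am G_pos G_dvd)

theorem exists_primes (k B : ℕ) : ∃ q : Fin k → ℕ, Function.Injective q ∧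
    ∀ j, (q j).Prime ∧ B ≤ q j := by
  have hs : ({p : ℕ | p.Prime ∧ B ≤ p} : Set ℕ).Infinite := by
    refine Set.infinite_of_forall_exists_gt fun a => ?_
    obtain ⟨p, hp, h⟩ := Nat.exists_infinite_primes (a + 1 + B)
    exact ⟨p, ⟨h, by omega⟩, by omega⟩
  let e := hs.natEmbedding
  refine ⟨fun j => (e j).1, fun i j h => ?_, fun j => (e j).2⟩
  have h1 : (e i : ℕ) = (e j : ℕ) := h
  have h2 := e.injective (Subtype.ext h1)
  exact Fin.ext h2

theorem sum_le {Mp κ : ℕ} (hκ : 1 ≤ κ) (i : ℕ) :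
    ∑ j ∈ Finset.range (i + 1), ((Mp * G κ j : ℕ) : ℤ) ≤ ((2 * Mp * G κ i : ℕ) : ℤ) := by
  induction i with
  | zero =>
    rw [Finset.sum_range_one]
    norm_cast
    nlinarith [Nat.zero_le (Mp * G κ 0)]
  | succ i ih =>
    rw [Finset.sum_range_succ]
    have h : 2 * G κ i ≤ G κ (i + 1) := by
      unfold G
      rw [← pow_succ']
      exact Nat.pow_le_pow_right (by norm_num) (by nlinarith)
    have h2 : 2 * Mp * G κ i + Mp * G κ (i + 1) ≤ 2 * Mp * G κ (i + 1) := by nlinarith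
    have h3 : ((2 * Mp * G κ i : ℕ) : ℤ) + ((Mp * G κ (i + 1) : ℕ) : ℤ) ≤
      ((2 * Mp * G κ (i + 1) : ℕ) : ℤ) := by exact_mod_cast h2
    linarith

theorem grow {K Mp : ℕ} (i : ℕ) :
    (2 : ℤ) ^ (K + 4) * ∑ j ∈ Finset.range (i + 1), ((Mp * G (K + 5 + Mp) j : ℕ) : ℤ) ≤
      ((G (K + 5 + Mp) (i + 1) : ℕ) : ℤ) := by
  have h1 := sum_le (Mp := Mp) (κ := K + 5 + Mp) (by omega) i
  have h2 : 2 ^ (K + 4) * (2 * Mp * G (K + 5 + Mp) i) ≤ G (K + 5 + Mp) (i + 1) := by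
    have e : G (K + 5 + Mp) (i + 1) = 2 ^ (K + 5) * 2 ^ Mp * G (K + 5 + Mp) i := by
      unfold G
      rw [← pow_add, ← pow_add]
      congr 1
      ring
    rw [e]
    have h3 : Mp ≤ 2 ^ Mp := (Nat.lt_two_pow_self).le
    have e2 : 2 ^ (K + 4) * (2 * Mp * G (K + 5 + Mp) i) = 2 ^ (K + 5) * Mp * G (K + 5 + Mp) i := by
      ring
    rw [e2]
    exact Nat.mul_le_mul_right _ (Nat.mul_le_mul_left _ h3)
  calc (2 : ℤ) ^ (K + 4) * ∑ j ∈ Finset.range (i + 1), ((Mp * G (K + 5 + Mp) j : ℕ) : ℤ)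
      ≤ (2 : ℤ) ^ (K + 4) * ((2 * Mp * G (K + 5 + Mp) i : ℕ) : ℤ) :=
        mul_le_mul_of_nonneg_left h1 (by positivity)
    _ ≤ _ := by exact_mod_cast h2

section
variable {k : ℕ} (q : Fin k → ℕ) (κ m : ℕ)

def BT (T : ℕ) : Prop :=
  Crest.Agent.R320.Thin963.BadT (Finset.univ.image q) m (fun i => ((G κ i : ℕ) : ℤ))
    (fun i => (((∏ j, q j) * G κ i : ℕ) : ℤ)) (fun i => ((Am (∏ j, q j) κ i : ℕ) : ℤ)) (T : ℤ)

theorem BT_mod {T T' : ℕ} (h : T % ((∏ j, q j) * G κ m) = T' % ((∏ j, q j) * G κ m))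
    (hb : BT q κ m T) : BT q κ m T' := by
  have hd : (((∏ j, q j) * G κ m : ℕ) : ℤ) ∣ (T' : ℤ) - T := (Nat.modEq_iff_dvd).1 h
  rcases hb with ⟨p, hp, hdv⟩ | ⟨i, hi, e, he, hdv⟩
  · left
    refine ⟨p, hp, ?_⟩
    obtain ⟨j, -, rfl⟩ := Finset.mem_image.1 hp
    have h1 : (q j : ℤ) ∣ (((∏ j, q j) * G κ m : ℕ) : ℤ) := by
      exact_mod_cast (Finset.dvd_prod_of_mem q (Finset.mem_univ j)).mul_right _
    have h2 := dvd_add hdv (h1.trans hd)
    have e : (T : ℤ) + (T' - T) = T' := by ring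
    rwa [e] at h2
  · right
    refine ⟨i, hi, e, he, ?_⟩
    have h1 : ((G κ (i + 1) : ℕ) : ℤ) ∣ (((∏ j, q j) * G κ m : ℕ) : ℤ) := by
      exact_mod_cast (G_dvd (κ := κ) (show i + 1 ≤ m by omega)).mul_left _
    have h2 := dvd_add hdv (h1.trans hd)
    have e2 : (T : ℤ) - ((Am (∏ j, q j) κ (i + 1) : ℕ) : ℤ) + e + (T' - T) =
      T' - ((Am (∏ j, q j) κ (i + 1) : ℕ) : ℤ) + e := by ring
    simp only at h2 ⊢
    rwa [e2] at h2

theorem Am_mono {Mp κ : ℕ} {i j : ℕ} (h : i ≤ j) : Am Mp κ i ≤ Am Mp κ j := by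
  induction h with
  | refl => exact le_rfl
  | step _ ih => exact ih.trans (by show _ ≤ Am Mp κ _ + G κ _ + Mp * G κ _; omega)

theorem clean {T : ℕ} (hT : Am (∏ j, q j) κ m ≤ T) (hb : ¬ BT q κ m T) :
    (∀ j, ¬ q j ∣ T) ∧ ∀ j, 1 ≤ j → j ≤ m →
      (∏ j, q j) * G κ (j - 1) ≤ (T - Am (∏ j, q j) κ j) % G κ j ∧
      (T - Am (∏ j, q j) κ j) % G κ j + (∏ j, q j) * G κ (j - 1) ≤ G κ j := by
  constructor
  · intro j hj
    apply hb
    left
    exact ⟨q j, Finset.mem_image_of_mem _ (Finset.mem_univ j), by exact_mod_cast hj⟩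
  · intro j h1 h2
    have hA : Am (∏ j, q j) κ j ≤ T := (Am_mono h2).trans hT
    set D := T - Am (∏ j, q j) κ j with hD
    have hTD : (T : ℤ) - ((Am (∏ j, q j) κ j : ℕ) : ℤ) = (D : ℤ) := by
      rw [hD, Nat.cast_sub hA]
    have hGp : 0 < G κ j := G_pos j
    have hlt : D % G κ j < G κ j := Nat.mod_lt _ hGp
    have hdm : (G κ j : ℤ) * ((D / G κ j : ℕ) : ℤ) + ((D % G κ j : ℕ) : ℤ) = (D : ℤ) := by
      exact_mod_cast Nat.div_add_mod D (G κ j)
    have hj1 : j - 1 + 1 = j := by omega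
    constructor
    · by_contra hlt2
      apply hb
      right
      refine ⟨j - 1, by omega, -((D % G κ j : ℕ) : ℤ), ?_, ?_⟩
      · rw [abs_neg, Nat.abs_cast]
        simp only
        exact_mod_cast (not_le.1 hlt2).le
      · simp only
        rw [hj1, hTD, ← hdm]
        ring_nf
        exact dvd_mul_right _ _
    · by_contra hlt2
      apply hb
      right
      refine ⟨j - 1, by omega, (G κ j : ℤ) - ((D % G κ j : ℕ) : ℤ), ?_, ?_⟩
      · have h3 : (0 : ℤ) ≤ (G κ j : ℤ) - ((D % G κ j : ℕ) : ℤ) := by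
          have : ((D % G κ j : ℕ) : ℤ) < (G κ j : ℤ) := by exact_mod_cast hlt
          linarith
        rw [abs_of_nonneg h3]
        simp only
        have h4 : ((G κ j : ℕ) : ℤ) < ((D % G κ j : ℕ) : ℤ) + (((∏ j, q j) * G κ (j - 1) : ℕ) : ℤ) := by
          exact_mod_cast not_le.1 hlt2
        linarith
      · simp only
        rw [hj1, hTD, ← hdm]
        have e : (G κ j : ℤ) * ((D / G κ j : ℕ) : ℤ) + ((D % G κ j : ℕ) : ℤ) +
          ((G κ j : ℤ) - ((D % G κ j : ℕ) : ℤ)) = (G κ j : ℤ) * (((D / G κ j : ℕ) : ℤ) + 1) := by ring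
        rw [e]
        exact dvd_mul_right _ _

end

end Crest.Agent.R320.JoinC_224
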