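import Crest.Agent.R320.P4_933
import Crest.Agent.R320.RegCongr_253
import Crest.Agent.R320.LWallAll_922

/-!
Row 320, helper646: the HL 1 side of the join (wall-free words are in `PN`; the zone languages of
the natural rule).
-/

set_option autoImplicit false

namespace Crest.Agent.R320.JoinH_646

open Crest.RegLang Crest.Agent.R320.Hk_851 Crest.Agent.R320.BddReg_746 Crest.Agent.R320.P4_933

variable {α : Type} [Finite α]

theorem mem_PN_two {B : ℕ} {u x v : List α} {k : ℕ} (hu : u.length ≤ B) (hx : x.length ≤ B)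
    (hv : v.length ≤ B) : u ++ (List.replicate k x).flatten ++ v ∈ (PN B 2 : Language α) := by
  show u ++ (List.replicate k x).flatten ++ v ∈ (Pc B * (Pc B * 1) : Language α)
  rw [mul_one]
  refine Language.mem_mul.2 ⟨u ++ pw x k, ⟨u, x, k, hu, hx, rfl⟩, v, ⟨v, [], 0, hv, by simp, ?_⟩, rfl⟩
  simp

/-- the class of a word -/
theorem reg {S : Type} [Monoid S] [Finite S] (f : α → S) (A M0 : ℕ) (hM : 0 < M0)
    (p : List α → Prop)
    (h : ∀ q q' : List α, A ≤ q.length → A ≤ q'.length → q.take A = q'.take A →
      q.length % M0 = q'.length % M0 → ((q.drop A).map f).prod = ((q'.drop A).map f).prod →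
      p q → p q') : Language.IsRegular ({u | p u} : Language α) :=
  RegCongr_253.regular_of_congr f A M0 hM _ h

/-- the finite-state data of a block: zone map and total -/
theorem cls {S V : Type} [Monoid S] [AddCommGroup V] (f : α → S) (act : V → S → V)
    (nu1 nu2 : List α → V) (p0 L Mo : ℕ)
    (hnu : ∀ Y Y' : List α, L ≤ Y.length → L ≤ Y'.length → Y.take L = Y'.take L →
      Y.length % Mo = Y'.length % Mo → (Y.map f).prod = (Y'.map f).prod → nu1 Y = nu1 Y')
    {q q' : List α} (h1 : p0 + L ≤ q.length) (h2 : p0 + L ≤ q'.length)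
    (ht : q.take (p0 + L) = q'.take (p0 + L)) (hm : q.length % Mo = q'.length % Mo)
    (hp : ((q.drop (p0 + L)).map f).prod = ((q'.drop (p0 + L)).map f).prod) :
    (q.map f).prod = (q'.map f).prod ∧
      act (nu2 (q.take p0)) ((q.drop p0).map f).prod + nu1 (q.drop p0) =
      act (nu2 (q'.take p0)) ((q'.drop p0).map f).prod + nu1 (q'.drop p0) := by
  have e0 : ∀ w : List α, w.take p0 = (w.take (p0 + L)).take p0 := fun w => by
    rw [List.take_take, Nat.min_eq_left (by omega)]
  have e1 : ∀ w : List α, (w.drop p0).take L = (w.take (p0 + L)).drop p0 := fun w => by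
    rw [List.drop_take, Nat.add_sub_cancel_left]
  have e2 : ∀ w : List α, w.drop p0 = (w.take (p0 + L)).drop p0 ++ w.drop (p0 + L) := fun w => by
    rw [← e1, ← List.drop_drop, List.take_append_drop]
  have e3 : ((q.drop p0).map f).prod = ((q'.drop p0).map f).prod := by
    rw [e2 q, e2 q', List.map_append, List.map_append, List.prod_append, List.prod_append, ht, hp]
  have e4 : q.take p0 = q'.take p0 := by rw [e0 q, e0 q', ht]
  have e5 : nu1 (q.drop p0) = nu1 (q'.drop p0) := by
    refine hnu _ _ (by rw [List.length_drop]; omega) (by rw [List.length_drop]; omega) ?_ ?_ e3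
    · rw [e1, e1, ht]
    · rw [List.length_drop, List.length_drop]
      have hp0 : p0 ≤ q.length := by omega
      have hp0' : p0 ≤ q'.length := by omega
      have h3 : q.length - p0 + p0 ≡ q'.length - p0 + p0 [MOD Mo] := by
        rw [Nat.sub_add_cancel hp0, Nat.sub_add_cancel hp0']
        exact hm
      exact Nat.ModEq.add_right_cancel' _ h3
  refine ⟨?_, ?_⟩
  · rw [← List.take_append_drop p0 q, ← List.take_append_drop p0 q', List.map_append,
      List.map_append, List.prod_append, List.prod_append, e3, e4]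
  · rw [e3, e4, e5]

section

variable {Wo : List α → Prop} {n : ℕ} {B R : ℕ}

/-- a window condition on walls in the first `A` letters is a class condition -/
theorem wall_take {A : ℕ} {q q' : List α} {t : ℕ} (ht : t ≤ A) (h : q.take A = q'.take A) :
    q.take t = q'.take t := by
  have : ∀ w : List α, w.take t = (w.take A).take t := fun w => by
    rw [List.take_take, Nat.min_eq_left ht]
  rw [this q, this q', h]

/-- blocks with a class property -/
theorem hl_block (loc : ∀ P Q : List α, n ≤ Q.length → (Wo (P ++ Q) ↔ Wo Q))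
    (len : ∀ P, Wo P → n ≤ P.length)
    (free : ∀ u : List α, (∀ t < u.length, ¬ Wo (u.take t)) → u ∈ (PN B R : Language α))
    {S : Type} [Monoid S] [Finite S] (f : α → S) (z A M0 : ℕ) (hM : 0 < M0) (p : List α → Prop)
    (h : ∀ q q' : List α, A ≤ q.length → A ≤ q'.length → q.take A = q'.take A →
      q.length % M0 = q'.length % M0 → ((q.drop A).map f).prod = ((q'.drop A).map f).prod →
      p q → p q') :
    HL 1 ({X | XX Wo z X ∧ p X} : Language α) :=
  hl_XX loc len free (reg f A M0 hM p h)

/-- rests -/
theorem hl_rest (loc : ∀ P Q : List α, n ≤ Q.length → (Wo (P ++ Q) ↔ Wo Q))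
    (len : ∀ P, Wo P → n ≤ P.length)
    (free : ∀ u : List α, (∀ t < u.length, ¬ Wo (u.take t)) → u ∈ (PN B R : Language α))
    {S : Type} [Monoid S] [Finite S] (f : α → S) (z : ℕ) (s : S) :
    HL 1 ({w | (∀ X, XX Wo z X → ¬ X <+: w) ∧ (w.map f).prod = s} : Language α) := by
  have h := hl_NB (z := z) loc len free (reg f 0 1 one_pos (fun w => (w.map f).prod = s)
    (fun q q' _ _ _ _ h1 h2 => by
      simp only [List.drop_zero] at h1
      rw [← h1]; exact h2))
  refine h.congr fun w => ?_
  constructor
  · rintro ⟨h1, h2⟩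
    exact ⟨(NB_iff Wo z w).2 (fun P hP hX => h1 P hX hP), h2⟩
  · rintro ⟨h1, h2⟩
    exact ⟨fun X hX hP => (NB_iff Wo z w).1 h1 X hP hX, h2⟩

end

end Crest.Agent.R320.JoinH_646
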