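import Crest.Agent.R320.HfibU_148
import Crest.Agent.R320.Top5_120
import Crest.Agent.R320.Sc2n_937
import Crest.Agent.R320.LWallAll_922

/-!
# Row 320: the join, natural chain rule, all words (helper148)

From two abstract gadgets (scheme 1 for all totals, scheme 2 on words of fixed length with a ruler)
to height three.
-/

set_option autoImplicit false

namespace Crest.Agent.R320.Join_148

open Crest.RegLang Crest.Agent.R320.Hk_851 Crest.Agent.R320.Pump_360
open Crest.R320.Reg_143 Crest.Agent.R320.CompR_11 Crest.Agent.R320.RegBd_11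
open Crest.Agent.R320.HfibU_148

/-- product of a word -/
def pp {α S : Type} [Monoid S] (f : α → S) (u : List α) : S := (u.map f).prod

theorem pp_append {α S : Type} [Monoid S] (f : α → S) (u v : List α) :
    pp f (u ++ v) = pp f u * pp f v := by simp [pp]

/-- the zone map has regular fibres -/
theorem reg_T2 {α : Type} [Finite α] {S V : Type} [Monoid S] [Finite S] [Add V] (f : α → S)
    (act : V → S → V)
    (nu2 nu : List α → V) (p0 N2 M0 : ℕ) (hM : 0 < M0)
    (hnu : ∀ u u' : List α, N2 ≤ u.length → N2 ≤ u'.length → u.take N2 = u'.take N2 →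
      u.length % M0 = u'.length % M0 → pp f (u.drop N2) = pp f (u'.drop N2) → nu u = nu u')
    (v v' : V) :
    (lg fun X : List α => act (act v (pp f (X.take p0)) + nu2 (X.take p0))
      (pp f (X.drop p0)) + nu (X.drop p0) = v').IsRegular := by
  refine reg_of_key f (p0 + N2) M0 hM _ fun X Y hX hY h1 h2 h3 => ?_
  have e1 : X.take p0 = Y.take p0 := by
    have := congrArg (List.take p0) h1
    rwa [List.take_take, List.take_take, min_eq_left (by omega)] at this
  have e2 : (X.drop p0).take N2 = (Y.drop p0).take N2 := by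
    have := congrArg (List.drop p0) h1
    rwa [List.drop_take, List.drop_take, show p0 + N2 - p0 = N2 by omega] at this
  have e3 : ∀ U : List α, pp f (U.drop p0) =
      pp f ((U.drop p0).take N2) * pp f (U.drop (p0 + N2)) := by
    intro U
    rw [← List.drop_drop, ← pp_append, List.take_append_drop]
  have h3' : pp f (X.drop (p0 + N2)) = pp f (Y.drop (p0 + N2)) := h3
  have e4 : pp f (X.drop p0) = pp f (Y.drop p0) := by
    rw [e3 X, e3 Y, e2, h3']
  have e5 : nu (X.drop p0) = nu (Y.drop p0) := by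
    refine hnu _ _ (by rw [List.length_drop]; omega) (by rw [List.length_drop]; omega) e2 ?_ ?_
    · rw [List.length_drop, List.length_drop]
      have a : X.length ≡ Y.length [MOD M0] := h2
      have b : (X.length - p0) + p0 ≡ (Y.length - p0) + p0 [MOD M0] := by
        rw [Nat.sub_add_cancel (by omega), Nat.sub_add_cancel (by omega)]; exact a
      exact Nat.ModEq.add_right_cancel' p0 b
    · rw [List.drop_drop, List.drop_drop]; exact h3'
  rw [e1, e4, e5]

theorem join {α S V : Type} [Finite α] [Monoid S] [Finite S] [AddCommGroup V] [Finite V]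
    (f : α → S) (act : V → S → V)
    (hadd : ∀ a b s, act (a + b) s = act a s + act b s)
    (hone : ∀ v, act v 1 = v) (hmul : ∀ v s t, act v (s * t) = act (act v s) t)
    (hfaith : ∀ s t, (∀ v, act v s = act v t) → s = t)
    -- scheme 1
    (lam rho : List α → Option V) (nu1 : List α → V) (N1 M1 A0 M0 : ℕ) (hM0 : 0 < M0)
    (BadT : ℕ → Prop)
    (hlen : ∀ P v, lam P = some v → P.length ≤ N1)
    (hsound : ∀ P Q v b, lam P = some v → rho Q = some b →
      b = act v (pp f (P ++ Q)) + nu1 (P ++ Q))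
    (hcompl : ∀ u : List α, M1 ≤ u.length → ¬ BadT u.length → ∀ v, ∃ P Q, u = P ++ Q ∧
      lam P = some v ∧ (rho Q).isSome)
    (hnu : ∀ u u' : List α, A0 ≤ u.length → A0 ≤ u'.length → u.take A0 = u'.take A0 →
      u.length % M0 = u'.length % M0 → pp f (u.drop A0) = pp f (u'.drop A0) → nu1 u = nu1 u')
    (hper : ∀ T, A0 ≤ T → (BadT (T + M0) ↔ BadT T))
    -- scheme 2
    (K C0 p0 : ℕ) (c : ℕ → ℕ) (hc : ∀ k, k < K → c k ≤ p0)
    (lam2 rho2 : ℕ → List α → Option V) (nu2 : List α → V)
    (h2s : ∀ k, k < K → ∀ (P Q : List α) (v b : V), P.length = c k → lam2 k P = some v →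
      rho2 k Q = some b → b = act v (pp f (P ++ Q)) + nu2 (P ++ Q))
    (h2c : ∀ u : List α, u.length = p0 → ∀ v, ∃ I : Finset ℕ, 2 * C0 + 2 ≤ I.card ∧
      ∀ k ∈ I, k < K ∧ lam2 k (u.take (c k)) = some v ∧ (rho2 k (u.drop (c k))).isSome)
    (hsp : ∀ k k' l l', k < K → k' < K → l < K → l' < K → k' ≠ k → l' ≠ l →
      c k + c l' < c l + c k' + 2 * N1 → c l + c k' < c k + c l' + 2 * N1 → k = l)
    (hthin : ∀ τ, 2 * p0 ≤ τ → ∀ J : Finset ℕ, (∀ k ∈ J, k < K ∧
      ∃ k', k' < K ∧ k' ≠ k ∧ BadT (τ + c k' - c k - p0)) → J.card ≤ C0)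
    (hN1 : 0 < N1) (s : S) : HL 3 ({w | (w.map f).prod = s} : Language α) := by
  classical
  -- walls
  obtain ⟨n, G, B, Wo, hW, hgap, -, -, hfree⟩ :=
    LWallAll_922.walls_all_left α (2 * p0 + 2 * N1 + 1) (by omega)
  set q0 : ℕ := n + 2 * p0 + M1 + A0 + 1 with hq0
  let g : Sc2n_937.Geo α :=
    { Wo := Wo, n := n, z := p0 + N1 + q0, p0 := p0, q0 := q0, N1 := N1
      loc := hW.app, hz := rfl, hq := by omega, hN := hN1, hqp := by omega }
  have hgz : g.z = p0 + N1 + q0 := rfl
  have hgp : g.p0 = p0 := rfl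
  have hgN : g.N1 = N1 := rfl
  have hgW : g.Wo = Wo := rfl
  let pre : List α → V → V := fun X v => act v (pp f X) + nu2 X
  let post : V → List α → V := fun v Y => act v (pp f Y) + nu1 Y
  let nu : List α → V := fun X => act (nu2 (X.take p0)) (pp f (X.drop p0)) + nu1 (X.drop p0)
  have hT : ∀ v X, act v (X.map f).prod + nu X = g.T pre post v X := by
    intro v X
    have e : (X.map f).prod = pp f (X.take p0) * pp f (X.drop p0) := by
      rw [← pp_append, List.take_append_drop]; rfl
    show act v (X.map f).prod + (act (nu2 (X.take p0)) (pp f (X.drop p0)) + nu1 (X.drop p0)) =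
      act (act v (pp f (X.take p0)) + nu2 (X.take p0)) (pp f (X.drop p0)) + nu1 (X.drop p0)
    rw [e, hmul, hadd, add_assoc]
  let C : Set (List α) := {X | g.XX X}
  let Bad : Set (List α) := {X | g.XX X ∧ g.BadX BadT X}
  let L1 : V → Set (List α) := fun v => {P | g.LP1 pre lam v P}
  let L2 : V → Set (List α) := fun v => {P | Sc2n_937.Geo.LP2 K c lam2 v P}
  have hPC : Blk467.PCode C := by
    refine ⟨?_, ?_⟩
    · intro h
      have := h.1
      rw [hgz] at this
      simp at this
    · rintro X hX Y hY ⟨R, rfl⟩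
      exact g.prefix_code (R := R) (R' := []) hX hY (by simp)
  -- regularity
  have hCZ : ∀ X : List α, X ∈ C ↔ X ∈ Z Wo (fun _ => g.z) 1 := by
    intro X
    constructor
    · rintro ⟨h1, h2, h3⟩
      exact ⟨h2, h1, fun t ht hw hz => h3 t hz ht hw⟩
    · rintro ⟨h1, h2, h3⟩
      exact ⟨h2, h1, fun t ht htl hw => h3 t htl hw ht⟩
  have hp : ∀ u : List α, (∀ t < u.length, ¬ Wo (u.take t)) →
      Pieces 2 (max B (2 * p0 + 2 * N1 + 1)) u := by
    intro u hu
    obtain ⟨a, x, v, k, h1, h2, h3, h4⟩ := hfree u hu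
    refine ⟨[(a, x, k), (v, [], 0)], by simp, ?_, ?_⟩
    · intro t ht
      simp only [List.mem_cons, List.not_mem_nil, or_false] at ht
      rcases ht with rfl | rfl
      · exact ⟨h1.trans (le_max_left _ _), h2.trans (le_max_right _ _)⟩
      · exact ⟨h3.trans (le_max_left _ _), by simp⟩
    · rw [val_cons, val_cons, val_nil, pw_zero, h4]
      simp [pw]
  have hthr : ∀ r < 1, (fun _ : ℕ => g.z) r ≤ g.z := fun _ _ => le_rfl
  have hregT : ∀ x y, (lg fun X : List α => act x (X.map f).prod + nu X = y).IsRegular := by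
    intro x y
    refine isRegular_congr (reg_T2 f act nu2 nu1 p0 A0 M0 hM0 hnu x y) fun X => ?_
    rw [mem_lg, hT]
    rfl
  have hZ1 : ∀ {P : List α → Prop}, (lg P).IsRegular →
      HL 1 ({X | X ∈ Z Wo (fun _ => g.z) 1 ∧ P X} : Language α) := fun hP =>
    HL_Z hW.app hW.len one_pos hthr hp hP
  have hCT : ∀ x y, HL 1 ({X | X ∈ C ∧ act x (X.map f).prod + nu X = y} : Language α) := by
    intro x y
    refine (hZ1 (hregT x y)).congr fun X => ?_
    exact and_congr_left fun _ => hCZ X
  have hregE : (lg fun X : List α => g.E X).IsRegular := by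
    refine isRegular_congr (isRegular_take (g.z + g.N1) (fun x : List α =>
      ∃ t, t ≤ x.length ∧ g.Wo (x.take t) ∧ g.z ≤ t + g.N1 ∧ t < g.z + g.N1)) fun w => ?_
    rw [mem_lg]
    constructor
    · rintro ⟨t, h1, h2, h3, h4⟩
      rw [List.take_take, min_eq_left h4.le] at h2
      rw [List.length_take] at h1
      exact ⟨t, by omega, h2, h3, h4⟩
    · rintro ⟨t, h1, h2, h3, h4⟩
      refine ⟨t, by rw [List.length_take]; omega, ?_, h3, h4⟩
      rw [List.take_take, min_eq_left h4.le]
      exact h2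
  have hregB : (lg fun X : List α => BadT (X.length - g.p0)).IsRegular := by
    refine isRegular_length (fun L => BadT (L - g.p0)) (A0 + p0) M0 hM0 fun L hL => ?_
    have e : L + M0 - g.p0 = (L - g.p0) + M0 := by rw [hgp]; omega
    rw [e]
    exact hper _ (by rw [hgp]; omega)
  have hBT : ∀ x y, HL 1 ({X | X ∈ Bad ∧ act x (X.map f).prod + nu X = y} : Language α) := by
    intro x y
    have h1 : (lg fun X : List α => g.E X ∨ BadT (X.length - g.p0)).IsRegular := by
      refine isRegular_congr (reg_not (reg_and (reg_not hregE) (reg_not hregB))) fun w => ?_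
      rw [mem_lg]; tauto
    refine (hZ1 (reg_and h1 (hregT x y))).congr fun X => ?_
    constructor
    · rintro ⟨⟨h2, h3⟩, h4⟩
      exact ⟨(hCZ X).1 h2, h3, h4⟩
    · rintro ⟨h2, h3, h4⟩
      exact ⟨⟨(hCZ X).2 h2, h3⟩, h4⟩
  have htail : ∀ s, HL 1 ({w | (∀ X ∈ C, ¬ X <+: w) ∧ (w.map f).prod = s} : Language α) := by
    intro s
    refine (HfibU_148.htail hW.app hW.len one_pos hthr hp f s).congr fun w => ?_
    exact and_congr_left fun _ => forall_congr' fun X => by rw [hCZ X]
  have hex2 : ∀ k, k < K → ∀ P Q v u, P.length = c k → Q.length = g.p0 - c k →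
      lam2 k P = some v → rho2 k Q = some u → u = pre (P ++ Q) v :=
    fun k hk P Q v u h1 _ h3 h4 => h2s k hk P Q v u h1 h3 h4
  have hex1 : ∀ P Q u b, lam P = some u → rho Q = some b → b = post u (P ++ Q) :=
    fun P Q u b h1 h2 => hsound P Q u b h1 h2
  have hgap2 : ∀ P Q : List α, g.Wo P → g.Wo (P ++ Q) → Q ≠ [] →
      2 * g.p0 + 2 * g.N1 < Q.length := by
    intro P Q h1 h2 h3
    have h4 : 0 < Q.length := List.length_pos_of_ne_nil h3
    have := hgap (P ++ Q) P.length (P ++ Q).length (by rw [List.length_append]; omega) le_rfl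
      (by rw [List.take_left]; exact h1) (by rw [List.take_length]; exact h2)
    rw [List.length_append] at this
    rw [hgp, hgN]; omega
  refine Top5_120.top5 act hadd hone hmul hfaith f nu C Bad hPC (fun X h => h.1) L1 L2 ?_ ?_
    hCT hBT htail ?_ ?_ s
  · intro v
    refine (List.finite_length_le α (p0 + N1)).subset ?_
    rintro P ⟨h1, h2⟩
    have := hlen _ _ h2
    rw [List.length_drop, hgp] at this
    show P.length ≤ p0 + N1
    omega
  · intro v
    refine (List.finite_length_le α p0).subset ?_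
    rintro P ⟨k, hk, h1, h2⟩
    show P.length ≤ p0
    rw [h1]; exact hc k hk
  · -- scheme 1
    intro X hX hXb v
    have hnb : ¬ g.BadX BadT X := fun h => hXb ⟨hX, h⟩
    have hE : ¬ g.E X := fun h => hnb (Or.inl h)
    have hB : ¬ BadT (X.length - g.p0) := fun h => hnb (Or.inr h)
    have hXz : g.z ≤ X.length := hX.1
    rw [hgz] at hXz
    obtain ⟨P, Q, b, e, hP, hQ⟩ := g.complete1 pre (lam := lam) (rho := rho) hlen hX hE
      (fun u => hcompl (X.drop g.p0) (by rw [List.length_drop, hgp]; omega)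
        (by rw [List.length_drop]; exact hB) u) v
    have hv := g.sound1 pre post hlen hex1 hP hQ
    refine ⟨P, Q, e.symm, hP, fun x P' hP' => ?_⟩
    have h' := g.sound1 pre post hlen hex1 hP' hQ
    refine ⟨h'.1, ?_⟩
    rw [hT, hT, h'.2, e, hv.2]
  · rintro X ⟨hX, hXb⟩ Y ⟨hY, -⟩ v
    have hI : ∃ I : Finset ℕ, 2 * C0 + 2 ≤ I.card ∧ ∀ k ∈ I, k < K ∧
        lam2 k (X.take (c k)) = some v ∧ (rho2 k ((X.take g.p0).drop (c k))).isSome := by
      have hXz : g.z ≤ X.length := hX.1
      rw [hgz] at hXz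
      obtain ⟨I, h1, h2⟩ := h2c (X.take p0) (by rw [List.length_take]; omega) v
      refine ⟨I, h1, fun k hk => ?_⟩
      obtain ⟨h3, h4, h5⟩ := h2 k hk
      refine ⟨h3, ?_, h5⟩
      rwa [List.take_take, min_eq_left (hc k h3)] at h4
    obtain ⟨P, Q, b, e, hP, hQ⟩ := g.complete2 pre post (BadT := BadT) (lam2 := lam2)
      (rho2 := rho2) (C0 := C0) hc hgap2 hsp
      (fun τ hτ J hJ => hthin τ (by rw [hgz, hgp] at hτ; omega) J hJ) hX hY v hI
    obtain ⟨X2, h1, h2, h3⟩ := g.sound2 pre post hc hex2 (R := []) (R' := Y) hX hXb hP hQ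
      (by rw [List.append_nil]; exact e)
    have hXY : X2 = Y := List.append_cancel_left (h2.symm.trans e)
    rw [hXY] at h3
    refine ⟨P, Q, e, hP, fun x P' hP' => ?_⟩
    obtain ⟨k, hk, l, hend, hgood, -, -⟩ := id hQ
    obtain ⟨k0, hk0, hPl, -⟩ := id hP'
    by_cases hkk : k0 = k
    · subst hkk
      have hX' : g.XX (P' ++ Q.take l) :=
        g.xx_of_cend (by rw [hPl]; exact hc _ hk0) (by rw [hPl]; exact hend)
      by_cases hb' : g.BadX BadT (P' ++ Q.take l)
      · left
        obtain ⟨X3, h4, h5, h6⟩ := g.sound2 pre post hc hex2 (R := []) (R' := Q.drop l) hX' hb'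
          hP' hQ (by rw [List.append_nil, List.append_assoc, List.take_append_drop])
        refine ⟨P' ++ Q.take l, ⟨hX', hb'⟩, X3, h4, h5.symm, ?_⟩
        rw [hT, hT, hT, hT, h6, h3]
      · right
        exact ⟨P' ++ Q.take l, hX', fun h => hb' h.2, ⟨Q.drop l, by
          rw [List.append_assoc, List.take_append_drop]⟩⟩
    · right
      obtain ⟨l', he', hg'⟩ := hgood k0 hk0 hkk
      have hX' : g.XX (P' ++ Q.take l') :=
        g.xx_of_cend (by rw [hPl]; exact hc _ hk0) (by rw [hPl]; exact he')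
      refine ⟨P' ++ Q.take l', hX', fun h => hg' ?_, ⟨Q.drop l', by
          rw [List.append_assoc, List.take_append_drop]⟩⟩
      have := g.cbad_of_bad (BadT := BadT) (P := P') (Q := Q) (l := l')
        (by rw [hPl]; exact hc k0 hk0) (by rw [hPl]; exact he') h.2
      rw [hPl] at this
      exact this

end Crest.Agent.R320.Join_148
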