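import Crest.Agent.R320.Top5_120
import Crest.Agent.R320.Sc2n_937
import Crest.Agent.R320.Fib_81

set_option autoImplicit false

namespace Crest.Agent.R320.Join_271

open Crest.RegLang Crest.Agent.R320.Hk_851 Crest.Agent.R320.Sc2n_937 Crest.Agent.R320.Core1_922

/-- combinatorial join -/
theorem join {α S V : Type} [Finite α] [Monoid S] [Finite S] [AddCommGroup V] [Finite V]
    (act : V → S → V)
    (hadd : ∀ a b s, act (a + b) s = act a s + act b s)
    (hone : ∀ v, act v 1 = v) (hmul : ∀ v s t, act v (s * t) = act (act v s) t)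
    (hfaith : ∀ s t, (∀ v, act v s = act v t) → s = t)
    (φ : α → S) (g : Geo α) (hLW : LW g.n g.Wo)
    {B W : ℕ}
    (hB : ∀ X : List α, (∀ t < X.length, ¬ g.Wo (X.take t)) →
        ∃ (u x v : List α) (k : ℕ), u.length ≤ B ∧ x.length ≤ W ∧ v.length ≤ B ∧
          X = u ++ (List.replicate k x).flatten ++ v)
    (lam rho : List α → Option V) (nu1 : List α → V)
    (hlen : ∀ P v, lam P = some v → P.length ≤ g.N1)
    (hs1 : ∀ P Q v b, lam P = some v → rho Q = some b →
      b = act v ((P ++ Q).map φ).prod + nu1 (P ++ Q))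
    (BadT : ℕ → Prop)
    (hc1 : ∀ u : List α, g.N1 + g.q0 ≤ u.length → ¬ BadT u.length → ∀ v,
      ∃ P Q, u = P ++ Q ∧ lam P = some v ∧ (rho Q).isSome)
    (A0 M0 : ℕ) (hM0 : 0 < M0)
    (hreg : ∀ Q Q' : List α, A0 ≤ Q.length → A0 ≤ Q'.length → Q.take A0 = Q'.take A0 →
      ((Q.drop A0).map φ).prod = ((Q'.drop A0).map φ).prod → Q.length % M0 = Q'.length % M0 →
      nu1 Q = nu1 Q')
    (hper : ∀ T T', A0 ≤ T → A0 ≤ T' → T % M0 = T' % M0 → (BadT T ↔ BadT T'))
    (K : ℕ) (c : ℕ → ℕ) (lam2 rho2 : ℕ → List α → Option V) (nu2 : List α → V)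
    (hc : ∀ k, k < K → c k ≤ g.p0)
    (hs2 : ∀ k, k < K → ∀ P Q v b, P.length = c k → lam2 k P = some v → rho2 k Q = some b →
      b = act v ((P ++ Q).map φ).prod + nu2 (P ++ Q))
    (C0 : ℕ)
    (hc2 : ∀ (u : List α) (v : V), u.length = g.p0 → ∃ I : Finset ℕ, 2 * C0 + 2 ≤ I.card ∧
      ∀ k ∈ I, k < K ∧ lam2 k (u.take (c k)) = some v ∧ (rho2 k (u.drop (c k))).isSome)
    (hgap : ∀ P Q : List α, g.Wo P → g.Wo (P ++ Q) → Q ≠ [] → 2 * g.p0 + 2 * g.N1 < Q.length)
    (hsp : ∀ k k' l l', k < K → k' < K → l < K → l' < K → k' ≠ k → l' ≠ l →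
      c k + c l' < c l + c k' + 2 * g.N1 → c l + c k' < c k + c l' + 2 * g.N1 → k = l)
    (hthin : ∀ τ, g.z ≤ τ + g.p0 → ∀ J : Finset ℕ, (∀ k ∈ J, k < K ∧
      ∃ k', k' < K ∧ k' ≠ k ∧ BadT (τ + c k' - c k - g.p0)) → J.card ≤ C0)
    (s : S) : HL 3 ({w | (w.map φ).prod = s} : Language α) := by
  classical
  have hz := g.hz
  have hN := g.hN
  have hz0 : 0 < g.z := by omega
  set pre : List α → V → V := fun u v => act v (u.map φ).prod + nu2 u with hpre
  set post : V → List α → V := fun v u => act v (u.map φ).prod + nu1 u with hpost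
  set nu : List α → V := fun X =>
    act (nu2 (X.take g.p0)) ((X.drop g.p0).map φ).prod + nu1 (X.drop g.p0) with hnu
  have hT : ∀ v X, g.T pre post v X = act v (X.map φ).prod + nu X := by
    intro v X
    have e : (X.map φ).prod = ((X.take g.p0).map φ).prod * ((X.drop g.p0).map φ).prod := by
      rw [← List.prod_append, ← List.map_append, List.take_append_drop]
    simp only [Geo.T, hpre, hpost, hnu]
    rw [hadd, e, hmul, add_assoc]
  set Kk : ℕ := g.z + g.N1 + g.p0 + A0 with hKk
  have key : ∀ X Y : List α, X.take Kk = Y.take Kk →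
      ((X.drop Kk).map φ).prod = ((Y.drop Kk).map φ).prod → X.length % M0 = Y.length % M0 →
      X = Y ∨ ((X.map φ).prod = (Y.map φ).prod ∧ nu X = nu Y ∧
        (g.BadX BadT X ↔ g.BadX BadT Y)) := by
    intro X Y ht hd hm
    by_cases hlX : X.length < Kk
    · left
      have h1 : X.take Kk = X := List.take_of_length_le hlX.le
      have h2 : (Y.take Kk).length = X.length := by rw [← ht, h1]
      rw [List.length_take] at h2
      have h3 : Y.take Kk = Y := List.take_of_length_le (by omega)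
      rw [← h1, ht, h3]
    · right
      have hlY : Kk ≤ Y.length := by
        have h2 := congrArg List.length ht
        rw [List.length_take, List.length_take] at h2
        omega
      have tk : ∀ j, j ≤ Kk → X.take j = Y.take j := by
        intro j hj
        have h := congrArg (List.take j) ht
        rwa [List.take_take, List.take_take, Nat.min_eq_left hj] at h
      have dp : ∀ j, j ≤ Kk → ((X.drop j).map φ).prod = ((Y.drop j).map φ).prod := by
        intro j hj
        have e : ∀ Z : List α, Kk ≤ Z.length → ((Z.drop j).map φ).prod =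
            (((Z.take Kk).drop j).map φ).prod * ((Z.drop Kk).map φ).prod := by
          intro Z hZ
          rw [← List.prod_append, ← List.map_append]
          congr 2
          conv_lhs => rw [← List.take_append_drop Kk Z]
          rw [List.drop_append_of_le_length (by rw [List.length_take]; omega)]
        rw [e X (by omega), e Y hlY, ht, hd]
      have hmod : (X.length - g.p0) % M0 = (Y.length - g.p0) % M0 := by
        have h1 : (X.length - g.p0) + g.p0 ≡ (Y.length - g.p0) + g.p0 [MOD M0] := by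
          rw [Nat.sub_add_cancel (by omega), Nat.sub_add_cancel (by omega)]; exact hm
        exact Nat.ModEq.add_right_cancel' _ h1
      have hnu1 : nu1 (X.drop g.p0) = nu1 (Y.drop g.p0) := by
        refine hreg _ _ (by rw [List.length_drop]; omega) (by rw [List.length_drop]; omega) ?_ ?_ ?_
        · rw [List.take_drop, List.take_drop, tk _ (by omega)]
        · rw [List.drop_drop, List.drop_drop]
          exact dp _ (by omega)
        · rw [List.length_drop, List.length_drop]; exact hmod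
      refine ⟨by simpa using dp 0 (by omega), ?_, ?_⟩
      · simp only [hnu]
        rw [tk _ (by omega), dp g.p0 (by omega), hnu1]
      · have hbt : BadT (X.length - g.p0) ↔ BadT (Y.length - g.p0) :=
          hper _ _ (by omega) (by omega) hmod
        have hE : g.E X ↔ g.E Y := by
          constructor
          · rintro ⟨t, h1, h2, h3, h4⟩
            exact ⟨t, by omega, by rw [← tk t (by omega)]; exact h2, h3, h4⟩
          · rintro ⟨t, h1, h2, h3, h4⟩
            exact ⟨t, by omega, by rw [tk t (by omega)]; exact h2, h3, h4⟩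
        unfold Geo.BadX
        rw [hbt, hE]
  have hex2 : ∀ k, k < K → ∀ P Q v u, P.length = c k → Q.length = g.p0 - c k →
      lam2 k P = some v → rho2 k Q = some u → u = pre (P ++ Q) v :=
    fun k hk P Q v u h1 _ h3 h4 => hs2 k hk P Q v u h1 h3 h4
  refine Top5_120.top5 act hadd hone hmul hfaith φ nu (Fib_81.XX g.Wo g.z)
    {X | X ∈ Fib_81.XX g.Wo g.z ∧ g.BadX BadT X} (Fib_81.XX_pcode hz0) (fun X hX => hX.1)
    (fun v => {P | g.LP1 pre lam v P}) (fun v => {P | Geo.LP2 K c lam2 v P}) ?_ ?_ ?_ ?_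
    (Fib_81.HL_tail_prod φ hLW hB) ?_ ?_ s
  · intro v
    refine (List.finite_length_le α (g.p0 + g.N1)).subset fun P hP => ?_
    have h := hlen _ _ hP.2
    rw [List.length_drop] at h
    show P.length ≤ g.p0 + g.N1
    omega
  · intro v
    refine (List.finite_length_le α g.p0).subset fun P hP => ?_
    obtain ⟨k, hk, hP, -⟩ := hP
    show P.length ≤ g.p0
    rw [hP]; exact hc k hk
  · intro x y
    refine Fib_81.HL_blocks φ Kk M0 hM0 hLW hB _ (fun X hX => hX.1) ?_
    intro X hX Y hY h1 h2 h3 hXL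
    rcases key X Y h1 h2 h3 with h | ⟨h4, h5, -⟩
    · rw [← h]; exact hXL
    · refine ⟨hY, ?_⟩
      rw [← h4, ← h5]; exact hXL.2
  · intro x y
    refine Fib_81.HL_blocks φ Kk M0 hM0 hLW hB _ (fun X hX => hX.1.1) ?_
    intro X hX Y hY h1 h2 h3 hXL
    rcases key X Y h1 h2 h3 with h | ⟨h4, h5, h6⟩
    · rw [← h]; exact hXL
    · refine ⟨⟨hY, h6.1 hXL.1.2⟩, ?_⟩
      rw [← h4, ← h5]; exact hXL.2
  · intro X hX hXb v
    have hnb : ¬ g.BadX BadT X := fun h => hXb ⟨hX, h⟩
    have hnE : ¬ g.E X := fun h => hnb (Or.inl h)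
    have hnT : ¬ BadT (X.length - g.p0) := fun h => hnb (Or.inr h)
    have hXz : g.z ≤ X.length := hX.1
    obtain ⟨P, Q, b, hPQ, hP, hQ⟩ := g.complete1 pre hlen hX hnE
      (fun u => hc1 (X.drop g.p0) (by rw [List.length_drop]; omega)
        (by rw [List.length_drop]; exact hnT) u) v
    refine ⟨P, Q, hPQ.symm, hP, fun x P' hP' => ?_⟩
    have h1 := g.sound1 pre post hlen (fun P Q u b h1 h2 => hs1 P Q u b h1 h2) hP' hQ
    have h0 := g.sound1 pre post hlen (fun P Q u b h1 h2 => hs1 P Q u b h1 h2) hP hQ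
    refine ⟨h1.1, ?_⟩
    rw [← hT, ← hT, h1.2, ← h0.2, hPQ]
  · intro X hX Y hY v
    have hXz : g.z ≤ X.length := hX.1.1
    obtain ⟨P, Q, b, hPQ, hP, hQ⟩ := g.complete2 pre post (BadT := BadT) (K := K) (c := c)
      (lam2 := lam2) (rho2 := rho2) (C0 := C0) hc hgap hsp hthin hX.1 hY.1 v (by
        obtain ⟨I, h1, h2⟩ := hc2 (X.take g.p0) v (by rw [List.length_take]; omega)
        refine ⟨I, h1, fun k hk => ?_⟩
        obtain ⟨h3, h4, h5⟩ := h2 k hk
        rw [List.take_take, Nat.min_eq_left (hc k h3)] at h4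
        exact ⟨h3, h4, h5⟩)
    obtain ⟨X2, hX2, he, hv⟩ := g.sound2 pre post hc hex2 hX.1 hX.2 hP hQ (R := []) (R' := Y)
      (by simpa using hPQ)
    have hX2Y : X2 = Y := List.append_cancel_left (he.symm.trans hPQ)
    subst hX2Y
    refine ⟨P, Q, hPQ, hP, fun x P' hP' => ?_⟩
    obtain ⟨k0, hk0, hPl, hl0⟩ := id hP'
    obtain ⟨k, hk, l, hend, hgood, hX2', u, hr, hb⟩ := id hQ
    have hblk : ∃ l, g.CEnd Q (c k0) l := by
      by_cases hkk : k0 = k
      · exact ⟨l, hkk ▸ hend⟩
      · obtain ⟨l', h1, _⟩ := hgood k0 hk0 hkk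
        exact ⟨l', h1⟩
    obtain ⟨l0, hl⟩ := hblk
    have hXX : g.XX (P' ++ Q.take l0) :=
      g.xx_of_cend (by rw [hPl]; exact hc k0 hk0) (by rw [hPl]; exact hl)
    have hcat : P' ++ Q.take l0 ++ Q.drop l0 = P' ++ Q := by
      rw [List.append_assoc, List.take_append_drop]
    by_cases hbad : g.BadX BadT (P' ++ Q.take l0)
    · left
      obtain ⟨Y', hY', he', hv'⟩ := g.sound2 pre post hc hex2 hXX hbad hP' hQ (R := [])
        (R' := Q.drop l0) (by rw [List.append_nil, hcat])
      refine ⟨P' ++ Q.take l0, ⟨hXX, hbad⟩, Y', hY', he'.symm, ?_⟩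
      simp only [← hT]
      rw [hv', hv]
    · right
      exact ⟨P' ++ Q.take l0, hXX, fun h => hbad h.2, Q.drop l0, hcat⟩

end Crest.Agent.R320.Join_271
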