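import Crest.Agent.R320.Top5_120
import Crest.Agent.R320.Sc2n_937
import Crest.Agent.R320.LWallAll_922
import Crest.Agent.R320.P4_933
import Crest.Agent.R320.Bridge2_3

/-!
# Row 320: the join (helper3): two word gadgets + ruler give `HL 3`
-/

set_option autoImplicit false

namespace Crest.Agent.R320.Join_3

open Crest.RegLang Crest.Agent.R320.Hk_851

/-- the product of a word -/
def ph {α S : Type} [Monoid S] (φ : α → S) (w : List α) : S := (w.map φ).prod

theorem ph_append {α S : Type} [Monoid S] (φ : α → S) (u v : List α) :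
    ph φ (u ++ v) = ph φ u * ph φ v := by simp [ph]

theorem ph_split {α S : Type} [Monoid S] (φ : α → S) (n : ℕ) (u : List α) :
    ph φ u = ph φ (u.take n) * ph φ (u.drop n) := by
  rw [← ph_append, List.take_append_drop]

section join

variable {α S V : Type} [Finite α] [Monoid S] [Finite S] [AddCommGroup V] [Finite V]
  (φ : α → S) (act : V → S → V)

/-- two words which a finite automaton with prefix memory `A` does not distinguish -/
def Eqv (A Mp : ℕ) (X Y : List α) : Prop :=
  A ≤ X.length ∧ A ≤ Y.length ∧ X.take A = Y.take A ∧ X.length % Mp = Y.length % Mp ∧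
    ph φ (X.drop A) = ph φ (Y.drop A)

variable {φ}

omit [Finite α] [Finite S] in
theorem Eqv.take {A Mp : ℕ} {X Y : List α} (h : Eqv φ A Mp X Y) {t : ℕ} (ht : t ≤ A) :
    X.take t = Y.take t := by
  have e : ∀ Z : List α, Z.take t = (Z.take A).take t := fun Z => by
    rw [List.take_take, min_eq_left ht]
  rw [e X, e Y, h.2.2.1]

omit [Finite α] [Finite S] in
theorem Eqv.drop {A Mp : ℕ} {X Y : List α} (h : Eqv φ A Mp X Y) {t : ℕ} (ht : t ≤ A) :
    ph φ (X.drop t) = ph φ (Y.drop t) := by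
  have e : ∀ Z : List α, ph φ (Z.drop t) = ph φ ((Z.take A).drop t) * ph φ (Z.drop A) := fun Z => by
    rw [ph_split φ (A - t) (Z.drop t), List.drop_drop, List.drop_take]
    congr 3
    omega
  rw [e X, e Y, h.2.2.1, h.2.2.2.2]

omit [Finite α] [Finite S] in
theorem Eqv.all {A Mp : ℕ} {X Y : List α} (h : Eqv φ A Mp X Y) : ph φ X = ph φ Y := by
  have := h.drop (t := 0) (Nat.zero_le _)
  simpa using this

omit [Finite α] [Finite S] in
theorem Eqv.dropE {A B Mp p : ℕ} {X Y : List α} (h : Eqv φ B Mp X Y) (hp : p + A ≤ B) :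
    Eqv φ A Mp (X.drop p) (Y.drop p) := by
  obtain ⟨h1, h2, h3, h4, h5⟩ := h
  refine ⟨?_, ?_, ?_, ?_, ?_⟩
  · rw [List.length_drop]; omega
  · rw [List.length_drop]; omega
  · have e : ∀ Z : List α, (Z.drop p).take A = (Z.take (p + A)).drop p := fun Z => by
      rw [List.drop_take]; congr 1; omega
    rw [e, e, Eqv.take ⟨h1, h2, h3, h4, h5⟩ hp]
  · rw [List.length_drop, List.length_drop]
    have hx : X.length ≡ Y.length [MOD Mp] := h4
    have e1 : X.length = (X.length - p) + p := by omega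
    have e2 : Y.length = (Y.length - p) + p := by omega
    rw [e1, e2] at hx
    exact Nat.ModEq.add_right_cancel' p hx
  · rw [List.drop_drop, List.drop_drop]
    exact Eqv.drop ⟨h1, h2, h3, h4, h5⟩ hp

theorem reg_of_eqv {A Mp : ℕ} (hM : 0 < Mp) (f : List α → Prop)
    (h : ∀ X Y, Eqv φ A Mp X Y → (f X ↔ f Y)) : Language.IsRegular ({X | f X} : Language α) := by
  have h0 := Bridge2_3.regular_of_state (ph φ) (ph_append φ) A Mp hM (fun X => f X)
    (fun Q Q' h1 h2 h3 h4 h5 => propext (h Q Q' ⟨h1, h2, h3, h4, h5⟩)) True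
  have e : ({X | f X} : Language α) = {X | f X = True} := by
    ext X
    change f X ↔ (f X = True)
    simp
  rw [e]; exact h0

theorem join (hadd : ∀ a b s, act (a + b) s = act a s + act b s)
    (hone : ∀ v, act v 1 = v) (hmul : ∀ v s t, act v (s * t) = act (act v s) t)
    (hfaith : ∀ s t, (∀ v, act v s = act v t) → s = t)
    (K C0 N1 L0 A Mp : ℕ) (hN1 : 0 < N1) (hMp : 0 < Mp) (BadT : ℕ → Prop)
    (hper : ∀ T T', A ≤ T → A ≤ T' → T % Mp = T' % Mp → (BadT T ↔ BadT T'))
    (lam rho : List α → Option V) (nu1 : List α → V)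
    (lamN : ∀ P v, lam P = some v → P.length ≤ N1)
    (snd : ∀ P Q v b, lam P = some v → rho Q = some b → b = act v (ph φ (P ++ Q)) + nu1 (P ++ Q))
    (cmp : ∀ u : List α, L0 ≤ u.length → ¬ BadT u.length → ∀ v, ∃ P Q, u = P ++ Q ∧
      lam P = some v ∧ (rho Q).isSome)
    (nuF : ∀ X Y, Eqv φ A Mp X Y → nu1 X = nu1 Y)
    (c : ℕ → ℕ) (p0 : ℕ) (hcp : ∀ k, k < K → c k ≤ p0)
    (lam2 rho2 : ℕ → List α → Option V) (nu2 : List α → V)
    (snd2 : ∀ k < K, ∀ (P Q : List α) (v b : V), P.length = c k → lam2 k P = some v →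
      rho2 k Q = some b → b = act v (ph φ (P ++ Q)) + nu2 (P ++ Q))
    (cmp2 : ∀ (u : List α) (v : V), p0 ≤ u.length → ∃ I : Finset ℕ, 2 * C0 + 2 ≤ I.card ∧
      ∀ k ∈ I, k < K ∧ lam2 k (u.take (c k)) = some v ∧ (rho2 k (u.drop (c k))).isSome)
    (hsp : ∀ k k' l l', k < K → k' < K → l < K → l' < K → k' ≠ k → l' ≠ l →
      c k + c l' < c l + c k' + 2 * N1 → c l + c k' < c k + c l' + 2 * N1 → k = l)
    (hthin : ∀ τ, 2 * p0 ≤ τ → ∀ J : Finset ℕ, (∀ k ∈ J, k < K ∧
      ∃ k', k' < K ∧ k' ≠ k ∧ BadT (τ + c k' - c k - p0)) → J.card ≤ C0)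
    (s : S) : HL 3 ({w | (w.map φ).prod = s} : Language α) := by
  classical
  obtain ⟨n, G0, B, Wo, hW, hgap, -, -, hfree⟩ :=
    LWallAll_922.walls_all_left α (2 * p0 + 2 * N1 + 1) (by omega)
  let g : Sc2n_937.Geo α :=
    { Wo := Wo, n := n, z := p0 + N1 + (n + 2 * p0 + L0), p0 := p0, q0 := n + 2 * p0 + L0,
      N1 := N1, loc := hW.app, hz := rfl, hq := by omega, hN := hN1, hqp := by omega }
  let pre : List α → V → V := fun X0 v => act v (ph φ X0) + nu2 X0
  let post : V → List α → V := fun u Y => act u (ph φ Y) + nu1 Y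
  let nu : List α → V := fun X =>
    act (nu2 (X.take p0)) (ph φ (X.drop p0)) + nu1 (X.drop p0)
  have hT : ∀ v X, g.T pre post v X = act v (ph φ X) + nu X := by
    intro v X
    change act (act v (ph φ (X.take p0)) + nu2 (X.take p0)) (ph φ (X.drop p0)) + nu1 (X.drop p0)
      = act v (ph φ X) + (act (nu2 (X.take p0)) (ph φ (X.drop p0)) + nu1 (X.drop p0))
    rw [hadd, ← hmul, ← ph_append, List.take_append_drop, add_assoc]
  have hTT : ∀ v X, act v (X.map φ).prod + nu X = g.T pre post v X := fun v X => (hT v X).symm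
  let C : Set (List α) := {X | g.XX X}
  let Bad : Set (List α) := {X | g.XX X ∧ g.BadX BadT X}
  -- finite state
  set A' : ℕ := p0 + A + (g.z + N1) with hA'
  have fs1 : ∀ X Y, Eqv φ A' Mp X Y → ∀ x, act x (X.map φ).prod + nu X
      = act x (Y.map φ).prod + nu Y := by
    intro X Y h x
    have e1 : ph φ X = ph φ Y := h.all
    have e2 : X.take p0 = Y.take p0 := h.take (by omega)
    have e3 : ph φ (X.drop p0) = ph φ (Y.drop p0) := h.drop (by omega)
    have e4 : nu1 (X.drop p0) = nu1 (Y.drop p0) := nuF _ _ (h.dropE (by omega))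
    change act x (ph φ X) + (act (nu2 (X.take p0)) (ph φ (X.drop p0)) + nu1 (X.drop p0))
      = act x (ph φ Y) + (act (nu2 (Y.take p0)) (ph φ (Y.drop p0)) + nu1 (Y.drop p0))
    rw [e1, e2, e3, e4]
  have fs2' : ∀ X Y, Eqv φ A' Mp X Y → g.BadX BadT X → g.BadX BadT Y := by
    intro X Y h hb
    rcases hb with ⟨t, h1, h2, h3, h4⟩ | hb
    · left
      have h5 : t ≤ A' := by
        have : t < g.z + N1 := h4
        omega
      refine ⟨t, le_trans h5 h.2.1, ?_, h3, h4⟩
      rw [← h.take h5]; exact h2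
    · right
      have h6 := h.dropE (A := A) (p := p0) (by omega)
      have h7 := (hper (X.length - p0) (Y.length - p0) (by
        have := h6.1; rw [List.length_drop] at this; exact this) (by
        have := h6.2.1; rw [List.length_drop] at this; exact this) (by
        have := h6.2.2.2.1; rw [List.length_drop, List.length_drop] at this; exact this))
      exact h7.1 hb
  have fs2 : ∀ X Y, Eqv φ A' Mp X Y → (g.BadX BadT X ↔ g.BadX BadT Y) := fun X Y h =>
    ⟨fs2' X Y h, fs2' Y X ⟨h.2.1, h.1, h.2.2.1.symm, h.2.2.2.1.symm, h.2.2.2.2.symm⟩⟩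
  have hXXiff : ∀ X, g.XX X ↔ P4_933.XX Wo g.z X := fun X =>
    ⟨fun h => ⟨h.2.1, h.1, fun t h1 h2 => h.2.2 t h2 h1⟩,
      fun h => ⟨h.2.1, h.1, fun t h1 h2 => h.2.2 t h2 h1⟩⟩
  have free : ∀ u : List α, (∀ t < u.length, ¬ Wo (u.take t)) →
      u ∈ (BddReg_746.PN (max B (2 * p0 + 2 * N1 + 1)) 2 : Language α) := by
    intro u hu
    obtain ⟨a, x, v, k, h1, h2, h3, h4⟩ := hfree u hu
    refine Language.mem_mul.2 ⟨a ++ BddReg_746.pw x k, ⟨a, x, k, by omega, by omega, rfl⟩, v, ?_, ?_⟩
    · refine Language.mem_mul.2 ⟨v, ⟨v, [], 0, by omega, by simp, by simp⟩, [], rfl, by simp⟩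
    · rw [h4]; rfl
  have hXf : ∀ f : List α → Prop, (∀ X Y, Eqv φ A' Mp X Y → (f X ↔ f Y)) →
      HL 1 ({X | g.XX X ∧ f X} : Language α) := by
    intro f hf
    have h1 := P4_933.hl_XX (z := g.z) hW.app hW.len free (reg_of_eqv hMp f hf)
    refine h1.congr fun w => ?_
    exact and_congr_left fun _ => hXXiff w
  have hPC : Blk467.PCode C := by
    refine ⟨fun h => ?_, fun X hX Y hY hXY => ?_⟩
    · have h1 : g.z ≤ ([] : List α).length := h.1
      have h2 : 0 < g.z := by change 0 < p0 + N1 + (n + 2 * p0 + L0); omega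
      simp at h1; omega
    · obtain ⟨R, hR⟩ := hXY
      exact g.prefix_code (R := R) (R' := []) hX hY (by simpa using hR)
  let L1 : V → Set (List α) := fun v => {P | g.LP1 pre lam v P}
  let L2 : V → Set (List α) := fun v => {P | Sc2n_937.Geo.LP2 K c lam2 v P}
  refine Top5_120.top5 act hadd hone hmul hfaith φ nu C Bad hPC (fun X hX => hX.1) L1 L2
    ?_ ?_ ?_ ?_ ?_ ?_ ?_ s
  · intro v
    refine (List.finite_length_le α (p0 + N1)).subset ?_
    rintro P ⟨h1, h2⟩
    have h3 := lamN _ _ h2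
    rw [List.length_drop] at h3
    have h4 : p0 ≤ P.length := h1
    change P.length ≤ p0 + N1
    change P.length - p0 ≤ N1 at h3
    omega
  · intro v
    refine (List.finite_length_le α p0).subset ?_
    rintro P ⟨k, hk, h1, h2⟩
    change P.length ≤ p0
    rw [h1]; exact hcp k hk
  · intro x y
    refine (hXf (fun X => act x (X.map φ).prod + nu X = y) fun X Y h => ?_).congr fun w => Iff.rfl
    rw [fs1 X Y h x]
  · intro x y
    refine (hXf (fun X => g.BadX BadT X ∧ act x (X.map φ).prod + nu X = y) fun X Y h => ?_).congr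
      fun w => ?_
    · rw [fs1 X Y h x, fs2 X Y h]
    · exact ⟨fun h => ⟨h.1.1, h.1.2, h.2⟩, fun h => ⟨⟨h.1, h.2.1⟩, h.2.2⟩⟩
  · intro s'
    have h1 := P4_933.hl_NB (z := g.z) hW.app hW.len free
      (reg_of_eqv (φ := φ) (A := 0) (Mp := 1) one_pos (fun w => (w.map φ).prod = s')
        (fun X Y h => by
          have := h.all
          unfold ph at this
          rw [this]))
    refine h1.congr fun w => ?_
    refine and_congr_left fun _ => ?_
    rw [P4_933.NB_iff]
    exact ⟨fun h P hP hPX => h P ((hXXiff P).2 hPX) hP, fun h X hX hXw => h X hXw ((hXXiff X).1 hX)⟩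
  · -- completeness 1
    intro X hX hXb v
    have hnE : ¬ g.E X := fun h => hXb ⟨hX, Or.inl h⟩
    have hnB : ¬ BadT (X.length - p0) := fun h => hXb ⟨hX, Or.inr h⟩
    have hXl : g.z ≤ X.length := hX.1
    obtain ⟨P, Q, b, hPQ, hP, hQ⟩ := g.complete1 pre (lam := lam) (rho := rho) lamN hX hnE
      (by
        intro u
        refine cmp (X.drop p0) ?_ ?_ u
        · rw [List.length_drop]
          change p0 + N1 + (n + 2 * p0 + L0) ≤ X.length at hXl
          omega
        · rw [List.length_drop]; exact hnB) v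
    have hs : ∀ x P', g.LP1 pre lam x P' → g.XX (P' ++ Q) ∧ g.T pre post x (P' ++ Q) = b :=
      fun x P' hP' => g.sound1 pre post lamN (fun P Q u b h1 h2 => snd P Q u b h1 h2) hP' hQ
    refine ⟨P, Q, hPQ.symm, hP, fun x P' hP' => ⟨(hs x P' hP').1, ?_⟩⟩
    rw [hTT, hTT, (hs x P' hP').2, hPQ, (hs v P hP).2]
  · -- completeness 2
    intro X hX Y hY v
    obtain ⟨P, Q, b, hPQ, hP, hQ⟩ := g.complete2 pre post (BadT := BadT) (K := K) (c := c)
      (lam2 := lam2) (rho2 := rho2) (C0 := C0) hcp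
      (by
        intro P Q h1 h2 h3
        have hQl : 0 < Q.length := List.length_pos_iff.2 h3
        have := hgap (P ++ Q) P.length (P ++ Q).length (by rw [List.length_append]; omega) le_rfl
          (by rw [List.take_left]; exact h1) (by rw [List.take_length]; exact h2)
        rw [List.length_append] at this
        change 2 * p0 + 2 * N1 < Q.length
        omega)
      hsp
      (by
        intro τ hτ J hJ
        refine hthin τ ?_ J hJ
        change p0 + N1 + (n + 2 * p0 + L0) ≤ τ + p0 at hτ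
        omega)
      hX.1 hY.1 v
      (by
        obtain ⟨I, h1, h2⟩ := cmp2 (X.take p0) v (by
          rw [List.length_take]
          have : g.z ≤ X.length := hX.1.1
          change p0 + N1 + (n + 2 * p0 + L0) ≤ X.length at this
          omega)
        refine ⟨I, h1, fun k hk => ?_⟩
        obtain ⟨h3, h4, h5⟩ := h2 k hk
        rw [List.take_take, min_eq_left (hcp k h3)] at h4
        exact ⟨h3, h4, h5⟩)
    have hex : ∀ k, k < K → ∀ (P Q : List α) (v u : V), P.length = c k → Q.length = p0 - c k →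
        lam2 k P = some v → rho2 k Q = some u → u = pre (P ++ Q) v :=
      fun k hk P Q v u h1 _ h3 h4 => snd2 k hk P Q v u h1 h3 h4
    have hb : g.T pre post (g.T pre post v X) Y = b := by
      obtain ⟨X2, h1, h2, h3⟩ := g.sound2 pre post (BadT := BadT) (K := K) (c := c)
        (lam2 := lam2) (rho2 := rho2) hcp hex (X := X) (R := []) (R' := Y) hX.1 hX.2 hP hQ
        (by rw [List.append_nil, hPQ])
      have : Y = X2 := List.append_cancel_left (by rw [← hPQ, ← h2])
      rw [this]; exact h3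
    refine ⟨P, Q, hPQ, hP, fun x P' hP' => ?_⟩
    obtain ⟨k0, hk0, hP0, hl0⟩ := hP'
    -- a candidate end for `P'`
    have hend : ∃ l, g.CEnd Q P'.length l := by
      obtain ⟨k, hk, l, h1, h2, -⟩ := hQ
      by_cases hkk : k0 = k
      · exact ⟨l, by rw [hP0, hkk]; exact h1⟩
      · obtain ⟨l', h3, -⟩ := h2 k0 hk0 hkk
        exact ⟨l', by rw [hP0]; exact h3⟩
    obtain ⟨l, hl⟩ := hend
    have hX' : g.XX (P' ++ Q.take l) := g.xx_of_cend (by rw [hP0]; exact hcp k0 hk0) hl
    by_cases hbad : g.BadX BadT (P' ++ Q.take l)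
    · left
      obtain ⟨X2, h1, h2, h3⟩ := g.sound2 pre post (BadT := BadT) (K := K) (c := c)
        (lam2 := lam2) (rho2 := rho2) hcp hex (X := P' ++ Q.take l) (R := []) (R' := Q.drop l)
        hX' hbad ⟨k0, hk0, hP0, hl0⟩ hQ
        (by rw [List.append_nil, List.append_assoc, List.take_append_drop])
      refine ⟨P' ++ Q.take l, ⟨hX', hbad⟩, X2, h1, h2.symm, ?_⟩
      rw [hTT, hTT, hTT, hTT, h3, hb]
    · right
      refine ⟨P' ++ Q.take l, hX', fun h => hbad h.2, Q.drop l, ?_⟩
      rw [List.append_assoc, List.take_append_drop]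

end join

end Crest.Agent.R320.Join_3
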