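import Crest.Agent.R320.Top5_120
import Crest.Agent.R320.Sc2n_937
import Crest.Agent.R320.P4_933
import Crest.Agent.R320.RegCongr_253
import Crest.Agent.R320.ExactR_237
import Crest.Agent.R320.GridU2_323

/-!
Row 320: join of the two schemes on all words (natural chain rule, left-looking walls).
-/

set_option autoImplicit false

namespace Crest.Agent.R320.Join_323

open Crest.RegLang Crest.Agent.R320.Hk_851 Crest.Agent.R320.Blk467 Crest.Agent.R320.BddReg_746
open Crest.Agent.R320.Sc2n_937 Crest.Agent.R320.ExactR_237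

theorem take_le_eq {A : Type} {X X' : List A} {B t : ℕ} (h : X.take B = X'.take B) (ht : t ≤ B) :
    X.take t = X'.take t := by
  rw [← min_eq_left ht, ← List.take_take, h, List.take_take]

theorem join {A S V : Type} [Finite A] [Monoid S] [Finite S] [AddCommGroup V] [Finite V]
    (act : V → S → V)
    (hadd : ∀ a b s, act (a + b) s = act a s + act b s)
    (hone : ∀ v, act v 1 = v) (hmul : ∀ v s t, act v (s * t) = act (act v s) t)
    (hfaith : ∀ s t, (∀ v, act v s = act v t) → s = t) (φ : A → S)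
    (g : Geo A) (hlenW : ∀ P, g.Wo P → g.n ≤ P.length) {B R : ℕ}
    (free : ∀ u : List A, (∀ t < u.length, ¬ g.Wo (u.take t)) → u ∈ (PN B R : Language A))
    (hgap : ∀ P Q : List A, g.Wo P → g.Wo (P ++ Q) → Q ≠ [] → 2 * g.p0 + 2 * g.N1 < Q.length)
    (lam rho : List A → Option V) (nu1 : List A → V)
    (hlen : ∀ P v, lam P = some v → P.length ≤ g.N1)
    (hex : ∀ P Q u b, lam P = some u → rho Q = some b → b = act u (pr φ (P ++ Q)) + nu1 (P ++ Q))
    (BadT : ℕ → Prop)
    (hcomp : ∀ u : List A, g.z ≤ u.length + g.p0 → ¬ BadT u.length → ∀ v, ∃ P Q, u = P ++ Q ∧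
      lam P = some v ∧ (rho Q).isSome)
    (La M0 : ℕ) (hM0 : 0 < M0)
    (hnu : ∀ Q Q' : List A, La ≤ Q.length → La ≤ Q'.length → Q.take La = Q'.take La →
      Q.length % M0 = Q'.length % M0 → pr φ (Q.drop La) = pr φ (Q'.drop La) → nu1 Q = nu1 Q')
    (hper : ∀ T T', La ≤ T → La ≤ T' → T % M0 = T' % M0 → BadT T → BadT T')
    (K C0 : ℕ) (c : ℕ → ℕ) (lam2 : ℕ → List A → Option V) (rho2 : ℕ → List A → S → Option V)
    (nu2 : List A → S → V)
    (hex2 : ∀ k < K, ∀ (P Q : List A) (y : S) (v b : V), P.length = c k →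
      lam2 k P = some v → rho2 k Q y = some b → b = act v (pr φ (P ++ Q) * y) + nu2 (P ++ Q) y)
    (hcomp2 : ∀ (u : List A) (y : S) (v : V), (∀ k < K, c k ≤ u.length) →
      ∃ I : Finset ℕ, 2 * C0 + 2 ≤ I.card ∧ ∀ k ∈ I, k < K ∧ lam2 k (u.take (c k)) = some v ∧
        (rho2 k (u.drop (c k)) y).isSome)
    (hc : ∀ k, k < K → c k ≤ g.p0)
    (hsp : ∀ k k' l l', k < K → k' < K → l < K → l' < K → k' ≠ k → l' ≠ l →
      c k + c l' < c l + c k' + 2 * g.N1 → c l + c k' < c k + c l' + 2 * g.N1 → k = l)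
    (hthin : ∀ τ, g.z ≤ τ + g.p0 → ∀ J : Finset ℕ, (∀ k ∈ J, k < K ∧
      ∃ k', k' < K ∧ k' ≠ k ∧ BadT (τ + c k' - c k - g.p0)) → J.card ≤ C0)
    (s : S) : HL 3 ({w | (w.map φ).prod = s} : Language A) := by
  classical
  have hz := g.hz
  have hq := g.hq
  have hN := g.hN
  set pre : List A → V → V := fun X v => act v (pr φ X) + nu2 X 1 with hpre
  set post : V → List A → V := fun u Y => act u (pr φ Y) + nu1 Y with hpost
  set nu : List A → V := fun X => act (nu2 (X.take g.p0) 1) (pr φ (X.drop g.p0)) +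
    nu1 (X.drop g.p0) with hnudef
  have hprapp : ∀ u v : List A, pr φ (u ++ v) = pr φ u * pr φ v := fun u v => by
    simp [pr]
  have hTeq : ∀ v X, g.T pre post v X = act v ((X.map φ).prod) + nu X := by
    intro v X
    have e1 : (X.map φ).prod = pr φ (X.take g.p0) * pr φ (X.drop g.p0) := by
      rw [← hprapp, List.take_append_drop]; rfl
    rw [e1, hmul]
    simp only [Geo.T, hpre, hpost, hnudef]
    rw [hadd]
    abel
  have hex2' : ∀ k, k < K → ∀ P Q v u, P.length = c k → Q.length = g.p0 - c k →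
      lam2 k P = some v → (fun k Q => rho2 k Q 1) k Q = some u → u = pre (P ++ Q) v := by
    intro k hk P Q v u hP _ h1 h2
    have := hex2 k hk P Q 1 v u hP h1 h2
    rw [mul_one] at this
    exact this
  let C : Set (List A) := {X | g.XX X}
  let Bad : Set (List A) := {X | g.XX X ∧ g.BadX BadT X}
  have hPC : PCode C := by
    refine ⟨fun h => ?_, fun X hX Y hY hXY => ?_⟩
    · have := h.1
      simp at this
      omega
    · obtain ⟨R, hR⟩ := hXY
      exact g.prefix_code hX hY (R := R) (R' := []) (by rw [hR, List.append_nil])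
  -- finite-state properties
  set BB : ℕ := g.z + g.N1 + g.p0 + La with hBB
  have hphi : ∀ u v : List A, pr φ (u ++ v) = pr φ u * pr φ v := hprapp
  have hnuloc : ∀ q q' : List A, BB ≤ q.length → BB ≤ q'.length → q.take BB = q'.take BB →
      q.length % M0 = q'.length % M0 → pr φ (q.drop BB) = pr φ (q'.drop BB) → nu q = nu q' := by
    intro q q' h1 h2 h3 h4 h5
    simp only [hnudef]
    have e1 : q.take g.p0 = q'.take g.p0 := take_le_eq h3 (by omega)
    have e2 : pr φ (q.drop g.p0) = pr φ (q'.drop g.p0) :=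
      GridU_323.phi_drop hphi (La := BB) (by omega) h1 h2 h3 h5
    have e3 : nu1 (q.drop g.p0) = nu1 (q'.drop g.p0) := by
      apply hnu
      · rw [List.length_drop]; omega
      · rw [List.length_drop]; omega
      · have e : ∀ w : List A, (w.drop g.p0).take La = (w.take (g.p0 + La)).drop g.p0 := by
          intro w
          rw [List.drop_take, Nat.add_sub_cancel_left]
        rw [e, e, take_le_eq h3 (by omega)]
      · rw [List.length_drop, List.length_drop]
        have := GridU_323.mod_sub (a := 0) (b := g.p0) (show q.length ≡ q'.length [MOD M0] from h4)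
          (by omega) (by omega)
        simpa using this
      · rw [List.drop_drop, List.drop_drop]
        exact GridU_323.phi_drop hphi (La := BB) (by omega) h1 h2 h3 h5
    rw [e1, e2, e3]
  have hprloc : ∀ q q' : List A, BB ≤ q.length → BB ≤ q'.length → q.take BB = q'.take BB →
      pr φ (q.drop BB) = pr φ (q'.drop BB) → pr φ q = pr φ q' := by
    intro q q' h1 h2 h3 h5
    simpa using GridU_323.phi_drop hphi (La := BB) (Nat.zero_le _) h1 h2 h3 h5
  have hbadloc : ∀ q q' : List A, BB ≤ q.length → BB ≤ q'.length → q.take BB = q'.take BB →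
      q.length % M0 = q'.length % M0 → g.BadX BadT q → g.BadX BadT q' := by
    intro q q' h1 h2 h3 h4 h
    rcases h with ⟨t, ht, hw, h5, h6⟩ | h
    · left
      refine ⟨t, by omega, ?_, h5, h6⟩
      rw [← take_le_eq h3 (by omega : t ≤ BB)]
      exact hw
    · right
      refine hper _ _ (by omega) (by omega) ?_ h
      have := GridU_323.mod_sub (a := 0) (b := g.p0) (show q.length ≡ q'.length [MOD M0] from h4)
        (by omega) (by omega)
      simpa using this
  have hiff : ∀ X, P4_933.XX g.Wo g.z X ↔ g.XX X := fun X =>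
    ⟨fun h => ⟨h.2.1, h.1, fun t h1 h2 => h.2.2 t h2 h1⟩,
      fun h => ⟨h.2.1, h.1, fun t h1 h2 => h.2.2 t h2 h1⟩⟩
  have hCT : ∀ x y, HL 1 ({X | X ∈ C ∧ act x (X.map φ).prod + nu X = y} : Language A) := by
    intro x y
    have h1 : Language.IsRegular ({X | act x (X.map φ).prod + nu X = y} : Language A) := by
      refine RegCongr_253.regular_of_congr φ BB M0 hM0 _ ?_
      intro q q' h1 h2 h3 h4 h5 h6
      have e1 : pr φ q = pr φ q' := hprloc q q' h1 h2 h3 h5
      have e2 := hnuloc q q' h1 h2 h3 h4 h5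
      show act x (pr φ q') + nu q' = y
      rw [← e1, ← e2]
      exact h6
    refine (P4_933.hl_XX (z := g.z) g.loc hlenW free h1).congr fun w => ?_
    constructor
    · rintro ⟨h2, h3⟩; exact ⟨(hiff w).2 h2, h3⟩
    · rintro ⟨h2, h3⟩; exact ⟨(hiff w).1 h2, h3⟩
  have hBT : ∀ x y, HL 1 ({X | X ∈ Bad ∧ act x (X.map φ).prod + nu X = y} : Language A) := by
    intro x y
    have h1 : Language.IsRegular ({X | g.BadX BadT X ∧ act x (X.map φ).prod + nu X = y} :
        Language A) := by
      refine RegCongr_253.regular_of_congr φ BB M0 hM0 _ ?_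
      intro q q' h1 h2 h3 h4 h5 h6
      have e1 : pr φ q = pr φ q' := hprloc q q' h1 h2 h3 h5
      have e2 := hnuloc q q' h1 h2 h3 h4 h5
      refine ⟨hbadloc q q' h1 h2 h3 h4 h6.1, ?_⟩
      show act x (pr φ q') + nu q' = y
      rw [← e1, ← e2]
      exact h6.2
    refine (P4_933.hl_XX (z := g.z) g.loc hlenW free h1).congr fun w => ?_
    constructor
    · rintro ⟨⟨h2, h4⟩, h3⟩; exact ⟨(hiff w).2 h2, h4, h3⟩
    · rintro ⟨h2, h4, h3⟩; exact ⟨⟨(hiff w).1 h2, h4⟩, h3⟩
  have htail : ∀ s, HL 1 ({w | (∀ X ∈ C, ¬ X <+: w) ∧ (w.map φ).prod = s} : Language A) := by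
    intro s
    have h1 : Language.IsRegular ({X | (X.map φ).prod = s} : Language A) := by
      refine RegCongr_253.regular_of_congr φ 0 1 one_pos _ ?_
      intro q q' _ _ _ _ h5 h6
      simp only [List.drop_zero] at h5
      show (q'.map φ).prod = s
      rw [← h5]; exact h6
    refine (P4_933.hl_NB (z := g.z) g.loc hlenW free h1).congr fun w => ?_
    have e : (∀ X ∈ C, ¬ X <+: w) ↔ P4_933.NB g.Wo g.z w := by
      rw [P4_933.NB_iff]
      constructor
      · intro h P hP hX
        exact h P ((hiff P).1 hX) hP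
      · intro h X hX hP
        exact h X hP ((hiff X).2 hX)
    constructor
    · rintro ⟨h2, h3⟩; exact ⟨e.1 h2, h3⟩
    · rintro ⟨h2, h3⟩; exact ⟨e.2 h2, h3⟩
  -- left languages
  let L1 : V → Set (List A) := fun v => {P | g.LP1 pre lam v P}
  let L2 : V → Set (List A) := fun v => {P | Geo.LP2 K c lam2 v P}
  have hf1 : ∀ v, (L1 v).Finite := by
    intro v
    refine (List.finite_length_le A (g.p0 + g.N1)).subset ?_
    rintro P ⟨h1, h2⟩
    have := hlen _ _ h2
    rw [List.length_drop] at this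
    show P.length ≤ _
    omega
  have hf2 : ∀ v, (L2 v).Finite := by
    intro v
    refine (List.finite_length_le A g.p0).subset ?_
    rintro P ⟨k, hk, h1, h2⟩
    show P.length ≤ _
    rw [h1]
    exact hc k hk
  refine Top5_120.top5 act hadd hone hmul hfaith φ nu C Bad hPC (fun X hX => hX.1) L1 L2 hf1 hf2
    hCT hBT htail ?_ ?_ s
  · intro X hX hnb v
    have hX' : g.XX X := hX
    have hnbad : ¬ g.BadX BadT X := fun h => hnb ⟨hX, h⟩
    have hnE : ¬ g.E X := fun h => hnbad (Or.inl h)
    have hnT : ¬ BadT (X.drop g.p0).length := fun h => hnbad (Or.inr (by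
      rwa [List.length_drop] at h))
    have hXz := hX'.1
    obtain ⟨P, Q, b, hPQ, hL, hR⟩ := g.complete1 pre hlen hX' hnE
      (fun u => hcomp _ (by rw [List.length_drop]; omega) hnT u) v
    have h1 := g.sound1 pre post hlen hex hL hR
    refine ⟨P, Q, hPQ.symm, hL, ?_⟩
    intro x P' hP'
    have h2 := g.sound1 pre post hlen hex hP' hR
    refine ⟨h2.1, ?_⟩
    rw [← hTeq, ← hTeq, h2.2, hPQ, h1.2]
  · rintro X ⟨hX, hXb⟩ Y ⟨hY, hYb⟩ v
    have hX' : g.XX X := hX
    have hXz := hX'.1
    obtain ⟨P, Q, b, hPQ, hL, hR⟩ := g.complete2 pre post (rho2 := fun k Q => rho2 k Q 1)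
      hc hgap hsp hthin hX hY v (by
        obtain ⟨I, hI, hI'⟩ := hcomp2 (X.take g.p0) 1 v (fun k hk => by
          rw [List.length_take]
          have := hc k hk
          omega)
        refine ⟨I, hI, fun k hk => ?_⟩
        obtain ⟨h1, h2, h3⟩ := hI' k hk
        refine ⟨h1, ?_, h3⟩
        rw [List.take_take, min_eq_left (hc k h1)] at h2
        exact h2)
    have h1 := g.sound2 pre post (rho2 := fun k Q => rho2 k Q 1) hc hex2' hX hXb hL hR
      (R := []) (R' := Y) (by rw [List.append_nil]; exact hPQ)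
    obtain ⟨X2, hX2, hPQ2, hb⟩ := h1
    have hXY : X2 = Y := by
      have := hPQ.symm.trans hPQ2
      exact (List.append_cancel_left this).symm
    rw [hXY] at hb
    refine ⟨P, Q, hPQ, hL, ?_⟩
    intro x P' hP'
    have hRR := hR
    obtain ⟨k, hk, l, hend, hgood, hXd, u, hr, hbu⟩ := hR
    obtain ⟨k', hk', hPl', hl'⟩ := hP'
    by_cases hkk : k' = k
    · subst hkk
      have hXX' : g.XX (P' ++ Q.take l) :=
        g.xx_of_cend (by rw [hPl']; exact hc k' hk') (by rw [hPl']; exact hend)
      by_cases hb' : g.BadX BadT (P' ++ Q.take l)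
      · left
        obtain ⟨X3, hX3, hPQ3, hb3⟩ := g.sound2 pre post (rho2 := fun k Q => rho2 k Q 1) hc hex2'
          hXX' hb' (P := P') (v := x) ⟨k', hk', hPl', hl'⟩ hRR (R := []) (R' := Q.drop l)
          (by rw [List.append_nil, List.append_assoc, List.take_append_drop])
        refine ⟨P' ++ Q.take l, ⟨hXX', hb'⟩, X3, hX3, hPQ3.symm, ?_⟩
        rw [← hTeq, ← hTeq, ← hTeq, ← hTeq, hb3, hb]
      · right
        refine ⟨P' ++ Q.take l, hXX', fun h => hb' h.2, ⟨Q.drop l, ?_⟩⟩
        rw [List.append_assoc, List.take_append_drop]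
    · right
      obtain ⟨l', he', hg'⟩ := hgood k' hk' hkk
      have hXX' : g.XX (P' ++ Q.take l') :=
        g.xx_of_cend (by rw [hPl']; exact hc k' hk') (by rw [hPl']; exact he')
      refine ⟨P' ++ Q.take l', hXX', fun h => hg' ?_, ⟨Q.drop l', ?_⟩⟩
      · have := g.cbad_of_bad (BadT := BadT) (P := P') (Q := Q) (l := l')
          (by rw [hPl']; exact hc k' hk') (by rw [hPl']; exact he') h.2
        rw [hPl'] at this
        exact this
      · rw [List.append_assoc, List.take_append_drop]

end Crest.Agent.R320.Join_323
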