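import Crest.Agent.R320.SemTop_727
import Crest.Agent.R320.Sc2n_937
import Crest.Agent.R320.OutRule_480
import Crest.Agent.R320.Fib_298

/-!
# Row 320: SemTop_727 (top) + Sc2n_937 (both schemes) + outer walls -> HL 3 on all words (helper326)
-/

set_option autoImplicit false

namespace Crest.Agent.R320.Join_326

open Crest.RegLang Crest.Agent.R320.Hk_851 Crest.Agent.R320.Blk467 Crest.Agent.R320.SemTop_727
open Crest.Agent.R320.Sc2n_937

universe u v w

variable {α : Type u} {S : Type v} {V : Type w} [Monoid S] [AddCommGroup V]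
  (act : V → S → V) (φ : α → S)
  (g : Geo α) (nu1 nu2 : List α → V) (lam rho : List α → Option V) (K : ℕ) (c : ℕ → ℕ)
  (lam2 rho2 : ℕ → List α → Option V)

def pre (X0 : List α) (v : V) : V := act v (X0.map φ).prod + nu2 X0

def post (u : V) (Y : List α) : V := act u (Y.map φ).prod + nu1 Y

/-- the data of 727's top -/
def D : Sch α V where
  XX := {X | g.XX X}
  T := g.T (pre act φ nu2) (post act φ nu1)
  L1 v := {P | g.LP1 (pre act φ nu2) lam v P}
  L2 v := {P | Geo.LP2 K c lam2 v P}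

variable {act φ g nu1 nu2 lam rho K c lam2 rho2}

local notation "DD" => D act φ g nu1 nu2 lam K c lam2

theorem good_of {BadT : ℕ → Prop} {T0 : ℕ}
    (hlen : ∀ P v, lam P = some v → P.length ≤ g.N1)
    (hex : ∀ P Q u b, lam P = some u → rho Q = some b → b = post act φ nu1 u (P ++ Q))
    (hcomp : ∀ Y : List α, T0 ≤ Y.length → ¬ BadT Y.length → ∀ u,
      ∃ P Q, Y = P ++ Q ∧ lam P = some u ∧ (rho Q).isSome)
    (hT0 : T0 + g.p0 ≤ g.z)
    {X : List α} (hX : g.XX X) (hb : ¬ g.BadX BadT X) : X ∈ (DD).Good := by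
  have hE : ¬ g.E X := fun h => hb (Or.inl h)
  have hT : ¬ BadT (X.length - g.p0) := fun h => hb (Or.inr h)
  have hXz := hX.1
  refine ⟨hX, fun x => ?_⟩
  obtain ⟨P, Q, b, e, hP, hQ⟩ := g.complete1 (pre act φ nu2) (rho := rho) hlen hX hE
    (fun u => hcomp (X.drop g.p0) (by rw [List.length_drop]; omega)
      (by rw [List.length_drop]; exact hT) u) x
  refine ⟨P, hP, Q, ?_, e.symm⟩
  intro x' P' hP'
  obtain ⟨h1, h2⟩ := g.sound1 (pre act φ nu2) (post act φ nu1) hlen hex hP' hQ
  obtain ⟨h3, h4⟩ := g.sound1 (pre act φ nu2) (post act φ nu1) hlen hex hP hQ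
  refine ⟨h1, ?_⟩
  show g.T (pre act φ nu2) (post act φ nu1) x' (P' ++ Q) =
    g.T (pre act φ nu2) (post act φ nu1) x X
  rw [h2, e, h4]

theorem hC2 {BadT : ℕ → Prop} {T0 C0 : ℕ}
    (hlen : ∀ P v, lam P = some v → P.length ≤ g.N1)
    (hex : ∀ P Q u b, lam P = some u → rho Q = some b → b = post act φ nu1 u (P ++ Q))
    (hcomp : ∀ Y : List α, T0 ≤ Y.length → ¬ BadT Y.length → ∀ u,
      ∃ P Q, Y = P ++ Q ∧ lam P = some u ∧ (rho Q).isSome)
    (hT0 : T0 + g.p0 ≤ g.z)
    (hc : ∀ k, k < K → c k ≤ g.p0)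
    (hex2 : ∀ k, k < K → ∀ P Q v u, P.length = c k → Q.length = g.p0 - c k →
      lam2 k P = some v → rho2 k Q = some u → u = pre act φ nu2 (P ++ Q) v)
    (hgap : ∀ P Q : List α, g.Wo P → g.Wo (P ++ Q) → Q ≠ [] → 2 * g.p0 + 2 * g.N1 < Q.length)
    (hsp : ∀ k k' l l', k < K → k' < K → l < K → l' < K → k' ≠ k → l' ≠ l →
      c k + c l' < c l + c k' + 2 * g.N1 → c l + c k' < c k + c l' + 2 * g.N1 → k = l)
    (hthin : ∀ τ, g.z ≤ τ + g.p0 → ∀ J : Finset ℕ, (∀ k ∈ J, k < K ∧
      ∃ k', k' < K ∧ k' ≠ k ∧ BadT (τ + c k' - c k - g.p0)) → J.card ≤ C0)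
    (hI : ∀ (X0 : List α) (v : V), X0.length = g.p0 →
      ∃ I : Finset ℕ, 2 * C0 + 2 ≤ I.card ∧ ∀ k ∈ I, k < K ∧
        lam2 k (X0.take (c k)) = some v ∧ (rho2 k (X0.drop (c k))).isSome)
    (X1 : List α) (h1 : X1 ∈ (DD).Bad) (X2 : List α) (h2 : X2 ∈ (DD).Bad) (x : V) :
    ∃ P ∈ (DD).L2 x, ∃ Q ∈ (DD).R2 ((DD).T ((DD).T x X1) X2), P ++ Q = X1 ++ X2 := by
  have hz := g.hz
  have hq := g.hq
  have hXX1 : g.XX X1 := h1.1
  have hXX2 : g.XX X2 := h2.1
  have hbadof : ∀ X, g.XX X → X ∉ (DD).Good → g.BadX BadT X := by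
    intro X hX hng
    by_contra hnb
    exact hng (good_of hlen hex hcomp hT0 hX hnb)
  have hB1 : g.BadX BadT X1 := hbadof X1 hXX1 h1.2
  have hl1 : (X1.take g.p0).length = g.p0 := by
    rw [List.length_take]; have := hXX1.1; omega
  obtain ⟨P, Q, b, e, hP, hQ⟩ := g.complete2 (pre act φ nu2) (post act φ nu1)
    (BadT := BadT) (K := K) (c := c) (lam2 := lam2) (rho2 := rho2) (C0 := C0)
    hc hgap hsp hthin hXX1 hXX2 x (by
      obtain ⟨I, hI1, hI2⟩ := hI (X1.take g.p0) x hl1
      refine ⟨I, hI1, fun k hk => ?_⟩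
      obtain ⟨a1, a2, a3⟩ := hI2 k hk
      refine ⟨a1, ?_, a3⟩
      rw [List.take_take, Nat.min_eq_left (hc k a1)] at a2
      exact a2)
  have hval : (DD).T ((DD).T x X1) X2 = b := by
    obtain ⟨X2', _, e2, e3⟩ := g.sound2 (pre act φ nu2) (post act φ nu1) hc hex2 hXX1 hB1 hP hQ
      (R := []) (R' := X2) (by rw [List.append_nil]; exact e)
    have : X2 = X2' := List.append_cancel_left (e.symm.trans e2)
    subst this
    exact e3
  refine ⟨P, hP, Q, ?_, e⟩
  rw [hval]
  intro x' P' hP'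
  have hP'' : Geo.LP2 K c lam2 x' P' := hP'
  obtain ⟨k0, hk0, hPl, hl⟩ := hP'
  have hQ' := hQ
  obtain ⟨k, hk, l, hend, hgood, hX2', u, hr, hb⟩ := hQ
  by_cases hkk : k0 = k
  · subst hkk
    have hY1 : g.XX (P' ++ Q.take l) := g.xx_of_cend (by rw [hPl]; exact hc k0 hk0)
      (by rw [hPl]; exact hend)
    have e1 : P' ++ Q = (P' ++ Q.take l) ++ Q.drop l := by
      rw [List.append_assoc, List.take_append_drop]
    by_cases hG1 : (P' ++ Q.take l) ∈ (DD).Good
    · exact Or.inr (Or.inl ⟨_, hG1, by rw [e1]; exact List.prefix_append _ _⟩)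
    · have hBd1 : (P' ++ Q.take l) ∈ (DD).Bad := ⟨hY1, hG1⟩
      by_cases hG2 : (Q.drop l) ∈ (DD).Good
      · exact Or.inr (Or.inr ⟨_, hBd1, _, hG2, by rw [e1]⟩)
      · refine Or.inl ⟨_, hBd1, _, ⟨hX2', hG2⟩, e1, ?_⟩
        obtain ⟨X2'', _, e2, e3⟩ := g.sound2 (pre act φ nu2) (post act φ nu1) hc hex2 hY1
          (hbadof _ hY1 hG1) hP'' hQ' (R := []) (R' := Q.drop l)
          (by rw [List.append_nil]; exact e1)
        have : Q.drop l = X2'' := List.append_cancel_left (e1.symm.trans e2)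
        subst this
        exact e3
  · obtain ⟨l', hend', hnb⟩ := hgood k0 hk0 hkk
    have hY1 : g.XX (P' ++ Q.take l') := g.xx_of_cend (by rw [hPl]; exact hc k0 hk0)
      (by rw [hPl]; exact hend')
    refine Or.inr (Or.inl ⟨P' ++ Q.take l', ?_, ?_⟩)
    · refine good_of hlen hex hcomp hT0 hY1 ?_
      intro hbb
      apply hnb
      have := g.cbad_of_bad (BadT := BadT) (P := P') (Q := Q) (l := l')
        (by rw [hPl]; exact hc k0 hk0) (by rw [hPl]; exact hend') hbb
      rw [hPl] at this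
      exact this
    · refine ⟨Q.drop l', ?_⟩
      rw [List.append_assoc, List.take_append_drop]

/-- `XX` is star-free -/
theorem HL_XX [Finite α] {k : ℕ} (hlenW : ∀ P, g.Wo P → g.n ≤ P.length) :
    HL k ({X | g.XX X} : Language α) := by
  have hW : HL k ({X | g.Wo X} : Language α) := by
    have h1 : HL k ({Q : List α | Q.length = g.n ∧ g.Wo Q} : Language α) :=
      HL.finite ((List.finite_length_eq α g.n).subset fun v hv => hv.1)
    refine (HL.mul (HL.top (α := α)) h1).congr fun w => ?_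
    constructor
    · intro hw
      have hn : g.n ≤ w.length := hlenW w hw
      refine Language.mem_mul.2 ⟨w.take (w.length - g.n), trivial, w.drop (w.length - g.n), ?_,
        List.take_append_drop _ _⟩
      have hl : (w.drop (w.length - g.n)).length = g.n := by
        rw [List.length_drop]; omega
      refine ⟨hl, ?_⟩
      have := (g.loc (w.take (w.length - g.n)) (w.drop (w.length - g.n)) (by omega)).1
      rw [List.take_append_drop] at this
      exact this hw
    · intro hw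
      obtain ⟨P, -, Q, ⟨hQ, hQ'⟩, rfl⟩ := Language.mem_mul.1 hw
      exact (g.loc P Q (by omega)).2 hQ'
  have h1 : HL k ({X | g.z ≤ X.length ∧ g.Wo X} : Language α) :=
    HL.setOf_and (HL.length_ge g.z) hW
  have h2 := HL.mul h1 (HL.length_ge (α := α) (k := k) 1)
  refine (h1.inf h2.compl).congr fun w => ?_
  constructor
  · rintro ⟨hw1, hw2, hw3⟩
    refine ⟨⟨hw1, hw2⟩, fun hc => ?_⟩
    obtain ⟨P, ⟨hP1, hP2⟩, Q, hQ, rfl⟩ := Language.mem_mul.1 hc
    have hQ1 : 1 ≤ Q.length := hQ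
    refine hw3 P.length hP1 (by rw [List.length_append]; omega) ?_
    rw [List.take_left]
    exact hP2
  · rintro ⟨⟨hw1, hw2⟩, hc⟩
    refine ⟨hw1, hw2, fun t ht1 ht2 ht3 => hc ?_⟩
    refine Language.mem_mul.2 ⟨w.take t, ⟨?_, ht3⟩, w.drop t, ?_, List.take_append_drop _ _⟩
    · rw [List.length_take]; omega
    · show 1 ≤ (w.drop t).length
      rw [List.length_drop]; omega

theorem few_walls {z : ℕ} {X : List α} {Wo : List α → Prop}
    (h : ∀ t, z ≤ t → t < X.length → ¬ Wo (X.take t)) (F : Finset ℕ)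
    (hF : ∀ x ∈ F, x ≤ X.length ∧ Wo (X.take x)) : F.card ≤ z + 1 := by
  have hsub : F ⊆ insert X.length (Finset.range z) := by
    intro x hx
    obtain ⟨h1, h2⟩ := hF x hx
    rw [Finset.mem_insert, Finset.mem_range]
    by_contra hcon
    push Not at hcon
    exact h x hcon.2 (by omega) h2
  have := (Finset.card_le_card hsub).trans (Finset.card_insert_le _ _)
  rwa [Finset.card_range] at this

/-- **join**: everything from the gadget, the ruler and the exact gadget. -/
theorem join [Finite α] [Finite S] [Finite V]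
    (hadd : ∀ a b s, act (a + b) s = act a s + act b s)
    (hone : ∀ v, act v 1 = v) (hmul : ∀ v s t, act v (s * t) = act (act v s) t)
    (hfaith : ∀ s t, (∀ v, act v s = act v t) → s = t)
    (hlenW : ∀ P, g.Wo P → g.n ≤ P.length)
    (hHL : ∀ (r : ℕ) (L : Language α), L.IsRegular →
        (∀ w ∈ L, ∀ F : Finset ℕ, (∀ x ∈ F, x ≤ w.length ∧ g.Wo (w.take x)) → F.card ≤ r) →
        HL 1 L)
    {BadT : ℕ → Prop} {T0 C0 : ℕ}
    (hlen : ∀ P v, lam P = some v → P.length ≤ g.N1)
    (hex : ∀ P Q u b, lam P = some u → rho Q = some b → b = post act φ nu1 u (P ++ Q))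
    (hcomp : ∀ Y : List α, T0 ≤ Y.length → ¬ BadT Y.length → ∀ u,
      ∃ P Q, Y = P ++ Q ∧ lam P = some u ∧ (rho Q).isSome)
    (hT0 : T0 + g.p0 ≤ g.z)
    (hc : ∀ k, k < K → c k ≤ g.p0)
    (hex2 : ∀ k, k < K → ∀ P Q v u, P.length = c k → Q.length = g.p0 - c k →
      lam2 k P = some v → rho2 k Q = some u → u = pre act φ nu2 (P ++ Q) v)
    (hgap : ∀ P Q : List α, g.Wo P → g.Wo (P ++ Q) → Q ≠ [] → 2 * g.p0 + 2 * g.N1 < Q.length)
    (hsp : ∀ k k' l l', k < K → k' < K → l < K → l' < K → k' ≠ k → l' ≠ l →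
      c k + c l' < c l + c k' + 2 * g.N1 → c l + c k' < c k + c l' + 2 * g.N1 → k = l)
    (hthin : ∀ τ, g.z ≤ τ + g.p0 → ∀ J : Finset ℕ, (∀ k ∈ J, k < K ∧
      ∃ k', k' < K ∧ k' ≠ k ∧ BadT (τ + c k' - c k - g.p0)) → J.card ≤ C0)
    (hI : ∀ (X0 : List α) (v : V), X0.length = g.p0 →
      ∃ I : Finset ℕ, 2 * C0 + 2 ≤ I.card ∧ ∀ k ∈ I, k < K ∧
        lam2 k (X0.take (c k)) = some v ∧ (rho2 k (X0.drop (c k))).isSome)
    (hnu : ∀ y, Language.IsRegular ({Y | nu1 Y = y} : Language α)) (s : S) :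
    HL 3 ({w | (w.map φ).prod = s} : Language α) := by
  have hz := g.hz
  have hq := g.hq
  have hN := g.hN
  have hXXreg : Language.IsRegular ({X | g.XX X} : Language α) :=
    Reg_236.HL.isRegular (HL_XX (k := 0) hlenW)
  refine SemTop_727.top (k := 1) act hadd hone hmul hfaith φ
    (fun X => act (nu2 (X.take g.p0)) ((X.drop g.p0).map φ).prod + nu1 (X.drop g.p0))
    (DD) ?_ ?_ ?_ ?_ ?_ ?_ ?_ s
  · -- hT
    intro v X
    show act (act v ((X.take g.p0).map φ).prod + nu2 (X.take g.p0)) ((X.drop g.p0).map φ).prod +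
      nu1 (X.drop g.p0) = _
    rw [hadd, ← hmul, ← List.prod_append, ← List.map_append, List.take_append_drop, add_assoc]
  · -- PCode
    refine ⟨?_, ?_⟩
    · intro h
      have := h.1
      simp only [List.length_nil] at this
      omega
    · intro X hX Y hY hp
      obtain ⟨R, hR⟩ := hp
      exact g.prefix_code (R := R) (R' := []) hX hY (by rw [hR, List.append_nil])
  · -- hfib
    intro x y
    refine hHL (g.z + 1) _ ?_ ?_
    · have h1 := hXXreg.inf (Fib_298.isRegular_TT act φ g.p0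
        (fun v X0 => pre act φ nu2 X0 v) nu1 hnu x y)
      have e : ((DD).fib x y) = (({X | g.XX X} : Language α) ⊓
          ({X | g.p0 ≤ X.length ∧ Fib_298.TT act φ g.p0 (fun v X0 => pre act φ nu2 X0 v) nu1 x X
            = y} : Language α) : Language α) := by
        ext w
        constructor
        · rintro ⟨hw1, hw2⟩
          have := (show g.XX w from hw1).1
          exact ⟨hw1, by omega, hw2⟩
        · rintro ⟨hw1, hw2, hw3⟩
          exact ⟨hw1, hw3⟩
      rw [e]
      exact h1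
    · intro w hw F hF
      exact few_walls (show g.XX w from hw.1).2.2 F hF
  · -- L1 finite
    intro x
    refine (List.finite_length_le α (g.p0 + g.N1)).subset ?_
    rintro P ⟨hP1, hP2⟩
    have := hlen _ _ hP2
    rw [List.length_drop] at this
    show P.length ≤ g.p0 + g.N1
    omega
  · intro x
    refine (List.finite_length_le α g.p0).subset ?_
    rintro P ⟨k, hk, hP1, hP2⟩
    show P.length ≤ g.p0
    rw [hP1]
    exact hc k hk
  · intro X1 h1 X2 h2 x
    exact hC2 hlen hex hcomp hT0 hc hex2 hgap hsp hthin hI X1 h1 X2 h2 x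
  · -- tail
    intro s
    have hpre : HL 1 ({w | (∀ X ∈ (DD).XX, ¬ X <+: w) ∧ (w.map φ).prod = s} : Language α) := by
      refine hHL (g.z + 1) _ ?_ ?_
      · have h1 : Language.IsRegular ({w | ∃ X ∈ ({X | g.XX X} : Language α), X <+: w} :
            Language α) := Reg_236.HL.isRegular (HL.prefix (HL_XX (k := 0) hlenW))
        have h2 := h1.compl.inf (Fib_298.isRegular_fib φ s)
        have e : ({w | (∀ X ∈ (DD).XX, ¬ X <+: w) ∧ (w.map φ).prod = s} : Language α) =
            (({w | ∃ X ∈ ({X | g.XX X} : Language α), X <+: w} : Language α)ᶜ ⊓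
              ({w | (w.map φ).prod = s} : Language α) : Language α) := by
          ext w
          constructor
          · rintro ⟨hw1, hw2⟩
            refine ⟨?_, hw2⟩
            rintro ⟨X, hX, hp⟩
            exact hw1 X hX hp
          · rintro ⟨hw1, hw2⟩
            exact ⟨fun X hX hp => hw1 ⟨X, hX, hp⟩, hw2⟩
        rw [e]
        exact h2
      · intro w hw F hF
        refine few_walls (Wo := g.Wo) (z := g.z) ?_ F hF
        intro t ht htl hWo
        -- first wall at a place ≥ z gives a block prefix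
        have hex0 : ∃ t, g.z ≤ t ∧ t < w.length ∧ g.Wo (w.take t) := ⟨t, ht, htl, hWo⟩
        classical
        have hspec := Nat.find_spec hex0
        have hmin := fun m hm => Nat.find_min hex0 (m := m) hm
        refine hw.1 (w.take (Nat.find hex0)) ?_ (List.take_prefix _ _)
        have hlw : (w.take (Nat.find hex0)).length = Nat.find hex0 := by
          rw [List.length_take]; omega
        refine ⟨by rw [hlw]; exact hspec.1, hspec.2.2, ?_⟩
        intro t' ht' htl' hWo'
        rw [hlw] at htl'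
        rw [List.take_take, Nat.min_eq_left (by omega)] at hWo'
        exact hmin t' htl' ⟨ht', by omega, hWo'⟩
    exact hpre.mono (by omega)

end Crest.Agent.R320.Join_326
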