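import Mathlib
import Crest.Agent.R320.Inst_476

/-!
# Row 320: the spoil count for `Inst_476` from the gaps of the walls and the pure count
-/

set_option autoImplicit false

namespace Crest.Agent.R320.Inst_476.Dat

open Finset Crest.Agent.R320.ExactR_237

variable {α S V : Type} [Monoid S] [AddCommGroup V] {D : Dat α S V}

/-- few places are spoiled -/
theorem spoil_of (wall : ∀ P Q : List α, D.n ≤ Q.length → (D.Wo (P ++ Q) ↔ D.Wo Q))
    {W Tmin C1 : ℕ}
    (gap : ∀ (P : List α) (d : ℕ), D.Wo P → 0 < d → d ≤ W → ¬ D.Wo (P.take (P.length - d)))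
    (hW : 2 * D.p0 + 2 * D.N ≤ W)
    (hz : D.p0 + D.N + D.n + 1 ≤ D.z) (hz2 : 2 * D.p0 + Tmin ≤ D.z)
    (hc : ∀ k < D.K, D.c k ≤ D.p0)
    (res : ∀ a b a' b' : ℕ, a < D.K → b < D.K → a' < D.K → b' < D.K → a ≠ b → a' ≠ b' →
      |((D.c a : ℤ) - D.c b) - ((D.c a' : ℤ) - D.c b')| < 2 * D.N → a = a' ∧ b = b')
    (thin : ∀ T0 : ℕ, Tmin ≤ T0 → ∀ F : Finset (ℕ × ℕ),
      (∀ ab ∈ F, ab.1 < D.K ∧ ab.2 < D.K ∧ ab.1 ≠ ab.2 ∧
        D.BadT (T0 + D.c ab.1 - D.c ab.2)) → F.card ≤ C1)
    (X : List α) (hX : X ∈ D.XX) (Y : List α) (hY : Y ∈ D.XX) :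
    ∃ Sp : Finset ℕ, Sp.card ≤ 1 + 3 * C1 ∧
    ∀ k < D.K, k ∉ Sp → ∀ k' < D.K, k' ≠ k → ¬ D.BadAt k' (X.drop (D.c k) ++ Y) := by
  classical
  set U : List α := X ++ Y with hU
  have hUl : U.length = X.length + Y.length := by rw [hU, List.length_append]
  have hXl := hX.1
  have hYl := hY.1
  -- gaps
  have hgap : ∀ s s', D.Wo (U.take s) → D.Wo (U.take s') → s < s' → s' ≤ U.length → W < s' - s := by
    intro s s' h1 h2 h3 h4
    by_contra hlt
    refine gap (U.take s') (s' - s) h2 (by omega) (by omega) ?_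
    rw [List.length_take, min_eq_left h4, show s' - (s' - s) = s by omega, List.take_take,
      min_eq_left h3.le]
    exact h1
  have hUw : D.Wo (U.take U.length) := by
    rw [List.take_length, hU, wall _ _ (by omega)]
    exact hY.2.1
  have hXw : D.Wo (U.take X.length) := by
    rw [hU, List.take_left]
    exact hX.2.1
  have hXn : ∀ t, D.z ≤ t → t < X.length → ¬ D.Wo (U.take t) := by
    intro t h1 h2 h3
    rw [hU, List.take_append_of_le_length h2.le] at h3
    exact hX.2.2 t h1 h2 h3
  -- the three possible ends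
  obtain ⟨w0, hw0, hw0'⟩ : ∃ w0, D.z ≤ w0 + D.p0 ∧
      ∀ b, D.Wo (U.take b) → D.z ≤ b + D.p0 → b < D.z → b = w0 := by
    by_cases hex : ∃ b, D.Wo (U.take b) ∧ D.z ≤ b + D.p0 ∧ b < D.z
    · obtain ⟨w0, h1, h2, h3⟩ := hex
      refine ⟨w0, h2, fun b h4 h5 h6 => ?_⟩
      rcases lt_trichotomy b w0 with h7 | h7 | h7
      · have := hgap b w0 h4 h1 h7 (by omega); omega
      · exact h7
      · have := hgap w0 b h1 h4 h7 (by omega); omega
    · exact ⟨D.z, by omega, fun b h4 h5 h6 => absurd ⟨b, h4, h5, h6⟩ hex⟩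
  have hex2 : ∃ w, X.length < w ∧ D.Wo (U.take w) := ⟨U.length, by omega, hUw⟩
  let w2 := Nat.find hex2
  have hw2 : X.length < w2 ∧ D.Wo (U.take w2) := Nat.find_spec hex2
  have hw2' : ∀ s, X.length < s → s < w2 → ¬ D.Wo (U.take s) := by
    intro s h1 h2 h3
    exact Nat.find_min hex2 h2 ⟨h1, h3⟩
  have hw2l : w2 ≤ U.length := Nat.find_min' hex2 ⟨by omega, hUw⟩
  -- spoiled sets
  let E1 : Finset ℕ := (range D.K).filter fun k => ∃ k' < D.K, k' ≠ k ∧ ∃ s ≤ U.length,
    D.Wo (U.take s) ∧ D.z + D.c k ≤ s + D.c k' + D.N ∧ s + D.c k' < D.z + D.N + D.c k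
  let B : ℕ → Finset ℕ := fun w => (((range D.K ×ˢ range D.K).filter fun ab =>
    ab.1 ≠ ab.2 ∧ D.BadT (w - D.p0 + D.c ab.1 - D.c ab.2))).image Prod.snd
  have hE1 : E1.card ≤ 1 := by
    rw [Finset.card_le_one]
    intro k1 h1 k2 h2
    simp only [E1, Finset.mem_filter, Finset.mem_range] at h1 h2
    obtain ⟨a1, j1, b1, c1, s1, d1, e1, f1, g1⟩ := h1
    obtain ⟨a2, j2, b2, c2, s2, d2, e2, f2, g2⟩ := h2
    have q1 := hc _ a1
    have q2 := hc _ a2
    have q3 := hc _ b1
    have q4 := hc _ b2
    have hs : s1 = s2 := by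
      rcases lt_trichotomy s1 s2 with h7 | h7 | h7
      · have := hgap s1 s2 e1 e2 h7 d2; omega
      · exact h7
      · have := hgap s2 s1 e2 e1 h7 d1; omega
    subst hs
    refine (res k1 j1 k2 j2 a1 b1 a2 b2 (Ne.symm c1) (Ne.symm c2) ?_).1
    rw [abs_lt]
    constructor <;> omega
  have hB : ∀ w, Tmin ≤ w - D.p0 → (B w).card ≤ C1 := by
    intro w hw
    refine Finset.card_image_le.trans (thin (w - D.p0) hw _ ?_)
    intro ab hab
    rw [Finset.mem_filter, Finset.mem_product, Finset.mem_range, Finset.mem_range] at hab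
    exact ⟨hab.1.1, hab.1.2, hab.2.1, hab.2.2⟩
  refine ⟨E1 ∪ (B w0 ∪ (B X.length ∪ B w2)), ?_, ?_⟩
  · have h1 := Finset.card_union_le E1 (B w0 ∪ (B X.length ∪ B w2))
    have h2 := Finset.card_union_le (B w0) (B X.length ∪ B w2)
    have h3 := Finset.card_union_le (B X.length) (B w2)
    have h4 := hB w0 (by omega)
    have h5 := hB X.length (by omega)
    have h6 := hB w2 (by omega)
    omega
  · intro k hk hkS k' hk' hne hbad
    apply hkS
    obtain ⟨P, Q1, hP, ⟨Q2, hQ⟩, ⟨h1, h2, h3⟩, h4⟩ := hbad
    have hck := hc k hk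
    have hck' := hc k' hk'
    rw [List.length_append] at h1
    -- dictionary
    have hUk : U = X.take (D.c k) ++ (Q1 ++ Q2) := by
      rw [hQ, ← List.append_assoc, List.take_append_drop]
    have hlk : (X.take (D.c k)).length = D.c k := by rw [List.length_take]; omega
    have hUlen : U.length = D.c k + (Q1.length + Q2.length) := by
      rw [hUk, List.length_append, List.length_append, hlk]
    have dict : ∀ s, D.n ≤ s → s ≤ Q1.length →
        (D.Wo (U.take (D.c k + s)) ↔ D.Wo ((P ++ Q1).take (D.c k' + s))) := by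
      intro s hs hs'
      have e1 : U.take (D.c k + s) = X.take (D.c k) ++ Q1.take s := by
        have e3 := take_app (X.take (D.c k)) (Q1 ++ Q2) s
        rw [hlk] at e3
        rw [hUk, e3, List.take_append_of_le_length hs']
      have e2 : (P ++ Q1).take (D.c k' + s) = P ++ Q1.take s := by
        rw [← hP, take_app]
      rw [e1, e2, wall _ _ (by rw [List.length_take]; omega),
        wall _ _ (by rw [List.length_take]; omega)]
    set b' : ℕ := D.c k + Q1.length with hb'
    have hb1 : D.Wo (U.take b') := by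
      rw [hb', dict _ (by omega) le_rfl, ← hP, ← List.length_append, List.take_length]
      exact h2
    have hb2 : ∀ s, D.z + D.c k ≤ s + D.c k' → s < b' → ¬ D.Wo (U.take s) := by
      intro s q1 q2 q3
      obtain ⟨u, rfl⟩ : ∃ u, s = D.c k + u := ⟨s - D.c k, by omega⟩
      refine h3 (D.c k' + u) (by omega) (by rw [List.length_append]; omega) ?_
      rw [← dict u (by omega) (by omega)]
      exact q3
    rcases h4 with ⟨t, q1, q2, q3, q4⟩ | h4
    · -- mode E
      apply Finset.mem_union_left
      rw [List.length_append] at q3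
      simp only [E1, Finset.mem_filter, Finset.mem_range]
      refine ⟨hk, k', hk', hne, D.c k + (t - D.c k'), by omega, ?_, by omega, by omega⟩
      rw [dict _ (by omega) (by omega), show D.c k' + (t - D.c k') = t by omega]
      exact q4
    · -- mode B
      apply Finset.mem_union_right
      have hmem : ∀ w, w = b' → k ∈ B w := by
        rintro w rfl
        simp only [B, Finset.mem_image, Finset.mem_filter, Finset.mem_product, Finset.mem_range]
        refine ⟨(k', k), ⟨⟨hk', hk⟩, hne, ?_⟩, rfl⟩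
        have e1 : (P ++ Q1).length - D.p0 = b' - D.p0 + D.c k' - D.c k := by
          rw [List.length_append]; omega
        rw [← e1]
        exact h4
      have hbU : b' ≤ U.length := by omega
      rcases Nat.lt_or_ge b' D.z with q | q
      · exact Finset.mem_union_left _ (hmem w0 (hw0' b' hb1 (by omega) q).symm)
      · apply Finset.mem_union_right
        rcases Nat.lt_or_ge b' X.length with q' | q'
        · exact absurd hb1 (hXn b' q q')
        · rcases Nat.eq_or_lt_of_le q' with q'' | q''
          · exact Finset.mem_union_left _ (hmem _ q'')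
          · apply Finset.mem_union_right
            apply hmem
            have hlt : X.length + D.c k' < D.z + D.c k := by
              by_contra hge
              exact hb2 X.length (by omega) q'' hXw
            have hle : w2 ≤ b' := by
              by_contra hgt
              exact hw2' b' q'' (by omega) hb1
            rcases Nat.eq_or_lt_of_le hle with e | e
            · exact e
            · exfalso
              have hg := hgap X.length w2 hXw hw2.2 hw2.1 hw2l
              exact hb2 w2 (by omega) e hw2.2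

end Crest.Agent.R320.Inst_476.Dat
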