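import Mathlib
import Crest.Agent.R320.SpoilW_476
import Crest.Agent.R320.Top5_120
import Crest.Agent.R320.P4_933

/-!
# Row 320: join of the concrete side (`Inst_476`) with the top (120) and HL 1 (933)
-/

set_option autoImplicit false

namespace Crest.Agent.R320.Join_476

open Finset Crest.RegLang Crest.Agent.R320.ExactR_237 Crest.Agent.R320.Inst_476
open Crest.Agent.R320.Hk_851 Crest.Agent.R320.BddReg_746 Crest.Agent.R320.Blk467

/-- finite-state properties are regular (the product is read behind the first `A` letters) -/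
theorem regular_of_class' {α : Type} [Finite α] {S : Type} [Monoid S] [Finite S] (φ : α → S)
    (A M0 : ℕ) (hM : 0 < M0) (f : List α → Prop)
    (hf : ∀ u u' : List α, A ≤ u.length → A ≤ u'.length → u.take A = u'.take A →
      u.length % M0 = u'.length % M0 → pr φ (u.drop A) = pr φ (u'.drop A) → (f u ↔ f u')) :
    Language.IsRegular ({u | f u} : Language α) := by
  classical
  haveI : NeZero M0 := ⟨by omega⟩
  have hfin : Finite {l : List α // l.length ≤ A} := List.finite_length_le α A
  let σ := {l : List α // l.length ≤ A} × ZMod M0 × S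
  haveI : Fintype σ := Fintype.ofFinite σ
  let st : List α → σ := fun u =>
    (⟨u.take A, by rw [List.length_take]; omega⟩, (u.length : ZMod M0), pr φ (u.drop A))
  let M : DFA α σ :=
    { step := fun q a =>
        (if h : q.1.1.length < A then ⟨q.1.1 ++ [a], by simp; omega⟩ else q.1,
          q.2.1 + 1, if q.1.1.length < A then q.2.2 else q.2.2 * φ a)
      start := st []
      accept := {q | ∃ u, f u ∧ st u = q} }
  have hev : ∀ u, M.eval u = st u := by
    intro u
    induction u using List.reverseRecOn with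
    | nil => rfl
    | append_singleton u a ih =>
      rw [DFA.eval_append_singleton, ih]
      refine Prod.ext ?_ (Prod.ext ?_ ?_)
      · apply Subtype.ext
        show (if h : (u.take A).length < A then (⟨u.take A ++ [a], by simp at h ⊢; omega⟩ :
          {l : List α // l.length ≤ A}) else ⟨u.take A, by rw [List.length_take]; omega⟩).1
          = (u ++ [a]).take A
        rw [Crest.Agent.R320.P4_933.take_snoc]
        split_ifs <;> rfl
      · show (u.length : ZMod M0) + 1 = (((u ++ [a]).length : ℕ) : ZMod M0)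
        simp
      · show (if (u.take A).length < A then pr φ (u.drop A) else pr φ (u.drop A) * φ a)
          = pr φ ((u ++ [a]).drop A)
        by_cases h : u.length < A
        · rw [if_pos (by rw [List.length_take]; omega), List.drop_of_length_le (by omega),
            List.drop_of_length_le (by simp; omega)]
        · rw [if_neg (by rw [List.length_take]; omega), List.drop_append_of_le_length (by omega),
            pr_append]
          congr 1
          simp [pr]
  refine Language.isRegular_iff.2 ⟨σ, inferInstance, M, ?_⟩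
  ext u
  rw [DFA.mem_accepts, hev]
  constructor
  · rintro ⟨u', h1, h2⟩
    have e1 : u'.take A = u.take A := congrArg (fun q : σ => q.1.1) h2
    have e2 : (u'.length : ZMod M0) = (u.length : ZMod M0) := congrArg (fun q : σ => q.2.1) h2
    have e3 : pr φ (u'.drop A) = pr φ (u.drop A) := congrArg (fun q : σ => q.2.2) h2
    have e2' : u'.length % M0 = u.length % M0 := (ZMod.natCast_eq_natCast_iff' _ _ _).1 e2
    have e4 := congrArg List.length e1
    rw [List.length_take, List.length_take] at e4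
    by_cases h : u.length < A
    · rw [List.take_of_length_le (by omega), List.take_of_length_le (by omega)] at e1
      rw [← e1]; exact h1
    · exact (hf u' u (by omega) (by omega) e1 e2' e3).1 h1
  · intro h
    exact ⟨u, h, rfl⟩

variable {α S V : Type} [Monoid S] [AddCommGroup V] {D : Dat α S V}

/-- the noise of a block -/
def nuX (D : Dat α S V) (X : List α) : V :=
  D.act (D.nuE (X.take D.p0) 1) (pr D.f (X.drop D.p0)) + D.nu1 (X.drop D.p0)

theorem T_eq (act_add : ∀ v w s, D.act (v + w) s = D.act v s + D.act w s)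
    (act_mul : ∀ v s t, D.act v (s * t) = D.act (D.act v s) t) (v : V) (X : List α) :
    D.act v (X.map D.f).prod + nuX D X = D.T v X := by
  have h1 : (X.map D.f).prod = pr D.f (X.take D.p0) * pr D.f (X.drop D.p0) := by
    rw [← pr_append, List.take_append_drop]
    rfl
  unfold Dat.T nuX
  rw [h1, act_mul, act_add, add_assoc]

theorem sem1 (h : D.Ok) (X : List α) (hX : X ∈ D.XX) (hB : X ∉ D.Bad) (v : V) :
    ∃ P Q, P ++ Q = X ∧ P ∈ D.L1 v ∧ ∀ x, ∀ P' ∈ D.L1 x, P' ++ Q ∈ D.XX ∧
      D.T x (P' ++ Q) = D.T v X := by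
  obtain ⟨P, Q, h1, h2, h3⟩ := h.c1 X hX hB v
  exact ⟨P, Q, h1.symm, h2, fun x P' hP' => h.s1 x _ P' Q hP' h3⟩

theorem sem2 (h : D.Ok) (X : List α) (hX : X ∈ D.Bad) (Y : List α) (hY : Y ∈ D.Bad) (v : V) :
    ∃ P Q, P ++ Q = X ++ Y ∧ P ∈ D.L2 v ∧ ∀ x, ∀ P' ∈ D.L2 x,
      (∃ X' ∈ D.Bad, ∃ Y' ∈ D.XX, X' ++ Y' = P' ++ Q ∧ D.T (D.T x X') Y' = D.T (D.T v X) Y) ∨
      (∃ X' ∈ D.XX, X' ∉ D.Bad ∧ X' <+: P' ++ Q) := by
  classical
  obtain ⟨P, Q, h1, h2, h3⟩ := h.c2 X hX Y hY v
  refine ⟨P, Q, h1.symm, h2, fun x P' hP' => ?_⟩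
  obtain ⟨k, hk, huniq, P0, Q1, X2, b0, hP0, hQ, hB0, hX2, hrho, hv'⟩ := h3
  obtain ⟨j, hj, hPl, hlam⟩ := hP'
  have hz := h.hz
  have hcj := h.hc j hj
  have hX2l := hX2.1
  -- there is a block prefix
  have hex : ∃ t, D.z ≤ t ∧ t ≤ (P' ++ Q).length ∧ D.Wo ((P' ++ Q).take t) := by
    refine ⟨(P' ++ Q).length, ?_, le_rfl, ?_⟩
    · rw [hQ]; simp only [List.length_append]; omega
    · rw [List.take_length, hQ, ← List.append_assoc, h.wall _ _ (by omega)]
      exact hX2.2.1
  obtain ⟨t1, t2, t3⟩ := Nat.find_spec hex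
  have tmin := fun s hs => Nat.find_min hex (m := s) hs
  set t := Nat.find hex with ht
  have hXt : (P' ++ Q).take t ∈ D.XX := by
    refine ⟨by rw [List.length_take]; omega, t3, fun s hs hs' hw => ?_⟩
    rw [List.length_take] at hs'
    rw [List.take_take, min_eq_left (by omega)] at hw
    exact tmin s (by omega) ⟨hs, by omega, hw⟩
  by_cases hbad : (P' ++ Q).take t ∈ D.Bad
  · left
    have hPX : P' <+: (P' ++ Q).take t := by
      rw [List.take_append, List.take_of_length_le (by omega)]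
      exact List.prefix_append _ _
    obtain ⟨Q1', hQ1'⟩ := hPX
    have hpre : P' ++ Q1' <+: P' ++ Q := by rw [hQ1']; exact List.take_prefix _ _
    have hjk : j = k := huniq j hj ⟨P', Q1', hPl, (List.prefix_append_right_inj P').1 hpre,
      by rw [hQ1']; exact hbad⟩
    subst hjk
    have hXP : P' ++ Q1 ∈ D.XX := h.xx_congr (by omega) (by omega) hB0.1
    have hXP' : P' ++ Q1 ∈ D.Bad := h.bad_congr (by omega) (by omega) hB0
    refine ⟨P' ++ Q1, hXP', X2, hX2, by rw [hQ, List.append_assoc], ?_⟩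
    rw [h.val2 hj hPl hlam hXP.1 hrho, ← hv']
  · right
    exact ⟨_, hXt, hbad, List.take_prefix _ _⟩

/-- **JOIN.** -/
theorem join [Finite α] [Finite S] [Finite V] (h : D.Ok)
    (act_add : ∀ v w s, D.act (v + w) s = D.act v s + D.act w s)
    (act_one : ∀ v, D.act v 1 = v)
    (act_mul : ∀ v s t, D.act v (s * t) = D.act (D.act v s) t)
    (faith : ∀ s t, (∀ v, D.act v s = D.act v t) → s = t)
    (len : ∀ P, D.Wo P → D.n ≤ P.length) {B R : ℕ}
    (free : ∀ u : List α, (∀ t < u.length, ¬ D.Wo (u.take t)) → u ∈ (PN B R : Language α))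
    (A1 M0 : ℕ) (hM0 : 0 < M0)
    (hnu : ∀ Y Y' : List α, A1 ≤ Y.length → A1 ≤ Y'.length → Y.take A1 = Y'.take A1 →
      Y.length % M0 = Y'.length % M0 → pr D.f Y = pr D.f Y' → D.nu1 Y = D.nu1 Y')
    (hBT : ∀ T T' : ℕ, A1 ≤ T → A1 ≤ T' → T % M0 = T' % M0 → (D.BadT T ↔ D.BadT T'))
    (s : S) : HL 3 ({w | (w.map D.f).prod = s} : Language α) := by
  classical
  set A : ℕ := D.p0 + D.z + D.N + A1 with hA
  -- the data
  have key : ∀ u u' : List α, A ≤ u.length → A ≤ u'.length → u.take A = u'.take A →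
      u.length % M0 = u'.length % M0 → pr D.f (u.drop A) = pr D.f (u'.drop A) →
      (∀ v, D.T v u = D.T v u') ∧ (D.EB u ↔ D.EB u') ∧
        (D.BadT (u.length - D.p0) ↔ D.BadT (u'.length - D.p0)) := by
    intro u u' h1 h2 h3 h4 h5
    have e1 : ∀ t, t ≤ A → u.take t = u'.take t := by
      intro t ht
      have := congrArg (List.take t) h3
      rwa [List.take_take, List.take_take, min_eq_left ht] at this
    have e2 : ∀ w : List α, A ≤ w.length → w.drop D.p0 = (w.take A).drop D.p0 ++ w.drop A := by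
      intro w hw
      have h6 : (w.take A ++ w.drop A).drop D.p0 = (w.take A).drop D.p0 ++ w.drop A :=
        List.drop_append_of_le_length (by rw [List.length_take]; omega)
      rwa [List.take_append_drop] at h6
    have e3 : pr D.f (u.drop D.p0) = pr D.f (u'.drop D.p0) := by
      rw [e2 u h1, e2 u' h2, pr_append, pr_append, h3, h5]
    have e4 : (u.length - D.p0) % M0 = (u'.length - D.p0) % M0 := by
      have h7 : (u.length - D.p0) + D.p0 ≡ (u'.length - D.p0) + D.p0 [MOD M0] := by
        rw [Nat.sub_add_cancel (by omega), Nat.sub_add_cancel (by omega)]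
        exact h4
      exact Nat.ModEq.add_right_cancel' _ h7
    have e5 : D.nu1 (u.drop D.p0) = D.nu1 (u'.drop D.p0) := by
      refine hnu _ _ (by rw [List.length_drop]; omega) (by rw [List.length_drop]; omega) ?_
        (by rw [List.length_drop, List.length_drop]; exact e4) e3
      rw [List.take_drop, List.take_drop, e1 _ (by omega)]
    refine ⟨fun v => ?_, ?_, hBT _ _ (by omega) (by omega) e4⟩
    · unfold Dat.T
      rw [e1 _ (by omega), e3, e5]
    · constructor
      · rintro ⟨t, a, b, c, d⟩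
        exact ⟨t, a, b, by omega, by rw [← e1 t (by omega)]; exact d⟩
      · rintro ⟨t, a, b, c, d⟩
        exact ⟨t, a, b, by omega, by rw [e1 t (by omega)]; exact d⟩
  have hXXeq : ∀ X, X ∈ D.XX ↔ Crest.Agent.R320.P4_933.XX D.Wo D.z X := fun X =>
    ⟨fun ⟨a, b, c⟩ => ⟨b, a, fun t ht hz => c t hz ht⟩,
      fun ⟨a, b, c⟩ => ⟨b, a, fun t hz ht => c t ht hz⟩⟩
  have hPC : PCode D.XX := ⟨h.nil_xx, fun X hX Y hY hp => Dat.xx_prefix hX hY hp⟩
  refine Crest.Agent.R320.Top5_120.top5 D.act act_add act_one act_mul faith D.f (nuX D) D.XX D.Bad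
    hPC (fun X hX => hX.1) D.L1 D.L2 ?_ ?_ ?_ ?_ ?_ ?_ ?_ s
  · intro v
    refine (List.finite_length_le α (D.p0 + D.N)).subset fun P hP => ?_
    have h1 := h.g1 _ _ hP.2
    rw [List.length_drop] at h1
    have h2 := hP.1
    show P.length ≤ _
    omega
  · intro v
    refine (List.finite_length_le α D.p0).subset fun P hP => ?_
    obtain ⟨k, hk, h1, -⟩ := hP
    have h2 := h.hc k hk
    show P.length ≤ _
    omega
  · intro x y
    have hreg := regular_of_class' D.f A M0 hM0 (fun X => D.T x X = y) (by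
      intro u u' h1 h2 h3 h4 h5
      obtain ⟨a, -, -⟩ := key u u' h1 h2 h3 h4 h5
      show D.T x u = y ↔ D.T x u' = y
      rw [a x])
    refine (Crest.Agent.R320.P4_933.hl_XX (z := D.z) h.wall len free hreg).congr fun X => ?_
    show (X ∈ D.XX ∧ D.act x (X.map D.f).prod + nuX D X = y) ↔
      (Crest.Agent.R320.P4_933.XX D.Wo D.z X ∧ D.T x X = y)
    rw [hXXeq, T_eq act_add act_mul]
  · intro x y
    have hreg := regular_of_class' D.f A M0 hM0
      (fun X => (D.EB X ∨ D.BadT (X.length - D.p0)) ∧ D.T x X = y) (by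
      intro u u' h1 h2 h3 h4 h5
      obtain ⟨a, b, c⟩ := key u u' h1 h2 h3 h4 h5
      show ((D.EB u ∨ D.BadT (u.length - D.p0)) ∧ D.T x u = y) ↔
        ((D.EB u' ∨ D.BadT (u'.length - D.p0)) ∧ D.T x u' = y)
      rw [a x, b, c])
    refine (Crest.Agent.R320.P4_933.hl_XX (z := D.z) h.wall len free hreg).congr fun X => ?_
    show (X ∈ D.Bad ∧ D.act x (X.map D.f).prod + nuX D X = y) ↔
      (Crest.Agent.R320.P4_933.XX D.Wo D.z X ∧ ((D.EB X ∨ D.BadT (X.length - D.p0)) ∧ D.T x X = y))
    rw [← hXXeq, T_eq act_add act_mul]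
    exact ⟨fun ⟨⟨a, b⟩, c⟩ => ⟨a, b, c⟩, fun ⟨a, b, c⟩ => ⟨⟨a, b⟩, c⟩⟩
  · intro g
    have hreg := Crest.Agent.R320.P4_933.regular_of_class D.f 0 1 (by norm_num)
      (fun w => (w.map D.f).prod = g) (by
      intro u u' _ _ _ _ h5
      show (u.map D.f).prod = g ↔ (u'.map D.f).prod = g
      rw [h5])
    refine (Crest.Agent.R320.P4_933.hl_NB (z := D.z) h.wall len free hreg).congr fun w => ?_
    show ((∀ X ∈ D.XX, ¬ X <+: w) ∧ (w.map D.f).prod = g) ↔
      (Crest.Agent.R320.P4_933.NB D.Wo D.z w ∧ (w.map D.f).prod = g)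
    rw [Crest.Agent.R320.P4_933.NB_iff]
    refine and_congr_left fun _ => ⟨fun a P hP hX => a P ((hXXeq P).2 hX) hP,
      fun a X hX hp => a X hp ((hXXeq X).1 hX)⟩
  · intro X hX hB v
    obtain ⟨P, Q, a, b, c⟩ := sem1 h X hX hB v
    refine ⟨P, Q, a, b, fun x P' hP' => ?_⟩
    obtain ⟨c1, c2⟩ := c x P' hP'
    exact ⟨c1, by rw [T_eq act_add act_mul, T_eq act_add act_mul]; exact c2⟩
  · intro X hX Y hY v
    obtain ⟨P, Q, a, b, c⟩ := sem2 h X hX Y hY v
    refine ⟨P, Q, a, b, fun x P' hP' => ?_⟩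
    rcases c x P' hP' with ⟨X', hX', Y', hY', e, e'⟩ | c
    · refine Or.inl ⟨X', hX', Y', hY', e, ?_⟩
      rw [T_eq act_add act_mul, T_eq act_add act_mul, T_eq act_add act_mul,
        T_eq act_add act_mul]
      exact e'
    · exact Or.inr c

end Crest.Agent.R320.Join_476
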