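import Crest.Agent.R320.Inst_483
import Crest.Agent.R320.Top5_120
import Crest.Agent.R320.P4_933
import Crest.Agent.R320.LWallAll_922

/-!
# Row 320 (helper483): `top5` of helper120 from `Inst_483.Dat.Ok`
-/

set_option autoImplicit false

namespace Crest.Agent.R320.Join_483

open Crest.RegLang Crest.Agent.R320.Hk_851 Crest.Agent.R320.Inst_483 Crest.Agent.R320.BddReg_746

universe u

/-- finite-state properties (prefix, value of the tail, length) are regular -/
theorem regular_tail {α : Type u} [Finite α] {S : Type*} [Monoid S] [Finite S] (φ : α → S) (A M0 : ℕ)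
    (hM : 0 < M0) (f : List α → Prop)
    (hf : ∀ u u' : List α, A ≤ u.length → A ≤ u'.length → u.take A = u'.take A →
      u.length % M0 = u'.length % M0 → ((u.drop A).map φ).prod = ((u'.drop A).map φ).prod →
      (f u ↔ f u')) :
    Language.IsRegular ({u | f u} : Language α) := by
  classical
  haveI : NeZero M0 := ⟨by omega⟩
  have hfin : Finite {l : List α // l.length ≤ A} := List.finite_length_le α A
  let σ := {l : List α // l.length ≤ A} × ZMod M0 × S
  haveI : Fintype σ := Fintype.ofFinite σ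
  let st : List α → σ := fun u =>
    (⟨u.take A, by rw [List.length_take]; omega⟩, (u.length : ZMod M0), ((u.drop A).map φ).prod)
  let M : DFA α σ :=
    { step := fun q a =>
        (if h : q.1.1.length < A then ⟨q.1.1 ++ [a], by simp; omega⟩ else q.1,
          q.2.1 + 1, if q.1.1.length < A then q.2.2 else q.2.2 * φ a)
      start := st []
      accept := {q | ∃ u, f u ∧ st u = q} }
  have hev : ∀ u, M.eval u = st u := by
    intro u
    induction u using List.reverseRecOn with
    | nil => rfl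
    | append_singleton u a ih =>
      rw [DFA.eval_append_singleton, ih]
      refine Prod.ext ?_ (Prod.ext ?_ ?_)
      · apply Subtype.ext
        show (if h : (u.take A).length < A then (⟨u.take A ++ [a], by simp at h ⊢; omega⟩ :
          {l : List α // l.length ≤ A}) else ⟨u.take A, by rw [List.length_take]; omega⟩).1
          = (u ++ [a]).take A
        rw [Crest.Agent.R320.P4_933.take_snoc]
        split_ifs <;> rfl
      · show (u.length : ZMod M0) + 1 = (((u ++ [a]).length : ℕ) : ZMod M0)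
        simp
      · show (if (u.take A).length < A then ((u.drop A).map φ).prod
          else ((u.drop A).map φ).prod * φ a) = (((u ++ [a]).drop A).map φ).prod
        by_cases h : u.length < A
        · have h1 : (u.take A).length < A := by rw [List.length_take]; omega
          rw [if_pos h1, List.drop_eq_nil_of_le (by omega), List.drop_eq_nil_of_le (by simp; omega)]
        · have h1 : ¬ (u.take A).length < A := by rw [List.length_take]; omega
          rw [if_neg h1, List.drop_append_of_le_length (by omega)]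
          simp
  refine Language.isRegular_iff.2 ⟨σ, inferInstance, M, ?_⟩
  ext u
  rw [DFA.mem_accepts, hev]
  constructor
  · rintro ⟨u', h1, h2⟩
    have e1 : u'.take A = u.take A := congrArg (fun q : σ => q.1.1) h2
    have e2 : (u'.length : ZMod M0) = (u.length : ZMod M0) := congrArg (fun q : σ => q.2.1) h2
    have e3 : ((u'.drop A).map φ).prod = ((u.drop A).map φ).prod :=
      congrArg (fun q : σ => q.2.2) h2
    have e2' : u'.length % M0 = u.length % M0 := (ZMod.natCast_eq_natCast_iff' _ _ _).1 e2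
    have e4 := congrArg List.length e1
    rw [List.length_take, List.length_take] at e4
    by_cases h : u.length < A
    · rw [List.take_of_length_le (by omega), List.take_of_length_le (by omega)] at e1
      rw [← e1]; exact h1
    · exact (hf u' u (by omega) (by omega) e1 e2' e3).1 h1
  · intro h
    exact ⟨u, h, rfl⟩

variable {α : Type u} {S V : Type*} [Monoid S] [AddCommGroup V]

/-- `isX` in the form of 933 -/
theorem isX_iff {Wo : List α → Prop} {z : ℕ} {X : List α} :
    IsX Wo z X ↔ Crest.Agent.R320.P4_933.XX Wo z X :=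
  ⟨fun h => ⟨h.2.1, h.1, fun t h1 h2 => h.2.2 t h2 h1⟩,
    fun h => ⟨h.2.1, h.1, fun t h1 h2 => h.2.2 t h2 h1⟩⟩

/-- soundness of scheme 2, all true blocks bad -/
theorem _root_.Crest.Agent.R320.Inst_483.Dat.Ok.s2' {D : Dat α S V} {Nm C1 : ℕ} (h : D.Ok Nm C1)
    {P Q : List α} {v b : V} (hL : D.LP2 P v) (hR : D.RR2 Q b)
    (hyp : ∀ X, IsX D.Wo D.z X → X <+: P ++ Q → D.BadX X) :
    ∃ Q1 X2, Q = Q1 ++ X2 ∧ Q1 ≠ [] ∧ IsX D.Wo D.z (P ++ Q1) ∧ IsX D.Wo D.z X2 ∧
      D.T (D.T v (P ++ Q1)) X2 = b := by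
  obtain ⟨kp, hkp, hPl, hlam⟩ := hL
  obtain ⟨k, hk, Q1, X2, r, rfl, hX2, hBad, huniq, hrho, rfl⟩ := hR
  have hz := h.hz
  have hckp := h.c_le kp hkp
  have hck := h.c_le k hk
  have hW : D.Wo (P ++ (Q1 ++ X2)) := by
    rw [← List.append_assoc]
    exact (h.loc _ X2 (by have := hX2.1; omega)).2 hX2.2.1
  obtain ⟨X, hX, hXp⟩ := exists_isX (Wo := D.Wo) (z := D.z) (W := P ++ (Q1 ++ X2))
    (by have := hX2.1; simp only [List.length_append]; omega) hW
  have hXB : D.BadX X := hyp X hX hXp
  have hlX := hX.1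
  have hkk : kp = k := huniq kp hkp (X.length - D.c kp) ⟨P, hPl, X, hX, hXp, hXB, by omega⟩
  subst hkk
  obtain ⟨P'', hP'', X'', hX'', hXp'', hB'', hlen''⟩ := hBad
  have hlen : X.length = X''.length := h.len_eq (by omega) (by omega) hX hX'' hXp hXp''
  have hXe : X = P ++ Q1 := by
    have h1 : P ++ Q1 <+: P ++ (Q1 ++ X2) := by
      rw [← List.append_assoc]; exact List.prefix_append _ _
    have h2 : X <+: P ++ Q1 := List.prefix_of_prefix_length_le hXp h1 (by
      rw [List.length_append]; omega)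
    exact h2.eq_of_length (by rw [List.length_append]; omega)
  have hQ1l : D.z ≤ D.c kp + Q1.length := by omega
  refine ⟨Q1, X2, rfl, ?_, hXe ▸ hX, hX2, ?_⟩
  · rintro rfl
    simp at hQ1l
    omega
  · congr 1
    unfold Dat.T
    have e1 : (P ++ Q1).take D.p0 = P ++ Q1.take (D.p0 - D.c kp) := by
      rw [List.take_append, List.take_of_length_le (by omega), hPl]
    have e2 : (P ++ Q1).drop D.p0 = Q1.drop (D.p0 - D.c kp) := by
      rw [List.drop_append, List.drop_eq_nil_of_le (by omega), List.nil_append, hPl]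
    rw [e1, e2]
    congr 2
    refine (h.snd2 kp hkp P _ v r hPl ?_ hlam hrho).symm
    rw [List.length_append, List.length_take]
    omega

/-- **TOP from `Ok`.** -/
theorem main [Finite α] [Finite S] [Finite V] (ψ : α → S) (D : Dat α S V) {Nm C1 : ℕ}
    (h : D.Ok Nm C1) (hφ : D.φ = fun w => (w.map ψ).prod) (hone : ∀ v, D.act v 1 = v)
    (hfaith : ∀ s t, (∀ v, D.act v s = D.act v t) → s = t)
    (len : ∀ P, D.Wo P → D.n ≤ P.length) {B R : ℕ}
    (free : ∀ u : List α, (∀ t < u.length, ¬ D.Wo (u.take t)) → u ∈ (PN B R : Language α))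
    (A M0 : ℕ) (hM0 : 0 < M0)
    (hnu : ∀ Q Q' : List α, Q.take A = Q'.take A → D.φ (Q.drop A) = D.φ (Q'.drop A) →
      Q.length % M0 = Q'.length % M0 → D.nu1 Q = D.nu1 Q')
    (hbad : ∀ T T', D.p0 ≤ T → D.p0 ≤ T' → T % M0 = T' % M0 →
      (D.BadT (T - D.p0) ↔ D.BadT (T' - D.p0)))
    (s : S) : HL 3 ({w | (w.map ψ).prod = s} : Language α) := by
  classical
  have hz := h.hz
  let nu : List α → V := fun X =>
    D.act (D.nu2 (X.take D.p0)) (D.φ (X.drop D.p0)) + D.nu1 (X.drop D.p0)
  have hT : ∀ v X, D.T v X = D.act v (X.map ψ).prod + nu X := by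
    intro v X
    rw [h.T_eq]
    simp only [nu, hφ]
  let C : Set (List α) := {X | IsX D.Wo D.z X}
  let Bad : Set (List α) := {X | IsX D.Wo D.z X ∧ D.BadX X}
  have hPC : Crest.Agent.R320.Blk467.PCode C := by
    refine ⟨fun h0 => isX_nil (by omega) h0, ?_⟩
    rintro X hX Y hY ⟨Z, rfl⟩
    have hX' : IsX D.Wo D.z X := hX
    have hY' : IsX D.Wo D.z (X ++ Z) := hY
    rw [isX_pc hX' hY', List.append_nil]
  -- regularity
  have hprod : ∀ u : List α, ((u.map ψ).prod) = D.φ u := fun u => by rw [hφ]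
  have hreg1 : ∀ x y : V, Language.IsRegular
      ({X | D.act x (X.map ψ).prod + nu X = y} : Language α) := by
    intro x y
    refine regular_tail ψ (D.p0 + A) M0 hM0 _ fun u u' h1 h2 h3 h4 h5 => ?_
    have e1 : u.take D.p0 = u'.take D.p0 := by
      have := congrArg (List.take D.p0) h3
      rwa [List.take_take, List.take_take, min_eq_left (Nat.le_add_right _ _)] at this
    have e2 : (u.drop D.p0).take A = (u'.drop D.p0).take A := by
      have := congrArg (List.drop D.p0) h3
      rwa [List.drop_take, List.drop_take, Nat.add_sub_cancel_left] at this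
    have e3 : (u.drop D.p0).drop A = u.drop (D.p0 + A) := by rw [List.drop_drop]
    have e3' : (u'.drop D.p0).drop A = u'.drop (D.p0 + A) := by rw [List.drop_drop]
    have e4 : D.φ ((u.drop D.p0).drop A) = D.φ ((u'.drop D.p0).drop A) := by
      rw [e3, e3', ← hprod, ← hprod, h5]
    have e5 : D.φ (u.drop D.p0) = D.φ (u'.drop D.p0) := by
      rw [← List.take_append_drop A (u.drop D.p0), ← List.take_append_drop A (u'.drop D.p0),
        h.φ_app, h.φ_app, e2, e4]
    have e6 : (u.map ψ).prod = (u'.map ψ).prod := by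
      rw [hprod, hprod, ← List.take_append_drop D.p0 u, ← List.take_append_drop D.p0 u',
        h.φ_app, h.φ_app, e1, e5]
    have e7 : D.nu1 (u.drop D.p0) = D.nu1 (u'.drop D.p0) := by
      refine hnu _ _ e2 e4 ?_
      rw [List.length_drop, List.length_drop]
      refine Nat.ModEq.add_right_cancel' D.p0 ?_
      rw [Nat.sub_add_cancel (by omega), Nat.sub_add_cancel (by omega)]
      exact h4
    simp only [nu, e1, e5, e6, e7]
  have hreg2 : Language.IsRegular ({X | D.BadX X} : Language α) := by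
    refine regular_tail ψ (D.z + D.N1) M0 hM0 _ fun u u' h1 h2 h3 h4 h5 => ?_
    have e : ∀ t, t < D.z → u.take t = u'.take t := by
      intro t ht
      have := congrArg (List.take t) h3
      rwa [List.take_take, List.take_take, min_eq_left (by omega)] at this
    have e2 : (∃ t, D.z ≤ t + D.N1 ∧ t < D.z ∧ D.Wo (u.take t)) ↔
        (∃ t, D.z ≤ t + D.N1 ∧ t < D.z ∧ D.Wo (u'.take t)) := by
      constructor
      · rintro ⟨t, a, b, c⟩; exact ⟨t, a, b, e t b ▸ c⟩
      · rintro ⟨t, a, b, c⟩; exact ⟨t, a, b, (e t b).symm ▸ c⟩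
    unfold Dat.BadX
    rw [e2, hbad u.length u'.length (by omega) (by omega) h4]
    constructor
    · rintro (h' | h'); · omega
      · exact Or.inr h'
    · rintro (h' | h'); · omega
      · exact Or.inr h'
  refine Crest.Agent.R320.Top5_120.top5 D.act (fun a b s => h.act_add a b s) hone
    (fun v s t => (h.act_mul v s t).symm) hfaith ψ nu C Bad hPC (fun X hX => hX.1)
    (fun v => {P | D.LP1 P v}) (fun v => {P | D.LP2 P v}) ?_ ?_ ?_ ?_ ?_ ?_ ?_ s
  · intro v
    refine (List.finite_length_le α (D.p0 + D.N1)).subset ?_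
    intro P hP
    have hl := h.lam_len _ _ hP.2
    rw [List.length_drop] at hl
    show P.length ≤ _
    omega
  · intro v
    refine (List.finite_length_le α D.p0).subset ?_
    rintro P ⟨k, hk, hl, -⟩
    show P.length ≤ _
    rw [hl]
    exact h.c_le k hk
  · intro x y
    refine (Crest.Agent.R320.P4_933.hl_XX (z := D.z) h.loc len free (hreg1 x y)).congr fun w => ?_
    constructor
    · rintro ⟨h1, h2⟩; exact ⟨isX_iff.1 h1, h2⟩
    · rintro ⟨h1, h2⟩; exact ⟨isX_iff.2 h1, h2⟩
  · intro x y
    refine (Crest.Agent.R320.P4_933.hl_XX (z := D.z) h.loc len free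
      (f := fun X => D.BadX X ∧ D.act x (X.map ψ).prod + nu X = y)
      (hreg2.inf (hreg1 x y))).congr fun w => ?_
    constructor
    · rintro ⟨⟨h1, h2⟩, h3⟩; exact ⟨isX_iff.1 h1, h2, h3⟩
    · rintro ⟨h1, h2, h3⟩; exact ⟨⟨isX_iff.2 h1, h2⟩, h3⟩
  · intro s
    refine (Crest.Agent.R320.P4_933.hl_NB (z := D.z) h.loc len free
      (f := fun X => (X.map ψ).prod = s) ?_).congr fun w => ?_
    · refine regular_tail ψ 0 1 one_pos _ fun u u' _ _ _ _ h5 => ?_
      rw [List.drop_zero, List.drop_zero] at h5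
      rw [h5]
    · constructor
      · rintro ⟨h1, h2⟩
        exact ⟨(Crest.Agent.R320.P4_933.NB_iff _ _ _).2 fun P hp hX => h1 P (isX_iff.2 hX) hp, h2⟩
      · rintro ⟨h1, h2⟩
        exact ⟨fun X hX hp => (Crest.Agent.R320.P4_933.NB_iff _ _ _).1 h1 X hp (isX_iff.1 hX), h2⟩
  · intro X hX hnB v
    have hB : ¬ D.BadX X := fun hc => hnB ⟨hX, hc⟩
    obtain ⟨P, Q, e, -, h1, h2⟩ := h.c1 hX hB v
    obtain ⟨b, hb⟩ := Option.isSome_iff_exists.1 h2
    refine ⟨P, Q, e.symm, h1, fun x P' hP' => ?_⟩
    obtain ⟨a1, a2⟩ := h.s1 hP' hb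
    obtain ⟨-, b2⟩ := h.s1 h1 hb
    refine ⟨a1, ?_⟩
    rw [← hT, ← hT, a2, ← b2, e]
  · intro X hX Y hY v
    obtain ⟨P, Q, e, hlt, h1, b, hb⟩ := h.c2 hX.1 hX.2 hY.1 v
    refine ⟨P, Q, e.symm, h1, fun x P' hP' => ?_⟩
    have hval : D.T (D.T v X) Y = b := by
      obtain ⟨Q1, X2, rfl, hne, a1, a2, a3⟩ := h.s2' h1 hb (fun X' hX' hp => by
        have hXp : X <+: P ++ Q := by rw [← e]; exact List.prefix_append _ _
        have : X' = X := by
          rcases List.prefix_or_prefix_of_prefix hp hXp with hc | hc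
          · obtain ⟨Z, rfl⟩ := hc
            rw [isX_pc hX' hX.1, List.append_nil]
          · obtain ⟨Z, rfl⟩ := hc
            rw [isX_pc hX.1 hX', List.append_nil]
        rw [this]
        exact hX.2)
      have hXe : X = P ++ Q1 := by
        have h3 : X ++ Y = (P ++ Q1) ++ X2 := by rw [e, List.append_assoc]
        rcases List.prefix_or_prefix_of_prefix (l₃ := X ++ Y) ⟨Y, rfl⟩ ⟨X2, h3.symm⟩ with hc | hc
        · obtain ⟨Z, hZ⟩ := hc
          have hXZ : IsX D.Wo D.z (X ++ Z) := hZ ▸ a1
          rw [← hZ, isX_pc hX.1 hXZ, List.append_nil]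
        · obtain ⟨Z, hZ⟩ := hc
          have hXZ : IsX D.Wo D.z ((P ++ Q1) ++ Z) := hZ ▸ hX.1
          rw [← hZ, isX_pc a1 hXZ, List.append_nil]
      have hYe : Y = X2 := by
        have h3 : X ++ Y = X ++ X2 := by
          rw [e]
          conv_rhs => rw [hXe]
          rw [List.append_assoc]
        exact List.append_cancel_left h3
      rw [hXe, hYe, a3]
    by_cases hall : ∀ X', IsX D.Wo D.z X' → X' <+: P' ++ Q → D.BadX X'
    · left
      obtain ⟨Q1, X2, rfl, hne, a1, a2, a3⟩ := h.s2' hP' hb hall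
      refine ⟨P' ++ Q1, ⟨a1, hall _ a1 ?_⟩, X2, a2, by rw [List.append_assoc], ?_⟩
      · rw [← List.append_assoc]; exact List.prefix_append _ _
      · rw [← hT, ← hT, ← hT, ← hT, a3, hval]
    · right
      push Not at hall
      obtain ⟨X', b1, b2, b3⟩ := hall
      exact ⟨X', b1, fun hc => b3 hc.2, b2⟩

end Crest.Agent.R320.Join_483
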