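import Crest.Agent.R320.Fin_517

/-!
# Row 320: P1 in final form (helper517)

`Bad` := some token is not cut by scheme 1 (no definability hypothesis needed).
-/

set_option autoImplicit false

namespace Crest.Agent.R320.Main_517

open Crest.RegLang Crest.Agent.R320.Hk_851 Crest.Agent.R320.Blk_517 Crest.Agent.R320.Top_517
  Crest.Agent.R320.Fin_517

universe u

variable {α : Type u} {V S : Type*}

/-- the blocks in which some token is not cut by scheme 1 -/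
def BadS (XX : Set (List α)) (L R : V → Language α) : Set (List α) :=
  {X | X ∈ XX ∧ ∃ v, ¬ ∃ P Q b, X = P ++ Q ∧ P ∈ L v ∧ Q ∈ R b}

theorem BadS_hl [Finite V] {k : ℕ} {XX : Set (List α)} {L R : V → Language α}
    (hX : HL k (XX : Language α)) (hL : ∀ v, HL k (L v)) (hR : ∀ v, HL k (R v)) :
    HL k (BadS XX L R : Language α) := by
  refine (hX.inf (HL.iUnion (L := fun v : V => ({w | ∃ b, w ∈ L v * R b} : Language α)ᶜ)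
    fun v => ((HL.iUnion (L := fun b : V => L v * R b)
      fun b => (hL v).mul (hR b)).compl))).congr fun X => ?_
  constructor
  · rintro ⟨h1, v, h2⟩
    refine ⟨h1, v, ?_⟩
    rintro ⟨b, h3⟩
    obtain ⟨P, hP, Q, hQ, rfl⟩ := Language.mem_mul.1 h3
    exact h2 ⟨P, Q, b, rfl, hP, hQ⟩
  · rintro ⟨h1, v, h2⟩
    refine ⟨h1, v, ?_⟩
    rintro ⟨P, Q, b, rfl, hP, hQ⟩
    exact h2 ⟨b, Language.mem_mul.2 ⟨P, hP, Q, hQ, rfl⟩⟩

/-- **P1**: all words, two schemes, three stars. -/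
theorem main [Monoid S] [Finite S] [AddCommGroup V] [Finite V] (φ : α → S)
    (act : V → S → V) (hadd : ∀ v w s, act (v + w) s = act v s + act w s)
    (hone : ∀ v, act v 1 = v) (hmul : ∀ v s t, act (act v s) t = act v (s * t))
    (v0 : V) (hinj : Function.Injective (act v0))
    (XX : Set (List α)) (hXX : PCode XX) (T : V → List α → V) (nu : List α → V)
    (hT : ∀ X ∈ XX, ∀ v, T v X = act v (ev φ X) + nu X)
    (L1 R1 L2 R2 : V → Language α)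
    (hX1 : HL 1 (XX : Language α))
    (hXT : ∀ v v', HL 1 ({X | X ∈ XX ∧ T v X = v'} : Language α))
    (hRest : ∀ s, HL 1 (RR φ XX s))
    (hL1 : ∀ v, HL 1 (L1 v)) (hR1 : ∀ v, HL 1 (R1 v))
    (hL2 : ∀ v, HL 1 (L2 v)) (hR2 : ∀ v, HL 1 (R2 v)) (hL0 : ∀ v, [] ∉ L2 v)
    (s1 : ∀ v v' P Q, P ∈ L1 v → Q ∈ R1 v' → P ++ Q ∈ XX ∧ T v (P ++ Q) = v')
    (hlen : ∀ v v' P Q X, P ∈ L2 v → Q ∈ R2 v' → X ∈ BadS XX L1 R1 → ¬ P ++ Q <+: X)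
    (s2 : ∀ v v' P Q X1 X2, P ∈ L2 v → Q ∈ R2 v' → X1 ∈ BadS XX L1 R1 → X2 ∈ BadS XX L1 R1 →
      (X1 ++ X2 <+: P ++ Q ∨ P ++ Q <+: X1 ++ X2) → X1 ++ X2 = P ++ Q ∧ T (T v X1) X2 = v')
    (c2 : ∀ X ∈ BadS XX L1 R1, ∀ Y ∈ BadS XX L1 R1, ∀ v, ∃ P Q b, X ++ Y = P ++ Q ∧
      P ∈ L2 v ∧ Q ∈ R2 b) (s : S) :
    HL 3 ({w | ev φ w = s} : Language α) := by
  have hsub : BadS XX L1 R1 ⊆ XX := fun X hX => hX.1
  have hB1 : HL 1 (BadS XX L1 R1 : Language α) := BadS_hl hX1 hL1 hR1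
  -- replace T by its affine form everywhere
  let T' : V → List α → V := fun v X => act v (ev φ X) + nu X
  have hTT : ∀ X ∈ XX, ∀ v, T v X = T' v X := fun X hX v => hT X hX v
  have hBT : ∀ v v', HL 1 ({X | X ∈ BadS XX L1 R1 ∧ T' v X = v'} : Language α) := by
    intro v v'
    refine (hB1.inf (hXT v v')).congr fun X => ?_
    constructor
    · rintro ⟨h1, h2⟩; exact ⟨h1, hsub h1, (hTT X (hsub h1) v).trans h2⟩
    · rintro ⟨h1, h2, h3⟩; exact ⟨h1, (hTT X h2 v).symm.trans h3⟩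
  have s1' : ∀ v v' P Q, P ∈ L1 v → Q ∈ R1 v' → P ++ Q ∈ XX ∧ T' v (P ++ Q) = v' := by
    intro v v' P Q hP hQ
    obtain ⟨h1, h2⟩ := s1 v v' P Q hP hQ
    exact ⟨h1, (hTT _ h1 v).symm.trans h2⟩
  have s2' : ∀ v v' P Q X1 X2, P ∈ L2 v → Q ∈ R2 v' → X1 ∈ BadS XX L1 R1 →
      X2 ∈ BadS XX L1 R1 → (X1 ++ X2 <+: P ++ Q ∨ P ++ Q <+: X1 ++ X2) →
      X1 ++ X2 = P ++ Q ∧ T' (T' v X1) X2 = v' := by
    intro v v' P Q X1 X2 hP hQ h1 h2 hc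
    obtain ⟨k1, k2⟩ := s2 v v' P Q X1 X2 hP hQ h1 h2 hc
    refine ⟨k1, ?_⟩
    rw [← hTT X1 (hsub h1) v, ← hTT X2 (hsub h2)]
    exact k2
  have h12 : (1 : ℕ) ≤ 3 := by omega
  refine final_of_BL φ act hadd hone hmul v0 hinj hXX (T := T') nu (fun v X => rfl) ?_
    (fun s => (hRest s).mono h12) s
  refine top3 hXX hsub hX1 hB1 hBT hL1 hR1 hL2 hR2 hL0 s1' ?_ hlen s2' ?_
  · intro X hX hXB v
    by_contra hcon
    refine hXB ⟨hX, v, ?_⟩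
    rintro ⟨P, Q, b, rfl, hP, hQ⟩
    refine hcon ⟨P, Q, rfl, hP, ?_⟩
    rw [(s1' v b P Q hP hQ).2]
    exact hQ
  · intro X hX Y hY v
    obtain ⟨P, Q, b, e, hP, hQ⟩ := c2 X hX Y hY v
    refine ⟨P, Q, e, hP, ?_⟩
    obtain ⟨-, k2⟩ := s2' v b P Q X Y hP hQ hX hY (Or.inl (e ▸ List.prefix_refl _))
    rw [k2]
    exact hQ

/-- with the concrete tokens `S -> ZMod 2` -/
theorem main_pact [Monoid S] [Fintype S] [DecidableEq S] (φ : α → S)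
    (XX : Set (List α)) (hXX : PCode XX) (T : (S → ZMod 2) → List α → (S → ZMod 2))
    (nu : List α → (S → ZMod 2)) (hT : ∀ X ∈ XX, ∀ v, T v X = pact v (ev φ X) + nu X)
    (L1 R1 L2 R2 : (S → ZMod 2) → Language α)
    (hX1 : HL 1 (XX : Language α))
    (hXT : ∀ v v', HL 1 ({X | X ∈ XX ∧ T v X = v'} : Language α))
    (hRest : ∀ s, HL 1 (RR φ XX s))
    (hL1 : ∀ v, HL 1 (L1 v)) (hR1 : ∀ v, HL 1 (R1 v))
    (hL2 : ∀ v, HL 1 (L2 v)) (hR2 : ∀ v, HL 1 (R2 v)) (hL0 : ∀ v, [] ∉ L2 v)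
    (s1 : ∀ v v' P Q, P ∈ L1 v → Q ∈ R1 v' → P ++ Q ∈ XX ∧ T v (P ++ Q) = v')
    (hlen : ∀ v v' P Q X, P ∈ L2 v → Q ∈ R2 v' → X ∈ BadS XX L1 R1 → ¬ P ++ Q <+: X)
    (s2 : ∀ v v' P Q X1 X2, P ∈ L2 v → Q ∈ R2 v' → X1 ∈ BadS XX L1 R1 → X2 ∈ BadS XX L1 R1 →
      (X1 ++ X2 <+: P ++ Q ∨ P ++ Q <+: X1 ++ X2) → X1 ++ X2 = P ++ Q ∧ T (T v X1) X2 = v')
    (c2 : ∀ X ∈ BadS XX L1 R1, ∀ Y ∈ BadS XX L1 R1, ∀ v, ∃ P Q b, X ++ Y = P ++ Q ∧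
      P ∈ L2 v ∧ Q ∈ R2 b) (s : S) :
    HL 3 ({w | ev φ w = s} : Language α) :=
  main φ pact pact_add pact_one pact_mul _ pact_inj XX hXX T nu hT L1 R1 L2 R2 hX1 hXT hRest
    hL1 hR1 hL2 hR2 hL0 s1 hlen s2 c2 s

end Crest.Agent.R320.Main_517
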