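import Crest.Agent.R320.Top5_120
import Crest.Agent.R320.Sc2n_937
import Crest.Agent.R320.Fib_298
import Crest.Agent.R320.Main_517

/-!
# Row 320: the join (helper517)
-/

set_option autoImplicit false

namespace Crest.Agent.R320.Join_517

open Crest.RegLang Crest.Agent.R320.Hk_851 Crest.Agent.R320.Blk467 Crest.Agent.R320.Sc2n_937

variable {α : Type} {S V : Type} [Monoid S] [Finite S] [AddCommGroup V] [Finite V]

open Classical in
theorem join [Finite α] (g : Geo α) (n0 B : ℕ) (hWU : Fib_298.WallU g.Wo n0 B) (hn0 : n0 ≤ g.z)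
    (hz0 : 0 < g.z)
    (act : V → S → V)
    (hadd : ∀ a b s, act (a + b) s = act a s + act b s)
    (hone : ∀ v, act v 1 = v) (hmul : ∀ v s t, act v (s * t) = act (act v s) t)
    (hfaith : ∀ s t, (∀ v, act v s = act v t) → s = t)
    (φ : α → S)
    (lam rho : List α → Option V) (nu1 nu2 : List α → V) (BadT : ℕ → Prop)
    (hlen : ∀ P v, lam P = some v → P.length ≤ g.N1)
    (hex : ∀ P Q u b, lam P = some u → rho Q = some b →
      b = act u ((P ++ Q).map φ).prod + nu1 (P ++ Q))
    (hcompl : ∀ Y : List α, g.z ≤ g.p0 + Y.length → ¬ BadT Y.length → ∀ v, ∃ P Q, Y = P ++ Q ∧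
      lam P = some v ∧ (rho Q).isSome)
    (hnu1 : ∀ y, Language.IsRegular ({Y | nu1 Y = y} : Language α))
    (K C0 : ℕ) (c : ℕ → ℕ) (lam2 rho2 : ℕ → List α → Option V)
    (hc : ∀ k, k < K → c k ≤ g.p0)

    (hex2 : ∀ k, k < K → ∀ P Q v u, P.length = c k → Q.length = g.p0 - c k →
      lam2 k P = some v → rho2 k Q = some u → u = act v ((P ++ Q).map φ).prod + nu2 (P ++ Q))
    (hgap : ∀ P Q : List α, g.Wo P → g.Wo (P ++ Q) → Q ≠ [] → 2 * g.p0 + 2 * g.N1 < Q.length)
    (hsp : ∀ k k' l l', k < K → k' < K → l < K → l' < K → k' ≠ k → l' ≠ l →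
      c k + c l' < c l + c k' + 2 * g.N1 → c l + c k' < c k + c l' + 2 * g.N1 → k = l)
    (hthin : ∀ τ, g.z ≤ τ + g.p0 → ∀ J : Finset ℕ, (∀ k ∈ J, k < K ∧
      ∃ k', k' < K ∧ k' ≠ k ∧ BadT (τ + c k' - c k - g.p0)) → J.card ≤ C0)
    (hI : ∀ X : List α, g.p0 ≤ X.length → ∀ v, ∃ I : Finset ℕ, 2 * C0 + 2 ≤ I.card ∧
      ∀ k ∈ I, k < K ∧ lam2 k (X.take (c k)) = some v ∧
        (rho2 k ((X.take g.p0).drop (c k))).isSome) (s : S) :
    HL 3 ({w | (w.map φ).prod = s} : Language α) := by
  have hz := g.hz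
  have hN := g.hN
  let pre : List α → V → V := fun X0 v => act v (X0.map φ).prod + nu2 X0
  let post : V → List α → V := fun u Y => act u (Y.map φ).prod + nu1 Y
  let nu : List α → V := fun X => act (nu2 (X.take g.p0)) ((X.drop g.p0).map φ).prod +
    nu1 (X.drop g.p0)
  have hT : ∀ v X, g.T pre post v X = act v (X.map φ).prod + nu X := by
    intro v X
    show act (act v ((X.take g.p0).map φ).prod + nu2 (X.take g.p0)) ((X.drop g.p0).map φ).prod +
      nu1 (X.drop g.p0) = _
    have e : (X.map φ).prod = ((X.take g.p0).map φ).prod * ((X.drop g.p0).map φ).prod := by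
      rw [← List.prod_append, ← List.map_append, List.take_append_drop]
    rw [hadd, e, hmul, add_assoc]
  let C : Set (List α) := {X | g.XX X}
  have hCX : C = Fib_298.XX g.Wo g.z := rfl
  have hPC : PCode C := by
    rw [hCX]; exact Fib_298.pcode_XX hz0
  let L1 : V → Set (List α) := fun v => {P | g.LP1 pre lam v P}
  let L2 : V → Set (List α) := fun v => {P | Geo.LP2 K c lam2 v P}
  have hf1 : ∀ v, (L1 v).Finite := by
    intro v
    refine (List.finite_length_le α (g.p0 + g.N1)).subset ?_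
    rintro P ⟨hP1, hP2⟩
    have := hlen _ _ hP2
    rw [List.length_drop] at this
    show P.length ≤ _
    omega
  have hf2 : ∀ v, (L2 v).Finite := by
    intro v
    refine (List.finite_length_le α g.p0).subset ?_
    rintro P ⟨k, hk, hP, -⟩
    show P.length ≤ _
    have := hc k hk
    omega
  have hCT : ∀ x y, HL 1 ({X | X ∈ C ∧ act x (X.map φ).prod + nu X = y} : Language α) := by
    intro x y
    have h := Fib_298.hfib hWU hn0 act φ g.p0 (by omega)
      (fun v X0 => act v (X0.map φ).prod + nu2 X0) nu1 hnu1 x y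
    refine h.congr fun X => ?_
    constructor
    · rintro ⟨h1, h2⟩
      exact ⟨h1, (hT x X).trans h2⟩
    · rintro ⟨h1, h2⟩
      exact ⟨h1, (hT x X).symm.trans h2⟩
  -- semantic bad blocks
  let R1 : V → Language α := Top5_120.R1 C (g.T pre post) L1
  have hCT' : ∀ x y, HL 1 ({X | X ∈ C ∧ g.T pre post x X = y} : Language α) := by
    intro x y
    refine (hCT x y).congr fun X => ?_
    constructor
    · rintro ⟨h1, h2⟩; exact ⟨h1, (hT x X).symm.trans h2⟩
    · rintro ⟨h1, h2⟩; exact ⟨h1, (hT x X).trans h2⟩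
  have hR1 : ∀ y, HL 1 (R1 y) := Top5_120.HL_R1 hf1 hCT'
  let Bad : Set (List α) := Main_517.BadS C (fun v => (L1 v : Language α)) R1
  have hC1 : HL 1 (C : Language α) := by rw [hCX]; exact Fib_298.HL_XX hWU g.z
  have hB1 : HL 1 (Bad : Language α) := Main_517.BadS_hl hC1 (fun v => HL.finite (hf1 v)) hR1
  have hBC : Bad ⊆ C := fun X hX => hX.1
  -- completeness of scheme 1
  have hgood : ∀ X, g.XX X → ¬ g.BadX BadT X → X ∉ Bad := by
    rintro X hX hnb ⟨-, v, hv⟩
    apply hv
    have hnE : ¬ g.E X := fun h => hnb (Or.inl h)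
    have hnT : ¬ BadT (X.length - g.p0) := fun h => hnb (Or.inr h)
    obtain ⟨P, Q, b, e, hP, hQ⟩ := g.complete1 (pre := pre) hlen hX hnE
      (fun u => hcompl (X.drop g.p0) (by
        have h1 := hX.1
        rw [List.length_drop]; omega) (by rw [List.length_drop]; exact hnT) u) v
    refine ⟨P, Q, b, e, hP, ?_⟩
    intro x P' hP'
    exact g.sound1 (pre := pre) (post := post) hlen hex hP' hQ
  refine Top5_120.top5 act hadd hone hmul hfaith φ nu C Bad hPC hBC L1 L2 hf1 hf2 hCT ?_ ?_ ?_ ?_ s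
  · intro x y
    refine (hB1.inf (hCT x y)).congr fun X => ?_
    constructor
    · rintro ⟨h1, h2⟩; exact ⟨h1, hBC h1, h2⟩
    · rintro ⟨h1, h2, h3⟩; exact ⟨h1, h3⟩
  · intro s
    rw [hCX]
    exact Fib_298.rest hWU hn0 φ s
  · intro X hX hXB v
    by_contra hcon
    refine hXB ⟨hX, v, ?_⟩
    rintro ⟨P, Q, b, rfl, hP, hQ⟩
    refine hcon ⟨P, Q, rfl, hP, ?_⟩
    intro x P' hP'
    obtain ⟨h1, h2⟩ := hQ x P' hP'
    obtain ⟨h3, h4⟩ := hQ v P hP
    exact ⟨h1, ((hT x (P' ++ Q)).symm.trans h2).trans ((hT v (P ++ Q)).symm.trans h4).symm⟩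
  · intro X hX Y hY v
    obtain ⟨P, Q, b, e, hP, hQ⟩ := g.complete2 (pre := pre) (post := post) (BadT := BadT)
      (rho2 := rho2) hc hgap hsp hthin (hBC hX) (hBC hY) v
      (hI X (by have := (hBC hX : g.XX X).1; omega) v)
    have hbadX : ∀ X, X ∈ Bad → g.BadX BadT X := by
      intro X hX
      by_contra h
      exact hgood X (hBC hX) h hX
    -- the value b
    have hval : g.T pre post (g.T pre post v X) Y = b := by
      obtain ⟨X2, hX2, e2, ht⟩ := g.sound2 (pre := pre) (post := post) (R := []) (R' := Y) hc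
        (fun k hk P Q v u h1 h2 h3 h4 => hex2 k hk P Q v u h1 h2 h3 h4) (hBC hX) (hbadX X hX) hP hQ
        (by rw [List.append_nil, e])
      have : X2 = Y := by
        have := e.symm.trans e2
        exact (List.append_cancel_left this).symm
      rw [this] at ht
      exact ht
    refine ⟨P, Q, e, hP, ?_⟩
    intro x P' hP'
    obtain ⟨k0, hk0, hPl, hl⟩ := id hP'
    obtain ⟨k, hk, l, hend, hgd, hX2, u, hr, hb⟩ := id hQ
    by_cases hkk : k0 = k
    · subst hkk
      have hend' : g.CEnd Q P'.length l := by rw [hPl]; exact hend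
      have hXX' : g.XX (P' ++ Q.take l) :=
        g.xx_of_cend (by rw [hPl]; exact hc k0 hk0) hend'
      by_cases hB : P' ++ Q.take l ∈ Bad
      · left
        obtain ⟨X2, hX2', e2, ht⟩ := g.sound2 (pre := pre) (post := post) (R := [])
          (R' := Q.drop l) hc (fun k hk P Q v u h1 h2 h3 h4 => hex2 k hk P Q v u h1 h2 h3 h4)
          hXX' (hbadX _ hB) hP' hQ
          (by rw [List.append_nil, List.append_assoc, List.take_append_drop])
        refine ⟨_, hB, X2, hX2', e2.symm, ?_⟩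
        rw [← hT, ← hT, ← hT, ← hT, ht, hval]
      · right
        exact ⟨_, hXX', hB, ⟨Q.drop l, by rw [List.append_assoc, List.take_append_drop]⟩⟩
    · right
      obtain ⟨l', hend', hnb⟩ := hgd k0 hk0 hkk
      have hend'' : g.CEnd Q P'.length l' := by rw [hPl]; exact hend'
      have hXX' : g.XX (P' ++ Q.take l') :=
        g.xx_of_cend (by rw [hPl]; exact hc k0 hk0) hend''
      refine ⟨_, hXX', ?_, ⟨Q.drop l', by rw [List.append_assoc, List.take_append_drop]⟩⟩
      apply hgood _ hXX'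
      intro hb'
      apply hnb
      have := g.cbad_of_bad (BadT := BadT) (P := P') (Q := Q) (l := l')
        (by rw [hPl]; exact hc k0 hk0) hend'' hb'
      rwa [hPl] at this

end Crest.Agent.R320.Join_517
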