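import Crest.Agent.R320.Top_550
import Crest.Agent.R320.Sc2n_937
import Crest.Agent.R320.Grid_899
import Crest.Agent.R320.GridRuler_257
import Crest.Agent.R320.ExactR_237
import Crest.Agent.R320.LWallAll_922
import Crest.Agent.R320.Bridge_975
import Crest.Agent.R320.Two_621

/-!
# Row 320: constants and join (helper550)

Over `Top_550.top` (110's semantic labels), `Sc2n_937` (both schemes, natural chain rule),
`Grid_899` (scheme 1 gadget), `GridRuler_257` (ruler), `ExactR_237` (exact gadget),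
`LWallAll_922` (left-looking walls on all words), `Bridge_975` (regularity).
-/

set_option autoImplicit false

namespace Crest.Agent.R320.Join_550

open Crest.Agent.R320.Hk_851 Crest.Agent.R320.Code110 Crest.Agent.R320.Pump_360
open Crest.Agent.R320.Top_550 Crest.Agent.R320.GridRuler_257

theorem badz_mul {Ms : Finset ℕ} {m M : ℕ} {G A : ℕ → ℕ} (hMs : ∀ k ∈ Ms, k ∣ M)
    (hG : ∀ j, G j ∣ G (j + 1)) (T : ℕ) (c : ℕ) :
    BadZ Ms m M G A ((T + c * (M * G m) : ℕ) : ℤ) ↔ BadZ Ms m M G A (T : ℤ) := by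
  induction c with
  | zero => simp
  | succ c ih =>
    have e : ((T + (c + 1) * (M * G m) : ℕ) : ℤ) =
        ((T + c * (M * G m) : ℕ) : ℤ) + ((M * G m : ℕ) : ℤ) := by
      push_cast
      ring
    rw [e, BadZ_period hMs hG, ih]

theorem badz_congr {Ms : Finset ℕ} {m M : ℕ} {G A : ℕ → ℕ} (hMs : ∀ k ∈ Ms, k ∣ M)
    (hG : ∀ j, G j ∣ G (j + 1)) (T T' : ℕ) (h : T ≡ T' [MOD (M * G m)]) :
    BadZ Ms m M G A (T : ℤ) ↔ BadZ Ms m M G A (T' : ℤ) := by
  have key : ∀ T T' : ℕ, T ≤ T' → T ≡ T' [MOD (M * G m)] →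
      (BadZ Ms m M G A (T : ℤ) ↔ BadZ Ms m M G A (T' : ℤ)) := by
    intro T T' hle h
    obtain ⟨c, hc⟩ := (Nat.modEq_iff_dvd' hle).1 h
    have e : T' = T + c * (M * G m) := by rw [Nat.mul_comm c]; omega
    rw [e, badz_mul hMs hG]
  rcases Nat.le_total T T' with hle | hle
  · exact key T T' hle h
  · exact (key T' T hle h.symm).symm

theorem exists_q (k N : ℕ) : ∃ q : Fin k → ℕ, (∀ j, Odd (q j)) ∧
    Pairwise (fun i j => Nat.Coprime (q i) (q j)) ∧ (∀ j, N ≤ q j) := by
  refine ⟨fun j => Nat.nth Nat.Prime (N + 3 + j), ?_, ?_, ?_⟩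
  · intro j
    have h1 : N + 3 + (j : ℕ) ≤ Nat.nth Nat.Prime (N + 3 + j) :=
      (Nat.nth_strictMono Nat.infinite_setOf_prime).le_apply
    exact (Nat.prime_nth_prime _).odd_of_ne_two (by omega)
  · intro i j hij
    refine (Nat.coprime_primes (Nat.prime_nth_prime _) (Nat.prime_nth_prime _)).2 ?_
    intro h
    have := (Nat.nth_strictMono Nat.infinite_setOf_prime).injective h
    apply hij
    apply Fin.ext
    omega
  · intro j
    have h1 : N + 3 + (j : ℕ) ≤ Nat.nth Nat.Prime (N + 3 + j) :=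
      (Nat.nth_strictMono Nat.infinite_setOf_prime).le_apply
    change N ≤ Nat.nth Nat.Prime (N + 3 + j)
    omega

theorem fin (α : Type) [Finite α] (S : Type) [Monoid S] [Finite S] (f : α → S) (s : S) :
    HL 3 ({w | (w.map f).prod = s} : Language α) := by
  classical
  haveI : Fintype S := Fintype.ofFinite S
  let V : Type := Two_621.Tok S
  haveI : Fintype V := inferInstanceAs (Fintype (S → ZMod 2))
  let act : V → S → V := Two_621.act
  have hadd : ∀ u v s, act (u + v) s = act u s + act v s := fun u v s => Two_621.act_add u v s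
  have hone : ∀ v, act v 1 = v := fun v => Two_621.act_one v
  have hmul : ∀ v s t, act (act v s) t = act v (s * t) := fun v s t => Two_621.act_mul v s t
  have hfaith : ∀ s t, (∀ v, act v s = act v t) → s = t := fun s t h => Two_621.act_faithful h
  obtain ⟨k, m, hgrid⟩ := Grid_899.grid_gadget_reg S V act
  obtain ⟨K, hex⟩ := ExactR_237.exact_gadget α S V f act (2 * (k + m) + 2)
  obtain ⟨q, hqodd, hqcop, hqN⟩ := exists_q k (4 ^ K)
  set M : ℕ := ∏ j, q j with hM
  have hq0 : ∀ j, 0 < q j := fun j => (hqodd j).pos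
  have hM0 : 0 < M := Finset.prod_pos fun j _ => hq0 j
  set κ : ℕ := 16 * 4 ^ K * M with hκ
  have hG0 : ∀ j, 0 < Grid_899.G κ j := fun j => Grid_899.G_pos j
  have hGd : ∀ j, Grid_899.G κ j ∣ Grid_899.G κ (j + 1) := fun j =>
    Grid_899.G_dvd (Nat.le_succ j)
  have hGb : ∀ j, 16 * 4 ^ K * (M * Grid_899.G κ j) ≤ Grid_899.G κ (j + 1) := by
    intro j
    have h1 : Grid_899.G κ (j + 1) = 2 ^ κ * Grid_899.G κ j := by
      unfold Grid_899.G
      rw [Nat.mul_succ, pow_add, Nat.mul_comm]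
    have h2 : 16 * 4 ^ K * M ≤ 2 ^ κ := by
      rw [← hκ]; exact Nat.lt_two_pow_self.le
    rw [h1, ← Nat.mul_assoc]
    exact Nat.mul_le_mul_right _ h2
  have hcopM : Nat.Coprime M (Grid_899.G κ m) := by
    unfold Grid_899.G
    refine Nat.Coprime.pow_right _ ?_
    rw [hM]
    exact Nat.Coprime.prod_left fun j _ => (hqodd j).coprime_two_right
  obtain ⟨lam, rho, nu1, hlam, hrho, hexact, hcomp, hloc⟩ :=
    hgrid q hqodd hqcop κ α (fun w => Top_550.pr f w) (fun u v => Top_550.pr_append f u v)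
  set A1 : ℕ := Grid_899.Am M κ (m + 1) with hA1
  set N1 : ℕ := Grid_899.Am M κ m + 1 with hN1
  have hAle : ∀ j, j ≤ m → Grid_899.Am M κ j ≤ A1 := fun j hj =>
    Grid_899.Am_mono (by omega)
  let Ms : Finset ℕ := Finset.univ.image q
  have hMsd : ∀ a ∈ Ms, a ∣ M := by
    intro a ha
    obtain ⟨j, _, rfl⟩ := Finset.mem_image.1 ha
    exact Finset.dvd_prod_of_mem q (Finset.mem_univ j)
  have hMsc : Ms.card ≤ k := by
    have := Finset.card_image_le (s := (Finset.univ : Finset (Fin k))) (f := q)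
    simpa using this
  obtain ⟨U, hU1, hU2, hU3, hU4⟩ := GridRuler_257.ruler K m Ms M (Grid_899.G κ)
    (Grid_899.Am M κ) N1 hM0 (fun a ha => ⟨hMsd a ha, by
      obtain ⟨j, _, rfl⟩ := Finset.mem_image.1 ha
      exact hqN j⟩) (hG0 0) hGd hGb hcopM
  let c : ℕ → ℕ := fun j => U * 4 ^ j
  have hcmono : ∀ i j, i < j → c i < c j := fun i j hij => by
    have := hU2 i j hij
    change U * 4 ^ i < U * 4 ^ j
    omega
  set p0 : ℕ := c K with hp0
  have hcp : ∀ j, j < K → c j ≤ p0 := fun j hj => (hcmono j K hj).le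
  obtain ⟨lam2, rho2, nu2, hs2, hc2⟩ := hex c (fun i j hij _ => hcmono i j hij)
  obtain ⟨n, G', B, Wo, hLW, hgapW, _, _, hpieces⟩ :=
    LWallAll_922.walls_all_left α (2 * p0 + 2 * N1 + 1) (by omega)
  let q0 : ℕ := n + 2 * p0 + 2 * A1
  let z : ℕ := p0 + N1 + q0
  let g : Sc2n_937.Geo α := ⟨Wo, n, z, p0, q0, N1, hLW.app, rfl, by omega, by omega, by omega⟩
  let BadT : ℕ → Prop := fun T => BadZ Ms m M (Grid_899.G κ) (Grid_899.Am M κ) (T : ℤ)
  let pre : List α → V → V := fun X v => act v (Top_550.pr f X) + nu2 X 1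
  let post : V → List α → V := fun u Y => act u (Top_550.pr f Y) + nu1 Y
  have htau : ∀ X v, tau f act p0 (fun X => nu2 X 1) nu1 X v = g.T pre post v X := fun X v => rfl
  have hzn : ∀ X, X ∈ Zn Wo z ↔ g.XX X := fun X =>
    ⟨fun h => ⟨h.2.1, h.1, h.2.2⟩, fun h => ⟨h.2.1, h.1, h.2.2⟩⟩
  let L1 : V → Language α := fun v => {P | g.LP1 pre lam v P}
  let L2 : V → Language α := fun v => {P | Sc2n_937.Geo.LP2 K c lam2 v P}
  have hlamN : ∀ P v, lam P = some v → P.length ≤ g.N1 := by
    intro P v h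
    have h5 : P.length < Grid_899.Am M κ m := (hlam P v h).1
    change P.length ≤ Grid_899.Am M κ m + 1
    omega
  refine Top_550.top f act hadd hone hmul hfaith Wo n z p0 hLW.app hLW.len
    (by change 0 < p0 + N1 + q0; omega) (by change p0 ≤ p0 + N1 + q0; omega) ?_
    (fun X => nu2 X 1) nu1 ?_ (g.BadX BadT) ?_ L1 L2 ?_ ?_ ?_ ?_ s
  · -- pieces
    refine ⟨2, max B (2 * p0 + 2 * N1 + 1), fun u hu => ?_⟩
    obtain ⟨a, x, b, r, h1, h2, h3, h4⟩ := hpieces u hu
    refine ⟨[(a, x, r), (b, [], 0)], by simp, ?_, ?_⟩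
    · intro t ht
      simp only [List.mem_cons, List.not_mem_nil, or_false] at ht
      rcases ht with rfl | rfl
      · exact ⟨h1.trans (le_max_left _ _), h2.trans (le_max_right _ _)⟩
      · exact ⟨h3.trans (le_max_left _ _), by simp⟩
    · rw [h4, val_cons, val_cons, val_nil]
      simp [pw]
  · -- regularity of the noise
    intro x
    refine Bridge_975.reg_of_local f A1 (M * Grid_899.G κ m) (Nat.mul_pos hM0 (hG0 m))
      (fun Y => nu1 Y = x) ?_
    intro Q Q' h1 h2 h3 h4 h5
    have := (hloc Q Q' h1 h2 h3 h5 h4).2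
    rw [this]
  · -- regularity of the bad mode
    refine Bridge_975.reg_of_local f (z + N1) (M * Grid_899.G κ m)
      (Nat.mul_pos hM0 (hG0 m)) (fun X => g.BadX BadT X) ?_
    have key : ∀ Q Q' : List α, z + N1 ≤ Q.length → z + N1 ≤ Q'.length →
        Q.take (z + N1) = Q'.take (z + N1) → Q.length ≡ Q'.length [MOD (M * Grid_899.G κ m)] →
        g.BadX BadT Q → g.BadX BadT Q' := by
      intro Q Q' h1 h2 h3 h4 h5
      rcases h5 with ⟨t, t1, t2, t3, t4⟩ | h5
      · left
        have t4' : t < z + N1 := t4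
        refine ⟨t, by omega, ?_, t3, t4⟩
        have e : Q'.take t = Q.take t := by
          have h6 := congrArg (fun l => l.take t) h3
          simp only [List.take_take, min_eq_left t4'.le] at h6
          exact h6.symm
        rw [e]; exact t2
      · right
        have hpz : p0 ≤ z := by change p0 ≤ p0 + N1 + q0; omega
        have h6 : Q.length - p0 ≡ Q'.length - p0 [MOD (M * Grid_899.G κ m)] := by
          refine Nat.ModEq.add_right_cancel' p0 ?_
          rw [Nat.sub_add_cancel (by omega), Nat.sub_add_cancel (by omega)]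
          exact h4
        exact (badz_congr hMsd hGd _ _ h6).1 h5
    intro Q Q' h1 h2 h3 h4 _
    exact ⟨key Q Q' h1 h2 h3 h4, key Q' Q h2 h1 h3.symm h4.symm⟩
  · -- finiteness of L1
    intro v
    refine (List.finite_length_le α (p0 + N1)).subset fun P hP => ?_
    obtain ⟨h1, h2⟩ := hP
    have h3 := hlamN _ _ h2
    rw [List.length_drop] at h3
    change P.length ≤ p0 + N1
    change P.length - p0 ≤ N1 at h3
    omega
  · -- finiteness of L2
    intro v
    refine (List.finite_length_le α p0).subset fun P hP => ?_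
    obtain ⟨j, h1, h2, h3⟩ := hP
    change P.length ≤ p0
    rw [h2]
    exact hcp j h1
  · -- scheme 1
    intro u hu hub x
    have huX := (hzn u).1 hu
    have hE : ¬ g.E u := fun h => hub (Or.inl h)
    have hB : ¬ BadT (u.length - p0) := fun h => hub (Or.inr h)
    have hul : z ≤ u.length := huX.1
    have hbig : A1 ≤ u.length - p0 ∧ 2 * A1 ≤ u.length - p0 := by
      change p0 + N1 + (n + 2 * p0 + 2 * A1) ≤ u.length at hul
      omega
    have hclear := clear_of_not_bad hG0 (fun j _ hj => (hAle j hj).trans hbig.1) hB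
    obtain ⟨P, Q, b, h1, h2, h3⟩ := g.complete1 pre hlamN huX hE (fun w => by
      have hdl : (u.drop p0).length = u.length - p0 := List.length_drop
      refine hcomp (u.drop p0) ?_ ?_ ?_ w
      · rw [hdl]; exact hbig.2
      · intro j
        rw [hdl]
        exact hclear.1 (q j) (Finset.mem_image_of_mem q (Finset.mem_univ j))
      · intro j hj1 hj2
        rw [hdl]
        exact ⟨(hclear.2 j hj1 hj2).1.le, (hclear.2 j hj1 hj2).2.le⟩) x
    refine ⟨P, Q, b, h1, h2, ?_⟩
    intro x' p hp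
    left
    obtain ⟨h4, h5⟩ := g.sound1 pre post hlamN (fun P Q u b h h' => hexact P Q u b h h') hp h3
    exact ⟨b, Language.mem_mul.2 ⟨p ++ Q, ⟨(hzn _).2 h4, h5⟩, [], ⟨rfl, rfl⟩, by simp⟩⟩
  · -- scheme 2
    intro u hu x t ht
    have huX := (hzn u).1 hu.1
    have htX := (hzn t).1 ht.1
    have hgap : ∀ P Q : List α, g.Wo P → g.Wo (P ++ Q) → Q ≠ [] →
        2 * g.p0 + 2 * g.N1 < Q.length := by
      intro P Q h1 h2 h3
      have h3' : 0 < Q.length := List.length_pos_iff.2 h3
      have := hgapW (P ++ Q) P.length (P ++ Q).length (by rw [List.length_append]; omega) le_rfl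
        (by rw [List.take_left]; exact h1) (by rw [List.take_length]; exact h2)
      rw [List.length_append] at this
      change 2 * p0 + 2 * N1 < Q.length
      omega
    have hsp : ∀ k k' l l', k < K → k' < K → l < K → l' < K → k' ≠ k → l' ≠ l →
        c k + c l' < c l + c k' + 2 * g.N1 → c l + c k' < c k + c l' + 2 * g.N1 → k = l := by
      intro a a' l l' _ _ _ _ h1 h2 h3 h4
      rcases hU3 a a' l l' h1.symm with h | h
      · exact h.1
      · exfalso
        have h3' : c a + c l' < c l + c a' + 2 * N1 := h3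
        have h4' : c l + c a' < c a + c l' + 2 * N1 := h4
        change ((4 * N1 : ℤ) < |(((c a : ℕ) : ℤ) - (c a' : ℕ)) - (((c l : ℕ) : ℤ) - (c l' : ℕ))|)
          at h
        rcases lt_abs.1 h with h | h <;> omega
    have hthin : ∀ τ, g.z ≤ τ + g.p0 → ∀ J : Finset ℕ, (∀ k ∈ J, k < K ∧
        ∃ k', k' < K ∧ k' ≠ k ∧ BadT (τ + c k' - c k - g.p0)) → J.card ≤ k + m := by
      intro τ hτ J hJ
      have hτ' : p0 + N1 + (n + 2 * p0 + 2 * A1) ≤ τ + p0 := hτ
      choose! φ hφ using fun k (hk : k ∈ J) => (hJ k hk).2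
      have hinj : Set.InjOn (fun k => (φ k, k)) (J : Set ℕ) := by
        intro a _ b _ h
        exact (Prod.mk.inj h).2
      have h1 := hU4 ((τ : ℤ) - p0) (J.image fun k => (φ k, k)) (by
        intro ab hab
        obtain ⟨a, ha, rfl⟩ := Finset.mem_image.1 hab
        obtain ⟨h1, h2, h3⟩ := hφ a ha
        have ha' := (hJ a ha).1
        refine ⟨h1, ha', h2, ?_⟩
        have hca := hcp a ha'
        have e : (((τ + c (φ a) - c a - p0 : ℕ)) : ℤ) = (τ : ℤ) - p0 + (c (φ a) : ℕ) - (c a : ℕ) := by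
          omega
        have h3' : BadZ Ms m M (Grid_899.G κ) (Grid_899.Am M κ)
          (((τ + c (φ a) - c a - p0 : ℕ)) : ℤ) := h3
        rw [e] at h3'
        exact h3')
      rw [Finset.card_image_of_injOn hinj] at h1
      omega
    have hul : z ≤ u.length := huX.1
    have hpu : p0 ≤ u.length := by
      change p0 + N1 + q0 ≤ u.length at hul
      omega
    have hI : ∃ I : Finset ℕ, 2 * (k + m) + 2 ≤ I.card ∧ ∀ k ∈ I, k < K ∧
        lam2 k (u.take (c k)) = some x ∧
        ((fun k Q => rho2 k Q 1) k ((u.take g.p0).drop (c k))).isSome := by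
      obtain ⟨I, h1, h2⟩ := hc2 (u.take p0) 1 x (fun j hj => by
        rw [List.length_take, min_eq_left hpu]; exact hcp j hj)
      refine ⟨I, h1, fun j hj => ?_⟩
      obtain ⟨h3, h4, h5⟩ := h2 j hj
      rw [List.take_take, min_eq_left (hcp j h3)] at h4
      exact ⟨h3, h4, h5⟩
    obtain ⟨P, Q, b, h1, h2, h3⟩ := g.complete2 pre post (BadT := BadT) (lam2 := lam2)
      (rho2 := fun k Q => rho2 k Q 1) (C0 := k + m) hcp hgap hsp hthin huX htX x hI
    refine ⟨P, Q, b, h1.symm, h2, ?_⟩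
    intro x' p hp
    obtain ⟨j', hj', hpl, hpv⟩ := id hp
    obtain ⟨j, hj, l, hend, hgood, hX2, v2, hr, hb⟩ := id h3
    -- first block of `p ++ Q`
    have hfirst : ∃ l', g.CEnd Q (c j') l' := by
      by_cases h : j' = j
      · exact ⟨l, h ▸ hend⟩
      · obtain ⟨l', h4, _⟩ := hgood j' hj' h
        exact ⟨l', h4⟩
    obtain ⟨l', hl'⟩ := hfirst
    have hX1 : g.XX (p ++ Q.take l') :=
      g.xx_of_cend (by rw [hpl]; exact hcp j' hj') (by rw [hpl]; exact hl')
    have hsplit : p ++ Q = (p ++ Q.take l') ++ Q.drop l' := by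
      rw [List.append_assoc, List.take_append_drop]
    by_cases hbad : g.BadX BadT (p ++ Q.take l')
    · obtain ⟨X2, h5, h6, h7⟩ := g.sound2 pre post (BadT := BadT) (K := K) (c := c)
        (lam2 := lam2) (rho2 := fun k Q => rho2 k Q 1) hcp (by
          intro a ha P Q v w hP hQ hl hr'
          have h8 := hs2 a ha P Q 1 v w hP hl hr'
          rw [mul_one] at h8
          exact h8) (R := []) (R' := Q.drop l') hX1 hbad hp h3
          (by rw [List.append_nil]; exact hsplit)
      by_cases hbad2 : g.BadX BadT X2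
      · left
        refine ⟨_, Language.mem_mul.2 ⟨p ++ Q.take l', ⟨⟨(hzn _).2 hX1, hbad⟩, rfl⟩, X2,
          ⟨b, Language.mem_mul.2 ⟨X2, ⟨⟨(hzn _).2 h5, hbad2⟩, h7⟩, [], ⟨rfl, rfl⟩, by simp⟩⟩,
          h6.symm⟩⟩
      · right
        right
        refine Language.mem_mul.2 ⟨p ++ Q.take l', (hzn _).2 hX1, X2,
          ⟨X2, (hzn _).2 h5, fun h => hbad2 h.2, List.prefix_rfl⟩, h6.symm⟩
    · right
      left
      exact ⟨p ++ Q.take l', (hzn _).2 hX1, fun h => hbad h.2, ⟨Q.drop l', hsplit.symm⟩⟩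

end Crest.Agent.R320.Join_550
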