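import Crest.Agent.R320.SemTop_727
import Crest.Agent.R320.Sc2n_937
import Crest.Agent.R320.OutRule_480
import Crest.Agent.R320.Reg_236
import Crest.Agent.R320.ExactR_237

/-!
# Row 320: everything from the scheme-1 gadget (helper557)

Semantic top (727) + block form of both schemes (937) + outer walls (480) + exact gadget (237).
-/

set_option autoImplicit false

namespace Crest.Agent.R320.Join_557

open Crest.RegLang Crest.Agent.R320.Hk_851 Crest.Agent.R320.Blk467 Crest.Agent.R320.SemTop_727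
open Crest.Agent.R320.Sc2n_937

/-- abstract gadget of scheme 1, with the ruler `c` -/
structure G1 {A S V : Type} [Monoid S] [AddCommGroup V] (f : A → S) (act : V → S → V)
    (C0 K : ℕ) where
  N1 : ℕ
  L0 : ℕ
  BadT : ℕ → Prop
  c : ℕ → ℕ
  p0 : ℕ
  hN : 0 < N1
  hmono : ∀ i j, i < j → j < K → c i < c j
  hp0 : ∀ k, k < K → c k ≤ p0
  hsp : ∀ k k' l l', k < K → k' < K → l < K → l' < K → k' ≠ k → l' ≠ l →
      c k + c l' < c l + c k' + 2 * N1 → c l + c k' < c k + c l' + 2 * N1 → k = l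
  hthin : ∀ T, p0 ≤ T → ∀ J : Finset ℕ, (∀ k ∈ J, k < K ∧
      ∃ k', k' < K ∧ k' ≠ k ∧ BadT (T + c k' - c k)) → J.card ≤ C0
  lam : List A → Option V
  rho : List A → Option V
  nu : List A → V
  hlen : ∀ P v, lam P = some v → P.length ≤ N1
  hex : ∀ P Q u b, lam P = some u → rho Q = some b →
      b = act u ((P ++ Q).map f).prod + nu (P ++ Q)
  hcomp : ∀ X : List A, L0 ≤ X.length → ¬ BadT X.length → ∀ u, ∃ P Q, X = P ++ Q ∧
      lam P = some u ∧ (rho Q).isSome
  hreg : ∀ s b, Language.IsRegular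
      ({Y : List A | L0 ≤ Y.length ∧ (Y.map f).prod = s ∧ nu Y = b} : Language A)

section

variable {A S V : Type} [Finite A] [Monoid S] [Finite S] [AddCommGroup V] [Finite V]

theorem reg_val (f : A → S) (s : S) :
    Language.IsRegular ({w | (w.map f).prod = s} : Language A) := by
  classical
  haveI := Fintype.ofFinite S
  have key : ∀ (w : List A) (m : S), w.foldl (fun (m : S) b => m * f b) m =
      m * (w.map f).prod := by
    intro w
    induction w with
    | nil => intro m; simp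
    | cons a w ih => intro m; simp [ih, mul_assoc]
  let M : DFA A S := ⟨fun m a => m * f a, 1, {m | m = s}⟩
  refine ⟨S, inferInstance, M, ?_⟩
  ext w
  show w.foldl (fun (m : S) b => m * f b) 1 ∈ ({m | m = s} : Set S) ↔ _
  rw [key, one_mul]
  exact Iff.rfl


/-! ## walls and the block code are star free -/

theorem hl_wo {n : ℕ} {Wo : List A → Prop} (hlen : ∀ P, Wo P → n ≤ P.length)
    (hloc : ∀ P Q : List A, n ≤ Q.length → (Wo (P ++ Q) ↔ Wo Q)) :
    HL 0 ({X | Wo X} : Language A) := by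
  have h1 : HL 0 ({Q | Q.length = n ∧ Wo Q} : Language A) :=
    HL.finite ((List.finite_length_eq A n).subset fun Q hQ => hQ.1)
  refine ((HL.top (α := A) (k := 0)).mul h1).congr fun X => ?_
  constructor
  · intro hX
    have hX' : Wo X := hX
    have hl := hlen X hX'
    refine Language.mem_mul.2 ⟨X.take (X.length - n), trivial, X.drop (X.length - n), ?_,
      List.take_append_drop _ _⟩
    have h2 : (X.drop (X.length - n)).length = n := by
      rw [List.length_drop]; omega
    refine ⟨h2, ?_⟩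
    rw [← hloc (X.take (X.length - n)) _ (by omega), List.take_append_drop]
    exact hX'
  · intro hX
    obtain ⟨P, -, Q, hQ, rfl⟩ := Language.mem_mul.1 hX
    exact (hloc P Q (le_of_eq hQ.1.symm)).2 hQ.2

theorem hl_xx (g : Geo A) (hlen : ∀ P, g.Wo P → g.n ≤ P.length) :
    HL 0 ({X | g.XX X} : Language A) := by
  have h1 : HL 0 ({X | g.z ≤ X.length ∧ g.Wo X} : Language A) :=
    HL.setOf_and (HL.length_ge _) (hl_wo hlen g.loc)
  have h2 := h1.mul (HL.length_ge (α := A) (k := 0) 1)
  refine (h1.sdiff h2).congr fun X => ?_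
  constructor
  · rintro ⟨ha, hb, hc⟩
    refine ⟨⟨ha, hb⟩, ?_⟩
    intro hm
    obtain ⟨P, hP, Q, hQ, rfl⟩ := Language.mem_mul.1 hm
    have hQ' : 1 ≤ Q.length := hQ
    refine hc P.length hP.1 (by rw [List.length_append]; omega) ?_
    rw [List.take_left']
    · exact hP.2
    · rfl
  · rintro ⟨⟨ha, hb⟩, hc⟩
    refine ⟨ha, hb, ?_⟩
    intro t ht htl hw
    apply hc
    refine Language.mem_mul.2 ⟨X.take t, ⟨?_, hw⟩, X.drop t, ?_, List.take_append_drop _ _⟩
    · rw [List.length_take]; omega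
    · show 1 ≤ (X.drop t).length
      rw [List.length_drop]; omega

theorem exists_xx_prefix (g : Geo A) {w : List A} {x : ℕ} (hx : g.z ≤ x) (hxl : x ≤ w.length)
    (hw : g.Wo (w.take x)) : ∃ X, g.XX X ∧ X <+: w := by
  classical
  have hex : ∃ x, g.z ≤ x ∧ x ≤ w.length ∧ g.Wo (w.take x) := ⟨x, hx, hxl, hw⟩
  obtain ⟨h1, h2, h3⟩ := Nat.find_spec hex
  refine ⟨w.take (Nat.find hex), ⟨?_, h3, ?_⟩, List.take_prefix _ _⟩
  · rw [List.length_take]; omega
  · intro t ht htl hwt
    rw [List.length_take] at htl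
    refine Nat.find_min hex (m := t) (by omega) ⟨ht, by omega, ?_⟩
    rw [List.take_take, Nat.min_eq_left (by omega)] at hwt
    exact hwt

/-! ## the two schemes in semantic form -/

section schemes

variable (g : Geo A) (pre : List A → V → V) (post : V → List A → V)
  (lam : List A → Option V) (K : ℕ) (c : ℕ → ℕ) (lam2 : ℕ → List A → Option V)

/-- the data of the semantic top -/
def Dat : Sch A V where
  XX := {X | g.XX X}
  T := g.T pre post
  L1 := fun x => {P | g.LP1 pre lam x P}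
  L2 := fun x => {P | Geo.LP2 K c lam2 x P}

variable {g pre post lam K c lam2}

theorem code : PCode (Dat g pre post lam K c lam2).XX := by
  constructor
  · intro h
    have h1 : g.z ≤ ([] : List A).length := h.1
    have hz := g.hz
    have hN := g.hN
    simp at h1
    omega
  · intro X hX Y hY hp
    obtain ⟨r, hr⟩ := hp
    exact g.prefix_code (R := r) (R' := []) hX hY (by simpa using hr)

theorem good_of {rho : List A → Option V} {BadT : ℕ → Prop}
    (hlen : ∀ P v, lam P = some v → P.length ≤ g.N1)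
    (hex : ∀ P Q u b, lam P = some u → rho Q = some b → b = post u (P ++ Q))
    (hcomp : ∀ Y : List A, g.z ≤ Y.length + g.p0 → ¬ BadT Y.length → ∀ u, ∃ P Q, Y = P ++ Q ∧
      lam P = some u ∧ (rho Q).isSome)
    {X : List A} (hX : g.XX X) (hb : ¬ g.BadX BadT X) :
    X ∈ (Dat g pre post lam K c lam2).Good := by
  refine ⟨hX, fun x => ?_⟩
  have hz := g.hz
  have hXz := hX.1
  have hE : ¬ g.E X := fun h => hb (Or.inl h)
  have hB : ¬ BadT (X.length - g.p0) := fun h => hb (Or.inr h)
  have hl : (X.drop g.p0).length = X.length - g.p0 := List.length_drop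
  obtain ⟨P, Q, b, e, hP, hQ⟩ := g.complete1 pre hlen hX hE
    (fun u => hcomp (X.drop g.p0) (by rw [hl]; omega) (by rw [hl]; exact hB) u) x
  refine ⟨P, hP, Q, ?_, e.symm⟩
  intro x' P' hP'
  obtain ⟨h1, h2⟩ := g.sound1 pre post hlen hex hP' hQ
  obtain ⟨h3, h4⟩ := g.sound1 pre post hlen hex hP hQ
  refine ⟨h1, ?_⟩
  show g.T pre post x' (P' ++ Q) = g.T pre post x X
  rw [h2, e, h4]

theorem bad_of {rho : List A → Option V} {BadT : ℕ → Prop}
    (hlen : ∀ P v, lam P = some v → P.length ≤ g.N1)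
    (hex : ∀ P Q u b, lam P = some u → rho Q = some b → b = post u (P ++ Q))
    (hcomp : ∀ Y : List A, g.z ≤ Y.length + g.p0 → ¬ BadT Y.length → ∀ u, ∃ P Q, Y = P ++ Q ∧
      lam P = some u ∧ (rho Q).isSome)
    {X : List A} (hX : X ∈ (Dat g pre post lam K c lam2).Bad) : g.BadX BadT X := by
  by_contra h
  exact hX.2 (good_of hlen hex hcomp hX.1 h)

theorem comp2 {rho : List A → Option V} {rho2 : ℕ → List A → Option V} {BadT : ℕ → Prop}
    {C0 : ℕ}
    (hlen : ∀ P v, lam P = some v → P.length ≤ g.N1)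
    (hex : ∀ P Q u b, lam P = some u → rho Q = some b → b = post u (P ++ Q))
    (hcomp : ∀ Y : List A, g.z ≤ Y.length + g.p0 → ¬ BadT Y.length → ∀ u, ∃ P Q, Y = P ++ Q ∧
      lam P = some u ∧ (rho Q).isSome)
    (hc : ∀ k, k < K → c k ≤ g.p0)
    (hex2 : ∀ k, k < K → ∀ P Q v u, P.length = c k → Q.length = g.p0 - c k →
      lam2 k P = some v → rho2 k Q = some u → u = pre (P ++ Q) v)
    (hgap : ∀ P Q : List A, g.Wo P → g.Wo (P ++ Q) → Q ≠ [] → 2 * g.p0 + 2 * g.N1 < Q.length)
    (hsp : ∀ k k' l l', k < K → k' < K → l < K → l' < K → k' ≠ k → l' ≠ l →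
      c k + c l' < c l + c k' + 2 * g.N1 → c l + c k' < c k + c l' + 2 * g.N1 → k = l)
    (hthin : ∀ τ, g.z ≤ τ + g.p0 → ∀ J : Finset ℕ, (∀ k ∈ J, k < K ∧
      ∃ k', k' < K ∧ k' ≠ k ∧ BadT (τ + c k' - c k - g.p0)) → J.card ≤ C0)
    (hI : ∀ X, g.XX X → ∀ v, ∃ I : Finset ℕ, 2 * C0 + 2 ≤ I.card ∧ ∀ k ∈ I, k < K ∧
      lam2 k (X.take (c k)) = some v ∧ (rho2 k ((X.take g.p0).drop (c k))).isSome) :
    ∀ X1 ∈ (Dat g pre post lam K c lam2).Bad, ∀ X2 ∈ (Dat g pre post lam K c lam2).Bad, ∀ x,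
      ∃ P ∈ (Dat g pre post lam K c lam2).L2 x,
      ∃ Q ∈ (Dat g pre post lam K c lam2).R2
        ((Dat g pre post lam K c lam2).T ((Dat g pre post lam K c lam2).T x X1) X2),
      P ++ Q = X1 ++ X2 := by
  intro X1 h1 X2 h2 x
  obtain ⟨P, Q, b, e, hP, hQ⟩ := g.complete2 pre post hc hgap hsp hthin h1.1 h2.1 x
    (hI X1 h1.1 x)
  obtain ⟨X2', hX2', e2, hb⟩ := g.sound2 pre post hc hex2 (R := []) (R' := X2) h1.1
    (bad_of hlen hex hcomp h1) hP hQ (by rw [List.append_nil, e])
  have e3 : X2' = X2 := by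
    rw [e] at e2
    exact (List.append_cancel_left e2).symm
  subst e3
  refine ⟨P, hP, Q, ?_, e⟩
  show Q ∈ (Dat g pre post lam K c lam2).R2 (g.T pre post (g.T pre post x X1) X2')
  rw [hb]
  intro x' P' hP'
  obtain ⟨k0, hk0, hPl, hl⟩ := hP'
  obtain ⟨k, hk, l, hend, hgood, hX3, u, hr, hbb⟩ := hQ
  by_cases hkk : k0 = k
  · subst hkk
    have hend' : g.CEnd Q P'.length l := by rw [hPl]; exact hend
    have hX4 : g.XX (P' ++ Q.take l) := g.xx_of_cend (by rw [hPl]; exact hc k0 hk0) hend'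
    have e5 : P' ++ Q = (P' ++ Q.take l) ++ Q.drop l := by
      rw [List.append_assoc, List.take_append_drop]
    by_cases hG1 : (P' ++ Q.take l) ∈ (Dat g pre post lam K c lam2).Good
    · exact Or.inr (Or.inl ⟨_, hG1, e5 ▸ List.prefix_append _ _⟩)
    · have hB1 : (P' ++ Q.take l) ∈ (Dat g pre post lam K c lam2).Bad := ⟨hX4, hG1⟩
      by_cases hG2 : Q.drop l ∈ (Dat g pre post lam K c lam2).Good
      · exact Or.inr (Or.inr ⟨_, hB1, _, hG2, by rw [e5]⟩)
      · refine Or.inl ⟨_, hB1, _, ⟨hX3, hG2⟩, e5, ?_⟩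
        obtain ⟨X5, hX5, e6, hb6⟩ := g.sound2 pre post hc hex2 (R := []) (R' := Q.drop l)
          (v := x') (b := b) (P := P') (Q := Q) hX4
          (bad_of hlen hex hcomp hB1) ⟨k0, hk0, hPl, hl⟩
          ⟨k0, hk, l, hend, hgood, hX3, u, hr, hbb⟩ (by rw [List.append_nil, ← e5])
        have e7 : X5 = Q.drop l := by
          rw [e5] at e6
          exact (List.append_cancel_left e6).symm
        rw [← e7]
        exact hb6
  · obtain ⟨l', he', hg'⟩ := hgood k0 hk0 hkk
    have hend' : g.CEnd Q P'.length l' := by rw [hPl]; exact he'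
    have hle : P'.length ≤ g.p0 := by rw [hPl]; exact hc k0 hk0
    have hX4 : g.XX (P' ++ Q.take l') := g.xx_of_cend hle hend'
    have e5 : P' ++ Q = (P' ++ Q.take l') ++ Q.drop l' := by
      rw [List.append_assoc, List.take_append_drop]
    refine Or.inr (Or.inl ⟨P' ++ Q.take l', good_of hlen hex hcomp hX4 ?_,
      e5 ▸ List.prefix_append _ _⟩)
    intro hbx
    have := g.cbad_of_bad (BadT := BadT) hle hend' hbx
    rw [hPl] at this
    exact hg' this

end schemes


/-- value languages of the gadget -/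
def Lsb (f : A → S) (L0 : ℕ) (nu : List A → V) (s : S) (b : V) : Language A :=
  {Y : List A | L0 ≤ Y.length ∧ (Y.map f).prod = s ∧ nu Y = b}

/-- one word -/
def W1 (X : List A) : Language A := {X}

/-- **the row's value languages from the gadget** -/
theorem main (f : A → S) (act : V → S → V) (hadd : ∀ a b s, act (a + b) s = act a s + act b s)
    (hone : ∀ v, act v 1 = v) (hmul : ∀ v s t, act v (s * t) = act (act v s) t)
    (hfaith : ∀ s t, (∀ v, act v s = act v t) → s = t)
    (hG : ∃ C0, ∀ K, Nonempty (G1 f act C0 K)) (s : S) :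
    HL 3 ({w | (w.map f).prod = s} : Language A) := by
  classical
  obtain ⟨C0, hG⟩ := hG
  haveI := Fintype.ofFinite S
  haveI := Fintype.ofFinite V
  obtain ⟨K, hK⟩ := ExactR_237.exact_gadget A S V f act (2 * C0 + 2)
  obtain ⟨G⟩ := hG K
  obtain ⟨lam2, rho2, nu2, h2s, h2c⟩ := hK G.c G.hmono
  obtain ⟨n, Wo, hn, hWlen, hWloc, hWgap, hWHL⟩ :=
    OutRule_480.outer_rule_left (α := A) (2 * G.p0 + 2 * G.N1 + 1)
  let q0 := n + 2 * G.p0 + G.L0
  let g : Geo A := ⟨Wo, n, G.p0 + G.N1 + q0, G.p0, q0, G.N1, hWloc, rfl, by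
    show n ≤ n + 2 * G.p0 + G.L0
    omega, G.hN, by
    show G.p0 ≤ n + 2 * G.p0 + G.L0 + G.N1
    omega⟩
  let pre : List A → V → V := fun X v => act v (X.map f).prod + nu2 X 1
  let post : V → List A → V := fun u Y => act u (Y.map f).prod + G.nu Y
  let rho2' : ℕ → List A → Option V := fun k Q => rho2 k Q 1
  let nu : List A → V := fun X => act (nu2 (X.take G.p0) 1) ((X.drop G.p0).map f).prod +
    G.nu (X.drop G.p0)
  have hz : g.z = G.p0 + G.N1 + (n + 2 * G.p0 + G.L0) := rfl
  have hp : g.p0 = G.p0 := rfl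
  have hN1 : g.N1 = G.N1 := rfl
  have hex : ∀ P Q u b, G.lam P = some u → G.rho Q = some b → b = post u (P ++ Q) :=
    fun P Q u b h1 h2 => G.hex P Q u b h1 h2
  have hcomp : ∀ Y : List A, g.z ≤ Y.length + g.p0 → ¬ G.BadT Y.length → ∀ u, ∃ P Q,
      Y = P ++ Q ∧ G.lam P = some u ∧ (G.rho Q).isSome := by
    intro Y hY hB u
    exact G.hcomp Y (by omega) hB u
  have hgap : ∀ P Q : List A, g.Wo P → g.Wo (P ++ Q) → Q ≠ [] →
      2 * g.p0 + 2 * g.N1 < Q.length := by
    intro P Q h1 h2 h3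
    have h4 := hWgap (P ++ Q) Q.length h2 (List.length_pos_iff.2 h3)
      (by rw [List.length_append]; omega) (by
        have e : (P ++ Q).take ((P ++ Q).length - Q.length) = P := by
          rw [List.length_append, Nat.add_sub_cancel, List.take_left]
        rw [e]; exact h1)
    omega
  have hthin : ∀ τ, g.z ≤ τ + g.p0 → ∀ J : Finset ℕ, (∀ k ∈ J, k < K ∧
      ∃ k', k' < K ∧ k' ≠ k ∧ G.BadT (τ + G.c k' - G.c k - g.p0)) → J.card ≤ C0 := by
    intro τ hτ J hJ
    refine G.hthin (τ - G.p0) (by omega) J ?_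
    intro k hk
    obtain ⟨h1, k', h2, h3, h4⟩ := hJ k hk
    refine ⟨h1, k', h2, h3, ?_⟩
    have hk1 := G.hp0 k h1
    have : τ - G.p0 + G.c k' - G.c k = τ + G.c k' - G.c k - g.p0 := by omega
    rw [this]; exact h4
  have hI : ∀ X, g.XX X → ∀ v, ∃ I : Finset ℕ, 2 * C0 + 2 ≤ I.card ∧ ∀ k ∈ I, k < K ∧
      lam2 k (X.take (G.c k)) = some v ∧ (rho2' k ((X.take g.p0).drop (G.c k))).isSome := by
    intro X hX v
    have hXz := hX.1
    have hl : (X.take G.p0).length = G.p0 := by rw [List.length_take]; omega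
    obtain ⟨I, h1, h2⟩ := h2c (X.take G.p0) 1 v (fun k hk => by rw [hl]; exact G.hp0 k hk)
    refine ⟨I, h1, fun k hk => ?_⟩
    obtain ⟨h3, h4, h5⟩ := h2 k hk
    have h6 := G.hp0 k h3
    refine ⟨h3, ?_, h5⟩
    rw [List.take_take, Nat.min_eq_left h6] at h4
    exact h4
  have hex2 : ∀ k, k < K → ∀ P Q v u, P.length = G.c k → Q.length = g.p0 - G.c k →
      lam2 k P = some v → rho2' k Q = some u → u = pre (P ++ Q) v := by
    intro k hk P Q v u h1 _ h3 h4
    have := h2s k hk P Q 1 v u h1 h3 h4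
    rw [mul_one] at this
    exact this
  have hC2 := comp2 (g := g) (pre := pre) (post := post) (lam := G.lam) (K := K) (c := G.c)
    (lam2 := lam2) (rho := G.rho) (rho2 := rho2') (BadT := G.BadT) (C0 := C0)
    G.hlen hex hcomp G.hp0 hex2 hgap G.hsp hthin hI
  have hreg0 : Language.IsRegular ({X | g.XX X} : Language A) :=
    Reg_236.HL.isRegular (hl_xx g hWlen)
  refine SemTop_727.top (k := 1) act hadd hone hmul hfaith f nu
    (Dat g pre post G.lam K G.c lam2) ?_ code ?_ ?_ ?_ hC2 ?_ s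
  · -- zone map
    intro v X
    show act (act v ((X.take G.p0).map f).prod + nu2 (X.take G.p0) 1)
      ((X.drop G.p0).map f).prod + G.nu (X.drop G.p0) = _
    rw [hadd, ← hmul, ← List.prod_append, ← List.map_append, List.take_append_drop, add_assoc]
  · -- fibres
    intro x y
    let LX : Language A := {X | g.XX X}
    have hpiece : ∀ (X1 : List A) (s : S) (b : V),
        HL 1 (LX ⊓ (W1 X1 * Lsb f G.L0 G.nu s b)) := by
      intro X1 s b
      refine hWHL (g.z + 1) _ (Language.IsRegular.inf hreg0 (Reg_236.isRegular_mul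
        (Reg_236.HL.isRegular (HL.word (k := 0) X1)) (G.hreg s b))) ?_
      intro w hw F hF
      have hw1 : g.XX w := hw.1
      have hsub : F ⊆ insert w.length (Finset.range g.z) := by
        intro t ht
        obtain ⟨h1, h2⟩ := hF t ht
        rw [Finset.mem_insert, Finset.mem_range]
        by_contra hcon
        push Not at hcon
        exact hw1.2.2 t hcon.2 (by omega) h2
      calc F.card ≤ _ := Finset.card_le_card hsub
        _ ≤ _ := by
          refine (Finset.card_insert_le _ _).trans ?_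
          rw [Finset.card_range]
    have hfin : {p : List A × S × V | p.1.length = G.p0 ∧
        act (pre p.1 x) p.2.1 + p.2.2 = y}.Finite := by
      refine Set.Finite.subset ((List.finite_length_eq A G.p0).prod
        (Set.finite_univ (α := S × V))) ?_
      rintro ⟨a, b⟩ h
      exact ⟨h.1, trivial⟩
    refine (HL.biUnion (k := 1) hfin
      (L := fun p : List A × S × V => LX ⊓ (W1 p.1 * Lsb f G.L0 G.nu p.2.1 p.2.2))
      (fun p _ => hpiece p.1 p.2.1 p.2.2)).congr fun X => ?_
    constructor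
    · rintro ⟨hX, hT⟩
      have hXz := hX.1
      have hl : (X.take G.p0).length = G.p0 := by rw [List.length_take]; omega
      refine ⟨(X.take G.p0, ((X.drop G.p0).map f).prod, G.nu (X.drop G.p0)), ⟨hl, hT⟩, hX, ?_⟩
      refine Language.mem_mul.2 ⟨X.take G.p0, rfl, X.drop G.p0, ⟨?_, rfl, rfl⟩,
        List.take_append_drop _ _⟩
      rw [List.length_drop]; omega
    · rintro ⟨⟨X1, s, b⟩, ⟨h1, h2⟩, h3, h4⟩
      obtain ⟨X1', hX1, Y, ⟨hY0, hY1, hY2⟩, e⟩ := Language.mem_mul.1 h4
      have hX1' : X1' = X1 := hX1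
      subst hX1'
      refine ⟨h3, ?_⟩
      show act (pre (X.take G.p0) x) ((X.drop G.p0).map f).prod + G.nu (X.drop G.p0) = y
      have e1 : X.take G.p0 = X1' := by
        rw [← e]; exact List.take_left' h1
      have e2 : X.drop G.p0 = Y := by
        rw [← e]; exact List.drop_left' h1
      rw [e1, e2, hY1, hY2]
      exact h2
  · -- left words 1
    intro x
    refine (List.finite_length_le A (G.p0 + G.N1)).subset ?_
    rintro P ⟨h1, h2⟩
    have := G.hlen _ _ h2
    rw [List.length_drop] at this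
    show P.length ≤ G.p0 + G.N1
    omega
  · intro x
    refine (List.finite_length_le A G.p0).subset ?_
    rintro P ⟨k, hk, h1, h2⟩
    show P.length ≤ G.p0
    rw [h1]
    exact G.hp0 k hk
  · -- tails
    intro s
    refine HL.mono (k := 1) (by omega) ?_
    have hr1 : Language.IsRegular ({w | ∃ v ∈ ({X | g.XX X} : Language A), v <+: w}ᶜ : Language A) :=
      Reg_236.HL.isRegular (hl_xx g hWlen).prefix.compl
    refine (hWHL g.z _ (Language.IsRegular.inf hr1 (reg_val f s)) ?_).congr fun w => ?_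
    · intro w hw F hF
      have hsub : F ⊆ Finset.range g.z := by
        intro t ht
        obtain ⟨h1, h2⟩ := hF t ht
        rw [Finset.mem_range]
        by_contra hcon
        push Not at hcon
        obtain ⟨X, hX, hpX⟩ := exists_xx_prefix g hcon h1 h2
        exact hw.1 ⟨X, hX, hpX⟩
      have := Finset.card_le_card hsub
      rwa [Finset.card_range] at this
    · constructor
      · rintro ⟨h1, h2⟩
        refine ⟨?_, h2⟩
        rintro ⟨X, hX, hpX⟩
        exact h1 X hX hpX
      · rintro ⟨h1, h2⟩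
        exact ⟨fun X hX hpX => h1 ⟨X, hX, hpX⟩, h2⟩

end

end Crest.Agent.R320.Join_557
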