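import Crest.Agent.R320.Sch_780

/-! Joint: threshold chain + abstract zone gadget gives an anchor scheme (row 320, chain 132).

Anchors are `wall + p0`.  `Qual P b`: at distance `b` from the anchor there is an outer wall which
passes its threshold.  The next anchor is `b + p0` for the first such `b`. -/

set_option autoImplicit false

namespace Crest.Agent.R320.Join_565

open Crest.Agent.R320.Sch_780

variable {α V : Type*}

theorem drop_add (P r : List α) (β : ℕ) : (P ++ r).drop (P.length + β) = r.drop β := by
  rw [List.drop_append]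
  have : P.drop (P.length + β) = [] := List.drop_eq_nil_of_le (by omega)
  rw [this, List.nil_append]
  congr 1
  omega

/-- data of the outer chain; `z` is the distance from the ANCHOR (`wall + p0`). -/
structure Chain (α : Type*) where
  R : List α → Prop
  n : ℕ
  th : ℤ → ℤ
  M : ℤ
  z : ℤ
  p0 : ℕ
  N1 : ℕ
  S : ℤ
  loc : ∀ Q, R Q ↔ R (Q.take n)
  len : ∀ Q, R Q → n ≤ Q.length
  npos : 0 < n
  hn : n ≤ p0
  hlo : ∀ r, -S ≤ th r
  hz : (N1 : ℤ) + S < z

namespace Chain

variable (C : Chain α)

def Qual (P : List α) (b : ℕ) : Prop :=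
  C.R (P.drop b) ∧ C.th (((b : ℤ) - C.z) % C.M) ≤ (b : ℤ) - C.z

def First (P : List α) (b : ℕ) : Prop := C.Qual P b ∧ ∀ b' < b, ¬ C.Qual P b'

theorem First.unique {C : Chain α} {P : List α} {b b' : ℕ} (h : C.First P b) (h' : C.First P b') :
    b = b' := by
  rcases lt_trichotomy b b' with hlt | heq | hgt
  · exact absurd h.1 (h'.2 b hlt)
  · exact heq
  · exact absurd h'.1 (h.2 b' hgt)

theorem Qual.ge {C : Chain α} {P : List α} {b : ℕ} (h : C.Qual P b) : C.z - C.S ≤ (b : ℤ) := by
  have := C.hlo (((b : ℤ) - C.z) % C.M)
  have := h.2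
  linarith

theorem Qual.len {C : Chain α} {P : List α} {b : ℕ} (h : C.Qual P b) : b + C.n ≤ P.length := by
  have h1 := C.len _ h.1
  have h2 := C.npos
  rw [List.length_drop] at h1
  omega

theorem R_append {X Y : List α} (h : C.n ≤ X.length) : C.R (X ++ Y) ↔ C.R X := by
  rw [C.loc (X ++ Y), C.loc X, List.take_append_of_le_length h]

theorem R_append_of {X Y : List α} (h : C.R X) : C.R (X ++ Y) :=
  (C.R_append (C.len X h)).2 h

theorem qual_append {P X : List α} {b : ℕ} (h : b + C.n ≤ P.length) :
    C.Qual (P ++ X) b ↔ C.Qual P b := by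
  have hb : b ≤ P.length := by omega
  unfold Qual
  rw [List.drop_append_of_le_length hb, C.R_append (by rw [List.length_drop]; omega)]

theorem first_append {P X : List α} {b : ℕ} (h : b + C.n ≤ P.length) :
    C.First (P ++ X) b ↔ C.First P b := by
  unfold First
  rw [C.qual_append h]
  constructor
  · rintro ⟨h1, h2⟩
    exact ⟨h1, fun b' hb' hq => h2 b' hb' ((C.qual_append (by omega)).2 hq)⟩
  · rintro ⟨h1, h2⟩
    exact ⟨h1, fun b' hb' hq => h2 b' hb' ((C.qual_append (by omega)).1 hq)⟩

/-- right legality with respect to the outer walls. -/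
def Leg (r : List α) : Prop := ∀ β, C.R (r.drop β) →
  ¬ ((β : ℤ) - C.z < C.th (((β : ℤ) - C.z) % C.M) ∧
      C.th (((β : ℤ) - C.z) % C.M) ≤ (β : ℤ) - C.z + C.N1)

/-- the outer wall band at an anchor. -/
def Ebad (Q : List α) : Prop := ∃ t, C.R (Q.drop t) ∧
  |(t : ℤ) - C.z - C.th (((t : ℤ) - C.z) % C.M)| ≤ C.N1

theorem emod_shift {L : ℕ} {om : ℤ} (hL : (L : ℤ) = C.M * om) (β : ℕ) :
    (((L + β : ℕ) : ℤ) - C.z) % C.M = ((β : ℤ) - C.z) % C.M := by
  have : (((L + β : ℕ) : ℤ) - C.z) = ((β : ℤ) - C.z) + C.M * om := by push_cast; rw [hL]; ring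
  rw [this, Int.add_mul_emod_self_left]

/-- **junction lemma on words**. -/
theorem first_of_right {P r : List α} {β : ℕ} {om : ℤ} (hP : (P.length : ℤ) = C.M * om)
    (hP1 : P.length ≤ C.N1) (hleg : C.Leg r) (hf : C.First r β) :
    C.First (P ++ r) (P.length + β) := by
  constructor
  · refine ⟨?_, ?_⟩
    · rw [drop_add]
      exact hf.1.1
    · rw [C.emod_shift hP]
      have := hf.1.2
      push_cast
      have h0 : (0 : ℤ) ≤ P.length := by positivity
      linarith
  · intro b' hb' hq
    rcases lt_or_ge b' P.length with hlt | hge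
    · have h1 := hq.ge
      have h2 := C.hz
      have h3 : (b' : ℤ) < P.length := by exact_mod_cast hlt
      have h4 : (P.length : ℤ) ≤ C.N1 := by exact_mod_cast hP1
      linarith
    · obtain ⟨β', rfl⟩ := Nat.exists_eq_add_of_le hge
      have hβ : β' < β := by omega
      have hR : C.R (r.drop β') := by
        have := hq.1
        rwa [drop_add] at this
      have h1 := hq.2
      rw [C.emod_shift hP] at h1
      have h2 := hf.2 β' hβ
      have h3 : ¬ C.th (((β' : ℤ) - C.z) % C.M) ≤ (β' : ℤ) - C.z := fun h => h2 ⟨hR, h⟩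
      have h4 : (P.length : ℤ) ≤ C.N1 := by exact_mod_cast hP1
      refine hleg β' hR ⟨by linarith [not_le.1 h3], ?_⟩
      push_cast at h1
      linarith

/-- off the band the right side is legal and finds the same wall. -/
theorem right_of_first {P r s : List α} {b : ℕ} {om : ℤ} (hP : (P.length : ℤ) = C.M * om)
    (hP1 : P.length ≤ C.N1) (hE : ¬ C.Ebad (P ++ (r ++ s))) (hf : C.First (P ++ (r ++ s)) b)
    (hr : b + C.n ≤ P.length + r.length) :
    P.length ≤ b ∧ C.Leg r ∧ C.First r (b - P.length) := by
  have h4 : (P.length : ℤ) ≤ C.N1 := by exact_mod_cast hP1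
  have h0 : (0 : ℤ) ≤ P.length := by positivity
  have hge : P.length ≤ b := by
    have h1 := hf.1.ge
    have h2 := C.hz
    have : (P.length : ℤ) ≤ b := by linarith
    exact_mod_cast this
  obtain ⟨β, rfl⟩ := Nat.exists_eq_add_of_le hge
  have hwall : ∀ t, C.R (r.drop t) → C.R ((P ++ (r ++ s)).drop (P.length + t)) := by
    intro t ht
    have hlen := C.len _ ht
    have hnp := C.npos
    rw [List.length_drop] at hlen
    rw [List.drop_append]
    have : (P.drop (P.length + t)) = [] := List.drop_eq_nil_of_le (by omega)
    rw [this, List.nil_append]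
    have e : P.length + t - P.length = t := by omega
    rw [e, List.drop_append_of_le_length (by omega)]
    exact C.R_append_of ht
  refine ⟨hge, ?_, ?_⟩
  · intro t ht hcon
    apply hE
    refine ⟨P.length + t, hwall t ht, ?_⟩
    rw [C.emod_shift hP, abs_le]
    push_cast
    constructor <;> linarith [hcon.1, hcon.2]
  · have e : P.length + β - P.length = β := by omega
    rw [e]
    constructor
    · refine ⟨?_, ?_⟩
      · have h1 := hf.1.1
        rw [List.drop_append] at h1
        have h2 : (P.drop (P.length + β)) = [] := List.drop_eq_nil_of_le (by omega)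
        rw [h2, List.nil_append, e, List.drop_append_of_le_length (by omega),
          C.R_append (by rw [List.length_drop]; omega)] at h1
        exact h1
      · have h1 := hf.1.2
        by_contra hcon
        apply hE
        refine ⟨P.length + β, hf.1.1, ?_⟩
        rw [C.emod_shift hP] at h1 ⊢
        rw [abs_le]
        push_cast at h1 ⊢
        have := not_le.1 hcon
        constructor <;> linarith
    · intro β' hβ' hq
      apply hf.2 (P.length + β') (by omega)
      refine ⟨hwall β' hq.1, ?_⟩
      rw [C.emod_shift hP]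
      have := hq.2
      push_cast
      linarith

end Chain

open Classical in
/-- the abstract zone gadget and its anchor scheme. -/
structure Gad (α V : Type*) (C : Chain α) where
  LL : List α → Option V
  RR : List α → Option V
  /-- zone map: from the anchor to the wall. -/
  zm : List α → V → V
  /-- move from the wall to the next anchor. -/
  mv : List α → V → V
  hL : ∀ P v, LL P = some v → P.length ≤ C.N1 ∧ ∃ om : ℤ, (P.length : ℤ) = C.M * om
  sound : ∀ P Q v c, LL P = some v → RR Q = some c → zm (P ++ Q) v = c
  D : ℕ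
  hD : (D : ℤ) < 2 * (C.z - C.S) + 2 * C.p0

namespace Gad

variable {C : Chain α} (g : Gad α V C)

open Classical in
noncomputable def step (P : List α) : Option (ℕ × (V → V)) :=
  if h : ∃ b, C.First P b ∧ b + C.p0 ≤ P.length then
    some (h.choose + C.p0, fun v => g.mv ((P.drop h.choose).take C.p0) (g.zm (P.take h.choose) v))
  else none

open Classical in
noncomputable def right (r : List α) : Option (ℕ × V) :=
  if h : ∃ b, (C.First r b ∧ b + C.p0 ≤ r.length ∧ C.Leg r) ∧ (g.RR (r.take b)).isSome then
    some (h.choose + C.p0,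
      g.mv ((r.drop h.choose).take C.p0) ((g.RR (r.take h.choose)).get h.choose_spec.2))
  else none

theorem step_eq {P : List α} {b : ℕ} (h : C.First P b) (hb : b + C.p0 ≤ P.length) :
    g.step P = some (b + C.p0, fun v => g.mv ((P.drop b).take C.p0) (g.zm (P.take b) v)) := by
  have hex : ∃ b, C.First P b ∧ b + C.p0 ≤ P.length := ⟨b, h, hb⟩
  have hc : hex.choose = b := hex.choose_spec.1.unique h
  unfold step
  rw [dif_pos hex]
  simp only [hc]

theorem step_some {P : List α} {q : ℕ × (V → V)} (h : g.step P = some q) :
    ∃ b, C.First P b ∧ b + C.p0 ≤ P.length ∧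
      q = (b + C.p0, fun v => g.mv ((P.drop b).take C.p0) (g.zm (P.take b) v)) := by
  by_cases hex : ∃ b, C.First P b ∧ b + C.p0 ≤ P.length
  · obtain ⟨b, h1, h2⟩ := hex
    rw [g.step_eq h1 h2] at h
    exact ⟨b, h1, h2, by simpa using h.symm⟩
  · unfold step at h
    rw [dif_neg hex] at h
    simp at h

theorem step_none {P : List α} (h : (P.length : ℤ) < C.z - C.S + C.p0) : g.step P = none := by
  by_contra hne
  obtain ⟨q, hq⟩ := Option.ne_none_iff_exists'.1 hne
  obtain ⟨b, h1, h2, -⟩ := g.step_some hq
  have := h1.1.ge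
  have h3 : (b : ℤ) + C.p0 ≤ P.length := by exact_mod_cast h2
  linarith

theorem right_eq {r : List α} {b : ℕ} {c : V} (h : C.First r b) (hb : b + C.p0 ≤ r.length)
    (hl : C.Leg r) (hR : g.RR (r.take b) = some c) :
    g.right r = some (b + C.p0, g.mv ((r.drop b).take C.p0) c) := by
  have hex : ∃ b, (C.First r b ∧ b + C.p0 ≤ r.length ∧ C.Leg r) ∧ (g.RR (r.take b)).isSome :=
    ⟨b, ⟨h, hb, hl⟩, by simp [hR]⟩
  have hc : hex.choose = b := hex.choose_spec.1.1.unique h
  unfold right
  rw [dif_pos hex]
  simp only [Option.some.injEq, Prod.mk.injEq]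
  refine ⟨by rw [hc], ?_⟩
  have h2 : (g.RR (r.take hex.choose)).get hex.choose_spec.2 = c := by
    have : g.RR (r.take hex.choose) = some c := by rw [hc]; exact hR
    simp [this]
  rw [h2, hc]

theorem right_some {r : List α} {q : ℕ × V} (h : g.right r = some q) :
    ∃ b c, C.First r b ∧ b + C.p0 ≤ r.length ∧ C.Leg r ∧ g.RR (r.take b) = some c ∧
      q = (b + C.p0, g.mv ((r.drop b).take C.p0) c) := by
  by_cases hex : ∃ b, (C.First r b ∧ b + C.p0 ≤ r.length ∧ C.Leg r) ∧ (g.RR (r.take b)).isSome
  · obtain ⟨b, ⟨h1, h2, h3⟩, h4⟩ := hex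
    obtain ⟨c, hc⟩ := Option.isSome_iff_exists.1 h4
    rw [g.right_eq h1 h2 h3 hc] at h
    exact ⟨b, c, h1, h2, h3, hc, by simpa using h.symm⟩
  · unfold right at h
    rw [dif_neg hex] at h
    simp at h

/-- the anchor scheme. -/
noncomputable def toScheme : Scheme α V where
  step := g.step
  left := g.LL
  right := g.right
  D := g.D
  step_mono := by
    intro P X q h
    obtain ⟨b, h1, h2, rfl⟩ := g.step_some h
    have hn := C.hn
    have h3 : C.First (P ++ X) b := (C.first_append (by omega)).2 h1
    rw [g.step_eq h3 (by rw [List.length_append]; omega)]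
    have e1 : ((P ++ X).drop b).take C.p0 = (P.drop b).take C.p0 := by
      rw [List.drop_append_of_le_length (by omega), List.take_append_of_le_length
        (by rw [List.length_drop]; omega)]
    have e2 : (P ++ X).take b = P.take b := List.take_append_of_le_length (by omega)
    rw [e1, e2]
  step_le := by
    intro P t f h
    obtain ⟨b, h1, h2, h3⟩ := g.step_some h
    simp only [Prod.mk.injEq] at h3
    omega
  step_pos := by
    intro P t f h
    obtain ⟨b, h1, h2, h3⟩ := g.step_some h
    simp only [Prod.mk.injEq] at h3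
    have := C.hn
    have := C.npos
    omega
  step_short := by
    intro P x t f h0 h
    obtain ⟨b, h1, h2, h3⟩ := g.step_some h
    simp only [Prod.mk.injEq] at h3
    have hnp := C.npos
    have hn := C.hn
    have hlen : ¬ (b + C.p0 ≤ P.length) := by
      intro hle
      have : C.First P b := (C.first_append (X := [x]) (by omega)).1 h1
      rw [g.step_eq this hle] at h0
      simp at h0
    have h4 : (P ++ [x]).length = P.length + 1 := by simp
    have : (P ++ [x]).drop t = [] := List.drop_eq_nil_of_le (by omega)
    rw [this]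
    by_contra hne
    obtain ⟨q, hq⟩ := Option.ne_none_iff_exists'.1 hne
    obtain ⟨b', h1', h2', -⟩ := g.step_some hq
    simp at h2'
    omega
  left_none := by
    intro P v h
    obtain ⟨h1, -⟩ := g.hL P v h
    apply g.step_none
    have := C.hz
    have h2 : (P.length : ℤ) ≤ C.N1 := by exact_mod_cast h1
    have h3 : (0 : ℤ) ≤ C.p0 := by positivity
    linarith
  sound := by
    intro P v r b c hl hr hR
    obtain ⟨β, y, h1, h2, h3, h4, h5⟩ := g.right_some hR
    simp only [Prod.mk.injEq] at h5
    obtain ⟨rfl, rfl⟩ := h5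
    obtain ⟨hP1, om, hP⟩ := g.hL P v hl
    have hf := C.first_of_right hP hP1 h3 h1
    refine ⟨by omega, ?_, ?_⟩
    · apply g.step_none
      have h6 := h1.1.ge
      have h7 := g.hD
      rw [List.length_drop]
      have h8 : ((r.length - (β + C.p0) : ℕ) : ℤ) = (r.length : ℤ) - (β + C.p0) := by
        rw [Nat.cast_sub h2]; push_cast; ring
      rw [h8, hr]
      linarith
    · have h6 := g.step_eq hf (by rw [List.length_append]; omega)
      have e1 : (P ++ r).drop (P.length + β) = r.drop β := drop_add P r β
      have e2 : (P ++ r).take (P.length + β) = P ++ r.take β := by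
        rw [List.take_append]
        simp
      rw [e1, e2] at h6
      refine ⟨_, by rw [h6, Nat.add_assoc], ?_⟩
      rw [g.sound P _ v y hl h4]

/-- **completeness of a zone**: `w` is the text from an anchor, the zone `w.take b` is not in the wall
band and the gadget cuts `v` in it; then the thread `v` is cut in `w`. -/
theorem cut_of_good {w : List α} {b : ℕ} (hf : C.First w b) (hE : ¬ C.Ebad w)
    (hlen : b + g.D ≤ w.length) (hD : b + C.p0 ≤ g.D) {v : V} {P Q : List α} (hY : w.take b = P ++ Q)
    (hl : g.LL P = some v) (hr : g.RR Q ≠ none) :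
    ∃ r s, w = P ++ r ++ s ∧ r.length = g.D ∧ g.right r ≠ none ∧
      g.toScheme.left (g.toScheme.run ([], v) P).1 = some (g.toScheme.run ([], v) P).2 := by
  have hn := C.hn
  have hb : (w.take b).length = b := by rw [List.length_take]; omega
  have hPQ : P.length + Q.length = b := by rw [← hb, hY, List.length_append]
  obtain ⟨hP1, om, hP⟩ := g.hL P v hl
  have hw : w = P ++ (Q ++ w.drop b) := by
    rw [← List.append_assoc, ← hY, List.take_append_drop]
  set rest := Q ++ w.drop b with hrest
  have hrl : rest.length = w.length - P.length := by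
    have := congrArg List.length hw
    rw [List.length_append] at this
    omega
  have hrD : (rest.take g.D).length = g.D := by
    rw [List.length_take]; omega
  have hw' : w = P ++ (rest.take g.D ++ rest.drop g.D) := by
    rw [List.take_append_drop]; exact hw
  have h1 := C.right_of_first (P := P) (r := rest.take g.D) (s := rest.drop g.D) (b := b) hP hP1
    (by rw [← hw']; exact hE) (by rw [← hw']; exact hf) (by omega)
  obtain ⟨-, hleg, hfr⟩ := h1
  have hbP : b - P.length = Q.length := by omega
  rw [hbP] at hfr
  obtain ⟨c, hc⟩ := Option.ne_none_iff_exists'.1 hr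
  have htake : (rest.take g.D).take Q.length = Q := by
    rw [List.take_take, hrest]
    have : min Q.length g.D = Q.length := by omega
    rw [this]
    simp
  refine ⟨rest.take g.D, rest.drop g.D, ?_, hrD, ?_, ?_⟩
  · rw [List.append_assoc]; exact hw'
  · rw [g.right_eq hfr (by omega) hleg (by rw [htake]; exact hc)]
    simp
  · have h2 : g.toScheme.run ([], v) P = (P, v) := by
      have := g.toScheme.run_left (P := []) (u := P) (v := v) (by rw [List.nil_append]; exact hl)
      simpa using this
    rw [h2]
    exact hl

end Gad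

end Crest.Agent.R320.Join_565
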