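import Crest.Agent.R320.Gad_654
import Crest.Agent.R320.Top5_120
import Crest.Agent.R320.Sc2n_937
import Crest.Agent.R320.P4_933
import Crest.Agent.R320.ExactR_237
import Crest.Agent.R320.LWallAll_922
import Crest.Agent.R320.Block_467
import Crest.Agent.R320.RegCongr_253

/-!
Row 320, helper654: THE JOIN.  Over `Gad_654.gad` (scheme 1, closed), `ExactR_237.exact_gadget`
(scheme 2), `LWallAll_922.walls_all_left` (walls on all words), `Sc2n_937` (both schemes in block
form), `P4_933` (height 1 of the blocks), `Top5_120.top5` (top).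
-/

set_option autoImplicit false

namespace Crest.Agent.R320.Join_654

open Crest.RegLang Crest.Agent.R320 Crest.Agent.R320.Hk_851

section Down

variable {α S : Type} [Monoid S] (φ : α → S)

theorem down {b t : ℕ} {q q' : List α} (hb : b ≤ q.length) (hb' : b ≤ q'.length)
    (e : q.take b = q'.take b) (h : ((q.drop b).map φ).prod = ((q'.drop b).map φ).prod)
    (ht : t ≤ b) :
    q.take t = q'.take t ∧ ((q.drop t).map φ).prod = ((q'.drop t).map φ).prod := by
  constructor
  · have := congrArg (fun l => l.take t) e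
    simpa [List.take_take, Nat.min_eq_left ht] using this
  · have f1 : ∀ w : List α, b ≤ w.length → w.drop t = (w.take b).drop t ++ w.drop b := by
      intro w hw
      conv_lhs => rw [← List.take_append_drop b w]
      rw [List.drop_append_of_le_length (by rw [List.length_take]; omega)]
    rw [f1 q hb, f1 q' hb', List.map_append, List.map_append, List.prod_append, List.prod_append,
      e, h]

end Down

theorem free_of {α : Type} {Wo : List α → Prop} {B W : ℕ}
    (hfree : ∀ X : List α, (∀ t < X.length, ¬ Wo (X.take t)) →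
        ∃ (u x v : List α) (k : ℕ), u.length ≤ B ∧ x.length ≤ W ∧ v.length ≤ B ∧
          X = u ++ (List.replicate k x).flatten ++ v) (u : List α)
    (hu : ∀ t < u.length, ¬ Wo (u.take t)) : u ∈ (BddReg_746.PN (max B W) 2 : Language α) := by
  obtain ⟨a, x, v, k, h1, h2, h3, rfl⟩ := hfree u hu
  refine Language.mem_mul.2 ⟨a ++ (List.replicate k x).flatten, ⟨a, x, k, ?_, ?_, rfl⟩, v, ?_, rfl⟩
  · exact h1.trans (le_max_left _ _)
  · exact h2.trans (le_max_right _ _)
  · refine Language.mem_mul.2 ⟨v, ⟨v, [], 0, h3.trans (le_max_left _ _), by simp, by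
      simp [BddReg_746.pw]⟩, [], rfl, by simp⟩

theorem join (α : Type) [Finite α] (S : Type) [Monoid S] [Finite S] (φ : α → S) (s : S) :
    HL 3 ({w | (w.map φ).prod = s} : Language α) := by
  classical
  have := Fintype.ofFinite S
  obtain ⟨act, hadd, hone, hmul, hfaith⟩ := Blk467.exists_module S
  obtain ⟨C0, HC⟩ := Gad_654.gad S (S → ZMod 2) act
  obtain ⟨K, HK⟩ := ExactR_237.exact_gadget α S (S → ZMod 2) φ act (2 * C0 + 2)
  obtain ⟨N1, A, M0, Bd, c, hN1, hM0, hc, hsp, hthin, hper, HG⟩ := HC K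
  obtain ⟨lam1, rho1, nu1, hl1, hs1, hc1, hn1⟩ := HG α (fun w => (w.map φ).prod)
    (by intro u v; simp only [List.map_append, List.prod_append])
  obtain ⟨lam2, rho2, nu2, hs2, hc2⟩ := HK c (fun i j h _ => hc i j h)
  obtain ⟨n, Gw, B, Wo, hLW, hgap, -, -, hfree⟩ :=
    LWallAll_922.walls_all_left α (2 * c K + 2 * N1 + 1) (by omega)
  have hcK : ∀ k, k < K → c k ≤ c K := fun k hk => (hc k K hk).le
  let g : Sc2n_937.Geo α :=
    { Wo := Wo
      n := n
      z := c K + N1 + (n + 3 * c K + A)
      p0 := c K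
      q0 := n + 3 * c K + A
      N1 := N1
      loc := hLW.app
      hz := rfl
      hq := by omega
      hN := hN1
      hqp := by omega }
  have gz : g.z = c K + N1 + (n + 3 * c K + A) := rfl
  have gp : g.p0 = c K := rfl
  have gN : g.N1 = N1 := rfl
  have gq : g.q0 = n + 3 * c K + A := rfl
  have gn : g.n = n := rfl
  let pre : List α → (S → ZMod 2) → (S → ZMod 2) := fun P v => act v (P.map φ).prod + nu2 P 1
  let post : (S → ZMod 2) → List α → (S → ZMod 2) := fun u Q => act u (Q.map φ).prod + nu1 Q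
  let nu : List α → (S → ZMod 2) := fun X =>
    act (nu2 (X.take (c K)) 1) ((X.drop (c K)).map φ).prod + nu1 (X.drop (c K))
  have hT : ∀ v X, g.T pre post v X = act v (X.map φ).prod + nu X := by
    intro v X
    show act (act v ((X.take (c K)).map φ).prod + nu2 (X.take (c K)) 1)
      ((X.drop (c K)).map φ).prod + nu1 (X.drop (c K)) = act v (X.map φ).prod +
        (act (nu2 (X.take (c K)) 1) ((X.drop (c K)).map φ).prod + nu1 (X.drop (c K)))
    have e : (X.map φ).prod = ((X.take (c K)).map φ).prod * ((X.drop (c K)).map φ).prod := by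
      rw [← List.prod_append, ← List.map_append, List.take_append_drop]
    rw [hadd, ← hmul, ← e, add_assoc]
  let C : Set (List α) := {X | g.XX X}
  let Bad : Set (List α) := {X | g.XX X ∧ g.BadX Bd X}
  let rhoo : ℕ → List α → Option (S → ZMod 2) := fun k Q => rho2 k Q 1
  let L1 : (S → ZMod 2) → Set (List α) := fun v => {P | g.LP1 pre lam1 v P}
  let L2 : (S → ZMod 2) → Set (List α) := fun v => {P | Sc2n_937.Geo.LP2 K c lam2 v P}
  -- the code
  have hC : Blk467.PCode C := by
    constructor
    · intro h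
      have h1 : g.z ≤ ([] : List α).length := h.1
      rw [gz] at h1
      simp only [List.length_nil] at h1
      omega
    · rintro X hX Y hY ⟨R, rfl⟩
      exact g.prefix_code (R := R) (R' := []) hX hY (by simp)
  have hBC : Bad ⊆ C := fun X h => h.1
  have hf1 : ∀ v, (L1 v).Finite := by
    intro v
    refine (List.finite_length_le α (c K + N1)).subset ?_
    rintro P ⟨h1, h2⟩
    have h3 := hl1 _ _ h2
    rw [List.length_drop, gp] at h3
    show P.length ≤ c K + N1
    omega
  have hf2 : ∀ v, (L2 v).Finite := by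
    intro v
    refine (List.finite_length_le α (c K)).subset ?_
    rintro P ⟨k, hk, h1, h2⟩
    have := hcK k hk
    show P.length ≤ c K
    omega
  -- congruence
  have hcong : ∀ q q' : List α, g.z + N1 ≤ q.length → g.z + N1 ≤ q'.length →
      q.take (g.z + N1) = q'.take (g.z + N1) → q.length % M0 = q'.length % M0 →
      ((q.drop (g.z + N1)).map φ).prod = ((q'.drop (g.z + N1)).map φ).prod →
      nu q = nu q' ∧ (q.map φ).prod = (q'.map φ).prod ∧ (g.BadX Bd q → g.BadX Bd q') := by
    intro q q' h1 h2 h3 h4 h5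
    have hd := fun t (ht : t ≤ g.z + N1) => down φ (t := t) h1 h2 h3 h5 ht
    have hlen : (q.length - c K) % M0 = (q'.length - c K) % M0 :=
      Gad_654.sub_mod_congr h4 (by omega) (by omega)
    have e0 : (q.map φ).prod = (q'.map φ).prod := by
      have := (hd 0 (by omega)).2
      simpa using this
    refine ⟨?_, e0, ?_⟩
    · have e1 := hd (c K) (by omega)
      have e2 : nu1 (q.drop (c K)) = nu1 (q'.drop (c K)) := by
        refine hn1 _ _ ?_ ?_ ?_ ?_ ?_
        · rw [List.length_drop]; omega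
        · rw [List.length_drop]; omega
        · have f2 : ∀ w : List α, (w.drop (c K)).take A = (w.take (c K + A)).drop (c K) := by
            intro w
            rw [List.take_drop]
          rw [f2, f2, (hd (c K + A) (by omega)).1]
        · show (((q.drop (c K)).drop A).map φ).prod = (((q'.drop (c K)).drop A).map φ).prod
          rw [List.drop_drop, List.drop_drop]
          exact (hd (c K + A) (by omega)).2
        · rw [List.length_drop, List.length_drop]
          exact hlen
      show act (nu2 (q.take (c K)) 1) ((q.drop (c K)).map φ).prod + nu1 (q.drop (c K)) =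
        act (nu2 (q'.take (c K)) 1) ((q'.drop (c K)).map φ).prod + nu1 (q'.drop (c K))
      rw [e1.1, e1.2, e2]
    · rintro (⟨t, ht1, ht2, ht3, ht4⟩ | hb)
      · left
        rw [gN] at ht4
        refine ⟨t, by omega, ?_, ht3, by rw [gN]; exact ht4⟩
        rw [← (hd t (by omega)).1]
        exact ht2
      · right
        exact hper _ _ (by omega) (by omega) hlen hb
  have hXXiff : ∀ X, g.XX X ↔ P4_933.XX Wo g.z X :=
    fun X => ⟨fun h => ⟨h.2.1, h.1, fun t h1 h2 => h.2.2 t h2 h1⟩,
      fun h => ⟨h.2.1, h.1, fun t h1 h2 => h.2.2 t h2 h1⟩⟩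
  have hCT : ∀ x y, HL 1 ({X | X ∈ C ∧ act x (X.map φ).prod + nu X = y} : Language α) := by
    intro x y
    have hreg : Language.IsRegular
        ({X | act x (X.map φ).prod + nu X = y} : Language α) := by
      refine RegCongr_253.regular_of_congr φ (g.z + N1) M0 hM0 _ ?_
      intro q q' h1 h2 h3 h4 h5 hq
      obtain ⟨e1, e2, -⟩ := hcong q q' h1 h2 h3 h4 h5
      show act x (q'.map φ).prod + nu q' = y
      rw [← e1, ← e2]
      exact hq
    refine (P4_933.hl_XX (z := g.z) hLW.app hLW.len (free_of hfree) hreg).congr fun w => ?_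
    exact ⟨fun h => ⟨(hXXiff w).1 h.1, h.2⟩, fun h => ⟨(hXXiff w).2 h.1, h.2⟩⟩
  have hBT : ∀ x y, HL 1 ({X | X ∈ Bad ∧ act x (X.map φ).prod + nu X = y} : Language α) := by
    intro x y
    have hreg : Language.IsRegular
        ({X | g.BadX Bd X ∧ act x (X.map φ).prod + nu X = y} : Language α) := by
      refine RegCongr_253.regular_of_congr φ (g.z + N1) M0 hM0 _ ?_
      intro q q' h1 h2 h3 h4 h5 hq
      obtain ⟨e1, e2, e3⟩ := hcong q q' h1 h2 h3 h4 h5
      refine ⟨e3 hq.1, ?_⟩
      show act x (q'.map φ).prod + nu q' = y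
      rw [← e1, ← e2]
      exact hq.2
    refine (P4_933.hl_XX (z := g.z) hLW.app hLW.len (free_of hfree) hreg).congr fun w => ?_
    exact ⟨fun h => ⟨(hXXiff w).1 h.1.1, h.1.2, h.2⟩,
      fun h => ⟨⟨(hXXiff w).2 h.1, h.2.1⟩, h.2.2⟩⟩
  have htail : ∀ s, HL 1 ({w | (∀ X ∈ C, ¬ X <+: w) ∧ (w.map φ).prod = s} : Language α) := by
    intro s
    have hreg : Language.IsRegular ({X | (X.map φ).prod = s} : Language α) := by
      refine RegCongr_253.regular_of_congr φ 0 1 one_pos _ ?_
      intro q q' _ _ _ _ h5 hq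
      simp only [List.drop_zero] at h5
      show (q'.map φ).prod = s
      rw [← h5]
      exact hq
    refine (P4_933.hl_NB (z := g.z) hLW.app hLW.len (free_of hfree) hreg).congr fun w => ?_
    constructor
    · rintro ⟨h1, h2⟩
      exact ⟨(P4_933.NB_iff Wo g.z w).2 fun X hp hX => h1 X ((hXXiff X).2 hX) hp, h2⟩
    · rintro ⟨h1, h2⟩
      exact ⟨fun X hX hp => (P4_933.NB_iff Wo g.z w).1 h1 X hp ((hXXiff X).1 hX), h2⟩
  -- scheme 1
  have hcc1 : ∀ X ∈ C, X ∉ Bad → ∀ v, ∃ P Q, P ++ Q = X ∧ P ∈ L1 v ∧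
      ∀ x, ∀ P' ∈ L1 x, P' ++ Q ∈ C ∧
        act x ((P' ++ Q).map φ).prod + nu (P' ++ Q) = act v (X.map φ).prod + nu X := by
    intro X hX hXb v
    have hX' : g.XX X := hX
    have hnb : ¬ g.BadX Bd X := fun h => hXb ⟨hX, h⟩
    have hXz := hX'.1
    rw [gz] at hXz
    obtain ⟨P, Q, b, hPQ, hP, hQ⟩ := g.complete1 pre hl1 hX' (fun h => hnb (Or.inl h))
      (fun u => by
        refine hc1 _ ?_ ?_ u
        · rw [List.length_drop, gp]; omega
        · rw [List.length_drop]
          exact fun h => hnb (Or.inr h)) v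
    have hs := fun (x : S → ZMod 2) (P' : List α) (hP' : g.LP1 pre lam1 x P') =>
      g.sound1 pre post (rho := rho1) hl1
        (fun P Q u b h1 h2 => hs1 P Q u b h1 h2) hP' hQ
    refine ⟨P, Q, hPQ.symm, hP, fun x P' hP' => ?_⟩
    have h1 := hs x P' hP'
    have h2 := hs v P hP
    refine ⟨h1.1, ?_⟩
    rw [← hT, h1.2, ← h2.2, hT, ← hPQ]
  -- scheme 2
  have hex2 : ∀ k, k < K → ∀ P Q v u, P.length = c k → Q.length = g.p0 - c k →
      lam2 k P = some v → rhoo k Q = some u → u = pre (P ++ Q) v := by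
    intro k hk P Q v u h1 _ h3 h4
    have := hs2 k hk P Q 1 v u h1 h3 h4
    rw [mul_one] at this
    exact this
  have hcc2 : ∀ X ∈ Bad, ∀ Y ∈ Bad, ∀ v, ∃ P Q, P ++ Q = X ++ Y ∧ P ∈ L2 v ∧
      ∀ x, ∀ P' ∈ L2 x,
        (∃ X' ∈ Bad, ∃ Y' ∈ C, X' ++ Y' = P' ++ Q ∧
          act (act x (X'.map φ).prod + nu X') (Y'.map φ).prod + nu Y' =
            act (act v (X.map φ).prod + nu X) (Y.map φ).prod + nu Y) ∨
        (∃ X' ∈ C, X' ∉ Bad ∧ X' <+: P' ++ Q) := by
    intro X hX Y hY v
    have hXz := hX.1.1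
    rw [gz] at hXz
    obtain ⟨P, Q, b, hPQ, hP, hQ⟩ := g.complete2 pre post (BadT := Bd) (K := K) (c := c)
      (lam2 := lam2) (rho2 := rhoo) (C0 := C0) hcK
      (by
        intro P Q h1 h2 h3
        have h4 := hgap (P ++ Q) P.length (P ++ Q).length
          (by
            rw [List.length_append]
            have := List.length_pos_of_ne_nil h3
            omega) le_rfl
          (by rw [List.take_left]; exact h1) (by rw [List.take_length]; exact h2)
        rw [List.length_append] at h4
        rw [gp, gN]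
        omega)
      (fun k k' l l' _ _ _ _ h1 h2 h3 h4 => hsp k k' l l' h1 h2 h3 h4)
      (by
        intro τ hτ J hJ
        rw [gz, gp] at hτ
        refine hthin ((τ : ℤ) - c K) J ?_
        intro k hk
        obtain ⟨h1, k', h2, h3, h4⟩ := hJ k hk
        have := hcK k h1
        have := hcK k' h2
        rw [gp] at h4
        refine ⟨h1, k', h2, h3, τ + c k' - c k - c K, by omega, by omega, h4⟩)
      hX.1 hY.1 v
      (by
        obtain ⟨I, hI1, hI2⟩ := hc2 (X.take (c K)) 1 v (by
          intro k hk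
          have := hcK k hk
          rw [List.length_take]
          omega)
        refine ⟨I, hI1, fun k hk => ?_⟩
        obtain ⟨h1, h2, h3⟩ := hI2 k hk
        have := hcK k h1
        refine ⟨h1, ?_, h3⟩
        rw [List.take_take, Nat.min_eq_left this] at h2
        exact h2)
    have hsd := fun (x : S → ZMod 2) (P' X' R R' : List α) (hX' : g.XX X')
        (hb' : g.BadX Bd X') (hP' : Sc2n_937.Geo.LP2 K c lam2 x P')
        (hcmp : P' ++ Q ++ R = X' ++ R') =>
      g.sound2 pre post (BadT := Bd) (rho2 := rhoo) hcK hex2 hX' hb' hP' hQ hcmp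
    obtain ⟨Y0, hY0, e0, t0⟩ := hsd v P X [] Y hX.1 hX.2 hP (by rw [List.append_nil]; exact hPQ)
    have eY : Y0 = Y := List.append_cancel_left (e0.symm.trans hPQ)
    subst eY
    refine ⟨P, Q, hPQ, hP, fun x P' hP' => ?_⟩
    -- the first block of `P' ++ Q`
    have hblock : ∃ X', g.XX X' ∧ X' <+: P' ++ Q := by
      obtain ⟨k, hk, l, hend, hgood, -⟩ := hQ
      obtain ⟨k0, hk0, hP'l, -⟩ := hP'
      have hck0 := hcK k0 hk0
      by_cases hkk : k0 = k
      · subst hkk
        refine ⟨P' ++ Q.take l, g.xx_of_cend (by rw [hP'l, gp]; exact hck0)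
          (by rw [hP'l]; exact hend), ?_⟩
        exact (List.prefix_append_right_inj P').2 (List.take_prefix l Q)
      · obtain ⟨l', hend', -⟩ := hgood k0 hk0 hkk
        refine ⟨P' ++ Q.take l', g.xx_of_cend (by rw [hP'l, gp]; exact hck0)
          (by rw [hP'l]; exact hend'), ?_⟩
        exact (List.prefix_append_right_inj P').2 (List.take_prefix l' Q)
    obtain ⟨X', hX', R', hR'⟩ := hblock
    by_cases hb' : g.BadX Bd X'
    · left
      obtain ⟨Y', hY', e', t'⟩ := hsd x P' X' [] R' hX' hb' hP' (by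
        rw [List.append_nil]; exact hR'.symm)
      refine ⟨X', ⟨hX', hb'⟩, Y', hY', e'.symm, ?_⟩
      rw [← hT, ← hT, ← hT, ← hT, t', t0]
    · right
      exact ⟨X', hX', fun h => hb' h.2, ⟨R', hR'⟩⟩
  exact Top5_120.top5 act hadd hone hmul hfaith φ nu C Bad hC hBC L1 L2 hf1 hf2 hCT hBT htail
    hcc1 hcc2 s


end Crest.Agent.R320.Join_654
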