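import Crest.Agent.R320.Nat1_766
import Crest.Agent.R320.Sc2n_937
import Crest.Agent.R320.Top5_120

/-!
# Row 320: the join (helper766)

`Top5_120.top5` + `Sc2n_937` + walls of `FewVal_228` : everything except the two gadgets and the ruler.
-/

set_option autoImplicit false

namespace Crest.Agent.R320.Join_766

open Crest.RegLang Crest.Agent.R320.Hk_851 Crest.Agent.R320.FewWalls_228
  Crest.Agent.R320.FewVal_228 Crest.Agent.R320.Nat1_766 Crest.Agent.R320.Sc2n_937

variable {α S V : Type} [Finite α] [Monoid S] [Finite S] [AddCommGroup V] [Finite V]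

theorem reg_len (z Pi : ℕ) (hPi : 0 < Pi) (B : ℕ → Prop)
    (hB : ∀ L, z ≤ L → (B (L + Pi) ↔ B L)) :
    Language.IsRegular ({X | z ≤ X.length ∧ B X.length} : Language α) := by
  have hB2 : ∀ k L, z ≤ L → (B (L + Pi * k) ↔ B L) := by
    intro k
    induction k with
    | zero => intro L _; simp
    | succ k ih =>
      intro L hL
      rw [show L + Pi * (k + 1) = (L + Pi * k) + Pi by ring, hB _ (by omega), ih L hL]
  have hB3 : ∀ L L', z ≤ L → z ≤ L' → L % Pi = L' % Pi → (B L ↔ B L') := by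
    have key : ∀ L L', z ≤ L → L ≤ L' → L % Pi = L' % Pi → (B L ↔ B L') := by
      intro L L' h1 h2 h3
      obtain ⟨k, hk⟩ := (Nat.modEq_iff_dvd' h2).1 h3
      have : L' = L + Pi * k := by omega
      rw [this, hB2 k L h1]
    intro L L' h1 h2 h3
    rcases Nat.le_total L L' with h | h
    · exact key L L' h1 h h3
    · exact (key L' L h2 h h3.symm).symm
  let f : List α → Fin (z + 1) × Fin Pi := fun w =>
    (⟨min w.length z, by omega⟩, ⟨w.length % Pi, Nat.mod_lt _ hPi⟩)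
  let step : Fin (z + 1) × Fin Pi → α → Fin (z + 1) × Fin Pi := fun q _ =>
    (⟨min (q.1.1 + 1) z, by omega⟩, ⟨(q.2.1 + 1) % Pi, Nat.mod_lt _ hPi⟩)
  have h := reg_of_snoc f step (by
    intro w a
    refine Prod.ext ?_ ?_
    · apply Fin.ext
      show min (w ++ [a]).length z = min (min w.length z + 1) z
      rw [List.length_append, List.length_singleton]; omega
    · apply Fin.ext
      show (w ++ [a]).length % Pi = (w.length % Pi + 1) % Pi
      rw [List.length_append, List.length_singleton, Nat.mod_add_mod])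
    (fun q => z ≤ q.1.1 ∧ ∃ L, z ≤ L ∧ L % Pi = q.2.1 ∧ B L)
  refine (congrArg Language.IsRegular ?_).mp h
  ext w
  show (z ≤ min w.length z ∧ ∃ L, z ≤ L ∧ L % Pi = w.length % Pi ∧ B L) ↔
    (z ≤ w.length ∧ B w.length)
  constructor
  · rintro ⟨h1, L, h2, h3, h4⟩
    exact ⟨by omega, (hB3 L w.length h2 (by omega) h3).1 h4⟩
  · rintro ⟨h1, h2⟩
    exact ⟨by omega, w.length, h1, rfl, h2⟩

theorem reg_E (g : Geo α) : Language.IsRegular ({X | g.E X} : Language α) := by
  have h := reg_take_class (α := α) (C := Unit) (fun _ => ())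
    (fun c => by
      have := reg_of_snoc (α := α) (Q := Unit) (fun _ => ()) (fun _ _ => ()) (fun _ _ => rfl)
        (fun _ => True)
      refine (congrArg Language.IsRegular ?_).mp this
      ext w
      exact ⟨fun _ => rfl, fun _ => trivial⟩) (g.z + g.N1)
    (fun P _ => ∃ t, t ≤ P.length ∧ g.Wo (P.take t) ∧ g.z ≤ t + g.N1 ∧ t < g.z + g.N1)
  refine (congrArg Language.IsRegular ?_).mp h
  ext w
  show (∃ t, t ≤ (w.take (g.z + g.N1)).length ∧ g.Wo ((w.take (g.z + g.N1)).take t) ∧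
    g.z ≤ t + g.N1 ∧ t < g.z + g.N1) ↔ ∃ t, t ≤ w.length ∧ g.Wo (w.take t) ∧
    g.z ≤ t + g.N1 ∧ t < g.z + g.N1
  constructor
  · rintro ⟨t, h1, h2, h3, h4⟩
    rw [List.take_take, Nat.min_eq_left h4.le] at h2
    rw [List.length_take] at h1
    exact ⟨t, by omega, h2, h3, h4⟩
  · rintro ⟨t, h1, h2, h3, h4⟩
    refine ⟨t, ?_, ?_, h3, h4⟩
    · rw [List.length_take]; omega
    · rw [List.take_take, Nat.min_eq_left h4.le]; exact h2

theorem join (act : V → S → V)
    (hadd : ∀ a b s, act (a + b) s = act a s + act b s)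
    (hone : ∀ v, act v 1 = v) (hmul : ∀ v s t, act v (s * t) = act (act v s) t)
    (hfaith : ∀ s t, (∀ v, act v s = act v t) → s = t) (f : α → S)
    -- gadget 1
    (N1 L1 : ℕ) (hN : 0 < N1) (BadT : ℕ → Prop) (lam rho : List α → Option V)
    (nu1 : List α → V)
    (g1 : ∀ P v, lam P = some v → P.length ≤ N1)
    (g2 : ∀ P Q v b, lam P = some v → rho Q = some b →
      b = act v ((P ++ Q).map f).prod + nu1 (P ++ Q))
    (g3 : ∀ u : List α, L1 ≤ u.length → ¬ BadT u.length → ∀ v, ∃ P Q, u = P ++ Q ∧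
      lam P = some v ∧ (rho Q).isSome)
    (g4 : ∀ x, Language.IsRegular ({Y | nu1 Y = x} : Language α))
    (Pi Tb : ℕ) (hPi : 0 < Pi) (hper : ∀ T, Tb ≤ T → (BadT (T + Pi) ↔ BadT T))
    -- gadget 2
    (K C0 : ℕ) (c : ℕ → ℕ) (lam2 rho2 : ℕ → List α → Option V) (nu2 : List α → V)
    (e1 : ∀ k, k < K → ∀ P Q v u, P.length = c k → lam2 k P = some v → rho2 k Q = some u →
      u = act v ((P ++ Q).map f).prod + nu2 (P ++ Q))
    (e2 : ∀ (u : List α) (v : V), (∀ k, k < K → c k ≤ u.length) →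
      ∃ I : Finset ℕ, 2 * C0 + 2 ≤ I.card ∧ ∀ k ∈ I, k < K ∧ lam2 k (u.take (c k)) = some v ∧
        (rho2 k (u.drop (c k))).isSome)
    -- ruler
    (hsp : ∀ k k' l l', k < K → k' < K → l < K → l' < K → k' ≠ k → l' ≠ l →
      c k + c l' < c l + c k' + 2 * N1 → c l + c k' < c k + c l' + 2 * N1 → k = l)
    (T1 : ℕ) (hthin : ∀ T, T1 ≤ T → ∀ J : Finset ℕ, (∀ k ∈ J, k < K ∧
      ∃ k', k' < K ∧ k' ≠ k ∧ BadT (T + c k' - c k)) → J.card ≤ C0)
    (s : S) : HL 3 ({w | (w.map f).prod = s} : Language α) := by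
  classical
  -- constants
  obtain ⟨p0, hp0⟩ : ∃ p0, ∀ k, k < K → c k ≤ p0 :=
    ⟨∑ k ∈ Finset.range K, c k, fun k hk =>
      Finset.single_le_sum (f := c) (fun _ _ => Nat.zero_le _) (Finset.mem_range.2 hk)⟩
  obtain ⟨n, cc, PP, S0, hn, hPP, hS, hsep, hperw, _⟩ :=
    exists_walls α (2 * p0 + 2 * N1 + 1) (by omega)
  let q0 : ℕ := n + 2 * p0 + N1 + L1 + T1 + Tb + 1
  let g : Geo α :=
    { Wo := Wo n S0
      n := n
      z := p0 + N1 + q0
      p0 := p0
      q0 := q0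
      N1 := N1
      loc := fun P Q h => Wo_append P Q h
      hz := rfl
      hq := by show n ≤ n + 2 * p0 + N1 + L1 + T1 + Tb + 1; omega
      hN := hN
      hqp := by show p0 ≤ n + 2 * p0 + N1 + L1 + T1 + Tb + 1 + N1; omega }
  have hgz : g.z = p0 + N1 + q0 := rfl
  have hgp : g.p0 = p0 := rfl
  have hgN : g.N1 = N1 := rfl
  have hq0 : q0 = n + 2 * p0 + N1 + L1 + T1 + Tb + 1 := rfl
  let φ : List α → S := fun w => (w.map f).prod
  have hφ : ∀ u v, φ (u ++ v) = φ u * φ v := fun u v => by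
    show ((u ++ v).map f).prod = (u.map f).prod * (v.map f).prod
    rw [List.map_append, List.prod_append]
  let pre : List α → V → V := fun X0 v => act v (φ X0) + nu2 X0
  let post : V → List α → V := fun u Y => act u (φ Y) + nu1 Y
  have hTT : ∀ v X, g.T pre post v X = act v (φ X) + nuT φ act p0 nu1 nu2 X := by
    intro v X
    exact Nat1_766.hT φ hφ act (fun v s s' => (hmul v s s').symm) hadd p0 nu1 nu2 v X
  let C : Set (List α) := {X | g.XX X}
  let Bad : Set (List α) := {X | g.XX X ∧ g.BadX BadT X}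
  have hCX : ∀ X, X ∈ C ↔ X ∈ XX n S0 (p0 + N1 + q0) := fun X => Iff.rfl
  have hnwX : ∀ X ∈ C, nw n S0 X ≤ (p0 + N1 + q0) + 1 := by
    intro X hX
    refine nw_le_of fun t ht hw => ?_
    by_contra hcon
    exact hX.2.2 t (by rw [hgz]; omega) ht hw
  -- soundness and completeness of scheme 1
  have hS1 : ∀ {v b : V} {P Q : List α}, g.LP1 pre lam v P → g.RQ1 rho b Q →
      g.XX (P ++ Q) ∧ g.T pre post v (P ++ Q) = b := by
    intro v b P Q hP hQ
    exact g.sound1 pre post g1 (fun P Q u b h1 h2 => g2 P Q u b h1 h2) hP hQ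
  have hcc1 : ∀ X ∈ C, X ∉ Bad → ∀ v, ∃ P Q, P ++ Q = X ∧ g.LP1 pre lam v P ∧
      ∀ x, ∀ P', g.LP1 pre lam x P' → g.XX (P' ++ Q) ∧
        g.T pre post x (P' ++ Q) = g.T pre post v X := by
    intro X hX hXb v
    have hnb : ¬ g.BadX BadT X := fun h => hXb ⟨hX, h⟩
    have hE : ¬ g.E X := fun h => hnb (Or.inl h)
    have hBT : ¬ BadT (X.length - p0) := fun h => hnb (Or.inr h)
    have hXz : p0 + N1 + q0 ≤ X.length := hX.1
    obtain ⟨P, Q, b, h1, h2, h3⟩ := g.complete1 pre (lam := lam) (rho := rho) g1 hX hE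
      (fun u => by
        obtain ⟨P, Q, h1, h2, h3⟩ := g3 (X.drop g.p0)
          (by rw [List.length_drop, hgp]; omega) (by rw [List.length_drop]; exact hBT) u
        exact ⟨P, Q, h1, h2, h3⟩) v
    refine ⟨P, Q, h1.symm, h2, fun x P' hP' => ?_⟩
    obtain ⟨h4, h5⟩ := hS1 hP' h3
    obtain ⟨h6, h7⟩ := hS1 h2 h3
    rw [h1, h7]
    exact ⟨h4, h5⟩
  -- scheme 2
  have hex2 : ∀ k, k < K → ∀ P Q v u, P.length = c k → Q.length = g.p0 - c k →
      lam2 k P = some v → rho2 k Q = some u → u = pre (P ++ Q) v :=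
    fun k hk P Q v u h1 _ h2 h3 => e1 k hk P Q v u h1 h2 h3
  have hgap : ∀ P Q : List α, g.Wo P → g.Wo (P ++ Q) → Q ≠ [] →
      2 * g.p0 + 2 * g.N1 < Q.length := by
    intro P Q h1 h2 h3
    have hQ : 0 < Q.length := List.length_pos_of_ne_nil h3
    have e1 : Wo n S0 ((P ++ Q).take P.length) := by rw [List.take_left]; exact h1
    have e2 : Wo n S0 ((P ++ Q).take (P ++ Q).length) := by rw [List.take_length]; exact h2
    obtain ⟨a1, a2⟩ := (Wo_take (by rw [List.length_append]; omega)).1 e1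
    obtain ⟨b1, b2⟩ := (Wo_take le_rfl).1 e2
    rw [List.length_append] at b1 b2
    have := hsep (P ++ Q) (P.length - n) (P.length + Q.length - n) (by omega) a2 b2
    rw [hgp, hgN]
    omega
  have hcc2 : ∀ X ∈ Bad, ∀ Y ∈ Bad, ∀ v, ∃ P Q, P ++ Q = X ++ Y ∧ Geo.LP2 K c lam2 v P ∧
      ∀ x, ∀ P', Geo.LP2 K c lam2 x P' →
        (∃ X' ∈ Bad, ∃ Y' ∈ C, X' ++ Y' = P' ++ Q ∧
          g.T pre post (g.T pre post x X') Y' = g.T pre post (g.T pre post v X) Y) ∨
        (∃ X' ∈ C, X' ∉ Bad ∧ X' <+: P' ++ Q) := by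
    intro X hX Y hY v
    have hXz : p0 + N1 + q0 ≤ X.length := hX.1.1
    obtain ⟨P, Q, b, h1, h2, h3⟩ := g.complete2 pre post (BadT := BadT) (K := K) (c := c)
      (lam2 := lam2) (rho2 := rho2) (C0 := C0) hp0 hgap
      (by rw [hgN]; exact hsp)
      (by
        intro τ hτ J hJ
        rw [hgz, hgp] at hτ
        refine hthin (τ - p0) (by omega) J fun k hk => ?_
        obtain ⟨hk1, k', hk2, hk3, hk4⟩ := hJ k hk
        have a1 := hp0 k hk1
        refine ⟨hk1, k', hk2, hk3, ?_⟩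
        rw [hgp] at hk4
        rwa [show τ - p0 + c k' - c k = τ + c k' - c k - p0 by omega])
      hX.1 hY.1 v
      (by
        have hl : (X.take p0).length = p0 := by rw [List.length_take]; omega
        obtain ⟨I, hI1, hI2⟩ := e2 (X.take p0) v (fun k hk => by rw [hl]; exact hp0 k hk)
        refine ⟨I, hI1, fun k hk => ?_⟩
        obtain ⟨a1, a2, a3⟩ := hI2 k hk
        rw [List.take_take, Nat.min_eq_left (hp0 k a1)] at a2
        exact ⟨a1, a2, a3⟩)
    refine ⟨P, Q, h1, h2, fun x P' hP' => ?_⟩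
    -- the value b
    have hb : g.T pre post (g.T pre post v X) Y = b := by
      obtain ⟨X2, hX2, hPQ, hval⟩ := g.sound2 pre post hp0 hex2 (R := []) (R' := Y) hX.1 hX.2 h2 h3
        (by rw [List.append_nil]; exact h1)
      rw [h1] at hPQ
      rw [List.append_cancel_left hPQ]
      exact hval
    obtain ⟨k0, hk0, hPl, hl⟩ := hP'
    have hPl0 : P'.length ≤ g.p0 := by rw [hPl]; exact hp0 k0 hk0
    obtain ⟨k, hk, l, hend, hgood, hX2, u, hr, hbv⟩ := id h3
    -- a block prefix of P' ++ Q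
    have hblk : (∃ l', g.CEnd Q P'.length l' ∧ ¬ g.CBad BadT Q P'.length l') ∨
        (∃ l', g.CEnd Q P'.length l') := by
      by_cases hkk : k0 = k
      · right; exact ⟨l, by rw [hPl, hkk]; exact hend⟩
      · left
        obtain ⟨l', q1, q2⟩ := hgood k0 hk0 hkk
        exact ⟨l', by rw [hPl]; exact q1, by rw [hPl]; exact q2⟩
    have hpre : ∀ l', P' ++ Q.take l' <+: P' ++ Q := fun l' =>
      (List.prefix_append_right_inj P').2 (List.take_prefix _ _)
    rcases hblk with ⟨l', q1, q2⟩ | ⟨l', q1⟩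
    · right
      refine ⟨P' ++ Q.take l', g.xx_of_cend hPl0 q1, ?_, hpre l'⟩
      rintro ⟨_, hb'⟩
      exact q2 (g.cbad_of_bad hPl0 q1 hb')
    · by_cases hbx : g.BadX BadT (P' ++ Q.take l')
      · left
        have hXX' : g.XX (P' ++ Q.take l') := g.xx_of_cend hPl0 q1
        obtain ⟨X2, hX2', hPQ, hval⟩ := g.sound2 pre post hp0 hex2 (P := P') (Q := Q) (v := x)
          (R := []) (R' := Q.drop l') hXX' hbx ⟨k0, hk0, hPl, hl⟩ h3
          (by rw [List.append_nil, List.append_assoc, List.take_append_drop])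
        exact ⟨_, ⟨hXX', hbx⟩, X2, hX2', hPQ.symm, by rw [hval, hb]⟩
      · right
        exact ⟨P' ++ Q.take l', g.xx_of_cend hPl0 q1, fun h => hbx h.2, hpre l'⟩
  -- heights
  have hCT : ∀ x y, HL 1 ({X | X ∈ C ∧ act x (X.map f).prod + nuT φ act p0 nu1 nu2 X = y} :
      Language α) := by
    intro x y
    refine (Nat1_766.hXT (S0 := S0) hn hPP hperw (p0 + N1 + q0) φ hφ act p0 nu1 nu2 g4 x y).congr
      fun w => ?_
    show (w ∈ C ∧ act x (φ w) + nuT φ act p0 nu1 nu2 w = y) ↔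
      (w ∈ XX n S0 (p0 + N1 + q0) ∧ T φ act p0 nu1 nu2 x w = y)
    rw [Nat1_766.hT φ hφ act (fun v s s' => (hmul v s s').symm) hadd p0 nu1 nu2 x w]
    exact Iff.rfl
  have hregB : Language.IsRegular ({X | g.z ≤ X.length ∧ BadT (X.length - p0)} : Language α) :=
    reg_len (p0 + N1 + q0) Pi hPi (fun L => BadT (L - p0)) (fun L hL => by
      show BadT (L + Pi - p0) ↔ BadT (L - p0)
      rw [show L + Pi - p0 = L - p0 + Pi by omega]
      exact hper _ (by omega))
  have hBT : ∀ x y, HL 1 ({X | X ∈ Bad ∧ act x (X.map f).prod + nuT φ act p0 nu1 nu2 X = y} :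
      Language α) := by
    intro x y
    have hA : Language.IsRegular ((({X | g.E X} : Language α)ᶜ ⊓
        ({X | g.z ≤ X.length ∧ BadT (X.length - p0)} : Language α)ᶜ)ᶜ ⊓
        (({X | X ∈ XX n S0 (p0 + N1 + q0)} : Language α) ⊓
        ({X | T φ act p0 nu1 nu2 x X = y} : Language α))) :=
      (((reg_E g).compl.inf hregB.compl).compl).inf
        ((reg_XX n S0 _).inf (reg_T φ hφ act p0 nu1 nu2 g4 x y))
    refine (HL_few hn hPP hperw ((p0 + N1 + q0) + 1) hA).congr fun w => ?_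
    have e1 : (act x (w.map f).prod + nuT φ act p0 nu1 nu2 w = y) ↔
        T φ act p0 nu1 nu2 x w = y := by
      rw [Nat1_766.hT φ hφ act (fun v s s' => (hmul v s s').symm) hadd p0 nu1 nu2 x w]
    constructor
    · rintro ⟨⟨h1, h2⟩, h3⟩
      refine ⟨⟨?_, h1, e1.1 h3⟩, hnwX w h1⟩
      rintro ⟨h4, h5⟩
      rcases h2 with h2 | h2
      · exact h4 h2
      · exact h5 ⟨h1.1, h2⟩
    · rintro ⟨⟨h0, h1, h2⟩, _⟩
      refine ⟨⟨h1, ?_⟩, e1.2 h2⟩
      by_contra hcon
      exact h0 ⟨fun h => hcon (Or.inl h), fun h => hcon (Or.inr h.2)⟩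
  have htail : ∀ s, HL 1 ({w | (∀ X ∈ C, ¬ X <+: w) ∧ (w.map f).prod = s} : Language α) :=
    fun s => Nat1_766.hNP hn hPP hperw (p0 + N1 + q0) φ hφ s
  have hf1 : ∀ v, ({P | g.LP1 pre lam v P} : Set (List α)).Finite := by
    intro v
    refine (List.finite_length_le α (p0 + N1)).subset ?_
    rintro P ⟨_, h2⟩
    have := g1 _ _ h2
    rw [List.length_drop, hgp] at this
    show P.length ≤ p0 + N1
    omega
  have hf2 : ∀ v, ({P | Geo.LP2 K c lam2 v P} : Set (List α)).Finite := by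
    intro v
    refine (List.finite_length_le α p0).subset ?_
    rintro P ⟨k, hk, h2, _⟩
    show P.length ≤ p0
    rw [h2]
    exact hp0 k hk
  refine Crest.Agent.R320.Top5_120.top5 act hadd hone hmul hfaith f (nuT φ act p0 nu1 nu2) C Bad
    ?_ (fun X hX => hX.1) (fun v => {P | g.LP1 pre lam v P}) (fun v => {P | Geo.LP2 K c lam2 v P})
    hf1 hf2 hCT hBT htail ?_ ?_ s
  · refine ⟨hnil (by omega), fun X hX Y hY hp => ?_⟩
    obtain ⟨t, rfl⟩ := hp
    have := hPC X hX t hY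
    rw [this, List.append_nil]
  · intro X hX hXb v
    obtain ⟨P, Q, h1, h2, h3⟩ := hcc1 X hX hXb v
    refine ⟨P, Q, h1, h2, fun x P' hP' => ?_⟩
    obtain ⟨h4, h5⟩ := h3 x P' hP'
    rw [hTT, hTT] at h5
    exact ⟨h4, h5⟩
  · intro X hX Y hY v
    obtain ⟨P, Q, h1, h2, h3⟩ := hcc2 X hX Y hY v
    refine ⟨P, Q, h1, h2, fun x P' hP' => ?_⟩
    rcases h3 x P' hP' with ⟨X', hX', Y', hY', h4, h5⟩ | h
    · left
      rw [hTT, hTT, hTT, hTT] at h5
      exact ⟨X', hX', Y', hY', h4, h5⟩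
    · exact Or.inr h

end Crest.Agent.R320.Join_766
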