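import Crest.Agent.R320.Top5_120
import Crest.Agent.R320.Sc2n_937
import Crest.Agent.R320.P4_933
import Crest.Agent.R320.RegDep_10

/-!
# Row 320: the join of Top5_120, Sc2n_937, P4_933, RegDep_10 (helper86)
-/

set_option autoImplicit false

namespace Crest.Agent.R320.Join_86

open Crest.RegLang Crest.Agent.R320.Hk_851 Crest.Agent.R320.Blk467
open Crest.Agent.R320.Sc2n_937 (Geo)

section

variable {α S V : Type} [Finite α] [Monoid S] [Finite S] [AddCommGroup V] [Finite V]

/-- token before the zone -/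
def pre (act : V → S → V) (φ : α → S) (ν2 : List α → V) (X : List α) (v : V) : V :=
  act v (X.map φ).prod + ν2 X

/-- token after the zone -/
def post (act : V → S → V) (φ : α → S) (ν1 : List α → V) (v : V) (Y : List α) : V :=
  act v (Y.map φ).prod + ν1 Y

/-- all the data -/
structure Dat (act : V → S → V) (φ : α → S) (g : Geo α) (B R D M0 K C0 : ℕ)
    (lam rho : List α → Option V) (ν1 : List α → V) (BadT : ℕ → Prop) (c : ℕ → ℕ)
    (lam2 rho2 : ℕ → List α → Option V) (ν2 : List α → V) : Prop where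
  hadd : ∀ a b s, act (a + b) s = act a s + act b s
  hone : ∀ v, act v 1 = v
  hmul : ∀ v s t, act v (s * t) = act (act v s) t
  hfaith : ∀ s t, (∀ v, act v s = act v t) → s = t
  hlenW : ∀ P, g.Wo P → g.n ≤ P.length
  free : ∀ u : List α, (∀ t < u.length, ¬ g.Wo (u.take t)) →
    u ∈ (Crest.Agent.R320.BddReg_746.PN B R : Language α)
  hlen : ∀ P v, lam P = some v → P.length ≤ g.N1
  hex1 : ∀ P Q u b, lam P = some u → rho Q = some b → b = post act φ ν1 u (P ++ Q)
  hcomp1 : ∀ Y : List α, ¬ BadT Y.length → ∀ u, ∃ P Q, Y = P ++ Q ∧ lam P = some u ∧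
    (rho Q).isSome
  hM0 : 0 < M0
  hν1 : ∀ Y Y' : List α, D ≤ Y.length → D ≤ Y'.length → Y.take D = Y'.take D →
    ((Y.drop D).map φ).prod = ((Y'.drop D).map φ).prod → Y.length % M0 = Y'.length % M0 →
    ν1 Y = ν1 Y'
  hBadT : ∀ T T', D ≤ T → D ≤ T' → T % M0 = T' % M0 → (BadT T ↔ BadT T')
  hc : ∀ k, k < K → c k ≤ g.p0
  hex2 : ∀ k, k < K → ∀ P Q v u, P.length = c k → Q.length = g.p0 - c k →
    lam2 k P = some v → rho2 k Q = some u → u = pre act φ ν2 (P ++ Q) v
  hgap : ∀ P Q : List α, g.Wo P → g.Wo (P ++ Q) → Q ≠ [] → 2 * g.p0 + 2 * g.N1 < Q.length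
  hsp : ∀ k k' l l', k < K → k' < K → l < K → l' < K → k' ≠ k → l' ≠ l →
    c k + c l' < c l + c k' + 2 * g.N1 → c l + c k' < c k + c l' + 2 * g.N1 → k = l
  hthin : ∀ τ, g.z ≤ τ + g.p0 → ∀ J : Finset ℕ, (∀ k ∈ J, k < K ∧
    ∃ k', k' < K ∧ k' ≠ k ∧ BadT (τ + c k' - c k - g.p0)) → J.card ≤ C0
  hI : ∀ X : List α, g.p0 ≤ X.length → ∀ v, ∃ I : Finset ℕ, 2 * C0 + 2 ≤ I.card ∧
    ∀ k ∈ I, k < K ∧ lam2 k (X.take (c k)) = some v ∧
      (rho2 k ((X.take g.p0).drop (c k))).isSome

variable {act : V → S → V} {φ : α → S} {g : Geo α} {B R D M0 K C0 : ℕ}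
    {lam rho : List α → Option V} {ν1 : List α → V} {BadT : ℕ → Prop} {c : ℕ → ℕ}
    {lam2 rho2 : ℕ → List α → Option V} {ν2 : List α → V}

/-- the noise of a zone -/
def nu (act : V → S → V) (φ : α → S) (p0 : ℕ) (ν1 ν2 : List α → V) (X : List α) : V :=
  act (ν2 (X.take p0)) ((X.drop p0).map φ).prod + ν1 (X.drop p0)

theorem T_eq (hadd : ∀ a b s, act (a + b) s = act a s + act b s)
    (hmul : ∀ v s t, act v (s * t) = act (act v s) t) (x : V) (X : List α) :
    act x (X.map φ).prod + nu act φ g.p0 ν1 ν2 X =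
      g.T (pre act φ ν2) (post act φ ν1) x X := by
  unfold Geo.T pre post nu
  have e : (X.map φ).prod = ((X.take g.p0).map φ).prod * ((X.drop g.p0).map φ).prod := by
    rw [← List.prod_append, ← List.map_append, List.take_append_drop]
  rw [e, hmul, hadd]
  abel

theorem nu_dep (X Y : List α) {p0 A : ℕ} (hA : p0 + D ≤ A)
    (hν1 : ∀ Y Y' : List α, D ≤ Y.length → D ≤ Y'.length → Y.take D = Y'.take D →
      ((Y.drop D).map φ).prod = ((Y'.drop D).map φ).prod → Y.length % M0 = Y'.length % M0 →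
      ν1 Y = ν1 Y')
    (h1 : A ≤ X.length) (h2 : A ≤ Y.length) (h3 : X.take A = Y.take A)
    (h4 : ((X.drop A).map φ).prod = ((Y.drop A).map φ).prod)
    (h5 : X.length % M0 = Y.length % M0) :
    (X.map φ).prod = (Y.map φ).prod ∧ nu act φ p0 ν1 ν2 X = nu act φ p0 ν1 ν2 Y := by
  have htk : ∀ i, i ≤ A → X.take i = Y.take i := by
    intro i hi
    have e1 : X.take i = (X.take A).take i := by rw [List.take_take, Nat.min_eq_left hi]
    have e2 : Y.take i = (Y.take A).take i := by rw [List.take_take, Nat.min_eq_left hi]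
    rw [e1, e2, h3]
  have hdr : ∀ i, i ≤ A → ((X.drop i).map φ).prod = ((Y.drop i).map φ).prod := by
    intro i hi
    have e : ∀ Z : List α, A ≤ Z.length → Z.drop i = (Z.take A).drop i ++ Z.drop A := by
      intro Z hZ
      conv_lhs => rw [← List.take_append_drop A Z]
      rw [List.drop_append_of_le_length (by rw [List.length_take]; omega)]
    rw [e X h1, e Y h2, List.map_append, List.map_append, List.prod_append, List.prod_append, h3,
      h4]
  refine ⟨?_, ?_⟩
  · have := hdr 0 (Nat.zero_le _)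
    simpa using this
  · unfold nu
    rw [htk p0 (by omega), hdr p0 (by omega)]
    congr 1
    apply hν1
    · rw [List.length_drop]; omega
    · rw [List.length_drop]; omega
    · have e : ∀ Z : List α, (Z.drop p0).take D = (Z.take (p0 + D)).drop p0 := by
        intro Z
        rw [List.drop_take]
        congr 1
        omega
      rw [e, e, htk _ hA]
    · rw [List.drop_drop, List.drop_drop]
      exact hdr _ hA
    · rw [List.length_drop, List.length_drop]
      have hx : X.length ≡ Y.length [MOD M0] := h5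
      have hx' : (X.length - p0) + p0 ≡ (Y.length - p0) + p0 [MOD M0] := by
        rw [Nat.sub_add_cancel (by omega), Nat.sub_add_cancel (by omega)]
        exact hx
      exact Nat.ModEq.add_right_cancel' p0 hx'

/-- the code -/
def C (g : Geo α) : Set (List α) := {X | g.XX X}

/-- the bad zones -/
def Bd (g : Geo α) (BadT : ℕ → Prop) : Set (List α) := {X | g.XX X ∧ g.BadX BadT X}

theorem pcode (g : Geo α) (hz : 0 < g.z) : PCode (C g) := by
  refine ⟨?_, ?_⟩
  · intro h
    have := h.1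
    simp at this
    omega
  · intro X hX Y hY h
    obtain ⟨R, hR⟩ := h
    exact g.prefix_code (R := R) (R' := []) hX hY (by simpa using hR)

theorem cend_all {b : V} {Q : List α} (pre' : List α → V → V) (post' : V → List α → V)
    (h : g.RQ2 pre' post' BadT K c rho2 b Q) {k' : ℕ} (hk' : k' < K) :
    ∃ l, g.CEnd Q (c k') l := by
  obtain ⟨k, hk, l, hend, hgood, -⟩ := h
  by_cases e : k' = k
  · subst e; exact ⟨l, hend⟩
  · obtain ⟨l', h1, -⟩ := hgood k' hk' e
    exact ⟨l', h1⟩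

theorem join (d : Dat act φ g B R D M0 K C0 lam rho ν1 BadT c lam2 rho2 ν2) (hz : 0 < g.z)
    (s : S) : HL 3 ({w | (w.map φ).prod = s} : Language α) := by
  classical
  have hT := fun x X => T_eq (φ := φ) (g := g) (ν1 := ν1) (ν2 := ν2) d.hadd d.hmul x X
  -- the regular property
  have hreg : ∀ x y, Language.IsRegular ({X | act x (X.map φ).prod + nu act φ g.p0 ν1 ν2 X = y} :
      Language α) := by
    intro x y
    refine Crest.Agent.R320.RegDep_10.regular_of_dep φ (g.p0 + D) M0 d.hM0 _ ?_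
    intro u u' h1 h2 h3 h4 h5 h6
    obtain ⟨e1, e2⟩ := nu_dep (act := act) (ν2 := ν2) (p0 := g.p0) u u' le_rfl d.hν1 h1 h2 h3 h4 h5
    show act x (u'.map φ).prod + nu act φ g.p0 ν1 ν2 u' = y
    rw [← e1, ← e2]
    exact h6
  have hregB : ∀ x y, Language.IsRegular ({X | g.BadX BadT X ∧
      act x (X.map φ).prod + nu act φ g.p0 ν1 ν2 X = y} : Language α) := by
    intro x y
    refine Crest.Agent.R320.RegDep_10.regular_of_dep φ (g.p0 + D + g.z + g.N1) M0 d.hM0 _ ?_
    intro u u' h1 h2 h3 h4 h5 h6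
    obtain ⟨e1, e2⟩ := nu_dep (act := act) (ν2 := ν2) (p0 := g.p0) u u' (by omega) d.hν1
      h1 h2 h3 h4 h5
    obtain ⟨h7, h8⟩ := h6
    refine ⟨?_, ?_⟩
    · rcases h7 with ⟨t, ht, hw, h9, h10⟩ | h7
      · left
        refine ⟨t, by omega, ?_, h9, h10⟩
        have e3 : u'.take t = u.take t := by
          have a1 : u.take t = (u.take (g.p0 + D + g.z + g.N1)).take t := by
            rw [List.take_take, Nat.min_eq_left (by omega)]
          have a2 : u'.take t = (u'.take (g.p0 + D + g.z + g.N1)).take t := by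
            rw [List.take_take, Nat.min_eq_left (by omega)]
          rw [a1, a2, h3]
        rw [e3]; exact hw
      · right
        refine (d.hBadT _ _ (by omega) (by omega) ?_).1 h7
        have hx' : (u.length - g.p0) + g.p0 ≡ (u'.length - g.p0) + g.p0 [MOD M0] := by
          rw [Nat.sub_add_cancel (by omega), Nat.sub_add_cancel (by omega)]
          exact h5
        exact Nat.ModEq.add_right_cancel' g.p0 hx'
    · show act x (u'.map φ).prod + nu act φ g.p0 ν1 ν2 u' = y
      rw [← e1, ← e2]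
      exact h8
  refine Crest.Agent.R320.Top5_120.top5 act d.hadd d.hone d.hmul d.hfaith φ
    (nu act φ g.p0 ν1 ν2) (C g) (Bd g BadT) (pcode g hz) (fun X hX => hX.1)
    (fun v => {P | g.LP1 (pre act φ ν2) lam v P}) (fun v => {P | Geo.LP2 K c lam2 v P})
    ?_ ?_ ?_ ?_ ?_ ?_ ?_ s
  · intro v
    refine (List.finite_length_le α (g.p0 + g.N1)).subset ?_
    rintro P ⟨h1, h2⟩
    have := d.hlen _ _ h2
    rw [List.length_drop] at this
    show P.length ≤ g.p0 + g.N1
    omega
  · intro v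
    refine (List.finite_length_le α g.p0).subset ?_
    rintro P ⟨k, hk, h1, -⟩
    show P.length ≤ g.p0
    rw [h1]; exact d.hc k hk
  · intro x y
    refine (Crest.Agent.R320.P4_933.hl_XX (n := g.n) (z := g.z) g.loc d.hlenW d.free
      (hreg x y)).congr fun w => ?_
    constructor
    · rintro ⟨⟨h1, h2, h3⟩, h4⟩
      exact ⟨⟨h2, h1, fun t ht hz => h3 t hz ht⟩, h4⟩
    · rintro ⟨⟨h1, h2, h3⟩, h4⟩
      exact ⟨⟨h2, h1, fun t ht hz => h3 t hz ht⟩, h4⟩
  · intro x y
    refine (Crest.Agent.R320.P4_933.hl_XX (n := g.n) (z := g.z) g.loc d.hlenW d.free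
      (hregB x y)).congr fun w => ?_
    constructor
    · rintro ⟨⟨⟨h1, h2, h3⟩, h5⟩, h4⟩
      exact ⟨⟨h2, h1, fun t ht hz => h3 t hz ht⟩, h5, h4⟩
    · rintro ⟨⟨h1, h2, h3⟩, h5, h4⟩
      exact ⟨⟨⟨h2, h1, fun t ht hz => h3 t hz ht⟩, h5⟩, h4⟩
  · intro s
    have hr : Language.IsRegular ({w | (w.map φ).prod = s} : Language α) := by
      refine Crest.Agent.R320.RegDep_10.regular_of_dep φ 0 1 one_pos _ ?_
      intro u u' _ _ _ h4 _ h6
      rw [List.drop_zero, List.drop_zero] at h4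
      show (u'.map φ).prod = s
      rw [← h4]; exact h6
    refine (Crest.Agent.R320.P4_933.hl_NB (n := g.n) (z := g.z) g.loc d.hlenW d.free
      hr).congr fun w => ?_
    have key : (∀ X ∈ C g, ¬ X <+: w) ↔ Crest.Agent.R320.P4_933.NB g.Wo g.z w := by
      rw [Crest.Agent.R320.P4_933.NB_iff]
      constructor
      · rintro h P hP ⟨h1, h2, h3⟩
        exact h P ⟨h2, h1, fun t ht hz => h3 t hz ht⟩ hP
      · rintro h P ⟨h2, h1, h3⟩ hP
        exact h P hP ⟨h1, h2, fun t ht hz => h3 t hz ht⟩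
    constructor
    · rintro ⟨h1, h2⟩; exact ⟨key.1 h1, h2⟩
    · rintro ⟨h1, h2⟩; exact ⟨key.2 h1, h2⟩
  · intro X hX hnb v
    have hXX : g.XX X := hX
    have hE : ¬ g.E X := fun h => hnb ⟨hXX, Or.inl h⟩
    have hBT : ¬ BadT (X.drop g.p0).length := by
      rw [List.length_drop]
      exact fun h => hnb ⟨hXX, Or.inr h⟩
    obtain ⟨P, Q, b, e, hP, hQ⟩ := g.complete1 (pre act φ ν2) d.hlen hXX hE
      (fun u => d.hcomp1 _ hBT u) v
    have hs := g.sound1 (pre act φ ν2) (post act φ ν1) d.hlen d.hex1 hP hQ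
    refine ⟨P, Q, e.symm, hP, ?_⟩
    intro x P' hP'
    have hs' := g.sound1 (pre act φ ν2) (post act φ ν1) d.hlen d.hex1 hP' hQ
    refine ⟨hs'.1, ?_⟩
    rw [hT, hT, hs'.2, e, hs.2]
  · intro X hX Y hY v
    obtain ⟨hX1, hX2⟩ := hX
    obtain ⟨hY1, hY2⟩ := hY
    have hXl := hX1.1
    have hgz := g.hz
    obtain ⟨P, Q, b, e, hP, hQ⟩ := g.complete2 (pre act φ ν2) (post act φ ν1) d.hc d.hgap d.hsp
      d.hthin hX1 hY1 v (d.hI X (by omega) v)
    obtain ⟨X2, h1, h2, h3⟩ := g.sound2 (pre act φ ν2) (post act φ ν1) d.hc d.hex2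
      (R := []) (R' := Y) hX1 hX2 hP hQ (by rw [List.append_nil]; exact e)
    have hX2Y : X2 = Y := by
      rw [e] at h2
      exact (List.append_cancel_left h2).symm
    subst hX2Y
    refine ⟨P, Q, e, hP, ?_⟩
    intro x P' hP'
    obtain ⟨k', hk', hl', hlam'⟩ := id hP'
    obtain ⟨l, hl⟩ := cend_all (pre act φ ν2) (post act φ ν1) hQ hk'
    have hX' : g.XX (P' ++ Q.take l) :=
      g.xx_of_cend (by rw [hl']; exact d.hc k' hk') (by rw [hl']; exact hl)
    by_cases hb : g.BadX BadT (P' ++ Q.take l)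
    · left
      obtain ⟨X3, h4, h5, h6⟩ := g.sound2 (pre act φ ν2) (post act φ ν1) d.hc d.hex2
        (R := []) (R' := Q.drop l) hX' hb hP' hQ (by
          rw [List.append_nil, List.append_assoc, List.take_append_drop])
      refine ⟨_, ⟨hX', hb⟩, X3, h4, h5.symm, ?_⟩
      rw [hT, hT, hT, hT, h6, h3]
    · right
      exact ⟨_, hX', fun h => hb h.2, ⟨Q.drop l, by
        rw [List.append_assoc, List.take_append_drop]⟩⟩

end

end Crest.Agent.R320.Join_86
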