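import Crest.Agent.R320.Top5_110
import Crest.Agent.R320.Fib_298
import Crest.Agent.R320.ExactR_237
import Crest.Agent.R320.LWallAll_922
import Crest.Agent.R320.Sc2n_937

/-! Row 320: join of the two schemes (`Sc2n_937`), the semantic top (`Top5_110`), the exact gadget
(`ExactR_237`), the walls (`LWallAll_922`) and the height one facts (`Fib_298`). -/

set_option autoImplicit false

namespace Crest.Agent.R320.Join_937

open Crest.RegLang Crest.Agent.R320.Hk_851 Crest.Agent.R320.Code110 Crest.Agent.R320.Reg_236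
open Language

/-- the gadget of scheme 1 with its ruler -/
def UG (S V : Type) [Monoid S] [AddCommGroup V] (act : V → S → V) : Prop :=
  ∃ C0 : ℕ, ∀ K : ℕ, ∃ (N T0 Pd : ℕ) (c : ℕ → ℕ) (BadT : ℕ → Prop),
    0 < N ∧ 0 < Pd ∧ (∀ T, BadT (T + Pd) ↔ BadT T) ∧ (∀ i j, i < j → c i < c j) ∧
    (∀ k k' l l', k < K → k' < K → l < K → l' < K → k' ≠ k → l' ≠ l →
      c k + c l' < c l + c k' + 2 * N → c l + c k' < c k + c l' + 2 * N → k = l) ∧
    (∀ T, T0 ≤ T → ∀ J : Finset ℕ, (∀ k ∈ J, k < K ∧ ∃ k', k' < K ∧ k' ≠ k ∧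
      BadT (T + c k' - c k)) → J.card ≤ C0) ∧
    ∀ (α : Type) [Finite α] (f : α → S), ∃ (lam rho : List α → Option V) (nu : List α → V),
      (∀ P v, lam P = some v → P.length ≤ N) ∧
      (∀ P Q u b, lam P = some u → rho Q = some b →
        b = act u ((P ++ Q).map f).prod + nu (P ++ Q)) ∧
      (∀ X : List α, ¬ BadT X.length → ∀ v, ∃ P Q, X = P ++ Q ∧ lam P = some v ∧
        (rho Q).isSome) ∧
      (∀ y, Language.IsRegular ({Y | nu Y = y} : Language α))

/-- lengths in a periodic set -/
theorem isRegular_len {α : Type} [Finite α] {Pd : ℕ} (hPd : 0 < Pd) {B : ℕ → Prop}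
    (hper : ∀ T, B (T + Pd) ↔ B T) : Language.IsRegular ({Y | B Y.length} : Language α) := by
  have : NeZero Pd := ⟨hPd.ne'⟩
  have hmod : ∀ T, B T ↔ B (T % Pd) := by
    intro T
    have h1 : ∀ q r, B (r + Pd * q) ↔ B r := by
      intro q
      induction q with
      | zero => intro r; simp
      | succ q ih =>
        intro r
        rw [Nat.mul_succ, ← Nat.add_assoc, hper, ih]
    conv_lhs => rw [← Nat.mod_add_div T Pd]
    exact h1 _ _
  let M := Multiplicative (ZMod Pd)
  let f : α → M := fun _ => Multiplicative.ofAdd 1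
  have hf : ∀ w : List α, (w.map f).prod = Multiplicative.ofAdd ((w.length : ℕ) : ZMod Pd) := by
    intro w
    induction w with
    | nil => simp
    | cons a w ih =>
      rw [List.map_cons, List.prod_cons, ih, List.length_cons]
      show Multiplicative.ofAdd (1 : ZMod Pd) * _ = _
      rw [← ofAdd_add]
      congr 1
      push_cast
      ring
  have hfin : {r : ℕ | r < Pd ∧ B r}.Finite := (Set.finite_lt_nat Pd).subset fun r hr => hr.1
  have h := Fib_298.isRegular_biUnion (α := α) hfin
    (L := fun r => {w | (w.map f).prod = Multiplicative.ofAdd ((r : ℕ) : ZMod Pd)})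
    (fun r _ => Fib_298.isRegular_fib f _)
  have e : ({Y | B Y.length} : Language α) = ({w | ∃ i ∈ {r : ℕ | r < Pd ∧ B r},
      w ∈ ({w | (w.map f).prod = Multiplicative.ofAdd ((i : ℕ) : ZMod Pd)} : Language α)} :
        Language α) := by
    ext w
    constructor
    · intro hw
      refine ⟨w.length % Pd, ⟨Nat.mod_lt _ hPd, (hmod _).1 hw⟩, ?_⟩
      show (w.map f).prod = _
      rw [hf]
      congr 1
      exact (ZMod.natCast_mod w.length Pd).symm
    · rintro ⟨r, ⟨hr, hB⟩, hw⟩
      have hw' : (w.map f).prod = Multiplicative.ofAdd ((r : ℕ) : ZMod Pd) := hw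
      rw [hf] at hw'
      have h2 : ((w.length : ℕ) : ZMod Pd) = ((r : ℕ) : ZMod Pd) :=
        Multiplicative.ofAdd.injective hw'
      rw [ZMod.natCast_eq_natCast_iff'] at h2
      show B w.length
      rw [hmod, h2, ← hmod]
      exact hB
  rw [e]
  exact h

/-- bad blocks are regular -/
theorem isRegular_bad {α : Type} [Finite α] (g : Sc2n_937.Geo α) {B : ℕ}
    (hW : Fib_298.WallU g.Wo g.n B) {Pd : ℕ} (hPd : 0 < Pd)
    {BadT : ℕ → Prop} (hper : ∀ T, BadT (T + Pd) ↔ BadT T) :
    Language.IsRegular ({X | g.XX X ∧ g.BadX BadT X} : Language α) := by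
  have hE : HL 0 ({X | g.E X} : Language α) := by
    let F : ℕ → Language α := fun t => {u | u.length = t ∧ g.Wo u ∧ g.z ≤ t + g.N1}
    have hF : ∀ t, HL 0 (F t) := fun t =>
      HL.finite ((List.finite_length_eq α t).subset fun v hv => hv.1)
    refine (HL.biUnion (k := 0) (Set.finite_lt_nat (g.z + g.N1))
      (L := fun t => F t * (⊤ : Language α))
      (fun t _ => HL.mul (hF t) (HL.top (α := α)))).congr fun w => ?_
    constructor
    · rintro ⟨t, h1, h2, h3, h4⟩
      refine ⟨t, h4, Language.mem_mul.2 ⟨w.take t, ⟨?_, h2, h3⟩, w.drop t, trivial,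
        List.take_append_drop _ _⟩⟩
      rw [List.length_take]; omega
    · rintro ⟨t, ht, hw⟩
      obtain ⟨u, ⟨h1, h2, h3⟩, v, -, rfl⟩ := Language.mem_mul.1 hw
      refine ⟨t, ?_, ?_, h3, ht⟩
      · rw [List.length_append]; omega
      · rw [← h1, List.take_left]; exact h2
  have hT : Language.IsRegular ({X | g.p0 ≤ X.length ∧ BadT (X.length - g.p0)} :
      Language α) := by
    let A1 : Language α := {w | w.length = g.p0}
    let A2 : Language α := {Y | BadT Y.length}
    have h1 : HL 0 A1 :=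
      HL.finite (List.finite_length_eq α g.p0)
    have h2' : A2.IsRegular := isRegular_len (α := α) hPd hper
    have h2 := Reg_236.isRegular_mul (HL.isRegular h1) h2'
    have e : ({X | g.p0 ≤ X.length ∧ BadT (X.length - g.p0)} : Language α) = A1 * A2 := by
      ext w
      constructor
      · rintro ⟨h3, h4⟩
        refine Language.mem_mul.2 ⟨w.take g.p0, ?_, w.drop g.p0, ?_,
          List.take_append_drop _ _⟩
        · show (w.take g.p0).length = g.p0
          rw [List.length_take]; omega
        · show BadT (w.drop g.p0).length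
          rw [List.length_drop]; exact h4
      · intro hw
        obtain ⟨u, h3, v, h4, rfl⟩ := Language.mem_mul.1 hw
        have h3' : u.length = g.p0 := h3
        have h4' : BadT v.length := h4
        constructor
        · rw [List.length_append]; omega
        · rw [List.length_append, h3']
          have : g.p0 + v.length - g.p0 = v.length := by omega
          rw [this]; exact h4'
    rw [e]; exact h2
  let E1 : Language α := {X | g.E X}
  let E2 : Language α := {X | g.p0 ≤ X.length ∧ BadT (X.length - g.p0)}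
  let E0 : Language α := Fib_298.XX g.Wo g.z
  have hE0 : E0.IsRegular := HL.isRegular (Fib_298.HL_XX (k := 0) hW g.z)
  have hE1 : E1.IsRegular := HL.isRegular hE
  have hE2 : E2.IsRegular := hT
  have h1 := hE0.inf (hE1.add hE2)
  have e : ({X | g.XX X ∧ g.BadX BadT X} : Language α) = E0 ⊓ (E1 + E2) := by
    ext w
    constructor
    · rintro ⟨hw1, hw2⟩
      refine ⟨hw1, ?_⟩
      rcases hw2 with h | h
      · exact Or.inl h
      · refine Or.inr ⟨?_, h⟩
        have := hw1.1
        have := g.hz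
        omega
    · rintro ⟨hw1, hw2⟩
      refine ⟨hw1, ?_⟩
      rcases hw2 with h | h
      · exact Or.inl h
      · exact Or.inr h.2
  rw [e]
  exact h1

theorem join {S V : Type} [Monoid S] [Finite S] [AddCommGroup V] [Finite V] (act : V → S → V)
    (hadd : ∀ a b s, act (a + b) s = act a s + act b s) (hone : ∀ v, act v 1 = v)
    (hmul : ∀ v s t, act v (s * t) = act (act v s) t)
    (hfaith : ∀ s t, (∀ v, act v s = act v t) → s = t)
    (hUG : UG S V act) (α : Type) [Finite α] (f : α → S) (s : S) :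
    HL 3 ({w | (w.map f).prod = s} : Language α) := by
  classical
  have := Fintype.ofFinite S
  have := Fintype.ofFinite V
  obtain ⟨C0, hUG⟩ := hUG
  obtain ⟨K, hK⟩ := ExactR_237.exact_gadget α S V f act (2 * C0 + 2)
  obtain ⟨N, T0, Pd, c, BadT, hN, hPd, hper, hc, hsp, hthin, hg⟩ := hUG K
  obtain ⟨lam1, rho1, nu1, hlen, hs1, hc1, hreg⟩ := hg α f
  obtain ⟨lam2, rho2, nu2, hs2, hc2⟩ := hK c (fun i j hij _ => hc i j hij)
  obtain ⟨n, G, B, Wo, hLW, hgap, -, -, hfree⟩ :=
    LWallAll_922.walls_all_left α (2 * c K + 2 * N + 1) (by omega)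
  have hcK : ∀ k, k < K → c k ≤ c K := fun k hk => (hc k K hk).le
  let g : Sc2n_937.Geo α :=
    { Wo := Wo, n := n, z := c K + N + (n + c K + T0 + 1), p0 := c K, q0 := n + c K + T0 + 1,
      N1 := N, loc := hLW.app, hz := rfl, hq := by omega, hN := hN, hqp := by omega }
  have hWU : Fib_298.WallU g.Wo g.n (B + (2 * c K + 2 * N + 1)) :=
    ⟨hLW.app, hLW.len, by
      intro X hX
      obtain ⟨u, x, v, j, h1, h2, h3, h4⟩ := hfree X hX
      exact ⟨u, x, v, j, h4, by omega, by omega, by omega⟩⟩
  let pre : List α → V → V := fun X0 v => act v (X0.map f).prod + nu2 X0 1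
  let post : V → List α → V := fun v Y => act v (Y.map f).prod + nu1 Y
  let XX : Language α := Fib_298.XX g.Wo g.z
  let Bad : Language α := {X | g.XX X ∧ g.BadX BadT X}
  let T : List α → V → V := fun u v => g.T pre post v u
  let L1 : V → Language α := fun v => {P | g.LP1 pre lam1 v P}
  let lam2' : ℕ → List α → Option V := lam2
  let rho2' : ℕ → List α → Option V := fun k Q => rho2 k Q 1
  let L2 : V → Language α := fun v => {P | Sc2n_937.Geo.LP2 K c lam2' v P}
  have hex1 : ∀ P Q u b, lam1 P = some u → rho1 Q = some b → b = post u (P ++ Q) :=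
    fun P Q u b h1 h2 => hs1 P Q u b h1 h2
  have hex2 : ∀ k, k < K → ∀ P Q v u, P.length = c k → Q.length = g.p0 - c k →
      lam2' k P = some v → rho2' k Q = some u → u = pre (P ++ Q) v := by
    intro k hk P Q v u h1 _ h3 h4
    have := hs2 k hk P Q 1 v u h1 h3 h4
    rw [this]
    show act v (((P ++ Q).map f).prod * 1) + nu2 (P ++ Q) 1 = _
    rw [mul_one]
  have hXX : ∀ X, X ∈ XX ↔ g.XX X := fun X => Iff.rfl
  have hPC : PC XX := by
    have := Fib_298.pcode_XX (Wo := g.Wo) (z := g.z) (by have := g.hz; have := g.hN; omega)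
    exact ⟨this.1, this.2⟩
  have hz0 : 0 < g.z := by have := g.hz; have := g.hN; omega
  have hnz : g.n ≤ g.z := by have := g.hz; have := g.hq; omega
  have hp0z : g.p0 ≤ g.z := by have := g.hz; omega
  have hBX : ∀ u ∈ Bad, u ∈ XX := fun u hu => hu.1
  have hT : ∀ u ∈ XX, ∀ v v', T u v - T u v' = act (v - v') (u.map f).prod := by
    intro u _ v v'
    have hsub : ∀ a b s, act (a - b) s = act a s - act b s := by
      intro a b s
      have := hadd (a - b) b s
      rw [sub_add_cancel] at this
      rw [this, add_sub_cancel_right]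
    have e : (u.map f).prod = ((u.take g.p0).map f).prod * ((u.drop g.p0).map f).prod := by
      rw [← List.prod_append, ← List.map_append, List.take_append_drop]
    show (act (act v ((u.take g.p0).map f).prod + nu2 (u.take g.p0) 1) ((u.drop g.p0).map f).prod
      + nu1 (u.drop g.p0)) - (act (act v' ((u.take g.p0).map f).prod + nu2 (u.take g.p0) 1)
        ((u.drop g.p0).map f).prod + nu1 (u.drop g.p0)) = _
    rw [add_sub_add_right_eq_sub, ← hsub, add_sub_add_right_eq_sub, ← hsub, e, hmul]
  have H2 : HL 1 Bad :=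
    Fib_298.HL_blocks hWU hnz (isRegular_bad g hWU hPd hper) (fun w hw => hw.1)
  have H3 : ∀ x y, HL 1 (ZT XX T x y) := fun x y =>
    Fib_298.hfib hWU hnz act f g.p0 hp0z (fun v X0 => act v (X0.map f).prod + nu2 X0 1) nu1
      hreg x y
  refine Top5_110.top_sem (φ := fun w : List α => (w.map f).prod) (act := act) (XX := XX)
    (Bad := Bad) (T := T) (N1 := 0) (N2 := 1) (L1 := L1) (L2 := L2)
    (by simp) (by intro u w; simp) hone hmul hfaith hPC hBX hT (Fib_298.HL_XX hWU g.z) H2 H3
    (fun s => (Fib_298.rest hWU hnz f s).mono (by norm_num)) ?_ ?_ ?_ ?_ s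
  · -- F1
    intro v
    refine (List.finite_length_le α (g.p0 + N)).subset ?_
    rintro P ⟨h1, h2⟩
    have := hlen _ _ h2
    rw [List.length_drop] at this
    show P.length ≤ _
    omega
  · -- F2
    intro v
    refine (List.finite_length_le α (c K)).subset ?_
    rintro P ⟨k, hk, h1, -⟩
    show P.length ≤ _
    rw [h1]
    exact hcK k hk
  · -- C1
    intro u hu hub x t ht
    have ht0 : t = [] := by
      rw [pow_zero] at ht
      exact ht
    subst ht0
    have hnE : ¬ g.E u := fun h => hub ⟨hu, Or.inl h⟩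
    have hnT : ¬ BadT (u.drop g.p0).length := by
      rw [List.length_drop]
      exact fun h => hub ⟨hu, Or.inr h⟩
    obtain ⟨P, Q, b, h1, h2, h3⟩ := g.complete1 pre hlen hu hnE (hc1 _ hnT) x
    refine ⟨P, Q, b, by rw [List.append_nil]; exact h1, h2, ?_⟩
    intro x' p hp
    left
    obtain ⟨h4, h5⟩ := g.sound1 pre post hlen hex1 hp h3
    refine ⟨b, Language.mem_mul.2 ⟨p ++ Q, ⟨h4, h5⟩, [], ⟨rfl, rfl⟩, List.append_nil _⟩⟩
  · -- C2
    intro u hu x t ht
    have ht1 : t ∈ Bad := by
      rw [pow_one] at ht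
      exact ht
    have hgap' : ∀ P Q : List α, g.Wo P → g.Wo (P ++ Q) → Q ≠ [] →
        2 * g.p0 + 2 * g.N1 < Q.length := by
      intro P Q h1 h2 h3
      have hQ : 0 < Q.length := List.length_pos_iff.2 h3
      have := hgap (P ++ Q) P.length (P ++ Q).length (by rw [List.length_append]; omega) le_rfl
        (by rw [List.take_left]; exact h1) (by rw [List.take_length]; exact h2)
      rw [List.length_append] at this
      show 2 * c K + 2 * N < Q.length
      omega
    have hthin' : ∀ τ, g.z ≤ τ + g.p0 → ∀ J : Finset ℕ, (∀ k ∈ J, k < K ∧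
        ∃ k', k' < K ∧ k' ≠ k ∧ BadT (τ + c k' - c k - g.p0)) → J.card ≤ C0 := by
      intro τ hτ J hJ
      have hτ' : c K + N + (n + c K + T0 + 1) ≤ τ + c K := hτ
      refine hthin (τ - c K) (by omega) J ?_
      intro k hk
      obtain ⟨h1, k', h2, h3, h4⟩ := hJ k hk
      refine ⟨h1, k', h2, h3, ?_⟩
      have := hcK k h1
      have e : τ - c K + c k' - c k = τ + c k' - c k - g.p0 := by
        show _ = τ + c k' - c k - c K
        omega
      rw [e]; exact h4
    have hI : ∃ I : Finset ℕ, 2 * C0 + 2 ≤ I.card ∧ ∀ k ∈ I, k < K ∧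
        lam2' k (u.take (c k)) = some x ∧ (rho2' k ((u.take g.p0).drop (c k))).isSome := by
      have hul : g.z ≤ u.length := hu.1.1
      obtain ⟨I, h1, h2⟩ := hc2 (u.take g.p0) 1 x (by
        intro k hk
        rw [List.length_take]
        have := hcK k hk
        have : c k ≤ g.p0 := this
        omega)
      refine ⟨I, h1, fun k hk => ?_⟩
      obtain ⟨h3, h4, h5⟩ := h2 k hk
      refine ⟨h3, ?_, h5⟩
      rw [List.take_take, Nat.min_eq_left (hcK k h3)] at h4
      exact h4
    obtain ⟨P, Q, b, h1, h2, h3⟩ := g.complete2 pre post hcK hgap' hsp hthin' hu.1 ht1.1 x hI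
    refine ⟨P, Q, b, h1.symm, h2, ?_⟩
    intro x' p hp
    obtain ⟨k0, hk0, hpl, hpv⟩ := hp
    obtain ⟨l, hl⟩ : ∃ l, g.CEnd Q (c k0) l := by
      obtain ⟨k, hk, l, hend, hgood, -⟩ := h3
      by_cases h : k0 = k
      · subst h; exact ⟨l, hend⟩
      · obtain ⟨l', h', -⟩ := hgood k0 hk0 h
        exact ⟨l', h'⟩
    have hX : g.XX (p ++ Q.take l) :=
      g.xx_of_cend (by rw [hpl]; exact hcK k0 hk0) (by rw [hpl]; exact hl)
    have hpre : p ++ Q = (p ++ Q.take l) ++ Q.drop l := by
      rw [List.append_assoc, List.take_append_drop]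
    by_cases hbx : g.BadX BadT (p ++ Q.take l)
    · obtain ⟨X2, h4, h5, h6⟩ := g.sound2 pre post hcK hex2 (R := []) (R' := Q.drop l)
        hX hbx ⟨k0, hk0, hpl, hpv⟩ h3 (by rw [List.append_nil]; exact hpre)
      by_cases hb2 : X2 ∈ Bad
      · left
        rw [h5]
        exact ⟨_, Language.mem_mul.2 ⟨_, ⟨⟨hX, hbx⟩, rfl⟩, X2, ⟨b, Language.mem_mul.2
          ⟨X2, ⟨hb2, h6⟩, [], ⟨rfl, rfl⟩, List.append_nil _⟩⟩, rfl⟩⟩
      · right
        right
        rw [h5]
        exact Language.mem_mul.2 ⟨_, hX, X2, ⟨X2, h4, hb2, List.prefix_rfl⟩, rfl⟩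
    · right
      left
      refine ⟨p ++ Q.take l, hX, fun h => hbx h.2, ?_⟩
      rw [hpre]
      exact List.prefix_append _ _

end Crest.Agent.R320.Join_937
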