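import Crest.Agent.R320.Joint_174

/-!
Row 320 (helper174): HL 1 of all the languages of `Joint_174`, decoding, and the top.
-/

set_option autoImplicit false
set_option linter.all false

namespace Crest.Agent.R320.Joint2_174

open Crest.RegLang Crest.Agent.R320.Hk_851 Crest.Agent.R320.Asm_505 Crest.Agent.R320.FewWalls_228
open Crest.Agent.R320.Joint_174
open scoped Classical

variable {A S V : Type} [Monoid S] [AddCommGroup V] {g : Cfg A S V}

/-! ### decoding -/

theorem act_zero (h : Ok g) (s : S) : g.act 0 s = 0 := by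
  have := h.act_add 0 0 s
  rw [add_zero] at this
  exact left_eq_add.1 this

theorem T_aff (h : Ok g) {X : List A} (hX : X ∈ U g) (x : V) :
    T g X x = g.act x (ev g X) + T g X 0 := by
  obtain ⟨t, ht⟩ := hX
  rw [T_eq ht, T_eq ht]
  unfold TY
  have hz := h.hz
  have ht1 := ht.1
  have ht2 := ht.2.1
  have e : X = X.take g.p0 ++ ((X.take t).drop g.p0 ++ X.drop t) := by
    have e1 : X.take g.p0 = (X.take t).take g.p0 := by
      rw [List.take_take, min_eq_left (by omega)]
    rw [e1, ← List.append_assoc, List.take_append_drop, List.take_append_drop]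
  have e2 : ev g X = ev g (X.take g.p0) * ev g ((X.take t).drop g.p0) * ev g (X.drop t) := by
    conv_lhs => rw [e]
    rw [ev_append, ev_append, mul_assoc]
  rw [e2, act_zero h]
  simp only [h.act_add, h.act_mul, zero_add, mul_assoc]
  abel

theorem Run_aff (h : Ok g) (h1 : ∀ v, g.act v 1 = v) : ∀ (l : List (List A)),
    (∀ z ∈ l, z ∈ U g) → ∀ x : V,
    Run (T g) x l = g.act x (ev g l.flatten) + Run (T g) 0 l := by
  intro l
  induction l with
  | nil =>
    intro _ x
    simp [Run, ev, h1]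
  | cons z l ih =>
    intro hl x
    have hl' : ∀ z ∈ l, z ∈ U g := fun z hz => hl z (List.mem_cons_of_mem _ hz)
    rw [Run_cons, Run_cons, ih hl', ih hl' (T g z 0), T_aff h (hl z List.mem_cons_self) x,
      List.flatten_cons, ev_append, h.act_add, h.act_mul]
    abel

/-! ### walls -/

structure WOk (g : Cfg A S V) (Sw : Set (List A)) : Prop where
  df : ∀ w, g.Wo w ↔ (g.n ≤ w.length ∧ w.drop (w.length - g.n) ∈ Sw)

variable {Sw : Set (List A)}

theorem wl_iff (hw : WOk g Sw) {w : List A} {x : ℕ} :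
    Wl g.n Sw w x ↔ (x + g.n ≤ w.length ∧ g.Wo (w.take (x + g.n))) := by
  unfold Wl
  constructor
  · rintro ⟨h1, h2⟩
    refine ⟨h1, (hw.df _).2 ?_⟩
    have hl : (w.take (x + g.n)).length = x + g.n := by rw [List.length_take]; omega
    rw [hl]
    refine ⟨by omega, ?_⟩
    rw [List.drop_take]
    have e1 : x + g.n - g.n = x := by omega
    have e2 : x + g.n - x = g.n := by omega
    rw [e1, e2]; exact h2
  · rintro ⟨h1, h2⟩
    refine ⟨h1, ?_⟩
    have hl : (w.take (x + g.n)).length = x + g.n := by rw [List.length_take]; omega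
    have := ((hw.df _).1 h2).2
    rw [hl, List.drop_take] at this
    have e1 : x + g.n - g.n = x := by omega
    have e2 : x + g.n - x = g.n := by omega
    rw [e1, e2] at this; exact this

theorem nw_le (hw : WOk g Sw) {w : List A} (a b : ℕ)
    (h : ∀ s, g.z ≤ s → s ≤ w.length → g.Wo (w.take s) → s = a ∨ s = b) :
    nw g.n Sw w ≤ g.z + 2 := by
  unfold nw
  have hsub : (Finset.range (w.length + 1)).filter (fun x => Wl g.n Sw w x) ⊆
      Finset.range g.z ∪ {a - g.n, b - g.n} := by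
    intro x hx
    rw [Finset.mem_filter] at hx
    obtain ⟨h1, h2⟩ := (wl_iff hw).1 hx.2
    rw [Finset.mem_union]
    by_cases hz : x + g.n < g.z
    · left; rw [Finset.mem_range]; omega
    · right
      rcases h (x + g.n) (by omega) h1 h2 with e | e
      · rw [Finset.mem_insert]; left; omega
      · rw [Finset.mem_insert, Finset.mem_singleton]; right; omega
  refine (Finset.card_le_card hsub).trans ((Finset.card_union_le _ _).trans ?_)
  rw [Finset.card_range]
  have := Finset.card_le_two (a := a - g.n) (b := b - g.n)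
  omega

theorem nw_drop (n : ℕ) (Sw : Set (List A)) {w : List A} {k : ℕ} (hk : k ≤ w.length) :
    nw n Sw (w.drop k) ≤ nw n Sw w := by
  unfold nw
  apply Finset.card_le_card_of_injOn (fun x => k + x)
  · intro x hx
    rw [Finset.mem_coe, Finset.mem_filter] at hx
    have h2 := (wl_drop hk).1 hx.2
    rw [Finset.mem_coe, Finset.mem_filter, Finset.mem_range]
    refine ⟨?_, h2⟩
    have := h2.1
    show k + x < w.length + 1
    omega
  · intro x _ y _ hxy
    simp only at hxy
    omega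

theorem nw_U (hw : WOk g Sw) {X : List A} (hX : X ∈ U g) : nw g.n Sw X ≤ g.z + 2 := by
  obtain ⟨t, ht⟩ := hX
  refine nw_le hw t X.length (fun s h1 h2 h3 => ?_)
  by_cases hs : s < X.length
  · left; exact ht.2.2.2.2 s h1 hs h3
  · right; omega

theorem nw_F (hw : WOk g Sw) {X : List A} (hX : X ∈ F g) : nw g.n Sw X ≤ g.z + 2 := by
  refine nw_le hw X.length X.length (fun s h1 h2 h3 => ?_)
  by_cases hs : s < X.length
  · exact absurd h3 (hX.2.2 s h1 hs)
  · left; omega

theorem nw_rest (hw : WOk g Sw) {r : List A} (hr : ∀ z ∈ U g, ¬ z <+: r) :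
    nw g.n Sw r ≤ g.z + 2 := by
  by_cases hex : ∃ t, g.z ≤ t ∧ t ≤ r.length ∧ g.Wo (r.take t)
  · have h1 := Nat.find_spec hex
    set t := Nat.find hex with ht
    refine nw_le hw t t (fun s a b c => ?_)
    left
    by_contra hne
    have hts : t ≤ s := Nat.find_min' hex ⟨a, b, c⟩
    have hex2 : ∃ s, t < s ∧ s ≤ r.length ∧ g.Wo (r.take s) := ⟨s, by omega, b, c⟩
    have h2 := Nat.find_spec hex2
    set s2 := Nat.find hex2 with hs2
    refine hr (r.take s2) ?_ (List.take_prefix _ _)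
    have hl : (r.take s2).length = s2 := by rw [List.length_take]; omega
    refine ⟨t, h1.1, by rw [hl]; exact h2.1, ?_, h2.2.2, ?_⟩
    · rw [List.take_take, min_eq_left (by omega)]; exact h1.2.2
    · intro u hu1 hu2 hu3
      rw [hl] at hu2
      rw [List.take_take, min_eq_left (by omega)] at hu3
      have hge : t ≤ u := Nat.find_min' hex ⟨hu1, by omega, hu3⟩
      by_contra hne'
      exact Nat.find_min hex2 hu2 ⟨by omega, by omega, hu3⟩
  · push Not at hex
    exact nw_le hw 0 0 (fun s a b c => absurd c (hex s a b))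

/-! ### HL 1 -/

section HLs
variable [Finite A]

theorem HL_Wo (hw : WOk g Sw) : HL 1 ({w | g.Wo w} : Language A) := by
  have hfin : ({v | v ∈ Sw ∧ v.length = g.n} : Set (List A)).Finite :=
    (List.finite_length_eq A g.n).subset fun v hv => hv.2
  refine (HL.suffix (HL.finite (k := 1) hfin)).congr fun w => ?_
  constructor
  · intro h
    obtain ⟨h1, h2⟩ := (hw.df w).1 h
    exact ⟨w.drop (w.length - g.n), ⟨h2, by rw [List.length_drop]; omega⟩, List.drop_suffix _ _⟩
  · rintro ⟨v, ⟨hv, hl⟩, x, rfl⟩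
    refine (hw.df _).2 ⟨by rw [List.length_append]; omega, ?_⟩
    have : (x ++ v).length - g.n = x.length := by rw [List.length_append]; omega
    rw [this]; simpa using hv

theorem HL_prop {L : Language A} (hL : HL 1 L) :
    HL 1 ({w | ∃ s, s < w.length ∧ w.take s ∈ L} : Language A) := by
  refine (hL.mul (HL.length_ge (α := A) (k := 1) 1)).congr fun w => ?_
  constructor
  · rintro ⟨s, h1, h2⟩
    refine Language.mem_mul.2 ⟨w.take s, h2, w.drop s, ?_, List.take_append_drop _ _⟩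
    show 1 ≤ (w.drop s).length
    rw [List.length_drop]; omega
  · intro hw
    obtain ⟨a, ha, b, hb, rfl⟩ := Language.mem_mul.1 hw
    have hb' : 1 ≤ b.length := hb
    refine ⟨a.length, by rw [List.length_append]; omega, ?_⟩
    simpa using ha

def G0 (g : Cfg A S V) : Language A := {w | g.z ≤ w.length ∧ g.Wo w}
def G1 (g : Cfg A S V) : Language A := {w | w ∈ G0 g ∧ ∃ s, s < w.length ∧ w.take s ∈ G0 g}

theorem HL_G0 (hw : WOk g Sw) : HL 1 (G0 g) := HL.setOf_and (HL.length_ge _) (HL_Wo hw)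
theorem HL_G1 (hw : WOk g Sw) : HL 1 (G1 g) := HL.setOf_and (HL_G0 hw) (HL_prop (HL_G0 hw))

theorem mem_G0_take {w : List A} {s : ℕ} (hs : s < w.length) :
    w.take s ∈ G0 g ↔ (g.z ≤ s ∧ g.Wo (w.take s)) := by
  have hl : (w.take s).length = s := by rw [List.length_take]; omega
  show (g.z ≤ (w.take s).length ∧ g.Wo (w.take s)) ↔ _
  rw [hl]

theorem HL_F (hw : WOk g Sw) : HL 1 (F g) := by
  refine (HL.setOf_and (HL_G0 hw) (HL_prop (HL_G0 hw)).setOf_not).congr fun w => ?_
  constructor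
  · rintro ⟨h1, h2, h3⟩
    refine ⟨⟨h1, h2⟩, ?_⟩
    rintro ⟨s, hs, hm⟩
    obtain ⟨a, b⟩ := (mem_G0_take hs).1 hm
    exact h3 s a hs b
  · rintro ⟨⟨h1, h2⟩, h3⟩
    refine ⟨h1, h2, fun s a b c => h3 ⟨s, b, (mem_G0_take b).2 ⟨a, c⟩⟩⟩

theorem HL_U (hw : WOk g Sw) : HL 1 (U g) := by
  refine (HL.setOf_and (HL_G1 hw) (HL_prop (HL_G1 hw)).setOf_not).congr fun w => ?_
  constructor
  · rintro ⟨t, h1, h2, h3, h4, h5⟩
    refine ⟨⟨⟨by omega, h4⟩, t, h2, (mem_G0_take h2).2 ⟨h1, h3⟩⟩, ?_⟩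
    rintro ⟨s, hs, hm, s', hs', hm'⟩
    obtain ⟨a, b⟩ := (mem_G0_take hs).1 hm
    have e1 := h5 s a hs b
    have hl : (w.take s).length = s := by rw [List.length_take]; omega
    rw [hl] at hs'
    rw [List.take_take, min_eq_left (by omega)] at hm'
    obtain ⟨a', b'⟩ := (mem_G0_take (by omega)).1 hm'
    have e2 := h5 s' a' (by omega) b'
    omega
  · rintro ⟨⟨⟨h1, h2⟩, t, ht, hm⟩, h3⟩
    obtain ⟨a, b⟩ := (mem_G0_take ht).1 hm
    refine ⟨t, a, ht, b, h2, ?_⟩
    have key : ∀ s s', g.z ≤ s → s < s' → s' < w.length → g.Wo (w.take s) → g.Wo (w.take s') →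
        False := by
      intro s s' hs hss hs' hw1 hw2
      refine h3 ⟨s', hs', (mem_G0_take hs').2 ⟨by omega, hw2⟩, s, ?_, ?_⟩
      · rw [List.length_take]; omega
      · rw [List.take_take, min_eq_left (by omega)]
        exact (mem_G0_take (by omega)).2 ⟨hs, hw1⟩
    intro s hs1 hs2 hs3
    rcases Nat.lt_trichotomy s t with hlt | he | hgt
    · exact (key s t hs1 hlt ht hs3 b).elim
    · exact he
    · exact (key t s a hgt hs2 b hs3).elim

theorem HL_EB (hw : WOk g Sw) : HL 1 ({Y | EB g Y Y.length} : Language A) := by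
  have hfin : ({e | g.z ≤ e + g.N1 ∧ e < g.z + g.N1} : Set ℕ).Finite :=
    (Set.finite_lt_nat (g.z + g.N1)).subset fun e he => he.2
  have h1 := HL.biUnion (k := 1) hfin
    (L := fun e => ({w | ∃ v ∈ ({v | v.length = e ∧ g.Wo v} : Language A), v <+: w} : Language A))
    (fun e _ => HL.prefix (HL.setOf_and (HL.length_eq e) (HL_Wo hw)))
  refine h1.congr fun w => ?_
  constructor
  · rintro ⟨e, a, b, c, d⟩
    exact ⟨e, ⟨a, b⟩, w.take e, ⟨by rw [List.length_take]; omega, d⟩, List.take_prefix _ _⟩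
  · rintro ⟨e, ⟨a, b⟩, v, ⟨hl, hv⟩, hp⟩
    have hle := hp.length_le
    have e1 : v = w.take e := by rw [← hl]; exact List.prefix_iff_eq_take.1 hp
    exact ⟨e, a, b, by omega, by rw [← e1]; exact hv⟩

/-- finite-state hypotheses -/
structure FS (g : Cfg A S V) (Sw : Set (List A)) (Pm : ℕ) : Prop where
  pm : 0 < Pm
  fs : ∀ q q2 : List A, g.La ≤ q.length → g.La ≤ q2.length → q.take g.La = q2.take g.La →
    q.length % Pm = q2.length % Pm → ev g (q.drop g.La) = ev g (q2.drop g.La) → g.nu q = g.nu q2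
  per : ∀ T, g.Bad (T + Pm) ↔ g.Bad T
  few : ∀ (r : ℕ) (M : Type) [Monoid M] [Finite M] (φ : A → M) (s : M),
    HL 1 ({w | nw g.n Sw w ≤ r ∧ (w.map φ).prod = s} : Language A)

variable {Pm : ℕ}

def NV {M : Type} [Monoid M] (n : ℕ) (Sw : Set (List A)) (r : ℕ) (φ : A → M) (s : M) :
    Language A := {w | nw n Sw w ≤ r ∧ (w.map φ).prod = s}

def W1 (u : List A) : Language A := {u}

def phM (g : Cfg A S V) (Pm : ℕ) (a : A) : S × Multiplicative (ZMod Pm) :=
  (g.f a, Multiplicative.ofAdd 1)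

theorem prod_phM (w : List A) : (w.map (phM g Pm)).prod =
    (ev g w, Multiplicative.ofAdd (w.length : ZMod Pm)) := by
  induction w with
  | nil => simp [ev]; rfl
  | cons a w ih =>
    rw [List.map_cons, List.prod_cons, ih]
    unfold phM ev
    rw [List.map_cons, List.prod_cons, List.length_cons, Prod.mk_mul_mk, ← ofAdd_add]
    congr 2
    push_cast
    ring

theorem prod_phM_eq {w w' : List A} (h : (w.map (phM g Pm)).prod = (w'.map (phM g Pm)).prod) :
    ev g w = ev g w' ∧ w.length % Pm = w'.length % Pm := by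
  rw [prod_phM, prod_phM, Prod.mk.injEq] at h
  refine ⟨h.1, ?_⟩
  have h2 : (w.length : ZMod Pm) = (w'.length : ZMod Pm) := h.2
  exact (ZMod.natCast_eq_natCast_iff' _ _ _).1 h2

theorem HL_inv [Finite S] (hw : WOk g Sw) (hF : FS g Sw Pm) (h : Ok g) (Q : List A → Prop)
    (hQ : ∀ Y1 Y2 : List A, g.p0 + g.La ≤ Y1.length → g.p0 + g.La ≤ Y2.length →
      Y1.take (g.p0 + g.La) = Y2.take (g.p0 + g.La) →
      ev g (Y1.drop (g.p0 + g.La)) = ev g (Y2.drop (g.p0 + g.La)) →
      (Y1.drop (g.p0 + g.La)).length % Pm = (Y2.drop (g.p0 + g.La)).length % Pm →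
      (Q Y1 → Q Y2)) :
    HL 1 ({Y | Y ∈ F g ∧ Q Y} : Language A) := by
  haveI : NeZero Pm := ⟨hF.pm.ne'⟩
  set C := g.p0 + g.La with hC
  have hz := h.hz
  let M := S × Multiplicative (ZMod Pm)
  haveI : Finite M := by
    haveI : Finite (Multiplicative (ZMod Pm)) := inferInstanceAs (Finite (ZMod Pm))
    infer_instance
  let s : Set (List A × M) := {i | i.1.length = C ∧ ∃ Y, Y ∈ F g ∧ Q Y ∧ Y.take C = i.1 ∧
    ((Y.drop C).map (phM g Pm)).prod = i.2}
  have hs : s.Finite := by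
    have h1 : ((({u | u.length = C} : Set (List A))) ×ˢ (Set.univ : Set M)).Finite :=
      (List.finite_length_eq A C).prod Set.finite_univ
    exact h1.subset fun i hi => ⟨hi.1, trivial⟩
  have h1 := HL.biUnion (k := 1) hs (L := fun i => W1 i.1 * NV g.n Sw (g.z + 2) (phM g Pm) i.2)
    (fun i _ => (HL.word i.1).mul (hF.few _ M _ _))
  refine (HL.setOf_and (HL_F hw) h1).congr fun Y => ?_
  constructor
  · rintro ⟨hY, hQY⟩
    have hYl : g.z ≤ Y.length := hY.1
    refine ⟨hY, (Y.take C, ((Y.drop C).map (phM g Pm)).prod),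
      ⟨by rw [List.length_take]; omega, Y, hY, hQY, rfl, rfl⟩, ?_⟩
    refine Language.mem_mul.2 ⟨Y.take C, rfl, Y.drop C, ⟨?_, rfl⟩, List.take_append_drop _ _⟩
    exact (nw_drop _ _ (by omega)).trans (nw_F hw hY)
  · rintro ⟨hY, i, ⟨hi1, Y', hY', hQ', hi3, hi4⟩, hm⟩
    refine ⟨hY, ?_⟩
    have hYl : g.z ≤ Y.length := hY.1
    have hYl' : g.z ≤ Y'.length := hY'.1
    obtain ⟨a, ha, b, ⟨-, hb⟩, hab⟩ := Language.mem_mul.1 hm
    have ha' : a = i.1 := ha
    subst ha'
    have e1 : Y.take C = i.1 := by rw [← hab, ← hi1]; simp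
    have e2 : Y.drop C = b := by rw [← hab, ← hi1]; simp
    rw [← e2] at hb
    obtain ⟨c1, c2⟩ := prod_phM_eq (hi4.trans hb.symm)
    exact hQ Y' Y (by omega) (by omega) (hi3.trans e1.symm) c1 c2 hQ'

theorem bad_mod (hF : FS g Sw Pm) {a b : ℕ} (hab : a % Pm = b % Pm) : g.Bad a → g.Bad b := by
  have hp : Function.Periodic g.Bad Pm := fun x => propext (hF.per x)
  intro h
  rw [← hp.map_mod_nat, ← hab, hp.map_mod_nat]
  exact h

theorem HL_Fb [Finite S] (hw : WOk g Sw) (hF : FS g Sw Pm) (h : Ok g) : HL 1 (Fb g) := by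
  have h1 := HL_inv hw hF h (fun Y => g.Bad (Y.length - g.p0)) (by
    intro Y1 Y2 a1 a2 a3 a4 a5
    refine bad_mod hF ?_
    rw [List.length_drop, List.length_drop] at a5
    have e1 : Y1.length - g.p0 = (Y1.length - (g.p0 + g.La)) + g.La := by omega
    have e2 : Y2.length - g.p0 = (Y2.length - (g.p0 + g.La)) + g.La := by omega
    rw [e1, e2, Nat.add_mod, a5, ← Nat.add_mod])
  refine ((HL.setOf_and (HL_F hw) (HL_EB hw)).setOf_or h1).congr fun w => ?_
  constructor
  · rintro ⟨a, b | b⟩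
    · exact Or.inl ⟨a, b⟩
    · exact Or.inr ⟨a, b⟩
  · rintro (⟨a, b⟩ | ⟨a, b⟩)
    · exact ⟨a, Or.inl b⟩
    · exact ⟨a, Or.inr b⟩

theorem HL_B [Finite S] (hw : WOk g Sw) (hF : FS g Sw Pm) (h : Ok g) : HL 1 (B g) :=
  HL.setOf_and (HL_U hw) (HL.prefix (HL_Fb hw hF h))

def hv (g : Cfg A S V) (x : V) (Y : List A) : V :=
  g.act (g.act x (ev g (Y.take g.p0)) + g.nu2 (Y.take g.p0)) (ev g (Y.drop g.p0)) +
    g.nu (Y.drop g.p0)

def FHv (g : Cfg A S V) (x v : V) : Language A := {Y | Y ∈ F g ∧ hv g x Y = v}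

theorem HL_hv [Finite S] (hw : WOk g Sw) (hF : FS g Sw Pm) (h : Ok g) (x v : V) :
    HL 1 ({Y | Y ∈ F g ∧ hv g x Y = v} : Language A) := by
  refine HL_inv hw hF h (fun Y => hv g x Y = v) ?_
  intro Y1 Y2 a1 a2 a3 a4 a5 hY
  rw [← hY]
  have e1 : ∀ Y : List A, Y.take g.p0 = (Y.take (g.p0 + g.La)).take g.p0 := by
    intro Y; rw [List.take_take, min_eq_left (by omega)]
  have e2 : ∀ Y : List A, Y.drop g.p0 = (Y.take (g.p0 + g.La)).drop g.p0 ++
      Y.drop (g.p0 + g.La) := by
    intro Y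
    by_cases hl : g.p0 ≤ (Y.take (g.p0 + g.La)).length
    · rw [← List.drop_append_of_le_length hl, List.take_append_drop]
    · have : Y.length < g.p0 := by rw [List.length_take] at hl; omega
      rw [List.drop_eq_nil_of_le (by omega), List.drop_eq_nil_of_le (by omega),
        List.drop_eq_nil_of_le (by omega)]
      rfl
  have e3 : ev g (Y1.drop g.p0) = ev g (Y2.drop g.p0) := by
    rw [e2 Y1, e2 Y2, ev_append, ev_append, a3, a4]
  have e4 : g.nu (Y1.drop g.p0) = g.nu (Y2.drop g.p0) := by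
    refine hF.fs _ _ (by rw [List.length_drop]; omega) (by rw [List.length_drop]; omega) ?_ ?_ ?_
    · have : ∀ Y : List A, (Y.drop g.p0).take g.La = (Y.take (g.p0 + g.La)).drop g.p0 := by
        intro Y; rw [List.drop_take]; congr 1; omega
      rw [this, this, a3]
    · rw [List.length_drop, List.length_drop] at a5 ⊢
      have e1 : Y1.length - g.p0 = (Y1.length - (g.p0 + g.La)) + g.La := by omega
      have e2 : Y2.length - g.p0 = (Y2.length - (g.p0 + g.La)) + g.La := by omega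
      rw [e1, e2, Nat.add_mod, a5, ← Nat.add_mod]
    · rw [List.drop_drop, List.drop_drop]; exact a4
  unfold hv
  rw [e3, e4, e1 Y1, e1 Y2, a3]

theorem T_hv {X : List A} {t : ℕ} (h : Ok g) (hX : IsT g X t) (x : V) :
    T g X x = g.act (hv g x (X.take t)) (ev g (X.drop t)) := by
  rw [T_eq hX]
  unfold TY hv
  have hz := h.hz
  have h1 := hX.1
  have e : (X.take t).take g.p0 = X.take g.p0 := by
    rw [List.take_take, min_eq_left (by omega)]
  rw [e]

theorem HL_UT [Finite S] [Finite V] (hw : WOk g Sw) (hF : FS g Sw Pm) (h : Ok g) (x y : V) :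
    HL 1 ({X | X ∈ U g ∧ T g X x = y} : Language A) := by
  have h1 := HL.iUnion (k := 1) (ι := {i : V × S // g.act i.1 i.2 = y})
    (L := fun i => FHv g x i.1.1 * NV g.n Sw (g.z + 2) g.f i.1.2)
    (fun i => (HL_hv hw hF h x i.1.1).mul (hF.few _ S _ _))
  refine (HL.setOf_and (HL_U hw) h1).congr fun X => ?_
  constructor
  · rintro ⟨⟨t, ht⟩, hT⟩
    rw [T_hv h ht] at hT
    refine ⟨⟨t, ht⟩, ⟨(hv g x (X.take t), ev g (X.drop t)), hT⟩, ?_⟩
    refine Language.mem_mul.2 ⟨X.take t, ⟨take_mem_F ht, rfl⟩, X.drop t, ⟨?_, rfl⟩,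
      List.take_append_drop _ _⟩
    exact (nw_drop _ _ ht.2.1.le).trans (nw_U hw ⟨t, ht⟩)
  · rintro ⟨⟨t, ht⟩, ⟨i, hi⟩, hm⟩
    refine ⟨⟨t, ht⟩, ?_⟩
    obtain ⟨Y, ⟨hY, hYv⟩, D, ⟨-, hD⟩, rfl⟩ := Language.mem_mul.1 hm
    have e := F_unique ht hY (List.prefix_append _ _)
    rw [T_hv h ht, ← e, hYv]
    have e2 : (Y ++ D).drop t = D := by
      have hl : Y.length = t := by
        have := congrArg List.length e
        rw [List.length_take] at this
        have := ht.2.1
        omega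
      rw [← hl]; simp
    rw [e2]
    show g.act i.1 (ev g D) = y
    have : ev g D = i.2 := hD
    rw [this]; exact hi

theorem finP1 [Finite V] (h : Ok g) (x : V) : (P1 g x : Set (List A)).Finite := by
  refine (List.finite_length_le A (g.p0 + g.N1)).subset ?_
  rintro P ⟨h1, h2⟩
  have := h.lamN _ _ h2
  rw [List.length_drop] at this
  show P.length ≤ _
  omega

theorem finP2 [Finite V] (h : Ok g) (x : V) : (P2 g x : Set (List A)).Finite := by
  refine (List.finite_length_le A (g.s0 + g.Lc)).subset ?_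
  rintro P ⟨k, hk, h1, -⟩
  have := h.hc k hk
  show P.length ≤ _
  omega

theorem HL_R1 [Finite S] [Finite V] (hw : WOk g Sw) (hF : FS g Sw Pm) (h : Ok g) (y : V) :
    HL 1 (R1 g y) := by
  have h1 := HL.iUnion (k := 1) (ι := V) (fun x => HL.biUnion (finP1 h x)
    (L := fun p => ({Q | p ++ Q ∈ U g} : Language A)) (fun p _ => (HL_U hw).lquot p))
  have h2 := HL.iInter (k := 1) (ι := V) (fun x => HL.biInter (finP1 h x)
    (L := fun p => ({Q | p ++ Q ∈ ({X | X ∈ U g ∧ T g X x = y} : Language A)} : Language A))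
    (fun p _ => (HL_UT hw hF h x y).lquot p))
  exact (HL.setOf_and h1 h2).congr fun w => Iff.rfl

theorem HL_R2 [Finite S] [Finite V] (hw : WOk g Sw) (hF : FS g Sw Pm) (h : Ok g) (y : V) :
    HL 1 (R2 g y) := by
  have h1 := HL.iUnion (k := 1) (ι := V) (fun x => HL.biUnion (finP2 h x)
    (L := fun p => ({Q | p ++ Q ∈ U g} : Language A)) (fun p _ => (HL_U hw).lquot p))
  have h2 := HL.iInter (k := 1) (ι := V) (fun x => HL.biInter (finP2 h x)
    (L := fun p => ({Q | p ++ Q ∈ ({X | X ∈ U g ∧ T g X x = y} : Language A) ∨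
      ¬ (p ++ Q ∈ ({w | ∃ Y ∈ Fb g, Y <+: w} : Language A))} : Language A))
    (fun p _ => HL.setOf_or ((HL_UT hw hF h x y).lquot p)
      ((HL.prefix (HL_Fb hw hF h)).lquot p).setOf_not))
  exact (HL.setOf_and h1 h2).congr fun w => Iff.rfl

theorem HL_rest [Finite S] (hw : WOk g Sw) (hF : FS g Sw Pm) (m : S) :
    HL 1 (Rest g.f (U g) m) := by
  refine (HL.setOf_and (HL.prefix (HL_U hw)).setOf_not (hF.few (g.z + 2) S g.f m)).congr
    fun r => ?_
  constructor
  · rintro ⟨h1, h2⟩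
    exact ⟨fun ⟨v, hv, hp⟩ => h1 v hv hp, nw_rest hw h1, h2⟩
  · rintro ⟨h1, h2, h3⟩
    exact ⟨fun z hz hp => h1 ⟨z, hz, hp⟩, h3⟩

/-- **top**: a complete configuration gives height 3 -/
theorem top [Finite S] [Finite V] (hw : WOk g Sw) (hF : FS g Sw Pm) (h : Ok g)
    (h1 : ∀ v, g.act v 1 = v) (hfaith : ∀ s s', (∀ v, g.act v s = g.act v s') → s = s') (m : S) :
    HL 3 ({w | (w.map g.f).prod = m} : Language A) := by
  refine two_levels (k := 1) g.f h.pcU (fun z hz => hz.1) h.level1 h.level2 ?_ ?_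
    (HL_U hw) (HL_B hw hF h) (fun x => HL.finite (finP1 h x)) (HL_R1 hw hF h)
    (fun x => HL.finite (finP2 h x)) (HL_R2 hw hF h) (HL_rest hw hF) m
  · intro l l' hl hl' hrun
    refine hfaith _ _ fun v => ?_
    have a := hrun v
    have b := hrun 0
    rw [Run_aff h h1 l hl v, Run_aff h h1 l' hl' v, b] at a
    exact add_right_cancel a
  · intro l l' _ _ hrun
    exact hrun

end HLs

end Crest.Agent.R320.Joint2_174
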