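import Crest.Agent.R320.Joint_236

/-!
# Row 320: final joint, regularity and heights (helper236)
-/

set_option autoImplicit false

namespace Crest.Agent.R320.Joint_236

open Crest.RegLang Crest.Agent.R320.Hk_851 Crest.Agent.R320.Half1_180
  Crest.Agent.R320.ExactR_237 Crest.Agent.R320.Reg_819

variable {α S V : Type}

theorem reg_iUnion {ι : Type} [Finite ι] {L : ι → Language α} (h : ∀ i, (L i).IsRegular) :
    (Lg fun w => ∃ i, w ∈ L i).IsRegular := by
  classical
  have := Fintype.ofFinite ι
  have key : ∀ s : Finset ι, (Lg fun w => ∃ i ∈ s, w ∈ L i).IsRegular := by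
    intro s
    induction s using Finset.induction_on with
    | empty =>
      have e : (Lg fun w => ∃ i ∈ (∅ : Finset ι), w ∈ L i) = 0 := by
        ext w
        constructor
        · rintro ⟨i, hi, _⟩
          simp at hi
        · intro h; exact h.elim
      rw [e]; exact reg_zero
    | insert a s ha ih =>
      have e : (Lg fun w => ∃ i ∈ insert a s, w ∈ L i) = L a + (Lg fun w => ∃ i ∈ s, w ∈ L i) := by
        ext w
        constructor
        · rintro ⟨i, hi, hw⟩
          rcases Finset.mem_insert.1 hi with rfl | hi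
          · exact Or.inl hw
          · exact Or.inr ⟨i, hi, hw⟩
        · rintro (hw | ⟨i, hi, hw⟩)
          · exact ⟨a, Finset.mem_insert_self _ _, hw⟩
          · exact ⟨i, Finset.mem_insert_of_mem hi, hw⟩
      rw [e]; exact (h a).add ih
  have h1 := key Finset.univ
  have e : (Lg fun w => ∃ i ∈ (Finset.univ : Finset ι), w ∈ L i) = Lg fun w => ∃ i, w ∈ L i := by
    ext w
    constructor
    · rintro ⟨i, _, hw⟩; exact ⟨i, hw⟩
    · rintro ⟨i, hw⟩; exact ⟨i, Finset.mem_univ _, hw⟩
  rw [← e]; exact h1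

theorem reg_congr {p q : List α → Prop} (h : (Lg p).IsRegular) (e : ∀ w, q w ↔ p w) :
    (Lg q).IsRegular := by
  have : Lg q = Lg p := by ext w; exact e w
  rw [this]; exact h

theorem reg_and {p q : List α → Prop} (h : (Lg p).IsRegular) (h' : (Lg q).IsRegular) :
    (Lg fun w => p w ∧ q w).IsRegular := by
  have : (Lg fun w => p w ∧ q w) = Lg p ⊓ Lg q := by ext w; exact Iff.rfl
  rw [this]; exact h.inf h'

theorem reg_or {p q : List α → Prop} (h : (Lg p).IsRegular) (h' : (Lg q).IsRegular) :
    (Lg fun w => p w ∨ q w).IsRegular := by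
  have : (Lg fun w => p w ∨ q w) = Lg p + Lg q := by ext w; exact Iff.rfl
  rw [this]; exact h.add h'

theorem reg_const (p : Prop) : (Lg fun _ : List α => p).IsRegular :=
  HL.regular (HL.const (k := 0) p)

/-- finite-valued functions with regular fibres -/
def RegF {F : Type} (κ : List α → F) : Prop := ∀ a, (Lg fun Y => κ Y = a).IsRegular

theorem RegF.set {F : Type} [Finite F] {κ : List α → F} (h : RegF κ) (p : F → Prop) :
    (Lg fun Y => p (κ Y)).IsRegular := by
  refine reg_congr (reg_iUnion (ι := F) (L := fun a => Lg fun Y => κ Y = a ∧ p a)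
    fun a => reg_and (h a) (reg_const _)) fun w => ?_
  constructor
  · intro hw; exact ⟨κ w, rfl, hw⟩
  · rintro ⟨a, hw, hp⟩
    have hw' : κ w = a := hw
    rw [hw']; exact hp

theorem RegF.pair {F G : Type} {κ : List α → F} {τ : List α → G} (h : RegF κ) (h' : RegF τ) :
    RegF fun Y => (κ Y, τ Y) := by
  rintro ⟨a, b⟩
  refine reg_congr (reg_and (h a) (h' b)) fun w => ?_
  simp

theorem regF_pr [Monoid S] [Finite S] (f : α → S) : RegF (pr f) := by
  intro a
  have h := Crest.R320.Reg_143.isRegular_monoid f (fun m => m = a)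
  exact h

/-- prefix of fixed length -/
theorem reg_prefix [Finite α] (p0 : ℕ) (p : List α → List α → Prop)
    (h : ∀ X1 : List α, X1.length = p0 → (Lg fun Y => p X1 Y).IsRegular) :
    (Lg fun X => p0 ≤ X.length ∧ p (X.take p0) (X.drop p0)).IsRegular := by
  have hfin : Finite {X1 : List α // X1.length = p0} := (List.finite_length_eq α p0).to_subtype
  refine reg_congr (reg_iUnion (ι := {X1 : List α // X1.length = p0})
    (L := fun X1 => ({X1.1} : Language α) * Lg fun Y => p X1.1 Y)
    fun X1 => reg_mul (HL.regular (HL.word (k := 0) X1.1)) (h X1.1 X1.2)) fun X => ?_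
  constructor
  · rintro ⟨h1, h2⟩
    refine ⟨⟨X.take p0, by rw [List.length_take]; omega⟩, ?_⟩
    exact Language.mem_mul.2 ⟨X.take p0, rfl, X.drop p0, h2, List.take_append_drop _ _⟩
  · rintro ⟨⟨X1, hX1⟩, hX⟩
    obtain ⟨a, ha, b, hb, rfl⟩ := Language.mem_mul.1 hX
    have ha' : a = X1 := ha
    subst ha'
    have e1 : (a ++ b).take p0 = a := by rw [← hX1]; exact List.take_left
    have e2 : (a ++ b).drop p0 = b := by rw [← hX1]; exact List.drop_left
    refine ⟨by rw [List.length_append]; omega, ?_⟩
    rw [e1, e2]; exact hb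

variable {Wo : List α → Prop} {n : ℕ}

theorem hl_Wo [Finite α] {k : ℕ}
    (loc : ∀ P Q : List α, n ≤ Q.length → (Wo (P ++ Q) ↔ Wo Q))
    (len : ∀ P : List α, Wo P → n ≤ P.length) : HL k (Lg Wo) := by
  have hf : {q : List α | q.length = n ∧ Wo q}.Finite :=
    (List.finite_length_eq α n).subset fun q hq => hq.1
  refine ((HL.top (α := α) (k := k)).mul (HL.finite hf)).congr fun w => ?_
  constructor
  · intro hw
    have h1 := len w hw
    have h2 : n ≤ (w.drop (w.length - n)).length := by rw [List.length_drop]; omega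
    refine Language.mem_mul.2 ⟨w.take (w.length - n), trivial, w.drop (w.length - n),
      ⟨by rw [List.length_drop]; omega, ?_⟩, List.take_append_drop _ _⟩
    refine (loc (w.take (w.length - n)) _ h2).1 ?_
    rw [List.take_append_drop]; exact hw
  · intro hw
    obtain ⟨a, _, b, ⟨hb1, hb2⟩, rfl⟩ := Language.mem_mul.1 hw
    exact (loc a b (by omega)).2 hb2

theorem hl_XX [Finite α] {k : ℕ} (z : ℕ)
    (loc : ∀ P Q : List α, n ≤ Q.length → (Wo (P ++ Q) ↔ Wo Q))
    (len : ∀ P : List α, Wo P → n ≤ P.length) : HL k (Lg fun X => X ∈ XX Wo z) := by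
  have hW : HL k (Lg Wo) := hl_Wo loc len
  have hz : HL k (Lg fun X : List α => z ≤ X.length) := HL.length_ge z
  have h0 : HL k (Lg fun X : List α => 1 ≤ X.length) := HL.length_ge 1
  have h1 : HL k ((Lg fun X => z ≤ X.length ∧ Wo X) * Lg fun X : List α => 1 ≤ X.length) :=
    (HL.setOf_and hz hW).mul h0
  refine ((hz.inf hW).inf h1.compl).congr fun X => ?_
  constructor
  · rintro ⟨a1, a2, a3⟩
    refine ⟨⟨a1, a2⟩, fun hm => ?_⟩
    obtain ⟨a, ⟨ha1, ha2⟩, b, hb, rfl⟩ := Language.mem_mul.1 hm
    have hb' : 1 ≤ b.length := hb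
    refine a3 a.length ha1 (by rw [List.length_append]; omega) ?_
    rw [List.take_left]; exact ha2
  · rintro ⟨⟨a1, a2⟩, a3⟩
    refine ⟨a1, a2, fun t h1 h2 h3 => a3 ?_⟩
    refine Language.mem_mul.2 ⟨X.take t, ⟨by rw [List.length_take]; omega, h3⟩, X.drop t, ?_,
      List.take_append_drop _ _⟩
    change 1 ≤ (X.drop t).length
    rw [List.length_drop]; omega

theorem hl_EB [Finite α] {k : ℕ} (z N1 : ℕ)
    (loc : ∀ P Q : List α, n ≤ Q.length → (Wo (P ++ Q) ↔ Wo Q))
    (len : ∀ P : List α, Wo P → n ≤ P.length) : HL k (Lg fun X => EB Wo z N1 X) := by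
  have hW : HL k (Lg Wo) := hl_Wo loc len
  have h1 : HL k (Lg fun X : List α => z - N1 ≤ X.length) := HL.length_ge _
  have h2 : HL k (Lg fun X : List α => X.length < z + N1) := HL.length_lt _
  refine ((HL.setOf_and (HL.setOf_and h1 h2) hW).mul (HL.top (α := α) (k := k))).congr fun X => ?_
  constructor
  · rintro ⟨t, a1, a2, a3, a4⟩
    have hl : (X.take t).length = t := by rw [List.length_take]; omega
    refine Language.mem_mul.2 ⟨X.take t, ⟨⟨?_, ?_⟩, a4⟩, X.drop t, trivial,
      List.take_append_drop _ _⟩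
    · change z - N1 ≤ (X.take t).length
      omega
    · change (X.take t).length < z + N1
      omega
  · intro hX
    obtain ⟨a, ⟨⟨ha1, ha2⟩, ha3⟩, b, _, rfl⟩ := Language.mem_mul.1 hX
    refine ⟨a.length, ha1, ha2, by rw [List.length_append]; omega, ?_⟩
    rw [List.take_left]; exact ha3

/-- few walls in a block -/
theorem nw_le {SS : Set (List α)} {w : List α} {z : ℕ}
    (h : ∀ t, z ≤ t → t < w.length → ¬ WallU_228.Wo n SS (w.take t)) :
    FewWalls_228.nw n SS w ≤ z + 1 := by
  classical
  unfold FewWalls_228.nw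
  have hsub : ((Finset.range (w.length + 1)).filter (fun x => FewWalls_228.Wl n SS w x)) ⊆
      insert (w.length - n) (Finset.range z) := by
    intro x hx
    rw [Finset.mem_filter] at hx
    obtain ⟨h1, h2⟩ := WallU_228.wo_take.1 hx.2
    rw [Finset.mem_insert, Finset.mem_range]
    by_contra hc
    push Not at hc
    exact h (x + n) (by omega) (by omega) h2
  refine (Finset.card_le_card hsub).trans ((Finset.card_insert_le _ _).trans ?_)
  rw [Finset.card_range]

end Crest.Agent.R320.Joint_236
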