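import Mathlib

/-!
# Row 320: spoiled places of the promise ruler, natural chain rule (helper369)

`A` = wall positions of the text of two blocks (anchor at `0`), `c` = ruler.
-/

set_option autoImplicit false

namespace Crest.Agent.R320.Joint369

open Finset

theorem spoiled {A : ℕ → Prop} {W Cm N z p0 K C0 : ℕ} {c : ℕ → ℕ} {BT : ℕ → Prop}
    (hsep : ∀ s t, A s → A t → s < t → s + W < t) (hW : 2 * Cm + 2 * N ≤ W)
    (hA : ∃ w, z + Cm < w ∧ A w) (hz : p0 + 2 * Cm + N ≤ z) (hc : ∀ k < K, c k ≤ Cm)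
    (hgol : ∀ i j k l, i < K → j < K → k < K → l < K → i ≠ j → k ≠ l → ¬ (i = k ∧ j = l) →
      (2 * N : ℤ) ≤ |((c i : ℤ) - c j) - (c k - c l)|)
    (hsp : ∀ T : ℕ, (∀ i < K, c i ≤ T) → ∀ F : Finset (ℕ × ℕ),
      (∀ ij ∈ F, ij.1 < K ∧ ij.2 < K ∧ ij.1 ≠ ij.2 ∧ BT (T + c ij.2 - c ij.1)) → F.card ≤ C0) :
    ∃ Am : Finset ℕ, Am.card ≤ 1 + 2 * C0 ∧ ∀ k < K, k ∉ Am → ∀ k' < K, k' ≠ k →
      (¬ ∃ s, z + c k ≤ s + N + c k' ∧ s + c k' < z + N + c k ∧ A s) ∧
      ∀ w, A w → z + c k ≤ w + c k' → (∀ t, z + c k ≤ t + c k' → t < w → ¬ A t) →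
        ¬ BT (w - p0 + c k' - c k) := by
  classical
  have hex1 : ∃ w, z - Cm ≤ w ∧ A w := by
    obtain ⟨w, h1, h2⟩ := hA
    exact ⟨w, by omega, h2⟩
  have hex2 : ∃ w, z + Cm < w ∧ A w := hA
  set e1 := Nat.find hex1 with he1
  set e2 := Nat.find hex2 with he2
  have he1s := Nat.find_spec hex1
  have he2s := Nat.find_spec hex2
  rw [← he1] at he1s
  rw [← he2] at he2s
  let Pr : Finset (ℕ × ℕ) := (Finset.range K ×ˢ Finset.range K).filter (fun ij => ij.1 ≠ ij.2)
  let F0 := Pr.filter (fun ij => ∃ s, z + c ij.1 ≤ s + N + c ij.2 ∧ s + c ij.2 < z + N + c ij.1 ∧ A s)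
  let F1 := Pr.filter (fun ij => BT (e1 - p0 + c ij.2 - c ij.1))
  let F2 := Pr.filter (fun ij => BT (e2 - p0 + c ij.2 - c ij.1))
  have hPr : ∀ ij ∈ Pr, ij.1 < K ∧ ij.2 < K ∧ ij.1 ≠ ij.2 := by
    intro ij h
    simp only [Pr, Finset.mem_filter, Finset.mem_product, Finset.mem_range] at h
    exact ⟨h.1.1, h.1.2, h.2⟩
  have hF0 : F0.card ≤ 1 := by
    rw [Finset.card_le_one]
    intro a ha b hb
    obtain ⟨ha1, s, h1, h2, h3⟩ := Finset.mem_filter.1 ha
    obtain ⟨hb1, s', h1', h2', h3'⟩ := Finset.mem_filter.1 hb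
    obtain ⟨a1, a2, a3⟩ := hPr a ha1
    obtain ⟨b1, b2, b3⟩ := hPr b hb1
    have ca1 := hc _ a1
    have ca2 := hc _ a2
    have cb1 := hc _ b1
    have cb2 := hc _ b2
    have hss : s = s' := by
      rcases Nat.lt_trichotomy s s' with h | h | h
      · have := hsep s s' h3 h3' h
        omega
      · exact h
      · have := hsep s' s h3' h3 h
        omega
    subst hss
    by_contra hne
    have := hgol a.1 a.2 b.1 b.2 a1 a2 b1 b2 a3 b3 (fun h => hne (Prod.ext h.1 h.2))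
    rcases le_or_gt 0 (((c a.1 : ℤ) - c a.2) - (c b.1 - c b.2)) with h | h
    · rw [abs_of_nonneg h] at this
      omega
    · rw [abs_of_neg h] at this
      omega
  have hF1 : F1.card ≤ C0 := by
    refine hsp (e1 - p0) (fun i hi => ?_) F1 (fun ij h => ?_)
    · have := hc i hi
      omega
    · obtain ⟨h1, h2⟩ := Finset.mem_filter.1 h
      obtain ⟨a1, a2, a3⟩ := hPr ij h1
      exact ⟨a1, a2, a3, h2⟩
  have hF2 : F2.card ≤ C0 := by
    refine hsp (e2 - p0) (fun i hi => ?_) F2 (fun ij h => ?_)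
    · have := hc i hi
      omega
    · obtain ⟨h1, h2⟩ := Finset.mem_filter.1 h
      obtain ⟨a1, a2, a3⟩ := hPr ij h1
      exact ⟨a1, a2, a3, h2⟩
  refine ⟨(F0 ∪ (F1 ∪ F2)).image Prod.fst, ?_, ?_⟩
  · calc ((F0 ∪ (F1 ∪ F2)).image Prod.fst).card ≤ (F0 ∪ (F1 ∪ F2)).card := Finset.card_image_le
      _ ≤ F0.card + (F1 ∪ F2).card := Finset.card_union_le _ _
      _ ≤ F0.card + (F1.card + F2.card) := by
          have := Finset.card_union_le F1 F2
          omega
      _ ≤ 1 + 2 * C0 := by omega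
  · intro k hk hkA k' hk' hne
    have hmem : (k, k') ∈ Pr := by
      simp only [Pr, Finset.mem_filter, Finset.mem_product, Finset.mem_range]
      exact ⟨⟨hk, hk'⟩, fun h => hne h.symm⟩
    have hnot : (k, k') ∉ F0 ∪ (F1 ∪ F2) := fun h =>
      hkA (Finset.mem_image.2 ⟨(k, k'), h, rfl⟩)
    have ck := hc k hk
    have ck' := hc k' hk'
    refine ⟨fun h => hnot (Finset.mem_union_left _ (Finset.mem_filter.2 ⟨hmem, h⟩)), ?_⟩
    intro w hw hθ hfirst hB
    have hcase : w = e1 ∨ w = e2 := by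
      by_cases hwz : z + Cm < w
      · right
        have h1 : e2 ≤ w := Nat.find_min' hex2 ⟨hwz, hw⟩
        rcases Nat.lt_or_ge e2 w with h2 | h2
        · exact absurd he2s.2 (hfirst e2 (by omega) h2)
        · omega
      · left
        have h1 : e1 ≤ w := Nat.find_min' hex1 ⟨by omega, hw⟩
        rcases Nat.lt_or_ge e1 w with h2 | h2
        · have := hsep e1 w he1s.2 hw h2
          omega
        · omega
    rcases hcase with rfl | rfl
    · exact hnot (Finset.mem_union_right _ (Finset.mem_union_left _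
        (Finset.mem_filter.2 ⟨hmem, hB⟩)))
    · exact hnot (Finset.mem_union_right _ (Finset.mem_union_right _
        (Finset.mem_filter.2 ⟨hmem, hB⟩)))

end Crest.Agent.R320.Joint369
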