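import Crest.Agent.R320.Joint_369
import Crest.Agent.R320.Spo_369

/-!
# Row 320: scheme 2 (promise ruler) in the block form of `Top5_120` (helper369)
-/

set_option autoImplicit false

namespace Crest.Agent.R320.Joint369

open Finset

variable {α S V : Type*} [Monoid S] [AddCommGroup V]

/-- left words of scheme 2 -/
def LL2 (lamE : ℕ → List α → Option V) (c : ℕ → ℕ) (K : ℕ) (v : V) : Set (List α) :=
  {P | ∃ k < K, P.length = c k ∧ lamE k P = some v}

theorem cc2 {Wo : List α → Prop} {z N p0 n Cm W K C0 R : ℕ} {c : ℕ → ℕ} {BT : ℕ → Prop}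
    (loc : ∀ P Q : List α, n ≤ Q.length → (Wo (P ++ Q) ↔ Wo Q))
    (sep : ∀ (P : List α) (d : ℕ), Wo P → 0 < d → d ≤ W → ¬ Wo (P.take (P.length - d)))
    (φ : α → S) (act : V → S → V) (nu2 nu1 : List α → V)
    (lamE rhoE : ℕ → List α → Option V)
    (hadd : ∀ a b s, act (a + b) s = act a s + act b s)
    (hmul : ∀ v s t, act v (s * t) = act (act v s) t)
    (hsE : ∀ k < K, ∀ (P Q : List α) (v b : V), P.length = c k → lamE k P = some v →
      rhoE k Q = some b → b = act v (pr φ (P ++ Q)) + nu2 (P ++ Q))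
    (hcE : ∀ (u : List α) (v : V), (∀ k < K, c k ≤ u.length) →
      ∃ I : Finset ℕ, R ≤ I.card ∧ ∀ k ∈ I, k < K ∧ lamE k (u.take (c k)) = some v ∧
        (rhoE k (u.drop (c k))).isSome)
    (hR : 1 + 2 * C0 < R) (hW : 2 * Cm + 2 * N ≤ W)
    (hc : ∀ k < K, c k ≤ Cm) (hp0 : Cm ≤ p0)
    (hgol : ∀ i j k l, i < K → j < K → k < K → l < K → i ≠ j → k ≠ l → ¬ (i = k ∧ j = l) →
      (2 * N : ℤ) ≤ |((c i : ℤ) - c j) - (c k - c l)|)
    (hsp : ∀ T : ℕ, (∀ i < K, c i ≤ T) → ∀ F : Finset (ℕ × ℕ),
      (∀ ij ∈ F, ij.1 < K ∧ ij.2 < K ∧ ij.1 ≠ ij.2 ∧ BT (T + c ij.2 - c ij.1)) → F.card ≤ C0)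
    (hz : p0 + 2 * Cm + 2 * N + n + 1 ≤ z)
    (X : List α) (hX : X ∈ Bd Wo z N p0 BT) (Y : List α) (hY : Y ∈ Bd Wo z N p0 BT) (v : V) :
    ∃ P Q, P ++ Q = X ++ Y ∧ P ∈ LL2 lamE c K v ∧
      ∀ x, ∀ P' ∈ LL2 lamE c K x,
        (∃ X' ∈ Bd Wo z N p0 BT, ∃ Y' ∈ CC Wo z, X' ++ Y' = P' ++ Q ∧
          act (act x (pr φ X') + nuX φ act nu2 nu1 p0 X') (pr φ Y') + nuX φ act nu2 nu1 p0 Y' =
            act (act v (pr φ X) + nuX φ act nu2 nu1 p0 X) (pr φ Y) + nuX φ act nu2 nu1 p0 Y) ∨
        (∃ X' ∈ CC Wo z, X' ∉ Bd Wo z N p0 BT ∧ X' <+: P' ++ Q) := by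
  obtain ⟨hXC, hXb⟩ := hX
  have hYC := hY.1
  have hXC' := hXC
  obtain ⟨hX1, hX2, hX3⟩ := hXC
  obtain ⟨hY1, hY2, hY3⟩ := hYC
  -- walls of the text of two blocks
  let A : ℕ → Prop := fun s => s ≤ (X ++ Y).length ∧ Wo ((X ++ Y).take s)
  have hUl : (X ++ Y).length = X.length + Y.length := List.length_append
  have hAU : A (X ++ Y).length := by
    refine ⟨le_rfl, ?_⟩
    rw [List.take_length, loc _ _ (by omega)]
    exact hY2
  have hsepA : ∀ s t, A s → A t → s < t → s + W < t := by
    intro s t hs ht hst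
    by_contra h
    have hl : ((X ++ Y).take t).length = t := by
      rw [List.length_take]
      have := ht.1
      omega
    refine sep _ (t - s) ht.2 (by omega) (by omega) ?_
    rw [hl, List.take_take]
    have e : min (t - (t - s)) t = s := by omega
    rw [e]
    exact hs.2
  obtain ⟨Am, hAm, hAm2⟩ := spoiled (A := A) (BT := BT) (C0 := C0) (c := c) (K := K) (z := z)
    (p0 := p0) hsepA hW ⟨_, by omega, hAU⟩ (by omega) hc hgol hsp
  obtain ⟨I, hI, hI2⟩ := hcE (X.take p0) v (fun k hk => by
    have := hc k hk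
    rw [List.length_take]
    omega)
  have hex : ∃ k ∈ I, k ∉ Am := by
    by_contra h
    push Not at h
    have := Finset.card_le_card (show I ⊆ Am from h)
    omega
  obtain ⟨k, hkI, hkA⟩ := hex
  obtain ⟨hk, hlk, hrk⟩ := hI2 k hkI
  obtain ⟨b, hb⟩ := Option.isSome_iff_exists.1 hrk
  have hck := hc k hk
  have htl : (X.take p0).length = p0 := by rw [List.length_take]; omega
  have e1 : (X.take p0).take (c k) = X.take (c k) := by
    rw [List.take_take, Nat.min_eq_left (by omega)]
  rw [e1] at hlk
  have hPl : (X.take (c k)).length = c k := by rw [List.length_take]; omega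
  refine ⟨X.take (c k), X.drop (c k) ++ Y, ?_, ⟨k, hk, hPl, hlk⟩, ?_⟩
  · rw [← List.append_assoc, List.take_append_drop]
  rintro x P' ⟨k', hk', hP'l, hlP'⟩
  have hck' := hc k' hk'
  have hdl : (X.drop (c k)).length = X.length - c k := List.length_drop
  by_cases hkk : k' = k
  · -- the same place
    left
    subst hkk
    have hX'l : (P' ++ X.drop (c k')).length = X.length := by
      rw [List.length_append, hP'l, hdl]; omega
    -- walls at places `≥ n + c k'` agree
    have hag : ∀ t, n + c k' ≤ t → t ≤ X.length →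
        (Wo ((P' ++ X.drop (c k')).take t) ↔ Wo (X.take t)) := by
      intro t ht htl
      have e : t = P'.length + (t - c k') := by omega
      have h := wo_shift loc P' (X.take (c k')) (X.drop (c k')) (t - c k') (by omega)
        (by rw [hdl]; omega)
      rw [hPl, List.take_append_drop] at h
      rw [hP'l] at h
      have e2 : c k' + (t - c k') = t := by omega
      rw [e2] at h
      exact h
    have hX'C : P' ++ X.drop (c k') ∈ CC Wo z := by
      refine ⟨by rw [hX'l]; exact hX1, ?_, ?_⟩
      · have h := hag X.length (by omega) le_rfl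
        rw [List.take_length] at h
        rw [← List.take_length (l := P' ++ X.drop (c k')), hX'l]
        exact h.2 hX2
      · intro t ht htl
        rw [hX'l] at htl
        rw [hag t (by omega) htl.le]
        exact hX3 t ht htl
    have hX'B : P' ++ X.drop (c k') ∈ Bd Wo z N p0 BT := by
      refine ⟨hX'C, ?_⟩
      rcases hXb with ⟨t, h1, h2, h3, h4⟩ | h
      · left
        exact ⟨t, h1, h2, by rw [hX'l]; exact h3, (hag t (by omega) h3).2 h4⟩
      · right
        rw [hX'l]; exact h
    have hT : act x (pr φ (P' ++ X.drop (c k'))) + nuX φ act nu2 nu1 p0 (P' ++ X.drop (c k')) =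
        act v (pr φ X) + nuX φ act nu2 nu1 p0 X := by
      have ed : (P' ++ X.drop (c k')).drop p0 = X.drop p0 := by
        rw [List.drop_append, List.drop_eq_nil_of_le (by omega), List.nil_append, List.drop_drop,
          hP'l]
        congr 1
        omega
      have et : (P' ++ X.drop (c k')).take p0 = P' ++ (X.take p0).drop (c k') := by
        rw [List.take_append, List.take_of_length_le (by omega), hP'l, List.drop_take]
      rw [T_eq φ act nu2 nu1 p0 hadd hmul, T_eq φ act nu2 nu1 p0 hadd hmul, ed]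
      congr 2
      unfold fr
      rw [et, ← hsE k' hk' P' _ x b hP'l hlP' hb]
      have h := hsE k' hk' (X.take (c k')) ((X.take p0).drop (c k')) v b hPl hlk hb
      rw [← e1, List.take_append_drop] at h
      exact h
    refine ⟨P' ++ X.drop (c k'), hX'B, Y, hY.1, ?_, ?_⟩
    · rw [List.append_assoc]
    · rw [hT]
  · -- another place : the first block of the candidate is not bad
    right
    obtain ⟨hnear, hend⟩ := hAm2 k hk hkA k' hk' hkk
    have hUk : (X ++ Y).take (c k) ++ (X.drop (c k) ++ Y) = X ++ Y := by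
      rw [List.take_append_of_le_length (by omega), ← List.append_assoc, List.take_append_drop]
    have hUkl : ((X ++ Y).take (c k)).length = c k := by
      rw [List.length_take]; omega
    have hQl : (X.drop (c k) ++ Y).length = X.length + Y.length - c k := by
      rw [List.length_append, hdl]; omega
    have hU'l : (P' ++ (X.drop (c k) ++ Y)).length = X.length + Y.length - c k + c k' := by
      rw [List.length_append, hP'l, hQl]; omega
    have hag : ∀ t, n + c k' ≤ t → t + c k ≤ X.length + Y.length + c k' →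
        (Wo ((P' ++ (X.drop (c k) ++ Y)).take t) ↔ Wo ((X ++ Y).take (t + c k - c k'))) := by
      intro t ht htl
      have h := wo_shift loc P' ((X ++ Y).take (c k)) (X.drop (c k) ++ Y) (t - c k') (by omega)
        (by rw [hQl]; omega)
      rw [hUk, hUkl, hP'l] at h
      have e2 : c k' + (t - c k') = t := by omega
      have e3 : c k + (t - c k') = t + c k - c k' := by omega
      rw [e2, e3] at h
      exact h
    obtain ⟨e, he1, he2, he3, he4, he5⟩ := first_block (Wo := Wo) (z := z)
      (U := P' ++ (X.drop (c k) ++ Y)) (w := X.length + Y.length - c k + c k')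
      (by omega) (by omega) (by
        rw [hag _ (by omega) (by omega)]
        have e3 : X.length + Y.length - c k + c k' + c k - c k' = (X ++ Y).length := by
          rw [hUl]; omega
        rw [e3]
        exact hAU.2)
    have hel : ((P' ++ (X.drop (c k) ++ Y)).take e).length = e := by
      rw [List.length_take]; omega
    refine ⟨_, he5, ?_, List.take_prefix _ _⟩
    rintro ⟨-, ⟨t, h1, h2, h3, h4⟩ | hBT⟩
    · rw [hel] at h3
      rw [List.take_take, Nat.min_eq_left h3, hag t (by omega) (by omega)] at h4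
      exact hnear ⟨t + c k - c k', by omega, by omega, by rw [hUl]; omega, h4⟩
    · rw [hel] at hBT
      refine hend (e + c k - c k') ⟨by rw [hUl]; omega, ?_⟩ (by omega) ?_ ?_
      · rw [← hag e (by omega) (by omega)]; exact he3
      · rintro t ht1 ht2 ⟨ht3, ht4⟩
        rw [hUl] at ht3
        have e4 : t = (t + c k' - c k) + c k - c k' := by omega
        rw [e4, ← hag (t + c k' - c k) (by omega) (by omega)] at ht4
        exact he4 _ (by omega) (by omega) ht4
      · have e5 : e + c k - c k' - p0 + c k' - c k = e - p0 := by omega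
        rw [e5]; exact hBT

end Crest.Agent.R320.Joint369
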