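import Mathlib

/-!
Row 320, scheme 2 (promise ruler) of 132's chain: the joint between the exact gadget on the block
`X` of fixed length `p0` (places `c k`), the promise `BadY` (a property of the text from `a + p0`)
and the rest of the zone `ZY` (a function of the text from `a + p0`).
-/

set_option autoImplicit false

namespace Crest.Agent.R320.Joint2_8

variable {α V : Type*}

/-- next anchor and zone map, as a function of the text from the anchor. -/
def Zf (p0 : ℕ) (pre : List α → V → V) (ZY : List α → Option (ℕ × (V → V))) (Q : List α) :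
    Option (ℕ × (V → V)) :=
  if p0 ≤ Q.length then
    (ZY (Q.drop p0)).map fun dt => (p0 + dt.1, fun v => dt.2 (pre (Q.take p0) v))
  else none

/-- left-legal places of scheme 2. -/
def LL2 (K0 : ℕ) (c : ℕ → ℕ) (lam : ℕ → List α → Option V) (P : List α) (v : V) : Prop :=
  ∃ k < K0, P.length = c k ∧ lam k P = some v

/-- `k` is a plausible position. -/
def Pl (p0 K0 : ℕ) (c : ℕ → ℕ) (BadY : List α → Prop) (r : List α) (k : ℕ) : Prop :=
  k < K0 ∧ BadY (r.drop (p0 - c k))

open Classical in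
/-- right labels of scheme 2. -/
noncomputable def R2 (p0 K0 : ℕ) (c : ℕ → ℕ) (BadY : List α → Prop)
    (rho : ℕ → List α → Option V) (ZY : List α → Option (ℕ × (V → V))) (r : List α) :
    Option (ℕ × V) :=
  if h : ∃ k, Pl p0 K0 c BadY r k ∧ ∀ k', Pl p0 K0 c BadY r k' → k' = k then
    (rho h.choose (r.take (p0 - c h.choose))).bind fun b =>
      (ZY (r.drop (p0 - c h.choose))).map fun dt => (p0 - c h.choose + dt.1, dt.2 b)
  else none

theorem R2_eq {p0 K0 : ℕ} {c : ℕ → ℕ} {BadY : List α → Prop}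
    {rho : ℕ → List α → Option V} {ZY : List α → Option (ℕ × (V → V))} {r : List α} {k : ℕ}
    (h1 : Pl p0 K0 c BadY r k) (h2 : ∀ k', Pl p0 K0 c BadY r k' → k' = k) :
    R2 p0 K0 c BadY rho ZY r = (rho k (r.take (p0 - c k))).bind fun b =>
      (ZY (r.drop (p0 - c k))).map fun dt => (p0 - c k + dt.1, dt.2 b) := by
  have h : ∃ k, Pl p0 K0 c BadY r k ∧ ∀ k', Pl p0 K0 c BadY r k' → k' = k := ⟨k, h1, h2⟩
  have hk : h.choose = k := h2 _ h.choose_spec.1
  unfold R2
  rw [dif_pos h, hk]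

theorem R2_some {p0 K0 : ℕ} {c : ℕ → ℕ} {BadY : List α → Prop}
    {rho : ℕ → List α → Option V} {ZY : List α → Option (ℕ × (V → V))} {r : List α}
    {e : ℕ} {x : V} (h : R2 p0 K0 c BadY rho ZY r = some (e, x)) {k : ℕ}
    (h1 : Pl p0 K0 c BadY r k) :
    ∃ b d t, rho k (r.take (p0 - c k)) = some b ∧ ZY (r.drop (p0 - c k)) = some (d, t) ∧
      e = p0 - c k + d ∧ x = t b := by
  by_cases hh : ∃ k, Pl p0 K0 c BadY r k ∧ ∀ k', Pl p0 K0 c BadY r k' → k' = k
  · obtain ⟨k0, h3, h4⟩ := hh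
    have hk : k = k0 := h4 k h1
    subst hk
    rw [R2_eq h3 h4] at h
    rw [Option.bind_eq_some_iff] at h
    obtain ⟨b, hb, h⟩ := h
    rw [Option.map_eq_some_iff] at h
    obtain ⟨⟨d, t⟩, hd, h⟩ := h
    simp only [Prod.mk.injEq] at h
    exact ⟨b, d, t, hb, hd, h.1.symm, h.2.symm⟩
  · unfold R2 at h
    rw [dif_neg hh] at h
    exact absurd h (by simp)

/-- soundness of scheme 2 on its promise. -/
theorem exact2 {p0 K0 D : ℕ} {c : ℕ → ℕ} {BadY : List α → Prop}
    {lam rho : ℕ → List α → Option V} {pre : List α → V → V}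
    {ZY : List α → Option (ℕ × (V → V))}
    (hc : ∀ k < K0, c k ≤ p0) (hD : p0 ≤ D)
    (hex : ∀ k < K0, ∀ (P Q : List α) (v b : V), P.length = c k → Q.length = p0 - c k →
      lam k P = some v → rho k Q = some b → b = pre (P ++ Q) v)
    (P : List α) (v : V) (r : List α) (e : ℕ) (x : V)
    (hP : LL2 K0 c lam P v) (hr : r.length = D)
    (hR : R2 p0 K0 c BadY rho ZY r = some (e, x))
    (hBad : BadY ((P ++ r).drop p0)) :
    ∃ t, Zf p0 pre ZY (P ++ r) = some (P.length + e, t) ∧ t v = x := by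
  obtain ⟨k, hk, hPl, hlam⟩ := hP
  have hck := hc k hk
  have hdrop : (P ++ r).drop p0 = r.drop (p0 - c k) := by
    rw [List.drop_append, hPl, List.drop_eq_nil_of_le (by omega), List.nil_append]
  have htake : (P ++ r).take p0 = P ++ r.take (p0 - c k) := by
    rw [List.take_append, hPl, List.take_of_length_le (by omega)]
  obtain ⟨b, d, t, hb, hd, he, hx⟩ := R2_some hR (k := k) ⟨hk, by rw [← hdrop]; exact hBad⟩
  refine ⟨fun v => t (pre ((P ++ r).take p0) v), ?_, ?_⟩
  · unfold Zf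
    rw [if_pos (by rw [List.length_append]; omega), hdrop, hd]
    rw [Option.map_some]
    congr 2
    omega
  · show t (pre ((P ++ r).take p0) v) = x
    rw [htake, hx]
    congr 1
    exact (hex k hk P _ v b hPl (by rw [List.length_take]; omega) hlam hb).symm

/-- completeness of scheme 2 on bad zones. -/
theorem compl2 {p0 K0 D L κ : ℕ} {c : ℕ → ℕ} {BadY : List α → Prop}
    {lam rho : ℕ → List α → Option V} {pre : List α → V → V}
    {ZY : List α → Option (ℕ × (V → V))}
    (hc : ∀ k < K0, c k < p0) (hD : p0 + L ≤ D)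
    (hcomp : ∀ (X : List α) (v : V), X.length = p0 → ∃ I : Finset ℕ, κ < I.card ∧
      ∀ k ∈ I, k < K0 ∧ lam k (X.take (c k)) = some v ∧ (rho k (X.drop (c k))).isSome)
    (hloc : ∀ T n, L ≤ n → n ≤ T.length → (BadY (T.take n) ↔ BadY T))
    (Q : List α) (hQ : p0 + D ≤ Q.length)
    (hZl : ∀ n, L ≤ n → ZY ((Q.drop p0).take n) = ZY (Q.drop p0))
    (hspoil : ∃ J : Finset ℕ, J.card ≤ κ ∧ ∀ k < K0, ∀ k' < K0, k' ≠ k →
      BadY (Q.drop (c k + (p0 - c k'))) → k ∈ J)
    (d : ℕ) (t : V → V) (hZ : Zf p0 pre ZY Q = some (d, t))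
    (hBad : BadY (Q.drop p0)) (v : V) :
    ∃ k < d, LL2 K0 c lam (Q.take k) v ∧
      (R2 p0 K0 c BadY rho ZY ((Q.drop k).take D)).isSome := by
  have hXl : (Q.take p0).length = p0 := by rw [List.length_take]; omega
  obtain ⟨I, hI, hI2⟩ := hcomp (Q.take p0) v hXl
  obtain ⟨J, hJ, hJ2⟩ := hspoil
  obtain ⟨k, hkI, hkJ⟩ : ∃ k ∈ I, k ∉ J := by
    by_contra hcon
    push Not at hcon
    have := Finset.card_le_card (show I ⊆ J from fun a ha => hcon a ha)
    omega
  obtain ⟨hk, hlam, hrho⟩ := hI2 k hkI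
  have hck := hc k hk
  -- the zone
  unfold Zf at hZ
  rw [if_pos (by omega), Option.map_eq_some_iff] at hZ
  obtain ⟨⟨d', t'⟩, hd', hZ⟩ := hZ
  simp only [Prod.mk.injEq] at hZ
  -- texts of the candidates
  have hcand : ∀ k' < K0, ((Q.drop (c k)).take D).drop (p0 - c k') =
      (Q.drop (c k + (p0 - c k'))).take (D - (p0 - c k')) := by
    intro k' _
    rw [List.drop_take, List.drop_drop]
  have hPlk : Pl p0 K0 c BadY ((Q.drop (c k)).take D) k := by
    refine ⟨hk, ?_⟩
    rw [hcand k hk]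
    have h1 : c k + (p0 - c k) = p0 := by omega
    rw [h1]
    rw [hloc _ _ (by omega) (by rw [List.length_drop]; omega)]
    exact hBad
  have huniq : ∀ k', Pl p0 K0 c BadY ((Q.drop (c k)).take D) k' → k' = k := by
    intro k' hk'
    by_contra hne
    obtain ⟨h1, h2⟩ := hk'
    rw [hcand k' h1] at h2
    rw [hloc _ _ (by omega) (by rw [List.length_drop]; omega)] at h2
    exact hkJ (hJ2 k hk k' h1 hne h2)
  refine ⟨c k, by omega, ⟨k, hk, by rw [List.length_take]; omega, ?_⟩, ?_⟩
  · rw [← hlam, List.take_take, min_eq_left (by omega)]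
  · rw [R2_eq hPlk huniq, hcand k hk]
    have h1 : c k + (p0 - c k) = p0 := by omega
    rw [h1, hZl _ (by omega), hd']
    have h2 : ((Q.drop (c k)).take D).take (p0 - c k) = (Q.take p0).drop (c k) := by
      rw [List.take_take, min_eq_left (by omega), List.drop_take]
    rw [h2]
    obtain ⟨b, hb⟩ := Option.isSome_iff_exists.1 hrho
    rw [hb]
    rfl

end Crest.Agent.R320.Joint2_8
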