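import Crest.Agent.R320.Joint2_236

/-!
# Row 320: final joint, main theorem (helper236)
-/

set_option autoImplicit false

namespace Crest.Agent.R320.Joint_236

open Crest.RegLang Crest.Agent.R320.Hk_851 Crest.Agent.R320.Half1_180
  Crest.Agent.R320.ExactR_237 Crest.Agent.R320.Reg_819

variable {α S V : Type}

/-- block map, noises of both schemes -/
def TT [Monoid S] [AddCommGroup V] (f : α → S) (act : V → S → V) (nu1 nu2 : List α → V) (p0 : ℕ)
    (X : List α) (v : V) : V :=
  act (act v (pr f (X.take p0)) + nu2 (X.take p0)) (pr f (X.drop p0)) + nu1 (X.drop p0)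

theorem finite_biInter_lquot {k : ℕ} {ι : Type} {s : Set ι} (hs : s.Finite) {g : ι → List α}
    {L : ι → Language α} (h : ∀ i, HL k (L i)) :
    HL k (Lg fun Q => ∀ i ∈ s, g i ++ Q ∈ L i) :=
  HL.biInter (k := k) hs (L := fun i => Lg fun Q => g i ++ Q ∈ L i)
    (fun i _ => (h i).lquot (g i))

theorem joint [Finite α] [Monoid S] [Finite S] [AddCommGroup V] [Finite V] (f : α → S)
    (act : V → S → V) (act_add : ∀ v v' s, act (v + v') s = act v s + act v' s)
    (act_one : ∀ v, act v 1 = v) (act_mul : ∀ v s s', act (act v s) s' = act v (s * s'))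
    (faithful : ∀ s s', (∀ v, act v s = act v s') → s = s')
    (R : ℕ) (hG : ∀ K, Nonempty (Gad f act R K)) (s : S) :
    HL 3 ({w | (w.map f).prod = s} : Language α) := by
  classical
  have := Fintype.ofFinite S
  have := Fintype.ofFinite V
  obtain ⟨K, hK⟩ := exact_gadget α S V f act (2 * R + 2)
  obtain ⟨g⟩ := hG K
  obtain ⟨lam2, rho2, nu2', hs2, hc2⟩ := hK g.c g.mono
  obtain ⟨n, cc, PP, SS, hn, hPP, loc, sep, _, _, few⟩ :=
    WallU_228.walls_full (α := α) (2 * g.Sp + 2 * g.N1 + 1)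
  have len : ∀ P : List α, WallU_228.Wo n SS P → n ≤ P.length := fun P h => h.1
  set Wo := WallU_228.Wo n SS with hWo
  set p0 := g.Sp with hp0
  set z := 4 * g.Sp + 4 * g.N1 + g.N0 + g.T0 + n + 1 with hz
  set nu2 : List α → V := fun X => nu2' X 1 with hnu2
  set T : List α → V → V := TT f act g.nu nu2 p0 with hT
  have act_zero : ∀ s, act 0 s = 0 := by
    intro s
    have h := act_add 0 0 s
    rw [add_zero] at h
    exact left_eq_add.1 h
  have act_sub : ∀ v v' s, act (v - v') s = act v s - act v' s := by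
    intro v v' s
    have h := act_add (v - v') v' s
    rw [sub_add_cancel] at h
    rw [h]; abel
  have hPF : PF (XX Wo z) := pf_XX (by omega)
  let Bad : Set (List α) := {X | X ∈ XX Wo z ∧ (EB Wo z g.N1 X ∨ g.BadT (X.length - p0))}
  let Good : Set (List α) := {X | X ∈ XX Wo z ∧ ¬ (EB Wo z g.N1 X ∨ g.BadT (X.length - p0))}
  have hGB : XX Wo z = Good ∪ Bad := by
    ext X
    constructor
    · intro h
      by_cases hb : EB Wo z g.N1 X ∨ g.BadT (X.length - p0)
      · exact Or.inr ⟨h, hb⟩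
      · exact Or.inl ⟨h, hb⟩
    · rintro (h | h)
      · exact h.1
      · exact h.1
  -- regularity and heights
  have regXX : (Lg fun X => X ∈ XX Wo z).IsRegular := HL.regular (hl_XX (k := 0) z loc len)
  have regEB : (Lg fun X => EB Wo z g.N1 X).IsRegular := HL.regular (hl_EB (k := 0) z g.N1 loc len)
  have regB0 : (Lg fun X : List α => p0 ≤ X.length ∧ g.BadT (X.drop p0).length).IsRegular :=
    reg_prefix p0 (fun _ Y => g.BadT Y.length) fun _ _ => g.regBad
  have regT : ∀ v v', (Lg fun X : List α => p0 ≤ X.length ∧ T X v = v').IsRegular := by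
    intro v v'
    refine reg_prefix p0 (fun X1 Y => act (act v (pr f X1) + nu2 X1) (pr f Y) + g.nu Y = v') ?_
    intro X1 _
    exact ((regF_pr f).pair (fun a => g.regnu a)).set
      (fun q : S × V => act (act v (pr f X1) + nu2 X1) q.1 + q.2 = v')
  have hlXXp : ∀ p : List α → Prop, (Lg p).IsRegular → HL 1 (Lg fun X => X ∈ XX Wo z ∧ p X) := by
    intro p hp
    refine (few _ (reg_and regXX hp) (z + 1)).congr fun X => ?_
    constructor
    · rintro ⟨h1, h2⟩
      exact ⟨⟨h1, h2⟩, nw_le fun t h3 h4 => h1.2.2 t h3 h4⟩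
    · rintro ⟨⟨h1, h2⟩, _⟩
      exact ⟨h1, h2⟩
  have hBadreg : (Lg fun X : List α => EB Wo z g.N1 X ∨
      (p0 ≤ X.length ∧ g.BadT (X.drop p0).length)).IsRegular := reg_or regEB regB0
  have badiff : ∀ X, X ∈ XX Wo z → ((EB Wo z g.N1 X ∨
      (p0 ≤ X.length ∧ g.BadT (X.drop p0).length)) ↔ (EB Wo z g.N1 X ∨ g.BadT (X.length - p0))) := by
    intro X hX
    have h1 : z ≤ X.length := hX.1
    have h2 : p0 ≤ X.length := by omega
    rw [List.length_drop]
    constructor
    · rintro (h | h)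
      · exact Or.inl h
      · exact Or.inr h.2
    · rintro (h | h)
      · exact Or.inl h
      · exact Or.inr ⟨h2, h⟩
  have hlBad : HL 1 (Lof Bad) := by
    refine (hlXXp _ hBadreg).congr fun X => ?_
    constructor
    · rintro ⟨h1, h2⟩; exact ⟨h1, (badiff X h1).2 h2⟩
    · rintro ⟨h1, h2⟩; exact ⟨h1, (badiff X h1).1 h2⟩
  have hlXX : HL 1 (Lof (XX Wo z)) := (hl_XX (k := 1) z loc len).congr fun X => Iff.rfl
  have hlGood : HL 1 (Lof Good) := by
    refine (hlXX.sdiff hlBad).congr fun X => ?_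
    constructor
    · rintro ⟨h1, h2⟩; exact ⟨h1, fun h => h2 h.2⟩
    · rintro ⟨h1, h2⟩; exact ⟨h1, fun h => h2 ⟨h1, h⟩⟩
  have hlT : ∀ v v', HL 1 (Lg fun X => X ∈ XX Wo z ∧ T X v = v') := by
    intro v v'
    refine (hlXXp _ (regT v v')).congr fun X => ?_
    constructor
    · rintro ⟨h1, h2⟩
      have h3 : z ≤ X.length := h1.1
      exact ⟨h1, by omega, h2⟩
    · rintro ⟨h1, _, h2⟩; exact ⟨h1, h2⟩
  have hlBT : ∀ v v', HL 1 (Lg fun X => X ∈ Bad ∧ T X v = v') := by
    intro v v'
    refine (hlBad.inf (hlT v v')).congr fun X => ?_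
    constructor
    · rintro ⟨h1, h2⟩; exact ⟨h1, h1.1, h2⟩
    · rintro ⟨h1, _, h2⟩; exact ⟨h1, h2⟩
  -- scheme 1
  let LP1 : V → Language α := fun v => Lg fun P => p0 ≤ P.length ∧ P.length ≤ p0 + g.N1 ∧
    g.lam (P.drop p0) = some (act v (pr f (P.take p0)) + nu2 (P.take p0))
  let I1 : Set (V × List α) := {i | i.2 ∈ LP1 i.1}
  have hI1 : I1.Finite := by
    refine ((Set.finite_univ (α := V)).prod (List.finite_length_le α (p0 + g.N1))).subset ?_
    rintro ⟨v, P⟩ hi
    exact ⟨trivial, hi.2.1⟩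
  let RQ1 : V → Language α := fun v' => Lg fun Q => ∀ i ∈ I1, i.2 ++ Q ∈
    Lg fun X => X ∈ XX Wo z ∧ T X i.1 = v'
  have hLP1 : ∀ v, HL 2 (LP1 v) := fun v => HL.finite
    ((List.finite_length_le α (p0 + g.N1)).subset fun P hP => hP.2.1)
  have hRQ1 : ∀ v, HL 2 (RQ1 v) := fun v' =>
    (finite_biInter_lquot (ι := V × List α) hI1 (g := fun i => i.2)
      (L := fun i => Lg fun X => X ∈ XX Wo z ∧ T X i.1 = v') (fun i => hlT i.1 v')).mono (by omega)
  have Tval : ∀ (P Q : List α) (v : V), p0 ≤ P.length →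
      T (P ++ Q) v = act (act v (pr f (P.take p0)) + nu2 (P.take p0)) (pr f (P.drop p0 ++ Q)) +
        g.nu (P.drop p0 ++ Q) := by
    intro P Q v hP
    simp only [hT, TT]
    rw [List.take_append_of_le_length hP, List.drop_append_of_le_length hP]
  have compl1 : ∀ X ∈ Good, ∀ v, ∃ P Q, X = P ++ Q ∧ P ∈ LP1 v ∧ Q ∈ RQ1 (T X v) := by
    rintro X ⟨hX, hg⟩ v
    rw [not_or] at hg
    have hXl : z ≤ X.length := hX.1
    obtain ⟨P1, Q, hY, hl, hr⟩ := g.compl (X.drop p0) (by rw [List.length_drop]; omega)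
      (by rw [List.length_drop]; exact hg.2) (act v (pr f (X.take p0)) + nu2 (X.take p0))
    obtain ⟨r, hr⟩ := Option.isSome_iff_exists.1 hr
    have hP1 := g.len _ _ hl
    have htl : (X.take p0).length = p0 := by rw [List.length_take]; omega
    have e1 : X = (X.take p0 ++ P1) ++ Q := by
      rw [List.append_assoc, ← hY, List.take_append_drop]
    have e2 : (X.take p0 ++ P1).take p0 = X.take p0 := by
      rw [List.take_append_of_le_length (by omega), List.take_of_length_le (by omega)]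
    have e3 : (X.take p0 ++ P1).drop p0 = P1 := by
      have h := List.drop_left (l₁ := X.take p0) (l₂ := P1)
      rwa [htl] at h
    have hPl : (X.take p0 ++ P1).length = p0 + P1.length := by rw [List.length_append, htl]
    have hPin : X.take p0 ++ P1 ∈ LP1 v := by
      refine ⟨by omega, by omega, ?_⟩
      rw [e2, e3]; exact hl
    have hval : ∀ (P' : List α) (v' : V), P' ∈ LP1 v' → T (P' ++ Q) v' = r := by
      intro P' v' hP'
      rw [Tval P' Q v' hP'.1]
      exact (g.sound _ _ _ _ hP'.2.2 hr).symm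
    refine ⟨X.take p0 ++ P1, Q, e1, hPin, ?_⟩
    rintro ⟨v', P'⟩ hi
    refine ⟨?_, ?_⟩
    · refine geo1 loc (p0 := p0) (N1 := g.N1) (by omega) (P := X.take p0 ++ P1) (e1 ▸ hX)
        (e1 ▸ hg.1) (by omega) (by omega) hi.1 hi.2.1
    · have h1 := hval P' v' hi
      have h2 := hval _ v hPin
      rw [← e1] at h2
      rw [h1, h2]
  -- scheme 2
  let LP2 : V → Language α := fun v => Lg fun P => ∃ k, k < K ∧ P.length = g.c k ∧
    lam2 k P = some v
  let I2 : Set (V × List α) := {i | i.2 ∈ LP2 i.1}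
  have hI2 : I2.Finite := by
    refine ((Set.finite_univ (α := V)).prod (List.finite_length_le α g.Sp)).subset ?_
    rintro ⟨v, P⟩ ⟨k, hk, hl, _⟩
    refine ⟨trivial, ?_⟩
    have := g.cSp k hk
    change P.length ≤ g.Sp
    have hl' : P.length = g.c k := hl
    omega
  let M2 : V → V → Language α := fun v v' => (Lg fun w => ∃ v1, w ∈
      (Lg fun X => X ∈ Bad ∧ T X v = v1) * (Lg fun X => X ∈ Bad ∧ T X v1 = v')) +
      (Lof Good) * ⊤
  have hM2 : ∀ v v', HL 1 (M2 v v') := fun v v' =>
    HL.add (HL.iUnion fun v1 => (hlBT v v1).mul (hlBT v1 v')) (hlGood.mul HL.top)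
  let RQ2 : V → Language α := fun v' => Lg fun Q => ∀ i ∈ I2, i.2 ++ Q ∈ M2 i.1 v'
  have hLP2 : ∀ v, HL 1 (LP2 v) := fun v => HL.finite
    ((List.finite_length_le α g.Sp).subset fun P hP => by
      obtain ⟨k, hk, hl, _⟩ := hP
      have := g.cSp k hk
      change P.length ≤ g.Sp
      omega)
  have hRQ2 : ∀ v, HL 1 (RQ2 v) := fun v' =>
    finite_biInter_lquot (ι := V × List α) hI2 (g := fun i => i.2)
      (L := fun i => M2 i.1 v') (fun i => hM2 i.1 v')
  have hBXX : Bad ⊆ XX Wo z := fun X hX => hX.1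
  have sound2 : ∀ v v' P Q R, P ∈ LP2 v → Q ∈ RQ2 v' → Bs Bad (P ++ (Q ++ R)) →
      Tr (XX Wo z) T v (P ++ Q) v' ∧ Bs Bad R := by
    intro v v' P Q R hP hQ hB
    rw [← List.append_assoc] at hB
    rcases hQ (v, P) hP with h | h
    · obtain ⟨v1, h⟩ := h
      obtain ⟨Y1, ⟨hY1, hT1⟩, Y2, ⟨hY2, hT2⟩, e⟩ := Language.mem_mul.1 h
      have e' : P ++ Q = Y1 ++ Y2 := e.symm
      rw [e'] at hB ⊢
      have hr : Bs Bad R := by
        rcases Bs.inv hPF hBXX hB with h0 | ⟨Y, hY, w', e2, hw'⟩
        · simp only [List.append_eq_nil_iff] at h0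
          exact absurd h0.1.1 (hPF.1 Y1 hY1.1)
        · rw [List.append_assoc] at e2
          obtain ⟨_, e3⟩ := hPF.eq hY1.1 hY.1 e2
          rw [← e3] at hw'
          rcases Bs.inv hPF hBXX hw' with h0 | ⟨Y', hY', w'', e4, hw''⟩
          · simp only [List.append_eq_nil_iff] at h0
            exact absurd h0.1 (hPF.1 Y2 hY2.1)
          · obtain ⟨_, e5⟩ := hPF.eq hY2.1 hY'.1 e4
            rw [e5]; exact hw''
      refine ⟨?_, hr⟩
      have h3 := (Tr.single (t := T) (x := v) hY1.1).append (Tr.single (t := T) (x := T Y1 v) hY2.1)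
      have hT1' : T Y1 v = v1 := hT1
      have hT2' : T Y2 v1 = v' := hT2
      rw [hT1', hT2'] at h3
      exact h3
    · exfalso
      obtain ⟨Y, hY, E, _, e⟩ := Language.mem_mul.1 h
      have e' : P ++ Q = Y ++ E := e.symm
      rw [e', List.append_assoc] at hB
      have hY' : Y ∈ Good := hY
      rcases Bs.inv hPF hBXX hB with h0 | ⟨Y', hY2, w', e2, _⟩
      · simp only [List.append_eq_nil_iff] at h0
        exact hPF.1 Y hY'.1 h0.1
      · obtain ⟨e3, _⟩ := hPF.eq hY'.1 hY2.1 e2
        exact hY'.2 (e3 ▸ hY2.2)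
  have compl2 : ∀ Y1 ∈ Bad, ∀ Y2 ∈ Bad, ∀ v, ∃ P Q, Y1 ++ Y2 = P ++ Q ∧ P ∈ LP2 v ∧
      Q ∈ RQ2 (T Y2 (T Y1 v)) := by
    intro Y1 hY1 Y2 hY2 v
    have hl1 : z ≤ Y1.length := hY1.1.1
    have hl2 : z ≤ Y2.length := hY2.1.1
    have hWW : Wo (Y1 ++ Y2) := (loc Y1 Y2 (by omega)).2 hY2.1.2.1
    obtain ⟨F, hF, hF'⟩ := spoil g (p0 := p0) loc sep (z := z) (by omega) (Y1 ++ Y2) hWW
      (by rw [List.length_append]; omega)
    have htl : (Y1.take p0).length = p0 := by rw [List.length_take]; omega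
    obtain ⟨I, hI, hI'⟩ := hc2 (Y1.take p0) 1 v (fun k hk => by rw [htl]; exact g.cSp k hk)
    -- an unspoiled place
    have hex : ∃ k ∈ I, ∀ k', (k, k') ∉ F := by
      by_contra hcon
      push Not at hcon
      have hsub : I ⊆ F.image Prod.fst := by
        intro k hk
        obtain ⟨k', hk'⟩ := hcon k hk
        exact Finset.mem_image.2 ⟨(k, k'), hk', rfl⟩
      have h1 := Finset.card_le_card hsub
      have h2 := Finset.card_image_le (s := F) (f := Prod.fst)
      omega
    obtain ⟨k, hkI, hkF⟩ := hex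
    obtain ⟨hkK, hlam, hrho⟩ := hI' k hkI
    obtain ⟨b, hb⟩ := Option.isSome_iff_exists.1 hrho
    have hck : g.c k ≤ p0 := g.cSp k hkK
    -- the split
    have hPt : (Y1.take p0).take (g.c k) = Y1.take (g.c k) := by
      rw [List.take_take, Nat.min_eq_left hck]
    have hPl : (Y1.take (g.c k)).length = g.c k := by rw [List.length_take]; omega
    rw [hPt] at hlam
    refine ⟨Y1.take (g.c k), Y1.drop (g.c k) ++ Y2, ?_, ⟨k, hkK, hPl, hlam⟩, ?_⟩
    · rw [← List.append_assoc, List.take_append_drop]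
    rintro ⟨v', P'⟩ ⟨k', hk', hl', hlam'⟩
    by_cases hkk : k = k'
    · left
      subst hkk
      have hl'' : P'.length = g.c k := hl'
      have hlam'' : lam2 k P' = some v' := hlam'
      -- same place
      have hY1' : P' ++ Y1.drop (g.c k) ∈ XX Wo z ∧
          (EB Wo z g.N1 (P' ++ Y1.drop (g.c k)) ↔ EB Wo z g.N1 Y1) ∧
          (P' ++ Y1.drop (g.c k)).length = Y1.length := by
        have hlen : (P' ++ Y1.drop (g.c k)).length = Y1.length := by
          rw [List.length_append, List.length_drop]; omega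
        have hsh : ∀ t, p0 + n ≤ t → t ≤ Y1.length →
            (Wo ((P' ++ Y1.drop (g.c k)).take t) ↔ Wo (Y1.take t)) := by
          intro t h1 h2
          have h := shift (P := Y1.take (g.c k)) (P' := P') (Q := Y1.drop (g.c k)) (t := t)
            (t' := t) loc (by omega) (by rw [List.length_drop]; omega) (by omega)
          rwa [List.take_append_drop] at h
        refine ⟨⟨by omega, ?_, fun t h1 h2 h3 => ?_⟩, ?_, hlen⟩
        · have h := (hsh Y1.length (by omega) le_rfl).2 (by rw [List.take_length]; exact hY1.1.2.1)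
          rwa [← hlen, List.take_length] at h
        · exact hY1.1.2.2 t h1 (by omega) ((hsh t (by omega) (by omega)).1 h3)
        · constructor
          · rintro ⟨t, h1, h2, h3, h4⟩
            exact ⟨t, h1, h2, by omega, (hsh t (by omega) (by omega)).1 h4⟩
          · rintro ⟨t, h1, h2, h3, h4⟩
            exact ⟨t, h1, h2, by omega, (hsh t (by omega) (by omega)).2 h4⟩
      obtain ⟨a1, a2, a3⟩ := hY1'
      have hbad' : P' ++ Y1.drop (g.c k) ∈ Bad := by
        refine ⟨a1, ?_⟩
        rcases hY1.2 with h | h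
        · exact Or.inl (a2.2 h)
        · right
          rw [a3]; exact h
      have hTeq : T (P' ++ Y1.drop (g.c k)) v' = T Y1 v := by
        simp only [hT, TT]
        have hd : (P' ++ Y1.drop (g.c k)).drop p0 = Y1.drop p0 := by
          rw [List.drop_append, List.drop_of_length_le (by omega), List.nil_append,
            List.drop_drop]
          congr 1
          omega
        have ht : (P' ++ Y1.drop (g.c k)).take p0 = P' ++ (Y1.take p0).drop (g.c k) := by
          rw [List.take_append, List.take_of_length_le (by omega), List.drop_take, hl'']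
        have h1 := hs2 k hkK P' ((Y1.take p0).drop (g.c k)) 1 v' b hl'' hlam'' hb
        have h2 := hs2 k hkK (Y1.take (g.c k)) ((Y1.take p0).drop (g.c k)) 1 v b hPl hlam hb
        have e5 : Y1.take (g.c k) ++ (Y1.take p0).drop (g.c k) = Y1.take p0 := by
          rw [← hPt, List.take_append_drop]
        rw [e5] at h2
        rw [mul_one] at h1 h2
        rw [hd, ht]
        have e6 : act v' (pr f (P' ++ (Y1.take p0).drop (g.c k))) +
            nu2 (P' ++ (Y1.take p0).drop (g.c k)) = act v (pr f (Y1.take p0)) +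
            nu2 (Y1.take p0) := by
          rw [← h1, ← h2]
        rw [e6]
      refine ⟨T Y1 v, Language.mem_mul.2 ⟨P' ++ Y1.drop (g.c k), ⟨hbad', hTeq⟩, Y2,
        ⟨hY2, rfl⟩, ?_⟩⟩
      simp
    · right
      obtain ⟨Y, E, e, h1, h2, h3⟩ := hF' k hkK k' hk' hkk (hkF k') (Y1.take (g.c k)) P'
        (Y1.drop (g.c k) ++ Y2) (by rw [← List.append_assoc, List.take_append_drop]) hPl hl'
      refine Language.mem_mul.2 ⟨Y, ⟨h1, fun h => ?_⟩, E, trivial, e.symm⟩
      rcases h with h | h
      · exact h2 h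
      · exact h3 h
  -- tails
  have htail : ∀ s, HL 3 (Lg (fun E => E ∈ Tail (XX Wo z) ∧ (E.map f).prod = s)) := by
    intro s
    have hTl : HL 1 (Lg fun E => E ∈ Tail (XX Wo z)) := by
      refine ((hlXX.prefix).compl).congr fun E => ?_
      constructor
      · rintro h ⟨X, hX, hp⟩; exact h X hX hp
      · intro h X hX hp; exact h ⟨X, hX, hp⟩
    have hr : (Lg fun E => E ∈ Tail (XX Wo z) ∧ (E.map f).prod = s).IsRegular :=
      reg_and (HL.regular hTl) (regF_pr f s)
    refine HL.mono (show 1 ≤ 3 by omega) ((few _ hr (z + 1)).congr fun E => ?_)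
    constructor
    · intro h
      refine ⟨h, nw_le fun t h3 h4 h5 => ?_⟩
      obtain ⟨t0, a1, a2, a3, a4⟩ := first_wall (Wo := Wo) z E ⟨t, h3, by omega, h5⟩
      have hl : (E.take t0).length = t0 := by rw [List.length_take]; omega
      refine h.1 (E.take t0) ⟨by omega, a3, fun u h6 h7 h8 => ?_⟩ (List.take_prefix _ _)
      rw [hl] at h7
      rw [List.take_take, Nat.min_eq_left h7.le] at h8
      exact a4 u h6 h7 h8
    · intro h; exact h.1
  have hTsub : ∀ X ∈ XX Wo z, ∀ v v', T X v - T X v' = act (v - v') (X.map f).prod := by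
    intro X _ v v'
    simp only [hT, TT]
    have e : (X.map f).prod = pr f (X.take p0) * pr f (X.drop p0) := by
      rw [← pr_append, List.take_append_drop]; rfl
    rw [e, ← act_mul, act_sub, act_sub, act_add, act_add]
    abel
  exact top2 (k := 1) f act act_zero act_one act_mul faithful (XX Wo z) Good Bad hPF hGB T hTsub
    LP1 RQ1 hLP1 hRQ1 (fun v v' P Q hP hQ => hQ (v, P) hP) compl1 hlBad LP2 RQ2 hLP2 hRQ2
    hlBT sound2 compl2 htail s

end Crest.Agent.R320.Joint_236
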