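import Mathlib

/-!
Row 320, scheme 2 (promise ruler), joint in the block-code form (right words of any length).
`PlB k r` = "position `k` is plausible" (a property of the right word), `post k y r` = the state
reached behind `r` if the value at `a + p0` is `y` and the left piece has length `c k`.
-/

set_option autoImplicit false

namespace Crest.Agent.R320.Joint3_8

variable {α V Ω : Type*}

open Classical in
/-- right labels of scheme 2: legal iff exactly one position is plausible. -/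
noncomputable def RR2 (p0 K0 : ℕ) (c : ℕ → ℕ) (PlB : ℕ → List α → Prop)
    (rho : ℕ → List α → Option V) (post : ℕ → V → List α → Option Ω) (r : List α) : Option Ω :=
  if h : ∃ k, (k < K0 ∧ PlB k r) ∧ ∀ k', (k' < K0 ∧ PlB k' r) → k' = k then
    (rho h.choose (r.take (p0 - c h.choose))).bind fun y => post h.choose y r
  else none

theorem RR2_eq {p0 K0 : ℕ} {c : ℕ → ℕ} {PlB : ℕ → List α → Prop}
    {rho : ℕ → List α → Option V} {post : ℕ → V → List α → Option Ω} {r : List α} {k : ℕ}
    (hk : k < K0) (h1 : PlB k r) (h2 : ∀ k' < K0, PlB k' r → k' = k) :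
    RR2 p0 K0 c PlB rho post r =
      (rho k (r.take (p0 - c k))).bind fun y => post k y r := by
  have h : ∃ k, (k < K0 ∧ PlB k r) ∧ ∀ k', (k' < K0 ∧ PlB k' r) → k' = k :=
    ⟨k, ⟨hk, h1⟩, fun k' h' => h2 k' h'.1 h'.2⟩
  have hk' : h.choose = k := h2 _ h.choose_spec.1.1 h.choose_spec.1.2
  unfold RR2
  rw [dif_pos h, hk']

theorem RR2_some {p0 K0 : ℕ} {c : ℕ → ℕ} {PlB : ℕ → List α → Prop}
    {rho : ℕ → List α → Option V} {post : ℕ → V → List α → Option Ω} {r : List α} {ω : Ω}
    (h : RR2 p0 K0 c PlB rho post r = some ω) {k : ℕ} (hk : k < K0) (h1 : PlB k r) :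
    ∃ y, rho k (r.take (p0 - c k)) = some y ∧ post k y r = some ω := by
  by_cases hh : ∃ k, (k < K0 ∧ PlB k r) ∧ ∀ k', (k' < K0 ∧ PlB k' r) → k' = k
  · obtain ⟨k0, h3, h4⟩ := hh
    have hkk : k = k0 := h4 k ⟨hk, h1⟩
    subst hkk
    rw [RR2_eq h3.1 h3.2 (fun k' a b => h4 k' ⟨a, b⟩), Option.bind_eq_some_iff] at h
    exact h
  · unfold RR2 at h
    rw [dif_neg hh] at h
    exact absurd h (by simp)

/-- which states are reached at all (for finiteness / regularity). -/
theorem RR2_mem {p0 K0 : ℕ} {c : ℕ → ℕ} {PlB : ℕ → List α → Prop}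
    {rho : ℕ → List α → Option V} {post : ℕ → V → List α → Option Ω} {r : List α} {ω : Ω} :
    RR2 p0 K0 c PlB rho post r = some ω ↔ ∃ k < K0, PlB k r ∧ (∀ k' < K0, PlB k' r → k' = k) ∧
      ∃ y, rho k (r.take (p0 - c k)) = some y ∧ post k y r = some ω := by
  constructor
  · intro h
    by_cases hh : ∃ k, (k < K0 ∧ PlB k r) ∧ ∀ k', (k' < K0 ∧ PlB k' r) → k' = k
    · obtain ⟨k0, h3, h4⟩ := hh
      exact ⟨k0, h3.1, h3.2, fun k' a b => h4 k' ⟨a, b⟩, RR2_some h h3.1 h3.2⟩
    · unfold RR2 at h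
      rw [dif_neg hh] at h
      exact absurd h (by simp)
  · rintro ⟨k, hk, h1, h2, y, hy, hp⟩
    rw [RR2_eq hk h1 h2, hy]
    exact hp

/-- soundness of scheme 2 on its promise (`PlB k r` at the true position `k`). -/
theorem exact3 {p0 K0 : ℕ} {c : ℕ → ℕ} {PlB : ℕ → List α → Prop}
    {lam rho : ℕ → List α → Option V} {pre : List α → V → V}
    {post : ℕ → V → List α → Option Ω}
    (hex : ∀ k < K0, ∀ (P Q : List α) (v b : V), P.length = c k → P.length + Q.length = p0 →
      lam k P = some v → rho k Q = some b → b = pre (P ++ Q) v)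
    {P r : List α} {v : V} {ω : Ω} {k : ℕ} (hk : k < K0) (hck : c k ≤ p0)
    (hP : P.length = c k) (hlam : lam k P = some v) (hlen : p0 ≤ (P ++ r).length)
    (hR : RR2 p0 K0 c PlB rho post r = some ω) (hpl : PlB k r) :
    post k (pre ((P ++ r).take p0) v) r = some ω := by
  rw [List.length_append] at hlen
  obtain ⟨y, hy, hp⟩ := RR2_some hR hk hpl
  have htake : (P ++ r).take p0 = P ++ r.take (p0 - c k) := by
    rw [List.take_append, hP, List.take_of_length_le (by omega)]
  rw [htake, ← hex k hk P _ v y hP (by rw [List.length_take]; omega) hlam hy]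
  exact hp

/-- completeness of scheme 2: `U` = text from the anchor (two blocks). -/
theorem compl3 {p0 K0 κ : ℕ} {c : ℕ → ℕ} {PlB : ℕ → List α → Prop}
    {lam rho : ℕ → List α → Option V} {post : ℕ → V → List α → Option Ω}
    (hcomp : ∀ (X : List α) (v : V), X.length = p0 → ∃ I : Finset ℕ, κ < I.card ∧
      ∀ k ∈ I, k < K0 ∧ lam k (X.take (c k)) = some v ∧ (rho k (X.drop (c k))).isSome)
    (hc : ∀ k < K0, c k ≤ p0) (U : List α) (hU : p0 ≤ U.length)
    (hspoil : ∃ J : Finset ℕ, J.card ≤ κ ∧ ∀ k < K0, ∀ k' < K0, k' ≠ k →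
      PlB k' (U.drop (c k)) → k ∈ J)
    (htrue : ∀ k < K0, PlB k (U.drop (c k)))
    (hpost : ∀ k < K0, ∀ y, (post k y (U.drop (c k))).isSome) (v : V) :
    ∃ k < K0, lam k (U.take (c k)) = some v ∧
      (RR2 p0 K0 c PlB rho post (U.drop (c k))).isSome := by
  obtain ⟨I, hI, hI2⟩ := hcomp (U.take p0) v (by rw [List.length_take]; omega)
  obtain ⟨J, hJ, hJ2⟩ := hspoil
  obtain ⟨k, hkI, hkJ⟩ : ∃ k ∈ I, k ∉ J := by
    by_contra hcon
    push Not at hcon
    have := Finset.card_le_card (show I ⊆ J from fun a ha => hcon a ha)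
    omega
  obtain ⟨hk, hlam, hrho⟩ := hI2 k hkI
  have hck := hc k hk
  refine ⟨k, hk, ?_, ?_⟩
  · rw [← hlam, List.take_take, min_eq_left hck]
  · have huniq : ∀ k' < K0, PlB k' (U.drop (c k)) → k' = k := by
      intro k' h1 h2
      by_contra hne
      exact hkJ (hJ2 k hk k' h1 hne h2)
    rw [RR2_eq hk (htrue k hk) huniq]
    have h2 : (U.drop (c k)).take (p0 - c k) = (U.take p0).drop (c k) := by
      rw [List.drop_take]
    rw [h2]
    obtain ⟨b, hb⟩ := Option.isSome_iff_exists.1 hrho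
    rw [hb]
    exact hpost k hk b

end Crest.Agent.R320.Joint3_8
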