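import Crest.Agent.R320.LWallAll_922
import Crest.Agent.R320.Top5_110
import Crest.Agent.R320.BddReg_746
import Crest.Agent.R320.Reg_852

/-!
# Row 320: blocks of left-looking walls on all words (helper151)
-/

set_option autoImplicit false

namespace Crest.Agent.R320.Joint_151

open Crest.Agent.R320.Hk_851 Crest.Agent.R320.Code110 Crest.Agent.R320.Core1_922
open Crest.RegLang

universe u

variable {α : Type u}

/-- blocks: the first wall at a place `≥ z` -/
def XX (z : ℕ) (Wo : List α → Prop) : Language α :=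
  {X | z ≤ X.length ∧ Wo X ∧ ∀ t, z ≤ t → t < X.length → ¬ Wo (X.take t)}

theorem mem_XX {z : ℕ} {Wo : List α → Prop} {X : List α} :
    X ∈ XX z Wo ↔ z ≤ X.length ∧ Wo X ∧ ∀ t, z ≤ t → t < X.length → ¬ Wo (X.take t) := Iff.rfl

/-- mode (E) -/
def EB (z N : ℕ) (Wo : List α → Prop) (X : List α) : Prop :=
  (∃ t, z ≤ t + N ∧ t < z ∧ Wo (X.take t)) ∨ X.length < z + N

theorem pcXX {z : ℕ} {Wo : List α → Prop} (hz : 0 < z) : PC (XX z Wo) := by
  refine ⟨?_, ?_⟩
  · intro h
    have := (mem_XX.1 h).1
    simp at this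
    omega
  · intro u hu v hv huv
    obtain ⟨w, rfl⟩ := huv
    rcases Nat.eq_zero_or_pos w.length with h0 | h0
    · rw [List.length_eq_zero_iff.1 h0, List.append_nil]
    · exfalso
      have h1 := mem_XX.1 hu
      have h2 := mem_XX.1 hv
      refine h2.2.2 u.length h1.1 (by simp; omega) ?_
      rw [List.take_left]
      exact h1.2.1

theorem first {z : ℕ} {Wo : List α → Prop} {w : List α} :
    ∀ {e : ℕ}, z ≤ e → e ≤ w.length → Wo (w.take e) → ∃ e' ≤ e, w.take e' ∈ XX z Wo := by
  intro e
  induction e using Nat.strong_induction_on with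
  | _ e ih =>
    intro h1 h2 h3
    by_cases h : ∃ t, z ≤ t ∧ t < e ∧ Wo (w.take t)
    · obtain ⟨t, ht1, ht2, ht3⟩ := h
      obtain ⟨e', he', hm⟩ := ih t ht2 ht1 (by omega) ht3
      exact ⟨e', by omega, hm⟩
    · push Not at h
      refine ⟨e, le_rfl, ?_⟩
      rw [mem_XX, List.length_take, min_eq_left h2]
      refine ⟨h1, h3, ?_⟩
      intro t ht1 ht2
      rw [List.take_take, min_eq_left ht2.le]
      exact h t ht1 ht2

theorem wo_shift {n : ℕ} {Wo : List α → Prop} (hW : LW n Wo) {p q : List α} {t : ℕ}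
    (h1 : p.length + n ≤ t) (h2 : t ≤ (p ++ q).length) :
    Wo ((p ++ q).take t) ↔ Wo (q.take (t - p.length)) := by
  rw [List.take_append, List.take_of_length_le (by omega)]
  refine hW.app _ _ ?_
  rw [List.length_take]
  rw [List.length_append] at h2
  omega

/-- the junction of scheme 1 -/
theorem junction {n z N : ℕ} {Wo : List α → Prop} (hW : LW n Wo) {p p' q : List α}
    (hz : n + p'.length ≤ z) (hzp : n + p.length + N ≤ z)
    (hX : p ++ q ∈ XX z Wo) (hE : ¬ EB z N Wo (p ++ q))
    (h1 : p.length ≤ p'.length + N) (h2 : p'.length ≤ p.length + N) :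
    p' ++ q ∈ XX z Wo := by
  unfold EB at hE
  push Not at hE
  obtain ⟨hE1, hE2⟩ := hE
  obtain ⟨a1, a2, a3⟩ := mem_XX.1 hX
  rw [List.length_append] at a1 hE2 a3
  have hq : n ≤ q.length := by omega
  refine mem_XX.2 ⟨by rw [List.length_append]; omega, ?_, ?_⟩
  · rw [hW.app _ _ hq]
    exact (hW.app _ _ hq).1 a2
  · intro t ht1 ht2 hwo
    rw [wo_shift hW (by omega) ht2.le] at hwo
    rw [List.length_append] at ht2
    have e1 : p.length + (t - p'.length) - p.length = t - p'.length := by omega
    rw [← e1, ← wo_shift hW (by omega) (by rw [List.length_append]; omega)] at hwo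
    by_cases hc : z ≤ p.length + (t - p'.length)
    · exact a3 _ hc (by omega) hwo
    · exact hE1 _ (by omega) (by omega) hwo

/-! ### heights -/

section hl

variable [Finite α] {k : ℕ}

theorem HL_Wo {n : ℕ} {Wo : List α → Prop} (hW : LW n Wo) :
    HL k ({X | Wo X} : Language α) := by
  have hf : {Y : List α | Y.length = n ∧ Wo Y}.Finite :=
    (List.finite_length_eq α n).subset fun Y h => h.1
  refine ((HL.top (k := k)).mul (HL.finite hf)).congr fun w => Iff.symm ?_
  constructor
  · intro hw
    obtain ⟨a, -, b, ⟨hb1, hb2⟩, rfl⟩ := Language.mem_mul.1 hw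
    exact (hW.app a b (le_of_eq hb1.symm)).2 hb2
  · intro hw
    have hw' : Wo w := hw
    have hl := hW.len w hw'
    refine Language.mem_mul.2 ⟨w.take (w.length - n), trivial, w.drop (w.length - n), ⟨?_, ?_⟩,
      List.take_append_drop _ _⟩
    · rw [List.length_drop]; omega
    · rw [← List.take_append_drop (w.length - n) w] at hw'
      exact (hW.app _ _ (by rw [List.length_drop]; omega)).1 hw'

theorem HL_XX {n : ℕ} {Wo : List α → Prop} (hW : LW n Wo) (z : ℕ) :
    HL k (XX z Wo) := by
  have h1 : HL k ({Y | z ≤ Y.length ∧ Wo Y} : Language α) :=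
    HL.setOf_and (HL.length_ge z) (HL_Wo hW)
  have h2 := (HL.setOf_and (HL.length_ge z) (HL_Wo hW)).inf
    ((h1.mul (HL.length_ge (k := k) (α := α) 1)).compl)
  refine h2.congr fun w => Iff.symm ?_
  constructor
  · rintro ⟨⟨a1, a2⟩, a3⟩
    refine mem_XX.2 ⟨a1, a2, ?_⟩
    intro t ht1 ht2 ht3
    apply a3
    refine Language.mem_mul.2 ⟨w.take t, ⟨?_, ht3⟩, w.drop t, ?_, List.take_append_drop _ _⟩
    · rw [List.length_take]; omega
    · change 1 ≤ (w.drop t).length
      rw [List.length_drop]; omega
  · intro hw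
    obtain ⟨a1, a2, a3⟩ := mem_XX.1 hw
    refine ⟨⟨a1, a2⟩, ?_⟩
    intro hm
    obtain ⟨a, ⟨ha1, ha2⟩, b, hb, rfl⟩ := Language.mem_mul.1 hm
    have hb' : 1 ≤ b.length := hb
    refine a3 a.length ha1 (by rw [List.length_append]; omega) ?_
    rw [List.take_left]
    exact ha2

end hl

/-- a word without walls at places `≥ z` is a product of few pieces -/
theorem pn_of_free {n z B W : ℕ} {Wo : List α → Prop} (hW : LW n Wo)
    (hper : ∀ X : List α, (∀ t < X.length, ¬ Wo (X.take t)) →
        ∃ (u x v : List α) (k : ℕ), u.length ≤ B ∧ x.length ≤ W ∧ v.length ≤ B ∧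
          X = u ++ (List.replicate k x).flatten ++ v)
    (w : List α) (hw : ∀ t, z ≤ t → t < w.length → ¬ Wo (w.take t)) :
    w ∈ (BddReg_746.PN (B + W + z) 3 : Language α) := by
  have h1 : ∀ t < (w.drop z).length, ¬ Wo ((w.drop z).take t) := by
    intro t ht hwo
    rw [List.length_drop] at ht
    have hn : n ≤ t := by
      have := hW.len _ hwo
      rw [List.length_take] at this
      omega
    refine hw (z + t) (by omega) (by omega) ?_
    rw [List.take_add]
    exact (hW.app _ _ (by rw [List.length_take, List.length_drop]; omega)).2 hwo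
  obtain ⟨u, x, v, k, hu, hx, hv, he⟩ := hper _ h1
  rw [← List.take_append_drop z w, he]
  refine Language.mem_mul.2 ⟨w.take z, ⟨w.take z, [], 0, ?_, by simp, by
    simp [BddReg_746.pw]⟩, u ++ (List.replicate k x).flatten ++ v, ?_, rfl⟩
  · rw [List.length_take]; omega
  · rw [List.append_assoc]
    refine Language.mem_mul.2 ⟨u ++ (List.replicate k x).flatten,
      ⟨u, x, k, by omega, by omega, rfl⟩, v, ?_, by simp⟩
    exact Language.mem_mul.2 ⟨v, ⟨v, [], 0, by omega, by simp, by simp [BddReg_746.pw]⟩, [], rfl,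
      by simp⟩

section key

variable [Finite α] {S : Type*} [Monoid S] [Finite S]

theorem HL_key {n z B W Pm A : ℕ} {Wo : List α → Prop} (hW : LW n Wo)
    (hper : ∀ X : List α, (∀ t < X.length, ¬ Wo (X.take t)) →
        ∃ (u x v : List α) (k : ℕ), u.length ≤ B ∧ x.length ≤ W ∧ v.length ≤ B ∧
          X = u ++ (List.replicate k x).flatten ++ v)
    (hPm : 0 < Pm) (f : α → S) (C : Language α) (hC : C.IsRegular)
    (hfree : ∀ w ∈ C, ∀ t, z ≤ t → t < w.length → ¬ Wo (w.take t)) (P : List α → Prop)
    (hP : ∀ u ∈ C, ∀ u' ∈ C, A ≤ u.length → A ≤ u'.length → u.take A = u'.take A →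
      u.length % Pm = u'.length % Pm →
      ((u.drop A).map f).prod = ((u'.drop A).map f).prod → (P u ↔ P u')) :
    HL 1 ({u | u ∈ C ∧ P u} : Language α) := by
  classical
  haveI : NeZero Pm := ⟨hPm.ne'⟩
  -- short words
  have hs : HL 1 ({u | (u ∈ C ∧ P u) ∧ u.length < A} : Language α) :=
    HL.finite ((List.finite_length_lt α A).subset fun u h => h.2)
  -- classes
  let ι := {a : List α // a.length = A} × (S × Multiplicative (ZMod Pm))
  have : Finite {a : List α // a.length = A} := (List.finite_length_eq α A).to_subtype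
  have : Finite (Multiplicative (ZMod Pm)) := inferInstanceAs (Finite (ZMod Pm))
  let g : α → S × Multiplicative (ZMod Pm) := fun a => (f a, Multiplicative.ofAdd 1)
  have hg : ∀ w : List α, (w.map g).prod = ((w.map f).prod,
      Multiplicative.ofAdd (w.length : ZMod Pm)) := by
    intro w
    induction w with
    | nil => simp; rfl
    | cons a w ih =>
      rw [List.map_cons, List.prod_cons, ih]
      ext
      · simp [g]
      · simp only [g, Prod.snd_mul, List.length_cons, Nat.cast_add, Nat.cast_one]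
        rw [← ofAdd_add, add_comm]
  let Gs : S × Multiplicative (ZMod Pm) → Language α := fun c => {w | (w.map g).prod = c}
  let Sg : List α → Language α := fun a => {a}
  let Lc : ι → Language α := fun c => C ⊓ (Sg c.1.1 * Gs c.2)
  have hLc : ∀ c, HL 1 (Lc c) := by
    intro c
    refine BddReg_746.HL_one_of_regular (B := B + W + z) (R := 3) ?_ ?_
    · refine hC.inf ?_
      exact Reg_852.IsRegular.mul (Reg_852.HL.isRegular (HL.word (k := 0) c.1.1))
        (Reg_852.isRegular_prod g c.2)
    · intro w hw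
      exact pn_of_free hW hper w (hfree w hw.1)
  have hu := HL.iUnion fun c : {c : ι // ∃ u ∈ Lc c, P u} => hLc c.1
  refine (hs.sup hu).congr fun w => Iff.symm ?_
  constructor
  · rintro (⟨h, -⟩ | h)
    · exact h
    · obtain ⟨⟨c, v, hv, hPv⟩, hw⟩ := h
      have hw' : w ∈ Lc c := hw
      refine ⟨hw'.1, ?_⟩
      obtain ⟨hv1, hv2⟩ := hv
      obtain ⟨hw1, hw2⟩ := hw'
      obtain ⟨a, ha, b, hb, rfl⟩ := Language.mem_mul.1 hv2
      obtain ⟨a', ha', b', hb', rfl⟩ := Language.mem_mul.1 hw2
      have e1 : a = c.1.1 := ha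
      have e2 : a' = c.1.1 := ha'
      subst e1
      subst e2
      have hlen := c.1.2
      have hb1 : (b.map g).prod = c.2 := hb
      have hb2 : (b'.map g).prod = c.2 := hb'
      have hbb := hb1.trans hb2.symm
      rw [hg, hg] at hbb
      have k1 := congrArg Prod.fst hbb
      have k2 := congrArg Prod.snd hbb
      simp only at k1 k2
      have k3 : (b.length : ZMod Pm) = (b'.length : ZMod Pm) := Multiplicative.ofAdd.injective k2
      have k4 : b.length % Pm = b'.length % Pm := (ZMod.natCast_eq_natCast_iff' _ _ _).1 k3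
      refine (hP _ hv1 _ hw1 (by simp; omega) (by simp; omega) ?_ ?_ ?_).1 hPv
      · rw [List.take_left' hlen, List.take_left' hlen]
      · rw [List.length_append, List.length_append, Nat.add_mod, k4, ← Nat.add_mod]
      · rw [List.drop_left' hlen, List.drop_left' hlen]; exact k1
  · rintro ⟨h1, h2⟩
    by_cases hl : w.length < A
    · exact Or.inl ⟨⟨h1, h2⟩, hl⟩
    · right
      have hmem : w ∈ Lc (⟨w.take A, by rw [List.length_take]; omega⟩,
          ((w.drop A).map g).prod) := by
        refine ⟨h1, Language.mem_mul.2 ⟨w.take A, rfl, w.drop A, rfl, List.take_append_drop _ _⟩⟩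
      exact ⟨⟨_, w, hmem, h2⟩, hmem⟩

end key

end Crest.Agent.R320.Joint_151
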