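import Crest.Agent.R320.Top5_110
import Crest.Agent.R320.WallU_36
import Crest.Agent.R320.ExactR_237
import Crest.Agent.R320.Reg_852

/-!
# Row 320: the joint, part A: left-looking blocks on all words (helper540)
-/

set_option autoImplicit false

namespace Crest.Agent.R320.Joint_540

open Crest.Agent.R320 Crest.Agent.R320.Hk_851 Crest.Agent.R320.Code110

variable {α : Type}

/-- left-looking wall rule of window `n` -/
structure LW (n : ℕ) (Wo : List α → Prop) : Prop where
  loc : ∀ P Q : List α, n ≤ Q.length → (Wo (P ++ Q) ↔ Wo Q)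
  len : ∀ Q : List α, Wo Q → n ≤ Q.length

/-- blocks: the first wall at a place `≥ z` -/
def XX (Wo : List α → Prop) (z : ℕ) : Language α :=
  {X | z ≤ X.length ∧ Wo X ∧ ∀ t, z ≤ t → t < X.length → ¬ Wo (X.take t)}

variable {n z : ℕ} {Wo : List α → Prop}

theorem pc (hz : 0 < z) : PC (XX Wo z) where
  ne := by
    rintro ⟨h, -⟩
    simp at h
    omega
  pf := by
    rintro u ⟨hu1, hu2, hu3⟩ v ⟨hv1, hv2, hv3⟩ ⟨r, rfl⟩
    rcases Nat.eq_zero_or_pos r.length with h | h
    · have : r = [] := List.length_eq_zero_iff.1 h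
      simp [this]
    · exfalso
      apply hv3 u.length hu1 (by simp; omega)
      rw [List.take_append_of_le_length le_rfl, List.take_length]
      exact hu2

theorem mem_append (hW : LW n Wo) {P Q : List α} (hP : P.length + n ≤ z) :
    P ++ Q ∈ XX Wo z ↔ z ≤ P.length + Q.length ∧ Wo Q ∧
      ∀ j, z ≤ P.length + j → j < Q.length → ¬ Wo (Q.take j) := by
  constructor
  · rintro ⟨h1, h2, h3⟩
    rw [List.length_append] at h1
    refine ⟨h1, (hW.loc P Q (by omega)).1 h2, fun j hj1 hj2 hw => ?_⟩
    apply h3 (P.length + j) hj1 (by rw [List.length_append]; omega)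
    rw [List.take_append, List.take_of_length_le (by omega), Nat.add_sub_cancel_left]
    exact (hW.loc P (Q.take j) (by rw [List.length_take]; omega)).2 hw
  · rintro ⟨h1, h2, h3⟩
    refine ⟨by rw [List.length_append]; omega, (hW.loc P Q (by omega)).2 h2, fun t ht1 ht2 hw => ?_⟩
    rw [List.length_append] at ht2
    have : (P ++ Q).take t = P ++ Q.take (t - P.length) := by
      rw [List.take_append, List.take_of_length_le (by omega)]
    rw [this] at hw
    exact h3 (t - P.length) (by omega) (by omega)
      ((hW.loc P _ (by rw [List.length_take]; omega)).1 hw)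

/-- every text with a wall at a place `≥ z` starts with a block -/
theorem exists_block (hW : LW n Wo) {P Q : List α} (hP : P.length + n ≤ z)
    {j : ℕ} (hj : j ≤ Q.length) (hj2 : z ≤ P.length + j) (hw : Wo (Q.take j)) :
    ∃ i ≤ j, z ≤ P.length + i ∧ Wo (Q.take i) ∧ P ++ Q.take i ∈ XX Wo z ∧
      ∀ i', z ≤ P.length + i' → i' < i → ¬ Wo (Q.take i') := by
  classical
  have hex : ∃ i, z ≤ P.length + i ∧ Wo (Q.take i) := ⟨j, hj2, hw⟩
  set i := Nat.find hex with hi
  obtain ⟨h1, h2⟩ := Nat.find_spec hex
  have hij : i ≤ j := Nat.find_min' hex ⟨hj2, hw⟩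
  have hmin : ∀ i', z ≤ P.length + i' → i' < i → ¬ Wo (Q.take i') :=
    fun i' h3 h4 h5 => Nat.find_min hex h4 ⟨h3, h5⟩
  refine ⟨i, hij, h1, h2, ?_, hmin⟩
  have hl : (Q.take i).length = i := by rw [List.length_take]; omega
  refine (mem_append hW hP).2 ⟨by rw [hl]; exact h1, h2, fun j' h3 h4 h5 => ?_⟩
  rw [hl] at h4
  rw [List.take_take, min_eq_left h4.le] at h5
  exact hmin j' h3 h4 h5

/-- no wall at places `≥ z` before the end: boundedly many pieces -/
theorem pieces (hW : LW n Wo) {R B : ℕ}
    (hp : ∀ u : List α, (∀ t < u.length, ¬ Wo (u.take t)) → CompR_11.Pieces R B u)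
    (w : List α) (hw : ∀ t, z ≤ t → t < w.length → ¬ Wo (w.take t)) :
    CompR_11.Pieces (R + 1) (B + z) w := by
  have h1 : ∀ t < (w.drop (z - n)).length, ¬ Wo ((w.drop (z - n)).take t) := by
    intro t ht hwt
    have h2 := hW.len _ hwt
    rw [List.length_take] at h2
    rw [List.length_drop] at ht
    have e : w.take (z - n + t) = w.take (z - n) ++ (w.drop (z - n)).take t := by
      rw [List.take_add]
    refine hw (z - n + t) (by omega) (by omega) ?_
    rw [e]
    exact (hW.loc _ _ (by rw [List.length_take]; omega)).2 hwt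
  obtain ⟨l, hl1, hl2, hl3⟩ := hp _ h1
  refine ⟨(w.take (z - n), [], 0) :: l, by rw [List.length_cons]; omega, ?_, ?_⟩
  · intro t ht
    rcases List.mem_cons.1 ht with rfl | ht
    · refine ⟨?_, by simp⟩
      show (w.take (z - n)).length ≤ _
      rw [List.length_take]; omega
    · have := hl2 t ht
      omega
  · have e2 : Pump_360.val ((w.take (z - n), [], 0) :: l) = w.take (z - n) ++ Pump_360.val l := by
      simp [Pump_360.val, Pump_360.pw]
    rw [e2, ← hl3, List.take_append_drop]

end Crest.Agent.R320.Joint_540
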