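import Crest.Agent.R320.Main_621
import Crest.Agent.R320.ExactT_580

/-!
# Row 320: concrete instance of `Main_621.Data`, part A (helper680)

Blocks over a left-looking wall rule: a block ends at the next wall after the first wall at
distance at least `z`.  Scheme A = any arithmetic gadget (693 / 638) on the text from `p0` to the
first wall at distance at least `z`.
-/

set_option autoImplicit false

namespace Crest.Agent.R320.Joint_680

open Crest.Agent.R320.Hk_851 Crest.Agent.R320.Star_621 Crest.Agent.R320.Two_621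
  Crest.Agent.R320.Main_621

variable {α : Type}

/-- left-looking wall rule -/
structure LW (Wo : List α → Prop) (n W : ℕ) : Prop where
  loc : ∀ P Q : List α, n ≤ Q.length → (Wo (P ++ Q) ↔ Wo Q)
  len : ∀ P : List α, Wo P → n ≤ P.length
  gap : ∀ (X : List α) (s t : ℕ), s < t → t ≤ X.length → Wo (X.take s) → Wo (X.take t) →
    W < t - s

/-- `t` is the first wall at distance at least `z` -/
def IsT (Wo : List α → Prop) (z : ℕ) (X : List α) (t : ℕ) : Prop :=
  z ≤ t ∧ t ≤ X.length ∧ Wo (X.take t) ∧ ∀ s, z ≤ s → s < t → ¬ Wo (X.take s)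

/-- the end is the next wall after `t` -/
def IsE (Wo : List α → Prop) (X : List α) (t : ℕ) : Prop :=
  t < X.length ∧ Wo X ∧ ∀ s, t < s → s < X.length → ¬ Wo (X.take s)

/-- blocks -/
def ZZ (Wo : List α → Prop) (z : ℕ) : Language α := {X | ∃ t, IsT Wo z X t ∧ IsE Wo X t}

/-- bad blocks -/
def BadX (Wo : List α → Prop) (z N p0 : ℕ) (BadT : ℕ → Prop) (X : List α) (t : ℕ) : Prop :=
  (∃ s, s ≤ t ∧ Wo (X.take s) ∧ z ≤ s + N ∧ s < z + N) ∨ BadT (t - p0)

def ZC (Wo : List α → Prop) (z N p0 : ℕ) (BadT : ℕ → Prop) : Language α :=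
  {X | ∃ t, IsT Wo z X t ∧ IsE Wo X t ∧ BadX Wo z N p0 BadT X t}

variable {Wo : List α → Prop} {n W z N p0 : ℕ} {BadT : ℕ → Prop}

theorem IsT.unique {X : List α} {s t : ℕ} (h1 : IsT Wo z X s) (h2 : IsT Wo z X t) : s = t := by
  rcases lt_trichotomy s t with h | h | h
  · exact absurd h1.2.2.1 (h2.2.2.2 s h1.1 h)
  · exact h
  · exact absurd h2.2.2.1 (h1.2.2.2 t h2.1 h)

theorem take_of_take {X Y : List α} {s t : ℕ} (he : Y.take t = X.take t) (hst : s ≤ t) :
    Y.take s = X.take s := by
  have := congrArg (List.take s) he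
  rwa [List.take_take, List.take_take, min_eq_left hst] at this

theorem IsT.of_take {X Y : List α} {t : ℕ} (h : IsT Wo z X t) (hl : t ≤ Y.length)
    (he : Y.take t = X.take t) : IsT Wo z Y t :=
  ⟨h.1, hl, by rw [he]; exact h.2.2.1, fun s hs hst => by
    rw [take_of_take he hst.le]; exact h.2.2.2 s hs hst⟩

theorem BadX.of_take {X Y : List α} {t : ℕ} (h : BadX Wo z N p0 BadT X t)
    (he : Y.take t = X.take t) : BadX Wo z N p0 BadT Y t := by
  rcases h with ⟨s, h1, h2, h3⟩ | h
  · exact Or.inl ⟨s, h1, by rw [take_of_take he h1]; exact h2, h3⟩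
  · exact Or.inr h

theorem code_aux {X X' x x' : List α} (h : X ∈ ZZ Wo z) (h' : X' ∈ ZZ Wo z)
    (he : X ++ x = X' ++ x') (hl : X.length ≤ X'.length) : X = X' := by
  obtain ⟨t, ht, hE⟩ := h
  obtain ⟨t', ht', hE'⟩ := h'
  have e1 : X'.take X.length = X := by
    have := congrArg (List.take X.length) he
    rw [List.take_left' rfl, List.take_append_of_le_length hl] at this
    exact this.symm
  have e2 : IsT Wo z X' t := ht.of_take (ht.2.1.trans hl) (by
    conv_rhs => rw [← e1]
    rw [List.take_take, min_eq_left ht.2.1])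
  have e3 := e2.unique ht'
  subst e3
  rcases hl.lt_or_eq with h | h
  · exact absurd (by rw [e1]; exact hE.2.1) (hE'.2.2 X.length hE.1 h)
  · rw [← e1, h, List.take_length]

theorem code : Code (ZZ Wo z) := by
  refine ⟨?_, fun X X' x x' h h' he => ?_⟩
  · rintro ⟨t, -, h, -⟩
    simp at h
  · rcases le_total X.length X'.length with hl | hl
    · exact code_aux h h' he hl
    · exact (code_aux h' h he.symm hl).symm

theorem LW.shift (h : LW Wo n W) (P P1 Q : List α) {s : ℕ} (hs : n ≤ s) (hl : s ≤ Q.length) :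
    Wo ((P ++ Q).take (P.length + s)) ↔ Wo ((P1 ++ Q).take (P1.length + s)) := by
  have e : ∀ P : List α, (P ++ Q).take (P.length + s) = P ++ Q.take s := fun P => by
    rw [List.take_append, List.take_of_length_le (by omega)]
    congr 2; omega
  rw [e, e, h.loc _ _ (by rw [List.length_take]; omega), h.loc _ _ (by rw [List.length_take]; omega)]

theorem junction (h : LW Wo n W) {P Q P1 : List α} {t : ℕ} (ht : IsT Wo z (P ++ Q) t)
    (hE : IsE Wo (P ++ Q) t) (h1 : P.length + n ≤ t) (h2 : z + P.length ≤ t + P1.length)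
    (h4 : P1.length + n ≤ z)
    (h3 : ∀ s, n ≤ s → z ≤ P1.length + s → P.length + s < t →
      ¬ Wo ((P ++ Q).take (P.length + s))) :
    IsT Wo z (P1 ++ Q) (P1.length + (t - P.length)) ∧
      IsE Wo (P1 ++ Q) (P1.length + (t - P.length)) := by
  have hlen : (P ++ Q).length = P.length + Q.length := List.length_append
  have hlen1 : (P1 ++ Q).length = P1.length + Q.length := List.length_append
  have hle := ht.2.1
  have hlt := hE.1
  refine ⟨⟨by omega, by omega, ?_, ?_⟩, ⟨by omega, ?_, ?_⟩⟩
  · rw [← h.shift P P1 Q (s := t - P.length) (by omega) (by omega)]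
    have e : P.length + (t - P.length) = t := by omega
    rw [e]; exact ht.2.2.1
  · intro s' hs hst hw
    have e : s' = P1.length + (s' - P1.length) := by omega
    rw [e] at hw
    exact h3 (s' - P1.length) (by omega) (by omega) (by omega)
      ((h.shift P P1 Q (by omega) (by omega)).2 hw)
  · rw [h.loc _ _ (by omega), ← h.loc P Q (by omega)]; exact hE.2.1
  · intro s' hs hst hw
    have e : s' = P1.length + (s' - P1.length) := by omega
    rw [e] at hw
    exact hE.2.2 (P.length + (s' - P1.length)) (by omega) (by omega)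
      ((h.shift P P1 Q (by omega) (by omega)).2 hw)

section A

variable {S : Type} [Monoid S]

/-- the arithmetic gadget, any typed form plugs in -/
structure G1 (ph : List α → S) (N : ℕ) (BadT : ℕ → Prop) (lam rho : List α → Option (Tok S))
    (nu1 : List α → Tok S) : Prop where
  sound : ∀ P Q v b, lam P = some v → rho Q = some b → b = act v (ph (P ++ Q)) + nu1 (P ++ Q)
  len : ∀ P v, lam P = some v → P.length ≤ N
  comp : ∀ u : List α, 2 * N ≤ u.length → ¬ BadT u.length → ∀ v, ∃ P Q, P ++ Q = u ∧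
    lam P = some v ∧ (rho Q).isSome

open Classical in
/-- the noise of scheme A on a block -/
noncomputable def dA (Wo : List α → Prop) (z p0 : ℕ) (ph : List α → S) (nu1 : List α → Tok S)
    (X : List α) : Tok S :=
  if h : ∃ t, IsT Wo z X t then act (nu1 ((X.take h.choose).drop p0)) (ph (X.drop h.choose))
  else 0

theorem dA_eq {ph : List α → S} {nu1 : List α → Tok S} {X : List α} {t : ℕ}
    (h : IsT Wo z X t) :
    dA Wo z p0 ph nu1 X = act (nu1 ((X.take t).drop p0)) (ph (X.drop t)) := by
  have hh : ∃ t, IsT Wo z X t := ⟨t, h⟩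
  rw [dA, dif_pos hh, hh.choose_spec.unique h]

def LA (p0 : ℕ) (ph : List α → S) (lam : List α → Option (Tok S)) (v : Tok S) : Language α :=
  {P | p0 ≤ P.length ∧ lam (P.drop p0) = some (act v (ph (P.take p0)))}

def RA (Wo : List α → Prop) (z p0 : ℕ) (ph : List α → S) (lam : List α → Option (Tok S))
    (nu1 : List α → Tok S) (τ : Tok S) : Language α :=
  {Q | ∀ v, ∀ P ∈ LA p0 ph lam v, P ++ Q ∈ ZZ Wo z ∧ aff ph (dA Wo z p0 ph nu1) (P ++ Q) v = τ}

theorem soundA {ph : List α → S} {lam : List α → Option (Tok S)} {nu1 : List α → Tok S}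
    (hp0 : 0 < p0) :
    Sound (ZZ Wo z) (aff ph (dA Wo z p0 ph nu1)) (LA p0 ph lam) (RA Wo z p0 ph lam nu1) := by
  refine ⟨fun v h => ?_, fun ω τ P Q z' x y hP hQ hz he => ?_⟩
  · have := h.1
    simp at this; omega
  · obtain ⟨h1, h2⟩ := hQ ω P hP
    have e := code.2 (P ++ Q) z' x y h1 hz he
    exact ⟨e, by rw [← e, h2]⟩

/-- value at the end of the block -/
theorem valA {ph : List α → S} (hm : ∀ a b, ph (a ++ b) = ph a * ph b)
    {lam rho : List α → Option (Tok S)} {nu1 : List α → Tok S}
    (hG : G1 ph N BadT lam rho nu1) {P q D : List α} {v b : Tok S} (hp : p0 ≤ P.length)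
    (hl : lam (P.drop p0) = some (act v (ph (P.take p0)))) (hr : rho q = some b)
    (ht : IsT Wo z ((P ++ q) ++ D) (P ++ q).length) :
    aff ph (dA Wo z p0 ph nu1) ((P ++ q) ++ D) v = act b (ph D) := by
  rw [aff, dA_eq ht, List.take_left' rfl, List.drop_left' rfl,
    List.drop_append_of_le_length hp, hG.sound _ _ _ _ hl hr, act_add]
  congr 1
  rw [act_mul, act_mul, ← hm, ← hm]
  have e : P.take p0 ++ ((P.drop p0 ++ q) ++ D) = (P ++ q) ++ D := by
    rw [← List.append_assoc, ← List.append_assoc, List.take_append_drop]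
  rw [e]

theorem compA (h : LW Wo n W) {ph : List α → S} (hm : ∀ a b, ph (a ++ b) = ph a * ph b)
    {lam rho : List α → Option (Tok S)} {nu1 : List α → Tok S}
    (hG : G1 ph N BadT lam rho nu1) (hz : p0 + 2 * N + n ≤ z) {X : List α}
    (hX : X ∈ ZZ Wo z) (hC : X ∉ ZC Wo z N p0 BadT) (v : Tok S) :
    Cut (LA p0 ph lam) (RA Wo z p0 ph lam nu1) v X := by
  obtain ⟨t, ht, hE⟩ := hX
  have hb : ¬ BadX Wo z N p0 BadT X t := fun hb => hC ⟨t, ht, hE, hb⟩
  have hb1 : ∀ s, s ≤ t → Wo (X.take s) → z ≤ s + N → z + N ≤ s := fun s h1 h2 h3 => by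
    by_contra h4
    exact hb (Or.inl ⟨s, h1, h2, h3, by omega⟩)
  have hb2 : ¬ BadT (t - p0) := fun h => hb (Or.inr h)
  have hzt : z + N ≤ t := hb1 t le_rfl ht.2.2.1 (by have := ht.1; omega)
  have hlX := ht.2.1
  have hlu : ((X.take t).drop p0).length = t - p0 := by simp; omega
  obtain ⟨p, q, hpq, hlp, hrq⟩ := hG.comp ((X.take t).drop p0) (by rw [hlu]; omega)
    (by rw [hlu]; exact hb2) (act v (ph (X.take p0)))
  obtain ⟨b, hb⟩ := Option.isSome_iff_exists.1 hrq
  have hpl := hG.len _ _ hlp
  have hpql : p.length + q.length = t - p0 := by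
    rw [← hlu, ← hpq, List.length_append]
  have hl0 : (X.take p0).length = p0 := by simp; omega
  -- X = P ++ q ++ D
  have eX : X = ((X.take p0 ++ p) ++ q) ++ X.drop t := by
    conv_lhs => rw [← List.take_append_drop t X]
    congr 1
    rw [List.append_assoc, hpq]
    conv_lhs => rw [← List.take_append_drop p0 (X.take t)]
    rw [List.take_take, min_eq_left (by omega)]
  set P := X.take p0 ++ p with hP
  set D := X.drop t with hD
  have hPl : P.length = p0 + p.length := by rw [hP, List.length_append, hl0]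
  have hPL : P ∈ LA p0 ph lam v := by
    refine ⟨by omega, ?_⟩
    rw [hP, List.drop_left' hl0, List.take_left' hl0]; exact hlp
  have eX2 : X = P ++ (q ++ D) := by rw [← List.append_assoc]; exact eX
  have htP : IsT Wo z (P ++ (q ++ D)) t := by rw [← eX2]; exact ht
  have hEP : IsE Wo (P ++ (q ++ D)) t := by rw [← eX2]; exact hE
  refine ⟨P, q ++ D, act b (ph D), eX2, hPL, fun v1 P1 hP1 => ?_⟩
  have h1l := hP1.1
  have h1u := hG.len _ _ hP1.2
  rw [List.length_drop] at h1u
  obtain ⟨j1, j2⟩ := junction h htP hEP (P1 := P1) (by omega) (by omega) (by omega)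
    (fun s hs hz1 hst hw => by
      rw [← eX2] at hw
      have := hb1 (P.length + s) (by omega) hw (by omega)
      exact ht.2.2.2 (P.length + s) (by omega) hst hw)
  refine ⟨⟨_, j1, j2⟩, ?_⟩
  have e1 : P1.length + (t - P.length) = (P1 ++ q).length := by
    have := @List.length_append α P1 q
    omega
  rw [e1, ← List.append_assoc] at j1
  rw [← List.append_assoc]
  exact valA hm hG h1l hP1.2 hb j1

end A

end Crest.Agent.R320.Joint_680
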