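import Crest.Agent.R320.Top5_110
import Crest.Agent.R320.FewVal_228

/-!
# Row 320: left-looking walls, natural block code, language side (helper844)
-/

set_option autoImplicit false

namespace Crest.Agent.R320.Joint_844

open Crest.Agent.R320.Hk_851 Crest.Agent.R320.Code110 Crest.Agent.R320.Top5_110
open Crest.Agent.R320.FewWalls_228 Crest.Agent.R320.FewVal_228

universe u v

variable {α : Type u}

/-- wall ending at `t` -/
def Ew (n : ℕ) (S : Set (List α)) (w : List α) (t : ℕ) : Prop := n ≤ t ∧ Wl n S w (t - n)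

theorem Ew.le {n : ℕ} {S : Set (List α)} {w : List α} {t : ℕ} (h : Ew n S w t) :
    t ≤ w.length := by
  have h1 := h.2.1
  have h2 := h.1
  omega

theorem Ew_left {n : ℕ} {S : Set (List α)} {p q : List α} {t : ℕ} (h : t ≤ p.length) :
    Ew n S (p ++ q) t ↔ Ew n S p t := by
  unfold Ew Wl
  constructor
  · rintro ⟨h1, h2, h3⟩
    refine ⟨h1, by omega, ?_⟩
    rw [List.drop_append_of_le_length (by omega),
      List.take_append_of_le_length (by rw [List.length_drop]; omega)] at h3
    exact h3
  · rintro ⟨h1, h2, h3⟩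
    refine ⟨h1, by rw [List.length_append]; omega, ?_⟩
    rw [List.drop_append_of_le_length (by omega),
      List.take_append_of_le_length (by rw [List.length_drop]; omega)]
    exact h3

theorem Ew_right {n : ℕ} {S : Set (List α)} {p q : List α} {t : ℕ} (h : n ≤ t) :
    Ew n S (p ++ q) (p.length + t) ↔ Ew n S q t := by
  unfold Ew Wl
  have e : (p ++ q).drop (p.length + t - n) = q.drop (t - n) := by
    rw [show p.length + t - n = p.length + (t - n) by omega, ← List.drop_drop, List.drop_left]
  rw [e, List.length_append]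
  constructor
  · rintro ⟨h1, h2, h3⟩; exact ⟨h, by omega, h3⟩
  · rintro ⟨h1, h2, h3⟩; exact ⟨by omega, by omega, h3⟩

theorem Ew_take {n : ℕ} {S : Set (List α)} {w : List α} {t m : ℕ} (h : t ≤ m) :
    Ew n S (w.take m) t ↔ Ew n S w t := by
  rcases le_or_gt w.length m with h1 | h1
  · rw [List.take_of_length_le h1]
  · conv_rhs => rw [← List.take_append_drop m w]
    rw [Ew_left]
    rw [List.length_take]; omega

/-- the language of a predicate -/
def lang (p : List α → Prop) : Language α := {w | p w}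

/-- the blocks -/
def XX (n z : ℕ) (S : Set (List α)) : Language α :=
  {u | z ≤ u.length ∧ Ew n S u u.length ∧ ∀ t, z ≤ t → t < u.length → ¬ Ew n S u t}

theorem XX_pc {n z : ℕ} {S : Set (List α)} (hz : 0 < z) : PC (XX n z S) where
  ne := by
    rintro ⟨h, -⟩
    simp at h
    omega
  pf := by
    rintro u ⟨hu1, hu2, hu3⟩ v ⟨hv1, hv2, hv3⟩ ⟨r, rfl⟩
    rcases Nat.eq_zero_or_pos r.length with h0 | h0
    · rw [List.length_eq_zero_iff.1 h0, List.append_nil]
    · exact absurd ((Ew_left le_rfl).2 hu2) (hv3 u.length hu1 (by rw [List.length_append]; omega))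

/-- the first wall end at a place `≥ z` -/
theorem first {n z : ℕ} {S : Set (List α)} {w : List α} {t : ℕ} (ht : z ≤ t) (hw : Ew n S w t) :
    ∃ e, z ≤ e ∧ e ≤ t ∧ Ew n S w e ∧ (∀ s, z ≤ s → s < e → ¬ Ew n S w s) ∧
      w.take e ∈ XX n z S := by
  classical
  have hex : ∃ e, z ≤ e ∧ Ew n S w e := ⟨t, ht, hw⟩
  have h1 := Nat.find_spec hex
  have h2 := fun m (h : m < Nat.find hex) => Nat.find_min hex h
  have h3 : Nat.find hex ≤ t := Nat.find_min' hex ⟨ht, hw⟩
  have hl : (w.take (Nat.find hex)).length = Nat.find hex := by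
    rw [List.length_take]
    have := h1.2.le
    omega
  refine ⟨Nat.find hex, h1.1, h3, h1.2, fun s hs hse hE => h2 s hse ⟨hs, hE⟩, ?_⟩
  refine ⟨by rw [hl]; exact h1.1, ?_, ?_⟩
  · rw [hl, Ew_take le_rfl]; exact h1.2
  · intro s hs hse hE
    rw [hl] at hse
    rw [Ew_take hse.le] at hE
    exact h2 s hse ⟨hs, hE⟩

theorem nw_le {n : ℕ} {S : Set (List α)} {w : List α} (F : Finset ℕ)
    (h : ∀ x, Wl n S w x → x ∈ F) : nw n S w ≤ F.card := by
  classical
  unfold nw
  apply Finset.card_le_card
  intro x hx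
  rw [Finset.mem_filter] at hx
  exact h x hx.2

theorem nw_drop {n z K0 : ℕ} {S : Set (List α)} (hK : z ≤ K0 + n) {u : List α}
    (hu : u ∈ XX n z S) : nw n S (u.drop K0) ≤ 1 := by
  rcases le_or_gt u.length K0 with h1 | h1
  · rw [List.drop_of_length_le h1]
    refine nw_le {0} ?_
    intro x hx
    have := hx.1
    simp only [List.length_nil] at this
    rw [Finset.mem_singleton]
    omega
  · refine nw_le {u.length - n - K0} ?_
    intro x hx
    rw [wl_drop h1.le] at hx
    rw [Finset.mem_singleton]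
    by_contra hne
    have h2 := hx.1
    have h3 : Ew n S u (K0 + x + n) := ⟨by omega, by
      rw [show K0 + x + n - n = K0 + x by omega]; exact hx⟩
    rcases Nat.lt_or_ge (K0 + x + n) u.length with h4 | h4
    · exact hu.2.2 _ (by omega) h4 h3
    · omega

/-- the blocks have height `0` -/
theorem HL_XX [Finite α] {n z k : ℕ} (S : Set (List α)) : HL k (XX n z S) := by
  have hfin : {v : List α | v ∈ S ∧ v.length = n}.Finite :=
    (List.finite_length_eq α n).subset fun v hv => hv.2
  have hE : HL k ({u | Ew n S u u.length} : Language α) := by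
    refine (HL.suffix (HL.finite hfin)).congr fun u => ?_
    constructor
    · rintro ⟨h1, h2, h3⟩
      have hl : (u.drop (u.length - n)).length = n := by rw [List.length_drop]; omega
      rw [List.take_of_length_le hl.le] at h3
      exact ⟨u.drop (u.length - n), ⟨h3, hl⟩, List.drop_suffix _ _⟩
    · rintro ⟨v, ⟨h1, h2⟩, t, rfl⟩
      refine ⟨by rw [List.length_append]; omega, by rw [List.length_append]; omega, ?_⟩
      have : (t ++ v).length - n = t.length := by rw [List.length_append]; omega
      rw [this, List.drop_left, List.take_of_length_le h2.le]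
      exact h1
  have hA : HL k ({u | z ≤ u.length ∧ Ew n S u u.length} : Language α) :=
    HL.setOf_and (HL.length_ge z) hE
  have hB : HL k (lang (fun u => z ≤ u.length ∧ Ew n S u u.length) *
      lang (fun w : List α => 1 ≤ w.length)) := HL.mul hA (HL.length_ge 1)
  refine (hA.sdiff hB).congr fun u => ?_
  constructor
  · rintro ⟨h1, h2, h3⟩
    refine ⟨⟨h1, h2⟩, ?_⟩
    intro hm
    obtain ⟨a, ⟨ha1, ha2⟩, b, hb, rfl⟩ := Language.mem_mul.1 hm
    have hb' : 1 ≤ b.length := hb
    exact h3 a.length ha1 (by rw [List.length_append]; omega) ((Ew_left le_rfl).2 ha2)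
  · rintro ⟨⟨h1, h2⟩, h3⟩
    refine ⟨h1, h2, ?_⟩
    intro t ht htu hE
    apply h3
    refine Language.mem_mul.2 ⟨u.take t, ⟨?_, ?_⟩, u.drop t, ?_, List.take_append_drop _ _⟩
    · rw [List.length_take]; omega
    · rw [List.length_take, Nat.min_eq_left htu.le, Ew_take le_rfl]; exact hE
    · show 1 ≤ (u.drop t).length
      rw [List.length_drop]; omega

theorem prod_snd {M : Type*} [Monoid M] (Pm : ℕ) (f : α → M) (w : List α) :
    (w.map fun a => ((f a, Multiplicative.ofAdd (1 : ZMod Pm)) : M × Multiplicative (ZMod Pm))).prod =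
      ((w.map f).prod, Multiplicative.ofAdd ((w.length : ℕ) : ZMod Pm)) := by
  induction w with
  | nil => simp; rfl
  | cons a w ih =>
    rw [List.map_cons, List.prod_cons, ih, List.map_cons, List.prod_cons, Prod.mk_mul_mk,
      ← ofAdd_add]
    congr 2
    push_cast [List.length_cons]
    ring

/-- languages of blocks which depend only on a bounded prefix, the length modulo `Pm` and a product -/
theorem HL_key [Finite α] {n c P z K0 Pm : ℕ} {S : Set (List α)} (hn : 0 < n) (hP : 0 < P)
    (hper : PerOff n c P S) (hPm : 0 < Pm) (hK : z ≤ K0) (hz : 0 < z)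
    {M : Type*} [Monoid M] [Finite M] (f : α → M) (Q : List α → Prop)
    (hQ : ∀ u ∈ XX n z S, ∀ u' ∈ XX n z S, u.take K0 = u'.take K0 →
      u.length % Pm = u'.length % Pm →
      ((u.drop K0).map f).prod = ((u'.drop K0).map f).prod → (Q u ↔ Q u')) :
    HL 1 ({u | u ∈ XX n z S ∧ Q u} : Language α) := by
  classical
  have : NeZero Pm := ⟨hPm.ne'⟩
  let f' : α → M × Multiplicative (ZMod Pm) := fun a => (f a, Multiplicative.ofAdd (1 : ZMod Pm))
  have : Finite {w0 : List α // w0.length ≤ K0} := (List.finite_length_le α K0).to_subtype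
  let I := {w0 : List α // w0.length ≤ K0} × (M × Multiplicative (ZMod Pm))
  have hF : ∀ s', HL 1 ({w | nw n S w ≤ 1 ∧ (w.map f').prod = s'} : Language α) := fun s' =>
    HL_few_value hn hP hper 1 f' s'
  have hI : HL 1 ({u | ∃ i : I, u ∈ ({u | (∃ u0 ∈ XX n z S, Q u0 ∧ u0.take K0 = i.1.1 ∧
      ((u0.drop K0).map f').prod = i.2) ∧ (u ∈ XX n z S ∧ u ∈ (lang (fun w => w = i.1.1) *
        lang (fun w => nw n S w ≤ 1 ∧ (w.map f').prod = i.2)))} : Language α)} :
      Language α) := by
    apply HL.iUnion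
    intro i
    exact (HL.const _).setOf_and ((HL_XX S).setOf_and (HL.mul (HL.word i.1.1) (hF i.2)))
  refine hI.congr fun u => ?_
  constructor
  · rintro ⟨hu, hq⟩
    refine ⟨(⟨u.take K0, by rw [List.length_take]; omega⟩, ((u.drop K0).map f').prod),
      ⟨u, hu, hq, rfl, rfl⟩, hu, ?_⟩
    exact Language.mem_mul.2 ⟨u.take K0, rfl, u.drop K0, ⟨nw_drop (by omega) hu, rfl⟩,
      List.take_append_drop _ _⟩
  · rintro ⟨⟨⟨w0, hw0⟩, s'⟩, ⟨u0, hu0, hq0, h1, h2⟩, hu, hm⟩
    refine ⟨hu, ?_⟩
    obtain ⟨a, ha, w', ⟨-, hw'⟩, rfl⟩ := Language.mem_mul.1 hm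
    have ha' : a = w0 := ha
    subst ha'
    simp only at h1 h2 hw'
    rcases le_or_gt u0.length K0 with hl | hl
    · rw [List.take_of_length_le hl] at h1
      subst h1
      have := (XX_pc hz).pf _ hu0 _ hu (List.prefix_append _ _)
      rw [← this]
      exact hq0
    · have hal : a.length = K0 := by rw [← h1, List.length_take]; omega
      have e1 : (a ++ w').take K0 = a := List.take_left' hal
      have e2 : (a ++ w').drop K0 = w' := List.drop_left' hal
      rw [← hw'] at h2
      rw [prod_snd, prod_snd] at h2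
      have h3 := (Prod.mk.injEq _ _ _ _ ▸ h2 : _ ∧ _)
      have h4 : (((u0.drop K0).length : ℕ) : ZMod Pm) = ((w'.length : ℕ) : ZMod Pm) :=
        Multiplicative.ofAdd.injective h3.2
      rw [ZMod.natCast_eq_natCast_iff] at h4
      refine (hQ u0 hu0 _ hu (by rw [e1, h1]) ?_ (by rw [e2]; exact h3.1)).1 hq0
      rw [List.length_append, hal]
      have : u0.length = K0 + (u0.drop K0).length := by rw [List.length_drop]; omega
      rw [this]
      exact Nat.ModEq.add_left K0 h4

/-- the rest words -/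
theorem HL_rest [Finite α] {n c P z : ℕ} {S : Set (List α)} (hn : 0 < n) (hP : 0 < P)
    (hper : PerOff n c P S) {M : Type*} [Monoid M] [Finite M] (f : α → M) (s : M) :
    HL 1 ({w | (∀ u ∈ XX n z S, ¬ u <+: w) ∧ (w.map f).prod = s} : Language α) := by
  have h1 := HL_few_value hn hP hper z f s
  have h2 : HL 1 ({w | ¬ ∃ v ∈ XX n z S, v <+: w} : Language α) :=
    HL.setOf_not (HL.prefix (HL_XX S))
  refine (h2.inf h1).congr fun w => ?_
  constructor
  · rintro ⟨hw, hs⟩
    refine ⟨?_, ?_, hs⟩
    · rintro ⟨v, hv, hvw⟩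
      exact hw v hv hvw
    · refine (nw_le (Finset.range z) ?_).trans (by simp)
      intro x hx
      rw [Finset.mem_range]
      by_contra hc
      have hE : Ew n S w (x + n) := ⟨by omega, by rw [Nat.add_sub_cancel]; exact hx⟩
      obtain ⟨e, -, -, -, -, he⟩ := first (z := z) (t := x + n) (by omega) hE
      exact hw _ he (List.take_prefix _ _)
  · rintro ⟨h1, h2, h3⟩
    exact ⟨fun u hu hw => h1 ⟨u, hu, hw⟩, h3⟩

end Crest.Agent.R320.Joint_844
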