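import Crest.Agent.R320.Top_91

/-!
# Row 320: the joint of the two schemes on left-looking blocks, semantic right labels (helper91)

Natural chain rule: a block ends at the first wall at distance `≥ z0`.  Scheme 1 (gadget `lam`,
`rho`, `nu1` on the part right of `p0`), scheme 2 (exact gadget `lam2`, `rho2`, `nu2` on the first
`p0` letters).  All words.
-/

set_option autoImplicit false

namespace Crest.Agent.R320.JointA_91

open Crest.RegLang Crest.Agent.R320.Hk_851 Crest.Agent.R320.Asm_505 Crest.Agent.R320.Half1_91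

variable {α : Type*} {S V : Type*} [Monoid S] [AddCommGroup V]

/-- the data -/
structure Dat (α S V : Type*) where
  Wo : List α → Prop
  n : ℕ
  z0 : ℕ
  p0 : ℕ
  N : ℕ
  φ : List α → S
  act : V → S → V
  nu1 : List α → V
  nu2 : List α → V
  lam : List α → Option V
  rho : List α → Option V
  K : ℕ
  c : ℕ → ℕ
  lam2 : ℕ → List α → Option V
  rho2 : ℕ → List α → Option V

/-- soundness hypotheses of the data -/
structure Dat.Ok (d : Dat α S V) : Prop where
  loc : ∀ P Q : List α, d.n ≤ Q.length → (d.Wo (P ++ Q) ↔ d.Wo Q)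
  len : ∀ P, d.Wo P → d.n ≤ P.length
  lamN : ∀ p v, d.lam p = some v → p.length ≤ d.N
  ex1 : ∀ p q v r, d.lam p = some v → d.rho q = some r →
    r = d.act v (d.φ (p ++ q)) + d.nu1 (p ++ q)
  ex2 : ∀ k < d.K, ∀ P Q v b, P.length = d.c k → (P ++ Q).length = d.p0 →
    d.lam2 k P = some v → d.rho2 k Q = some b → b = d.act v (d.φ (P ++ Q)) + d.nu2 (P ++ Q)
  cpos : ∀ k < d.K, 0 < d.c k
  cle : ∀ k < d.K, d.c k ≤ d.p0
  p0pos : 0 < d.p0
  big : d.p0 + d.N + d.n ≤ d.z0

variable (d : Dat α S V)

/-- blocks -/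
def UU : Language α :=
  {X | d.Wo X ∧ d.z0 ≤ X.length ∧ ∀ t, d.z0 ≤ t → t < X.length → ¬ d.Wo (X.take t)}

/-- the zone map -/
def eps (z : List α) (v : V) : V :=
  d.act (d.act v (d.φ (z.take d.p0)) + d.nu2 (z.take d.p0)) (d.φ (z.drop d.p0)) +
    d.nu1 (z.drop d.p0)

/-- left words of scheme 1 -/
def P1 (x : V) : Language α :=
  {P | d.p0 ≤ P.length ∧ P.length ≤ d.p0 + d.N ∧
    d.lam (P.drop d.p0) = some (d.act x (d.φ (P.take d.p0)) + d.nu2 (P.take d.p0))}

/-- right words of scheme 1 -/
def R1 (y : V) : Language α :=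
  {q | (∃ p : List α, p.length ≤ d.p0 + d.N ∧ p ++ q ∈ UU d) ∧
    ∀ x, ∀ p ∈ P1 d x, p ++ q ∈ UU d ∧ eps d (p ++ q) x = y}

/-- bad blocks: some token is not cut by scheme 1 -/
def Bd : Language α :=
  {X | X ∈ UU d ∧ ∃ x, ¬ ∃ P Q, X = P ++ Q ∧ P ∈ P1 d x ∧ Q ∈ R1 d (eps d X x)}

/-- left words of scheme 2 -/
def P2 (x : V) : Language α :=
  {P | ∃ k < d.K, P.length = d.c k ∧ d.lam2 k P = some x}

/-- comparable words -/
def Cmp (z w : List α) : Prop := z <+: w ∨ w <+: z

/-- right words of scheme 2 -/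
def R2 (y : V) : Language α :=
  {q | (∃ p : List α, p.length ≤ d.p0 ∧ ∃ z1 ∈ UU d, ∃ z2 ∈ UU d, p ++ q = z1 ++ z2) ∧
    ∀ x, ∀ p ∈ P2 d x, (∃ z ∈ Bd d, Cmp z (p ++ q)) →
      ∃ z1 ∈ UU d, ∃ z2 ∈ UU d, p ++ q = z1 ++ z2 ∧ eps d z2 (eps d z1 x) = y}

variable {d}

theorem UU_pc (h : d.Ok) : PC (UU d) := by
  refine ⟨fun hn => ?_, fun z hz1 z' hz2 hp => ?_⟩
  · have h1 := hn.2.1
    have h2 := h.big
    have h3 := h.p0pos
    simp at h1
    omega
  · obtain ⟨y, rfl⟩ := hp
    by_contra hne
    have hy : y ≠ [] := fun e => hne (by simp [e])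
    have hy' : 0 < y.length := List.length_pos_iff.2 hy
    have := hz2.2.2 z.length hz1.2.1 (by rw [List.length_append]; omega)
    rw [List.take_left'] at this
    · exact this hz1.1
    · rfl

theorem shift (h : d.Ok) {p p' q : List α} (hX : p ++ q ∈ UU d) (hp : p.length + d.n ≤ d.z0)
    (hp' : p'.length + d.n ≤ d.z0)
    (hE : ∀ t, d.z0 + p.length ≤ t + p'.length → t < d.z0 → ¬ d.Wo ((p ++ q).take t))
    (hL : d.z0 ≤ q.length + p'.length) : p' ++ q ∈ UU d := by
  obtain ⟨h1, h2, h3⟩ := hX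
  rw [List.length_append] at h2
  refine ⟨(h.loc _ _ (by omega)).2 ((h.loc _ _ (by omega)).1 h1), by
    rw [List.length_append]; omega, ?_⟩
  intro t ht1 ht2 hw
  rw [List.length_append] at ht2
  obtain ⟨s, rfl⟩ : ∃ s, t = p'.length + s := ⟨t - p'.length, by omega⟩
  have e1 : (p' ++ q).take (p'.length + s) = p' ++ q.take s := by
    rw [List.take_append, List.take_of_length_le (by omega)]
    simp
  rw [e1] at hw
  have hs : d.n ≤ (q.take s).length := by
    rw [List.length_take]; omega
  have hw2 : d.Wo (p ++ q.take s) := (h.loc _ _ hs).2 ((h.loc _ _ hs).1 hw)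
  have e2 : (p ++ q).take (p.length + s) = p ++ q.take s := by
    rw [List.take_append, List.take_of_length_le (by omega)]
    simp
  rw [← e2] at hw2
  by_cases hc : d.z0 ≤ p.length + s
  · exact h3 _ hc (by rw [List.length_append]; omega) hw2
  · exact hE _ (by omega) (by omega) hw2

/-- completeness of scheme 1 off (E) and off the bad zones of the gadget -/
theorem compl1 (h : d.Ok) {X : List α} (hX : X ∈ UU d)
    (hE : ∀ t, d.z0 ≤ t + d.N → t < d.z0 → ¬ d.Wo (X.take t)) (hL : d.z0 + d.N ≤ X.length)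
    (hg : ∀ v, ∃ p q, p ++ q = X.drop d.p0 ∧ d.lam p = some v ∧ (d.rho q).isSome) (x : V) :
    ∃ P Q, X = P ++ Q ∧ P ∈ P1 d x ∧ Q ∈ R1 d (eps d X x) := by
  obtain ⟨p, q, h1, h2, h3⟩ := hg (d.act x (d.φ (X.take d.p0)) + d.nu2 (X.take d.p0))
  obtain ⟨r, hr⟩ := Option.isSome_iff_exists.1 h3
  have hz := h.big
  have hlt : (X.take d.p0).length = d.p0 := by rw [List.length_take]; omega
  have hX2 : X = (X.take d.p0 ++ p) ++ q := by
    rw [List.append_assoc, h1, List.take_append_drop]
  have hpN := h.lamN _ _ h2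
  have key : ∀ x', ∀ P' ∈ P1 d x', P' ++ q ∈ UU d ∧ eps d (P' ++ q) x' = r := by
    rintro x' P' ⟨g1, g2, g3⟩
    constructor
    · refine shift h (p := X.take d.p0 ++ p) (by rw [← hX2]; exact hX) ?_ ?_ ?_ ?_
      · rw [List.length_append, hlt]; omega
      · omega
      · intro t ht1 ht2
        rw [← hX2]
        rw [List.length_append, hlt] at ht1
        exact hE t (by omega) ht2
      · have := congrArg List.length hX2
        rw [List.length_append, List.length_append, hlt] at this
        omega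
    · have e1 : (P' ++ q).take d.p0 = P'.take d.p0 := List.take_append_of_le_length g1
      have e2 : (P' ++ q).drop d.p0 = P'.drop d.p0 ++ q := List.drop_append_of_le_length g1
      unfold eps
      rw [e1, e2]
      exact (h.ex1 _ _ _ _ g3 hr).symm
  have hP : X.take d.p0 ++ p ∈ P1 d x := by
    refine ⟨by rw [List.length_append, hlt]; omega, by rw [List.length_append, hlt]; omega, ?_⟩
    rw [List.drop_left' hlt, List.take_left' hlt]
    exact h2
  have hv : eps d X x = r := by
    have := (key x _ hP).2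
    rw [← hX2] at this
    exact this
  refine ⟨_, q, hX2, hP, ?_⟩
  rw [hv]
  exact ⟨⟨X.take d.p0 ++ p, by rw [List.length_append, hlt]; omega, by rw [← hX2]; exact hX⟩,
    key⟩

theorem Bd_sub {z : List α} (hz : z ∈ Bd d) : z ∈ UU d := hz.1

theorem level1 (h : d.Ok) : Level (UU d) (Bd d) (eps d) (P1 d) (R1 d) := by
  refine ⟨?_, ?_, ?_⟩
  · intro x hx
    have h1 := hx.1
    have h2 := h.p0pos
    simp at h1
    omega
  · intro z hz x y p hp q hq hc
    obtain ⟨h1, h2⟩ := hq.2 x p hp
    have hpc := UU_pc h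
    have : z = p ++ q := by
      rcases hc with hc | hc
      · exact hpc.pc _ hz _ h1 hc
      · exact (hpc.pc _ h1 _ hz hc).symm
    exact ⟨this, this ▸ h2⟩
  · intro z hz hB x
    by_contra hcon
    apply hB
    refine ⟨hz, x, ?_⟩
    rintro ⟨P, Q, h1, h2, h3⟩
    exact hcon ⟨P, h2, Q, h3, h1⟩

/-- the spoiled elements of the ruler -/
def Spoiled (d : Dat α S V) (w : List α) (k : ℕ) : Prop :=
  ∃ k' < d.K, k' ≠ k ∧ ∃ p' : List α, p'.length = d.c k' ∧
    ∃ z ∈ Bd d, Cmp z (p' ++ w.drop (d.c k))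

theorem level2 (h : d.Ok)
    (hcov : ∀ z1 ∈ Bd d, ∀ z2 ∈ Bd d, ∀ x, ∃ k < d.K, ¬ Spoiled d (z1 ++ z2) k ∧
      d.lam2 k (z1.take (d.c k)) = some x ∧ (d.rho2 k ((z1.take d.p0).drop (d.c k))).isSome) :
    Level2 (UU d) (Bd d) (eps d) (P2 d) (R2 d) := by
  refine ⟨?_, ?_, ?_⟩
  · rintro x ⟨k, hk, h1, -⟩
    have h2 := h.cpos k hk
    simp at h1
    omega
  · intro z hz x y p hp q hq hc
    obtain ⟨z1, h1, z2, h2, h3, h4⟩ := hq.2 x p hp ⟨z, hz, hc⟩
    refine ⟨[z1, z2], ?_, by simp [h3], by simpa [Run] using h4⟩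
    intro t ht
    simp only [List.mem_cons, List.not_mem_nil, or_false] at ht
    rcases ht with rfl | rfl
    · exact h1
    · exact h2
  · intro z1 hz1 z2 hz2 x
    obtain ⟨k, hk, hs, hl, hr⟩ := hcov z1 hz1 z2 hz2 x
    obtain ⟨b, hb⟩ := Option.isSome_iff_exists.1 hr
    have hU1 := Bd_sub hz1
    have hU2 := Bd_sub hz2
    have hck := h.cle k hk
    have hbig := h.big
    have hlen := hU1.2.1
    have hlk : (z1.take (d.c k)).length = d.c k := by rw [List.length_take]; omega
    have e0 : z1.take (d.c k) ++ (z1.take d.p0).drop (d.c k) = z1.take d.p0 := by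
      have : z1.take (d.c k) = (z1.take d.p0).take (d.c k) := by
        rw [List.take_take, min_eq_left hck]
      rw [this, List.take_append_drop]
    have hlp : (z1.take d.p0).length = d.p0 := by rw [List.length_take]; omega
    -- the right word
    have hq : (z1 ++ z2).drop (d.c k) = z1.drop (d.c k) ++ z2 :=
      List.drop_append_of_le_length (by omega)
    have hbv := h.ex2 k hk _ _ x b hlk (by rw [e0, hlp]) hl hb
    refine ⟨z1.take (d.c k), ⟨k, hk, hlk, hl⟩, (z1 ++ z2).drop (d.c k), ⟨?_, ?_⟩, ?_⟩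
    · refine ⟨z1.take (d.c k), by omega, z1, hU1, z2, hU2, ?_⟩
      rw [hq, ← List.append_assoc, List.take_append_drop]
    · intro x' p' hp' hcmp
      obtain ⟨k', hk', g1, g2⟩ := hp'
      by_cases hkk : k' = k
      · subst hkk
        have hz1' : p' ++ z1.drop (d.c k') ∈ UU d := by
          refine shift h (p := z1.take (d.c k')) (by rw [List.take_append_drop]; exact hU1)
            (by omega) (by omega) ?_ ?_
          · intro t ht1 ht2
            omega
          · rw [List.length_drop]; omega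
        refine ⟨p' ++ z1.drop (d.c k'), hz1', z2, hU2, by rw [hq, List.append_assoc], ?_⟩
        congr 1
        have e1 : (p' ++ z1.drop (d.c k')).take d.p0 =
            p' ++ (z1.take d.p0).drop (d.c k') := by
          rw [List.take_append, List.take_of_length_le (by omega), g1, List.drop_take]
        have e2 : (p' ++ z1.drop (d.c k')).drop d.p0 = z1.drop d.p0 := by
          rw [List.drop_append, List.drop_of_length_le (by omega), g1, List.nil_append,
            List.drop_drop]
          congr 1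
          omega
        have e3 : d.act x' (d.φ (p' ++ (z1.take d.p0).drop (d.c k'))) +
            d.nu2 (p' ++ (z1.take d.p0).drop (d.c k')) = b := by
          refine (h.ex2 k' hk _ _ x' b g1 ?_ g2 hb).symm
          rw [List.length_append, g1, List.length_drop, hlp]
          omega
        have e4 : d.act x (d.φ (z1.take d.p0)) + d.nu2 (z1.take d.p0) = b := by
          rw [e0] at hbv
          exact hbv.symm
        unfold eps
        rw [e1, e2, e3, e4]
      · exfalso
        obtain ⟨z, hz, hc⟩ := hcmp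
        exact hs ⟨k', hk', hkk, p', g1, z, hz, hc⟩
    · rw [hq, ← List.append_assoc, List.take_append_drop]

end Crest.Agent.R320.JointA_91
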