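import Crest.Agent.R320.Code_110
import Crest.Agent.R320.ExactR_237

/-!
# Row 320: both completeness proofs on ALL words, natural chain rule (helper972)
-/

set_option autoImplicit false

namespace Crest.Agent.R320.JointA_972

open Crest.Agent.R320.Hk_851 Crest.Agent.R320.Code110 Crest.Agent.R320.ExactR_237

variable {α : Type}

/-- left-looking wall rule -/
structure WRule (n W : ℕ) (Wo : List α → Prop) : Prop where
  loc : ∀ P Q : List α, n ≤ Q.length → (Wo (P ++ Q) ↔ Wo Q)
  gap : ∀ (P : List α) (d : ℕ), Wo P → 0 < d → d ≤ W → ¬ Wo (P.take (P.length - d))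

/-- zones -/
def XX (z : ℕ) (Wo : List α → Prop) : Language α :=
  {X | z ≤ X.length ∧ Wo X ∧ ∀ t, z ≤ t → t < X.length → ¬ Wo (X.take t)}

/-- critical zones -/
def Zc (z N1 p0 : ℕ) (Wo : List α → Prop) (Bad : ℕ → Prop) : Language α :=
  {X | X ∈ XX z Wo ∧ ((∃ t, z - N1 ≤ t ∧ t < z + N1 ∧ t ≤ X.length ∧ Wo (X.take t)) ∨
    Bad (X.length - p0))}

theorem xx_pc {z : ℕ} {Wo : List α → Prop} (hz : 0 < z) : PC (XX z Wo) where
  ne := fun h => by
    have := h.1
    simp only [List.length_nil] at this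
    omega
  pf := by
    rintro u ⟨hu1, hu2, hu3⟩ v ⟨hv1, hv2, hv3⟩ ⟨s, rfl⟩
    by_contra hne
    have hs : s ≠ [] := fun h => hne (by rw [h, List.append_nil])
    have hl : 0 < s.length := List.length_pos_iff.2 hs
    refine hv3 u.length hu1 (by rw [List.length_append]; omega) ?_
    rw [List.take_left' rfl]
    exact hu2

/-- zone map -/
def tau {S V : Type} [Monoid S] [AddCommGroup V] (f : α → S) (act : V → S → V) (p0 : ℕ)
    (nu2 nu1 : List α → V) (X : List α) (v : V) : V :=
  act (act v (pr f (X.take p0)) + nu2 (X.take p0)) (pr f (X.drop p0)) + nu1 (X.drop p0)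

def L1 {S V : Type} [Monoid S] [AddCommGroup V] (f : α → S) (act : V → S → V) (p0 : ℕ)
    (nu2 : List α → V) (lam : List α → Option V) (x : V) : Language α :=
  {p | p0 ≤ p.length ∧ lam (p.drop p0) = some (act x (pr f (p.take p0)) + nu2 (p.take p0))}

def L2 {V : Type} (K : ℕ) (c : ℕ → ℕ) (lam2 : ℕ → List α → Option V) (x : V) : Language α :=
  {p | ∃ k < K, p.length = c k ∧ lam2 k p = some x}

/-- transfer of walls between words with a common right part -/
theorem wall_tr {n W : ℕ} {Wo : List α → Prop} (hW : WRule n W Wo) (p p' q : List α) (j j' : ℕ)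
    (h1 : p.length + n ≤ j) (h3 : j + p'.length = j' + p.length)
    (h4 : j ≤ p.length + q.length) :
    Wo ((p ++ q).take j) ↔ Wo ((p' ++ q).take j') := by
  have e1 : (p ++ q).take j = p ++ q.take (j - p.length) := by
    rw [List.take_append, List.take_of_length_le (by omega)]
  have e2 : (p' ++ q).take j' = p' ++ q.take (j - p.length) := by
    rw [List.take_append, List.take_of_length_le (by omega)]
    congr 2
    omega
  rw [e1, e2]
  have hq : n ≤ (q.take (j - p.length)).length := by
    rw [List.length_take]; omega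
  rw [hW.loc _ _ hq, hW.loc _ _ hq]

theorem exactly_one {Z : Language α} {Ω : Type} {τ : List α → Ω → Ω} {x : Ω} {w : List α}
    (h : w ∈ Z) : w ∈ Exactly Z τ 1 x (τ w x) :=
  ⟨τ w x, Language.mem_mul.2 ⟨w, ⟨h, rfl⟩, [], ⟨rfl, rfl⟩, List.append_nil w⟩⟩

theorem exactly_two {Z : Language α} {Ω : Type} {τ : List α → Ω → Ω} {x : Ω} {w t : List α}
    (h : w ∈ Z) (ht : t ∈ Z) : w ++ t ∈ Exactly Z τ 2 x (τ t (τ w x)) :=
  ⟨τ w x, Language.mem_mul.2 ⟨w, ⟨h, rfl⟩, t, exactly_one ht, rfl⟩⟩

section comp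
variable {S V : Type} [Monoid S] [AddCommGroup V] (f : α → S) (act : V → S → V)
variable {n W z N1 La p0 : ℕ} {Wo : List α → Prop} {Bad : ℕ → Prop}

/-- **completeness of scheme 1 off the critical zones** -/
theorem comp1 (hW : WRule n W Wo) (hz : 2 * p0 + N1 + La + n + 1 ≤ z)
    (lam rho : List α → Option V) (nu1 nu2 : List α → V)
    (hl : ∀ p v, lam p = some v → p.length ≤ N1)
    (hs : ∀ p q v r, lam p = some v → rho q = some r → La ≤ q.length →
      r = act v (pr f (p ++ q)) + nu1 (p ++ q))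
    (hc : ∀ u : List α, La ≤ u.length → ¬ Bad u.length → ∀ v, ∃ p q, p ++ q = u ∧
      lam p = some v ∧ (rho q).isSome)
    (u : List α) (hu : u ∈ XX z Wo) (hub : u ∉ Zc z N1 p0 Wo Bad) (x : V) :
    ∃ p q y, u = p ++ q ∧ p ∈ L1 f act p0 nu2 lam x ∧
      q ∈ Rsem (XX z Wo) (XX z Wo) (tau f act p0 nu2 nu1) 0 (L1 f act p0 nu2 lam) y := by
  obtain ⟨hu1, hu2, hu3⟩ := hu
  have hE : ∀ t, z - N1 ≤ t → t < z + N1 → t ≤ u.length → ¬ Wo (u.take t) := by
    intro t h1 h2 h3 h4
    exact hub ⟨⟨hu1, hu2, hu3⟩, Or.inl ⟨t, h1, h2, h3, h4⟩⟩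
  have hB : ¬ Bad (u.length - p0) := fun h => hub ⟨⟨hu1, hu2, hu3⟩, Or.inr h⟩
  have hlen : z + N1 ≤ u.length := by
    by_contra hcon
    refine hE u.length (by omega) (by omega) le_rfl ?_
    rw [List.take_length]
    exact hu2
  obtain ⟨P, Q, hPQ, hP, hQ⟩ := hc (u.drop p0) (by rw [List.length_drop]; omega)
    (by rw [List.length_drop]; exact hB) (act x (pr f (u.take p0)) + nu2 (u.take p0))
  obtain ⟨b, hb⟩ := Option.isSome_iff_exists.1 hQ
  have hPl := hl _ _ hP
  have hQl : Q.length + P.length = u.length - p0 := by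
    have := congrArg List.length hPQ
    rw [List.length_append, List.length_drop] at this
    omega
  have htl : (u.take p0).length = p0 := by rw [List.length_take]; omega
  have hu' : u = (u.take p0 ++ P) ++ Q := by
    rw [List.append_assoc, hPQ, List.take_append_drop]
  have hpl : (u.take p0 ++ P).length = p0 + P.length := by rw [List.length_append, htl]
  refine ⟨u.take p0 ++ P, Q, b, hu', ⟨by omega, ?_⟩, ?_⟩
  · rw [List.drop_left' htl, List.take_left' htl]
    exact hP
  · intro x' p' hp'
    obtain ⟨h1, h2⟩ := hp'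
    left
    have hP' := hl _ _ h2
    rw [List.length_drop] at hP'
    have hXX : p' ++ Q ∈ XX z Wo := by
      refine ⟨by rw [List.length_append]; omega, ?_, ?_⟩
      · rw [hW.loc _ _ (by omega)]
        rw [hu', hW.loc _ _ (by omega)] at hu2
        exact hu2
      · intro t ht1 ht2
        rw [List.length_append] at ht2
        have key := wall_tr hW p' (u.take p0 ++ P) Q t (t + (u.take p0 ++ P).length - p'.length)
          (by omega) (by omega) (by omega)
        rw [key, ← hu']
        by_cases h5 : z ≤ t + (u.take p0 ++ P).length - p'.length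
        · exact hu3 _ h5 (by omega)
        · exact hE _ (by omega) (by omega) (by omega)
    have hval : tau f act p0 nu2 nu1 (p' ++ Q) x' = b := by
      unfold tau
      rw [List.take_append_of_le_length h1, List.drop_append_of_le_length h1]
      exact (hs _ _ _ _ h2 hb (by omega)).symm
    have := exactly_one (Z := XX z Wo) (τ := tau f act p0 nu2 nu1) (x := x') hXX
    rw [hval] at this
    exact this

/-- **completeness of scheme 2 on the critical zones** -/
theorem comp2 (hW : WRule n W Wo) (hz : 2 * p0 + N1 + La + n + 1 ≤ z)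
    (hWW : 2 * p0 + 2 * N1 + 1 ≤ W)
    {K C0 : ℕ} {c : ℕ → ℕ} (hcp : ∀ k < K, c k ≤ p0) (hinc : ∀ i j, i < j → j < K → c i < c j)
    (hgol : ∀ i j k l, i < K → j < K → k < K → l < K → i ≠ j → k ≠ l → (i, j) ≠ (k, l) →
      c i + c l + 4 * N1 < c k + c j ∨ c k + c j + 4 * N1 < c i + c l)
    (hthin : ∀ T, La ≤ T → ∀ A : Finset (ℕ × ℕ), (∀ ij ∈ A, ij.1 < K ∧ ij.2 < K ∧ ij.1 ≠ ij.2 ∧
      Bad (T + c ij.2 - c ij.1)) → A.card ≤ C0)
    (lam2 : ℕ → List α → Option V) (rho2 : ℕ → List α → S → Option V) (nu2' : List α → S → V)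
    (hs2 : ∀ k < K, ∀ (P Q : List α) (y : S) (v b : V), P.length = c k →
      lam2 k P = some v → rho2 k Q y = some b → b = act v (pr f (P ++ Q) * y) + nu2' (P ++ Q) y)
    (hc2 : ∀ (u : List α) (y : S) (v : V), (∀ k < K, c k ≤ u.length) →
      ∃ I : Finset ℕ, 2 * C0 + 2 ≤ I.card ∧ ∀ k ∈ I, k < K ∧ lam2 k (u.take (c k)) = some v ∧
        (rho2 k (u.drop (c k)) y).isSome)
    (nu1 : List α → V)
    (u : List α) (hu : u ∈ Zc z N1 p0 Wo Bad) (x : V) (t : List α) (ht : t ∈ Zc z N1 p0 Wo Bad) :
    ∃ p q y, u ++ t = p ++ q ∧ p ∈ L2 K c lam2 x ∧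
      q ∈ Rsem (XX z Wo) (Zc z N1 p0 Wo Bad) (tau f act p0 (fun X => nu2' X 1) nu1) 1
        (L2 K c lam2) y := by
  classical
  have huz : z ≤ u.length := hu.1.1
  have htz : z ≤ t.length := ht.1.1
  set w := u ++ t with hw
  have hwl : w.length = u.length + t.length := List.length_append
  have hwW : Wo w := by rw [hw, hW.loc _ _ (by omega)]; exact ht.1.2.1
  -- first wall at a place ≥ j
  have hex : ∀ j, j ≤ w.length → ∃ t1, j ≤ t1 ∧ t1 ≤ w.length ∧ Wo (w.take t1) ∧
      ∀ s, j ≤ s → s < t1 → ¬ Wo (w.take s) := by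
    intro j hj
    have hx : ∃ t1, j ≤ t1 ∧ t1 ≤ w.length ∧ Wo (w.take t1) :=
      ⟨w.length, hj, le_rfl, by rw [List.take_length]; exact hwW⟩
    refine ⟨Nat.find hx, (Nat.find_spec hx).1, (Nat.find_spec hx).2.1, (Nat.find_spec hx).2.2, ?_⟩
    intro s hs1 hs2 hs3
    exact Nat.find_min hx hs2 ⟨hs1, by have := (Nat.find_spec hx).2.1; omega, hs3⟩
  -- uniqueness of the wall in the band
  have huniq : ∀ a b, a ≤ w.length → b ≤ w.length → Wo (w.take a) → Wo (w.take b) →
      z ≤ a + p0 + N1 → a < z + p0 + N1 → z ≤ b + p0 + N1 → b < z + p0 + N1 → a = b := by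
    have half : ∀ a b, a < b → b ≤ w.length → Wo (w.take a) → Wo (w.take b) →
        z ≤ a + p0 + N1 → b < z + p0 + N1 → False := by
      intro a b hab hb ha1 hb1 h1 h2
      have hbl : (w.take b).length = b := by rw [List.length_take]; omega
      refine hW.gap (w.take b) (b - a) hb1 (by omega) (by omega) ?_
      rw [hbl, List.take_take]
      have : min (b - (b - a)) b = a := by omega
      rw [this]
      exact ha1
    intro a b ha hb ha1 hb1 h1 h2 h3 h4
    rcases lt_trichotomy a b with h | h | h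
    · exact (half a b h hb ha1 hb1 h1 h4).elim
    · exact h
    · exact (half b a h ha hb1 ha1 h3 h2).elim
  obtain ⟨t1, ht1a, ht1b, ht1c, ht1d⟩ := hex (z + p0) (by omega)
  -- the wall of the band
  obtain ⟨t0, ht0⟩ : ∃ t0, ∀ a, a ≤ w.length → Wo (w.take a) → z ≤ a + p0 + N1 →
      a < z + p0 + N1 → a = t0 := by
    by_cases h : ∃ a, a ≤ w.length ∧ Wo (w.take a) ∧ z ≤ a + p0 + N1 ∧ a < z + p0 + N1
    · obtain ⟨a, h1, h2, h3, h4⟩ := h
      exact ⟨a, fun b hb1 hb2 hb3 hb4 => huniq b a hb1 h1 hb2 h2 hb3 hb4 h3 h4⟩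
    · exact ⟨0, fun a h1 h2 h3 h4 => (h ⟨a, h1, h2, h3, h4⟩).elim⟩
  -- spoiled pairs
  let A1 : Finset (ℕ × ℕ) := (Finset.range K ×ˢ Finset.range K).filter
    (fun ij => ij.1 ≠ ij.2 ∧ La ≤ t0 - p0 ∧ Bad (t0 - p0 + c ij.2 - c ij.1))
  let A2 : Finset (ℕ × ℕ) := (Finset.range K ×ˢ Finset.range K).filter
    (fun ij => ij.1 ≠ ij.2 ∧ Bad (t1 - p0 + c ij.2 - c ij.1))
  let A3 : Finset (ℕ × ℕ) := (Finset.range K ×ˢ Finset.range K).filter
    (fun ij => ij.1 ≠ ij.2 ∧ z + c ij.1 ≤ t0 + N1 + c ij.2 ∧ t0 + c ij.2 < z + N1 + c ij.1)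
  have hA1 : A1.card ≤ C0 := by
    by_cases hL : La ≤ t0 - p0
    · refine hthin (t0 - p0) hL A1 fun ij hij => ?_
      rw [Finset.mem_filter, Finset.mem_product, Finset.mem_range, Finset.mem_range] at hij
      exact ⟨hij.1.1, hij.1.2, hij.2.1, hij.2.2.2⟩
    · have : A1 = ∅ := Finset.filter_eq_empty_iff.2 fun ij _ h => hL h.2.1
      rw [this]; simp
  have hA2 : A2.card ≤ C0 := by
    refine hthin (t1 - p0) (by omega) A2 fun ij hij => ?_
    rw [Finset.mem_filter, Finset.mem_product, Finset.mem_range, Finset.mem_range] at hij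
    exact ⟨hij.1.1, hij.1.2, hij.2.1, hij.2.2⟩
  have hA3 : A3.card ≤ 1 := by
    rw [Finset.card_le_one]
    rintro ⟨i, j⟩ hij ⟨k, l⟩ hkl
    rw [Finset.mem_filter, Finset.mem_product, Finset.mem_range, Finset.mem_range] at hij hkl
    obtain ⟨⟨hi, hj⟩, hne, h1, h2⟩ := hij
    obtain ⟨⟨hk, hl⟩, hne', h3, h4⟩ := hkl
    simp only at hi hj hne h1 h2 hk hl hne' h3 h4
    by_contra hcon
    rcases hgol i j k l hi hj hk hl hne hne' hcon with h | h <;> omega
  let amb : Finset ℕ := (A1 ∪ A2 ∪ A3).image Prod.fst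
  have hamb : amb.card ≤ 2 * C0 + 1 := by
    have h1 : amb.card ≤ (A1 ∪ A2 ∪ A3).card := Finset.card_image_le
    have h2 := Finset.card_union_le (A1 ∪ A2) A3
    have h3 := Finset.card_union_le A1 A2
    omega
  obtain ⟨I, hI, hIk⟩ := hc2 (u.take p0) 1 x (fun k hk => by
    rw [List.length_take]; have := hcp k hk; omega)
  obtain ⟨k, hkI, hka⟩ : ∃ k ∈ I, k ∉ amb := by
    by_contra hcon
    push Not at hcon
    have := Finset.card_le_card (fun k hk => hcon k hk : I ⊆ amb)
    omega
  obtain ⟨hk, hl1, hr1⟩ := hIk k hkI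
  obtain ⟨y1, hy1⟩ := Option.isSome_iff_exists.1 hr1
  have hck := hcp k hk
  rw [List.take_take, min_eq_left hck] at hl1
  have hpl : (u.take (c k)).length = c k := by rw [List.length_take]; omega
  have hdl : (u.drop (c k)).length = u.length - c k := List.length_drop
  have hwe : w = u.take (c k) ++ (u.drop (c k) ++ t) := by
    rw [← List.append_assoc, List.take_append_drop]
  refine ⟨u.take (c k), u.drop (c k) ++ t, tau f act p0 (fun X => nu2' X 1) nu1 t
    (act y1 (pr f (u.drop p0)) + nu1 (u.drop p0)), hwe, ⟨k, hk, hpl, hl1⟩, ?_⟩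
  intro x' p' hp'
  obtain ⟨k', hk', hp'l, hlam'⟩ := hp'
  have hck' := hcp k' hk'
  by_cases hkk : k' = k
  · -- the same place
    subst hkk
    left
    have htr : ∀ j, c k' + n ≤ j → j ≤ u.length →
        (Wo ((p' ++ u.drop (c k')).take j) ↔ Wo (u.take j)) := by
      intro j h1 h2
      have := wall_tr hW p' (u.take (c k')) (u.drop (c k')) j j (by omega) (by omega) (by omega)
      rw [List.take_append_drop] at this
      exact this
    have hlen' : (p' ++ u.drop (c k')).length = u.length := by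
      rw [List.length_append]; omega
    have hdrop : (p' ++ u.drop (c k')).drop p0 = u.drop p0 := by
      rw [List.drop_append, List.drop_eq_nil_of_le (by omega), List.nil_append, List.drop_drop]
      congr 1
      omega
    have htake : (p' ++ u.drop (c k')).take p0 = p' ++ (u.take p0).drop (c k') := by
      rw [List.take_append, List.take_of_length_le (by omega), hp'l, List.drop_take]
    have hXX : p' ++ u.drop (c k') ∈ XX z Wo := by
      refine ⟨by omega, ?_, ?_⟩
      · have := (htr u.length (by omega) le_rfl)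
        rw [List.take_length, ← hlen', List.take_length] at this
        exact this.2 hu.1.2.1
      · intro s h1 h2
        rw [htr s (by omega) (by omega)]
        exact hu.1.2.2 s h1 (by omega)
    have hZ : p' ++ u.drop (c k') ∈ Zc z N1 p0 Wo Bad := by
      refine ⟨hXX, ?_⟩
      rcases hu.2 with ⟨s, h1, h2, h3, h4⟩ | h
      · exact Or.inl ⟨s, h1, h2, by omega, (htr s (by omega) h3).2 h4⟩
      · right; rw [hlen']; exact h
    have hval : tau f act p0 (fun X => nu2' X 1) nu1 (p' ++ u.drop (c k')) x' =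
        act y1 (pr f (u.drop p0)) + nu1 (u.drop p0) := by
      unfold tau
      rw [hdrop, htake]
      have := hs2 k' hk p' ((u.take p0).drop (c k')) 1 x' y1 hp'l hlam' hy1
      rw [mul_one] at this
      rw [this]
    have := exactly_two (Z := Zc z N1 p0 Wo Bad) (τ := tau f act p0 (fun X => nu2' X 1) nu1)
      (x := x') hZ ht
    rw [hval, List.append_assoc] at this
    exact this
  · -- another place
    right
    have hkna : ∀ ij ∈ A1 ∪ A2 ∪ A3, ij.1 ≠ k := by
      intro ij hij he
      exact hka (Finset.mem_image.2 ⟨ij, hij, he⟩)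
    have hlen' : (p' ++ (u.drop (c k) ++ t)).length + c k = w.length + c k' := by
      rw [List.length_append, List.length_append]; omega
    have htr : ∀ j j', c k' + n ≤ j → j + c k = j' + c k' → j' ≤ w.length →
        (Wo ((p' ++ (u.drop (c k) ++ t)).take j) ↔ Wo (w.take j')) := by
      intro j j' h1 h2 h3
      have := wall_tr hW p' (u.take (c k)) (u.drop (c k) ++ t) j j' (by omega) (by omega)
        (by rw [List.length_append]; omega)
      rw [← hwe] at this
      exact this
    obtain ⟨j', hj1, hj2, hj3, hj4⟩ := hex (z + c k - c k') (by omega)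
    set j := j' + c k' - c k with hjdef
    have hjz : z ≤ j := by omega
    have hjl : j ≤ (p' ++ (u.drop (c k) ++ t)).length := by omega
    have hjlen : ((p' ++ (u.drop (c k) ++ t)).take j).length = j := by
      rw [List.length_take]; omega
    have hXX : (p' ++ (u.drop (c k) ++ t)).take j ∈ XX z Wo := by
      refine ⟨by omega, (htr j j' (by omega) (by omega) hj2).2 hj3, ?_⟩
      intro s h1 h2
      rw [hjlen] at h2
      rw [List.take_take, min_eq_left (by omega), htr s (s + c k - c k') (by omega) (by omega)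
        (by omega)]
      exact hj4 _ (by omega) (by omega)
    refine Or.inl ⟨_, hXX, ?_, List.take_prefix _ _⟩
    rintro ⟨-, hbad⟩
    rcases hbad with ⟨s, h1, h2, h3, h4⟩ | hbad
    · rw [hjlen] at h3
      rw [List.take_take, min_eq_left h3, htr s (s + c k - c k') (by omega) (by omega)
        (by omega)] at h4
      have he := ht0 (s + c k - c k') (by omega) h4 (by omega) (by omega)
      refine hkna (k, k') (Finset.mem_union_right _ ?_) rfl
      rw [Finset.mem_filter, Finset.mem_product, Finset.mem_range, Finset.mem_range]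
      refine ⟨⟨hk, hk'⟩, fun h => hkk h.symm, ?_, ?_⟩ <;> simp only <;> omega
    · rw [hjlen] at hbad
      by_cases h5 : z + p0 ≤ j'
      · -- the end is t1
        have he : j' = t1 := by
          rcases lt_trichotomy j' t1 with h | h | h
          · exact (ht1d j' h5 h hj3).elim
          · exact h
          · exact (hj4 t1 (by omega) h ht1c).elim
        refine hkna (k, k') (Finset.mem_union_left _ (Finset.mem_union_right _ ?_)) rfl
        rw [Finset.mem_filter, Finset.mem_product, Finset.mem_range, Finset.mem_range]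
        refine ⟨⟨hk, hk'⟩, fun h => hkk h.symm, ?_⟩
        simp only
        have : t1 - p0 + c k' - c k = j - p0 := by omega
        rw [this]; exact hbad
      · have he := ht0 j' hj2 hj3 (by omega) (by omega)
        refine hkna (k, k') (Finset.mem_union_left _ (Finset.mem_union_left _ ?_)) rfl
        rw [Finset.mem_filter, Finset.mem_product, Finset.mem_range, Finset.mem_range]
        refine ⟨⟨hk, hk'⟩, fun h => hkk h.symm, by omega, ?_⟩
        simp only
        have : t0 - p0 + c k' - c k = j - p0 := by omega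
        rw [this]; exact hbad

end comp

end Crest.Agent.R320.JointA_972
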