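import Crest.Agent.R320.Exact_808

/-!
# Row 320: scheme 2 (promise ruler) in block form (helper433)

Blocks are words of a prefix code `XX` (left-looking walls, 467), longer than `p0`; the zone map is
`T v X = act (act v (φ X1) + nu2 X1) (φ Y) + nu1 Y`, `X1 = X.take p0`, `Y = X.drop p0`.
-/

set_option autoImplicit false

namespace Crest.Agent.R320.Sch2B_433

open Crest.Agent.R320.Exact808

/-- zone map of a block -/
def T {α S V : Type*} [Add V] (φ : List α → S) (act : V → S → V) (p0 : ℕ) (nu2 nu1 : List α → V)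
    (v : V) (X : List α) : V :=
  act (act v (φ (X.take p0)) + nu2 (X.take p0)) (φ (X.drop p0)) + nu1 (X.drop p0)

/-- **Scheme 2 in block form.** `m`, `k` depend on `S`, `V` only; `nu2` does not depend on the
blocks. -/
theorem scheme2 (S V : Type*) [Monoid S] [Finite S] [AddCommGroup V] [Finite V] :
    ∃ m k : ℕ, ∀ (α : Type*) (φ : List α → S), (∀ u v, φ (u ++ v) = φ u * φ v) →
      ∀ (act : V → S → V) (B : ℕ → ℕ) (ctx : ℕ → Option (ℕ × Fin k)) (p0 : ℕ),
      Monotone B → B 0 = 0 → B m = p0 →
      (∀ x i e, ctx x = some (i, e) → i < m ∧ B i ≤ x ∧ x ≤ B (i + 1)) →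
      ∃ (nu2 : List α → V) (lam : List α → Option V),
      ∀ (nu1 : List α → V) (XX Bad : List α → Prop) (C0 : ℕ),
      (∀ X, XX X → p0 < X.length) →
      (∀ P P' U : List α, P.length = P'.length → P.length ≤ p0 → (XX (P ++ U) ↔ XX (P' ++ U))) →
      (∀ P P' U : List α, P.length = P'.length → P.length ≤ p0 →
        (Bad (P ++ U) ↔ Bad (P' ++ U))) →
      (∀ X Z, XX X → XX (X ++ Z) → Z = []) →
      (∀ i, i < m → ∀ e : Fin k, ∃ A : Finset ℕ, C0 < A.card ∧ ∀ x ∈ A, ctx x = some (i, e)) →
      -- every candidate block is complete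
      (∀ X X2, XX X → XX X2 → Bad X → ∀ x, (ctx x).isSome = true →
        ∀ P' : List α, (ctx P'.length).isSome = true →
          ∃ X' Z', P' ++ (X ++ X2).drop x = X' ++ Z' ∧ XX X') →
      -- few ambiguous places
      (∀ X X2, XX X → XX X2 → Bad X → ∃ A : Finset ℕ, A.card ≤ C0 ∧
        ∀ x, x ∉ A → (ctx x).isSome = true → ∀ P' : List α, (ctx P'.length).isSome = true →
          P'.length ≠ x → ∀ X' Z', P' ++ (X ++ X2).drop x = X' ++ Z' → XX X' → ¬ Bad X') →
      ∃ RQ : List α → V → Prop,
        (∀ P Q v b, (ctx P.length).isSome = true → lam P = some v → RQ Q b →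
          (∀ X Z, P ++ Q = X ++ Z → XX X → Bad X) →
          ∃ X X2, P ++ Q = X ++ X2 ∧ XX X ∧ XX X2 ∧
            T φ act p0 nu2 nu1 (T φ act p0 nu2 nu1 v X) X2 = b) ∧
        (∀ X X2, XX X → XX X2 → Bad X → ∀ v, ∃ P Q b, P ++ Q = X ++ X2 ∧
          (ctx P.length).isSome = true ∧ lam P = some v ∧ RQ Q b) := by
  classical
  obtain ⟨m, k, H⟩ := exact_gadget S V
  refine ⟨m, k, ?_⟩
  intro α φ hφ act B ctx p0 hB hB0 hBm hctx
  obtain ⟨lam, Hl⟩ := H α φ hφ B ctx hB hB0 hctx
  obtain ⟨rho, nu2, hsound, hcomp⟩ := Hl act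
  refine ⟨nu2, lam, ?_⟩
  intro nu1 XX Bad C0 hXl hXi hBi hpre hpl hcand hamb
  have hxp : ∀ x, (ctx x).isSome = true → x ≤ p0 := by
    intro x hx
    obtain ⟨⟨i, e⟩, hie⟩ := Option.isSome_iff_exists.1 hx
    obtain ⟨him, _, h3⟩ := hctx x i e hie
    have : B (i + 1) ≤ B m := hB him
    omega
  -- `P'` is a plausible past of `Q`
  let Cand : List α → List α → Prop := fun Q P' =>
    (ctx P'.length).isSome = true ∧ ∃ X' Z', P' ++ Q = X' ++ Z' ∧ XX X' ∧ Bad X'
  let RQ : List α → V → Prop := fun Q b =>
    (∀ P' : List α, (ctx P'.length).isSome = true → ∃ X' Z', P' ++ Q = X' ++ Z' ∧ XX X') ∧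
    ∃ P0, Cand Q P0 ∧ (∀ P', Cand Q P' → P'.length = P0.length) ∧
      ∃ X0 X2, P0 ++ Q = X0 ++ X2 ∧ XX X0 ∧ XX X2 ∧
        ∃ y, rho (Q.take (p0 - P0.length)) = some y ∧
          b = T φ act p0 nu2 nu1 (act y (φ (X0.drop p0)) + nu1 (X0.drop p0)) X2
  refine ⟨RQ, ?_, ?_⟩
  · rintro P Q v b hcP hlam ⟨hall, P0, hP0, huniq, X0, X2, hsp, hX0, hX2, y, hy, rfl⟩ hlive
    obtain ⟨X, Z, hPQ, hX⟩ := hall P hcP
    have hBadX := hlive X Z hPQ hX
    have hlen : P.length = P0.length := huniq P ⟨hcP, X, Z, hPQ, hX, hBadX⟩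
    have hPp := hxp _ hcP
    have hXlen := hXl X hX
    have hX0len := hXl X0 hX0
    -- write everything through the place `P.length`
    have hX0' : X0 = P0 ++ X0.drop P0.length := by
      have h2 : X0.take P0.length = P0 := by
        have h1 : (P0 ++ Q).take P0.length = P0 := by simp
        rw [hsp, List.take_append_of_le_length (by omega)] at h1
        exact h1
      have h3 := List.take_append_drop P0.length X0
      rw [h2] at h3
      exact h3.symm
    have hXeq : X = P ++ X0.drop P0.length := by
      have hXp : X.take P.length = P := by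
        have h1 : (P ++ Q).take P.length = P := by simp
        rw [hPQ, List.take_append_of_le_length (by omega)] at h1
        exact h1
      have hXs : X = P ++ X.drop P.length := by
        have h3 := List.take_append_drop P.length X
        rw [hXp] at h3
        exact h3.symm
      have hQ1 : Q = X.drop P.length ++ Z := by
        have : P ++ Q = P ++ (X.drop P.length ++ Z) := by
          rw [hPQ, ← List.append_assoc, ← hXs]
        exact List.append_cancel_left this
      have hQ2 : Q = X0.drop P0.length ++ X2 := by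
        have : P0 ++ Q = P0 ++ (X0.drop P0.length ++ X2) := by
          rw [hsp, ← List.append_assoc, ← hX0']
        exact List.append_cancel_left this
      have hXa : XX (P ++ X.drop P.length) := by rw [← hXs]; exact hX
      have hXb : XX (P ++ X0.drop P0.length) := by
        rw [hXi P P0 _ hlen hPp, ← hX0']; exact hX0
      have hQQ : X.drop P.length ++ Z = X0.drop P0.length ++ X2 := by rw [← hQ1, ← hQ2]
      have hdd : X.drop P.length = X0.drop P0.length := by
        rcases List.append_eq_append_iff.1 hQQ with ⟨a, ha, _⟩ | ⟨a, ha, _⟩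
        · have h3 : XX ((P ++ X.drop P.length) ++ a) := by
            rw [List.append_assoc, ← ha]; exact hXb
          have := hpre _ _ hXa h3
          rw [ha, this, List.append_nil]
        · have h3 : XX ((P ++ X0.drop P0.length) ++ a) := by
            rw [List.append_assoc, ← ha]; exact hXa
          have := hpre _ _ hXb h3
          rw [ha, this, List.append_nil]
      rw [← hdd]; exact hXs
    have hQ2 : Q = X0.drop P0.length ++ X2 := by
      have : P0 ++ Q = P0 ++ (X0.drop P0.length ++ X2) := by
        rw [hsp, ← List.append_assoc, ← hX0']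
      exact List.append_cancel_left this
    refine ⟨X, X2, by rw [hXeq, List.append_assoc, ← hQ2], hX, hX2, ?_⟩
    congr 1
    have hqlen : p0 - P.length ≤ (X0.drop P0.length).length := by
      rw [List.length_drop]; omega
    have hq : Q.take (p0 - P0.length) = (X0.drop P0.length).take (p0 - P.length) := by
      rw [hQ2, ← hlen, List.take_append_of_le_length (by rw [hlen] at hqlen ⊢; exact hqlen)]
    have hX1 : X.take p0 = P ++ Q.take (p0 - P0.length) := by
      rw [hXeq, hq, List.take_append, List.take_of_length_le hPp]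
    have hYX : X.drop p0 = X0.drop p0 := by
      rw [hXeq, List.drop_append, List.drop_of_length_le hPp, List.nil_append, List.drop_drop]
      congr 1
      omega
    have hs := hsound P (Q.take (p0 - P0.length)) v y (by
      rw [hq, List.length_take, hBm, Nat.min_eq_left hqlen]; omega) hlam hy
    simp only [T]
    rw [hX1, hYX, ← hs]
  · intro X X2 hX hX2 hBad v
    have hXlen := hXl X hX
    obtain ⟨A, hA, hA2⟩ := hamb X X2 hX hX2 hBad
    obtain ⟨i, him, e, hie⟩ := hcomp (X.take p0) v (by rw [List.length_take, hBm]; omega)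
    obtain ⟨A', hA', hA'2⟩ := hpl i him e
    have hex : ∃ x ∈ A', x ∉ A := by
      by_contra hcon
      push Not at hcon
      have := Finset.card_le_card (fun x hx => hcon x hx : A' ⊆ A)
      omega
    obtain ⟨x, hxA', hxA⟩ := hex
    have hcx := hA'2 x hxA'
    have hcxs : (ctx x).isSome = true := by rw [hcx]; rfl
    have hxp0 := hxp x hcxs
    obtain ⟨h1, h2⟩ := hie x hcx
    obtain ⟨y, hy⟩ := Option.isSome_iff_exists.1 h2
    have hxl : (X.take x).length = x := by rw [List.length_take]; omega
    have hdrop : (X ++ X2).drop x = X.drop x ++ X2 := by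
      rw [List.drop_append_of_le_length (by omega)]
    have hsplit : X.take x ++ (X ++ X2).drop x = X ++ X2 := by
      rw [hdrop, ← List.append_assoc, List.take_append_drop]
    refine ⟨X.take x, (X ++ X2).drop x,
      T φ act p0 nu2 nu1 (act y (φ (X.drop p0)) + nu1 (X.drop p0)) X2, hsplit, ?_, ?_, ?_⟩
    · rw [hxl]; exact hcxs
    · rw [List.take_take, Nat.min_eq_left hxp0] at h1
      exact h1
    · refine ⟨fun P' hP' => hcand X X2 hX hX2 hBad x hcxs P' hP', X.take x,
        ⟨by rw [hxl]; exact hcxs, X, X2, hsplit, hX, hBad⟩, ?_, X, X2, hsplit, hX, hX2, y, ?_, rfl⟩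
      · rintro P' ⟨hc', X', Z', hs', hX', hB'⟩
        rw [hxl]
        by_contra hne
        exact hA2 x hxA hcxs P' hc' hne X' Z' hs' hX' hB'
      · rw [hxl, hdrop, List.take_append_of_le_length (by rw [List.length_drop]; omega)]
        rw [← hy]
        congr 1
        rw [List.drop_take]

end Crest.Agent.R320.Sch2B_433
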