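import Crest.Agent.R320.JointA_151
import Crest.Agent.R320.Sch2B_433

/-!
# Row 320: spoil count on blocks (helper151)
-/

set_option autoImplicit false

namespace Crest.Agent.R320.Joint_151

open Crest.Agent.R320.Hk_851 Crest.Agent.R320.Code110 Crest.Agent.R320.Core1_922

universe u

variable {α : Type u}

open Classical in
theorem spoil {n z N p0 W cK K C0 La : ℕ} {Wo : List α → Prop} (hW : LW n Wo)
    (hsep : ∀ (X : List α) (s t : ℕ), s < t → t ≤ X.length → Wo (X.take s) → Wo (X.take t) →
        W < t - s)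
    (c : ℕ → ℕ) (hc : ∀ i < K, c i ≤ cK)
    (hgol : ∀ i < K, ∀ j < K, ∀ k < K, ∀ l < K, i ≠ j → k ≠ l → (i, j) ≠ (k, l) →
      c i + c l + 4 * N < c k + c j ∨ c k + c j + 4 * N < c i + c l)
    (BT : ℕ → Prop)
    (hBT : ∀ T, La ≤ T → ((Finset.range K ×ˢ Finset.range K).filter
      (fun p => p.1 ≠ p.2 ∧ BT (T + c p.2 - c p.1))).card ≤ C0)
    (hz : n + 2 * cK + p0 + La + N ≤ z) (hcp : cK ≤ p0) (hWW : 2 * cK + 2 * N ≤ W)
    (Z : List α) (hZ : ∃ w, z ≤ w ∧ w ≤ Z.length ∧ Wo (Z.take w)) :
    ∃ Amb : Finset (ℕ × ℕ), Amb.card ≤ 2 * C0 + 1 ∧ ∀ i < K, ∀ j < K, i ≠ j →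
      ∀ P' X' Z' : List α, P'.length = c j → P' ++ Z.drop (c i) = X' ++ Z' → X' ∈ XX z Wo →
      (EB z N Wo X' ∨ BT (X'.length - p0)) → (i, j) ∈ Amb := by
  obtain ⟨w0, hw01, hw02, hw03⟩ := hZ
  -- walls of a candidate text
  have hcw : ∀ i < K, ∀ j < K, ∀ (P' : List α) (t : ℕ), P'.length = c j → c j + n ≤ t →
      t ≤ (P' ++ Z.drop (c i)).length →
      (Wo ((P' ++ Z.drop (c i)).take t) ↔ Wo (Z.take (t + c i - c j))) := by
    intro i hi j hj P' t hP ht1 ht2
    have h1 := hc i hi
    have h2 := hc j hj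
    rw [wo_shift hW (by omega) ht2, hP]
    have hl : (Z.take (c i)).length = c i := by rw [List.length_take]; omega
    rw [List.length_append, List.length_drop] at ht2
    have := wo_shift hW (p := Z.take (c i)) (q := Z.drop (c i)) (t := t + c i - c j)
      (by rw [hl]; omega) (by rw [List.length_append, hl, List.length_drop]; omega)
    rw [List.take_append_drop, hl] at this
    rw [this]
    have e : t + c i - c j - c i = t - c j := by omega
    rw [e]
  let AE : Finset (ℕ × ℕ) := (Finset.range K ×ˢ Finset.range K).filter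
    (fun p => p.1 ≠ p.2 ∧ ∃ w, w ≤ Z.length ∧ Wo (Z.take w) ∧ z + c p.1 ≤ w + c p.2 + N ∧
      w + c p.2 < z + N + c p.1)
  have hAE : AE.card ≤ 1 := by
    rw [Finset.card_le_one]
    rintro ⟨i, j⟩ h1 ⟨k, l⟩ h2
    simp only [AE, Finset.mem_filter, Finset.mem_product, Finset.mem_range] at h1 h2
    obtain ⟨⟨hi, hj⟩, hij, w, hw1, hw2, hw3, hw4⟩ := h1
    obtain ⟨⟨hk, hl⟩, hkl, w', hw1', hw2', hw3', hw4'⟩ := h2
    have b1 := hc i hi
    have b2 := hc j hj
    have b3 := hc k hk
    have b4 := hc l hl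
    by_contra hne
    have hww : w = w' := by
      by_contra hn
      rcases Nat.lt_or_gt_of_ne hn with h | h
      · have := hsep Z w w' h hw1' hw2 hw2'
        omega
      · have := hsep Z w' w h hw1 hw2' hw2
        omega
    subst hww
    rcases hgol i hi j hj k hk l hl hij hkl hne with h | h <;> omega
  have hZ1 : ∃ w, z ≤ w + cK ∧ w ≤ Z.length ∧ Wo (Z.take w) := ⟨w0, by omega, hw02, hw03⟩
  let e1 := Nat.find hZ1
  have he1 := Nat.find_spec hZ1
  have he1' : ∀ w, z ≤ w + cK → w ≤ Z.length → Wo (Z.take w) → e1 ≤ w :=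
    fun w a b d => Nat.find_min' hZ1 ⟨a, b, d⟩
  change z ≤ e1 + cK ∧ e1 ≤ Z.length ∧ Wo (Z.take e1) at he1
  let AB : ℕ → Finset (ℕ × ℕ) := fun e => (Finset.range K ×ˢ Finset.range K).filter
    (fun p => p.1 ≠ p.2 ∧ BT (e - p0 + c p.2 - c p.1))
  obtain ⟨e2, he2, he2'⟩ : ∃ e2, e1 ≤ e2 ∧ ∀ e, e1 < e → e ≤ Z.length → Wo (Z.take e) →
      (∀ w, z + cK ≤ w → w ≤ Z.length → Wo (Z.take w) → w < e → False) → e = e2 := by
    by_cases h2 : ∃ w, e1 < w ∧ w ≤ Z.length ∧ Wo (Z.take w)
    · have hs := Nat.find_spec h2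
      refine ⟨Nat.find h2, hs.1.le, ?_⟩
      intro e a b d hno
      have hle : Nat.find h2 ≤ e := Nat.find_min' h2 ⟨a, b, d⟩
      rcases Nat.lt_or_eq_of_le hle with h | h
      · exfalso
        have := hsep Z e1 (Nat.find h2) hs.1 hs.2.1 he1.2.2 hs.2.2
        refine hno (Nat.find h2) (by omega) hs.2.1 hs.2.2 h
      · exact h.symm
    · refine ⟨e1, le_rfl, ?_⟩
      intro e a b d _
      exact (h2 ⟨e, a, b, d⟩).elim
  refine ⟨AE ∪ (AB e1 ∪ AB e2), ?_, ?_⟩
  · have h1 := hBT (e1 - p0) (by omega)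
    have h2 := hBT (e2 - p0) (by omega)
    refine (Finset.card_union_le _ _).trans ?_
    have h3 := Finset.card_union_le (AB e1) (AB e2)
    have h4 : (AB e1).card ≤ C0 := h1
    have h5 : (AB e2).card ≤ C0 := h2
    omega
  · intro i hi j hj hij P' X' Z' hP he hX hbad
    have b1 := hc i hi
    have b2 := hc j hj
    obtain ⟨x1, x2, x3⟩ := mem_XX.1 hX
    have hlen : X'.length ≤ (P' ++ Z.drop (c i)).length := by
      rw [he, List.length_append]; omega
    have hlZ : (P' ++ Z.drop (c i)).length = c j + (Z.length - c i) := by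
      rw [List.length_append, List.length_drop, hP]
    have htake : ∀ t, t ≤ X'.length → X'.take t = (P' ++ Z.drop (c i)).take t := by
      intro t ht
      rw [he, List.take_append_of_le_length ht]
    have hwall : ∀ t, c j + n ≤ t → t ≤ X'.length →
        (Wo (X'.take t) ↔ Wo (Z.take (t + c i - c j))) := by
      intro t h1 h2
      rw [htake t h2]
      exact hcw i hi j hj P' t hP h1 (by omega)
    rw [Finset.mem_union, Finset.mem_union]
    have hmem : (i, j) ∈ Finset.range K ×ˢ Finset.range K := by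
      rw [Finset.mem_product, Finset.mem_range, Finset.mem_range]; exact ⟨hi, hj⟩
    have hend : Wo (Z.take (X'.length + c i - c j)) := by
      rw [← hwall X'.length (by omega) le_rfl, List.take_length]
      exact x2
    rcases hbad with (⟨t, ht1, ht2, ht3⟩ | hs) | hB
    · left
      refine Finset.mem_filter.2 ⟨hmem, hij, t + c i - c j, by omega, ?_, ?_, ?_⟩
      · rw [← hwall t (by omega) (by omega)]; exact ht3
      · change z + c i ≤ t + c i - c j + c j + N; omega
      · change t + c i - c j + c j < z + N + c i; omega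
    · left
      refine Finset.mem_filter.2 ⟨hmem, hij, X'.length + c i - c j, by omega, hend, ?_, ?_⟩
      · change z + c i ≤ X'.length + c i - c j + c j + N; omega
      · change X'.length + c i - c j + c j < z + N + c i; omega
    · right
      have hle := he1' (X'.length + c i - c j) (by omega) (by omega) hend
      have hval : X'.length + c i - c j - p0 + c j - c i = X'.length - p0 := by omega
      rcases Nat.lt_or_eq_of_le hle with h | h
      · right
        have := he2' _ h (by omega) hend (by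
          intro w hw1 hw2 hw3 hw4
          refine x3 (w + c j - c i) (by omega) (by omega) ?_
          rw [hwall _ (by omega) (by omega)]
          have e : w + c j - c i + c i - c j = w := by omega
          rw [e]; exact hw3)
        refine Finset.mem_filter.2 ⟨hmem, hij, ?_⟩
        change BT (e2 - p0 + c j - c i)
        rw [← this, hval]; exact hB
      · left
        refine Finset.mem_filter.2 ⟨hmem, hij, ?_⟩
        change BT (e1 - p0 + c j - c i)
        rw [h, hval]; exact hB

/-- places of scheme 2 -/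
theorem places {m k R' K p0 : ℕ} (hK : K = m * (k * R')) (hm : 0 < m) (hR : 0 < R') (c : ℕ → ℕ)
    (hc : ∀ i j, i < j → j < K → c i < c j) (hp : ∀ j < K, c j ≤ p0) (hc0 : c 0 ≤ p0) :
    ∃ (B : ℕ → ℕ) (ctx : ℕ → Option (ℕ × Fin k)), Monotone B ∧ B 0 = 0 ∧ B m = p0 ∧
      (∀ x i e, ctx x = some (i, e) → i < m ∧ B i ≤ x ∧ x ≤ B (i + 1)) ∧
      (∀ i, i < m → ∀ e : Fin k, ∃ A : Finset ℕ, R' ≤ A.card ∧ ∀ x ∈ A, ctx x = some (i, e)) ∧
      (∀ x, (ctx x).isSome = true → ∃ j < K, x = c j) := by
  classical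
  have hinj : ∀ i < K, ∀ j < K, c i = c j → i = j := by
    intro i hi j hj h
    by_contra hn
    rcases Nat.lt_or_gt_of_ne hn with h' | h'
    · have := hc i j h' hj; omega
    · have := hc j i h' hi; omega
  have hmono : ∀ i j, i ≤ j → j < K → c i ≤ c j := by
    intro i j h hj
    rcases Nat.lt_or_eq_of_le h with h' | h'
    · exact (hc i j h' hj).le
    · rw [h']
  let B : ℕ → ℕ := fun i => if i = 0 then 0 else if i < m then c (i * (k * R')) else p0
  let ctx : ℕ → Option (ℕ × Fin k) := fun x =>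
    if h : (∃ j < K, c j = x) ∧ 0 < k then
      some (h.1.choose / (k * R'), ⟨h.1.choose / R' % k, Nat.mod_lt _ h.2⟩) else none
  have hctx : ∀ j < K, ∀ h : 0 < k, ctx (c j) = some (j / (k * R'), ⟨j / R' % k, Nat.mod_lt _ h⟩) := by
    intro j hj h
    have h1 : (∃ j' < K, c j' = c j) ∧ 0 < k := ⟨⟨j, hj, rfl⟩, h⟩
    have h2 : h1.1.choose = j := hinj _ h1.1.choose_spec.1 _ hj h1.1.choose_spec.2
    simp only [ctx]
    rw [dif_pos h1]
    simp only [h2]
  have hkpos : ∀ j < K, 0 < k := by
    intro j hj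
    rcases Nat.eq_zero_or_pos k with h | h
    · subst h; rw [hK] at hj; simp at hj
    · exact h
  have hctx2 : ∀ x, (ctx x).isSome = true → ∃ j < K, x = c j := by
    intro x hx
    by_cases h : (∃ j < K, c j = x) ∧ 0 < k
    · obtain ⟨j, hj, h'⟩ := h.1
      exact ⟨j, hj, h'.symm⟩
    · simp only [ctx] at hx
      rw [dif_neg h] at hx
      exact absurd hx (by simp)
  refine ⟨B, ctx, ?_, by simp [B], ?_, ?_, ?_, hctx2⟩
  · intro a b hab
    simp only [B]
    by_cases ha : a = 0
    · simp [ha]
    · have hb : b ≠ 0 := by omega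
      rw [if_neg ha, if_neg hb]
      by_cases hbm : b < m
      · rw [if_pos (by omega), if_pos hbm]
        rcases Nat.eq_zero_or_pos (k * R') with h0 | h0
        · rw [h0]; simp
        · refine hmono _ _ (Nat.mul_le_mul_right _ hab) ?_
          rw [hK]; exact Nat.mul_lt_mul_of_pos_right hbm h0
      · rw [if_neg hbm]
        by_cases ham : a < m
        · rw [if_pos ham]
          rcases Nat.eq_zero_or_pos (k * R') with h0 | h0
          · rw [h0, Nat.mul_zero]; exact hc0
          · refine hp _ ?_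
            rw [hK]; exact Nat.mul_lt_mul_of_pos_right ham h0
        · rw [if_neg ham]
  · simp only [B]
    rw [if_neg (by omega), if_neg (by omega)]
  · intro x i e hx
    obtain ⟨j, hj, rfl⟩ := hctx2 x (by rw [hx]; rfl)
    have hk := hkpos j hj
    rw [hctx j hj hk] at hx
    have hi : j / (k * R') = i := congrArg Prod.fst (Option.some.inj hx)
    have hkR : 0 < k * R' := Nat.mul_pos hk hR
    have him : i < m := by
      rw [← hi, Nat.div_lt_iff_lt_mul hkR, ← hK]; exact hj
    have h1 : i * (k * R') ≤ j := by rw [← hi]; exact Nat.div_mul_le_self j _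
    have h2 : j < (i + 1) * (k * R') := by
      rw [← hi, Nat.add_one_mul]
      exact Nat.lt_div_mul_add hkR
    refine ⟨him, ?_, ?_⟩
    · simp only [B]
      by_cases hi0 : i = 0
      · simp [hi0]
      · rw [if_neg hi0, if_pos him]
        exact hmono _ _ h1 hj
    · simp only [B]
      rw [if_neg (by omega)]
      by_cases hi1 : i + 1 < m
      · rw [if_pos hi1]
        refine hmono _ _ h2.le ?_
        rw [hK]; exact Nat.mul_lt_mul_of_pos_right hi1 hkR
      · rw [if_neg hi1]; exact hp j hj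
  · intro i hi e
    have hk : 0 < k := lt_of_le_of_lt (Nat.zero_le _) e.2
    have hkR : 0 < k * R' := Nat.mul_pos hk hR
    have hlt : ∀ r < R', i * (k * R') + (e : ℕ) * R' + r < K := by
      intro r hr
      have h1 : (e : ℕ) * R' + r < k * R' := by
        have h2 : ((e : ℕ) + 1) * R' ≤ k * R' := Nat.mul_le_mul_right _ e.2
        rw [Nat.add_one_mul] at h2
        omega
      have h3 : (i + 1) * (k * R') ≤ m * (k * R') := Nat.mul_le_mul_right _ hi
      rw [Nat.add_one_mul, ← hK] at h3
      omega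
    refine ⟨(Finset.range R').image (fun r => c (i * (k * R') + (e : ℕ) * R' + r)), ?_, ?_⟩
    · rw [Finset.card_image_of_injOn, Finset.card_range]
      intro r hr r' hr' h
      have hr1 : r < R' := by simpa using hr
      have hr2 : r' < R' := by simpa using hr'
      have := hinj _ (hlt r hr1) _ (hlt r' hr2) h
      omega
    · intro x hx
      rw [Finset.mem_image] at hx
      obtain ⟨r, hr, rfl⟩ := hx
      rw [Finset.mem_range] at hr
      rw [hctx _ (hlt r hr) hk]
      have h1 : (e : ℕ) * R' + r < k * R' := by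
        have h2 : ((e : ℕ) + 1) * R' ≤ k * R' := Nat.mul_le_mul_right _ e.2
        rw [Nat.add_one_mul] at h2
        omega
      have d1 : (i * (k * R') + (e : ℕ) * R' + r) / (k * R') = i := by
        rw [add_assoc, Nat.mul_comm i, Nat.mul_add_div hkR, Nat.div_eq_of_lt h1, Nat.add_zero]
      have d2 : (i * (k * R') + (e : ℕ) * R' + r) / R' = i * k + e := by
        have : i * (k * R') + (e : ℕ) * R' + r = R' * (i * k + e) + r := by ring
        rw [this, Nat.mul_add_div hR, Nat.div_eq_of_lt hr, Nat.add_zero]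
      have d3 : (i * k + (e : ℕ)) % k = e := by
        rw [Nat.add_comm, Nat.add_mul_mod_self_right, Nat.mod_eq_of_lt e.2]
      congr 1
      refine Prod.ext d1 (Fin.ext ?_)
      change (i * (k * R') + (e : ℕ) * R' + r) / R' % k = e
      rw [d2, d3]

end Crest.Agent.R320.Joint_151
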