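import Crest.Agent.R320.JointA_540

/-!
# Row 320: the joint, part B: both schemes on left-looking blocks (helper540)
-/

set_option autoImplicit false

namespace Crest.Agent.R320.Joint_540

open Crest.Agent.R320 Crest.Agent.R320.Hk_851 Crest.Agent.R320.Code110

variable {α : Type}

/-- all data of the two schemes -/
structure Dat (α S V : Type) [Monoid S] [AddCommGroup V] (f : α → S) (act : V → S → V) where
  (n z p0 N K Rr C0 W : ℕ)
  c : ℕ → ℕ
  Wo : List α → Prop
  BadT : ℕ → Prop
  (lam rho : List α → Option V)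
  nu : List α → V
  (lam2 rho2 : ℕ → List α → Option V)
  nu2 : List α → V
  hW : LW n Wo
  gap : ∀ (X : List α) (s t : ℕ), s < t → t ≤ X.length → Wo (X.take s) → Wo (X.take t) → W < t - s
  g_len : ∀ P v, lam P = some v → P.length < N
  g_sound : ∀ P Q v v', N ≤ Q.length → lam P = some v → rho Q = some v' →
    v' = act v ((P ++ Q).map f).prod + nu (P ++ Q)
  g_comp : ∀ X, 2 * N ≤ X.length → ¬ BadT X.length → ∀ v, ∃ P Q, P ++ Q = X ∧ lam P = some v ∧
    (rho Q).isSome
  e_sound : ∀ k < K, ∀ (P Q : List α) (v b : V), P.length = c k → lam2 k P = some v →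
    rho2 k Q = some b → b = act v ((P ++ Q).map f).prod + nu2 (P ++ Q)
  e_comp : ∀ (u : List α) (v : V), (∀ k < K, c k ≤ u.length) → ∃ I : Finset ℕ, Rr ≤ I.card ∧
    ∀ k ∈ I, k < K ∧ lam2 k (u.take (c k)) = some v ∧ (rho2 k (u.drop (c k))).isSome
  hcp : ∀ k < K, c k ≤ p0
  hz : 3 * p0 + 2 * N + n + 1 ≤ z
  hWW : 2 * p0 + 2 * N ≤ W
  wide : ∀ a < K, ∀ b < K, ∀ a' < K, ∀ b' < K, a ≠ b → a' ≠ b' → (a, b) ≠ (a', b') →
    (2 * N : ℤ) ≤ |((c b : ℤ) - c a) - ((c b' : ℤ) - c a')|
  count : ∀ T, p0 ≤ T → ∀ s : Finset (ℕ × ℕ), (∀ ab ∈ s, ab.1 < K ∧ ab.2 < K ∧ ab.1 ≠ ab.2 ∧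
    BadT (T + c ab.2 - c ab.1)) → s.card ≤ C0
  hRr : 2 + 2 * C0 ≤ Rr

variable {S V : Type} [Monoid S] [AddCommGroup V] {f : α → S} {act : V → S → V}
  (D : Dat α S V f act)

namespace Dat

/-- the zone map -/
def T (X : List α) (v : V) : V :=
  act (act v ((X.take D.p0).map f).prod + D.nu2 (X.take D.p0)) ((X.drop D.p0).map f).prod +
    D.nu (X.drop D.p0)

def L1 (x : V) : Language α :=
  {P | D.p0 ≤ P.length ∧
    D.lam (P.drop D.p0) = some (act x ((P.take D.p0).map f).prod + D.nu2 (P.take D.p0))}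

def L2 (x : V) : Language α := {P | ∃ k < D.K, P.length = D.c k ∧ D.lam2 k P = some x}

def Z : Language α := XX D.Wo D.z

def Good (X : List α) : Prop :=
  ∀ x, ∃ p q y, X = p ++ q ∧ p ∈ D.L1 x ∧ q ∈ Rsem D.Z D.Z D.T 0 D.L1 y

def Bad : Language α := {X | X ∈ D.Z ∧ ¬ D.Good X}

theorem good {X : List α} (hX : X ∈ D.Z)
    (hE : ∀ t, D.z ≤ t + D.N → t < D.z + D.N → t ≤ X.length → ¬ D.Wo (X.take t))
    (hB : ¬ D.BadT (X.length - D.p0)) : D.Good X := by
  intro x
  have hz := D.hz
  obtain ⟨h1, h2, h3⟩ := hX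
  have hlen : D.z + D.N ≤ X.length := by
    by_contra hlt
    exact hE X.length (by omega) (by omega) le_rfl (by rwa [List.take_length])
  have hl : (X.drop D.p0).length = X.length - D.p0 := List.length_drop
  obtain ⟨P0, Q, hPQ, hlam, hrho⟩ := D.g_comp (X.drop D.p0) (by omega) (by rw [hl]; exact hB)
    (act x ((X.take D.p0).map f).prod + D.nu2 (X.take D.p0))
  obtain ⟨r, hr⟩ := Option.isSome_iff_exists.1 hrho
  have hP0 := D.g_len _ _ hlam
  have ht0 : (X.take D.p0).length = D.p0 := by rw [List.length_take]; omega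
  have hQl : P0.length + Q.length = X.length - D.p0 := by
    rw [← List.length_append, hPQ, hl]
  have hsplit : X = (X.take D.p0 ++ P0) ++ Q := by
    rw [List.append_assoc, hPQ, List.take_append_drop]
  refine ⟨X.take D.p0 ++ P0, Q, D.T X x, hsplit, ?_, ?_⟩
  · refine ⟨by rw [List.length_append]; omega, ?_⟩
    rw [List.drop_left' ht0, List.take_left' ht0]
    exact hlam
  · intro x' P' hP'
    left
    obtain ⟨hp1, hp2⟩ := hP'
    have hp3 := D.g_len _ _ hp2
    rw [List.length_drop] at hp3
    have hPl : (X.take D.p0 ++ P0).length + D.n ≤ D.z := by rw [List.length_append]; omega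
    have hXX : (X.take D.p0 ++ P0) ++ Q ∈ XX D.Wo D.z := by rw [← hsplit]; exact ⟨h1, h2, h3⟩
    obtain ⟨a1, a2, a3⟩ := (mem_append D.hW hPl).1 hXX
    rw [List.length_append, ht0] at a1 a3
    have hmem : P' ++ Q ∈ XX D.Wo D.z := by
      refine (mem_append D.hW (by omega)).2 ⟨by omega, a2, fun j hj1 hj2 hw => ?_⟩
      by_cases hj : D.z ≤ D.p0 + P0.length + j
      · exact a3 j hj hj2 hw
      · refine hE (D.p0 + P0.length + j) (by omega) (by omega) (by omega) ?_
        have e : X.take (D.p0 + P0.length + j) = (X.take D.p0 ++ P0) ++ Q.take j := by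
          conv_lhs => rw [hsplit]
          rw [List.take_append, List.length_append, ht0,
            List.take_of_length_le (by rw [List.length_append]; omega), Nat.add_sub_cancel_left]
        rw [e]
        exact (D.hW.loc _ _ (by rw [List.length_take]; omega)).2 hw
    have hT1 : D.T (P' ++ Q) x' = r := by
      have e1 : (P' ++ Q).take D.p0 = P'.take D.p0 := List.take_append_of_le_length hp1
      have e2 : (P' ++ Q).drop D.p0 = P'.drop D.p0 ++ Q := List.drop_append_of_le_length hp1
      unfold T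
      rw [e1, e2]
      exact (D.g_sound _ _ _ _ (by omega) hp2 hr).symm
    have hT2 : D.T X x = r := by
      unfold T
      rw [← hPQ]
      exact (D.g_sound _ _ _ _ (by omega) hlam hr).symm
    refine ⟨D.T X x, Language.mem_mul.2 ⟨P' ++ Q, ⟨hmem, by rw [hT1, hT2]⟩, [], ⟨rfl, rfl⟩, by simp⟩⟩

/-- a place of a wall of `X` -/
def Wt (X : List α) (t : ℕ) : Prop := t ≤ X.length ∧ D.Wo (X.take t)

def EE (X : List α) (k k' : ℕ) : Prop :=
  ∃ t, D.Wt X t ∧ D.z + D.c k ≤ t + D.c k' + D.N ∧ t + D.c k' < D.z + D.c k + D.N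

def FF (X : List α) (k k' t : ℕ) : Prop :=
  D.Wt X t ∧ D.z + D.c k ≤ t + D.c k' ∧ ∀ t' < t, D.Wt X t' → t' + D.c k' < D.z + D.c k

def BB (X : List α) (k k' : ℕ) : Prop := ∃ t, D.FF X k k' t ∧ D.BadT (t + D.c k' - D.c k - D.p0)

theorem two_places (X : List α) : ∃ t1 t2, D.z ≤ t1 + D.p0 ∧ D.z ≤ t2 + D.p0 ∧
    ∀ k < D.K, ∀ k' < D.K, ∀ t, D.FF X k k' t → t = t1 ∨ t = t2 := by
  classical
  have hWW := D.hWW
  by_cases hex : ∃ t, D.Wt X t ∧ D.z ≤ t + D.p0
  · obtain ⟨ht1, ht1'⟩ := Nat.find_spec hex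
    set t1 := Nat.find hex with ht1d
    by_cases hex2 : ∃ t, D.Wt X t ∧ t1 < t
    · obtain ⟨ht2, ht2'⟩ := Nat.find_spec hex2
      set t2 := Nat.find hex2 with ht2d
      refine ⟨t1, t2, ht1', by omega, fun k hk k' hk' t hF => ?_⟩
      obtain ⟨h1, h2, h3⟩ := hF
      have hc := D.hcp k hk
      have hc' := D.hcp k' hk'
      have h4 : t1 ≤ t := Nat.find_min' hex ⟨h1, by omega⟩
      rcases Nat.eq_or_lt_of_le h4 with h5 | h5
      · exact Or.inl h5.symm
      · right
        have h6 : t2 ≤ t := Nat.find_min' hex2 ⟨h1, h5⟩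
        rcases Nat.eq_or_lt_of_le h6 with h7 | h7
        · exact h7.symm
        · exfalso
          have h8 := h3 t2 h7 ht2
          have h9 := D.gap X t1 t2 ht2' ht2.1 ht1.2 ht2.2
          omega
    · refine ⟨t1, t1, ht1', ht1', fun k hk k' hk' t hF => ?_⟩
      obtain ⟨h1, h2, h3⟩ := hF
      have hc := D.hcp k hk
      have hc' := D.hcp k' hk'
      have h4 : t1 ≤ t := Nat.find_min' hex ⟨h1, by omega⟩
      rcases Nat.eq_or_lt_of_le h4 with h5 | h5
      · exact Or.inl h5.symm
      · exact (hex2 ⟨t, h1, h5⟩).elim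
  · refine ⟨D.z, D.z, by omega, by omega, fun k hk k' hk' t hF => ?_⟩
    obtain ⟨h1, h2, h3⟩ := hF
    have hc := D.hcp k hk
    have hc' := D.hcp k' hk'
    exact (hex ⟨t, h1, by omega⟩).elim

theorem spoil (X : List α) : ∃ Sp : Finset ℕ, Sp.card < D.Rr ∧ ∀ k < D.K, k ∉ Sp →
    ∀ k' < D.K, k' ≠ k → ¬ D.EE X k k' ∧ ¬ D.BB X k k' := by
  classical
  have hWW := D.hWW
  have hz := D.hz
  obtain ⟨t1, t2, hz1, hz2, h12⟩ := D.two_places X
  let PP := Finset.range D.K ×ˢ Finset.range D.K
  let PE := PP.filter (fun ab => ab.1 ≠ ab.2 ∧ D.EE X ab.1 ab.2)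
  let PB := fun t => PP.filter (fun ab => ab.1 ≠ ab.2 ∧ D.BadT ((t - D.p0) + D.c ab.2 - D.c ab.1))
  have hPE : PE.card ≤ 1 := by
    rw [Finset.card_le_one]
    rintro ⟨a, b⟩ hab ⟨a', b'⟩ hab'
    simp only [PE, PP, Finset.mem_filter, Finset.mem_product, Finset.mem_range] at hab hab'
    obtain ⟨⟨ha, hb⟩, hne, t, ht, h1, h2⟩ := hab
    obtain ⟨⟨ha', hb'⟩, hne', t', ht', h1', h2'⟩ := hab'
    by_contra hcon
    have hw := D.wide a ha b hb a' ha' b' hb' hne hne' hcon
    have q1 := D.hcp a ha
    have q2 := D.hcp b hb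
    have q3 := D.hcp a' ha'
    have q4 := D.hcp b' hb'
    have htt : t = t' := by
      rcases Nat.lt_trichotomy t t' with h | h | h
      · have := D.gap X t t' h ht'.1 ht.2 ht'.2
        omega
      · exact h
      · have := D.gap X t' t h ht.1 ht'.2 ht.2
        omega
    subst htt
    have habs : |((D.c b : ℤ) - D.c a) - ((D.c b' : ℤ) - D.c a')| < 2 * D.N := by
      rw [abs_lt]
      constructor <;> omega
    omega
  have hPB : ∀ t, D.z ≤ t + D.p0 → (PB t).card ≤ D.C0 := by
    intro t ht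
    refine D.count (t - D.p0) (by omega) _ fun ab hab => ?_
    simp only [PB, PP, Finset.mem_filter, Finset.mem_product, Finset.mem_range] at hab
    exact ⟨hab.1.1, hab.1.2, hab.2.1, hab.2.2⟩
  refine ⟨(PE ∪ (PB t1 ∪ PB t2)).image Prod.fst, ?_, ?_⟩
  · have h1 : ((PE ∪ (PB t1 ∪ PB t2)).image Prod.fst).card ≤ (PE ∪ (PB t1 ∪ PB t2)).card :=
      Finset.card_image_le
    have h2 := Finset.card_union_le PE (PB t1 ∪ PB t2)
    have h3 := Finset.card_union_le (PB t1) (PB t2)
    have h4 := hPB t1 hz1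
    have h5 := hPB t2 hz2
    have h6 := D.hRr
    omega
  · intro k hk hkS k' hk' hne
    constructor
    · intro hE
      apply hkS
      rw [Finset.mem_image]
      refine ⟨(k, k'), Finset.mem_union_left _ ?_, rfl⟩
      simp only [PE, PP, Finset.mem_filter, Finset.mem_product, Finset.mem_range]
      exact ⟨⟨hk, hk'⟩, fun h => hne h.symm, hE⟩
    · rintro ⟨t, hF, hB⟩
      apply hkS
      rw [Finset.mem_image]
      refine ⟨(k, k'), Finset.mem_union_right _ ?_, rfl⟩
      have hc := D.hcp k hk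
      have hc' := D.hcp k' hk'
      have hF2 := hF.2.1
      have e : t + D.c k' - D.c k - D.p0 = (t - D.p0) + D.c k' - D.c k := by omega
      rw [e] at hB
      have hmem : ∀ s, t = s → (k, k') ∈ PB s := by
        rintro s rfl
        simp only [PB, PP, Finset.mem_filter, Finset.mem_product, Finset.mem_range]
        exact ⟨⟨hk, hk'⟩, fun h => hne h.symm, hB⟩
      rcases h12 k hk k' hk' t hF with h | h
      · exact Finset.mem_union_left _ (hmem _ h)
      · exact Finset.mem_union_right _ (hmem _ h)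

theorem compl2 (hmul : ∀ v s t, act v (s * t) = act (act v s) t) {u u' : List α} (hu : u ∈ D.Bad)
    (hu' : u' ∈ D.Bad) (x : V) :
    ∃ p q y, u ++ u' = p ++ q ∧ p ∈ D.L2 x ∧ q ∈ Rsem D.Z D.Bad D.T 1 D.L2 y := by
  classical
  have hz := D.hz
  have hWW := D.hWW
  obtain ⟨⟨h1, h2, h3⟩, hgood⟩ := hu
  obtain ⟨⟨h1', h2', h3'⟩, hgood'⟩ := hu'
  obtain ⟨Sp, hSp, hsp⟩ := D.spoil (u ++ u')
  have ht0 : (u.take D.p0).length = D.p0 := by rw [List.length_take]; omega
  obtain ⟨I, hI, hI2⟩ := D.e_comp (u.take D.p0) x (fun k hk => by rw [ht0]; exact D.hcp k hk)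
  obtain ⟨k, hkI, hkS⟩ : ∃ k ∈ I, k ∉ Sp := by
    by_contra hcon
    push Not at hcon
    have := Finset.card_le_card hcon
    omega
  obtain ⟨hk, hlam, hrho⟩ := hI2 k hkI
  obtain ⟨b, hb⟩ := Option.isSome_iff_exists.1 hrho
  have hck := D.hcp k hk
  rw [List.take_take, min_eq_left hck] at hlam
  have hpl : (u.take (D.c k)).length = D.c k := by rw [List.length_take]; omega
  have hdl : (u.drop (D.c k)).length = u.length - D.c k := List.length_drop
  refine ⟨u.take (D.c k), u.drop (D.c k) ++ u', D.T u' (D.T u x), ?_, ⟨k, hk, hpl, hlam⟩, ?_⟩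
  · rw [← List.append_assoc, List.take_append_drop]
  · intro x' p' hp'
    obtain ⟨k', hk', hpl', hlam'⟩ := hp'
    have hck' := D.hcp k' hk'
    by_cases hkk : k' = k
    · subst hkk
      have hu1 : p' ++ u.drop (D.c k') ∈ XX D.Wo D.z := by
        have hXX : u.take (D.c k') ++ u.drop (D.c k') ∈ XX D.Wo D.z := by
          rw [List.take_append_drop]; exact ⟨h1, h2, h3⟩
        have := (mem_append D.hW (by omega)).1 hXX
        rw [hpl, ← hpl'] at this
        exact (mem_append D.hW (by omega)).2 (by simpa [hpl'] using this)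
      have hT : D.T (p' ++ u.drop (D.c k')) x' = D.T u x := by
        have e0 : (u.drop (D.c k')).take (D.p0 - D.c k') = (u.take D.p0).drop (D.c k') := by
          rw [List.drop_take]
        have e1 : (p' ++ u.drop (D.c k')).take D.p0 = p' ++ (u.take D.p0).drop (D.c k') := by
          rw [List.take_append, List.take_of_length_le (by omega), hpl', e0]
        have e2 : (p' ++ u.drop (D.c k')).drop D.p0 = u.drop D.p0 := by
          rw [List.drop_append, List.drop_of_length_le (by omega), List.nil_append, hpl',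
            List.drop_drop]
          congr 1
          omega
        have e3 := D.e_sound k' hk p' _ x' b hpl' hlam' hb
        have e4 := D.e_sound k' hk (u.take (D.c k')) _ x b hpl hlam hb
        have e5 : u.take (D.c k') ++ (u.take D.p0).drop (D.c k') = u.take D.p0 := by
          have : u.take (D.c k') = (u.take D.p0).take (D.c k') := by
            rw [List.take_take, min_eq_left hck]
          rw [this, List.take_append_drop]
        rw [e5] at e4
        unfold T
        rw [e1, e2, ← e3, ← e4]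
      show p' ++ (u.drop (D.c k') ++ u') ∈ Exactly D.Bad D.T (1 + 1) x' (D.T u' (D.T u x)) ∨
        p' ++ (u.drop (D.c k') ++ u') ∈ Off D.Z D.Bad 1
      rw [← List.append_assoc]
      by_cases hg : D.Good (p' ++ u.drop (D.c k'))
      · right
        left
        exact ⟨_, hu1, fun hbad => hbad.2 hg, ⟨u', rfl⟩⟩
      · left
        refine ⟨D.T u x, Language.mem_mul.2 ⟨_, ⟨⟨hu1, hg⟩, hT⟩, u', ?_, rfl⟩⟩
        refine ⟨D.T u' (D.T u x), Language.mem_mul.2 ⟨u', ⟨⟨⟨h1', h2', h3'⟩, hgood'⟩, rfl⟩, [],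
          ⟨rfl, rfl⟩, by simp⟩⟩
    · right
      left
      obtain ⟨hE, hB⟩ := hsp k hk hkS k' hk' hkk
      set q := u.drop (D.c k) ++ u' with hq
      have hql : q.length = u.length - D.c k + u'.length := by rw [hq, List.length_append, hdl]
      have hXq : u ++ u' = u.take (D.c k) ++ q := by
        rw [hq, ← List.append_assoc, List.take_append_drop]
      have htake : ∀ j, (u ++ u').take (D.c k + j) = u.take (D.c k) ++ q.take j := by
        intro j
        rw [hXq, List.take_append, hpl, List.take_of_length_le (by omega), Nat.add_sub_cancel_left]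
      have hWq : ∀ j, D.n ≤ j → j ≤ q.length → (D.Wo ((u ++ u').take (D.c k + j)) ↔ D.Wo (q.take j)) := by
        intro j hj hj2
        rw [htake]
        exact D.hW.loc _ _ (by rw [List.length_take]; omega)
      have hWoq : D.Wo (q.take q.length) := by
        rw [List.take_length, hq]
        exact (D.hW.loc _ _ (by omega)).2 h2'
      obtain ⟨i, hi1, hi2, hi3, hi4, hi5⟩ := exists_block (P := p') (Q := q) D.hW (z := D.z)
        (by omega) le_rfl (by omega) hWoq
      have hil : (p' ++ q.take i).length = D.c k' + i := by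
        rw [List.length_append, List.length_take]; omega
      have hg : D.Good (p' ++ q.take i) := by
        refine D.good hi4 ?_ ?_
        · intro t ht1 ht2 ht3 hw
          rw [hil] at ht3
          have e : (p' ++ q.take i).take t = p' ++ q.take (t - D.c k') := by
            rw [List.take_append, List.take_of_length_le (by omega), hpl', List.take_take,
              min_eq_left (by omega)]
          rw [e] at hw
          have hw2 := (D.hW.loc _ _ (by rw [List.length_take]; omega)).1 hw
          have hw3 := (hWq (t - D.c k') (by omega) (by omega)).2 hw2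
          apply hE
          refine ⟨D.c k + (t - D.c k'), ⟨?_, hw3⟩, by omega, by omega⟩
          rw [List.length_append]; omega
        · intro hbad
          rw [hil] at hbad
          apply hB
          refine ⟨D.c k + i, ⟨⟨?_, (hWq i (by omega) hi1).2 hi3⟩, by omega, ?_⟩, ?_⟩
          · rw [List.length_append]; omega
          · rintro t' ht' ⟨hw1, hw2⟩
            by_contra hcon
            have e : t' = D.c k + (t' - D.c k) := by omega
            rw [e] at hw2
            exact hi5 (t' - D.c k) (by omega) (by omega)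
              ((hWq (t' - D.c k) (by omega) (by omega)).1 hw2)
          · have e : D.c k + i + D.c k' - D.c k - D.p0 = D.c k' + i - D.p0 := by omega
            rw [e]
            exact hbad
      exact ⟨_, hi4, fun hbad => hbad.2 hg, ⟨q.drop i, by rw [List.append_assoc, List.take_append_drop]⟩⟩

end Dat

end Crest.Agent.R320.Joint_540
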