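import Crest.Agent.R320.JointA_680

/-!
# Row 320: concrete instance of `Main_621.Data`, part B (helper680): scheme B
-/

set_option autoImplicit false

namespace Crest.Agent.R320.Joint_680

open Crest.Agent.R320.Hk_851 Crest.Agent.R320.Star_621 Crest.Agent.R320.Two_621
  Crest.Agent.R320.Main_621

variable {α : Type}
variable {Wo : List α → Prop} {n W z N p0 : ℕ} {BadT : ℕ → Prop}

section spoil

open Classical in
/-- bad pairs of the arithmetic mode -/
noncomputable def PB (BadT : ℕ → Prop) (K : ℕ) (x : ℕ → ℕ) (T : ℕ) : Finset (ℕ × ℕ) :=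
  (Finset.range K ×ˢ Finset.range K).filter fun ab => ab.1 ≠ ab.2 ∧ BadT (T + x ab.1 - x ab.2)

open Classical in
/-- bad pairs of the band mode -/
noncomputable def PE (Wo : List α → Prop) (z N K : ℕ) (x : ℕ → ℕ) (X : List α) :
    Finset (ℕ × ℕ) :=
  (Finset.range K ×ˢ Finset.range K).filter fun ab => ab.1 ≠ ab.2 ∧
    ∃ s, s ≤ X.length ∧ Wo (X.take s) ∧ z + x ab.2 ≤ s + x ab.1 + N ∧
      s + x ab.1 < z + N + x ab.2

/-- the ruler is spaced -/
def Sp (N K : ℕ) (x : ℕ → ℕ) : Prop :=
  ∀ a b c d, a < K → b < K → c < K → d < K → a ≠ b → c ≠ d →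
    x a + x d ≤ x b + x c + 2 * N → x b + x c ≤ x a + x d + 2 * N → a = c ∧ b = d

theorem card_PE (h : LW Wo n W) {K L : ℕ} {x : ℕ → ℕ} (hx : Sp N K x) (hL : ∀ k < K, x k ≤ L)
    (hW : 2 * N + 2 * L ≤ W) (X : List α) : (PE Wo z N K x X).card ≤ 1 := by
  classical
  rw [Finset.card_le_one]
  rintro ⟨a, b⟩ h1 ⟨c, d⟩ h2
  simp only [PE, Finset.mem_filter, Finset.mem_product, Finset.mem_range] at h1 h2
  obtain ⟨⟨ha, hb⟩, hab, s, hs, hws, h3, h4⟩ := h1
  obtain ⟨⟨hc, hd⟩, hcd, s', hs', hws', h5, h6⟩ := h2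
  have la := hL a ha
  have lb := hL b hb
  have lc := hL c hc
  have ld := hL d hd
  have e : s = s' := by
    rcases lt_trichotomy s s' with hh | hh | hh
    · have := h.gap X s s' hh hs' hws hws'
      omega
    · exact hh
    · have := h.gap X s' s hh hs hws' hws
      omega
  subst e
  obtain ⟨e1, e2⟩ := hx a b c d ha hb hc hd hab hcd (by omega) (by omega)
  rw [e1, e2]

open Classical in
/-- the wall just before the threshold -/
noncomputable def w1 (Wo : List α → Prop) (z L : ℕ) (X : List α) (t : ℕ) : ℕ :=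
  if h : ∃ s, z ≤ s + L ∧ s < z ∧ Wo (X.take s) then h.choose else t

theorem spoil_mem (h : LW Wo n W) {K L : ℕ} {x : ℕ → ℕ} (hL : ∀ k < K, x k ≤ L)
    (hW : 2 * N + 2 * L ≤ W) (hz : p0 + n + N + L + 1 ≤ z) {X P Q P' : List α} {t k k' : ℕ}
    (hX : X = P ++ Q) (ht : IsT Wo z X t) (hE : IsE Wo X t)
    (hP : P.length = x k + 1) (hP' : P'.length = x k' + 1) (hk : k < K) (hk' : k' < K)
    (hne : k' ≠ k) {t' : ℕ} (ht' : IsT Wo z (P' ++ Q) t')
    (hb : BadX Wo z N p0 BadT (P' ++ Q) t') :
    (k', k) ∈ PE Wo z N K x X ∨ (k', k) ∈ PB BadT K x (w1 Wo z L X t - p0) ∨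
      (k', k) ∈ PB BadT K x (t - p0) ∨ (k', k) ∈ PB BadT K x (X.length - p0) := by
  classical
  have lk := hL k hk
  have lk' := hL k' hk'
  have hlen : X.length = P.length + Q.length := by rw [hX, List.length_append]
  have hlen' : (P' ++ Q).length = P'.length + Q.length := List.length_append
  have ht1 := ht'.1
  have ht2 := ht'.2.1
  -- transport of walls
  have tr : ∀ s, z ≤ s + N → s ≤ (P' ++ Q).length → Wo ((P' ++ Q).take s) →
      Wo (X.take (P.length + (s - P'.length))) := by
    intro s h1 h2 h3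
    rw [hX]
    rw [h.shift P P' Q (by omega) (by omega)]
    have e : P'.length + (s - P'.length) = s := by omega
    rw [e]; exact h3
  rcases hb with ⟨s, h1, h2, h3, h4⟩ | hb
  · left
    have := tr s h3 (by omega) h2
    simp only [PE, Finset.mem_filter, Finset.mem_product, Finset.mem_range]
    exact ⟨⟨hk', hk⟩, hne, P.length + (s - P'.length), by omega, this, by omega, by omega⟩
  · right
    have hw := tr t' (by omega) ht2 ht'.2.2.1
    have hkey : ∀ w, w = P.length + (t' - P'.length) → (k', k) ∈ PB BadT K x (w - p0) := by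
      rintro w rfl
      simp only [PB, Finset.mem_filter, Finset.mem_product, Finset.mem_range]
      refine ⟨⟨hk', hk⟩, hne, ?_⟩
      have e : P.length + (t' - P'.length) - p0 + x k' - x k = t' - p0 := by omega
      rw [e]; exact hb
    rcases lt_trichotomy (P.length + (t' - P'.length)) t with hh | hh | hh
    · left
      apply hkey
      have hlt : P.length + (t' - P'.length) < z := by
        by_contra h5
        exact ht.2.2.2 _ (by omega) hh hw
      have hex : ∃ s, z ≤ s + L ∧ s < z ∧ Wo (X.take s) :=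
        ⟨P.length + (t' - P'.length), by omega, hlt, hw⟩
      rw [w1, dif_pos hex]
      obtain ⟨g1, g2, g3⟩ := hex.choose_spec
      have hzt := ht.1
      have htX := ht.2.1
      rcases lt_trichotomy hex.choose (P.length + (t' - P'.length)) with h5 | h5 | h5
      · have := h.gap X _ _ h5 (by omega) g3 hw
        omega
      · exact h5
      · have := h.gap X _ _ h5 (by omega) hw g3
        omega
    · right; left
      exact hkey t hh.symm
    · right; right
      apply hkey
      by_contra h5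
      exact hE.2.2 _ hh (by omega) hw

end spoil

section B

variable {S : Type} [Monoid S]

/-- monoid of scheme B -/
abbrev Tm (S : Type) : Type := (Function.End (Option (Tok S)))ᵐᵒᵖ

/-- zone product of scheme B -/
noncomputable def th (Wo : List α → Prop) (z p0 : ℕ) (ph : List α → S)
    (lam : List α → Option (Tok S)) (nu1 : List α → Tok S) (X : List α) : Tm S :=
  stepA (aff ph (dA Wo z p0 ph nu1)) (LA p0 ph lam) (RA Wo z p0 ph lam nu1) X

theorem cut_congr {ph : List α → S} {lam : List α → Option (Tok S)} {nu1 : List α → Tok S}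
    {P P1 Y : List α} (hP : P.length = p0) (hP1 : P1.length = p0) (he : ph P = ph P1)
    {v : Tok S} (hc : Cut (LA p0 ph lam) (RA Wo z p0 ph lam nu1) v (P ++ Y)) :
    Cut (LA p0 ph lam) (RA Wo z p0 ph lam nu1) v (P1 ++ Y) := by
  obtain ⟨P2, Q2, τ, h1, h2, h3⟩ := hc
  have h4 : P2.take p0 = P := by
    have := congrArg (List.take p0) h1
    rw [List.take_left' hP, List.take_append_of_le_length h2.1] at this
    exact this.symm
  have h5 : P2 = P ++ P2.drop p0 := by
    rw [← h4, List.take_append_drop]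
  refine ⟨P1 ++ P2.drop p0, Q2, τ, ?_, ⟨by simp; omega, ?_⟩, h3⟩
  · rw [List.append_assoc]
    congr 1
    have h6 : P ++ Y = P ++ (P2.drop p0 ++ Q2) := by
      rw [← List.append_assoc, ← h5]; exact h1
    exact List.append_cancel_left h6
  · rw [List.drop_left' hP1, List.take_left' hP1, ← he, ← h4]
    exact h2.2

theorem th_congr (h : LW Wo n W) {ph : List α → S} (hm : ∀ a b, ph (a ++ b) = ph a * ph b)
    {lam : List α → Option (Tok S)} {nu1 : List α → Tok S} (hz : p0 + n ≤ z)
    {P P1 Y : List α} (hP : P.length = p0) (hP1 : P1.length = p0) (he : ph P = ph P1)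
    (hX : P ++ Y ∈ ZZ Wo z) :
    P1 ++ Y ∈ ZZ Wo z ∧ th Wo z p0 ph lam nu1 (P ++ Y) = th Wo z p0 ph lam nu1 (P1 ++ Y) := by
  classical
  obtain ⟨t, ht, hE⟩ := hX
  have hzt := ht.1
  obtain ⟨j1, j2⟩ := junction h (P1 := P1) ht hE (by omega) (by omega) (by omega)
    (fun s hs h1 h2 => ht.2.2.2 _ (by omega) h2)
  have e : P1.length + (t - P.length) = t := by omega
  rw [e] at j1 j2
  refine ⟨⟨t, j1, j2⟩, ?_⟩
  have haff : ∀ v, aff ph (dA Wo z p0 ph nu1) (P ++ Y) v =
      aff ph (dA Wo z p0 ph nu1) (P1 ++ Y) v := by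
    intro v
    have e1 : ∀ P : List α, P.length = p0 → ((P ++ Y).take t).drop p0 = Y.take (t - p0) := by
      intro P hP
      rw [List.take_append, List.take_of_length_le (by omega), List.drop_left' hP, hP]
    have e2 : ∀ P : List α, P.length = p0 → (P ++ Y).drop t = Y.drop (t - p0) := by
      intro P hP
      rw [List.drop_append, List.drop_eq_nil_of_le (by omega), List.nil_append, hP]
    rw [aff, aff, dA_eq ht, dA_eq j1, e1 P hP, e1 P1 hP1, e2 P hP, e2 P1 hP1, hm, hm, he]
  unfold th
  apply MulOpposite.unop_injective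
  funext o
  rcases o with _ | v
  · rw [stepA_none, stepA_none]
  · by_cases hc : Cut (LA p0 ph lam) (RA Wo z p0 ph lam nu1) v (P ++ Y)
    · have hc' := cut_congr hP hP1 he hc
      rw [stepA_cut hc, stepA_cut hc']
    · have hc' : ¬ Cut (LA p0 ph lam) (RA Wo z p0 ph lam nu1) v (P1 ++ Y) := fun hh =>
        hc (cut_congr hP1 hP he.symm hh)
      rw [stepA_uncut hc, stepA_uncut hc', haff]

open Classical in
noncomputable def thZ (Wo : List α → Prop) (z p0 : ℕ) (ph : List α → S)
    (lam : List α → Option (Tok S)) (nu1 : List α → Tok S) (X : List α) : Tm S :=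
  if X ∈ ZZ Wo z then th Wo z p0 ph lam nu1 X else 1

open Classical in
/-- what the text behind `p0` does -/
noncomputable def yy (Wo : List α → Prop) (z p0 : ℕ) (ph : List α → S)
    (lam : List α → Option (Tok S)) (nu1 : List α → Tok S) (Y : List α) : S → Tm S := fun g =>
  if h : ∃ X : List α, X.length = p0 ∧ ph X = g then thZ Wo z p0 ph lam nu1 (h.choose ++ Y)
  else 1

theorem th_eq (h : LW Wo n W) {ph : List α → S} (hm : ∀ a b, ph (a ++ b) = ph a * ph b)
    {lam : List α → Option (Tok S)} {nu1 : List α → Tok S} (hz : p0 + n ≤ z)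
    {P Y : List α} (hP : P.length = p0) (hX : P ++ Y ∈ ZZ Wo z) :
    th Wo z p0 ph lam nu1 (P ++ Y) = yy Wo z p0 ph lam nu1 Y (ph P) := by
  have hex : ∃ X : List α, X.length = p0 ∧ ph X = ph P := ⟨P, hP, rfl⟩
  rw [yy, dif_pos hex]
  obtain ⟨g1, g2⟩ := hex.choose_spec
  obtain ⟨k1, k2⟩ := th_congr (lam := lam) (nu1 := nu1) h hm hz hP g1 g2.symm hX
  rw [thZ, if_pos k1, k2]

/-- scheme B noise -/
noncomputable def dB (Wo : List α → Prop) (z p0 : ℕ) (ph : List α → S)
    (lam : List α → Option (Tok S)) (nu1 : List α → Tok S)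
    (nuB : List α → (S → Tm S) → Tok (Tm S)) (X : List α) : Tok (Tm S) :=
  nuB (X.take p0) (yy Wo z p0 ph lam nu1 (X.drop p0))

noncomputable def psiB (Wo : List α → Prop) (z p0 : ℕ) (ph : List α → S)
    (lam : List α → Option (Tok S)) (nu1 : List α → Tok S)
    (nuB : List α → (S → Tm S) → Tok (Tm S)) : List α → Tok (Tm S) → Tok (Tm S) :=
  aff (th Wo z p0 ph lam nu1) (dB Wo z p0 ph lam nu1 nuB)

def LB (K : ℕ) (x : ℕ → ℕ) (lamB : ℕ → List α → Option (Tok (Tm S))) (v : Tok (Tm S)) :
    Language α :=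
  {P | ∃ k < K, P.length = x k + 1 ∧ lamB k P = some v}

/-- bad tops -/
def TB (Wo : List α → Prop) (z N p0 : ℕ) (BadT : ℕ → Prop) : Language α :=
  {X | IsT Wo z X X.length ∧ BadX Wo z N p0 BadT X X.length}

def RB (Wo : List α → Prop) (z N p0 : ℕ) (BadT : ℕ → Prop) (K : ℕ) (x : ℕ → ℕ)
    (lamB : ℕ → List α → Option (Tok (Tm S))) (psi : List α → Tok (Tm S) → Tok (Tm S))
    (τ : Tok (Tm S)) : Language α :=
  {Q | ∀ v, ∀ P ∈ LB (S := S) K x lamB v, Wo (P ++ Q) ∧ z ≤ (P ++ Q).length ∧
    P ++ Q ∉ TB Wo z N p0 BadT ∧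
    (¬ ∃ X ∈ ZC Wo z N p0 BadT, ∃ y, y ≠ [] ∧ P ++ Q = X ++ y) ∧
    (P ++ Q ∈ ZC Wo z N p0 BadT → psi (P ++ Q) v = τ)}

theorem soundB {K : ℕ} {x : ℕ → ℕ} {lamB : ℕ → List α → Option (Tok (Tm S))}
    {psi : List α → Tok (Tm S) → Tok (Tm S)} :
    Sound (ZC Wo z N p0 BadT) psi (LB K x lamB) (RB Wo z N p0 BadT K x lamB psi) := by
  refine ⟨?_, ?_⟩
  · rintro v ⟨k, hk, h1, h2⟩
    simp at h1
  · intro ω τ P Q z' a b hP hQ hz he
    obtain ⟨h1, h2, h3, h4, h5⟩ := hQ ω P hP
    rcases lt_trichotomy z'.length (P ++ Q).length with hl | hl | hl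
    · exfalso
      apply h4
      refine ⟨z', hz, (P ++ Q).drop z'.length, ?_, ?_⟩
      · intro hn
        have := congrArg List.length hn
        rw [List.length_drop, List.length_nil] at this
        omega
      · have := congrArg (List.take z'.length) he
        rw [List.take_left' rfl, List.take_append_of_le_length hl.le] at this
        conv_lhs => rw [← List.take_append_drop z'.length (P ++ Q)]
        rw [this]
    · have e : P ++ Q = z' := (List.append_inj he hl.symm).1
      exact ⟨e, by rw [← e, h5 (e ▸ hz)]⟩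
    · exfalso
      have e : z'.take (P ++ Q).length = P ++ Q := by
        have := congrArg (List.take (P ++ Q).length) he
        rw [List.take_left' rfl, List.take_append_of_le_length hl.le] at this
        exact this.symm
      obtain ⟨t, ht, hE, hb⟩ := hz
      rcases lt_trichotomy t (P ++ Q).length with h6 | h6 | h6
      · exact hE.2.2 _ h6 hl (by rw [e]; exact h1)
      · subst h6
        apply h3
        refine ⟨ht.of_take le_rfl (by rw [e, List.take_length]), hb.of_take
          (by rw [e, List.take_length])⟩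
      · exact ht.2.2.2 _ h2 h6 (by rw [e]; exact h1)

end B

end Crest.Agent.R320.Joint_680
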