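import Crest.Agent.R320.Exact_808

/-!
# Row 320: the exact gadget with redundancy, all universes (helper844)
-/

set_option autoImplicit false

namespace Crest.Agent.R320.JointG_844

universe u

theorem gadget2 (S V : Type*) [Monoid S] [Finite S] [AddCommGroup V] [Finite V] (R : ℕ)
    (hR : 0 < R) :
    ∃ K : ℕ, ∀ (α : Type u) (φ : List α → S), (∀ u v, φ (u ++ v) = φ u * φ v) →
      ∀ (act : V → S → V) (c : ℕ → ℕ) (p0 : ℕ), (∀ i j, i < j → j < K → c i < c j) →
      (∀ j, j < K → c j ≤ p0) →
      ∃ (lam rho : List α → Option V) (nu : List α → V),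
        (∀ (p q : List α) (v b : V), p.length + q.length = p0 → lam p = some v →
          rho q = some b → b = act v (φ (p ++ q)) + nu (p ++ q)) ∧
        (∀ (u : List α) (v : V), u.length = p0 → ∃ I : Finset ℕ, R ≤ I.card ∧ ∀ j ∈ I, j < K ∧
          lam (u.take (c j)) = some v ∧ (rho (u.drop (c j))).isSome = true) := by
  classical
  obtain ⟨m, k, h⟩ := Exact808.exact_gadget S V
  refine ⟨m * (k * R), ?_⟩
  intro α φ hφ act c p0 hc hp
  have hcle : ∀ i j, i ≤ j → j < m * (k * R) → c i ≤ c j := by
    intro i j hij hj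
    rcases Nat.lt_or_eq_of_le hij with h1 | h1
    · exact (hc i j h1 hj).le
    · rw [h1]
  have hinj : ∀ i j, i < m * (k * R) → j < m * (k * R) → c i = c j → i = j := by
    intro i j hi hj hij
    rcases lt_trichotomy i j with h1 | h1 | h1
    · have := hc i j h1 hj; omega
    · exact h1
    · have := hc j i h1 hi; omega
  have hm : 0 < m := by
    by_contra h0
    have h0' : m = 0 := by omega
    subst h0'
    obtain ⟨lam, hl⟩ := h α φ hφ (fun _ => 0) (fun _ => none) (fun _ _ _ => le_rfl) rfl
      (by intro x i c h; cases h)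
    obtain ⟨rho, nu, -, h2⟩ := hl act
    obtain ⟨i, hi, -⟩ := h2 [] 0 rfl
    omega
  by_cases hk : k = 0
  · exfalso
    subst hk
    obtain ⟨lam, hl⟩ := h α φ hφ (fun _ => 0) (fun _ => none) (fun _ _ _ => le_rfl) rfl
      (by intro x i c h; cases h)
    obtain ⟨rho, nu, -, h2⟩ := hl act
    obtain ⟨i, -, c', -⟩ := h2 [] 0 rfl
    exact c'.elim0
  have hk0 : 0 < k := Nat.pos_of_ne_zero hk
  let B : ℕ → ℕ := fun i => if i = 0 then 0 else if i < m then c (i * (k * R)) else p0
  let ctx : ℕ → Option (ℕ × Fin k) := fun x =>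
    if hx : ∃ j, j < m * (k * R) ∧ c j = x then
      some (hx.choose / (k * R), ⟨(hx.choose / R) % k, Nat.mod_lt _ hk0⟩) else none
  have hkR : 0 < k * R := Nat.mul_pos hk0 hR
  have hctx : ∀ j, j < m * (k * R) →
      ctx (c j) = some (j / (k * R), ⟨(j / R) % k, Nat.mod_lt _ hk0⟩) := by
    intro j hj
    have hx : ∃ j', j' < m * (k * R) ∧ c j' = c j := ⟨j, hj, rfl⟩
    have he : hx.choose = j := hinj _ _ hx.choose_spec.1 hj hx.choose_spec.2
    simp only [ctx, dif_pos hx, he]
  have hB0 : B 0 = 0 := by simp [B]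
  have hBm : B m = p0 := by simp [B, hm.ne']
  have hBmono : Monotone B := by
    apply monotone_nat_of_le_succ
    intro i
    simp only [B]
    by_cases hi : i = 0
    · simp [hi]
    · rw [if_neg hi, if_neg (Nat.succ_ne_zero i)]
      by_cases h1 : i + 1 < m
      · rw [if_pos (by omega), if_pos h1]
        refine hcle _ _ (Nat.mul_le_mul_right _ (Nat.le_succ i)) ?_
        exact Nat.mul_lt_mul_of_pos_right h1 hkR
      · rw [if_neg h1]
        by_cases h2 : i < m
        · rw [if_pos h2]
          exact hp _ (Nat.mul_lt_mul_of_pos_right h2 hkR)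
        · rw [if_neg h2]
  obtain ⟨lam, hl⟩ := h α φ hφ B ctx hBmono hB0 (by
    intro x i c' hx
    by_cases hex : ∃ j, j < m * (k * R) ∧ c j = x
    · obtain ⟨j, hj, rfl⟩ := hex
      rw [hctx j hj] at hx
      simp only [Option.some.injEq, Prod.mk.injEq] at hx
      obtain ⟨rfl, -⟩ := hx
      have h1 : j / (k * R) < m := Nat.div_lt_of_lt_mul (by rw [Nat.mul_comm]; exact hj)
      refine ⟨h1, ?_, ?_⟩
      · simp only [B]
        by_cases h0 : j / (k * R) = 0
        · rw [if_pos h0]; exact Nat.zero_le _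
        · rw [if_neg h0, if_pos h1]
          exact hcle _ _ (Nat.div_mul_le_self _ _) hj
      · simp only [B]
        rw [if_neg (Nat.succ_ne_zero _)]
        by_cases h2 : j / (k * R) + 1 < m
        · rw [if_pos h2]
          refine hcle _ _ ?_ (Nat.mul_lt_mul_of_pos_right h2 hkR)
          have := Nat.lt_div_mul_add (a := j) hkR
          rw [Nat.add_mul, Nat.one_mul]
          omega
        · rw [if_neg h2]
          exact hp _ hj
    · simp only [ctx, dif_neg hex] at hx
      cases hx)
  obtain ⟨rho, nu, h1, h2⟩ := hl act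
  refine ⟨lam, rho, nu, ?_, ?_⟩
  · intro p q v b hpq
    exact h1 p q v b (by rw [hBm]; exact hpq)
  · intro u v hu
    obtain ⟨i, hi, c', h3⟩ := h2 u v (by rw [hBm]; exact hu)
    refine ⟨(Finset.range R).image (fun s => i * (k * R) + (c'.1 * R + s)), ?_, ?_⟩
    · rw [Finset.card_image_of_injective _ (fun a b hab => by simpa using hab), Finset.card_range]
    · intro j hj
      rw [Finset.mem_image] at hj
      obtain ⟨s, hs, rfl⟩ := hj
      rw [Finset.mem_range] at hs
      have hc2 : c'.1 * R + s < k * R := by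
        have : (c'.1 + 1) * R ≤ k * R := Nat.mul_le_mul_right _ c'.2
        rw [Nat.add_mul, Nat.one_mul] at this
        omega
      have hlt : i * (k * R) + (c'.1 * R + s) < m * (k * R) := by
        have : (i + 1) * (k * R) ≤ m * (k * R) := Nat.mul_le_mul_right _ hi
        rw [Nat.add_mul, Nat.one_mul] at this
        omega
      have e1 : (i * (k * R) + (c'.1 * R + s)) / (k * R) = i := by
        rw [Nat.add_comm, Nat.add_mul_div_right _ _ hkR, Nat.div_eq_of_lt hc2, Nat.zero_add]
      have e2 : (i * (k * R) + (c'.1 * R + s)) / R % k = c'.1 := by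
        have : i * (k * R) + (c'.1 * R + s) = s + (c'.1 + i * k) * R := by ring
        rw [this, Nat.add_mul_div_right _ _ hR, Nat.div_eq_of_lt hs, Nat.zero_add,
          Nat.add_mul_mod_self_right, Nat.mod_eq_of_lt c'.2]
      refine ⟨hlt, ?_⟩
      apply h3
      rw [hctx _ hlt]
      simp only [e1, e2]

end Crest.Agent.R320.JointG_844
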