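import Crest.Agent.R320.JointA_844
import Crest.Agent.R320.JointG_844

/-!
# Row 320: completeness of both schemes, semantic right labels (helper844)
-/

set_option autoImplicit false

namespace Crest.Agent.R320.Joint_844

open Crest.Agent.R320.Hk_851 Crest.Agent.R320.Code110 Crest.Agent.R320.Top5_110
open Crest.Agent.R320.FewWalls_228 Crest.Agent.R320.FewVal_228

universe u v

section
variable {α : Type u} {M : Type*} [Monoid M] {V : Type v} [AddCommGroup V]

/-- the zone map -/
def TT (φ : List α → M) (act : V → M → V) (nu2 nu1 : List α → V) (p0 : ℕ) (w : List α) (x : V) : V :=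
  act (act x (φ (w.take p0)) + nu2 (w.take p0)) (φ (w.drop p0)) + nu1 (w.drop p0)

def L1 (φ : List α → M) (act : V → M → V) (nu2 : List α → V) (lam : List α → Option V) (p0 : ℕ)
    (x : V) : Language α :=
  {P | ∃ U p, P = U ++ p ∧ U.length = p0 ∧ lam p = some (act x (φ U) + nu2 U)}

def L2 (lam2 : List α → Option V) (c : ℕ → ℕ) (K : ℕ) (x : V) : Language α :=
  {P | ∃ j, j < K ∧ P.length = c j ∧ lam2 P = some x}

/-- bad blocks -/
def Bd (n z p0 N1 : ℕ) (S : Set (List α)) (BadT : ℕ → Prop) (u : List α) : Prop :=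
  (∃ t, Ew n S u t ∧ z ≤ t + N1 ∧ t ≤ z + N1) ∨ BadT (u.length - p0)

def BB (n z p0 N1 : ℕ) (S : Set (List α)) (BadT : ℕ → Prop) : Language α :=
  {u | u ∈ XX n z S ∧ Bd n z p0 N1 S BadT u}

variable {φ : List α → M} {act : V → M → V} {nu2 nu1 : List α → V} {lam rho lam2 rho2 : List α → Option V}
  {n z p0 N1 La : ℕ} {S : Set (List α)} {BadT : ℕ → Prop}

theorem C1 (hlam : ∀ p v, lam p = some v → p.length ≤ N1)
    (hsound : ∀ p q v r, lam p = some v → rho q = some r → La ≤ q.length →
      r = act v (φ (p ++ q)) + nu1 (p ++ q))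
    (hcomp : ∀ u, La ≤ u.length → ¬ BadT u.length → ∀ v, ∃ p q, p ++ q = u ∧ lam p = some v ∧
      (rho q).isSome = true)
    (hz : p0 + N1 + La + n + N1 + 1 ≤ z) {u : List α} (hu : u ∈ XX n z S)
    (hb : u ∉ BB n z p0 N1 S BadT) (x : V) :
    ∃ p q y, u = p ++ q ∧ p ∈ L1 φ act nu2 lam p0 x ∧
      q ∈ Rsem (XX n z S) (XX n z S) (TT φ act nu2 nu1 p0) 0 (L1 φ act nu2 lam p0) y := by
  have hul : z ≤ u.length := hu.1
  have hband : ∀ t, Ew n S u t → z ≤ t + N1 → t ≤ z + N1 → False := fun t h1 h2 h3 =>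
    hb ⟨hu, Or.inl ⟨t, h1, h2, h3⟩⟩
  have hul2 : z + N1 < u.length := by
    by_contra hc
    exact hband _ hu.2.1 (by omega) (by omega)
  have hBT : ¬ BadT (u.drop p0).length := by
    rw [List.length_drop]
    exact fun h => hb ⟨hu, Or.inr h⟩
  have hUl : (u.take p0).length = p0 := by rw [List.length_take]; omega
  obtain ⟨p', q, hpq, hp', hq⟩ := hcomp (u.drop p0) (by rw [List.length_drop]; omega) hBT
    (act x (φ (u.take p0)) + nu2 (u.take p0))
  obtain ⟨r, hr⟩ := Option.isSome_iff_exists.1 hq
  have hp'l := hlam _ _ hp'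
  have hlen : p'.length + q.length = u.length - p0 := by
    rw [← List.length_append, hpq, List.length_drop]
  have hudec : u = (u.take p0 ++ p') ++ q := by
    rw [List.append_assoc, hpq, List.take_append_drop]
  refine ⟨u.take p0 ++ p', q, r, hudec, ⟨u.take p0, p', rfl, hUl, hp'⟩, ?_⟩
  rintro x' P' ⟨U', p'', rfl, hU', hp''⟩
  left
  have hp''l := hlam _ _ hp''
  have hPl : (u.take p0 ++ p').length = p0 + p'.length := by rw [List.length_append, hUl]
  have hPl' : (U' ++ p'').length = p0 + p''.length := by rw [List.length_append, hU']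
  have hmem : (U' ++ p'') ++ q ∈ XX n z S := by
    refine ⟨by rw [List.length_append, hPl']; omega, ?_, ?_⟩
    · rw [List.length_append, Ew_right (by omega)]
      have h1 := hu.2.1
      rw [hudec, List.length_append, Ew_right (by omega)] at h1
      exact h1
    · intro t ht htl hE
      rw [List.length_append, hPl'] at htl
      obtain ⟨s, rfl⟩ : ∃ s, t = (U' ++ p'').length + s := ⟨t - (U' ++ p'').length, by omega⟩
      rw [Ew_right (by omega)] at hE
      have hE' : Ew n S u ((u.take p0 ++ p').length + s) := by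
        rw [hudec, ← hudec]
        conv_lhs => skip
        rw [hudec]
        have : (List.take p0 ((u.take p0 ++ p') ++ q) ++ p').length = (u.take p0 ++ p').length := by
          rw [← hudec]
        rw [this, Ew_right (by omega)]
        exact hE
      rw [hPl'] at htl ht
      rw [hPl] at hE'
      rcases Nat.lt_or_ge (p0 + p'.length + s) z with h1 | h1
      · exact hband _ hE' (by omega) (by omega)
      · exact hu.2.2 _ h1 (by omega) hE'
  have hT : TT φ act nu2 nu1 p0 ((U' ++ p'') ++ q) x' = r := by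
    unfold TT
    have e1 : ((U' ++ p'') ++ q).take p0 = U' := by
      rw [List.append_assoc]; exact List.take_left' hU'
    have e2 : ((U' ++ p'') ++ q).drop p0 = p'' ++ q := by
      rw [List.append_assoc]; exact List.drop_left' hU'
    rw [e1, e2]
    exact (hsound p'' q _ r hp'' hr (by omega)).symm
  refine ⟨r, Language.mem_mul.2 ⟨(U' ++ p'') ++ q, ⟨hmem, hT⟩, [], ⟨rfl, rfl⟩, ?_⟩⟩
  rw [List.append_nil]

end

end Crest.Agent.R320.Joint_844
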