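import Crest.Agent.R320.JointA_91

/-!
# Row 320: counting the spoiled elements of the ruler (helper91)
-/

set_option autoImplicit false

namespace Crest.Agent.R320.JointB_91

open Crest.RegLang Crest.Agent.R320.Hk_851 Crest.Agent.R320.Asm_505 Crest.Agent.R320.Half1_91
  Crest.Agent.R320.JointA_91

variable {α : Type*} {S V : Type*} [Monoid S] [AddCommGroup V] {d : Dat α S V}

theorem wall_sep {W : ℕ} (sep : ∀ P D : List α, d.Wo P → d.Wo (P ++ D) → D ≠ [] → W < D.length)
    {w : List α} {s t : ℕ} (hs : d.Wo (w.take s)) (ht : d.Wo (w.take t)) (hst : s < t)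
    (htl : t ≤ w.length) : s + W < t := by
  obtain ⟨m, rfl⟩ : ∃ m, t = s + m := ⟨t - s, by omega⟩
  rw [List.take_add] at ht
  have hl : ((w.drop s).take m).length = m := by
    rw [List.length_take, List.length_drop]; omega
  have := sep _ _ hs ht (by intro e; rw [e] at hl; simp at hl; omega)
  omega

/-- a wall position of the left-changed text is a wall position of the text -/
theorem wall_move (h : d.Ok) {w p' : List α} {a s : ℕ} (ha : a ≤ w.length)
    (hn : p'.length + d.n ≤ s) (hs : s ≤ p'.length + (w.length - a)) :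
    d.Wo ((p' ++ w.drop a).take s) ↔ d.Wo (w.take (s + a - p'.length)) := by
  obtain ⟨m, rfl⟩ : ∃ m, s = p'.length + m := ⟨s - p'.length, by omega⟩
  have e1 : (p' ++ w.drop a).take (p'.length + m) = p' ++ (w.drop a).take m := by
    rw [List.take_append, List.take_of_length_le (by omega)]
    simp
  have e2 : w.take (p'.length + m + a - p'.length) = w.take a ++ (w.drop a).take m := by
    rw [← List.take_add]
    congr 1
    omega
  have hl : d.n ≤ ((w.drop a).take m).length := by
    rw [List.length_take, List.length_drop]; omega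
  rw [e1, e2, h.loc _ _ hl, h.loc _ _ hl]

theorem spoiled_data (h : d.Ok) {Nc : ℕ} {Bt : ℕ → Prop}
    (hgad : ∀ u : List α, Nc ≤ u.length → ¬ Bt u.length → ∀ v, ∃ p q, p ++ q = u ∧
      d.lam p = some v ∧ (d.rho q).isSome)
    (hz : Nc + d.p0 ≤ d.z0) {z1 z2 : List α} (h1 : z1 ∈ UU d) (h2 : z2 ∈ UU d)
    {k : ℕ} (hk : k < d.K) (hs : Spoiled d (z1 ++ z2) k) :
    ∃ k' < d.K, k' ≠ k ∧
      ((∃ s ≤ (z1 ++ z2).length, d.Wo ((z1 ++ z2).take s) ∧
          d.z0 + d.c k ≤ s + d.c k' + d.N ∧ s + d.c k' < d.z0 + d.N + d.c k) ∨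
       (∃ s ≤ (z1 ++ z2).length, d.Wo ((z1 ++ z2).take s) ∧ d.z0 + d.c k ≤ s + d.c k' ∧
          (∀ t < s, d.z0 + d.c k ≤ t + d.c k' → ¬ d.Wo ((z1 ++ z2).take t)) ∧
          Bt (s + d.c k' - d.c k - d.p0))) := by
  obtain ⟨k', hk', hne, p', hp', z, hz', hc⟩ := hs
  refine ⟨k', hk', hne, ?_⟩
  set w := z1 ++ z2 with hw
  have hck := h.cle k hk
  have hck' := h.cle k' hk'
  have hbig := h.big
  have l1 := h1.2.1
  have l2 := h2.2.1
  have hwl : w.length = z1.length + z2.length := by rw [hw, List.length_append]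
  have hWw : d.Wo w := by
    rw [hw]; exact (h.loc _ _ (by omega)).2 h2.1
  have hU := Bd_sub hz'
  obtain ⟨u1, u2, u3⟩ := hU
  have hql : (p' ++ w.drop (d.c k)).length = d.c k' + (w.length - d.c k) := by
    rw [List.length_append, List.length_drop, hp']
  -- `z` is a prefix of the text
  have hpre : z <+: p' ++ w.drop (d.c k) := by
    rcases hc with hc | hc
    · exact hc
    · obtain ⟨y, rfl⟩ := hc
      by_cases hy : y = []
      · subst hy; simp
      · exfalso
        have hy' : 0 < y.length := List.length_pos_iff.2 hy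
        refine u3 (p' ++ w.drop (d.c k)).length (by omega)
          (by rw [List.length_append (as := p' ++ w.drop (d.c k))]; omega) ?_
        rw [List.take_left' rfl]
        have := (wall_move h (w := w) (p' := p') (a := d.c k)
          (s := (p' ++ w.drop (d.c k)).length) (by omega) (by omega) (by omega)).2 (by
            rw [List.take_of_length_le (by omega)]
            exact hWw)
        rw [List.take_length] at this
        exact this
  have hzl : z.length ≤ d.c k' + (w.length - d.c k) := by
    rw [← hql]; exact hpre.length_le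
  have htk : ∀ t ≤ z.length, z.take t = (p' ++ w.drop (d.c k)).take t := by
    intro t ht
    obtain ⟨y, hy⟩ := hpre
    rw [← hy, List.take_append_of_le_length ht]
  have hmv : ∀ t, d.c k' + d.n ≤ t → t ≤ z.length →
      (d.Wo (z.take t) ↔ d.Wo (w.take (t + d.c k - d.c k'))) := by
    intro t ht1 ht2
    rw [htk t ht2, wall_move h (by omega) (by omega) (by omega), hp']
  have hWz : d.Wo (w.take (z.length + d.c k - d.c k')) := by
    refine (hmv z.length (by omega) le_rfl).1 ?_
    rw [List.take_length]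
    exact u1
  by_cases hE : ∀ t, d.z0 ≤ t + d.N → t < d.z0 → ¬ d.Wo (z.take t)
  · by_cases hL : d.z0 + d.N ≤ z.length
    · right
      refine ⟨z.length + d.c k - d.c k', by omega, hWz, by omega, ?_, ?_⟩
      · intro t ht1 ht2 hWt
        refine u3 (t + d.c k' - d.c k) (by omega) (by omega) ?_
        refine (hmv _ (by omega) (by omega)).2 ?_
        have : t + d.c k' - d.c k + d.c k - d.c k' = t := by omega
        rw [this]
        exact hWt
      · by_contra hb
        obtain ⟨-, x, hx⟩ := hz'
        apply hx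
        refine compl1 h ⟨u1, u2, u3⟩ hE hL (fun v => ?_) x
        refine hgad _ (by rw [List.length_drop]; omega) ?_ v
        rw [List.length_drop]
        have : z.length + d.c k - d.c k' + d.c k' - d.c k - d.p0 = z.length - d.p0 := by omega
        rw [this] at hb
        exact hb
    · left
      refine ⟨z.length + d.c k - d.c k', by omega, hWz, by omega, by omega⟩
  · left
    push Not at hE
    obtain ⟨t, ht1, ht2, ht3⟩ := hE
    refine ⟨t + d.c k - d.c k', by omega, (hmv t (by omega) (by omega)).1 ht3, by omega, by omega⟩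

open Classical in
theorem count (h : d.Ok) {W : ℕ}
    (sep : ∀ P D : List α, d.Wo P → d.Wo (P ++ D) → D ≠ [] → W < D.length)
    (hW : 2 * (d.N + d.p0) ≤ W)
    {Nc T0 C0 : ℕ} {Bt : ℕ → Prop}
    (hgad : ∀ u : List α, Nc ≤ u.length → ¬ Bt u.length → ∀ v, ∃ p q, p ++ q = u ∧
      d.lam p = some v ∧ (d.rho q).isSome)
    (hz : Nc + d.p0 ≤ d.z0) (hz2 : T0 + 2 * d.p0 ≤ d.z0)
    (res : ∀ a < d.K, ∀ b < d.K, ∀ a' < d.K, ∀ b' < d.K, a ≠ b → a' ≠ b' →
      d.c a + d.c b' < d.c a' + d.c b + 2 * d.N → d.c a' + d.c b < d.c a + d.c b' + 2 * d.N →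
      a = a' ∧ b = b')
    (cnt : ∀ T, T0 ≤ T → (((Finset.range d.K ×ˢ Finset.range d.K).filter
      (fun ab => ab.1 ≠ ab.2 ∧ Bt (T + d.p0 + d.c ab.1 - d.c ab.2 - d.p0))).card ≤ C0))
    {z1 z2 : List α} (h1 : z1 ∈ UU d) (h2 : z2 ∈ UU d) :
    ((Finset.range d.K).filter (fun k => Spoiled d (z1 ++ z2) k)).card ≤ 1 + 2 * C0 := by
  set w := z1 ++ z2 with hw
  have hbig := h.big
  -- the two candidates for the end
  let A : ℕ → Prop := fun s => s ≤ w.length ∧ d.Wo (w.take s) ∧ d.z0 ≤ s + d.p0
  let s1 := sInf {s | A s}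
  let s2 := sInf {s | A s ∧ s1 < s}
  let JE : Finset ℕ := (Finset.range d.K).filter (fun k => ∃ k' < d.K, k' ≠ k ∧
    ∃ s ≤ w.length, d.Wo (w.take s) ∧
          d.z0 + d.c k ≤ s + d.c k' + d.N ∧ s + d.c k' < d.z0 + d.N + d.c k)
  let JB : ℕ → Finset ℕ := fun T => (Finset.range d.K).filter (fun k => ∃ k' < d.K, k' ≠ k ∧
    Bt (T + d.p0 + d.c k' - d.c k - d.p0))
  have hJE : JE.card ≤ 1 := by
    rw [Finset.card_le_one]
    intro a ha b hb
    obtain ⟨ha, a', ha', hna, s, hs1, hs2, hs3, hs4⟩ := Finset.mem_filter.1 ha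
    obtain ⟨hb, b', hb', hnb, t, ht1, ht2, ht3, ht4⟩ := Finset.mem_filter.1 hb
    rw [Finset.mem_range] at ha hb
    have c1 := h.cle a ha
    have c2 := h.cle b hb
    have c3 := h.cle a' ha'
    have c4 := h.cle b' hb'
    have hst : s = t := by
      rcases lt_trichotomy s t with hlt | heq | hlt
      · have := wall_sep sep hs2 ht2 hlt ht1
        omega
      · exact heq
      · have := wall_sep sep ht2 hs2 hlt hs1
        omega
    subst hst
    exact (res a' ha' a ha b' hb' b hb hna hnb (by omega) (by omega)).2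
  have hJB : ∀ T, T0 ≤ T → (JB T).card ≤ C0 := by
    intro T hT
    refine le_trans ?_ (cnt T hT)
    have : JB T ⊆ ((Finset.range d.K ×ˢ Finset.range d.K).filter
      (fun ab => ab.1 ≠ ab.2 ∧ Bt (T + d.p0 + d.c ab.1 - d.c ab.2 - d.p0))).image Prod.snd := by
      intro k hk
      obtain ⟨hk, k', hk', hne, hb⟩ := Finset.mem_filter.1 hk
      refine Finset.mem_image.2 ⟨(k', k), ?_, rfl⟩
      refine Finset.mem_filter.2 ⟨?_, hne, hb⟩
      exact Finset.mem_product.2 ⟨Finset.mem_range.2 hk', hk⟩
    exact le_trans (Finset.card_le_card this) Finset.card_image_le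
  have hsub : (Finset.range d.K).filter (fun k => Spoiled d w k) ⊆
      JE ∪ (JB (s1 - d.p0) ∪ JB (s2 - d.p0)) := by
    intro k hk
    obtain ⟨hk, hsp⟩ := Finset.mem_filter.1 hk
    have hk2 := Finset.mem_range.1 hk
    obtain ⟨k', hk', hne, hd⟩ := spoiled_data h hgad hz h1 h2 hk2 hsp
    have c1 := h.cle k hk2
    have c3 := h.cle k' hk'
    rcases hd with hE | ⟨s, hs1, hs2, hs3, hs4, hs5⟩
    · exact Finset.mem_union_left _ (Finset.mem_filter.2 ⟨hk, k', hk', hne, hE⟩)
    · refine Finset.mem_union_right _ ?_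
      have hAs : A s := ⟨hs1, hs2, by omega⟩
      have hA1 : A s1 := Nat.sInf_mem (s := {s | A s}) ⟨s, hAs⟩
      have hle : s1 ≤ s := Nat.sInf_le (s := {s | A s}) hAs
      rcases Nat.lt_or_ge s1 s with hlt | hge
      · refine Finset.mem_union_right _ (Finset.mem_filter.2 ⟨hk, k', hk', hne, ?_⟩)
        have hA2 : A s2 ∧ s1 < s2 := Nat.sInf_mem (s := {s | A s ∧ s1 < s}) ⟨s, hAs, hlt⟩
        have hle2 : s2 ≤ s := Nat.sInf_le (s := {s | A s ∧ s1 < s}) ⟨hAs, hlt⟩
        have hsep := wall_sep sep hA1.2.1 hA2.1.2.1 hA2.2 hA2.1.1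
        have heq : s = s2 := by
          by_contra hne2
          have h1' := hA1.2.2
          exact hs4 s2 (by omega) (by omega) hA2.1.2.1
        rw [← heq]
        have : s - d.p0 + d.p0 + d.c k' - d.c k - d.p0 = s + d.c k' - d.c k - d.p0 := by omega
        rw [this]
        exact hs5
      · have heq : s = s1 := by omega
        refine Finset.mem_union_left _ (Finset.mem_filter.2 ⟨hk, k', hk', hne, ?_⟩)
        rw [← heq]
        have : s - d.p0 + d.p0 + d.c k' - d.c k - d.p0 = s + d.c k' - d.c k - d.p0 := by omega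
        rw [this]
        exact hs5
  -- sizes
  by_cases hB : JB (s1 - d.p0) ∪ JB (s2 - d.p0) = ∅ ∨ True
  · rcases Classical.em (∃ s, A s) with ⟨s, hs⟩ | hno
    · have hA1 : A s1 := Nat.sInf_mem (s := {s | A s}) ⟨s, hs⟩
      have q1 := hJB (s1 - d.p0) (by have := hA1.2.2; omega)
      have q2 : (JB (s2 - d.p0)).card ≤ C0 ∨ ¬ ∃ s, A s ∧ s1 < s := by
        by_cases he : ∃ s, A s ∧ s1 < s
        · left
          obtain ⟨s, hs⟩ := he
          have hA2 : A s2 ∧ s1 < s2 := Nat.sInf_mem (s := {s | A s ∧ s1 < s}) ⟨s, hs⟩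
          exact hJB (s2 - d.p0) (by have := hA2.1.2.2; omega)
        · exact Or.inr he
      rcases q2 with q2 | q2
      · refine le_trans (Finset.card_le_card hsub) ?_
        refine le_trans (Finset.card_union_le _ _) ?_
        have := Finset.card_union_le (JB (s1 - d.p0)) (JB (s2 - d.p0))
        omega
      · -- no second wall: the second set is not needed
        exfalso
        -- the end of the text is a wall far right
        have l1 := h1.2.1
        have l2 := h2.2.1
        have hwl : w.length = z1.length + z2.length := by rw [hw, List.length_append]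
        have hW1 : A z1.length := by
          refine ⟨by omega, ?_, by omega⟩
          rw [hw, List.take_left' rfl]
          exact h1.1
        have hW2 : A w.length := by
          refine ⟨le_rfl, ?_, by omega⟩
          rw [List.take_length, hw]
          exact (h.loc _ _ (by omega)).2 h2.1
        have h3 : s1 ≤ z1.length := Nat.sInf_le (s := {s | A s}) hW1
        have hp := h.p0pos
        exact q2 ⟨w.length, hW2, by omega⟩
    · exfalso
      apply hno
      have l1 := h1.2.1
      refine ⟨z1.length, ?_, ?_, by omega⟩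
      · rw [hw, List.length_append]; omega
      · rw [hw, List.take_left' rfl]
        exact h1.1
  · exact absurd (Or.inr trivial) hB

end Crest.Agent.R320.JointB_91
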