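import Crest.Agent.R320.JointA_972
import Crest.Agent.R320.WallU_228
import Crest.Agent.R320.Two_621
import Crest.Agent.R320.Reg_852

/-!
# Row 320: heights of the one-zone languages on ALL words, reading, reduction to the gadget (helper972)
-/

set_option autoImplicit false

namespace Crest.Agent.R320.JointB_972

open Crest.Agent.R320.Hk_851 Crest.Agent.R320.Code110 Crest.Agent.R320.ExactR_237
open Crest.Agent.R320.JointA_972 Crest.Agent.R320.FewWalls_228
open Crest.Agent.R320

variable {α : Type}

/-! ### regularity -/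

theorem len_reg (Pm : ℕ) (hP : 0 < Pm) (r : ℕ) :
    Language.IsRegular ({w | w.length % Pm = r} : Language α) := by
  haveI : NeZero Pm := ⟨hP.ne'⟩
  by_cases hr : r < Pm
  · have key : ∀ w : List α, (w.map (fun _ => Multiplicative.ofAdd (1 : ZMod Pm))).prod =
        Multiplicative.ofAdd ((w.length : ℕ) : ZMod Pm) := by
      intro w
      induction w with
      | nil => simp
      | cons a w ih =>
        rw [List.map_cons, List.prod_cons, ih, List.length_cons, ← ofAdd_add]
        congr 1
        push_cast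
        ring
    have h := Reg_852.isRegular_prod (S := Multiplicative (ZMod Pm))
      (fun _ : α => Multiplicative.ofAdd (1 : ZMod Pm)) (Multiplicative.ofAdd (r : ZMod Pm))
    have e : ({w | w.length % Pm = r} : Language α) =
        {w | (w.map (fun _ => Multiplicative.ofAdd (1 : ZMod Pm))).prod =
          Multiplicative.ofAdd (r : ZMod Pm)} := by
      ext w
      show w.length % Pm = r ↔ (w.map (fun _ => Multiplicative.ofAdd (1 : ZMod Pm))).prod =
          Multiplicative.ofAdd (r : ZMod Pm)
      rw [key, Multiplicative.ofAdd.injective.eq_iff, ZMod.natCast_eq_natCast_iff']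
      rw [Nat.mod_eq_of_lt hr]
    rw [e]; exact h
  · have e : ({w | w.length % Pm = r} : Language α) = (0 : Language α) := by
      refine Set.ext fun w => ⟨fun h => ?_, fun h => h.elim⟩
      have h1 : w.length % Pm = r := h
      have := Nat.mod_lt w.length hP
      omega
    rw [e]; exact Reg_852.isRegular_zero

theorem cls_reg {S : Type} [Monoid S] [Finite S] (f : α → S) (Pm : ℕ) (hP : 0 < Pm)
    (X1 l : List α) (r : ℕ) (s : S) :
    Language.IsRegular ({X | ∃ Y, X = X1 ++ Y ∧ l <+: Y ∧ Y.length % Pm = r ∧ pr f Y = s} :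
      Language α) := by
  have h1 : Language.IsRegular ({Y | l <+: Y} : Language α) := by
    have := Reg_852.HL.isRegular (HL.prefix (k := 0) (HL.word l))
    have e : ({Y | l <+: Y} : Language α) = {w | ∃ v ∈ ({l} : Language α), v <+: w} := by
      ext w
      constructor
      · intro h; exact ⟨l, rfl, h⟩
      · rintro ⟨v, hv, h⟩
        have : v = l := hv
        rw [this] at h; exact h
    rw [e]; exact this
  let A : Language α := {Y | l <+: Y}
  let B : Language α := {w | w.length % Pm = r}
  let C : Language α := {w | (w.map f).prod = s}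
  let D : Language α := {X1}
  have h2 : (D * (A ⊓ B ⊓ C)).IsRegular :=
    Reg_852.IsRegular.mul (Reg_852.HL.isRegular (HL.word (k := 0) X1))
      ((h1.inf (len_reg Pm hP r)).inf (Reg_852.isRegular_prod f s))
  have e : ({X | ∃ Y, X = X1 ++ Y ∧ l <+: Y ∧ Y.length % Pm = r ∧ pr f Y = s} : Language α) =
      D * (A ⊓ B ⊓ C) := by
    refine Set.ext fun X => ?_
    constructor
    · rintro ⟨Y, rfl, a, b, c⟩
      exact Language.mem_mul.2 ⟨X1, rfl, Y, ⟨⟨a, b⟩, c⟩, rfl⟩
    · intro h
      obtain ⟨a, ha, Y, hY, rfl⟩ := Language.mem_mul.1 h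
      have e1 : a = X1 := ha
      subst e1
      exact ⟨Y, rfl, hY.1.1, hY.1.2, hY.2⟩
  rw [e]; exact h2

section walls
variable {n : ℕ} {St : Set (List α)} {z : ℕ}

theorem few_xx {X : List α} (hX : X ∈ XX z (WallU_228.Wo n St)) : nw n St X ≤ z + 1 := by
  classical
  unfold nw
  have hsub : (Finset.range (X.length + 1)).filter (fun x => Wl n St X x) ⊆
      Finset.range z ∪ {X.length - n} := by
    intro x hx
    rw [Finset.mem_filter] at hx
    obtain ⟨h1, h2⟩ := WallU_228.wo_take.1 hx.2
    rw [Finset.mem_union, Finset.mem_range, Finset.mem_singleton]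
    by_cases h3 : x < z
    · exact Or.inl h3
    · right
      by_contra h4
      exact hX.2.2 (x + n) (by omega) (by omega) h2
  refine (Finset.card_le_card hsub).trans ((Finset.card_union_le _ _).trans ?_)
  rw [Finset.card_range, Finset.card_singleton]

theorem few_tail {b : List α} (hb : ∀ X ∈ XX z (WallU_228.Wo n St), ¬ X <+: b) :
    nw n St b ≤ z + 1 := by
  classical
  unfold nw
  have hno : ∀ t, z ≤ t → t ≤ b.length → ¬ WallU_228.Wo n St (b.take t) := by
    intro t
    induction t using Nat.strong_induction_on with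
    | _ t ih =>
      intro h1 h2 h3
      refine hb (b.take t) ⟨by rw [List.length_take]; omega, h3, ?_⟩ (List.take_prefix _ _)
      intro s hs1 hs2
      rw [List.length_take] at hs2
      rw [List.take_take, min_eq_left (by omega)]
      exact ih s (by omega) hs1 (by omega)
  have hsub : (Finset.range (b.length + 1)).filter (fun x => Wl n St b x) ⊆ Finset.range z := by
    intro x hx
    rw [Finset.mem_filter] at hx
    obtain ⟨h1, h2⟩ := WallU_228.wo_take.1 hx.2
    rw [Finset.mem_range]
    by_contra h3
    exact hno (x + n) (by omega) h1 h2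
  refine (Finset.card_le_card hsub).trans ?_
  rw [Finset.card_range]; omega

theorem hl_wo [Finite α] {k : ℕ} : HL k ({X | WallU_228.Wo n St X} : Language α) := by
  have hfin : {v : List α | v.length ≤ n ∧ v ∈ St}.Finite :=
    (List.finite_length_le α n).subset fun v hv => hv.1
  have h := (HL.suffix (k := k) (HL.finite hfin)).setOf_and (HL.length_ge (k := k) (α := α) n)
  have hfin' : {v : List α | v.length = n ∧ v ∈ St}.Finite :=
    (List.finite_length_le α n).subset fun v hv => hv.1.le
  refine (HL.suffix (k := k) (HL.finite hfin')).congr fun w => ?_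
  constructor
  · rintro ⟨h1, h2⟩
    exact ⟨w.drop (w.length - n), ⟨by rw [List.length_drop]; omega, h2⟩, List.drop_suffix _ _⟩
  · rintro ⟨v, ⟨hv1, hv2⟩, a, rfl⟩
    refine ⟨by rw [List.length_append]; omega, ?_⟩
    rw [List.length_append, hv1, Nat.add_sub_cancel, List.drop_left' rfl]
    exact hv2

theorem hl_xx [Finite α] {k : ℕ} : HL k (XX z (WallU_228.Wo n St)) := by
  have hB : HL k ({X | z ≤ X.length ∧ WallU_228.Wo n St X} : Language α) :=
    HL.setOf_and (HL.length_ge z) hl_wo
  have hC : HL k ({X | ∃ t, z ≤ t ∧ t < X.length ∧ WallU_228.Wo n St (X.take t)} : Language α) := by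
    refine (hB.mul (HL.length_ge (k := k) (α := α) 1)).congr fun X => ?_
    constructor
    · rintro ⟨t, h1, h2, h3⟩
      exact Language.mem_mul.2 ⟨X.take t, ⟨by rw [List.length_take]; omega, h3⟩, X.drop t,
        (by show 1 ≤ (X.drop t).length; rw [List.length_drop]; omega), List.take_append_drop _ _⟩
    · intro h
      obtain ⟨a, ⟨h1, h2⟩, b, hb, rfl⟩ := Language.mem_mul.1 h
      have hb' : 1 ≤ b.length := hb
      exact ⟨a.length, h1, by rw [List.length_append]; omega, by rw [List.take_left' rfl]; exact h2⟩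
  refine (hB.inf hC.compl).congr fun X => ?_
  constructor
  · rintro ⟨h1, h2, h3⟩
    exact ⟨⟨h1, h2⟩, fun ⟨t, a, b, c⟩ => h3 t a b c⟩
  · rintro ⟨⟨h1, h2⟩, h3⟩
    exact ⟨h1, h2, fun t a b c => h3 ⟨t, a, b, c⟩⟩

theorem hl_band [Finite α] {k : ℕ} (a b : ℕ) :
    HL k ({X | ∃ t, a ≤ t ∧ t < b ∧ t ≤ X.length ∧ WallU_228.Wo n St (X.take t)} : Language α) := by
  have hfin : {v : List α | a ≤ v.length ∧ v.length < b ∧ WallU_228.Wo n St v}.Finite :=
    (List.finite_length_le α b).subset fun v hv => hv.2.1.le
  refine (HL.prefix (k := k) (HL.finite hfin)).congr fun X => ?_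
  constructor
  · rintro ⟨t, h1, h2, h3, h4⟩
    have hl : (X.take t).length = t := by rw [List.length_take]; omega
    exact ⟨X.take t, ⟨by omega, by omega, h4⟩, List.take_prefix _ _⟩
  · rintro ⟨v, ⟨h1, h2, h3⟩, y, rfl⟩
    exact ⟨v.length, h1, h2, by rw [List.length_append]; omega, by rw [List.take_left' rfl]; exact h3⟩

/-- a property of zones determined by bounded data has height one -/
theorem hl_det [Finite α] {S : Type} [Monoid S] [Finite S] (f : α → S) {p0 La Pm : ℕ}
    (hP : 0 < Pm) (hz : p0 + La ≤ z)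
    (hfew : ∀ (L : Language α), L.IsRegular → ∀ r, HL 1 ({w | w ∈ L ∧ nw n St w ≤ r} : Language α))
    (g : List α → Prop)
    (hg : ∀ X X' : List α, X ∈ XX z (WallU_228.Wo n St) → X' ∈ XX z (WallU_228.Wo n St) →
      X.take p0 = X'.take p0 → (X.drop p0).take La = (X'.drop p0).take La →
      (X.drop p0).length % Pm = (X'.drop p0).length % Pm → pr f (X.drop p0) = pr f (X'.drop p0) →
      g X → g X') :
    HL 1 ({X | X ∈ XX z (WallU_228.Wo n St) ∧ g X} : Language α) := by
  classical
  let cls : List α → (List α × List α × ℕ × S) := fun X =>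
    (X.take p0, (X.drop p0).take La, (X.drop p0).length % Pm, pr f (X.drop p0))
  have hfin : {κ : List α × List α × ℕ × S | ∃ X0 ∈ XX z (WallU_228.Wo n St), g X0 ∧
      cls X0 = κ}.Finite := by
    refine (((List.finite_length_le α p0).prod ((List.finite_length_le α La).prod
      ((Set.finite_lt_nat Pm).prod (Set.finite_univ (α := S)))))).subset ?_
    rintro κ ⟨X0, -, -, rfl⟩
    refine ⟨?_, ?_, ?_, trivial⟩
    · show (X0.take p0).length ≤ p0
      rw [List.length_take]; omega
    · show ((X0.drop p0).take La).length ≤ La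
      rw [List.length_take]; omega
    · exact Nat.mod_lt _ hP
  refine (HL.biUnion hfin (L := fun κ => {w | w ∈ ((XX z (WallU_228.Wo n St)) ⊓
    ({X | ∃ Y, X = κ.1 ++ Y ∧ κ.2.1 <+: Y ∧ Y.length % Pm = κ.2.2.1 ∧ pr f Y = κ.2.2.2} :
      Language α) : Language α) ∧ nw n St w ≤ z + 1}) fun κ _ => hfew _
      ((Reg_852.HL.isRegular (hl_xx (k := 0))).inf (cls_reg f Pm hP _ _ _ _)) _).congr fun X => ?_
  constructor
  · rintro ⟨h1, h2⟩
    exact ⟨cls X, ⟨X, h1, h2, rfl⟩, ⟨h1, X.drop p0, (List.take_append_drop _ _).symm,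
      List.take_prefix _ _, rfl, rfl⟩, few_xx h1⟩
  · rintro ⟨κ, ⟨X0, h1, h2, rfl⟩, ⟨h3, Y, hY, h4, h5, h6⟩, -⟩
    have hl0 : (X0.take p0).length = p0 := by rw [List.length_take]; have := h1.1; omega
    have hl1 : ((X0.drop p0).take La).length = La := by
      rw [List.length_take, List.length_drop]; have := h1.1; omega
    have e1 : X.take p0 = X0.take p0 := by rw [hY]; exact List.take_left' hl0
    have e2 : X.drop p0 = Y := by rw [hY]; exact List.drop_left' hl0
    have e3 : (X.drop p0).take La = (X0.drop p0).take La := by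
      rw [e2]
      obtain ⟨y, rfl⟩ := h4
      exact List.take_left' hl1
    exact ⟨h3, hg X0 X h1 h3 e1.symm e3.symm (by rw [e2]; exact h5.symm) (by rw [e2]; exact h6.symm)
      h2⟩

end walls

end Crest.Agent.R320.JointB_972
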