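import Crest.Agent.R320.JointB_151

/-!
# Row 320: the all-words assembly (helper151)

`UGI` : the scheme-1 gadget on words (693's grids; 772's literal).
`of_UGI` : height three of the fibres of every morphism to a finite monoid from `UGI`.
-/

set_option autoImplicit false

namespace Crest.Agent.R320.Joint_151

open Crest.Agent.R320.Hk_851 Crest.Agent.R320.Code110 Crest.Agent.R320.Core1_922
open Crest.RegLang

universe u

open Classical in
/-- the scheme-1 gadget with its ruler (772 #13437) -/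
def UGI (S V : Type u) [Monoid S] [AddCommGroup V] (act : V → S → V) : Prop :=
  ∃ C0 : ℕ, ∀ K : ℕ, ∃ (N1 Pm La : ℕ) (c : ℕ → ℕ) (Bad : ℕ → Prop), 0 < Pm ∧
    (∀ i j, i < j → j < K → c i < c j) ∧
    (∀ i < K, ∀ j < K, ∀ k < K, ∀ l < K, i ≠ j → k ≠ l → (i, j) ≠ (k, l) →
      c i + c l + 4 * N1 < c k + c j ∨ c k + c j + 4 * N1 < c i + c l) ∧
    (∀ T, Bad (T + Pm) ↔ Bad T) ∧
    (∀ T, La ≤ T → ((Finset.range K ×ˢ Finset.range K).filter
      (fun p => p.1 ≠ p.2 ∧ Bad (T + c p.2 - c p.1))).card ≤ C0) ∧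
    ∀ (A : Type u) (phi : A → S), ∃ (lam rho : List A → Option V) (nu : List A → V),
      (∀ p v, lam p = some v → p.length ≤ N1) ∧
      (∀ p q v r, lam p = some v → rho q = some r → La ≤ q.length →
        r = act v ((p ++ q).map phi).prod + nu (p ++ q)) ∧
      (∀ u : List A, La ≤ u.length → ¬ Bad u.length → ∀ v, ∃ p q, p ++ q = u ∧ lam p = some v ∧
        (rho q).isSome = true) ∧
      (∀ q q2 : List A, La ≤ q.length → La ≤ q2.length → q.take La = q2.take La →
        q.length % Pm = q2.length % Pm → (q.map phi).prod = (q2.map phi).prod →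
        rho q = rho q2 ∧ nu q = nu q2)

/-- scheme 2 needs at least one hole -/
theorem m_pos {S V : Type u} [Monoid S] [Finite S] [AddCommGroup V] [Finite V] :
    ∃ m k : ℕ, 0 < m ∧ ∀ (α : Type u) (φ : List α → S), (∀ u v, φ (u ++ v) = φ u * φ v) →
      ∀ (act : V → S → V) (B : ℕ → ℕ) (ctx : ℕ → Option (ℕ × Fin k)) (p0 : ℕ),
      Monotone B → B 0 = 0 → B m = p0 →
      (∀ x i e, ctx x = some (i, e) → i < m ∧ B i ≤ x ∧ x ≤ B (i + 1)) →
      ∃ (nu2 : List α → V) (lam : List α → Option V),
      ∀ (nu1 : List α → V) (XX Bad : List α → Prop) (C0 : ℕ),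
      (∀ X, XX X → p0 < X.length) →
      (∀ P P' U : List α, P.length = P'.length → P.length ≤ p0 → (XX (P ++ U) ↔ XX (P' ++ U))) →
      (∀ P P' U : List α, P.length = P'.length → P.length ≤ p0 →
        (Bad (P ++ U) ↔ Bad (P' ++ U))) →
      (∀ X Z, XX X → XX (X ++ Z) → Z = []) →
      (∀ i, i < m → ∀ e : Fin k, ∃ A : Finset ℕ, C0 < A.card ∧ ∀ x ∈ A, ctx x = some (i, e)) →
      (∀ X X2, XX X → XX X2 → Bad X → ∀ x, (ctx x).isSome = true →
        ∀ P' : List α, (ctx P'.length).isSome = true →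
          ∃ X' Z', P' ++ (X ++ X2).drop x = X' ++ Z' ∧ XX X') →
      (∀ X X2, XX X → XX X2 → Bad X → ∃ A : Finset ℕ, A.card ≤ C0 ∧
        ∀ x, x ∉ A → (ctx x).isSome = true → ∀ P' : List α, (ctx P'.length).isSome = true →
          P'.length ≠ x → ∀ X' Z', P' ++ (X ++ X2).drop x = X' ++ Z' → XX X' → ¬ Bad X') →
      ∃ RQ : List α → V → Prop,
        (∀ P Q v b, (ctx P.length).isSome = true → lam P = some v → RQ Q b →
          (∀ X Z, P ++ Q = X ++ Z → XX X → Bad X) →
          ∃ X X2, P ++ Q = X ++ X2 ∧ XX X ∧ XX X2 ∧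
            Sch2B_433.T φ act p0 nu2 nu1 (Sch2B_433.T φ act p0 nu2 nu1 v X) X2 = b) ∧
        (∀ X X2, XX X → XX X2 → Bad X → ∀ v, ∃ P Q b, P ++ Q = X ++ X2 ∧
          (ctx P.length).isSome = true ∧ lam P = some v ∧ RQ Q b) := by
  obtain ⟨m, k, H⟩ := Sch2B_433.scheme2.{u, u, u} S V
  refine ⟨m, k, ?_, H⟩
  rcases Nat.eq_zero_or_pos m with h0 | h0
  · exfalso
    subst h0
    obtain ⟨nu2, lam, h⟩ := H PUnit (fun _ => 1) (fun _ _ => (one_mul 1).symm) (fun v _ => v)
      (fun _ => 0) (fun _ => none) 0 (fun _ _ _ => le_rfl) rfl rfl (fun x i e h => by simp at h)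
    obtain ⟨RQ, -, h2⟩ := h (fun _ => 0) (fun X => X = [PUnit.unit]) (fun X => X = [PUnit.unit]) 0
      (fun X hX => by subst hX; simp)
      (fun P P' U h1 h2 => by
        have : P = [] := List.length_eq_zero_iff.1 (by omega)
        have : P' = [] := List.length_eq_zero_iff.1 (by omega)
        subst_vars; rfl)
      (fun P P' U h1 h2 => by
        have : P = [] := List.length_eq_zero_iff.1 (by omega)
        have : P' = [] := List.length_eq_zero_iff.1 (by omega)
        subst_vars; rfl)
      (fun X Z hX hXZ => by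
        subst hX
        simpa using hXZ)
      (fun i hi => by omega)
      (fun X X2 _ _ _ x hx => by simp at hx)
      (fun X X2 _ _ _ => ⟨∅, by simp, fun x _ hx => by simp at hx⟩)
    obtain ⟨P, Q, b, -, h3, -⟩ := h2 [PUnit.unit] [PUnit.unit] rfl rfl rfl 0
    simp at h3
  · exact h0

/-- the action on tokens -/
def actT {S : Type u} [Monoid S] (v : S → ZMod 2) (s : S) : S → ZMod 2 := fun t => v (s * t)

theorem of_UGI {α : Type u} [Finite α] {S : Type u} [Monoid S] [Finite S] (f : α → S)
    (hU : UGI S (S → ZMod 2) actT) (s : S) :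
    HL 3 ({w | (w.map f).prod = s} : Language α) := by
  classical
  haveI : Finite (S → ZMod 2) := Pi.finite
  obtain ⟨m, k, hm, H2⟩ := m_pos (S := S) (V := S → ZMod 2)
  obtain ⟨C0, hC0⟩ := hU
  obtain ⟨N1, Pm, La, c, BT, hPm, hcinc, hgol, hBper, hBcnt, hG⟩ := hC0 (m * (k * (2 * C0 + 2)))
  obtain ⟨lam, rho, nu1, hlam, hsound, hcomp, hloc⟩ := hG α f
  set K := m * (k * (2 * C0 + 2)) with hK
  -- constants
  obtain ⟨p0, hp0⟩ : ∃ p0, (∀ j < K, c j ≤ p0) ∧ c 0 ≤ p0 := by
    refine ⟨(Finset.range (K + 1)).sup c, fun j hj => ?_, ?_⟩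
    · exact Finset.le_sup (f := c) (Finset.mem_range.2 (by omega))
    · exact Finset.le_sup (f := c) (Finset.mem_range.2 (by omega))
  obtain ⟨n, G, B0, Wo, hW, hsep, -, -, hper⟩ :=
    LWallAll_922.walls_all_left α (2 * p0 + 2 * N1 + 1) (by omega)
  set z := n + 2 * p0 + p0 + La + 2 * N1 + 1 with hz
  let φ : List α → S := fun w => (w.map f).prod
  have hφ : ∀ u v, φ (u ++ v) = φ u * φ v := by intro u v; simp [φ]
  obtain ⟨B, ctx, hB1, hB2, hB3, hB4, hB5, hB6⟩ := places (R' := 2 * C0 + 2) hK hm (by omega) c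
    hcinc hp0.1 hp0.2
  obtain ⟨nu2, lam2, H3⟩ := H2 α φ hφ actT B ctx p0 hB1 hB2 hB3 hB4
  let X0 : Language α := XX z Wo
  let Bd : Language α := {X | X ∈ X0 ∧ (EB z N1 Wo X ∨ BT (X.length - p0))}
  have hzlen : ∀ X ∈ X0, z ≤ X.length := fun X hX => (mem_XX.1 hX).1
  have hpc : PC X0 := pcXX (by omega)
  -- blocks do not see their first letters
  have hinvX : ∀ P P' U : List α, P.length = P'.length → P.length ≤ p0 →
      (P ++ U ∈ X0 → P' ++ U ∈ X0) := by
    intro P P' U h1 h2 hX
    obtain ⟨a1, a2, a3⟩ := mem_XX.1 hX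
    rw [List.length_append] at a1 a3
    refine mem_XX.2 ⟨by rw [List.length_append]; omega, ?_, ?_⟩
    · rw [hW.app _ _ (by omega)]
      exact (hW.app _ _ (by omega)).1 a2
    · intro t ht1 ht2 hwo
      rw [wo_shift hW (by omega) ht2.le, ← h1] at hwo
      rw [List.length_append] at ht2
      exact a3 t ht1 (by omega) ((wo_shift hW (by omega)
        (by rw [List.length_append]; omega)).2 hwo)
  have hinvE : ∀ P P' U : List α, P.length = P'.length → P.length ≤ p0 →
      (EB z N1 Wo (P ++ U) → EB z N1 Wo (P' ++ U)) := by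
    intro P P' U h1 h2 hX
    rcases hX with ⟨t, ht1, ht2, ht3⟩ | hX
    · by_cases hl : t ≤ (P ++ U).length
      · left
        rw [wo_shift hW (by omega) hl, h1] at ht3
        refine ⟨t, ht1, ht2, (wo_shift hW (by omega) ?_).2 ht3⟩
        rw [List.length_append] at hl ⊢; omega
      · right
        rw [List.length_append] at hl ⊢; omega
    · right
      rw [List.length_append] at hX ⊢; omega
  have hinvB : ∀ P P' U : List α, P.length = P'.length → P.length ≤ p0 →
      (P ++ U ∈ Bd → P' ++ U ∈ Bd) := by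
    rintro P P' U h1 h2 ⟨hX, hb⟩
    refine ⟨hinvX P P' U h1 h2 hX, ?_⟩
    rcases hb with hb | hb
    · exact Or.inl (hinvE P P' U h1 h2 hb)
    · right
      rw [List.length_append] at hb ⊢
      rwa [← h1]
  -- scheme 2
  obtain ⟨RQ, hs2, hc2⟩ := H3 nu1 (fun X => X ∈ X0) (fun X => X ∈ Bd) (2 * C0 + 1)
    (fun X hX => by have := hzlen X hX; omega)
    (fun P P' U h1 h2 => ⟨hinvX P P' U h1 h2, hinvX P' P U h1.symm (by omega)⟩)
    (fun P P' U h1 h2 => ⟨hinvB P P' U h1 h2, hinvB P' P U h1.symm (by omega)⟩)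
    (fun X Z hX hXZ => by
      have := hpc.pf X hX _ hXZ ⟨Z, rfl⟩
      have h2 := congrArg List.length this
      rw [List.length_append] at h2
      exact List.length_eq_zero_iff.1 (by omega))
    (fun i hi e => by
      obtain ⟨A, hA1, hA2⟩ := hB5 i hi e
      exact ⟨A, by omega, hA2⟩)
    (by
      intro X X2 hX hX2 _ x hx P' hP'
      obtain ⟨i, hi, rfl⟩ := hB6 x hx
      obtain ⟨j, hj, hj'⟩ := hB6 _ hP'
      have b1 := hp0.1 i hi
      have b2 := hp0.1 j hj
      have l1 := hzlen X hX
      have l2 := hzlen X2 hX2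
      have hl : c i ≤ X.length := by omega
      rw [List.drop_append_of_le_length hl]
      have hw : Wo (P' ++ (X.drop (c i) ++ X2)) := by
        rw [← List.append_assoc]
        exact (hW.app _ _ (by omega)).2 (mem_XX.1 hX2).2.1
      obtain ⟨e', he', hmem⟩ := first (z := z) (Wo := Wo) (w := P' ++ (X.drop (c i) ++ X2))
        (e := (P' ++ (X.drop (c i) ++ X2)).length)
        (by simp only [List.length_append, List.length_drop]; omega) le_rfl
        (by rw [List.take_length]; exact hw)
      exact ⟨_, _, (List.take_append_drop e' _).symm, hmem⟩)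
    (by
      intro X X2 hX hX2 hXb
      obtain ⟨Amb, hA1, hA2⟩ := spoil (p0 := p0) (N := N1) hW hsep c hp0.1 hgol BT hBcnt
        (z := z) (by omega) le_rfl (by omega) (X ++ X2)
        ⟨X.length, hzlen X hX, by simp, by rw [List.take_left]; exact (mem_XX.1 hX).2.1⟩
      refine ⟨Amb.image (fun p => c p.1), Finset.card_image_le.trans hA1, ?_⟩
      intro x hxA hx P' hP' hne X' Z' he hX' hBd'
      obtain ⟨i, hi, rfl⟩ := hB6 x hx
      obtain ⟨j, hj, hj'⟩ := hB6 _ hP'
      have hij : i ≠ j := by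
        rintro rfl
        exact hne hj'
      exact hxA (Finset.mem_image.2 ⟨(i, j), hA2 i hi j hj hij P' X' Z' hj' he hX' hBd'.2, rfl⟩))
  -- zone map
  let T : List α → (S → ZMod 2) → (S → ZMod 2) := fun u x => Sch2B_433.T φ actT p0 nu2 nu1 x u
  let L1 : (S → ZMod 2) → Language α := fun x =>
    {P | p0 ≤ P.length ∧ lam (P.drop p0) = some (actT x (φ (P.take p0)) + nu2 (P.take p0))}
  let L2 : (S → ZMod 2) → Language α := fun x =>
    {P | (ctx P.length).isSome = true ∧ lam2 P = some x}
  have hF1 : ∀ v, {p | p ∈ L1 v}.Finite := by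
    intro v
    refine (List.finite_length_le α (p0 + N1)).subset ?_
    rintro p ⟨h1, h2⟩
    have := hlam _ _ h2
    rw [List.length_drop] at this
    change p.length ≤ p0 + N1
    omega
  have hF2 : ∀ v, {p | p ∈ L2 v}.Finite := by
    intro v
    refine (List.finite_length_le α p0).subset ?_
    rintro p ⟨h1, h2⟩
    obtain ⟨j, hj, hj'⟩ := hB6 _ h1
    change p.length ≤ p0
    rw [hj']
    exact hp0.1 j hj
  -- heights
  have hregX : X0.IsRegular := Reg_852.HL.isRegular (HL_XX (k := 0) hW z)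
  have hkey : ∀ P : List α → Prop,
      (∀ u ∈ X0, ∀ u' ∈ X0, z + N1 ≤ u.length → z + N1 ≤ u'.length →
        u.take (z + N1) = u'.take (z + N1) → u.length % Pm = u'.length % Pm →
        ((u.drop (z + N1)).map f).prod = ((u'.drop (z + N1)).map f).prod → (P u ↔ P u')) →
      HL 1 ({u | u ∈ X0 ∧ P u} : Language α) := fun P hP =>
    HL_key (z := z) (A := z + N1) hW hper hPm f X0 hregX (fun w hw t h1 h2 => (mem_XX.1 hw).2.2 t h1 h2) P hP
  have H1 : HL 1 X0 := HL_XX hW z
  have hBmod : ∀ a b, a % Pm = b % Pm → (BT a ↔ BT b) := by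
    intro a b hab
    have h1 : ∀ q r, BT (r + q * Pm) ↔ BT r := by
      intro q
      induction q with
      | zero => intro r; simp
      | succ q ih =>
        intro r
        rw [Nat.add_one_mul, ← Nat.add_assoc, hBper, ih]
    have h2 := h1 (a / Pm) (a % Pm)
    have h3 := h1 (b / Pm) (b % Pm)
    rw [Nat.mod_add_div'] at h2 h3
    rw [h2, h3, hab]
  have hmodsub : ∀ a b, p0 ≤ a → p0 ≤ b → a % Pm = b % Pm → (a - p0) % Pm = (b - p0) % Pm := by
    intro a b ha hb hab
    have : (a - p0) ≡ (b - p0) [MOD Pm] := by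
      apply Nat.ModEq.add_right_cancel' p0
      rw [Nat.sub_add_cancel ha, Nat.sub_add_cancel hb]
      exact hab
    exact this
  have Hb : HL 1 Bd := by
    refine hkey (fun X => EB z N1 Wo X ∨ BT (X.length - p0)) ?_
    intro u hu u' hu' l1 l2 ht hl hp
    have e1 : EB z N1 Wo u ↔ EB z N1 Wo u' := by
      have key : ∀ u u' : List α, z + N1 ≤ u.length → z + N1 ≤ u'.length →
          u.take (z + N1) = u'.take (z + N1) → EB z N1 Wo u → EB z N1 Wo u' := by
        rintro u u' l1 l2 ht (⟨t, t1, t2, t3⟩ | h)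
        · left
          refine ⟨t, t1, t2, ?_⟩
          have : u'.take t = u.take t := by
            have := congrArg (List.take t) ht
            rw [List.take_take, List.take_take, min_eq_left (by omega)] at this
            exact this.symm
          rwa [this]
        · omega
      exact ⟨key u u' l1 l2 ht, key u' u l2 l1 ht.symm⟩
    rw [e1, hBmod _ _ (hmodsub _ _ (by omega) (by omega) hl)]
  have H3' : ∀ x y, HL 1 (ZT X0 T x y) := by
    intro x y
    refine hkey (fun X => T X x = y) ?_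
    intro u hu u' hu' l1 l2 ht hl hp
    have hd : ∀ a b, a + b ≤ z + N1 → (u.drop a).take b = (u'.drop a).take b := by
      intro a b hab
      have := congrArg (fun w => (List.take (a + b) w).drop a) ht
      simp only [List.take_take, min_eq_left hab] at this
      rw [List.take_drop, List.take_drop]
      exact this
    have e1 : u.take p0 = u'.take p0 := by simpa using hd 0 p0 (by omega)
    have e2 : φ (u.drop p0) = φ (u'.drop p0) := by
      have h1 : u.drop p0 = (u.drop p0).take (z + N1 - p0) ++ u.drop (z + N1) := by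
        conv_lhs => rw [← List.take_append_drop (z + N1 - p0) (u.drop p0)]
        rw [List.drop_drop]
        congr 2
        omega
      have h2 : u'.drop p0 = (u'.drop p0).take (z + N1 - p0) ++ u'.drop (z + N1) := by
        conv_lhs => rw [← List.take_append_drop (z + N1 - p0) (u'.drop p0)]
        rw [List.drop_drop]
        congr 2
        omega
      rw [h1, h2, hφ, hφ, hd p0 (z + N1 - p0) (by omega)]
      have : φ (u.drop (z + N1)) = φ (u'.drop (z + N1)) := hp
      rw [this]
    have e3 : nu1 (u.drop p0) = nu1 (u'.drop p0) := by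
      refine (hloc _ _ ?_ ?_ (hd p0 La (by omega)) ?_ e2).2
      · rw [List.length_drop]; omega
      · rw [List.length_drop]; omega
      · rw [List.length_drop, List.length_drop]
        exact hmodsub _ _ (by omega) (by omega) hl
    have : T u x = T u' x := by
      simp only [T, Sch2B_433.T]
      rw [e1, e2, e3]
    rw [this]
  have H4 : ∀ s, HL 3 ({w | (∀ u ∈ X0, ¬ u <+: w) ∧ φ w = s} : Language α) := by
    intro s
    have hp : HL 0 ({w | ¬ ∃ v ∈ X0, v <+: w} : Language α) := (HL.prefix (HL_XX (k := 0) hW z)).compl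
    have hr : Language.IsRegular (({w | ¬ ∃ v ∈ X0, v <+: w} : Language α) ⊓
        ({w | (w.map f).prod = s} : Language α)) :=
      (Reg_852.HL.isRegular hp).inf (Reg_852.isRegular_prod f s)
    have h1 := BddReg_746.HL_one_of_regular hr (B0 + (2 * p0 + 2 * N1 + 1) + z) 3 (by
      rintro w ⟨hw1, hw2⟩
      refine pn_of_free hW hper w ?_
      intro t ht1 ht2 hwo
      obtain ⟨e', -, hm⟩ := first (z := z) (Wo := Wo) (w := w) ht1 ht2.le hwo
      exact hw1 ⟨_, hm, List.take_prefix _ _⟩)
    refine (h1.mono (by norm_num)).congr fun w => ?_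
    constructor
    · rintro ⟨a, b⟩
      exact ⟨fun ⟨v, hv1, hv2⟩ => a v hv1 hv2, b⟩
    · rintro ⟨a, b⟩
      exact ⟨fun v hv1 hv2 => a ⟨v, hv1, hv2⟩, b⟩
  -- completeness of scheme 1
  have C1 : ∀ u ∈ X0, u ∉ Bd → ∀ x, ∀ t ∈ X0 ^ 0, ∃ p q y, u ++ t = p ++ q ∧ p ∈ L1 x ∧
      q ∈ Rsem X0 X0 T 0 L1 y := by
    intro u hu hub x t ht
    have ht' : t = [] := by
      rw [pow_zero] at ht
      exact ht
    subst ht'
    have hnb : ¬ EB z N1 Wo u ∧ ¬ BT (u.length - p0) := by
      constructor
      · intro h; exact hub ⟨hu, Or.inl h⟩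
      · intro h; exact hub ⟨hu, Or.inr h⟩
    have hl := hzlen u hu
    obtain ⟨p2, q, hpq, hl2, hr2⟩ := hcomp (u.drop p0) (by rw [List.length_drop]; omega)
      (by rw [List.length_drop]; exact hnb.2) (actT x (φ (u.take p0)) + nu2 (u.take p0))
    obtain ⟨r, hr⟩ := Option.isSome_iff_exists.1 hr2
    have hp2 := hlam _ _ hl2
    have hlq : (p2 ++ q).length = u.length - p0 := by rw [hpq, List.length_drop]
    rw [List.length_append] at hlq
    have hlt : (u.take p0).length = p0 := by rw [List.length_take]; omega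
    refine ⟨u.take p0 ++ p2, q, r, ?_, ?_, ?_⟩
    · rw [List.append_nil, List.append_assoc, hpq, List.take_append_drop]
    · refine ⟨by rw [List.length_append]; omega, ?_⟩
      rw [List.drop_left' hlt, List.take_left' hlt]
      exact hl2
    · intro x' p' hp'
      left
      obtain ⟨h1, h2⟩ := (hp' : p0 ≤ p'.length ∧ _)
      have hp3 := hlam _ _ h2
      rw [List.length_drop] at hp3
      have hmem : p' ++ q ∈ X0 := by
        have hu' : (u.take p0 ++ p2) ++ q = u := by
          rw [List.append_assoc, hpq, List.take_append_drop]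
        refine junction hW (p := u.take p0 ++ p2) (N := N1) (by omega) ?_ (by rw [hu']; exact hu)
          (by rw [hu']; exact hnb.1) ?_ ?_
        · rw [List.length_append]; omega
        · rw [List.length_append]; omega
        · rw [List.length_append]; omega
      have hT : T (p' ++ q) x' = r := by
        have := hsound _ q _ r h2 hr (by omega)
        rw [this]
        simp only [T, Sch2B_433.T]
        rw [List.take_append_of_le_length h1, List.drop_append_of_le_length h1]
      exact ⟨r, Language.mem_mul.2 ⟨p' ++ q, ⟨hmem, hT⟩, [], ⟨rfl, rfl⟩, by simp⟩⟩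
  -- completeness of scheme 2
  have C2 : ∀ u ∈ Bd, ∀ x, ∀ t ∈ Bd ^ 1, ∃ p q y, u ++ t = p ++ q ∧ p ∈ L2 x ∧
      q ∈ Rsem X0 Bd T 1 L2 y := by
    intro u hu x t ht
    rw [pow_one] at ht
    obtain ⟨P, Q, b, h1, h2, h3, h4⟩ := hc2 u t hu.1 ht.1 hu x
    refine ⟨P, Q, b, h1.symm, ⟨h2, h3⟩, ?_⟩
    intro x' p' hp'
    obtain ⟨g1, g2⟩ := (hp' : (ctx p'.length).isSome = true ∧ _)
    by_cases hall : ∀ X Z, p' ++ Q = X ++ Z → X ∈ X0 → X ∈ Bd
    · obtain ⟨X, X2, e1, e2, e3, e4⟩ := hs2 p' Q x' b g1 g2 h4 hall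
      have hXb := hall X X2 e1 e2
      by_cases hX2 : X2 ∈ Bd
      · left
        refine ⟨T X x', Language.mem_mul.2 ⟨X, ⟨hXb, rfl⟩, X2, ?_, e1.symm⟩⟩
        exact ⟨b, Language.mem_mul.2 ⟨X2, ⟨hX2, e4⟩, [], ⟨rfl, rfl⟩, by simp⟩⟩
      · right
        right
        exact Language.mem_mul.2 ⟨X, e2, X2, ⟨X2, e3, hX2, List.prefix_rfl⟩, e1.symm⟩
    · right
      left
      push Not at hall
      obtain ⟨X, Z, e1, e2, e3⟩ := hall
      exact ⟨X, e2, e3, ⟨Z, e1.symm⟩⟩
  exact Top5_110.top_sem (φ := φ) (act := actT) (XX := X0) (Bad := Bd) (T := T)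
    (by simp [φ]) hφ (fun v => by funext t; simp [actT])
    (fun v s t => by funext r; simp [actT, mul_assoc])
    (fun s t h => by
      have := congrFun (h (fun r => if r = s then 1 else 0)) 1
      simp only [actT, mul_one] at this
      by_contra hne
      rw [if_pos trivial, if_neg (fun e => hne e.symm)] at this
      exact absurd this (by decide))
    hpc (fun u hu => hu.1)
    (by
      intro u _ v v'
      funext t
      simp only [T, Sch2B_433.T, actT, Pi.add_apply, Pi.sub_apply]
      have : φ u = φ (u.take p0) * φ (u.drop p0) := by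
        rw [← hφ, List.take_append_drop]
      rw [this]
      simp only [mul_assoc]
      ring)
    H1 Hb H3' H4 hF1 hF2 C1 C2 s

end Crest.Agent.R320.Joint_151
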