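import Crest.Agent.R320.JointB_540

/-!
# Row 320: the joint, part C: heights and the conclusion (helper540)
-/

set_option autoImplicit false

namespace Crest.Agent.R320.Joint_540

open Crest.Agent.R320 Crest.Agent.R320.Hk_851 Crest.Agent.R320.Code110

variable {α : Type}

/-- language of a predicate -/
def Ln (p : List α → Prop) : Language α := {w | p w}

theorem reg_iUnion {ι : Type} [Finite ι] {L : ι → Language α} (h : ∀ i, (L i).IsRegular) :
    (Ln fun w => ∃ i, w ∈ L i).IsRegular := by
  classical
  cases nonempty_fintype ι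
  have key : ∀ s : Finset ι, (Ln fun w => ∃ i ∈ s, w ∈ L i).IsRegular := by
    intro s
    induction s using Finset.induction_on with
    | empty =>
      have e : (Ln fun w => ∃ i ∈ (∅ : Finset ι), w ∈ L i) = 0 := by
        ext w
        constructor
        · rintro ⟨i, hi, -⟩
          exact absurd hi (Finset.notMem_empty _)
        · intro h; exact h.elim
      rw [e]
      exact Reg_852.isRegular_zero
    | insert a s ha ih =>
      have e : (Ln fun w => ∃ i ∈ insert a s, w ∈ L i) = L a + Ln fun w => ∃ i ∈ s, w ∈ L i := by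
        ext w
        constructor
        · rintro ⟨i, hi, hw⟩
          rcases Finset.mem_insert.1 hi with rfl | hi
          · exact Or.inl hw
          · exact Or.inr ⟨i, hi, hw⟩
        · rintro (hw | ⟨i, hi, hw⟩)
          · exact ⟨a, Finset.mem_insert_self _ _, hw⟩
          · exact ⟨i, Finset.mem_insert_of_mem hi, hw⟩
      rw [e]
      exact (h a).add ih
  have h1 := key Finset.univ
  have e : (Ln fun w => ∃ i, w ∈ L i) = Ln fun w => ∃ i ∈ Finset.univ, w ∈ L i := by
    ext w
    constructor
    · rintro ⟨i, hi⟩; exact ⟨i, Finset.mem_univ _, hi⟩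
    · rintro ⟨i, -, hi⟩; exact ⟨i, hi⟩
  rw [e]
  exact h1

variable {n z : ℕ} {Wo : List α → Prop}

theorem hl_wall [Finite α] (hW : LW n Wo) : HL 0 ({X | Wo X} : Language α) := by
  have hfin : {v : List α | v.length = n ∧ Wo v}.Finite :=
    (List.finite_length_eq α n).subset fun v hv => hv.1
  refine ((HL.finite (k := 0) hfin).suffix).congr fun X => ?_
  constructor
  · intro hX'
    have hX : Wo X := hX'
    have h1 := hW.len X hX
    have hl : (X.drop (X.length - n)).length = n := by rw [List.length_drop]; omega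
    refine ⟨X.drop (X.length - n), ⟨hl, ?_⟩, List.drop_suffix _ _⟩
    have h2 := hW.loc (X.take (X.length - n)) (X.drop (X.length - n)) hl.ge
    rw [List.take_append_drop] at h2
    exact h2.1 hX
  · rintro ⟨v, ⟨h1, h2⟩, r, rfl⟩
    exact (hW.loc r v h1.ge).2 h2

theorem hl_XX [Finite α] (hW : LW n Wo) : HL 0 (XX Wo z) := by
  have h1 : HL 0 ({X | z ≤ X.length ∧ Wo X} : Language α) :=
    HL.setOf_and (HL.length_ge z) (hl_wall hW)
  have h2 := h1.sdiff (h1.mul (HL.length_ge (α := α) (k := 0) 1))
  refine h2.congr fun X => ?_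
  constructor
  · rintro ⟨a1, a2, a3⟩
    refine ⟨⟨a1, a2⟩, fun hm => ?_⟩
    obtain ⟨P, ⟨b1, b2⟩, Q, hQ, rfl⟩ := Language.mem_mul.1 hm
    have hQ' : 1 ≤ Q.length := hQ
    refine a3 P.length b1 (by rw [List.length_append]; omega) ?_
    rw [List.take_left]
    exact b2
  · rintro ⟨⟨a1, a2⟩, a3⟩
    refine ⟨a1, a2, fun t ht1 ht2 hw => a3 ?_⟩
    refine Language.mem_mul.2 ⟨X.take t, ⟨by rw [List.length_take]; omega, hw⟩, X.drop t, ?_,
      List.take_append_drop _ _⟩
    show 1 ≤ (X.drop t).length
    rw [List.length_drop]; omega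

variable {S V : Type} [Monoid S] [AddCommGroup V] {f : α → S} {act : V → S → V}
  (D : Dat α S V f act)

namespace Dat

theorem reg_T [Finite α] [Finite S] (hreg : ∀ v, (Ln fun Y => D.nu Y = v).IsRegular)
    (x y : V) : (Ln fun X => D.T X x = y).IsRegular := by
  classical
  have h1 : (Ln fun X => X.length < D.p0 ∧ D.T X x = y).IsRegular :=
    Reg_852.HL.isRegular (k := 0) (HL.finite
      ((List.finite_length_lt α D.p0).subset fun v hv => hv.1))
  let ι := {X0 : List α // X0.length = D.p0}
  have : Finite ι := (List.finite_length_eq α D.p0).to_subtype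
  let w : List α → V := fun X0 => act x (X0.map f).prod + D.nu2 X0
  have h2 : ∀ X0 : ι, (({X0.1} : Language α) *
      (Ln fun Y => ∃ s : S, Y ∈ (Ln fun Y => (Y.map f).prod = s) ⊓
        (Ln fun Y => D.nu Y = y - act (w X0.1) s))).IsRegular := fun X0 =>
    Reg_852.IsRegular.mul (Reg_852.HL.isRegular (HL.word (k := 0) X0.1))
      (reg_iUnion fun s => (Reg_852.isRegular_prod f s).inf (hreg _))
  have h3 := h1.add (reg_iUnion h2)
  have e : (Ln fun X => D.T X x = y) = (Ln fun X => X.length < D.p0 ∧ D.T X x = y) +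
      (Ln fun X => ∃ X0 : ι, X ∈ ({X0.1} : Language α) *
      (Ln fun Y => ∃ s : S, Y ∈ (Ln fun Y => (Y.map f).prod = s) ⊓
        (Ln fun Y => D.nu Y = y - act (w X0.1) s))) := by
    ext X
    constructor
    · intro hX
      have hX' : D.T X x = y := hX
      by_cases hl : X.length < D.p0
      · exact Or.inl ⟨hl, hX'⟩
      · right
        refine ⟨⟨X.take D.p0, by rw [List.length_take]; omega⟩, Language.mem_mul.2
          ⟨X.take D.p0, rfl, X.drop D.p0, ⟨((X.drop D.p0).map f).prod, rfl, ?_⟩,
            List.take_append_drop _ _⟩⟩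
        show D.nu (X.drop D.p0) = y - act _ _
        rw [← hX']
        unfold T
        simp only [w]
        abel
    · rintro (⟨-, hX⟩ | ⟨⟨X0, hX0⟩, hX⟩)
      · exact hX
      · obtain ⟨P, hP, Y, ⟨s, hs1, hs2⟩, rfl⟩ := Language.mem_mul.1 hX
        have hP' : P = X0 := hP
        subst hP'
        have hs1' : (Y.map f).prod = s := hs1
        have hs2' : D.nu Y = y - act (w P) s := hs2
        show D.T (P ++ Y) x = y
        unfold T
        rw [List.take_left' hX0, List.drop_left' hX0, hs1', hs2']
        simp only [w]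
        abel
  rw [e]
  exact h3

theorem L1_fin [Finite α] (x : V) : {p | p ∈ D.L1 x}.Finite := by
  refine (List.finite_length_lt α (D.p0 + D.N)).subset fun P hP => ?_
  obtain ⟨h1, h2⟩ := hP
  have h3 := D.g_len _ _ h2
  rw [List.length_drop] at h3
  show P.length < _
  omega

theorem L2_fin [Finite α] (x : V) : {p | p ∈ D.L2 x}.Finite := by
  refine (List.finite_length_le α D.p0).subset fun P hP => ?_
  obtain ⟨k, hk, h1, -⟩ := hP
  have := D.hcp k hk
  show P.length ≤ _
  omega

/-- **the conclusion** -/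
theorem final [Finite α] [Finite S] [Finite V]
    (hone : ∀ v, act v 1 = v) (hadd : ∀ v v' s, act (v + v') s = act v s + act v' s)
    (hmul : ∀ v s t, act v (s * t) = act (act v s) t)
    (hfaith : ∀ s t : S, (∀ v, act v s = act v t) → s = t)
    (hreg : ∀ v, (Ln fun Y => D.nu Y = v).IsRegular)
    (R B : ℕ)
    (hp : ∀ u : List α, (∀ t < u.length, ¬ D.Wo (u.take t)) → CompR_11.Pieces R B u) (s : S) :
    HL 3 ({w | (w.map f).prod = s} : Language α) := by
  classical
  have hz := D.hz
  have hZ1 : HL 1 D.Z := (hl_XX D.hW).mono (Nat.zero_le _)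
  have hpc : PC D.Z := pc (by omega)
  have hzt : ∀ x y, HL 1 (ZT D.Z D.T x y) := by
    intro x y
    have h1 := Language.IsRegular.inf (Reg_852.HL.isRegular (hl_XX (z := D.z) D.hW))
      (D.reg_T hreg x y)
    exact RegBd_11.reg_pieces h1 (R + 1) (B + D.z) fun w hw => pieces D.hW hp w hw.1.2.2
  have hbad : HL 1 D.Bad := by
    have hg : HL 1 ({X | D.Good X} : Language α) := by
      have h1 : HL 1 ({X | ∀ x, X ∈ ({X | ∃ p ∈ {p | p ∈ D.L1 x},
          X ∈ ({X | ∃ y, X ∈ ({p} : Language α) * Rsem D.Z D.Z D.T 0 D.L1 y} : Language α)} :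
            Language α)} : Language α) :=
        HL.iInter fun x => HL.biUnion (D.L1_fin x) fun p _ => HL.iUnion fun y =>
          (HL.word p).mul (Rsem.hl D.L1_fin hZ1 hZ1 hzt y)
      refine h1.congr fun X => ?_
      constructor
      · intro h x
        obtain ⟨p, q, y, e, hp1, hq⟩ := h x
        exact ⟨p, hp1, y, Language.mem_mul.2 ⟨p, rfl, q, hq, e.symm⟩⟩
      · intro h x
        obtain ⟨p, hp1, y, hy⟩ := h x
        obtain ⟨p', hp', q, hq, e⟩ := Language.mem_mul.1 hy
        have hpp : p' = p := hp'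
        subst hpp
        exact ⟨p', q, y, e.symm, hp1, hq⟩
    exact HL.setOf_and hZ1 (HL.setOf_not hg)
  have htail : ∀ s, HL 3 ({w | (∀ u ∈ D.Z, ¬ u <+: w) ∧ (w.map f).prod = s} : Language α) := by
    intro s
    have h0 : HL 0 ({w | ¬ ∃ u ∈ D.Z, u <+: w} : Language α) :=
      HL.setOf_not (HL.prefix (hl_XX D.hW))
    have h1 := Language.IsRegular.inf (Reg_852.HL.isRegular h0) (Reg_852.isRegular_prod f s)
    have h2 := RegBd_11.reg_pieces h1 (R + 1) (B + D.z) fun w hw => pieces D.hW hp w (by
      intro t ht1 ht2 hwt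
      obtain ⟨i, hi1, -, -, hi2, -⟩ := exists_block (P := []) (Q := w) D.hW (z := D.z)
        (by simp; omega) (j := t) ht2.le (by simpa using ht1) hwt
      exact hw.1 ⟨_, hi2, by rw [List.nil_append]; exact List.take_prefix _ _⟩)
    refine (h2.mono (by omega)).congr fun w => ?_
    constructor
    · rintro ⟨a, b⟩
      exact ⟨fun ⟨u, hu, hw⟩ => a u hu hw, b⟩
    · rintro ⟨a, b⟩
      exact ⟨fun u hu hw => a ⟨u, hu, hw⟩, b⟩
  have hact0 : ∀ s, act 0 s = 0 := fun s => by
    have := hadd 0 0 s
    rw [add_zero] at this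
    exact left_eq_add.1 this
  have hsub : ∀ v v' s, act (v - v') s = act v s - act v' s := by
    intro v v' s
    have := hadd (v - v') v' s
    rw [sub_add_cancel] at this
    rw [this]
    abel
  refine Top5_110.top_sem (φ := fun w : List α => (w.map f).prod) (act := act) (XX := D.Z)
    (Bad := D.Bad) (T := D.T) (L1 := D.L1) (L2 := D.L2) (N1 := 0) (N2 := 1) (by simp)
    (fun u w => by simp) hone hmul hfaith hpc (fun u hu => hu.1) ?_ hZ1 hbad hzt htail D.L1_fin
    D.L2_fin ?_ ?_ s
  · intro u hu v v'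
    have e : (u.map f).prod = ((u.take D.p0).map f).prod * ((u.drop D.p0).map f).prod := by
      rw [← List.prod_append, ← List.map_append, List.take_append_drop]
    show D.T u v - D.T u v' = act (v - v') (u.map f).prod
    rw [e, hmul, hsub, hsub]
    unfold T
    rw [hadd, hadd]
    abel
  · intro u hu hub x t ht
    have hg : D.Good u := by
      by_contra hg
      exact hub ⟨hu, hg⟩
    obtain ⟨p, q, y, e, h1, h2⟩ := hg x
    rw [pow_zero] at ht
    have ht' : t = [] := ht
    subst ht'
    exact ⟨p, q, y, by rw [List.append_nil]; exact e, h1, h2⟩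
  · intro u hu x t ht
    rw [pow_one] at ht
    exact D.compl2 hmul hu ht x

end Dat

end Crest.Agent.R320.Joint_540
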