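import Crest.Agent.R320.JointB_680

/-!
# Row 320: concrete instance of `Main_621.Data`, part C (helper680): completeness of scheme B
-/

set_option autoImplicit false

namespace Crest.Agent.R320.Joint_680

open Crest.Agent.R320.Hk_851 Crest.Agent.R320.Star_621 Crest.Agent.R320.Two_621
  Crest.Agent.R320.Main_621

variable {α : Type}
variable {Wo : List α → Prop} {n W z N p0 : ℕ} {BadT : ℕ → Prop}
variable {S : Type} [Monoid S]

theorem valB (h : LW Wo n W) {ph : List α → S} (hm : ∀ a b, ph (a ++ b) = ph a * ph b)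
    {lam : List α → Option (Tok S)} {nu1 : List α → Tok S} (hz : p0 + n ≤ z)
    {K : ℕ} {x : ℕ → ℕ} {lamB : ℕ → List α → Option (Tok (Tm S))}
    {rhoB : ℕ → List α → (S → Tm S) → Option (Tok (Tm S))}
    {nuB : List α → (S → Tm S) → Tok (Tm S)}
    (hB1 : ∀ k < K, ∀ (P Q : List α) (y : S → Tm S) (v b : Tok (Tm S)), P.length = x k + 1 →
      lamB k P = some v → rhoB k Q y = some b → b = act v (y (ph (P ++ Q))) + nuB (P ++ Q) y)
    {P q Y : List α} {v b : Tok (Tm S)} {k : ℕ} (hk : k < K) (hP : P.length = x k + 1)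
    (hq : (P ++ q).length = p0) (hl : lamB k P = some v)
    (hr : rhoB k q (yy Wo z p0 ph lam nu1 Y) = some b) (hX : (P ++ q) ++ Y ∈ ZZ Wo z) :
    psiB Wo z p0 ph lam nu1 nuB ((P ++ q) ++ Y) v = b := by
  rw [psiB, aff, th_eq h hm hz hq hX, dB, List.take_left' hq, List.drop_left' hq]
  exact (hB1 k hk P q _ v b hP hl hr).symm

theorem compB (h : LW Wo n W) {ph : List α → S} (hm : ∀ a b, ph (a ++ b) = ph a * ph b)
    {lam : List α → Option (Tok S)} {nu1 : List α → Tok S}
    {K L C0 T0 R : ℕ} {x : ℕ → ℕ} {lamB : ℕ → List α → Option (Tok (Tm S))}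
    {rhoB : ℕ → List α → (S → Tm S) → Option (Tok (Tm S))}
    {nuB : List α → (S → Tm S) → Tok (Tm S)}
    (hL : ∀ k < K, x k ≤ L) (hLp : L + 1 ≤ p0) (hW : 2 * N + 2 * L ≤ W)
    (hz : p0 + n + N + L + 1 ≤ z) (hsp : Sp N K x)
    (hthin : ∀ T, T0 ≤ T → (PB BadT K x T).card ≤ C0) (hT0 : p0 + T0 + L ≤ z)
    (hR : 3 * C0 + 2 ≤ R)
    (hB1 : ∀ k < K, ∀ (P Q : List α) (y : S → Tm S) (v b : Tok (Tm S)), P.length = x k + 1 →
      lamB k P = some v → rhoB k Q y = some b → b = act v (y (ph (P ++ Q))) + nuB (P ++ Q) y)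
    (hB2 : ∀ (u : List α) (y : S → Tm S) (v : Tok (Tm S)), (∀ k < K, x k + 1 ≤ u.length) →
      ∃ I : Finset ℕ, R ≤ I.card ∧ ∀ k ∈ I, k < K ∧ lamB k (u.take (x k + 1)) = some v ∧
        (rhoB k (u.drop (x k + 1)) y).isSome)
    {X : List α} (hX : X ∈ ZC Wo z N p0 BadT) (v : Tok (Tm S)) :
    Cut (LB K x lamB) (RB Wo z N p0 BadT K x lamB (psiB Wo z p0 ph lam nu1 nuB)) v X := by
  classical
  obtain ⟨t, ht, hE, hb⟩ := hX
  have hzt := ht.1
  have htX := ht.2.1
  have hXt := hE.1
  have hgap : W < X.length - t :=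
    h.gap X t X.length hXt le_rfl ht.2.2.1 (by rw [List.take_length]; exact hE.2.1)
  have hl0 : (X.take p0).length = p0 := by rw [List.length_take]; omega
  obtain ⟨I, hI, hI2⟩ := hB2 (X.take p0) (yy Wo z p0 ph lam nu1 (X.drop p0)) v
    (fun k hk => by have := hL k hk; omega)
  have hw1 : T0 ≤ w1 Wo z L X t - p0 := by
    unfold w1
    split_ifs with hex
    · have := hex.choose_spec.1
      omega
    · omega
  have hcard : ((PE Wo z N K x X ∪ (PB BadT K x (w1 Wo z L X t - p0) ∪
      (PB BadT K x (t - p0) ∪ PB BadT K x (X.length - p0)))).image Prod.snd).card < I.card := by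
    have c1 := Finset.card_image_le (s := PE Wo z N K x X ∪ (PB BadT K x (w1 Wo z L X t - p0) ∪
      (PB BadT K x (t - p0) ∪ PB BadT K x (X.length - p0)))) (f := Prod.snd)
    have c2 := Finset.card_union_le (PE Wo z N K x X) (PB BadT K x (w1 Wo z L X t - p0) ∪
      (PB BadT K x (t - p0) ∪ PB BadT K x (X.length - p0)))
    have c3 := Finset.card_union_le (PB BadT K x (w1 Wo z L X t - p0))
      (PB BadT K x (t - p0) ∪ PB BadT K x (X.length - p0))
    have c4 := Finset.card_union_le (PB BadT K x (t - p0)) (PB BadT K x (X.length - p0))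
    have d1 := card_PE (z := z) h hsp hL hW X
    have d2 := hthin (w1 Wo z L X t - p0) hw1
    have d3 := hthin (t - p0) (by omega)
    have d4 := hthin (X.length - p0) (by omega)
    omega
  obtain ⟨k, hkI, hkB⟩ := Finset.exists_mem_notMem_of_card_lt_card hcard
  obtain ⟨hk, hlam, hrho⟩ := hI2 k hkI
  obtain ⟨b, hrho⟩ := Option.isSome_iff_exists.1 hrho
  have hkL := hL k hk
  have hPl : (X.take (x k + 1)).length = x k + 1 := by rw [List.length_take]; omega
  have hQl : (X.drop (x k + 1)).length = X.length - (x k + 1) := List.length_drop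
  have hXe : X = X.take (x k + 1) ++ X.drop (x k + 1) := (List.take_append_drop _ _).symm
  have hlam' : lamB k (X.take (x k + 1)) = some v := by
    rw [List.take_take, min_eq_left (by omega)] at hlam
    exact hlam
  -- the rest
  have hQe : X.drop (x k + 1) = (X.take p0).drop (x k + 1) ++ X.drop p0 := by
    conv_lhs => rw [← List.take_append_drop p0 X]
    rw [List.drop_append_of_le_length (by omega)]
  have hspoil : ∀ k' < K, k' ≠ k → ∀ P' : List α, P'.length = x k' + 1 → ∀ t',
      IsT Wo z (P' ++ X.drop (x k + 1)) t' →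
      ¬ BadX Wo z N p0 BadT (P' ++ X.drop (x k + 1)) t' := by
    intro k' hk' hne P' hP' t' ht' hb'
    have := spoil_mem h hL hW hz hXe ht hE hPl hP' hk hk' hne ht' hb'
    apply hkB
    rw [Finset.mem_image]
    refine ⟨(k', k), ?_, rfl⟩
    simp only [Finset.mem_union]
    exact this
  refine ⟨X.take (x k + 1), X.drop (x k + 1), b, hXe, ⟨k, hk, hPl, hlam'⟩, ?_⟩
  rintro v' P' ⟨k', hk', hP', hlP'⟩
  have hkL' := hL k' hk'
  have hlen' : (P' ++ X.drop (x k + 1)).length = x k' + 1 + (X.length - (x k + 1)) := by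
    rw [List.length_append, hP', hQl]
  have hWo : Wo (P' ++ X.drop (x k + 1)) := by
    rw [h.loc _ _ (by omega), ← h.loc (X.take (x k + 1)) _ (by omega), ← hXe]
    exact hE.2.1
  refine ⟨hWo, by omega, ?_⟩
  by_cases hkk : k' = k
  · subst hkk
    have ht2 : IsT Wo z (X.take (x k' + 1) ++ X.drop (x k' + 1)) t := by rw [← hXe]; exact ht
    have hE2 : IsE Wo (X.take (x k' + 1) ++ X.drop (x k' + 1)) t := by rw [← hXe]; exact hE
    obtain ⟨j1, j2⟩ := junction h (P1 := P') ht2 hE2 (by omega) (by omega) (by omega)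
      (fun s hs h1 h2 => ht2.2.2.2 _ (by omega) h2)
    have hZ : P' ++ X.drop (x k' + 1) ∈ ZZ Wo z := ⟨_, j1, j2⟩
    refine ⟨?_, ?_, ?_⟩
    · rintro ⟨h1, -⟩
      have := j1.unique h1
      have := j2.1
      omega
    · rintro ⟨X', hX', y, hy, he⟩
      have hX'' : X' ∈ ZZ Wo z := by
        obtain ⟨t', a1, a2, -⟩ := hX'
        exact ⟨t', a1, a2⟩
      have e := code.2 (P' ++ X.drop (x k' + 1)) X' [] y hZ hX'' (by rw [List.append_nil]; exact he)
      apply hy
      rw [e] at he
      exact List.append_cancel_left (he.symm.trans (List.append_nil X').symm)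
    · intro _
      have hq : (P' ++ (X.take p0).drop (x k' + 1)).length = p0 := by
        rw [List.length_append, List.length_drop, hl0, hP']; omega
      rw [hQe, ← List.append_assoc]
      rw [hQe, ← List.append_assoc] at hZ
      exact valB h hm (by omega) hB1 hk' hP' hq hlP' hrho hZ
  · refine ⟨?_, ?_, ?_⟩
    · rintro ⟨h1, h2⟩
      exact hspoil k' hk' hkk P' hP' _ h1 h2
    · rintro ⟨X', ⟨t', a1, a2, a3⟩, y, hy, he⟩
      have e : (P' ++ X.drop (x k + 1)).take t' = X'.take t' := by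
        rw [he, List.take_append_of_le_length a1.2.1]
      refine hspoil k' hk' hkk P' hP' t' (a1.of_take ?_ e) (a3.of_take e)
      rw [he, List.length_append]
      have := a1.2.1
      omega
    · rintro ⟨t', a1, a2, a3⟩
      exact absurd a3 (hspoil k' hk' hkk P' hP' t' a1)

end Crest.Agent.R320.Joint_680
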