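import Crest.Agent.R320.JointB_844

/-!
# Row 320: the promise scheme, semantic right labels, one extra block (helper844)
-/

set_option autoImplicit false

namespace Crest.Agent.R320.Joint_844

open Crest.Agent.R320.Hk_851 Crest.Agent.R320.Code110 Crest.Agent.R320.Top5_110
open Crest.Agent.R320.FewWalls_228 Crest.Agent.R320.FewVal_228

universe u v

section
variable {α : Type u} {M : Type*} [Monoid M] {V : Type v} [AddCommGroup V]
variable {φ : List α → M} {act : V → M → V} {nu2 nu1 : List α → V} {lam rho lam2 rho2 : List α → Option V}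
  {n z p0 N1 La K C0 W : ℕ} {S : Set (List α)} {BadT : ℕ → Prop} {c : ℕ → ℕ}

theorem sep_E (hsep : ∀ (w : List α) (x y : ℕ), x < y → Wl n S w x → Wl n S w y → x + W ≤ y)
    {w : List α} {s s' : ℕ} (h : Ew n S w s) (h' : Ew n S w s') (h1 : s < s' + W)
    (h2 : s' < s + W) : s = s' := by
  have a1 := h.1
  have a2 := h'.1
  rcases lt_trichotomy s s' with h3 | h3 | h3
  · have := hsep w (s - n) (s' - n) (by omega) h.2 h'.2
    omega
  · exact h3
  · have := hsep w (s' - n) (s - n) (by omega) h'.2 h.2
    omega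

/-- change of the prefix -/
theorem shift {P' w : List α} {j s' : ℕ} (hj : j ≤ w.length) (hn : n ≤ s') :
    Ew n S (P' ++ w.drop j) (P'.length + s') ↔ Ew n S w (j + s') := by
  rw [Ew_right hn]
  have hl : (w.take j).length = j := by rw [List.length_take]; omega
  have : Ew n S w (j + s') ↔ Ew n S (w.take j ++ w.drop j) ((w.take j).length + s') := by
    rw [List.take_append_drop, hl]
  rw [this, Ew_right hn]

open Classical in
theorem C2 (hcp : ∀ j, j < K → c j ≤ p0)
    (hgol : ∀ i j k l, i < K → j < K → k < K → l < K → i ≠ j → k ≠ l → (i, j) ≠ (k, l) →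
      c i + c l + 4 * N1 < c k + c j ∨ c k + c j + 4 * N1 < c i + c l)
    (hcard : ∀ T, La ≤ T → ((Finset.range K ×ˢ Finset.range K).filter
      (fun p => p.1 ≠ p.2 ∧ BadT (T + c p.2 - c p.1))).card ≤ C0)
    (hs2 : ∀ (p q : List α) (v b : V), p.length + q.length = p0 → lam2 p = some v →
      rho2 q = some b → b = act v (φ (p ++ q)) + nu2 (p ++ q))
    (hc2 : ∀ (u : List α) (v : V), u.length = p0 → ∃ I : Finset ℕ, 2 * C0 + 2 ≤ I.card ∧
      ∀ j ∈ I, j < K ∧ lam2 (u.take (c j)) = some v ∧ (rho2 (u.drop (c j))).isSome = true)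
    (hsep : ∀ (w : List α) (x y : ℕ), x < y → Wl n S w x → Wl n S w y → x + W ≤ y)
    (hW : 2 * p0 + 2 * N1 + 1 ≤ W) (hz : 3 * p0 + N1 + La + n + N1 + 1 ≤ z)
    {u t : List α} (hu : u ∈ BB n z p0 N1 S BadT) (ht : t ∈ BB n z p0 N1 S BadT) (x : V) :
    ∃ p q y, u ++ t = p ++ q ∧ p ∈ L2 lam2 c K x ∧
      q ∈ Rsem (XX n z S) (BB n z p0 N1 S BadT) (TT φ act nu2 nu1 p0) 1 (L2 lam2 c K) y := by
  have hul : z ≤ u.length := hu.1.1
  have htl : z ≤ t.length := ht.1.1
  set w := u ++ t with hw
  have hwl : w.length = u.length + t.length := by rw [hw, List.length_append]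
  have hwE : Ew n S w w.length := by
    rw [hwl, hw, Ew_right (by omega)]
    exact ht.1.2.1
  have hUl : (u.take p0).length = p0 := by rw [List.length_take]; omega
  obtain ⟨I, hI, hI2⟩ := hc2 (u.take p0) x hUl
  -- the two candidates for the end of a block
  obtain ⟨g0, hg0⟩ : ∃ g0, z ≤ g0 + p0 ∧ ∀ s, z ≤ s + p0 → s ≤ z + p0 → Ew n S w s → s = g0 := by
    by_cases h : ∃ s, z ≤ s + p0 ∧ s ≤ z + p0 ∧ Ew n S w s
    · obtain ⟨s0, h1, h2, h3⟩ := h
      exact ⟨s0, h1, fun s h4 h5 h6 => sep_E hsep h6 h3 (by omega) (by omega)⟩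
    · exact ⟨z, by omega, fun s h4 h5 h6 => (h ⟨s, h4, h5, h6⟩).elim⟩
  obtain ⟨g1, hg1z, hg1w, hg1⟩ : ∃ g1, z + p0 < g1 ∧ Ew n S w g1 ∧
      ∀ s, z + p0 < s → s < g1 → ¬ Ew n S w s := by
    have hex : ∃ g1, z + p0 < g1 ∧ Ew n S w g1 := ⟨w.length, by omega, hwE⟩
    exact ⟨Nat.find hex, (Nat.find_spec hex).1, (Nat.find_spec hex).2,
      fun s h1 h2 h3 => Nat.find_min hex h2 ⟨h1, h3⟩⟩
  let A0 := (Finset.range K ×ˢ Finset.range K).filter
    (fun p => p.1 ≠ p.2 ∧ BadT ((g0 - p0) + c p.2 - c p.1))
  let A1 := (Finset.range K ×ˢ Finset.range K).filter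
    (fun p => p.1 ≠ p.2 ∧ BadT ((g1 - p0) + c p.2 - c p.1))
  let AE := (Finset.range K ×ˢ Finset.range K).filter
    (fun p => p.1 ≠ p.2 ∧ ∃ s, Ew n S w s ∧ z + c p.1 ≤ s + c p.2 + N1 ∧
      s + c p.2 ≤ z + N1 + c p.1)
  have hA0 : A0.card ≤ C0 := hcard _ (by omega)
  have hA1 : A1.card ≤ C0 := hcard _ (by omega)
  have hAE : AE.card ≤ 1 := by
    rw [Finset.card_le_one]
    rintro ⟨i, j⟩ ha ⟨k, l⟩ hb
    rw [Finset.mem_filter, Finset.mem_product, Finset.mem_range, Finset.mem_range] at ha hb
    obtain ⟨⟨hi, hj⟩, hij, s, hs1, hs2, hs3⟩ := ha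
    obtain ⟨⟨hk, hl⟩, hkl, s', hs1', hs2', hs3'⟩ := hb
    simp only at hi hj hij hs2 hs3 hk hl hkl hs2' hs3'
    have b1 := hcp i hi
    have b2 := hcp j hj
    have b3 := hcp k hk
    have b4 := hcp l hl
    have e : s = s' := sep_E hsep hs1 hs1' (by omega) (by omega)
    subst e
    by_contra hne
    rcases hgol i j k l hi hj hk hl hij hkl hne with h | h <;> omega
  obtain ⟨j, hjI, hj⟩ : ∃ j ∈ I, ∀ j', (j, j') ∉ A0 ∪ A1 ∪ AE := by
    by_contra hcon
    push Not at hcon
    have hsub : I ⊆ (A0 ∪ A1 ∪ AE).image Prod.fst := by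
      intro j hj
      obtain ⟨j', hj'⟩ := hcon j hj
      exact Finset.mem_image.2 ⟨(j, j'), hj', rfl⟩
    have h1 := (Finset.card_le_card hsub).trans Finset.card_image_le
    have h2 := Finset.card_union_le (A0 ∪ A1) AE
    have h3 := Finset.card_union_le A0 A1
    omega
  obtain ⟨hjK, hl2, hr2⟩ := hI2 j hjI
  have hcj := hcp j hjK
  have htt : (u.take p0).take (c j) = u.take (c j) := by
    rw [List.take_take, Nat.min_eq_left hcj]
  rw [htt] at hl2
  obtain ⟨b, hb⟩ := Option.isSome_iff_exists.1 hr2
  have hpl : (u.take (c j)).length = c j := by rw [List.length_take]; omega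
  have hwtake : w.take (c j) = u.take (c j) := by
    rw [hw, List.take_append_of_le_length (by omega)]
  have hwdrop : w.drop (c j) = u.drop (c j) ++ t := by
    rw [hw, List.drop_append_of_le_length (by omega)]
  refine ⟨u.take (c j), w.drop (c j), TT φ act nu2 nu1 p0 t (TT φ act nu2 nu1 p0 u x), ?_,
    ⟨j, hjK, hpl, hl2⟩, ?_⟩
  · rw [← hwtake, List.take_append_drop]
  rintro x' P' ⟨j', hj'K, hP'l, hP'⟩
  have hcj' := hcp j' hj'K
  by_cases hjj : j' = j
  · -- the true place
    subst hjj
    left
    have hsh : ∀ s, c j' + n ≤ s → (Ew n S (P' ++ u.drop (c j')) s ↔ Ew n S u s) := by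
      intro s hs
      obtain ⟨s', rfl⟩ : ∃ s', s = c j' + s' := ⟨s - c j', by omega⟩
      have := shift (n := n) (S := S) (P' := P') (w := u) (j := c j') (s' := s') (by omega)
        (by omega)
      rw [hP'l] at this
      exact this
    have hu'l : (P' ++ u.drop (c j')).length = u.length := by
      rw [List.length_append, hP'l, List.length_drop]; omega
    have hu'X : P' ++ u.drop (c j') ∈ XX n z S := by
      refine ⟨by rw [hu'l]; exact hul, ?_, ?_⟩
      · rw [hu'l, hsh _ (by omega)]; exact hu.1.2.1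
      · intro s h1 h2 h3
        rw [hu'l] at h2
        rw [hsh _ (by omega)] at h3
        exact hu.1.2.2 s h1 h2 h3
    have hu'B : Bd n z p0 N1 S BadT (P' ++ u.drop (c j')) := by
      rcases hu.2 with ⟨s, h1, h2, h3⟩ | h
      · exact Or.inl ⟨s, (hsh _ (by omega)).2 h1, h2, h3⟩
      · right
        rw [hu'l]
        exact h
    have e0 : (u.take p0).drop (c j') = (u.drop (c j')).take (p0 - c j') := by
      rw [List.drop_take]
    have e1 : (P' ++ u.drop (c j')).take p0 = P' ++ (u.take p0).drop (c j') := by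
      rw [e0, show p0 = P'.length + (p0 - c j') by omega]
      rw [List.take_length_add_append]
      congr 2
      omega
    have e2 : (P' ++ u.drop (c j')).drop p0 = u.drop p0 := by
      rw [show p0 = P'.length + (p0 - c j') by omega, ← List.drop_drop, List.drop_left,
        List.drop_drop]
      congr 1
      omega
    have e3 : u.take p0 = u.take (c j') ++ (u.take p0).drop (c j') := by
      rw [← htt, List.take_append_drop]
    have hld : ((u.take p0).drop (c j')).length = p0 - c j' := by
      rw [List.length_drop, hUl]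
    have hTT : TT φ act nu2 nu1 p0 (P' ++ u.drop (c j')) x' = TT φ act nu2 nu1 p0 u x := by
      unfold TT
      rw [e1, e2]
      have f1 := hs2 P' ((u.take p0).drop (c j')) x' b (by omega) hP' hb
      have f2 := hs2 (u.take (c j')) ((u.take p0).drop (c j')) x b (by omega) hl2 hb
      rw [← e3] at f2
      rw [← f1, ← f2]
    rw [hwdrop, ← List.append_assoc]
    refine ⟨TT φ act nu2 nu1 p0 u x, Language.mem_mul.2 ⟨P' ++ u.drop (c j'),
      ⟨⟨hu'X, hu'B⟩, hTT⟩, t, ?_, rfl⟩⟩
    exact ⟨_, Language.mem_mul.2 ⟨t, ⟨ht, rfl⟩, [], ⟨rfl, rfl⟩, List.append_nil _⟩⟩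
  · -- a false place
    right
    left
    set G := P' ++ w.drop (c j) with hG
    have hGl : G.length = c j' + (w.length - c j) := by
      rw [hG, List.length_append, hP'l, List.length_drop]
    have hsh : ∀ s', n ≤ s' → (Ew n S G (c j' + s') ↔ Ew n S w (c j + s')) := by
      intro s' hs
      have := shift (n := n) (S := S) (P' := P') (w := w) (j := c j) (s' := s') (by omega) hs
      rw [hP'l] at this
      exact this
    have hGE : Ew n S G G.length := by
      rw [hGl, hsh _ (by omega)]
      rw [show c j + (w.length - c j) = w.length by omega]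
      exact hwE
    obtain ⟨e, he1, he2, he3, he4, he5⟩ := first (z := z) (t := G.length) (by omega) hGE
    refine ⟨G.take e, he5, ?_, List.take_prefix _ _⟩
    rintro ⟨-, hbd⟩
    have hel : (G.take e).length = e := by rw [List.length_take]; omega
    rcases hbd with ⟨t1, h1, h2, h3⟩ | h
    · -- mode (E)
      have h4 : t1 ≤ e := by have := h1.le; omega
      rw [Ew_take h4] at h1
      apply hj j'
      refine Finset.mem_union_right _ ?_
      rw [Finset.mem_filter, Finset.mem_product, Finset.mem_range, Finset.mem_range]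
      refine ⟨⟨hjK, hj'K⟩, fun h => hjj h.symm, c j + (t1 - c j'), ?_, ?_, ?_⟩
      · rw [← hsh _ (by omega)]
        rw [show c j' + (t1 - c j') = t1 by omega]
        exact h1
      · show z + c j ≤ c j + (t1 - c j') + c j' + N1
        omega
      · show c j + (t1 - c j') + c j' ≤ z + N1 + c j
        omega
    · -- mode (B)
      rw [hel] at h
      have hws : Ew n S w (c j + (e - c j')) := by
        rw [← hsh _ (by omega), show c j' + (e - c j') = e by omega]
        exact he3
      rcases Nat.lt_or_ge (z + p0) (c j + (e - c j')) with h5 | h5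
      · -- the second candidate
        have hge : c j + (e - c j') = g1 := by
          rcases lt_trichotomy (c j + (e - c j')) g1 with h6 | h6 | h6
          · exact (hg1 _ h5 h6 hws).elim
          · exact h6
          · exfalso
            have hE : Ew n S G (c j' + (g1 - c j)) := by
              rw [hsh _ (by omega), show c j + (g1 - c j) = g1 by omega]
              exact hg1w
            exact he4 _ (by omega) (by omega) hE
        apply hj j'
        refine Finset.mem_union_left _ (Finset.mem_union_right _ ?_)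
        rw [Finset.mem_filter, Finset.mem_product, Finset.mem_range, Finset.mem_range]
        refine ⟨⟨hjK, hj'K⟩, fun h => hjj h.symm, ?_⟩
        show BadT ((g1 - p0) + c j' - c j)
        rw [show (g1 - p0) + c j' - c j = e - p0 by omega]
        exact h
      · have hge : c j + (e - c j') = g0 := hg0.2 _ (by omega) h5 hws
        apply hj j'
        refine Finset.mem_union_left _ (Finset.mem_union_left _ ?_)
        rw [Finset.mem_filter, Finset.mem_product, Finset.mem_range, Finset.mem_range]
        refine ⟨⟨hjK, hj'K⟩, fun h => hjj h.symm, ?_⟩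
        show BadT ((g0 - p0) + c j' - c j)
        rw [show (g0 - p0) + c j' - c j = e - p0 by omega]
        exact h

end

end Crest.Agent.R320.Joint_844
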