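import Crest.Agent.R320.JointB_91
import Crest.Agent.R320.Reg_143
import Crest.Agent.R320.WallU_228

/-!
# Row 320: regularity and height one of the block data (helper91)
-/

set_option autoImplicit false

namespace Crest.Agent.R320.JointC_91

open Crest.RegLang Crest.Agent.R320.Hk_851 Crest.Agent.R320.Asm_505 Crest.Agent.R320.Half1_91
  Crest.Agent.R320.JointA_91 Crest.R320.Reg_143

section reg

variable {α : Type*}

theorem rnot {P : List α → Prop} (h : (lg P).IsRegular) : (lg fun w => ¬ P w).IsRegular :=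
  (RegP.mem (k := 0) h).not.close

theorem rand {P Q : List α → Prop} (h : (lg P).IsRegular) (h' : (lg Q).IsRegular) :
    (lg fun w => P w ∧ Q w).IsRegular :=
  ((RegP.mem (k := 0) h).and (RegP.mem h')).close

theorem rimp {P Q : List α → Prop} (h : (lg P).IsRegular) (h' : (lg Q).IsRegular) :
    (lg fun w => P w → Q w).IsRegular :=
  ((RegP.mem (k := 0) h).imp (RegP.mem h')).close

theorem ror {P Q : List α → Prop} (h : (lg P).IsRegular) (h' : (lg Q).IsRegular) :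
    (lg fun w => P w ∨ Q w).IsRegular :=
  ((RegP.mem (k := 0) h).or (RegP.mem h')).close

theorem rex {ι : Type*} [Finite ι] {P : ι → List α → Prop} (h : ∀ i, (lg (P i)).IsRegular) :
    (lg fun w => ∃ i, P i w).IsRegular :=
  (RegP.exists_finite fun i => (RegP.mem (k := 0) (h i))).close

theorem rall {ι : Type*} [Finite ι] {P : ι → List α → Prop} (h : ∀ i, (lg (P i)).IsRegular) :
    (lg fun w => ∀ i, P i w).IsRegular :=
  (RegP.forall_finite fun i => (RegP.mem (k := 0) (h i))).close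

theorem rcongr {P Q : List α → Prop} (h : (lg P).IsRegular) (he : ∀ w, Q w ↔ P w) :
    (lg Q).IsRegular := by
  have : Q = P := funext fun w => propext (he w)
  rw [this]; exact h

theorem rtrue : (lg fun _ : List α => True).IsRegular := isRegular_true

theorem rlen (m : ℕ) : (lg fun w : List α => m ≤ w.length).IsRegular :=
  isRegular_length (fun n => m ≤ n) m 1 one_pos fun n hn => by omega

theorem rfin [Finite α] (m : ℕ) (Q : List α → Prop) :
    (lg fun w : List α => w.length ≤ m ∧ Q w).IsRegular := by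
  refine rcongr (isRegular_take (m + 1) (fun v => v.length ≤ m ∧ Q v)) fun w => ?_
  constructor
  · rintro ⟨h1, h2⟩
    rw [List.take_of_length_le (by omega)]
    exact ⟨h1, h2⟩
  · rintro ⟨h1, h2⟩
    rw [List.length_take] at h1
    have h3 : w.length ≤ m := by omega
    rw [List.take_of_length_le (by omega)] at h2
    exact ⟨h3, h2⟩

theorem rquot {P : List α → Prop} (h : (lg P).IsRegular) (p : List α) :
    (lg fun q => P (p ++ q)).IsRegular := by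
  obtain ⟨σ, hσ, D, hD⟩ := h
  refine ⟨σ, hσ, { D with start := D.evalFrom D.start p }, ?_⟩
  ext q
  have h1 : ∀ w, w ∈ D.accepts ↔ P w := fun w => by rw [hD]; rfl
  have h2 : q ∈ (lg fun q => P (p ++ q)) ↔ P (p ++ q) := Iff.rfl
  rw [h2, ← h1, DFA.mem_accepts, DFA.mem_accepts]
  have e : D.eval (p ++ q) = D.evalFrom (D.evalFrom D.start p) q := by
    rw [DFA.eval, DFA.evalFrom_of_append]
  rw [e]
  rfl

theorem rpref {P : List α → Prop} (h : (lg P).IsRegular) :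
    (lg fun w => ∃ v, P (w ++ v)).IsRegular := by
  obtain ⟨σ, hσ, D, hD⟩ := h
  refine ⟨σ, hσ, { D with accept := {s | ∃ v, D.evalFrom s v ∈ D.accept} }, ?_⟩
  ext w
  have h1 : ∀ w, w ∈ D.accepts ↔ P w := fun w => by rw [hD]; rfl
  have h2 : w ∈ (lg fun w => ∃ v, P (w ++ v)) ↔ ∃ v, P (w ++ v) := Iff.rfl
  rw [h2, DFA.mem_accepts]
  have e : ∀ v, D.eval (w ++ v) = D.evalFrom (D.evalFrom D.start w) v := fun v => by
    rw [DFA.eval, DFA.evalFrom_of_append]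
  constructor
  · rintro ⟨v, hv⟩
    refine ⟨v, (h1 _).1 ?_⟩
    rw [DFA.mem_accepts, e v]
    exact hv
  · rintro ⟨v, hv⟩
    refine ⟨v, ?_⟩
    have := (h1 _).2 hv
    rw [DFA.mem_accepts, e v] at this
    exact this

end reg

variable {α : Type*} {S V : Type*} [Monoid S] [Finite S] [AddCommGroup V] [Finite V] [Finite α]
variable {d : Dat α S V}

theorem UU_reg (hW : (lg d.Wo).IsRegular) : (lg fun w => w ∈ UU d).IsRegular := by
  have hF : (lg fun w => d.Wo w ∧ d.z0 ≤ w.length).IsRegular := rand hW (rlen _)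
  have hC := isRegular_cat hF (rlen (α := α) 1)
  refine rcongr (rand hF (rnot hC)) fun w => ?_
  constructor
  · rintro ⟨h1, h2, h3⟩
    refine ⟨⟨h1, h2⟩, ?_⟩
    rintro ⟨u, v, rfl, ⟨h4, h5⟩, h6⟩
    refine h3 u.length h5 (by rw [List.length_append]; omega) ?_
    rw [List.take_left' rfl]
    exact h4
  · rintro ⟨⟨h1, h2⟩, h3⟩
    refine ⟨h1, h2, ?_⟩
    intro t ht1 ht2 hw
    apply h3
    refine ⟨w.take t, w.drop t, List.take_append_drop t w, ⟨hw, ?_⟩, ?_⟩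
    · rw [List.length_take]; omega
    · rw [List.length_drop]; omega

/-- regularity of the zone map -/
theorem eps_reg (f : α → S) (hφ : ∀ w, d.φ w = (w.map f).prod) (hp : d.p0 ≤ d.z0)
    (hnu : ∀ g, (lg fun w => d.nu1 w = g).IsRegular) (hW : (lg d.Wo).IsRegular) (x y : V) :
    (lg fun w => w ∈ UU d ∧ eps d w x = y).IsRegular := by
  have h1 : ∀ c : V, (lg fun u : List α => u.length ≤ d.p0 ∧ (u.length = d.p0 ∧
      d.act x (d.φ u) + d.nu2 u = c)).IsRegular := fun c => rfin _ _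
  have h2 : ∀ c : V, (lg fun v : List α => ∃ g : V, d.nu1 v = g ∧
      d.act c ((v.map f).prod) + g = y).IsRegular := fun c =>
    rex fun g => rand (hnu g) (isRegular_monoid f (fun s => d.act c s + g = y))
  have h3 := rex fun c : V => isRegular_cat (h1 c) (h2 c)
  refine rcongr (rand (UU_reg hW) h3) fun w => ?_
  constructor
  · rintro ⟨hw, he⟩
    refine ⟨hw, ?_⟩
    have hl := hw.2.1
    refine ⟨d.act x (d.φ (w.take d.p0)) + d.nu2 (w.take d.p0), w.take d.p0, w.drop d.p0,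
      List.take_append_drop _ _, ⟨?_, ?_, rfl⟩, d.nu1 (w.drop d.p0), rfl, ?_⟩
    · rw [List.length_take]; omega
    · rw [List.length_take]; omega
    · rw [← hφ]; exact he
  · rintro ⟨hw, c, u, v, rfl, ⟨-, h4, h5⟩, g, h6, h7⟩
    refine ⟨hw, ?_⟩
    unfold eps
    rw [List.take_left' h4, List.drop_left' h4, h5, h6, hφ]
    exact h7

theorem P1_reg (x : V) : (lg fun w => w ∈ P1 d x).IsRegular := by
  refine rcongr (rfin (d.p0 + d.N) (fun w => w ∈ P1 d x)) fun w => ?_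
  exact ⟨fun h => ⟨h.2.1, h⟩, fun h => h.2⟩

theorem P2_reg (hc : ∀ k < d.K, d.c k ≤ d.p0) (x : V) : (lg fun w => w ∈ P2 d x).IsRegular := by
  refine rcongr (rfin d.p0 (fun w => w ∈ P2 d x)) fun w => ?_
  constructor
  · rintro ⟨k, hk, h1, h2⟩
    exact ⟨h1 ▸ hc k hk, k, hk, h1, h2⟩
  · exact fun h => h.2

instance (m : ℕ) : Finite {l : List α // l.length ≤ m} := (List.finite_length_le α m).to_subtype

section
variable (f : α → S) (hφ : ∀ w, d.φ w = (w.map f).prod) (hp : d.p0 ≤ d.z0)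
    (hnu : ∀ g, (lg fun w => d.nu1 w = g).IsRegular) (hW : (lg d.Wo).IsRegular)
include hφ hp hnu hW

theorem R1_reg (y : V) : (lg fun w => w ∈ R1 d y).IsRegular := by
  have h1 : (lg fun q => ∃ p : {l : List α // l.length ≤ d.p0 + d.N}, p.1 ++ q ∈ UU d).IsRegular :=
    rex fun p => rquot (UU_reg hW) p.1
  have h2 : (lg fun q => ∀ x : V, ∀ p : {l : List α // l.length ≤ d.p0 + d.N}, p.1 ∈ P1 d x →
      (p.1 ++ q ∈ UU d ∧ eps d (p.1 ++ q) x = y)).IsRegular := by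
    refine rall fun x => rall fun p => ?_
    by_cases hpx : p.1 ∈ P1 d x
    · refine rcongr (rquot (eps_reg f hφ hp hnu hW x y) p.1) fun w => ?_
      exact ⟨fun h => h hpx, fun h _ => h⟩
    · exact rcongr rtrue fun w => ⟨fun _ => trivial, fun _ h => absurd h hpx⟩
  refine rcongr (rand h1 h2) fun w => ?_
  constructor
  · rintro ⟨⟨p, g1, g2⟩, g3⟩
    exact ⟨⟨⟨p, g1⟩, g2⟩, fun x p hpx => g3 x p.1 hpx⟩
  · rintro ⟨⟨p, g2⟩, g3⟩
    exact ⟨⟨p.1, p.2, g2⟩, fun x p hpx => g3 x ⟨p, hpx.2.1⟩ hpx⟩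

theorem Bd_reg : (lg fun w => w ∈ Bd d).IsRegular := by
  have h1 : (lg fun w => ∃ x y : V, (w ∈ UU d ∧ eps d w x = y) ∧
      ¬ ∃ P Q, P ++ Q = w ∧ P ∈ P1 d x ∧ Q ∈ R1 d y).IsRegular :=
    rex fun x => rex fun y => rand (eps_reg f hφ hp hnu hW x y)
      (rnot (isRegular_cat (P1_reg x) (R1_reg f hφ hp hnu hW y)))
  refine rcongr h1 fun w => ?_
  constructor
  · rintro ⟨h2, x, h3⟩
    refine ⟨x, _, ⟨h2, rfl⟩, ?_⟩
    rintro ⟨P, Q, e, h4, h5⟩
    exact h3 ⟨P, Q, e.symm, h4, h5⟩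
  · rintro ⟨x, y, ⟨h2, rfl⟩, h3⟩
    refine ⟨h2, x, ?_⟩
    rintro ⟨P, Q, e, h4, h5⟩
    exact h3 ⟨P, Q, e.symm, h4, h5⟩

theorem R2_reg (hc : ∀ k < d.K, d.c k ≤ d.p0) (y : V) : (lg fun w => w ∈ R2 d y).IsRegular := by
  have hUU := UU_reg hW
  have h0 : (lg fun q => ∃ p : {l : List α // l.length ≤ d.p0},
      ∃ z1 z2, z1 ++ z2 = p.1 ++ q ∧ z1 ∈ UU d ∧ z2 ∈ UU d).IsRegular :=
    rex fun p => rquot (isRegular_cat hUU hUU) p.1
  have hB := Bd_reg f hφ hp hnu hW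
  have h1 : (lg fun w => (∃ z v, z ++ v = w ∧ z ∈ Bd d ∧ True) ∨ ∃ v, w ++ v ∈ Bd d).IsRegular :=
    ror (isRegular_cat hB rtrue) (rpref hB)
  have h2 : ∀ x : V, (lg fun w => ∃ c : V, ∃ z1 z2, z1 ++ z2 = w ∧
      (z1 ∈ UU d ∧ eps d z1 x = c) ∧ (z2 ∈ UU d ∧ eps d z2 c = y)).IsRegular := fun x =>
    rex fun c => isRegular_cat (eps_reg f hφ hp hnu hW x c) (eps_reg f hφ hp hnu hW c y)
  have h3 : (lg fun q => ∀ x : V, ∀ p : {l : List α // l.length ≤ d.p0}, p.1 ∈ P2 d x →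
      ((∃ z v, z ++ v = p.1 ++ q ∧ z ∈ Bd d ∧ True) ∨ ∃ v, p.1 ++ q ++ v ∈ Bd d) →
        ∃ c : V, ∃ z1 z2, z1 ++ z2 = p.1 ++ q ∧
      (z1 ∈ UU d ∧ eps d z1 x = c) ∧ (z2 ∈ UU d ∧ eps d z2 c = y)).IsRegular := by
    refine rall fun x => rall fun p => ?_
    by_cases hpx : p.1 ∈ P2 d x
    · refine rcongr (rimp (rquot h1 p.1) (rquot (h2 x) p.1)) fun w => ?_
      exact ⟨fun h => h hpx, fun h _ => h⟩
    · exact rcongr rtrue fun w => ⟨fun _ => trivial, fun _ h => absurd h hpx⟩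
  refine rcongr (rand h0 h3) fun w => ?_
  have hcmp : ∀ u : List α, (∃ z ∈ Bd d, Cmp z u) ↔
      ((∃ z v, z ++ v = u ∧ z ∈ Bd d ∧ True) ∨ ∃ v, u ++ v ∈ Bd d) := by
    intro u
    constructor
    · rintro ⟨z, hz, ⟨v, rfl⟩ | ⟨v, rfl⟩⟩
      · exact Or.inl ⟨z, v, rfl, hz, trivial⟩
      · exact Or.inr ⟨v, hz⟩
    · rintro (⟨z, v, rfl, hz, -⟩ | ⟨v, hv⟩)
      · exact ⟨z, hz, Or.inl ⟨v, rfl⟩⟩
      · exact ⟨_, hv, Or.inr ⟨v, rfl⟩⟩
  constructor
  · rintro ⟨⟨p, g1, z1, gz1, z2, gz2, g2⟩, g3⟩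
    refine ⟨⟨⟨p, g1⟩, z1, z2, g2.symm, gz1, gz2⟩, ?_⟩
    intro x p hpx hb
    obtain ⟨a1, b1, a2, b2, b3, b4⟩ := g3 x p.1 hpx ((hcmp _).2 hb)
    exact ⟨_, a1, a2, b3.symm, ⟨b1, rfl⟩, b2, b4⟩
  · rintro ⟨⟨p, z1, z2, g2, gz1, gz2⟩, g3⟩
    refine ⟨⟨p.1, p.2, z1, gz1, z2, gz2, g2.symm⟩, ?_⟩
    intro x p hpx hb
    have hl : p.length ≤ d.p0 := by
      obtain ⟨k, hk, h1, -⟩ := hpx
      exact h1 ▸ hc k hk
    obtain ⟨c, a1, a2, b3, ⟨b1, rfl⟩, b2, b4⟩ := g3 x ⟨p, hl⟩ hpx ((hcmp _).1 hb)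
    exact ⟨a1, b1, a2, b2, b3.symm, b4⟩

end

end Crest.Agent.R320.JointC_91
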