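import Crest.Agent.R320.JointC_680

/-!
# Row 320: concrete instance of `Main_621.Data`, part D (helper680): heights and assembly
-/

set_option autoImplicit false

namespace Crest.Agent.R320.Joint_680

open Crest.Agent.R320.Hk_851 Crest.Agent.R320.Star_621 Crest.Agent.R320.Two_621
  Crest.Agent.R320.Main_621

variable {α : Type}
variable {Wo : List α → Prop} {n W z N p0 : ℕ} {BadT : ℕ → Prop}
variable {S : Type} [Monoid S] [Finite S]

instance : Finite (Tm S) := by
  have : Finite (Function.End (Option (Tok S))) :=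
    inferInstanceAs (Finite (Option (Tok S) → Option (Tok S)))
  exact Finite.of_equiv _ MulOpposite.opEquiv

theorem fin_LA [Finite α] {ph : List α → S} {lam rho : List α → Option (Tok S)}
    {nu1 : List α → Tok S} (hG : G1 ph N BadT lam rho nu1) (v : Tok S) :
    Set.Finite (LA p0 ph lam v : Set (List α)) := by
  refine Set.Finite.subset (List.finite_length_le α (p0 + N)) ?_
  rintro P ⟨h1, h2⟩
  have := hG.len _ _ h2
  rw [List.length_drop] at this
  show P.length ≤ p0 + N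
  omega

theorem fin_LB [Finite α] {K L : ℕ} {x : ℕ → ℕ} {lamB : ℕ → List α → Option (Tok (Tm S))}
    (hL : ∀ k < K, x k ≤ L) (v : Tok (Tm S)) :
    Set.Finite (LB K x lamB v : Set (List α)) := by
  refine Set.Finite.subset (List.finite_length_le α (L + 1)) ?_
  rintro P ⟨k, hk, h1, h2⟩
  have := hL k hk
  show P.length ≤ L + 1
  omega

theorem HL_RA {ph : List α → S} {lam : List α → Option (Tok S)}
    {nu1 : List α → Tok S} (hfin : ∀ v, Set.Finite (LA p0 ph lam v : Set (List α)))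
    (hA : ∀ v w, HL 1 ({X | X ∈ ZZ Wo z ∧ aff ph (dA Wo z p0 ph nu1) X v = w} : Language α))
    (τ : Tok S) : HL 1 (RA Wo z p0 ph lam nu1 τ) :=
  HL.iInter (fun v => HL.biInter (hfin v) fun P _ => (hA v τ).lquot P)

theorem HL_cut {LA RA : Tok S → Language α} (hLA : ∀ v, HL 1 (LA v)) (hRA : ∀ τ, HL 1 (RA τ))
    (v : Tok S) : HL 1 ({X | Cut LA RA v X} : Language α) := by
  refine (HL.iUnion fun τ => (hLA v).mul (hRA τ)).congr fun w => ?_
  constructor
  · rintro ⟨P, Q, τ, h1, h2, h3⟩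
    exact ⟨τ, Language.mem_mul.2 ⟨P, h2, Q, h3, h1.symm⟩⟩
  · rintro ⟨τ, h⟩
    obtain ⟨P, h2, Q, h3, h1⟩ := Language.mem_mul.1 h
    exact ⟨P, Q, τ, h1.symm, h2, h3⟩

theorem HL_th {ph : List α → S} {lam : List α → Option (Tok S)} {nu1 : List α → Tok S}
    (hZ : HL 1 (ZZ Wo z))
    (hA : ∀ v w, HL 1 ({X | X ∈ ZZ Wo z ∧ aff ph (dA Wo z p0 ph nu1) X v = w} : Language α))
    (hcut : ∀ v, HL 1 ({X | Cut (LA p0 ph lam) (RA Wo z p0 ph lam nu1) v X} : Language α))
    (m : Tm S) : HL 1 ({X | X ∈ ZZ Wo z ∧ th Wo z p0 ph lam nu1 X = m} : Language α) := by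
  classical
  have h1 : ∀ v : Tok S, HL 1 ({X | X ∈ ZZ Wo z ∧
      (th Wo z p0 ph lam nu1 X).unop (some v) = m.unop (some v)} : Language α) := by
    intro v
    have h2 : HL 1 ({X | (Cut (LA p0 ph lam) (RA Wo z p0 ph lam nu1) v X ∧
        (none : Option (Tok S)) = m.unop (some v)) ∨
        (¬ Cut (LA p0 ph lam) (RA Wo z p0 ph lam nu1) v X ∧ ∃ w : Tok S,
          (X ∈ ZZ Wo z ∧ aff ph (dA Wo z p0 ph nu1) X v = w) ∧ some w = m.unop (some v))} :
          Language α) :=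
      ((hcut v).setOf_and (HL.const _)).setOf_or
        ((hcut v).setOf_not.setOf_and (HL.iUnion fun w => (hA v w).setOf_and (HL.const _)))
    refine (hZ.setOf_and h2).congr fun X => ?_
    constructor
    · rintro ⟨hX, hX2⟩
      refine ⟨hX, ?_⟩
      by_cases hc : Cut (LA p0 ph lam) (RA Wo z p0 ph lam nu1) v X
      · left
        refine ⟨hc, ?_⟩
        rw [← hX2]; exact (stepA_cut hc).symm
      · right
        refine ⟨hc, _, ⟨hX, rfl⟩, ?_⟩
        rw [← hX2]; exact (stepA_uncut hc).symm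
    · rintro ⟨hX, ⟨hc, h3⟩ | ⟨hc, w, ⟨-, h4⟩, h3⟩⟩
      · exact ⟨hX, (stepA_cut hc).trans h3⟩
      · refine ⟨hX, (stepA_uncut hc).trans ?_⟩
        rw [h4]; exact h3
  have h2 : HL 1 ({X | X ∈ ZZ Wo z ∧ ((none : Option (Tok S)) = m.unop none ∧
      ∀ v, X ∈ ({X | X ∈ ZZ Wo z ∧
      (th Wo z p0 ph lam nu1 X).unop (some v) = m.unop (some v)} : Language α))} :
      Language α) := hZ.setOf_and ((HL.const _).setOf_and (HL.iInter h1))
  refine h2.congr fun X => ?_
  constructor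
  · rintro ⟨hX, rfl⟩
    exact ⟨hX, rfl, fun v => ⟨hX, rfl⟩⟩
  · rintro ⟨hX, h3, h4⟩
    refine ⟨hX, MulOpposite.unop_injective (funext fun o => ?_)⟩
    rcases o with _ | v
    · exact h3
    · exact (h4 v).2

theorem HL_yy {ph : List α → S} {lam : List α → Option (Tok S)} {nu1 : List α → Tok S}
    (hZ : HL 1 (ZZ Wo z))
    (hth : ∀ m : Tm S, HL 1 ({X | X ∈ ZZ Wo z ∧ th Wo z p0 ph lam nu1 X = m} : Language α))
    (y : S → Tm S) : HL 1 ({Y | yy Wo z p0 ph lam nu1 Y = y} : Language α) := by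
  classical
  have h1 : ∀ m : Tm S, HL 1 ({X | thZ Wo z p0 ph lam nu1 X = m} : Language α) := by
    intro m
    refine ((hth m).setOf_or (hZ.setOf_not.setOf_and (HL.const ((1 : Tm S) = m)))).congr
      fun X => ?_
    by_cases hX : X ∈ ZZ Wo z
    · constructor
      · intro h
        have h' : thZ Wo z p0 ph lam nu1 X = m := h
        rw [thZ, if_pos hX] at h'
        exact Or.inl ⟨hX, h'⟩
      · rintro (⟨-, h⟩ | ⟨h, -⟩)
        · show thZ Wo z p0 ph lam nu1 X = m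
          rw [thZ, if_pos hX]; exact h
        · exact absurd hX h
    · constructor
      · intro h
        have h' : thZ Wo z p0 ph lam nu1 X = m := h
        rw [thZ, if_neg hX] at h'
        exact Or.inr ⟨hX, h'⟩
      · rintro (⟨h, -⟩ | ⟨-, h⟩)
        · exact absurd h hX
        · show thZ Wo z p0 ph lam nu1 X = m
          rw [thZ, if_neg hX]; exact h
  have h2 : ∀ g : S, HL 1 ({Y | yy Wo z p0 ph lam nu1 Y g = y g} : Language α) := by
    intro g
    by_cases hex : ∃ X : List α, X.length = p0 ∧ ph X = g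
    · refine ((h1 (y g)).lquot hex.choose).congr fun Y => ?_
      show yy Wo z p0 ph lam nu1 Y g = y g ↔ thZ Wo z p0 ph lam nu1 (hex.choose ++ Y) = y g
      rw [yy, dif_pos hex]
    · refine (HL.const ((1 : Tm S) = y g)).congr fun Y => ?_
      show yy Wo z p0 ph lam nu1 Y g = y g ↔ (1 : Tm S) = y g
      rw [yy, dif_neg hex]
  exact (HL.iInter h2).congr fun Y => funext_iff

theorem HL_psi [Finite α] {ph : List α → S} {lam : List α → Option (Tok S)}
    {nu1 : List α → Tok S} {nuB : List α → (S → Tm S) → Tok (Tm S)} (hz : p0 ≤ z)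
    (hC : HL 1 (ZC Wo z N p0 BadT))
    (hth : ∀ m : Tm S, HL 1 ({X | X ∈ ZZ Wo z ∧ th Wo z p0 ph lam nu1 X = m} : Language α))
    (hyy : ∀ y : S → Tm S, HL 1 ({Y | yy Wo z p0 ph lam nu1 Y = y} : Language α))
    (v τ : Tok (Tm S)) :
    HL 1 ({X | X ∈ ZC Wo z N p0 BadT ∧ psiB Wo z p0 ph lam nu1 nuB X v = τ} : Language α) := by
  have hfin : Set.Finite {X : List α | X.length = p0} := List.finite_length_eq α p0
  refine (hC.setOf_and (HL.iUnion fun m : Tm S => HL.biUnion hfin fun X0 _ =>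
    HL.iUnion fun y : S → Tm S => ((hth m).setOf_and
      ((HL.word X0).mul (hyy y))).setOf_and (HL.const (act v m + nuB X0 y = τ)))).congr
      fun X => ?_
  constructor
  · rintro ⟨hX, h⟩
    refine ⟨hX, th Wo z p0 ph lam nu1 X, X.take p0, ?_, yy Wo z p0 ph lam nu1 (X.drop p0),
      ⟨?_, ?_⟩, h⟩
    · obtain ⟨t, h1, -⟩ := hX
      have := h1.1
      have := h1.2.1
      show (X.take p0).length = p0
      rw [List.length_take]; omega
    · obtain ⟨t, h1, h2, -⟩ := hX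
      exact ⟨⟨t, h1, h2⟩, rfl⟩
    · exact Language.mem_mul.2 ⟨X.take p0, rfl, X.drop p0, rfl, List.take_append_drop p0 X⟩
  · rintro ⟨hX, m, X0, hX0, y, ⟨⟨-, h1⟩, h2⟩, h3⟩
    refine ⟨hX, ?_⟩
    obtain ⟨A, hA, Y, hY, rfl⟩ := Language.mem_mul.1 h2
    have hA' : A = X0 := hA
    subst hA'
    have hY' : yy Wo z p0 ph lam nu1 Y = y := hY
    have hl : A.length = p0 := hX0
    show psiB Wo z p0 ph lam nu1 nuB (A ++ Y) v = τ
    have h3' : act v m + nuB A y = τ := h3
    rw [psiB, aff, h1, dB, List.take_left' hl, List.drop_left' hl, hY', h3']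

theorem HL_RB [Finite α] {K : ℕ} {x : ℕ → ℕ} {lamB : ℕ → List α → Option (Tok (Tm S))}
    {psi : List α → Tok (Tm S) → Tok (Tm S)}
    (hfin : ∀ v, Set.Finite (LB K x lamB v : Set (List α)))
    (hWo : HL 1 ({X | Wo X} : Language α)) (hT : HL 1 (TB Wo z N p0 BadT))
    (hC : HL 1 (ZC Wo z N p0 BadT))
    (hpsi : ∀ v τ, HL 1 ({X | X ∈ ZC Wo z N p0 BadT ∧ psi X v = τ} : Language α))
    (τ : Tok (Tm S)) : HL 1 (RB Wo z N p0 BadT K x lamB psi τ) := by
  have h1 : HL 1 ({X | ∃ X' ∈ ZC Wo z N p0 BadT, ∃ y, y ≠ [] ∧ X = X' ++ y} : Language α) := by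
    refine (hC.mul (HL.length_ge (α := α) (k := 1) 1)).congr fun X => ?_
    constructor
    · rintro ⟨X', h1, y, h2, rfl⟩
      exact Language.mem_mul.2 ⟨X', h1, y, List.length_pos_iff.2 h2, rfl⟩
    · intro h
      obtain ⟨X', h1, y, h2, rfl⟩ := Language.mem_mul.1 h
      exact ⟨X', h1, y, List.length_pos_iff.1 h2, rfl⟩
  have h2 : ∀ v, HL 1 ({X | Wo X ∧ z ≤ X.length ∧ X ∉ TB Wo z N p0 BadT ∧
      (¬ ∃ X' ∈ ZC Wo z N p0 BadT, ∃ y, y ≠ [] ∧ X = X' ++ y) ∧
      (X ∈ ZC Wo z N p0 BadT → psi X v = τ)} : Language α) := by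
    intro v
    have h3 : HL 1 ({X | X ∈ ZC Wo z N p0 BadT → psi X v = τ} : Language α) :=
      (HL.setOf_imp (p := fun X => X ∈ ZC Wo z N p0 BadT) hC (hpsi v τ)).congr fun X =>
        ⟨fun h hX => ⟨hX, h hX⟩, fun h hX => (h hX).2⟩
    exact hWo.setOf_and ((HL.length_ge z).setOf_and ((HL.setOf_not
      (p := fun X => X ∈ TB Wo z N p0 BadT) hT).setOf_and (h1.setOf_not.setOf_and h3)))
  exact HL.iInter (fun v => HL.biInter (hfin v) fun P _ => (h2 v).lquot P)

/-- **The joint.** -/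
theorem data [Finite α] (f : α → S) (h : LW Wo n W) {K L C0 T0 R : ℕ} {x : ℕ → ℕ}
    {lam rho : List α → Option (Tok S)} {nu1 : List α → Tok S}
    (hG : G1 (fun w : List α => (w.map f).prod) N BadT lam rho nu1)
    {lamB : ℕ → List α → Option (Tok (Tm S))}
    {rhoB : ℕ → List α → (S → Tm S) → Option (Tok (Tm S))}
    {nuB : List α → (S → Tm S) → Tok (Tm S)}
    (hL : ∀ k < K, x k ≤ L) (hLp : L + 1 ≤ p0) (hW : 2 * N + 2 * L ≤ W)
    (hz : p0 + n + 2 * N + L + 1 ≤ z) (hsp : Sp N K x)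
    (hthin : ∀ T, T0 ≤ T → (PB BadT K x T).card ≤ C0) (hT0 : p0 + T0 + L ≤ z)
    (hR : 3 * C0 + 2 ≤ R)
    (hB1 : ∀ k < K, ∀ (P Q : List α) (y : S → Tm S) (v b : Tok (Tm S)), P.length = x k + 1 →
      lamB k P = some v → rhoB k Q y = some b →
      b = act v (y (((P ++ Q).map f).prod)) + nuB (P ++ Q) y)
    (hB2 : ∀ (u : List α) (y : S → Tm S) (v : Tok (Tm S)), (∀ k < K, x k + 1 ≤ u.length) →
      ∃ I : Finset ℕ, R ≤ I.card ∧ ∀ k ∈ I, k < K ∧ lamB k (u.take (x k + 1)) = some v ∧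
        (rhoB k (u.drop (x k + 1)) y).isSome)
    (hZ : HL 1 (ZZ Wo z)) (hC : HL 1 (ZC Wo z N p0 BadT)) (hT : HL 1 (TB Wo z N p0 BadT))
    (hWo : HL 1 ({X | Wo X} : Language α))
    (hA : ∀ v w, HL 1 ({X | X ∈ ZZ Wo z ∧
      aff (fun w : List α => (w.map f).prod) (dA Wo z p0 (fun w => (w.map f).prod) nu1) X v = w} :
        Language α))
    (hrest : ∀ s : S, HL 3 ({w | (∀ X ∈ ZZ Wo z, ¬ X <+: w) ∧ (w.map f).prod = s} :
      Language α)) :
    Data (fun w : List α => (w.map f).prod) := by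
  have hm : ∀ a b : List α, (fun w : List α => (w.map f).prod) (a ++ b) =
    (fun w : List α => (w.map f).prod) a * (fun w : List α => (w.map f).prod) b := by
    intro a b; simp
  have hRA := HL_RA (fin_LA (p0 := p0) hG) hA
  have hLA : ∀ v, HL 1 (LA p0 (fun w : List α => (w.map f).prod) lam v) :=
    fun v => HL.finite (fin_LA hG v)
  have hth := HL_th hZ hA (HL_cut hLA hRA)
  have hyy := HL_yy hZ hth
  have hpsi := HL_psi (nuB := nuB) (by omega) hC hth hyy
  refine ⟨ZZ Wo z, ZC Wo z N p0 BadT, dA Wo z p0 (fun w => (w.map f).prod) nu1,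
    LA p0 (fun w => (w.map f).prod) lam, RA Wo z p0 (fun w => (w.map f).prod) lam nu1,
    dB Wo z p0 (fun w => (w.map f).prod) lam nu1 nuB, LB K x lamB,
    RB Wo z N p0 BadT K x lamB (psiB Wo z p0 (fun w => (w.map f).prod) lam nu1 nuB),
    code, ?_, hZ, hC, soundA (by omega), hLA, hRA, ?_, soundB,
    fun v => HL.finite (fin_LB hL v), HL_RB (fin_LB hL) hWo hT hC hpsi, ?_, hrest⟩
  · rintro X ⟨t, h1, h2, -⟩
    exact ⟨t, h1, h2⟩
  · intro X hX hX' v
    exact compA h hm hG (by omega) hX hX' v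
  · intro X hX v
    exact compB h hm hL hLp hW (by omega) hsp hthin hT0 hR hB1 hB2 hX v

end Crest.Agent.R320.Joint_680
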