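import Crest.Agent.R320.Grid_390
import Crest.Agent.R320.Thin_963

/-!
Row 320: the closed gadget of scheme 1 on all words (693's nested grids) with ruler, thinness,
period and locality (772's literal `UGI` with 440's correction).
-/

set_option autoImplicit false

namespace Crest.Agent.R320.UGI_390

open Finset Crest.Agent.R320.Grid_390

/-- The ruler part. -/
theorem primes (k B : ℕ) (hB : 2 ≤ B) : ∃ q : Fin k → ℕ, Function.Injective q ∧
    (∀ j, (q j).Prime) ∧ (∀ j, B < q j) ∧ (∀ j, Odd (q j)) := by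
  refine ⟨fun j => Nat.nth Nat.Prime (B + j), ?_, ?_, ?_, ?_⟩
  · intro i j h
    have := Nat.nth_injective Nat.infinite_setOfPred_prime h
    exact Fin.ext (by omega)
  · intro j
    exact Nat.prime_nth_prime _
  · intro j
    have := Nat.add_two_le_nth_prime (B + j)
    show B < Nat.nth Nat.Prime (B + j)
    omega
  · intro j
    have h1 := Nat.add_two_le_nth_prime (B + j)
    exact (Nat.prime_nth_prime (B + j)).odd_of_ne_two (by
      show Nat.nth Nat.Prime (B + j) ≠ 2
      omega)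

theorem sum_le (Mq κ : ℕ) (hκ : 1 ≤ κ) (i : ℕ) :
    ∑ j ∈ range (i + 1), Mq * G κ j ≤ 2 * (Mq * G κ i) := by
  induction i with
  | zero => simp; omega
  | succ i ih =>
    rw [Finset.sum_range_succ]
    have h1 : 2 * G κ i ≤ G κ (i + 1) := by
      unfold G
      calc 2 * 2 ^ (κ * i) = 2 ^ (κ * i + 1) := by rw [pow_succ]; ring
        _ ≤ 2 ^ (κ * (i + 1)) := Nat.pow_le_pow_right (by norm_num) (by nlinarith)
    have h2 : Mq * (2 * G κ i) ≤ Mq * G κ (i + 1) := Nat.mul_le_mul_left _ h1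
    nlinarith

theorem grow (K Mq κ : ℕ) (hκ : K + 5 + Mq ≤ κ) (i : ℕ) :
    2 ^ (K + 4) * ∑ j ∈ range (i + 1), Mq * G κ j ≤ G κ (i + 1) := by
  have h1 := sum_le Mq κ (by omega) i
  have h2 : Mq ≤ 2 ^ Mq := Nat.lt_two_pow_self.le
  calc 2 ^ (K + 4) * ∑ j ∈ range (i + 1), Mq * G κ j
      ≤ 2 ^ (K + 4) * (2 * (2 ^ Mq * G κ i)) :=
        Nat.mul_le_mul_left _ (h1.trans (Nat.mul_le_mul_left _ (Nat.mul_le_mul_right _ h2)))
    _ = 2 ^ (K + 5 + Mq) * G κ i := by rw [pow_add, pow_add, pow_add]; ring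
    _ ≤ 2 ^ κ * G κ i := Nat.mul_le_mul_right _ (Nat.pow_le_pow_right (by norm_num) hκ)
    _ = G κ (i + 1) := by unfold G; rw [← pow_add]; congr 1; ring

open Classical in
theorem ugi (S V : Type*) [Monoid S] [Finite S] [AddCommGroup V] [Finite V] (act : V → S → V) :
    ∃ C0 : ℕ, ∀ K : ℕ, ∃ (N1 Pm La : ℕ) (c : ℕ → ℕ) (Bad : ℕ → Prop),
      0 < N1 ∧ N1 ≤ La ∧ 0 < Pm ∧ (∀ i j, i < j → c i < c j) ∧ (∀ i, i < K → c i ≤ La) ∧
      (∀ i j k l, i < K → j < K → k < K → l < K → i ≠ j → k ≠ l → ¬ (i = k ∧ j = l) →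
        c i + c l + 4 * N1 < c k + c j ∨ c k + c j + 4 * N1 < c i + c l) ∧
      (∀ T, Bad (T + Pm) ↔ Bad T) ∧
      (∀ T, La ≤ T → ∀ F : Finset (ℕ × ℕ), (∀ p ∈ F, p.1 < K ∧ p.2 < K ∧ p.1 ≠ p.2 ∧
        Bad (T + c p.2 - c p.1)) → F.card ≤ C0) ∧
      (∀ T, La ≤ T → (((range K) ×ˢ (range K)).filter (fun p => p.1 ≠ p.2 ∧
        Bad (T + c p.2 - c p.1))).card ≤ C0) ∧
      ∀ (α : Type*) (phi : List α → S), (∀ u v, phi (u ++ v) = phi u * phi v) →
        ∃ (lam rho : List α → Option V) (nu : List α → V),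
          (∀ p v, lam p = some v → p.length ≤ N1) ∧
          (∀ p v, lam p = some v → p ≠ []) ∧
          (∀ q b, rho q = some b → N1 ≤ q.length) ∧
          (∀ p q v b, lam p = some v → rho q = some b → b = act v (phi (p ++ q)) + nu (p ++ q)) ∧
          (∀ u : List α, La ≤ u.length → ¬ Bad u.length →
            ∀ v, ∃ p q, p ++ q = u ∧ lam p = some v ∧ (rho q).isSome) ∧
          (∀ u u' : List α, La ≤ u.length → La ≤ u'.length → u.take La = u'.take La →
            u.length % Pm = u'.length % Pm → phi (u.drop La) = phi (u'.drop La) →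
            rho u = rho u' ∧ nu u = nu u') := by
  obtain ⟨k, m, H⟩ := grid_gadget S V act
  refine ⟨k + m, fun K => ?_⟩
  obtain ⟨q, hqi, hqp, hqB, hqo⟩ := primes k (2 ^ (K + 1) + 1)
    (by have : 0 < 2 ^ (K + 1) := by positivity
        omega)
  have hcop : Pairwise (fun i j => Nat.Coprime (q i) (q j)) := by
    intro i j hij
    exact (Nat.coprime_primes (hqp i) (hqp j)).2 fun h => hij (hqi h)
  set Mq := ∏ j, q j with hMq
  have hMqpos : 0 < Mq := Finset.prod_pos fun j _ => (hqp j).pos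
  set κ := K + 5 + Mq with hκ
  set La0 := Am Mq κ (m + 1) with hLa0
  set N1 := Am Mq κ (m + 1) with hN1
  let Ms : Finset ℕ := univ.image q
  let Gz : ℕ → ℤ := fun i => (G κ i : ℤ)
  let cz : ℕ → ℤ := fun i => ((Mq * G κ i : ℕ) : ℤ)
  let Az : ℕ → ℤ := fun i => (Am Mq κ i : ℤ)
  have hGpos : ∀ i, 0 < G κ i := fun i => G_pos i
  obtain ⟨X, hX1, hX0, hthin⟩ := Thin963.thin K m Ms Gz cz Az
    (by
      intro p hp
      obtain ⟨j, -, rfl⟩ := Finset.mem_image.1 hp
      exact ⟨hqp j, by have := hqB j; omega⟩)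
    (by
      intro p hp
      obtain ⟨j, -, rfl⟩ := Finset.mem_image.1 hp
      rw [show Gz m = ((G κ m : ℕ) : ℤ) from rfl, Nat.isCoprime_iff_coprime]
      exact Nat.Coprime.pow_right _ ((Nat.coprime_two_right).2 (hqo j)))
    (by show (0 : ℤ) < (G κ m : ℤ); exact_mod_cast hGpos m)
    (by
      intro i j hij
      show (G κ i : ℤ) ∣ (G κ j : ℤ)
      exact_mod_cast G_dvd hij)
    (by intro i; show (0:ℤ) < ((Mq * G κ i : ℕ) : ℤ); exact_mod_cast Nat.mul_pos hMqpos (hGpos i))
    (by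
      intro i
      show (G κ i : ℤ) ∣ ((Mq * G κ i : ℕ) : ℤ)
      exact_mod_cast Dvd.intro_left Mq rfl)
    (by
      intro i _
      have := grow K Mq κ le_rfl i
      show (2:ℤ) ^ (K + 4) * ∑ j ∈ range (i + 1), ((Mq * G κ j : ℕ) : ℤ) ≤ (G κ (i + 1) : ℤ)
      exact_mod_cast this)
    (4 * N1 + 1 : ℤ)
  obtain ⟨x, rfl⟩ := Int.eq_ofNat_of_zero_le hX0.le
  have hx1 : 4 * N1 + 1 ≤ x := by exact_mod_cast hX1
  set c : ℕ → ℕ := fun i => x * 2 ^ i with hc
  set La := 2 * Am Mq κ (m + 1) + N1 + x * 2 ^ K with hLa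
  let Bad : ℕ → Prop := fun T => Thin963.BadT Ms m Gz cz Az (T : ℤ)
  have hMscard : Ms.card ≤ k := by
    have := Finset.card_image_le (s := (univ : Finset (Fin k))) (f := q)
    simpa using this
  have hcnt : ∀ T, La ≤ T → ∀ F : Finset (ℕ × ℕ), (∀ p ∈ F, p.1 < K ∧ p.2 < K ∧ p.1 ≠ p.2 ∧
        Bad (T + c p.2 - c p.1)) → F.card ≤ k + m := by
    intro T hT F hF
    have h1 := hthin (T : ℤ)
    have h2 : (F.image Prod.swap).card = F.card :=
      Finset.card_image_of_injective _ Prod.swap_injective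
    have h3 : F.image Prod.swap ⊆ ((range K) ×ˢ (range K)).filter (fun p => p.1 ≠ p.2 ∧
        Thin963.BadT Ms m Gz cz Az ((T:ℤ) + ((x:ℕ):ℤ) * 2^p.1 - ((x:ℕ):ℤ) * 2^p.2)) := by
      intro p hp
      obtain ⟨p', hp', rfl⟩ := Finset.mem_image.1 hp
      obtain ⟨a1, a2, a3, a4⟩ := hF p' hp'
      rw [Finset.mem_filter, Finset.mem_product, Finset.mem_range, Finset.mem_range]
      refine ⟨⟨a2, a1⟩, fun h => a3 h.symm, ?_⟩
      have hle : c p'.1 ≤ T + c p'.2 := by
        have : c p'.1 ≤ x * 2 ^ K :=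
          Nat.mul_le_mul_left _ (Nat.pow_le_pow_right (by norm_num) a1.le)
        omega
      have e1 : ((T + c p'.2 - c p'.1 : ℕ) : ℤ) = (T:ℤ) + (x:ℤ) * 2 ^ p'.2 - (x:ℤ) * 2 ^ p'.1 := by
        rw [Nat.cast_sub hle]
        simp only [hc]
        push_cast
        ring
      have a5 : Thin963.BadT Ms m Gz cz Az ((T + c p'.2 - c p'.1 : ℕ) : ℤ) := a4
      rw [e1] at a5
      simpa using a5
    have h4 := Finset.card_le_card h3
    rw [h2] at h4
    exact h4.trans (h1.trans (by omega))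
  have hAmpos : 0 < Am Mq κ (m + 1) := by
    have h6 := Am_mono (Ms := Mq) (κ := κ) (show 1 ≤ m + 1 by omega)
    have h7 : 0 < Am Mq κ 1 := by
      show 0 < Am Mq κ 0 + G κ 0 + Mq * G κ 0
      have := hGpos 0
      omega
    omega
  refine ⟨N1, Mq * G κ m, La, c, Bad, hAmpos, by omega, Nat.mul_pos hMqpos (hGpos m), ?_, ?_, ?_,
    ?_, hcnt, ?_, ?_⟩
  · intro i j hij
    have hxpos : 0 < x := by omega
    exact Nat.mul_lt_mul_of_pos_left (Nat.pow_lt_pow_right (by norm_num) hij) hxpos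
  · intro i hi
    have : x * 2 ^ i ≤ x * 2 ^ K := Nat.mul_le_mul_left _ (Nat.pow_le_pow_right (by norm_num) hi.le)
    simp only [hc]
    omega
  · intro i j k' l hi hj hk hl hij hkl hne
    have hd : ((2:ℤ) ^ i - 2 ^ j) - (2 ^ k' - 2 ^ l) ≠ 0 := by
      intro h
      exact hne (G369.pow_diff hij hkl (by linarith [h]))
    have hx1' : (4 * (N1:ℤ) + 1) ≤ (x:ℤ) := by exact_mod_cast hx1
    rcases lt_or_gt_of_ne hd with h | h
    · left
      have h2 : ((2:ℤ) ^ i - 2 ^ j) - (2 ^ k' - 2 ^ l) ≤ -1 := by omega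
      have h3 : (x:ℤ) * (((2:ℤ) ^ i - 2 ^ j) - (2 ^ k' - 2 ^ l)) ≤ -(x:ℤ) := by nlinarith
      have : ((c i + c l + 4 * N1 : ℕ) : ℤ) < ((c k' + c j : ℕ) : ℤ) := by
        simp only [hc]
        push_cast
        nlinarith
      exact_mod_cast this
    · right
      have h2 : 1 ≤ ((2:ℤ) ^ i - 2 ^ j) - (2 ^ k' - 2 ^ l) := by omega
      have h3 : (x:ℤ) ≤ (x:ℤ) * (((2:ℤ) ^ i - 2 ^ j) - (2 ^ k' - 2 ^ l)) := by nlinarith
      have : ((c k' + c j + 4 * N1 : ℕ) : ℤ) < ((c i + c l : ℕ) : ℤ) := by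
        simp only [hc]
        push_cast
        nlinarith
      exact_mod_cast this
  · intro T
    show Thin963.BadT Ms m Gz cz Az ((T + Mq * G κ m : ℕ) : ℤ) ↔
      Thin963.BadT Ms m Gz cz Az (T : ℤ)
    unfold Thin963.BadT
    refine or_congr ?_ ?_
    · refine exists_congr fun p => and_congr_right fun hp => ?_
      obtain ⟨j, -, rfl⟩ := Finset.mem_image.1 hp
      have hdj : ((q j : ℕ) : ℤ) ∣ ((Mq * G κ m : ℕ) : ℤ) := by
        exact_mod_cast (Finset.dvd_prod_of_mem q (Finset.mem_univ j)).mul_right _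
      push_cast at hdj ⊢
      exact (dvd_add_left hdj)
    · refine exists_congr fun i => and_congr_right fun hi => exists_congr fun e =>
        and_congr_right fun _ => ?_
      have hdj : Gz (i + 1) ∣ ((Mq * G κ m : ℕ) : ℤ) := by
        have h1 : G κ (i + 1) ∣ Mq * G κ m := (G_dvd (by omega)).mul_left _
        show ((G κ (i + 1) : ℕ) : ℤ) ∣ _
        exact_mod_cast h1
      have e1 : ((T + Mq * G κ m : ℕ) : ℤ) - Az (i + 1) + e =
          ((T : ℤ) - Az (i + 1) + e) + ((Mq * G κ m : ℕ) : ℤ) := by push_cast; ring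
      rw [e1]
      exact dvd_add_left hdj
  · intro T hT
    apply hcnt T hT
    intro p hp
    rw [Finset.mem_filter, Finset.mem_product, Finset.mem_range, Finset.mem_range] at hp
    exact ⟨hp.1.1, hp.1.2, hp.2.1, hp.2.2⟩
  · intro α phi hphi
    obtain ⟨lam, rho, nu, h1, h2, h3, h4, h5⟩ := H q hqo hcop κ α phi hphi
    rw [← hMq] at h1 h2 h4 h5
    refine ⟨lam, rho, nu, ?_, fun p v h => (h1 p v h).2, h2, h3, ?_, ?_⟩
    · intro p v h
      have := (h1 p v h).1
      have h6 := Am_mono (Ms := Mq) (κ := κ) (show m ≤ m + 1 by omega)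
      have h7 : p.length < Am Mq κ m := this
      omega
    · intro u hu hb v
      have hb' : ¬ Thin963.BadT Ms m Gz cz Az (u.length : ℤ) := hb
      unfold Thin963.BadT at hb'
      push Not at hb'
      obtain ⟨hb1, hb2⟩ := hb'
      have hAu : ∀ j, j ≤ m + 1 → Am Mq κ j ≤ u.length := by
        intro j hj
        have := Am_mono (Ms := Mq) (κ := κ) hj
        omega
      refine (fun (hh : ∃ P Q, u = P ++ Q ∧ lam P = some v ∧ (rho Q).isSome) => by
        obtain ⟨P, Q, hPQ, hl, hr⟩ := hh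
        exact ⟨P, Q, hPQ.symm, hl, hr⟩) (h4 u (by omega) ?_ ?_ v)
      · intro j hj
        apply hb1 (q j) (Finset.mem_image_of_mem _ (Finset.mem_univ j))
        exact_mod_cast hj
      · intro j hj1 hjm
        obtain ⟨i, rfl⟩ : ∃ i, j = i + 1 := ⟨j - 1, by omega⟩
        have hi : i < m := by omega
        have hA := hAu (i + 1) (by omega)
        simp only [Nat.add_sub_cancel]
        set r := (u.length - Am Mq κ (i + 1)) % G κ (i + 1) with hr
        have hdm := Nat.div_add_mod (u.length - Am Mq κ (i + 1)) (G κ (i + 1))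
        have hrlt : r < G κ (i + 1) := Nat.mod_lt _ (hGpos _)
        have hz : ((u.length : ℤ) - Az (i + 1)) =
            (G κ (i + 1) : ℤ) * ((u.length - Am Mq κ (i + 1)) / G κ (i + 1) : ℕ) + (r : ℤ) := by
          have : ((u.length - Am Mq κ (i + 1) : ℕ) : ℤ) =
            (G κ (i + 1) : ℤ) * ((u.length - Am Mq κ (i + 1)) / G κ (i + 1) : ℕ) + (r : ℤ) := by
            exact_mod_cast hdm.symm
          rw [← this, Nat.cast_sub hA]
        constructor
        · by_contra hlt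
          push Not at hlt
          apply hb2 i hi (-(r:ℤ)) ?_
          · show (G κ (i + 1) : ℤ) ∣ (u.length : ℤ) - Az (i + 1) + -(r:ℤ)
            rw [hz]
            exact ⟨((u.length - Am Mq κ (i + 1)) / G κ (i + 1) : ℕ), by ring⟩
          · show |(-(r:ℤ))| ≤ ((Mq * G κ i : ℕ) : ℤ)
            rw [abs_neg, abs_of_nonneg (by positivity)]
            exact_mod_cast hlt.le
        · by_contra hlt
          push Not at hlt
          apply hb2 i hi ((G κ (i + 1) : ℤ) - r) ?_
          · show (G κ (i + 1) : ℤ) ∣ (u.length : ℤ) - Az (i + 1) + ((G κ (i + 1) : ℤ) - r)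
            rw [hz]
            exact ⟨((u.length - Am Mq κ (i + 1)) / G κ (i + 1) : ℕ) + 1, by ring⟩
          · show |((G κ (i + 1) : ℤ) - r)| ≤ ((Mq * G κ i : ℕ) : ℤ)
            have h8 : (r : ℤ) < (G κ (i + 1) : ℤ) := by exact_mod_cast hrlt
            have h9 : (G κ (i + 1) : ℤ) < (r : ℤ) + ((Mq * G κ i : ℕ) : ℤ) := by exact_mod_cast hlt
            rw [abs_of_nonneg (by linarith)]
            linarith
    · intro u u' hu hu' ht hl hd
      have hLL : La0 ≤ La := by omega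
      have key : ∀ w : List α, w.take La0 = (w.take La).take La0 := by
        intro w
        rw [List.take_take, Nat.min_eq_left hLL]
      have key2 : ∀ w : List α, La ≤ w.length → w.drop La0 = (w.take La).drop La0 ++ w.drop La := by
        intro w hw
        conv_lhs => rw [← List.take_append_drop La w]
        rw [List.drop_append, List.length_take, Nat.min_eq_left hw, Nat.sub_eq_zero_of_le hLL,
          List.drop_zero]
      apply h5 u u' (by omega) (by omega)
      · show u.take La0 = u'.take La0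
        rw [key u, key u', ht]
      · exact hl
      · show phi (u.drop La0) = phi (u'.drop La0)
        rw [key2 u hu, key2 u' hu', hphi, hphi, ht, hd]

end Crest.Agent.R320.UGI_390
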