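import Crest.Agent.R320.JointB_972
import Crest.Agent.R320.UGI_390

/-!
# Row 320: the row from ONE hypothesis, the unconditional gadget on all words (helper972)
-/

set_option autoImplicit false

namespace Crest.Agent.R320.JointD_972

open Crest.Agent.R320.Hk_851 Crest.Agent.R320.Code110 Crest.Agent.R320.ExactR_237
open Crest.Agent.R320.JointA_972 Crest.Agent.R320.JointB_972 Crest.Agent.R320.FewWalls_228
open Crest.Agent.R320 Crest.RegLang

/-- the gadget on all words (772 #13437 with 440's correction) -/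
def UGI (S V : Type) [Monoid S] [AddCommGroup V] (act : V → S → V) : Prop :=
  ∃ C0 : ℕ, ∀ K : ℕ, ∃ (N1 Pm La : ℕ) (c : ℕ → ℕ) (Bad : ℕ → Prop), 0 < Pm ∧
    (∀ i j, i < j → j < K → c i < c j) ∧
    (∀ i j k l, i < K → j < K → k < K → l < K → i ≠ j → k ≠ l → (i, j) ≠ (k, l) →
      c i + c l + 4 * N1 < c k + c j ∨ c k + c j + 4 * N1 < c i + c l) ∧
    (∀ T, Bad (T + Pm) ↔ Bad T) ∧
    (∀ T, La ≤ T → ∀ A : Finset (ℕ × ℕ), (∀ ij ∈ A, ij.1 < K ∧ ij.2 < K ∧ ij.1 ≠ ij.2 ∧
      Bad (T + c ij.2 - c ij.1)) → A.card ≤ C0) ∧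
    ∀ (A : Type) (phi : A → S), ∃ (lam rho : List A → Option V) (nu : List A → V),
      (∀ p v, lam p = some v → p.length ≤ N1) ∧
      (∀ p q v r, lam p = some v → rho q = some r → La ≤ q.length →
        r = act v (pr phi (p ++ q)) + nu (p ++ q)) ∧
      (∀ u : List A, La ≤ u.length → ¬ Bad u.length → ∀ v, ∃ p q, p ++ q = u ∧
        lam p = some v ∧ (rho q).isSome) ∧
      (∀ q q2 : List A, La ≤ q.length → La ≤ q2.length → q.take La = q2.take La →
        q.length % Pm = q2.length % Pm → pr phi (q.drop La) = pr phi (q2.drop La) → nu q = nu q2)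

theorem bad_mod {Bad : ℕ → Prop} {Pm : ℕ} (h : ∀ T, Bad (T + Pm) ↔ Bad T) {a b : ℕ}
    (hab : a % Pm = b % Pm) : Bad a ↔ Bad b := by
  have key : ∀ k T, Bad (T + Pm * k) ↔ Bad T := by
    intro k
    induction k with
    | zero => intro T; simp
    | succ k ih => intro T; rw [Nat.mul_succ, ← Nat.add_assoc, h, ih]
  have h1 := key (a / Pm) (a % Pm)
  have h2 := key (b / Pm) (b % Pm)
  rw [Nat.mod_add_div] at h1 h2
  rw [h1, h2, hab]

variable {α : Type}

theorem rb_zero {V : Type} {k : ℕ} {τ : List α → V → V} (x y : V) :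
    HL k (RB (0 : Language α) τ x y) := by
  refine (HLempty_eq x y).congr fun w => ?_
  constructor
  · intro h
    cases h with
    | nil => exact ⟨rfl, rfl⟩
    | cons hu _ => exact hu.elim
  · rintro ⟨rfl, rfl⟩
    exact Run.nil x

/-- a property of zones determined by bounded data has height one -/
theorem hl_det' [Finite α] {S : Type} [Monoid S] [Finite S] (f : α → S) {p0 La Pm z n : ℕ}
    {St : Set (List α)} (hP : 0 < Pm) (hz : p0 + La ≤ z)
    (hfew : ∀ (L : Language α), L.IsRegular → ∀ r, HL 1 ({w | w ∈ L ∧ nw n St w ≤ r} : Language α))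
    (g : List α → Prop)
    (hg : ∀ X X' : List α, X ∈ XX z (WallU_228.Wo n St) → X' ∈ XX z (WallU_228.Wo n St) →
      X.take p0 = X'.take p0 → (X.drop p0).take La = (X'.drop p0).take La →
      (X.drop p0).length % Pm = (X'.drop p0).length % Pm →
      pr f ((X.drop p0).drop La) = pr f ((X'.drop p0).drop La) → g X → g X') :
    HL 1 ({X | X ∈ XX z (WallU_228.Wo n St) ∧ g X} : Language α) := by
  classical
  let cls : List α → (List α × List α × ℕ × S) := fun X =>
    (X.take p0, (X.drop p0).take La, ((X.drop p0).drop La).length % Pm,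
      pr f ((X.drop p0).drop La))
  have hfin : {κ : List α × List α × ℕ × S | ∃ X0 ∈ XX z (WallU_228.Wo n St), g X0 ∧
      cls X0 = κ}.Finite := by
    refine (((List.finite_length_le α p0).prod ((List.finite_length_le α La).prod
      ((Set.finite_lt_nat Pm).prod (Set.finite_univ (α := S)))))).subset ?_
    rintro κ ⟨X0, -, -, rfl⟩
    refine ⟨?_, ?_, ?_, trivial⟩
    · show (X0.take p0).length ≤ p0
      rw [List.length_take]; omega
    · show ((X0.drop p0).take La).length ≤ La
      rw [List.length_take]; omega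
    · exact Nat.mod_lt _ hP
  refine (HL.biUnion hfin (L := fun κ => {w | w ∈ ((XX z (WallU_228.Wo n St)) ⊓
    ({X | ∃ Y, X = (κ.1 ++ κ.2.1) ++ Y ∧ ([] : List α) <+: Y ∧ Y.length % Pm = κ.2.2.1 ∧
      pr f Y = κ.2.2.2} :
      Language α) : Language α) ∧ nw n St w ≤ z + 1}) fun κ _ => hfew _
      ((Reg_852.HL.isRegular (hl_xx (k := 0))).inf (cls_reg f Pm hP _ _ _ _)) _).congr fun X => ?_
  constructor
  · rintro ⟨h1, h2⟩
    refine ⟨cls X, ⟨X, h1, h2, rfl⟩, ⟨h1, (X.drop p0).drop La, ?_, List.nil_prefix, rfl, rfl⟩,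
      few_xx h1⟩
    show X = (X.take p0 ++ (X.drop p0).take La) ++ (X.drop p0).drop La
    rw [List.append_assoc, List.take_append_drop, List.take_append_drop]
  · rintro ⟨κ, ⟨X0, h1, h2, rfl⟩, ⟨h3, Y, hY, -, h5, h6⟩, -⟩
    have hl0 : (X0.take p0).length = p0 := by rw [List.length_take]; have := h1.1; omega
    have hl1 : ((X0.drop p0).take La).length = La := by
      rw [List.length_take, List.length_drop]; have := h1.1; omega
    have hY' : X = X0.take p0 ++ ((X0.drop p0).take La ++ Y) := by
      rw [← List.append_assoc]; exact hY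
    have e1 : X.take p0 = X0.take p0 := by rw [hY']; exact List.take_left' hl0
    have e2 : X.drop p0 = (X0.drop p0).take La ++ Y := by rw [hY']; exact List.drop_left' hl0
    have e3 : (X.drop p0).take La = (X0.drop p0).take La := by
      rw [e2]; exact List.take_left' hl1
    have e4 : (X.drop p0).drop La = Y := by rw [e2]; exact List.drop_left' hl1
    have h5' : Y.length % Pm = ((X0.drop p0).drop La).length % Pm := h5
    have e5 : (X.drop p0).length % Pm = (X0.drop p0).length % Pm := by
      have a1 : (X.drop p0).length = La + Y.length := by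
        rw [e2, List.length_append, hl1]
      have a2 : (X0.drop p0).length = La + ((X0.drop p0).drop La).length := by
        rw [← hl1, ← List.length_append]
        rw [hl1, List.take_append_drop]
      rw [a1, a2, Nat.add_mod, h5', ← Nat.add_mod]
    exact ⟨h3, hg X0 X h1 h3 e1.symm e3.symm e5.symm (by rw [e4]; exact h6.symm) h2⟩

/-- **main chain for one monoid** -/
theorem main [Finite α] {S : Type} [Monoid S] [Finite S] (f : α → S)
    (hU : UGI S (Two_621.Tok S) Two_621.act) (s : S) :
    HL 3 ({w | (w.map f).prod = s} : Language α) := by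
  classical
  haveI : Fintype S := Fintype.ofFinite S
  obtain ⟨C0, hU⟩ := hU
  obtain ⟨K, hK⟩ := exact_gadget α S (Two_621.Tok S) f Two_621.act (2 * C0 + 2)
  obtain ⟨N1, Pm, La, c, Bad, hPm, hinc, hgol, hper, hthin, hG⟩ := hU K
  obtain ⟨lam, rho, nu1, hl, hs, hc, hnu⟩ := hG α f
  obtain ⟨lam2, rho2, nu2', hs2, hc2⟩ := hK c hinc
  set p0 := (Finset.range K).sup c with hp0
  have hcp : ∀ k < K, c k ≤ p0 := fun k hk => Finset.le_sup (Finset.mem_range.2 hk)
  obtain ⟨n, cc, P, St, hn, hP, hloc, hgap, -, -, hfew⟩ :=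
    WallU_228.walls_full (α := α) (2 * p0 + 2 * N1 + 1)
  set z := 2 * p0 + N1 + La + n + 1 with hz
  set Wo := WallU_228.Wo n St with hWo
  have hW : WRule n (2 * p0 + 2 * N1 + 1) Wo := ⟨hloc, hgap⟩
  have hz0 : 0 < z := by omega
  have hpc : PC (XX z Wo) := xx_pc hz0
  set nu2 : List α → Two_621.Tok S := fun X => nu2' X 1 with hnu2
  set τ := tau f Two_621.act p0 nu2 nu1 with hτdef
  have hXX : ∀ k, HL k (XX z Wo) := fun k => hl_xx
  -- one-zone languages
  have hZT : ∀ x y, HL 1 (ZT (XX z Wo) τ x y) := by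
    intro x y
    refine (hl_det' f (p0 := p0) (La := La) hPm (by omega) hfew (fun X => τ X x = y) ?_).congr
      fun w => Iff.rfl
    intro X X' hX hX' e1 e2 e3 e4 h
    have hl1 := hX.1
    have hl2 := hX'.1
    have h5 : nu1 (X.drop p0) = nu1 (X'.drop p0) :=
      hnu _ _ (by rw [List.length_drop]; omega) (by rw [List.length_drop]; omega) e2 e3 e4
    have h6 : pr f (X.drop p0) = pr f (X'.drop p0) := by
      rw [← List.take_append_drop La (X.drop p0), ← List.take_append_drop La (X'.drop p0),
        pr_append, pr_append, e2, e4]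
    rw [← h, hτdef]
    unfold tau
    rw [e1, h6, h5]
  have hZc : HL 1 (Zc z N1 p0 Wo Bad) := by
    have hB : HL 1 ({X | X ∈ XX z Wo ∧ Bad (X.length - p0)} : Language α) := by
      refine hl_det' f (p0 := p0) (La := La) hPm (by omega) hfew
        (fun X => Bad (X.length - p0)) ?_
      intro X X' hX hX' e1 e2 e3 e4 h
      rw [List.length_drop, List.length_drop] at e3
      exact (bad_mod hper e3).1 h
    refine (((hXX 1).inf (hl_band (n := n) (St := St) (z - N1) (z + N1))).sup hB).congr fun X => ?_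
    constructor
    · rintro ⟨h1, h2 | h2⟩
      · exact Or.inl ⟨h1, h2⟩
      · exact Or.inr ⟨h1, h2⟩
    · rintro (⟨h1, h2⟩ | ⟨h1, h2⟩)
      · exact ⟨h1, Or.inl h2⟩
      · exact ⟨h1, Or.inr h2⟩
  have hZTc : ∀ x y, HL 1 (ZT (Zc z N1 p0 Wo Bad) τ x y) := by
    intro x y
    refine (hZc.inf (hZT x y)).congr fun w => ?_
    constructor
    · rintro ⟨h1, h2⟩; exact ⟨h1, h1.1, h2⟩
    · rintro ⟨h1, h2, h3⟩; exact ⟨h1, h3⟩
  -- level 1: critical chains
  have hfin2 : ∀ x, {p | p ∈ L2 K c lam2 x}.Finite := fun x =>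
    (List.finite_length_le α p0).subset (by
      rintro p ⟨k, hk, hp, -⟩
      show p.length ≤ p0
      rw [hp]; exact hcp k hk)
  have lev1 : ∀ x y, HL 2 (RB (Zc z N1 p0 Wo Bad) τ x y) := by
    intro x y
    refine step_sem (N := 1) (k := 1) (L := L2 K c lam2) (Bad := (0 : Language α)) hpc
      (fun u hu => hu.1) (fun u hu => hu.elim) (hXX 1) hZc hZc.star hZTc (fun x y => rb_zero x y)
      hfin2 ?_ x y
    intro u hu _ x t ht
    rw [pow_one] at ht
    exact comp2 f Two_621.act hW (by omega) (by omega) hcp hinc hgol hthin lam2 rho2 nu2' hs2 hc2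
      nu1 u hu x t ht
  -- level 2: all chains
  have hfin1 : ∀ x, {p | p ∈ L1 f Two_621.act p0 nu2 lam x}.Finite := fun x =>
    (List.finite_length_le α (p0 + N1)).subset (by
      rintro p ⟨h1, h2⟩
      show p.length ≤ p0 + N1
      have := hl _ _ h2
      rw [List.length_drop] at this
      omega)
  have lev2 : ∀ x y, HL 3 (RB (XX z Wo) τ x y) := by
    intro x y
    refine step_sem (N := 0) (k := 2) (L := L1 f Two_621.act p0 nu2 lam)
      (Bad := Zc z N1 p0 Wo Bad) hpc (fun u hu => hu) (fun u hu => hu.1) (hXX 2) (hXX 2)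
      (hXX 2).star (fun x y => (hZT x y).mono (by omega)) lev1 hfin1 ?_ x y
    intro u hu hub x t ht
    rw [pow_zero] at ht
    have ht' : t = [] := ht
    subst ht'
    rw [List.append_nil]
    exact comp1 f Two_621.act hW (by omega) lam rho nu1 nu2 hl hs hc u hu hub x
  -- reading
  have hact0 : ∀ x : Two_621.Tok S, Two_621.act x (1 : S) = x := Two_621.act_one
  have haff : ∀ (w : List α) (x y : Two_621.Tok S), Run (XX z Wo) τ x w y →
      ∃ e, ∀ x', Run (XX z Wo) τ x' w (Two_621.act x' (pr f w) + e) := by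
    intro w x y h
    induction h with
    | nil x =>
      refine ⟨0, fun x' => ?_⟩
      have : Two_621.act x' (pr f ([] : List α)) + 0 = x' := by
        rw [add_zero]; exact Two_621.act_one x'
      rw [this]; exact Run.nil x'
    | @cons x y u w hu _ ih =>
      obtain ⟨e, he⟩ := ih
      refine ⟨Two_621.act (Two_621.act (nu2 (u.take p0)) (pr f (u.drop p0)) +
        nu1 (u.drop p0)) (pr f w) + e, fun x' => ?_⟩
      have h1 := Run.cons (x := x') hu (he (τ u x'))
      have e1 : Two_621.act (τ u x') (pr f w) + e =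
          Two_621.act x' (pr f (u ++ w)) + (Two_621.act (Two_621.act (nu2 (u.take p0))
            (pr f (u.drop p0)) + nu1 (u.drop p0)) (pr f w) + e) := by
        have e2 : pr f (u ++ w) = pr f (u.take p0) * pr f (u.drop p0) * pr f w := by
          rw [← pr_append, List.take_append_drop, ← pr_append]
        rw [e2, hτdef]
        unfold tau
        simp only [Two_621.act_add, Two_621.act_mul, mul_assoc, add_assoc]
      rw [e1] at h1
      exact h1
  have hread : ∀ t : S, HL 3 ({w | w ∈ KStar.kstar (XX z Wo) ∧ pr f w = t} : Language α) := by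
    intro t
    refine (HL.iUnion fun e : Two_621.Tok S => HL.iInter fun x : Two_621.Tok S =>
      lev2 x (Two_621.act x t + e)).congr fun w => ?_
    constructor
    · rintro ⟨h1, h2⟩
      obtain ⟨y, hy⟩ := exists_run (τ := τ) h1 0
      obtain ⟨e, he⟩ := haff w 0 y hy
      exact ⟨e, fun x => by
        show Run (XX z Wo) τ x w (Two_621.act x t + e)
        rw [← h2]; exact he x⟩
    · rintro ⟨e, he⟩
      have he' : ∀ x, Run (XX z Wo) τ x w (Two_621.act x t + e) := he
      refine ⟨(he' 0).mem_star, ?_⟩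
      obtain ⟨e', hee⟩ := haff w 0 _ (he' 0)
      have key : ∀ x, Two_621.act x t + e = Two_621.act x (pr f w) + e' :=
        fun x => (he' x).det hpc (hee x)
      have e1 : e = e' := by
        have := key 0
        rw [Two_621.act_zero, Two_621.act_zero, zero_add, zero_add] at this
        exact this
      exact (Two_621.act_faithful fun x => by
        have := key x
        rw [e1] at this
        exact (add_right_cancel this).symm)
  -- the tail
  have htail : ∀ t : S, HL 3 ({b | (∀ X ∈ XX z Wo, ¬ X <+: b) ∧ pr f b = t} : Language α) := by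
    intro t
    have h1 : HL 0 ({b | ∀ X ∈ XX z Wo, ¬ X <+: b} : Language α) := by
      refine (HL.prefix (hXX 0)).compl.congr fun b => ?_
      constructor
      · rintro h ⟨X, hX, hb⟩; exact h X hX hb
      · intro h X hX hb; exact h ⟨X, hX, hb⟩
    have h2 := hfew _ ((Reg_852.HL.isRegular h1).inf (Reg_852.isRegular_prod f t)) (z + 1)
    refine (h2.mono (by omega)).congr fun b => ?_
    constructor
    · rintro ⟨h3, h4⟩; exact ⟨⟨h3, h4⟩, few_tail h3⟩
    · rintro ⟨⟨h3, h4⟩, -⟩; exact ⟨h3, h4⟩
  -- splitting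
  have hsplit : ∀ (m : ℕ) (w : List α), w.length ≤ m → ∃ a b, w = a ++ b ∧
      a ∈ KStar.kstar (XX z Wo) ∧ ∀ X ∈ XX z Wo, ¬ X <+: b := by
    intro m
    induction m with
    | zero =>
      intro w hw
      refine ⟨[], w, rfl, Language.nil_mem_kstar _, ?_⟩
      rintro X hX ⟨y, rfl⟩
      have := hX.1
      rw [List.length_append] at hw
      omega
    | succ m ih =>
      intro w hw
      by_cases h : ∃ X ∈ XX z Wo, X <+: w
      · obtain ⟨X, hX, y, rfl⟩ := h
        have hXl := hX.1
        rw [List.length_append] at hw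
        obtain ⟨a, b, rfl, ha, hb⟩ := ih y (by omega)
        refine ⟨X ++ a, b, by simp, ?_, hb⟩
        rw [Language.mem_kstar] at ha ⊢
        obtain ⟨l, rfl, hl'⟩ := ha
        refine ⟨X :: l, by simp, ?_⟩
        intro y hy
        rcases List.mem_cons.1 hy with rfl | hy
        · exact hX
        · exact hl' y hy
      · push Not at h
        exact ⟨[], w, rfl, Language.nil_mem_kstar _, h⟩
  refine (HL.iUnion fun p : {p : S × S // p.1 * p.2 = s} =>
    (hread p.1.1).mul (htail p.1.2)).congr fun w => ?_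
  constructor
  · intro hw
    obtain ⟨a, b, rfl, ha, hb⟩ := hsplit w.length w le_rfl
    have hw' : pr f (a ++ b) = s := hw
    refine ⟨⟨(pr f a, pr f b), ?_⟩, ?_⟩
    · rw [← pr_append]; exact hw'
    · exact Language.mem_mul.2 ⟨a, ⟨ha, rfl⟩, b, ⟨hb, rfl⟩, rfl⟩
  · rintro ⟨⟨p, hp⟩, hw⟩
    obtain ⟨a, ⟨-, ha⟩, b, ⟨-, hb⟩, rfl⟩ := Language.mem_mul.1 hw
    show pr f (a ++ b) = s
    rw [pr_append, ha, hb]; exact hp

/-- the gadget holds (390's closed form of 693's grids) -/
theorem ugi (S V : Type) [Monoid S] [Finite S] [AddCommGroup V] [Finite V] (act : V → S → V) :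
    UGI S V act := by
  obtain ⟨C0, H⟩ := UGI_390.ugi S V act
  refine ⟨C0, fun K => ?_⟩
  obtain ⟨N1, Pm, La, c, Bad, -, -, h3, h4, -, h6, h7, h8, -, hG⟩ := H K
  refine ⟨N1, Pm, La, c, Bad, h3, fun i j h _ => h4 i j h, ?_, h7, h8, ?_⟩
  · intro i j k l hi hj hk hl hij hkl hne
    exact h6 i j k l hi hj hk hl hij hkl (fun h => hne (by rw [h.1, h.2]))
  · intro A phi
    obtain ⟨lam, rho, nu, g1, -, -, g4, g5, g6⟩ := hG A (pr phi) (fun u v => pr_append phi u v)
    exact ⟨lam, rho, nu, g1, fun p q v r a b _ => g4 p q v r a b, g5,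
      fun q q2 a b c d e => (g6 q q2 a b c d e).2⟩

/-- **the row for alphabets in `Type`** -/
theorem row [Finite α] (L : Language α) (hL : L.IsRegular) :
    ∃ e : GRegExp α, e.height ≤ 3 ∧ e.lang = L :=
  of_monoid (fun S _ _ f s => main f (ugi S _ _) s) L hL

end Crest.Agent.R320.JointD_972
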