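import Crest.Agent.R320.SemTop_727
import Crest.Agent.R320.P3_943
import Crest.Agent.R320.WallU_228
import Crest.Agent.R320.Geo_131

/-!
Row 320, the joint (helper131): gadget of scheme 1 (`G1`) => HL 3 of all fibres, on ALL words.
-/

set_option autoImplicit false

namespace Crest.Agent.R320.Joint131

open Crest.RegLang Crest.Agent.R320.Hk_851 Crest.Agent.R320.Blk467
  Crest.Agent.R320.FewWalls_228 Crest.Agent.R320.SemTop_727 Crest.Agent.R320.Geo131
  Crest.Agent.R320.WallU_228

/-- the gadget of scheme 1 (only hypothesis) -/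
def G1 (S V : Type) [Monoid S] [AddCommGroup V] (act : V → S → V) : Prop :=
  ∃ C0 : ℕ, ∀ K : ℕ, ∃ (N1 La : ℕ) (c : ℕ → ℕ) (Bad : ℕ → Prop),
    (∀ i j, i < j → j < K → c i < c j) ∧
    (∀ i < K, ∀ j < K, ∀ k < K, ∀ l < K, i ≠ j → k ≠ l →
      c i + c l ≤ c k + c j + 2 * N1 → c k + c j ≤ c i + c l + 2 * N1 → i = k ∧ j = l) ∧
    (∀ T, La ≤ T → ∀ I : Finset (ℕ × ℕ),
      (∀ p ∈ I, p.1 < K ∧ p.2 < K ∧ p.1 ≠ p.2 ∧ Bad (T + c p.2 - c p.1)) → I.card ≤ C0) ∧
    ∀ (A : Type) [Finite A] (f : A → S), ∃ (lam rho : List A → Option V) (nu : List A → V),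
      (∀ P v, lam P = some v → P.length ≤ N1) ∧
      (∀ P Q v r, lam P = some v → rho Q = some r → La ≤ Q.length →
        r = act v (((P ++ Q).map f).prod) + nu (P ++ Q)) ∧
      (∀ u : List A, La ≤ u.length → ¬ Bad u.length → ∀ v, ∃ P Q, P ++ Q = u ∧
        lam P = some v ∧ (rho Q).isSome) ∧
      (∀ x, Language.IsRegular ({u | nu u = x} : Language A))

section HLpart

variable {A : Type} [Finite A]

theorem HL_Wo (k n : ℕ) (S : Set (List A)) : HL k ({w | Wo n S w} : Language A) := by
  have hfin : ({s : List A | s ∈ S ∧ s.length = n}).Finite :=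
    (List.finite_length_eq A n).subset fun s hs => hs.2
  refine (HL.suffix (k := k) (HL.finite (k := k) hfin)).congr fun w => ?_
  constructor
  · rintro ⟨h1, h2⟩
    exact ⟨w.drop (w.length - n), ⟨h2, by rw [List.length_drop]; omega⟩, List.drop_suffix _ _⟩
  · rintro ⟨v, ⟨h1, h2⟩, h3⟩
    obtain ⟨u, rfl⟩ := h3
    refine ⟨by rw [List.length_append]; omega, ?_⟩
    have : (u ++ v).length - n = u.length := by rw [List.length_append]; omega
    rw [this, List.drop_left]
    exact h1

theorem HL_XX (k n z : ℕ) (S : Set (List A)) :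
    HL k ({w | w ∈ XX (Wo n S) z} : Language A) := by
  have hE : HL k ({w | z ≤ w.length ∧ Wo n S w} : Language A) :=
    HL.setOf_and (HL.length_ge z) (HL_Wo k n S)
  have hN : HL k ({w : List A | 1 ≤ w.length} : Language A) := HL.length_ge 1
  refine (hE.inf (hE.mul hN).compl).congr fun w => ?_
  constructor
  · rintro ⟨h1, h2, h3⟩
    refine ⟨⟨h1, h2⟩, ?_⟩
    intro hm
    obtain ⟨a, ⟨ha1, ha2⟩, b, hb, rfl⟩ := Language.mem_mul.1 hm
    have hb' : 1 ≤ b.length := hb
    refine h3 a.length ha1 (by rw [List.length_append]; omega) ?_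
    rw [List.take_left]; exact ha2
  · rintro ⟨⟨h1, h2⟩, h3⟩
    refine ⟨h1, h2, fun t ht1 ht2 hw => h3 ?_⟩
    refine Language.mem_mul.2 ⟨w.take t, ⟨by rw [List.length_take]; omega, hw⟩, w.drop t, ?_,
      List.take_append_drop _ _⟩
    show 1 ≤ (w.drop t).length
    rw [List.length_drop]; omega

theorem nw_le {n z : ℕ} {S : Set (List A)} (w : List A)
    (h : ∀ x, Wl n S w x → x < z ∨ x + n = w.length) : nw n S w ≤ z + 1 := by
  classical
  unfold nw
  refine (Finset.card_le_card (t := Finset.range z ∪ {w.length - n}) ?_).trans ?_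
  · intro x hx
    rw [Finset.mem_filter] at hx
    rcases h x hx.2 with h1 | h1
    · exact Finset.mem_union_left _ (Finset.mem_range.2 h1)
    · exact Finset.mem_union_right _ (by rw [Finset.mem_singleton]; omega)
  · refine (Finset.card_union_le _ _).trans ?_
    simp

theorem nw_XX {n z : ℕ} {S : Set (List A)} {u Y : List A} (h : u ++ Y ∈ XX (Wo n S) z) :
    nw n S Y ≤ z + 1 := by
  refine nw_le Y fun x hx => ?_
  obtain ⟨h1, h2⟩ := wo_take.1 hx
  by_contra hcon
  push Not at hcon
  refine h.2.2 (u.length + (x + n)) (by omega) (by rw [List.length_append]; omega) ?_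
  refine (take_loc (n := n) (fun P Q h => wo_append P Q h) u Y (x + n) (by omega) h1).2 h2

theorem nw_tail {n z : ℕ} {S : Set (List A)} {w : List A}
    (h : ∀ X ∈ XX (Wo n S) z, ¬ X <+: w) : nw n S w ≤ z + 1 := by
  refine nw_le w fun x hx => ?_
  obtain ⟨h1, h2⟩ := wo_take.1 hx
  by_contra hcon
  push Not at hcon
  obtain ⟨X, hX, hp⟩ := exists_first (z := z) (w.take (x + n)) (by rw [List.length_take]; omega) h2
  exact h X hX (hp.trans (List.take_prefix _ _))

end HLpart

theorem finite_short {A : Type} [Finite A] (N : ℕ) (s : Set (List A))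
    (h : ∀ w ∈ s, w.length ≤ N) : s.Finite :=
  (List.finite_length_le A N).subset h

/-- **THE JOINT.** -/
theorem joint (S : Type) [Monoid S] [Finite S]
    (hG : ∀ act : (S → ZMod 2) → S → (S → ZMod 2), G1 S (S → ZMod 2) act)
    (A : Type) [Finite A] (f : A → S) (s : S) :
    HL 3 ({w | (w.map f).prod = s} : Language A) := by
  classical
  haveI := Fintype.ofFinite S
  obtain ⟨act, hadd, hone, hmul, hfaith⟩ := exists_module S
  obtain ⟨C0, hC0⟩ := hG act
  set φ : List A → S := fun w => (w.map f).prod with hφdef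
  have hφ1 : φ [] = 1 := by simp [hφdef]
  have hφm : ∀ u v, φ (u ++ v) = φ u * φ v := by intro u v; simp [hφdef]
  obtain ⟨K, hK⟩ := P3_943.scheme2 (A := A) (S := S) (V := S → ZMod 2) φ hφ1 hφm act (2 + 2 * C0)
  obtain ⟨N1, La, c, Bad, hc, hgol, hcount, hgad⟩ := hC0 K
  obtain ⟨lam1, rho1, nu1, g1, g2, g3, g4⟩ := hgad A f
  obtain ⟨nu2, lam2, hP3⟩ := hK c hc
  set p0 : ℕ := (Finset.range K).sup c with hp0
  have hcp : ∀ k < K, c k ≤ p0 := fun k hk => Finset.le_sup (f := c) (Finset.mem_range.2 hk)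
  obtain ⟨n, cc, Pp, Sw, hn, hPp, hloc, hgap0, -, -, hfew⟩ :=
    walls_full (α := A) (2 * (N1 + p0) + 1)
  set W : List A → Prop := Wo n Sw with hW
  have hgap : ∀ (w : List A) (s t : ℕ), s < t → t ≤ w.length → W (w.take s) → W (w.take t) →
      s + (2 * (N1 + p0) + 1) ≤ t := by
    intro w s t hst ht h1 h2
    by_contra hcon
    push Not at hcon
    have hl : (w.take t).length = t := by rw [List.length_take]; omega
    refine hgap0 (w.take t) (t - s) h2 (by omega) (by omega) ?_
    have e : (w.take t).length - (t - s) = s := by rw [hl]; omega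
    rw [e, List.take_take, min_eq_left hst.le]
    exact h1
  set z : ℕ := 3 * p0 + 3 * N1 + n + La + 1 with hz
  set X0 : Set (List A) := XX W z with hX0
  have hXl : ∀ X ∈ X0, z ≤ X.length := fun X hX => hX.1
  -- prefix code
  have hPC : PCode X0 := by
    refine ⟨fun h => ?_, pcode⟩
    have := hXl _ h
    simp only [List.length_nil] at this
    omega
  have hPC' : ∀ X ∈ X0, ∀ Y, X ++ Y ∈ X0 → Y = [] := by
    intro X hX Y hY
    have := pcode X hX (X ++ Y) hY (List.prefix_append _ _)
    exact List.append_cancel_left (by rw [List.append_nil]; exact this.symm)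
  set BC : List A → Prop := BadC W z p0 N1 Bad with hBC
  -- scheme 2
  obtain ⟨R2, r1, r2, r3⟩ := hP3 p0 X0 BC nu1 hcp (fun X hX => by have := hXl X hX; omega) hPC'
    (by
      intro u u' Q hu hup h
      exact shift_mem hloc p0 0 u u' Q hup (hu ▸ hup) (by omega) (by omega) (by omega) h
        (fun t h1 h2 => by omega))
    (by
      intro k hk k' hk' u u' Q1 X2 hu hu' h1 h2
      have hl2 := hXl X2 h2
      refine exists_first (u ++ (Q1 ++ X2)) ?_ ?_
      · rw [List.length_append, List.length_append]; omega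
      · rw [← List.append_assoc]
        exact (hloc _ X2 (by omega)).2 h2.2.1)
    (by
      intro X hX X2 hX2 _ I hI hR
      exact count hloc hgap K C0 N1 La p0 c Bad hcp hgol hcount (by omega) (by omega) (X ++ X2)
        (by rw [List.length_append]; have := hXl X hX; omega) I hI hR)
  -- the data
  let T : (S → ZMod 2) → List A → (S → ZMod 2) := fun v X => P3_943.TT φ act nu2 nu1 p0 v X
  let D : Sch A (S → ZMod 2) :=
    { XX := X0
      T := T
      L1 := fun x => {P | p0 ≤ P.length ∧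
        lam1 (P.drop p0) = some (act x (φ (P.take p0)) + nu2 (P.take p0))}
      L2 := fun x => {P | ∃ k < K, P.length = c k ∧ lam2 k P = some x} }
  have hL1 : ∀ x, (D.L1 x).Finite := fun x => finite_short (p0 + N1) _ (by
    rintro P ⟨h1, h2⟩
    have := g1 _ _ h2
    rw [List.length_drop] at this
    omega)
  have hL2 : ∀ x, (D.L2 x).Finite := fun x => finite_short p0 _ (by
    rintro P ⟨k, hk, h1, -⟩
    rw [h1]; exact hcp k hk)
  -- scheme 1 is complete off BC
  have hgood : ∀ X ∈ X0, ¬ BC X → X ∈ D.Good := by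
    intro X hX hB
    refine ⟨hX, fun x => ?_⟩
    have hl := hXl X hX
    have hB1 : ∀ t, z ≤ t + N1 → t < z + N1 → t ≤ X.length → ¬ W (X.take t) :=
      fun t h1 h2 h3 h4 => hB (Or.inl ⟨t, h1, h2, h3, h4⟩)
    have hB2 : ¬ Bad (X.drop p0).length := by
      rw [List.length_drop]; exact fun h => hB (Or.inr h)
    obtain ⟨P, Q, e, hP, hQ⟩ := g3 (X.drop p0) (by rw [List.length_drop]; omega) hB2
      (act x (φ (X.take p0)) + nu2 (X.take p0))
    obtain ⟨r, hr⟩ := Option.isSome_iff_exists.1 hQ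
    have hPl := g1 _ _ hP
    have hQl : z ≤ Q.length + N1 + p0 := by
      have := congrArg List.length e
      rw [List.length_append, List.length_drop] at this
      omega
    have hX1 : (X.take p0).length = p0 := by rw [List.length_take]; omega
    have eX : (X.take p0 ++ P) ++ Q = X := by
      rw [List.append_assoc, e, List.take_append_drop]
    have hTX : T x X = r := by
      have := g2 P Q _ r hP hr (by omega)
      show act (act x (φ (X.take p0)) + nu2 (X.take p0)) (φ (X.drop p0)) + nu1 (X.drop p0) = r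
      rw [this, e]
    refine ⟨X.take p0 ++ P, ⟨by rw [List.length_append]; omega, ?_⟩, Q, ?_, eX⟩
    · have e1 : (X.take p0 ++ P).take p0 = X.take p0 := by
        rw [List.take_append_of_le_length (by omega), List.take_of_length_le (by omega)]
      have e2 : (X.take p0 ++ P).drop p0 = P := by
        rw [List.drop_append, List.drop_of_length_le (by omega), List.nil_append, hX1, Nat.sub_self,
          List.drop_zero]
      rw [e1, e2]; exact hP
    · intro x' P' hP'
      obtain ⟨q1, q2⟩ := hP'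
      have q3 := g1 _ _ q2
      rw [List.length_drop] at q3
      have hmem : P' ++ Q ∈ X0 := by
        refine shift_mem hloc (p0 + N1) N1 (X.take p0 ++ P) P' Q
          (by rw [List.length_append]; omega) (by omega)
          (by rw [List.length_append]; omega) (by rw [List.length_append]; omega) (by omega)
          (by rw [eX]; exact hX) ?_
        rw [eX]
        exact hB1
      refine ⟨hmem, ?_⟩
      show T x' (P' ++ Q) = T x X
      rw [hTX]
      have e1 : (P' ++ Q).take p0 = P'.take p0 := List.take_append_of_le_length q1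
      have e2 : (P' ++ Q).drop p0 = P'.drop p0 ++ Q := List.drop_append_of_le_length q1
      have := g2 (P'.drop p0) Q _ r q2 hr (by omega)
      show act (act x' (φ ((P' ++ Q).take p0)) + nu2 ((P' ++ Q).take p0)) (φ ((P' ++ Q).drop p0))
        + nu1 ((P' ++ Q).drop p0) = r
      rw [e1, e2, this]
  -- scheme 2 in semantic form
  have hC2 : ∀ X1 ∈ D.Bad, ∀ X2 ∈ D.Bad, ∀ x, ∃ P ∈ D.L2 x, ∃ Q ∈ D.R2 (D.T (D.T x X1) X2),
      P ++ Q = X1 ++ X2 := by
    intro X1 hX1 X2 hX2 x
    have hbc : BC X1 := by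
      by_contra h
      exact hX1.2 (hgood X1 hX1.1 h)
    obtain ⟨P, Q, e, hPl, hP, hQ⟩ := r3 X1 hX1.1 X2 hX2.1 hbc x
    obtain ⟨b, hb⟩ := Option.isSome_iff_exists.1 hQ
    have huniq : ∀ X ∈ X0, X <+: X1 ++ X2 → X = X1 := by
      intro X hX hp
      rcases List.prefix_or_prefix_of_prefix hp (List.prefix_append X1 X2) with h | h
      · exact hPC.2 X hX X1 hX1.1 h
      · exact (hPC.2 X1 hX1.1 X hX h).symm
    have hbe : T (T x X1) X2 = b := by
      obtain ⟨Q1, Y2, e1, e2, e3, e4, e5⟩ := r2 P x Q b hP hb (by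
        intro X hX hp
        rw [← e] at hp
        rw [huniq X hX hp]; exact hbc)
      have h1 : P ++ Q1 = X1 := huniq _ e3 ⟨Y2, by rw [e, e1, List.append_assoc]⟩
      have h2 : Y2 = X2 := by
        have : X1 ++ Y2 = X1 ++ X2 := by rw [e, e1, ← List.append_assoc, h1]
        exact List.append_cancel_left this
      rw [h1, h2] at e5
      exact e5
    refine ⟨P, hP, Q, ?_, e.symm⟩
    intro x' P' hP'
    by_cases hg : ∃ X ∈ D.Good, X <+: P' ++ Q
    · exact Or.inr (Or.inl hg)
    push Not at hg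
    obtain ⟨Q1, Y2, e1, e2, e3, e4, e5⟩ := r2 P' x' Q b hP' hb (by
      intro X hX hp
      by_contra h
      exact hg X (hgood X hX h) hp)
    have hb1 : P' ++ Q1 ∈ D.Bad := ⟨e3, fun h => hg _ h ⟨Y2, by rw [e1, List.append_assoc]⟩⟩
    by_cases h2 : Y2 ∈ D.Good
    · exact Or.inr (Or.inr ⟨_, hb1, Y2, h2, by rw [e1, List.append_assoc]⟩)
    · refine Or.inl ⟨_, hb1, Y2, ⟨e4, h2⟩, by rw [e1, List.append_assoc], ?_⟩
      show T (T x' (P' ++ Q1)) Y2 = T (T x X1) X2
      rw [hbe]
      exact e5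
  -- few walls
  have hregφ : ∀ t : S, HL 1 ({w | nw n Sw w ≤ z + 1 ∧ φ w = t} : Language A) := by
    intro t
    have hreg : Language.IsRegular ({w | (w.map f).prod = t} : Language A) := by
      have key : ∀ (w : List A) (m : S), w.foldl (fun (m : S) b => m * f b) m =
          m * (w.map f).prod := by
        intro w
        induction w with
        | nil => intro m; simp
        | cons a w ih => intro m; simp [ih, mul_assoc]
      let M : DFA A S := ⟨fun m b => m * f b, 1, {t}⟩
      refine ⟨S, inferInstance, M, ?_⟩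
      ext w
      rw [DFA.mem_accepts]
      show w.foldl (fun (m : S) b => m * f b) 1 = t ↔ (w.map f).prod = t
      rw [key, one_mul]
    exact (hfew _ hreg (z + 1)).congr fun w => ⟨fun h => ⟨h.2, h.1⟩, fun h => ⟨h.2, h.1⟩⟩
  have hregnu : ∀ t, HL 1 ({w | nw n Sw w ≤ z + 1 ∧ nu1 w = t} : Language A) := by
    intro t
    exact (hfew _ (g4 t) (z + 1)).congr fun w => ⟨fun h => ⟨h.2, h.1⟩, fun h => ⟨h.2, h.1⟩⟩
  have hHX : HL 1 ({w | w ∈ X0} : Language A) := HL_XX 1 n z Sw
  have hfib : ∀ x y, HL 1 (D.fib x y) := by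
    intro x y
    let BB : List A → Language A := fun X1 => ({Y | X1 ++ Y ∈ ({w | w ∈ X0} : Language A) ∧
        ∃ p : S × (S → ZMod 2), (act (act x (φ X1) + nu2 X1) p.1 + p.2 = y) ∧
          ((nw n Sw Y ≤ z + 1 ∧ φ Y = p.1) ∧ (nw n Sw Y ≤ z + 1 ∧ nu1 Y = p.2))} :
          Language A)
    have hin : ∀ X1 : List A, HL 1 (BB X1) := by
      intro X1
      refine HL.setOf_and (hHX.lquot X1) ?_
      refine HL.iUnion (k := 1) (ι := S × (S → ZMod 2)) (L := fun p =>
        ({Y | (act (act x (φ X1) + nu2 X1) p.1 + p.2 = y) ∧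
          ((nw n Sw Y ≤ z + 1 ∧ φ Y = p.1) ∧ (nw n Sw Y ≤ z + 1 ∧ nu1 Y = p.2))} :
          Language A)) fun p => ?_
      exact HL.setOf_and (HL.const _) (HL.setOf_and (hregφ p.1) (hregnu p.2))
    refine (HL.biUnion (k := 1) (List.finite_length_eq A p0)
      (L := fun X1 => ({X1} : Language A) * BB X1)
      (fun X1 _ => (HL.word X1).mul (hin X1))).congr fun w => ?_
    constructor
    · rintro ⟨h1, h2⟩
      have hl := hXl w h1
      have hw : w.take p0 ++ w.drop p0 = w := List.take_append_drop _ _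
      have hnw : nw n Sw (w.drop p0) ≤ z + 1 := nw_XX (u := w.take p0) (by rw [hw]; exact h1)
      refine ⟨w.take p0, ?_, ?_⟩
      · show (w.take p0).length = p0
        rw [List.length_take]; omega
      · refine Language.mem_mul.2 ⟨w.take p0, rfl, w.drop p0, ⟨?_, ?_⟩, hw⟩
        · show w.take p0 ++ w.drop p0 ∈ X0
          rw [hw]; exact h1
        · exact ⟨(φ (w.drop p0), nu1 (w.drop p0)), h2, ⟨hnw, rfl⟩, ⟨hnw, rfl⟩⟩
    · rintro ⟨X1, hX1, hm⟩
      obtain ⟨a, ha, Y, ⟨hY1, p, hY2, ⟨-, hY3⟩, ⟨-, hY4⟩⟩, rfl⟩ := Language.mem_mul.1 hm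
      have ha' : a = X1 := ha
      subst ha'
      have hal : a.length = p0 := hX1
      refine ⟨hY1, ?_⟩
      show act (act x (φ ((a ++ Y).take p0)) + nu2 ((a ++ Y).take p0)) (φ ((a ++ Y).drop p0))
        + nu1 ((a ++ Y).drop p0) = y
      rw [← hal, List.take_left, List.drop_left, hY3, hY4]
      exact hY2
  -- assemble
  refine SemTop_727.top (k := 1) act hadd hone hmul hfaith f
    (fun X => act (nu2 (X.take p0)) (φ (X.drop p0)) + nu1 (X.drop p0)) D ?_ hPC hfib hL1 hL2 hC2 ?_ s
  · intro v X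
    show act (act v (φ (X.take p0)) + nu2 (X.take p0)) (φ (X.drop p0)) + nu1 (X.drop p0) = _
    rw [hadd, ← hmul, ← hφm, List.take_append_drop, add_assoc]
  · intro t
    refine HL.mono (k := 1) (by omega) ?_
    refine (HL.setOf_and (hHX.prefix.compl) (hregφ t)).congr fun w => ?_
    constructor
    · rintro ⟨h1, h2⟩
      refine ⟨?_, nw_tail h1, h2⟩
      rintro ⟨X, hX, hp⟩
      exact h1 X hX hp
    · rintro ⟨h1, -, h2⟩
      exact ⟨fun X hX hp => h1 ⟨X, hX, hp⟩, h2⟩

end Crest.Agent.R320.Joint131
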