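import Mathlib

set_option linter.unusedSectionVars false

/-!
# Row 320: both wall schemes with the natural chain rule, on the left-looking block code
(helper14).  Conclusions `s1`, `s2`, `cc` are literally those of helper163's `top` (post 13363).

`XX` = words `X` with `z ≤ |X|`, a (left-looking) wall at the end and no wall at a place in
`[z, |X|)`.  Scheme 1 is any gadget `(lam1, rho1, nu1)` sound for all pairs and complete for
`¬ BadT |u|`; scheme 2 is the exact gadget `(lam2, rho2, nu2)` at the places `x k ≤ p0`.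
-/

set_option autoImplicit false

namespace Crest.Agent.R320.Joint_14

open Finset

/-- left-looking wall rule -/
structure WRule {α : Type*} (Wo : List α → Prop) (n G : ℕ) : Prop where
  app : ∀ P Q : List α, n ≤ Q.length → (Wo (P ++ Q) ↔ Wo Q)
  len : ∀ Q, Wo Q → n ≤ Q.length
  sep : ∀ X Y : List α, Wo (X ++ Y) → Y ≠ [] → Y.length ≤ G → ¬ Wo X

/-- the data -/
structure Dat (α S V : Type*) where
  φ : List α → S
  act : V → S → V
  Wo : List α → Prop
  n : ℕ
  G : ℕ
  z : ℕ
  p0 : ℕ
  N1 : ℕ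
  M1 : ℕ
  Tmin : ℕ
  CB : ℕ
  R : ℕ
  K : ℕ
  x : ℕ → ℕ
  lam1 : List α → Option V
  rho1 : List α → Option V
  nu1 : List α → V
  BadT : ℕ → Prop
  lam2 : ℕ → List α → Option V
  rho2 : ℕ → List α → Option V
  nu2 : List α → V

variable {α S V : Type*} [Monoid S] [AddCommGroup V]

namespace Dat

variable (D : Dat α S V)

/-- the block code -/
def XX (X : List α) : Prop :=
  D.z ≤ X.length ∧ D.Wo X ∧ ∀ t, D.z ≤ t → t < X.length → ¬ D.Wo (X.take t)

/-- the zone map -/
def T (v : V) (X : List α) : V :=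
  D.act (D.act v (D.φ (X.take D.p0)) + D.nu2 (X.take D.p0)) (D.φ (X.drop D.p0)) +
    D.nu1 (X.drop D.p0)

def LP1 (P : List α) (v : V) : Prop :=
  D.p0 ≤ P.length ∧
    D.lam1 (P.drop D.p0) = some (D.act v (D.φ (P.take D.p0)) + D.nu2 (P.take D.p0))

def RW (Q : List α) : Prop :=
  D.z ≤ Q.length + D.p0 ∧ D.Wo Q ∧
    ∀ t, t < Q.length → D.z ≤ t + D.p0 + D.N1 → ¬ D.Wo (Q.take t)

open Classical in
noncomputable def R1 (Q : List α) : Option V := if D.RW Q then D.rho1 Q else none

def Zone (k : ℕ) (Q1 : List α) : Prop :=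
  D.z ≤ D.x k + Q1.length ∧ D.Wo Q1 ∧
    ∀ s, s < Q1.length → D.z ≤ D.x k + s → ¬ D.Wo (Q1.take s)

def EAt (k : ℕ) (Q : List α) : Prop :=
  ∃ s, s ≤ Q.length ∧ D.z ≤ D.x k + s + D.N1 ∧ D.x k + s < D.z + D.N1 ∧ D.Wo (Q.take s)

def BAt (k : ℕ) (Q : List α) : Prop :=
  ∃ s, s ≤ Q.length ∧ D.z ≤ D.x k + s ∧ D.Wo (Q.take s) ∧
    (∀ s', s' < s → D.z ≤ D.x k + s' → ¬ D.Wo (Q.take s')) ∧ D.BadT (D.x k + s - D.p0)

def BadAt (k : ℕ) (Q : List α) : Prop := D.EAt k Q ∨ D.BAt k Q

def LP2 (P : List α) (v : V) : Prop := ∃ k, k < D.K ∧ P.length = D.x k ∧ D.lam2 k P = some v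

def R2rel (Q : List α) (b : V) : Prop :=
  ∃ (k : ℕ) (Q1 X2 : List α) (u0 : V), k < D.K ∧ D.BadAt k Q ∧
    (∀ k', k' < D.K → D.BadAt k' Q → k' = k) ∧ Q = Q1 ++ X2 ∧ D.XX X2 ∧ D.Zone k Q1 ∧
    D.rho2 k (Q1.take (D.p0 - D.x k)) = some u0 ∧
    b = D.T (D.act u0 (D.φ (Q1.drop (D.p0 - D.x k))) + D.nu1 (Q1.drop (D.p0 - D.x k))) X2

open Classical in
noncomputable def R2 (Q : List α) : Option V :=
  if h : ∃ b, D.R2rel Q b then some h.choose else none

/-- wall band -/
def EX (X : List α) : Prop :=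
  ∃ t, t ≤ X.length ∧ D.z ≤ t + D.N1 ∧ t < D.z + D.N1 ∧ D.Wo (X.take t)

/-- the blocks which scheme 1 may fail to cut -/
def Bad (X : List α) : Prop := D.EX X ∨ D.BadT (X.length - D.p0)

structure Ok : Prop where
  rule : WRule D.Wo D.n D.G
  hz : 2 * D.p0 + D.N1 + D.n + 1 ≤ D.z
  hM1 : D.M1 + D.p0 ≤ D.z
  hT : D.Tmin + 2 * D.p0 ≤ D.z
  hG : 2 * D.p0 + 2 * D.N1 ≤ D.G
  hx : ∀ k, k < D.K → D.x k ≤ D.p0
  lam1_len : ∀ p v, D.lam1 p = some v → p.length ≤ D.N1
  sound1 : ∀ p q v r, D.lam1 p = some v → D.rho1 q = some r →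
    r = D.act v (D.φ (p ++ q)) + D.nu1 (p ++ q)
  compl1 : ∀ u : List α, D.M1 ≤ u.length → ¬ D.BadT u.length → ∀ v, ∃ p q, p ++ q = u ∧
    D.lam1 p = some v ∧ (D.rho1 q).isSome
  sound2 : ∀ k, k < D.K → ∀ (P Q : List α) (v b : V), P.length = D.x k →
    D.lam2 k P = some v → D.rho2 k Q = some b → b = D.act v (D.φ (P ++ Q)) + D.nu2 (P ++ Q)
  compl2 : ∀ (u : List α) (v : V), u.length = D.p0 → ∃ I : Finset ℕ, D.R ≤ I.card ∧
    ∀ k ∈ I, k < D.K ∧ D.lam2 k (u.take (D.x k)) = some v ∧ (D.rho2 k (u.drop (D.x k))).isSome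
  ruler : ∀ a b c d, a < D.K → b < D.K → c < D.K → d < D.K → a ≠ b → c ≠ d →
    |((D.x a : ℤ) - D.x b) - ((D.x c : ℤ) - D.x d)| ≤ 2 * D.N1 → a = c ∧ b = d
  thin : ∀ T0, D.Tmin ≤ T0 → ∀ J : Finset (ℕ × ℕ),
    (∀ ab ∈ J, ab.1 < D.K ∧ ab.2 < D.K ∧ ab.1 ≠ ab.2 ∧ D.BadT (T0 + D.x ab.2 - D.x ab.1)) →
    J.card ≤ D.CB
  hR : 2 * D.CB + 2 ≤ D.R

variable {D}

theorem XX_ne (hD : Ok D) {X : List α} (h : D.XX X) : X ≠ [] := by
  rintro rfl
  have := hD.hz
  have := h.1
  simp at this
  omega

theorem XX_prefix {X Y : List α} (h : D.XX X) (h' : D.XX (X ++ Y)) : Y = [] := by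
  by_contra hY
  have hl : 0 < Y.length := List.length_pos_iff.2 hY
  refine h'.2.2 X.length h.1 (by rw [List.length_append]; omega) ?_
  rw [List.take_left']
  · exact h.2.1
  · rfl

theorem s1 (hD : Ok D) {P Q : List α} {v b : V} (h1 : D.LP1 P v) (h2 : D.R1 Q = some b) :
    D.XX (P ++ Q) ∧ D.T v (P ++ Q) = b := by
  classical
  obtain ⟨hp, hl⟩ := h1
  have hRW : D.RW Q := by
    unfold R1 at h2
    split_ifs at h2 with h
    exact h
  have hr : D.rho1 Q = some b := by
    unfold R1 at h2
    rwa [if_pos hRW] at h2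
  have hlen := hD.lam1_len _ _ hl
  rw [List.length_drop] at hlen
  obtain ⟨q1, q2, q3⟩ := hRW
  have hz := hD.hz
  have hn := hD.rule.len Q q2
  refine ⟨⟨?_, ?_, ?_⟩, ?_⟩
  · rw [List.length_append]; omega
  · exact (hD.rule.app P Q hn).2 q2
  · intro t ht1 ht2 hw
    rw [List.length_append] at ht2
    have e : (P ++ Q).take t = P ++ Q.take (t - P.length) := by
      rw [List.take_append, List.take_of_length_le (by omega)]
    rw [e] at hw
    have hl2 : (Q.take (t - P.length)).length = t - P.length := by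
      rw [List.length_take]; omega
    rw [hD.rule.app _ _ (by omega)] at hw
    exact q3 (t - P.length) (by omega) (by omega) hw
  · unfold T
    have e1 : (P ++ Q).take D.p0 = P.take D.p0 := List.take_append_of_le_length hp
    have e2 : (P ++ Q).drop D.p0 = P.drop D.p0 ++ Q := List.drop_append_of_le_length hp
    rw [e1, e2]
    exact (hD.sound1 _ _ _ _ hl hr).symm

/-- completeness of scheme 1 off the bad blocks -/
theorem c1 (hD : Ok D) {X : List α} (hX : D.XX X) (hb : ¬ D.Bad X) (v : V) :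
    ∃ P Q, X = P ++ Q ∧ D.LP1 P v ∧ (D.R1 Q).isSome := by
  classical
  have hz := hD.hz
  have hM := hD.hM1
  obtain ⟨x1, x2, x3⟩ := hX
  have hzN : D.z + D.N1 ≤ X.length := by
    by_contra h
    exact hb (Or.inl ⟨X.length, le_rfl, by omega, by omega, by rwa [List.take_length]⟩)
  obtain ⟨p, q, hpq, hl, hr⟩ := hD.compl1 (X.drop D.p0) (by rw [List.length_drop]; omega)
    (by rw [List.length_drop]; exact fun h => hb (Or.inr h))
    (D.act v (D.φ (X.take D.p0)) + D.nu2 (X.take D.p0))
  have hpl := hD.lam1_len _ _ hl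
  have hlen : p.length + q.length = X.length - D.p0 := by
    rw [← List.length_append, hpq, List.length_drop]
  have hX0 : (X.take D.p0).length = D.p0 := by rw [List.length_take]; omega
  have hXe : X = (X.take D.p0 ++ p) ++ q := by
    rw [List.append_assoc, hpq, List.take_append_drop]
  have hPl : (X.take D.p0 ++ p).length = D.p0 + p.length := by
    rw [List.length_append, hX0]
  refine ⟨X.take D.p0 ++ p, q, hXe, ⟨by omega, ?_⟩, ?_⟩
  · rw [List.drop_left' hX0, List.take_left' hX0]
    exact hl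
  · have hRW : D.RW q := by
      refine ⟨by omega, ?_, ?_⟩
      · have := x2
        rw [hXe, hD.rule.app _ _ (by omega)] at this
        exact this
      · intro t ht1 ht2 hw
        have e : X.take (D.p0 + p.length + t) = (X.take D.p0 ++ p) ++ q.take t := by
          conv_lhs => rw [hXe]
          rw [List.take_append, List.take_of_length_le (by omega), hPl]
          congr 2
          omega
        have hlt : (q.take t).length = t := by rw [List.length_take]; omega
        have hw' : D.Wo (X.take (D.p0 + p.length + t)) := by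
          rw [e, hD.rule.app _ _ (by omega)]
          exact hw
        by_cases hc : D.z ≤ D.p0 + p.length + t
        · exact x3 _ hc (by omega) hw'
        · exact hb (Or.inl ⟨_, by omega, by omega, by omega, hw'⟩)
    unfold R1
    rw [if_pos hRW]
    exact hr

/-- a bad block is seen from the right -/
theorem badAt_of_bad (hD : Ok D) {P Q1 Z : List α} {j : ℕ} (hj : j < D.K) (hP : P.length = D.x j)
    (hX : D.XX (P ++ Q1)) (hb : D.Bad (P ++ Q1)) : D.BadAt j (Q1 ++ Z) := by
  have hz := hD.hz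
  have hxj := hD.hx j hj
  obtain ⟨x1, x2, x3⟩ := hX
  rw [List.length_append] at x1
  have key : ∀ s, s ≤ Q1.length → D.n ≤ s → (D.Wo ((P ++ Q1).take (D.x j + s)) ↔
      D.Wo ((Q1 ++ Z).take s)) := by
    intro s hs hn
    have e1 : (P ++ Q1).take (D.x j + s) = P ++ Q1.take s := by
      rw [List.take_append, List.take_of_length_le (by omega), hP]
      congr 2
      omega
    have e2 : (Q1 ++ Z).take s = Q1.take s := List.take_append_of_le_length hs
    have hl : (Q1.take s).length = s := by rw [List.length_take]; omega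
    rw [e1, e2, hD.rule.app _ _ (by omega)]
  rcases hb with ⟨t, t1, t2, t3, t4⟩ | hb
  · left
    rw [List.length_append] at t1
    refine ⟨t - D.x j, by rw [List.length_append]; omega, by omega, by omega, ?_⟩
    rw [← key (t - D.x j) (by omega) (by omega)]
    rwa [show D.x j + (t - D.x j) = t by omega]
  · right
    refine ⟨Q1.length, by rw [List.length_append]; omega, by omega, ?_, ?_, ?_⟩
    · rw [← key Q1.length le_rfl (by omega), ← hP, ← List.length_append, List.take_length]
      exact x2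
    · intro s' h1 h2
      rw [← key s' (by omega) (by omega)]
      exact x3 _ h2 (by rw [List.length_append]; omega)
    · rw [List.length_append, hP] at hb
      exact hb

theorem zone_XX (hD : Ok D) {P Q1 : List α} {k : ℕ} (hk : k < D.K) (hP : P.length = D.x k)
    (hZ : D.Zone k Q1) : D.XX (P ++ Q1) := by
  have hz := hD.hz
  have hxk := hD.hx k hk
  obtain ⟨z1, z2, z3⟩ := hZ
  refine ⟨by rw [List.length_append]; omega, (hD.rule.app _ _ (by omega)).2 z2, ?_⟩
  intro t ht1 ht2 hw
  rw [List.length_append] at ht2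
  have e : (P ++ Q1).take t = P ++ Q1.take (t - P.length) := by
    rw [List.take_append, List.take_of_length_le (by omega)]
  have hl : (Q1.take (t - P.length)).length = t - P.length := by
    rw [List.length_take]; omega
  rw [e, hD.rule.app _ _ (by omega)] at hw
  exact z3 _ (by omega) (by omega) hw

theorem R2_some {Q : List α} {b : V} (h : D.R2 Q = some b) : D.R2rel Q b := by
  classical
  unfold R2 at h
  split_ifs at h with h1
  rw [Option.some.injEq] at h
  rw [← h]
  exact h1.choose_spec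

theorem R2_isSome {Q : List α} {b : V} (h : D.R2rel Q b) : (D.R2 Q).isSome := by
  classical
  unfold R2
  rw [dif_pos ⟨b, h⟩]
  rfl

theorem s2 (hD : Ok D) {P Q : List α} {v b : V} (h1 : D.LP2 P v) (h2 : D.R2 Q = some b)
    (hun : ∀ X, D.XX X → X <+: P ++ Q → ∀ P' Q', X = P' ++ Q' → P.length ≤ P'.length →
      D.LP1 P' v → (D.R1 Q').isSome → False) :
    ∃ Q1 X2, Q = Q1 ++ X2 ∧ Q1 ≠ [] ∧ D.XX (P ++ Q1) ∧ D.XX X2 ∧
      D.T (D.T v (P ++ Q1)) X2 = b := by
  classical
  have hz := hD.hz
  obtain ⟨j, hj, hPj, hlj⟩ := h1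
  have hxj := hD.hx j hj
  obtain ⟨k, Q1, X2, u0, hk, hbk, huk, hQ, hX2, hZ, hrk, hb⟩ := R2_some h2
  have hxk := hD.hx k hk
  -- the true block
  have hend : D.Wo ((P ++ Q).take (P ++ Q).length) := by
    rw [List.take_length, hQ, ← List.append_assoc]
    have := hD.rule.len _ hX2.2.1
    exact (hD.rule.app _ _ this).2 hX2.2.1
  have hzlen : D.z ≤ (P ++ Q).length := by
    have := hX2.1
    rw [hQ]
    simp only [List.length_append]
    omega
  have hex : ∃ t, D.z ≤ t ∧ D.Wo ((P ++ Q).take t) := ⟨_, hzlen, hend⟩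
  set t := Nat.find hex with ht
  obtain ⟨t1, t2⟩ := Nat.find_spec hex
  have tle : t ≤ (P ++ Q).length := Nat.find_min' hex ⟨hzlen, hend⟩
  have tmin : ∀ s, D.z ≤ s → s < t → ¬ D.Wo ((P ++ Q).take s) := by
    intro s hs1 hs2 hw
    exact Nat.find_min hex hs2 ⟨hs1, hw⟩
  have hXlen : ((P ++ Q).take t).length = t := by rw [List.length_take]; omega
  have hXX : D.XX ((P ++ Q).take t) := by
    refine ⟨by rw [hXlen]; exact t1, t2, ?_⟩
    intro s hs1 hs2
    rw [hXlen] at hs2
    rw [List.take_take, min_eq_left (by omega)]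
    exact tmin s hs1 hs2
  have hbad : D.Bad ((P ++ Q).take t) := by
    by_contra hnb
    obtain ⟨P', Q', e, hL, hR⟩ := c1 hD hXX hnb v
    exact hun _ hXX (List.take_prefix _ _) P' Q' e (by have := hL.1; omega) hL hR
  have hPt : (P ++ Q).take t = P ++ Q.take (t - P.length) := by
    rw [List.take_append, List.take_of_length_le (by omega)]
  rw [hPt] at hXX hbad
  have hbj : D.BadAt j Q := by
    have := badAt_of_bad (Z := Q.drop (t - P.length)) hD hj hPj hXX hbad
    rwa [List.take_append_drop] at this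
  have hjk : j = k := huk j hj hbj
  subst hjk
  refine ⟨Q1, X2, hQ, ?_, zone_XX hD hj hPj hZ, hX2, ?_⟩
  · rintro rfl
    have := hZ.1
    simp at this
    omega
  · have e1 : (P ++ Q1).take D.p0 = P ++ Q1.take (D.p0 - D.x j) := by
      rw [List.take_append, List.take_of_length_le (by omega), hPj]
    have e2 : (P ++ Q1).drop D.p0 = Q1.drop (D.p0 - D.x j) := by
      rw [List.drop_append, List.drop_of_length_le (by omega), List.nil_append, hPj]
    have e3 := hD.sound2 j hj _ _ _ _ hPj hlj hrk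
    rw [hb]
    congr 1
    unfold T
    rw [e1, e2, ← e3]

/-- the spoiled places -/
theorem spoil (hD : Ok D) {w : List α} (hw : D.Wo w) (hlen : D.z + D.p0 ≤ w.length)
    (J : Finset ℕ) (hJ : ∀ k ∈ J, k < D.K ∧ ∃ k', k' < D.K ∧ k' ≠ k ∧
      D.BadAt k' (w.drop (D.x k))) : J.card ≤ 2 * D.CB + 1 := by
  classical
  have hz := hD.hz
  have hT := hD.hT
  have hG := hD.hG
  -- walls of `w`
  have key : ∀ k, k < D.K → ∀ s, s ≤ (w.drop (D.x k)).length → D.n ≤ s →
      (D.Wo ((w.drop (D.x k)).take s) ↔ D.Wo (w.take (D.x k + s))) := by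
    intro k hk s hs hn
    have hxk := hD.hx k hk
    rw [List.length_drop] at hs
    have e : w.take (D.x k + s) = w.take (D.x k) ++ (w.drop (D.x k)).take s := by
      rw [List.take_add]
    have hl : ((w.drop (D.x k)).take s).length = s := by
      rw [List.length_take, List.length_drop]; omega
    rw [e, hD.rule.app _ _ (by omega)]
  have sep : ∀ s t, s < t → t ≤ w.length → D.Wo (w.take s) → D.Wo (w.take t) → D.G < t - s := by
    intro s t hst ht h1 h2
    by_contra hc
    have e : w.take t = w.take s ++ (w.take t).drop s := by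
      rw [← List.take_append_drop s (w.take t), List.take_take, min_eq_left (by omega)]
      congr 1
      rw [List.drop_append, List.length_take, min_eq_left (by omega)]
      simp
    have hl : ((w.take t).drop s).length = t - s := by
      rw [List.length_drop, List.length_take]; omega
    rw [e] at h2
    refine hD.rule.sep _ _ h2 ?_ (by omega) h1
    intro h0
    rw [h0] at hl
    simp at hl
    omega
  -- first and second wall
  have hex1 : ∃ σ, D.z ≤ σ + D.p0 ∧ D.Wo (w.take σ) := ⟨w.length, by omega, by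
    rwa [List.take_length]⟩
  set σ1 := Nat.find hex1 with hσ1
  obtain ⟨a1, a2⟩ := Nat.find_spec hex1
  have a3 : ∀ s, D.z ≤ s + D.p0 → D.Wo (w.take s) → σ1 ≤ s := fun s h1 h2 =>
    Nat.find_min' hex1 ⟨h1, h2⟩
  have a4 : σ1 ≤ w.length := a3 _ (by omega) (by rwa [List.take_length])
  obtain ⟨σ2, hσ2⟩ : ∃ σ2, D.z ≤ σ2 + D.p0 ∧ ∀ s, σ1 < s → s ≤ w.length → D.Wo (w.take s) →
      (∀ s', σ1 < s' → s' < s → ¬ D.Wo (w.take s')) → s = σ2 := by
    by_cases h : ∃ s, σ1 < s ∧ D.Wo (w.take s)
    · refine ⟨Nat.find h, ?_, ?_⟩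
      · have := (Nat.find_spec h).1
        omega
      · intro s h1 h2 h3 h4
        have h5 := Nat.find_min' h ⟨h1, h3⟩
        rcases Nat.lt_or_ge (Nat.find h) s with h6 | h6
        · exact absurd (Nat.find_spec h).2 (h4 _ (Nat.find_spec h).1 h6)
        · omega
    · exact ⟨σ1, a1, fun s h1 _ h3 _ => absurd ⟨s, h1, h3⟩ h⟩
  let SB : ℕ → Finset ℕ := fun σ => J.filter fun k => ∃ k', k' < D.K ∧ k' ≠ k ∧
    D.BadT (σ - D.p0 + D.x k' - D.x k)
  let SE : Finset ℕ := J.filter fun k => ∃ k', k' < D.K ∧ k' ≠ k ∧ D.EAt k' (w.drop (D.x k))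
  have hSB : ∀ σ, D.z ≤ σ + D.p0 → (SB σ).card ≤ D.CB := by
    intro σ hσ
    have hch : ∀ k : ℕ, ∃ k', k ∈ SB σ → (k' < D.K ∧ k' ≠ k ∧
        D.BadT (σ - D.p0 + D.x k' - D.x k)) := by
      intro k
      by_cases hk : k ∈ SB σ
      · obtain ⟨k', h⟩ := (Finset.mem_filter.1 hk).2
        exact ⟨k', fun _ => h⟩
      · exact ⟨0, fun h => absurd h hk⟩
    choose f hf using hch
    have hinj : Function.Injective (fun k : ℕ => (k, f k)) := by
      intro a b h
      exact (Prod.mk.inj h).1
    have := hD.thin (σ - D.p0) (by omega) ((SB σ).image fun k => (k, f k)) (by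
      intro ab hab
      obtain ⟨k, hk, rfl⟩ := Finset.mem_image.1 hab
      obtain ⟨h1, h2, h3⟩ := hf k hk
      exact ⟨(hJ k (Finset.mem_filter.1 hk).1).1, h1, h2.symm, h3⟩)
    rwa [Finset.card_image_of_injective _ hinj] at this
  have hSE : SE.card ≤ 1 := by
    rw [Finset.card_le_one]
    intro k hk l hl
    obtain ⟨hkJ, k', hk', hkk, s, s1, s2, s3, s4⟩ := Finset.mem_filter.1 hk
    obtain ⟨hlJ, l', hl', hll, t, t1, t2, t3, t4⟩ := Finset.mem_filter.1 hl
    have hkK := (hJ k hkJ).1
    have hlK := (hJ l hlJ).1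
    have b1 := hD.hx k hkK
    have b2 := hD.hx l hlK
    have b3 := hD.hx k' hk'
    have b4 := hD.hx l' hl'
    rw [key k hkK s s1 (by omega)] at s4
    rw [key l hlK t t1 (by omega)] at t4
    rw [List.length_drop] at s1 t1
    have heq : D.x k + s = D.x l + t := by
      rcases lt_trichotomy (D.x k + s) (D.x l + t) with h | h | h
      · have := sep _ _ h (by omega) s4 t4
        omega
      · exact h
      · have := sep _ _ h (by omega) t4 s4
        omega
    have := hD.ruler k k' l l' hkK hk' hlK hl' hkk.symm hll.symm (by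
      rw [abs_le]
      constructor <;> omega)
    exact this.1
  have hsub : J ⊆ SE ∪ (SB σ1 ∪ SB σ2) := by
    intro k hk
    obtain ⟨hkK, k', hk', hne, hbad⟩ := hJ k hk
    have b1 := hD.hx k hkK
    have b3 := hD.hx k' hk'
    rcases hbad with hE | ⟨s, s1, s2, s3, s4, s5⟩
    · exact Finset.mem_union_left _ (Finset.mem_filter.2 ⟨hk, k', hk', hne, hE⟩)
    · apply Finset.mem_union_right
      have s3' := s3
      rw [key k hkK s s1 (by omega)] at s3'
      rw [List.length_drop] at s1
      have g1 : σ1 ≤ D.x k + s := a3 _ (by omega) s3'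
      have hB : D.BadT (D.x k + s - D.p0 + D.x k' - D.x k) := by
        have : D.x k + s - D.p0 + D.x k' - D.x k = D.x k' + s - D.p0 := by omega
        rwa [this]
      rcases Nat.eq_or_lt_of_le g1 with h | h
      · apply Finset.mem_union_left
        exact Finset.mem_filter.2 ⟨hk, k', hk', hne, by rw [h]; exact hB⟩
      · apply Finset.mem_union_right
        have : D.x k + s = σ2 := by
          apply hσ2.2 _ h (by omega) s3'
          intro s' h1 h2 h3
          have h4 := sep _ _ h1 (by omega) a2 h3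
          apply s4 (s' - D.x k) (by omega) (by omega)
          rw [key k hkK _ (by rw [List.length_drop]; omega) (by omega)]
          rwa [show D.x k + (s' - D.x k) = s' by omega]
        exact Finset.mem_filter.2 ⟨hk, k', hk', hne, by rw [← this]; exact hB⟩
  have c1 := hSB σ1 a1
  have c2 := hSB σ2 hσ2.1
  have c3 := Finset.card_le_card hsub
  have c4 := Finset.card_union_le SE (SB σ1 ∪ SB σ2)
  have c5 := Finset.card_union_le (SB σ1) (SB σ2)
  omega

theorem cc (hD : Ok D) {X X2 : List α} (hX : D.XX X) (hX2 : D.XX X2) (v : V) :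
    (∃ P Q, X = P ++ Q ∧ D.LP1 P v ∧ (D.R1 Q).isSome) ∨
    (∃ P Q, X ++ X2 = P ++ Q ∧ P.length < X.length ∧ D.LP2 P v ∧ (D.R2 Q).isSome) := by
  classical
  by_cases hb : D.Bad X
  · right
    have hz := hD.hz
    have hXl := hX.1
    have hu : (X.take D.p0).length = D.p0 := by rw [List.length_take]; omega
    obtain ⟨I, hI, hI2⟩ := hD.compl2 (X.take D.p0) v hu
    have hW : D.Wo (X ++ X2) := (hD.rule.app _ _ (hD.rule.len _ hX2.2.1)).2 hX2.2.1
    have hwl : D.z + D.p0 ≤ (X ++ X2).length := by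
      have := hX2.1
      rw [List.length_append]
      omega
    let J : Finset ℕ := I.filter fun k => ∃ k', k' < D.K ∧ k' ≠ k ∧
      D.BadAt k' ((X ++ X2).drop (D.x k))
    have hJ : J.card ≤ 2 * D.CB + 1 := spoil hD hW hwl J (by
      intro k hk
      obtain ⟨h1, h2⟩ := Finset.mem_filter.1 hk
      exact ⟨(hI2 k h1).1, h2⟩)
    have hlt : J.card < I.card := by
      have := hD.hR
      omega
    obtain ⟨k, hkI, hkJ⟩ := Finset.exists_mem_notMem_of_card_lt_card hlt
    obtain ⟨hkK, hl, hr⟩ := hI2 k hkI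
    have hxk := hD.hx k hkK
    have hPl : (X.take (D.x k)).length = D.x k := by rw [List.length_take]; omega
    have hdrop : (X ++ X2).drop (D.x k) = X.drop (D.x k) ++ X2 :=
      List.drop_append_of_le_length (by omega)
    have htd : X.take (D.x k) ++ X.drop (D.x k) = X := List.take_append_drop _ _
    refine ⟨X.take (D.x k), X.drop (D.x k) ++ X2, ?_, by omega, ⟨k, hkK, hPl, ?_⟩, ?_⟩
    · rw [← List.append_assoc, htd]
    · rw [List.take_take, min_eq_left hxk] at hl
      exact hl
    · obtain ⟨u0, hu0⟩ := Option.isSome_iff_exists.1 hr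
      refine R2_isSome (b := _) ⟨k, X.drop (D.x k), X2, u0, hkK, ?_, ?_, rfl, hX2, ?_, ?_, rfl⟩
      · exact badAt_of_bad hD hkK hPl (by rwa [htd]) (by rwa [htd])
      · intro k' hk' hbk
        by_contra hne
        apply hkJ
        refine Finset.mem_filter.2 ⟨hkI, k', hk', hne, ?_⟩
        rw [hdrop]
        exact hbk
      · have hnl := hD.rule.len _ hX.2.1
        have key : ∀ s, s ≤ X.length - D.x k → D.n ≤ s → (D.Wo (X.take (D.x k + s)) ↔
            D.Wo ((X.drop (D.x k)).take s)) := by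
          intro s hs hn
          have e1 : X.take (D.x k + s) = X.take (D.x k) ++ (X.drop (D.x k)).take s := by
            rw [List.take_add]
          have hls : ((X.drop (D.x k)).take s).length = s := by
            rw [List.length_take, List.length_drop]; omega
          rw [e1, hD.rule.app _ _ (by omega)]
        have hdl : (X.drop (D.x k)).length = X.length - D.x k := List.length_drop
        refine ⟨by omega, ?_, ?_⟩
        · have := (key (X.length - D.x k) le_rfl (by omega)).1 (by
            rw [show D.x k + (X.length - D.x k) = X.length by omega, List.take_length]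
            exact hX.2.1)
          rwa [← hdl, List.take_length] at this
        · intro s h1 h2
          rw [← key s (by omega) (by omega)]
          exact hX.2.2 _ h2 (by omega)
      · rw [List.drop_take] at hu0
        exact hu0
  · left
    exact c1 hD hX hb v

end Dat

end Crest.Agent.R320.Joint_14
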