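import Crest.Agent.R320.Asm_505
import Crest.Agent.R320.FewVal_228
import Crest.Agent.R320.ExactR_237

/-!
Row 320 (helper174): the joint `gadget + ruler + walls + exact gadget ⟹ two levels` in 505's form,
one token system.
-/

set_option autoImplicit false
set_option linter.all false

namespace Crest.Agent.R320.Joint_174

open Crest.RegLang Crest.Agent.R320.Hk_851 Crest.Agent.R320.Asm_505 Crest.Agent.R320.FewWalls_228
open scoped Classical

/-- configuration -/
structure Cfg (A S V : Type) where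
  f : A → S
  act : V → S → V
  Wo : List A → Prop
  n : ℕ
  z : ℕ
  p0 : ℕ
  s0 : ℕ
  N1 : ℕ
  La : ℕ
  K : ℕ
  W : ℕ
  Lc : ℕ
  C0 : ℕ
  c : ℕ → ℕ
  Bad : ℕ → Prop
  lam : List A → Option V
  rho : List A → Option V
  nu : List A → V
  lam2 : ℕ → List A → Option V
  rho2 : ℕ → List A → Option V
  nu2 : List A → V

variable {A S V : Type} [Monoid S] [AddCommGroup V] (g : Cfg A S V)

def ev (w : List A) : S := (w.map g.f).prod

theorem ev_append (u w : List A) : ev g (u ++ w) = ev g u * ev g w := by simp [ev]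

def IsT (X : List A) (t : ℕ) : Prop :=
  g.z ≤ t ∧ t < X.length ∧ g.Wo (X.take t) ∧ g.Wo X ∧
    ∀ s, g.z ≤ s → s < X.length → g.Wo (X.take s) → s = t

def IsTq (d : ℕ) (q : List A) (τ : ℕ) : Prop :=
  g.z ≤ d + τ ∧ τ < q.length ∧ g.Wo (q.take τ) ∧ g.Wo q ∧
    ∀ s, g.z ≤ d + s → s < q.length → g.Wo (q.take s) → s = τ

noncomputable def tt (X : List A) : ℕ := if h : ∃ t, IsT g X t then h.choose else 0

def U : Language A := {X | ∃ t, IsT g X t}

def TY (X : List A) (t : ℕ) (x : V) : V :=
  g.act (g.act (g.act x (ev g (X.take g.p0)) + g.nu2 (X.take g.p0))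
    (ev g ((X.take t).drop g.p0)) + g.nu ((X.take t).drop g.p0)) (ev g (X.drop t))

noncomputable def T (X : List A) (x : V) : V := TY g X (tt g X) x

/-- wall in the end band, at a place at most `t` -/
def EB (X : List A) (t : ℕ) : Prop := ∃ e, g.z ≤ e + g.N1 ∧ e < g.z + g.N1 ∧ e ≤ t ∧ g.Wo (X.take e)

/-- words ending at the first wall `≥ z` -/
def F : Language A := {Y | g.z ≤ Y.length ∧ g.Wo Y ∧ ∀ s, g.z ≤ s → s < Y.length → ¬ g.Wo (Y.take s)}

def Fb : Language A := {Y | Y ∈ F g ∧ (EB g Y Y.length ∨ g.Bad (Y.length - g.p0))}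

def B : Language A := {X | X ∈ U g ∧ ∃ Y ∈ Fb g, Y <+: X}

def P1 (x : V) : Language A :=
  {P | g.p0 ≤ P.length ∧
    g.lam (P.drop g.p0) = some (g.act x (ev g (P.take g.p0)) + g.nu2 (P.take g.p0))}

def R1 (y : V) : Language A :=
  {Q | (∃ x, ∃ p ∈ P1 g x, p ++ Q ∈ U g) ∧ ∀ x, ∀ p ∈ P1 g x, p ++ Q ∈ U g ∧ T g (p ++ Q) x = y}

def P2 (x : V) : Language A := {P | ∃ k < g.K, P.length = g.s0 + g.c k ∧ g.lam2 k P = some x}

def R2 (y : V) : Language A :=
  {Q | (∃ x, ∃ p ∈ P2 g x, p ++ Q ∈ U g) ∧ ∀ x, ∀ p ∈ P2 g x,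
    (p ++ Q ∈ U g ∧ T g (p ++ Q) x = y) ∨ (¬ ∃ Y ∈ Fb g, Y <+: p ++ Q)}

structure Ok : Prop where
  loc : ∀ P Q : List A, g.n ≤ Q.length → (g.Wo (P ++ Q) ↔ g.Wo Q)
  gap : ∀ (X : List A) (s t : ℕ), s < t → t ≤ X.length → g.Wo (X.take s) → g.Wo (X.take t) →
    s + g.W ≤ t
  hp0 : 0 < g.p0
  hs0 : 0 < g.s0
  hz : g.p0 + 2 * g.N1 + g.n + g.La + 2 * g.Lc ≤ g.z
  hc : ∀ k < g.K, g.c k ≤ g.Lc
  hsc : g.s0 + g.Lc ≤ g.p0
  hW : 2 * (g.N1 + g.Lc) < g.W
  lamN : ∀ p v, g.lam p = some v → p.length ≤ g.N1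
  snd1 : ∀ p q v r, g.lam p = some v → g.rho q = some r → g.La ≤ q.length →
    r = g.act v (ev g (p ++ q)) + g.nu (p ++ q)
  cpl1 : ∀ u : List A, g.La ≤ u.length → ¬ g.Bad u.length → ∀ v, ∃ p q, p ++ q = u ∧
    g.lam p = some v ∧ (g.rho q).isSome
  snd2 : ∀ k < g.K, ∀ p q v b, p.length = g.s0 + g.c k → g.lam2 k p = some v →
    g.rho2 k q = some b → b = g.act v (ev g (p ++ q)) + g.nu2 (p ++ q)
  cpl2 : ∀ X : List A, X.length = g.p0 → ∀ v, ∃ I : Finset ℕ, 3 * (1 + g.C0) + 1 ≤ I.card ∧
    ∀ k ∈ I, k < g.K ∧ g.lam2 k (X.take (g.s0 + g.c k)) = some v ∧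
      (g.rho2 k (X.drop (g.s0 + g.c k))).isSome
  spoil : ∀ t, g.La ≤ t → (((Finset.range g.K ×ˢ Finset.range g.K).filter
      fun ab => ab.1 ≠ ab.2 ∧ g.Bad (t + g.c ab.2 - g.c ab.1))).card ≤ g.C0
  gol : ∀ i j k l, i < g.K → j < g.K → k < g.K → l < g.K → i ≠ j → k ≠ l → (i, j) ≠ (k, l) →
      g.c i + g.c l + 4 * g.N1 < g.c k + g.c j ∨ g.c k + g.c j + 4 * g.N1 < g.c i + g.c l
  act_add : ∀ v w s, g.act (v + w) s = g.act v s + g.act w s
  act_mul : ∀ v s s', g.act (g.act v s) s' = g.act v (s * s')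

variable {g}

theorem IsT.unique {X : List A} {t t' : ℕ} (h : IsT g X t) (h' : IsT g X t') : t' = t :=
  h.2.2.2.2 t' h'.1 h'.2.1 h'.2.2.1

theorem tt_eq {X : List A} {t : ℕ} (h : IsT g X t) : tt g X = t := by
  have hex : ∃ t, IsT g X t := ⟨t, h⟩
  unfold tt
  rw [dif_pos hex]
  exact h.unique hex.choose_spec

theorem take_app (p q : List A) (s : ℕ) : (p ++ q).take (p.length + s) = p ++ q.take s := by
  rw [List.take_append]
  simp [List.take_of_length_le]

theorem Ok.wq (h : Ok g) (p q : List A) {s : ℕ} (h1 : g.n ≤ s) (h2 : s ≤ q.length) :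
    g.Wo ((p ++ q).take (p.length + s)) ↔ g.Wo (q.take s) := by
  rw [take_app]
  exact h.loc _ _ (by rw [List.length_take]; omega)

theorem Ok.isT_append (h : Ok g) {p q : List A} {τ : ℕ} (hp : p.length + g.n ≤ g.z) :
    IsT g (p ++ q) (p.length + τ) ↔ IsTq g p.length q τ := by
  unfold IsT IsTq
  rw [List.length_append]
  constructor
  · rintro ⟨h1, h2, h3, h4, h5⟩
    refine ⟨h1, by omega, (h.wq p q (by omega) (by omega)).1 h3, (h.loc p q (by omega)).1 h4, ?_⟩
    intro s hs1 hs2 hs3
    have := h5 (p.length + s) hs1 (by omega) ((h.wq p q (by omega) (by omega)).2 hs3)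
    omega
  · rintro ⟨h1, h2, h3, h4, h5⟩
    refine ⟨h1, by omega, (h.wq p q (by omega) (by omega)).2 h3, (h.loc p q (by omega)).2 h4, ?_⟩
    intro s hs1 hs2 hs3
    obtain ⟨s', rfl⟩ : ∃ s', s = p.length + s' := ⟨s - p.length, by omega⟩
    have := h5 s' hs1 (by omega) ((h.wq p q (by omega) (by omega)).1 hs3)
    omega

theorem Ok.isT_split (h : Ok g) {p q : List A} {t : ℕ} (hp : p.length + g.n ≤ g.z)
    (ht : IsT g (p ++ q) t) : ∃ τ, t = p.length + τ ∧ IsTq g p.length q τ := by
  obtain ⟨τ, rfl⟩ : ∃ τ, t = p.length + τ := ⟨t - p.length, by have := ht.1; omega⟩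
  exact ⟨τ, rfl, (h.isT_append hp).1 ht⟩

theorem Ok.pcU (h : Ok g) : PC (U g) := by
  refine ⟨?_, ?_⟩
  · rintro ⟨t, h1, h2, -⟩
    simp at h2
  · rintro X ⟨t, hX⟩ X' ⟨t', hX'⟩ ⟨y, rfl⟩
    by_contra hne
    have hy : 0 < y.length := by
      rcases y with _ | ⟨a, y⟩
      · simp at hne
      · simp
    have hl : (X ++ y).length = X.length + y.length := List.length_append
    have e1 : (X ++ y).take t = X.take t :=
      List.take_append_of_le_length (by have := hX.2.1; omega)
    have e2 : (X ++ y).take X.length = X := by simp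
    have a1 := hX'.2.2.2.2 t hX.1 (by have := hX.2.1; omega) (by rw [e1]; exact hX.2.2.1)
    have a2 := hX'.2.2.2.2 X.length (by have := hX.1; have := hX.2.1; omega) (by omega)
      (by rw [e2]; exact hX.2.2.2.1)
    have := hX.2.1
    omega

/-- the zone ends at least `W` letters after `t` -/
theorem Ok.end_gap (h : Ok g) {X : List A} {t : ℕ} (hX : IsT g X t) : t + g.W ≤ X.length :=
  h.gap X t X.length hX.2.1 le_rfl hX.2.2.1 (by rw [List.take_length]; exact hX.2.2.2.1)

/-- the `F`-prefix -/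
theorem take_mem_F {X : List A} {t : ℕ} (hX : IsT g X t) : X.take t ∈ F g := by
  have hl : (X.take t).length = t := by rw [List.length_take]; have := hX.2.1; omega
  refine ⟨by rw [hl]; exact hX.1, hX.2.2.1, ?_⟩
  intro s h1 h2 h3
  rw [hl] at h2
  rw [List.take_take, min_eq_left h2.le] at h3
  have := hX.2.2.2.2 s h1 (by have := hX.2.1; omega) h3
  omega

theorem F_unique {X : List A} {t : ℕ} (hX : IsT g X t) {Y : List A} (hY : Y ∈ F g)
    (hYX : Y <+: X) : Y = X.take t := by
  obtain ⟨h1, h2, h3⟩ := hY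
  have hle := hYX.length_le
  have e : Y = X.take Y.length := List.prefix_iff_eq_take.1 hYX
  have ht := hX.2.1
  have hYt : t ≤ Y.length := by
    by_contra hlt
    push Not at hlt
    have := hX.2.2.2.2 Y.length h1 (by omega) (by rw [← e]; exact h2)
    omega
  have : ¬ t < Y.length := by
    intro hlt
    refine h3 t hX.1 hlt ?_
    rw [e, List.take_take, min_eq_left (by omega)]
    exact hX.2.2.1
  have e2 : Y.length = t := by omega
  rw [← e2]; exact e

/-- characterisation of bad zones -/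
theorem mem_B_iff {X : List A} {t : ℕ} (hX : IsT g X t) :
    X ∈ B g ↔ (EB g X t ∨ g.Bad (t - g.p0)) := by
  have hl : (X.take t).length = t := by rw [List.length_take]; have := hX.2.1; omega
  have heb : EB g (X.take t) t ↔ EB g X t := by
    unfold EB
    constructor
    · rintro ⟨e, a, b, c1, d⟩
      rw [List.take_take, min_eq_left c1] at d
      exact ⟨e, a, b, c1, d⟩
    · rintro ⟨e, a, b, c1, d⟩
      refine ⟨e, a, b, c1, ?_⟩
      rw [List.take_take, min_eq_left c1]
      exact d
  constructor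
  · rintro ⟨-, Y, ⟨hYF, hY⟩, hYX⟩
    have e := F_unique hX hYF hYX
    subst e
    rw [hl, heb] at hY
    exact hY
  · intro hb
    refine ⟨⟨t, hX⟩, X.take t, ⟨take_mem_F hX, ?_⟩, List.take_prefix _ _⟩
    rw [hl, heb]
    exact hb

theorem T_eq {X : List A} {t : ℕ} (hX : IsT g X t) (x : V) : T g X x = TY g X t x := by
  unfold T; rw [tt_eq hX]

/-- value of a zone seen from a scheme-1 junction -/
theorem Ok.val1 (h : Ok g) {p q : List A} {x r : V} {τ : ℕ} (hp : p ∈ P1 g x)
    (hτ : IsTq g p.length q τ) (hr : g.rho (q.take τ) = some r) :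
    IsT g (p ++ q) (p.length + τ) ∧ T g (p ++ q) x = g.act r (ev g (q.drop τ)) := by
  obtain ⟨hp1, hp2⟩ := hp
  have hl := h.lamN _ _ hp2
  rw [List.length_drop] at hl
  have hz := h.hz
  have hpn : p.length + g.n ≤ g.z := by omega
  have hI : IsT g (p ++ q) (p.length + τ) := (h.isT_append hpn).2 hτ
  refine ⟨hI, ?_⟩
  rw [T_eq hI]
  unfold TY
  have e1 : (p ++ q).take g.p0 = p.take g.p0 := List.take_append_of_le_length hp1
  have e2 : ((p ++ q).take (p.length + τ)).drop g.p0 = p.drop g.p0 ++ q.take τ := by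
    rw [take_app, List.drop_append_of_le_length hp1]
  have e3 : (p ++ q).drop (p.length + τ) = q.drop τ := by
    rw [List.drop_append]; simp [List.drop_eq_nil_of_le]
  rw [e1, e2, e3]
  have hq : g.La ≤ (q.take τ).length := by
    rw [List.length_take]
    have := hτ.1
    have := hτ.2.1
    omega
  rw [← h.snd1 _ _ _ _ hp2 hr hq]

theorem Ok.level1 (h : Ok g) : Level (U g) (B g) (T g) (P1 g) (R1 g) := by
  refine ⟨?_, ?_, ?_⟩
  · rintro x ⟨h1, -⟩
    have := h.hp0
    simp at h1
    omega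
  · rintro z hz x y p hp q hq hcmp
    obtain ⟨h1, h2⟩ := hq.2 x p hp
    have e : z = p ++ q := by
      rcases hcmp with hc | hc
      · exact h.pcU.pc z hz _ h1 hc
      · exact (h.pcU.pc _ h1 z hz hc).symm
    exact ⟨e, by rw [e]; exact h2⟩
  · rintro z hz hzB x
    obtain ⟨t, ht⟩ := hz
    rw [mem_B_iff ht] at hzB
    push Not at hzB
    obtain ⟨hE, hBd⟩ := hzB
    have hzz := h.hz
    have ht1 := ht.1
    have ht2 := ht.2.1
    have hYl : ((z.take t).drop g.p0).length = t - g.p0 := by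
      rw [List.length_drop, List.length_take]; omega
    obtain ⟨p', q', e, hl, hr⟩ := h.cpl1 ((z.take t).drop g.p0) (by rw [hYl]; omega)
      (by rw [hYl]; exact hBd) (g.act x (ev g (z.take g.p0)) + g.nu2 (z.take g.p0))
    obtain ⟨r, hr⟩ := Option.isSome_iff_exists.1 hr
    have hp'N := h.lamN _ _ hl
    set d := g.p0 + p'.length with hd
    have hdl : (z.take d).length = d := by rw [List.length_take]; omega
    have hze : z.take d ++ z.drop d = z := List.take_append_drop _ _
    have hpn : (z.take d).length + g.n ≤ g.z := by rw [hdl]; omega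
    have htN : g.z + g.N1 ≤ t := by
      by_contra hlt
      exact hE ⟨t, by omega, by omega, le_rfl, ht.2.2.1⟩
    obtain ⟨τ, hτ1, hτ⟩ := h.isT_split (p := z.take d) (q := z.drop d) hpn (by rw [hze]; exact ht)
    rw [hdl] at hτ1
    have hp : z.take d ∈ P1 g x := by
      refine ⟨by rw [hdl]; omega, ?_⟩
      have e1 : (z.take d).take g.p0 = z.take g.p0 := by
        rw [List.take_take]; congr 1; omega
      have e2 : (z.take d).drop g.p0 = p' := by
        have : (z.take d).drop g.p0 = ((z.take t).drop g.p0).take p'.length := by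
          rw [List.drop_take, List.drop_take, List.take_take]
          congr 1
          omega
        rw [this, ← e]; simp
      rw [e1, e2]; exact hl
    have hq' : (z.drop d).take τ = q' := by
      have : (z.drop d).take τ = ((z.take t).drop g.p0).drop p'.length := by
        rw [List.drop_drop, List.drop_take]
        congr 1
        omega
      rw [this, ← e]; simp
    have hr' : g.rho ((z.drop d).take τ) = some r := by rw [hq']; exact hr
    obtain ⟨hI, hv⟩ := h.val1 hp hτ hr'
    rw [hze] at hv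
    refine ⟨z.take d, hp, z.drop d, ?_, hze.symm⟩
    refine ⟨⟨x, z.take d, hp, by rw [hze]; exact ⟨t, ht⟩⟩, ?_⟩
    intro x2 p2 hp2
    have hp2' := hp2
    obtain ⟨a1, a2⟩ := hp2'
    have a3 := h.lamN _ _ a2
    rw [List.length_drop] at a3
    have hτ2 : IsTq g p2.length (z.drop d) τ := by
      obtain ⟨b1, b2, b3, b4, b5⟩ := hτ
      rw [hdl] at b1 b5
      refine ⟨by omega, b2, b3, b4, ?_⟩
      intro s hs1 hs2 hs3
      by_cases hs : g.z ≤ d + s
      · exact b5 s hs hs2 hs3
      · exfalso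
        refine hE ⟨d + s, by omega, by omega, by omega, ?_⟩
        have := (h.wq (z.take d) (z.drop d) (s := s) (by omega) (by omega)).2 hs3
        rw [hze, hdl] at this
        exact this
    obtain ⟨hI2, hv2⟩ := h.val1 hp2 hτ2 hr'
    exact ⟨⟨_, hI2⟩, by rw [hv2, hv]⟩

/-- value of a zone seen from a scheme-2 junction -/
theorem Ok.val2 (h : Ok g) {p q : List A} {x b : V} {τ k : ℕ} (hk : k < g.K)
    (hp : p.length = g.s0 + g.c k) (hl : g.lam2 k p = some x) (hτ : IsTq g p.length q τ)
    (hr : g.rho2 k (q.take (g.p0 - p.length)) = some b) :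
    IsT g (p ++ q) (p.length + τ) ∧
    T g (p ++ q) x = g.act (g.act b (ev g ((q.take τ).drop (g.p0 - p.length))) +
      g.nu ((q.take τ).drop (g.p0 - p.length))) (ev g (q.drop τ)) := by
  have hz := h.hz
  have hc := h.hc k hk
  have hsc := h.hsc
  have hpn : p.length + g.n ≤ g.z := by omega
  have hI : IsT g (p ++ q) (p.length + τ) := (h.isT_append hpn).2 hτ
  refine ⟨hI, ?_⟩
  rw [T_eq hI]
  unfold TY
  have e1 : (p ++ q).take g.p0 = p ++ q.take (g.p0 - p.length) := by
    have := take_app p q (g.p0 - p.length)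
    rw [← this]; congr 1; omega
  have e2 : ((p ++ q).take (p.length + τ)).drop g.p0 = (q.take τ).drop (g.p0 - p.length) := by
    rw [take_app, List.drop_append, List.drop_eq_nil_of_le (by omega), List.nil_append]
  have e3 : (p ++ q).drop (p.length + τ) = q.drop τ := by
    rw [List.drop_append]; simp [List.drop_eq_nil_of_le]
  rw [e1, e2, e3, ← h.snd2 k hk _ _ _ _ hp hl hr]

/-- `k` is spoiled in the zone `X` -/
def Sp (g : Cfg A S V) (X : List A) (k : ℕ) : Prop :=
  ∃ k2 < g.K, k2 ≠ k ∧ ∃ s, g.z ≤ s + g.N1 + g.Lc ∧ s ≤ X.length ∧ g.Wo (X.take s) ∧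
    ((g.z + g.c k ≤ s + g.c k2 + g.N1 ∧ s + g.c k2 < g.z + g.c k + g.N1) ∨
      g.Bad (s - g.p0 + g.c k2 - g.c k))

theorem Ok.card_sp (h : Ok g) {X : List A} {t : ℕ} (hX : IsT g X t) :
    ((Finset.range g.K).filter (fun k => Sp g X k)).card ≤ 3 * (1 + g.C0) := by
  have hz := h.hz
  have hW := h.hW
  set Wz := (Finset.range (X.length + 1)).filter
    (fun s => g.z ≤ s + g.N1 + g.Lc ∧ g.Wo (X.take s)) with hWz
  have hWc : Wz.card ≤ 3 := by
    by_cases hex : ∃ s0 ∈ Wz, s0 < g.z
    · obtain ⟨s0, hs0, hs0z⟩ := hex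
      have hsub : Wz ⊆ {s0, t, X.length} := by
        intro s hs
        rw [hWz, Finset.mem_filter, Finset.mem_range] at hs hs0
        simp only [Finset.mem_insert, Finset.mem_singleton]
        by_cases h1 : s < g.z
        · left
          by_contra hne
          rcases Nat.lt_or_gt_of_ne hne with h2 | h2
          · have := h.gap X s s0 h2 (by omega) hs.2.2 hs0.2.2
            omega
          · have := h.gap X s0 s h2 (by omega) hs0.2.2 hs.2.2
            omega
        · by_cases h2 : s < X.length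
          · right; left; exact hX.2.2.2.2 s (by omega) h2 hs.2.2
          · right; right; omega
      exact (Finset.card_le_card hsub).trans Finset.card_le_three
    · push Not at hex
      have hsub : Wz ⊆ {t, t, X.length} := by
        intro s hs
        have hs' := hs
        rw [hWz, Finset.mem_filter, Finset.mem_range] at hs
        simp only [Finset.mem_insert, Finset.mem_singleton]
        by_cases h2 : s < X.length
        · right; left; exact hX.2.2.2.2 s (hex s hs') h2 hs.2.2
        · right; right; omega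
      exact (Finset.card_le_card hsub).trans Finset.card_le_three
  let E : ℕ → Finset (ℕ × ℕ) := fun s => (Finset.range g.K ×ˢ Finset.range g.K).filter
    (fun ab => ab.1 ≠ ab.2 ∧ (g.z + g.c ab.1 ≤ s + g.c ab.2 + g.N1 ∧
      s + g.c ab.2 < g.z + g.c ab.1 + g.N1))
  let Bd : ℕ → Finset (ℕ × ℕ) := fun s => (Finset.range g.K ×ˢ Finset.range g.K).filter
    (fun ab => ab.1 ≠ ab.2 ∧ g.Bad (s - g.p0 + g.c ab.2 - g.c ab.1))
  have hE : ∀ s, (E s).card ≤ 1 := by
    intro s
    rw [Finset.card_le_one]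
    rintro ⟨i, j⟩ h1 ⟨k, l⟩ h2
    simp only [E, Finset.mem_filter, Finset.mem_product, Finset.mem_range] at h1 h2
    by_contra hne
    rcases h.gol i j k l h1.1.1 h1.1.2 h2.1.1 h2.1.2 h1.2.1 h2.2.1 hne with h3 | h3 <;> omega
  have hB : ∀ s ∈ Wz, (Bd s).card ≤ g.C0 := by
    intro s hs
    rw [hWz, Finset.mem_filter, Finset.mem_range] at hs
    exact h.spoil (s - g.p0) (by omega)
  have hsub : (Finset.range g.K).filter (fun k => Sp g X k) ⊆
      (Wz.biUnion (fun s => E s ∪ Bd s)).image Prod.fst := by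
    intro k hk
    rw [Finset.mem_filter, Finset.mem_range] at hk
    obtain ⟨hk, k2, hk2, hne, s, h1, h2, h3, h4⟩ := hk
    rw [Finset.mem_image]
    refine ⟨(k, k2), ?_, rfl⟩
    rw [Finset.mem_biUnion]
    refine ⟨s, by rw [hWz, Finset.mem_filter, Finset.mem_range]; exact ⟨by omega, h1, h3⟩, ?_⟩
    rw [Finset.mem_union]
    rcases h4 with h4 | h4
    · left
      simp only [E, Finset.mem_filter, Finset.mem_product, Finset.mem_range]
      exact ⟨⟨hk, hk2⟩, hne.symm, h4⟩
    · right
      simp only [Bd, Finset.mem_filter, Finset.mem_product, Finset.mem_range]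
      exact ⟨⟨hk, hk2⟩, hne.symm, h4⟩
  calc _ ≤ ((Wz.biUnion (fun s => E s ∪ Bd s)).image Prod.fst).card := Finset.card_le_card hsub
    _ ≤ (Wz.biUnion (fun s => E s ∪ Bd s)).card := Finset.card_image_le
    _ ≤ ∑ s ∈ Wz, (E s ∪ Bd s).card := Finset.card_biUnion_le
    _ ≤ ∑ s ∈ Wz, (1 + g.C0) := Finset.sum_le_sum (fun s hs =>
        (Finset.card_union_le _ _).trans (Nat.add_le_add (hE s) (hB s hs)))
    _ = Wz.card * (1 + g.C0) := by rw [Finset.sum_const, smul_eq_mul]
    _ ≤ 3 * (1 + g.C0) := Nat.mul_le_mul_right _ hWc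

theorem Ok.level2 (h : Ok g) : Level (B g) 0 (T g) (P2 g) (R2 g) := by
  have hzz := h.hz
  have hW := h.hW
  have hsc := h.hsc
  refine ⟨?_, ?_, ?_⟩
  · rintro x ⟨k, hk, h1, -⟩
    have := h.hs0
    simp at h1
    omega
  · rintro z hz x y p hp q hq hcmp
    rcases hq.2 x p hp with ⟨h1, h2⟩ | hno
    · have e : z = p ++ q := by
        rcases hcmp with hc | hc
        · exact h.pcU.pc z hz.1 _ h1 hc
        · exact (h.pcU.pc _ h1 z hz.1 hc).symm
      exact ⟨e, by rw [e]; exact h2⟩
    · exfalso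
      obtain ⟨⟨t, ht⟩, Y, hY, hYz⟩ := hz
      refine hno ⟨Y, hY, ?_⟩
      have hYe := F_unique ht hY.1 hYz
      rcases hcmp with hc | hc
      · exact hYz.trans hc
      · obtain ⟨x', p', ⟨k', hk', hl', -⟩, t', ht'⟩ := hq.1
        obtain ⟨k, hk, hl, -⟩ := hp
        have c1 := h.hc k hk
        have c2 := h.hc k' hk'
        have g1 := h.end_gap ht'
        have g2 := ht'.1
        rw [List.length_append] at g1
        have hqn : g.n ≤ q.length := by omega
        have hWq : g.Wo q := (h.loc p' q hqn).1 ht'.2.2.2.1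
        have hWpq : g.Wo (p ++ q) := (h.loc p q hqn).2 hWq
        have hlen : (p ++ q).length = p.length + q.length := List.length_append
        have hle := hc.length_le
        have hpe : p ++ q = z.take (p ++ q).length := List.prefix_iff_eq_take.1 hc
        have htl : t ≤ (p ++ q).length := by
          by_cases hlt : (p ++ q).length < z.length
          · have := ht.2.2.2.2 (p ++ q).length (by omega) hlt (by rw [← hpe]; exact hWpq)
            omega
          · have := ht.2.1; omega
        refine List.prefix_of_prefix_length_le hYz hc ?_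
        rw [hYe, List.length_take]
        omega
  · rintro z hz - x
    obtain ⟨t, ht⟩ := hz.1
    have ht1 := ht.1
    have ht2 := ht.2.1
    have hXl : (z.take g.p0).length = g.p0 := by rw [List.length_take]; omega
    obtain ⟨I, hI1, hI2⟩ := h.cpl2 (z.take g.p0) hXl x
    obtain ⟨k, hkI, hkS⟩ : ∃ k ∈ I, ¬ Sp g z k := by
      by_contra hall
      push Not at hall
      have : I ⊆ (Finset.range g.K).filter (fun k => Sp g z k) := by
        intro k hk
        rw [Finset.mem_filter, Finset.mem_range]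
        exact ⟨(hI2 k hk).1, hall k hk⟩
      have h1 := Finset.card_le_card this
      have h2 := h.card_sp ht
      omega
    obtain ⟨hkK, hlam, hrho⟩ := hI2 k hkI
    obtain ⟨b, hb⟩ := Option.isSome_iff_exists.1 hrho
    have hck := h.hc k hkK
    set d := g.s0 + g.c k with hd
    have hdl : (z.take d).length = d := by rw [List.length_take]; omega
    have hze : z.take d ++ z.drop d = z := List.take_append_drop _ _
    have hpn : (z.take d).length + g.n ≤ g.z := by rw [hdl]; omega
    obtain ⟨τ, hτ1, hτ⟩ := h.isT_split (p := z.take d) (q := z.drop d) hpn (by rw [hze]; exact ht)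
    rw [hdl] at hτ1 hτ
    have hlam' : g.lam2 k (z.take d) = some x := by
      rw [List.take_take, min_eq_left (by omega)] at hlam
      exact hlam
    have hb' : g.rho2 k ((z.drop d).take (g.p0 - d)) = some b := by
      rw [List.drop_take] at hb
      exact hb
    have hP2 : z.take d ∈ P2 g x := ⟨k, hkK, hdl, hlam'⟩
    have hv := (h.val2 hkK hdl hlam' (by rw [hdl]; exact hτ) (by rw [hdl]; exact hb')).2
    rw [hze, hdl] at hv
    refine ⟨z.take d, hP2, z.drop d, ?_, hze.symm⟩
    refine ⟨⟨x, z.take d, hP2, by rw [hze]; exact ⟨t, ht⟩⟩, ?_⟩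
    rintro x2 p2 ⟨k2, hk2, hl2, hlam2⟩
    have hck2 := h.hc k2 hk2
    by_cases hkk : k2 = k
    · left
      subst hkk
      obtain ⟨hI3, hv3⟩ := h.val2 hkK hl2 hlam2 (by rw [hl2]; exact hτ) (by rw [hl2]; exact hb')
      rw [hl2] at hv3
      exact ⟨⟨_, hI3⟩, by rw [hv3, hv]⟩
    · right
      rintro ⟨Y, ⟨⟨hY1, hY2, -⟩, hYb⟩, hYp⟩
      apply hkS
      have hle := hYp.length_le
      rw [List.length_append, List.length_drop] at hle
      have hYe : Y = (p2 ++ z.drop d).take Y.length := List.prefix_iff_eq_take.1 hYp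
      have hplace : ∀ e, g.z ≤ e + g.N1 → e ≤ Y.length → g.Wo (Y.take e) →
          ∃ s, s + g.c k2 = e + g.c k ∧ s ≤ z.length ∧ g.Wo (z.take s) := by
        intro e he1 he2 he3
        obtain ⟨s', hs'⟩ : ∃ s', e = p2.length + s' := ⟨e - p2.length, by omega⟩
        refine ⟨d + s', by omega, by omega, ?_⟩
        have e1 : Y.take e = (p2 ++ z.drop d).take (p2.length + s') := by
          rw [hYe, List.take_take, min_eq_left he2, hs']
        rw [e1] at he3
        have := (h.wq p2 (z.drop d) (s := s') (by omega)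
          (by rw [List.length_drop]; omega)).1 he3
        have h2 := (h.wq (z.take d) (z.drop d) (s := s') (by omega)
          (by rw [List.length_drop]; omega)).2 this
        rw [hze, hdl] at h2
        exact h2
      rcases hYb with ⟨e, he1, he2, he3, he4⟩ | hbad
      · obtain ⟨s, hs1, hs2, hs3⟩ := hplace e he1 he3 he4
        exact ⟨k2, hk2, hkk, s, by omega, hs2, hs3, Or.inl ⟨by omega, by omega⟩⟩
      · obtain ⟨s, hs1, hs2, hs3⟩ := hplace Y.length (by omega) le_rfl
          (by rw [List.take_length]; exact hY2)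
        refine ⟨k2, hk2, hkk, s, by omega, hs2, hs3, Or.inr ?_⟩
        have : s - g.p0 + g.c k2 - g.c k = Y.length - g.p0 := by omega
        rw [this]; exact hbad

end Crest.Agent.R320.Joint_174
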