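import Mathlib

/-!
# Row 320: the joint of the wall-free gadget (693 / 638 / 686) and the exact gadget (237) on
natural blocks of left-looking walls of ALL words (helper192)

* `Z` : blocks: end in a wall at the first wall place `≥ z`;
* `Good` : cut by scheme 1 in the semantic sense (110 / 727);
* `good_of` : no wall in the band `[z - N1, z + N1)` and `¬ BadT (|X| - p0)` imply `Good`;
* `cut2` : every block followed by one more block is cut by scheme 2: the other left words either
  give the same block structure and value, or a `Good` first block.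
-/

set_option autoImplicit false

namespace Crest.Agent.R320.Joint_192

variable {α V S : Type*}

/-- everything about walls, gadget 1, gadget 2 -/
structure Dat (α V S : Type*) where
  Wo : List α → Prop
  n : ℕ
  W : ℕ
  φ : List α → S
  one : S
  mul : S → S → S
  act : V → S → V
  add : V → V → V
  lam : List α → Option V
  rho : List α → Option V
  nu1 : List α → V
  N1 : ℕ
  La : ℕ
  BadT : ℕ → Prop
  K : ℕ
  c : ℕ → ℕ
  R : ℕ
  lam2 : ℕ → List α → Option V
  rho2 : ℕ → List α → Option V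
  nu2 : List α → V
  p0 : ℕ
  z : ℕ
  Lam : ℕ

namespace Dat

variable (D : Dat α V S)

structure Ok : Prop where
  loc : ∀ P Q : List α, D.n ≤ Q.length → (D.Wo (P ++ Q) ↔ D.Wo Q)
  sep : ∀ (X : List α) (s t : ℕ), s < t → t ≤ X.length → D.Wo (X.take s) → D.Wo (X.take t) →
    D.W < t - s
  s1 : ∀ P Q v r, D.lam P = some v → D.rho Q = some r → D.La ≤ Q.length →
    r = D.add (D.act v (D.φ (P ++ Q))) (D.nu1 (P ++ Q))
  lam_le : ∀ P v, D.lam P = some v → P.length ≤ D.N1
  c1 : ∀ Y, D.La ≤ Y.length → ¬ D.BadT Y.length → ∀ v, ∃ P Q, P ++ Q = Y ∧ D.lam P = some v ∧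
    (D.rho Q).isSome
  cle : ∀ k < D.K, D.c k ≤ D.Lam
  ruler : ∀ i j k l, i < D.K → j < D.K → k < D.K → l < D.K → i ≠ j → k ≠ l →
    (i, j) ≠ (k, l) → D.c i + D.c l + 2 * D.N1 < D.c k + D.c j ∨
      D.c k + D.c j + 2 * D.N1 < D.c i + D.c l
  thin : ∀ T, D.La + D.Lam ≤ T → ∀ F : Finset (ℕ × ℕ),
    (∀ a ∈ F, a.1 < D.K ∧ a.2 < D.K ∧ a.1 ≠ a.2 ∧ D.BadT (T + D.c a.2 - D.c a.1)) →
      F.card ≤ D.R
  s2 : ∀ k < D.K, ∀ P Q v b, P.length = D.c k → (P ++ Q).length = D.p0 → D.lam2 k P = some v →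
    D.rho2 k Q = some b → b = D.add (D.act v (D.φ (P ++ Q))) (D.nu2 (P ++ Q))
  c2 : ∀ (u : List α) (v : V), u.length = D.p0 → ∃ I : Finset ℕ, 2 * D.R + 2 ≤ I.card ∧
    ∀ k ∈ I, k < D.K ∧ D.lam2 k (u.take (D.c k)) = some v ∧ (D.rho2 k (u.drop (D.c k))).isSome
  Wbig : 2 * D.Lam + 2 * D.N1 ≤ D.W
  p0big : D.Lam ≤ D.p0
  zbig : 1 + D.p0 + D.N1 + D.n + D.La + 3 * D.Lam + D.N1 ≤ D.z

/-- blocks -/
def Z : Set (List α) :=
  {X | D.z ≤ X.length ∧ D.Wo X ∧ ∀ t, D.z ≤ t → t < X.length → ¬ D.Wo (X.take t)}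

/-- zone map -/
def T (x : V) (X : List α) : V :=
  D.add (D.act (D.add (D.act x (D.φ (X.take D.p0))) (D.nu2 (X.take D.p0))) (D.φ (X.drop D.p0)))
    (D.nu1 (X.drop D.p0))

def L1 (x : V) : Set (List α) :=
  {P | D.p0 ≤ P.length ∧
    D.lam (P.drop D.p0) = some (D.add (D.act x (D.φ (P.take D.p0))) (D.nu2 (P.take D.p0)))}

def L2 (x : V) : Set (List α) := {P | ∃ k < D.K, P.length = D.c k ∧ D.lam2 k P = some x}

def Good (X : List α) : Prop :=
  X ∈ D.Z ∧ ∀ x, ∃ P ∈ D.L1 x, ∃ Q, P ++ Q = X ∧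
    ∀ x', ∀ P' ∈ D.L1 x', P' ++ Q ∈ D.Z ∧ D.T x' (P' ++ Q) = D.T x X

variable {D}

theorem wo_shift (h : D.Ok) (P Q : List α) (s : ℕ) (hs : D.n ≤ s) (hs' : s ≤ Q.length) :
    D.Wo ((P ++ Q).take (P.length + s)) ↔ D.Wo (Q.take s) := by
  rw [List.take_length_add_append]
  exact h.loc P (Q.take s) (by rw [List.length_take]; omega)

theorem L1_len (h : D.Ok) {x : V} {P : List α} (hP : P ∈ D.L1 x) :
    D.p0 ≤ P.length ∧ P.length ≤ D.p0 + D.N1 := by
  refine ⟨hP.1, ?_⟩
  have := h.lam_le _ _ hP.2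
  rw [List.length_drop] at this
  omega

/-- **scheme 1 is complete off the band and off `BadT`** -/
theorem good_of (h : D.Ok) {X : List α} (hX : X ∈ D.Z)
    (hE : ∀ t, D.z ≤ t + D.N1 → t < D.z + D.N1 → t ≤ X.length → ¬ D.Wo (X.take t))
    (hB : ¬ D.BadT (X.length - D.p0)) : D.Good X := by
  have hz := h.zbig
  have hp := h.p0big
  refine ⟨hX, fun x => ?_⟩
  obtain ⟨hXz, hXw, hXt⟩ := hX
  have hlen : D.z + D.N1 ≤ X.length := by
    by_contra hc
    exact hE X.length (by omega) (by omega) le_rfl (by rw [List.take_length]; exact hXw)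
  obtain ⟨P1, Q, e, h1, h2⟩ := h.c1 (X.drop D.p0) (by rw [List.length_drop]; omega)
    (by rw [List.length_drop]; exact hB)
    (D.add (D.act x (D.φ (X.take D.p0))) (D.nu2 (X.take D.p0)))
  have hl1 : (X.take D.p0).length = D.p0 := by rw [List.length_take]; omega
  have hP1 := h.lam_le _ _ h1
  have hX' : X.take D.p0 ++ P1 ++ Q = X := by
    rw [List.append_assoc, e, List.take_append_drop]
  have hPt : (X.take D.p0 ++ P1).take D.p0 = X.take D.p0 := by
    rw [List.take_append_of_le_length (by omega), List.take_of_length_le (by omega)]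
  have hPd : (X.take D.p0 ++ P1).drop D.p0 = P1 := by
    rw [List.drop_append_of_le_length (by omega), List.drop_of_length_le (by omega)]
    rfl
  have hPlen : (X.take D.p0 ++ P1).length = D.p0 + P1.length := by
    rw [List.length_append, hl1]
  have hlX : X.length = D.p0 + P1.length + Q.length := by
    rw [← hPlen, ← List.length_append, hX']
  obtain ⟨r, hr⟩ := Option.isSome_iff_exists.1 h2
  have hQLa : D.La ≤ Q.length := by omega
  have key : ∀ x', ∀ P' ∈ D.L1 x', D.T x' (P' ++ Q) = r := by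
    intro x' P' hP'
    have hl := L1_len h hP'
    have e1 : (P' ++ Q).take D.p0 = P'.take D.p0 := by
      rw [List.take_append_of_le_length hl.1]
    have e2 : (P' ++ Q).drop D.p0 = P'.drop D.p0 ++ Q := by
      rw [List.drop_append_of_le_length hl.1]
    unfold T
    rw [e1, e2]
    exact (h.s1 _ _ _ _ hP'.2 hr hQLa).symm
  have hPL : X.take D.p0 ++ P1 ∈ D.L1 x := by
    refine ⟨by omega, ?_⟩
    rw [hPd, hPt]
    exact h1
  refine ⟨X.take D.p0 ++ P1, hPL, Q, hX', ?_⟩
  intro x' P' hP'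
  have hl := L1_len h hP'
  have hTX : D.T x X = r := by
    have := key x _ hPL
    rwa [hX'] at this
  refine ⟨⟨?_, ?_, ?_⟩, by rw [key x' P' hP', hTX]⟩
  · rw [List.length_append]; omega
  · rw [h.loc P' Q (by omega)]
    rw [← hX'] at hXw
    exact (h.loc _ Q (by omega)).1 hXw
  · intro t ht ht'
    rw [List.length_append] at ht'
    have et : t = P'.length + (t - P'.length) := by omega
    rw [et, wo_shift h P' Q _ (by omega) (by omega),
      ← wo_shift h (X.take D.p0 ++ P1) Q _ (by omega) (by omega), hX', hPlen]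
    by_cases hc : D.z ≤ D.p0 + P1.length + (t - P'.length)
    · exact hXt _ hc (by omega)
    · exact hE _ (by omega) (by omega) (by omega)

/-- first block of a text with a shifted start -/
theorem good_shift (h : D.Ok) {U P P' Q : List α} (hU : P ++ Q = U) {k k' : ℕ}
    (hk : k < D.K) (hk' : k' < D.K) (hP : P.length = D.c k) (hP' : P'.length = D.c k')
    (e1 e2 : ℕ) (he1 : D.z ≤ e1 + D.Lam + D.N1) (he12 : e1 < e2) (he2 : e2 ≤ U.length)
    (hw1 : D.Wo (U.take e1)) (hw2 : D.Wo (U.take e2))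
    (hfirst : ∀ t, D.z ≤ t + D.Lam + D.N1 → t < e2 → t ≠ e1 → ¬ D.Wo (U.take t))
    (hE : ¬ (D.z + D.c k ≤ e1 + D.c k' + D.N1 ∧ e1 + D.c k' ≤ D.z + D.c k + D.N1))
    (hB1 : ¬ D.BadT (e1 - D.p0 + D.c k' - D.c k)) (hB2 : ¬ D.BadT (e2 - D.p0 + D.c k' - D.c k)) :
    ∃ X, D.Good X ∧ X <+: P' ++ Q := by
  have hz := h.zbig
  have hp := h.p0big
  have hW := h.Wbig
  have hck := h.cle k hk
  have hck' := h.cle k' hk'
  have hsep : D.W < e2 - e1 := h.sep U e1 e2 he12 he2 hw1 hw2
  have hUl : U.length = D.c k + Q.length := by rw [← hU, List.length_append, hP]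
  -- walls of `P' ++ Q`
  have tr : ∀ t, D.c k' + D.n ≤ t → t ≤ D.c k' + Q.length →
      (D.Wo ((P' ++ Q).take t) ↔ D.Wo (U.take (t - D.c k' + D.c k))) := by
    intro t ht ht'
    have et : t = P'.length + (t - D.c k') := by omega
    have et' : t - D.c k' + D.c k = P.length + (t - D.c k') := by omega
    rw [et', ← hU, wo_shift h P Q _ (by omega) (by omega)]
    conv_lhs => rw [et]
    rw [wo_shift h P' Q _ (by omega) (by omega)]
  -- the end of the first block, in coordinates of `U`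
  obtain ⟨s, hs, hsz, hswall, hsB, hsfirst⟩ : ∃ s, (s = e1 ∨ s = e2) ∧
      D.z + D.c k ≤ s + D.c k' ∧ D.Wo (U.take s) ∧ ¬ D.BadT (s - D.p0 + D.c k' - D.c k) ∧
      (∀ t, D.z + D.c k ≤ t + D.c k' → t < s → ¬ D.Wo (U.take t)) := by
    by_cases hc : D.z + D.c k ≤ e1 + D.c k'
    · refine ⟨e1, Or.inl rfl, hc, hw1, hB1, fun t ht hte => ?_⟩
      exact hfirst t (by omega) (by omega) (by omega)
    · refine ⟨e2, Or.inr rfl, by omega, hw2, hB2, fun t ht hte => ?_⟩
      exact hfirst t (by omega) hte (by omega)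
  have hsU : s ≤ U.length := by rcases hs with rfl | rfl <;> omega
  set t0 := s + D.c k' - D.c k with ht0
  have ht0l : t0 ≤ (P' ++ Q).length := by rw [List.length_append]; omega
  have hXl : ((P' ++ Q).take t0).length = t0 := by rw [List.length_take]; omega
  have hXtake : ∀ t ≤ t0, ((P' ++ Q).take t0).take t = (P' ++ Q).take t := by
    intro t ht
    rw [List.take_take, min_eq_left ht]
  refine ⟨(P' ++ Q).take t0, good_of h ⟨by omega, ?_, ?_⟩ ?_ ?_, List.take_prefix _ _⟩
  · rw [tr t0 (by omega) (by omega)]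
    have : t0 - D.c k' + D.c k = s := by omega
    rw [this]
    exact hswall
  · intro t ht ht'
    rw [hXl] at ht'
    rw [hXtake t ht'.le, tr t (by omega) (by omega)]
    exact hsfirst _ (by omega) (by omega)
  · intro t ht ht' ht''
    rw [hXl] at ht''
    rw [hXtake t ht'', tr t (by omega) (by omega)]
    intro hw
    by_cases hte : t - D.c k' + D.c k = e1
    · exact hE ⟨by omega, by omega⟩
    · exact hfirst _ (by omega) (by omega) hte hw
  · rw [hXl]
    have : t0 - D.p0 = s - D.p0 + D.c k' - D.c k := by omega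
    rw [this]
    exact hsB

/-- **scheme 2**: every block followed by one more block is cut -/
theorem cut2 (h : D.Ok) {u1 u2 : List α} (h1 : u1 ∈ D.Z) (h2 : u2 ∈ D.Z) (x : V) :
    ∃ P ∈ D.L2 x, ∃ Q, P ++ Q = u1 ++ u2 ∧ P.length < u1.length ∧
      ∀ x', ∀ P' ∈ D.L2 x',
        (∃ X ∈ D.Z, X ++ u2 = P' ++ Q ∧ D.T x' X = D.T x u1) ∨ ∃ X, D.Good X ∧ X <+: P' ++ Q := by
  classical
  have hz := h.zbig
  have hp := h.p0big
  have hW := h.Wbig
  set U := u1 ++ u2 with hU
  have hl1 := h1.1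
  have hl2 := h2.1
  have hUl : U.length = u1.length + u2.length := by rw [hU, List.length_append]
  have hwU : D.Wo U := (h.loc u1 u2 (by omega)).2 h2.2.1
  have hwu1 : D.Wo (U.take u1.length) := by
    rw [hU, List.take_left]; exact h1.2.1
  -- the two relevant walls
  have hex1 : ∃ t, D.z ≤ t + D.Lam + D.N1 ∧ t ≤ U.length ∧ D.Wo (U.take t) :=
    ⟨u1.length, by omega, by omega, hwu1⟩
  set e1 := Nat.find hex1 with he1
  obtain ⟨he1z, he1l, he1w⟩ := Nat.find_spec hex1
  have he1u : e1 ≤ u1.length := Nat.find_min' hex1 ⟨by omega, by omega, hwu1⟩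
  have hex2 : ∃ t, e1 < t ∧ t ≤ U.length ∧ D.Wo (U.take t) :=
    ⟨U.length, by omega, le_rfl, by rw [List.take_length]; exact hwU⟩
  set e2 := Nat.find hex2 with he2
  obtain ⟨he12, he2l, he2w⟩ := Nat.find_spec hex2
  have hfirst : ∀ t, D.z ≤ t + D.Lam + D.N1 → t < e2 → t ≠ e1 → ¬ D.Wo (U.take t) := by
    intro t ht hte hne hw
    rcases lt_or_gt_of_ne hne with hlt | hgt
    · exact Nat.find_min hex1 hlt ⟨ht, by omega, hw⟩
    · exact Nat.find_min hex2 hte ⟨hgt, by omega, hw⟩
  -- the exact gadget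
  have hu0 : (u1.take D.p0).length = D.p0 := by rw [List.length_take]; omega
  obtain ⟨I, hI, hIk⟩ := h.c2 (u1.take D.p0) x hu0
  -- spoiled places
  let EB : ℕ × ℕ → Prop := fun a =>
    (D.z + D.c a.1 ≤ e1 + D.c a.2 + D.N1 ∧ e1 + D.c a.2 ≤ D.z + D.c a.1 + D.N1)
  let B1 : ℕ × ℕ → Prop := fun a => D.BadT (e1 - D.p0 + D.c a.2 - D.c a.1)
  let B2 : ℕ × ℕ → Prop := fun a => D.BadT (e2 - D.p0 + D.c a.2 - D.c a.1)
  obtain ⟨k, hkI, hkns⟩ : ∃ k ∈ I, ∀ k' < D.K, k' ≠ k →
      ¬ EB (k, k') ∧ ¬ B1 (k, k') ∧ ¬ B2 (k, k') := by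
    by_contra hcon
    push Not at hcon
    have hch : ∀ k ∈ I, ∃ k', k' < D.K ∧ k' ≠ k ∧ (EB (k, k') ∨ B1 (k, k') ∨ B2 (k, k')) := by
      intro k hk
      obtain ⟨k', h1, h2, h3⟩ := hcon k hk
      refine ⟨k', h1, h2, ?_⟩
      by_cases ha : EB (k, k')
      · exact Or.inl ha
      · by_cases hb : B1 (k, k')
        · exact Or.inr (Or.inl hb)
        · exact Or.inr (Or.inr (h3 ha hb))
    choose! g hg1 hg2 hg3 using hch
    have hinj : Function.Injective (fun k : ℕ => (k, g k)) := fun a b hab => (Prod.mk.inj hab).1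
    let F := I.map ⟨fun k => (k, g k), hinj⟩
    have hF : ∀ a ∈ F, a.1 < D.K ∧ a.2 < D.K ∧ a.1 ≠ a.2 ∧ (EB a ∨ B1 a ∨ B2 a) := by
      intro a ha
      obtain ⟨k, hk, rfl⟩ := Finset.mem_map.1 ha
      exact ⟨(hIk k hk).1, hg1 k hk, (hg2 k hk).symm, hg3 k hk⟩
    have hFc : F.card = I.card := Finset.card_map _
    have hsub : F ⊆ F.filter EB ∪ (F.filter B1 ∪ F.filter B2) := by
      intro a ha
      rcases (hF a ha).2.2.2 with hh | hh | hh
      · exact Finset.mem_union_left _ (Finset.mem_filter.2 ⟨ha, hh⟩)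
      · exact Finset.mem_union_right _ (Finset.mem_union_left _ (Finset.mem_filter.2 ⟨ha, hh⟩))
      · exact Finset.mem_union_right _ (Finset.mem_union_right _ (Finset.mem_filter.2 ⟨ha, hh⟩))
    have hc1 : (F.filter EB).card ≤ 1 := by
      rw [Finset.card_le_one]
      intro a ha b hb
      obtain ⟨ha1, ha2⟩ := Finset.mem_filter.1 ha
      obtain ⟨hb1, hb2⟩ := Finset.mem_filter.1 hb
      by_contra hab
      have ha3 := hF a ha1
      have hb3 := hF b hb1
      have := h.ruler a.2 a.1 b.2 b.1 ha3.2.1 ha3.1 hb3.2.1 hb3.1 ha3.2.2.1.symm hb3.2.2.1.symm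
        (fun he => hab (by
          have h1 := (Prod.mk.inj he).1
          have h2 := (Prod.mk.inj he).2
          exact Prod.ext h2 h1))
      obtain ⟨p1, p2⟩ := ha2
      obtain ⟨q1, q2⟩ := hb2
      omega
    have hc2 : (F.filter B1).card ≤ D.R := by
      refine h.thin (e1 - D.p0) (by omega) _ fun a ha => ?_
      obtain ⟨ha1, ha2⟩ := Finset.mem_filter.1 ha
      have ha3 := hF a ha1
      exact ⟨ha3.1, ha3.2.1, ha3.2.2.1, ha2⟩
    have hc3 : (F.filter B2).card ≤ D.R := by
      refine h.thin (e2 - D.p0) (by omega) _ fun a ha => ?_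
      obtain ⟨ha1, ha2⟩ := Finset.mem_filter.1 ha
      have ha3 := hF a ha1
      exact ⟨ha3.1, ha3.2.1, ha3.2.2.1, ha2⟩
    have := Finset.card_le_card hsub
    have h5 := Finset.card_union_le (F.filter EB) (F.filter B1 ∪ F.filter B2)
    have h6 := Finset.card_union_le (F.filter B1) (F.filter B2)
    omega
  obtain ⟨hkK, hlamk, hrhok⟩ := hIk k hkI
  have hck := h.cle k hkK
  have hPlen : (u1.take (D.c k)).length = D.c k := by rw [List.length_take]; omega
  have htt : (u1.take D.p0).take (D.c k) = u1.take (D.c k) := by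
    rw [List.take_take, min_eq_left (by omega)]
  rw [htt] at hlamk
  have hPQ : u1.take (D.c k) ++ (u1.drop (D.c k) ++ u2) = U := by
    rw [← List.append_assoc, List.take_append_drop]
  refine ⟨u1.take (D.c k), ⟨k, hkK, hPlen, hlamk⟩, u1.drop (D.c k) ++ u2, hPQ, by omega, ?_⟩
  rintro x' P' ⟨k', hk'K, hP'len, hlam'⟩
  by_cases hkk : k' = k
  · left
    subst hkk
    refine ⟨P' ++ u1.drop (D.c k'), ⟨?_, ?_, ?_⟩, by rw [List.append_assoc], ?_⟩
    · rw [List.length_append, List.length_drop]; omega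
    · rw [h.loc _ _ (by rw [List.length_drop]; omega),
        ← h.loc (u1.take (D.c k')) _ (by rw [List.length_drop]; omega), List.take_append_drop]
      exact h1.2.1
    · intro t ht ht'
      rw [List.length_append, List.length_drop] at ht'
      have et : t = P'.length + (t - D.c k') := by omega
      rw [et, wo_shift h _ _ _ (by omega) (by rw [List.length_drop]; omega),
        ← wo_shift h (u1.take (D.c k')) _ _ (by omega) (by rw [List.length_drop]; omega),
        List.take_append_drop, hPlen]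
      exact h1.2.2 _ (by omega) (by omega)
    · obtain ⟨b, hb⟩ := Option.isSome_iff_exists.1 hrhok
      have hdrop : (u1.drop (D.c k')) = (u1.take D.p0).drop (D.c k') ++ u1.drop D.p0 := by
        conv_lhs => rw [← List.take_append_drop D.p0 u1]
        rw [List.drop_append_of_le_length (by omega)]
      have hlen0 : (P' ++ (u1.take D.p0).drop (D.c k')).length = D.p0 := by
        rw [List.length_append, List.length_drop, hu0]; omega
      have e1' : (P' ++ u1.drop (D.c k')).take D.p0 = P' ++ (u1.take D.p0).drop (D.c k') := by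
        rw [hdrop, ← List.append_assoc, List.take_append_of_le_length (by omega),
          List.take_of_length_le (by omega)]
      have e2' : (P' ++ u1.drop (D.c k')).drop D.p0 = u1.drop D.p0 := by
        rw [hdrop, ← List.append_assoc, List.drop_append_of_le_length (by omega),
          List.drop_of_length_le (by omega)]
        rfl
      have b1 := h.s2 k' hkK P' _ x' b hP'len hlen0 hlam' hb
      have hsplit : u1.take (D.c k') ++ (u1.take D.p0).drop (D.c k') = u1.take D.p0 := by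
        conv_lhs => rw [← htt]
        exact List.take_append_drop _ _
      have b2 := h.s2 k' hkK (u1.take (D.c k')) _ x b hPlen (by rw [hsplit, hu0]) hlamk hb
      rw [hsplit] at b2
      unfold T
      rw [e1', e2', ← b1, ← b2]
  · right
    obtain ⟨n1, n2, n3⟩ := hkns k' hk'K hkk
    exact good_shift h hPQ hkK hk'K hPlen hP'len e1 e2 he1z he12 he2l he1w he2w hfirst n1 n2 n3

end Dat

end Crest.Agent.R320.Joint_192
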