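import Crest.Agent.R320.ExactR_237
import Crest.Agent.R320.Top5_467

/-!
# Row 320: joint of the two schemes on the natural chain, in the form of `Top5_467.top5`
-/

set_option autoImplicit false

namespace Crest.Agent.R320.Joint_226

open Crest.Agent.R320.Blk467 Crest.Agent.R320.Hk_851
open Crest.Agent.R320.ExactR_237 (pr pr_append)

variable {α S V : Type} [Monoid S] [AddCommGroup V]

/-- left-looking walls -/
structure Wl (Wo : List α → Prop) (n W : ℕ) : Prop where
  app : ∀ P Q : List α, n ≤ Q.length → (Wo (P ++ Q) ↔ Wo Q)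
  len : ∀ Q, Wo Q → n ≤ Q.length
  gap : ∀ (Q : List α) s t, Wo (Q.take s) → Wo (Q.take t) → s < t → t ≤ Q.length → s + W < t

/-- gadget of scheme 1 -/
structure G1 (f : α → S) (act : V → S → V) where
  lam : List α → V → Prop
  rho : List α → Option V
  nu : List α → V
  N : ℕ
  T0 : ℕ
  BadT : ℕ → Prop
  lam_le : ∀ P v, lam P v → P.length ≤ N
  sound : ∀ P Q v b, lam P v → rho Q = some b → b = act v (pr f (P ++ Q)) + nu (P ++ Q)
  complete : ∀ Y : List α, T0 ≤ Y.length → ¬ BadT Y.length → ∀ v, ∃ P Q, P ++ Q = Y ∧ lam P v ∧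
    (rho Q).isSome

open Classical in
/-- the ruler of scheme 2 -/
structure Ruler (BadT : ℕ → Prop) (N T0 K p0 C0 : ℕ) (x : ℕ → ℕ) : Prop where
  mono : ∀ i j, i < j → j < K → x i < x j
  le : ∀ k < K, x k ≤ p0
  space : ∀ a b a' b', a < K → b < K → a' < K → b' < K → a ≠ b → a' ≠ b' →
    ¬ (a = a' ∧ b = b') → x a + x b' < x b + x a' + 2 * N → x b + x a' < x a + x b' + 2 * N → False
  thin : ∀ T, T0 ≤ T → ((Finset.range K ×ˢ Finset.range K).filter
     (fun ab => ab.1 ≠ ab.2 ∧ BadT (T + x ab.1 - x ab.2))).card ≤ C0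

section defs

variable (Wo : List α → Prop) (z p0 N : ℕ) (BadT : ℕ → Prop)

/-- blocks -/
def XX : Set (List α) :=
  {X | z ≤ X.length ∧ Wo X ∧ ∀ t, z ≤ t → t < X.length → ¬ Wo (X.take t)}

/-- bad blocks -/
def Bad : Set (List α) :=
  {X | X ∈ XX Wo z ∧ ((∃ t, t ≤ X.length ∧ Wo (X.take t) ∧ z ≤ t + N ∧ t < z + N) ∨
    BadT (X.length - p0))}

/-- first wall at distance `≥ z` from the anchor which lies `c` letters before `Q` -/
def FW (c : ℕ) (Q : List α) (t : ℕ) : Prop :=
  t ≤ Q.length ∧ Wo (Q.take t) ∧ z ≤ t + c ∧ ∀ s, s < t → z ≤ s + c → ¬ Wo (Q.take s)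

/-- the block whose anchor lies `c` letters before `Q` is bad -/
def BadQ (c : ℕ) (Q : List α) : Prop :=
  ∃ t, FW Wo z c Q t ∧
    ((∃ s, s ≤ Q.length ∧ Wo (Q.take s) ∧ z ≤ s + c + N ∧ s + c < z + N) ∨ BadT (t + c - p0))

end defs

variable {Wo : List α → Prop} {z p0 N n W : ℕ} {BadT : ℕ → Prop}

theorem XX_pcode (hz : 0 < z) : PCode (XX Wo z) := by
  refine ⟨fun h => ?_, fun X hX Y hY h => ?_⟩
  · have := h.1; simp at this; omega
  · obtain ⟨r, rfl⟩ := h
    by_contra hne
    have hr : r ≠ [] := by rintro rfl; exact hne (by simp)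
    have hl : 0 < r.length := List.length_pos_iff.2 hr
    refine hY.2.2 X.length hX.1 (by rw [List.length_append]; omega) ?_
    rw [List.take_left']
    · exact hX.2.1
    · rfl

theorem take_add_left (P Q : List α) (s : ℕ) : (P ++ Q).take (P.length + s) = P ++ Q.take s := by
  rw [List.take_append, List.take_of_length_le (by omega)]
  congr 2
  omega

theorem wo_shift (hW : Wl Wo n W) (P Q : List α) (s : ℕ) (hs : n ≤ s) (hs2 : s ≤ Q.length) :
    Wo ((P ++ Q).take (P.length + s)) ↔ Wo (Q.take s) := by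
  rw [take_add_left]
  exact hW.app _ _ (by rw [List.length_take]; omega)

/-- the block `X1` in front of the text is seen from the place `|P|` -/
theorem fw_of_block (hW : Wl Wo n W) {P Q X : List α} (hX : X ∈ XX Wo z) (hPz : P.length + n ≤ z)
    (hp : X <+: P ++ Q) : FW Wo z P.length Q (X.length - P.length) := by
  obtain ⟨h1, h2, h3⟩ := hX
  have hle : X.length ≤ P.length + Q.length := by
    have := hp.length_le; rw [List.length_append] at this; exact this
  have hXe : X = (P ++ Q).take X.length := List.prefix_iff_eq_take.1 hp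
  have hadd : P.length + (X.length - P.length) = X.length := by omega
  refine ⟨by omega, ?_, by omega, fun s hs hz hw => ?_⟩
  · rw [← wo_shift hW P Q _ (by omega) (by omega), hadd, ← hXe]; exact h2
  · refine h3 (P.length + s) (by omega) (by omega) ?_
    rw [hXe, List.take_take, min_eq_left (by omega), wo_shift hW P Q s (by omega) (by omega)]
    exact hw

theorem fw_unique {c : ℕ} {Q : List α} {t t' : ℕ} (h : FW Wo z c Q t) (h' : FW Wo z c Q t') :
    t = t' := by
  rcases lt_trichotomy t t' with hlt | he | hlt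
  · exact absurd h.2.1 (h'.2.2.2 t hlt h.2.2.1)
  · exact he
  · exact absurd h'.2.1 (h.2.2.2 t' hlt h'.2.2.1)

theorem fw_append {c : ℕ} {Q r : List α} {t : ℕ} (h : FW Wo z c Q t) : FW Wo z c (Q ++ r) t := by
  obtain ⟨h1, h2, h3, h4⟩ := h
  refine ⟨by rw [List.length_append]; omega, ?_, h3, fun s hs hz => ?_⟩
  · rw [List.take_append_of_le_length h1]; exact h2
  · rw [List.take_append_of_le_length (by omega)]; exact h4 s hs hz

/-- a bad block in front is recognised from every place of its first part -/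
theorem badQ_of_bad (hW : Wl Wo n W) {P Q X : List α} (hX : X ∈ Bad Wo z p0 N BadT)
    (hPz : P.length + N + n ≤ z) (hp : X <+: P ++ Q) : BadQ Wo z p0 N BadT P.length Q := by
  have hfw := fw_of_block hW hX.1 (by omega) hp
  have hle : X.length ≤ P.length + Q.length := by
    have := hp.length_le; rw [List.length_append] at this; exact this
  have hXe : X = (P ++ Q).take X.length := List.prefix_iff_eq_take.1 hp
  have hz1 := hX.1.1
  refine ⟨_, hfw, ?_⟩
  rcases hX.2 with ⟨t, ht1, ht2, ht3, ht4⟩ | hB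
  · left
    refine ⟨t - P.length, by omega, ?_, by omega, by omega⟩
    rw [← wo_shift hW P Q _ (by omega) (by omega)]
    have e : P.length + (t - P.length) = t := by omega
    rw [e]
    rw [hXe, List.take_take, min_eq_left ht1] at ht2
    exact ht2
  · right
    have e : X.length - P.length + P.length - p0 = X.length - p0 := by omega
    rw [e]; exact hB

section spoil

open Classical in
/-- at most `1 + 2 C0` ruler places are ambiguous -/
theorem spoil (hW : Wl Wo n W) {T0 K C0 : ℕ} {x : ℕ → ℕ} (hR : Ruler BadT N T0 K p0 C0 x)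
    (hWb : 2 * (N + p0) + 1 ≤ W) (hz : 3 * p0 + N + n + T0 ≤ z) {U : List α} (hU : Wo U)
    (hUl : z ≤ U.length) :
    ((Finset.range K).filter (fun k => ∃ k' < K, k' ≠ k ∧
      BadQ Wo z p0 N BadT (x k') (U.drop (x k)))).card ≤ 1 + 2 * C0 := by
  -- walls of `U`
  have hex : ∃ w, z - p0 ≤ w ∧ w ≤ U.length ∧ Wo (U.take w) :=
    ⟨U.length, by omega, le_rfl, by rw [List.take_length]; exact hU⟩
  set w1 := Nat.find hex with hw1
  obtain ⟨a1, a2, a3⟩ := Nat.find_spec hex
  have a4 : ∀ w, w < w1 → z - p0 ≤ w → w ≤ U.length → ¬ Wo (U.take w) := fun w h h1 h2 h3 =>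
    Nat.find_min hex h ⟨h1, h2, h3⟩
  -- second wall
  obtain ⟨w2, b1, b2⟩ : ∃ w2, z - p0 ≤ w2 ∧
      ∀ w, w1 < w → w ≤ U.length → Wo (U.take w) → (w1 < w2 ∧ w2 ≤ w ∧ w2 ≤ U.length ∧
        Wo (U.take w2)) := by
    by_cases h : ∃ w, w1 < w ∧ w ≤ U.length ∧ Wo (U.take w)
    · refine ⟨Nat.find h, ?_, fun w h1 h2 h3 => ?_⟩
      · have := (Nat.find_spec h).1; omega
      · exact ⟨(Nat.find_spec h).1, Nat.find_min' h ⟨h1, h2, h3⟩, (Nat.find_spec h).2.1,
          (Nat.find_spec h).2.2⟩
    · exact ⟨w1, a1, fun w h1 h2 h3 => absurd ⟨w, h1, h2, h3⟩ h⟩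
  -- transfer
  have tr : ∀ k < K, ∀ s, n ≤ s → s ≤ (U.drop (x k)).length → Wo ((U.drop (x k)).take s) →
      s + x k ≤ U.length ∧ Wo (U.take (s + x k)) := by
    intro k hk s hs1 hs2 hs3
    have hxk := hR.le k hk
    rw [List.length_drop] at hs2
    refine ⟨by omega, ?_⟩
    have e : U = U.take (x k) ++ U.drop (x k) := (List.take_append_drop _ _).symm
    have hl : (U.take (x k)).length = x k := by rw [List.length_take]; omega
    rw [e, show s + x k = (U.take (x k)).length + s by rw [hl]; omega,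
      wo_shift hW _ _ s hs1 (by rw [List.length_drop]; omega)]
    exact hs3
  let SpE : Finset ℕ := (Finset.range K).filter (fun k => ∃ k' < K, k' ≠ k ∧
    ∃ s, s ≤ U.length ∧ Wo (U.take s) ∧ z + x k ≤ s + x k' + N ∧ s + x k' < z + N + x k)
  have hE : SpE.card ≤ 1 := by
    rw [Finset.card_le_one]
    intro k hk l hl
    obtain ⟨hkK, k', hk'K, hkk', s, s1, s2, s3, s4⟩ := Finset.mem_filter.1 hk
    obtain ⟨hlK, l', hl'K, hll', s', t1, t2, t3, t4⟩ := Finset.mem_filter.1 hl
    rw [Finset.mem_range] at hkK hlK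
    have q1 := hR.le k hkK
    have q2 := hR.le k' hk'K
    have q3 := hR.le l hlK
    have q4 := hR.le l' hl'K
    have hss : s = s' := by
      rcases lt_trichotomy s s' with h | h | h
      · have := hW.gap U s s' s2 t2 h t1; omega
      · exact h
      · have := hW.gap U s' s t2 s2 h s1; omega
    subst hss
    by_contra hne
    exact hR.space k' k l' l hk'K hkK hl'K hlK hkk' hll' (fun h => hne h.2) (by omega) (by omega)
  let A : ℕ → Finset (ℕ × ℕ) := fun w => (Finset.range K ×ˢ Finset.range K).filter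
     (fun ab => ab.1 ≠ ab.2 ∧ BadT ((w - p0) + x ab.1 - x ab.2))
  have hA1 : (A w1).card ≤ C0 := hR.thin (w1 - p0) (by omega)
  have hA2 : (A w2).card ≤ C0 := hR.thin (w2 - p0) (by omega)
  have hsub : ((Finset.range K).filter (fun k => ∃ k' < K, k' ≠ k ∧
      BadQ Wo z p0 N BadT (x k') (U.drop (x k)))) ⊆
      SpE ∪ ((A w1).image Prod.snd ∪ (A w2).image Prod.snd) := by
    intro k hk
    obtain ⟨hkK, k', hk'K, hkk', t, ht, hbad⟩ := Finset.mem_filter.1 hk
    rw [Finset.mem_range] at hkK
    have q1 := hR.le k hkK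
    have q2 := hR.le k' hk'K
    rcases hbad with ⟨s, s1, s2, s3, s4⟩ | hB
    · obtain ⟨r1, r2⟩ := tr k hkK s (by omega) s1 s2
      refine Finset.mem_union_left _ (Finset.mem_filter.2 ⟨Finset.mem_range.2 hkK, k', hk'K, hkk',
        s + x k, r1, r2, by omega, by omega⟩)
    · obtain ⟨t1, t2, t3, t4⟩ := ht
      obtain ⟨r1, r2⟩ := tr k hkK t (by omega) t1 t2
      have hmem : ∀ w, t + x k = w → z - p0 ≤ w → k ∈ (A w).image Prod.snd := by
        intro w hw hwz
        refine Finset.mem_image.2 ⟨(k', k), Finset.mem_filter.2 ⟨Finset.mem_product.2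
          ⟨Finset.mem_range.2 hk'K, Finset.mem_range.2 hkK⟩, hkk', ?_⟩, rfl⟩
        have e : w - p0 + x k' - x k = t + x k' - p0 := by omega
        show BadT (w - p0 + x k' - x k)
        rw [e]; exact hB
      have hge : w1 ≤ t + x k := by
        by_contra hlt
        exact a4 _ (by omega) (by omega) r1 r2
      rcases Nat.eq_or_lt_of_le hge with he | hlt
      · exact Finset.mem_union_right _ (Finset.mem_union_left _ (hmem w1 he.symm (by omega)))
      · obtain ⟨c1, c2, c3, c4⟩ := b2 _ hlt r1 r2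
        have hgap := hW.gap U w1 w2 a3 c4 c1 c3
        have he : w2 = t + x k := by
          rcases Nat.eq_or_lt_of_le c2 with h | h
          · exact h
          · exfalso
            have hl : (U.take (x k)).length = x k := by rw [List.length_take]; omega
            refine t4 (w2 - x k) (by omega) (by omega) ?_
            rw [← wo_shift hW (U.take (x k)) (U.drop (x k)) _ (by omega)
              (by rw [List.length_drop]; omega), List.take_append_drop, hl,
              show x k + (w2 - x k) = w2 by omega]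
            exact c4
        exact Finset.mem_union_right _ (Finset.mem_union_right _ (hmem w2 he.symm (by omega)))
  calc _ ≤ (SpE ∪ ((A w1).image Prod.snd ∪ (A w2).image Prod.snd)).card :=
        Finset.card_le_card hsub
    _ ≤ SpE.card + ((A w1).image Prod.snd ∪ (A w2).image Prod.snd).card :=
        Finset.card_union_le _ _
    _ ≤ SpE.card + (((A w1).image Prod.snd).card + ((A w2).image Prod.snd).card) := by
        gcongr; exact Finset.card_union_le _ _
    _ ≤ 1 + (C0 + C0) := by
        gcongr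
        · exact Finset.card_image_le.trans hA1
        · exact Finset.card_image_le.trans hA2
    _ = 1 + 2 * C0 := by omega

end spoil


/-- the exact gadget on the first `p0` letters -/
structure G2 (f : α → S) (act : V → S → V) (K R : ℕ) (x : ℕ → ℕ) where
  lam : ℕ → List α → Option V
  rho : ℕ → List α → Option V
  nu : List α → V
  sound : ∀ k < K, ∀ (P Q : List α) (v b : V), P.length = x k → lam k P = some v →
    rho k Q = some b → b = act v (pr f (P ++ Q)) + nu (P ++ Q)
  complete : ∀ (u : List α) (v : V), (∀ k < K, x k ≤ u.length) →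
    ∃ I : Finset ℕ, R ≤ I.card ∧ ∀ k ∈ I, k < K ∧ lam k (u.take (x k)) = some v ∧
      (rho k (u.drop (x k))).isSome

theorem exists_G2 [Fintype S] [Fintype V] (f : α → S) (act : V → S → V) (R : ℕ) :
    ∃ K : ℕ, ∀ x : ℕ → ℕ, (∀ i j, i < j → j < K → x i < x j) → Nonempty (G2 f act K R x) := by
  obtain ⟨K, h⟩ := ExactR_237.exact_gadget α S V f act R
  refine ⟨K, fun x hx => ?_⟩
  obtain ⟨lam, rho, nu, h1, h2⟩ := h x hx
  exact ⟨⟨lam, fun k Q => rho k Q 1, fun u => nu u 1, fun k hk P Q v b hP hl hr => by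
    have := h1 k hk P Q 1 v b hP hl hr
    rwa [mul_one] at this, fun u v hu => h2 u 1 v hu⟩⟩

section main

variable {f : α → S} {act : V → S → V} {K R : ℕ} {x : ℕ → ℕ}

/-- noise of a block -/
def nuX (f : α → S) (act : V → S → V) (p0 : ℕ) (nu1 nu2 : List α → V) (X : List α) : V :=
  act (nu2 (X.take p0)) (pr f (X.drop p0)) + nu1 (X.drop p0)

/-- block map -/
def TX (f : α → S) (act : V → S → V) (p0 : ℕ) (nu1 nu2 : List α → V) (v : V) (X : List α) : V :=
  act v (pr f X) + nuX f act p0 nu1 nu2 X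

theorem TX_eq (hadd : ∀ a b s, act (a + b) s = act a s + act b s)
    (hmul : ∀ v s t, act v (s * t) = act (act v s) t) (nu1 nu2 : List α → V) (v : V)
    (X : List α) : TX f act p0 nu1 nu2 v X =
      act (act v (pr f (X.take p0)) + nu2 (X.take p0)) (pr f (X.drop p0)) + nu1 (X.drop p0) := by
  unfold TX nuX
  rw [hadd, ← hmul, ← pr_append, List.take_append_drop]
  abel

/-- left words of scheme 1 -/
def LP1 (G : G1 f act) (p0 : ℕ) (nu2 : List α → V) (v : V) : Language α :=
  {P | p0 ≤ P.length ∧ G.lam (P.drop p0) (act v (pr f (P.take p0)) + nu2 (P.take p0))}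

/-- right words of scheme 1 -/
def RQ1 (G : G1 f act) (Wo : List α → Prop) (z p0 : ℕ) (b : V) : Language α :=
  {Q | Wo Q ∧ z ≤ Q.length + p0 ∧ (∀ t, t < Q.length → z ≤ t + p0 + G.N → ¬ Wo (Q.take t)) ∧
    G.rho Q = some b}

/-- left words of scheme 2 -/
def LP2 (H : G2 f act K R x) (v : V) : Language α :=
  {P | ∃ k < K, P.length = x k ∧ H.lam k P = some v}

/-- right words of scheme 2 -/
def RQ2 (G : G1 f act) (H : G2 f act K R x) (Wo : List α → Prop) (z p0 : ℕ) (b : V) :
    Language α :=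
  {Q | ∃ k < K, BadQ Wo z p0 G.N G.BadT (x k) Q ∧
    (∀ k' < K, k' ≠ k → ¬ BadQ Wo z p0 G.N G.BadT (x k') Q) ∧
    (∀ k' < K, ∃ t, FW Wo z (x k') Q t) ∧
    ∃ t y, FW Wo z (x k) Q t ∧ H.rho k (Q.take (p0 - x k)) = some y ∧ Q.drop t ∈ XX Wo z ∧
      b = TX f act p0 G.nu H.nu (act y (pr f ((Q.take t).drop (p0 - x k))) +
        G.nu ((Q.take t).drop (p0 - x k))) (Q.drop t)}

theorem s1 (hadd : ∀ a b s, act (a + b) s = act a s + act b s)
    (hmul : ∀ v s t, act v (s * t) = act (act v s) t) (G : G1 f act) (hW : Wl Wo n W)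
    (hz : 3 * p0 + G.N + n + G.T0 + 1 ≤ z) (nu2 : List α → V) (v b : V) (P Q : List α)
    (hP : P ∈ LP1 G p0 nu2 v) (hQ : Q ∈ RQ1 G Wo z p0 b) :
    P ++ Q ∈ XX Wo z ∧ TX f act p0 G.nu nu2 v (P ++ Q) = b := by
  obtain ⟨hP1, hP2⟩ := hP
  obtain ⟨hQ1, hQ2, hQ3, hQ4⟩ := hQ
  have hl := G.lam_le _ _ hP2
  rw [List.length_drop] at hl
  have hn := hW.len Q hQ1
  refine ⟨⟨by rw [List.length_append]; omega, (hW.app P Q hn).2 hQ1, fun t ht1 ht2 hw => ?_⟩, ?_⟩
  · rw [List.length_append] at ht2
    have e : t = P.length + (t - P.length) := by omega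
    rw [e, wo_shift hW P Q _ (by omega) (by omega)] at hw
    exact hQ3 _ (by omega) (by omega) hw
  · rw [TX_eq hadd hmul, List.take_append_of_le_length hP1, List.drop_append_of_le_length hP1]
    exact (G.sound _ _ _ _ hP2 hQ4).symm

theorem c1 (hadd : ∀ a b s, act (a + b) s = act a s + act b s)
    (hmul : ∀ v s t, act v (s * t) = act (act v s) t) (G : G1 f act) (hW : Wl Wo n W)
    (hz : 3 * p0 + G.N + n + G.T0 + 1 ≤ z) (nu2 : List α → V) (X : List α) (hX : X ∈ XX Wo z)
    (hB : X ∉ Bad Wo z p0 G.N G.BadT) (v : V) : ∃ P Q, P ++ Q = X ∧ P ∈ LP1 G p0 nu2 v ∧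
      Q ∈ RQ1 G Wo z p0 (TX f act p0 G.nu nu2 v X) := by
  obtain ⟨h1, h2, h3⟩ := hX
  have hne : ∀ t, t ≤ X.length → Wo (X.take t) → z ≤ t + G.N → ¬ t < z + G.N :=
    fun t a b c d => hB ⟨⟨h1, h2, h3⟩, Or.inl ⟨t, a, b, c, d⟩⟩
  have hnb : ¬ G.BadT (X.length - p0) := fun h => hB ⟨⟨h1, h2, h3⟩, Or.inr h⟩
  have hXl : z + G.N ≤ X.length := by
    by_contra hlt
    exact hne X.length le_rfl (by rw [List.take_length]; exact h2) (by omega) (by omega)
  obtain ⟨P', Q, hPQ, hlam, hrho⟩ := G.complete (X.drop p0) (by rw [List.length_drop]; omega)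
    (by rw [List.length_drop]; exact hnb) (act v (pr f (X.take p0)) + nu2 (X.take p0))
  obtain ⟨b, hb⟩ := Option.isSome_iff_exists.1 hrho
  have hl := G.lam_le _ _ hlam
  have hlen : P'.length + Q.length = X.length - p0 := by
    have := congrArg List.length hPQ
    rw [List.length_append, List.length_drop] at this; exact this
  have hX0 : (X.take p0).length = p0 := by rw [List.length_take]; omega
  have hXe : (X.take p0 ++ P') ++ Q = X := by
    rw [List.append_assoc, hPQ, List.take_append_drop]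
  have hPl : (X.take p0 ++ P').length = p0 + P'.length := by rw [List.length_append, hX0]
  refine ⟨X.take p0 ++ P', Q, hXe, ⟨by omega, ?_⟩, ?_, by omega, fun t ht1 ht2 hw => ?_, ?_⟩
  · rw [List.take_left' hX0, List.drop_left' hX0]; exact hlam
  · rw [← hXe] at h2
    exact (hW.app _ _ (by omega)).1 h2
  · have hw' : Wo (X.take (p0 + P'.length + t)) := by
      rw [← hXe, ← hPl, wo_shift hW _ Q t (by omega) (by omega)]
      exact hw
    by_cases hzt : z ≤ p0 + P'.length + t
    · exact h3 _ hzt (by omega) hw'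
    · exact hne _ (by omega) hw' (by omega) (by omega)
  · rw [hb, TX_eq hadd hmul, G.sound _ _ _ _ hlam hb, hPQ]

theorem s2 (hadd : ∀ a b s, act (a + b) s = act a s + act b s)
    (hmul : ∀ v s t, act v (s * t) = act (act v s) t) (G : G1 f act) (H : G2 f act K R x)
    (hW : Wl Wo n W) {C0 : ℕ} (hR : Ruler G.BadT G.N G.T0 K p0 C0 x)
    (hz : 3 * p0 + G.N + n + G.T0 + 1 ≤ z) (v b : V) (P Q r : List α)
    (hP : P ∈ LP2 H v) (hQ : Q ∈ RQ2 G H Wo z p0 b)
    (hs : P ++ Q ++ r ∈ Str (Bad Wo z p0 G.N G.BadT)) :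
    P ++ Q ∈ Lg (Bad Wo z p0 G.N G.BadT) (TX f act p0 G.nu H.nu) v b := by
  obtain ⟨k0, hk0, hPl, hlam⟩ := hP
  obtain ⟨k, hk, hbk, huniq, hall, t, y, ht, hrho, hX2, hb⟩ := hQ
  have q0 := hR.le k0 hk0
  have q1 := hR.le k hk
  obtain ⟨l, hl, hle⟩ := hs
  -- the first block
  obtain ⟨t0, ht0⟩ := hall k0 hk0
  cases l with
  | nil =>
    exfalso
    have h0 := congrArg List.length hle
    simp only [List.flatten_nil, List.length_nil, List.length_append] at h0
    have := ht0.1
    have := ht0.2.2.1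
    omega
  | cons X l =>
  have hXB := hl X (by simp)
  have hpre : X <+: P ++ (Q ++ r) := ⟨l.flatten, by
    rw [← List.append_assoc, ← hle, List.flatten_cons]⟩
  have hfw := fw_of_block hW hXB.1 (by omega) hpre
  have he := fw_unique (fw_append (r := r) (by rw [← hPl] at ht0; exact ht0)) hfw
  have hXz := hXB.1.1
  have ht0l := ht0.1
  have hXl : X.length = P.length + t0 := by omega
  have hXpre : X <+: P ++ Q := by
    have e : X = (P ++ (Q ++ r)).take X.length := List.prefix_iff_eq_take.1 hpre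
    rw [e, ← List.append_assoc, List.take_append_of_le_length
      (by rw [List.length_append]; omega)]
    exact List.take_prefix _ _
  have hbq := badQ_of_bad hW hXB (by omega) hXpre
  rw [hPl] at hbq
  have hkk : k0 = k := by
    by_contra hne
    exact huniq k0 hk0 hne hbq
  subst hkk
  have htt : t0 = t := fw_unique ht0 ht
  subst htt
  have hXe : X = P ++ Q.take t0 := by
    have e : X = (P ++ Q).take X.length := List.prefix_iff_eq_take.1 hXpre
    rw [hXl, take_add_left] at e
    exact e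
  -- split of the first block
  have hpt : p0 - x k0 ≤ t0 := by omega
  have e1 : X.take p0 = P ++ Q.take (p0 - x k0) := by
    rw [hXe]
    have : p0 = P.length + (p0 - x k0) := by omega
    conv_lhs => rw [this]
    rw [take_add_left, List.take_take, min_eq_left hpt]
  have e2 : X.drop p0 = (Q.take t0).drop (p0 - x k0) := by
    rw [hXe, List.drop_append, List.drop_eq_nil_of_le (by omega), List.nil_append, hPl]
  have hy := H.sound k0 hk P (Q.take (p0 - x k0)) v y hPl hlam hrho
  have hTX : TX f act p0 G.nu H.nu v X = act y (pr f ((Q.take t0).drop (p0 - x k0))) +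
      G.nu ((Q.take t0).drop (p0 - x k0)) := by
    rw [TX_eq hadd hmul, e1, e2, ← hy]
  -- the second block
  have hC := XX_pcode (Wo := Wo) (z := z) (by omega)
  have hrest : Q.drop t0 ++ r = l.flatten := by
    have h := hle
    rw [List.flatten_cons, hXe] at h
    have h2 : P ++ Q ++ r = P ++ Q.take t0 ++ (Q.drop t0 ++ r) := by
      rw [List.append_assoc, List.append_assoc, ← List.append_assoc (Q.take t0),
        List.take_append_drop]
    rw [h2] at h
    exact (List.append_cancel_left h).symm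
  obtain ⟨l', rfl, -⟩ := Top5_467.PCode.first hC hX2 l
    (fun Y hY => (hl Y (by simp [hY])).1) hrest
  refine ⟨[X, Q.drop t0], fun Y hY => ?_, ?_, ?_⟩
  · rcases List.mem_cons.1 hY with rfl | hY
    · exact hXB
    · rcases List.mem_cons.1 hY with rfl | hY
      · exact hl _ (by simp)
      · simp at hY
  · simp only [List.flatten_cons, List.flatten_nil, List.append_nil]
    rw [hXe, List.append_assoc, List.take_append_drop]
  · simp only [List.foldl_cons, List.foldl_nil]
    rw [hTX]; exact hb.symm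

theorem c2 (hadd : ∀ a b s, act (a + b) s = act a s + act b s)
    (hmul : ∀ v s t, act v (s * t) = act (act v s) t) (G : G1 f act) {C0 : ℕ}
    (H : G2 f act K (2 + 2 * C0) x)
    (hW : Wl Wo n W) (hR : Ruler G.BadT G.N G.T0 K p0 C0 x) (hWb : 2 * (G.N + p0) + 1 ≤ W)
    (hz : 3 * p0 + G.N + n + G.T0 + 1 ≤ z) (X : List α) (hX : X ∈ Bad Wo z p0 G.N G.BadT)
    (X' : List α) (hX' : X' ∈ Bad Wo z p0 G.N G.BadT) (v : V) : ∃ P Q, P ++ Q = X ++ X' ∧
      P ∈ LP2 H v ∧ Q ∈ RQ2 G H Wo z p0
        (TX f act p0 G.nu H.nu (TX f act p0 G.nu H.nu v X) X') := by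
  classical
  have hXz := hX.1.1
  have hX'z := hX'.1.1
  have hX0 : (X.take p0).length = p0 := by rw [List.length_take]; omega
  obtain ⟨I, hI, hIk⟩ := H.complete (X.take p0) v (fun k hk => by
    rw [hX0]; exact hR.le k hk)
  have hU : Wo (X ++ X') := (hW.app X X' (hW.len _ hX'.1.2.1)).2 hX'.1.2.1
  have hsp := spoil (z := z) hW hR hWb (by omega) hU (by rw [List.length_append]; omega)
  obtain ⟨k, hkI, hkS⟩ : ∃ k ∈ I, k ∉ ((Finset.range K).filter (fun k => ∃ k' < K, k' ≠ k ∧
      BadQ Wo z p0 G.N G.BadT (x k') ((X ++ X').drop (x k)))) := by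
    by_contra hcon
    push Not at hcon
    have := Finset.card_le_card (fun k hk => hcon k hk : I ⊆ _)
    omega
  obtain ⟨hk, hlam, hrho⟩ := hIk k hkI
  have q1 := hR.le k hk
  obtain ⟨y, hy⟩ := Option.isSome_iff_exists.1 hrho
  have hPl : (X.take (x k)).length = x k := by rw [List.length_take]; omega
  have hQe : (X ++ X').drop (x k) = X.drop (x k) ++ X' := List.drop_append_of_le_length (by omega)
  have hPQ : X.take (x k) ++ (X.drop (x k) ++ X') = X ++ X' := by
    rw [← List.append_assoc, List.take_append_drop]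
  have hpre : X <+: X.take (x k) ++ (X.drop (x k) ++ X') := ⟨X', hPQ.symm⟩
  have hfw := fw_of_block (P := X.take (x k)) hW hX.1 (by rw [hPl]; omega) hpre
  have hbq := badQ_of_bad (P := X.take (x k)) hW hX (by rw [hPl]; omega) hpre
  rw [hPl] at hfw hbq
  have hlam' : H.lam k (X.take (x k)) = some v := by
    rw [List.take_take, min_eq_left q1] at hlam; exact hlam
  have htk : (X.drop (x k) ++ X').take (X.length - x k) = X.drop (x k) :=
    List.take_left' (by rw [List.length_drop])
  have htd : (X.drop (x k) ++ X').drop (X.length - x k) = X' :=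
    List.drop_left' (by rw [List.length_drop])
  have e1 : (X.drop (x k) ++ X').take (p0 - x k) = (X.take p0).drop (x k) := by
    rw [List.take_append_of_le_length (by rw [List.length_drop]; omega), List.drop_take]
  have e2 : ((X.drop (x k) ++ X').take (X.length - x k)).drop (p0 - x k) = X.drop p0 := by
    rw [htk, List.drop_drop]
    congr 1
    omega
  refine ⟨X.take (x k), X.drop (x k) ++ X', hPQ, ⟨k, hk, hPl, hlam'⟩, k, hk, hbq, ?_, ?_,
    X.length - x k, y, hfw, ?_, ?_, ?_⟩
  · intro k' hk' hne hbad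
    refine hkS (Finset.mem_filter.2 ⟨Finset.mem_range.2 hk, k', hk', hne, ?_⟩)
    rw [hQe]; exact hbad
  · intro k' hk'
    have q2 := hR.le k' hk'
    have hex : ∃ t, t ≤ (X.drop (x k) ++ X').length ∧ Wo ((X.drop (x k) ++ X').take t) ∧
        z ≤ t + x k' := by
      refine ⟨_, le_rfl, ?_, ?_⟩
      · rw [List.take_length]
        exact (hW.app _ X' (hW.len _ hX'.1.2.1)).2 hX'.1.2.1
      · rw [List.length_append, List.length_drop]; omega
    obtain ⟨g1, g2, g3⟩ := Nat.find_spec hex
    exact ⟨Nat.find hex, g1, g2, g3, fun s hs hzs hw =>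
      Nat.find_min hex hs ⟨by omega, hw, hzs⟩⟩
  · rw [e1]; exact hy
  · rw [htd]; exact hX'.1
  · rw [e2, htd]
    congr 1
    rw [TX_eq hadd hmul]
    have hs := H.sound k hk (X.take (x k)) ((X.take p0).drop (x k)) v y hPl hlam' hy
    have e3 : X.take (x k) ++ (X.take p0).drop (x k) = X.take p0 := by
      conv_rhs => rw [← List.take_append_drop (x k) (X.take p0)]
      rw [List.take_take, min_eq_left q1]
    rw [e3] at hs
    rw [hs]

end main

end Crest.Agent.R320.Joint_226
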