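import Crest.Agent.R320.Top_180
import Crest.Agent.R320.WallU_228
import Crest.Agent.R320.ExactR_237
import Crest.Agent.R320.Reg_143
import Crest.Agent.R320.Reg_819

/-!
# Row 320: final joint (helper236)

Two wall schemes on the natural chain of left-looking walls of ALL words, gadget 1 (thin set of bad
lengths) as a hypothesis structure `Gad`, gadget 2 = `ExactR_237.exact_gadget`.
-/

set_option autoImplicit false

namespace Crest.Agent.R320.Joint_236

open Crest.RegLang Crest.Agent.R320.Hk_851 Crest.Agent.R320.Half1_180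
  Crest.Agent.R320.ExactR_237

variable {α S V : Type}

/-- gadget 1: outer scheme without walls, complete off a thin set of lengths -/
structure Gad [Monoid S] [AddCommGroup V] (f : α → S) (act : V → S → V) (R K : ℕ) where
  (N0 N1 T0 Sp : ℕ)
  BadT : ℕ → Prop
  c : ℕ → ℕ
  lam : List α → Option V
  rho : List α → Option V
  nu : List α → V
  mono : ∀ i j, i < j → j < K → c i < c j
  cSp : ∀ k, k < K → c k ≤ Sp
  rul : ∀ k, k < K → ∀ k', k' < K → ∀ l, l < K → ∀ l', l' < K → k ≠ k' → l ≠ l' →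
    (c k + c l' ≤ c l + c k' + 2 * N1 ∧ c l + c k' ≤ c k + c l' + 2 * N1) → k = l ∧ k' = l'
  thin : ∀ T, T0 ≤ T → ∃ F : Finset (ℕ × ℕ), F.card ≤ R ∧
    ∀ k, k < K → ∀ k', k' < K → k ≠ k' → BadT (T + c k' - c k) → (k, k') ∈ F
  len : ∀ P v, lam P = some v → P.length ≤ N1
  sound : ∀ P Q v r, lam P = some v → rho Q = some r → r = act v (pr f (P ++ Q)) + nu (P ++ Q)
  compl : ∀ Y : List α, N0 ≤ Y.length → ¬ BadT Y.length → ∀ v, ∃ P Q, Y = P ++ Q ∧
    lam P = some v ∧ (rho Q).isSome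
  regnu : ∀ a, (Lg fun Y => nu Y = a).IsRegular
  regBad : (Lg fun Y : List α => BadT Y.length).IsRegular

/-- block code: natural rule -/
def XX (Wo : List α → Prop) (z : ℕ) : Set (List α) :=
  {X | z ≤ X.length ∧ Wo X ∧ ∀ t, z ≤ t → t < X.length → ¬ Wo (X.take t)}

/-- a wall within `N1` of `z` -/
def EB (Wo : List α → Prop) (z N1 : ℕ) (X : List α) : Prop :=
  ∃ t, z - N1 ≤ t ∧ t < z + N1 ∧ t ≤ X.length ∧ Wo (X.take t)

theorem pf_XX {Wo : List α → Prop} {z : ℕ} (hz : 0 < z) : PF (XX Wo z) := by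
  refine ⟨fun X hX h => ?_, ?_⟩
  · have := hX.1
    rw [h] at this
    simp at this
    omega
  · rintro X hX Y hY ⟨t, rfl⟩
    by_contra hne
    have ht : t ≠ [] := fun h => hne (by simp [h])
    have hl : 0 < t.length := List.length_pos_iff.2 ht
    refine hY.2.2 X.length hX.1 (by rw [List.length_append]; omega) ?_
    rw [List.take_left]
    exact hX.2.1

theorem take_app {P Q : List α} {t : ℕ} (h : P.length ≤ t) :
    (P ++ Q).take t = P ++ Q.take (t - P.length) := by
  rw [List.take_append, List.take_of_length_le h]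

theorem shift {Wo : List α → Prop} {n : ℕ}
    (loc : ∀ P Q : List α, n ≤ Q.length → (Wo (P ++ Q) ↔ Wo Q)) {P P' Q : List α} {t t' : ℕ}
    (h1 : P'.length + n ≤ t) (h2 : t ≤ P'.length + Q.length)
    (h3 : t' + P'.length = t + P.length) :
    Wo ((P' ++ Q).take t) ↔ Wo ((P ++ Q).take t') := by
  rw [take_app (by omega), take_app (by omega)]
  have e : t' - P.length = t - P'.length := by omega
  rw [e]
  have hl : n ≤ (Q.take (t - P'.length)).length := by
    rw [List.length_take]; omega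
  rw [loc _ _ hl, loc _ _ hl]

theorem geo1 {Wo : List α → Prop} {n z N1 p0 : ℕ}
    (loc : ∀ P Q : List α, n ≤ Q.length → (Wo (P ++ Q) ↔ Wo Q))
    (hz : p0 + 2 * N1 + n ≤ z) {P P' Q : List α} (hX : P ++ Q ∈ XX Wo z)
    (hE : ¬ EB Wo z N1 (P ++ Q)) (h1 : p0 ≤ P.length) (h2 : P.length ≤ p0 + N1)
    (h1' : p0 ≤ P'.length) (h2' : P'.length ≤ p0 + N1) : P' ++ Q ∈ XX Wo z := by
  obtain ⟨a1, a2, a3⟩ := hX
  have hlX : (P ++ Q).length = P.length + Q.length := List.length_append
  have hlX' : (P' ++ Q).length = P'.length + Q.length := List.length_append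
  have b1 : z + N1 ≤ (P ++ Q).length := by
    by_contra hlt
    refine hE ⟨(P ++ Q).length, by omega, by omega, le_rfl, ?_⟩
    rw [List.take_length]; exact a2
  refine ⟨by omega, ?_, ?_⟩
  · have := (shift (P := P) (P' := P') (Q := Q) (t := P'.length + Q.length)
      (t' := P.length + Q.length) loc (by omega) le_rfl (by omega)).2 (by
        rw [← hlX, List.take_length]; exact a2)
    rwa [← hlX', List.take_length] at this
  · intro t ht1 ht2 hw
    have hs : t - P'.length + P.length + P'.length = t + P.length := by omega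
    have hw' := (shift (P := P) loc (by omega) (by omega) hs).1 hw
    by_cases hlt : t - P'.length + P.length < z
    · exact hE ⟨_, by omega, by omega, by omega, hw'⟩
    · exact a3 _ (by omega) (by omega) hw'


theorem first_wall {Wo : List α → Prop} (a : ℕ) (W : List α)
    (h : ∃ t, a ≤ t ∧ t ≤ W.length ∧ Wo (W.take t)) :
    ∃ t, a ≤ t ∧ t ≤ W.length ∧ Wo (W.take t) ∧ ∀ s, a ≤ s → s < t → ¬ Wo (W.take s) := by
  classical
  obtain ⟨h1, h2, h3⟩ := Nat.find_spec h
  refine ⟨Nat.find h, h1, h2, h3, fun s hs hlt hw => ?_⟩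
  exact Nat.find_min h hlt ⟨hs, by omega, hw⟩

theorem gap {Wo : List α → Prop} {G : ℕ}
    (sep : ∀ (P : List α) (d : ℕ), Wo P → 0 < d → d ≤ G → ¬ Wo (P.take (P.length - d)))
    {W : List α} {a b : ℕ} (hb : b ≤ W.length) (hab : a < b) (h1 : Wo (W.take a))
    (h2 : Wo (W.take b)) : a + G < b := by
  by_contra hlt
  refine sep (W.take b) (b - a) h2 (by omega) (by omega) ?_
  have hl : (W.take b).length = b := by rw [List.length_take]; omega
  rw [hl, List.take_take]
  have e : min (b - (b - a)) b = a := by omega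
  rw [e]; exact h1

theorem spoil [Monoid S] [AddCommGroup V] {f : α → S} {act : V → S → V} {R K : ℕ}
    (g : Gad f act R K) {Wo : List α → Prop} {n z p0 : ℕ}
    (loc : ∀ P Q : List α, n ≤ Q.length → (Wo (P ++ Q) ↔ Wo Q))
    (sep : ∀ (P : List α) (d : ℕ), Wo P → 0 < d → d ≤ 2 * g.Sp + 2 * g.N1 + 1 →
      ¬ Wo (P.take (P.length - d)))
    (hz : p0 + 2 * g.Sp + 2 * g.N1 + g.T0 + n ≤ z) (W : List α) (hW : Wo W)
    (hWl : 2 * z ≤ W.length) :
    ∃ F : Finset (ℕ × ℕ), F.card ≤ 2 * R + 1 ∧ ∀ k, k < K → ∀ k', k' < K → k ≠ k' →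
      (k, k') ∉ F → ∀ P P' Q : List α, W = P ++ Q → P.length = g.c k → P'.length = g.c k' →
      ∃ Y E, P' ++ Q = Y ++ E ∧ Y ∈ XX Wo z ∧ ¬ EB Wo z g.N1 Y ∧
        ¬ g.BadT (Y.length - p0) := by
  classical
  have hWt : Wo (W.take W.length) := by rw [List.take_length]; exact hW
  obtain ⟨ea, ha1, ha2, ha3, ha4⟩ := first_wall (z - g.Sp) W ⟨W.length, by omega, le_rfl, hWt⟩
  obtain ⟨F1, hF1, hF1'⟩ := g.thin (ea - p0) (by omega)
  -- second wall
  have h2 : ∃ F2 : Finset (ℕ × ℕ), F2.card ≤ R ∧ ∀ e, ea < e → e ≤ W.length → Wo (W.take e) →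
      (∀ s, ea < s → s < e → ¬ Wo (W.take s)) → ∀ k, k < K → ∀ k', k' < K → k ≠ k' →
      g.BadT ((e - p0) + g.c k' - g.c k) → (k, k') ∈ F2 := by
    by_cases hb : ∃ t, ea + 1 ≤ t ∧ t ≤ W.length ∧ Wo (W.take t)
    · obtain ⟨eb, hb1, hb2, hb3, hb4⟩ := first_wall (ea + 1) W hb
      obtain ⟨F2, hF2, hF2'⟩ := g.thin (eb - p0) (by omega)
      refine ⟨F2, hF2, fun e he1 he2 he3 he4 => ?_⟩
      have : e = eb := by
        rcases lt_trichotomy e eb with h | h | h
        · exact absurd he3 (hb4 e (by omega) h)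
        · exact h
        · exact absurd hb3 (he4 eb (by omega) h)
      subst this
      exact hF2'
    · exact ⟨∅, by simp, fun e he1 he2 he3 _ => absurd ⟨e, by omega, he2, he3⟩ hb⟩
  obtain ⟨F2, hF2, hF2'⟩ := h2
  -- walls near
  let cond : ℕ × ℕ → Prop := fun p => p.1 < K ∧ p.2 < K ∧ p.1 ≠ p.2 ∧ ∃ e, e ≤ W.length ∧
    Wo (W.take e) ∧ z + g.c p.1 ≤ e + g.c p.2 + g.N1 ∧ e + g.c p.2 < z + g.c p.1 + g.N1
  have huniq : ∀ p q, cond p → cond q → p = q := by
    rintro ⟨k, k'⟩ ⟨l, l'⟩ ⟨hk, hk', hne, e, he1, he2, he3, he4⟩ ⟨hl, hl', hne', e', he1', he2', he3', he4'⟩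
    simp only at hk hk' hne he3 he4 hl hl' hne' he3' he4'
    have c1 := g.cSp k hk
    have c2 := g.cSp k' hk'
    have c3 := g.cSp l hl
    have c4 := g.cSp l' hl'
    have hee : e = e' := by
      rcases lt_trichotomy e e' with h | h | h
      · have := gap sep he1' h he2 he2'
        omega
      · exact h
      · have := gap sep he1 h he2' he2
        omega
    subst hee
    obtain ⟨h1, h2⟩ := g.rul k hk k' hk' l hl l' hl' hne hne' ⟨by omega, by omega⟩
    rw [h1, h2]
  have h3 : ∃ F3 : Finset (ℕ × ℕ), F3.card ≤ 1 ∧ ∀ p, cond p → p ∈ F3 := by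
    by_cases hc : ∃ p, cond p
    · obtain ⟨p, hp⟩ := hc
      exact ⟨{p}, by simp, fun q hq => by rw [huniq q p hq hp]; simp⟩
    · exact ⟨∅, by simp, fun q hq => absurd ⟨q, hq⟩ hc⟩
  obtain ⟨F3, hF3, hF3'⟩ := h3
  refine ⟨F1 ∪ F2 ∪ F3, ?_, ?_⟩
  · have e1 := Finset.card_union_le (F1 ∪ F2) F3
    have e2 := Finset.card_union_le F1 F2
    omega
  intro k hk k' hk' hne hnot P P' Q hPQ hP hP'
  simp only [Finset.mem_union, not_or] at hnot
  obtain ⟨⟨n1, n2⟩, n3⟩ := hnot
  have c1 := g.cSp k hk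
  have c2 := g.cSp k' hk'
  have hlW : W.length = P.length + Q.length := by rw [hPQ, List.length_append]
  have hlQ : (P' ++ Q).length = P'.length + Q.length := List.length_append
  -- walls correspond
  have hsh : ∀ t e, P'.length + n ≤ t → t ≤ P'.length + Q.length → e + g.c k' = t + g.c k →
      (Wo ((P' ++ Q).take t) ↔ Wo (W.take e)) := by
    intro t e h1 h2 h3
    rw [hPQ]
    exact shift loc h1 h2 (by omega)
  obtain ⟨t0, ht1, ht2, ht3, ht4⟩ := first_wall (Wo := Wo) z (P' ++ Q)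
    ⟨P'.length + Q.length, by omega, by omega,
      (hsh _ W.length (by omega) le_rfl (by omega)).2 hWt⟩
  have hlY : ((P' ++ Q).take t0).length = t0 := by rw [List.length_take]; omega
  refine ⟨(P' ++ Q).take t0, (P' ++ Q).drop t0, (List.take_append_drop _ _).symm, ?_, ?_, ?_⟩
  · refine ⟨by omega, ht3, fun t h1 h2 h3 => ?_⟩
    rw [hlY] at h2
    rw [List.take_take, Nat.min_eq_left h2.le] at h3
    exact ht4 t h1 h2 h3
  · rintro ⟨t, h1, h2, h3, h4⟩
    rw [hlY] at h3
    rw [List.take_take, Nat.min_eq_left h3] at h4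
    have hw := (hsh t (t + g.c k - g.c k') (by omega) (by omega) (by omega)).1 h4
    exact n3 (hF3' _ ⟨hk, hk', hne, t + g.c k - g.c k', by omega, hw, by
      show z + g.c k ≤ t + g.c k - g.c k' + g.c k' + g.N1
      omega, by
      show t + g.c k - g.c k' + g.c k' < z + g.c k + g.N1
      omega⟩)
  · rw [hlY]
    intro hbad
    set e0 := t0 + g.c k - g.c k' with he0
    have hw0 := (hsh t0 e0 (by omega) (by omega) (by omega)).1 ht3
    have hge : ea ≤ e0 := by
      by_contra hlt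
      exact ha4 e0 (by omega) (by omega) hw0
    have e1 : t0 - p0 = (e0 - p0) + g.c k' - g.c k := by omega
    rw [e1] at hbad
    rcases Nat.eq_or_lt_of_le hge with h | h
    · rw [← h] at hbad
      exact n1 (hF1' k hk k' hk' hne hbad)
    · refine n2 (hF2' e0 h (by omega) hw0 (fun s hs1 hs2 hs3 => ?_) k hk k' hk' hne hbad)
      have hg := gap sep (by omega) hs1 ha3 hs3
      refine ht4 (s + g.c k' - g.c k) (by omega) (by omega) ?_
      exact (hsh _ s (by omega) (by omega) (by omega)).2 hs3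

end Crest.Agent.R320.Joint_236
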