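import Crest.Agent.R320.Asm_505

/-!
# Row 320: joint of a zone gadget and of the promise ruler on left-looking walls (helper362)

Blocks: `U = {z | Wo z, exactly one wall t in [z0,|z|)}`.  Zone map
`eps z v = act (act (act v φ(X) + nu2 X) φ(Y) + nu1 Y) φ(R)`, `X = z.take p0`, `Y = z[p0,t)`,
`R = z.drop t`.  Both schemes use the same tokens.
-/

set_option autoImplicit false

namespace Crest.Agent.R320.Jn362

open Crest.RegLang Crest.Agent.R320.Hk_851 Crest.Agent.R320.Asm_505

universe u v w

/-- left-looking walls with window `n`, distance `> W` -/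
structure LW {α : Type u} (Wo : List α → Prop) (n W : ℕ) : Prop where
  loc : ∀ P Q : List α, n ≤ Q.length → (Wo (P ++ Q) ↔ Wo Q)
  gap : ∀ (w : List α) (s t : ℕ), s < t → t ≤ w.length → Wo (w.take s) → Wo (w.take t) → s + W < t

variable {α : Type u}

theorem take_len_add (p q : List α) (t : ℕ) : (p ++ q).take (p.length + t) = p ++ q.take t := by
  rw [List.take_append, List.take_of_length_le (by omega)]
  congr 2
  omega

theorem shift {Wo : List α → Prop} {n W : ℕ} (h : LW Wo n W) (p p' q : List α) (t : ℕ)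
    (ht : n ≤ t) (hq : t ≤ q.length) :
    Wo ((p ++ q).take (p.length + t)) ↔ Wo ((p' ++ q).take (p'.length + t)) := by
  have hl : (q.take t).length = t := by rw [List.length_take]; omega
  rw [take_len_add, take_len_add, h.loc _ _ (by omega), h.loc _ _ (by omega)]

/-- `t` is the accepted wall of the block `z` -/
def IsU (Wo : List α → Prop) (z0 : ℕ) (z : List α) (t : ℕ) : Prop :=
  z0 ≤ t ∧ t < z.length ∧ Wo (z.take t) ∧ Wo z ∧
    ∀ s, z0 ≤ s → s < z.length → Wo (z.take s) → s = t

def U (Wo : List α → Prop) (z0 : ℕ) : Language α := {z | ∃ t, IsU Wo z0 z t}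

open Classical in
noncomputable def tt (Wo : List α → Prop) (z0 : ℕ) (z : List α) : ℕ :=
  if h : ∃ t, IsU Wo z0 z t then h.choose else 0

theorem tt_eq {Wo : List α → Prop} {z0 : ℕ} {z : List α} {t : ℕ} (h : IsU Wo z0 z t) :
    tt Wo z0 z = t := by
  have h' : ∃ t, IsU Wo z0 z t := ⟨t, h⟩
  unfold tt
  rw [dif_pos h']
  exact h.2.2.2.2 _ h'.choose_spec.1 h'.choose_spec.2.1 h'.choose_spec.2.2.1

theorem tt_spec {Wo : List α → Prop} {z0 : ℕ} {z : List α} (h : z ∈ U Wo z0) :
    IsU Wo z0 z (tt Wo z0 z) := by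
  obtain ⟨t, ht⟩ := h
  rw [tt_eq ht]
  exact ht

theorem geo {Wo : List α → Prop} {n W z0 : ℕ} (h : LW Wo n W) {p p' q : List α} {t : ℕ}
    (hU : IsU Wo z0 (p ++ q) t) (hp : p.length + n ≤ z0) (hp' : p'.length + n ≤ z0)
    (H : ∀ w, p.length + n ≤ w → w ≤ (p ++ q).length → Wo ((p ++ q).take w) →
      (z0 ≤ w ↔ z0 + p.length ≤ w + p'.length)) :
    IsU Wo z0 (p' ++ q) (t + p'.length - p.length) := by
  obtain ⟨h1, h2, h3, h4, h5⟩ := hU
  have hlen : (p ++ q).length = p.length + q.length := List.length_append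
  have hlen' : (p' ++ q).length = p'.length + q.length := List.length_append
  have e1 : p.length + (t - p.length) = t := by omega
  have hz := (H t (by omega) (by omega) h3).1 h1
  refine ⟨by omega, by omega, ?_, ?_, ?_⟩
  · have := (shift h p p' q (t - p.length) (by omega) (by omega)).1 (by rw [e1]; exact h3)
    rwa [show p'.length + (t - p.length) = t + p'.length - p.length by omega] at this
  · have hq : n ≤ q.length := by omega
    rw [h.loc _ _ hq] at h4 ⊢
    exact h4
  · intro s hs1 hs2 hs3
    have e2 : p'.length + (s - p'.length) = s := by omega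
    have := (shift h p p' q (s - p'.length) (by omega) (by omega)).2 (by rw [e2]; exact hs3)
    have hw := (H _ (by omega) (by omega) this).2 (by omega)
    have := h5 _ hw (by omega) this
    omega

theorem PC_U (Wo : List α → Prop) (z0 : ℕ) : PC (U Wo z0) := by
  constructor
  · rintro ⟨t, ht⟩
    have := ht.2.1
    simp at this
  · intro z hz z' hz' hpre
    obtain ⟨t, ht⟩ := hz
    obtain ⟨t', ht'⟩ := hz'
    by_contra hne
    obtain ⟨r, rfl⟩ := hpre
    have hr : r ≠ [] := fun e => hne (by simp [e])
    have hrl : 0 < r.length := List.length_pos_of_ne_nil hr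
    have hl : (z ++ r).length = z.length + r.length := List.length_append
    have e1 : (z ++ r).take z.length = z := by simp
    have e2 : (z ++ r).take t = z.take t := by
      rw [List.take_append_of_le_length (by have := ht.2.1; omega)]
    have a1 := ht'.2.2.2.2 z.length (by have := ht.1; have := ht.2.1; omega) (by omega)
      (by rw [e1]; exact ht.2.2.2.1)
    have a2 := ht'.2.2.2.2 t ht.1 (by have := ht.2.1; omega) (by rw [e2]; exact ht.2.2.1)
    have := ht.2.1
    omega

/-- comparable blocks are equal -/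
theorem cmp_eq {Wo : List α → Prop} {z0 : ℕ} {z z' : List α} (hz : z ∈ U Wo z0)
    (hz' : z' ∈ U Wo z0) (h : z <+: z' ∨ z' <+: z) : z = z' := by
  rcases h with h | h
  · exact (PC_U Wo z0).pc z hz z' hz' h
  · exact ((PC_U Wo z0).pc z' hz' z hz h).symm

section data

variable {S : Type v} [Monoid S] {V : Type w} [AddCommGroup V]

/-- data of the joint -/
structure Dat (α : Type u) (S : Type v) [Monoid S] (V : Type w) [AddCommGroup V] where
  Wo : List α → Prop
  z0 : ℕ
  p0 : ℕ
  N1 : ℕ
  f : α → S
  act : V → S → V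
  nu1 : List α → V
  nu2 : List α → V
  Bt : ℕ → Prop
  lam1 : List α → Option V
  rho1 : List α → Option V
  K : ℕ
  c : ℕ → ℕ
  lam2 : ℕ → List α → Option V
  rho2 : ℕ → List α → Option V

namespace Dat

variable (D : Dat α S V)

def ph (u : List α) : S := (u.map D.f).prod

theorem ph_append (u v : List α) : D.ph (u ++ v) = D.ph u * D.ph v := by simp [ph]

/-- token after the first part -/
def m1 (z : List α) (v : V) : V := D.act v (D.ph (z.take D.p0)) + D.nu2 (z.take D.p0)

/-- token after the second part `Y` -/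
def m2 (Y : List α) (v : V) : V := D.act v (D.ph Y) + D.nu1 Y

noncomputable def eps (z : List α) (v : V) : V :=
  D.act (D.m2 ((z.take (tt D.Wo D.z0 z)).drop D.p0) (D.m1 z v)) (D.ph (z.drop (tt D.Wo D.z0 z)))

def UU : Language α := U D.Wo D.z0

def Bad (z : List α) : Prop :=
  (∃ w, w ≤ z.length ∧ D.z0 ≤ w + D.N1 ∧ w < D.z0 + D.N1 ∧ D.Wo (z.take w)) ∨
    D.Bt (tt D.Wo D.z0 z - D.p0)

def B : Language α := {z | z ∈ D.UU ∧ D.Bad z}

def P1 (v : V) : Language α :=
  {p | D.p0 ≤ p.length ∧ D.lam1 (p.drop D.p0) = some (D.m1 p v)}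

def R1 (y : V) : Language α :=
  {q | ∀ x, ∀ p ∈ D.P1 x, p ++ q ∈ D.UU ∧ D.eps (p ++ q) x = y}

def P2 (v : V) : Language α :=
  {p | ∃ k, k < D.K ∧ p.length = D.c k ∧ D.lam2 k p = some v}

def R2 (y : V) : Language α :=
  {q | ∀ x, ∀ p ∈ D.P2 x, ∀ z ∈ D.B, (z <+: p ++ q ∨ p ++ q <+: z) → z = p ++ q ∧ D.eps z x = y}

/-- spoiled places of a block -/
def Sp (cm : ℕ) (z : List α) (k : ℕ) : Prop :=
  ∃ k', k' < D.K ∧ k' ≠ k ∧
    ((∃ w, w ≤ z.length ∧ D.Wo (z.take w) ∧ D.z0 + D.c k ≤ w + D.c k' + D.N1 ∧
        w + D.c k' < D.z0 + D.c k + D.N1) ∨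
     (∃ τ, τ ≤ z.length ∧ D.Wo (z.take τ) ∧ D.z0 + D.c k ≤ τ + D.c k' ∧ D.z0 ≤ τ + cm ∧
        D.Bt (τ + D.c k' - D.c k - D.p0)))

/-- hypotheses -/
structure Ok (n W N2 cm R : ℕ) : Prop where
  hW : LW D.Wo n W
  p0pos : 0 < D.p0
  z0_ge : D.p0 + D.N1 + D.N1 + N2 + n + cm ≤ D.z0
  W_ge : cm + D.N1 ≤ W
  s1 : ∀ P Q v r, D.lam1 P = some v → D.rho1 Q = some r →
    r = D.act v (D.ph (P ++ Q)) + D.nu1 (P ++ Q)
  l1 : ∀ P v, D.lam1 P = some v → P.length ≤ D.N1
  c1 : ∀ Y : List α, N2 ≤ Y.length → ¬ D.Bt Y.length → ∀ v, ∃ P Q, P ++ Q = Y ∧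
    D.lam1 P = some v ∧ ∃ r, D.rho1 Q = some r
  cpos : ∀ k, k < D.K → 0 < D.c k
  cle : ∀ k, k < D.K → D.c k ≤ cm
  cmp : cm ≤ D.p0
  cinj : ∀ k k', k < D.K → k' < D.K → D.c k = D.c k' → k = k'
  s2 : ∀ k, k < D.K → ∀ (P Q : List α) (v b : V), P.length = D.c k → D.lam2 k P = some v →
    D.rho2 k Q = some b → b = D.act v (D.ph (P ++ Q)) + D.nu2 (P ++ Q)
  c2 : ∀ (X : List α) (v : V), X.length = D.p0 → ∃ I : Finset ℕ, R ≤ I.card ∧ ∀ k ∈ I, k < D.K ∧
    D.lam2 k (X.take (D.c k)) = some v ∧ ∃ r, D.rho2 k (X.drop (D.c k)) = some r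
  sp : ∀ z ∈ D.UU, ∀ I : Finset ℕ, (∀ k ∈ I, k < D.K ∧ D.Sp cm z k) → I.card < R

variable {D}
variable {n W N2 cm R : ℕ}

theorem eps_of {z : List α} {t : ℕ} (h : IsU D.Wo D.z0 z t) (v : V) :
    D.eps z v = D.act (D.m2 ((z.take t).drop D.p0) (D.m1 z v)) (D.ph (z.drop t)) := by
  unfold eps
  rw [tt_eq h]

theorem level1 (h : D.Ok n W N2 cm R) : Level D.UU D.B D.eps D.P1 D.R1 := by
  have hz0 := h.z0_ge
  have hp0 := h.p0pos
  refine ⟨?_, ?_, ?_⟩
  · intro x hx
    have : D.p0 ≤ ([] : List α).length := hx.1
    simp only [List.length_nil] at this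
    omega
  · intro z hz x y p hp q hq hcmp
    obtain ⟨h1, h2⟩ := hq x p hp
    have e := cmp_eq hz h1 hcmp
    exact ⟨e, by rw [e]; exact h2⟩
  · intro z hz hzB x
    have ht := tt_spec hz
    set t := tt D.Wo D.z0 z with htdef
    have ht1 := ht.1
    have ht2 := ht.2.1
    have hnB : ¬ D.Bad z := fun hb => hzB ⟨hz, hb⟩
    have hE : ∀ w, w ≤ z.length → D.Wo (z.take w) → w + D.N1 < D.z0 ∨ D.z0 + D.N1 ≤ w := by
      intro w hw1 hw2
      by_contra hcon
      exact hnB (Or.inl ⟨w, hw1, by omega, by omega, hw2⟩)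
    have hBt : ¬ D.Bt (t - D.p0) := fun hb => hnB (Or.inr hb)
    have hYl : ((z.take t).drop D.p0).length = t - D.p0 := by
      rw [List.length_drop, List.length_take]; omega
    obtain ⟨P, Q, hPQ, hP, r, hQ⟩ := h.c1 ((z.take t).drop D.p0) (by omega)
      (by rw [hYl]; exact hBt) (D.m1 z x)
    have hPl := h.l1 P _ hP
    have hPQl : P.length + Q.length = t - D.p0 := by
      rw [← hYl, ← hPQ, List.length_append]
    have hXl : (z.take D.p0).length = D.p0 := by rw [List.length_take]; omega
    -- decomposition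
    have hz1 : z.take D.p0 ++ ((P ++ Q) ++ z.drop t) = z := by
      rw [hPQ, ← List.append_assoc]
      have : z.take D.p0 = (z.take t).take D.p0 := by
        rw [List.take_take, Nat.min_eq_left (by omega)]
      rw [this, List.take_append_drop, List.take_append_drop]
    have hz2 : z = (z.take D.p0 ++ P) ++ (Q ++ z.drop t) := by
      conv_lhs => rw [← hz1]
      simp [List.append_assoc]
    refine ⟨z.take D.p0 ++ P, ?_, Q ++ z.drop t, ?_, hz2⟩
    · refine ⟨by rw [List.length_append]; omega, ?_⟩
      have e1 : (z.take D.p0 ++ P).drop D.p0 = P := by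
        rw [List.drop_append_of_le_length (by omega), List.drop_of_length_le (by omega)]; rfl
      have e2 : (z.take D.p0 ++ P).take D.p0 = z.take D.p0 := by
        rw [List.take_append_of_le_length (by omega), List.take_take, Nat.min_self]
      rw [e1, hP]
      unfold m1
      rw [e2]
    · intro x' p' hp'
      obtain ⟨hp'1, hp'2⟩ := hp'
      have hp'l := h.l1 _ _ hp'2
      have hp'd : (p'.drop D.p0).length = p'.length - D.p0 := List.length_drop
      have hpl : (z.take D.p0 ++ P).length = D.p0 + P.length := by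
        rw [List.length_append, hXl]
      have hQl : (Q ++ z.drop t).length = Q.length + (z.length - t) := by
        rw [List.length_append, List.length_drop]
      have hU1 : IsU D.Wo D.z0 ((z.take D.p0 ++ P) ++ (Q ++ z.drop t)) t := by
        rw [← hz2]; exact ht
      have hU2 := geo h.hW (p' := p') hU1 (by omega) (by omega) (by
        intro w hw1 hw2 hw3
        rw [← hz2] at hw2 hw3
        rcases hE w hw2 hw3 with h' | h'
        · constructor <;> intro h'' <;> omega
        · constructor <;> intro h'' <;> omega)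
      have htq : t + p'.length - (z.take D.p0 ++ P).length = p'.length + Q.length := by omega
      rw [htq] at hU2
      refine ⟨⟨_, hU2⟩, ?_⟩
      rw [eps_of hU2, eps_of ht]
      have e1 : (p' ++ (Q ++ z.drop t)).take (p'.length + Q.length) = p' ++ Q := by
        rw [take_len_add]; simp
      have e2 : (p' ++ (Q ++ z.drop t)).drop (p'.length + Q.length) = z.drop t := by
        rw [← List.append_assoc, List.drop_append_of_le_length (by simp),
          List.drop_of_length_le (by simp)]; rfl
      have e3 : (p' ++ Q).drop D.p0 = p'.drop D.p0 ++ Q := by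
        rw [List.drop_append_of_le_length (by omega)]
      have e4 : D.m1 (p' ++ (Q ++ z.drop t)) x' = D.m1 p' x' := by
        unfold m1
        rw [List.take_append_of_le_length (by omega)]
      rw [e1, e2, e3, e4]
      have a1 := h.s1 _ _ _ _ hp'2 hQ
      have a2 := h.s1 _ _ _ _ hP hQ
      unfold m2
      rw [← a1, ← hPQ, ← a2]

theorem level2 (h : D.Ok n W N2 cm R) : Level D.B 0 D.eps D.P2 D.R2 := by
  classical
  have hz0 := h.z0_ge
  have hp0 := h.p0pos
  have hWg := h.W_ge
  have hcmp := h.cmp
  refine ⟨?_, ?_, ?_⟩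
  · rintro x ⟨k, hk, hl, -⟩
    have := h.cpos k hk
    simp only [List.length_nil] at hl
    omega
  · intro z hz x y p hp q hq hc
    exact hq x p hp z hz hc
  · intro z hzB _ x
    obtain ⟨hz, hbad⟩ := hzB
    have ht := tt_spec hz
    set t := tt D.Wo D.z0 z with htdef
    have ht1 := ht.1
    have ht2 := ht.2.1
    have hgap : t + W < z.length := by
      have := h.hW.gap z t z.length ht2 le_rfl ht.2.2.1 (by rw [List.take_length]; exact ht.2.2.2.1)
      exact this
    have hXl : (z.take D.p0).length = D.p0 := by rw [List.length_take]; omega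
    obtain ⟨I, hI1, hI2⟩ := h.c2 (z.take D.p0) x hXl
    -- an unspoiled place
    obtain ⟨k, hkI, hkS⟩ : ∃ k ∈ I, ¬ D.Sp cm z k := by
      by_contra hcon
      push Not at hcon
      have := h.sp z hz I (fun k hk => ⟨(hI2 k hk).1, hcon k hk⟩)
      omega
    obtain ⟨hk, hlam, r, hrho⟩ := hI2 k hkI
    have hck := h.cle k hk
    have hck0 := h.cpos k hk
    have hpl : (z.take (D.c k)).length = D.c k := by rw [List.length_take]; omega
    have hz2 : z = z.take (D.c k) ++ z.drop (D.c k) := (List.take_append_drop _ _).symm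
    have hlam' : D.lam2 k (z.take (D.c k)) = some x := by
      rw [List.take_take, Nat.min_eq_left (by omega)] at hlam
      exact hlam
    have hql : (z.drop (D.c k)).length = z.length - D.c k := List.length_drop
    refine ⟨z.take (D.c k), ⟨k, hk, hpl, hlam'⟩, z.drop (D.c k), ?_, hz2⟩
    intro x' p' hp' z' hz' hcmp'
    obtain ⟨k', hk', hp'l, hp'2⟩ := hp'
    have hck' := h.cle k' hk'
    have hl' : (p' ++ z.drop (D.c k)).length = D.c k' + (z.length - D.c k) := by
      rw [List.length_append, hp'l, hql]
    by_cases hkk : k' = k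
    · subst hkk
      have hU1 : IsU D.Wo D.z0 (z.take (D.c k') ++ z.drop (D.c k')) t := by
        rw [← hz2]; exact ht
      have hU2 := geo h.hW (p' := p') hU1 (by omega) (by omega) (by
        intro w hw1 hw2 hw3
        rw [hpl, hp'l]
        constructor <;> intro h'' <;> omega)
      have htq : t + p'.length - (z.take (D.c k')).length = t := by omega
      rw [htq] at hU2
      have e := cmp_eq hz'.1 ⟨t, hU2⟩ hcmp'
      refine ⟨e, ?_⟩
      rw [e, eps_of hU2, eps_of ht]
      have b1 : (p' ++ z.drop (D.c k')).drop t = z.drop t := by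
        rw [List.drop_append, List.drop_of_length_le (by omega), List.nil_append, List.drop_drop]
        congr 1
        omega
      have b2 : ((p' ++ z.drop (D.c k')).take t).drop D.p0 = (z.take t).drop D.p0 := by
        rw [List.drop_take, List.drop_take, List.drop_append, List.drop_of_length_le (by omega),
          List.nil_append, List.drop_drop]
        congr 2
        omega
      have b3 : (p' ++ z.drop (D.c k')).take D.p0
          = p' ++ (z.take D.p0).drop (D.c k') := by
        rw [List.take_append, List.take_of_length_le (by omega), List.drop_take, hp'l]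
      have b4 : D.m1 (p' ++ z.drop (D.c k')) x' = D.m1 z x := by
        unfold m1
        rw [b3]
        have c1 := h.s2 k' hk' _ _ _ _ hp'l hp'2 hrho
        have c2 := h.s2 k' hk' _ _ _ _ hpl hlam' hrho
        have e3 : z.take (D.c k') ++ (z.take D.p0).drop (D.c k') = z.take D.p0 := by
          have : z.take (D.c k') = (z.take D.p0).take (D.c k') := by
            rw [List.take_take, Nat.min_eq_left (by omega)]
          rw [this, List.take_append_drop]
        rw [e3] at c2
        rw [← c1, ← c2]
      rw [b1, b2, b4]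
    · exfalso
      apply hkS
      refine ⟨k', hk', hkk, ?_⟩
      obtain ⟨hzU', hbad'⟩ := hz'
      have ht' := tt_spec hzU'
      set t' := tt D.Wo D.z0 z' with htdef'
      have ht'1 := ht'.1
      have ht'2 := ht'.2.1
      -- visible walls of z' are walls of z
      have vis : ∀ w, D.p0 + n ≤ w → w ≤ z'.length → w ≤ (p' ++ z.drop (D.c k)).length →
          D.Wo (z'.take w) → w + D.c k - D.c k' ≤ z.length ∧
            D.Wo (z.take (w + D.c k - D.c k')) := by
        intro w hw1 hw2 hw3 hw4
        have e1 : z'.take w = (p' ++ z.drop (D.c k)).take w := by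
          rcases hcmp' with ⟨r', hr'⟩ | ⟨r', hr'⟩
          · rw [← hr', List.take_append_of_le_length hw2]
          · rw [← hr', List.take_append_of_le_length hw3]
        rw [e1] at hw4
        have e2 : p'.length + (w - D.c k') = w := by omega
        have := (shift h.hW (z.take (D.c k)) p' (z.drop (D.c k)) (w - D.c k') (by omega)
          (by omega)).2 (by rw [e2]; exact hw4)
        rw [← hz2, hpl] at this
        refine ⟨by omega, ?_⟩
        rwa [show w + D.c k - D.c k' = D.c k + (w - D.c k') by omega]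
      rcases hbad' with ⟨w', hw'1, hw'2, hw'3, hw'4⟩ | hB'
      · left
        obtain ⟨v1, v2⟩ := vis w' (by omega) hw'1 (by omega) hw'4
        exact ⟨_, v1, v2, by omega, by omega⟩
      · right
        have hvis : t' ≤ (p' ++ z.drop (D.c k)).length := by
          by_contra hcon
          rcases hcmp' with ⟨r', hr'⟩ | ⟨r', hr'⟩
          · have : (z' ++ r').length = (p' ++ z.drop (D.c k)).length := by rw [hr']
            rw [List.length_append] at this
            omega
          · have hWo : D.Wo (p' ++ z.drop (D.c k)) := by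
              rw [h.hW.loc _ _ (by omega)]
              have h4 := ht.2.2.2.1
              rw [hz2, h.hW.loc _ _ (by omega)] at h4
              exact h4
            have e5 : z'.take (p' ++ z.drop (D.c k)).length = p' ++ z.drop (D.c k) := by
              rw [← hr', List.take_append_of_le_length le_rfl, List.take_length]
            have := ht'.2.2.2.2 (p' ++ z.drop (D.c k)).length (by omega) (by omega)
              (by rw [e5]; exact hWo)
            omega
        obtain ⟨v1, v2⟩ := vis t' (by omega) (by omega) hvis ht'.2.2.1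
        refine ⟨_, v1, v2, by omega, by omega, ?_⟩
        have : t' + D.c k - D.c k' + D.c k' - D.c k - D.p0 = t' - D.p0 := by omega
        rw [this]
        exact hB'

end Dat

end data

end Crest.Agent.R320.Jn362
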