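import Crest.Agent.R320.Top5_120
import Crest.Agent.R320.WallU_228
import Crest.Agent.R320.ExactR_237

/-!
# Row 320: joint of the two schemes on all words (helper369)

Left-looking walls `Wo` (window `n`), natural chain rule (block = first wall at a place `≥ z`),
any scheme-1 gadget `lam rho nu1` with a bad set `BT` of lengths, scheme 2 = promise ruler with the
exact gadget of `ExactR_237`. Right legality is semantic (`Top5_120`), so only the two completeness
statements `cc1`, `cc2` are proved here.
-/

set_option autoImplicit false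

namespace Crest.Agent.R320.Joint369

open Finset

section walls

variable {α : Type*}

/-- blocks: first wall at a place `≥ z` -/
def CC (Wo : List α → Prop) (z : ℕ) : Set (List α) :=
  {X | z ≤ X.length ∧ Wo X ∧ ∀ t, z ≤ t → t < X.length → ¬ Wo (X.take t)}

/-- a wall near the threshold -/
def EE (Wo : List α → Prop) (z N : ℕ) (X : List α) : Prop :=
  ∃ t, z ≤ t + N ∧ t < z + N ∧ t ≤ X.length ∧ Wo (X.take t)

/-- bad blocks -/
def Bd (Wo : List α → Prop) (z N p0 : ℕ) (BT : ℕ → Prop) : Set (List α) :=
  {X | X ∈ CC Wo z ∧ (EE Wo z N X ∨ BT (X.length - p0))}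

variable {Wo : List α → Prop} {z N p0 n : ℕ} {BT : ℕ → Prop}

theorem pcode (hz : 0 < z) : Blk467.PCode (CC Wo z) := by
  refine ⟨fun h => ?_, fun X hX Y hY h => ?_⟩
  · have := h.1
    simp at this
    omega
  · by_contra hne
    have hlt : X.length < Y.length := by
      rcases Nat.lt_or_ge X.length Y.length with h1 | h1
      · exact h1
      · exact absurd (h.eq_of_length_le h1) hne
    have h2 : Y.take X.length = X := by
      obtain ⟨t, rfl⟩ := h
      simp
    exact hY.2.2 X.length hX.1 hlt (by rw [h2]; exact hX.2.1)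

/-- the first block of a text with a wall at a place `≥ z` -/
theorem first_block {U : List α} {w : ℕ} (hw : z ≤ w) (hwl : w ≤ U.length) (hW : Wo (U.take w)) :
    ∃ e, z ≤ e ∧ e ≤ w ∧ Wo (U.take e) ∧ (∀ t, z ≤ t → t < e → ¬ Wo (U.take t)) ∧
      U.take e ∈ CC Wo z := by
  classical
  have hex : ∃ e, z ≤ e ∧ Wo (U.take e) := ⟨w, hw, hW⟩
  refine ⟨Nat.find hex, (Nat.find_spec hex).1, Nat.find_min' hex ⟨hw, hW⟩,
    (Nat.find_spec hex).2, ?_, ?_⟩
  · intro t ht hlt h
    exact Nat.find_min hex hlt ⟨ht, h⟩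
  · have hle : Nat.find hex ≤ U.length := le_trans (Nat.find_min' hex ⟨hw, hW⟩) hwl
    have hl : (U.take (Nat.find hex)).length = Nat.find hex := by
      rw [List.length_take]; omega
    refine ⟨by rw [hl]; exact (Nat.find_spec hex).1, (Nat.find_spec hex).2, ?_⟩
    intro t ht hlt h
    rw [hl] at hlt
    rw [List.take_take, Nat.min_eq_left hlt.le] at h
    exact Nat.find_min hex hlt ⟨ht, h⟩

/-- changing the left part of a text -/
theorem wo_shift (loc : ∀ P Q : List α, n ≤ Q.length → (Wo (P ++ Q) ↔ Wo Q))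
    (P P' Q : List α) (t : ℕ) (ht : n ≤ t) (htQ : t ≤ Q.length) :
    Wo ((P ++ Q).take (P.length + t)) ↔ Wo ((P' ++ Q).take (P'.length + t)) := by
  rw [List.take_length_add_append, List.take_length_add_append]
  have hl : n ≤ (Q.take t).length := by rw [List.length_take]; omega
  rw [loc _ _ hl, loc _ _ hl]

end walls

section scheme1

variable {α S V : Type*} [Monoid S] [AddCommGroup V]

/-- product of a word -/
def pr (φ : α → S) (w : List α) : S := (w.map φ).prod

theorem pr_append (φ : α → S) (u w : List α) : pr φ (u ++ w) = pr φ u * pr φ w := by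
  simp [pr]

/-- token at the end of the frame -/
def fr (φ : α → S) (act : V → S → V) (nu2 : List α → V) (v : V) (X1 : List α) : V :=
  act v (pr φ X1) + nu2 X1

/-- noise of a block -/
def nuX (φ : α → S) (act : V → S → V) (nu2 nu1 : List α → V) (p0 : ℕ) (X : List α) : V :=
  act (nu2 (X.take p0)) (pr φ (X.drop p0)) + nu1 (X.drop p0)

theorem T_eq (φ : α → S) (act : V → S → V) (nu2 nu1 : List α → V) (p0 : ℕ)
    (hadd : ∀ a b s, act (a + b) s = act a s + act b s)
    (hmul : ∀ v s t, act v (s * t) = act (act v s) t) (v : V) (X : List α) :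
    act v (pr φ X) + nuX φ act nu2 nu1 p0 X =
      act (fr φ act nu2 v (X.take p0)) (pr φ (X.drop p0)) + nu1 (X.drop p0) := by
  have h : pr φ X = pr φ (X.take p0) * pr φ (X.drop p0) := by
    rw [← pr_append, List.take_append_drop]
  unfold nuX fr
  rw [h, hmul, hadd]
  abel

/-- left words of scheme 1 -/
def LL1 (φ : α → S) (act : V → S → V) (nu2 : List α → V) (lam : List α → Option V) (p0 : ℕ)
    (v : V) : Set (List α) :=
  {P | p0 ≤ P.length ∧ lam (P.drop p0) = some (fr φ act nu2 v (P.take p0))}

theorem cc1 {Wo : List α → Prop} {z N p0 n : ℕ} {BT : ℕ → Prop}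
    (loc : ∀ P Q : List α, n ≤ Q.length → (Wo (P ++ Q) ↔ Wo Q))
    (φ : α → S) (act : V → S → V) (nu2 nu1 : List α → V) (lam rho : List α → Option V)
    (hadd : ∀ a b s, act (a + b) s = act a s + act b s)
    (hmul : ∀ v s t, act v (s * t) = act (act v s) t)
    (hlam : ∀ p v, lam p = some v → p.length ≤ N)
    (hsound : ∀ p q v r, lam p = some v → rho q = some r →
      r = act v (pr φ (p ++ q)) + nu1 (p ++ q))
    (hcomp : ∀ u : List α, N ≤ u.length → ¬ BT u.length → ∀ v, ∃ p q, p ++ q = u ∧
      lam p = some v ∧ (rho q).isSome)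
    (hz : p0 + N + N + n ≤ z)
    (X : List α) (hX : X ∈ CC Wo z) (hXb : X ∉ Bd Wo z N p0 BT) (v : V) :
    ∃ P Q, P ++ Q = X ∧ P ∈ LL1 φ act nu2 lam p0 v ∧
      ∀ x, ∀ P' ∈ LL1 φ act nu2 lam p0 x, P' ++ Q ∈ CC Wo z ∧
        act x (pr φ (P' ++ Q)) + nuX φ act nu2 nu1 p0 (P' ++ Q) =
          act v (pr φ X) + nuX φ act nu2 nu1 p0 X := by
  have hnE : ¬ EE Wo z N X := fun h => hXb ⟨hX, Or.inl h⟩
  have hnB : ¬ BT (X.length - p0) := fun h => hXb ⟨hX, Or.inr h⟩
  obtain ⟨hX1, hX2, hX3⟩ := hX
  have hXl : z + N ≤ X.length := by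
    by_contra h
    exact hnE ⟨X.length, by omega, by omega, le_rfl, by rw [List.take_length]; exact hX2⟩
  have hYl : (X.drop p0).length = X.length - p0 := List.length_drop
  obtain ⟨p, q, hpq, hp, hq⟩ := hcomp (X.drop p0) (by rw [hYl]; omega) (by rw [hYl]; exact hnB)
    (fr φ act nu2 v (X.take p0))
  obtain ⟨r, hr⟩ := Option.isSome_iff_exists.1 hq
  have hpl := hlam p _ hp
  have htl : (X.take p0).length = p0 := by rw [List.length_take]; omega
  have hsum : p.length + q.length = X.length - p0 := by
    rw [← hYl, ← hpq, List.length_append]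
  have hPX : (X.take p0 ++ p) ++ q = X := by
    rw [List.append_assoc, hpq, List.take_append_drop]
  have hval : act v (pr φ X) + nuX φ act nu2 nu1 p0 X = r := by
    rw [T_eq φ act nu2 nu1 p0 hadd hmul, ← hpq]
    exact (hsound p q _ r hp hr).symm
  refine ⟨X.take p0 ++ p, q, hPX, ⟨by rw [List.length_append]; omega, ?_⟩, ?_⟩
  · have e1 : (X.take p0 ++ p).drop p0 = p := by
      rw [List.drop_append_of_le_length (by omega), List.drop_eq_nil_of_le (by omega)]; rfl
    have e2 : (X.take p0 ++ p).take p0 = X.take p0 := by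
      rw [List.take_append_of_le_length (by omega), List.take_of_length_le (by omega)]
    rw [e1, e2]; exact hp
  · rintro x P' ⟨hP1, hP2⟩
    have hP'l := hlam _ _ hP2
    rw [List.length_drop] at hP'l
    have ed : (P' ++ q).drop p0 = P'.drop p0 ++ q := List.drop_append_of_le_length hP1
    have et : (P' ++ q).take p0 = P'.take p0 := List.take_append_of_le_length hP1
    refine ⟨⟨by rw [List.length_append]; omega, ?_, ?_⟩, ?_⟩
    · have h1 : Wo ((X.take p0 ++ p) ++ q) := by rw [hPX]; exact hX2
      rw [loc _ _ (by omega)] at h1 ⊢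
      exact h1
    · intro t ht htl' hW
      rw [List.length_append] at htl'
      have e : t = P'.length + (t - P'.length) := by omega
      rw [e, wo_shift loc P' (X.take p0 ++ p) q (t - P'.length) (by omega) (by omega), hPX,
        List.length_append, htl] at hW
      by_cases hc : p0 + p.length + (t - P'.length) < z + N
      · exact hnE ⟨_, by omega, hc, by omega, hW⟩
      · exact hX3 _ (by omega) (by omega) hW
    · rw [hval, T_eq φ act nu2 nu1 p0 hadd hmul, ed, et]
      exact (hsound _ _ _ r hP2 hr).symm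

end scheme1

end Crest.Agent.R320.Joint369
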