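import Mathlib

/-!
# Row 320: joint of the two schemes on all words (helper397)

Natural chain rule (`XX` = block ends at the first left-looking wall at a place `≥ z`), one token
system, scheme 1 = any zone gadget (`lam`, `rho`, `nu1`, modes `E` (end wall band) and `BadT`),
scheme 2 = exact gadget on the first `p0` letters.  Semantic right words; conclusion `cc`.
-/

set_option autoImplicit false

namespace Crest.Agent.R320.Joint_397

open Finset

universe u v w

/-- data of the joint -/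
structure Dt (α : Type u) (V : Type v) (S : Type w) [AddCommGroup V] [Monoid S] where
  φ : List α → S
  hφ : ∀ x y, φ (x ++ y) = φ x * φ y
  act : V → S → V
  act_mul : ∀ v s s', act (act v s) s' = act v (s * s')
  act_add : ∀ v v' s, act (v + v') s = act v s + act v' s
  n : ℕ
  Wo : List α → Prop
  W : ℕ
  hloc : ∀ P Q : List α, n ≤ Q.length → (Wo (P ++ Q) ↔ Wo Q)
  hgap : ∀ (P : List α) (d : ℕ), Wo P → 0 < d → d ≤ W → ¬ Wo (P.take (P.length - d))
  z : ℕ
  p0 : ℕ
  N1 : ℕ
  La : ℕ
  -- gadget 1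
  lam : List α → Option V
  rho : List α → Option V
  nu1 : List α → V
  BadT : ℕ → Prop
  s1 : ∀ P Q v r, lam P = some v → rho Q = some r → La ≤ Q.length →
    r = act v (φ (P ++ Q)) + nu1 (P ++ Q)
  l1 : ∀ P v, lam P = some v → P.length ≤ N1
  c1 : ∀ Y : List α, La ≤ Y.length → ¬ BadT Y.length → ∀ v, ∃ P Q, P ++ Q = Y ∧ lam P = some v ∧
    (rho Q).isSome
  -- gadget 2
  K : ℕ
  c : ℕ → ℕ
  hc : ∀ k < K, c k ≤ p0
  lam2 : ℕ → List α → Option V
  rho2 : ℕ → List α → Option V
  nu2 : List α → V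
  s2 : ∀ k < K, ∀ P Q v b, P.length = c k → lam2 k P = some v → rho2 k Q = some b →
    b = act v (φ (P ++ Q)) + nu2 (P ++ Q)
  C0 : ℕ
  c2 : ∀ U : List α, U.length = p0 → ∀ v, ∃ I : Finset ℕ, 2 + 2 * C0 ≤ I.card ∧ ∀ k ∈ I, k < K ∧
    lam2 k (U.take (c k)) = some v ∧ (rho2 k (U.drop (c k))).isSome
  -- ruler
  thin : ∀ T, La ≤ T → ∀ F : Finset (ℕ × ℕ), (∀ ij ∈ F, ij.1 < K ∧ ij.2 < K ∧ ij.1 ≠ ij.2 ∧
    BadT (T + c ij.2 - c ij.1)) → F.card ≤ C0
  golomb : ∀ i j k l, i < K → j < K → k < K → l < K → i ≠ j → k ≠ l → (i, j) ≠ (k, l) →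
    c j + c k + 2 * N1 < c i + c l ∨ c i + c l + 2 * N1 < c j + c k
  hW : 2 * p0 + 2 * N1 + 1 ≤ W
  hz : 2 * p0 + N1 + n + La + 1 ≤ z

namespace Dt

variable {α : Type u} {V : Type v} {S : Type w} [AddCommGroup V] [Monoid S] (D : Dt α V S)

/-- blocks -/
def XX : Set (List α) :=
  {X | D.z ≤ X.length ∧ D.Wo X ∧ ∀ j, D.z ≤ j → j < X.length → ¬ D.Wo (X.take j)}

/-- token map -/
def T (v : V) (X : List α) : V :=
  D.act (D.act v (D.φ (X.take D.p0)) + D.nu2 (X.take D.p0)) (D.φ (X.drop D.p0)) +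
    D.nu1 (X.drop D.p0)

def LP1 (P : List α) (v : V) : Prop :=
  D.p0 ≤ P.length ∧
    D.lam (P.drop D.p0) = some (D.act v (D.φ (P.take D.p0)) + D.nu2 (P.take D.p0))

def LP2 (P : List α) (v : V) : Prop := ∃ k < D.K, P.length = D.c k ∧ D.lam2 k P = some v

def Sem1 (Q : List α) : Prop := Q ≠ [] ∧ ∃ b, ∀ P v, D.LP1 P v → P ++ Q ∈ D.XX ∧ D.T v (P ++ Q) = b

def Sem2 (Q : List α) : Prop := Q ≠ [] ∧ ∃ b, ∀ P v, D.LP2 P v →
  (∃ X ∈ D.XX, X <+: P ++ Q ∧ ∃ P' Q', X = P' ++ Q' ∧ P.length ≤ P'.length ∧ D.LP1 P' v ∧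
    D.Sem1 Q') ∨
  (∃ Q1 X2, Q = Q1 ++ X2 ∧ Q1 ≠ [] ∧ P ++ Q1 ∈ D.XX ∧ X2 ∈ D.XX ∧ D.T (D.T v (P ++ Q1)) X2 = b)

/-- the end wall band -/
def Eb (X : List α) : Prop :=
  ∃ j, D.z ≤ j + D.N1 ∧ j < D.z + D.N1 ∧ j ≤ X.length ∧ D.Wo (X.take j)

/-- concretely bad -/
def CB (X : List α) : Prop := D.Eb X ∨ D.BadT (X.length - D.p0)

theorem gap {w : List α} {i j : ℕ} (hij : i < j) (hj : j ≤ w.length) (h1 : D.Wo (w.take i))
    (h2 : D.Wo (w.take j)) : D.W < j - i := by
  by_contra hlt
  have h := D.hgap (w.take j) (j - i) h2 (by omega) (by omega)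
  apply h
  have e : (w.take j).length = j := by rw [List.length_take]; omega
  rw [e, List.take_take]
  have e2 : min (j - (j - i)) j = i := by omega
  rw [e2]
  exact h1

/-- walls behind a replaced left part -/
theorem wo_shift {P P' Q : List α} {t : ℕ} (ht : D.n ≤ t) (hQ : t ≤ Q.length) :
    D.Wo ((P ++ Q).take (P.length + t)) ↔ D.Wo ((P' ++ Q).take (P'.length + t)) := by
  have e : ∀ R : List α, (R ++ Q).take (R.length + t) = R ++ Q.take t := by
    intro R
    rw [List.take_append]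
    have h1 : R.take (R.length + t) = R := List.take_of_length_le (by omega)
    have h2 : R.length + t - R.length = t := by omega
    rw [h1, h2]
  have hl : D.n ≤ (Q.take t).length := by rw [List.length_take]; omega
  rw [e, e, D.hloc _ _ hl, D.hloc _ _ hl]

theorem goodcut {X : List α} (hX : X ∈ D.XX) (hb : ¬ D.CB X) (v : V) :
    ∃ P Q, X = P ++ Q ∧ D.LP1 P v ∧ D.Sem1 Q := by
  obtain ⟨hX1, hX2, hX3⟩ := hX
  have hz := D.hz
  have hE : ¬ D.Eb X := fun h => hb (Or.inl h)
  have hB : ¬ D.BadT (X.length - D.p0) := fun h => hb (Or.inr h)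
  have hXl : D.z + D.N1 ≤ X.length := by
    by_contra hlt
    exact hE ⟨X.length, by omega, by omega, le_rfl, by rw [List.take_length]; exact hX2⟩
  have hYl : (X.drop D.p0).length = X.length - D.p0 := by rw [List.length_drop]
  obtain ⟨P', Q', hPQ, hP', hQ'⟩ := D.c1 (X.drop D.p0) (by omega) (by rw [hYl]; exact hB)
    (D.act v (D.φ (X.take D.p0)) + D.nu2 (X.take D.p0))
  have hP'l := D.l1 _ _ hP'
  have htl : (X.take D.p0).length = D.p0 := by rw [List.length_take]; omega
  have hXe : X = (X.take D.p0 ++ P') ++ Q' := by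
    rw [List.append_assoc, hPQ, List.take_append_drop]
  have hlen : P'.length + Q'.length = X.length - D.p0 := by
    rw [← List.length_append, hPQ, hYl]
  have hPl : (X.take D.p0 ++ P').length = D.p0 + P'.length := by rw [List.length_append, htl]
  refine ⟨X.take D.p0 ++ P', Q', hXe, ⟨by omega, ?_⟩, ?_, ?_⟩
  · have e1 : (X.take D.p0 ++ P').drop D.p0 = P' := by
      have h := List.drop_left (l₁ := X.take D.p0) (l₂ := P')
      rw [htl] at h; exact h
    have e2 : (X.take D.p0 ++ P').take D.p0 = X.take D.p0 := by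
      have h := List.take_left (l₁ := X.take D.p0) (l₂ := P')
      rw [htl] at h; exact h
    rw [e1, e2]; exact hP'
  · intro h
    rw [h] at hlen
    simp only [List.length_nil] at hlen
    omega
  · obtain ⟨r, hr⟩ := Option.isSome_iff_exists.1 hQ'
    refine ⟨r, fun P2 v2 h2 => ?_⟩
    obtain ⟨h21, h22⟩ := h2
    have hP2l := D.l1 _ _ h22
    rw [List.length_drop] at hP2l
    refine ⟨⟨?_, ?_, ?_⟩, ?_⟩
    · rw [List.length_append]; omega
    · have h := (D.hloc (X.take D.p0 ++ P') Q' (by omega)).1 (by rw [← hXe]; exact hX2)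
      exact (D.hloc P2 Q' (by omega)).2 h
    · intro j hj1 hj2 hw
      rw [List.length_append] at hj2
      have h := (D.wo_shift (P := P2) (P' := X.take D.p0 ++ P') (Q := Q') (t := j - P2.length)
        (by omega) (by omega)).1 (by
          have : P2.length + (j - P2.length) = j := by omega
          rw [this]; exact hw)
      rw [← hXe, hPl] at h
      by_cases hc : D.z ≤ D.p0 + P'.length + (j - P2.length)
      · exact hX3 _ hc (by omega) h
      · exact hE ⟨_, by omega, by omega, by omega, h⟩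
    · unfold T
      have e1 : (P2 ++ Q').take D.p0 = P2.take D.p0 := List.take_append_of_le_length h21
      have e2 : (P2 ++ Q').drop D.p0 = P2.drop D.p0 ++ Q' := List.drop_append_of_le_length h21
      rw [e1, e2]
      exact (D.s1 _ _ _ _ h22 hr (by omega)).symm

/-- `e` is the first wall of `w` at a place `≥ y` -/
def IsE (w : List α) (y e : ℕ) : Prop :=
  y ≤ e ∧ e ≤ w.length ∧ D.Wo (w.take e) ∧ ∀ j, y ≤ j → j < e → ¬ D.Wo (w.take j)

theorem isE_unique {w : List α} {y e e' : ℕ} (h : D.IsE w y e) (h' : D.IsE w y e') : e = e' := by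
  obtain ⟨a1, a2, a3, a4⟩ := h
  obtain ⟨b1, b2, b3, b4⟩ := h'
  rcases lt_trichotomy e e' with h | h | h
  · exact absurd a3 (b4 e a1 h)
  · exact h
  · exact absurd b3 (a4 e' b1 h)

theorem exists_isE {w : List α} {y e : ℕ} (h1 : y ≤ e) (h2 : e ≤ w.length)
    (h3 : D.Wo (w.take e)) : ∃ e', D.IsE w y e' ∧ e' ≤ e := by
  classical
  have hex : ∃ e, y ≤ e ∧ e ≤ w.length ∧ D.Wo (w.take e) := ⟨e, h1, h2, h3⟩
  refine ⟨Nat.find hex, ⟨(Nat.find_spec hex).1, (Nat.find_spec hex).2.1,
    (Nat.find_spec hex).2.2, fun j hj1 hj2 hw => ?_⟩, Nat.find_min' hex ⟨h1, h2, h3⟩⟩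
  exact Nat.find_min hex hj2 ⟨hj1, by have := (Nat.find_spec hex).2.1; omega, hw⟩

/-- two possible ends -/
theorem two_ends (w : List α) : ∃ e1 e2 : ℕ, D.z - D.p0 ≤ e1 ∧ D.z - D.p0 ≤ e2 ∧
    ∀ y e, D.z - D.p0 ≤ y → y ≤ D.z + D.p0 → D.IsE w y e → e = e1 ∨ e = e2 := by
  classical
  by_cases h1 : ∃ e, D.IsE w (D.z - D.p0) e
  · obtain ⟨e1, he1⟩ := h1
    by_cases h2 : ∃ e, D.IsE w (D.z + D.p0 + 1) e
    · obtain ⟨e2, he2⟩ := h2
      refine ⟨e1, e2, he1.1, by have := he2.1; omega, fun y e hy1 hy2 he => ?_⟩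
      by_cases hye : y ≤ e1
      · left
        refine D.isE_unique (y := y) he ⟨hye, he1.2.1, he1.2.2.1, fun j hj1 hj2 =>
          he1.2.2.2 j (by omega) hj2⟩
      · right
        have hlt : e1 < e := by have := he.1; omega
        have hg := D.gap hlt he.2.1 he1.2.2.1 he.2.2.1
        have hW := D.hW
        have := he1.1
        refine D.isE_unique (y := D.z + D.p0 + 1) ⟨by omega, he.2.1, he.2.2.1, fun j hj1 hj2 =>
          he.2.2.2 j (by omega) hj2⟩ he2
    · refine ⟨e1, e1, he1.1, he1.1, fun y e hy1 hy2 he => ?_⟩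
      by_cases hye : y ≤ e1
      · left
        refine D.isE_unique (y := y) he ⟨hye, he1.2.1, he1.2.2.1, fun j hj1 hj2 =>
          he1.2.2.2 j (by omega) hj2⟩
      · exfalso
        have hlt : e1 < e := by have := he.1; omega
        have hg := D.gap hlt he.2.1 he1.2.2.1 he.2.2.1
        have hW := D.hW
        have := he1.1
        obtain ⟨e', he', _⟩ := D.exists_isE (w := w) (y := D.z + D.p0 + 1) (e := e) (by omega)
          he.2.1 he.2.2.1
        exact h2 ⟨e', he'⟩
  · refine ⟨D.z - D.p0, D.z - D.p0, le_rfl, le_rfl, fun y e hy1 hy2 he => ?_⟩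
    exfalso
    obtain ⟨e', he', _⟩ := D.exists_isE (w := w) (y := D.z - D.p0) (e := e)
      (by have := he.1; omega) he.2.1 he.2.2.1
    exact h1 ⟨e', he'⟩

/-- the event of the pair `(k, k')` on the text `w` -/
def Ev (w : List α) (k k' : ℕ) : Prop :=
  (∃ j, D.z ≤ j + D.N1 ∧ j < D.z + D.N1 ∧ j + D.c k - D.c k' ≤ w.length ∧
    D.Wo (w.take (j + D.c k - D.c k'))) ∨
  ∃ e, D.IsE w (D.z + D.c k - D.c k') e ∧ D.BadT (e - D.p0 + D.c k' - D.c k)

theorem spoil (w : List α) :
    ∃ Sp : Finset ℕ, Sp.card ≤ 1 + 2 * D.C0 ∧ ∀ k < D.K, k ∉ Sp → ∀ k' < D.K, k' ≠ k →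
      ¬ D.Ev w k k' := by
  classical
  obtain ⟨e1, e2, he1, he2, hee⟩ := D.two_ends w
  have hz := D.hz
  have hW := D.hW
  let PE : Finset (ℕ × ℕ) := (range D.K ×ˢ range D.K).filter fun ij => ij.1 ≠ ij.2 ∧
    ∃ j, D.z ≤ j + D.N1 ∧ j < D.z + D.N1 ∧ j + D.c ij.1 - D.c ij.2 ≤ w.length ∧
      D.Wo (w.take (j + D.c ij.1 - D.c ij.2))
  let PB : ℕ → Finset (ℕ × ℕ) := fun T => (range D.K ×ˢ range D.K).filter
    (fun ij => ij.1 ≠ ij.2 ∧ D.BadT (T + D.c ij.2 - D.c ij.1))
  have hPE : PE.card ≤ 1 := by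
    rw [Finset.card_le_one]
    rintro ⟨a, b⟩ h1 ⟨a', b'⟩ h2
    simp only [PE, Finset.mem_filter, Finset.mem_product, Finset.mem_range] at h1 h2
    obtain ⟨⟨ha, hb⟩, hab, j, hj1, hj2, hj3, hj4⟩ := h1
    obtain ⟨⟨ha', hb'⟩, hab', j', hj1', hj2', hj3', hj4'⟩ := h2
    have ca := D.hc a ha
    have cb := D.hc b hb
    have ca' := D.hc a' ha'
    have cb' := D.hc b' hb'
    have heq : j + D.c a - D.c b = j' + D.c a' - D.c b' := by
      rcases lt_trichotomy (j + D.c a - D.c b) (j' + D.c a' - D.c b') with h | h | h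
      · have := D.gap h hj3' hj4 hj4'
        omega
      · exact h
      · have := D.gap h hj3 hj4' hj4
        omega
    by_contra hne
    rcases D.golomb a b a' b' ha hb ha' hb' hab hab' hne with h | h <;> omega
  have hPB : ∀ T, D.La ≤ T → (PB T).card ≤ D.C0 := fun T hT => D.thin T hT _ (by
    intro ij hij
    simp only [PB, Finset.mem_filter, Finset.mem_product, Finset.mem_range] at hij
    exact ⟨hij.1.1, hij.1.2, hij.2.1, hij.2.2⟩)
  let Pr := PE ∪ (PB (e1 - D.p0) ∪ PB (e2 - D.p0))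
  have hPr : Pr.card ≤ 1 + 2 * D.C0 := by
    have h1 := Finset.card_union_le PE (PB (e1 - D.p0) ∪ PB (e2 - D.p0))
    have h2 := Finset.card_union_le (PB (e1 - D.p0)) (PB (e2 - D.p0))
    have h3 := hPB (e1 - D.p0) (by omega)
    have h4 := hPB (e2 - D.p0) (by omega)
    have h5 : Pr.card = (PE ∪ (PB (e1 - D.p0) ∪ PB (e2 - D.p0))).card := rfl
    omega
  refine ⟨Pr.image Prod.fst, (Finset.card_image_le).trans hPr, fun k hk hkS k' hk' hne hEv => ?_⟩
  apply hkS
  rw [Finset.mem_image]
  refine ⟨(k, k'), ?_, rfl⟩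
  have ck := D.hc k hk
  have ck' := D.hc k' hk'
  rcases hEv with ⟨j, hj1, hj2, hj3, hj4⟩ | ⟨e, he, hbad⟩
  · refine Finset.mem_union_left _ ?_
    simp only [PE, Finset.mem_filter, Finset.mem_product, Finset.mem_range]
    exact ⟨⟨hk, hk'⟩, fun h => hne h.symm, j, hj1, hj2, hj3, hj4⟩
  · refine Finset.mem_union_right _ ?_
    rcases hee (D.z + D.c k - D.c k') e (by omega) (by omega) he with h | h
    · refine Finset.mem_union_left _ ?_
      simp only [PB, Finset.mem_filter, Finset.mem_product, Finset.mem_range]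
      exact ⟨⟨hk, hk'⟩, fun h => hne h.symm, by rw [← h]; exact hbad⟩
    · refine Finset.mem_union_right _ ?_
      simp only [PB, Finset.mem_filter, Finset.mem_product, Finset.mem_range]
      exact ⟨⟨hk, hk'⟩, fun h => hne h.symm, by rw [← h]; exact hbad⟩

theorem badcut {X X2 : List α} (hX : X ∈ D.XX) (hX2 : X2 ∈ D.XX) (v : V) :
    ∃ P Q, X ++ X2 = P ++ Q ∧ P.length < X.length ∧ D.LP2 P v ∧ D.Sem2 Q := by
  classical
  obtain ⟨hXa, hXb, hXc⟩ := hX
  have hX2' := hX2
  obtain ⟨hX2a, hX2b, hX2c⟩ := hX2'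
  have hz := D.hz
  have hW := D.hW
  have htl : (X.take D.p0).length = D.p0 := by rw [List.length_take]; omega
  obtain ⟨I, hI1, hI2⟩ := D.c2 (X.take D.p0) htl v
  obtain ⟨Sp, hSp1, hSp2⟩ := D.spoil (X ++ X2)
  obtain ⟨k, hkI, hkS⟩ : ∃ k ∈ I, k ∉ Sp := by
    by_contra hcon
    push Not at hcon
    have : I ⊆ Sp := fun k hk => hcon k hk
    have := Finset.card_le_card this
    omega
  obtain ⟨hkK, hl2, hr2⟩ := hI2 k hkI
  have ck := D.hc k hkK
  have e1 : (X.take D.p0).take (D.c k) = X.take (D.c k) := by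
    rw [List.take_take, min_eq_left ck]
  have hkl : (X.take (D.c k)).length = D.c k := by rw [List.length_take]; omega
  rw [e1] at hl2
  obtain ⟨b0, hb0⟩ := Option.isSome_iff_exists.1 hr2
  refine ⟨X.take (D.c k), X.drop (D.c k) ++ X2, ?_, by omega, ⟨k, hkK, hkl, hl2⟩, ?_, ?_⟩
  · rw [← List.append_assoc, List.take_append_drop]
  · intro h
    have := congrArg List.length h
    simp only [List.length_append, List.length_drop, List.length_nil] at this
    omega
  refine ⟨D.T (D.T v X) X2, fun P' v' hP' => ?_⟩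
  obtain ⟨k', hk', hPl, hPlam⟩ := hP'
  have ck' := D.hc k' hk'
  by_cases hkk : k' = k
  · subst hkk
    right
    refine ⟨X.drop (D.c k'), X2, rfl, ?_, ?_, hX2, ?_⟩
    · intro h
      have := congrArg List.length h
      simp only [List.length_drop, List.length_nil] at this
      omega
    · refine ⟨?_, ?_, ?_⟩
      · rw [List.length_append, List.length_drop]; omega
      · have hn : D.n ≤ (X.drop (D.c k')).length := by rw [List.length_drop]; omega
        rw [D.hloc _ _ hn, ← D.hloc (X.take (D.c k')) _ hn, List.take_append_drop]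
        exact hXb
      · intro j hj1 hj2 hw
        rw [List.length_append, List.length_drop] at hj2
        have h := (D.wo_shift (P := P') (P' := X.take (D.c k')) (Q := X.drop (D.c k'))
          (t := j - D.c k') (by omega) (by rw [List.length_drop]; omega)).1 (by
            have : P'.length + (j - D.c k') = j := by omega
            rw [this]; exact hw)
        rw [List.take_append_drop, hkl] at h
        have : D.c k' + (j - D.c k') = j := by omega
        rw [this] at h
        exact hXc j hj1 (by omega) h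
    · have hT : D.T v' (P' ++ X.drop (D.c k')) = D.T v X := by
        unfold T
        have hle : P'.length ≤ D.p0 := by omega
        have ea : (P' ++ X.drop (D.c k')).take D.p0 = P' ++ (X.take D.p0).drop (D.c k') := by
          rw [List.take_append]
          rw [List.take_of_length_le hle, hPl, List.drop_take]
        have eb : (P' ++ X.drop (D.c k')).drop D.p0 = X.drop D.p0 := by
          rw [List.drop_append, List.drop_of_length_le hle, hPl, List.drop_drop]
          have : D.c k' + (D.p0 - D.c k') = D.p0 := by omega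
          rw [this, List.nil_append]
        rw [ea, eb]
        have h1 := D.s2 k' hk' P' ((X.take D.p0).drop (D.c k')) v' b0 hPl hPlam hb0
        have h2 := D.s2 k' hk' (X.take (D.c k')) ((X.take D.p0).drop (D.c k')) v b0 hkl hl2 hb0
        have ec : X.take (D.c k') ++ (X.take D.p0).drop (D.c k') = X.take D.p0 := by
          rw [← e1, List.take_append_drop]
        rw [ec] at h2
        rw [← h1, ← h2]
      rw [hT]
  · left
    set Q := X.drop (D.c k) ++ X2 with hQ
    have hQl : Q.length = X.length - D.c k + X2.length := by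
      rw [hQ, List.length_append, List.length_drop]
    have hwQ : X ++ X2 = X.take (D.c k) ++ Q := by
      rw [hQ, ← List.append_assoc, List.take_append_drop]
    -- the end of the text is a wall
    have hend : D.Wo ((P' ++ Q).take (P' ++ Q).length) := by
      rw [List.take_length, hQ, ← List.append_assoc, D.hloc _ _ (by omega)]
      exact hX2b
    obtain ⟨e', he', _⟩ := D.exists_isE (w := P' ++ Q) (y := D.z) (e := (P' ++ Q).length)
      (by rw [List.length_append]; omega) le_rfl hend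
    obtain ⟨h1, h2, h3, h4⟩ := he'
    have htk : ((P' ++ Q).take e').length = e' := by rw [List.length_take]; omega
    -- transfer of walls between `P' ++ Q` and `X ++ X2`
    have hlQ : (P' ++ Q).length = D.c k' + Q.length := by rw [List.length_append, hPl]
    have htr : ∀ j, D.p0 + D.n ≤ j → j ≤ (P' ++ Q).length →
        (D.Wo ((P' ++ Q).take j) ↔ D.Wo ((X ++ X2).take (j + D.c k - D.c k'))) := by
      intro j hj1 hj2
      have h := D.wo_shift (P := P') (P' := X.take (D.c k)) (Q := Q) (t := j - D.c k')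
        (by omega) (by omega)
      rw [← hwQ, hkl, hPl] at h
      have ea : D.c k' + (j - D.c k') = j := by omega
      have eb : D.c k + (j - D.c k') = j + D.c k - D.c k' := by omega
      rw [ea, eb] at h
      exact h
    have hXin : (P' ++ Q).take e' ∈ D.XX := by
      refine ⟨by omega, h3, fun j hj1 hj2 hw => ?_⟩
      rw [htk] at hj2
      rw [List.take_take, min_eq_left (by omega)] at hw
      exact h4 j hj1 hj2 hw
    have hnb : ¬ D.CB ((P' ++ Q).take e') := by
      intro hcb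
      apply hSp2 k hkK hkS k' hk' hkk
      rcases hcb with ⟨j, hj1, hj2, hj3, hj4⟩ | hbt
      · left
        rw [htk] at hj3
        rw [List.take_take, min_eq_left hj3] at hj4
        refine ⟨j, hj1, hj2, ?_, (htr j (by omega) (by omega)).1 hj4⟩
        rw [List.length_append]; omega
      · right
        rw [htk] at hbt
        refine ⟨e' + D.c k - D.c k', ⟨by omega, ?_, (htr e' (by omega) h2).1 h3, ?_⟩, ?_⟩
        · rw [List.length_append]; omega
        · intro j hj1 hj2 hw
          have h := (htr (j + D.c k' - D.c k) (by omega) (by omega)).2 (by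
            have : j + D.c k' - D.c k + D.c k - D.c k' = j := by omega
            rw [this]; exact hw)
          exact h4 _ (by omega) (by omega) h
        · have : e' + D.c k - D.c k' - D.p0 + D.c k' - D.c k = e' - D.p0 := by omega
          rw [this]; exact hbt
    obtain ⟨P'', Q'', hx1, hx2, hx3⟩ := D.goodcut hXin hnb v'
    exact ⟨_, hXin, List.take_prefix _ _, P'', Q'', hx1, by have := hx2.1; omega, hx2, hx3⟩

/-- **completeness of both schemes in semantic form** (all words) -/
theorem cc : ∀ X ∈ D.XX, ∀ X2 ∈ D.XX, ∀ v,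
    (∃ P Q, X = P ++ Q ∧ D.LP1 P v ∧ D.Sem1 Q) ∨
    (∃ P Q, X ++ X2 = P ++ Q ∧ P.length < X.length ∧ D.LP2 P v ∧ D.Sem2 Q) := by
  intro X hX X2 hX2 v
  by_cases hb : D.CB X
  · exact Or.inr (D.badcut hX hX2 v)
  · exact Or.inl (D.goodcut hX hb v)

end Dt

end Crest.Agent.R320.Joint_397
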