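import Crest.Agent.R320.Nest_85

/-! Row 320: the joint of 118 #13043 (helper664).  ONE run with states `(P, v)` (`P` = text since the
anchor, `v` = value at the anchor), zone map `v ↦ act v (φ Z) + nu Z`, TWO kinds of cuts.
Scheme 1 is exact on all words, scheme 2 only on zones which are not completely cut by scheme 1.
Every not completely 1-cut zone is completely 2-cut.  Result: `φ` is computed with height 2 on the class. -/

set_option autoImplicit false

namespace Crest.Agent.R320.Joint_664

open Crest.RegLang Crest.Agent.R320.Hgt1_903 Crest.Agent.R320.Nest_85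

/-- data of the joint -/
structure J (α V S : Type*) where
  /-- the class of texts -/
  C : List α → Prop
  φ : List α → S
  act : V → S → V
  /-- text since an anchor ↦ distance of the next anchor, when visible -/
  nx : List α → Option ℕ
  /-- noise of a zone -/
  nu : List α → V
  L1 : List α → V → Prop
  D1 : ℕ
  right1 : List α → Option (ℕ × V)
  L2 : List α → V → Prop
  D2 : ℕ
  right2 : List α → Option (ℕ × V)
  n0 : ℕ
  p0 : ℕ
  G : ℕ
  B0 : ℕ

variable {α V S : Type*}

/-- the zone of the text `Z` (read from the anchor) is completely cut by scheme 1 -/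
def J.Good (D : J α V S) (Z : List α) : Prop :=
  ∀ v, ∃ P r s, Z = P ++ (r ++ s) ∧ D.n0 ≤ P.length ∧ D.p0 ≤ P.length ∧ D.L1 P v ∧
    r.length = D.D1 ∧ (D.right1 r).isSome

structure J.Ok [Monoid S] [AddCommGroup V] (D : J α V S) : Prop where
  φ_nil : D.φ [] = 1
  φ_app : ∀ u w, D.φ (u ++ w) = D.φ u * D.φ w
  act_add : ∀ v v' s, D.act (v + v') s = D.act v s + D.act v' s
  act_mul : ∀ v s s', D.act (D.act v s) s' = D.act v (s * s')
  act_one : ∀ v, D.act v 1 = v
  faith : ∀ s s', (∀ v, D.act v s = D.act v s') → s = s'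
  C_left : ∀ u w, D.C (u ++ w) → D.C u
  C_right : ∀ u w, D.C (u ++ w) → D.C w
  nx_mono : ∀ P w t, D.nx P = some t → D.nx (P ++ w) = some t
  nx_pos : ∀ P t, D.nx P = some t → 0 < t
  nx_le : ∀ P t, D.nx P = some t → t ≤ P.length
  nx_short : ∀ P x t, D.nx P = none → D.nx (P ++ [x]) = some t →
    D.nx ((P ++ [x]).drop t) = none ∧ ((P ++ [x]).drop t).length ≤ D.n0
  nx_ex : ∀ Q, D.C Q → D.G ≤ Q.length → D.nx Q ≠ none
  D1_pos : 0 < D.D1
  D2_pos : 0 < D.D2
  L1_none : ∀ P v, D.L1 P v → D.nx P = none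
  L2_none : ∀ P v, D.L2 P v → D.nx P = none
  L2_le : ∀ P v, D.L2 P v → P.length ≤ D.p0
  sound1 : ∀ P v r b c, D.L1 P v → r.length = D.D1 → D.right1 r = some (b, c) →
    D.nx (P ++ r) = some (P.length + b) ∧
      D.act v (D.φ ((P ++ r).take (P.length + b))) + D.nu ((P ++ r).take (P.length + b)) = c
  sound2 : ∀ P v r b c, D.C (P ++ r) → ¬ D.Good (P ++ r) → D.L2 P v → r.length = D.D2 →
    D.right2 r = some (b, c) →
    D.nx (P ++ r) = some (P.length + b) ∧
      D.act v (D.φ ((P ++ r).take (P.length + b))) + D.nu ((P ++ r).take (P.length + b)) = c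
  comp2 : ∀ Z, D.C Z → D.B0 ≤ Z.length → ¬ D.Good Z → ∀ v, ∃ P r s, Z = P ++ (r ++ s) ∧
    D.n0 ≤ P.length ∧ D.L2 P v ∧ r.length = D.D2 ∧ (D.right2 r).isSome

variable [Monoid S] [AddCommGroup V] (D : J α V S)

/-- one letter -/
def J.stp (θ : List α × V) (x : α) : List α × V :=
  match D.nx (θ.1 ++ [x]) with
  | some t => ((θ.1 ++ [x]).drop t,
      D.act θ.2 (D.φ ((θ.1 ++ [x]).take t)) + D.nu ((θ.1 ++ [x]).take t))
  | none => (θ.1 ++ [x], θ.2)

variable {D}

theorem nx_pref (hD : D.Ok) {P w : List α} (h : D.nx (P ++ w) = none) : D.nx P = none := by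
  by_contra hne
  obtain ⟨q, hq⟩ := Option.ne_none_iff_exists'.1 hne
  rw [hD.nx_mono P w q hq] at h
  exact absurd h (by simp)

theorem nx_nil (hD : D.Ok) : D.nx [] = none := by
  by_contra hne
  obtain ⟨q, hq⟩ := Option.ne_none_iff_exists'.1 hne
  have h1 := hD.nx_pos _ _ hq
  have h2 := hD.nx_le _ _ hq
  simp only [List.length_nil] at h2
  omega

theorem run_none (hD : D.Ok) (P : List α) (v : V) (w : List α) (h : D.nx (P ++ w) = none) :
    run D.stp (P, v) w = (P ++ w, v) := by
  induction w generalizing P with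
  | nil => simp [run]
  | cons x w ih =>
    have h1 : D.nx (P ++ [x]) = none := nx_pref hD (w := w) (by simpa using h)
    have h2 : D.stp (P, v) x = (P ++ [x], v) := by
      simp only [J.stp, h1]
    change run D.stp (D.stp (P, v) x) w = _
    rw [h2, ih (P ++ [x]) (by simpa using h)]
    simp

/-- detection -/
theorem exists_detect (P w : List α) (hP : D.nx P = none) (hw : D.nx (P ++ w) ≠ none) :
    ∃ w1 x w2 t, w = w1 ++ x :: w2 ∧ D.nx (P ++ w1) = none ∧
      D.nx (P ++ w1 ++ [x]) = some t := by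
  induction w generalizing P with
  | nil => exact absurd (by simpa using hP) hw
  | cons x w ih =>
    by_cases h1 : D.nx (P ++ [x]) = none
    · obtain ⟨w1, y, w2, t, e, h2, h3⟩ := ih (P ++ [x]) h1 (by simpa using hw)
      exact ⟨x :: w1, y, w2, t, by simp [e], by simpa using h2, by simpa using h3⟩
    · obtain ⟨t, hq⟩ := Option.ne_none_iff_exists'.1 h1
      exact ⟨[], x, w, t, by simp, by simpa using hP, by simpa using hq⟩

/-- the state right after a detection -/
theorem run_detect (hD : D.Ok) (P : List α) (v : V) (w1 : List α) (x : α) (t : ℕ)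
    (h1 : D.nx (P ++ w1) = none) (h2 : D.nx (P ++ w1 ++ [x]) = some t) :
    run D.stp (P, v) (w1 ++ [x]) = ((P ++ w1 ++ [x]).drop t,
      D.act v (D.φ ((P ++ w1 ++ [x]).take t)) + D.nu ((P ++ w1 ++ [x]).take t)) := by
  rw [run_append, run_none hD P v w1 h1]
  change D.stp (P ++ w1, v) x = _
  simp only [J.stp, h2]

theorem run_some (hD : D.Ok) (P : List α) (v : V) (w : List α) (t : ℕ)
    (hP : D.nx P = none) (h : D.nx (P ++ w) = some t) :
    run D.stp (P, v) w = run D.stp ([], D.act v (D.φ ((P ++ w).take t)) + D.nu ((P ++ w).take t))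
      ((P ++ w).drop t) := by
  obtain ⟨w1, x, w2, t', e, h1, h2⟩ := exists_detect P w hP (by rw [h]; simp)
  have e1 : P ++ w = P ++ w1 ++ [x] ++ w2 := by rw [e]; simp
  have h3 := hD.nx_mono _ w2 _ h2
  rw [← e1, h] at h3
  have htt : t = t' := by simpa using h3
  subst htt
  have hle := hD.nx_le _ _ h2
  obtain ⟨h4, -⟩ := hD.nx_short _ _ _ h1 h2
  have e2 : (P ++ w).take t = (P ++ w1 ++ [x]).take t := by
    rw [e1, List.take_append_of_le_length hle]
  have e3 : (P ++ w).drop t = (P ++ w1 ++ [x]).drop t ++ w2 := by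
    rw [e1, List.drop_append_of_le_length hle]
  rw [e2, e3, run_append]
  have e4 : w = (w1 ++ [x]) ++ w2 := by rw [e]; simp
  rw [e4, run_append, run_detect hD P v w1 x t h1 h2]
  congr 1
  rw [run_none hD [] _ _ (by simpa using h4)]
  simp

/-- the text of the state is a suffix -/
theorem run_suffix (hD : D.Ok) (w : List α) : ∀ (P : List α) (v : V),
    ∃ X, X ++ (run D.stp (P, v) w).1 = P ++ w := by
  induction w with
  | nil => intro P v; exact ⟨[], by simp [run]⟩
  | cons x w ih =>
    intro P v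
    change ∃ X, X ++ (run D.stp (D.stp (P, v) x) w).1 = _
    cases h : D.nx (P ++ [x]) with
    | none =>
      have h2 : D.stp (P, v) x = (P ++ [x], v) := by simp only [J.stp, h]
      rw [h2]
      obtain ⟨X, hX⟩ := ih (P ++ [x]) v
      exact ⟨X, by rw [hX]; simp⟩
    | some t =>
      have h2 : D.stp (P, v) x = ((P ++ [x]).drop t,
          D.act v (D.φ ((P ++ [x]).take t)) + D.nu ((P ++ [x]).take t)) := by
        simp only [J.stp, h]
      rw [h2]
      obtain ⟨X, hX⟩ := ih ((P ++ [x]).drop t)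
        (D.act v (D.φ ((P ++ [x]).take t)) + D.nu ((P ++ [x]).take t))
      refine ⟨(P ++ [x]).take t ++ X, ?_⟩
      rw [List.append_assoc, hX, ← List.append_assoc, List.take_append_drop]
      simp

/-- states keep `nx = none` -/
theorem run_st (hD : D.Ok) (w : List α) : ∀ (q : List α × V), D.nx q.1 = none →
    D.nx (run D.stp q w).1 = none := by
  induction w with
  | nil => intro q hq; exact hq
  | cons x w ih =>
    intro q hq
    change D.nx (run D.stp (D.stp q x) w).1 = none
    apply ih
    obtain ⟨P, v⟩ := q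
    cases h : D.nx (P ++ [x]) with
    | none => simp only [J.stp, h]
    | some t =>
      simp only [J.stp, h]
      exact (hD.nx_short _ _ _ hq h).1

/-- reset by a claim of a right word -/
theorem run_claim (hD : D.Ok) {P : List α} {v : V} {r : List α} {b : ℕ} {c : V}
    (hP : D.nx P = none) (h1 : D.nx (P ++ r) = some (P.length + b))
    (h2 : D.act v (D.φ ((P ++ r).take (P.length + b))) + D.nu ((P ++ r).take (P.length + b)) = c) :
    run D.stp (P, v) r = run D.stp ([], c) (r.drop b) := by
  rw [run_some hD P v r _ hP h1, h2]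
  congr 1
  simp [List.drop_append]

/-- level 1 -/
def lev (right : List α → Option (ℕ × V)) (L : List α → V → Prop) (n : ℕ) (D : J α V S) :
    Level α (List α × V) where
  Lg := fun q => L q.1 q.2
  R := {r | r.length = n ∧ (right r).isSome}
  c := fun r => match right r with
    | some (b, c) => run D.stp ([], c) (r.drop b)
    | none => ([], 0)

def St (D : J α V S) : List α × V → Prop := fun q => D.nx q.1 = none

def Prom (D : J α V S) : List α × V → List α → Prop := fun q w => D.C (q.1 ++ w)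

theorem prom_of_claim (hD : D.Ok) {q : List α × V} {p s u : List α} {b : ℕ} {c : V}
    (h : Prom D q (p ++ s ++ u)) : Prom D (run D.stp ([], c) (s.drop b)) u := by
  obtain ⟨X, hX⟩ := run_suffix hD (s.drop b) [] c
  unfold Prom at h ⊢
  have e : q.1 ++ (p ++ s ++ u) =
      (q.1 ++ p ++ s.take b ++ X) ++ ((run D.stp ([], c) (s.drop b)).1 ++ u) := by
    have : s = s.take b ++ s.drop b := (List.take_append_drop b s).symm
    have h2 : s.drop b = X ++ (run D.stp ([], c) (s.drop b)).1 := by rw [hX]; simp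
    calc q.1 ++ (p ++ s ++ u) = q.1 ++ p ++ (s.take b ++ s.drop b) ++ u := by
          rw [List.take_append_drop]; simp
      _ = q.1 ++ p ++ (s.take b ++ (X ++ (run D.stp ([], c) (s.drop b)).1)) ++ u := by
          rw [← h2]
      _ = _ := by simp
  rw [e] at h
  exact hD.C_right _ _ h

theorem ok1 [Finite α] (hD : D.Ok) :
    (lev D.right1 D.L1 D.D1 D).Ok D.stp (St D) (Prom D) where
  fin := (List.finite_length_eq α D.D1).subset fun r hr => hr.1
  ne := by
    rintro s ⟨h1, -⟩ rfl
    have := hD.D1_pos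
    simp only [List.length_nil] at h1
    omega
  st := by
    rintro s ⟨-, h2⟩
    obtain ⟨⟨b, c⟩, hbc⟩ := Option.isSome_iff_exists.1 h2
    simp only [lev, hbc, St]
    exact run_st hD _ _ (nx_nil hD)
  closed := by
    rintro q hq p s u hw ⟨h1, h2⟩ hl
    obtain ⟨⟨b, c⟩, hbc⟩ := Option.isSome_iff_exists.1 h2
    have hl' : D.L1 (run D.stp q p).1 (run D.stp q p).2 := hl
    obtain ⟨h3, h4⟩ := hD.sound1 _ _ _ _ _ hl' h1 hbc
    simp only [lev, hbc]
    refine ⟨?_, prom_of_claim hD hw⟩
    exact run_claim hD (v := (run D.stp q p).2) (hD.L1_none _ _ hl') h3 h4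

/-- from completeness in the text of a state to a cut -/
theorem cut_of (hD : D.Ok) {right : List α → Option (ℕ × V)} {L : List α → V → Prop} {n : ℕ}
    (hL : ∀ P v, L P v → D.nx P = none) {P0 : List α} {v : V} {w P r s : List α}
    (e : P0 ++ w = P ++ (r ++ s)) (hle : P0.length ≤ P.length) (hl : L P v)
    (hr : r.length = n) (hR : (right r).isSome) :
    Cut D.stp (lev right L n D) (P0, v) w := by
  have hpre : P0 <+: P := by
    have ha : P0 <+: P0 ++ w := List.prefix_append _ _
    have hb : P <+: P0 ++ w := by rw [e]; exact List.prefix_append _ _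
    exact List.prefix_of_prefix_length_le ha hb hle
  obtain ⟨u, rfl⟩ := hpre
  rw [List.append_assoc] at e
  have e2 := List.append_cancel_left e
  refine ⟨u, r, s, by rw [e2]; simp, ⟨hr, hR⟩, ?_⟩
  change L (run D.stp (P0, v) u).1 (run D.stp (P0, v) u).2
  rw [run_none hD P0 v u (hL _ _ hl)]
  exact hl

def Prom' (D : J α V S) : List α × V → List α → Prop := fun q w =>
  Prom D q w ∧ ¬ Cut D.stp (lev D.right1 D.L1 D.D1 D) q w

theorem ok2 [Finite α] (hD : D.Ok) :
    (lev D.right2 D.L2 D.D2 D).Ok D.stp (St D) (Prom' D) where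
  fin := (List.finite_length_eq α D.D2).subset fun r hr => hr.1
  ne := by
    rintro s ⟨h1, -⟩ rfl
    have := hD.D2_pos
    simp only [List.length_nil] at h1
    omega
  st := by
    rintro s ⟨-, h2⟩
    obtain ⟨⟨b, c⟩, hbc⟩ := Option.isSome_iff_exists.1 h2
    simp only [lev, hbc, St]
    exact run_st hD _ _ (nx_nil hD)
  closed := by
    rintro q hq p s u ⟨hw, hnc⟩ ⟨h1, h2⟩ hl
    obtain ⟨⟨b, c⟩, hbc⟩ := Option.isSome_iff_exists.1 h2
    have hl' : D.L2 (run D.stp q p).1 (run D.stp q p).2 := hl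
    have hC : D.C ((run D.stp q p).1 ++ s) := by
      obtain ⟨X, hX⟩ := run_suffix hD p q.1 q.2
      have h5 : D.C (q.1 ++ (p ++ s ++ u)) := hw
      have e : q.1 ++ (p ++ s ++ u) = X ++ (((run D.stp q p).1 ++ s) ++ u) := by
        have hX' : X ++ (run D.stp q p).1 = q.1 ++ p := hX
        calc q.1 ++ (p ++ s ++ u) = (q.1 ++ p) ++ (s ++ u) := by simp
          _ = (X ++ (run D.stp q p).1) ++ (s ++ u) := by rw [hX']
          _ = _ := by simp
      rw [e] at h5
      exact hD.C_left _ _ (hD.C_right _ _ h5)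
    have hG : ¬ D.Good ((run D.stp q p).1 ++ s) := by
      intro hG
      obtain ⟨P', r', s', e, -, hp, hL1, hr, hR⟩ := hG (run D.stp q p).2
      apply hnc
      have hle : (run D.stp q p).1.length ≤ P'.length := (hD.L2_le _ _ hl').trans hp
      have hc := cut_of hD (right := D.right1) (n := D.D1) hD.L1_none e hle hL1 hr hR
      have hc2 := Cut.prepend (q := q) (v := p) hc
      exact hc2.append
    obtain ⟨h3, h4⟩ := hD.sound2 _ _ _ _ _ hC hG hl' h1 hbc
    have h6 : run D.stp (run D.stp q p) s = run D.stp ([], c) (s.drop b) :=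
      run_claim hD (v := (run D.stp q p).2) (hD.L2_none _ _ hl') h3 h4
    simp only [lev, hbc]
    refine ⟨h6, prom_of_claim hD hw, fun hc => hnc ?_⟩
    rw [← h6, ← run_append] at hc
    exact Cut.prepend hc

theorem bounded (hD : D.Ok) (q : List α × V) (hq : St D q) (w : List α)
    (hw : Prom D q w) (h1 : ¬ Cut D.stp (lev D.right1 D.L1 D.D1 D) q w)
    (h2 : ¬ Cut D.stp (lev D.right2 D.L2 D.D2 D) q w) : w.length < D.G + D.B0 := by
  by_contra hlen
  push Not at hlen
  obtain ⟨P, v⟩ := q
  have hq' : D.nx P = none := hq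
  obtain ⟨wa, wb, ew, hla⟩ : ∃ wa wb, w = wa ++ wb ∧ wa.length = D.G :=
    ⟨w.take D.G, w.drop D.G, (List.take_append_drop _ w).symm, by
      rw [List.length_take]; omega⟩
  have hw' : D.C (P ++ w) := hw
  have hCa : D.C (P ++ wa) := hD.C_left _ wb (by rw [ew] at hw'; simpa using hw')
  have hstep : D.nx (P ++ wa) ≠ none := hD.nx_ex _ hCa (by
    rw [List.length_append]; omega)
  obtain ⟨w1, x, w2, t, e1, h3, h4⟩ := exists_detect P wa hq' hstep
  obtain ⟨h5, h6⟩ := hD.nx_short _ _ _ h3 h4
  have hrun := run_detect hD P v w1 x t h3 h4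
  set P0 := (P ++ w1 ++ [x]).drop t with hP0
  set v0 := D.act v (D.φ ((P ++ w1 ++ [x]).take t)) + D.nu ((P ++ w1 ++ [x]).take t) with hv0
  have ew2 : w = (w1 ++ [x]) ++ (w2 ++ wb) := by rw [ew, e1]; simp
  have hZ : D.C (P0 ++ (w2 ++ wb)) := by
    have e2 : P ++ w = (P ++ w1 ++ [x]).take t ++ (P0 ++ (w2 ++ wb)) := by
      rw [← List.append_assoc, hP0, List.take_append_drop, ew2]; simp
    rw [e2] at hw'
    exact hD.C_right _ _ hw'
  have hZl : D.B0 ≤ (P0 ++ (w2 ++ wb)).length := by
    have h7 : w.length = wa.length + wb.length := by rw [ew, List.length_append]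
    simp only [List.length_append]; omega
  by_cases hG : D.Good (P0 ++ (w2 ++ wb))
  · obtain ⟨P', r', s', e, hn, -, hL1, hr, hR⟩ := hG v0
    have hc := cut_of hD (right := D.right1) (n := D.D1) hD.L1_none e (h6.trans hn) hL1 hr hR
    rw [← hrun] at hc
    apply h1
    rw [ew2]
    exact Cut.prepend hc
  · obtain ⟨P', r', s', e, hn, hL2, hr, hR⟩ := hD.comp2 _ hZ hZl hG v0
    have hc := cut_of hD (right := D.right2) (n := D.D2) hD.L2_none e (h6.trans hn) hL2 hr hR
    rw [← hrun] at hc
    apply h2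
    rw [ew2]
    exact Cut.prepend hc

/-- every target of the run is computed with height 2 on the class -/
theorem target [Finite α] (hD : D.Ok) (q : List α × V) (hq : St D q) (T : List α × V → Prop) :
    ∃ E : Language α, H 2 E ∧ ∀ w, Prom D q w → (w ∈ E ↔ T (run D.stp q w)) := by
  have pre : ∀ q u v, Prom D q (u ++ v) → Prom D q u := by
    intro q u v h
    apply hD.C_left _ v
    rw [List.append_assoc]; exact h
  have pre' : ∀ q u v, Prom' D q (u ++ v) → Prom' D q u := by
    intro q u v h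
    exact ⟨pre q u v h.1, fun hc => h.2 hc.append⟩
  have key1 := nest D.stp (St D) (Prom' D) pre' (lev D.right2 D.L2 D.D2 D) (ok2 hD) 0
    (fun _ => True) trivial (by
      intro q hq T _
      refine ⟨({w | (Prom' D q w ∧ ¬ Cut D.stp (lev D.right2 D.L2 D.D2 D) q w) ∧
        T (run D.stp q w)} : Language α), H.finite 0 ?_, fun w hw hc =>
          ⟨fun h => h.2, fun h => ⟨⟨hw, hc⟩, h⟩⟩⟩
      refine (List.finite_length_lt α (D.G + D.B0)).subset ?_
      rintro w ⟨⟨hw, hc⟩, -⟩
      exact bounded hD q hq w hw.1 hw.2 hc)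
  have key2 := nest D.stp (St D) (Prom D) pre (lev D.right1 D.L1 D.D1 D) (ok1 hD) 1
    (fun _ => True) trivial (by
      intro q hq T _
      obtain ⟨E, h1, h2⟩ := key1 q hq T trivial
      exact ⟨E, h1, fun w hw hc => h2 w ⟨hw, hc⟩⟩)
  exact key2 q hq T trivial

/-- the value read at the end -/
def val (D : J α V S) (q : List α × V) : V := D.act q.2 (D.φ q.1)

theorem val_run (hD : D.Ok) (w : List α) : ∀ P : List α, ∃ N : V, ∀ v : V,
    val D (run D.stp (P, v) w) = D.act v (D.φ (P ++ w)) + N := by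
  induction w with
  | nil => intro P; exact ⟨0, fun v => by simp [run, val]⟩
  | cons x w ih =>
    intro P
    cases h : D.nx (P ++ [x]) with
    | none =>
      obtain ⟨N, hN⟩ := ih (P ++ [x])
      refine ⟨N, fun v => ?_⟩
      have h2 : D.stp (P, v) x = (P ++ [x], v) := by simp only [J.stp, h]
      change val D (run D.stp (D.stp (P, v) x) w) = _
      rw [h2, hN v]
      simp
    | some t =>
      obtain ⟨N, hN⟩ := ih ((P ++ [x]).drop t)
      refine ⟨D.act (D.nu ((P ++ [x]).take t)) (D.φ ((P ++ [x]).drop t ++ w)) + N, fun v => ?_⟩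
      have h2 : D.stp (P, v) x = ((P ++ [x]).drop t,
          D.act v (D.φ ((P ++ [x]).take t)) + D.nu ((P ++ [x]).take t)) := by
        simp only [J.stp, h]
      change val D (run D.stp (D.stp (P, v) x) w) = _
      rw [h2, hN, hD.act_add, hD.act_mul, ← hD.φ_app]
      have e : (P ++ [x]).take t ++ ((P ++ [x]).drop t ++ w) = P ++ x :: w := by
        rw [← List.append_assoc, List.take_append_drop]; simp
      rw [e]
      abel

/-- **the joint**: `φ` is computed with height 2 on the class. -/
theorem main [Finite α] [Finite V] (hD : D.Ok) (s : S) :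
    ∃ E : Language α, H 2 E ∧ ∀ w, D.C w → (w ∈ E ↔ D.φ w = s) := by
  classical
  have key : ∀ v u : V, ∃ E : Language α, H 2 E ∧ ∀ w, D.C w →
      (w ∈ E ↔ val D (run D.stp ([], v) w) = u) := by
    intro v u
    obtain ⟨E, h1, h2⟩ := target hD ([], v) (nx_nil hD) (fun q => val D q = u)
    exact ⟨E, h1, fun w hw => h2 w (by simpa [Prom] using hw)⟩
  choose E hE1 hE2 using key
  have hzero : ∀ s : S, D.act 0 s = 0 := by
    intro s
    have := hD.act_add 0 0 s
    simpa using this
  refine ⟨({w | ∀ v : V, w ∈ ({w | ∃ u : V, w ∈ ({w | w ∈ E 0 u ∧ w ∈ E v (D.act v s + u)} :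
    Language α)} : Language α)} : Language α), ?_, ?_⟩
  · exact H.forall_fintype _ fun v => H.exists_fintype _ fun u =>
      H.inter (hE1 0 u) (hE1 v (D.act v s + u))
  · intro w hw
    obtain ⟨N, hN⟩ := val_run hD w []
    simp only [List.nil_append] at hN
    change (∀ v : V, ∃ u : V, w ∈ E 0 u ∧ w ∈ E v (D.act v s + u)) ↔ _
    constructor
    · intro h
      apply hD.faith
      intro v
      obtain ⟨u, h1, h2⟩ := h v
      rw [hE2 0 u w hw, hN, hzero, zero_add] at h1
      rw [hE2 v _ w hw, hN, ← h1] at h2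
      exact add_right_cancel h2
    · intro h v
      refine ⟨N, (hE2 0 N w hw).2 ?_, (hE2 v _ w hw).2 ?_⟩
      · rw [hN, hzero, zero_add]
      · rw [hN, h]

end Crest.Agent.R320.Joint_664
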