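import Mathlib

/-!
# Row 320: the joint on ALL words (helper68)

Left-looking walls, natural chain (block = up to the first wall at distance `≥ z`), scheme 1 =
any gadget of `UGI` form (772 #13437), scheme 2 = exact gadget (ExactR_237, `y = 1`).
Output = the two completeness statements of 608's `Core` (`compl1`, `compl2`).
-/

set_option autoImplicit false

namespace Crest.Agent.R320.Joint_68

/-- product of the letters -/
def pr {α S : Type} [Monoid S] (f : α → S) (w : List α) : S := (w.map f).prod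

structure Dat (α S V : Type) [Monoid S] [AddCommGroup V] where
  f : α → S
  act : V → S → V
  Wo : List α → Prop
  n : ℕ
  W : ℕ
  loc : ∀ P Q, n ≤ Q.length → (Wo (P ++ Q) ↔ Wo Q)
  len : ∀ P, Wo P → n ≤ P.length
  gap : ∀ P d, Wo P → 0 < d → d ≤ W → ¬ Wo (P.take (P.length - d))
  K : ℕ
  N1 : ℕ
  La : ℕ
  p0 : ℕ
  z : ℕ
  C0 : ℕ
  R : ℕ
  c : ℕ → ℕ
  BadT : ℕ → Prop
  hc : ∀ i j, i < j → j < K → c i < c j
  hsep : ∀ i j k l, i < K → j < K → k < K → l < K → i ≠ j → k ≠ l → (i, j) ≠ (k, l) →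
    c i + c l + 4 * N1 < c k + c j ∨ c k + c j + 4 * N1 < c i + c l
  hspoil : ∀ T, La ≤ T → ∀ s : Finset (ℕ × ℕ), (∀ x ∈ s, x.1 < K ∧ x.2 < K ∧ x.1 ≠ x.2 ∧
    BadT (T + c x.2 - c x.1)) → s.card ≤ C0
  lam : List α → Option V
  rho : List α → Option V
  nu : List α → V
  hlam : ∀ p v, lam p = some v → p.length ≤ N1
  hs1 : ∀ p q v r, lam p = some v → rho q = some r → La ≤ q.length →
    r = act v (pr f (p ++ q)) + nu (p ++ q)
  hc1 : ∀ u, La ≤ u.length → ¬ BadT u.length → ∀ v, ∃ p q, p ++ q = u ∧ lam p = some v ∧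
    (rho q).isSome
  lam2 : ℕ → List α → Option V
  rho2 : ℕ → List α → Option V
  nu2 : List α → V
  hs2 : ∀ k < K, ∀ (P Q : List α) (v b : V), P.length = c k → lam2 k P = some v →
    rho2 k Q = some b → b = act v (pr f (P ++ Q)) + nu2 (P ++ Q)
  hc2 : ∀ (u : List α) (v : V), (∀ k < K, c k ≤ u.length) →
    ∃ I : Finset ℕ, R ≤ I.card ∧ ∀ k ∈ I, k < K ∧ lam2 k (u.take (c k)) = some v ∧
      (rho2 k (u.drop (c k))).isSome
  hR : 2 * C0 + 2 ≤ R
  hcp : ∀ k < K, c k ≤ p0
  hcn : ∀ k < K, 0 < c k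
  hN0 : 0 < N1
  hz : 3 * p0 + 3 * N1 + n + La ≤ z
  hW : 4 * p0 + 4 * N1 + 4 ≤ W

namespace Dat

variable {α S V : Type} [Monoid S] [AddCommGroup V] (D : Dat α S V)

/-- blocks -/
def Z : Set (List α) := {X | D.z ≤ X.length ∧ D.Wo X ∧
  ∀ t, D.z ≤ t → t < X.length → ¬ D.Wo (X.take t)}

/-- the zone action (both noises) -/
def e (u : List α) (v : V) : V :=
  D.act (D.act v (pr D.f (u.take D.p0)) + D.nu2 (u.take D.p0)) (pr D.f (u.drop D.p0))
    + D.nu (u.drop D.p0)

/-- bad blocks -/
def Bad : Set (List α) := {u | (∃ t, D.z ≤ t + D.N1 ∧ t < D.z + D.N1 ∧ t ≤ u.length ∧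
  D.Wo (u.take t)) ∨ D.BadT (u.length - D.p0)}

def P1 (v : V) : Set (List α) := {p | D.p0 ≤ p.length ∧
  D.lam (p.drop D.p0) = some (D.act v (pr D.f (p.take D.p0)) + D.nu2 (p.take D.p0))}

def P2 (v : V) : Set (List α) := {p | ∃ k < D.K, p.length = D.c k ∧ D.lam2 k p = some v}

variable {D}

lemma shift (p p' r : List α) (s : ℕ) (hn : D.n ≤ s) (hs : s ≤ r.length) :
    D.Wo ((p ++ r).take (p.length + s)) ↔ D.Wo ((p' ++ r).take (p'.length + s)) := by
  rw [List.take_length_add_append, List.take_length_add_append]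
  have h : D.n ≤ (r.take s).length := by rw [List.length_take]; omega
  rw [D.loc _ _ h, D.loc _ _ h]

lemma gapP (w : List α) (s t : ℕ) (ht : t ≤ w.length) (hst : s < t) (h1 : D.Wo (w.take t))
    (h2 : D.Wo (w.take s)) : D.W < t - s := by
  by_contra hcon
  rw [not_lt] at hcon
  have hl : (w.take t).length = t := by rw [List.length_take]; omega
  have := D.gap (w.take t) (t - s) h1 (by omega) hcon
  rw [hl, List.take_take] at this
  apply this
  rwa [show min (t - (t - s)) t = s by omega]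

/-- the zones form a prefix code -/
lemma pcode {X Y : List α} (hX : X ∈ D.Z) (hY : Y ∈ D.Z) (h : X <+: Y) : X = Y := by
  obtain ⟨R, rfl⟩ := h
  by_contra hne
  have hR : R ≠ [] := by
    rintro rfl
    exact hne (by simp)
  have hR' : 0 < R.length := List.length_pos_iff.2 hR
  have := hY.2.2 X.length hX.1 (by rw [List.length_append]; omega)
  rw [List.take_left'] at this
  · exact this hX.2.1
  · rfl

lemma z_pos : 0 < D.z := by
  have := D.hz
  have := D.hN0
  omega

lemma compl1 (u : List α) (hu : u ∈ D.Z) (hb : u ∉ D.Bad) (v : V) :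
    ∃ p q, u = p ++ q ∧ p ∈ D.P1 v ∧
      ∀ v'', ∀ p'' ∈ D.P1 v'', p'' ++ q ∈ D.Z ∧ D.e (p'' ++ q) v'' = D.e u v := by
  obtain ⟨hz1, hwu, hzu⟩ := hu
  have hz := D.hz
  have hN0 := D.hN0
  have hE : ∀ t, D.z ≤ t + D.N1 → t < D.z + D.N1 → t ≤ u.length → ¬ D.Wo (u.take t) := by
    intro t h1 h2 h3 h4
    exact hb (Or.inl ⟨t, h1, h2, h3, h4⟩)
  have hB : ¬ D.BadT (u.length - D.p0) := fun h => hb (Or.inr h)
  have hlu : D.z + D.N1 ≤ u.length := by
    by_contra hcon
    apply hE u.length (by omega) (by omega) le_rfl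
    rwa [List.take_length]
  have hlY : (u.drop D.p0).length = u.length - D.p0 := by rw [List.length_drop]
  obtain ⟨P, Q, hPQ, hP, hQ⟩ := D.hc1 (u.drop D.p0) (by rw [hlY]; omega) (by rwa [hlY])
    (D.act v (pr D.f (u.take D.p0)) + D.nu2 (u.take D.p0))
  obtain ⟨b, hb'⟩ := Option.isSome_iff_exists.1 hQ
  have hPl := D.hlam P _ hP
  have hlen : P.length + Q.length = u.length - D.p0 := by
    rw [← hlY, ← hPQ, List.length_append]
  have hX1 : (u.take D.p0).length = D.p0 := by rw [List.length_take]; omega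
  have hval : ∀ (X1 P' : List α) (v' : V), X1.length = D.p0 →
      D.lam P' = some (D.act v' (pr D.f X1) + D.nu2 X1) →
      D.e (X1 ++ P' ++ Q) v' = b := by
    intro X1 P' v' h1 h2
    have h3 := D.hs1 P' Q _ b h2 hb' (by omega)
    unfold e
    rw [List.append_assoc, List.take_left' h1, List.drop_left' h1]
    exact h3.symm
  have hu' : u = (u.take D.p0 ++ P) ++ Q := by
    rw [List.append_assoc, hPQ, List.take_append_drop]
  refine ⟨u.take D.p0 ++ P, Q, hu', ⟨?_, ?_⟩, ?_⟩
  · rw [List.length_append]; omega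
  · rw [List.take_left' hX1, List.drop_left' hX1]
    exact hP
  · rintro v'' p'' ⟨h1, h2⟩
    have hl2 := D.hlam _ _ h2
    rw [List.length_drop] at hl2
    have hX1' : (p''.take D.p0).length = D.p0 := by rw [List.length_take]; omega
    have hp'' : p'' = p''.take D.p0 ++ p''.drop D.p0 := (List.take_append_drop _ _).symm
    constructor
    · -- block
      have hQn : D.n ≤ Q.length := by omega
      have hWQ : D.Wo Q := by
        rw [hu'] at hwu
        exact (D.loc _ _ hQn).1 hwu
      have hpl : (u.take D.p0 ++ P).length = D.p0 + P.length := by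
        rw [List.length_append, hX1]
      refine ⟨?_, (D.loc _ _ hQn).2 hWQ, ?_⟩
      · rw [List.length_append]; omega
      · intro t ht1 ht2 hwt
        rw [List.length_append] at ht2
        obtain ⟨s, rfl⟩ : ∃ s, t = p''.length + s := ⟨t - p''.length, by omega⟩
        have hs := (shift (D := D) p'' (u.take D.p0 ++ P) Q s (by omega) (by omega)).1 hwt
        rw [← hu', hpl] at hs
        by_cases h5 : D.p0 + P.length + s < D.z + D.N1
        · exact hE _ (by omega) h5 (by omega) hs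
        · exact hzu _ (by omega) (by omega) hs
    · rw [hp'', hval _ _ _ hX1' h2]
      conv_rhs => rw [hu']
      exact (hval _ _ _ hX1 hP).symm

/-- transfer of walls between the true text and a candidate text with the same right part -/
lemma tr (p p' r : List α) (t t' : ℕ) (htt : t + p'.length = t' + p.length)
    (hn : p.length + D.n ≤ t) (ht : t ≤ (p ++ r).length) :
    D.Wo ((p ++ r).take t) ↔ D.Wo ((p' ++ r).take t') := by
  rw [List.length_append] at ht
  obtain ⟨s, rfl⟩ : ∃ s, t = p.length + s := ⟨t - p.length, by omega⟩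
  obtain rfl : t' = p'.length + s := by omega
  exact shift p p' r s (by omega) (by omega)

/-- candidate `k'` is not bad when the cut is at place `k` of the text `w` -/
def NB (D : Dat α S V) (w : List α) (k k' : ℕ) : Prop :=
  (∀ t, t ≤ w.length → D.z + D.c k ≤ t + D.c k' + D.N1 → t + D.c k' < D.z + D.N1 + D.c k →
    ¬ D.Wo (w.take t)) ∧
  (∀ t, t ≤ w.length → D.z + D.c k ≤ t + D.c k' → D.Wo (w.take t) →
    (∀ t', t' < t → D.z + D.c k ≤ t' + D.c k' → ¬ D.Wo (w.take t')) →
    ¬ D.BadT (t + D.c k' - D.c k - D.p0))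

lemma count (u u' : List α) (hu : u ∈ D.Z) (hu' : u' ∈ D.Z) (I : Finset ℕ)
    (hI : ∀ k ∈ I, k < D.K) (hIc : 2 * D.C0 + 2 ≤ I.card) :
    ∃ k ∈ I, ∀ k' < D.K, k' ≠ k → NB D (u ++ u') k k' := by
  classical
  by_contra hcon
  push Not at hcon
  choose! g hg using hcon
  have hz := D.hz
  have hN0 := D.hN0
  have hW := D.hW
  set w := u ++ u' with hw
  have hlw : w.length = u.length + u'.length := by rw [hw, List.length_append]
  have hwu : D.Wo (w.take u.length) := by
    rw [hw, List.take_left' rfl]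
    exact hu.2.1
  have hww : D.Wo (w.take w.length) := by
    rw [List.take_length, hw]
    exact (D.loc _ _ (D.len _ hu'.2.1)).2 hu'.2.1
  have hu1 := hu.1
  have hu'1 := hu'.1
  have ex1 : ∃ t, D.z ≤ t + D.p0 ∧ D.Wo (w.take t) := ⟨u.length, by omega, hwu⟩
  obtain ⟨ht1, hwt1⟩ := Nat.find_spec ex1
  have hm1 : ∀ t, D.z ≤ t + D.p0 → D.Wo (w.take t) → Nat.find ex1 ≤ t :=
    fun t h1 h2 => Nat.find_min' ex1 ⟨h1, h2⟩
  have hle1 : Nat.find ex1 ≤ u.length := hm1 _ (by omega) hwu
  set t1 := Nat.find ex1 with ht1def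
  have ex2 : ∃ t, t1 < t ∧ D.Wo (w.take t) := ⟨w.length, by omega, hww⟩
  obtain ⟨ht2, hwt2⟩ := Nat.find_spec ex2
  have hm2 : ∀ t, t1 < t → D.Wo (w.take t) → Nat.find ex2 ≤ t :=
    fun t h1 h2 => Nat.find_min' ex2 ⟨h1, h2⟩
  have hle2 : Nat.find ex2 ≤ w.length := hm2 _ (by omega) hww
  set t2 := Nat.find ex2 with ht2def
  have hgap12 : D.W < t2 - t1 := gapP w t1 t2 hle2 ht2 hwt2 hwt1
  -- the three sets of pairs
  let prs := (Finset.range D.K ×ˢ Finset.range D.K).filter (fun x => x.1 ≠ x.2)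
  let SE := prs.filter (fun x => ∃ t, t ≤ w.length ∧ D.z + D.c x.1 ≤ t + D.c x.2 + D.N1 ∧
    t + D.c x.2 < D.z + D.N1 + D.c x.1 ∧ D.Wo (w.take t))
  let S1 := prs.filter (fun x => D.BadT (t1 - D.p0 + D.c x.2 - D.c x.1))
  let S2 := prs.filter (fun x => D.BadT (t2 - D.p0 + D.c x.2 - D.c x.1))
  have hprs : ∀ x ∈ prs, x.1 < D.K ∧ x.2 < D.K ∧ x.1 ≠ x.2 := by
    intro x hx
    obtain ⟨h1, h2⟩ := Finset.mem_filter.1 hx
    obtain ⟨h3, h4⟩ := Finset.mem_product.1 h1
    exact ⟨Finset.mem_range.1 h3, Finset.mem_range.1 h4, h2⟩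
  have c1 : S1.card ≤ D.C0 := by
    refine D.hspoil (t1 - D.p0) (by omega) S1 fun x hx => ?_
    obtain ⟨h1, h2⟩ := Finset.mem_filter.1 hx
    obtain ⟨h3, h4, h5⟩ := hprs x h1
    exact ⟨h3, h4, h5, h2⟩
  have c2 : S2.card ≤ D.C0 := by
    refine D.hspoil (t2 - D.p0) (by omega) S2 fun x hx => ?_
    obtain ⟨h1, h2⟩ := Finset.mem_filter.1 hx
    obtain ⟨h3, h4, h5⟩ := hprs x h1
    exact ⟨h3, h4, h5, h2⟩
  have cE : SE.card ≤ 1 := by
    rw [Finset.card_le_one]
    intro x hx y hy
    obtain ⟨hx1, t, ht, hta, htb, hwt⟩ := Finset.mem_filter.1 hx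
    obtain ⟨hy1, s, hs, hsa, hsb, hws⟩ := Finset.mem_filter.1 hy
    obtain ⟨x1, x2, x3⟩ := hprs x hx1
    obtain ⟨y1, y2, y3⟩ := hprs y hy1
    have a1 := D.hcp _ x1
    have a2 := D.hcp _ x2
    have a3 := D.hcp _ y1
    have a4 := D.hcp _ y2
    have hst : s = t := by
      rcases lt_trichotomy s t with h | h | h
      · have := gapP w s t ht h hwt hws
        omega
      · exact h
      · have := gapP w t s hs h hws hwt
        omega
    subst hst
    by_contra hne
    have := D.hsep x.1 x.2 y.1 y.2 x1 x2 y1 y2 x3 y3 hne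
    omega
  have hsub : I.image (fun k => (k, g k)) ⊆ SE ∪ (S1 ∪ S2) := by
    intro x hx
    obtain ⟨k, hk, rfl⟩ := Finset.mem_image.1 hx
    have hkK := hI k hk
    obtain ⟨h1, h2, h3⟩ := hg k hk
    have hp : (k, g k) ∈ prs := Finset.mem_filter.2 ⟨Finset.mem_product.2
      ⟨Finset.mem_range.2 hkK, Finset.mem_range.2 h1⟩, fun h => h2 h.symm⟩
    have a1 := D.hcp _ hkK
    have a2 := D.hcp _ h1
    unfold NB at h3
    rw [not_and_or] at h3
    rcases h3 with h3 | h3
    · push Not at h3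
      obtain ⟨t, b1, b2, b3, b4⟩ := h3
      exact Finset.mem_union_left _ (Finset.mem_filter.2 ⟨hp, t, b1, b2, b3, b4⟩)
    · push Not at h3
      obtain ⟨t, b1, b2, b3, b4, b5⟩ := h3
      apply Finset.mem_union_right
      have h6 : t1 ≤ t := hm1 t (by omega) b3
      rcases Nat.eq_or_lt_of_le h6 with h7 | h7
      · apply Finset.mem_union_left
        refine Finset.mem_filter.2 ⟨hp, ?_⟩
        show D.BadT (t1 - D.p0 + D.c (g k) - D.c k)
        rw [h7, show t - D.p0 + D.c (g k) - D.c k = t + D.c (g k) - D.c k - D.p0 by omega]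
        exact b5
      · apply Finset.mem_union_right
        refine Finset.mem_filter.2 ⟨hp, ?_⟩
        have h8 : t2 ≤ t := hm2 t h7 b3
        have h9 : t2 = t := by
          by_contra hne
          have h10 : t2 < t := by omega
          by_cases h11 : D.z + D.c k ≤ t2 + D.c (g k)
          · exact b4 t2 h10 h11 hwt2
          · omega
        show D.BadT (t2 - D.p0 + D.c (g k) - D.c k)
        rw [h9, show t - D.p0 + D.c (g k) - D.c k = t + D.c (g k) - D.c k - D.p0 by omega]
        exact b5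
  have hinj : (I.image (fun k => (k, g k))).card = I.card :=
    Finset.card_image_of_injective _ (fun a b h => (Prod.mk.inj h).1)
  have h20 := Finset.card_le_card hsub
  have h21 := Finset.card_union_le SE (S1 ∪ S2)
  have h22 := Finset.card_union_le S1 S2
  omega

/-- strong form: the first block of a wrong candidate text is not bad -/
lemma compl2s (u : List α) (hu : u ∈ D.Z) (u' : List α) (hu' : u' ∈ D.Z) (v : V) :
    ∃ p q, u = p ++ q ∧ p ∈ D.P2 v ∧ ∀ v'', ∀ p'' ∈ D.P2 v'',
      (∃ u1 ∈ D.Z, ∃ u2 ∈ D.Z, p'' ++ (q ++ u') = u1 ++ u2 ∧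
        D.e u2 (D.e u1 v'') = D.e u' (D.e u v)) ∨
      (∃ x2, x2 ∈ D.Z ∧ x2 ∉ D.Bad ∧ x2 <+: p'' ++ (q ++ u')) := by
  classical
  have hz := D.hz
  have hN0 := D.hN0
  have hW := D.hW
  have hu1 := hu.1
  have hu'1 := hu'.1
  have hX1 : (u.take D.p0).length = D.p0 := by rw [List.length_take]; omega
  obtain ⟨I, hIc, hI⟩ := D.hc2 (u.take D.p0) v (fun k hk => by rw [hX1]; exact D.hcp k hk)
  obtain ⟨k, hkI, hk⟩ := count u u' hu hu' I (fun k hk => (hI k hk).1) (D.hR.trans hIc)
  obtain ⟨hkK, hkl, hkr⟩ := hI k hkI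
  have hcp := D.hcp k hkK
  obtain ⟨b, hb⟩ := Option.isSome_iff_exists.1 hkr
  have htt : (u.take D.p0).take (D.c k) = u.take (D.c k) := by
    rw [List.take_take, min_eq_left hcp]
  have hlt : (u.take (D.c k)).length = D.c k := by rw [List.length_take]; omega
  have hld : (u.drop (D.c k)).length = u.length - D.c k := by rw [List.length_drop]
  rw [htt] at hkl
  have hup : u = u.take (D.c k) ++ u.drop (D.c k) := (List.take_append_drop _ _).symm
  -- value of the zone from any left word of scheme 2 at this place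
  have hval : ∀ (p'' : List α) (v'' : V), p''.length = D.c k → D.lam2 k p'' = some v'' →
      D.e (p'' ++ u.drop (D.c k)) v'' = D.act b (pr D.f (u.drop D.p0)) + D.nu (u.drop D.p0) := by
    intro p'' v'' h1 h2
    have h3 := D.hs2 k hkK p'' _ v'' b h1 h2 hb
    have h4 : (u.drop (D.c k)) = (u.take D.p0).drop (D.c k) ++ u.drop D.p0 := by
      conv_lhs => rw [← List.take_append_drop D.p0 u]
      rw [List.drop_append_of_le_length (by omega)]
    have h5 : (p'' ++ (u.take D.p0).drop (D.c k)).length = D.p0 := by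
      rw [List.length_append, List.length_drop]; omega
    unfold e
    rw [h4, ← List.append_assoc, List.take_left' h5, List.drop_left' h5, ← h3]
  refine ⟨u.take (D.c k), u.drop (D.c k), hup, ⟨k, hkK, hlt, hkl⟩, ?_⟩
  rintro v'' p'' ⟨k', hk'K, hl'', hlam''⟩
  have hcp' := D.hcp k' hk'K
  by_cases hkk : k' = k
  · subst hkk
    left
    refine ⟨p'' ++ u.drop (D.c k'), ⟨?_, ?_, ?_⟩, u', hu', by simp, ?_⟩
    · rw [List.length_append]; omega
    · have h1 : D.n ≤ (u.drop (D.c k')).length := by omega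
      refine (D.loc _ _ h1).2 ?_
      have := hu.2.1
      rw [hup] at this
      exact (D.loc _ _ h1).1 this
    · intro t ht1 ht2 hwt
      rw [List.length_append] at ht2
      have := (tr (D := D) p'' (u.take (D.c k')) (u.drop (D.c k')) t t (by omega) (by omega)
        (by rw [List.length_append]; omega)).1 hwt
      rw [← hup] at this
      exact hu.2.2 t ht1 (by omega) this
    · rw [hval p'' v'' hl'' hlam'']
      have := hval (u.take (D.c k')) v hlt hkl
      rw [← hup] at this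
      rw [this]
  · right
    have hNB := hk k' hk'K hkk
    set w'' := p'' ++ (u.drop (D.c k) ++ u') with hw''
    have hww : u ++ u' = u.take (D.c k) ++ (u.drop (D.c k) ++ u') := by
      rw [← List.append_assoc, List.take_append_drop]
    have hlw'' : w''.length = D.c k' + (u.length - D.c k) + u'.length := by
      rw [hw'', List.length_append, List.length_append, hl'', hld]; omega
    have hTr : ∀ t t', t + D.c k' = t' + D.c k → D.z ≤ t' + D.N1 → t' ≤ w''.length →
        (D.Wo ((u ++ u').take t) ↔ D.Wo (w''.take t')) := by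
      intro t t' h1 h2 h3
      rw [hww, hw'']
      refine tr _ _ _ t t' (by omega) (by omega) ?_
      rw [List.length_append, List.length_append, hlt, hld]
      omega
    have ex : ∃ t, D.z ≤ t ∧ D.Wo (w''.take t) := by
      refine ⟨w''.length, by omega, ?_⟩
      rw [List.take_length, hw'', ← List.append_assoc]
      exact (D.loc _ _ (D.len _ hu'.2.1)).2 hu'.2.1
    obtain ⟨ha, hb2⟩ := Nat.find_spec ex
    have hmin : ∀ t, t < Nat.find ex → D.z ≤ t → ¬ D.Wo (w''.take t) :=
      fun t h1 h2 h3 => Nat.find_min ex h1 ⟨h2, h3⟩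
    have hle : Nat.find ex ≤ w''.length := by
      refine Nat.find_min' ex ⟨by omega, ?_⟩
      rw [List.take_length, hw'', ← List.append_assoc]
      exact (D.loc _ _ (D.len _ hu'.2.1)).2 hu'.2.1
    set T := Nat.find ex with hT
    have hlT : (w''.take T).length = T := by rw [List.length_take]; omega
    refine ⟨w''.take T, ⟨by omega, hb2, ?_⟩, ?_, ?_⟩
    · intro t h1 h2
      rw [hlT] at h2
      rw [List.take_take, min_eq_left h2.le]
      exact hmin t h2 h1
    · rintro (⟨t, h1, h2, h3, h4⟩ | h)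
      · rw [hlT] at h3
        rw [List.take_take, min_eq_left h3] at h4
        have h5 := (hTr (t + D.c k - D.c k') t (by omega) (by omega) (by omega)).2 h4
        refine hNB.1 _ ?_ (by omega) (by omega) h5
        rw [List.length_append]; omega
      · rw [hlT] at h
        have h5 := (hTr (T + D.c k - D.c k') T (by omega) (by omega) (by omega)).2 hb2
        refine hNB.2 (T + D.c k - D.c k') ?_ (by omega) h5 ?_ ?_
        · rw [List.length_append]; omega
        · intro t' h6 h7 h8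
          have h9 := (hTr t' (t' + D.c k' - D.c k) (by omega) (by omega) (by omega)).1 h8
          exact hmin _ (by omega) (by omega) h9
        · rwa [show T + D.c k - D.c k' + D.c k' - D.c k - D.p0 = T - D.p0 by omega]
    · exact List.take_prefix _ _

lemma compl2 (u : List α) (hu : u ∈ D.Z) (u' : List α) (hu' : u' ∈ D.Z) (v : V) :
    ∃ p q, u = p ++ q ∧ p ∈ D.P2 v ∧ ∀ v'', ∀ p'' ∈ D.P2 v'',
      (∃ u1 ∈ D.Z, ∃ u2 ∈ D.Z, p'' ++ (q ++ u') = u1 ++ u2 ∧
        D.e u2 (D.e u1 v'') = D.e u' (D.e u v)) ∨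
      (∃ x1 x2, (x1 = [] ∨ x1 ∈ D.Z) ∧ x2 ∈ D.Z ∧ x2 ∉ D.Bad ∧
        x1 ++ x2 <+: p'' ++ (q ++ u')) := by
  obtain ⟨p, q, h1, h2, h3⟩ := compl2s u hu u' hu' v
  refine ⟨p, q, h1, h2, fun v'' p'' hp => ?_⟩
  rcases h3 v'' p'' hp with h | ⟨x2, h4, h5, h6⟩
  · exact Or.inl h
  · exact Or.inr ⟨[], x2, Or.inl rfl, h4, h5, h6⟩

end Dat

end Crest.Agent.R320.Joint_68
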