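import Mathlib

/-!
Row 320, joint for the semantic top (727): block code with left-looking walls of ALL words,
natural chain rule `first wall ≥ z`, scheme 1 = any gadget `lam1 rho1 nu1` on the block tail whose
bad set depends on the total length only (693 / 638), scheme 2 = exact gadget on the first `p0`
letters (237) + ruler.
-/

set_option autoImplicit false

namespace Crest.Agent.R320.Joint_762

variable {α S V : Type*}

/-- blocks: first wall at distance `≥ z` -/
def XX (W : List α → Prop) (z : ℕ) : Set (List α) :=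
  {X | z ≤ X.length ∧ W X ∧ ∀ t, z ≤ t → t < X.length → ¬ W (X.take t)}

def T [Add V] (ph : List α → S) (act : V → S → V) (p0 : ℕ) (nu1 nu2 : List α → V) (x : V)
    (X : List α) : V :=
  act (act x (ph (X.take p0)) + nu2 (X.take p0)) (ph (X.drop p0)) + nu1 (X.drop p0)

def L1 [Add V] (ph : List α → S) (act : V → S → V) (p0 : ℕ) (nu2 : List α → V)
    (lam1 : List α → Option V) (x : V) : Set (List α) :=
  {P | p0 ≤ P.length ∧ lam1 (P.drop p0) = some (act x (ph (P.take p0)) + nu2 (P.take p0))}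

def L2 (K : ℕ) (c : ℕ → ℕ) (lam2 : ℕ → List α → Option V) (x : V) : Set (List α) :=
  {P | ∃ k, k < K ∧ P.length = c k ∧ lam2 k P = some x}

def R1 (XX : Set (List α)) (T : V → List α → V) (L1 : V → Set (List α)) (y : V) : Set (List α) :=
  {Q | ∀ x, ∀ P ∈ L1 x, P ++ Q ∈ XX ∧ T x (P ++ Q) = y}

def Good (XX : Set (List α)) (T : V → List α → V) (L1 : V → Set (List α)) : Set (List α) :=
  {X | X ∈ XX ∧ ∀ x, ∃ P ∈ L1 x, ∃ Q ∈ R1 XX T L1 (T x X), P ++ Q = X}

def Bad (XX : Set (List α)) (T : V → List α → V) (L1 : V → Set (List α)) : Set (List α) :=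
  {X | X ∈ XX ∧ X ∉ Good XX T L1}

def R2 (XX : Set (List α)) (T : V → List α → V) (L1 L2 : V → Set (List α)) (y : V) :
    Set (List α) :=
  {Q | ∀ x, ∀ P ∈ L2 x,
    (∃ X1 ∈ Bad XX T L1, ∃ X2 ∈ Bad XX T L1, P ++ Q = X1 ++ X2 ∧ T (T x X1) X2 = y) ∨
    (∃ X ∈ Good XX T L1, X <+: P ++ Q) ∨
    (∃ X1 ∈ Bad XX T L1, ∃ X2 ∈ Good XX T L1, X1 ++ X2 <+: P ++ Q)}

/-- outer wall doubt -/
def E (W : List α → Prop) (z N : ℕ) (X : List α) : Prop :=
  ∃ t, t ≤ X.length ∧ W (X.take t) ∧ z ≤ t + N ∧ t ≤ z + N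

theorem take_add (P Q : List α) (s : ℕ) : (P ++ Q).take (P.length + s) = P ++ Q.take s := by
  rw [List.take_append]
  simp [List.take_of_length_le]

theorem W_shift {W : List α → Prop} {n : ℕ}
    (hloc : ∀ P Q : List α, n ≤ Q.length → (W (P ++ Q) ↔ W Q)) (P P' Q : List α) (s : ℕ)
    (hn : n ≤ s) (hs : s ≤ Q.length) :
    W ((P ++ Q).take (P.length + s)) ↔ W ((P' ++ Q).take (P'.length + s)) := by
  have h : n ≤ (Q.take s).length := by rw [List.length_take]; omega
  rw [take_add, take_add, hloc _ _ h, hloc _ _ h]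

structure Hyp [Add V] (ph : List α → S) (act : V → S → V) (W : List α → Prop)
    (n g z p0 N K C0 R : ℕ) (c : ℕ → ℕ) (lam1 rho1 : List α → Option V) (nu1 nu2 : List α → V)
    (bT : ℕ → Prop) (lam2 rho2 : ℕ → List α → Option V) : Prop where
  loc : ∀ P Q : List α, n ≤ Q.length → (W (P ++ Q) ↔ W Q)
  gap : ∀ (U : List α) (t t' : ℕ), t < t' → t' ≤ U.length → W (U.take t) → W (U.take t') →
    t + g ≤ t'
  g1 : ∀ P v, lam1 P = some v → P.length ≤ N
  g2 : ∀ P Q v b, lam1 P = some v → rho1 Q = some b → b = act v (ph (P ++ Q)) + nu1 (P ++ Q)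
  g3 : ∀ u : List α, N ≤ u.length → ¬ bT u.length → ∀ v, ∃ P Q, P ++ Q = u ∧ lam1 P = some v ∧
    (rho1 Q).isSome
  e1 : ∀ k, k < K → ∀ P Q v b, P.length = c k → lam2 k P = some v → rho2 k Q = some b →
    b = act v (ph (P ++ Q)) + nu2 (P ++ Q)
  e2 : ∀ (u : List α) (v : V), u.length = p0 → ∃ I : Finset ℕ, R ≤ I.card ∧ ∀ k ∈ I, k < K ∧
    lam2 k (u.take (c k)) = some v ∧ (rho2 k (u.drop (c k))).isSome
  c0 : ∀ k, k < K → c k ≤ p0
  r1 : ∀ k k' l l', k < K → k' < K → l < K → l' < K → k ≠ k' → l ≠ l' →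
    c k + c l' ≤ c l + c k' + 2 * N → c l + c k' ≤ c k + c l' + 2 * N → k = l
  r2 : ∀ t, z ≤ t + 2 * p0 → ∃ B : Finset ℕ, B.card ≤ C0 ∧
    ∀ k k', k < K → k' < K → k' ≠ k → bT (t + c k' - c k) → k ∈ B
  hR : 2 + 2 * C0 ≤ R
  hz : 3 * p0 + 2 * N + n + 1 ≤ z
  hg : 2 * N + 4 * p0 + 1 ≤ g

section

variable [Add V] {ph : List α → S} {act : V → S → V} {W : List α → Prop}
    {n g z p0 N K C0 R : ℕ} {c : ℕ → ℕ} {lam1 rho1 : List α → Option V} {nu1 nu2 : List α → V}
    {bT : ℕ → Prop} {lam2 rho2 : ℕ → List α → Option V}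

theorem good_of (h : Hyp ph act W n g z p0 N K C0 R c lam1 rho1 nu1 nu2 bT lam2 rho2)
    {X : List α} (hX : X ∈ XX W z) (hE : ¬ E W z N X) (hB : ¬ bT (X.length - p0)) :
    X ∈ Good (XX W z) (T ph act p0 nu1 nu2) (L1 ph act p0 nu2 lam1) := by
  obtain ⟨hz1, hW, hno⟩ := hX
  have hz' := h.hz
  have hlong : z + N < X.length := by
    by_contra hcon
    exact hE ⟨X.length, le_rfl, by rw [List.take_length]; exact hW, by omega, by omega⟩
  refine ⟨⟨hz1, hW, hno⟩, fun x => ?_⟩
  have hlY : (X.drop p0).length = X.length - p0 := List.length_drop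
  obtain ⟨P', Q, hPQ, hl, hr⟩ := h.g3 (X.drop p0) (by omega) (by rw [hlY]; exact hB)
    (act x (ph (X.take p0)) + nu2 (X.take p0))
  obtain ⟨b, hb⟩ := Option.isSome_iff_exists.1 hr
  have hP'N := h.g1 _ _ hl
  have hXeq : X.take p0 ++ (P' ++ Q) = X := by rw [hPQ, List.take_append_drop]
  have hl0 : (X.take p0).length = p0 := by rw [List.length_take]; omega
  have hlen : p0 + (P'.length + Q.length) = X.length := by
    have := congrArg List.length hXeq
    rw [List.length_append, List.length_append, hl0] at this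
    omega
  have hTb : ∀ x1 P1, P1 ∈ L1 ph act p0 nu2 lam1 x1 → T ph act p0 nu1 nu2 x1 (P1 ++ Q) = b := by
    rintro x1 P1 ⟨hp1, hl1⟩
    have := h.g2 _ _ _ _ hl1 hb
    have e1 : (P1 ++ Q).take p0 = P1.take p0 := List.take_append_of_le_length hp1
    have e2 : (P1 ++ Q).drop p0 = P1.drop p0 ++ Q := List.drop_append_of_le_length hp1
    unfold T
    rw [e1, e2, ← this]
  have hPL : X.take p0 ++ P' ∈ L1 ph act p0 nu2 lam1 x := by
    refine ⟨by rw [List.length_append, hl0]; omega, ?_⟩
    have e1 : (X.take p0 ++ P').drop p0 = P' := by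
      rw [List.drop_append_of_le_length (by omega), List.drop_of_length_le (by omega)]; rfl
    have e2 : (X.take p0 ++ P').take p0 = X.take p0 := by
      rw [List.take_append_of_le_length (by omega), List.take_of_length_le (by omega)]
    rw [e1, e2]; exact hl
  refine ⟨X.take p0 ++ P', hPL, Q, ?_, by rw [List.append_assoc]; exact hXeq⟩
  intro x1 P1 hP1
  have hTX : T ph act p0 nu1 nu2 x X = b := by
    have := hTb x _ hPL
    rwa [List.append_assoc, hXeq] at this
  refine ⟨?_, by rw [hTX]; exact hTb x1 P1 hP1⟩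
  obtain ⟨hp1, hl1⟩ := hP1
  have hN1 : P1.length ≤ p0 + N := by
    have := h.g1 _ _ hl1
    rw [List.length_drop] at this; omega
  set P : List α := X.take p0 ++ P' with hPdef
  have hPlen : P.length = p0 + P'.length := by rw [hPdef, List.length_append, hl0]
  have hXPQ : P ++ Q = X := by rw [hPdef, List.append_assoc]; exact hXeq
  refine ⟨by rw [List.length_append]; omega, ?_, ?_⟩
  · rw [h.loc _ _ (by omega), ← h.loc P Q (by omega), hXPQ]; exact hW
  · intro t ht1 ht2 hw
    rw [List.length_append] at ht2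
    obtain ⟨s, rfl⟩ : ∃ s, t = P1.length + s := ⟨t - P1.length, by omega⟩
    rw [W_shift h.loc P1 P Q s (by omega) (by omega), hXPQ] at hw
    by_cases h3 : z ≤ P.length + s
    · exact hno _ h3 (by omega) hw
    · exact hE ⟨P.length + s, by omega, hw, by omega, by omega⟩

theorem hC2 (h : Hyp ph act W n g z p0 N K C0 R c lam1 rho1 nu1 nu2 bT lam2 rho2)
    {X1 X2 : List α}
    (h1 : X1 ∈ Bad (XX W z) (T ph act p0 nu1 nu2) (L1 ph act p0 nu2 lam1))
    (h2 : X2 ∈ Bad (XX W z) (T ph act p0 nu1 nu2) (L1 ph act p0 nu2 lam1)) (x : V) :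
    ∃ P ∈ L2 K c lam2 x, ∃ Q ∈ R2 (XX W z) (T ph act p0 nu1 nu2) (L1 ph act p0 nu2 lam1)
      (L2 K c lam2) (T ph act p0 nu1 nu2 (T ph act p0 nu1 nu2 x X1) X2), P ++ Q = X1 ++ X2 := by
  classical
  obtain ⟨hz1, hW1, hno1⟩ := h1.1
  obtain ⟨hz2, hW2, hno2⟩ := h2.1
  have hz' := h.hz
  have hg' := h.hg
  set U : List α := X1 ++ X2 with hU
  have hUl : U.length = X1.length + X2.length := by rw [hU, List.length_append]
  have hUt : ∀ t, t ≤ X1.length → U.take t = X1.take t := fun t ht => by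
    rw [hU, List.take_append_of_le_length ht]
  -- first wall at distance ≥ z - p0
  have hex0 : ∃ t, z ≤ t + p0 ∧ t ≤ U.length ∧ W (U.take t) :=
    ⟨X1.length, by omega, by omega, by rw [hUt _ le_rfl, List.take_length]; exact hW1⟩
  obtain ⟨t0, ⟨ht0a, ht0b, ht0c⟩, ht0min⟩ : ∃ t0, (z ≤ t0 + p0 ∧ t0 ≤ U.length ∧ W (U.take t0)) ∧
      ∀ t, (z ≤ t + p0 ∧ t ≤ U.length ∧ W (U.take t)) → t0 ≤ t :=
    ⟨Nat.find hex0, Nat.find_spec hex0, fun t ht => Nat.find_min' hex0 ht⟩
  have ht01 : t0 ≤ X1.length :=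
    ht0min _ ⟨by omega, by omega, by rw [hUt _ le_rfl, List.take_length]; exact hW1⟩
  have hUend : W (U.take U.length) := by
    rw [List.take_length, hU, h.loc _ _ (by omega)]; exact hW2
  have hex1 : ∃ t, t0 < t ∧ t ≤ U.length ∧ W (U.take t) := ⟨U.length, by omega, le_rfl, hUend⟩
  obtain ⟨t1, ⟨ht1a, ht1b, ht1c⟩, ht1min⟩ : ∃ t1, (t0 < t1 ∧ t1 ≤ U.length ∧ W (U.take t1)) ∧
      ∀ t, (t0 < t ∧ t ≤ U.length ∧ W (U.take t)) → t1 ≤ t :=
    ⟨Nat.find hex1, Nat.find_spec hex1, fun t ht => Nat.find_min' hex1 ht⟩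
  have hgap01 := h.gap U t0 t1 ht1a ht1b ht0c ht1c
  -- exact gadget
  have hX0 : (X1.take p0).length = p0 := by rw [List.length_take]; omega
  obtain ⟨I, hIc, hI⟩ := h.e2 (X1.take p0) x hX0
  set A : Finset ℕ := (Finset.range K).filter (fun k => ∃ k', k' < K ∧ k' ≠ k ∧ ∃ t, t ≤ U.length ∧
    W (U.take t) ∧ z + c k ≤ t + c k' + N ∧ t + c k' ≤ z + c k + N) with hA
  have hAc : A.card ≤ 1 := by
    rw [Finset.card_le_one]
    intro k hk l hl
    rw [hA, Finset.mem_filter, Finset.mem_range] at hk hl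
    obtain ⟨hkK, k', hk'K, hkk, t, ht1, ht2, ht3, ht4⟩ := hk
    obtain ⟨hlK, l', hl'K, hll, s, hs1, hs2, hs3, hs4⟩ := hl
    have b1 := h.c0 k hkK
    have b2 := h.c0 k' hk'K
    have b3 := h.c0 l hlK
    have b4 := h.c0 l' hl'K
    have hts : t = s := by
      rcases lt_trichotomy t s with hlt | heq | hlt
      · have := h.gap U t s hlt hs1 ht2 hs2; omega
      · exact heq
      · have := h.gap U s t hlt ht1 hs2 ht2; omega
    subst hts
    exact h.r1 k k' l l' hkK hk'K hlK hl'K (Ne.symm hkk) (Ne.symm hll) (by omega) (by omega)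
  obtain ⟨B0, hB0c, hB0⟩ := h.r2 (t0 - p0) (by omega)
  obtain ⟨B1, hB1c, hB1⟩ := h.r2 (t1 - p0) (by omega)
  have hR := h.hR
  obtain ⟨k, hkI, hkn⟩ : ∃ k ∈ I, k ∉ A ∪ (B0 ∪ B1) := by
    by_contra hcon
    push Not at hcon
    have hle : I.card ≤ (A ∪ (B0 ∪ B1)).card := Finset.card_le_card fun k hk => hcon k hk
    have h3 := Finset.card_union_le A (B0 ∪ B1)
    have h4 := Finset.card_union_le B0 B1
    omega
  rw [Finset.mem_union, Finset.mem_union] at hkn
  push Not at hkn
  obtain ⟨hkA, hkB0, hkB1⟩ := hkn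
  obtain ⟨hkK, hlk, hrk⟩ := hI k hkI
  have hck := h.c0 k hkK
  have hPe : (X1.take p0).take (c k) = X1.take (c k) := by
    rw [List.take_take, min_eq_left hck]
  rw [hPe] at hlk
  obtain ⟨b, hb⟩ := Option.isSome_iff_exists.1 hrk
  have hPl : (X1.take (c k)).length = c k := by rw [List.length_take]; omega
  refine ⟨X1.take (c k), ⟨k, hkK, hPl, hlk⟩, X1.drop (c k) ++ X2, ?_, by
    rw [← List.append_assoc, List.take_append_drop]⟩
  have hUeq : X1.take (c k) ++ (X1.drop (c k) ++ X2) = U := by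
    rw [← List.append_assoc, List.take_append_drop]
  set Q : List α := X1.drop (c k) ++ X2 with hQ
  have hQl : Q.length = U.length - c k := by
    rw [hQ, List.length_append, List.length_drop]; omega
  rintro x' P' ⟨k', hk'K, hP'l, hlk'⟩
  have hck' := h.c0 k' hk'K
  by_cases hkk : k' = k
  · subst hkk
    -- same place
    set X1' : List α := P' ++ X1.drop (c k') with hX1'
    have hd : (X1.take p0).drop (c k') = (X1.drop (c k')).take (p0 - c k') := by
      rw [List.drop_take]
    have ht' : X1'.take p0 = P' ++ (X1.take p0).drop (c k') := by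
      rw [hd, hX1']
      have : p0 = P'.length + (p0 - c k') := by omega
      conv_lhs => rw [this]
      rw [take_add]
    have hd' : X1'.drop p0 = X1.drop p0 := by
      rw [hX1', List.drop_append, List.drop_of_length_le (by omega : P'.length ≤ p0),
        List.drop_drop, hP'l]
      simp only [List.nil_append]
      congr 1
      omega
    have hTT : T ph act p0 nu1 nu2 x' X1' = T ph act p0 nu1 nu2 x X1 := by
      have a1 := h.e1 k' hkK P' _ x' b hP'l hlk' hb
      have a2 := h.e1 k' hkK (X1.take (c k')) _ x b hPl hlk hb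
      have a3 : X1.take (c k') ++ (X1.take p0).drop (c k') = X1.take p0 := by
        rw [← hPe, List.take_append_drop]
      rw [a3] at a2
      unfold T
      rw [ht', hd', ← a1, ← a2]
    have hXX : X1' ∈ XX W z := by
      refine ⟨by rw [hX1', List.length_append, List.length_drop]; omega, ?_, ?_⟩
      · rw [hX1', h.loc _ _ (by rw [List.length_drop]; omega),
          ← h.loc (X1.take (c k')) _ (by rw [List.length_drop]; omega), List.take_append_drop]
        exact hW1
      · intro t ht1 ht2 hw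
        rw [hX1', List.length_append, List.length_drop] at ht2
        obtain ⟨s, rfl⟩ : ∃ s, t = P'.length + s := ⟨t - P'.length, by omega⟩
        rw [hX1', W_shift h.loc P' (X1.take (c k')) _ s (by omega)
          (by rw [List.length_drop]; omega), List.take_append_drop] at hw
        exact hno1 _ (by omega) (by omega) hw
    have hpre : P' ++ Q = X1' ++ X2 := by rw [hQ, hX1', List.append_assoc]
    by_cases hG : X1' ∈ Good (XX W z) (T ph act p0 nu1 nu2) (L1 ph act p0 nu2 lam1)
    · exact Or.inr (Or.inl ⟨X1', hG, ⟨X2, hpre.symm⟩⟩)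
    · exact Or.inl ⟨X1', ⟨hXX, hG⟩, X2, h2, hpre, by rw [hTT]⟩
  · -- other place
    refine Or.inr (Or.inl ?_)
    set e' : ℕ := if z + c k ≤ t0 + c k' then t0 else t1 with he'
    have he'0 : t0 ≤ e' ∧ e' ≤ U.length := by
      rw [he']; split_ifs <;> omega
    have he'W : W (U.take e') := by
      rw [he']; split_ifs
      · exact ht0c
      · exact ht1c
    have he'z : z + c k ≤ e' + c k' := by
      rw [he']; split_ifs with h5
      · exact h5
      · omega
    have hU'l : (P' ++ Q).length = c k' + (U.length - c k) := by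
      rw [List.length_append, hP'l, hQl]
    set X' : List α := (P' ++ Q).take (e' - c k + c k') with hX'
    have hX'l : X'.length = e' - c k + c k' := by
      rw [hX', List.length_take, hU'l]; omega
    have key : ∀ t, n + c k ≤ t → t ≤ U.length →
        (W ((P' ++ Q).take (t - c k + c k')) ↔ W (U.take t)) := by
      intro t ht1 ht2
      have := W_shift h.loc P' (X1.take (c k)) Q (t - c k) (by omega) (by omega)
      rw [hUeq, hP'l, hPl] at this
      rw [Nat.add_comm (t - c k) (c k'), this]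
      rw [show c k + (t - c k) = t by omega]
    have hX'XX : X' ∈ XX W z := by
      refine ⟨by omega, ?_, ?_⟩
      · rw [hX', key e' (by omega) he'0.2]; exact he'W
      · intro t ht1 ht2 hw
        rw [hX', List.take_take, min_eq_left (by omega)] at hw
        obtain ⟨s, hs, hs'⟩ : ∃ s, t = s - c k + c k' ∧ s + c k' = t + c k :=
          ⟨t + c k - c k', by omega, by omega⟩
        have hsle : s < e' := by omega
        rw [hs, key s (by omega) (by omega)] at hw
        have h6 : t0 ≤ s := ht0min s ⟨by omega, by omega, hw⟩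
        by_cases h7 : z + c k ≤ t0 + c k'
        · rw [he', if_pos h7] at hsle; omega
        · rw [he', if_neg h7] at hsle
          rcases Nat.eq_or_lt_of_le h6 with h8 | h8
          · omega
          · have := ht1min s ⟨h8, by omega, hw⟩
            omega
    refine ⟨X', good_of h hX'XX ?_ ?_, by rw [hX']; exact List.take_prefix _ _⟩
    · rintro ⟨t, ht1, hw, ht3, ht4⟩
      rw [hX', List.take_take, min_eq_left (by omega)] at hw
      obtain ⟨s, hs, hs'⟩ : ∃ s, t = s - c k + c k' ∧ s + c k' = t + c k :=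
        ⟨t + c k - c k', by omega, by omega⟩
      have hsle : s ≤ e' := by omega
      rw [hs, key s (by omega) (by omega)] at hw
      apply hkA
      rw [hA, Finset.mem_filter, Finset.mem_range]
      exact ⟨hkK, k', hk'K, hkk, s, by omega, hw, by omega, by omega⟩
    · intro hbad
      have hval : X'.length - p0 = (e' - p0) + c k' - c k := by omega
      rw [hval] at hbad
      by_cases h7 : z + c k ≤ t0 + c k'
      · apply hkB0
        rw [he', if_pos h7] at hbad
        exact hB0 k k' hkK hk'K hkk hbad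
      · apply hkB1
        rw [he', if_neg h7] at hbad
        exact hB1 k k' hkK hk'K hkk hbad

end

end Crest.Agent.R320.Joint_762
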