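import Crest.Agent.R320.Top5_110
import Crest.Agent.R320.WallU_36
import Crest.Agent.R320.ExactR_788

/-!
# Row 320: the all-words joint (helper788)

Natural chain of left-looking walls on all words, one token system, gadget 1 as a hypothesis
(`UGI`, literal of helper772), gadget 2 = `ExactR_788.exact_gadget`, top = `Top5_110.top_sem`.
-/

set_option autoImplicit false

namespace Crest.Agent.R320.Joint_788

open Crest.Agent.R320 Crest.Agent.R320.Hk_851 Crest.Agent.R320.Code110

universe u v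

variable {α : Type u}

/-- block code -/
def XX (Wo : List α → Prop) (z : ℕ) : Language α :=
  {X | z ≤ X.length ∧ Wo X ∧ ∀ t, z ≤ t → t < X.length → ¬ Wo (X.take t)}

theorem XX_pc {Wo : List α → Prop} {z : ℕ} (hz : 0 < z) : PC (XX Wo z) where
  ne := by
    intro h
    have := h.1
    simp at this; omega
  pf := by
    intro u hu v hv h
    obtain ⟨t, rfl⟩ := h
    by_cases ht : t = []
    · subst ht; simp
    · exfalso
      have hl : 0 < t.length := List.length_pos_iff.2 ht
      have := hv.2.2 u.length hu.1 (by rw [List.length_append]; omega)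
      rw [List.take_left'] at this
      · exact this hu.2.1
      · rfl

theorem wo_shift {Wo : List α → Prop} {n : ℕ}
    (hloc : ∀ P Q : List α, n ≤ Q.length → (Wo (P ++ Q) ↔ Wo Q)) (P R : List α) (s : ℕ)
    (hs : n ≤ s) (hsR : s ≤ R.length) : Wo ((P ++ R).take (P.length + s)) ↔ Wo (R.take s) := by
  rw [List.take_length_add_append]
  exact hloc P (R.take s) (by rw [List.length_take]; omega)

/-- walls of `P' ++ R` versus walls of `P ++ R` -/
theorem wo_swap {Wo : List α → Prop} {n : ℕ}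
    (hloc : ∀ P Q : List α, n ≤ Q.length → (Wo (P ++ Q) ↔ Wo Q)) (P P' R : List α) (t t' : ℕ)
    (ht : t' + P.length = t + P'.length) (hs : P.length + n ≤ t)
    (hsR : t ≤ P.length + R.length) : Wo ((P' ++ R).take t') ↔ Wo ((P ++ R).take t) := by
  obtain ⟨s, rfl⟩ : ∃ s, t = P.length + s := ⟨t - P.length, by omega⟩
  have e : t' = P'.length + s := by omega
  subst e
  rw [wo_shift hloc P' R s (by omega) (by omega), wo_shift hloc P R s (by omega) (by omega)]

/-- the first wall at a place `≥ z` gives a block -/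
theorem exists_block {Wo : List α → Prop} {z : ℕ} (w : List α) (t : ℕ) (h1 : z ≤ t)
    (h2 : t ≤ w.length) (h3 : Wo (w.take t)) :
    ∃ t1, z ≤ t1 ∧ t1 ≤ t ∧ w.take t1 ∈ XX Wo z := by
  classical
  have hex : ∃ t1, z ≤ t1 ∧ Wo (w.take t1) := ⟨t, h1, h3⟩
  have hle : Nat.find hex ≤ t := Nat.find_min' hex ⟨h1, h3⟩
  refine ⟨Nat.find hex, (Nat.find_spec hex).1, hle, ?_, (Nat.find_spec hex).2, ?_⟩
  · rw [List.length_take]
    have := (Nat.find_spec hex).1
    omega
  · intro s hs hs2 hw
    rw [List.length_take] at hs2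
    rw [List.take_take, min_eq_left (by omega)] at hw
    exact Nat.find_min hex (by omega) ⟨hs, hw⟩

/-- zone map -/
def TT {S V : Type*} [Monoid S] [AddCommGroup V] (φ : List α → S) (act : V → S → V) (p0 : ℕ)
    (nu2 nu1 : List α → V) (X : List α) (v : V) : V :=
  act (act v (φ (X.take p0)) + nu2 (X.take p0)) (φ (X.drop p0)) + nu1 (X.drop p0)

/-- bad blocks -/
def Bd (Wo : List α → Prop) (z N1 p0 : ℕ) (BadT : ℕ → Prop) : Language α :=
  {X | X ∈ XX Wo z ∧ ((∃ t, z ≤ t + N1 ∧ t < z + N1 ∧ t ≤ X.length ∧ Wo (X.take t)) ∨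
    BadT (X.length - p0))}

section joint

variable {S : Type v} {V : Type v} [Monoid S] [AddCommGroup V]

/-- left words of scheme 1 -/
def LL1 (φ : List α → S) (act : V → S → V) (p0 N1 : ℕ) (nu2 : List α → V)
    (lam : List α → Option V) (v : V) : Language α :=
  {P | p0 ≤ P.length ∧ P.length ≤ p0 + N1 ∧
    lam (P.drop p0) = some (act v (φ (P.take p0)) + nu2 (P.take p0))}

/-- left words of scheme 2 -/
def LL2 (K : ℕ) (c : ℕ → ℕ) (lam2 : ℕ → List α → Option V) (v : V) : Language α :=
  {P | ∃ k < K, P.length = c k ∧ lam2 k P = some v}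

theorem mem_exactly_one {Z : Language α} {τ : List α → V → V} {x y : V} {w : List α}
    (hw : w ∈ Z) (h : τ w x = y) : w ∈ Exactly Z τ 1 x y := by
  refine ⟨y, Language.mem_mul.2 ⟨w, ⟨hw, h⟩, [], ⟨rfl, rfl⟩, by simp⟩⟩

theorem mem_exactly_two {Z : Language α} {τ : List α → V → V} {x y : V} {w w' : List α}
    (hw : w ∈ Z) (hw' : w' ∈ Z) (h : τ w' (τ w x) = y) : w ++ w' ∈ Exactly Z τ 2 x y :=
  ⟨τ w x, Language.mem_mul.2 ⟨w, ⟨hw, rfl⟩, w', mem_exactly_one hw' h, rfl⟩⟩

theorem C1 {Wo : List α → Prop} {n z N1 p0 La : ℕ} {BadT : ℕ → Prop}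
    (hloc : ∀ P Q : List α, n ≤ Q.length → (Wo (P ++ Q) ↔ Wo Q))
    (hz : p0 + N1 + n + La ≤ z) {φ : List α → S} {act : V → S → V} {nu2 nu1 : List α → V}
    {lam rho : List α → Option V}
    (hlam : ∀ p v, lam p = some v → p.length ≤ N1)
    (hsound : ∀ p q v r, lam p = some v → rho q = some r → La ≤ q.length →
      r = act v (φ (p ++ q)) + nu1 (p ++ q))
    (hcomp : ∀ u, La ≤ u.length → ¬ BadT u.length → ∀ v, ∃ p q, p ++ q = u ∧ lam p = some v ∧
      (rho q).isSome) :
    ∀ u ∈ XX Wo z, u ∉ Bd Wo z N1 p0 BadT → ∀ x, ∀ t ∈ (XX Wo z) ^ 0, ∃ p q y,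
      u ++ t = p ++ q ∧ p ∈ LL1 φ act p0 N1 nu2 lam x ∧
      q ∈ Rsem (XX Wo z) (XX Wo z) (TT φ act p0 nu2 nu1) 0 (LL1 φ act p0 N1 nu2 lam) y := by
  intro u hu hb x t ht
  have ht' : t = [] := by simpa using ht
  subst ht'
  have hnE : ∀ t, z ≤ t + N1 → t < z + N1 → t ≤ u.length → ¬ Wo (u.take t) := by
    intro t h1 h2 h3 h4
    exact hb ⟨hu, Or.inl ⟨t, h1, h2, h3, h4⟩⟩
  have hnB : ¬ BadT (u.length - p0) := fun h => hb ⟨hu, Or.inr h⟩
  have hul : z + N1 ≤ u.length := by
    by_contra hlt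
    have h := hnE u.length (by have := hu.1; omega) (by omega) le_rfl
    rw [List.take_length] at h
    exact h hu.2.1
  obtain ⟨p, q, e, h1, h2⟩ := hcomp (u.drop p0) (by rw [List.length_drop]; omega)
    (by rw [List.length_drop]; exact hnB) (act x (φ (u.take p0)) + nu2 (u.take p0))
  obtain ⟨r, hr⟩ := Option.isSome_iff_exists.1 h2
  have hp := hlam p _ h1
  have hl1 : (u.take p0).length = p0 := by rw [List.length_take]; omega
  have hul2 : u.length - p0 = p.length + q.length := by
    have := congrArg List.length e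
    rw [List.length_append, List.length_drop] at this
    omega
  have hu' : u = (u.take p0 ++ p) ++ q := by
    rw [List.append_assoc, e, List.take_append_drop]
  refine ⟨u.take p0 ++ p, q, r, by rw [List.append_nil]; exact hu', ⟨?_, ?_, ?_⟩, ?_⟩
  · rw [List.length_append]; omega
  · rw [List.length_append]; omega
  · rw [List.drop_left' hl1, List.take_left' hl1]
    exact h1
  · intro x' P' hP'
    obtain ⟨g1, g2, g3⟩ := hP'
    left
    have hq1 : z ≤ p0 + q.length := by omega
    have hPl : (u.take p0 ++ p).length = p0 + p.length := by rw [List.length_append, hl1]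
    refine mem_exactly_one ⟨?_, ?_, ?_⟩ ?_
    · rw [List.length_append]; omega
    · rw [hloc P' q (by omega)]
      have h := hu.2.1
      rw [hu', hloc _ q (by omega)] at h
      exact h
    · intro t ht1 ht2 hw
      rw [List.length_append] at ht2
      obtain ⟨t2, ht⟩ : ∃ t2, t2 + P'.length = t + (u.take p0 ++ p).length :=
        ⟨t + (u.take p0 ++ p).length - P'.length, by omega⟩
      have hsw := wo_swap hloc (u.take p0 ++ p) P' q t2 t (by omega) (by omega) (by omega)
      rw [hsw, ← hu'] at hw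
      by_cases hc : z ≤ t2
      · exact hu.2.2 t2 hc (by omega) hw
      · exact hnE t2 (by omega) (by omega) (by omega) hw
    · have e1 : (P' ++ q).take p0 = P'.take p0 := List.take_append_of_le_length g1
      have e2 : (P' ++ q).drop p0 = P'.drop p0 ++ q := List.drop_append_of_le_length g1
      show act (act x' (φ ((P' ++ q).take p0)) + nu2 ((P' ++ q).take p0))
        (φ ((P' ++ q).drop p0)) + nu1 ((P' ++ q).drop p0) = r
      rw [e1, e2]
      exact (hsound _ _ _ _ g3 hr (by omega)).symm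

open Classical in
theorem spoil (K C0 N1 : ℕ) (c : ℕ → ℕ) (BadT : ℕ → Prop) (La z A B : ℕ)
    (hgol : ∀ i j k l, i < K → j < K → k < K → l < K → i ≠ j → k ≠ l → (i, j) ≠ (k, l) →
      c i + c l + 4 * N1 < c k + c j ∨ c k + c j + 4 * N1 < c i + c l)
    (hthin : ∀ T, La ≤ T → ((Finset.range K ×ˢ Finset.range K).filter
      (fun p : ℕ × ℕ => p.1 ≠ p.2 ∧ BadT (T + c p.2 - c p.1))).card ≤ C0)
    (p0 : ℕ) (hA : La + p0 ≤ A) (hB : La + p0 ≤ B) :
    ((Finset.range K).filter (fun k => ∃ k' < K, k ≠ k' ∧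
      ((A + c k' ≤ z + c k + N1 ∧ z + c k ≤ A + c k' + N1) ∨
        BadT (A - p0 + c k' - c k) ∨ BadT (B - p0 + c k' - c k)))).card ≤ 1 + 2 * C0 := by
  set F1 := (Finset.range K ×ˢ Finset.range K).filter
    (fun p : ℕ × ℕ => p.1 ≠ p.2 ∧ (A + c p.2 ≤ z + c p.1 + N1 ∧ z + c p.1 ≤ A + c p.2 + N1)) with hF1
  set F2 := (Finset.range K ×ˢ Finset.range K).filter
    (fun p : ℕ × ℕ => p.1 ≠ p.2 ∧ BadT (A - p0 + c p.2 - c p.1)) with hF2
  set F3 := (Finset.range K ×ˢ Finset.range K).filter
    (fun p : ℕ × ℕ => p.1 ≠ p.2 ∧ BadT (B - p0 + c p.2 - c p.1)) with hF3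
  have c1 : F1.card ≤ 1 := by
    rw [Finset.card_le_one]
    rintro ⟨i, j⟩ h1 ⟨k, l⟩ h2
    rw [hF1, Finset.mem_filter, Finset.mem_product, Finset.mem_range, Finset.mem_range] at h1 h2
    obtain ⟨⟨a1, a2⟩, a3, a4, a5⟩ := h1
    obtain ⟨⟨b1, b2⟩, b3, b4, b5⟩ := h2
    by_contra hne
    simp only at a1 a2 a3 a4 a5 b1 b2 b3 b4 b5
    rcases hgol i j k l a1 a2 b1 b2 a3 b3 hne with h | h <;> omega
  have c2 : F2.card ≤ C0 := hthin _ (by omega)
  have c3 : F3.card ≤ C0 := hthin _ (by omega)
  have hsub : ((Finset.range K).filter (fun k => ∃ k' < K, k ≠ k' ∧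
      ((A + c k' ≤ z + c k + N1 ∧ z + c k ≤ A + c k' + N1) ∨
        BadT (A - p0 + c k' - c k) ∨ BadT (B - p0 + c k' - c k)))) ⊆
      (F1 ∪ (F2 ∪ F3)).image Prod.fst := by
    intro k hk
    rw [Finset.mem_filter, Finset.mem_range] at hk
    obtain ⟨hk, k', hk', hne, h⟩ := hk
    rw [Finset.mem_image]
    refine ⟨(k, k'), ?_, rfl⟩
    have hm : (k, k') ∈ Finset.range K ×ˢ Finset.range K := by
      rw [Finset.mem_product, Finset.mem_range, Finset.mem_range]; exact ⟨hk, hk'⟩
    rw [Finset.mem_union, Finset.mem_union]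
    rcases h with h | h | h
    · exact Or.inl (Finset.mem_filter.2 ⟨hm, hne, h⟩)
    · exact Or.inr (Or.inl (Finset.mem_filter.2 ⟨hm, hne, h⟩))
    · exact Or.inr (Or.inr (Finset.mem_filter.2 ⟨hm, hne, h⟩))
  calc _ ≤ ((F1 ∪ (F2 ∪ F3)).image Prod.fst).card := Finset.card_le_card hsub
    _ ≤ (F1 ∪ (F2 ∪ F3)).card := Finset.card_image_le
    _ ≤ F1.card + (F2 ∪ F3).card := Finset.card_union_le _ _
    _ ≤ F1.card + (F2.card + F3.card) := Nat.add_le_add_left (Finset.card_union_le _ _) _
    _ ≤ 1 + 2 * C0 := by omega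

theorem C2 {Wo : List α → Prop} {n z N1 p0 La W K C0 : ℕ} {BadT : ℕ → Prop} {c : ℕ → ℕ}
    (hloc : ∀ P Q : List α, n ≤ Q.length → (Wo (P ++ Q) ↔ Wo Q))
    (hgap : ∀ (P : List α) (d : ℕ), Wo P → 0 < d → d ≤ W → ¬ Wo (P.take (P.length - d)))
    (hz : 2 * p0 + 2 * N1 + n + La + 1 ≤ z) (hW : 2 * p0 + 2 * N1 ≤ W)
    (hcp : ∀ k < K, c k ≤ p0)
    (hgol : ∀ i j k l, i < K → j < K → k < K → l < K → i ≠ j → k ≠ l → (i, j) ≠ (k, l) →
      c i + c l + 4 * N1 < c k + c j ∨ c k + c j + 4 * N1 < c i + c l)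
    (hspoil : ∀ A B, La + p0 ≤ A → La + p0 ≤ B → ∃ Sp : Finset ℕ, Sp.card ≤ 1 + 2 * C0 ∧
      ∀ k < K, k ∉ Sp → ∀ k' < K, k ≠ k' →
      ¬ ((A + c k' ≤ z + c k + N1 ∧ z + c k ≤ A + c k' + N1) ∨
        BadT (A - p0 + c k' - c k) ∨ BadT (B - p0 + c k' - c k)))
    {φ : List α → S} {act : V → S → V} {nu2 nu1 : List α → V}
    {lam2 rho2 : ℕ → List α → Option V}
    (hs2 : ∀ k < K, ∀ (P Q : List α) (v b : V), P.length = c k → lam2 k P = some v →
      rho2 k Q = some b → b = act v (φ (P ++ Q)) + nu2 (P ++ Q))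
    (hc2 : ∀ (u : List α) (v : V), (∀ k < K, c k ≤ u.length) → ∃ I : Finset ℕ,
      2 * C0 + 2 ≤ I.card ∧ ∀ k ∈ I, k < K ∧ lam2 k (u.take (c k)) = some v ∧
        (rho2 k (u.drop (c k))).isSome) :
    ∀ u ∈ Bd Wo z N1 p0 BadT, ∀ x, ∀ t ∈ (Bd Wo z N1 p0 BadT) ^ 1, ∃ p q y,
      u ++ t = p ++ q ∧ p ∈ LL2 K c lam2 x ∧
      q ∈ Rsem (XX Wo z) (Bd Wo z N1 p0 BadT) (TT φ act p0 nu2 nu1) 1 (LL2 K c lam2) y := by
  classical
  intro u hu x t ht
  rw [pow_one] at ht
  have huX := hu.1
  have htX := ht.1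
  have hul := huX.1
  have htl := htX.1
  have hwl : (u ++ t).length = u.length + t.length := List.length_append
  have hwu : Wo ((u ++ t).take u.length) := by rw [List.take_left' rfl]; exact huX.2.1
  have hww : Wo (u ++ t) := (hloc u t (by omega)).2 htX.2.1
  -- the walls near `z`
  have hex0 : ∃ s, z ≤ s + p0 + N1 ∧ Wo ((u ++ t).take s) := ⟨u.length, by omega, hwu⟩
  obtain ⟨A, hA1, hA2, hA3, hA4⟩ : ∃ A, z ≤ A + p0 + N1 ∧ Wo ((u ++ t).take A) ∧ A ≤ u.length ∧
      ∀ s, z ≤ s + p0 + N1 → Wo ((u ++ t).take s) → A ≤ s :=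
    ⟨Nat.find hex0, (Nat.find_spec hex0).1, (Nat.find_spec hex0).2,
      Nat.find_min' hex0 ⟨by omega, hwu⟩, fun s h1 h2 => Nat.find_min' hex0 ⟨h1, h2⟩⟩
  have hex1 : ∃ s, A < s ∧ Wo ((u ++ t).take s) :=
    ⟨(u ++ t).length, by omega, by rw [List.take_length]; exact hww⟩
  obtain ⟨B, hB1, hB2, hB3, hB4⟩ : ∃ B, A < B ∧ Wo ((u ++ t).take B) ∧ B ≤ (u ++ t).length ∧
      ∀ s, A < s → Wo ((u ++ t).take s) → B ≤ s :=
    ⟨Nat.find hex1, (Nat.find_spec hex1).1, (Nat.find_spec hex1).2,
      Nat.find_min' hex1 ⟨by omega, by rw [List.take_length]; exact hww⟩,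
      fun s h1 h2 => Nat.find_min' hex1 ⟨h1, h2⟩⟩
  have hAB : A + W < B := by
    by_contra hle
    have h := hgap ((u ++ t).take B) (B - A) hB2 (by omega) (by omega)
    rw [List.length_take, min_eq_left hB3, show B - (B - A) = A by omega, List.take_take,
      min_eq_left (by omega)] at h
    exact h hA2
  obtain ⟨Sp, hSp1, hSp2⟩ := hspoil A B (by omega) (by omega)
  have hl1 : (u.take p0).length = p0 := by rw [List.length_take]; omega
  obtain ⟨I, hI1, hI2⟩ := hc2 (u.take p0) x (fun k hk => by rw [hl1]; exact hcp k hk)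
  obtain ⟨k, hkI, hkS⟩ : ∃ k ∈ I, k ∉ Sp := by
    by_contra hno
    push Not at hno
    have := Finset.card_le_card (fun k hk => hno k hk : I ⊆ Sp)
    omega
  obtain ⟨hkK, hk1, hk2⟩ := hI2 k hkI
  obtain ⟨b0, hb0⟩ := Option.isSome_iff_exists.1 hk2
  have hck := hcp k hkK
  have e1 : (u.take p0).take (c k) = u.take (c k) := by rw [List.take_take, min_eq_left hck]
  rw [e1] at hk1
  have hPk : (u.take (c k)).length = c k := by rw [List.length_take]; omega
  -- value at `p0`
  have hval : b0 = act x (φ (u.take p0)) + nu2 (u.take p0) := by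
    have h := hs2 k hkK (u.take (c k)) ((u.take p0).drop (c k)) x b0 hPk hk1 hb0
    have e2 : u.take (c k) ++ (u.take p0).drop (c k) = u.take p0 := by
      rw [← e1, List.take_append_drop]
    rw [e2] at h; exact h
  have ewk : u ++ t = u.take (c k) ++ (u.drop (c k) ++ t) := by
    rw [← List.append_assoc, List.take_append_drop]
  refine ⟨u.take (c k), u.drop (c k) ++ t, TT φ act p0 nu2 nu1 t (TT φ act p0 nu2 nu1 u x),
    ewk, ⟨k, hkK, hPk, hk1⟩, ?_⟩
  rintro x' P' ⟨k', hk'K, hP'l, hP'v⟩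
  have hck' := hcp k' hk'K
  have hRl : (u.drop (c k) ++ t).length + c k = u.length + t.length := by
    rw [List.length_append, List.length_drop]; omega
  by_cases hkk : k = k'
  · -- the true place
    subst hkk
    left
    have e3 : P' ++ (u.drop (c k) ++ t) = (P' ++ u.drop (c k)) ++ t := by rw [List.append_assoc]
    rw [e3]
    have hu'l : (P' ++ u.drop (c k)).length = u.length := by
      rw [List.length_append, List.length_drop]; omega
    have hdl : (u.drop (c k)).length = u.length - c k := List.length_drop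
    have htr : ∀ s, z ≤ s + N1 → s ≤ u.length →
        (Wo ((P' ++ u.drop (c k)).take s) ↔ Wo (u.take s)) := by
      intro s h1 h2
      have h := wo_swap hloc (u.take (c k)) P' (u.drop (c k)) s s (by omega) (by omega) (by omega)
      rw [List.take_append_drop] at h
      exact h
    have hX' : P' ++ u.drop (c k) ∈ XX Wo z := by
      refine ⟨by omega, ?_, ?_⟩
      · have h := htr u.length (by omega) le_rfl
        rw [List.take_length, List.take_of_length_le (by omega)] at h
        exact h.2 huX.2.1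
      · intro s h1 h2 h3
        rw [hu'l] at h2
        exact huX.2.2 s h1 h2 ((htr s (by omega) (by omega)).1 h3)
    have hB' : P' ++ u.drop (c k) ∈ Bd Wo z N1 p0 BadT := by
      refine ⟨hX', ?_⟩
      rcases hu.2 with ⟨s, h1, h2, h3, h4⟩ | h
      · exact Or.inl ⟨s, h1, h2, by omega, (htr s h1 h3).2 h4⟩
      · right; rw [hu'l]; exact h
    refine mem_exactly_two hB' ht ?_
    congr 1
    have hRk : u.drop (c k) = (u.take p0).drop (c k) ++ u.drop p0 := by
      conv_lhs => rw [← List.take_append_drop p0 u]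
      rw [List.drop_append_of_le_length (by omega)]
    have hl3 : (P' ++ (u.take p0).drop (c k)).length = p0 := by
      rw [List.length_append, List.length_drop]; omega
    have e4 : P' ++ u.drop (c k) = (P' ++ (u.take p0).drop (c k)) ++ u.drop p0 := by
      rw [List.append_assoc, ← hRk]
    have h5 := hs2 k hkK P' ((u.take p0).drop (c k)) x' b0 hP'l hP'v hb0
    show act (act x' (φ ((P' ++ u.drop (c k)).take p0)) + nu2 ((P' ++ u.drop (c k)).take p0))
        (φ ((P' ++ u.drop (c k)).drop p0)) + nu1 ((P' ++ u.drop (c k)).drop p0) =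
      act (act x (φ (u.take p0)) + nu2 (u.take p0)) (φ (u.drop p0)) + nu1 (u.drop p0)
    rw [e4, List.take_left' hl3, List.drop_left' hl3, ← h5, hval]
  · -- a wrong place: the block there is good
    right
    left
    have hns := hSp2 k hkK hkS k' hk'K hkk
    set w' := P' ++ (u.drop (c k) ++ t) with hw'
    have hw'l : w'.length + c k = c k' + (u.length + t.length) := by
      rw [hw', List.length_append]; omega
    -- walls of `w'`
    have htr : ∀ s s', s' + c k = s + c k' → c k + n ≤ s → s ≤ u.length + t.length →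
        (Wo (w'.take s') ↔ Wo ((u ++ t).take s)) := by
      intro s s' h1 h2 h3
      have h := wo_swap hloc (u.take (c k)) P' (u.drop (c k) ++ t) s s'
        (by rw [hPk, hP'l]; exact h1) (by rw [hPk]; exact h2) (by rw [hPk]; omega)
      rw [← ewk] at h
      exact h
    have hwall : Wo (w'.take w'.length) := by
      rw [htr (u.length + t.length) w'.length (by omega) (by omega) le_rfl, ← hwl,
        List.take_length]
      exact hww
    obtain ⟨t1, h1, h2, h3⟩ := exists_block (z := z) w' w'.length (by omega) le_rfl hwall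
    refine ⟨w'.take t1, h3, ?_, List.take_prefix _ _⟩
    intro hbad
    apply hns
    have ht1l : (w'.take t1).length = t1 := by rw [List.length_take]; omega
    rcases hbad.2 with ⟨s', g1, g2, g3, g4⟩ | g
    · -- (E)
      left
      rw [ht1l] at g3
      rw [List.take_take, min_eq_left g3] at g4
      obtain ⟨s, hs⟩ : ∃ s, s' + c k = s + c k' := ⟨s' + c k - c k', by omega⟩
      rw [htr s s' hs (by omega) (by omega)] at g4
      have hAs := hA4 s (by omega) g4
      have hsA : s = A := by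
        by_contra hne
        have := hB4 s (by omega) g4
        omega
      subst hsA
      constructor <;> omega
    · -- (B)
      right
      rw [ht1l] at g
      obtain ⟨s, hs⟩ : ∃ s, t1 + c k = s + c k' := ⟨t1 + c k - c k', by omega⟩
      have hsw : Wo ((u ++ t).take s) := by
        rw [← htr s t1 hs (by omega) (by omega)]
        exact h3.2.1
      have hAs := hA4 s (by omega) hsw
      by_cases hsA : s = A
      · left
        have : A - p0 + c k' - c k = t1 - p0 := by omega
        rw [this]; exact g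
      · right
        have hBs := hB4 s (by omega) hsw
        have hsB : s = B := by
          by_contra hne
          obtain ⟨B', hB'⟩ : ∃ B', B' + c k = B + c k' := ⟨B + c k' - c k, by omega⟩
          have hw2 : Wo (w'.take B') := by
            rw [htr B B' hB' (by omega) (by omega)]; exact hB2
          have h5 := h3.2.2 B' (by omega) (by rw [ht1l]; omega)
          rw [List.take_take, min_eq_left (by omega)] at h5
          exact h5 hw2
        have : B - p0 + c k' - c k = t1 - p0 := by omega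
        rw [this]; exact g

end joint

end Crest.Agent.R320.Joint_788
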