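import Crest.Agent.R320.Top5_120
import Crest.Agent.R320.Core1_922

/-!
# Row 320: the joint (helper819)

From two abstract gadgets on words, a ruler and left-looking walls on ALL words to the two
completeness statements of `Top5_120.top5`.
-/

set_option autoImplicit false
set_option linter.unusedVariables false

namespace Crest.Agent.R320.Joint_819

open Crest.Agent.R320.Core1_922 Finset

variable {α S V : Type*}

/-- natural chain: the blocks -/
def XX (Wo : List α → Prop) (z : ℕ) : Set (List α) :=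
  {X | z ≤ X.length ∧ Wo X ∧ ∀ t, z ≤ t → t < X.length → ¬ Wo (X.take t)}

/-- a wall near `z` -/
def EE (Wo : List α → Prop) (z N1 : ℕ) (X : List α) : Prop :=
  ∃ t, t ≤ X.length ∧ z ≤ t + N1 ∧ t < z + N1 ∧ Wo (X.take t)

/-- the bad blocks -/
def BB (Wo : List α → Prop) (z N1 p0 : ℕ) (BT : ℕ → Prop) : Set (List α) :=
  {X | X ∈ XX Wo z ∧ (EE Wo z N1 X ∨ BT (X.length - p0))}

theorem wall_shift {Wo : List α → Prop} {n : ℕ} (hW : LW n Wo) (P Q : List α) (s : ℕ)
    (h1 : n ≤ s) (h2 : s ≤ Q.length) :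
    Wo ((P ++ Q).take (P.length + s)) ↔ Wo (Q.take s) := by
  rw [List.take_length_add_append]
  exact hW.app P (Q.take s) (by rw [List.length_take]; omega)

theorem wall_two {Wo : List α → Prop} {n : ℕ} (hW : LW n Wo) (P P' Q : List α) (t t' : ℕ)
    (h1 : P.length + n ≤ t) (h2 : t ≤ P.length + Q.length) (h3 : t + P'.length = t' + P.length) :
    Wo ((P ++ Q).take t) ↔ Wo ((P' ++ Q).take t') := by
  obtain ⟨s, rfl⟩ := Nat.exists_eq_add_of_le (show P.length ≤ t by omega)
  have : t' = P'.length + s := by omega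
  subst this
  rw [wall_shift hW P Q s (by omega) (by omega), wall_shift hW P' Q s (by omega) (by omega)]

/-- `XX` is a prefix code -/
theorem pcode {Wo : List α → Prop} {z : ℕ} (hz : 0 < z) : Blk467.PCode (XX Wo z) := by
  constructor
  · intro h
    have := h.1
    simp at this
    omega
  · rintro X ⟨h1, h2, h3⟩ Y ⟨g1, g2, g3⟩ ⟨R, rfl⟩
    by_contra hne
    have hR : R ≠ [] := by
      rintro rfl
      simp at hne
    have hl : 0 < R.length := List.length_pos_iff.2 hR
    exact g3 X.length h1 (by rw [List.length_append]; omega) (by rw [List.take_left']; exacts [h2, rfl])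

variable [Monoid S] [AddCommGroup V]

/-- the zone map -/
def TT (φ : α → S) (act : V → S → V) (p0 : ℕ) (nu2 nu1 : List α → V) (v : V) (X : List α) : V :=
  act (act v ((X.take p0).map φ).prod + nu2 (X.take p0)) ((X.drop p0).map φ).prod +
    nu1 (X.drop p0)

/-- left words of scheme 1 -/
def L1 (φ : α → S) (act : V → S → V) (p0 : ℕ) (nu2 : List α → V) (lam : List α → Option V)
    (v : V) : Set (List α) :=
  {P | p0 ≤ P.length ∧
    lam (P.drop p0) = some (act v ((P.take p0).map φ).prod + nu2 (P.take p0))}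

/-- left words of scheme 2 -/
def L2 (K : ℕ) (c : ℕ → ℕ) (lam2 : ℕ → List α → Option V) (v : V) : Set (List α) :=
  {P | ∃ k < K, P.length = c k ∧ lam2 k P = some v}

theorem hcc1 (φ : α → S) (act : V → S → V) {Wo : List α → Prop} {n : ℕ} (hW : LW n Wo)
    {z p0 N1 K0 : ℕ} (hz : p0 + N1 + n ≤ z) (hK0 : p0 + K0 ≤ z) (BT : ℕ → Prop)
    (lam rho : List α → Option V) (nu1 nu2 : List α → V)
    (g1 : ∀ P v, lam P = some v → P.length ≤ N1)
    (g2 : ∀ P Q v b, lam P = some v → rho Q = some b →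
      b = act v ((P ++ Q).map φ).prod + nu1 (P ++ Q))
    (g3 : ∀ u : List α, K0 ≤ u.length → ¬ BT u.length → ∀ v, ∃ P Q, u = P ++ Q ∧
      lam P = some v ∧ (rho Q).isSome) :
    ∀ X ∈ XX Wo z, X ∉ BB Wo z N1 p0 BT → ∀ v, ∃ P Q, P ++ Q = X ∧ P ∈ L1 φ act p0 nu2 lam v ∧
      ∀ x, ∀ P' ∈ L1 φ act p0 nu2 lam x, P' ++ Q ∈ XX Wo z ∧
        TT φ act p0 nu2 nu1 x (P' ++ Q) = TT φ act p0 nu2 nu1 v X := by
  intro X hX hnb v
  have hE : ¬ EE Wo z N1 X := fun h => hnb ⟨hX, Or.inl h⟩
  have hB : ¬ BT (X.length - p0) := fun h => hnb ⟨hX, Or.inr h⟩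
  obtain ⟨h1, h2, h3⟩ := hX
  have hlen : z + N1 ≤ X.length := by
    by_contra hc
    exact hE ⟨X.length, le_rfl, by omega, by omega, by rw [List.take_length]; exact h2⟩
  have hX2 : (X.drop p0).length = X.length - p0 := List.length_drop
  have hX1 : (X.take p0).length = p0 := by rw [List.length_take]; omega
  obtain ⟨P2, Q, e, hl, hr⟩ := g3 (X.drop p0) (by omega) (by rw [hX2]; exact hB)
    (act v ((X.take p0).map φ).prod + nu2 (X.take p0))
  obtain ⟨b, hb⟩ := Option.isSome_iff_exists.1 hr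
  have hP2 := g1 _ _ hl
  have eX : (X.take p0 ++ P2) ++ Q = X := by
    rw [List.append_assoc, ← e, List.take_append_drop]
  have hlQ : p0 + P2.length + Q.length = X.length := by
    conv_rhs => rw [← eX]
    rw [List.length_append, List.length_append, hX1]
  have et : (X.take p0 ++ P2).take p0 = X.take p0 := List.take_left' hX1
  have ed : (X.take p0 ++ P2).drop p0 = P2 := List.drop_left' hX1
  refine ⟨X.take p0 ++ P2, Q, eX, ⟨?_, ?_⟩, ?_⟩
  · rw [List.length_append]; omega
  · rw [et, ed]; exact hl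
  · rintro x P' ⟨k1, k2⟩
    have k3 := g1 _ _ k2
    rw [List.length_drop] at k3
    have hPl : (X.take p0 ++ P2).length = p0 + P2.length := by rw [List.length_append, hX1]
    refine ⟨⟨by rw [List.length_append]; omega, ?_, ?_⟩, ?_⟩
    · have hQ : Wo Q := (hW.app (X.take p0 ++ P2) Q (by omega)).1 (by rw [eX]; exact h2)
      exact (hW.app P' Q (by omega)).2 hQ
    · intro t ht1 ht2 hw
      rw [List.length_append] at ht2
      have hw' := (wall_two hW P' (X.take p0 ++ P2) Q t (t + (p0 + P2.length) - P'.length)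
        (by omega) (by omega) (by omega)).1 hw
      rw [eX] at hw'
      by_cases htz : z ≤ t + (p0 + P2.length) - P'.length
      · exact h3 _ htz (by omega) hw'
      · exact hE ⟨_, by omega, by omega, by omega, hw'⟩
    · have a1 : (P' ++ Q).take p0 = P'.take p0 := List.take_append_of_le_length k1
      have a2 : (P' ++ Q).drop p0 = P'.drop p0 ++ Q := List.drop_append_of_le_length k1
      have b1 := g2 _ _ _ _ k2 hb
      have b2 := g2 _ _ _ _ hl hb
      unfold TT
      rw [a1, a2, ← b1, e, ← b2]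

theorem card_DE {Wo : List α → Prop} {W z N1 p0 K : ℕ} (c : ℕ → ℕ) (U : List α)
    (hsep : ∀ (X : List α) (s t : ℕ), s < t → t ≤ X.length → Wo (X.take s) → Wo (X.take t) →
      W < t - s) (hWb : 2 * (p0 + N1) ≤ W) (hp0 : ∀ k < K, c k ≤ p0) (hz : p0 + N1 ≤ z)
    (hr : ∀ i j k l, i < K → j < K → k < K → l < K → i ≠ j → k ≠ l →
      c i + c l < c k + c j + 2 * N1 → c k + c j < c i + c l + 2 * N1 → i = k ∧ j = l)
    (D : Finset (ℕ × ℕ))
    (hD : ∀ p ∈ D, p.1 < K ∧ p.2 < K ∧ p.1 ≠ p.2 ∧ ∃ t, t ≤ U.length ∧ Wo (U.take t) ∧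
      z + c p.1 ≤ t + c p.2 + N1 ∧ t + c p.2 < z + c p.1 + N1) : D.card ≤ 1 := by
  rw [Finset.card_le_one]
  rintro ⟨i, j⟩ hp ⟨k, l⟩ hq
  obtain ⟨a1, a2, a3, t, t1, t2, t3, t4⟩ := hD _ hp
  obtain ⟨b1, b2, b3, s, s1, s2, s3, s4⟩ := hD _ hq
  simp only at a1 a2 a3 t3 t4 b1 b2 b3 s3 s4
  have c1 := hp0 _ a1
  have c2 := hp0 _ a2
  have c3 := hp0 _ b1
  have c4 := hp0 _ b2
  have hts : t = s := by
    rcases lt_trichotomy t s with h | h | h
    · have := hsep U t s h s1 t2 s2; omega
    · exact h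
    · have := hsep U s t h t1 s2 t2; omega
  subst hts
  obtain ⟨e1, e2⟩ := hr i j k l a1 a2 b1 b2 a3 b3 (by omega) (by omega)
  rw [e1, e2]

theorem hcc2 (φ : α → S) (act : V → S → V) {Wo : List α → Prop} {n W : ℕ} (hW : LW n Wo)
    (hsep : ∀ (X : List α) (s t : ℕ), s < t → t ≤ X.length → Wo (X.take s) → Wo (X.take t) →
      W < t - s)
    {z p0 N1 K C0 R : ℕ} (hWb : 2 * (p0 + N1) ≤ W) (hz : 3 * p0 + N1 + n < z) (hN1 : 0 < N1)
    (c : ℕ → ℕ) (hp0 : ∀ k < K, c k ≤ p0)
    (hinj : ∀ i j, i < K → j < K → c i = c j → i = j)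
    (hr : ∀ i j k l, i < K → j < K → k < K → l < K → i ≠ j → k ≠ l →
      c i + c l < c k + c j + 2 * N1 → c k + c j < c i + c l + 2 * N1 → i = k ∧ j = l)
    (BT : ℕ → Prop)
    (hcnt : ∀ T, p0 ≤ T → ∀ D : Finset (ℕ × ℕ), (∀ p ∈ D, p.1 < K ∧ p.2 < K ∧ p.1 ≠ p.2 ∧
      BT (T + c p.2 - c p.1)) → D.card ≤ C0)
    (lam2 rho2 : ℕ → List α → Option V) (nu1 nu2 : List α → V)
    (e1 : ∀ k < K, ∀ P Q v b, P.length = c k → lam2 k P = some v → rho2 k Q = some b →
      b = act v ((P ++ Q).map φ).prod + nu2 (P ++ Q))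
    (e2 : ∀ (u : List α) (v : V), (∀ k < K, c k ≤ u.length) → ∃ I : Finset ℕ, R ≤ I.card ∧
      ∀ k ∈ I, k < K ∧ lam2 k (u.take (c k)) = some v ∧ (rho2 k (u.drop (c k))).isSome)
    (hR : 1 + 2 * C0 < R) :
    ∀ X ∈ BB Wo z N1 p0 BT, ∀ Y ∈ BB Wo z N1 p0 BT, ∀ v, ∃ P Q, P ++ Q = X ++ Y ∧
      P ∈ L2 K c lam2 v ∧ ∀ x, ∀ P' ∈ L2 K c lam2 x,
        (∃ X' ∈ BB Wo z N1 p0 BT, ∃ Y' ∈ XX Wo z, X' ++ Y' = P' ++ Q ∧
          TT φ act p0 nu2 nu1 (TT φ act p0 nu2 nu1 x X') Y' =
            TT φ act p0 nu2 nu1 (TT φ act p0 nu2 nu1 v X) Y) ∨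
        (∃ X' ∈ XX Wo z, X' ∉ BB Wo z N1 p0 BT ∧ X' <+: P' ++ Q) := by
  classical
  intro X hX Y hY v
  obtain ⟨⟨hx1, hx2, hx3⟩, hxb⟩ := hX
  have hYX := hY.1
  obtain ⟨⟨hy1, hy2, hy3⟩, hyb⟩ := hY
  set U := X ++ Y with hU
  have hUl : U.length = X.length + Y.length := by rw [hU, List.length_append]
  have wX : Wo (U.take X.length) := by rw [hU, List.take_left' rfl]; exact hx2
  have wU : Wo (U.take U.length) := by
    rw [List.take_length, hU]; exact (hW.app X Y (by omega)).2 hy2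
  -- first wall after `z - p0`
  have ex1 : ∃ t, z ≤ t + p0 ∧ t ≤ U.length ∧ Wo (U.take t) := ⟨X.length, by omega, by omega, wX⟩
  let τ := Nat.find ex1
  obtain ⟨τ1, τ2, τ3⟩ : z ≤ τ + p0 ∧ τ ≤ U.length ∧ Wo (U.take τ) := Nat.find_spec ex1
  have τm : ∀ t, t < τ → z ≤ t + p0 → t ≤ U.length → ¬ Wo (U.take t) := fun t ht a b w =>
    Nat.find_min ex1 ht ⟨a, b, w⟩
  have τX : τ ≤ X.length := Nat.find_min' ex1 ⟨by omega, by omega, wX⟩
  have ex2 : ∃ t, τ < t ∧ t ≤ U.length ∧ Wo (U.take t) := ⟨U.length, by omega, le_rfl, wU⟩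
  let σ := Nat.find ex2
  obtain ⟨σ1, σ2, σ3⟩ : τ < σ ∧ σ ≤ U.length ∧ Wo (U.take σ) := Nat.find_spec ex2
  have σm : ∀ t, t < σ → τ < t → t ≤ U.length → ¬ Wo (U.take t) := fun t ht a b w =>
    Nat.find_min ex2 ht ⟨a, b, w⟩
  have hτσ := hsep U τ σ σ1 σ2 τ3 σ3
  let DE := (range K ×ˢ range K).filter (fun p => p.1 ≠ p.2 ∧ ∃ t, t ≤ U.length ∧
    Wo (U.take t) ∧ z + c p.1 ≤ t + c p.2 + N1 ∧ t + c p.2 < z + c p.1 + N1)
  let DB : ℕ → Finset (ℕ × ℕ) := fun T => (range K ×ˢ range K).filter (fun p => p.1 ≠ p.2 ∧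
    BT ((T - p0) + c p.2 - c p.1))
  have cE : DE.card ≤ 1 := card_DE (z := z) (N1 := N1) (p0 := p0) (K := K) c U hsep hWb hp0 (by omega) hr DE (by
    intro p hp
    simp only [DE, mem_filter, mem_product, mem_range] at hp
    exact ⟨hp.1.1, hp.1.2, hp.2.1, hp.2.2⟩)
  have cB : ∀ T, 2 * p0 ≤ T → (DB T).card ≤ C0 := fun T hT => hcnt (T - p0) (by omega) _ (by
    intro p hp
    simp only [DB, mem_filter, mem_product, mem_range] at hp
    exact ⟨hp.1.1, hp.1.2, hp.2.1, hp.2.2⟩)
  let D := (DE ∪ (DB τ ∪ DB σ)).image Prod.fst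
  have cD : D.card ≤ 1 + 2 * C0 := by
    refine le_trans Finset.card_image_le ?_
    refine le_trans (Finset.card_union_le _ _) ?_
    have h1 := Finset.card_union_le (DB τ) (DB σ)
    have h2 := cB τ (by omega)
    have h3 := cB σ (by omega)
    omega
  have hu : (X.take p0).length = p0 := by rw [List.length_take]; omega
  obtain ⟨I, hI, hI2⟩ := e2 (X.take p0) v (fun k hk => by rw [hu]; exact hp0 k hk)
  obtain ⟨k, hkI, hkD⟩ := Finset.exists_mem_notMem_of_card_lt_card (show D.card < I.card by omega)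
  obtain ⟨hkK, hlk, hrk⟩ := hI2 k hkI
  obtain ⟨b, hb⟩ := Option.isSome_iff_exists.1 hrk
  have hck := hp0 k hkK
  have htk : (X.take p0).take (c k) = X.take (c k) := by
    rw [List.take_take, min_eq_left hck]
  rw [htk] at hlk
  have hPl : (X.take (c k)).length = c k := by rw [List.length_take]; omega
  have hPQ : X.take (c k) ++ (X.drop (c k) ++ Y) = U := by
    rw [← List.append_assoc, List.take_append_drop]
  refine ⟨X.take (c k), X.drop (c k) ++ Y, hPQ, ⟨k, hkK, hPl, hlk⟩, ?_⟩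
  rintro x P' ⟨j, hjK, hjl, hlj⟩
  have hcj := hp0 j hjK
  by_cases hjk : j = k
  · subst hjk
    left
    have hXlen : (P' ++ X.drop (c j)).length = X.length := by
      rw [List.length_append, List.length_drop]; omega
    have hXe : X.take (c j) ++ X.drop (c j) = X := List.take_append_drop _ _
    have hwt : ∀ t, c j + n ≤ t → t ≤ X.length →
        (Wo ((P' ++ X.drop (c j)).take t) ↔ Wo (X.take t)) := by
      intro t h1 h2
      have := wall_two hW P' (X.take (c j)) (X.drop (c j)) t t (by omega)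
        (by rw [List.length_drop]; omega) (by omega)
      rw [hXe] at this
      exact this
    have hX' : P' ++ X.drop (c j) ∈ XX Wo z := by
      refine ⟨by omega, ?_, ?_⟩
      · have := (hwt X.length (by omega) le_rfl)
        rw [List.take_length] at this
        have h2 : (P' ++ X.drop (c j)).take X.length = P' ++ X.drop (c j) := by
          rw [← hXlen, List.take_length]
        rw [h2] at this
        exact this.2 hx2
      · intro t h1 h2 h3
        rw [hXlen] at h2
        exact hx3 t h1 h2 ((hwt t (by omega) h2.le).1 h3)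
    refine ⟨P' ++ X.drop (c j), ⟨hX', ?_⟩, Y, hYX, by rw [List.append_assoc], ?_⟩
    · rcases hxb with ⟨t, h1, h2, h3, h4⟩ | h
      · left
        exact ⟨t, by omega, h2, h3, (hwt t (by omega) h1).2 h4⟩
      · right
        rw [hXlen]; exact h
    · congr 1
      have a1 : (P' ++ X.drop (c j)).take p0 = P' ++ (X.take p0).drop (c j) := by
        rw [List.take_append, List.take_of_length_le (by omega), hjl, List.drop_take]
      have a2 : (P' ++ X.drop (c j)).drop p0 = X.drop p0 := by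
        rw [List.drop_append, List.drop_eq_nil_of_le (by omega), hjl, List.drop_drop,
          List.nil_append]
        congr 1; omega
      have b1 := e1 j hjK P' ((X.take p0).drop (c j)) x b hjl hlj hb
      have b2 := e1 j hjK (X.take (c j)) ((X.take p0).drop (c j)) v b hPl hlk hb
      have b3 : X.take (c j) ++ (X.take p0).drop (c j) = X.take p0 := by
        rw [← htk, List.take_append_drop]
      unfold TT
      rw [a1, a2, ← b1, b2, b3]
  · right
    have hnm : (k, j) ∉ DE ∪ (DB τ ∪ DB σ) := fun h =>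
      hkD (Finset.mem_image.2 ⟨(k, j), h, rfl⟩)
    rw [Finset.mem_union, Finset.mem_union, not_or, not_or] at hnm
    obtain ⟨nE, nB1, nB2⟩ := hnm
    -- the end of the candidate's block
    obtain ⟨t1, s1, s2, s3, s4, s5⟩ : ∃ t1, z + c k ≤ t1 + c j ∧ t1 ≤ U.length ∧
        Wo (U.take t1) ∧ (∀ t, z + c k ≤ t + c j → t < t1 → ¬ Wo (U.take t)) ∧
        ¬ BT ((t1 - p0) + c j - c k) := by
      by_cases hs : z + c k ≤ τ + c j
      · refine ⟨τ, hs, τ2, τ3, fun t h1 h2 => τm t h2 (by omega) (by omega), fun h => nB1 ?_⟩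
        simp only [DB, mem_filter, mem_product, mem_range]
        exact ⟨⟨hkK, hjK⟩, fun h => hjk h.symm, h⟩
      · refine ⟨σ, by omega, σ2, σ3, fun t h1 h2 => σm t h2 (by omega) (by omega),
          fun h => nB2 ?_⟩
        simp only [DB, mem_filter, mem_product, mem_range]
        exact ⟨⟨hkK, hjK⟩, fun h => hjk h.symm, h⟩
    have hQl : (X.drop (c k) ++ Y).length = U.length - c k := by
      rw [List.length_append, List.length_drop]; omega
    have hwt : ∀ t t', c j + n ≤ t' → t + c j = t' + c k → t ≤ U.length →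
        (Wo ((P' ++ (X.drop (c k) ++ Y)).take t') ↔ Wo (U.take t)) := by
      intro t t' h1 h2 h3
      have := wall_two hW P' (X.take (c k)) (X.drop (c k) ++ Y) t' t (by omega) (by omega)
        (by omega)
      rw [hPQ] at this
      exact this
    set F := P' ++ (X.drop (c k) ++ Y) with hF
    have hFl : F.length = c j + (U.length - c k) := by rw [hF, List.length_append, hQl, hjl]
    have hl : (F.take (t1 + c j - c k)).length = t1 + c j - c k := by
      rw [List.length_take]; omega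
    refine ⟨F.take (t1 + c j - c k), ⟨by omega, ?_, ?_⟩, ?_, List.take_prefix _ _⟩
    · exact (hwt t1 _ (by omega) (by omega) s2).2 s3
    · intro t h1 h2 h3
      rw [hl] at h2
      rw [List.take_take, min_eq_left (by omega)] at h3
      exact s4 (t + c k - c j) (by omega) (by omega)
        ((hwt (t + c k - c j) t (by omega) (by omega) (by omega)).1 h3)
    · rintro ⟨-, ⟨t, h1, h2, h3, h4⟩ | h⟩
      · rw [hl] at h1
        rw [List.take_take, min_eq_left (by omega)] at h4
        apply nE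
        simp only [DE, mem_filter, mem_product, mem_range]
        refine ⟨⟨hkK, hjK⟩, fun h => hjk h.symm, t + c k - c j, by omega, ?_, by omega, by omega⟩
        exact (hwt (t + c k - c j) t (by omega) (by omega) (by omega)).1 h4
      · rw [hl] at h
        apply s5
        have : t1 - p0 + c j - c k = t1 + c j - c k - p0 := by omega
        rw [this]; exact h

end Crest.Agent.R320.Joint_819
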