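import Mathlib

/-!
Row 320: the combinatorial joint of 727's semantic top (helper894): natural chain rule
(block = text up to the first left-looking wall at a place at least `z`), scheme 1 = any U-gadget,
scheme 2 = exact gadget on a ruler.
-/

set_option autoImplicit false

namespace Crest.Agent.R320.Joint_894

open Finset

variable {α S V : Type*} [Monoid S] [AddCommGroup V]

/-- all data -/
structure D (α S V : Type*) where
  f : α → S
  act : V → S → V
  n : ℕ
  z : ℕ
  p0 : ℕ
  N1 : ℕ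
  K : ℕ
  C0 : ℕ
  W : ℕ
  c : ℕ → ℕ
  Wo : List α → Prop
  lam : List α → Option V
  rho : List α → Option V
  nu1 : List α → V
  lam2 : ℕ → List α → Option V
  rho2 : ℕ → List α → Option V
  nu2 : List α → V
  BadT : ℕ → Prop

variable (d : D α S V)

def D.pr (d : D α S V) (u : List α) : S := (u.map d.f).prod

def D.XX : Set (List α) :=
  {X | d.z ≤ X.length ∧ d.Wo X ∧ ∀ t, d.z ≤ t → t < X.length → ¬ d.Wo (X.take t)}

def D.T (x : V) (X : List α) : V :=
  d.act (d.act x (d.pr (X.take d.p0)) + d.nu2 (X.take d.p0)) (d.pr (X.drop d.p0))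
    + d.nu1 (X.drop d.p0)

def D.L1 (x : V) : Set (List α) :=
  {P | d.p0 ≤ P.length ∧ d.lam (P.drop d.p0) = some (d.act x (d.pr (P.take d.p0)) + d.nu2 (P.take d.p0))}

def D.L2 (x : V) : Set (List α) :=
  {P | ∃ k, k < d.K ∧ P.length = d.c k ∧ d.lam2 k P = some x}

def D.R1 (y : V) : Set (List α) :=
  {Q | ∀ x, ∀ P ∈ d.L1 x, P ++ Q ∈ d.XX ∧ d.T x (P ++ Q) = y}

def D.Good : Set (List α) :=
  {X | X ∈ d.XX ∧ ∀ x, ∃ P ∈ d.L1 x, ∃ Q ∈ d.R1 (d.T x X), P ++ Q = X}

def D.Bad : Set (List α) := {X | X ∈ d.XX ∧ X ∉ d.Good}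

def D.R2 (y : V) : Set (List α) :=
  {Q | ∀ x, ∀ P ∈ d.L2 x,
    (∃ X1 ∈ d.Bad, ∃ X2 ∈ d.Bad, P ++ Q = X1 ++ X2 ∧ d.T (d.T x X1) X2 = y) ∨
    (∃ X ∈ d.Good, X <+: P ++ Q) ∨
    (∃ X1 ∈ d.Bad, ∃ X2 ∈ d.Good, X1 ++ X2 <+: P ++ Q)}

/-- hypotheses -/
structure Ok (d : D α S V) : Prop where
  w1 : ∀ P Q : List α, d.n ≤ Q.length → (d.Wo (P ++ Q) ↔ d.Wo Q)
  w3 : ∀ (P : List α) (e : ℕ), d.Wo P → 0 < e → e ≤ d.W → ¬ d.Wo (P.take (P.length - e))
  hW : 2 * (d.p0 + d.N1) ≤ d.W
  hz : 3 * d.p0 + 2 * d.N1 + d.n ≤ d.z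
  hc : ∀ k, k < d.K → d.c k ≤ d.p0
  g1l : ∀ P v, d.lam P = some v → P.length ≤ d.N1
  g1s : ∀ P Q v b, d.lam P = some v → d.rho Q = some b →
    b = d.act v (d.pr (P ++ Q)) + d.nu1 (P ++ Q)
  g1c : ∀ Y : List α, ¬ d.BadT Y.length → ∀ v, ∃ P Q, P ++ Q = Y ∧ d.lam P = some v ∧
    (d.rho Q).isSome
  g2s : ∀ k, k < d.K → ∀ (P Q : List α) (v b : V), P.length = d.c k → d.lam2 k P = some v →
    d.rho2 k Q = some b → b = d.act v (d.pr (P ++ Q)) + d.nu2 (P ++ Q)
  g2c : ∀ (u : List α) (v : V), u.length = d.p0 → ∃ I : Finset ℕ, 2 * d.C0 + 2 ≤ I.card ∧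
    ∀ k ∈ I, k < d.K ∧ d.lam2 k (u.take (d.c k)) = some v ∧ (d.rho2 k (u.drop (d.c k))).isSome
  apart : ∀ i j k l, i < d.K → j < d.K → k < d.K → l < d.K → i ≠ j → k ≠ l →
    d.c i + d.c l ≤ d.c j + d.c k + 2 * d.N1 → d.c j + d.c k ≤ d.c i + d.c l + 2 * d.N1 →
    i = k ∧ j = l
  spoil : ∀ T : ℕ, d.p0 ≤ T → ∀ B : Finset (ℕ × ℕ),
    (∀ p ∈ B, p.1 < d.K ∧ p.2 < d.K ∧ p.1 ≠ p.2 ∧ d.BadT (T + d.c p.2 - d.c p.1)) → B.card ≤ d.C0

variable {d}

theorem wo_shift (h : Ok d) (P Q : List α) (j : ℕ) (hj : d.n ≤ j) (hjQ : j ≤ Q.length) :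
    d.Wo ((P ++ Q).take (P.length + j)) ↔ d.Wo (Q.take j) := by
  rw [List.take_length_add_append]
  exact h.w1 _ _ (by rw [List.length_take]; omega)

theorem wall_unique (h : Ok d) (w : List α) (t1 t2 : ℕ) (h1 : d.Wo (w.take t1))
    (h2 : d.Wo (w.take t2)) (hl1 : t1 ≤ w.length) (hl2 : t2 ≤ w.length)
    (h12 : t1 < t2) (hd : t2 - t1 ≤ d.W) : False := by
  refine h.w3 (w.take t2) (t2 - t1) h2 (by omega) hd ?_
  rw [List.length_take, min_eq_left hl2, List.take_take]
  have : min (t2 - (t2 - t1)) t2 = t1 := by omega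
  rw [this]
  exact h1

theorem pr_append (u v : List α) : d.pr (u ++ v) = d.pr u * d.pr v := by
  unfold D.pr; rw [List.map_append, List.prod_append]

/-- a block is a scheme-1 good block as soon as its end wall is clean and its length is good. -/
theorem good_of (h : Ok d) (X : List α) (hX : X ∈ d.XX)
    (hE1 : ∀ t, d.z ≤ t + d.N1 → t < d.z → ¬ d.Wo (X.take t))
    (hE2 : d.z + d.N1 ≤ X.length) (hB : ¬ d.BadT (X.length - d.p0)) : X ∈ d.Good := by
  obtain ⟨hXz, hXw, hXn⟩ := hX
  have hz := h.hz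
  refine ⟨⟨hXz, hXw, hXn⟩, fun x => ?_⟩
  obtain ⟨P1, Q, hPQ, hlam, hrho⟩ := h.g1c (X.drop d.p0)
    (by rwa [List.length_drop]) (d.act x (d.pr (X.take d.p0)) + d.nu2 (X.take d.p0))
  obtain ⟨r, hr⟩ := Option.isSome_iff_exists.1 hrho
  have hlen0 : (X.take d.p0).length = d.p0 := by rw [List.length_take]; omega
  have hXe : X = (X.take d.p0 ++ P1) ++ Q := by
    rw [List.append_assoc, hPQ, List.take_append_drop]
  have hP1 := h.g1l _ _ hlam
  have hlX : X.length = d.p0 + P1.length + Q.length := by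
    conv_lhs => rw [hXe]
    rw [List.length_append, List.length_append, hlen0]
  have hTr : ∀ (x' : V) (P : List α), P ∈ d.L1 x' → d.T x' (P ++ Q) = r := by
    rintro x' P ⟨hp, hl⟩
    have e1 : (P ++ Q).take d.p0 = P.take d.p0 := List.take_append_of_le_length hp
    have e2 : (P ++ Q).drop d.p0 = P.drop d.p0 ++ Q := List.drop_append_of_le_length hp
    unfold D.T
    rw [e1, e2]
    exact (h.g1s _ _ _ _ hl hr).symm
  have hPL : X.take d.p0 ++ P1 ∈ d.L1 x := by
    refine ⟨by rw [List.length_append, hlen0]; omega, ?_⟩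
    rw [List.take_append_of_le_length (by omega), List.take_take, min_self,
      List.drop_append_of_le_length (by omega), List.drop_eq_nil_of_le (by omega), List.nil_append]
    exact hlam
  refine ⟨X.take d.p0 ++ P1, hPL, Q, ?_, hXe.symm⟩
  have hTX : d.T x X = r := by
    conv_lhs => rw [hXe]
    exact hTr x _ hPL
  intro x' P hP
  refine ⟨?_, by rw [hTX]; exact hTr x' P hP⟩
  have hPl : d.p0 ≤ P.length := hP.1
  have hPu : P.length ≤ d.p0 + d.N1 := by
    have := h.g1l _ _ hP.2
    rw [List.length_drop] at this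
    omega
  have hQn : d.n ≤ Q.length := by omega
  refine ⟨by rw [List.length_append]; omega, ?_, ?_⟩
  · rw [h.w1 P Q hQn]
    rw [hXe, h.w1 _ Q hQn] at hXw
    exact hXw
  · intro t ht htl hw
    rw [List.length_append] at htl
    obtain ⟨j, rfl⟩ : ∃ j, t = P.length + j := ⟨t - P.length, by omega⟩
    rw [wo_shift h P Q j (by omega) (by omega)] at hw
    rw [← wo_shift h (X.take d.p0 ++ P1) Q j (by omega) (by omega), ← hXe, List.length_append,
      hlen0] at hw
    by_cases hzz : d.z ≤ d.p0 + P1.length + j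
    · exact hXn _ hzz (by omega) hw
    · exact hE1 _ (by omega) (by omega) hw

/-- the first block of a text with a wall far enough -/
theorem first_block (w : List α) (t : ℕ) (ht : d.z ≤ t) (htl : t ≤ w.length)
    (hw : d.Wo (w.take t)) : ∃ e, d.z ≤ e ∧ e ≤ t ∧ w.take e ∈ d.XX ∧
      (∀ s, d.z ≤ s → s < e → ¬ d.Wo (w.take s)) ∧ d.Wo (w.take e) := by
  classical
  have hex : ∃ e, d.z ≤ e ∧ d.Wo (w.take e) := ⟨t, ht, hw⟩
  obtain ⟨h1, h2⟩ := Nat.find_spec hex
  have hle : Nat.find hex ≤ t := Nat.find_min' hex ⟨ht, hw⟩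
  have hmin : ∀ s, d.z ≤ s → s < Nat.find hex → ¬ d.Wo (w.take s) := fun s hs hlt hws =>
    Nat.find_min hex hlt ⟨hs, hws⟩
  have hlen : (w.take (Nat.find hex)).length = Nat.find hex := by
    rw [List.length_take]; omega
  refine ⟨Nat.find hex, h1, hle, ⟨by rw [hlen]; exact h1, h2, ?_⟩, hmin, h2⟩
  intro s hs hsl hws
  rw [hlen] at hsl
  rw [List.take_take, min_eq_left hsl.le] at hws
  exact hmin s hs hsl hws


/-- walls of a text whose first letters are replaced -/
theorem wall_trans (h : Ok d) (w P' : List α) (a : ℕ) (ha : a ≤ w.length) (s : ℕ)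
    (hs : P'.length + d.n ≤ s) (hs2 : s ≤ (P' ++ w.drop a).length) :
    d.Wo ((P' ++ w.drop a).take s) ↔ d.Wo (w.take (s + a - P'.length)) := by
  obtain ⟨j, rfl⟩ : ∃ j, s = P'.length + j := ⟨s - P'.length, by omega⟩
  rw [List.length_append] at hs2
  rw [wo_shift h P' _ j (by omega) (by omega)]
  have e1 : P'.length + j + a - P'.length = (w.take a).length + j := by
    rw [List.length_take]; omega
  rw [e1]
  have h3 := wo_shift h (w.take a) (w.drop a) j (by omega) (by omega)
  rw [List.take_append_drop] at h3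
  exact h3.symm

theorem hC2 (h : Ok d) (X1 : List α) (h1 : X1 ∈ d.Bad) (X2 : List α) (h2 : X2 ∈ d.Bad) (x : V) :
    ∃ P ∈ d.L2 x, ∃ Q ∈ d.R2 (d.T (d.T x X1) X2), P ++ Q = X1 ++ X2 := by
  classical
  have hz := h.hz
  have hW := h.hW
  obtain ⟨⟨hz1, hw1, hn1⟩, _⟩ := h1
  have hz2 : d.z ≤ X2.length := h2.1.1
  have hw2 : d.Wo X2 := h2.1.2.1
  set w := X1 ++ X2 with hw
  have hlw : w.length = X1.length + X2.length := by rw [hw, List.length_append]
  have hA1 : d.Wo (w.take X1.length) := by rw [hw, List.take_left]; exact hw1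
  have hA2 : d.Wo (w.take w.length) := by
    rw [List.take_length, hw, h.w1 X1 X2 (by omega)]; exact hw2
  -- first wall at a place at least `z - p0`, first wall at a place at least `z + p0`
  have hex1 : ∃ t, d.z ≤ t + d.p0 ∧ t ≤ w.length ∧ d.Wo (w.take t) :=
    ⟨w.length, by omega, le_rfl, hA2⟩
  have hex2 : ∃ t, d.z + d.p0 ≤ t ∧ t ≤ w.length ∧ d.Wo (w.take t) :=
    ⟨w.length, by omega, le_rfl, hA2⟩
  obtain ⟨e11, e12, e13⟩ := Nat.find_spec hex1
  obtain ⟨e21, e22, e23⟩ := Nat.find_spec hex2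
  have m1 : ∀ t, d.z ≤ t + d.p0 → t ≤ w.length → d.Wo (w.take t) → Nat.find hex1 ≤ t :=
    fun t a b c => Nat.find_min' hex1 ⟨a, b, c⟩
  have m2 : ∀ t, d.z + d.p0 ≤ t → t ≤ w.length → d.Wo (w.take t) → Nat.find hex2 ≤ t :=
    fun t a b c => Nat.find_min' hex2 ⟨a, b, c⟩
  set e1 := Nat.find hex1 with he1
  set e2 := Nat.find hex2 with he2
  -- spoiled pairs
  let Sp : ℕ × ℕ → Prop := fun p => p.1 ≠ p.2 ∧ ∃ (P' : List α) (e : ℕ), P'.length = d.c p.2 ∧
    d.z ≤ e ∧ e ≤ (P' ++ w.drop (d.c p.1)).length ∧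
    (P' ++ w.drop (d.c p.1)).take e ∈ d.XX ∧
    (∀ s, d.z ≤ s → s < e → ¬ d.Wo ((P' ++ w.drop (d.c p.1)).take s)) ∧
    d.Wo ((P' ++ w.drop (d.c p.1)).take e) ∧ (P' ++ w.drop (d.c p.1)).take e ∉ d.Good
  let U := (Finset.range d.K ×ˢ Finset.range d.K).filter Sp
  let E : ℕ × ℕ → Prop := fun p => ∃ t, t ≤ w.length ∧ d.Wo (w.take t) ∧
    t + d.c p.2 ≤ d.z + d.c p.1 + d.N1 ∧ d.z + d.c p.1 ≤ t + d.c p.2 + d.N1
  have hsub : U ⊆ (U.filter E ∪ U.filter (fun p => d.BadT (e1 - d.p0 + d.c p.2 - d.c p.1))) ∪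
      U.filter (fun p => d.BadT (e2 - d.p0 + d.c p.2 - d.c p.1)) := by
    intro p hp
    have hp' := hp
    simp only [U, Finset.mem_filter, Finset.mem_product, Finset.mem_range] at hp'
    obtain ⟨⟨hk, hk'⟩, hne, P', e, hP', hez, hel, heX, hmin, hwe, hG⟩ := hp'
    have hck := h.hc _ hk
    have hck' := h.hc _ hk'
    have hlw' : (P' ++ w.drop (d.c p.1)).length = d.c p.2 + (w.length - d.c p.1) := by
      rw [List.length_append, List.length_drop, hP']
    have tr : ∀ s, d.c p.2 + d.n ≤ s → s ≤ (P' ++ w.drop (d.c p.1)).length →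
        (d.Wo ((P' ++ w.drop (d.c p.1)).take s) ↔ d.Wo (w.take (s + d.c p.1 - d.c p.2))) := by
      intro s hs hs2
      have := wall_trans h w P' (d.c p.1) (by omega) s (by omega) hs2
      rwa [hP'] at this
    have hwe' := (tr e (by omega) hel).1 hwe
    by_cases hEp : E p
    · simp only [Finset.mem_union, Finset.mem_filter]
      left; left; exact ⟨hp, hEp⟩
    · have hBT : d.BadT (e - d.p0) := by
        by_contra hB
        apply hG
        refine good_of h _ heX ?_ ?_ ?_
        · intro t ht htz hwt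
          rw [List.take_take, min_eq_left (by omega)] at hwt
          have := (tr t (by omega) (by omega)).1 hwt
          exact hEp ⟨t + d.c p.1 - d.c p.2, by omega, this, by omega, by omega⟩
        · by_contra hlt
          rw [List.length_take, min_eq_left hel] at hlt
          exact hEp ⟨e + d.c p.1 - d.c p.2, by omega, hwe', by omega, by omega⟩
        · rw [List.length_take, min_eq_left hel]; exact hB
      -- the end is `e1` or `e2`
      have hcase : e + d.c p.1 - d.c p.2 = e1 ∨ e + d.c p.1 - d.c p.2 = e2 := by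
        have hle1 : e1 ≤ e + d.c p.1 - d.c p.2 := m1 _ (by omega) (by omega) hwe'
        by_cases hc1 : d.z + d.c p.1 ≤ e1 + d.c p.2
        · left
          by_contra hne1
          have hlt : e1 < e + d.c p.1 - d.c p.2 := lt_of_le_of_ne hle1 (Ne.symm hne1)
          refine hmin (e1 + d.c p.2 - d.c p.1) (by omega) (by omega) ?_
          rw [tr _ (by omega) (by omega)]
          have : e1 + d.c p.2 - d.c p.1 + d.c p.1 - d.c p.2 = e1 := by omega
          rw [this]; exact e13
        · right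
          have hge : d.z + d.p0 ≤ e + d.c p.1 - d.c p.2 := by
            by_contra hlt
            exact wall_unique h w e1 (e + d.c p.1 - d.c p.2) e13 hwe' e12 (by omega) (by omega)
              (by omega)
          have hle2 : e2 ≤ e + d.c p.1 - d.c p.2 := m2 _ hge (by omega) hwe'
          by_contra hne2
          refine hmin (e2 + d.c p.2 - d.c p.1) (by omega) (by omega) ?_
          rw [tr _ (by omega) (by omega)]
          have : e2 + d.c p.2 - d.c p.1 + d.c p.1 - d.c p.2 = e2 := by omega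
          rw [this]; exact e23
      simp only [Finset.mem_union, Finset.mem_filter]
      rcases hcase with hc | hc
      · left; right
        refine ⟨hp, ?_⟩
        have : e1 - d.p0 + d.c p.2 - d.c p.1 = e - d.p0 := by omega
        rw [this]; exact hBT
      · right
        refine ⟨hp, ?_⟩
        have : e2 - d.p0 + d.c p.2 - d.c p.1 = e - d.p0 := by omega
        rw [this]; exact hBT
  have hUmem : ∀ p ∈ U, p.1 < d.K ∧ p.2 < d.K ∧ p.1 ≠ p.2 := by
    intro p hp
    simp only [U, Finset.mem_filter, Finset.mem_product, Finset.mem_range] at hp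
    exact ⟨hp.1.1, hp.1.2, hp.2.1⟩
  have hcE : (U.filter E).card ≤ 1 := by
    rw [Finset.card_le_one]
    intro p hp q hq
    rw [Finset.mem_filter] at hp hq
    obtain ⟨hpU, t, htl, htw, ht1, ht2⟩ := hp
    obtain ⟨hqU, t', htl', htw', ht1', ht2'⟩ := hq
    obtain ⟨hp1, hp2, hp3⟩ := hUmem p hpU
    obtain ⟨hq1, hq2, hq3⟩ := hUmem q hqU
    have c1 := h.hc _ hp1
    have c2 := h.hc _ hp2
    have c3 := h.hc _ hq1
    have c4 := h.hc _ hq2
    have htt : t = t' := by
      rcases lt_trichotomy t t' with hlt | heq | hlt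
      · exact (wall_unique h w t t' htw htw' htl htl' hlt (by omega)).elim
      · exact heq
      · exact (wall_unique h w t' t htw' htw htl' htl hlt (by omega)).elim
    subst htt
    obtain ⟨ha, hb⟩ := h.apart p.1 p.2 q.1 q.2 hp1 hp2 hq1 hq2 hp3 hq3 (by omega) (by omega)
    exact Prod.ext ha hb
  have hcB1 : (U.filter (fun p => d.BadT (e1 - d.p0 + d.c p.2 - d.c p.1))).card ≤ d.C0 := by
    refine h.spoil (e1 - d.p0) (by omega) _ fun p hp => ?_
    rw [Finset.mem_filter] at hp
    obtain ⟨hp1, hp2, hp3⟩ := hUmem p hp.1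
    exact ⟨hp1, hp2, hp3, hp.2⟩
  have hcB2 : (U.filter (fun p => d.BadT (e2 - d.p0 + d.c p.2 - d.c p.1))).card ≤ d.C0 := by
    refine h.spoil (e2 - d.p0) (by omega) _ fun p hp => ?_
    rw [Finset.mem_filter] at hp
    obtain ⟨hp1, hp2, hp3⟩ := hUmem p hp.1
    exact ⟨hp1, hp2, hp3, hp.2⟩
  have hUc : U.card ≤ 1 + d.C0 + d.C0 := by
    refine (Finset.card_le_card hsub).trans ?_
    refine (Finset.card_union_le _ _).trans ?_
    have := Finset.card_union_le (U.filter E)
      (U.filter (fun p => d.BadT (e1 - d.p0 + d.c p.2 - d.c p.1)))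
    omega
  have hu0 : (X1.take d.p0).length = d.p0 := by rw [List.length_take]; omega
  obtain ⟨I, hI, hIk⟩ := h.g2c (X1.take d.p0) x hu0
  obtain ⟨k, hkI, hkU⟩ : ∃ k ∈ I, k ∉ U.image Prod.fst := by
    by_contra hcon
    push Not at hcon
    have : I ⊆ U.image Prod.fst := hcon
    have h3 := Finset.card_le_card this
    have h4 := Finset.card_image_le (s := U) (f := Prod.fst)
    omega
  obtain ⟨hkK, hlamk, hrhok⟩ := hIk k hkI
  have hck := h.hc k hkK
  have hPe : w.take (d.c k) = (X1.take d.p0).take (d.c k) := by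
    rw [hw, List.take_append_of_le_length (by omega), List.take_take, min_eq_left hck]
  refine ⟨w.take (d.c k), ⟨k, hkK, by rw [List.length_take]; omega, by rw [hPe]; exact hlamk⟩,
    w.drop (d.c k), ?_, List.take_append_drop _ _⟩
  rintro x' P' ⟨k', hk'K, hP', hlam'⟩
  have hck' := h.hc k' hk'K
  have hlw' : (P' ++ w.drop (d.c k)).length = d.c k' + (w.length - d.c k) := by
    rw [List.length_append, List.length_drop, hP']
  have tr : ∀ s, d.c k' + d.n ≤ s → s ≤ (P' ++ w.drop (d.c k)).length →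
      (d.Wo ((P' ++ w.drop (d.c k)).take s) ↔ d.Wo (w.take (s + d.c k - d.c k'))) := by
    intro s hs hs2
    have := wall_trans h w P' (d.c k) (by omega) s (by omega) hs2
    rwa [hP'] at this
  obtain ⟨e, hez, het, heX, hmin, hwe⟩ := first_block (d := d) (P' ++ w.drop (d.c k))
    (P' ++ w.drop (d.c k)).length (by omega) le_rfl (by
      rw [tr _ (by omega) le_rfl]
      have : (P' ++ w.drop (d.c k)).length + d.c k - d.c k' = w.length := by omega
      rw [this]; exact hA2)
  by_cases hG : (P' ++ w.drop (d.c k)).take e ∈ d.Good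
  · right; left
    exact ⟨_, hG, List.take_prefix _ _⟩
  by_cases hkk : k = k'
  · subst hkk
    left
    -- the end is the end of X1
    have hee : e = X1.length := by
      have hwe' := (tr e (by omega) het).1 hwe
      have e5 : e + d.c k - d.c k = e := by omega
      rw [e5] at hwe'
      rcases lt_trichotomy e X1.length with hlt | heq | hlt
      · exfalso
        refine hn1 e hez hlt ?_
        rw [hw, List.take_append_of_le_length hlt.le] at hwe'
        exact hwe'
      · exact heq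
      · exfalso
        refine hmin X1.length hz1 hlt ?_
        rw [tr _ (by omega) (by omega)]
        have e6 : X1.length + d.c k - d.c k = X1.length := by omega
        rw [e6]; exact hA1
    subst hee
    have hsplit : P' ++ w.drop (d.c k) = (P' ++ X1.drop (d.c k)) ++ X2 := by
      rw [hw, List.drop_append_of_le_length (by omega), List.append_assoc]
    have hl1' : (P' ++ X1.drop (d.c k)).length = X1.length := by
      rw [List.length_append, List.length_drop, hP']; omega
    have htk : (P' ++ w.drop (d.c k)).take X1.length = P' ++ X1.drop (d.c k) := by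
      rw [hsplit, ← hl1', List.take_left]
    rw [htk] at heX hG
    refine ⟨P' ++ X1.drop (d.c k), ⟨heX, hG⟩, X2, h2, hsplit, ?_⟩
    -- equality of the zone maps
    have hkey : ∀ (x'' : V) (P'' : List α), P''.length = d.c k → d.lam2 k P'' = some x'' →
        ∀ b, d.rho2 k ((X1.take d.p0).drop (d.c k)) = some b →
        d.T x'' (P'' ++ X1.drop (d.c k)) = d.act b (d.pr (X1.drop d.p0)) + d.nu1 (X1.drop d.p0) := by
      intro x'' P'' hl'' hlam'' b hb
      have e7 : (P'' ++ X1.drop (d.c k)).take d.p0 = P'' ++ (X1.take d.p0).drop (d.c k) := by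
        rw [List.take_append, List.take_of_length_le (by omega), List.drop_take, hl'']
      have e8 : (P'' ++ X1.drop (d.c k)).drop d.p0 = X1.drop d.p0 := by
        rw [List.drop_append, List.drop_eq_nil_of_le (by omega), List.nil_append, hl'',
          List.drop_drop]
        congr 1; omega
      unfold D.T
      rw [e7, e8, ← h.g2s k hkK P'' _ x'' b hl'' hlam'' hb]
    obtain ⟨b, hb⟩ := Option.isSome_iff_exists.1 hrhok
    have hX1 : X1 = (X1.take d.p0).take (d.c k) ++ X1.drop (d.c k) := by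
      rw [List.take_take, min_eq_left hck, List.take_append_drop]
    have hT1 : d.T x X1 = d.act b (d.pr (X1.drop d.p0)) + d.nu1 (X1.drop d.p0) := by
      conv_lhs => rw [hX1]
      exact hkey x _ (by rw [List.length_take]; omega) hlamk b hb
    rw [hkey x' P' hP' hlam' b hb, hT1]
  · exfalso
    apply hkU
    refine Finset.mem_image.2 ⟨(k, k'), ?_, rfl⟩
    simp only [U, Finset.mem_filter, Finset.mem_product, Finset.mem_range]
    exact ⟨⟨hkK, hk'K⟩, hkk, P', e, hP', hez, het, heX, hmin, hwe, hG⟩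

end Crest.Agent.R320.Joint_894
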