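import Crest.Agent.R320.Top5_110

/-!
# Row 320: the joint (helper942): natural chain of left-looking walls, black box gadget 1,
exact gadget 2 at the places `c k`, semantic right words of helper110 : `C1` and `C2` of `top_sem`.
-/

set_option autoImplicit false

namespace Crest.Agent.R320.Joint942

open Crest.Agent.R320.Hk_851 Crest.Agent.R320.Code110

universe u

variable {α : Type u} {S : Type*} [Monoid S] {V : Type*} [AddCommGroup V]

/-- blocks: up to the first wall at a place `≥ z` -/
def XX (Wo : List α → Prop) (z : ℕ) : Language α :=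
  {X | z ≤ X.length ∧ Wo X ∧ ∀ t, z ≤ t → t < X.length → ¬ Wo (X.take t)}

/-- wall in the band -/
def EB (Wo : List α → Prop) (z N : ℕ) (X : List α) : Prop :=
  ∃ t, z ≤ t + N ∧ t < z + N ∧ t ≤ X.length ∧ Wo (X.take t)

/-- bad blocks -/
def Bad (Wo : List α → Prop) (z N p0 : ℕ) (BadT : ℕ → Prop) : Language α :=
  {X | X ∈ XX Wo z ∧ (EB Wo z N X ∨ BadT (X.length - p0))}

/-- block map -/
def TT (φ : List α → S) (act : V → S → V) (p0 : ℕ) (nu nu2 : List α → V) (X : List α) (v : V) : V :=
  act (act v (φ (X.take p0)) + nu2 (X.take p0)) (φ (X.drop p0)) + nu (X.drop p0)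

/-- left words of scheme 1 -/
def L1 (φ : List α → S) (act : V → S → V) (p0 : ℕ) (nu2 : List α → V) (lam : List α → Option V)
    (v : V) : Language α :=
  {P | p0 ≤ P.length ∧ lam (P.drop p0) = some (act v (φ (P.take p0)) + nu2 (P.take p0))}

/-- left words of scheme 2 -/
def L2 (K : ℕ) (c : ℕ → ℕ) (lam2 : ℕ → List α → Option V) (v : V) : Language α :=
  {P | ∃ k, k < K ∧ P.length = c k ∧ lam2 k P = some v}

variable {Wo : List α → Prop} {z N p0 n W K Y0 C0 : ℕ} {BadT : ℕ → Prop}
  {φ : List α → S} {act : V → S → V} {nu nu2 : List α → V} {lam rho : List α → Option V}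
  {c : ℕ → ℕ} {lam2 rho2 : ℕ → List α → Option V}

theorem pc_XX (hz : 0 < z) : PC (XX Wo z) := by
  refine ⟨?_, ?_⟩
  · rintro ⟨h, _, _⟩
    simp at h; omega
  · rintro u ⟨h1, h2, h3⟩ v ⟨h4, h5, h6⟩ ⟨t, rfl⟩
    by_contra hne
    have ht : 0 < t.length := by
      rcases Nat.eq_zero_or_pos t.length with h0 | h0
      · exact (hne (by rw [List.length_eq_zero_iff.1 h0, List.append_nil])).elim
      · exact h0
    refine h6 u.length h1 (by rw [List.length_append]; omega) ?_
    rw [List.take_left']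
    · exact h2
    · rfl

theorem wo_swap (hloc : ∀ P Q : List α, n ≤ Q.length → (Wo (P ++ Q) ↔ Wo Q)) (P P' Q : List α)
    (h : n ≤ Q.length) : Wo (P ++ Q) ↔ Wo (P' ++ Q) := by
  rw [hloc P Q h, hloc P' Q h]

theorem take_app (P Q : List α) {t : ℕ} (h : P.length ≤ t) :
    (P ++ Q).take t = P ++ Q.take (t - P.length) := by
  rw [List.take_append, List.take_of_length_le h]

/-- replacing the left part of a block -/
theorem swap_XX (hloc : ∀ P Q : List α, n ≤ Q.length → (Wo (P ++ Q) ↔ Wo Q)) {P P' q : List α}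
    {m : ℕ} (hX : P ++ q ∈ XX Wo z) (hP : P.length ≤ m) (hP' : P'.length ≤ m) (hmz : m + n ≤ z)
    (hlen : z ≤ (P' ++ q).length)
    (hno : ∀ t, z ≤ t + (P'.length - P.length) → t < z → ¬ Wo ((P ++ q).take t)) :
    P' ++ q ∈ XX Wo z := by
  obtain ⟨h1, h2, h3⟩ := hX
  rw [List.length_append] at h1 hlen
  refine ⟨by rw [List.length_append]; exact hlen, ?_, ?_⟩
  · rw [wo_swap hloc P' P q (by omega)]
    exact h2
  · intro t ht1 ht2 hw
    rw [List.length_append] at ht2
    rw [take_app P' q (by omega)] at hw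
    have hl : (q.take (t - P'.length)).length = t - P'.length := by
      rw [List.length_take]; omega
    rw [wo_swap hloc P' P _ (by rw [hl]; omega)] at hw
    have e : P ++ q.take (t - P'.length) = (P ++ q).take (P.length + (t - P'.length)) := by
      rw [take_app P q (by omega)]
      congr 2
      omega
    rw [e] at hw
    rcases Nat.lt_or_ge (P.length + (t - P'.length)) z with hlt | hge
    · exact hno _ (by omega) hlt hw
    · exact h3 _ hge (by rw [List.length_append]; omega) hw

omit [Monoid S] in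
/-- **C1**: completeness of scheme 1 in the semantic form. -/
theorem C1 (hloc : ∀ P Q : List α, n ≤ Q.length → (Wo (P ++ Q) ↔ Wo Q))
    (hlam : ∀ p v, lam p = some v → p.length < N)
    (hsound : ∀ p q v r, lam p = some v → rho q = some r → r = act v (φ (p ++ q)) + nu (p ++ q))
    (hcompl : ∀ u : List α, Y0 ≤ u.length → ¬ BadT u.length → ∀ v, ∃ p q r, u = p ++ q ∧
      lam p = some v ∧ rho q = some r)
    (hz : p0 + N + n ≤ z) (hz2 : p0 + Y0 ≤ z) (X : List α) (hX : X ∈ XX Wo z)
    (hB : X ∉ Bad Wo z N p0 BadT) (x : V) :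
    ∃ p q y, X = p ++ q ∧ p ∈ L1 φ act p0 nu2 lam x ∧
      q ∈ Rsem (XX Wo z) (XX Wo z) (TT φ act p0 nu nu2) 0 (L1 φ act p0 nu2 lam) y := by
  have hX' := hX
  obtain ⟨h1, h2, h3⟩ := hX
  have hE : ¬ EB Wo z N X := fun h => hB ⟨hX', Or.inl h⟩
  have hT : ¬ BadT (X.length - p0) := fun h => hB ⟨hX', Or.inr h⟩
  have hlX : z + N ≤ X.length := by
    by_contra hlt
    exact hE ⟨X.length, by omega, by omega, le_rfl, by rwa [List.take_length]⟩
  obtain ⟨p, q, r, hpq, hp, hq⟩ := hcompl (X.drop p0) (by rw [List.length_drop]; omega)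
    (by rwa [List.length_drop]) (act x (φ (X.take p0)) + nu2 (X.take p0))
  have hlt : (X.take p0).length = p0 := by rw [List.length_take]; omega
  have hXe : X = (X.take p0 ++ p) ++ q := by
    rw [List.append_assoc, ← hpq, List.take_append_drop]
  have hpN := hlam p _ hp
  refine ⟨X.take p0 ++ p, q, r, hXe, ⟨by rw [List.length_append]; omega, ?_⟩, ?_⟩
  · rw [List.drop_left' hlt, List.take_left' hlt]
    exact hp
  · intro x' P' hP'
    obtain ⟨hP1, hP2⟩ := hP'
    left
    have hPN := hlam _ _ hP2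
    rw [List.length_drop] at hPN
    have hlq : X.length = p0 + p.length + q.length := by
      have := congrArg List.length hXe
      rw [List.length_append, List.length_append, hlt] at this
      omega
    have hPl : (X.take p0 ++ p).length = p0 + p.length := by
      rw [List.length_append, hlt]
    have hmem : P' ++ q ∈ XX Wo z := by
      refine swap_XX (P := X.take p0 ++ p) (m := p0 + N) hloc (hXe ▸ hX')
        (by omega) (by omega) (by omega)
        (by rw [List.length_append]; omega) ?_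
      intro t ht1 ht2 hw
      rw [hPl] at ht1
      rw [← hXe] at hw
      exact hE ⟨t, by omega, by omega, by omega, hw⟩
    refine ⟨r, Language.mem_mul.2 ⟨P' ++ q, ⟨hmem, ?_⟩, [], ⟨rfl, rfl⟩, by simp⟩⟩
    show TT φ act p0 nu nu2 (P' ++ q) x' = r
    unfold TT
    rw [List.take_append_of_le_length hP1, List.drop_append_of_le_length hP1]
    exact (hsound _ _ _ _ hP2 hq).symm

/-- `k''` is bad for the place `k` of `U` -/
def BadAt (Wo : List α → Prop) (z N p0 : ℕ) (BadT : ℕ → Prop) (c : ℕ → ℕ) (U : List α)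
    (k k'' : ℕ) : Prop :=
  ∃ P'' X'' : List α, P''.length = c k'' ∧ X'' ∈ Bad Wo z N p0 BadT ∧ X'' <+: P'' ++ U.drop (c k)

/-- positions of `BadAt` in `U` -/
theorem badAt_pos (hloc : ∀ P Q : List α, n ≤ Q.length → (Wo (P ++ Q) ↔ Wo Q))
    (hcp : ∀ k < K, c k ≤ p0) (hz : 2 * p0 + N + n ≤ z) {U : List α} {k k'' : ℕ} (hk : k < K)
    (hk'' : k'' < K) (hU : c k ≤ U.length) (h : BadAt Wo z N p0 BadT c U k k'') :
    ∃ e, z + c k ≤ e + c k'' ∧ e ≤ U.length ∧ Wo (U.take e) ∧
      (∀ t, z + c k ≤ t + c k'' → t < e → ¬ Wo (U.take t)) ∧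
      ((∃ t, z + c k ≤ t + c k'' + N ∧ t + c k'' < z + N + c k ∧ t ≤ U.length ∧ Wo (U.take t)) ∨
        BadT (e + c k'' - c k - p0)) := by
  obtain ⟨P'', X'', hP, ⟨⟨h1, h2, h3⟩, hb⟩, hpre⟩ := h
  have hck := hcp k hk
  have hck'' := hcp k'' hk''
  obtain ⟨r, hr⟩ := hpre
  have hlen : X''.length + r.length = c k'' + (U.length - c k) := by
    have := congrArg List.length hr
    rw [List.length_append, List.length_append, hP, List.length_drop] at this
    exact this
  -- transfer of walls
  have key : ∀ t, c k'' + n ≤ t → t ≤ X''.length →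
      (Wo (X''.take t) ↔ Wo (U.take (t - c k'' + c k))) := by
    intro t ht1 ht2
    have e1 : X''.take t = P'' ++ (U.drop (c k)).take (t - c k'') := by
      have e2 : X''.take t = (X'' ++ r).take t := by
        rw [List.take_append_of_le_length ht2]
      rw [e2, hr, take_app _ _ (by omega), hP]
    have e3 : U.take (t - c k'' + c k) = U.take (c k) ++ (U.drop (c k)).take (t - c k'') := by
      rw [add_comm, List.take_add]
    rw [e1, e3]
    apply wo_swap hloc
    rw [List.length_take, List.length_drop]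
    omega
  have hXl : X''.length ≤ c k'' + (U.length - c k) := by omega
  refine ⟨X''.length - c k'' + c k, by omega, by omega, ?_, ?_, ?_⟩
  · rw [← key X''.length (by omega) le_rfl, List.take_length]
    exact h2
  · intro t ht1 ht2 hw
    have h4 := h3 (t + c k'' - c k) (by omega) (by omega)
    rw [key _ (by omega) (by omega)] at h4
    apply h4
    have : t + c k'' - c k - c k'' + c k = t := by omega
    rw [this]; exact hw
  · rcases hb with ⟨t, ht1, ht2, ht3, ht4⟩ | hb
    · left
      refine ⟨t - c k'' + c k, by omega, by omega, by omega, ?_⟩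
      rwa [← key t (by omega) ht3]
    · right
      have : X''.length - c k'' + c k + c k'' - c k - p0 = X''.length - p0 := by omega
      rw [this]; exact hb

open Classical in
/-- the spoiling count -/
theorem spoil_count (hloc : ∀ P Q : List α, n ≤ Q.length → (Wo (P ++ Q) ↔ Wo Q))
    (hgap : ∀ (P : List α) (d : ℕ), Wo P → 0 < d → d ≤ W → ¬ Wo (P.take (P.length - d)))
    (hcp : ∀ k < K, c k ≤ p0) (hz : 3 * p0 + 2 * N + n + Y0 ≤ z) (hW : 2 * (p0 + N) ≤ W)
    (hwide : ∀ i j i' j' : ℕ, i < K → j < K → i' < K → j' < K → i ≠ j → i' ≠ j' →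
      c j + c i' ≤ c j' + c i + 2 * N → c j' + c i ≤ c j + c i' + 2 * N → i = i' ∧ j = j')
    (hthin : ∀ T, Y0 ≤ T → (((Finset.range K ×ˢ Finset.range K).filter
      (fun q => q.1 ≠ q.2 ∧ BadT (T + c q.2 - c q.1))).card ≤ C0))
    {U : List α} (hU : z ≤ U.length) (hwU : ∃ t, z ≤ t ∧ t ≤ U.length ∧ Wo (U.take t)) :
    ((Finset.range K ×ˢ Finset.range K).filter
      (fun q => q.1 ≠ q.2 ∧ BadAt Wo z N p0 BadT c U q.1 q.2)).card ≤ 1 + (C0 + C0) := by
  obtain ⟨t', ht1', ht2', ht3'⟩ := hwU
  have hex : ∃ t, z ≤ t + (p0 + N) ∧ t ≤ U.length ∧ Wo (U.take t) := ⟨t', by omega, ht2', ht3'⟩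
  obtain ⟨w0, hw0, hw0min⟩ : ∃ w0, (z ≤ w0 + (p0 + N) ∧ w0 ≤ U.length ∧ Wo (U.take w0)) ∧
      ∀ t, z ≤ t + (p0 + N) → t ≤ U.length → Wo (U.take t) → w0 ≤ t :=
    ⟨Nat.find hex, Nat.find_spec hex, fun t a b d => Nat.find_min' hex ⟨a, b, d⟩⟩
  obtain ⟨ha1, ha2, ha3⟩ := hw0
  -- gap in U
  have hgU : ∀ s t, s < t → t ≤ U.length → Wo (U.take s) → Wo (U.take t) → W < t - s := by
    intro s t hst ht hs hwt
    by_contra hle
    have := hgap (U.take t) (t - s) hwt (by omega) (by omega)
    rw [List.length_take, List.take_take] at this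
    apply this
    have : min (min t U.length - (t - s)) t = s := by omega
    rw [this]; exact hs
  -- next wall
  obtain ⟨w1, hw1⟩ : ∃ w1, ∀ t, w0 < t → t ≤ U.length → Wo (U.take t) →
      (∀ s, w0 < s → s < t → ¬ Wo (U.take s)) → t = w1 := by
    by_cases hex1 : ∃ t, w0 < t ∧ t ≤ U.length ∧ Wo (U.take t) ∧
      (∀ s, w0 < s → s < t → ¬ Wo (U.take s))
    · obtain ⟨w1, b1, b2, b3, b4⟩ := hex1
      refine ⟨w1, fun t c1 c2 c3 c4 => ?_⟩
      rcases lt_trichotomy t w1 with h | h | h
      · exact (b4 t c1 h c3).elim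
      · exact h
      · exact (c4 w1 b1 h b3).elim
    · refine ⟨0, fun t c1 c2 c3 c4 => (hex1 ⟨t, c1, c2, c3, c4⟩).elim⟩
  let F1 := (Finset.range K ×ˢ Finset.range K).filter
    (fun q => q.1 ≠ q.2 ∧ z + c q.1 ≤ w0 + c q.2 + N ∧ w0 + c q.2 < z + N + c q.1)
  let F2 := (Finset.range K ×ˢ Finset.range K).filter
    (fun q => q.1 ≠ q.2 ∧ BadT ((w0 - p0) + c q.2 - c q.1))
  let F3 := (Finset.range K ×ˢ Finset.range K).filter
    (fun q => q.1 ≠ q.2 ∧ Y0 ≤ w1 - p0 ∧ BadT ((w1 - p0) + c q.2 - c q.1))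
  have hF1 : F1.card ≤ 1 := by
    rw [Finset.card_le_one]
    intro a ha b hb
    simp only [F1, Finset.mem_filter, Finset.mem_product, Finset.mem_range] at ha hb
    obtain ⟨⟨a1, a2⟩, a3, a4, a5⟩ := ha
    obtain ⟨⟨b1, b2⟩, b3, b4, b5⟩ := hb
    have := hwide a.1 a.2 b.1 b.2 a1 a2 b1 b2 a3 b3 (by omega) (by omega)
    exact Prod.ext this.1 this.2
  have hF2 : F2.card ≤ C0 := hthin (w0 - p0) (by omega)
  have hF3 : F3.card ≤ C0 := by
    by_cases h : Y0 ≤ w1 - p0
    · refine le_trans (Finset.card_le_card ?_) (hthin (w1 - p0) h)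
      intro q hq
      simp only [F3, Finset.mem_filter] at hq
      rw [Finset.mem_filter]
      exact ⟨hq.1, hq.2.1, hq.2.2.2⟩
    · have : F3 = ∅ := by
        apply Finset.filter_eq_empty_iff.2
        intro q _ hq
        exact h hq.2.1
      rw [this]; simp
  refine le_trans (Finset.card_le_card (t := F1 ∪ (F2 ∪ F3)) ?_)
    ((Finset.card_union_le _ _).trans (add_le_add hF1
      ((Finset.card_union_le _ _).trans (add_le_add hF2 hF3))))
  intro q hq
  rw [Finset.mem_filter, Finset.mem_product, Finset.mem_range, Finset.mem_range] at hq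
  obtain ⟨⟨q1, q2⟩, q3, q4⟩ := hq
  have hc1 := hcp _ q1
  have hc2 := hcp _ q2
  obtain ⟨e, e1, e2, e3, e4, e5⟩ := badAt_pos hloc hcp (by omega) q1 q2 (by omega) q4
  rcases e5 with ⟨t, t1, t2, t3, t4⟩ | e5
  · -- band
    have h0 : w0 ≤ t := hw0min t (by omega) t3 t4
    have ht : t = w0 := by
      rcases Nat.lt_or_ge w0 t with h | h
      · have := hgU w0 t h t3 ha3 t4
        omega
      · omega
    subst ht
    apply Finset.mem_union_left
    rw [Finset.mem_filter, Finset.mem_product, Finset.mem_range, Finset.mem_range]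
    exact ⟨⟨q1, q2⟩, q3, t1, t2⟩
  · have h0 : w0 ≤ e := hw0min e (by omega) e2 e3
    apply Finset.mem_union_right
    rcases Nat.lt_or_ge w0 e with h | h
    · -- e is the next wall
      have hge : w0 + c q.2 < z + c q.1 := by
        by_contra hc
        exact e4 w0 (by omega) h ha3
      have hew : e = w1 := by
        apply hw1 e h e2 e3
        intro s s1 s2 s3
        by_cases hs : z + c q.1 ≤ s + c q.2
        · exact e4 s hs s2 s3
        · have := hgU w0 s s1 (by omega) ha3 s3
          omega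
      subst hew
      apply Finset.mem_union_right
      rw [Finset.mem_filter, Finset.mem_product, Finset.mem_range, Finset.mem_range]
      refine ⟨⟨q1, q2⟩, q3, by omega, ?_⟩
      have : e - p0 + c q.2 - c q.1 = e + c q.2 - c q.1 - p0 := by omega
      rw [this]; exact e5
    · have hew : e = w0 := by omega
      subst hew
      apply Finset.mem_union_left
      rw [Finset.mem_filter, Finset.mem_product, Finset.mem_range, Finset.mem_range]
      refine ⟨⟨q1, q2⟩, q3, ?_⟩
      have : e - p0 + c q.2 - c q.1 = e + c q.2 - c q.1 - p0 := by omega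
      rw [this]; exact e5

/-- every long word ending in a wall has a block as prefix -/
theorem exists_block (P : List α) (h : ∃ t, z ≤ t ∧ t ≤ P.length ∧ Wo (P.take t)) :
    ∃ X ∈ XX Wo z, X <+: P := by
  classical
  obtain ⟨h1, h2, h3⟩ := Nat.find_spec h
  refine ⟨P.take (Nat.find h), ⟨?_, h3, ?_⟩, List.take_prefix _ _⟩
  · rw [List.length_take]; omega
  · intro t ht1 ht2 hw
    rw [List.length_take] at ht2
    rw [List.take_take, min_eq_left (by omega)] at hw
    exact Nat.find_min h (m := t) (by omega) ⟨ht1, by omega, hw⟩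

/-- **C2**: completeness of scheme 2 in the semantic form. -/
theorem C2 (hloc : ∀ P Q : List α, n ≤ Q.length → (Wo (P ++ Q) ↔ Wo Q))
    (hgap : ∀ (P : List α) (d : ℕ), Wo P → 0 < d → d ≤ W → ¬ Wo (P.take (P.length - d)))
    (hcp : ∀ k < K, c k ≤ p0) (hz : 3 * p0 + 2 * N + n + Y0 ≤ z) (hW : 2 * (p0 + N) ≤ W)
    (hwide : ∀ i j i' j' : ℕ, i < K → j < K → i' < K → j' < K → i ≠ j → i' ≠ j' →
      c j + c i' ≤ c j' + c i + 2 * N → c j' + c i ≤ c j + c i' + 2 * N → i = i' ∧ j = j')
    (hthin : ∀ T, Y0 ≤ T → ∀ F : Finset (ℕ × ℕ), (∀ q ∈ F, q.1 < K ∧ q.2 < K ∧ q.1 ≠ q.2 ∧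
      BadT (T + c q.2 - c q.1)) → F.card ≤ C0)
    (hs2 : ∀ k < K, ∀ (P Q : List α) (v b : V), P.length = c k → lam2 k P = some v →
      rho2 k Q = some b → b = act v (φ (P ++ Q)) + nu2 (P ++ Q))
    (hc2 : ∀ (u : List α) (v : V), (∀ k < K, c k ≤ u.length) →
      ∃ I : Finset ℕ, 2 * C0 + 2 ≤ I.card ∧ ∀ k ∈ I, k < K ∧ lam2 k (u.take (c k)) = some v ∧
        (rho2 k (u.drop (c k))).isSome)
    (X : List α) (hX : X ∈ Bad Wo z N p0 BadT) (x : V) (X2 : List α)
    (hX2 : X2 ∈ Bad Wo z N p0 BadT) :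
    ∃ p q y, X ++ X2 = p ++ q ∧ p ∈ L2 K c lam2 x ∧
      q ∈ Rsem (XX Wo z) (Bad Wo z N p0 BadT) (TT φ act p0 nu nu2) 1 (L2 K c lam2) y := by
  classical
  have hXX := hX.1
  obtain ⟨h1, h2, h3⟩ := hX.1
  obtain ⟨g1, g2, g3⟩ := hX2.1
  have hlt : (X.take p0).length = p0 := by rw [List.length_take]; omega
  obtain ⟨I, hI, hI2⟩ := hc2 (X.take p0) x (fun k hk => by rw [hlt]; exact hcp k hk)
  -- the unspoiled place
  have hthin' : ∀ T, Y0 ≤ T → (((Finset.range K ×ˢ Finset.range K).filter
      (fun q => q.1 ≠ q.2 ∧ BadT (T + c q.2 - c q.1))).card ≤ C0) := by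
    intro T hT
    refine hthin T hT _ fun q hq => ?_
    rw [Finset.mem_filter, Finset.mem_product, Finset.mem_range, Finset.mem_range] at hq
    exact ⟨hq.1.1, hq.1.2, hq.2.1, hq.2.2⟩
  have hcount := spoil_count (U := X ++ X2) hloc hgap hcp hz hW hwide hthin'
    (by rw [List.length_append]; omega)
    ⟨X.length, h1, by rw [List.length_append]; omega, by rw [List.take_left']; exacts [h2, rfl]⟩
  set F := (Finset.range K ×ˢ Finset.range K).filter
      (fun q => q.1 ≠ q.2 ∧ BadAt Wo z N p0 BadT c (X ++ X2) q.1 q.2) with hF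
  have hlt2 : (F.image Prod.fst).card < I.card :=
    lt_of_le_of_lt (Finset.card_image_le.trans hcount) (by omega)
  obtain ⟨k, hkI, hkF⟩ := Finset.exists_mem_notMem_of_card_lt_card hlt2
  obtain ⟨hkK, hlam, hrho⟩ := hI2 k hkI
  have hck := hcp k hkK
  obtain ⟨b, hb⟩ := Option.isSome_iff_exists.1 hrho
  rw [List.take_take, min_eq_left hck] at hlam
  have hlk : (X.take (c k)).length = c k := by rw [List.length_take]; omega
  have hsplit : X.take (c k) ++ X.drop (c k) = X := List.take_append_drop _ _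
  have hq1 : (X.take p0).drop (c k) = (X.drop (c k)).take (p0 - c k) := by
    rw [List.drop_take]
  have hval : act x (φ (X.take p0)) + nu2 (X.take p0) = b := by
    have := hs2 k hkK (X.take (c k)) ((X.take p0).drop (c k)) x b hlk hlam hb
    have e : X.take (c k) ++ (X.take p0).drop (c k) = X.take p0 := by
      have e1 := List.take_append_drop (c k) (X.take p0)
      rwa [List.take_take, min_eq_left hck] at e1
    rw [e] at this
    exact this.symm
  refine ⟨X.take (c k), X.drop (c k) ++ X2,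
    TT φ act p0 nu nu2 X2 (TT φ act p0 nu nu2 X x), ?_, ⟨k, hkK, hlk, hlam⟩, ?_⟩
  · rw [← List.append_assoc, hsplit]
  · rintro x' P' ⟨k', hk', hlen', hlam'⟩
    by_cases hkk : k' = k
    · subst hkk
      have hX'XX : P' ++ X.drop (c k') ∈ XX Wo z := by
        refine swap_XX (P := X.take (c k')) (m := p0) hloc (hsplit.symm ▸ hXX) (by omega)
          (by omega) (by omega) (by rw [List.length_append, List.length_drop]; omega) ?_
        intro t ht1 ht2
        rw [hlk, hlen'] at ht1
        omega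
      have htk : (P' ++ X.drop (c k')).take p0 = P' ++ (X.take p0).drop (c k') := by
        rw [take_app _ _ (by omega), hlen', hq1]
      have hdr : (P' ++ X.drop (c k')).drop p0 = X.drop p0 := by
        rw [List.drop_append, List.drop_of_length_le (by omega), List.nil_append, List.drop_drop,
          hlen']
        congr 1; omega
      have hTT : TT φ act p0 nu nu2 (P' ++ X.drop (c k')) x' = TT φ act p0 nu nu2 X x := by
        unfold TT
        rw [htk, hdr, hval, ← hs2 k' hkK P' _ x' b hlen' hlam' hb]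
      by_cases hbad : P' ++ X.drop (c k') ∈ Bad Wo z N p0 BadT
      · left
        rw [← List.append_assoc]
        refine ⟨TT φ act p0 nu nu2 X x, Language.mem_mul.2 ⟨_, ⟨hbad, hTT⟩, X2, ?_, rfl⟩⟩
        exact ⟨_, Language.mem_mul.2 ⟨X2, ⟨hX2, rfl⟩, [], ⟨rfl, rfl⟩, by simp⟩⟩
      · right
        left
        refine ⟨_, hX'XX, hbad, ⟨X2, ?_⟩⟩
        rw [List.append_assoc]
    · right
      left
      obtain ⟨X'', hX'', hpre⟩ := exists_block (Wo := Wo) (z := z) (P' ++ (X.drop (c k) ++ X2))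
        ⟨(P' ++ (X.drop (c k) ++ X2)).length, by simp only [List.length_append]; omega, le_rfl, by
          rw [List.take_length, ← List.append_assoc, hloc _ _ (by omega)]
          exact g2⟩
      refine ⟨X'', hX'', ?_, hpre⟩
      intro hbad
      apply hkF
      rw [Finset.mem_image]
      refine ⟨(k, k'), ?_, rfl⟩
      rw [hF, Finset.mem_filter, Finset.mem_product, Finset.mem_range, Finset.mem_range]
      refine ⟨⟨hkK, hk'⟩, fun h => hkk h.symm, P', X'', hlen', hbad, ?_⟩
      show X'' <+: P' ++ List.drop (c k) (X ++ X2)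
      rw [List.drop_append_of_le_length (by omega)]
      exact hpre

end Crest.Agent.R320.Joint942
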