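import Crest.Agent.R320.P3_943
import Crest.Agent.R320.Fib_835

/-!
Row 320, helper943: geometry of the natural chain (835's left-looking walls): scheme 1 in semantic
form, the spoil count, EX and LOC for `P3_943.scheme2`.
-/

set_option autoImplicit false
set_option linter.unusedVariables false

namespace Crest.Agent.R320.Joint_943

open Finset
open Crest.Agent.R320.Fib_835 (XX NX Walls mem_NX prefix_code)
open Crest.Agent.R320.P3_943 (Cand TT)

variable {A : Type} {Wo : List A → Prop} {n B W : ℕ}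

theorem wo_take (h : Walls Wo n B W) {P Q : List A} {t : ℕ} (ht : n ≤ t) (ht' : t ≤ Q.length) :
    Wo ((P ++ Q).take (P.length + t)) ↔ Wo (Q.take t) := by
  have : (P ++ Q).take (P.length + t) = P ++ Q.take t := by
    rw [List.take_append]
    simp [List.take_of_length_le]
  rw [this]
  exact h.loc _ _ (by rw [List.length_take]; omega)

/-- bad blocks -/
def BadB (Wo : List A → Prop) (BT : ℤ → Prop) (p0 N1 z : ℕ) (X : List A) : Prop :=
  (∃ t, z ≤ t + N1 ∧ t ≤ z + N1 ∧ t ≤ X.length ∧ Wo (X.take t)) ∨ BT ((X.length : ℤ) - p0)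

section scheme1
variable {S V : Type} [Monoid S] [AddCommGroup V]

/-- left words of scheme 1 -/
def L1 (φ : List A → S) (act : V → S → V) (nu2 : List A → V) (lam : List A → Option V) (p0 : ℕ)
    (v : V) (P : List A) : Prop :=
  ∃ X0 P1, P = X0 ++ P1 ∧ X0.length = p0 ∧ lam P1 = some (act v (φ X0) + nu2 X0)

theorem sem1 (h : Walls Wo n B W) (φ : List A → S) (act : V → S → V) (nu2 nu1 : List A → V)
    (lam rho : List A → Option V) (BT : ℤ → Prop) (p0 N1 z : ℕ)
    (hex1 : ∀ P Q v r, lam P = some v → rho Q = some r → r = act v (φ (P ++ Q)) + nu1 (P ++ Q))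
    (hlen1 : ∀ P v, lam P = some v → P.length ≤ N1)
    (hcp1 : ∀ Y : List A, ¬ BT (Y.length : ℤ) → 2 * N1 ≤ Y.length →
      ∀ v, ∃ P Q, P ++ Q = Y ∧ lam P = some v ∧ (rho Q).isSome)
    (hz : p0 + n + 3 * N1 + 1 ≤ z) {X : List A} (hX : X ∈ XX Wo z)
    (hB : ¬ BadB Wo BT p0 N1 z X) (v : V) :
    ∃ P Q, X = P ++ Q ∧ L1 φ act nu2 lam p0 v P ∧ ∃ y, ∀ v' P', L1 φ act nu2 lam p0 v' P' →
      P' ++ Q ∈ XX Wo z ∧ TT φ act nu2 nu1 p0 v' (P' ++ Q) = y := by
  obtain ⟨hzl, hW, hno⟩ := hX
  have hlong : z + N1 < X.length := by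
    by_contra hlt
    exact hB (Or.inl ⟨X.length, by omega, by omega, le_rfl, by rwa [List.take_length]⟩)
  have hYl : (X.drop p0).length = X.length - p0 := List.length_drop
  obtain ⟨P1, Q, hY, hl, hr⟩ := hcp1 (X.drop p0) (by
    intro hb
    apply hB
    right
    have : ((X.drop p0).length : ℤ) = (X.length : ℤ) - p0 := by rw [hYl]; omega
    rwa [this] at hb) (by omega) (act v (φ (X.take p0)) + nu2 (X.take p0))
  have hPl : (X.take p0).length = p0 := by rw [List.length_take]; omega
  have hXe : X = (X.take p0 ++ P1) ++ Q := by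
    rw [List.append_assoc, hY, List.take_append_drop]
  have hP1 := hlen1 _ _ hl
  have hQl : X.length = p0 + P1.length + Q.length := by
    conv_lhs => rw [hXe]
    simp only [List.length_append, hPl]
  obtain ⟨y, hy⟩ := Option.isSome_iff_exists.1 hr
  refine ⟨X.take p0 ++ P1, Q, hXe, ⟨_, _, rfl, hPl, hl⟩, y, ?_⟩
  rintro v' P' ⟨X0, P1', rfl, hX0, hl'⟩
  have hP1' := hlen1 _ _ hl'
  have hWQ : Wo Q := by
    have := h.loc (X.take p0 ++ P1) Q (by omega)
    rw [← hXe] at this
    exact this.1 hW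
  refine ⟨⟨by simp only [List.length_append]; omega, (h.loc _ _ (by omega)).2 hWQ, ?_⟩, ?_⟩
  · intro t ht ht' hWt
    simp only [List.length_append] at ht'
    obtain ⟨s, rfl⟩ : ∃ s, t = (X0 ++ P1').length + s :=
      ⟨t - (X0 ++ P1').length, by simp only [List.length_append]; omega⟩
    simp only [List.length_append] at ht ht'
    rw [wo_take h (by omega) (by omega)] at hWt
    have h2 := wo_take h (P := X.take p0 ++ P1) (Q := Q) (t := s) (by omega) (by omega)
    rw [← hXe, List.length_append, hPl] at h2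
    have h3 := h2.2 hWt
    by_cases h4 : z ≤ p0 + P1.length + s
    · exact hno _ h4 (by omega) h3
    · exact hB (Or.inl ⟨_, by omega, by omega, by omega, h3⟩)
  · unfold TT
    rw [List.append_assoc, List.take_left' hX0, List.drop_left' hX0]
    exact (hex1 _ _ _ _ hl' hy).symm

end scheme1

/-- walls of a candidate block are walls of the true text -/
theorem transfer (h : Walls Wo n B W) {Txt u Y : List A} {a b t : ℕ} (hu : u.length = b)
    (hY : Y <+: u ++ Txt.drop a) (ha : a ≤ Txt.length) (ht : b + n ≤ t) (ht' : t ≤ Y.length) :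
    t - b + a ≤ Txt.length ∧ (Wo (Y.take t) ↔ Wo (Txt.take (t - b + a))) := by
  have hl := hY.length_le
  rw [List.length_append, List.length_drop, hu] at hl
  refine ⟨by omega, ?_⟩
  obtain ⟨r, hr⟩ := hY
  have e1 : Y.take t = (u ++ Txt.drop a).take (u.length + (t - b)) := by
    rw [← hr, List.take_append_of_le_length (by omega)]
    congr 1
    omega
  have e2 : Txt.take (t - b + a) = (Txt.take a ++ Txt.drop a).take
      ((Txt.take a).length + (t - b)) := by
    rw [List.take_append_drop, List.length_take]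
    congr 1
    omega
  have hd : (Txt.drop a).length = Txt.length - a := List.length_drop
  rw [e1, e2, wo_take h (by omega) (by omega), wo_take h (by omega) (by omega)]

theorem wall_unique (h : Walls Wo n B W) {Txt : List A} {s t : ℕ} (hs : s ≤ Txt.length)
    (ht : t ≤ Txt.length) (h1 : t ≤ s + W) (h2 : s ≤ t + W) (hWs : Wo (Txt.take s))
    (hWt : Wo (Txt.take t)) : s = t := by
  rcases lt_trichotomy s t with hlt | heq | hgt
  · exact absurd hWt (h.gap Txt s t hlt h1 ht hWs)
  · exact heq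
  · exact absurd hWs (h.gap Txt t s hgt h2 hs hWt)

/-- **the spoil count** -/
theorem count (h : Walls Wo n B W) (BT : ℤ → Prop) (K C0 p0 N1 z N : ℕ) (x : ℕ → ℕ)
    (hx : ∀ k < K, x k ≤ p0) (hW : 2 * (p0 + N1) ≤ W) (hz : p0 + n + 3 * N1 + 1 ≤ z)
    (hN : 2 * N1 ≤ N)
    (hres : ∀ i j k l, i < K → j < K → k < K → l < K → i ≠ j → k ≠ l → ¬ (i = k ∧ j = l) →
          (N:ℤ) < |((x i:ℤ) - x j) - ((x k:ℤ) - x l)|)
    (hsp : ∀ T : ℤ, ∀ [DecidablePred fun ab : ℕ × ℕ =>
            ab.1 ≠ ab.2 ∧ BT (T + x ab.2 - x ab.1)],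
          ((range K ×ˢ range K).filter fun ab : ℕ × ℕ =>
            ab.1 ≠ ab.2 ∧ BT (T + x ab.2 - x ab.1)).card ≤ C0)
    {X X2 : List A} (hX : X ∈ XX Wo z) (hX2 : X2 ∈ XX Wo z) (I : Finset ℕ)
    (hI : ∀ k ∈ I, k < K) (hcard : 2 * C0 + 2 ≤ I.card) :
    ∃ k ∈ I, ∀ k' < K, Cand x (XX Wo z) (BadB Wo BT p0 N1 z) k' ((X ++ X2).drop (x k)) →
      k' = k := by
  classical
  by_contra hcon
  push Not at hcon
  set Txt := X ++ X2 with hTxt
  have hTl : Txt.length = X.length + X2.length := List.length_append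
  have hXl : z ≤ X.length := hX.1
  have hX2l : z ≤ X2.length := hX2.1
  have hwX : Wo (Txt.take X.length) := by
    rw [hTxt, List.take_left' rfl]; exact hX.2.1
  have hwT : Wo (Txt.take Txt.length) := by
    rw [List.take_length, hTxt]; exact (h.loc _ _ (by omega)).2 hX2.2.1
  choose! f hfK hfC hfne using hcon
  -- first two walls
  have hex1 : ∃ t, z ≤ t + p0 ∧ t ≤ Txt.length ∧ Wo (Txt.take t) :=
    ⟨X.length, by omega, by omega, hwX⟩
  obtain ⟨a1, a2, a3⟩ := Nat.find_spec hex1
  have amin : ∀ t, t < Nat.find hex1 → ¬ (z ≤ t + p0 ∧ t ≤ Txt.length ∧ Wo (Txt.take t)) :=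
    fun t ht => Nat.find_min hex1 ht
  have ale : Nat.find hex1 ≤ X.length := Nat.find_min' hex1 ⟨by omega, by omega, hwX⟩
  set τ1 := Nat.find hex1 with hτ1
  have hex2 : ∃ t, τ1 < t ∧ t ≤ Txt.length ∧ Wo (Txt.take t) :=
    ⟨Txt.length, by omega, le_rfl, hwT⟩
  obtain ⟨b1, b2, b3⟩ := Nat.find_spec hex2
  have bmin : ∀ t, t < Nat.find hex2 → ¬ (τ1 < t ∧ t ≤ Txt.length ∧ Wo (Txt.take t)) :=
    fun t ht => Nat.find_min hex2 ht
  set τ2 := Nat.find hex2 with hτ2
  -- classification
  have hcls : ∀ k ∈ I, (∃ t s : ℕ, z ≤ t + N1 ∧ t ≤ z + N1 ∧ s ≤ Txt.length ∧ Wo (Txt.take s) ∧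
      s + x (f k) = t + x k) ∨
      BT ((((τ1 : ℤ) - p0) + x (f k) - x k)) ∨ BT ((((τ2 : ℤ) - p0) + x (f k) - x k)) := by
    intro k hk
    obtain ⟨u, Y, hu, ⟨hY1, hY2, hY3⟩, hYp, hbad⟩ := hfC k hk
    have hk1 := hx k (hI k hk)
    have hk2 := hx _ (hfK k hk)
    have haT : x k ≤ Txt.length := by omega
    rcases hbad with ⟨t, t1, t2, t3, t4⟩ | hbt
    · left
      obtain ⟨c1, c2⟩ := transfer h hu hYp haT (t := t) (by omega) t3
      exact ⟨t, t - x (f k) + x k, t1, t2, c1, c2.1 t4, by omega⟩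
    · right
      obtain ⟨c1, c2⟩ := transfer h hu hYp haT (t := Y.length) (by omega) le_rfl
      rw [List.take_length] at c2
      have c3 := c2.1 hY2
      set τ := Y.length - x (f k) + x k with hτ
      have hτe : τ + x (f k) = Y.length + x k := by omega
      have hnone : ∀ s, z + x k ≤ s + x (f k) → s < τ → ¬ Wo (Txt.take s) := by
        intro s hs1 hs2 hs3
        obtain ⟨d1, d2⟩ := transfer h hu hYp haT (t := s + x (f k) - x k) (by omega) (by omega)
        refine hY3 (s + x (f k) - x k) (by omega) (by omega) (d2.2 ?_)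
        have : s + x (f k) - x k - x (f k) + x k = s := by omega
        rw [this]; exact hs3
      have hτ12 : τ = τ1 ∨ τ = τ2 := by
        have g1 : τ1 ≤ τ := by
          by_contra hlt
          exact amin τ (by omega) ⟨by omega, c1, c3⟩
        rcases Nat.eq_or_lt_of_le g1 with h0 | hlt
        · exact Or.inl h0.symm
        right
        have g2 : τ2 ≤ τ := by
          by_contra hlt'
          exact bmin τ (by omega) ⟨hlt, c1, c3⟩
        rcases Nat.eq_or_lt_of_le g2 with h0 | hlt2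
        · exact h0.symm
        exfalso
        have g3 : τ2 + x (f k) < z + x k := by
          by_contra hge
          exact hnone τ2 (by omega) hlt2 b3
        have := wall_unique h a2 b2 (by omega) (by omega) a3 b3
        omega
      have e : (Y.length : ℤ) - p0 = ((τ : ℤ) - p0) + x (f k) - x k := by
        have : (τ : ℤ) + x (f k) = Y.length + x k := by exact_mod_cast hτe
        linarith
      rw [e] at hbt
      rcases hτ12 with h0 | h0
      · left; rw [← h0]; exact hbt
      · right; rw [← h0]; exact hbt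
  -- counting
  set IE := I.filter fun k => ∃ t s : ℕ, z ≤ t + N1 ∧ t ≤ z + N1 ∧ s ≤ Txt.length ∧
    Wo (Txt.take s) ∧ s + x (f k) = t + x k with hIE
  have cE : IE.card ≤ 1 := by
    rw [Finset.card_le_one]
    intro k hk l hl
    obtain ⟨hk0, t, s, e1, e2, e3, e4, e5⟩ := Finset.mem_filter.1 hk
    obtain ⟨hl0, t', s', e1', e2', e3', e4', e5'⟩ := Finset.mem_filter.1 hl
    by_contra hne
    have q1 := hx k (hI k hk0)
    have q2 := hx _ (hfK k hk0)
    have q3 := hx l (hI l hl0)
    have q4 := hx _ (hfK l hl0)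
    have hss : s = s' := wall_unique h e3 e3' (by omega) (by omega) e4 e4'
    have hr := hres k (f k) l (f l) (hI k hk0) (hfK k hk0) (hI l hl0) (hfK l hl0)
      (fun e => hfne k hk0 e.symm) (fun e => hfne l hl0 e.symm) (fun e => hne e.1)
    have hab : |((x k:ℤ) - x (f k)) - ((x l:ℤ) - x (f l))| ≤ 2 * N1 := by
      rw [abs_le]
      constructor <;> omega
    omega
  have cB : ∀ T : ℤ, (I.filter fun k => BT (T + x (f k) - x k)).card ≤ C0 := by
    intro T
    refine le_trans ?_ (hsp T)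
    refine Finset.card_le_card_of_injOn (fun k => (k, f k)) ?_ ?_
    · intro k hk
      obtain ⟨hk0, hk1⟩ := Finset.mem_filter.1 (Finset.mem_coe.1 hk)
      refine Finset.mem_coe.2 (Finset.mem_filter.2 ⟨Finset.mem_product.2
        ⟨Finset.mem_range.2 (hI k hk0), Finset.mem_range.2 (hfK k hk0)⟩,
        fun e => hfne k hk0 e.symm, hk1⟩)
    · intro k _ l _ hkl
      exact (Prod.ext_iff.1 hkl).1
  have hsub : I ⊆ IE ∪ ((I.filter fun k => BT (((τ1 : ℤ) - p0) + x (f k) - x k)) ∪
      (I.filter fun k => BT (((τ2 : ℤ) - p0) + x (f k) - x k))) := by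
    intro k hk
    rcases hcls k hk with h1 | h1 | h1
    · exact Finset.mem_union_left _ (Finset.mem_filter.2 ⟨hk, h1⟩)
    · exact Finset.mem_union_right _ (Finset.mem_union_left _ (Finset.mem_filter.2 ⟨hk, h1⟩))
    · exact Finset.mem_union_right _ (Finset.mem_union_right _ (Finset.mem_filter.2 ⟨hk, h1⟩))
  have c1 := Finset.card_le_card hsub
  have c2 := Finset.card_union_le IE ((I.filter fun k => BT (((τ1 : ℤ) - p0) + x (f k) - x k)) ∪
      (I.filter fun k => BT (((τ2 : ℤ) - p0) + x (f k) - x k)))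
  have c3 := Finset.card_union_le (I.filter fun k => BT (((τ1 : ℤ) - p0) + x (f k) - x k))
      (I.filter fun k => BT (((τ2 : ℤ) - p0) + x (f k) - x k))
  have c4 := cB ((τ1 : ℤ) - p0)
  have c5 := cB ((τ2 : ℤ) - p0)
  omega

/-- blocks do not read the first letters -/
theorem loc (h : Walls Wo n B W) {z p0 : ℕ} (hz : p0 + n ≤ z) (u u' Q : List A)
    (hl : u.length = u'.length) (hp : u.length ≤ p0) (hX : u ++ Q ∈ XX Wo z) :
    u' ++ Q ∈ XX Wo z := by
  obtain ⟨h1, h2, h3⟩ := hX
  rw [List.length_append] at h1 h3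
  refine ⟨by rw [List.length_append]; omega, ?_, ?_⟩
  · exact (h.loc _ _ (by omega)).2 ((h.loc _ _ (by omega)).1 h2)
  · intro t ht ht' hW
    rw [List.length_append] at ht'
    obtain ⟨s, rfl⟩ : ∃ s, t = u'.length + s := ⟨t - u'.length, by omega⟩
    rw [wo_take h (by omega) (by omega)] at hW
    have := wo_take h (P := u) (Q := Q) (t := s) (by omega) (by omega)
    rw [hl] at this
    exact h3 _ ht (by omega) (this.2 hW)

/-- a text ending in a block contains a block as a prefix -/
theorem exi (h : Walls Wo n B W) {z : ℕ} (hz : n ≤ z) (u Q1 X2 : List A) (hX2 : X2 ∈ XX Wo z) :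
    ∃ X ∈ XX Wo z, X <+: u ++ (Q1 ++ X2) := by
  by_contra hcon
  push Not at hcon
  have hn := (mem_NX (u ++ (Q1 ++ X2))).2 hcon
  have h1 := hX2.1
  refine hn (u ++ (Q1 ++ X2)).length ?_ le_rfl ?_
  · simp only [List.length_append]; omega
  · rw [List.take_length, ← List.append_assoc]
    exact (h.loc _ _ (by omega)).2 hX2.2.1

end Crest.Agent.R320.Joint_943
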