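import Crest.Agent.R320.Main_621
import Crest.Agent.R320.ExactR_237
import Crest.Agent.R320.Core1_922

/-!
# Row 320: combinatorial side of `Main_621.Data` over an abstract gadget 1 (helper947)

Natural chain rule on left-looking walls: `t` = first wall at a place `>= z`, block end = next wall.
-/

set_option autoImplicit false

namespace Crest.Agent.R320.Joint_947

open Crest.Agent.R320.Hk_851 Crest.Agent.R320.Star_621 Crest.Agent.R320.Two_621
open Crest.Agent.R320.ExactR_237 (pr)
open Crest.Agent.R320.Core1_922 (LW)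

variable {A : Type} (Wo : List A → Prop) (n z p0 N1 : ℕ) (BadT : ℕ → Prop)

/-- `t` is the first wall place `>= z` -/
def IsT (X : List A) (t : ℕ) : Prop :=
  z ≤ t ∧ t ≤ X.length ∧ Wo (X.take t) ∧ ∀ s, z ≤ s → s < t → ¬ Wo (X.take s)

/-- a wall within `N1` of `z` -/
def EE (X : List A) : Prop := ∃ s ≤ X.length, Wo (X.take s) ∧ z ≤ s + N1 ∧ s ≤ z + N1

/-- blocks -/
def ZZ : Set (List A) :=
  {X | ∃ t, IsT Wo z X t ∧ t < X.length ∧ Wo X ∧ ∀ s, t < s → s < X.length → ¬ Wo (X.take s)}

/-- critical blocks -/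
def ZC : Set (List A) :=
  {X | X ∈ ZZ Wo z ∧ (EE Wo z N1 X ∨ ∃ t, IsT Wo z X t ∧ BadT (t - p0))}

/-- visibly not critical -/
def Vis : Set (List A) :=
  {X | ¬ EE Wo z N1 X ∧ ∃ t, IsT Wo z X t ∧ ¬ BadT (t - p0)}

variable {Wo n z p0 N1 BadT}

theorem IsT.unique {X : List A} {t t' : ℕ} (h : IsT Wo z X t) (h' : IsT Wo z X t') : t = t' := by
  rcases lt_trichotomy t t' with h1 | h1 | h1
  · exact absurd h.2.2.1 (h'.2.2.2 t h.1 h1)
  · exact h1
  · exact absurd h'.2.2.1 (h.2.2.2 t' h'.1 h1)

theorem IsT.append {X Y : List A} {t : ℕ} (h : IsT Wo z X t) : IsT Wo z (X ++ Y) t := by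
  obtain ⟨h1, h2, h3, h4⟩ := h
  refine ⟨h1, by simp; omega, by rwa [List.take_append_of_le_length h2], fun s hs hst => ?_⟩
  rw [List.take_append_of_le_length (by omega)]
  exact h4 s hs hst

theorem code (hz : 0 < z) : Code (ZZ Wo z) := by
  refine ⟨?_, ?_⟩
  · rintro ⟨t, ⟨h1, h2, _⟩, _⟩
    simp at h2; omega
  · rintro X X' x x' ⟨t, hT, ht, hW, hn⟩ ⟨t', hT', ht', hW', hn'⟩ e
    have e1 : t = t' := by
      have a := hT.append (Y := x)
      have b := hT'.append (Y := x')
      rw [← e] at b
      exact a.unique b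
    subst e1
    have key : X.length = X'.length := by
      rcases lt_trichotomy X.length X'.length with h | h | h
      · exfalso
        refine hn' X.length ht h ?_
        have : X'.take X.length = X := by
          have h3 := congrArg (List.take X.length) e
          rw [List.take_append_of_le_length le_rfl, List.take_length,
            List.take_append_of_le_length h.le] at h3
          exact h3.symm
        rw [this]; exact hW
      · exact h
      · exfalso
        refine hn X'.length ht' h ?_
        have : X.take X'.length = X' := by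
          have h3 := congrArg (List.take X'.length) e
          rw [List.take_append_of_le_length h.le,
            List.take_append_of_le_length le_rfl, List.take_length] at h3
          exact h3
        rw [this]; exact hW'
    exact (List.append_inj e key).1

theorem EE.append {X Y : List A} (h : EE Wo z N1 X) : EE Wo z N1 (X ++ Y) := by
  obtain ⟨s, h1, h2, h3, h4⟩ := h
  exact ⟨s, by simp; omega, by rwa [List.take_append_of_le_length h1], h3, h4⟩

/-- a text which is visibly not critical has no critical block as first block -/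
theorem vis_not {X Y x y : List A} (hV : X ∈ Vis Wo z p0 N1 BadT) (hC : Y ∈ ZC Wo z p0 N1 BadT)
    (e : X ++ x = Y ++ y) : False := by
  obtain ⟨hE, t, hT, hb⟩ := hV
  obtain ⟨⟨t', hT', ht', -⟩, h⟩ := hC
  have e1 : t = t' := by
    have a := hT.append (Y := x)
    have b := hT'.append (Y := y)
    rw [← e] at b
    exact a.unique b
  subst e1
  rcases h with h | ⟨t2, hT2, hb2⟩
  · obtain ⟨s, h1, h2, h3, h4⟩ := h
    -- the wall s of Y; s <= z + N1
    by_cases hs : s ≤ X.length
    · refine hE ⟨s, hs, ?_, h3, h4⟩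
      have h5 := congrArg (List.take s) e
      rw [List.take_append_of_le_length hs, List.take_append_of_le_length h1] at h5
      rw [h5]; exact h2
    · -- then t <= |X| < s <= z + N1, and t is a wall within N1 of z
      refine hE ⟨t, hT.2.1, hT.2.2.1, ?_, ?_⟩
      · have := hT.1; omega
      · have := hT.2.1; omega
  · have := hT'.unique hT2
    subst this
    exact hb hb2

/-- locality: walls of `P ++ Q` behind `|P| + n` depend on `Q` only -/
theorem wall_shift (hW : LW n Wo) (P P' Q : List A) {s : ℕ} (hs : n ≤ s) (hs' : s ≤ Q.length) :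
    Wo ((P ++ Q).take (P.length + s)) ↔ Wo ((P' ++ Q).take (P'.length + s)) := by
  rw [List.take_length_add_append, List.take_length_add_append]
  have hl : n ≤ (Q.take s).length := by rw [List.length_take]; omega
  rw [hW.app P _ hl, hW.app P' _ hl]


theorem wall_iff (hW : LW n Wo) {P P' Q : List A} {s s' : ℕ} (hs : P.length + n ≤ s)
    (hs2 : s ≤ P.length + Q.length) (he : s' + P.length = s + P'.length) :
    Wo ((P ++ Q).take s) ↔ Wo ((P' ++ Q).take s') := by
  obtain ⟨u, rfl⟩ : ∃ u, s = P.length + u := ⟨s - P.length, by omega⟩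
  obtain rfl : s' = P'.length + u := by omega
  exact wall_shift hW P P' Q (by omega) (by omega)

section gadget

variable {S : Type} [Monoid S]

/-- abstract gadget 1 -/
structure Gad (ph : List A → S) (N1 N2 : ℕ) (BadT : ℕ → Prop)
    (lam rho : List A → Option (Tok S)) (nu1 : List A → Tok S) : Prop where
  sound : ∀ P Q v r, lam P = some v → rho Q = some r → r = act v (ph (P ++ Q)) + nu1 (P ++ Q)
  left : ∀ P v, lam P = some v → P.length ≤ N1
  compl : ∀ Y : List A, N2 ≤ Y.length → ¬ BadT Y.length → ∀ v, ∃ P Q,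
    Y = P ++ Q ∧ lam P = some v ∧ (rho Q).isSome

open Classical in
/-- the first wall place `>= z` -/
noncomputable def tt (Wo : List A → Prop) (z : ℕ) (X : List A) : ℕ :=
  if h : ∃ t, IsT Wo z X t then h.choose else 0

theorem tt_eq {X : List A} {t : ℕ} (h : IsT Wo z X t) : tt Wo z X = t := by
  classical
  have h1 : ∃ t, IsT Wo z X t := ⟨t, h⟩
  rw [tt, dif_pos h1]
  exact h1.choose_spec.unique h

/-- noise of scheme A -/
noncomputable def dA (Wo : List A → Prop) (z p0 : ℕ) (ph : List A → S) (nu1 : List A → Tok S)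
    (X : List A) : Tok S :=
  act (nu1 ((X.take (tt Wo z X)).drop p0)) (ph (X.drop (tt Wo z X)))

def LA (p0 N1 : ℕ) (ph : List A → S) (lam : List A → Option (Tok S)) (v : Tok S) : Language A :=
  {P | p0 ≤ P.length ∧ P.length ≤ p0 + N1 ∧ lam (P.drop p0) = some (act v (ph (P.take p0)))}

def RA (Wo : List A → Prop) (z p0 N1 : ℕ) (ph : List A → S) (lam : List A → Option (Tok S))
    (nu1 : List A → Tok S) (b : Tok S) : Language A :=
  {Q | ∀ v, ∀ P ∈ LA p0 N1 ph lam v, P ++ Q ∈ ZZ Wo z ∧
    aff ph (dA Wo z p0 ph nu1) (P ++ Q) v = b}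

variable {ph : List A → S} {lam rho : List A → Option (Tok S)} {nu1 : List A → Tok S} {N2 : ℕ}

theorem soundA (hz : 0 < z) (hp : 0 < p0) :
    Sound (ZZ Wo z) (aff ph (dA Wo z p0 ph nu1)) (LA p0 N1 ph lam)
      (RA Wo z p0 N1 ph lam nu1) := by
  refine ⟨?_, ?_⟩
  · rintro v ⟨h, -⟩
    simp at h; omega
  · intro v b P Q X x y hP hQ hX e
    obtain ⟨h1, h2⟩ := hQ v P hP
    have e1 := (code hz).2 _ _ _ _ h1 hX e
    refine ⟨e1, ?_⟩
    rw [← e1, ← h2]

theorem compA (hW : LW n Wo) (hmul : ∀ a b, ph (a ++ b) = ph a * ph b)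
    (G : Gad ph N1 N2 BadT lam rho nu1) (hz1 : p0 + N1 + n ≤ z) (hz2 : p0 + N2 ≤ z)
    (X : List A) (hX : X ∈ ZZ Wo z) (hc : X ∉ ZC Wo z p0 N1 BadT) (v : Tok S) :
    Cut (LA p0 N1 ph lam) (RA Wo z p0 N1 ph lam nu1) v X := by
  obtain ⟨t, hT, ht, hWX, hno⟩ := hX
  have hE : ¬ EE Wo z N1 X := fun h => hc ⟨⟨t, hT, ht, hWX, hno⟩, Or.inl h⟩
  have hB : ¬ BadT (t - p0) := fun h => hc ⟨⟨t, hT, ht, hWX, hno⟩, Or.inr ⟨t, hT, h⟩⟩
  obtain ⟨hzt, htl, hWt, hfirst⟩ := hT
  have ht1 : z + N1 < t := by
    by_contra h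
    exact hE ⟨t, htl, hWt, by omega, by omega⟩
  have hYl : ((X.take t).drop p0).length = t - p0 := by
    rw [List.length_drop, List.length_take]; omega
  obtain ⟨P', Q', hY, hl, hr⟩ := G.compl ((X.take t).drop p0) (by rw [hYl]; omega)
    (by rw [hYl]; exact hB) (act v (ph (X.take p0)))
  obtain ⟨r, hr⟩ := Option.isSome_iff_exists.1 hr
  have hPl := G.left P' _ hl
  have hlen : P'.length + Q'.length = t - p0 := by
    rw [← List.length_append, ← hY, hYl]
  have hX0 : (X.take p0).length = p0 := by rw [List.length_take]; omega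
  have hXt : X.take t = X.take p0 ++ (P' ++ Q') := by
    rw [← hY]
    have := List.take_append_drop p0 (X.take t)
    rw [List.take_take, min_eq_left (by omega)] at this
    exact this.symm
  set R := X.drop t with hR
  have hXe : X = (X.take p0 ++ P') ++ (Q' ++ R) := by
    have h9 := List.take_append_drop t X
    rw [hXt, ← hR] at h9
    calc X = X.take p0 ++ (P' ++ Q') ++ R := h9.symm
      _ = _ := by simp only [List.append_assoc]
  have hPlen : (X.take p0 ++ P').length = p0 + P'.length := by
    rw [List.length_append, hX0]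
  have hRl : R.length = X.length - t := by rw [hR, List.length_drop]
  -- the main claim
  have main : ∀ v' P, P ∈ LA p0 N1 ph lam v' → P ++ (Q' ++ R) ∈ ZZ Wo z ∧
      aff ph (dA Wo z p0 ph nu1) (P ++ (Q' ++ R)) v' = act r (ph R) := by
    intro v' P hP
    obtain ⟨g1, g2, g3⟩ := hP
    have hwi : ∀ s s' : ℕ, p0 + P'.length + n ≤ s → s ≤ p0 + P'.length + (Q' ++ R).length →
        s' + (p0 + P'.length) = s + P.length → (Wo (X.take s) ↔ Wo ((P ++ (Q' ++ R)).take s')) := by
      intro s s' a b c
      have := wall_iff (P := X.take p0 ++ P') (P' := P) (Q := Q' ++ R) hW (s := s) (s' := s')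
        (by rw [hPlen]; exact a) (by rw [hPlen]; exact b) (by rw [hPlen]; exact c)
      rw [← hXe] at this
      exact this
    have hQR : (Q' ++ R).length = Q'.length + R.length := List.length_append
    have hT'' : IsT Wo z (P ++ (Q' ++ R)) (P.length + Q'.length) := by
      refine ⟨by omega, by simp only [List.length_append]; omega, ?_, ?_⟩
      · exact (hwi t _ (by omega) (by omega) (by omega)).1 hWt
      · intro s hs hst hw
        have hw' := (hwi (s + (p0 + P'.length) - P.length) s (by omega) (by omega) (by omega)).2 hw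
        by_cases hge : z ≤ s + (p0 + P'.length) - P.length
        · exact hfirst _ hge (by omega) hw'
        · exact hE ⟨s + (p0 + P'.length) - P.length, by omega, hw', by omega, by omega⟩
    refine ⟨⟨P.length + Q'.length, hT'', by simp only [List.length_append]; omega, ?_, ?_⟩, ?_⟩
    · have h1 : Wo (X.take X.length) := by rw [List.take_length]; exact hWX
      have h2 := (hwi X.length (P ++ (Q' ++ R)).length (by omega) (by omega)
        (by simp only [List.length_append]; omega)).1 h1
      rwa [List.take_length] at h2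
    · intro s hs hsl hw
      simp only [List.length_append] at hsl
      have hw' := (hwi (s + (p0 + P'.length) - P.length) s (by omega) (by omega) (by omega)).2 hw
      exact hno _ (by omega) (by omega) hw'
    · have e1 : tt Wo z (P ++ (Q' ++ R)) = P.length + Q'.length := tt_eq hT''
      have e2 : (P ++ (Q' ++ R)).take (P.length + Q'.length) = P ++ Q' := by
        rw [← List.append_assoc, ← List.length_append, List.take_left]
      have e3 : (P ++ (Q' ++ R)).drop (P.length + Q'.length) = R := by
        rw [← List.append_assoc, ← List.length_append, List.drop_left]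
      have e4 : (P ++ Q').drop p0 = P.drop p0 ++ Q' := List.drop_append_of_le_length g1
      have e5 := G.sound _ _ _ _ g3 hr
      rw [aff, dA, e1, e2, e3, e4, e5, act_add]
      congr 1
      rw [act_mul, act_mul, ← hmul, ← hmul]
      congr 2
      rw [List.append_assoc, ← List.append_assoc (P.take p0), List.take_append_drop]
  refine ⟨X.take p0 ++ P', Q' ++ R, act r (ph R), hXe, ?_, fun v' P hP => main v' P hP⟩
  refine ⟨by rw [hPlen]; omega, by rw [hPlen]; omega, ?_⟩
  have f1 : (X.take p0 ++ P').drop p0 = P' := by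
    rw [List.drop_append_of_le_length (by omega), List.drop_eq_nil_of_le (by omega)]; rfl
  have f2 : (X.take p0 ++ P').take p0 = X.take p0 := by
    rw [List.take_append_of_le_length (by omega), List.take_of_length_le (by omega)]
  rw [f1, f2]; exact hl

/-! ### scheme B -/

/-- monoid of the outer zone maps -/
abbrev SB (S : Type) : Type := (Function.End (Option (Tok S)))ᵐᵒᵖ

def gA (s : S) : SB S := MulOpposite.op fun o : Option (Tok S) => o.map fun v => act v s

theorem gA_mul (s t : S) : gA (s * t) = gA s * gA t := by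
  apply MulOpposite.unop_injective
  funext o
  cases o with
  | none => rfl
  | some v => exact congrArg some (act_mul v s t).symm

theorem gA_one : gA (1 : S) = 1 := by
  apply MulOpposite.unop_injective
  funext o
  cases o with
  | none => rfl
  | some v => exact congrArg some (act_one v)

def CutY (Wo : List A → Prop) (z p0 N1 : ℕ) (ph : List A → S) (lam : List A → Option (Tok S))
    (nu1 : List A → Tok S) (v : Tok S) (Y : List A) : Prop :=
  ∃ P Q τ, Y = P ++ Q ∧ P.length ≤ N1 ∧ lam P = some v ∧ Q ∈ RA Wo z p0 N1 ph lam nu1 τ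

open Classical in
noncomputable def hh (Wo : List A → Prop) (z p0 N1 : ℕ) (ph : List A → S)
    (lam : List A → Option (Tok S)) (nu1 : List A → Tok S) (X : List A) : SB S :=
  MulOpposite.op fun o : Option (Tok S) => o.bind fun v =>
    if CutY Wo z p0 N1 ph lam nu1 v (X.drop p0) then none
    else some (act v (ph (X.drop p0)) + dA Wo z p0 ph nu1 X)

theorem stepA_eq (hmul : ∀ a b, ph (a ++ b) = ph a * ph b) {X : List A} (hX : p0 ≤ X.length) :
    stepA (aff ph (dA Wo z p0 ph nu1)) (LA p0 N1 ph lam) (RA Wo z p0 N1 ph lam nu1) X =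
      gA (ph (X.take p0)) * hh Wo z p0 N1 ph lam nu1 X := by
  classical
  apply MulOpposite.unop_injective
  funext o
  cases o with
  | none => rfl
  | some v =>
    have hcut : Cut (LA p0 N1 ph lam) (RA Wo z p0 N1 ph lam nu1) v X ↔
        CutY Wo z p0 N1 ph lam nu1 (act v (ph (X.take p0))) (X.drop p0) := by
      constructor
      · rintro ⟨P, Q, τ, rfl, ⟨g1, g2, g3⟩, hQ⟩
        refine ⟨P.drop p0, Q, τ, List.drop_append_of_le_length g1, ?_, ?_, hQ⟩
        · rw [List.length_drop]; omega
        · rw [g3, List.take_append_of_le_length g1]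
      · rintro ⟨P', Q, τ, e, h1, h2, hQ⟩
        have hX0 : (X.take p0).length = p0 := by rw [List.length_take]; omega
        refine ⟨X.take p0 ++ P', Q, τ, ?_, ⟨?_, ?_, ?_⟩, hQ⟩
        · rw [List.append_assoc, ← e, List.take_append_drop]
        · rw [List.length_append, hX0]; omega
        · rw [List.length_append, hX0]; omega
        · have f1 : (X.take p0 ++ P').drop p0 = P' := by
            rw [List.drop_append_of_le_length (by omega), List.drop_eq_nil_of_le (by omega)]; rfl
          have f2 : (X.take p0 ++ P').take p0 = X.take p0 := by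
            rw [List.take_append_of_le_length (by omega), List.take_of_length_le (by omega)]
          rw [f1, f2]; exact h2
    have hval : aff ph (dA Wo z p0 ph nu1) X v =
        act (act v (ph (X.take p0))) (ph (X.drop p0)) + dA Wo z p0 ph nu1 X := by
      rw [aff, act_mul, ← hmul, List.take_append_drop]
    show (if Cut (LA p0 N1 ph lam) (RA Wo z p0 N1 ph lam nu1) v X then none
        else some (aff ph (dA Wo z p0 ph nu1) X v)) =
      (if CutY Wo z p0 N1 ph lam nu1 (act v (ph (X.take p0))) (X.drop p0) then none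
        else some (act (act v (ph (X.take p0))) (ph (X.drop p0)) + dA Wo z p0 ph nu1 X))
    by_cases h : Cut (LA p0 N1 ph lam) (RA Wo z p0 N1 ph lam nu1) v X
    · rw [if_pos h, if_pos (hcut.1 h)]
    · rw [if_neg h, if_neg (fun h' => h (hcut.2 h')), hval]

/-- inner noise -/
noncomputable def dB (Wo : List A → Prop) (z p0 N1 : ℕ) (ph : List A → S)
    (lam : List A → Option (Tok S)) (nu1 : List A → Tok S)
    (nu2 : List A → SB S → Tok (SB S)) (X : List A) : Tok (SB S) :=
  nu2 (X.take p0) (hh Wo z p0 N1 ph lam nu1 X)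

noncomputable def psiB (Wo : List A → Prop) (z p0 N1 : ℕ) (ph : List A → S)
    (lam : List A → Option (Tok S)) (nu1 : List A → Tok S)
    (nu2 : List A → SB S → Tok (SB S)) (X : List A) : Tok (SB S) → Tok (SB S) :=
  aff (stepA (aff ph (dA Wo z p0 ph nu1)) (LA p0 N1 ph lam) (RA Wo z p0 N1 ph lam nu1))
    (dB Wo z p0 N1 ph lam nu1 nu2) X

def LB (K : ℕ) (c : ℕ → ℕ) (lam2 : ℕ → List A → Option (Tok (SB S))) (v : Tok (SB S)) :
    Language A :=
  {P | ∃ k < K, P.length = c k ∧ lam2 k P = some v}

def RB (Wo : List A → Prop) (z p0 N1 : ℕ) (BadT : ℕ → Prop) (ph : List A → S)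
    (lam : List A → Option (Tok S)) (nu1 : List A → Tok S)
    (nu2 : List A → SB S → Tok (SB S)) (K : ℕ) (c : ℕ → ℕ)
    (lam2 : ℕ → List A → Option (Tok (SB S))) (b : Tok (SB S)) : Language A :=
  {Q | ∀ v, ∀ P ∈ LB K c lam2 v,
    (P ++ Q ∈ ZC Wo z p0 N1 BadT ∧ psiB Wo z p0 N1 ph lam nu1 nu2 (P ++ Q) v = b) ∨
    P ++ Q ∈ Vis Wo z p0 N1 BadT}

theorem soundB (hz : 0 < z) {nu2 : List A → SB S → Tok (SB S)} {K : ℕ} {c : ℕ → ℕ}
    {lam2 : ℕ → List A → Option (Tok (SB S))} (hc0 : ∀ k < K, 0 < c k) :
    Sound (ZC Wo z p0 N1 BadT) (psiB Wo z p0 N1 ph lam nu1 nu2) (LB K c lam2)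
      (RB Wo z p0 N1 BadT ph lam nu1 nu2 K c lam2) := by
  refine ⟨?_, ?_⟩
  · rintro v ⟨k, hk, h, -⟩
    have := hc0 k hk
    simp at h; omega
  · intro v b P Q X x y hP hQ hX e
    rcases hQ v P hP with ⟨h1, h2⟩ | h
    · have e1 := (code hz).2 _ _ _ _ h1.1 hX.1 e
      refine ⟨e1, ?_⟩
      rw [← e1, ← h2]
    · exact (vis_not h hX e).elim

/-- not spoiled places exist -/
def Count (Wo : List A → Prop) (z p0 N1 : ℕ) (BadT : ℕ → Prop) (K : ℕ) (c : ℕ → ℕ) (R : ℕ) :
    Prop :=
  ∀ X ∈ ZC Wo z p0 N1 BadT, ∃ Sp : Finset ℕ, Sp.card < R ∧ ∀ k < K, k ∉ Sp →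
    ∀ k' < K, k' ≠ k → ∀ P : List A, P.length = c k' → P ++ X.drop (c k) ∈ Vis Wo z p0 N1 BadT

theorem compB (hW : LW n Wo) (hmul : ∀ a b, ph (a ++ b) = ph a * ph b) (h1 : ph [] = 1)
    {nu2 : List A → SB S → Tok (SB S)} {K : ℕ} {c : ℕ → ℕ}
    {lam2 : ℕ → List A → Option (Tok (SB S))}
    {rho2 : ℕ → List A → SB S → Option (Tok (SB S))} {R : ℕ}
    (hcp : ∀ k < K, c k ≤ p0) (hz1 : p0 + N1 + n ≤ z)
    (hs2 : ∀ k < K, ∀ (P Q : List A) (y : SB S) (v b : Tok (SB S)), P.length = c k →
      lam2 k P = some v → rho2 k Q y = some b →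
      b = act v (gA (ph (P ++ Q)) * y) + nu2 (P ++ Q) y)
    (hc2 : ∀ (u : List A) (y : SB S) (v : Tok (SB S)), (∀ k < K, c k ≤ u.length) →
      ∃ I : Finset ℕ, R ≤ I.card ∧ ∀ k ∈ I, k < K ∧ lam2 k (u.take (c k)) = some v ∧
        (rho2 k (u.drop (c k)) y).isSome)
    (hcount : Count Wo z p0 N1 BadT K c R)
    (X : List A) (hX : X ∈ ZC Wo z p0 N1 BadT) (v : Tok (SB S)) :
    Cut (LB K c lam2) (RB Wo z p0 N1 BadT ph lam nu1 nu2 K c lam2) v X := by
  obtain ⟨Sp, hSp, hns⟩ := hcount X hX
  have hX' := hX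
  obtain ⟨⟨t, hT, ht, hWX, hno⟩, hcrit⟩ := hX'
  obtain ⟨hzt, htl, hWt, hfirst⟩ := hT
  have hX0 : (X.take p0).length = p0 := by rw [List.length_take]; omega
  set y := hh Wo z p0 N1 ph lam nu1 X with hy
  obtain ⟨I, hI, hIk⟩ := hc2 (X.take p0) y v (fun k hk => by rw [hX0]; exact hcp k hk)
  obtain ⟨k, hkI, hkS⟩ : ∃ k ∈ I, k ∉ Sp := by
    by_contra h
    push Not at h
    have := Finset.card_le_card (show I ⊆ Sp from fun k hk => h k hk)
    omega
  obtain ⟨hkK, hl, hr⟩ := hIk k hkI
  obtain ⟨b, hb⟩ := Option.isSome_iff_exists.1 hr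
  have hck := hcp k hkK
  have hl' : lam2 k (X.take (c k)) = some v := by
    rw [List.take_take, min_eq_left hck] at hl; exact hl
  have hPk : (X.take (c k)).length = c k := by rw [List.length_take]; omega
  have hXe : X = X.take (c k) ++ X.drop (c k) := (List.take_append_drop _ _).symm
  refine ⟨X.take (c k), X.drop (c k), b, hXe, ⟨k, hkK, hPk, hl'⟩, ?_⟩
  rintro v' P ⟨k', hk', hPl, hlP⟩
  by_cases hkk : k' = k
  · subst hkk
    left
    -- same length: the block structure is the same
    have hlenQ : (X.drop (c k')).length = X.length - c k' := List.length_drop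
    have hlen : (P ++ X.drop (c k')).length = X.length := by
      rw [List.length_append, hlenQ, hPl]; omega
    have hwi : ∀ s : ℕ, c k' + n ≤ s → s ≤ X.length →
        (Wo (X.take s) ↔ Wo ((P ++ X.drop (c k')).take s)) := by
      intro s a b
      have := wall_iff (P := X.take (c k')) (P' := P) (Q := X.drop (c k')) hW (s := s) (s' := s)
        (by rw [hPk]; exact a) (by rw [hPk, hlenQ]; omega) (by rw [hPk, hPl])
      rw [← hXe] at this
      exact this
    have hT'' : IsT Wo z (P ++ X.drop (c k')) t := by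
      refine ⟨hzt, by omega, (hwi t (by omega) htl).1 hWt, fun s hs hst hw => ?_⟩
      exact hfirst s hs hst ((hwi s (by omega) (by omega)).2 hw)
    have hZ : P ++ X.drop (c k') ∈ ZZ Wo z := by
      refine ⟨t, hT'', by omega, ?_, fun s hs hsl hw => ?_⟩
      · have g1 : Wo (X.take X.length) := by rw [List.take_length]; exact hWX
        have g2 := (hwi X.length (by omega) le_rfl).1 g1
        rw [← hlen, List.take_length] at g2
        exact g2
      · exact hno s hs (by omega) ((hwi s (by omega) (by omega)).2 hw)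
    have hTX : IsT Wo z X t := ⟨hzt, htl, hWt, hfirst⟩
    refine ⟨⟨hZ, ?_⟩, ?_⟩
    · rcases hcrit with ⟨s, a, b, c', d⟩ | ⟨t', a, b⟩
      · exact Or.inl ⟨s, by omega, (hwi s (by omega) a).1 b, c', d⟩
      · have := a.unique hTX
        subst this
        exact Or.inr ⟨t', hT'', b⟩
    · have e1 : (P ++ X.drop (c k')).drop p0 = X.drop p0 := by
        rw [List.drop_append, List.drop_eq_nil_of_le (by omega), List.drop_drop, hPl]
        simp only [List.nil_append]
        congr 1; omega
      have e2 : (P ++ X.drop (c k')).take p0 = P ++ (X.take p0).drop (c k') := by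
        rw [List.take_append, List.take_of_length_le (by omega), hPl, List.drop_take]
      have e3 : dA Wo z p0 ph nu1 (P ++ X.drop (c k')) = dA Wo z p0 ph nu1 X := by
        rw [dA, dA, tt_eq hT'', tt_eq hTX]
        have f1 : ((P ++ X.drop (c k')).take t).drop p0 = (X.take t).drop p0 := by
          rw [List.drop_take, List.drop_take, e1]
        have f2 : (P ++ X.drop (c k')).drop t = X.drop t := by
          have : t = p0 + (t - p0) := by omega
          rw [this, ← List.drop_drop, ← List.drop_drop, e1]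
        rw [f1, f2]
      have e4 : hh Wo z p0 N1 ph lam nu1 (P ++ X.drop (c k')) = y := by
        rw [hy, hh, hh, e1, e3]
      have e5 := hs2 k' hkK P ((X.take p0).drop (c k')) y v' b hPl hlP hb
      rw [psiB, aff, stepA_eq hmul (by omega), dB, e4, e2, ← e5]
  · right
    exact hns k hkK hkS k' hk' hkk P hPl

end gadget

end Crest.Agent.R320.Joint_947
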