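import Crest.Agent.R320.Top5_110
import Crest.Agent.R320.ExactR_237

/-!
# Row 320: joint of the two schemes over the natural chain rule (helper993)

Left-looking walls, block = first wall at a place `≥ z`, no thresholds, no small walls.
`C1`, `C2` = the two completeness hypotheses of `Top5_110.top_sem`.
-/

set_option autoImplicit false

namespace Crest.Agent.R320.Joint_993

open Crest.Agent.R320.Hk_851 Crest.Agent.R320.Code110

variable {α : Type}

/-- left-looking walls -/
structure LW (n W : ℕ) (Wo : List α → Prop) : Prop where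
  loc : ∀ P Q : List α, n ≤ Q.length → (Wo (P ++ Q) ↔ Wo Q)
  sep : ∀ (w : List α) (s t : ℕ), s < t → t ≤ w.length → Wo (w.take s) → Wo (w.take t) → s + W ≤ t

/-- blocks -/
def XX (z : ℕ) (Wo : List α → Prop) : Language α :=
  {X | z ≤ X.length ∧ Wo X ∧ ∀ t, z ≤ t → t < X.length → ¬ Wo (X.take t)}

def EB (z N : ℕ) (Wo : List α → Prop) (X : List α) : Prop :=
  ∃ t, t ≤ X.length ∧ z ≤ t + N ∧ t < z + N ∧ Wo (X.take t)

def Bad (z N p0 : ℕ) (BT : ℤ → Prop) (Wo : List α → Prop) : Language α :=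
  {X | X ∈ XX z Wo ∧ (EB z N Wo X ∨ BT ((X.length : ℤ) - p0))}

theorem wall_shift {n W : ℕ} {Wo : List α → Prop} (h : LW n W Wo) (p p' q : List α) (t : ℕ)
    (ht : n ≤ t) (hq : t ≤ q.length) :
    Wo ((p ++ q).take (p.length + t)) ↔ Wo ((p' ++ q).take (p'.length + t)) := by
  rw [List.take_length_add_append, List.take_length_add_append,
    h.loc p _ (by rw [List.length_take]; omega), h.loc p' _ (by rw [List.length_take]; omega)]

theorem XX_pc {z : ℕ} {Wo : List α → Prop} (hz : 0 < z) : PC (XX z Wo) where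
  ne := by
    rintro ⟨h, -, -⟩
    simp at h
    omega
  pf := by
    rintro u ⟨hu1, hu2, hu3⟩ v ⟨hv1, hv2, hv3⟩ ⟨r, rfl⟩
    rcases Nat.eq_zero_or_pos r.length with h0 | h0
    · rw [List.length_eq_zero_iff.1 h0, List.append_nil]
    · exfalso
      refine hv3 u.length hu1 (by rw [List.length_append]; omega) ?_
      rw [List.take_left']
      · exact hu2
      · rfl

section
variable {z n W N p0 : ℕ} {Wo : List α → Prop} {BT : ℤ → Prop}
  {S V : Type} [Monoid S] [AddCommGroup V]

/-- moving a block to another left word -/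
theorem XX_shift (h : LW n W Wo) (p p' q : List α) (hp : p.length + n ≤ z)
    (hp' : p'.length + n ≤ z) (hX : p ++ q ∈ XX z Wo) (hlen : z ≤ p'.length + q.length)
    (hno : ∀ t, t ≤ p.length + q.length → t < z → z + p.length ≤ t + p'.length →
      ¬ Wo ((p ++ q).take t)) : p' ++ q ∈ XX z Wo := by
  obtain ⟨h1, h2, h3⟩ := hX
  rw [List.length_append] at h1 h3
  refine ⟨by rw [List.length_append]; exact hlen, ?_, ?_⟩
  · rw [h.loc p' q (by omega)]
    rwa [h.loc p q (by omega)] at h2
  · intro t ht1 ht2 hw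
    rw [List.length_append] at ht2
    obtain ⟨s, rfl⟩ : ∃ s, t = p'.length + s := ⟨t - p'.length, by omega⟩
    rw [wall_shift h p' p q s (by omega) (by omega)] at hw
    by_cases hs : z ≤ p.length + s
    · exact h3 _ hs (by omega) hw
    · exact hno _ (by omega) (by omega) (by omega) hw

theorem C1 (h : LW n W Wo) (hz : p0 + N + N + n + N ≤ z) (φ : List α → S)
    (act : V → S → V)
    (nu2 nu1 : List α → V) (lam rho : List α → Option V)
    (hlen : ∀ P v, lam P = some v → P.length ≤ N)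
    (hsound : ∀ P Q v b, lam P = some v → rho Q = some b → b = act v (φ (P ++ Q)) + nu1 (P ++ Q))
    (hcomp : ∀ u : List α, 2 * N ≤ u.length → ¬ BT (u.length : ℤ) → ∀ v, ∃ P Q, P ++ Q = u ∧
      lam P = some v ∧ (rho Q).isSome)
    (T : List α → V → V)
    (hT : ∀ X v, T X v = act (act v (φ (X.take p0)) + nu2 (X.take p0)) (φ (X.drop p0)) +
      nu1 (X.drop p0))
    (L1 : V → Language α)
    (hL1 : ∀ v P, P ∈ L1 v ↔ p0 ≤ P.length ∧
      lam (P.drop p0) = some (act v (φ (P.take p0)) + nu2 (P.take p0)))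
    (u : List α) (hu : u ∈ XX z Wo) (hb : u ∉ Bad z N p0 BT Wo) (x : V) (t : List α)
    (ht : t ∈ (XX z Wo) ^ 0) : ∃ p q y, u ++ t = p ++ q ∧ p ∈ L1 x ∧
      q ∈ Rsem (XX z Wo) (XX z Wo) T 0 L1 y := by
  have ht' : t = [] := by
    rw [pow_zero] at ht
    exact Language.mem_one t |>.1 ht
  subst ht'
  have hnE : ¬ EB z N Wo u := fun h' => hb ⟨hu, Or.inl h'⟩
  have hnB : ¬ BT ((u.length : ℤ) - p0) := fun h' => hb ⟨hu, Or.inr h'⟩
  have hul : z + N ≤ u.length := by
    by_contra hc
    exact hnE ⟨u.length, le_rfl, by have := hu.1; omega, by omega, by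
      rw [List.take_length]; exact hu.2.1⟩
  have hYl : (u.drop p0).length = u.length - p0 := List.length_drop ..
  obtain ⟨P, Q, hPQ, hP, hQ⟩ := hcomp (u.drop p0) (by rw [hYl]; omega)
    (by rw [hYl]; rw [Nat.cast_sub (by omega)]; exact hnB)
    (act x (φ (u.take p0)) + nu2 (u.take p0))
  have hPl := hlen _ _ hP
  have h0l : (u.take p0).length = p0 := by rw [List.length_take]; omega
  have hPQl : P.length + Q.length = u.length - p0 := by
    rw [← hYl, ← hPQ, List.length_append]
  refine ⟨u.take p0 ++ P, Q, T u x, ?_, ?_, ?_⟩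
  · rw [List.append_nil, List.append_assoc, hPQ, List.take_append_drop]
  · rw [hL1]
    refine ⟨by rw [List.length_append]; omega, ?_⟩
    rw [List.drop_left' h0l, List.take_left' h0l]
    exact hP
  · intro x' p' hp'
    have hp'1 : p' ∈ L1 x' := hp'
    rw [hL1] at hp'1
    obtain ⟨hp'0, hp'2⟩ := hp'1
    have hp'l : (p'.drop p0).length ≤ N := hlen _ _ hp'2
    rw [List.length_drop] at hp'l
    left
    have hmem : p' ++ Q ∈ XX z Wo := by
      refine XX_shift h (u.take p0 ++ P) p' Q (by rw [List.length_append]; omega) (by omega)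
        (by rw [List.append_assoc, hPQ, List.take_append_drop]; exact hu) (by omega) ?_
      intro t ht1 ht2 ht3 hw
      rw [List.append_assoc, hPQ, List.take_append_drop] at hw
      rw [List.length_append] at ht1 ht3
      exact hnE ⟨t, by omega, by omega, by omega, hw⟩
    obtain ⟨b, hb'⟩ := Option.isSome_iff_exists.1 hQ
    have e1 : T u x = b := by
      rw [hT, hsound P Q _ b hP hb', hPQ]
    have e2 : T (p' ++ Q) x' = b := by
      rw [hT, hsound _ Q _ b hp'2 hb', List.take_append_of_le_length hp'0,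
        List.drop_append_of_le_length hp'0]
    refine ⟨T (p' ++ Q) x', ?_⟩
    refine Language.mem_mul.2 ⟨p' ++ Q, ⟨hmem, rfl⟩, [], ?_, by simp⟩
    exact ⟨rfl, by rw [e1, e2]⟩

theorem Bad_shift (h : LW n W Wo) (p p' q : List α) (hpl : p'.length = p.length)
    (hp : p.length + n + N ≤ z) (hX : p ++ q ∈ Bad z N p0 BT Wo) :
    p' ++ q ∈ Bad z N p0 BT Wo := by
  obtain ⟨h1, h2⟩ := hX
  refine ⟨XX_shift h p p' q (by omega) (by omega) h1
    (by have := h1.1; rw [List.length_append] at this; omega) ?_, ?_⟩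
  · intro t _ ht1 ht2
    omega
  · rcases h2 with ⟨t, ht1, ht2, ht3, ht4⟩ | h2
    · left
      rw [List.length_append] at ht1
      obtain ⟨s, rfl⟩ : ∃ s, t = p.length + s := ⟨t - p.length, by omega⟩
      refine ⟨p'.length + s, by rw [List.length_append]; omega, by omega, by omega, ?_⟩
      rw [wall_shift h p' p q s (by omega) (by omega)]
      exact ht4
    · right
      rw [List.length_append] at h2 ⊢
      rwa [hpl]

open Classical in
theorem C2 (h : LW n W Wo) (hz : 3 * p0 + 3 * N + n ≤ z) (hz0 : 0 < z) (hW : 2 * p0 + 2 * N < W)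
    (φ : List α → S) (act : V → S → V) (nu2 nu1 : List α → V)
    (K C0 : ℕ) (c : ℕ → ℕ) (hc : ∀ k < K, c k ≤ p0)
    (lam2 rho2 : ℕ → List α → Option V)
    (hE1 : ∀ k < K, ∀ (P Q : List α) (v b : V), P.length = c k →
      lam2 k P = some v → rho2 k Q = some b → b = act v (φ (P ++ Q)) + nu2 (P ++ Q))
    (hE2 : ∀ (u : List α) (v : V), (∀ k < K, c k ≤ u.length) →
      ∃ I : Finset ℕ, 2 + 2 * C0 ≤ I.card ∧ ∀ k ∈ I, k < K ∧ lam2 k (u.take (c k)) = some v ∧
        (rho2 k (u.drop (c k))).isSome)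
    (hrul : ∀ a b a' b', a < K → b < K → a' < K → b' < K → a ≠ b →
      |((c b : ℤ) - c a) - ((c b' : ℤ) - c a')| < 2 * N → a = a' ∧ b = b')
    (hsp : ∀ T : ℤ, ((Finset.range K ×ˢ Finset.range K).filter (fun ab : ℕ × ℕ => ab.1 ≠ ab.2 ∧
      BT (T + c ab.2 - c ab.1))).card ≤ C0)
    (T : List α → V → V)
    (hT : ∀ X v, T X v = act (act v (φ (X.take p0)) + nu2 (X.take p0)) (φ (X.drop p0)) +
      nu1 (X.drop p0))
    (L2 : V → Language α)
    (hL2 : ∀ v P, P ∈ L2 v ↔ ∃ k < K, P.length = c k ∧ lam2 k P = some v)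
    (u : List α) (hu : u ∈ Bad z N p0 BT Wo) (x : V) (t : List α)
    (ht : t ∈ (Bad z N p0 BT Wo) ^ 1) : ∃ p q y, u ++ t = p ++ q ∧ p ∈ L2 x ∧
      q ∈ Rsem (XX z Wo) (Bad z N p0 BT Wo) T 1 L2 y := by
  rw [pow_one] at ht
  have hul : z ≤ u.length := hu.1.1
  have htl : z ≤ t.length := ht.1.1
  have hwW : Wo (u ++ t) := (h.loc u t (by omega)).2 ht.1.2.1
  obtain ⟨w, hw⟩ : ∃ w, w = u ++ t := ⟨_, rfl⟩
  have hwl : w.length = u.length + t.length := by rw [hw, List.length_append]
  rw [← hw] at hwW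
  have hex : ∀ θ, θ ≤ w.length → ∃ s, θ ≤ s ∧ s ≤ w.length ∧ Wo (w.take s) := fun θ hθ =>
    ⟨w.length, hθ, le_rfl, by rw [List.take_length]; exact hwW⟩
  have hx1 : z - p0 ≤ w.length := by omega
  have hx2 : z + p0 ≤ w.length := by omega
  obtain ⟨s1, hs1⟩ : ∃ s1, s1 = Nat.find (hex _ hx1) := ⟨_, rfl⟩
  obtain ⟨s2, hs2⟩ : ∃ s2, s2 = Nat.find (hex _ hx2) := ⟨_, rfl⟩
  have g1 := Nat.find_spec (hex _ hx1)
  have g2 := Nat.find_spec (hex _ hx2)
  rw [← hs1] at g1
  rw [← hs2] at g2
  have m1 : ∀ s, z - p0 ≤ s ∧ s ≤ w.length ∧ Wo (w.take s) → s1 ≤ s := fun s hs => by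
    rw [hs1]; exact Nat.find_min' _ hs
  have m2 : ∀ s, z + p0 ≤ s ∧ s ≤ w.length ∧ Wo (w.take s) → s2 ≤ s := fun s hs => by
    rw [hs2]; exact Nat.find_min' _ hs
  -- the spoiled places
  let E : ℕ → ℕ → Prop := fun k k' => ∃ s, s ≤ w.length ∧ Wo (w.take s) ∧
    z + c k ≤ s + c k' + N ∧ s + c k' < z + c k + N
  let PA : Finset (ℕ × ℕ) := (Finset.range K ×ˢ Finset.range K).filter
    (fun ab : ℕ × ℕ => ab.1 ≠ ab.2 ∧ E ab.1 ab.2)
  let PB : ℕ → Finset (ℕ × ℕ) := fun s => (Finset.range K ×ˢ Finset.range K).filter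
    (fun ab : ℕ × ℕ => ab.1 ≠ ab.2 ∧ BT (((s : ℤ) - p0) + c ab.2 - c ab.1))
  have hA : PA.card ≤ 1 := by
    rw [Finset.card_le_one]
    rintro ⟨a, b⟩ hab ⟨a', b'⟩ hab'
    simp only [PA, E, Finset.mem_filter, Finset.mem_product, Finset.mem_range] at hab hab'
    obtain ⟨⟨ha, hb⟩, hne, s, e1, e2, e3, e4⟩ := hab
    obtain ⟨⟨ha', hb'⟩, hne', s', e1', e2', e3', e4'⟩ := hab'
    have ca := hc a ha
    have cb := hc b hb
    have ca' := hc a' ha'
    have cb' := hc b' hb'
    have hss : s = s' := by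
      rcases lt_trichotomy s s' with hl | hl | hl
      · have := h.sep w s s' hl e1' e2 e2'
        omega
      · exact hl
      · have := h.sep w s' s hl e1 e2' e2
        omega
    subst hss
    have := hrul a b a' b' ha hb ha' hb' hne (by rw [abs_lt]; constructor <;> omega)
    rw [this.1, this.2]
  let Sp : Finset ℕ := (PA ∪ (PB s1 ∪ PB s2)).image Prod.fst
  have hSp : Sp.card < 2 + 2 * C0 := by
    have e1 : Sp.card ≤ (PA ∪ (PB s1 ∪ PB s2)).card := Finset.card_image_le
    have e2 := Finset.card_union_le PA (PB s1 ∪ PB s2)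
    have e3 := Finset.card_union_le (PB s1) (PB s2)
    have e4 : (PB s1).card ≤ C0 := hsp _
    have e5 : (PB s2).card ≤ C0 := hsp _
    omega
  have hu0 : (u.take p0).length = p0 := by rw [List.length_take]; omega
  obtain ⟨I, hI1, hI2⟩ := hE2 (u.take p0) x (fun k hk => by rw [hu0]; exact hc k hk)
  obtain ⟨k, hkI, hkS⟩ := Finset.exists_mem_notMem_of_card_lt_card (lt_of_lt_of_le hSp hI1)
  obtain ⟨hkK, hl, hr⟩ := hI2 k hkI
  obtain ⟨b, hb⟩ := Option.isSome_iff_exists.1 hr
  have hck := hc k hkK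
  have hgood : ∀ k' < K, k' ≠ k → ¬ E k k' ∧ ¬ BT (((s1 : ℤ) - p0) + c k' - c k) ∧
      ¬ BT (((s2 : ℤ) - p0) + c k' - c k) := by
    intro k' hk' hne
    refine ⟨fun h' => hkS ?_, fun h' => hkS ?_, fun h' => hkS ?_⟩
    · refine Finset.mem_image.2 ⟨(k, k'), ?_, rfl⟩
      refine Finset.mem_union_left _ ?_
      simp only [PA, Finset.mem_filter, Finset.mem_product, Finset.mem_range]
      exact ⟨⟨hkK, hk'⟩, fun h => hne h.symm, h'⟩
    · refine Finset.mem_image.2 ⟨(k, k'), ?_, rfl⟩
      refine Finset.mem_union_right _ (Finset.mem_union_left _ ?_)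
      simp only [PB, Finset.mem_filter, Finset.mem_product, Finset.mem_range]
      exact ⟨⟨hkK, hk'⟩, fun h => hne h.symm, h'⟩
    · refine Finset.mem_image.2 ⟨(k, k'), ?_, rfl⟩
      refine Finset.mem_union_right _ (Finset.mem_union_right _ ?_)
      simp only [PB, Finset.mem_filter, Finset.mem_product, Finset.mem_range]
      exact ⟨⟨hkK, hk'⟩, fun h => hne h.symm, h'⟩
  have hpl : (u.take (c k)).length = c k := by rw [List.length_take]; omega
  have hlk : lam2 k (u.take (c k)) = some x := by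
    have := hl
    rwa [List.take_take, min_eq_left hck] at this
  refine ⟨u.take (c k), u.drop (c k) ++ t, T t (act b (φ (u.drop p0)) + nu1 (u.drop p0)), ?_, ?_, ?_⟩
  · rw [← List.append_assoc, List.take_append_drop]
  · rw [hL2]
    exact ⟨k, hkK, hpl, hlk⟩
  · intro x' p' hp'
    have hp'1 : p' ∈ L2 x' := hp'
    rw [hL2] at hp'1
    obtain ⟨k', hk'K, hp'l, hp'2⟩ := hp'1
    have hck' := hc k' hk'K
    by_cases hkk : k' = k
    · subst hkk
      left
      have hB1 : p' ++ u.drop (c k') ∈ Bad z N p0 BT Wo :=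
        Bad_shift h (u.take (c k')) p' (u.drop (c k')) (by omega) (by omega)
          (by rw [List.take_append_drop]; exact hu)
      have hTT : T (p' ++ u.drop (c k')) x' = act b (φ (u.drop p0)) + nu1 (u.drop p0) := by
        have e1 : (p' ++ u.drop (c k')).take p0 = p' ++ (u.take p0).drop (c k') := by
          rw [List.take_append, List.take_of_length_le (by omega), hp'l, List.drop_take]
        have e2 : (p' ++ u.drop (c k')).drop p0 = u.drop p0 := by
          rw [List.drop_append, List.drop_eq_nil_of_le (by omega), hp'l, List.nil_append,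
            List.drop_drop]
          congr 1
          omega
        rw [hT, e1, e2, ← hE1 k' hkK p' _ x' b hp'l hp'2 hb]
      refine ⟨T (p' ++ u.drop (c k')) x', ?_⟩
      refine Language.mem_mul.2 ⟨p' ++ u.drop (c k'), ⟨hB1, rfl⟩, t, ?_, by rw [List.append_assoc]⟩
      refine ⟨T t (T (p' ++ u.drop (c k')) x'), ?_⟩
      refine Language.mem_mul.2 ⟨t, ⟨ht, rfl⟩, [], ?_, by simp⟩
      exact ⟨rfl, by rw [hTT]⟩
    · right
      left
      obtain ⟨hnE, hnB1, hnB2⟩ := hgood k' hk'K hkk
      -- the first block of the candidate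
      have hθ : z + c k - c k' ≤ w.length := by omega
      obtain ⟨s, hs⟩ : ∃ s, s = Nat.find (hex _ hθ) := ⟨_, rfl⟩
      have g := Nat.find_spec (hex _ hθ)
      rw [← hs] at g
      have hmin : ∀ s', z + c k - c k' ≤ s' ∧ s' ≤ w.length ∧ Wo (w.take s') → s ≤ s' :=
        fun s' hs' => by rw [hs]; exact Nat.find_min' _ hs'
      obtain ⟨q, hq⟩ : ∃ q, q = u.drop (c k) ++ t := ⟨_, rfl⟩
      have hwq : w = u.take (c k) ++ q := by
        rw [hw, hq, ← List.append_assoc, List.take_append_drop]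
      have hql : c k + q.length = w.length := by
        rw [hwq, List.length_append, hpl]
      have hsh : ∀ r, n ≤ r → r ≤ q.length → (Wo ((p' ++ q).take (c k' + r)) ↔
          Wo (w.take (c k + r))) := by
        intro r hr1 hr2
        have := wall_shift h p' (u.take (c k)) q r hr1 hr2
        rw [hp'l, hpl, ← hwq] at this
        exact this
      have hs12 : s = s1 ∨ s = s2 := by
        have a1 : s1 ≤ s := m1 s ⟨by omega, g.2.1, g.2.2⟩
        have a2 : s ≤ s2 := hmin s2 ⟨by omega, g2.2.1, g2.2.2⟩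
        by_cases hc1 : z + c k - c k' ≤ s1
        · left
          have := hmin s1 ⟨hc1, g1.2.1, g1.2.2⟩
          omega
        · right
          have hlt : s1 < s := by omega
          have := h.sep w s1 s hlt g.2.1 g1.2.2 g.2.2
          have := m2 s ⟨by omega, g.2.1, g.2.2⟩
          omega
      obtain ⟨r, hr⟩ : ∃ r, s = c k + r := ⟨s - c k, by omega⟩
      have hr1 : n ≤ r := by omega
      have hr2 : r ≤ q.length := by omega
      have hXl : ((p' ++ q).take (c k' + r)).length = c k' + r := by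
        rw [List.length_take, List.length_append, hp'l]
        omega
      have htk : ∀ j, j ≤ c k' + r → ((p' ++ q).take (c k' + r)).take j = (p' ++ q).take j := by
        intro j hj
        rw [List.take_take, min_eq_left hj]
      rw [← hq]
      refine ⟨(p' ++ q).take (c k' + r), ⟨by rw [hXl]; omega, ?_, ?_⟩, ?_, List.take_prefix ..⟩
      · rw [hsh r hr1 hr2, ← hr]
        exact g.2.2
      · intro j hj1 hj2 hj3
        rw [hXl] at hj2
        rw [htk j (by omega)] at hj3
        obtain ⟨i, rfl⟩ : ∃ i, j = c k' + i := ⟨j - c k', by omega⟩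
        rw [hsh i (by omega) (by omega)] at hj3
        have := hmin _ ⟨by omega, by omega, hj3⟩
        omega
      · rintro ⟨-, hE | hB⟩
        · obtain ⟨j, hj1, hj2, hj3, hj4⟩ := hE
          rw [hXl] at hj1
          rw [htk j hj1] at hj4
          obtain ⟨i, rfl⟩ : ∃ i, j = c k' + i := ⟨j - c k', by omega⟩
          rw [hsh i (by omega) (by omega)] at hj4
          exact hnE ⟨c k + i, by omega, hj4, by omega, by omega⟩
        · rw [hXl] at hB
          have e : ((c k' + r : ℕ) : ℤ) - p0 = ((s : ℤ) - p0) + c k' - c k := by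
            rw [hr]; push_cast; ring
          rw [e] at hB
          rcases hs12 with e' | e'
          · rw [e'] at hB; exact hnB1 hB
          · rw [e'] at hB; exact hnB2 hB

end

end Crest.Agent.R320.Joint_993
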