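import Mathlib

/-!
Row 320, piece (3): 818's junction lemma on words.

Walls of a word `w` are given by a right-looking rule `R` with window `n`: there is a wall at `t`
iff `R (w.drop t)`.  A left word `u` sees exactly the walls `t` with `t + n ≤ |u|`, a right word
sees all walls.  `IsNext R w y b` : `b` is the first wall `≥ y` of `w`.
-/

set_option autoImplicit false

namespace Crest.Agent.R320.Junction394

variable {α : Type*}

/-- A right-looking local rule with window `n`. -/
structure Rule (R : List α → Prop) (n : ℕ) : Prop where
  take_iff : ∀ Q : List α, R Q ↔ R (Q.take n)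
  len : ∀ Q : List α, R Q → n ≤ Q.length

/-- There is a wall at position `t` of the word `w`. -/
def Wl (R : List α → Prop) (w : List α) (t : ℕ) : Prop := R (w.drop t)

/-- `b` is the first wall `≥ y` of the word `w`. -/
def IsNext (R : List α → Prop) (w : List α) (y b : ℕ) : Prop :=
  Wl R w b ∧ y ≤ b ∧ ∀ t, y ≤ t → t < b → ¬ Wl R w t

theorem IsNext.unique {R : List α → Prop} {w : List α} {y b b' : ℕ}
    (h : IsNext R w y b) (h' : IsNext R w y b') : b = b' := by
  rcases lt_trichotomy b b' with hlt | heq | hgt
  · exact absurd h.1 (h'.2.2 b h.2.1 hlt)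
  · exact heq
  · exact absurd h'.1 (h.2.2 b' h'.2.1 hgt)

theorem exists_isNext {R : List α → Prop} {w : List α} {y t : ℕ} (hy : y ≤ t) (ht : Wl R w t) :
    ∃ b, b ≤ t ∧ IsNext R w y b := by
  classical
  have hex : ∃ b, y ≤ b ∧ Wl R w b := ⟨t, hy, ht⟩
  refine ⟨Nat.find hex, Nat.find_min' hex ⟨hy, ht⟩, (Nat.find_spec hex).2,
    (Nat.find_spec hex).1, ?_⟩
  intro s hys hs hws
  exact Nat.find_min hex hs ⟨hys, hws⟩

/-- Monotonicity: a first wall `≥ y` is the first wall `≥ y'` for all `y ≤ y' ≤ b`. -/
theorem IsNext.mono {R : List α → Prop} {w : List α} {y y' b : ℕ}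
    (h : IsNext R w y b) (h1 : y ≤ y') (h2 : y' ≤ b) : IsNext R w y' b :=
  ⟨h.1, h2, fun t ht htb => h.2.2 t (h1.trans ht) htb⟩

/-- If there is no wall in `[y, y')` then first wall `≥ y` and first wall `≥ y'` agree. -/
theorem isNext_iff_of_clear {R : List α → Prop} {w : List α} {y y' : ℕ} (h1 : y ≤ y')
    (hc : ∀ t, y ≤ t → t < y' → ¬ Wl R w t) (b : ℕ) :
    IsNext R w y b ↔ IsNext R w y' b := by
  constructor
  · intro h
    refine h.mono h1 ?_
    by_contra hlt
    exact hc b h.2.1 (not_le.mp hlt) h.1
  · intro h
    refine ⟨h.1, h1.trans h.2.1, fun t ht htb => ?_⟩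
    by_cases hty : t < y'
    · exact hc t ht hty
    · exact h.2.2 t (not_lt.mp hty) htb

/-- A left word sees exactly the walls `t` with `t + n ≤ |u|`. -/
theorem wl_append_left {R : List α → Prop} {n : ℕ} (hR : Rule R n) (u v : List α) {t : ℕ}
    (ht : t + n ≤ u.length) : Wl R (u ++ v) t ↔ Wl R u t := by
  unfold Wl
  rw [hR.take_iff, hR.take_iff (u.drop t)]
  have htu : t ≤ u.length := by omega
  rw [List.drop_append_of_le_length htu, List.take_append_of_le_length]
  rw [List.length_drop]
  omega

/-- The left word alone shows no wall `t` with `t + n > |u|`. -/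
theorem not_wl_of_length_lt {R : List α → Prop} {n : ℕ} (hR : Rule R n) (u : List α) {t : ℕ}
    (ht : u.length < t + n) (hn : 0 < n) : ¬ Wl R u t := by
  intro h
  have := hR.len _ h
  rw [List.length_drop] at this
  omega

/-- A right word sees all its walls. -/
theorem wl_append_right (R : List α → Prop) (u v : List α) (t : ℕ) :
    Wl R (u ++ v) (u.length + t) ↔ Wl R v t := by
  unfold Wl
  rw [List.drop_append]
  have h1 : u.drop (u.length + t) = [] := by
    apply List.drop_eq_nil_of_le
    omega
  have h2 : u.length + t - u.length = t := by omega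
  rw [h1, h2, List.nil_append]

theorem wl_append_right' (R : List α → Prop) (u v : List α) {t : ℕ} (ht : u.length ≤ t) :
    Wl R (u ++ v) t ↔ Wl R v (t - u.length) := by
  obtain ⟨s, rfl⟩ := Nat.exists_eq_add_of_le ht
  rw [wl_append_right]
  have : u.length + s - u.length = s := by omega
  rw [this]

/-- The first wall of the right part, seen from the right word alone. -/
theorem isNext_append_right (R : List α → Prop) (u v : List α) (y b : ℕ) :
    IsNext R (u ++ v) (u.length + y) (u.length + b) ↔ IsNext R v y b := by
  constructor
  · rintro ⟨h1, h2, h3⟩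
    refine ⟨(wl_append_right R u v b).mp h1, by omega, fun t ht htb h => ?_⟩
    exact h3 (u.length + t) (by omega) (by omega) ((wl_append_right R u v t).mpr h)
  · rintro ⟨h1, h2, h3⟩
    refine ⟨(wl_append_right R u v b).mpr h1, by omega, fun t ht htb h => ?_⟩
    have hut : u.length ≤ t := by omega
    exact h3 (t - u.length) (by omega) (by omega) ((wl_append_right' R u v hut).mp h)

/-- The first wall `b` of the left part is seen from the left word alone if `b + n ≤ |u|`. -/
theorem isNext_append_left {R : List α → Prop} {n : ℕ} (hR : Rule R n) (u v : List α)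
    {y b : ℕ} (hb : b + n ≤ u.length) :
    IsNext R (u ++ v) y b ↔ IsNext R u y b := by
  constructor
  · rintro ⟨h1, h2, h3⟩
    refine ⟨(wl_append_left hR u v hb).mp h1, h2, fun t ht htb h => ?_⟩
    exact h3 t ht htb ((wl_append_left hR u v (by omega)).mpr h)
  · rintro ⟨h1, h2, h3⟩
    refine ⟨(wl_append_left hR u v hb).mpr h1, h2, fun t ht htb h => ?_⟩
    exact h3 t ht htb ((wl_append_left hR u v (by omega)).mp h)

/-- **818's junction lemma.**  Step `z = p + q + N1`.  The left word `u` ends at
`x = a + p + j`, `j ≤ N1`; the right word `v` shows no wall in `[q, q + N1)`.  Then the first wall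
`≥ a + z` of `u ++ v` (known to whoever knows `a`) is the first wall `≥ x + q + N1` (known to the
right word alone). -/
theorem junction (R : List α → Prop) (u v : List α) {a p q N1 j : ℕ}
    (hx : u.length = a + p + j) (hj : j ≤ N1)
    (hclear : ∀ t, q ≤ t → t < q + N1 → ¬ Wl R v t) (b : ℕ) :
    IsNext R (u ++ v) (a + (p + q + N1)) (u.length + b) ↔ IsNext R v (q + N1) b := by
  rw [← isNext_append_right R u v (q + N1) b]
  apply isNext_iff_of_clear
  · omega
  · intro t ht1 ht2 h
    have hut : u.length ≤ t := by omega
    exact hclear (t - u.length) (by omega) (by omega) ((wl_append_right' R u v hut).mp h)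

/-- Every first wall `≥ a + z` of `u ++ v` has the form used in `junction`. -/
theorem junction_form (R : List α → Prop) (u v : List α) {a p q N1 j c : ℕ}
    (hx : u.length = a + p + j) (hj : j ≤ N1)
    (hclear : ∀ t, q ≤ t → t < q + N1 → ¬ Wl R v t)
    (h : IsNext R (u ++ v) (a + (p + q + N1)) c) :
    u.length ≤ c ∧ IsNext R v (q + N1) (c - u.length) := by
  have hc : u.length ≤ c := by
    have := h.2.1
    omega
  refine ⟨hc, ?_⟩
  rw [← junction R u v hx hj hclear]
  have : u.length + (c - u.length) = c := by omega
  rw [this]
  exact h

/-- Position `j` of the window is usable for the chain element `a` in the text `w`. -/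
def Usable (R : List α → Prop) (w : List α) (a z N1 j : ℕ) : Prop :=
  ∀ t, a + z + j ≤ t + N1 → t < a + z + j → ¬ Wl R w t

/-- In the text `u ++ v` the legality condition of the right word is exactly `Usable`. -/
theorem usable_iff (R : List α → Prop) (u v : List α) {a p q N1 j : ℕ}
    (hx : u.length = a + p + j) (_hj : j ≤ N1) :
    Usable R (u ++ v) a (p + q + N1) N1 j ↔ (∀ t, q ≤ t → t < q + N1 → ¬ Wl R v t) := by
  constructor
  · intro h t ht1 ht2 hw
    refine h (u.length + t) (by omega) (by omega) ((wl_append_right R u v t).mpr hw)
  · intro h t ht1 ht2 hw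
    have hut : u.length ≤ t := by omega
    exact h (t - u.length) (by omega) (by omega) ((wl_append_right' R u v hut).mp hw)

/-- **Which positions are usable.**  Window `N1 = 2ℓ + 1`, walls at distance `≥ 4ℓ + 2`.  If no wall
lies in `[a + z - ℓ, a + z + ℓ]`, then the whole first half or the whole second half of the window
is usable. -/
theorem usable_half {R : List α → Prop} {w : List α} {a z l : ℕ}
    (hgap : ∀ t t', Wl R w t → Wl R w t' → t < t' → t + (4 * l + 2) ≤ t')
    (hcore : ∀ t, a + z ≤ t + l → t ≤ a + z + l → ¬ Wl R w t) :
    (∀ j, j ≤ l → Usable R w a z (2 * l + 1) j) ∨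
      (∀ j, l < j → j ≤ 2 * l + 1 → Usable R w a z (2 * l + 1) j) := by
  by_contra hcon
  push Not at hcon
  obtain ⟨⟨j0, hj0, hu0⟩, ⟨j1, hj1, hj1', hu1⟩⟩ := hcon
  unfold Usable at hu0 hu1
  push Not at hu0 hu1
  obtain ⟨t0, h01, h02, hw0⟩ := hu0
  obtain ⟨t1, h11, h12, hw1⟩ := hu1
  have hc0 : t0 + l < a + z := by
    by_contra hh
    exact hcore t0 (by omega) (by omega) hw0
  have hc1 : a + z + l < t1 := by
    by_contra hh
    exact hcore t1 (by omega) (by omega) hw1
  have := hgap t0 t1 hw0 hw1 (by omega)
  omega

/-- At most one wall in an interval of length at most the gap. -/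
theorem wall_unique {R : List α → Prop} {w : List α} {W y t t' : ℕ}
    (hgap : ∀ t t', Wl R w t → Wl R w t' → t < t' → t + W ≤ t')
    (h1 : y ≤ t) (h1' : t < y + W) (h2 : y ≤ t') (h2' : t' < y + W)
    (ht : Wl R w t) (ht' : Wl R w t') : t = t' := by
  rcases lt_trichotomy t t' with h | h | h
  · have := hgap t t' ht ht' h
    omega
  · exact h
  · have := hgap t' t ht' ht h
    omega

/-! ### Chains -/

/-- `Chain R z w a k c`: `c` is reached from the wall `a` by `k` steps `a ↦ first wall ≥ a + z`. -/
inductive Chain (R : List α → Prop) (z : ℕ) (w : List α) (a : ℕ) : ℕ → ℕ → Prop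
  | refl : Chain R z w a 0 a
  | step {k c d : ℕ} : Chain R z w a k c → IsNext R w (c + z) d → Chain R z w a (k + 1) d

theorem Chain.unique {R : List α → Prop} {z : ℕ} {w : List α} {a k c c' : ℕ}
    (h : Chain R z w a k c) (h' : Chain R z w a k c') : c = c' := by
  induction h generalizing c' with
  | refl => cases h'; rfl
  | step _ hn ih =>
    cases h' with
    | step h2 hn2 =>
      have := ih h2
      subst this
      exact hn.unique hn2

theorem Chain.le {R : List α → Prop} {z : ℕ} {w : List α} {a k c : ℕ}
    (h : Chain R z w a k c) : a + k * z ≤ c := by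
  induction h with
  | refl => omega
  | step _ hn ih =>
    have := hn.2.1
    rw [Nat.succ_mul]
    omega

/-- The left word computes its chain: a chain of `u ++ v` whose last element `c` satisfies
`c + n ≤ |u|` is a chain of `u`, and conversely. -/
theorem chain_append_left {R : List α → Prop} {n : ℕ} (hR : Rule R n) (u v : List α)
    {z a k c : ℕ} (hc : c + n ≤ u.length) :
    Chain R z (u ++ v) a k c ↔ Chain R z u a k c := by
  constructor
  · intro h
    induction h with
    | refl => exact Chain.refl
    | @step k c d h1 hn ih =>
      have := hn.2.1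
      exact Chain.step (ih (by omega)) ((isNext_append_left hR u v hc).mp hn)
  · intro h
    induction h with
    | refl => exact Chain.refl
    | @step k c d h1 hn ih =>
      have := hn.2.1
      exact Chain.step (ih (by omega)) ((isNext_append_left hR u v hc).mpr hn)

/-- The right word computes its chain. -/
theorem chain_append_right (R : List α → Prop) (u v : List α) {z a k c : ℕ} :
    Chain R z (u ++ v) (u.length + a) k (u.length + c) ↔ Chain R z v a k c := by
  constructor
  · intro h
    generalize he : u.length + c = e at h
    induction h generalizing c with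
    | refl =>
      have : c = a := by omega
      subst this
      exact Chain.refl
    | @step k c' d h1 hn ih =>
      have hle := h1.le
      have hlc : u.length ≤ c' := by
        have : u.length + a ≤ u.length + a + k * z := Nat.le_add_right _ _
        omega
      have hc' : u.length + (c' - u.length) = c' := by omega
      refine Chain.step (ih hc') ?_
      subst he
      rw [← isNext_append_right R u v]
      have : u.length + (c' - u.length + z) = c' + z := by omega
      rw [this]
      exact hn
  · intro h
    induction h with
    | refl => exact Chain.refl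
    | @step k c' d h1 hn ih =>
      refine Chain.step ih ?_
      have : u.length + c' + z = u.length + (c' + z) := by omega
      rw [this]
      exact (isNext_append_right R u v _ _).mpr hn

/-- **Both sides agree on the whole chain at a legal junction.**  The left word knows `a` and the
number `j`; the right word knows its first wall `b` after `q + N1`; every later chain element of
`u ++ v` started at `a` is a chain element of `v` started at `b`. -/
theorem junction_chain (R : List α → Prop) (u v : List α) {a p q N1 j b : ℕ}
    (hx : u.length = a + p + j) (hj : j ≤ N1)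
    (hclear : ∀ t, q ≤ t → t < q + N1 → ¬ Wl R v t)
    (hb : IsNext R v (q + N1) b) (k c : ℕ) :
    Chain R (p + q + N1) (u ++ v) a (k + 1) (u.length + c) ↔ Chain R (p + q + N1) v b k c := by
  have hab : IsNext R (u ++ v) (a + (p + q + N1)) (u.length + b) :=
    (junction R u v hx hj hclear b).mpr hb
  rw [← chain_append_right R u v]
  constructor
  · intro h
    generalize he : u.length + c = e at h
    generalize hk : k + 1 = m at h
    clear he
    induction h generalizing k with
    | refl => omega
    | @step k' c' d h1 hn ih =>
      have hkk : k = k' := by omega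
      subst hkk
      cases k with
      | zero =>
        cases h1
        have := hn.unique hab
        subst this
        exact Chain.refl
      | succ k =>
        exact Chain.step (ih k rfl) hn
  · intro h
    generalize he : u.length + c = e at h
    clear he
    induction h with
    | refl => exact Chain.step Chain.refl hab
    | @step k' c' d h1 hn ih => exact Chain.step ih hn

end Crest.Agent.R320.Junction394
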