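import Mathlib

/-!
Krieger's marker lemma in strong local form (row 320, piece (2)): a finite alphabet, a right-looking
window rule with gaps at least `W` in every word, and every wall-free stretch of length more than
`2 W` is (after trimming by constants) periodic with one period smaller than `W`.
-/

set_option autoImplicit false

namespace Crest.Agent.R320.Krieger_776

variable {β : Type*}

/-- the name of length `N` at the place `t` -/
def name (N : ℕ) (f : ℤ → β) (t : ℤ) : Fin N → β := fun i => f (t + (i : ℕ))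

/-- a name with a period `p`, `0 < p < W` -/
def Per (N W : ℕ) (u : Fin N → β) : Prop :=
  ∃ p : ℕ, 0 < p ∧ p < W ∧ ∀ (i : ℕ) (h : i + p < N), u ⟨i, by omega⟩ = u ⟨i + p, h⟩

/-- greedy markers, processed along a list of names -/
def Mk (N W : ℕ) : List (Fin N → β) → (ℤ → β) → ℤ → Prop
  | [], _, _ => False
  | u :: l, f, t => Mk N W l f t ∨
      (name N f t = u ∧ ¬ Per N W u ∧ ∀ d : ℤ, |d| < (W : ℤ) → ¬ Mk N W l f (t + d))

theorem Mk_sep (N W : ℕ) (l : List (Fin N → β)) (f : ℤ → β) (t d : ℤ)
    (h1 : Mk N W l f t) (h2 : Mk N W l f (t + d)) (hd : 0 < d) (hW : d < (W : ℤ)) : False := by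
  induction l with
  | nil => exact h1
  | cons u l ih =>
    rcases h1 with h1 | ⟨h1n, h1p, h1f⟩
    · rcases h2 with h2 | ⟨h2n, h2p, h2f⟩
      · exact ih h1 h2
      · refine h2f (-d) (by rw [abs_neg, abs_of_pos hd]; exact hW) ?_
        simpa using h1
    · rcases h2 with h2 | ⟨h2n, h2p, h2f⟩
      · exact h1f d (by rw [abs_of_pos hd]; exact hW) h2
      · apply h1p
        refine ⟨d.toNat, by omega, by omega, ?_⟩
        intro i h
        have e1 : name N f t ⟨i + d.toNat, h⟩ = u ⟨i + d.toNat, h⟩ := by rw [h1n]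
        have e2 : name N f (t + d) ⟨i, by omega⟩ = u ⟨i, by omega⟩ := by rw [h2n]
        rw [← e1, ← e2]
        simp only [name]
        congr 1
        push_cast
        rw [Int.toNat_of_nonneg hd.le]
        ring

theorem Mk_cover (N W : ℕ) (hW : 0 < W) (l : List (Fin N → β)) (f : ℤ → β) (t : ℤ)
    (hmem : name N f t ∈ l) (hp : ¬ Per N W (name N f t)) :
    ∃ d : ℤ, |d| < (W : ℤ) ∧ Mk N W l f (t + d) := by
  induction l with
  | nil => simp at hmem
  | cons u l ih =>
    rcases List.mem_cons.1 hmem with h | h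
    · by_cases hex : ∃ d : ℤ, |d| < (W : ℤ) ∧ Mk N W l f (t + d)
      · obtain ⟨d, hd, hm⟩ := hex
        exact ⟨d, hd, Or.inl hm⟩
      · push Not at hex
        refine ⟨0, by simpa using hW, Or.inr ⟨by simpa using h, by rw [← h]; exact hp, ?_⟩⟩
        intro d hd hm
        refine hex d hd ?_
        simpa using hm
    · obtain ⟨d, hd, hm⟩ := ih h
      exact ⟨d, hd, Or.inl hm⟩

theorem Mk_local (N W : ℕ) (l : List (Fin N → β)) (f g : ℤ → β) (t : ℤ)
    (h : ∀ s : ℤ, t - l.length * W ≤ s → s < t + l.length * W + N → f s = g s) :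
    Mk N W l f t ↔ Mk N W l g t := by
  induction l generalizing t with
  | nil => simp [Mk]
  | cons u l ih =>
    have hlen : ((u :: l).length : ℤ) * W = l.length * W + W := by
      simp only [List.length_cons]; push_cast; ring
    have hl0 : (0 : ℤ) ≤ (l.length : ℤ) * W := by positivity
    have hW0 : (0 : ℤ) ≤ (W : ℤ) := by positivity
    have key : ∀ d : ℤ, |d| < (W : ℤ) → (Mk N W l f (t + d) ↔ Mk N W l g (t + d)) := by
      intro d hd
      apply ih
      intro s hs1 hs2
      rw [abs_lt] at hd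
      apply h s
      · rw [hlen]; linarith [hd.1]
      · rw [hlen]; linarith [hd.2]
    have key0 : Mk N W l f t ↔ Mk N W l g t := by
      apply ih
      intro s hs1 hs2
      apply h s
      · rw [hlen]; linarith
      · rw [hlen]; linarith
    have hname : name N f t = name N g t := by
      funext i
      simp only [name]
      apply h
      · rw [hlen]
        have : (0 : ℤ) ≤ ((i : ℕ) : ℤ) := by positivity
        linarith
      · rw [hlen]
        have : ((i : ℕ) : ℤ) < N := by exact_mod_cast i.2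
        linarith
    simp only [Mk, key0, hname]
    constructor
    · rintro (h1 | ⟨h1, h2, h3⟩)
      · exact Or.inl h1
      · exact Or.inr ⟨h1, h2, fun d hd hm => h3 d hd ((key d hd).2 hm)⟩
    · rintro (h1 | ⟨h1, h2, h3⟩)
      · exact Or.inl h1
      · exact Or.inr ⟨h1, h2, fun d hd hm => h3 d hd ((key d hd).1 hm)⟩

theorem Mk_shift (N W : ℕ) (l : List (Fin N → β)) (f : ℤ → β) (c t : ℤ) :
    Mk N W l (fun s => f (s + c)) t ↔ Mk N W l f (t + c) := by
  induction l generalizing t with
  | nil => simp [Mk]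
  | cons u l ih =>
    have hname : name N (fun s => f (s + c)) t = name N f (t + c) := by
      funext i
      simp only [name]
      congr 1
      ring
    simp only [Mk, ih, hname]
    have : ∀ d : ℤ, t + d + c = t + c + d := fun d => by ring
    simp only [this]

/-- if every name of length `N ≥ 2 W` starting in `[y, y + ℓ)` has a period `< W`, the whole
stretch has one period `< W` -/
theorem per_stretch (N W : ℕ) (hN : 2 * W ≤ N) (f : ℤ → β) (y : ℤ) (l : ℕ) (hl : 0 < l)
    (h : ∀ i : ℕ, i < l → Per N W (name N f (y + i))) :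
    ∃ p : ℕ, 0 < p ∧ p < W ∧
      ∀ z : ℤ, y ≤ z → z + p < y + l - 1 + N → f z = f (z + p) := by
  induction l with
  | zero => omega
  | succ l ih =>
    rcases Nat.eq_zero_or_pos l with rfl | hl'
    · obtain ⟨p, hp0, hpW, hp⟩ := h 0 (by omega)
      refine ⟨p, hp0, hpW, ?_⟩
      intro z hz1 hz2
      have hz3 : z + p < y + N := by push_cast at hz2; linarith
      obtain ⟨i, hi⟩ : ∃ i : ℕ, z = y + i := ⟨(z - y).toNat, by omega⟩
      subst hi
      have hip : i + p < N := by omega
      have := hp i hip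
      simp only [name] at this
      simpa [add_assoc] using this
    · obtain ⟨p, hp0, hpW, hp⟩ := ih hl' (fun i hi => h i (by omega))
      obtain ⟨q, hq0, hqW, hq⟩ := h l (by omega)
      refine ⟨p, hp0, hpW, ?_⟩
      intro z hz1 hz2
      rcases lt_or_ge (z + p) (y + l - 1 + N) with hlt | hge
      · exact hp z hz1 hlt
      · -- z + p = y + l + N - 1
        have hzp : z + p = y + l + N - 1 := by push_cast at hz2; omega
        -- q-period : f (z) = f (z - q) etc.
        have hq' : ∀ x : ℤ, y + l ≤ x → x + q < y + l + N → f x = f (x + q) := by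
          intro x hx1 hx2
          obtain ⟨i, hi⟩ : ∃ i : ℕ, x = y + l + i := ⟨(x - (y + l)).toNat, by omega⟩
          subst hi
          have hiq : i + q < N := by omega
          have := hq i hiq
          simp only [name] at this
          simpa [add_assoc] using this
        -- f (z + p) = f (z + p - q)
        have e1 : f (z + p - q) = f (z + p - q + q) := hq' _ (by omega) (by omega)
        have e2 : f (z - q) = f (z - q + q) := hq' _ (by omega) (by omega)
        have e3 : f (z - q) = f (z - q + p) := hp _ (by omega) (by omega)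
        rw [sub_add_cancel] at e1 e2
        rw [← e1, ← e2, e3]
        congr 1
        ring


/-! ### word form -/

section Word

variable {α : Type*}

/-- a word as a bi-infinite text, `none` outside -/
def fQ (Q : List α) : ℤ → Option α := fun t => if t < 0 then none else Q[t.toNat]?

theorem fQ_nat (Q : List α) (i : ℕ) : fQ Q (i : ℤ) = Q[i]? := by
  simp [fQ]

theorem fQ_drop (Q : List α) (d : ℕ) (t : ℤ) (ht : 0 ≤ t) : fQ (Q.drop d) t = fQ Q (t + d) := by
  obtain ⟨i, rfl⟩ : ∃ i : ℕ, t = i := ⟨t.toNat, by omega⟩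
  have h1 := fQ_nat (Q.drop d) i
  have h2 := fQ_nat Q (i + d)
  push_cast at h2
  rw [h1, h2, List.getElem?_drop, add_comm d i]

theorem fQ_take (Q : List α) (n : ℕ) (t : ℤ) (ht : 0 ≤ t) (htn : t < n) :
    fQ (Q.take n) t = fQ Q t := by
  obtain ⟨i, rfl⟩ : ∃ i : ℕ, t = i := ⟨t.toNat, by omega⟩
  have hi : i < n := by exact_mod_cast htn
  rw [fQ_nat, fQ_nat, List.getElem?_take_of_lt hi]

/-- **Krieger's marker lemma, strong local form.**  `R` is a right-looking rule with window `n`:
a wall of `w` at `t` means `R (w.drop t)`. -/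
theorem marker [Finite α] (W : ℕ) (hW : 0 < W) :
    ∃ (n s : ℕ) (R : List α → Prop),
      (∀ Q, R Q ↔ R (Q.take n)) ∧
      (∀ Q, R Q → n ≤ Q.length) ∧
      (∀ Q d, R Q → 0 < d → d < W → ¬ R (Q.drop d)) ∧
      (∀ (Q : List α) (l : ℕ), 2 * W ≤ l → l + n ≤ Q.length → (∀ i < l, ¬ R (Q.drop i)) →
        ∃ p : ℕ, 0 < p ∧ p < W ∧ ∀ i : ℕ, s + W ≤ i → i + p < s + l + W → Q[i]? = Q[i + p]?) ∧
      s + 2 * W ≤ n := by
  classical
  have : Fintype (Option α) := Fintype.ofFinite _
  set N : ℕ := 2 * W with hNdef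
  set L : List (Fin N → Option α) := (Finset.univ : Finset (Fin N → Option α)).toList with hL
  have hmem : ∀ u : Fin N → Option α, u ∈ L := fun u => by simp [hL]
  set K : ℕ := L.length with hK
  set s : ℕ := K * W with hs
  set n : ℕ := 2 * s + N with hn
  have hagree : ∀ (f g : ℤ → Option α), (∀ t : ℤ, 0 ≤ t → t < (n : ℤ) → f t = g t) →
      (Mk N W L f (s : ℤ) ↔ Mk N W L g (s : ℤ)) := by
    intro f g h
    apply Mk_local
    intro t h1 h2
    apply h t
    · rw [hs] at h1; push_cast at h1; rw [← hK] at h1; linarith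
    · rw [hs] at h2; push_cast at h2; rw [← hK] at h2
      rw [hn, hs]; push_cast; linarith
  have hdrop : ∀ (Q : List α) (d : ℕ),
      (Mk N W L (fQ (Q.drop d)) (s : ℤ) ↔ Mk N W L (fQ Q) ((s : ℤ) + d)) := by
    intro Q d
    rw [← Mk_shift N W L (fQ Q) (d : ℤ) (s : ℤ)]
    apply hagree
    intro t h1 _
    exact fQ_drop Q d t h1
  refine ⟨n, s, fun Q => n ≤ Q.length ∧ Mk N W L (fQ Q) (s : ℤ), ?_, ?_, ?_, ?_, ?_⟩
  · intro Q
    have h1 : Mk N W L (fQ (Q.take n)) (s : ℤ) ↔ Mk N W L (fQ Q) (s : ℤ) := by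
      apply hagree
      intro t h1 h2
      exact fQ_take Q n t h1 h2
    simp only [h1, List.length_take]
    constructor
    · rintro ⟨a, b⟩; exact ⟨by omega, b⟩
    · rintro ⟨a, b⟩; exact ⟨by omega, b⟩
  · exact fun Q h => h.1
  · rintro Q d ⟨_, h1⟩ hd hdW ⟨_, h2⟩
    rw [hdrop] at h2
    exact Mk_sep N W L (fQ Q) (s : ℤ) (d : ℤ) h1 h2 (by exact_mod_cast hd) (by exact_mod_cast hdW)
  · intro Q l hl hlen hno
    have hno' : ∀ i : ℕ, i < l → ¬ Mk N W L (fQ Q) ((s : ℤ) + i) := by
      intro i hi hm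
      apply hno i hi
      refine ⟨?_, ?_⟩
      · rw [List.length_drop]; omega
      · exact (hdrop Q i).2 hm
    have hper : ∀ i : ℕ, i < l - 2 * W + 1 →
        Per N W (name N (fQ Q) (((s + W : ℕ) : ℤ) + i)) := by
      intro i hi
      by_contra hnp
      obtain ⟨d, hd, hm⟩ := Mk_cover N W hW L (fQ Q) (((s + W : ℕ) : ℤ) + i) (hmem _) hnp
      rw [abs_lt] at hd
      obtain ⟨j, hj⟩ : ∃ j : ℕ, (W : ℤ) + i + d = j := ⟨((W : ℤ) + i + d).toNat, by omega⟩
      refine hno' j (by omega) ?_
      have e : (((s + W : ℕ) : ℤ) + i + d) = (s : ℤ) + j := by push_cast; linarith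
      rw [← e]; exact hm
    obtain ⟨p, hp0, hpW, hp⟩ := per_stretch N W (le_refl _) (fQ Q) ((s + W : ℕ) : ℤ)
      (l - 2 * W + 1) (by omega) hper
    refine ⟨p, hp0, hpW, ?_⟩
    intro i hi1 hi2
    have := hp (i : ℤ) (by exact_mod_cast hi1) (by push_cast; omega)
    have e1 := fQ_nat Q i
    have e2 := fQ_nat Q (i + p)
    push_cast at e2
    rw [e1, e2] at this
    exact this
  · omega

end Word

end Crest.Agent.R320.Krieger_776
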