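import Crest.Agent.R320.Iface_5

set_option autoImplicit false

namespace Crest.Agent.R320.L1_5

open Crest.Agent.R320.S1_5 Crest.Agent.R320.Iface_5

variable {α S V Wt Nm : Type} [Monoid S] [AddCommGroup V] [AddCommGroup Wt]
variable {p : Prm α S V Wt Nm}

theorem take_append_right (P Q : List α) (t : ℕ) : (P ++ Q).take (P.length + t) = P ++ Q.take t := by
  rw [List.take_append]
  simp [List.take_of_length_le]

/-- walls of `P ++ Q` right of `P` -/
theorem wo_right (h : Geo p) (P Q : List α) {t : ℕ} (ht : p.n ≤ t) (hq : t ≤ Q.length) :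
    p.Wo ((P ++ Q).take (P.length + t)) ↔ p.Wo (Q.take t) := by
  rw [take_append_right]
  exact h.loc _ _ (by rw [List.length_take]; omega)

theorem T_split (h : Geo p) (v : V) (X : List α) :
    T p.p1.φ p.p1.act (nuB p) v X =
      p.p1.act (p.p1.act v (ph p.p1.φ (X.take p.p0)) + p.nu2 (X.take p.p0))
        (ph p.p1.φ (X.drop p.p0)) + nu p.p1 (X.drop p.p0) := by
  unfold T nuB
  have e : ph p.p1.φ X = ph p.p1.φ (X.take p.p0) * ph p.p1.φ (X.drop p.p0) := by
    rw [← ph_append, List.take_append_drop]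
  rw [e, h.act_add, h.act_mul]
  abel

theorem blk_of (h : Geo p) {P Q : List α} {om : ℕ} (hl : P.length = p.p0 + p.p1.Mq * om)
    (hom : p.p1.Mq * om ≤ p.N1) (hw : p.Wo Q)
    (h1 : p.thr ((p.p0 + Q.length) % p.p1.Mq) ≤ p.p0 + Q.length)
    (h2 : ∀ t < Q.length, p.Wo (Q.take t) → p.p0 + t + p.N1 < p.thr ((p.p0 + t) % p.p1.Mq)) :
    Blk p (P ++ Q) := by
  have hn := h.len _ hw
  have hmod : ∀ t, (P.length + t) % p.p1.Mq = (p.p0 + t) % p.p1.Mq := by
    intro t
    rw [hl, show p.p0 + p.p1.Mq * om + t = p.p0 + t + p.p1.Mq * om by ring,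
      Nat.add_mul_mod_self_left]
  refine ⟨le_rfl, ?_, ?_, ?_⟩
  · rw [List.take_length]
    exact (h.loc _ _ hn).2 hw
  · unfold adm
    rw [zero_add, List.length_append, hmod]
    omega
  · intro t ht hwt hadm
    unfold adm at hadm
    rw [zero_add] at hadm
    have hlo := h.thr_lo (t % p.p1.Mq)
    obtain ⟨s, rfl⟩ : ∃ s, t = P.length + s := ⟨t - P.length, by omega⟩
    rw [List.length_append] at ht
    have hs : p.n ≤ s := by omega
    rw [wo_right h P Q hs (by omega)] at hwt
    have := h2 s (by omega) hwt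
    rw [hmod] at hadm
    omega

theorem leafS1 : LeafS1 p := by
  intro h v b P Q hP hQ
  obtain ⟨hp0, c, hL, hv⟩ := hP
  obtain ⟨⟨c', hR, hb⟩, hw, h1, h2⟩ := hQ
  have hL0 := hL
  obtain ⟨om, hl, hc, -, -, -⟩ := hL
  rw [List.length_drop] at hl
  have hlen : P.length = p.p0 + p.p1.Mq * om := by omega
  have hom : p.p1.Mq * om ≤ p.N1 := h.cellN _ _ hc
  refine ⟨blk_of h hlen hom hw h1 h2, ?_⟩
  rw [T_split h]
  have e1 : (P ++ Q).take p.p0 = P.take p.p0 := List.take_append_of_le_length hp0
  have e2 : (P ++ Q).drop p.p0 = P.drop p.p0 ++ Q := List.drop_append_of_le_length hp0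
  rw [e1, e2, ← hv, h.ok.sound hL0 hR, hb]

theorem leafCode : LeafCode p := by
  intro h
  constructor
  · intro hb
    have := h.len _ hb.2.1
    have := h.npos
    simp at *
    omega
  · intro X Y hX hY hXY
    obtain ⟨Z, rfl⟩ := hXY
    by_contra hne
    have hZ : Z ≠ [] := by
      rintro rfl
      exact hne (by simp)
    have hlt : X.length < (X ++ Z).length := by
      rw [List.length_append]
      have := List.length_pos_of_ne_nil hZ
      omega
    refine hY.2.2.2 X.length hlt ?_ hX.2.2.1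
    have := hX.2.1
    rw [List.take_length] at this
    rwa [List.take_left']
    rfl

end Crest.Agent.R320.L1_5
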