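import Crest.Agent.R320.Def_20

/-!
Row 320, leaf L7 of helper20's instance: the spoiling count of the promise ruler.
-/

set_option autoImplicit false

namespace Crest.Agent.R320.L7_426

open Crest.Agent.R320.Inst20

variable {α : Type}

/-- a wall seen in a suffix is a wall of the word. -/
theorem wall_up (w : Walls α) (z : List α) (a t : ℕ)
    (h : w.Wo ((z.drop a).take t)) : w.Wo (z.take (a + t)) := by
  have e : z.take (a + t) = z.take a ++ (z.drop a).take t := List.take_add
  rw [e]
  exact (w.loc _ _ (w.len _ h)).2 h

/-- a wall of the word is seen in the suffix if its window fits. -/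
theorem wall_down (w : Walls α) (z : List α) (a t : ℕ) (ht : w.n ≤ t) (hl : a + t ≤ z.length)
    (h : w.Wo (z.take (a + t))) : w.Wo ((z.drop a).take t) := by
  have e : z.take (a + t) = z.take a ++ (z.drop a).take t := List.take_add
  rw [e] at h
  refine (w.loc _ _ ?_).1 h
  rw [List.length_take, List.length_drop]
  omega

theorem wall_gap (w : Walls α) (z : List α) (s s' : ℕ) (hs : s < s') (hl : s' ≤ z.length)
    (h : w.Wo (z.take s)) (h' : w.Wo (z.take s')) : w.W < s' - s := by
  by_contra hc
  have := w.gap (z.take s') (s' - s) h' (by omega) (by omega)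
  apply this
  have e : (z.take s').length - (s' - s) = s := by
    rw [List.length_take]; omega
  rw [e, List.take_take, min_eq_left (by omega)]
  exact h

open Classical in
/-- at most `1 + 2 * C0` elements of the ruler are spoiled. -/
theorem spoil (w : Walls α) (zz p0 N1 K C0 D : ℕ) (Bad : ℤ → Prop) (c : ℕ → ℕ)
    (hcD : ∀ k < K, c k ≤ D) (hz : D + w.n ≤ zz) (hW : 2 * (D + N1) ≤ w.W)
    (ruler : ∀ a b a' b', a < K → b < K → a' < K → b' < K → a ≠ b → a' ≠ b' →
      |((c a : ℤ) - c b) - ((c a' : ℤ) - c b')| ≤ 2 * N1 → a = a' ∧ b = b')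
    (hsp : ∀ T : ℤ, ((Finset.range K).filter fun a =>
      ∃ b < K, b ≠ a ∧ Bad (T - ((c a : ℤ) - c b))).card ≤ C0)
    (z : List α) :
    ((Finset.range K).filter fun k =>
      ∃ k' < K, k' ≠ k ∧ badK w zz p0 N1 Bad c k' (z.drop (c k))).card ≤ 1 + 2 * C0 := by
  -- the first walls at positions `≥ zz - D` and `≥ zz + D`
  let P1 : ℕ → Prop := fun s => zz ≤ s + D ∧ s ≤ z.length ∧ w.Wo (z.take s)
  let P2 : ℕ → Prop := fun s => zz + D ≤ s ∧ s ≤ z.length ∧ w.Wo (z.take s)
  let s1 : ℕ := if h : ∃ s, P1 s then Nat.find h else 0
  let s2 : ℕ := if h : ∃ s, P2 s then Nat.find h else 0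
  have hs1 : ∀ s, P1 s → (∀ s', P1 s' → s ≤ s') → s = s1 := by
    intro s hs hmin
    have hex : ∃ s, P1 s := ⟨s, hs⟩
    have : s1 = Nat.find hex := dif_pos hex
    rw [this]
    exact le_antisymm (hmin _ (Nat.find_spec hex)) (Nat.find_min' hex hs)
  have hs2 : ∀ s, P2 s → (∀ s', P2 s' → s ≤ s') → s = s2 := by
    intro s hs hmin
    have hex : ∃ s, P2 s := ⟨s, hs⟩
    have : s2 = Nat.find hex := dif_pos hex
    rw [this]
    exact le_antisymm (hmin _ (Nat.find_spec hex)) (Nat.find_min' hex hs)
  let E : Finset ℕ := (Finset.range K).filter fun k => ∃ k' < K, k' ≠ k ∧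
    ∃ s, s ≤ z.length ∧ w.Wo (z.take s) ∧
      |(s : ℤ) - zz - ((c k : ℤ) - c k')| ≤ N1
  let B1 : Finset ℕ := (Finset.range K).filter fun a =>
      ∃ b < K, b ≠ a ∧ Bad (((s1 : ℤ) - p0) - ((c a : ℤ) - c b))
  let B2 : Finset ℕ := (Finset.range K).filter fun a =>
      ∃ b < K, b ≠ a ∧ Bad (((s2 : ℤ) - p0) - ((c a : ℤ) - c b))
  have hE : E.card ≤ 1 := by
    rw [Finset.card_le_one]
    intro a ha b hb
    simp only [E, Finset.mem_filter, Finset.mem_range] at ha hb
    obtain ⟨haK, a', ha', hne, s, hsl, hsw, hs⟩ := ha
    obtain ⟨hbK, b', hb', hne', t, htl, htw, ht⟩ := hb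
    have h1 := hcD a haK
    have h2 := hcD a' ha'
    have h3 := hcD b hbK
    have h4 := hcD b' hb'
    have hs' := abs_le.1 hs
    have ht' := abs_le.1 ht
    have hst : s = t := by
      rcases lt_trichotomy s t with h | h | h
      · have := wall_gap w z s t h htl hsw htw
        omega
      · exact h
      · have := wall_gap w z t s h hsl htw hsw
        omega
    subst hst
    refine (ruler a a' b b' haK ha' hbK hb' (Ne.symm hne) (Ne.symm hne') ?_).1
    rw [abs_le]
    omega
  have hsub : ((Finset.range K).filter fun k =>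
      ∃ k' < K, k' ≠ k ∧ badK w zz p0 N1 Bad c k' (z.drop (c k))) ⊆ E ∪ (B1 ∪ B2) := by
    intro k hk
    simp only [Finset.mem_filter, Finset.mem_range] at hk
    obtain ⟨hkK, k', hk', hne, t, htl, htz, htw, hfirst, hbad⟩ := hk
    have h1 := hcD k hkK
    have h2 := hcD k' hk'
    rw [List.length_drop] at htl
    have hn0 := w.n0
    have htn : w.n ≤ t := by
      have := w.len _ htw
      rw [List.length_take] at this
      omega
    have hwall := wall_up w z (c k) t htw
    have hlen : c k + t ≤ z.length := by omega
    simp only [Finset.mem_union]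
    rcases hbad with ⟨t', ht't, hlo, hhi, hw'⟩ | hbad
    · left
      simp only [E, Finset.mem_filter, Finset.mem_range]
      refine ⟨hkK, k', hk', hne, c k + t', by omega, wall_up w z (c k) t' hw', ?_⟩
      rw [abs_le]
      push_cast
      omega
    · right
      by_cases hlt : c k + t < zz + D
      · left
        simp only [B1, Finset.mem_filter, Finset.mem_range]
        refine ⟨hkK, k', hk', hne, ?_⟩
        have hs : c k + t = s1 := by
          apply hs1
          · exact ⟨by omega, hlen, hwall⟩
          · intro s' hs'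
            by_contra hcon
            have := wall_gap w z s' (c k + t) (by omega) hlen hs'.2.2 hwall
            have := hs'.1
            omega
        rw [← hs]
        convert hbad using 1
        push_cast
        ring
      · right
        simp only [B2, Finset.mem_filter, Finset.mem_range]
        refine ⟨hkK, k', hk', hne, ?_⟩
        have hs : c k + t = s2 := by
          apply hs2
          · exact ⟨by omega, hlen, hwall⟩
          · intro s' hs'
            by_contra hcon
            obtain ⟨ha, hb, hc⟩ := hs'
            have e : c k + (s' - c k) = s' := by omega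
            refine hfirst (s' - c k) (by omega) (by omega) ?_
            apply wall_down w z (c k) (s' - c k) (by omega) (by omega)
            rw [e]; exact hc
        rw [← hs]
        convert hbad using 1
        push_cast
        ring
  calc _ ≤ (E ∪ (B1 ∪ B2)).card := Finset.card_le_card hsub
    _ ≤ E.card + (B1 ∪ B2).card := Finset.card_union_le _ _
    _ ≤ E.card + (B1.card + B2.card) := by
        have := Finset.card_union_le B1 B2
        omega
    _ ≤ 1 + 2 * C0 := by
        have h1 := hsp ((s1 : ℤ) - p0)
        have h2 := hsp ((s2 : ℤ) - p0)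
        change B1.card ≤ C0 at h1
        change B2.card ≤ C0 at h2
        omega

end Crest.Agent.R320.L7_426
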