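import Crest.Agent.R320.Def_20
import Crest.Agent.R320.FewVal_228
import Crest.Agent.R320.Reg_236
import Crest.Agent.R320.Hk2_851

/-!
Row 320: leaf L8 of helper20's instance (Def_20): all language families have height at most one.
-/

set_option autoImplicit false

namespace Crest.Agent.R320.L8_715

open Crest.Agent.R320.Hk_851 Crest.Agent.R320.Star_621 Crest.Agent.R320.Two_621
open Crest.Agent.R320.FewWalls_228 Crest.Agent.R320.FewVal_228 Crest.Agent.R320.Inst20
open Crest.Agent.R320.Reg_236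

variable {α : Type}

theorem reg_congr {L M : Language α} (h : M.IsRegular) (e : ∀ w, w ∈ L ↔ w ∈ M) : L.IsRegular := by
  have : L = M := Set.ext e
  rw [this]; exact h

theorem reg_or {p q : List α → Prop} (hp : Language.IsRegular ({w | p w} : Language α))
    (hq : Language.IsRegular ({w | q w} : Language α)) :
    Language.IsRegular ({w | p w ∨ q w} : Language α) := hp.add hq

theorem reg_and {p q : List α → Prop} (hp : Language.IsRegular ({w | p w} : Language α))
    (hq : Language.IsRegular ({w | q w} : Language α)) :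
    Language.IsRegular ({w | p w ∧ q w} : Language α) := hp.inf hq

theorem reg_not {p : List α → Prop} (hp : Language.IsRegular ({w | p w} : Language α)) :
    Language.IsRegular ({w | ¬ p w} : Language α) := hp.compl

theorem reg_const [Finite α] (p : Prop) : Language.IsRegular ({_w | p} : Language α) :=
  HL.isRegular (HL.const (k := 0) p)

theorem reg_ex {ι : Type*} [Finite ι] [Finite α] {p : ι → List α → Prop}
    (h : ∀ i, Language.IsRegular ({w | p i w} : Language α)) :
    Language.IsRegular ({w | ∃ i, p i w} : Language α) := by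
  classical
  haveI := Fintype.ofFinite ι
  have key : ∀ s : Finset ι, Language.IsRegular ({w | ∃ i ∈ s, p i w} : Language α) := by
    intro s
    induction s using Finset.induction_on with
    | empty =>
      refine reg_congr (reg_const False) fun w => ?_
      constructor
      · rintro ⟨i, hi, -⟩; simp at hi
      · intro h; exact h.elim
    | insert a s ha ih =>
      refine reg_congr (reg_or (h a) ih) fun w => ?_
      change (∃ i ∈ insert a s, p i w) ↔ (p a w ∨ ∃ i ∈ s, p i w)
      simp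
  refine reg_congr (key Finset.univ) fun w => ?_
  change (∃ i, p i w) ↔ ∃ i ∈ Finset.univ, p i w
  simp

theorem reg_all {ι : Type*} [Finite ι] [Finite α] {p : ι → List α → Prop}
    (h : ∀ i, Language.IsRegular ({w | p i w} : Language α)) :
    Language.IsRegular ({w | ∀ i, p i w} : Language α) := by
  refine reg_congr (reg_not (reg_ex fun i => reg_not (h i))) fun w => ?_
  change (∀ i, p i w) ↔ ¬ ∃ i, ¬ p i w
  push Not
  rfl

theorem reg_mul {p q : List α → Prop} (hp : Language.IsRegular ({w | p w} : Language α))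
    (hq : Language.IsRegular ({w | q w} : Language α)) :
    Language.IsRegular ({w | ∃ a b, w = a ++ b ∧ p a ∧ q b} : Language α) := by
  refine reg_congr (isRegular_mul hp hq) fun w => ?_
  constructor
  · rintro ⟨a, b, rfl, ha, hb⟩
    exact Language.mem_mul.2 ⟨a, ha, b, hb, rfl⟩
  · intro h
    obtain ⟨a, ha, b, hb, rfl⟩ := Language.mem_mul.1 h
    exact ⟨a, b, rfl, ha, hb⟩

theorem reg_val {M : Type*} [Monoid M] [Finite M] (φ : α → M) (s : M) :
    Language.IsRegular ({w | (w.map φ).prod = s} : Language α) := by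
  classical
  haveI := Fintype.ofFinite M
  have key : ∀ (w : List α) (m : M), w.foldl (fun (m : M) b => m * φ b) m =
      m * (w.map φ).prod := by
    intro w
    induction w with
    | nil => intro m; simp
    | cons a w ih => intro m; simp [ih, mul_assoc]
  let D : DFA α M := ⟨fun m b => m * φ b, 1, {s}⟩
  have hD : D.accepts = ({w | (w.map φ).prod = s} : Language α) := by
    ext w
    rw [DFA.mem_accepts]
    show w.foldl (fun (m : M) b => m * φ b) 1 = s ↔ (w.map φ).prod = s
    rw [key, one_mul]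
  obtain ⟨σ, hσ, D', hD'⟩ : ∃ σ : Type, ∃ _ : Fintype σ, ∃ D' : DFA α σ,
      D'.accepts = D.accepts := by
    let e := Fintype.equivFin M
    refine ⟨Fin (Fintype.card M), inferInstance, D.reindex e, ?_⟩
    exact DFA.accepts_reindex D e
  exact ⟨σ, hσ, D', hD'.trans hD⟩

/-- periodic conditions on the length -/
theorem reg_len [Finite α] {p : ℕ → Prop} {M : ℕ} (hM : 0 < M) (h : ∀ n, p (n + M) ↔ p n) :
    Language.IsRegular ({w | p w.length} : Language α) := by
  haveI : NeZero M := ⟨hM.ne'⟩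
  have hk : ∀ k n, p (n + k * M) ↔ p n := by
    intro k
    induction k with
    | zero => intro n; simp
    | succ k ih => intro n; rw [Nat.succ_mul, ← Nat.add_assoc, h, ih]
  have hmod : ∀ n, p n ↔ p (n % M) := by
    intro n
    have := hk (n / M) (n % M)
    rw [Nat.mul_comm, Nat.mod_add_div] at this
    exact this
  have hprod : ∀ w : List α,
      (w.map (fun _ => Multiplicative.ofAdd (1 : ZMod M))).prod = Multiplicative.ofAdd (w.length : ZMod M) := by
    intro w
    induction w with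
    | nil => simp
    | cons a w ih =>
      rw [List.map_cons, List.prod_cons, ih, ← ofAdd_add]
      congr 1
      push_cast [List.length_cons]
      ring
  haveI : Finite (Multiplicative (ZMod M)) := inferInstanceAs (Finite (ZMod M))
  refine reg_congr (reg_ex (ι := ZMod M) (p := fun r w =>
    (w.map (fun _ => Multiplicative.ofAdd (1 : ZMod M))).prod = Multiplicative.ofAdd r ∧ p r.val)
    fun r => reg_and (reg_val _ _) (reg_const _)) fun w => ?_
  change p w.length ↔ ∃ r : ZMod M, (w.map (fun _ => Multiplicative.ofAdd (1 : ZMod M))).prod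
    = Multiplicative.ofAdd r ∧ p r.val
  constructor
  · intro hw
    refine ⟨(w.length : ZMod M), hprod w, ?_⟩
    rw [ZMod.val_natCast]
    exact (hmod _).1 hw
  · rintro ⟨r, hr, hp⟩
    rw [hprod] at hr
    have hr' : (w.length : ZMod M) = r := Multiplicative.ofAdd.injective hr
    subst hr'
    rw [ZMod.val_natCast] at hp
    exact (hmod _).2 hp

section walls

variable [Finite α] (w : Walls α)

/-- the set of wall words -/
def WS : Set (List α) := {s | s.length = w.n ∧ w.Wo s}

theorem wl_iff (u : List α) (x : ℕ) :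
    Wl w.n (WS w) u x ↔ x + w.n ≤ u.length ∧ w.Wo (u.take (x + w.n)) := by
  unfold Wl WS
  refine and_congr_right fun h => ?_
  have h1 : ((u.drop x).take w.n).length = w.n := by
    rw [List.length_take, List.length_drop]; omega
  have h2 : u.take (x + w.n) = u.take x ++ (u.drop x).take w.n := by
    rw [List.take_add]
  rw [h2, w.loc _ _ (by rw [h1])]
  exact ⟨fun h => h.2, fun h => ⟨h1, h⟩⟩

theorem nw_le (u : List α) (F : Finset ℕ) (h : ∀ t, t ≤ u.length → w.Wo (u.take t) → t ∈ F) :
    nw w.n (WS w) u ≤ F.card := by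
  classical
  unfold nw
  refine Finset.card_le_card_of_injOn (fun x => x + w.n) ?_ ?_
  · intro x hx
    simp only [Finset.coe_filter, Finset.mem_range, Set.mem_ofPred_eq] at hx
    obtain ⟨h1, h2⟩ := (wl_iff w u x).1 hx.2
    exact h _ h1 h2
  · intro x _ y _ hxy
    simpa using hxy

variable {c0 P : ℕ} (hP : 0 < P) (hper : PerOff w.n c0 P (WS w))

include hP hper in
theorem HL1_few (r : ℕ) {L : Language α} (hL : L.IsRegular)
    (hr : ∀ u ∈ L, ∃ F : Finset ℕ, F.card ≤ r ∧ ∀ t, t ≤ u.length → w.Wo (u.take t) → t ∈ F) :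
    HL 1 L :=
  HL_of_few w.n0 hP hper r hL fun u hu => by
    obtain ⟨F, h1, h2⟩ := hr u hu
    exact (nw_le w u F h2).trans h1

/-! ### regularity -/

theorem reg_Wo : Language.IsRegular ({u | w.Wo u} : Language α) := by
  have h1 : Language.IsRegular ({s | s.length = w.n ∧ w.Wo s} : Language α) := by
    refine HL.isRegular (HL.finite (k := 0) ?_)
    exact (List.finite_length_eq α w.n).subset fun s hs => hs.1
  refine reg_congr (reg_mul (p := fun _ => True) (reg_const True) h1) fun u => ?_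
  change w.Wo u ↔ ∃ a b, u = a ++ b ∧ True ∧ b.length = w.n ∧ w.Wo b
  constructor
  · intro h
    have h2 := w.len _ h
    refine ⟨u.take (u.length - w.n), u.drop (u.length - w.n), (List.take_append_drop _ _).symm,
      trivial, by rw [List.length_drop]; omega, ?_⟩
    rw [← List.take_append_drop (u.length - w.n) u] at h
    exact (w.loc _ _ (by rw [List.length_drop]; omega)).1 h
  · rintro ⟨a, b, rfl, -, h1, h2⟩
    exact (w.loc _ _ (by omega)).2 h2

theorem reg_ge (c : ℕ) : Language.IsRegular ({u | c ≤ u.length} : Language α) :=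
  HL.isRegular (HL.length_ge (k := 0) c)

/-- first wall in `[c, ..)` after no wall in `[b, ..)` -/
theorem reg_first (b c : ℕ) : Language.IsRegular
    ({z | c ≤ z.length ∧ w.Wo z ∧ ∀ t, b ≤ t → t < z.length → ¬ w.Wo (z.take t)} : Language α) := by
  have h1 : Language.IsRegular ({z | ∃ u v, z = u ++ v ∧ (b ≤ u.length ∧ w.Wo u) ∧ 1 ≤ v.length} :
      Language α) := reg_mul (reg_and (reg_ge b) (reg_Wo w)) (reg_ge 1)
  refine reg_congr (reg_and (reg_and (reg_ge c) (reg_Wo w)) (reg_not h1)) fun z => ?_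
  change (c ≤ z.length ∧ w.Wo z ∧ ∀ t, b ≤ t → t < z.length → ¬ w.Wo (z.take t)) ↔
    ((c ≤ z.length ∧ w.Wo z) ∧ ¬ ∃ u v, z = u ++ v ∧ (b ≤ u.length ∧ w.Wo u) ∧ 1 ≤ v.length)
  constructor
  · rintro ⟨h2, h3, h4⟩
    refine ⟨⟨h2, h3⟩, ?_⟩
    rintro ⟨u, v, rfl, ⟨h5, h6⟩, h7⟩
    refine h4 u.length h5 (by rw [List.length_append]; omega) ?_
    rwa [List.take_left]
  · rintro ⟨⟨h2, h3⟩, h4⟩
    refine ⟨h2, h3, fun t h5 h6 h7 => h4 ⟨z.take t, z.drop t, (List.take_append_drop _ _).symm,
      ⟨by rw [List.length_take]; omega, h7⟩, by rw [List.length_drop]; omega⟩⟩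

theorem reg_FZ (c : ℕ) : (FZ w c).IsRegular := reg_first w c c

theorem reg_band (a b : ℕ) : Language.IsRegular
    ({z | ∃ t, a ≤ t ∧ t < b ∧ t ≤ z.length ∧ w.Wo (z.take t)} : Language α) := by
  refine reg_congr (reg_ex (ι := Fin b) (p := fun t z => ∃ u v, z = u ++ v ∧
    (a ≤ (t : ℕ) ∧ u.length = t ∧ w.Wo u) ∧ True) fun t => reg_mul (reg_and (reg_const _)
      (reg_and (HL.isRegular (HL.length_eq (k := 0) (t : ℕ))) (reg_Wo w))) (reg_const True))
      fun z => ?_
  change (∃ t, a ≤ t ∧ t < b ∧ t ≤ z.length ∧ w.Wo (z.take t)) ↔ ∃ t : Fin b, ∃ u v, z = u ++ v ∧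
    (a ≤ (t : ℕ) ∧ u.length = t ∧ w.Wo u) ∧ True
  constructor
  · rintro ⟨t, h1, h2, h3, h4⟩
    exact ⟨⟨t, h2⟩, z.take t, z.drop t, (List.take_append_drop _ _).symm,
      ⟨h1, by rw [List.length_take]; exact min_eq_left h3, h4⟩, trivial⟩
  · rintro ⟨t, u, v, rfl, ⟨h1, h2, h3⟩, -⟩
    refine ⟨t, h1, t.2, by rw [List.length_append]; omega, ?_⟩
    rw [← h2, List.take_left]
    exact h3

/-! ### few walls -/

theorem first_walls {b c : ℕ} {z : List α} (_h1 : c ≤ z.length)
    (h : ∀ t, b ≤ t → t < z.length → ¬ w.Wo (z.take t)) :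
    ∀ t, t ≤ z.length → w.Wo (z.take t) → t < b ∨ t = z.length := by
  intro t h2 h3
  by_contra hc
  push Not at hc
  exact h t hc.1 (by omega) h3

theorem FZ_walls {c : ℕ} {z : List α} (h : z ∈ FZ w c) :
    ∀ t, t ≤ z.length → w.Wo (z.take t) → t < c ∨ t = z.length :=
  first_walls w h.1 h.2.2

theorem F2 {a : ℕ} {z1 z2 : List α}
    (h1 : ∀ t, t ≤ z1.length → w.Wo (z1.take t) → t < a ∨ t = z1.length) (h2 : z2 ∈ FZ w w.n) :
    ∃ F : Finset ℕ, F.card ≤ a + w.n + 3 ∧
      ∀ t, t ≤ (z1 ++ z2).length → w.Wo ((z1 ++ z2).take t) → t ∈ F := by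
  classical
  refine ⟨(Finset.range a ∪ (Finset.range (w.n + 1)).image (fun s => z1.length + s)) ∪
    {z1.length + z2.length}, ?_, ?_⟩
  · refine (Finset.card_union_le _ _).trans ?_
    have e1 := Finset.card_union_le (Finset.range a)
      ((Finset.range (w.n + 1)).image (fun s => z1.length + s))
    have e2 : ((Finset.range (w.n + 1)).image (fun s => z1.length + s)).card ≤ w.n + 1 :=
      Finset.card_image_le.trans (by rw [Finset.card_range])
    rw [Finset.card_range] at e1
    rw [Finset.card_singleton]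
    omega
  · intro t ht hw
    simp only [Finset.mem_union, Finset.mem_range, Finset.mem_image, Finset.mem_singleton]
    rcases Nat.lt_or_ge z1.length t with h | h
    · obtain ⟨s, rfl⟩ : ∃ s, t = z1.length + s := ⟨t - z1.length, by omega⟩
      rw [List.length_append] at ht
      by_cases hs : s < w.n + 1
      · exact Or.inl (Or.inr ⟨s, hs, rfl⟩)
      · right
        rw [List.take_length_add_append] at hw
        have h3 := (w.loc _ _ (by rw [List.length_take]; omega)).1 hw
        rcases FZ_walls w h2 s (by omega) h3 with h4 | h4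
        · omega
        · rw [h4]
    · rw [List.take_append_of_le_length h] at hw
      rcases h1 t h hw with h4 | h4
      · exact Or.inl (Or.inl h4)
      · exact Or.inl (Or.inr ⟨0, by omega, by omega⟩)

section main

variable {S : Type} [Monoid S] [Finite S] (f : α → S) (zz p0 N1 : ℕ) (Bad : ℤ → Prop)

theorem reg_ph (s : S) : Language.IsRegular ({u | Inst20.ph f u = s} : Language α) := reg_val f s

theorem reg_Z : (Z w zz).IsRegular := by
  have h := reg_mul (reg_FZ w zz) (reg_FZ w w.n)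
  exact reg_congr h fun z => Iff.rfl

theorem reg_BadZ {Mb : ℕ} (hM : 0 < Mb) (hB : ∀ T : ℤ, Bad (T + Mb) ↔ Bad T) :
    Language.IsRegular ({z | BadZ w zz p0 N1 Bad z} : Language α) := by
  refine reg_or (reg_band w _ _) ?_
  refine reg_len (p := fun n => Bad ((n : ℤ) - p0)) hM fun n => ?_
  have : (((n + Mb : ℕ) : ℤ) - p0) = ((n : ℤ) - p0) + Mb := by push_cast; ring
  rw [this]
  exact hB _

theorem reg_Zc {Mb : ℕ} (hM : 0 < Mb) (hB : ∀ T : ℤ, Bad (T + Mb) ↔ Bad T) :
    (Zc w zz p0 N1 Bad).IsRegular := by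
  have h := reg_mul (reg_and (reg_FZ w zz) (reg_BadZ w zz p0 N1 Bad hM hB)) (reg_FZ w w.n)
  refine reg_congr h fun z => ?_
  constructor
  · rintro ⟨a, b, h1, h2, h3, h4⟩
    exact ⟨a, b, h1, ⟨h2, h4⟩, h3⟩
  · rintro ⟨a, b, h1, ⟨h2, h4⟩, h3⟩
    exact ⟨a, b, h1, h2, h3, h4⟩

include hP hper in
theorem HL_Z : HL 1 (Z w zz) :=
  HL1_few w hP hper (zz + w.n + 3) (reg_Z w zz) (by
    rintro u ⟨z1, z2, rfl, h1, h2⟩
    exact F2 w (FZ_walls w h1) h2)

include hP hper in
theorem HL_Zc {Mb : ℕ} (hM : 0 < Mb) (hB : ∀ T : ℤ, Bad (T + Mb) ↔ Bad T) :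
    HL 1 (Zc w zz p0 N1 Bad) :=
  HL1_few w hP hper (zz + w.n + 3) (reg_Zc w zz p0 N1 Bad hM hB) (by
    rintro u ⟨z1, z2, rfl, h1, h2, -⟩
    exact F2 w (FZ_walls w h1) h2)

variable {Bad}
variable (G : Gad1 (V := Tok S) (Inst20.ph f) act N1 Bad)

theorem HL_LA (v : Tok S) : HL 1 (LA f p0 N1 G v) := by
  refine HL.finite (k := 1) ?_
  refine (List.finite_length_lt α (p0 + N1)).subset ?_
  rintro P ⟨h1, h2⟩
  have h3 := G.lamlen _ _ h2
  rw [List.length_drop] at h3
  show P.length < p0 + N1
  omega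

theorem reg_RA (τ : Tok S) : (RA w f zz p0 N1 G τ).IsRegular := by
  have h : Language.IsRegular ({Q | ∃ b : Tok S, ∃ s : S, ∃ Q1 Q2, Q = Q1 ++ Q2 ∧
      (Q1leg w zz p0 N1 Q1 ∧ G.rho Q1 = some b) ∧ (Q2 ∈ FZ w w.n ∧ Inst20.ph f Q2 = s ∧
        τ = act b s)} : Language α) := by
    refine reg_ex fun b => reg_ex fun s => reg_mul (reg_and ?_ (G.reg b))
      (reg_and (reg_FZ w w.n) (reg_and (reg_ph f s) (reg_const _)))
    exact reg_first w _ _
  refine reg_congr h fun Q => ?_
  constructor
  · rintro ⟨Q1, Q2, b, h1, h2, h3, h4, h5⟩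
    exact ⟨b, _, Q1, Q2, h1, ⟨h2, h4⟩, h3, rfl, h5⟩
  · rintro ⟨b, s, Q1, Q2, h1, ⟨h2, h4⟩, h3, rfl, h5⟩
    exact ⟨Q1, Q2, b, h1, h2, h3, h4, h5⟩

include hP hper in
theorem HL_RA (τ : Tok S) : HL 1 (RA w f zz p0 N1 G τ) :=
  HL1_few w hP hper (zz - p0 - N1 + w.n + 3) (reg_RA w f zz p0 N1 G τ) (by
    rintro u ⟨Q1, Q2, b, rfl, h1, h2, -⟩
    exact F2 w (first_walls w h1.1 h1.2.2) h2)

theorem FZ_uniq {c : ℕ} {a b a' b' : List α} (h : a ++ b = a' ++ b') (ha : a ∈ FZ w c)
    (ha' : a' ∈ FZ w c) : a = a' ∧ b = b' := by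
  have hl : a.length = a'.length := by
    rcases lt_trichotomy a.length a'.length with h1 | h1 | h1
    · exfalso
      refine ha'.2.2 a.length ha.1 h1 ?_
      have h2 : a'.take a.length = a := by
        have h3 := congrArg (List.take a.length) h
        rw [List.take_left, List.take_append_of_le_length h1.le] at h3
        exact h3.symm
      rw [h2]; exact ha.2.1
    · exact h1
    · exfalso
      refine ha.2.2 a'.length ha'.1 h1 ?_
      have h2 : a.take a'.length = a' := by
        have h3 := congrArg (List.take a'.length) h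
        rw [List.take_left, List.take_append_of_le_length h1.le] at h3
        exact h3
      rw [h2]; exact ha'.2.1
  exact List.append_inj h hl

theorem reg_dY (hnu : ∀ x, Language.IsRegular ({u | G.nu u = x} : Language α)) (d : Tok S) :
    Language.IsRegular ({Y | dY w f zz p0 N1 G Y = d} : Language α) := by
  classical
  have h1 : Language.IsRegular ({Y | (∃ x : Tok S, ∃ s : S, ∃ Y1 Y2, Y = Y1 ++ Y2 ∧
      (Y1 ∈ FZ w (zz - p0) ∧ G.nu Y1 = x) ∧ (Y2 ∈ FZ w w.n ∧ Inst20.ph f Y2 = s ∧ act x s = d)) ∨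
      ((¬ ∃ Y1 Y2, Y = Y1 ++ Y2 ∧ Y1 ∈ FZ w (zz - p0) ∧ Y2 ∈ FZ w w.n) ∧ d = 0)} : Language α) := by
    refine reg_or (reg_ex fun x => reg_ex fun s => reg_mul (reg_and (reg_FZ w _) (hnu x))
      (reg_and (reg_FZ w w.n) (reg_and (reg_ph f s) (reg_const _))))
      (reg_and (reg_not (reg_mul (reg_FZ w _) (reg_FZ w w.n))) (reg_const _))
  refine reg_congr h1 fun Y => ?_
  change dY w f zz p0 N1 G Y = d ↔ _
  by_cases hY : ∃ Y1 Y2, Y = Y1 ++ Y2 ∧ Y1 ∈ FZ w (zz - p0) ∧ Y2 ∈ FZ w w.n
  · have e : dY w f zz p0 N1 G Y = act (G.nu hY.choose) (Inst20.ph f hY.choose_spec.choose) := by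
      unfold dY
      rw [dif_pos hY]
    obtain ⟨h2, h3, h4⟩ := hY.choose_spec.choose_spec
    rw [e]
    constructor
    · intro h
      left
      exact ⟨_, _, _, _, h2, ⟨h3, rfl⟩, h4, rfl, h⟩
    · rintro (⟨x, s, Y1, Y2, h5, ⟨h6, h7⟩, h8, h9, h10⟩ | ⟨h5, -⟩)
      · obtain ⟨e1, e2⟩ := FZ_uniq w (h2.symm.trans h5) h3 h6
        have e3 : G.nu hY.choose = x := (congrArg G.nu e1).trans h7
        have e4 : Inst20.ph f hY.choose_spec.choose = s := (congrArg (Inst20.ph f) e2).trans h9
        rw [e3, e4]; exact h10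
      · exact absurd hY h5
  · have e : dY w f zz p0 N1 G Y = 0 := by
      unfold dY
      rw [dif_neg hY]
    rw [e]
    constructor
    · intro h
      exact Or.inr ⟨hY, h.symm⟩
    · rintro (⟨x, s, Y1, Y2, h5, ⟨h6, h7⟩, h8, h9, h10⟩ | ⟨-, h5⟩)
      · exact absurd ⟨Y1, Y2, h5, h6, h8⟩ hY
      · exact h5.symm

theorem reg_CutY (v : Tok S) :
    Language.IsRegular ({Y | CutY w f zz p0 N1 G v Y} : Language α) := by
  have h0 : Language.IsRegular ({p | G.lam p = some v} : Language α) := by
    refine HL.isRegular (HL.finite (k := 0) ?_)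
    exact (List.finite_length_lt α N1).subset fun p hp => G.lamlen _ _ hp
  have h1 : Language.IsRegular ({Y | ∃ τ : Tok S, ∃ p Q, Y = p ++ Q ∧ G.lam p = some v ∧
      Q ∈ RA w f zz p0 N1 G τ} : Language α) :=
    reg_ex fun τ => reg_mul h0 (reg_RA w f zz p0 N1 G τ)
  refine reg_congr h1 fun Y => ?_
  constructor
  · rintro ⟨p, Q, τ, h2, h3, h4⟩
    exact ⟨τ, p, Q, h2, h3, h4⟩
  · rintro ⟨τ, p, Q, h2, h3, h4⟩
    exact ⟨p, Q, τ, h2, h3, h4⟩

theorem stepY_iff (Y : List α) (t : TT S) :
    stepY w f zz p0 N1 G Y = t ↔ t.unop (none : Option (Tok S)) = none ∧ ∀ v : Tok S,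
      (CutY w f zz p0 N1 G v Y ∧ t.unop (some v : Option (Tok S)) = none) ∨
      (¬ CutY w f zz p0 N1 G v Y ∧ ∃ s : S, ∃ d : Tok S, Inst20.ph f Y = s ∧
        dY w f zz p0 N1 G Y = d ∧ t.unop (some v : Option (Tok S)) = some (act v s + d)) := by
  classical
  constructor
  · rintro rfl
    refine ⟨rfl, fun v => ?_⟩
    by_cases h : CutY w f zz p0 N1 G v Y
    · left
      refine ⟨h, ?_⟩
      show (if CutY w f zz p0 N1 G v Y then none
        else some (act v (Inst20.ph f Y) + dY w f zz p0 N1 G Y)) = none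
      rw [if_pos h]
    · right
      refine ⟨h, _, _, rfl, rfl, ?_⟩
      show (if CutY w f zz p0 N1 G v Y then none
        else some (act v (Inst20.ph f Y) + dY w f zz p0 N1 G Y)) = _
      rw [if_neg h]
  · rintro ⟨h1, h2⟩
    apply MulOpposite.unop_injective
    funext o
    rcases o with _ | v
    · exact h1.symm
    · show (if CutY w f zz p0 N1 G v Y then none
        else some (act v (Inst20.ph f Y) + dY w f zz p0 N1 G Y)) = t.unop (some v)
      rcases h2 v with ⟨h3, h4⟩ | ⟨h3, s, d, rfl, rfl, h4⟩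
      · rw [if_pos h3, h4]
      · rw [if_neg h3, h4]

theorem reg_stepY (hnu : ∀ x, Language.IsRegular ({u | G.nu u = x} : Language α)) (t : TT S) :
    Language.IsRegular ({Y | stepY w f zz p0 N1 G Y = t} : Language α) := by
  have h : Language.IsRegular ({Y | t.unop (none : Option (Tok S)) = none ∧ ∀ v : Tok S,
      (CutY w f zz p0 N1 G v Y ∧ t.unop (some v : Option (Tok S)) = none) ∨
      (¬ CutY w f zz p0 N1 G v Y ∧ ∃ s : S, ∃ d : Tok S, Inst20.ph f Y = s ∧
        dY w f zz p0 N1 G Y = d ∧ t.unop (some v : Option (Tok S)) = some (act v s + d))} :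
      Language α) :=
    reg_and (reg_const _) (reg_all fun v => reg_or
      (reg_and (reg_CutY w f zz p0 N1 G v) (reg_const _))
      (reg_and (reg_not (reg_CutY w f zz p0 N1 G v)) (reg_ex fun s => reg_ex fun d =>
        reg_and (reg_ph f s) (reg_and (reg_dY w f zz p0 N1 G hnu d) (reg_const _)))))
  exact reg_congr h fun Y => stepY_iff w f zz p0 N1 G Y t

theorem reg_badK {Mb : ℕ} (hM : 0 < Mb) (hB : ∀ T : ℤ, Bad (T + Mb) ↔ Bad T) (c : ℕ → ℕ) (k : ℕ) :
    Language.IsRegular ({Q | badK w zz p0 N1 Bad c k Q} : Language α) := by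
  have hlen : Language.IsRegular ({u | Bad (((u.length + c k : ℕ) : ℤ) - p0)} : Language α) := by
    refine reg_len (p := fun n => Bad (((n + c k : ℕ) : ℤ) - p0)) hM fun n => ?_
    have : (((n + Mb + c k : ℕ) : ℤ) - p0) = (((n + c k : ℕ) : ℤ) - p0) + Mb := by
      push_cast; ring
    rw [this]
    exact hB _
  have h := reg_mul (reg_and (reg_FZ w (zz - c k))
    (reg_or (reg_band w (zz - N1 - c k) (zz + N1 - c k)) hlen)) (reg_const (α := α) True)
  refine reg_congr h fun Q => ?_
  constructor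
  · rintro ⟨t, h1, h2, h3, h4, h5⟩
    refine ⟨Q.take t, Q.drop t, (List.take_append_drop _ _).symm, ⟨⟨?_, h3, ?_⟩, ?_⟩, trivial⟩
    · rw [List.length_take]; omega
    · intro s h6 h7
      rw [List.length_take] at h7
      rw [List.take_take, min_eq_left (by omega)]
      exact h4 s (by omega) (by omega)
    · rcases h5 with ⟨t', h6, h7, h8, h9⟩ | h5
      · left
        refine ⟨t', by omega, by omega, by rw [List.length_take]; omega, ?_⟩
        rw [List.take_take, min_eq_left h6]
        exact h9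
      · right
        show Bad ((((Q.take t).length + c k : ℕ) : ℤ) - p0)
        rw [List.length_take, min_eq_left h1]
        exact h5
  · rintro ⟨u, y, rfl, ⟨⟨h1, h2, h3⟩, h4⟩, -⟩
    refine ⟨u.length, by rw [List.length_append]; omega, by omega, by rwa [List.take_left], ?_, ?_⟩
    · intro s h5 h6
      rw [List.take_append_of_le_length h5.le]
      exact h3 s (by omega) h5
    · rcases h4 with ⟨t', h6, h7, h8, h9⟩ | h4
      · left
        refine ⟨t', h8, by omega, by omega, ?_⟩
        rwa [List.take_append_of_le_length h8]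
      · right
        exact h4

variable (K : ℕ) (c : ℕ → ℕ) (lam2 : ℕ → List α → Option (Tok (TT S)))
  (rho2 : ℕ → List α → TT S → Option (Tok (TT S)))

theorem HL_LB (v : Tok (TT S)) : HL 1 (LB K c lam2 v) := by
  refine HL.finite (k := 1) ?_
  refine (Set.finite_iUnion (fun k : Fin K => List.finite_length_eq α (c k))).subset ?_
  rintro P ⟨k, hk, h1, -⟩
  exact Set.mem_iUnion.2 ⟨⟨k, hk⟩, h1⟩

theorem finite_TT : Finite (TT S) := by
  haveI : Finite (Function.End (Option (Tok S))) :=
    inferInstanceAs (Finite (Option (Tok S) → Option (Tok S)))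
  exact Finite.of_equiv _ MulOpposite.opEquiv

theorem reg_RB {Mb : ℕ} (hM : 0 < Mb) (hB : ∀ T : ℤ, Bad (T + Mb) ↔ Bad T)
    (hnu : ∀ x, Language.IsRegular ({u | G.nu u = x} : Language α)) (hpz : p0 ≤ zz)
    (τ : Tok (TT S)) : (RB w f zz p0 N1 G K c rho2 τ).IsRegular := by
  haveI := finite_TT (S := S)
  have hX : ∀ k : ℕ, Finite {X : List α // X.length = p0 - c k} := fun k =>
    (List.finite_length_eq α (p0 - c k)).to_subtype
  have h : Language.IsRegular ({Q | ∃ k : Fin K, badK w zz p0 N1 Bad c k Q ∧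
      (∀ k' : Fin K, badK w zz p0 N1 Bad c k' Q → (k' : ℕ) = k) ∧
      (∃ Q1 Q2, Q = Q1 ++ Q2 ∧ Q1 ∈ FZ w (zz - c k) ∧ Q2 ∈ FZ w w.n) ∧
      ∃ X : {X : List α // X.length = p0 - c k}, ∃ t : TT S, ∃ X1 Y, Q = X1 ++ Y ∧ X1 = X.1 ∧
        (stepY w f zz p0 N1 G Y = t ∧ rho2 k X.1 t = some τ)} : Language α) := by
    refine reg_ex fun k => reg_and (reg_badK w zz p0 N1 hM hB c k) (reg_and
      (reg_all fun k' => ?_) (reg_and (reg_mul (reg_FZ w _) (reg_FZ w w.n)) ?_))
    · have h1 := reg_or (reg_not (reg_badK w zz p0 N1 hM hB c k'))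
        (reg_const (α := α) ((k' : ℕ) = k))
      refine reg_congr h1 fun Q => ?_
      change (badK w zz p0 N1 Bad c k' Q → (k' : ℕ) = k) ↔
        (¬ badK w zz p0 N1 Bad c k' Q ∨ (k' : ℕ) = k)
      tauto
    · haveI := hX k
      refine reg_ex fun X => reg_ex fun t => reg_mul ?_
        (reg_and (reg_stepY w f zz p0 N1 G hnu t) (reg_const _))
      exact HL.isRegular (HL.word (k := 0) X.1)
  refine reg_congr h fun Q => ?_
  constructor
  · rintro ⟨k, hk, h1, h2, h3, h4⟩
    refine ⟨⟨k, hk⟩, h1, fun k' h5 => h2 k' k'.2 h5, h3, ?_⟩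
    obtain ⟨Q1, Q2, rfl, h5, h6⟩ := h3
    have h7 : p0 - c k ≤ (Q1 ++ Q2).length := by
      have := h5.1
      rw [List.length_append]
      omega
    exact ⟨⟨(Q1 ++ Q2).take (p0 - c k), by rw [List.length_take]; exact min_eq_left h7⟩, _,
      (Q1 ++ Q2).take (p0 - c k), (Q1 ++ Q2).drop (p0 - c k), (List.take_append_drop _ _).symm,
      rfl, rfl, h4⟩
  · rintro ⟨k, h1, h2, h3, X, t, X1, Y, rfl, rfl, rfl, h4⟩
    refine ⟨k, k.2, h1, fun k' hk' h5 => h2 ⟨k', hk'⟩ h5, h3, ?_⟩
    have e1 : (X.1 ++ Y).take (p0 - c k) = X.1 := List.take_left' X.2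
    have e2 : (X.1 ++ Y).drop (p0 - c k) = Y := List.drop_left' X.2
    rw [e1, e2]
    exact h4

include hP hper in
theorem HL_RB {Mb : ℕ} (hM : 0 < Mb) (hB : ∀ T : ℤ, Bad (T + Mb) ↔ Bad T)
    (hnu : ∀ x, Language.IsRegular ({u | G.nu u = x} : Language α)) (hpz : p0 ≤ zz)
    (τ : Tok (TT S)) : HL 1 (RB w f zz p0 N1 G K c rho2 τ) :=
  HL1_few w hP hper (zz + w.n + 3) (reg_RB w f zz p0 N1 G K c rho2 hM hB hnu hpz τ) (by
    rintro u ⟨k, hk, -, -, ⟨Q1, Q2, rfl, h1, h2⟩, -⟩
    obtain ⟨F, hF, hF2⟩ := F2 w (FZ_walls w h1) h2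
    exact ⟨F, by omega, hF2⟩)

include hP hper in
theorem HL_rest (s : S) :
    HL 1 ({u | (∀ z ∈ Z w zz, ¬ z <+: u) ∧ (u.map f).prod = s} : Language α) := by
  classical
  refine HL1_few w hP hper (zz + w.n + 3) ?_ ?_
  · have h1 : Language.IsRegular ({u | (¬ ∃ a b, u = a ++ b ∧ a ∈ Z w zz ∧ True) ∧
        (u.map f).prod = s} : Language α) :=
      reg_and (reg_not (reg_mul (reg_Z w zz) (reg_const True))) (reg_val f s)
    refine reg_congr h1 fun u => ?_
    change ((∀ z ∈ Z w zz, ¬ z <+: u) ∧ (u.map f).prod = s) ↔ _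
    refine and_congr_left fun _ => ?_
    constructor
    · rintro h ⟨a, b, rfl, h2, -⟩
      exact h a h2 (List.prefix_append a b)
    · rintro h z h2 ⟨y, rfl⟩
      exact h ⟨z, y, rfl, h2, trivial⟩
  · rintro u ⟨hu, -⟩
    by_cases hex : ∃ t, zz ≤ t ∧ t ≤ u.length ∧ w.Wo (u.take t)
    · set t1 := Nat.find hex with ht1
      obtain ⟨h1, h2, h3⟩ := Nat.find_spec hex
      rw [← ht1] at h1 h2 h3
      have hmin : ∀ t, zz ≤ t → t < t1 → ¬ w.Wo (u.take t) := by
        intro t h4 h5 h6
        exact Nat.find_min hex h5 ⟨h4, by omega, h6⟩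
      have hfz : u.take t1 ∈ FZ w zz := by
        refine ⟨by rw [List.length_take]; omega, h3, ?_⟩
        intro t h4 h5
        rw [List.length_take] at h5
        rw [List.take_take, min_eq_left (by omega)]
        exact hmin t h4 (by omega)
      refine ⟨Finset.range zz ∪ (Finset.range (w.n + 1)).image (fun s => t1 + s), ?_, ?_⟩
      · have e1 := Finset.card_union_le (Finset.range zz)
          ((Finset.range (w.n + 1)).image (fun s => t1 + s))
        have e2 : ((Finset.range (w.n + 1)).image (fun s => t1 + s)).card ≤ w.n + 1 :=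
          Finset.card_image_le.trans (by rw [Finset.card_range])
        rw [Finset.card_range] at e1
        omega
      · intro t h4 h5
        simp only [Finset.mem_union, Finset.mem_range, Finset.mem_image]
        by_cases h6 : t < zz
        · exact Or.inl h6
        by_cases h7 : t < t1
        · exact absurd h5 (hmin t (by omega) h7)
        by_cases h8 : t < t1 + w.n + 1
        · exact Or.inr ⟨t - t1, by omega, by omega⟩
        exfalso
        -- a second wall gives a zone
        have hex2 : ∃ s, w.n ≤ s ∧ t1 + s ≤ u.length ∧ w.Wo ((u.drop t1).take s) := by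
          refine ⟨t - t1, by omega, by omega, ?_⟩
          have h9 : u.take t = u.take t1 ++ (u.drop t1).take (t - t1) := by
            rw [← List.take_add]
            congr 1
            omega
          rw [h9] at h5
          exact (w.loc _ _ (by rw [List.length_take, List.length_drop]; omega)).1 h5
        obtain ⟨g1, g2, g3⟩ := Nat.find_spec hex2
        refine hu (u.take t1 ++ (u.drop t1).take (Nat.find hex2)) ⟨_, _, rfl, hfz, ?_⟩ ?_
        · refine ⟨by rw [List.length_take, List.length_drop]; omega, g3, ?_⟩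
          intro s h10 h11 h12
          rw [List.length_take, List.length_drop] at h11
          rw [List.take_take, min_eq_left (by omega)] at h12
          exact Nat.find_min hex2 (by omega) ⟨h10, by omega, h12⟩
        · rw [← List.take_add]
          exact List.take_prefix _ _
    · push Not at hex
      refine ⟨Finset.range zz, by rw [Finset.card_range]; omega, fun t h1 h2 => ?_⟩
      rw [Finset.mem_range]
      by_contra h3
      exact hex t (by omega) h1 h2

end main

end walls

end Crest.Agent.R320.L8_715
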