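import Crest.Agent.R320.Def_20
import Crest.Agent.R320.Reg_143

/-!
# Row 320: L8 of helper20 #13850 (regularity part), helper300
-/

set_option autoImplicit false
set_option linter.unusedSectionVars false
set_option linter.unusedVariables false

namespace Crest.Agent.R320.L8_300

open Crest.Agent.R320.Hk_851 Crest.Agent.R320.Star_621 Crest.Agent.R320.Two_621
open Crest.Agent.R320.Inst20 Crest.R320.Reg_143

variable {α : Type} [Finite α]

theorem reg_or {P Q : List α → Prop} (hP : (lg P).IsRegular) (hQ : (lg Q).IsRegular) :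
    (lg fun w => P w ∨ Q w).IsRegular :=
  isRegular_congr (((RegP.mem (k := 0) hP).or (RegP.mem hQ)).close) fun w => Iff.rfl

theorem reg_and {P Q : List α → Prop} (hP : (lg P).IsRegular) (hQ : (lg Q).IsRegular) :
    (lg fun w => P w ∧ Q w).IsRegular :=
  isRegular_congr (((RegP.mem (k := 0) hP).and (RegP.mem hQ)).close) fun w => Iff.rfl

theorem reg_not {P : List α → Prop} (hP : (lg P).IsRegular) :
    (lg fun w => ¬ P w).IsRegular :=
  isRegular_congr (((RegP.mem (k := 0) hP).not).close) fun w => Iff.rfl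

theorem reg_ex {ι : Type} [Finite ι] {P : ι → List α → Prop} (hP : ∀ i, (lg (P i)).IsRegular) :
    (lg fun w => ∃ i, P i w).IsRegular :=
  isRegular_congr ((RegP.exists_finite (k := 0) (P := fun i w _ => P i w)
    fun i => RegP.mem (hP i)).close) fun w => Iff.rfl

theorem reg_all {ι : Type} [Finite ι] {P : ι → List α → Prop} (hP : ∀ i, (lg (P i)).IsRegular) :
    (lg fun w => ∀ i, P i w).IsRegular :=
  isRegular_congr ((RegP.forall_finite (k := 0) (P := fun i w _ => P i w)
    fun i => RegP.mem (hP i)).close) fun w => Iff.rfl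

theorem reg_const (p : Prop) : (lg fun _ : List α => p).IsRegular :=
  isRegular_congr ((RegP.const (k := 0) (α := α) p).close) fun w => Iff.rfl

theorem reg_len_ge (c : ℕ) : (lg fun w : List α => c ≤ w.length).IsRegular :=
  isRegular_length (fun n => c ≤ n) c 1 one_pos fun n hn => by omega

theorem reg_len_lt (c : ℕ) : (lg fun w : List α => w.length < c).IsRegular :=
  isRegular_length (fun n => n < c) c 1 one_pos fun n hn => by omega

theorem reg_len_eq (c : ℕ) : (lg fun w : List α => w.length = c).IsRegular :=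
  isRegular_length (fun n => n = c) (c + 1) 1 one_pos fun n hn => by omega

/-- words of bounded length: any predicate is regular -/
theorem reg_bdd (c : ℕ) (P : List α → Prop) :
    (lg fun w : List α => w.length ≤ c ∧ P w).IsRegular := by
  refine isRegular_congr (reg_and (reg_len_lt (c + 1)) (isRegular_take c P)) fun w => ?_
  show (w.length < c + 1 ∧ P (w.take c)) ↔ _
  constructor
  · rintro ⟨h1, h2⟩
    rw [List.take_of_length_le (by omega)] at h2
    exact ⟨by omega, h2⟩
  · rintro ⟨h1, h2⟩
    refine ⟨by omega, ?_⟩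
    rw [List.take_of_length_le h1]; exact h2

theorem reg_cat' {P Q : List α → Prop} (hP : (lg P).IsRegular) (hQ : (lg Q).IsRegular) :
    (lg fun w => ∃ u v, w = u ++ v ∧ P u ∧ Q v).IsRegular :=
  isRegular_congr (isRegular_cat hP hQ) fun w => by
    constructor
    · rintro ⟨u, v, h, h1, h2⟩; exact ⟨u, v, h.symm, h1, h2⟩
    · rintro ⟨u, v, h, h1, h2⟩; exact ⟨u, v, h.symm, h1, h2⟩

/-- `P (w.drop m)` -/
theorem reg_drop (m : ℕ) {P : List α → Prop} (hP : (lg P).IsRegular) :
    (lg fun w => P (w.drop m)).IsRegular := by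
  refine isRegular_congr (reg_or (reg_cat' (reg_len_eq m) hP)
    (reg_and (reg_len_lt m) (reg_const (P [])))) fun w => ?_
  constructor
  · rintro (⟨u, v, rfl, h1, h2⟩ | ⟨h1, h2⟩)
    · show P ((u ++ v).drop m)
      have h1' : u.length = m := h1
      rw [← h1', List.drop_left]; exact h2
    · show P (w.drop m)
      have h1' : w.length < m := h1
      rw [List.drop_eq_nil_of_le (by omega)]; exact h2
  · intro h
    have h' : P (w.drop m) := h
    by_cases hm : m ≤ w.length
    · left
      exact ⟨w.take m, w.drop m, (List.take_append_drop m w).symm, by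
        show (w.take m).length = m
        rw [List.length_take]; omega, h'⟩
    · right
      refine ⟨by show w.length < m; omega, ?_⟩
      rw [List.drop_eq_nil_of_le (by omega)] at h'
      exact h'

section
variable (w : Walls α)

theorem reg_Wo : (lg w.Wo).IsRegular := by
  refine isRegular_congr (reg_cat' (reg_const True) (reg_bdd w.n fun v => w.n = v.length ∧ w.Wo v))
    fun Q => ?_
  constructor
  · rintro ⟨u, v, rfl, -, h1, h2, h3⟩
    exact (w.loc u v (by omega)).2 h3
  · intro h
    have h' : w.Wo Q := h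
    have hl := w.len Q h'
    refine ⟨Q.take (Q.length - w.n), Q.drop (Q.length - w.n), (List.take_append_drop _ _).symm,
      trivial, ?_, ?_, ?_⟩
    · rw [List.length_drop]; omega
    · rw [List.length_drop]; omega
    · rw [← w.loc (Q.take (Q.length - w.n)) _ (by rw [List.length_drop]; omega),
        List.take_append_drop]
      exact h'

/-- no wall at places `t`, `a ≤ t < |z|` -/
theorem reg_nowall (a : ℕ) :
    (lg fun z : List α => ∀ t, a ≤ t → t < z.length → ¬ w.Wo (z.take t)).IsRegular := by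
  have h : RegP (α := α) (k := 0) (fun z _ => ∀ y ≤ z.length,
      (a ≤ (z.take y).length → 0 < (z.drop y).length → ¬ w.Wo (z.take y))) := by
    refine RegP.all' (P := fun z _ y => a ≤ (z.take y).length → 0 < (z.drop y).length →
      ¬ w.Wo (z.take y)) ?_
    exact (RegP.take (reg_len_ge a) 0).imp ((RegP.drop (reg_len_ge 1) 0).imp
      (RegP.take (reg_Wo w) 0).not)
  refine isRegular_congr h.close fun z => ?_
  constructor
  · intro h t h1 h2
    refine h t (le_of_lt h2) ?_ ?_
    · rw [List.length_take]; omega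
    · rw [List.length_drop]; omega
  · intro h y hy h1 h2
    rw [List.length_take] at h1
    rw [List.length_drop] at h2
    exact h y (by omega) (by omega)

theorem reg_FZ (c : ℕ) : (lg fun z => z ∈ FZ w c).IsRegular :=
  isRegular_congr (reg_and (reg_len_ge c) (reg_and (reg_Wo w) (reg_nowall w c))) fun z => Iff.rfl

variable (zz p0 N1 : ℕ) (Bad : ℤ → Prop)

theorem reg_Z : (lg fun z => z ∈ Z w zz).IsRegular :=
  isRegular_congr (reg_cat' (reg_FZ w zz) (reg_FZ w w.n)) fun z => Iff.rfl

/-- some wall at a place in `[a, b)` -/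
theorem reg_somewall (a b : ℕ) :
    (lg fun z : List α => ∃ t, a ≤ t ∧ t < b ∧ t ≤ z.length ∧ w.Wo (z.take t)).IsRegular := by
  have h : RegP (α := α) (k := 0) (fun z _ => ∃ y ≤ z.length,
      (a ≤ (z.take y).length ∧ ((z.take y).length < b ∧ w.Wo (z.take y)))) := by
    refine RegP.ex' (P := fun z _ y => a ≤ (z.take y).length ∧ ((z.take y).length < b ∧
      w.Wo (z.take y))) ?_
    exact (RegP.take (reg_len_ge a) 0).and ((RegP.take (reg_len_lt b) 0).and
      (RegP.take (reg_Wo w) 0))
  refine isRegular_congr h.close fun z => ?_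
  constructor
  · rintro ⟨y, hy, h1, h2, h3⟩
    rw [List.length_take] at h1 h2
    exact ⟨y, by omega, by omega, hy, h3⟩
  · rintro ⟨t, h1, h2, h3, h4⟩
    exact ⟨t, h3, by rw [List.length_take]; omega, by rw [List.length_take]; omega, h4⟩

theorem reg_Bad {M : ℕ} (hM : 0 < M) (hB : ∀ T : ℤ, Bad (T + M) ↔ Bad T) (d : ℤ) :
    (lg fun z : List α => Bad ((z.length : ℤ) + d)).IsRegular :=
  isRegular_length (fun n => Bad ((n : ℤ) + d)) 0 M hM fun n _ => by
    rw [← hB ((n : ℤ) + d)]
    push_cast
    rw [show (n : ℤ) + M + d = n + d + M by ring]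

theorem reg_BadZ {M : ℕ} (hM : 0 < M) (hB : ∀ T : ℤ, Bad (T + M) ↔ Bad T) :
    (lg fun z => BadZ w zz p0 N1 Bad z).IsRegular :=
  isRegular_congr (reg_or (reg_somewall w (zz - N1) (zz + N1)) (reg_Bad Bad hM hB (-(p0 : ℤ))))
    fun z => by
      show (_ ∨ _) ↔ (_ ∨ _)
      rfl

theorem reg_Zc {M : ℕ} (hM : 0 < M) (hB : ∀ T : ℤ, Bad (T + M) ↔ Bad T) :
    (lg fun z => z ∈ Zc w zz p0 N1 Bad).IsRegular :=
  isRegular_congr (reg_cat' (reg_and (reg_FZ w zz) (reg_BadZ w zz p0 N1 Bad hM hB))
    (reg_FZ w w.n)) fun z => by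
      constructor
      · rintro ⟨u, v, h, ⟨h1, h2⟩, h3⟩; exact ⟨u, v, h, h1, h3, h2⟩
      · rintro ⟨u, v, h, h1, h3, h2⟩; exact ⟨u, v, h, ⟨h1, h2⟩, h3⟩

theorem reg_Q1leg : (lg fun z => Q1leg w zz p0 N1 z).IsRegular :=
  isRegular_congr (reg_and (reg_len_ge (zz - p0)) (reg_and (reg_Wo w)
    (reg_nowall w (zz - p0 - N1)))) fun z => Iff.rfl

end

end Crest.Agent.R320.L8_300
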