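import Crest.Agent.R320.Def_20
import Crest.Agent.R320.Reg_143
import Crest.Agent.R320.FewVal_228

/-!
# Row 320, leaf L8 of helper20 (regularity and height one of the families of `Def_20`), part 1.
-/

set_option autoImplicit false

namespace Crest.Agent.R320.L8_914

open Crest.Agent.R320.Hk_851 Crest.Agent.R320.Star_621 Crest.Agent.R320.Two_621
open Crest.Agent.R320.Inst20
open Crest.R320.Reg_143
open Crest.Agent.R320.FewVal_228 (lastn lastn_length lastn_snoc)

variable {α : Type} [Finite α]

open Classical in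
/-- number of walls of a word -/
noncomputable def nW (w : Walls α) (u : List α) : ℕ :=
  ((Finset.range (u.length + 1)).filter fun t => w.Wo (u.take t)).card

/-- regular languages of words with few walls have height one -/
def Few (w : Walls α) : Prop :=
  ∀ (r : ℕ) (L : Language α), L.IsRegular → (∀ u ∈ L, nW w u ≤ r) → HL 1 L

theorem reg_wo (w : Walls α) : (lg fun u : List α => w.Wo u).IsRegular := by
  classical
  let B := {b : List α // b.length ≤ w.n}
  haveI : Finite B := (List.finite_length_le α w.n).to_subtype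
  let step : B → α → B := fun q a => ⟨lastn w.n (q.1 ++ [a]), lastn_length _ _⟩
  refine isRegular_congr (isRegular_fold step ⟨[], by simp⟩ fun q => w.Wo q.1) fun u => ?_
  rw [mem_lg]
  have key : ∀ u : List α, (u.foldl step ⟨[], by simp⟩).1 = lastn w.n u := by
    intro u
    induction u using List.reverseRecOn with
    | nil => simp [lastn]
    | append_singleton u a ih =>
      rw [List.foldl_append]
      show lastn w.n ((u.foldl step ⟨[], by simp⟩).1 ++ [a]) = _
      rw [ih, ← lastn_snoc]
  rw [key u]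
  by_cases h : w.n ≤ u.length
  · have e : u = u.take (u.length - w.n) ++ lastn w.n u := by
      unfold lastn; rw [List.take_append_drop]
    conv_rhs => rw [e]
    exact (w.loc _ _ (by unfold lastn; rw [List.length_drop]; omega)).symm
  · have e : lastn w.n u = u := by
      unfold lastn
      rw [show u.length - w.n = 0 by omega, List.drop_zero]
    rw [e]

/-- ultimately periodic conditions on a position -/
theorem RegP.pos {k : ℕ} (P : ℕ → Prop) (N m : ℕ) (hm : 0 < m)
    (hP : ∀ n, N ≤ n → (P (n + m) ↔ P n)) (i : Fin k) :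
    RegP (α := α) (fun _ x => P (x i)) := by
  refine (RegP.take (isRegular_length (β := α) P N m hm hP) i).congr fun u x hx => ?_
  rw [List.length_take, min_eq_left (hx i)]

theorem RegP.ge {k : ℕ} (c : ℕ) (i : Fin k) : RegP (α := α) (fun _ x => c ≤ x i) :=
  RegP.pos (fun n => c ≤ n) c 1 one_pos (fun n hn => by omega) i

theorem RegP.ltc {k : ℕ} (c : ℕ) (i : Fin k) : RegP (α := α) (fun _ x => x i < c) :=
  RegP.pos (fun n => n < c) c 1 one_pos (fun n hn => by omega) i

theorem RegP.last {k : ℕ} (i : Fin k) : RegP (α := α) (fun u x => x i = u.length) := by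
  refine (RegP.all' (P := fun _ (x : Fin k → ℕ) y => y ≤ x i) ?_).congr fun u x hx => ?_
  · exact RegP.le (α := α) (0 : Fin (k + 1)) i.succ
  · constructor
    · intro h y hy; omega
    · intro h; exact le_antisymm (hx i) (h _ le_rfl)

theorem RegP.wo {k : ℕ} (w : Walls α) (i : Fin k) :
    RegP (fun u (x : Fin k → ℕ) => w.Wo (u.take (x i))) := RegP.take (reg_wo w) i

/-- the word from position `0` to `x i` has its first wall at a place `≥ c` at `x i` -/
theorem RegP.first {k : ℕ} (w : Walls α) (c : ℕ) (i : Fin k) :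
    RegP (fun u (x : Fin k → ℕ) => c ≤ x i ∧ w.Wo (u.take (x i)) ∧
      ∀ t ≤ u.length, c ≤ t → t < x i → ¬ w.Wo (u.take t)) := by
  refine (RegP.ge c i).and ((RegP.wo w i).and (RegP.all'
    (P := fun u (x : Fin k → ℕ) t => c ≤ t → t < x i → ¬ w.Wo (u.take t)) ?_))
  exact (RegP.ge c 0).imp ((RegP.lt (0 : Fin (k + 1)) i.succ).imp (RegP.wo w 0).not)

theorem reg_FZ (w : Walls α) (c : ℕ) : (FZ w c).IsRegular := by
  have h : RegP (fun u (_ : Fin 0 → ℕ) => ∃ y ≤ u.length, y = u.length ∧ (c ≤ y ∧
      w.Wo (u.take y) ∧ ∀ t ≤ u.length, c ≤ t → t < y → ¬ w.Wo (u.take t))) := by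
    refine RegP.ex' (P := fun u _ y => y = u.length ∧ (c ≤ y ∧
      w.Wo (u.take y) ∧ ∀ t ≤ u.length, c ≤ t → t < y → ¬ w.Wo (u.take t))) ?_
    exact (RegP.last 0).and (RegP.first w c 0)
  have h2 := h.close
  have e : FZ w c = lg (fun u : List α => ∃ y ≤ u.length, y = u.length ∧ (c ≤ y ∧
      w.Wo (u.take y) ∧ ∀ t ≤ u.length, c ≤ t → t < y → ¬ w.Wo (u.take t))) := by
    ext u
    rw [mem_lg]
    constructor
    · rintro ⟨h1, h2, h3⟩
      exact ⟨u.length, le_rfl, rfl, h1, by rwa [List.take_length], fun t _ h4 h5 => h3 t h4 h5⟩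
    · rintro ⟨y, -, rfl, h1, h2, h3⟩
      rw [List.take_length] at h2
      exact ⟨h1, h2, fun t h4 h5 => h3 t h5.le h4 h5⟩
  rw [e]; exact h2

open Classical in
theorem nW_le_of {w : Walls α} {u : List α} {c : ℕ}
    (h : ∀ t, c ≤ t → t < u.length → ¬ w.Wo (u.take t)) : nW w u ≤ c + 1 := by
  unfold nW
  have : ((Finset.range (u.length + 1)).filter fun t => w.Wo (u.take t)) ⊆
      insert u.length (Finset.range c) := by
    intro t ht
    rw [Finset.mem_filter, Finset.mem_range] at ht
    rw [Finset.mem_insert, Finset.mem_range]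
    by_contra hcon
    push Not at hcon
    exact h t hcon.2 (by omega) ht.2
  refine (Finset.card_le_card this).trans ((Finset.card_insert_le _ _).trans ?_)
  simp

theorem hl_FZ {w : Walls α} (hf : Few w) (c : ℕ) {L : Language α} (hL : L.IsRegular) :
    HL 1 ({u | u ∈ FZ w c ∧ u ∈ L} : Language α) :=
  hf (c + 1) _ ((reg_FZ w c).inf hL) fun _ hu => nW_le_of hu.1.2.2

end Crest.Agent.R320.L8_914
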