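import Crest.Agent.R320.L8a_300

/-!
# Row 320: L8 of helper20 #13850 (regularity part 2), helper300
-/

set_option autoImplicit false
set_option linter.unusedSectionVars false
set_option linter.unusedVariables false

namespace Crest.Agent.R320.L8_300

open Crest.Agent.R320.Hk_851 Crest.Agent.R320.Star_621 Crest.Agent.R320.Two_621
open Crest.Agent.R320.Inst20 Crest.R320.Reg_143

variable {α : Type} [Finite α]

variable {S : Type} [Monoid S] [Finite S] (w : Walls α) (f : α → S) (zz p0 N1 : ℕ)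
  {Bad : ℤ → Prop}

instance : Finite (Tok S) := inferInstanceAs (Finite (S → ZMod 2))

instance : Finite (Function.End (Option (Tok S))) :=
  inferInstanceAs (Finite (Option (Tok S) → Option (Tok S)))

instance : Finite (TT S) :=
  Finite.of_equiv (Function.End (Option (Tok S))) MulOpposite.opEquiv

instance : Finite (Tok (TT S)) := inferInstanceAs (Finite (TT S → ZMod 2))

theorem reg_ph (P : S → Prop) : (lg fun u : List α => P (ph f u)).IsRegular :=
  isRegular_monoid f P

variable (G : Gad1 (V := Tok S) (ph f) act N1 Bad)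

theorem reg_rho (r : Tok S) : (lg fun u => G.rho u = some r).IsRegular := G.reg r

theorem reg_lam (v : Tok S) : (lg fun u => G.lam u = some v).IsRegular :=
  isRegular_congr (reg_bdd N1 fun u => G.lam u = some v) fun u => by
    constructor
    · rintro ⟨_, h⟩; exact h
    · intro h; exact ⟨le_of_lt (G.lamlen u v h), h⟩

theorem reg_RA (τ : Tok S) : (lg fun Q => Q ∈ RA w f zz p0 N1 G τ).IsRegular := by
  refine isRegular_congr (reg_ex (ι := Tok S) (P := fun b Q => ∃ Q1 Q2, Q = Q1 ++ Q2 ∧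
    (Q1leg w zz p0 N1 Q1 ∧ G.rho Q1 = some b) ∧ (Q2 ∈ FZ w w.n ∧ τ = act b (ph f Q2)))
    fun b => reg_cat' (reg_and (reg_Q1leg w zz p0 N1) (reg_rho f N1 G b))
      (reg_and (reg_FZ w w.n) (reg_ph f fun s => τ = act b s))) fun Q => ?_
  constructor
  · rintro ⟨b, Q1, Q2, h, ⟨h1, h2⟩, h3, h4⟩
    exact ⟨Q1, Q2, b, h, h1, h3, h2, h4⟩
  · rintro ⟨Q1, Q2, b, h, h1, h3, h2, h4⟩
    exact ⟨b, Q1, Q2, h, ⟨h1, h2⟩, h3, h4⟩

theorem reg_CutY (v : Tok S) : (lg fun Y => CutY w f zz p0 N1 G v Y).IsRegular := by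
  refine isRegular_congr (reg_ex (ι := Tok S) (P := fun τ Y => ∃ p Q, Y = p ++ Q ∧
    G.lam p = some v ∧ Q ∈ RA w f zz p0 N1 G τ)
    fun τ => reg_cat' (reg_lam f N1 G v) (reg_RA w f zz p0 N1 G τ)) fun Y => ?_
  constructor
  · rintro ⟨τ, p, Q, h⟩; exact ⟨p, Q, τ, h⟩
  · rintro ⟨p, Q, τ, h⟩; exact ⟨τ, p, Q, h⟩

omit [Finite α] in
theorem FZ_unique {c : ℕ} {z1 z1' x x' : List α} (h : z1 ++ x = z1' ++ x')
    (h1 : z1 ∈ FZ w c) (h2 : z1' ∈ FZ w c) : z1 = z1' := by
  have key : ∀ {a a' y y' : List α}, a ++ y = a' ++ y' → a ∈ FZ w c → a' ∈ FZ w c →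
      ¬ a.length < a'.length := by
    intro a a' y y' e ha ha' hlt
    have h3 := ha'.2.2 a.length ha.1 hlt
    apply h3
    have e2 : a'.take a.length = a := by
      have := congrArg (List.take a.length) e
      rw [List.take_left, List.take_append_of_le_length (le_of_lt hlt)] at this
      exact this.symm
    rw [e2]; exact ha.2.1
  have hl : z1.length = z1'.length :=
    le_antisymm (not_lt.1 (key h.symm h2 h1)) (not_lt.1 (key h h1 h2))
  exact (List.append_inj h hl).1

theorem reg_dY (hnu : ∀ x, (lg fun u => G.nu u = x).IsRegular) (x : Tok S) :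
    (lg fun Y => dY w f zz p0 N1 G Y = x).IsRegular := by
  classical
  have hdec : (lg fun Y : List α => ∃ Y1 Y2, Y = Y1 ++ Y2 ∧ Y1 ∈ FZ w (zz - p0) ∧
      Y2 ∈ FZ w w.n).IsRegular := reg_cat' (reg_FZ w (zz - p0)) (reg_FZ w w.n)
  have hval : (lg fun Y : List α => ∃ b : Tok S, ∃ Y1 Y2, Y = Y1 ++ Y2 ∧
      (Y1 ∈ FZ w (zz - p0) ∧ G.nu Y1 = b) ∧ (Y2 ∈ FZ w w.n ∧ act b (ph f Y2) = x)).IsRegular :=
    reg_ex fun b => reg_cat' (reg_and (reg_FZ w (zz - p0)) (hnu b))
      (reg_and (reg_FZ w w.n) (reg_ph f fun s => act b s = x))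
  refine isRegular_congr (reg_or hval (reg_and (reg_not hdec) (reg_const (0 = x)))) fun Y => ?_
  show (_ ∨ _) ↔ dY w f zz p0 N1 G Y = x
  by_cases h : ∃ Y1 Y2, Y = Y1 ++ Y2 ∧ Y1 ∈ FZ w (zz - p0) ∧ Y2 ∈ FZ w w.n
  · have hd : dY w f zz p0 N1 G Y = act (G.nu h.choose) (ph f h.choose_spec.choose) := by
      rw [dY, dif_pos h]
    have hs := h.choose_spec.choose_spec
    generalize h.choose_spec.choose = c2 at hd hs
    generalize h.choose = c1 at hd hs
    rw [hd]
    constructor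
    · rintro (⟨b, Y1, Y2, e, ⟨h1, h2⟩, h3, h4⟩ | ⟨h1, _⟩)
      · have e1 : Y1 = c1 := FZ_unique w (e.symm.trans hs.1) h1 hs.2.1
        subst e1
        have e2 : Y2 = c2 := List.append_cancel_left (e.symm.trans hs.1)
        subst e2
        rw [h2, h4]
      · exact absurd h h1
    · intro hx
      left
      exact ⟨_, _, _, hs.1, ⟨hs.2.1, rfl⟩, hs.2.2, hx⟩
  · have hd : dY w f zz p0 N1 G Y = 0 := by rw [dY, dif_neg h]
    rw [hd]
    constructor
    · rintro (⟨b, Y1, Y2, e, ⟨h1, _⟩, h3, _⟩ | ⟨_, h2⟩)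
      · exact absurd ⟨Y1, Y2, e, h1, h3⟩ h
      · exact h2
    · intro hx
      exact Or.inr ⟨h, hx⟩

theorem reg_stepY (hnu : ∀ x, (lg fun u => G.nu u = x).IsRegular) (t : TT S) :
    (lg fun Y => stepY w f zz p0 N1 G Y = t).IsRegular := by
  classical
  have hv : ∀ v : Tok S, (lg fun Y : List α =>
      (CutY w f zz p0 N1 G v Y ∧ none = t.unop (some v)) ∨
      (¬ CutY w f zz p0 N1 G v Y ∧ ∃ p : S × Tok S, (ph f Y = p.1 ∧ dY w f zz p0 N1 G Y = p.2) ∧
        some (act v p.1 + p.2) = t.unop (some v))).IsRegular := fun v =>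
    reg_or (reg_and (reg_CutY w f zz p0 N1 G v) (reg_const _))
      (reg_and (reg_not (reg_CutY w f zz p0 N1 G v)) (reg_ex fun p =>
        reg_and (reg_and (reg_ph f fun s => s = p.1) (reg_dY w f zz p0 N1 G hnu p.2))
          (reg_const _)))
  refine isRegular_congr (reg_and (reg_all hv) (reg_const (t.unop none = none))) fun Y => ?_
  show ((∀ v, _) ∧ _) ↔ stepY w f zz p0 N1 G Y = t
  have hstep : ∀ v : Tok S, (stepY w f zz p0 N1 G Y).unop (some v) =
      if CutY w f zz p0 N1 G v Y then none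
      else some (act v (ph f Y) + dY w f zz p0 N1 G Y) := fun v => rfl
  have hnone : (stepY w f zz p0 N1 G Y).unop none = none := rfl
  constructor
  · rintro ⟨h1, h2⟩
    apply MulOpposite.unop_injective
    funext o
    cases o with
    | none => exact hnone.trans h2.symm
    | some v =>
      refine (hstep v).trans ?_
      rcases h1 v with ⟨hc, h3⟩ | ⟨hc, p, ⟨h4, h5⟩, h3⟩
      · rw [if_pos hc]; exact h3
      · rw [if_neg hc, h4, h5]; exact h3
  · rintro rfl
    refine ⟨fun v => ?_, hnone⟩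
    by_cases hc : CutY w f zz p0 N1 G v Y
    · left
      refine ⟨hc, ?_⟩
      have h := hstep v
      rw [if_pos hc] at h
      exact h.symm
    · right
      refine ⟨hc, (ph f Y, dY w f zz p0 N1 G Y), ⟨rfl, rfl⟩, ?_⟩
      have h := hstep v
      rw [if_neg hc] at h
      exact h.symm

end Crest.Agent.R320.L8_300
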