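import Crest.Agent.R320.L8a_914

/-!
# Row 320, leaf L8 of helper20, part 2: height one of all families of `Def_20`.
-/

set_option autoImplicit false

namespace Crest.Agent.R320.L8_914

open Crest.Agent.R320.Hk_851 Crest.Agent.R320.Star_621 Crest.Agent.R320.Two_621
open Crest.Agent.R320.Inst20
open Crest.R320.Reg_143

variable {α : Type} [Finite α]

theorem isReg_top : (⊤ : Language α).IsRegular := by
  have h : (lg (fun _ : List α => True)).IsRegular := isRegular_true
  have e : (⊤ : Language α) = lg (fun _ : List α => True) := by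
    ext u; exact ⟨fun _ => trivial, fun _ => trivial⟩
  rw [e]; exact h

theorem hl_cat {k : ℕ} {A B : List α → Prop} (hA : HL k ({u | A u} : Language α))
    (hB : HL k ({u | B u} : Language α)) :
    HL k ({z | ∃ z1 z2, z = z1 ++ z2 ∧ A z1 ∧ B z2} : Language α) := by
  refine (hA.mul hB).congr fun z => ?_
  constructor
  · rintro ⟨z1, z2, rfl, h1, h2⟩
    exact Language.mem_mul.2 ⟨z1, h1, z2, h2, rfl⟩
  · intro h
    obtain ⟨z1, h1, z2, h2, rfl⟩ := Language.mem_mul.1 h
    exact ⟨z1, z2, rfl, h1, h2⟩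

variable {w : Walls α}

theorem hl_Z (hf : Few w) (zz : ℕ) : HL 1 (Z w zz) := by
  have h1 := hl_FZ hf zz isReg_top
  have h2 := hl_FZ hf w.n isReg_top
  refine (hl_cat h1 h2).congr fun z => ?_
  constructor
  · rintro ⟨z1, z2, e, h3, h4⟩
    exact ⟨z1, z2, e, ⟨h3, trivial⟩, ⟨h4, trivial⟩⟩
  · rintro ⟨z1, z2, e, h3, h4⟩
    exact ⟨z1, z2, e, h3.1, h4.1⟩

/-- `Bad` is periodic -/
def PerB (Bad : ℤ → Prop) : Prop := ∃ m : ℕ, 0 < m ∧ ∀ T : ℤ, Bad (T + m) ↔ Bad T

theorem reg_BadZ {Bad : ℤ → Prop} (hB : PerB Bad) (zz p0 N1 : ℕ) :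
    (lg fun u : List α => BadZ w zz p0 N1 Bad u).IsRegular := by
  obtain ⟨m, hm, hper⟩ := hB
  have h1 : RegP (fun u (_ : Fin 0 → ℕ) => ∃ t ≤ u.length,
      zz - N1 ≤ t ∧ t < zz + N1 ∧ w.Wo (u.take t)) :=
    RegP.ex' (P := fun u _ t => zz - N1 ≤ t ∧ t < zz + N1 ∧ w.Wo (u.take t))
      ((RegP.ge _ 0).and ((RegP.ltc _ 0).and (RegP.wo w 0)))
  have h2 : RegP (fun u (_ : Fin 0 → ℕ) => Bad ((u.length : ℤ) - p0)) :=
    RegP.mem (P := fun u : List α => Bad ((u.length : ℤ) - p0))
      (isRegular_length (fun n : ℕ => Bad ((n : ℤ) - p0)) 0 m hm (fun n _ => by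
      have := hper ((n : ℤ) - p0)
      rw [← this]
      have e : (((n + m : ℕ) : ℤ) - p0) = (n : ℤ) - p0 + m := by push_cast; ring
      rw [e]))
  refine isRegular_congr (h1.or h2).close fun u => ?_
  rw [mem_lg]
  unfold BadZ
  constructor
  · rintro (⟨t, h3, h4, h5, h6⟩ | h)
    · exact Or.inl ⟨t, h4, h5, h3, h6⟩
    · exact Or.inr h
  · rintro (⟨t, h4, h5, h3, h6⟩ | h)
    · exact Or.inl ⟨t, h3, h4, h5, h6⟩
    · exact Or.inr h

theorem hl_Zc (hf : Few w) {Bad : ℤ → Prop} (hB : PerB Bad) (zz p0 N1 : ℕ) :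
    HL 1 (Zc w zz p0 N1 Bad) := by
  have h1 := hl_FZ hf zz (reg_BadZ (w := w) hB zz p0 N1)
  have h2 := hl_FZ hf w.n isReg_top
  refine (hl_cat h1 h2).congr fun z => ?_
  constructor
  · rintro ⟨z1, z2, e, h3, h4, h5⟩
    exact ⟨z1, z2, e, ⟨h3, h5⟩, ⟨h4, trivial⟩⟩
  · rintro ⟨z1, z2, e, h3, h4⟩
    exact ⟨z1, z2, e, h3.1, h4.1, h3.2⟩

theorem FZ_unique {c : ℕ} {z z' x x' : List α} (h : z ∈ FZ w c) (h' : z' ∈ FZ w c)
    (e : z ++ x = z' ++ x') : z = z' := by
  have key : ∀ {z z' x x' : List α}, z ∈ FZ w c → z' ∈ FZ w c → z ++ x = z' ++ x' →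
      ¬ z.length < z'.length := by
    intro z z' x x' h h' e hlt
    have h1 : z'.take z.length = z := by
      have := congrArg (List.take z.length) e
      rw [List.take_left', List.take_append_of_le_length hlt.le] at this
      · exact this.symm
      · rfl
    exact h'.2.2 z.length h.1 hlt (by rw [h1]; exact h.2.1)
  have hl : z.length = z'.length :=
    le_antisymm (not_lt.1 (key h' h e.symm)) (not_lt.1 (key h h' e))
  exact (List.append_inj e hl).1

theorem reg_Z (zz : ℕ) : (Z w zz).IsRegular := by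
  have h := isRegular_cat (P := fun u => u ∈ FZ w zz) (Q := fun u => u ∈ FZ w w.n)
    (reg_FZ w zz) (reg_FZ w w.n)
  have e : Z w zz = lg fun z => ∃ u v, u ++ v = z ∧ u ∈ FZ w zz ∧ v ∈ FZ w w.n := by
    ext z
    rw [mem_lg]
    constructor
    · rintro ⟨z1, z2, rfl, h3, h4⟩
      exact ⟨z1, z2, rfl, h3, h4⟩
    · rintro ⟨z1, z2, rfl, h3, h4⟩
      exact ⟨z1, z2, rfl, h3, h4⟩
  rw [e]; exact h

open Classical in
theorem nW_rest {u : List α} {zz : ℕ} (h : ∀ z ∈ Z w zz, ¬ z <+: u) : nW w u ≤ zz + w.n := by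
  unfold nW
  by_cases hex : ∃ t, zz ≤ t ∧ t ≤ u.length ∧ w.Wo (u.take t)
  · set t0 := Nat.find hex with ht0
    obtain ⟨h1, h2, h3⟩ := Nat.find_spec hex
    rw [← ht0] at h1 h2 h3
    have hmin : ∀ t, zz ≤ t → t < t0 → ¬ w.Wo (u.take t) := fun t h4 h5 h6 =>
      Nat.find_min hex h5 ⟨h4, by omega, h6⟩
    have hF : u.take t0 ∈ FZ w zz := by
      refine ⟨by rw [List.length_take]; omega, h3, ?_⟩
      intro t h4 h5
      rw [List.length_take] at h5
      rw [List.take_take, min_eq_left (by omega)]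
      exact hmin t h4 (by omega)
    have hno : ∀ t, t0 + w.n ≤ t → t ≤ u.length → ¬ w.Wo (u.take t) := by
      intro t h4 h5 h6
      have hex2 : ∃ s, t0 + w.n ≤ s ∧ s ≤ u.length ∧ w.Wo (u.take s) := ⟨t, h4, h5, h6⟩
      set s := Nat.find hex2 with hs
      obtain ⟨g1, g2, g3⟩ := Nat.find_spec hex2
      rw [← hs] at g1 g2 g3
      have hmin2 : ∀ t, t0 + w.n ≤ t → t < s → ¬ w.Wo (u.take t) := fun t h4 h5 h6 =>
        Nat.find_min hex2 h5 ⟨h4, by omega, h6⟩
      have spl : ∀ r, t0 ≤ r → r ≤ u.length → u.take r = u.take t0 ++ (u.take r).drop t0 := by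
        intro r hr1 hr2
        have : u.take t0 = (u.take r).take t0 := by rw [List.take_take, min_eq_left hr1]
        rw [this, List.take_append_drop]
      refine h (u.take t0 ++ (u.take s).drop t0) ⟨_, _, rfl, hF, ?_, ?_, ?_⟩ ?_
      · rw [List.length_drop, List.length_take]; omega
      · rw [spl s (by omega) g2] at g3
        exact (w.loc _ _ (by rw [List.length_drop, List.length_take]; omega)).1 g3
      · intro r hr1 hr2
        rw [List.length_drop, List.length_take] at hr2
        intro hr3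
        apply hmin2 (t0 + r) (by omega) (by omega)
        rw [spl (t0 + r) (by omega) (by omega)]
        rw [w.loc _ _ (by rw [List.length_drop, List.length_take]; omega)]
        have e : ((u.take s).drop t0).take r = (u.take (t0 + r)).drop t0 := by
          rw [List.take_drop, List.take_take, min_eq_left (by omega)]
        rw [← e]; exact hr3
      · rw [← spl s (by omega) g2]
        exact List.take_prefix _ _
    have hsub : ((Finset.range (u.length + 1)).filter fun t => w.Wo (u.take t)) ⊆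
        Finset.range zz ∪ Finset.Ico t0 (t0 + w.n) := by
      intro t ht
      rw [Finset.mem_filter, Finset.mem_range] at ht
      rw [Finset.mem_union, Finset.mem_range, Finset.mem_Ico]
      by_contra hcon
      push Not at hcon
      have h4 : t0 ≤ t := by
        by_contra h5
        exact hmin t hcon.1 (by omega) ht.2
      exact hno t (hcon.2 h4) (by omega) ht.2
    refine (Finset.card_le_card hsub).trans ((Finset.card_union_le _ _).trans ?_)
    simp
  · push Not at hex
    have hsub : ((Finset.range (u.length + 1)).filter fun t => w.Wo (u.take t)) ⊆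
        Finset.range zz := by
      intro t ht
      rw [Finset.mem_filter, Finset.mem_range] at ht
      rw [Finset.mem_range]
      by_contra hcon
      exact hex t (by omega) (by omega) ht.2
    refine (Finset.card_le_card hsub).trans ?_
    simp

theorem hl_rest (hf : Few w) {S : Type} [Monoid S] [Finite S] (f : α → S) (zz : ℕ) (s : S) :
    HL 1 ({u | (∀ z ∈ Z w zz, ¬ z <+: u) ∧ ph f u = s} : Language α) := by
  have h1 : (lg fun u : List α => ∃ x v, x ++ v = u ∧ x ∈ Z w zz ∧ True).IsRegular :=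
    isRegular_cat (P := fun u => u ∈ Z w zz) (Q := fun _ => True) (reg_Z zz) isRegular_true
  have h2 : (lg fun u : List α => (u.map f).prod = s).IsRegular :=
    isRegular_monoid f (fun m => m = s)
  have h3 : RegP (fun u (_ : Fin 0 → ℕ) => (¬ ∃ x v, x ++ v = u ∧ x ∈ Z w zz ∧ True) ∧
      (u.map f).prod = s) := (RegP.mem h1).not.and (RegP.mem h2)
  have h4 : (lg fun u : List α => (∀ z ∈ Z w zz, ¬ z <+: u) ∧ ph f u = s).IsRegular := by
    refine isRegular_congr h3.close fun u => ?_
    rw [mem_lg]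
    refine and_congr ?_ Iff.rfl
    constructor
    · intro h z hz ⟨v, hv⟩
      exact h ⟨z, v, hv, hz, trivial⟩
    · rintro h ⟨x, v, e, hx, -⟩
      exact h x hx ⟨v, e⟩
  exact hf (zz + w.n) _ h4 fun u hu => nW_rest hu.1

end Crest.Agent.R320.L8_914
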