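import Crest.Agent.R320.L8b_300

/-!
# Row 320: L8 of helper20 #13850 (regularity part 3, few walls, height 1), helper300
-/

set_option autoImplicit false
set_option linter.unusedSectionVars false
set_option linter.unusedVariables false

namespace Crest.Agent.R320.L8_300

open Crest.Agent.R320.Hk_851 Crest.Agent.R320.Star_621 Crest.Agent.R320.Two_621
open Crest.Agent.R320.Inst20 Crest.R320.Reg_143

variable {α : Type} [Finite α]

variable {S : Type} [Monoid S] [Finite S] (w : Walls α) (f : α → S) (zz p0 N1 : ℕ)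
  {Bad : ℤ → Prop}
variable (G : Gad1 (V := Tok S) (ph f) act N1 Bad)

theorem reg_badK {M : ℕ} (hM : 0 < M) (hB : ∀ T : ℤ, Bad (T + M) ↔ Bad T) (c : ℕ → ℕ) (k : ℕ) :
    (lg fun Q : List α => badK w zz p0 N1 Bad c k Q).IsRegular := by
  have hR : (lg fun u : List α => zz - c k ≤ u.length ∧ (w.Wo u ∧
      ((∀ t, zz - c k ≤ t → t < u.length → ¬ w.Wo (u.take t)) ∧
      ((∃ t, zz - N1 - c k ≤ t ∧ t < zz + N1 - c k ∧ t ≤ u.length ∧ w.Wo (u.take t)) ∨
        Bad ((u.length : ℤ) + ((c k : ℤ) - p0)))))).IsRegular :=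
    reg_and (reg_len_ge _) (reg_and (reg_Wo w) (reg_and (reg_nowall w _)
      (reg_or (reg_somewall w _ _) (reg_Bad Bad hM hB _))))
  refine isRegular_congr (reg_cat' hR (reg_const True)) fun Q => ?_
  constructor
  · rintro ⟨u, v, rfl, ⟨h1, h2, h3, h4⟩, -⟩
    refine ⟨u.length, by simp, by omega, by rw [List.take_left]; exact h2, ?_, ?_⟩
    · intro t' ht' hc
      rw [List.take_append_of_le_length (le_of_lt ht')]
      exact h3 t' (by omega) ht'
    · rcases h4 with ⟨t, h5, h6, h7, h8⟩ | h4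
      · left
        refine ⟨t, h7, by omega, by omega, ?_⟩
        rw [List.take_append_of_le_length h7]; exact h8
      · right
        have e : ((u.length + c k : ℕ) : ℤ) - p0 = (u.length : ℤ) + ((c k : ℤ) - p0) := by
          push_cast; ring
        rw [e]; exact h4
  · rintro ⟨t, h1, h2, h3, h4, h5⟩
    have hl : (Q.take t).length = t := by rw [List.length_take]; omega
    refine ⟨Q.take t, Q.drop t, (List.take_append_drop t Q).symm, ⟨by omega, h3, ?_, ?_⟩, trivial⟩
    · intro t' h6 h7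
      rw [hl] at h7
      rw [List.take_take, min_eq_left (le_of_lt h7)]
      exact h4 t' h7 (by omega)
    · rcases h5 with ⟨t', h6, h7, h8, h9⟩ | h5
      · left
        refine ⟨t', by omega, by omega, by omega, ?_⟩
        rw [List.take_take, min_eq_left h6]; exact h9
      · right
        rw [hl]
        have e : ((t + c k : ℕ) : ℤ) - p0 = (t : ℤ) + ((c k : ℤ) - p0) := by
          push_cast; ring
        rw [← e]; exact h5

variable (K : ℕ) (c : ℕ → ℕ) (lam2 : ℕ → List α → Option (Tok (TT S)))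
  (rho2 : ℕ → List α → TT S → Option (Tok (TT S)))

theorem reg_RB {M : ℕ} (hM : 0 < M) (hB : ∀ T : ℤ, Bad (T + M) ↔ Bad T)
    (hnu : ∀ x, (lg fun u => G.nu u = x).IsRegular) (τ : Tok (TT S)) :
    (lg fun Q => Q ∈ RB w f zz p0 N1 G K c rho2 τ).IsRegular := by
  have h1 : ∀ k : Fin K, (lg fun Q : List α => badK w zz p0 N1 Bad c k Q ∧
      ((∀ k' : Fin K, badK w zz p0 N1 Bad c k' Q → (k' : ℕ) = k) ∧
      ((∃ Q1 Q2, Q = Q1 ++ Q2 ∧ Q1 ∈ FZ w (zz - c k) ∧ Q2 ∈ FZ w w.n) ∧
      (∃ t : TT S, stepY w f zz p0 N1 G (Q.drop (p0 - c k)) = t ∧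
        rho2 k (Q.take (p0 - c k)) t = some τ)))).IsRegular := fun k =>
    reg_and (reg_badK w zz p0 N1 hM hB c k) (reg_and
      (reg_all fun k' => isRegular_congr (reg_or (reg_not (reg_badK w zz p0 N1 hM hB c k'))
        (reg_const ((k' : ℕ) = k))) fun Q => (imp_iff_not_or).symm)
      (reg_and (reg_cat' (reg_FZ w _) (reg_FZ w _))
        (reg_ex fun t => reg_and (reg_drop _ (reg_stepY w f zz p0 N1 G hnu t))
          (isRegular_take (p0 - c k) fun u => rho2 k u t = some τ))))
  refine isRegular_congr (reg_ex h1) fun Q => ?_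
  constructor
  · rintro ⟨k, h2, h3, h4, t, h5, h6⟩
    refine ⟨k, k.2, h2, fun k' hk' hb => h3 ⟨k', hk'⟩ hb, h4, ?_⟩
    rw [h5]; exact h6
  · rintro ⟨k, hk, h2, h3, h4, h5⟩
    exact ⟨⟨k, hk⟩, h2, fun k' h => h3 k' k'.2 h, h4, _, rfl, h5⟩

theorem reg_LA (v : Tok S) : (lg fun P => P ∈ LA f p0 N1 G v).IsRegular :=
  isRegular_congr (reg_bdd (p0 + N1) fun P => P ∈ LA f p0 N1 G v) fun P => by
    constructor
    · rintro ⟨_, h⟩; exact h
    · intro h
      have h' : P ∈ LA f p0 N1 G v := h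
      have h2 := G.lamlen _ _ h'.2
      rw [List.length_drop] at h2
      exact ⟨by omega, h⟩

theorem reg_LB {D : ℕ} (hcD : ∀ k < K, c k ≤ D) (v : Tok (TT S)) :
    (lg fun P => P ∈ LB (S := S) K c lam2 v).IsRegular :=
  isRegular_congr (reg_bdd D fun P => P ∈ LB (S := S) K c lam2 v) fun P => by
    constructor
    · rintro ⟨_, h⟩; exact h
    · intro h
      have h' : P ∈ LB (S := S) K c lam2 v := h
      obtain ⟨k, hk, h1, h2⟩ := h'
      exact ⟨by rw [h1]; exact hcD k hk, h⟩

theorem reg_rest (s : S) :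
    (lg fun u : List α => (∀ z ∈ Z w zz, ¬ z <+: u) ∧ ph f u = s).IsRegular := by
  refine reg_and (isRegular_congr (reg_not (reg_cat' (reg_Z w zz) (reg_const True)))
    fun u => ?_) (reg_ph f fun x => x = s)
  constructor
  · intro h z hz hp
    obtain ⟨v, rfl⟩ := hp
    exact h ⟨z, v, rfl, hz, trivial⟩
  · rintro h ⟨z, v, rfl, hz, -⟩
    exact h z hz ⟨v, rfl⟩

/-! ### few walls -/

open Classical in
/-- number of walls -/
noncomputable def nwall (u : List α) : ℕ :=
  ((Finset.range (u.length + 1)).filter fun t => w.Wo (u.take t)).card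

theorem nwall_append (u v : List α) : nwall w (u ++ v) ≤ nwall w u + (w.n + nwall w v) := by
  classical
  unfold nwall
  have hsub : ((Finset.range ((u ++ v).length + 1)).filter fun t => w.Wo ((u ++ v).take t)) ⊆
      ((Finset.range (u.length + 1)).filter fun t => w.Wo (u.take t)) ∪
        ((Finset.Ioo u.length (u.length + w.n)) ∪
        (((Finset.range (v.length + 1)).filter fun t => w.Wo (v.take t)).image
          fun t => t + u.length)) := by
    intro t ht
    rw [Finset.mem_filter, Finset.mem_range, List.length_append] at ht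
    obtain ⟨h1, h2⟩ := ht
    rw [Finset.mem_union, Finset.mem_union, Finset.mem_filter, Finset.mem_range, Finset.mem_Ioo,
      Finset.mem_image]
    by_cases h3 : t ≤ u.length
    · left
      rw [List.take_append_of_le_length h3] at h2
      exact ⟨by omega, h2⟩
    · right
      by_cases h4 : t < u.length + w.n
      · left; exact ⟨by omega, h4⟩
      · right
        refine ⟨t - u.length, ?_, by omega⟩
        rw [Finset.mem_filter, Finset.mem_range]
        refine ⟨by omega, ?_⟩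
        have e : (u ++ v).take t = u ++ v.take (t - u.length) := by
          rw [List.take_append, List.take_of_length_le (by omega)]
        rw [e] at h2
        exact (w.loc u _ (by rw [List.length_take]; omega)).1 h2
  refine (Finset.card_le_card hsub).trans ((Finset.card_union_le _ _).trans ?_)
  refine Nat.add_le_add_left ((Finset.card_union_le _ _).trans ?_) _
  refine Nat.add_le_add ?_ Finset.card_image_le
  rw [Nat.card_Ioo]; omega

theorem nwall_le_of {u : List α} {a : ℕ}
    (h : ∀ t, a ≤ t → t < u.length → ¬ w.Wo (u.take t)) : nwall w u ≤ a + 1 := by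
  classical
  unfold nwall
  have hsub : ((Finset.range (u.length + 1)).filter fun t => w.Wo (u.take t)) ⊆
      Finset.range a ∪ {u.length} := by
    intro t ht
    rw [Finset.mem_filter, Finset.mem_range] at ht
    rw [Finset.mem_union, Finset.mem_range, Finset.mem_singleton]
    by_cases h1 : t < a
    · exact Or.inl h1
    · right
      by_contra h2
      exact h t (by omega) (by omega) ht.2
  refine (Finset.card_le_card hsub).trans ((Finset.card_union_le _ _).trans ?_)
  simp

theorem nwall_FZ {z : List α} {a : ℕ} (h : z ∈ FZ w a) : nwall w z ≤ a + 1 :=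
  nwall_le_of w h.2.2

theorem nwall_Q1leg {z : List α} (h : Q1leg w zz p0 N1 z) : nwall w z ≤ (zz - p0 - N1) + 1 :=
  nwall_le_of w h.2.2

theorem nwall_len (u : List α) : nwall w u ≤ u.length + 1 := by
  classical
  unfold nwall
  exact (Finset.card_filter_le _ _).trans (by simp)

theorem exists_FZ_prefix {u : List α} {a t : ℕ} (h1 : a ≤ t) (h2 : t ≤ u.length)
    (h3 : w.Wo (u.take t)) : ∃ u1 u2, u = u1 ++ u2 ∧ u1 ∈ FZ w a := by
  classical
  have hex : ∃ t, a ≤ t ∧ t ≤ u.length ∧ w.Wo (u.take t) := ⟨t, h1, h2, h3⟩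
  have hs := Nat.find_spec hex
  have hm := fun m => Nat.find_min (m := m) hex
  generalize Nat.find hex = t0 at hs hm
  refine ⟨u.take t0, u.drop t0, (List.take_append_drop t0 u).symm, ?_, hs.2.2, ?_⟩
  · rw [List.length_take]; omega
  · intro t h4 h5 h6
    rw [List.length_take] at h5
    rw [List.take_take, min_eq_left (by omega)] at h6
    exact hm t (by omega) ⟨h4, by omega, h6⟩

theorem nwall_rest {u : List α} (h : ∀ z ∈ Z w zz, ¬ z <+: u) :
    nwall w u ≤ zz + 1 + (w.n + (w.n + 1)) := by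
  by_cases h1 : ∃ t, zz ≤ t ∧ t ≤ u.length ∧ w.Wo (u.take t)
  · obtain ⟨t, h2, h3, h4⟩ := h1
    obtain ⟨u1, u2, rfl, h5⟩ := exists_FZ_prefix w h2 h3 h4
    refine (nwall_append w u1 u2).trans (Nat.add_le_add (nwall_FZ w h5)
      (Nat.add_le_add_left ?_ _))
    refine nwall_le_of w fun t h6 h7 h8 => ?_
    obtain ⟨v1, v2, rfl, h9⟩ := exists_FZ_prefix w h6 (le_of_lt h7) h8
    exact h (u1 ++ v1) ⟨u1, v1, rfl, h5, h9⟩ ⟨v2, by rw [List.append_assoc]⟩
  · refine (nwall_le_of w (a := zz) fun t h2 h3 h4 => h1 ⟨t, h2, le_of_lt h3, h4⟩).trans ?_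
    omega

/-- the height 1 property of regular languages with few walls -/
def FewHL : Prop := ∀ (L : Language α), L.IsRegular → ∀ r : ℕ, (∀ u ∈ L, nwall w u ≤ r) → HL 1 L

variable {w}

theorem hl_Z (H : FewHL w) : HL 1 (Z w zz) :=
  H _ (reg_Z w zz) (zz + 1 + (w.n + (w.n + 1))) (by
    rintro u ⟨z1, z2, rfl, h1, h2⟩
    exact (nwall_append w z1 z2).trans (Nat.add_le_add (nwall_FZ w h1)
      (Nat.add_le_add_left (nwall_FZ w h2) _)))

theorem hl_Zc (H : FewHL w) {M : ℕ} (hM : 0 < M) (hB : ∀ T : ℤ, Bad (T + M) ↔ Bad T) :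
    HL 1 (Zc w zz p0 N1 Bad) :=
  H _ (reg_Zc w zz p0 N1 Bad hM hB) (zz + 1 + (w.n + (w.n + 1))) (by
    rintro u ⟨z1, z2, rfl, h1, h2, -⟩
    exact (nwall_append w z1 z2).trans (Nat.add_le_add (nwall_FZ w h1)
      (Nat.add_le_add_left (nwall_FZ w h2) _)))

theorem hl_LA (H : FewHL w) (v : Tok S) : HL 1 (LA f p0 N1 G v) :=
  H _ (reg_LA f p0 N1 G v) (p0 + N1 + 1) (by
    intro P hP
    have h' : P ∈ LA f p0 N1 G v := hP
    have h2 := G.lamlen _ _ h'.2
    rw [List.length_drop] at h2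
    have := nwall_len w P
    omega)

theorem hl_RA (H : FewHL w) (τ : Tok S) : HL 1 (RA w f zz p0 N1 G τ) :=
  H _ (reg_RA w f zz p0 N1 G τ) ((zz - p0 - N1) + 1 + (w.n + (w.n + 1))) (by
    rintro u ⟨z1, z2, b, rfl, h1, h2, -⟩
    exact (nwall_append w z1 z2).trans (Nat.add_le_add (nwall_Q1leg w zz p0 N1 h1)
      (Nat.add_le_add_left (nwall_FZ w h2) _)))

theorem hl_LB (H : FewHL w) {D : ℕ} (hcD : ∀ k < K, c k ≤ D) (v : Tok (TT S)) :
    HL 1 (LB (S := S) K c lam2 v) :=
  H _ (reg_LB K c lam2 hcD v) (D + 1) (by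
    rintro P ⟨k, hk, h1, h2⟩
    have := nwall_len w P
    have := hcD k hk
    omega)

theorem hl_RB (H : FewHL w) {M : ℕ} (hM : 0 < M) (hB : ∀ T : ℤ, Bad (T + M) ↔ Bad T)
    (hnu : ∀ x, (lg fun u => G.nu u = x).IsRegular) (τ : Tok (TT S)) :
    HL 1 (RB w f zz p0 N1 G K c rho2 τ) :=
  H _ (reg_RB w f zz p0 N1 G K c rho2 hM hB hnu τ) (zz + 1 + (w.n + (w.n + 1))) (by
    rintro u ⟨k, hk, -, -, ⟨z1, z2, rfl, h1, h2⟩, -⟩
    refine (nwall_append w z1 z2).trans (Nat.add_le_add ?_
      (Nat.add_le_add_left (nwall_FZ w h2) _))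
    exact (nwall_FZ w h1).trans (by omega))

theorem hl_rest (H : FewHL w) (s : S) :
    HL 1 ({u | (∀ z ∈ Z w zz, ¬ z <+: u) ∧ ph f u = s} : Language α) :=
  H _ (reg_rest w f zz s) (zz + 1 + (w.n + (w.n + 1))) (by
    rintro u ⟨h, -⟩
    exact nwall_rest w zz h)

end Crest.Agent.R320.L8_300
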