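import Mathlib

/-! Level names (leaf U1 of the U-gadget on all words): pure CRT. -/

namespace Crest.Agent.R320.LN278

open Finset

/-- number of bit vectors with prescribed values at few places -/
theorem card_prescribed {I : Type*} [Fintype I] [DecidableEq I] (S : Finset I) (g : I → Bool) :
    2 ^ S.card * (univ.filter (fun A : I → Bool => ∀ i ∈ S, A i = g i)).card
      = 2 ^ Fintype.card I := by
  have h1 : (univ.filter (fun A : I → Bool => ∀ i ∈ S, A i = g i))
      = Fintype.piFinset (fun i => if i ∈ S then ({g i} : Finset Bool) else univ) := by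
    ext A
    simp only [mem_filter, mem_univ, true_and, Fintype.mem_piFinset]
    constructor
    · intro h i
      by_cases hi : i ∈ S
      · simp [hi, h i hi]
      · simp [hi]
    · intro h i hi
      have := h i
      simpa [hi] using this
  rw [h1, Fintype.card_piFinset]
  have h2 : ∀ i : I, (if i ∈ S then ({g i} : Finset Bool) else univ).card
      = if i ∈ S then 1 else 2 := by
    intro i
    by_cases hi : i ∈ S <;> simp [hi]
  simp_rw [h2]
  have h3 : (2 : ℕ) ^ S.card = ∏ i : I, (if i ∈ S then 2 else 1) := by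
    rw [Finset.prod_ite]
    simp
  rw [h3, ← Finset.prod_mul_distrib]
  have h4 : ∀ i : I, (if i ∈ S then 2 else 1) * (if i ∈ S then 1 else 2) = (2 : ℕ) := by
    intro i
    by_cases hi : i ∈ S <;> simp [hi]
  simp_rw [h4]
  simp

theorem level_names (N : Type) [Finite N] : ∃ ρ : ℕ, 0 < ρ ∧ ∀ B : ℕ,
    ∃ (Ms : Finset ℕ) (M : ℕ) (nmL nmR : ℕ → Option N),
      Ms.card ≤ 32*ρ ∧ (∀ k ∈ Ms, B < k ∧ Nat.Prime k ∧ k ∣ M) ∧ 0 < M ∧
      (∀ t, nmL (t+M) = nmL t) ∧ (∀ t, nmR (t+M) = nmR t) ∧
      (∀ t t' c, nmL t = some c → nmR t' = some c → (Ms.filter (· ∣ t+t')).card < 2*ρ) ∧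
      (∀ t t' c c', nmL t = some c → nmR t' = some c' → c ≠ c' →
        2*ρ ≤ (Ms.filter (· ∣ t+t')).card) ∧
      (∀ t₁ t₁' t₂ t₂' c₁ c₁' c₂ c₂', nmL t₁ = some c₁ → nmR t₁' = some c₁' →
        nmL t₂ = some c₂ → nmR t₂' = some c₂' → t₁+t₁' = t₂+t₂' → c₁ ≠ c₁' → c₂ ≠ c₂' →
        (c₂ = c₁ ∧ c₂' = c₁') ∨ (c₂ = c₁' ∧ c₂' = c₁)) ∧
      (∀ T, (Ms.filter (· ∣ T)).card < ρ → ∀ c, ∃ t < M, nmL t = some c ∧
        ∀ t', t+t' ≡ T [MOD M] → nmR t' = some c) := by
  classical
  have : Fintype N := Fintype.ofFinite N
  let I : Type := N ⊕ Fin 6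
  let D : Type := I → Bool
  let ρ : ℕ := 2 ^ (Fintype.card N + 1)
  have hρ : 0 < ρ := by positivity
  have hcI : Fintype.card I = Fintype.card N + 6 := by simp [I]
  have hcD : Fintype.card D = 32 * ρ := by
    simp only [D, Fintype.card_fun, Fintype.card_bool, hcI, ρ]
    ring
  -- counting lemma
  have key : ∀ (S : Finset I) (g : I → Bool), S.card ≤ 4 →
      2 * ρ ≤ (univ.filter (fun A : D => ∀ i ∈ S, A i = g i)).card := by
    intro S g hS
    have h := card_prescribed S g
    rw [hcI] at h
    have h16 : 2 ^ S.card ≤ 16 := by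
      calc 2 ^ S.card ≤ 2 ^ 4 := Nat.pow_le_pow_right (by norm_num) hS
        _ = 16 := by norm_num
    have h5 : 2 ^ (Fintype.card N + 6) = 16 * (2 * ρ) := by
      simp only [ρ]; ring
    rw [h5] at h
    by_contra hlt
    push Not at hlt
    have : 2 ^ S.card * (univ.filter (fun A : I → Bool => ∀ i ∈ S, A i = g i)).card
        < 16 * (2 * ρ) := by
      calc 2 ^ S.card * (univ.filter (fun A : I → Bool => ∀ i ∈ S, A i = g i)).card
          ≤ 16 * (univ.filter (fun A : I → Bool => ∀ i ∈ S, A i = g i)).card :=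
            Nat.mul_le_mul_right _ h16
        _ < 16 * (2 * ρ) := by
            apply Nat.mul_lt_mul_of_pos_left hlt (by norm_num)
    omega
  refine ⟨ρ, hρ, fun B => ?_⟩
  let e : D ≃ Fin (Fintype.card D) := Fintype.equivFin D
  let k : D → ℕ := fun A => Nat.nth Nat.Prime (B + (e A : ℕ))
  have hkp : ∀ A, (k A).Prime := fun A => Nat.prime_nth_prime _
  have hkB : ∀ A, B < k A := by
    intro A
    have := Nat.add_two_le_nth_prime (B + (e A : ℕ))
    simp only [k]; omega
  have hkinj : Function.Injective k := by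
    intro A A' h
    have h1 := (Nat.nth_injective Nat.infinite_setOfPred_prime) h
    have h2 : (e A : ℕ) = (e A' : ℕ) := by omega
    exact e.injective (Fin.ext h2)
  let M : ℕ := ∏ A, k A
  have hM : 0 < M := Finset.prod_pos (fun A _ => (hkp A).pos)
  have hkM : ∀ A, k A ∣ M := fun A => Finset.dvd_prod_of_mem k (mem_univ A)
  let Ms : Finset ℕ := univ.image k
  have hZ : ∀ x, (Ms.filter (· ∣ x)).card = (univ.filter (fun A : D => k A ∣ x)).card := by
    intro x
    have : Ms.filter (· ∣ x) = (univ.filter (fun A : D => k A ∣ x)).image k := by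
      ext y
      simp only [Ms, mem_filter, mem_image, mem_univ, true_and]
      constructor
      · rintro ⟨⟨A, rfl⟩, h⟩; exact ⟨A, h, rfl⟩
      · rintro ⟨A, h, rfl⟩; exact ⟨⟨A, rfl⟩, h⟩
    rw [this, Finset.card_image_of_injective _ hkinj]
  -- the two predicates
  let PL : N → ℕ → Prop := fun c t => (∀ A : D, A (Sum.inl c) = false → k A ∣ t) ∧
    (univ.filter (fun A : D => A (Sum.inl c) = true ∧ k A ∣ t)).card < ρ
  let PR : N → ℕ → Prop := fun c t => (∀ A : D, A (Sum.inl c) = true → k A ∣ t) ∧
    (univ.filter (fun A : D => A (Sum.inl c) = false ∧ k A ∣ t)).card < ρ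
  -- two-point count
  have key2 : ∀ (c c' : N), c ≠ c' → ∀ (a b : Bool),
      2 * ρ ≤ (univ.filter (fun A : D => A (Sum.inl c) = a ∧ A (Sum.inl c') = b)).card := by
    intro c c' hcc a b
    refine le_trans (key {Sum.inl c, Sum.inl c'} (fun i => if i = Sum.inl c then a else b)
      (le_trans Finset.card_le_two (by norm_num))) ?_
    apply Finset.card_le_card
    intro A hA
    simp only [mem_filter, mem_univ, true_and, mem_insert, mem_singleton, forall_eq_or_imp,
      forall_eq] at hA ⊢
    have hne : (Sum.inl c' : I) ≠ Sum.inl c := fun h => hcc (Sum.inl.inj h).symm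
    simpa [hne] using hA
  have uL : ∀ t c c', PL c t → PL c' t → c = c' := by
    intro t c c' h h'
    by_contra hcc
    have h1 := key2 c c' hcc true false
    have h2 : (univ.filter (fun A : D => A (Sum.inl c) = true ∧ A (Sum.inl c') = false)).card
        ≤ (univ.filter (fun A : D => A (Sum.inl c) = true ∧ k A ∣ t)).card := by
      apply Finset.card_le_card
      intro A hA
      simp only [mem_filter, mem_univ, true_and] at hA ⊢
      exact ⟨hA.1, h'.1 A hA.2⟩
    have := h.2
    omega
  have uR : ∀ t c c', PR c t → PR c' t → c = c' := by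
    intro t c c' h h'
    by_contra hcc
    have h1 := key2 c c' hcc false true
    have h2 : (univ.filter (fun A : D => A (Sum.inl c) = false ∧ A (Sum.inl c') = true)).card
        ≤ (univ.filter (fun A : D => A (Sum.inl c) = false ∧ k A ∣ t)).card := by
      apply Finset.card_le_card
      intro A hA
      simp only [mem_filter, mem_univ, true_and] at hA ⊢
      exact ⟨hA.1, h'.1 A hA.2⟩
    have := h.2
    omega
  let nmL : ℕ → Option N := fun t => if h : ∃ c, PL c t then some h.choose else none
  let nmR : ℕ → Option N := fun t => if h : ∃ c, PR c t then some h.choose else none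
  have hL : ∀ t c, nmL t = some c ↔ PL c t := by
    intro t c
    constructor
    · intro h
      by_cases hex : ∃ c, PL c t
      · simp only [nmL, dif_pos hex, Option.some.injEq] at h
        rw [← h]; exact hex.choose_spec
      · simp only [nmL, dif_neg hex] at h
        exact absurd h (by simp)
    · intro h
      have hex : ∃ c, PL c t := ⟨c, h⟩
      simp only [nmL, dif_pos hex, Option.some.injEq]
      exact uL t _ _ hex.choose_spec h
  have hR : ∀ t c, nmR t = some c ↔ PR c t := by
    intro t c
    constructor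
    · intro h
      by_cases hex : ∃ c, PR c t
      · simp only [nmR, dif_pos hex, Option.some.injEq] at h
        rw [← h]; exact hex.choose_spec
      · simp only [nmR, dif_neg hex] at h
        exact absurd h (by simp)
    · intro h
      have hex : ∃ c, PR c t := ⟨c, h⟩
      simp only [nmR, dif_pos hex, Option.some.injEq]
      exact uR t _ _ hex.choose_spec h
  have dM : ∀ (A : D) t, k A ∣ t + M ↔ k A ∣ t := by
    intro A t
    exact (Nat.dvd_add_iff_left (hkM A)).symm
  have PLM : ∀ t c, PL c (t + M) ↔ PL c t := by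
    intro t c
    simp only [PL, dM]
  have PRM : ∀ t c, PR c (t + M) ↔ PR c t := by
    intro t c
    simp only [PR, dM]
  have eqO : ∀ (o o' : Option N), (∀ c, o = some c ↔ o' = some c) → o = o' := by
    intro o o' h
    exact Option.ext (fun c => by simpa using h c)
  -- agreement counts on a pair
  have agree : ∀ t t' c c', PL c t → PR c' t' →
      (univ.filter (fun A : D => A (Sum.inl c) = A (Sum.inl c') ∧ k A ∣ t + t')).card < 2 * ρ := by
    intro t t' c c' h h'
    have hsub : (univ.filter (fun A : D => A (Sum.inl c) = A (Sum.inl c') ∧ k A ∣ t + t'))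
        ⊆ (univ.filter (fun A : D => A (Sum.inl c) = true ∧ k A ∣ t)) ∪
          (univ.filter (fun A : D => A (Sum.inl c') = false ∧ k A ∣ t')) := by
      intro A hA
      simp only [mem_filter, mem_univ, true_and, mem_union] at hA ⊢
      rcases hb : A (Sum.inl c) with _ | _
      · right
        have hc' : A (Sum.inl c') = false := by rw [← hA.1, hb]
        exact ⟨hc', (Nat.dvd_add_right (h.1 A hb)).1 hA.2⟩
      · left
        have hc' : A (Sum.inl c') = true := by rw [← hA.1, hb]
        exact ⟨rfl, (Nat.dvd_add_left (h'.1 A hc')).1 hA.2⟩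
    have h1 := Finset.card_le_card hsub
    have h2 := Finset.card_union_le (univ.filter (fun A : D => A (Sum.inl c) = true ∧ k A ∣ t))
      (univ.filter (fun A : D => A (Sum.inl c') = false ∧ k A ∣ t'))
    have h3 := h.2
    have h4 := h'.2
    omega
  refine ⟨Ms, M, nmL, nmR, ?_, ?_, hM, ?_, ?_, ?_, ?_, ?_, ?_⟩
  · calc Ms.card ≤ (univ : Finset D).card := Finset.card_image_le
      _ = 32 * ρ := by rw [Finset.card_univ, hcD]
  · intro q hq
    simp only [Ms, mem_image, mem_univ, true_and] at hq
    obtain ⟨A, rfl⟩ := hq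
    exact ⟨hkB A, hkp A, hkM A⟩
  · intro t
    apply eqO
    intro c
    rw [hL, hL, PLM]
  · intro t
    apply eqO
    intro c
    rw [hR, hR, PRM]
  · intro t t' c h h'
    rw [hZ]
    have := agree t t' c c ((hL _ _).1 h) ((hR _ _).1 h')
    refine lt_of_le_of_lt (Finset.card_le_card ?_) this
    intro A hA
    simp only [mem_filter, mem_univ, true_and] at hA ⊢
    exact hA
  · intro t t' c c' h h' hcc
    rw [hZ]
    refine le_trans (key2 c c' hcc false true) (Finset.card_le_card ?_)
    intro A hA
    simp only [mem_filter, mem_univ, true_and] at hA ⊢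
    exact Nat.dvd_add (((hL _ _).1 h).1 A hA.1) (((hR _ _).1 h').1 A hA.2)
  · intro t₁ t₁' t₂ t₂' c₁ c₁' c₂ c₂' h1 h1' h2 h2' hT hc1 hc2
    rw [hL] at h1 h2
    rw [hR] at h1' h2'
    by_contra hcon
    push Not at hcon
    -- a prescribed set
    have hag := agree t₂ t₂' c₂ c₂' h2 h2'
    -- choose values: c1 ↦ false, c1' ↦ true, c2 and c2' equal
    have hex0 : ∃ g : N → Bool, g c₁ = false ∧ g c₁' = true ∧ g c₂ = g c₂' := by
      by_cases ha : c₂ = c₁
      · have hb : c₂' ≠ c₁' := hcon.1 ha
        refine ⟨fun i => decide (i = c₁'), by simpa using hc1, by simp, ?_⟩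
        subst ha
        simp only [decide_eq_decide]
        exact ⟨fun h => absurd h hc1, fun h => absurd h hb⟩
      · by_cases hb : c₂ = c₁'
        · have hd : c₂' ≠ c₁ := hcon.2 hb
          refine ⟨fun i => decide (i ≠ c₁), by simp, by simpa using (Ne.symm hc1), ?_⟩
          simp only [ne_eq, decide_eq_decide]
          exact ⟨fun _ => hd, fun _ => ha⟩
        · by_cases hd : c₂' = c₁
          · refine ⟨fun i => decide (i = c₁'), by simpa using hc1, by simp, ?_⟩
            simp only [decide_eq_decide]
            exact ⟨fun h => absurd h hb, fun h => absurd (hd.symm.trans h) hc1⟩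
          · refine ⟨fun i => decide (i ≠ c₁), by simp, by simpa using (Ne.symm hc1), ?_⟩
            simp only [ne_eq, decide_eq_decide]
            exact ⟨fun _ => hd, fun _ => ha⟩
    have hex : ∃ g : I → Bool, g (Sum.inl c₁) = false ∧ g (Sum.inl c₁') = true ∧
        g (Sum.inl c₂) = g (Sum.inl c₂') := by
      obtain ⟨g, h1, h2, h3⟩ := hex0
      exact ⟨Sum.elim g (fun _ => false), by simpa using h1, by simpa using h2, by simpa using h3⟩
    obtain ⟨g, hg1, hg2, hg3⟩ := hex
    have hk := key {Sum.inl c₁, Sum.inl c₁', Sum.inl c₂, Sum.inl c₂'} g Finset.card_le_four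
    have : (univ.filter (fun A : D => ∀ i ∈ ({Sum.inl c₁, Sum.inl c₁', Sum.inl c₂, Sum.inl c₂'} : Finset I), A i = g i)).card
        ≤ (univ.filter (fun A : D => A (Sum.inl c₂) = A (Sum.inl c₂') ∧ k A ∣ t₂ + t₂')).card := by
      apply Finset.card_le_card
      intro A hA
      simp only [mem_filter, mem_univ, true_and, mem_insert, mem_singleton, forall_eq_or_imp,
        forall_eq] at hA ⊢
      obtain ⟨hA1, hA2, hA3, hA4⟩ := hA
      refine ⟨by rw [hA3, hA4, hg3], ?_⟩
      rw [← hT]
      exact Nat.dvd_add (h1.1 A (by rw [hA1, hg1])) (h1'.1 A (by rw [hA2, hg2]))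
    omega
  · intro T hTc c
    rw [hZ] at hTc
    have hcop : Set.Pairwise (univ : Finset D) (Function.onFun Nat.Coprime k) := by
      intro A _ A' _ hne
      exact (Nat.coprime_primes (hkp A) (hkp A')).2 (fun h => hne (hkinj h))
    let a : D → ℕ := fun A => if A (Sum.inl c) = true then T else 0
    let z := Nat.chineseRemainderOfFinset a k univ (fun A _ => (hkp A).ne_zero) hcop
    have hz := z.2
    have hzlt : (z : ℕ) < M := Nat.chineseRemainderOfFinset_lt_prod a k
      (fun A _ => (hkp A).ne_zero) hcop
    refine ⟨z, hzlt, ?_, ?_⟩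
    · rw [hL]
      refine ⟨fun A hA => ?_, ?_⟩
      · have := hz A (mem_univ A)
        simp only [a, hA] at this
        exact (Nat.modEq_zero_iff_dvd).1 (by simpa using this)
      · refine lt_of_le_of_lt (Finset.card_le_card ?_) hTc
        intro A hA
        simp only [mem_filter, mem_univ, true_and] at hA ⊢
        have := hz A (mem_univ A)
        simp only [a, hA.1, if_true] at this
        exact (this.dvd_iff (dvd_refl _)).1 hA.2
    · intro t' ht'
      rw [hR]
      have hmod : ∀ A : D, (z : ℕ) + t' ≡ T [MOD k A] := fun A => ht'.of_dvd (hkM A)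
      refine ⟨fun A hA => ?_, ?_⟩
      · have h1 := hz A (mem_univ A)
        simp only [a, hA, if_true] at h1
        have h2 : (z : ℕ) + t' ≡ T + 0 [MOD k A] := by simpa using hmod A
        have h3 := Nat.ModEq.add_left_cancel h1 h2
        exact (Nat.modEq_zero_iff_dvd).1 h3
      · refine lt_of_le_of_lt (Finset.card_le_card ?_) hTc
        intro A hA
        simp only [mem_filter, mem_univ, true_and] at hA ⊢
        have h1 := hz A (mem_univ A)
        simp only [a, hA.1] at h1
        have h1' : (z : ℕ) ≡ 0 [MOD k A] := by simpa using h1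
        have h2 : (z : ℕ) + t' ≡ 0 + T [MOD k A] := by simpa using hmod A
        have h3 := Nat.ModEq.add_left_cancel h1' h2
        exact (h3.dvd_iff (dvd_refl _)).1 hA.2

end Crest.Agent.R320.LN278
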