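import Mathlib

set_option autoImplicit false

namespace Crest.Agent.R320.LN330

open Classical Finset

/-- many colourings agree with `f` on a small set -/
theorem card_agree {X : Type} [Fintype X] (s : Finset X) (f : X → Bool) (k : ℕ)
    (hs : s.card ≤ k) :
    2 ^ Fintype.card X ≤ 2 ^ k * (univ.filter (fun A : X → Bool => ∀ x ∈ s, A x = f x)).card := by
  have h1 : (univ : Finset (X → Bool)).card ≤
      ((univ : Finset (s → Bool)) ×ˢ
        (univ.filter (fun A : X → Bool => ∀ x ∈ s, A x = f x))).card := by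
    apply Finset.card_le_card_of_injOn
      (fun A => ((fun x : s => A x.1), (fun x => if x ∈ s then f x else A x)))
    · intro A _
      simp only [coe_product, Set.mem_prod, mem_coe, mem_univ, true_and, mem_filter]
      intro x hx
      simp [hx]
    · intro A _ A' _ h
      simp only [Prod.mk.injEq] at h
      funext x
      by_cases hx : x ∈ s
      · exact congrFun h.1 ⟨x, hx⟩
      · have := congrFun h.2 x
        simpa [hx] using this
  rw [card_univ, card_product, card_univ] at h1
  simp only [Fintype.card_fun, Fintype.card_bool, Fintype.card_coe] at h1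
  refine h1.trans (Nat.mul_le_mul_right _ (Nat.pow_le_pow_right (by norm_num) hs))

noncomputable def pick {N : Type} (P : N → Prop) : Option N :=
  if h : ∃ c, P c then some h.choose else none

section
variable {N D : Type} [Fintype D] (k : D → ℕ) (b : N → D → Bool) (ρ : ℕ)

/-- `t` shows the name `c` with sign `e` (left: `e = false`, right: `e = true`) -/
def Sh (e : Bool) (t : ℕ) (c : N) : Prop :=
  (∀ A, b c A = e → k A ∣ t) ∧ (univ.filter (fun A => b c A ≠ e ∧ k A ∣ t)).card < ρ

noncomputable def nm (e : Bool) (t : ℕ) : Option N := pick (Sh k b ρ e t)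

theorem nm_spec {e : Bool} {t : ℕ} {c : N} (h : nm k b ρ e t = some c) : Sh k b ρ e t c := by
  unfold nm pick at h
  split_ifs at h with h1
  have := h1.choose_spec
  simp only [Option.some.injEq] at h
  rwa [h] at this

theorem nm_of {e : Bool} {t : ℕ} {c : N} (h : Sh k b ρ e t c)
    (hu : ∀ c' , c' ≠ c → ρ ≤ (univ.filter (fun A => b c A = e ∧ b c' A ≠ e)).card) :
    nm k b ρ e t = some c := by
  have hex : ∃ c, Sh k b ρ e t c := ⟨c, h⟩
  unfold nm pick
  rw [dif_pos hex]
  congr 1
  by_contra hne
  have h2 := hex.choose_spec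
  have h3 := hu _ hne
  have h4 : (univ.filter (fun A => b c A = e ∧ b hex.choose A ≠ e)).card ≤
      (univ.filter (fun A => b hex.choose A ≠ e ∧ k A ∣ t)).card := by
    apply card_le_card
    intro A hA
    simp only [mem_filter, mem_univ, true_and] at hA ⊢
    exact ⟨hA.2, h.1 A hA.1⟩
  have h5 := h2.2
  omega

end

theorem card_mul_image {D : Type} [Fintype D] (k : D → ℕ) (hk : Function.Injective k)
    (T : ℕ) : ((univ.image k).filter (· ∣ T)).card = (univ.filter (fun A => k A ∣ T)).card := by
  rw [Finset.filter_image, card_image_of_injective _ hk]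

theorem level_names (N : Type) [Finite N] : ∃ ρ : ℕ, 0 < ρ ∧ ∀ B : ℕ,
    ∃ (Ms : Finset ℕ) (M : ℕ) (nmL nmR : ℕ → Option N), Ms.card ≤ 32*ρ ∧
      (∀ k ∈ Ms, B < k ∧ Nat.Prime k ∧ k ∣ M) ∧ 0 < M ∧ (∀ t, nmL (t+M) = nmL t) ∧
      (∀ t, nmR (t+M) = nmR t) ∧
      (∀ t t' c, nmL t = some c → nmR t' = some c → (Ms.filter (· ∣ t+t')).card < 2*ρ) ∧
      (∀ t t' c c', nmL t = some c → nmR t' = some c' → c ≠ c' →
        2*ρ ≤ (Ms.filter (· ∣ t+t')).card) ∧
      (∀ t₁ t₁' t₂ t₂' c₁ c₁' c₂ c₂', nmL t₁ = some c₁ → nmR t₁' = some c₁' →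
        nmL t₂ = some c₂ → nmR t₂' = some c₂' → t₁+t₁' = t₂+t₂' → c₁ ≠ c₁' → c₂ ≠ c₂' →
        (c₂ = c₁ ∧ c₂' = c₁') ∨ (c₂ = c₁' ∧ c₂' = c₁)) ∧
      (∀ T, (Ms.filter (· ∣ T)).card < ρ → ∀ c, ∃ t < M, nmL t = some c ∧
        ∀ t', t+t' ≡ T [MOD M] → nmR t' = some c) := by
  have := Fintype.ofFinite N
  let X := N ⊕ Fin 6
  let D := X → Bool
  let ρ := 2 ^ (Fintype.card N + 1)
  have hρ : 2 ^ Fintype.card X = 32 * ρ := by
    simp only [X, ρ, Fintype.card_sum, Fintype.card_fin]
    ring
  have hρ0 : 0 < ρ := by positivity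
  have hag : ∀ (s : Finset X) (f : X → Bool), s.card ≤ 4 →
      2 * ρ ≤ (univ.filter (fun A : D => ∀ x ∈ s, A x = f x)).card := by
    intro s f hs
    have h : 2 ^ Fintype.card X ≤
        2 ^ 4 * (univ.filter (fun A : D => ∀ x ∈ s, A x = f x)).card := by
      convert card_agree s f 4 hs
    rw [hρ] at h
    omega
  refine ⟨ρ, hρ0, fun B => ?_⟩
  have hinf : {p : ℕ | p.Prime ∧ B < p}.Infinite := by
    have h := Nat.infinite_setOfPred_prime.sdiff (Set.finite_Iic B)
    refine h.mono ?_
    intro p hp
    exact ⟨hp.1, not_le.1 hp.2⟩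
  let eD : D ≃ Fin (Fintype.card D) := Fintype.equivFin D
  let k : D → ℕ := fun A => (hinf.natEmbedding _ (eD A : ℕ) : ℕ)
  have hkp : ∀ A, (k A).Prime ∧ B < k A := fun A => (hinf.natEmbedding _ (eD A : ℕ)).2
  have hkinj : Function.Injective k := by
    intro A A' h
    have h1 := (hinf.natEmbedding _).injective (Subtype.ext h)
    exact eD.injective (Fin.ext h1)
  have hkcop : ∀ A A', A ≠ A' → Nat.Coprime (k A) (k A') := fun A A' h =>
    (Nat.coprime_primes (hkp A).1 (hkp A').1).2 (fun h' => h (hkinj h'))
  let M := ∏ A, k A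
  have hM0 : 0 < M := Finset.prod_pos fun A _ => (hkp A).1.pos
  have hkM : ∀ A, k A ∣ M := fun A => Finset.dvd_prod_of_mem k (mem_univ A)
  let b : N → D → Bool := fun c A => A (Sum.inl c)
  have hu : ∀ (e : Bool) (c c' : N), c' ≠ c →
      2 * ρ ≤ (univ.filter (fun A => b c A = e ∧ b c' A ≠ e)).card := by
    intro e c c' hne
    have h := hag {Sum.inl c, Sum.inl c'} (fun x => if x = Sum.inl c then e else !e)
      ((card_le_two).trans (by norm_num))
    refine h.trans (card_le_card ?_)
    intro A hA
    simp only [mem_filter, mem_univ, true_and, mem_insert, mem_singleton, forall_eq_or_imp,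
      forall_eq] at hA ⊢
    refine ⟨by show A (Sum.inl c) = e; simpa using hA.1, ?_⟩
    have h2 := hA.2
    rw [if_neg (Sum.inl_injective.ne hne)] at h2
    show A (Sum.inl c') ≠ e
    rw [h2]
    cases e <;> decide
  have hper : ∀ e t, nm k b ρ e (t + M) = nm k b ρ e t := by
    intro e t
    have hd : ∀ A, k A ∣ t + M ↔ k A ∣ t := fun A => (Nat.dvd_add_iff_left (hkM A)).symm
    have : ∀ c, Sh k b ρ e (t + M) c ↔ Sh k b ρ e t c := by
      intro c
      simp only [Sh, hd]
    exact congrArg pick (funext fun c => propext (this c))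
  -- divisors of `t + t'` outside the set where the two names differ
  have hout : ∀ t t' c c', Sh k b ρ false t c → Sh k b ρ true t' c' →
      (univ.filter (fun A : D => b c A = b c' A ∧ k A ∣ t + t')).card < 2 * ρ := by
    intro t t' c c' h h'
    have h1 : (univ.filter (fun A : D => b c A = b c' A ∧ k A ∣ t + t')).card ≤
        ((univ.filter (fun A => b c A ≠ false ∧ k A ∣ t)) ∪
          (univ.filter (fun A => b c' A ≠ true ∧ k A ∣ t'))).card := by
      apply card_le_card
      intro A hA
      simp only [mem_filter, mem_univ, true_and, mem_union] at hA ⊢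
      cases hb : b c A with
      | true =>
        left
        have h2 : k A ∣ t' := h'.1 A (by rw [← hA.1, hb])
        exact ⟨by simp, (Nat.dvd_add_left h2).1 hA.2⟩
      | false =>
        right
        have h2 : k A ∣ t := h.1 A hb
        exact ⟨by rw [← hA.1, hb]; simp, (Nat.dvd_add_right h2).1 hA.2⟩
    have h2 := card_union_le (univ.filter (fun A => b c A ≠ false ∧ k A ∣ t))
      (univ.filter (fun A => b c' A ≠ true ∧ k A ∣ t'))
    have h3 := h.2
    have h4 := h'.2
    omega
  refine ⟨univ.image k, M, nm k b ρ false, nm k b ρ true, ?_, ?_, hM0, hper _, hper _,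
    ?_, ?_, ?_, ?_⟩
  · refine (card_image_le).trans ?_
    rw [card_univ]
    simp only [D, Fintype.card_fun, Fintype.card_bool]
    exact hρ.le
  · intro p hp
    simp only [mem_image, mem_univ, true_and] at hp
    obtain ⟨A, rfl⟩ := hp
    exact ⟨(hkp A).2, (hkp A).1, hkM A⟩
  · intro t t' c h h'
    rw [card_mul_image k hkinj]
    have := hout t t' c c (nm_spec _ _ _ h) (nm_spec _ _ _ h')
    simpa using this
  · intro t t' c c' h h' hne
    rw [card_mul_image k hkinj]
    have h1 := nm_spec _ _ _ h
    have h2 := nm_spec _ _ _ h'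
    refine (hu true c' c hne).trans (card_le_card ?_)
    intro A hA
    simp only [mem_filter, mem_univ, true_and] at hA ⊢
    have h3 : b c A = false := by simpa using hA.2
    exact Nat.dvd_add (h1.1 A h3) (h2.1 A hA.1)
  · intro t₁ t₁' t₂ t₂' c₁ c₁' c₂ c₂' h1 h1' h2 h2' hT hne1 hne2
    have g1 := nm_spec _ _ _ h1
    have g1' := nm_spec _ _ _ h1'
    have g2 := nm_spec _ _ _ h2
    have g2' := nm_spec _ _ _ h2'
    by_contra hcon
    -- an assignment with f c₁ = false, f c₁' = true, f c₂ = f c₂'
    obtain ⟨f, hf1, hf1', hf2⟩ : ∃ f : X → Bool, f (Sum.inl c₁) = false ∧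
        f (Sum.inl c₁') = true ∧ f (Sum.inl c₂) = f (Sum.inl c₂') := by
      by_cases ha : c₂ = c₁ ∨ c₂' = c₁
      · refine ⟨fun x => if x = Sum.inl c₁' then true else false, ?_, ?_, ?_⟩
        · exact if_neg (Sum.inl_injective.ne hne1)
        · exact if_pos rfl
        · have hb : c₂ ≠ c₁' := by
            intro hb
            rcases ha with ha | ha
            · exact hne1 (ha.symm.trans hb)
            · exact hcon (Or.inr ⟨hb, ha⟩)
          have hb' : c₂' ≠ c₁' := by
            intro hb
            rcases ha with ha | ha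
            · exact hcon (Or.inl ⟨ha, hb⟩)
            · exact hne1 (ha.symm.trans hb)
          show (if _ then _ else _) = (if _ then _ else _)
          rw [if_neg (Sum.inl_injective.ne hb), if_neg (Sum.inl_injective.ne hb')]
      · push Not at ha
        refine ⟨fun x => if x = Sum.inl c₁ then false else true, ?_, ?_, ?_⟩
        · exact if_pos rfl
        · exact if_neg (Sum.inl_injective.ne hne1.symm)
        · show (if _ then _ else _) = (if _ then _ else _)
          rw [if_neg (Sum.inl_injective.ne ha.1), if_neg (Sum.inl_injective.ne ha.2)]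
    have h3 := hag {Sum.inl c₁, Sum.inl c₁', Sum.inl c₂, Sum.inl c₂'} f card_le_four
    have h4 := hout t₂ t₂' c₂ c₂' g2 g2'
    have h5 : (univ.filter (fun A : D => ∀ x ∈ ({Sum.inl c₁, Sum.inl c₁', Sum.inl c₂,
        Sum.inl c₂'} : Finset X), A x = f x)).card ≤
        (univ.filter (fun A : D => b c₂ A = b c₂' A ∧ k A ∣ t₂ + t₂')).card := by
      apply card_le_card
      intro A hA
      simp only [mem_filter, mem_univ, true_and, mem_insert, mem_singleton, forall_eq_or_imp,
        forall_eq] at hA ⊢
      obtain ⟨a1, a2, a3, a4⟩ := hA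
      refine ⟨by show A (Sum.inl c₂) = A (Sum.inl c₂'); rw [a3, a4, hf2], ?_⟩
      rw [← hT]
      exact Nat.dvd_add (g1.1 A (a1.trans hf1)) (g1'.1 A (a2.trans hf1'))
    omega
  · intro T hT c
    rw [card_mul_image k hkinj] at hT
    obtain ⟨t0, ht0⟩ := Nat.chineseRemainderOfFinset (fun A => if b c A = true then T else 0) k
      (univ : Finset D) (fun A _ => (hkp A).1.ne_zero)
      (fun A _ A' _ h => hkcop A A' h)
    have htm : ∀ A, (t0 % M) ≡ (if b c A = true then T else 0) [MOD k A] := by
      intro A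
      exact ((Nat.mod_modEq t0 M).of_dvd (hkM A)).trans (ht0 A (mem_univ A))
    have hL : Sh k b ρ false (t0 % M) c := by
      refine ⟨fun A hA => ?_, lt_of_le_of_lt (card_le_card ?_) hT⟩
      · have := htm A
        rw [if_neg (by simp [hA])] at this
        exact (Nat.modEq_zero_iff_dvd).1 this
      · intro A hA
        simp only [mem_filter, mem_univ, true_and] at hA ⊢
        have hb : b c A = true := by simpa using hA.1
        have := htm A
        rw [if_pos hb] at this
        exact (this.dvd_iff dvd_rfl).1 hA.2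
    refine ⟨t0 % M, Nat.mod_lt _ hM0, nm_of _ _ _ hL (fun c' hc' => ?_), fun t' ht' => ?_⟩
    · exact le_trans (by omega) (hu false c c' hc')
    · apply nm_of
      · have hm : ∀ A, t0 % M + t' ≡ T [MOD k A] := fun A => ht'.of_dvd (hkM A)
        refine ⟨fun A hA => ?_, lt_of_le_of_lt (card_le_card ?_) hT⟩
        · have h1 := htm A
          rw [if_pos hA] at h1
          have h2 : t0 % M + t' ≡ t0 % M + 0 [MOD k A] := (hm A).trans (by simpa using h1.symm)
          exact (Nat.modEq_zero_iff_dvd).1 (Nat.ModEq.add_left_cancel' _ h2)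
        · intro A hA
          simp only [mem_filter, mem_univ, true_and] at hA ⊢
          have hb : b c A = false := by simpa using hA.1
          have h1 := htm A
          rw [if_neg (by simp [hb])] at h1
          have h2 : 0 + t' ≡ T [MOD k A] := (h1.symm.add_right t').trans (hm A)
          rw [zero_add] at h2
          exact (h2.dvd_iff dvd_rfl).1 hA.2
      · intro c' hc'
        exact le_trans (by omega) (hu true c c' hc')

end Crest.Agent.R320.LN330
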