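import Mathlib

/-! Row 320, leaf U1 of helper638: error tolerant level names (pure Chinese remainder theorem). -/

set_option autoImplicit false

namespace Crest.Agent.R320.LN_43

open Finset

theorem count4 {N' : Type*} [Fintype N'] [DecidableEq N'] (x₁ x₂ x₃ x₄ : N') (b : N' → Bool)
    (Z : Finset (N' → Bool))
    (hZ : ∀ A : N' → Bool, A x₁ = b x₁ → A x₂ = b x₂ → A x₃ = b x₃ → A x₄ = b x₄ → A ∈ Z) :
    Fintype.card (N' → Bool) ≤ 16 * Z.card := by
  classical
  let ow : (N' → Bool) → (N' → Bool) := fun A x =>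
    if x = x₁ ∨ x = x₂ ∨ x = x₃ ∨ x = x₄ then b x else A x
  have how : ∀ A, ow A ∈ Z := by
    intro A
    apply hZ <;> simp [ow]
  let f : (N' → Bool) → (Bool × Bool × Bool × Bool) × Z := fun A =>
    ((A x₁, A x₂, A x₃, A x₄), ⟨ow A, how A⟩)
  have hf : Function.Injective f := by
    intro A A' h
    simp only [f, Prod.mk.injEq, Subtype.mk.injEq] at h
    obtain ⟨⟨h1, h2, h3, h4⟩, h5⟩ := h
    funext x
    by_cases hx : x = x₁ ∨ x = x₂ ∨ x = x₃ ∨ x = x₄
    · rcases hx with rfl | rfl | rfl | rfl <;> assumption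
    · have := congrFun h5 x
      simpa [ow, hx] using this
  have := Fintype.card_le_of_injective f hf
  simpa [Fintype.card_prod, Fintype.card_bool, Fintype.card_coe, mul_assoc] using this

section
variable {N' : Type} [Fintype N'] [DecidableEq N'] (P : (N' → Bool) → ℕ) (ρ : ℕ)

/-- left sign -/
def LN (t : ℕ) (c : N') : Prop :=
  (∀ A : N' → Bool, A c = false → P A ∣ t) ∧
    (univ.filter fun A : N' → Bool => A c = true ∧ P A ∣ t).card < ρ

/-- right sign -/
def RN (t : ℕ) (c : N') : Prop :=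
  (∀ A : N' → Bool, A c = true → P A ∣ t) ∧
    (univ.filter fun A : N' → Bool => A c = false ∧ P A ∣ t).card < ρ

variable {P ρ}

theorem LN.unique (hD : Fintype.card (N' → Bool) = 32 * ρ) {t : ℕ} {c c' : N'}
    (h : LN P ρ t c) (h' : LN P ρ t c') : c = c' := by
  classical
  by_contra hne
  have := count4 c c' c c' (fun x => decide (x = c))
    (univ.filter fun A : N' → Bool => A c = true ∧ P A ∣ t) (by
      intro A h1 h2 _ _
      simp only [decide_true] at h1
      have h3 : A c' = false := by simpa [Ne.symm hne] using h2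
      simp [h1, h'.1 A h3])
  have := h.2
  omega

theorem RN.unique (hD : Fintype.card (N' → Bool) = 32 * ρ) {t : ℕ} {c c' : N'}
    (h : RN P ρ t c) (h' : RN P ρ t c') : c = c' := by
  classical
  by_contra hne
  have := count4 c c' c c' (fun x => decide (x = c'))
    (univ.filter fun A : N' → Bool => A c = false ∧ P A ∣ t) (by
      intro A h1 h2 _ _
      have h3 : A c = false := by simpa [hne] using h1
      have h4 : A c' = true := by simpa using h2
      simp [h3, h'.1 A h4])
  have := h.2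
  omega

theorem same {t t' : ℕ} {c : N'} (h : LN P ρ t c) (h' : RN P ρ t' c) :
    (univ.filter fun A : N' → Bool => P A ∣ t + t').card < 2 * ρ := by
  classical
  have hsub : (univ.filter fun A : N' → Bool => P A ∣ t + t') ⊆
      (univ.filter fun A : N' → Bool => A c = true ∧ P A ∣ t) ∪
      (univ.filter fun A : N' → Bool => A c = false ∧ P A ∣ t') := by
    intro A hA
    simp only [mem_filter, mem_univ, true_and, mem_union] at hA ⊢
    rcases hc : A c with _ | _
    · right
      exact ⟨rfl, (Nat.dvd_add_right (h.1 A hc)).1 hA⟩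
    · left
      exact ⟨rfl, (Nat.dvd_add_left (h'.1 A hc)).1 hA⟩
  have h1 := card_le_card hsub
  have h2 := card_union_le (univ.filter fun A : N' → Bool => A c = true ∧ P A ∣ t)
      (univ.filter fun A : N' → Bool => A c = false ∧ P A ∣ t')
  have := h.2
  have := h'.2
  omega

theorem mism (hD : Fintype.card (N' → Bool) = 32 * ρ) {t t' : ℕ} {c c' : N'}
    (h : LN P ρ t c) (h' : RN P ρ t' c') (hne : c ≠ c') :
    2 * ρ ≤ (univ.filter fun A : N' → Bool => P A ∣ t + t').card := by
  classical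
  have := count4 c c' c c' (fun x => decide (x = c'))
    (univ.filter fun A : N' → Bool => P A ∣ t + t') (by
      intro A h1 h2 _ _
      have h3 : A c = false := by simpa [hne] using h1
      have h4 : A c' = true := by simpa using h2
      simp [dvd_add (h.1 A h3) (h'.1 A h4)])
  omega

theorem pair (hD : Fintype.card (N' → Bool) = 32 * ρ) {t₁ t₁' t₂ t₂' : ℕ} {c₁ c₁' c₂ c₂' : N'}
    (h1 : LN P ρ t₁ c₁) (h1' : RN P ρ t₁' c₁') (h2 : LN P ρ t₂ c₂) (h2' : RN P ρ t₂' c₂')
    (hT : t₁ + t₁' = t₂ + t₂') (hne1 : c₁ ≠ c₁') (hne2 : c₂ ≠ c₂') :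
    (c₂ = c₁ ∧ c₂' = c₁') ∨ (c₂ = c₁' ∧ c₂' = c₁) := by
  classical
  by_contra hcon
  push Not at hcon
  obtain ⟨hc1, hc2⟩ := hcon
  set Z := univ.filter fun A : N' → Bool => A c₁ = false ∧ A c₁' = true ∧ A c₂ = A c₂' with hZ
  have hcount : Fintype.card (N' → Bool) ≤ 16 * Z.card := by
    by_cases hcase : c₂ = c₁' ∨ c₂' = c₁'
    · refine count4 c₁ c₁' c₂ c₂' (fun x => decide (x ≠ c₁)) Z ?_
      intro A a1 a2 a3 a4
      have b1 : c₂ ≠ c₁ := by
        rcases hcase with h | h
        · rw [h]; exact hne1.symm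
        · intro h3; exact hc1 h3 h
      have b2 : c₂' ≠ c₁ := by
        rcases hcase with h | h
        · exact hc2 h
        · rw [h]; exact hne1.symm
      simp only [hZ, mem_filter, mem_univ, true_and]
      refine ⟨by simpa using a1, by simpa [hne1.symm] using a2, ?_⟩
      rw [a3, a4]; simp [b1, b2]
    · push Not at hcase
      refine count4 c₁ c₁' c₂ c₂' (fun x => decide (x = c₁')) Z ?_
      intro A a1 a2 a3 a4
      simp only [hZ, mem_filter, mem_univ, true_and]
      refine ⟨by simpa [hne1] using a1, by simpa using a2, ?_⟩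
      rw [a3, a4]; simp [hcase.1, hcase.2]
  have hsub : Z ⊆ (univ.filter fun A : N' → Bool => A c₂ = true ∧ P A ∣ t₂) ∪
      (univ.filter fun A : N' → Bool => A c₂' = false ∧ P A ∣ t₂') := by
    intro A hA
    simp only [hZ, mem_filter, mem_univ, true_and, mem_union] at hA ⊢
    obtain ⟨a1, a2, a3⟩ := hA
    have hdiv : P A ∣ t₂ + t₂' := hT ▸ dvd_add (h1.1 A a1) (h1'.1 A a2)
    rcases hc : A c₂ with _ | _
    · right
      exact ⟨by rw [← a3, hc], (Nat.dvd_add_right (h2.1 A hc)).1 hdiv⟩
    · left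
      exact ⟨rfl, (Nat.dvd_add_left (h2'.1 A (by rw [← a3, hc]))).1 hdiv⟩
  have h3 := card_le_card hsub
  have h4 := card_union_le (univ.filter fun A : N' → Bool => A c₂ = true ∧ P A ∣ t₂)
      (univ.filter fun A : N' → Bool => A c₂' = false ∧ P A ∣ t₂')
  have := h2.2
  have := h2'.2
  omega

end

theorem level_names (N : Type) [Finite N] : ∃ ρ : ℕ, 0 < ρ ∧ ∀ B : ℕ, ∃ (Ms : Finset ℕ) (M : ℕ)
    (nmL nmR : ℕ → Option N), Ms.card ≤ 32*ρ ∧ (∀ k ∈ Ms, B < k ∧ Nat.Prime k ∧ k ∣ M) ∧ 0 < M ∧
    (∀ t, nmL (t+M) = nmL t) ∧ (∀ t, nmR (t+M) = nmR t) ∧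
    (∀ t t' c, nmL t = some c → nmR t' = some c → (Ms.filter (· ∣ t+t')).card < 2*ρ) ∧
    (∀ t t' c c', nmL t = some c → nmR t' = some c' → c ≠ c' →
      2*ρ ≤ (Ms.filter (· ∣ t+t')).card) ∧
    (∀ t₁ t₁' t₂ t₂' c₁ c₁' c₂ c₂', nmL t₁ = some c₁ → nmR t₁' = some c₁' → nmL t₂ = some c₂ →
      nmR t₂' = some c₂' → t₁+t₁' = t₂+t₂' → c₁ ≠ c₁' → c₂ ≠ c₂' →
      (c₂ = c₁ ∧ c₂' = c₁') ∨ (c₂ = c₁' ∧ c₂' = c₁)) ∧
    (∀ T, (Ms.filter (· ∣ T)).card < ρ → ∀ c, ∃ t < M, nmL t = some c ∧
      ∀ t', t+t' ≡ T [MOD M] → nmR t' = some c) := by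
  classical
  haveI := Fintype.ofFinite N
  let N' := N ⊕ Fin 5
  have hcardD : Fintype.card (N' → Bool) = 32 * 2 ^ Fintype.card N := by
    simp only [Fintype.card_fun, Fintype.card_bool, N', Fintype.card_sum, Fintype.card_fin,
      pow_add]
    ring
  refine ⟨2 ^ Fintype.card N, by positivity, fun B => ?_⟩
  set ρ := 2 ^ Fintype.card N with hρ
  let P : (N' → Bool) → ℕ := fun A =>
    Nat.nth Nat.Prime (B + (Fintype.equivFin (N' → Bool) A : ℕ))
  have hPp : ∀ A, Nat.Prime (P A) := fun A => Nat.prime_nth_prime _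
  have hPB : ∀ A, B < P A := by
    intro A
    have := Nat.add_two_le_nth_prime (B + (Fintype.equivFin (N' → Bool) A : ℕ))
    show B < Nat.nth Nat.Prime _
    omega
  have hPi : Function.Injective P := by
    intro A A' h
    have h1 := Nat.nth_injective Nat.infinite_setOfPred_prime h
    have h2 : (Fintype.equivFin (N' → Bool) A : ℕ) = Fintype.equivFin (N' → Bool) A' := by omega
    exact (Fintype.equivFin (N' → Bool)).injective (Fin.ext h2)
  let Ms : Finset ℕ := univ.image P
  let M : ℕ := ∏ A, P A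
  have hPM : ∀ A, P A ∣ M := fun A => dvd_prod_of_mem P (mem_univ A)
  have hM : 0 < M := prod_pos fun A _ => (hPp A).pos
  have hfil : ∀ T, (Ms.filter (· ∣ T)).card = (univ.filter fun A : N' → Bool => P A ∣ T).card := by
    intro T
    have : Ms.filter (· ∣ T) = (univ.filter fun A : N' → Bool => P A ∣ T).image P := by
      ext k
      simp only [Ms, mem_filter, mem_image, mem_univ, true_and]
      constructor
      · rintro ⟨⟨A, rfl⟩, h⟩; exact ⟨A, h, rfl⟩
      · rintro ⟨A, h, rfl⟩; exact ⟨⟨A, rfl⟩, h⟩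
    rw [this, card_image_of_injective _ hPi]
  let nmL : ℕ → Option N := fun t =>
    if h : ∃ c : N, LN P ρ t (Sum.inl c) then some h.choose else none
  let nmR : ℕ → Option N := fun t =>
    if h : ∃ c : N, RN P ρ t (Sum.inl c) then some h.choose else none
  have hL : ∀ t c, nmL t = some c ↔ LN P ρ t (Sum.inl c) := by
    intro t c
    constructor
    · intro h
      by_cases hex : ∃ c : N, LN P ρ t (Sum.inl c)
      · have h2 : nmL t = some hex.choose := dif_pos hex
        rw [h2] at h
        have := hex.choose_spec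
        rwa [Option.some.inj h] at this
      · have h2 : nmL t = none := dif_neg hex
        rw [h2] at h; cases h
    · intro h
      have hex : ∃ c : N, LN P ρ t (Sum.inl c) := ⟨c, h⟩
      have h2 : nmL t = some hex.choose := dif_pos hex
      rw [h2]
      exact congrArg some (Sum.inl.inj (LN.unique hcardD hex.choose_spec h))
  have hR : ∀ t c, nmR t = some c ↔ RN P ρ t (Sum.inl c) := by
    intro t c
    constructor
    · intro h
      by_cases hex : ∃ c : N, RN P ρ t (Sum.inl c)
      · have h2 : nmR t = some hex.choose := dif_pos hex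
        rw [h2] at h
        have := hex.choose_spec
        rwa [Option.some.inj h] at this
      · have h2 : nmR t = none := dif_neg hex
        rw [h2] at h; cases h
    · intro h
      have hex : ∃ c : N, RN P ρ t (Sum.inl c) := ⟨c, h⟩
      have h2 : nmR t = some hex.choose := dif_pos hex
      rw [h2]
      exact congrArg some (Sum.inl.inj (RN.unique hcardD hex.choose_spec h))
  have hdM : ∀ A t, P A ∣ t + M ↔ P A ∣ t := fun A t => Nat.dvd_add_left (hPM A)
  refine ⟨Ms, M, nmL, nmR, ?_, ?_, hM, ?_, ?_, ?_, ?_, ?_, ?_⟩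
  · rw [← hcardD]
    exact card_image_le.trans (by simp)
  · intro k hk
    simp only [Ms, mem_image, mem_univ, true_and] at hk
    obtain ⟨A, rfl⟩ := hk
    exact ⟨hPB A, hPp A, hPM A⟩
  · intro t
    have h : ∀ c, LN P ρ (t + M) c ↔ LN P ρ t c := by
      intro c; simp only [LN, hdM]
    apply Option.ext
    intro c
    rw [hL, hL, h]
  · intro t
    have h : ∀ c, RN P ρ (t + M) c ↔ RN P ρ t c := by
      intro c; simp only [RN, hdM]
    apply Option.ext
    intro c
    rw [hR, hR, h]
  · intro t t' c h h'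
    rw [hfil]
    exact same ((hL _ _).1 h) ((hR _ _).1 h')
  · intro t t' c c' h h' hne
    rw [hfil]
    exact mism hcardD ((hL _ _).1 h) ((hR _ _).1 h') (fun e => hne (Sum.inl.inj e))
  · intro t₁ t₁' t₂ t₂' c₁ c₁' c₂ c₂' h1 h1' h2 h2' hT hne1 hne2
    rcases pair hcardD ((hL _ _).1 h1) ((hR _ _).1 h1') ((hL _ _).1 h2) ((hR _ _).1 h2') hT
      (fun e => hne1 (Sum.inl.inj e)) (fun e => hne2 (Sum.inl.inj e)) with ⟨a, b⟩ | ⟨a, b⟩
    · exact Or.inl ⟨Sum.inl.inj a, Sum.inl.inj b⟩
    · exact Or.inr ⟨Sum.inl.inj a, Sum.inl.inj b⟩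
  · intro T hT c
    rw [hfil] at hT
    have hco : Set.Pairwise (↑(univ : Finset (N' → Bool))) (Function.onFun Nat.Coprime P) := by
      intro A _ A' _ hne
      exact (Nat.coprime_primes (hPp A) (hPp A')).2 (fun e => hne (hPi e))
    obtain ⟨k, hk⟩ := Nat.chineseRemainderOfFinset
      (fun A : N' → Bool => if A (Sum.inl c) = true then T else 0) P univ
      (fun A _ => (hPp A).ne_zero) hco
    have hkA : ∀ A : N' → Bool, k % M ≡ (if A (Sum.inl c) = true then T else 0) [MOD P A] := by
      intro A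
      have h1 : k % M ≡ k [MOD M] := Nat.mod_modEq k M
      exact (h1.of_dvd (hPM A)).trans (hk A (mem_univ A))
    have hkf : ∀ A : N' → Bool, A (Sum.inl c) = false → P A ∣ k % M := by
      intro A hA
      have := hkA A
      simp only [hA, Bool.false_eq_true, if_false] at this
      exact (Nat.modEq_zero_iff_dvd).1 this
    have hkt : ∀ A : N' → Bool, A (Sum.inl c) = true → k % M ≡ T [MOD P A] := by
      intro A hA
      have := hkA A
      simpa only [hA, if_true] using this
    refine ⟨k % M, Nat.mod_lt _ hM, (hL _ _).2 ⟨hkf, lt_of_le_of_lt (card_le_card ?_) hT⟩, ?_⟩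
    · intro A hA
      simp only [mem_filter, mem_univ, true_and] at hA ⊢
      exact ((hkt A hA.1).dvd_iff dvd_rfl).1 hA.2
    · intro t' ht'
      have hmod : ∀ A, k % M + t' ≡ T [MOD P A] := fun A => ht'.of_dvd (hPM A)
      refine (hR _ _).2 ⟨?_, lt_of_le_of_lt (card_le_card ?_) hT⟩
      · intro A hA
        have h1 : k % M + t' ≡ k % M + 0 [MOD P A] := by
          simpa using (hmod A).trans (hkt A hA).symm
        exact (Nat.modEq_zero_iff_dvd).1 (Nat.ModEq.add_left_cancel' _ h1)
      · intro A hA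
        simp only [mem_filter, mem_univ, true_and] at hA ⊢
        have h1 : P A ∣ k % M + t' := dvd_add (hkf A hA.1) hA.2
        exact ((hmod A).dvd_iff dvd_rfl).1 h1

end Crest.Agent.R320.LN_43
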