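import Mathlib

/-!
# Row 320, leaf U1 of helper638's U-gadget on all words: error tolerant level names (helper431)

Pure Chinese remainder combinatorics: `level_names`.
-/

set_option autoImplicit false

namespace Crest.Agent.R320.LN_431

open Finset

/-- counting the subsets with prescribed coordinates -/
theorem card_presc {X : Type} [Fintype X] [DecidableEq X] (s : Finset X) (g : X → Bool) :
    2 ^ Fintype.card X ≤
      2 ^ s.card * (univ.filter fun A : X → Bool => ∀ x ∈ s, A x = g x).card := by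
  classical
  let f : (X → Bool) → (s → Bool) × (X → Bool) :=
    fun A => (fun x => A x.1, fun x => if x ∈ s then g x else A x)
  have hf : Function.Injective f := by
    intro A B h
    funext x
    by_cases hx : x ∈ s
    · exact congrFun (congrArg Prod.fst h) ⟨x, hx⟩
    · have := congrFun (congrArg Prod.snd h) x
      simpa [f, hx] using this
  have h1 : (univ.image f) ⊆ (univ : Finset (s → Bool)) ×ˢ
      (univ.filter fun A : X → Bool => ∀ x ∈ s, A x = g x) := by
    intro p hp
    simp only [mem_image, mem_univ, true_and] at hp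
    obtain ⟨A, rfl⟩ := hp
    simp only [mem_product, mem_univ, true_and, mem_filter]
    intro x hx
    simp [f, hx]
  have h2 := card_le_card h1
  rw [card_image_of_injective _ hf, card_product] at h2
  simpa [Fintype.card_fun, Fintype.card_coe] using h2

/-- infinitely many primes, as an injective family -/
theorem exists_primes (D : Type) [Finite D] (B : ℕ) :
    ∃ k : D → ℕ, Function.Injective k ∧ ∀ A, B < k A ∧ (k A).Prime := by
  have hinf : {p : ℕ | B < p ∧ p.Prime}.Infinite := by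
    refine Set.infinite_of_forall_exists_gt fun a => ?_
    obtain ⟨p, hp, hpr⟩ := Nat.exists_infinite_primes (max a B + 1)
    exact ⟨p, ⟨by omega, hpr⟩, by omega⟩
  let e := hinf.natEmbedding
  obtain ⟨n, ⟨d⟩⟩ := Finite.exists_equiv_fin D
  refine ⟨fun A => (e (d A : ℕ)).1, ?_, fun A => (e (d A : ℕ)).2⟩
  intro A A' h
  have h1 := e.injective (Subtype.ext h)
  exact d.injective (Fin.ext h1)

theorem crt {D : Type} [Fintype D] (k : D → ℕ) (hk : Function.Injective k)
    (hp : ∀ A, (k A).Prime) (a : D → ℕ) :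
    ∃ t, t < ∏ A, k A ∧ ∀ A, t ≡ a A [MOD k A] := by
  classical
  have hpos : 0 < ∏ A, k A := Finset.prod_pos fun A _ => (hp A).pos
  have hc : Set.Pairwise (↑(univ : Finset D) : Set D) (Function.onFun Nat.Coprime k) := by
    intro A _ B _ hAB
    exact (Nat.coprime_primes (hp A) (hp B)).2 fun h => hAB (hk h)
  obtain ⟨x, hx⟩ := Nat.chineseRemainderOfFinset a k univ (fun A _ => (hp A).ne_zero) hc
  refine ⟨x % ∏ A, k A, Nat.mod_lt _ hpos, fun A => ?_⟩
  exact ((Nat.mod_modEq x _).of_dvd (Finset.dvd_prod_of_mem k (mem_univ A))).trans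
    (hx A (mem_univ A))

section

variable {N D : Type} [Fintype D] (k : D → ℕ) (ev : D → N → Bool) (ρ : ℕ)

/-- the left residue `t` carries the name `c` -/
def CL (t : ℕ) (c : N) : Prop :=
  (∀ A, ev A c = false → k A ∣ t) ∧ (univ.filter fun A => ev A c = true ∧ k A ∣ t).card < ρ

/-- the right residue `t` carries the name `c` -/
def CR (t : ℕ) (c : N) : Prop :=
  (∀ A, ev A c = true → k A ∣ t) ∧ (univ.filter fun A => ev A c = false ∧ k A ∣ t).card < ρ

theorem CL.unique (h : ∀ c c', c ≠ c' → ∀ b b',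
    8 * ρ ≤ (univ.filter fun A => ev A c = b ∧ ev A c' = b').card)
    (t : ℕ) (c c' : N) (h1 : CL k ev ρ t c) (h2 : CL k ev ρ t c') : c = c' := by
  classical
  by_contra hne
  have h3 := h c c' hne true false
  have h4 : (univ.filter fun A => ev A c = true ∧ ev A c' = false) ⊆
      (univ.filter fun A => ev A c = true ∧ k A ∣ t) := by
    intro A hA
    simp only [mem_filter, mem_univ, true_and] at hA ⊢
    exact ⟨hA.1, h2.1 A hA.2⟩
  have h5 := card_le_card h4
  have h6 := h1.2
  omega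

theorem CR.unique (h : ∀ c c', c ≠ c' → ∀ b b',
    8 * ρ ≤ (univ.filter fun A => ev A c = b ∧ ev A c' = b').card)
    (t : ℕ) (c c' : N) (h1 : CR k ev ρ t c) (h2 : CR k ev ρ t c') : c = c' := by
  classical
  by_contra hne
  have h3 := h c c' hne false true
  have h4 : (univ.filter fun A => ev A c = false ∧ ev A c' = true) ⊆
      (univ.filter fun A => ev A c = false ∧ k A ∣ t) := by
    intro A hA
    simp only [mem_filter, mem_univ, true_and] at hA ⊢
    exact ⟨hA.1, h2.1 A hA.2⟩
  have h5 := card_le_card h4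
  have h6 := h1.2
  omega

theorem E1 (t t' : ℕ) (c : N) (h1 : CL k ev ρ t c) (h2 : CR k ev ρ t' c) :
    (univ.filter fun A => k A ∣ t + t').card < 2 * ρ := by
  classical
  have h : (univ.filter fun A => k A ∣ t + t') ⊆
      (univ.filter fun A => ev A c = true ∧ k A ∣ t) ∪
      (univ.filter fun A => ev A c = false ∧ k A ∣ t') := by
    intro A hA
    simp only [mem_union, mem_filter, mem_univ, true_and] at hA ⊢
    cases hb : ev A c with
    | true =>
      left
      exact ⟨rfl, (Nat.dvd_add_left (h2.1 A hb)).1 hA⟩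
    | false =>
      right
      exact ⟨rfl, (Nat.dvd_add_right (h1.1 A hb)).1 hA⟩
  have h3 := (card_le_card h).trans (card_union_le _ _)
  have h4 := h1.2
  have h5 := h2.2
  omega

theorem E2 (h : ∀ c c', c ≠ c' → ∀ b b',
    8 * ρ ≤ (univ.filter fun A => ev A c = b ∧ ev A c' = b').card)
    (t t' : ℕ) (c c' : N) (h1 : CL k ev ρ t c) (h2 : CR k ev ρ t' c') (hc : c ≠ c') :
    2 * ρ ≤ (univ.filter fun A => k A ∣ t + t').card := by
  classical
  have h3 := h c c' hc false true
  have h4 : (univ.filter fun A => ev A c = false ∧ ev A c' = true) ⊆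
      (univ.filter fun A => k A ∣ t + t') := by
    intro A hA
    simp only [mem_filter, mem_univ, true_and] at hA ⊢
    exact dvd_add (h1.1 A hA.1) (h2.1 A hA.2)
  have h5 := card_le_card h4
  omega

theorem E3 (h : ∀ c₁ c₁' c₂ c₂' : N, c₁ ≠ c₁' → c₂ ≠ c₂' →
    ¬ ((c₂ = c₁ ∧ c₂' = c₁') ∨ (c₂ = c₁' ∧ c₂' = c₁)) →
    2 * ρ ≤ (univ.filter fun A => ev A c₁ = false ∧ ev A c₁' = true ∧ ev A c₂ = ev A c₂').card)
    (t₁ t₁' t₂ t₂' : ℕ) (c₁ c₁' c₂ c₂' : N)
    (h1 : CL k ev ρ t₁ c₁) (h1' : CR k ev ρ t₁' c₁') (h2 : CL k ev ρ t₂ c₂)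
    (h2' : CR k ev ρ t₂' c₂') (hT : t₁ + t₁' = t₂ + t₂') (hc1 : c₁ ≠ c₁') (hc2 : c₂ ≠ c₂') :
    (c₂ = c₁ ∧ c₂' = c₁') ∨ (c₂ = c₁' ∧ c₂' = c₁) := by
  classical
  by_contra hne
  have h3 := h c₁ c₁' c₂ c₂' hc1 hc2 hne
  have h4 : (univ.filter fun A => ev A c₁ = false ∧ ev A c₁' = true ∧ ev A c₂ = ev A c₂') ⊆
      (univ.filter fun A => ev A c₂ = true ∧ k A ∣ t₂) ∪
      (univ.filter fun A => ev A c₂' = false ∧ k A ∣ t₂') := by
    intro A hA
    simp only [mem_union, mem_filter, mem_univ, true_and] at hA ⊢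
    obtain ⟨a1, a2, a3⟩ := hA
    have a4 : k A ∣ t₂ + t₂' := hT ▸ dvd_add (h1.1 A a1) (h1'.1 A a2)
    cases hb : ev A c₂ with
    | true =>
      left
      have hb' : ev A c₂' = true := by rw [← a3, hb]
      exact ⟨rfl, (Nat.dvd_add_left (h2'.1 A hb')).1 a4⟩
    | false =>
      right
      have hb' : ev A c₂' = false := by rw [← a3, hb]
      exact ⟨hb', (Nat.dvd_add_right (h2.1 A hb)).1 a4⟩
  have h5 := (card_le_card h4).trans (card_union_le _ _)
  have h6 := h2.2
  have h7 := h2'.2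
  omega

end

/-- **leaf U1 of helper638**: error tolerant level names -/
theorem level_names (N : Type) [Finite N] : ∃ ρ : ℕ, 0 < ρ ∧ ∀ B : ℕ,
    ∃ (Ms : Finset ℕ) (M : ℕ) (nmL nmR : ℕ → Option N), Ms.card ≤ 32 * ρ ∧
    (∀ k ∈ Ms, B < k ∧ Nat.Prime k ∧ k ∣ M) ∧ 0 < M ∧
    (∀ t, nmL (t + M) = nmL t) ∧ (∀ t, nmR (t + M) = nmR t) ∧
    (∀ t t' c, nmL t = some c → nmR t' = some c → (Ms.filter (· ∣ t + t')).card < 2 * ρ) ∧
    (∀ t t' c c', nmL t = some c → nmR t' = some c' → c ≠ c' →
      2 * ρ ≤ (Ms.filter (· ∣ t + t')).card) ∧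
    (∀ t₁ t₁' t₂ t₂' c₁ c₁' c₂ c₂', nmL t₁ = some c₁ → nmR t₁' = some c₁' →
      nmL t₂ = some c₂ → nmR t₂' = some c₂' → t₁ + t₁' = t₂ + t₂' → c₁ ≠ c₁' → c₂ ≠ c₂' →
      (c₂ = c₁ ∧ c₂' = c₁') ∨ (c₂ = c₁' ∧ c₂' = c₁)) ∧
    (∀ T, (Ms.filter (· ∣ T)).card < ρ → ∀ c, ∃ t < M, nmL t = some c ∧
      ∀ t', t + t' ≡ T [MOD M] → nmR t' = some c) := by
  classical
  have := Fintype.ofFinite N
  let X := N ⊕ Fin 6
  let D := X → Bool
  refine ⟨2 ^ (Fintype.card N + 1), by positivity, fun B => ?_⟩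
  set ρ : ℕ := 2 ^ (Fintype.card N + 1) with hρ
  have hX : 2 ^ Fintype.card X = 32 * ρ := by
    simp only [X, Fintype.card_sum, Fintype.card_fin, hρ]
    ring
  have hD : Fintype.card D = 32 * ρ := by
    simp only [D, Fintype.card_fun, Fintype.card_bool]
    exact hX
  obtain ⟨k, hk, hkp⟩ := exists_primes D B
  let ev : D → N → Bool := fun A c => A (Sum.inl c)
  have hcnt2 : ∀ c c', c ≠ c' → ∀ b b',
      8 * ρ ≤ (univ.filter fun A : D => ev A c = b ∧ ev A c' = b').card := by
    intro c c' hc b b'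
    have h1 := card_presc (X := X) {Sum.inl c, Sum.inl c'} (fun x => if x = Sum.inl c then b else b')
    have h2 : ({Sum.inl c, Sum.inl c'} : Finset X).card ≤ 2 := card_le_two
    have h3 : (2 : ℕ) ^ ({Sum.inl c, Sum.inl c'} : Finset X).card ≤ 2 ^ 2 :=
      Nat.pow_le_pow_right (by norm_num) h2
    have h4 : (univ.filter fun A : X → Bool => ∀ x ∈ ({Sum.inl c, Sum.inl c'} : Finset X),
        A x = (fun x => if x = Sum.inl c then b else b') x) ⊆
        (univ.filter fun A : D => ev A c = b ∧ ev A c' = b') := by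
      intro A hA
      simp only [mem_filter, mem_univ, true_and, mem_insert, mem_singleton] at hA ⊢
      have a1 := hA (Sum.inl c) (Or.inl rfl)
      have a2 := hA (Sum.inl c') (Or.inr rfl)
      have hne : (Sum.inl c' : X) ≠ Sum.inl c := fun h => hc (Sum.inl.inj h).symm
      simp only [if_true] at a1
      rw [if_neg hne] at a2
      exact ⟨a1, a2⟩
    have h5 := card_le_card h4
    rw [hX] at h1
    have h6 := Nat.mul_le_mul h3 h5
    have h7 := h1.trans h6
    omega
  have hcnt4 : ∀ c₁ c₁' c₂ c₂' : N, c₁ ≠ c₁' → c₂ ≠ c₂' →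
      ¬ ((c₂ = c₁ ∧ c₂' = c₁') ∨ (c₂ = c₁' ∧ c₂' = c₁)) →
      2 * ρ ≤ (univ.filter fun A : D =>
        ev A c₁ = false ∧ ev A c₁' = true ∧ ev A c₂ = ev A c₂').card := by
    intro c₁ c₁' c₂ c₂' hc1 hc2 hne
    obtain ⟨g, g1, g2, g3⟩ : ∃ g : N → Bool, g c₁ = false ∧ g c₁' = true ∧ g c₂ = g c₂' := by
      by_cases a : c₂ = c₁
      · have b : c₂' ≠ c₁' := fun h => hne (Or.inl ⟨a, h⟩)
        refine ⟨fun x => decide (x = c₁'), by simp [hc1], by simp, ?_⟩
        have : c₂ ≠ c₁' := by rw [a]; exact hc1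
        simp [this, b]
      · by_cases a' : c₂' = c₁
        · have b : c₂ ≠ c₁' := fun h => hne (Or.inr ⟨h, a'⟩)
          refine ⟨fun x => decide (x = c₁'), by simp [hc1], by simp, ?_⟩
          have : c₂' ≠ c₁' := by rw [a']; exact hc1
          simp [this, b]
        · refine ⟨fun x => !decide (x = c₁), by simp, by simp [Ne.symm hc1], ?_⟩
          simp [a, a']
    let s : Finset X := {Sum.inl c₁, Sum.inl c₁', Sum.inl c₂, Sum.inl c₂'}
    have h1 := card_presc (X := X) s (fun x => Sum.elim g (fun _ => false) x)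
    have h2 : s.card ≤ 4 := card_le_four
    have h3 : (2 : ℕ) ^ s.card ≤ 2 ^ 4 := Nat.pow_le_pow_right (by norm_num) h2
    have h4 : (univ.filter fun A : X → Bool => ∀ x ∈ s,
        A x = (fun x => Sum.elim g (fun _ => false) x) x) ⊆
        (univ.filter fun A : D => ev A c₁ = false ∧ ev A c₁' = true ∧ ev A c₂ = ev A c₂') := by
      intro A hA
      simp only [mem_filter, mem_univ, true_and] at hA ⊢
      have a1 := hA (Sum.inl c₁) (by simp [s])
      have a2 := hA (Sum.inl c₁') (by simp [s])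
      have a3 := hA (Sum.inl c₂) (by simp [s])
      have a4 := hA (Sum.inl c₂') (by simp [s])
      simp only [Sum.elim_inl] at a1 a2 a3 a4
      exact ⟨a1.trans g1, a2.trans g2, a3.trans (g3.trans a4.symm)⟩
    have h5 := card_le_card h4
    rw [hX] at h1
    have h6 := Nat.mul_le_mul h3 h5
    have h7 := h1.trans h6
    omega
  set M : ℕ := ∏ A, k A with hM
  have hMpos : 0 < M := Finset.prod_pos fun A _ => (hkp A).2.pos
  have hkM : ∀ A, k A ∣ M := fun A => Finset.dvd_prod_of_mem k (mem_univ A)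
  have hfilt : ∀ T : ℕ, ((univ.image k).filter (· ∣ T)).card =
      (univ.filter fun A : D => k A ∣ T).card := by
    intro T
    rw [filter_image, card_image_of_injective _ hk]
  let nmL : ℕ → Option N := fun t => if h : ∃ c, CL k ev ρ t c then some h.choose else none
  let nmR : ℕ → Option N := fun t => if h : ∃ c, CR k ev ρ t c then some h.choose else none
  have hL : ∀ t c, nmL t = some c ↔ CL k ev ρ t c := by
    intro t c
    constructor
    · intro h
      by_cases h' : ∃ c, CL k ev ρ t c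
      · simp only [nmL, dif_pos h', Option.some.injEq] at h
        rw [← h]
        exact h'.choose_spec
      · simp only [nmL, dif_neg h', reduceCtorEq] at h
    · intro h
      have h' : ∃ c, CL k ev ρ t c := ⟨c, h⟩
      simp only [nmL, dif_pos h', Option.some.injEq]
      exact CL.unique k ev ρ hcnt2 t _ _ h'.choose_spec h
  have hR : ∀ t c, nmR t = some c ↔ CR k ev ρ t c := by
    intro t c
    constructor
    · intro h
      by_cases h' : ∃ c, CR k ev ρ t c
      · simp only [nmR, dif_pos h', Option.some.injEq] at h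
        rw [← h]
        exact h'.choose_spec
      · simp only [nmR, dif_neg h', reduceCtorEq] at h
    · intro h
      have h' : ∃ c, CR k ev ρ t c := ⟨c, h⟩
      simp only [nmR, dif_pos h', Option.some.injEq]
      exact CR.unique k ev ρ hcnt2 t _ _ h'.choose_spec h
  have hdM : ∀ t A, k A ∣ t + M ↔ k A ∣ t := fun t A => Nat.dvd_add_left (hkM A)
  have hLp : ∀ t, CL k ev ρ (t + M) = CL k ev ρ t := by
    intro t
    funext c
    simp only [CL, hdM]
  have hRp : ∀ t, CR k ev ρ (t + M) = CR k ev ρ t := by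
    intro t
    funext c
    simp only [CR, hdM]
  refine ⟨univ.image k, M, nmL, nmR, ?_, ?_, hMpos, ?_, ?_, ?_, ?_, ?_, ?_⟩
  · rw [card_image_of_injective _ hk, card_univ, hD]
  · intro p hp
    obtain ⟨A, -, rfl⟩ := mem_image.1 hp
    exact ⟨(hkp A).1, (hkp A).2, hkM A⟩
  · intro t
    simp only [nmL, hLp]
  · intro t
    simp only [nmR, hRp]
  · intro t t' c h1 h2
    rw [hfilt]
    exact E1 k ev ρ t t' c ((hL t c).1 h1) ((hR t' c).1 h2)
  · intro t t' c c' h1 h2 hc
    rw [hfilt]
    exact E2 k ev ρ hcnt2 t t' c c' ((hL t c).1 h1) ((hR t' c').1 h2) hc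
  · intro t₁ t₁' t₂ t₂' c₁ c₁' c₂ c₂' h1 h1' h2 h2' hT hc1 hc2
    exact E3 k ev ρ hcnt4 t₁ t₁' t₂ t₂' c₁ c₁' c₂ c₂' ((hL _ _).1 h1) ((hR _ _).1 h1')
      ((hL _ _).1 h2) ((hR _ _).1 h2') hT hc1 hc2
  · intro T hT c
    rw [hfilt] at hT
    obtain ⟨t, ht, htA⟩ := crt k hk (fun A => (hkp A).2)
      (fun A => if ev A c = true then T else 0)
    refine ⟨t, ht, (hL t c).2 ⟨?_, ?_⟩, ?_⟩
    · intro A hA
      have h1 := htA A
      rw [if_neg (by rw [hA]; exact Bool.false_ne_true)] at h1
      exact (Nat.modEq_zero_iff_dvd).1 h1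
    · refine lt_of_le_of_lt (card_le_card ?_) hT
      intro A hA
      simp only [mem_filter, mem_univ, true_and] at hA ⊢
      have h1 := htA A
      rw [if_pos hA.1] at h1
      exact (h1.dvd_iff dvd_rfl).1 hA.2
    · intro t' ht'
      refine (hR t' c).2 ⟨?_, ?_⟩
      · intro A hA
        have h1 := htA A
        rw [if_pos hA] at h1
        have h2 : t + t' ≡ T [MOD k A] := ht'.of_dvd (hkM A)
        have h3 : t + t' ≡ t + 0 [MOD k A] := by
          rw [add_zero]; exact h2.trans h1.symm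
        exact (Nat.modEq_zero_iff_dvd).1 (Nat.ModEq.add_left_cancel' t h3)
      · refine lt_of_le_of_lt (card_le_card ?_) hT
        intro A hA
        simp only [mem_filter, mem_univ, true_and] at hA ⊢
        have h1 := htA A
        rw [if_neg (by rw [hA.1]; exact Bool.false_ne_true)] at h1
        have h2 : t + t' ≡ T [MOD k A] := ht'.of_dvd (hkM A)
        have h3 : k A ∣ t := (Nat.modEq_zero_iff_dvd).1 h1
        exact (h2.dvd_iff dvd_rfl).1 (dvd_add h3 hA.2)

end Crest.Agent.R320.LN_431
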