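import Mathlib

/-! Leaf U1 (`level_names`) of post #13151: error-tolerant level names, pure CRT. -/

namespace Crest.Agent.R320.LN_648

open Finset

/-- counting: the functions with a prescribed pattern on `s` are at least a `2^|s|`-th part -/
theorem pattern {X : Type} [Fintype X] [DecidableEq X] (s : Finset X) (p : X → Bool) :
    Fintype.card (X → Bool) ≤
      (univ.filter (fun A : X → Bool => ∀ x ∈ s, A x = p x)).card * 2 ^ s.card := by
  classical
  let F : (X → Bool) → (X → Bool) × (s → Bool) :=
    fun A => (fun x => if x ∈ s then p x else A x, fun x => A x.1)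
  have hF : Function.Injective F := by
    intro A A' h
    have h1 := congrArg Prod.fst h
    have h2 := congrArg Prod.snd h
    funext x
    by_cases hx : x ∈ s
    · exact congrFun h2 ⟨x, hx⟩
    · have := congrFun h1 x
      simpa [F, hx] using this
  have h3 : (univ.image F).card ≤
      ((univ.filter (fun A : X → Bool => ∀ x ∈ s, A x = p x)) ×ˢ
        (univ : Finset (s → Bool))).card := by
    apply card_le_card
    intro z hz
    obtain ⟨A, _, rfl⟩ := mem_image.1 hz
    simp only [mem_product, mem_filter, mem_univ, true_and, and_true, F]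
    intro x hx
    simp [hx]
  rw [card_image_of_injective _ hF, card_product] at h3
  simpa using h3

theorem level_names (N : Type) [Finite N] : ∃ ρ : ℕ, 0 < ρ ∧ ∀ B : ℕ, ∃ (Ms : Finset ℕ) (M : ℕ)
    (nmL nmR : ℕ → Option N), Ms.card ≤ 32*ρ ∧ (∀ k ∈ Ms, B < k ∧ Nat.Prime k ∧ k ∣ M) ∧ 0 < M ∧
    (∀ t, nmL (t+M) = nmL t) ∧ (∀ t, nmR (t+M) = nmR t) ∧
    (∀ t t' c, nmL t = some c → nmR t' = some c → (Ms.filter (· ∣ t+t')).card < 2*ρ) ∧
    (∀ t t' c c', nmL t = some c → nmR t' = some c' → c ≠ c' →
      2*ρ ≤ (Ms.filter (· ∣ t+t')).card) ∧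
    (∀ t₁ t₁' t₂ t₂' c₁ c₁' c₂ c₂', nmL t₁ = some c₁ → nmR t₁' = some c₁' → nmL t₂ = some c₂ →
      nmR t₂' = some c₂' → t₁+t₁' = t₂+t₂' → c₁ ≠ c₁' → c₂ ≠ c₂' →
      (c₂ = c₁ ∧ c₂' = c₁') ∨ (c₂ = c₁' ∧ c₂' = c₁)) ∧
    (∀ T, (Ms.filter (· ∣ T)).card < ρ → ∀ c, ∃ t < M, nmL t = some c ∧
      ∀ t', t+t' ≡ T [MOD M] → nmR t' = some c) := by
  classical
  have : Fintype N := Fintype.ofFinite N
  obtain ⟨X, ι, _, _, hι, hcard⟩ : ∃ (X : Type) (ι : N → X) (_ : Fintype X) (_ : DecidableEq X),
      Function.Injective ι ∧ Fintype.card X = Fintype.card N + 6 :=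
    ⟨N ⊕ Fin 6, Sum.inl, inferInstance, inferInstance, Sum.inl_injective, by simp⟩
  let D := X → Bool
  let ρ : ℕ := 2 ^ (Fintype.card N + 1)
  have hD : Fintype.card D = 32 * ρ := by
    simp only [D, ρ, Fintype.card_fun, Fintype.card_bool, hcard]
    rw [show Fintype.card N + 6 = 5 + (Fintype.card N + 1) by ring, pow_add]
    norm_num
  have hρ : 0 < ρ := by positivity
  refine ⟨ρ, hρ, fun B => ?_⟩
  have hinf : Set.Infinite {p : ℕ | B < p ∧ p.Prime} := by
    rw [Set.infinite_iff_exists_gt]
    · intro a
      obtain ⟨p, hp, hpp⟩ := Nat.exists_infinite_primes (a + B + 1)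
      exact ⟨p, ⟨by omega, hpp⟩, by omega⟩
  let emb := hinf.natEmbedding
  let k : D → ℕ := fun A => (emb (Fintype.equivFin D A)).1
  have hk : Function.Injective k := by
    intro A A' h
    have := emb.injective (Subtype.ext h)
    exact (Fintype.equivFin D).injective (Fin.ext this)
  have hkB : ∀ A, B < k A := fun A => (emb (Fintype.equivFin D A)).2.1
  have hkP : ∀ A, (k A).Prime := fun A => (emb (Fintype.equivFin D A)).2.2
  let M : ℕ := ∏ A : D, k A
  have hkM : ∀ A, k A ∣ M := fun A => dvd_prod_of_mem k (mem_univ A)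
  have hM : 0 < M := prod_pos (fun A _ => (hkP A).pos)
  let LC : N → ℕ → Prop := fun c t => (∀ A : D, A (ι c) = false → k A ∣ t) ∧
    (univ.filter (fun A : D => A (ι c) = true ∧ k A ∣ t)).card < ρ
  let RC : N → ℕ → Prop := fun c t => (∀ A : D, A (ι c) = true → k A ∣ t) ∧
    (univ.filter (fun A : D => A (ι c) = false ∧ k A ∣ t)).card < ρ
  -- two-point pattern
  have two : ∀ (c c' : N) (b b' : Bool), c ≠ c' →
      8 * ρ ≤ (univ.filter (fun A : D => A (ι c) = b ∧ A (ι c') = b')).card := by
    intro c c' b b' hcc
    have h := pattern ({ι c, ι c'} : Finset X)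
      (fun x => if x = ι c then b else b')
    have hc2 : ({ι c, ι c'} : Finset X).card = 2 := by
      rw [card_pair]; intro h; exact hcc (hι h)
    rw [hc2] at h
    have h2 : (univ.filter (fun A : X → Bool => ∀ x ∈ ({ι c, ι c'} : Finset X),
        A x = (fun x => if x = ι c then b else b') x)).card ≤
        (univ.filter (fun A : D => A (ι c) = b ∧ A (ι c') = b')).card := by
      apply card_le_card
      intro A hA
      simp only [mem_filter, mem_univ, true_and, mem_insert, mem_singleton] at hA ⊢
      refine ⟨?_, ?_⟩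
      · simpa using hA _ (Or.inl rfl)
      · have := hA _ (Or.inr rfl)
        have hne : (ι c') ≠ ι c := fun h => hcc (hι h).symm
        simpa [hne] using this
    have hD' : Fintype.card (X → Bool) = 32 * ρ := hD
    rw [hD'] at h
    have h5 := h.trans (Nat.mul_le_mul_right _ h2)
    omega
  have Luniq : ∀ c c' t, LC c t → LC c' t → c = c' := by
    intro c c' t h h'
    by_contra hne
    have h1 := two c c' true false hne
    have h2 : (univ.filter (fun A : D => A (ι c) = true ∧ A (ι c') = false)).card ≤
        (univ.filter (fun A : D => A (ι c) = true ∧ k A ∣ t)).card := by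
      apply card_le_card
      intro A hA
      simp only [mem_filter, mem_univ, true_and] at hA ⊢
      exact ⟨hA.1, h'.1 A hA.2⟩
    have h3 := h.2
    omega
  have Runiq : ∀ c c' t, RC c t → RC c' t → c = c' := by
    intro c c' t h h'
    by_contra hne
    have h1 := two c c' false true hne
    have h2 : (univ.filter (fun A : D => A (ι c) = false ∧ A (ι c') = true)).card ≤
        (univ.filter (fun A : D => A (ι c) = false ∧ k A ∣ t)).card := by
      apply card_le_card
      intro A hA
      simp only [mem_filter, mem_univ, true_and] at hA ⊢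
      exact ⟨hA.1, h'.1 A hA.2⟩
    have h3 := h.2
    omega
  let nmL : ℕ → Option N := fun t => if h : ∃ c, LC c t then some h.choose else none
  let nmR : ℕ → Option N := fun t => if h : ∃ c, RC c t then some h.choose else none
  have hL : ∀ t c, nmL t = some c ↔ LC c t := by
    intro t c
    constructor
    · intro h
      by_cases hh : ∃ c, LC c t
      · have h' : nmL t = some hh.choose := by simp [nmL, hh]
        rw [h'] at h
        have := Option.some.inj h
        rw [← this]; exact hh.choose_spec
      · have h' : nmL t = none := by simp only [nmL]; rw [dif_neg hh]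
        rw [h'] at h; cases h
    · intro h
      have hh : ∃ c, LC c t := ⟨c, h⟩
      have h' : nmL t = some hh.choose := by simp only [nmL]; rw [dif_pos hh]
      rw [h', Luniq _ _ _ hh.choose_spec h]
  have hR : ∀ t c, nmR t = some c ↔ RC c t := by
    intro t c
    constructor
    · intro h
      by_cases hh : ∃ c, RC c t
      · have h' : nmR t = some hh.choose := by simp only [nmR]; rw [dif_pos hh]
        rw [h'] at h
        have := Option.some.inj h
        rw [← this]; exact hh.choose_spec
      · have h' : nmR t = none := by simp only [nmR]; rw [dif_neg hh]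
        rw [h'] at h; cases h
    · intro h
      have hh : ∃ c, RC c t := ⟨c, h⟩
      have h' : nmR t = some hh.choose := by simp only [nmR]; rw [dif_pos hh]
      rw [h', Runiq _ _ _ hh.choose_spec h]
  have hper : ∀ A t, k A ∣ t + M ↔ k A ∣ t := fun A t => Nat.dvd_add_left (hkM A)
  have hMs : ∀ T, ((univ.image k).filter (· ∣ T)).card =
      (univ.filter (fun A : D => k A ∣ T)).card := by
    intro T
    rw [filter_image, card_image_of_injective _ hk]
  -- error count: divisors of t+t' among the `A` with A c = A c'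
  have err : ∀ c c' t t', LC c t → RC c' t' →
      (univ.filter (fun A : D => A (ι c) = A (ι c') ∧ k A ∣ t + t')).card < 2*ρ := by
    intro c c' t t' h h'
    have h1 : (univ.filter (fun A : D => A (ι c) = A (ι c') ∧ k A ∣ t + t')).card ≤
        ((univ.filter (fun A : D => A (ι c) = true ∧ k A ∣ t)) ∪
         (univ.filter (fun A : D => A (ι c') = false ∧ k A ∣ t'))).card := by
      apply card_le_card
      intro A hA
      simp only [mem_filter, mem_univ, true_and, mem_union] at hA ⊢
      obtain ⟨e1, e2⟩ := hA
      cases hb : A (ι c) with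
      | false =>
        right
        rw [hb] at e1
        exact ⟨e1.symm, (Nat.dvd_add_right (h.1 A hb)).1 e2⟩
      | true =>
        left
        rw [hb] at e1
        exact ⟨rfl, (Nat.dvd_add_left (h'.1 A e1.symm)).1 e2⟩
    have h2 := card_union_le (univ.filter (fun A : D => A (ι c) = true ∧ k A ∣ t))
      (univ.filter (fun A : D => A (ι c') = false ∧ k A ∣ t'))
    have h3 := h.2
    have h4 := h'.2
    omega
  refine ⟨univ.image k, M, nmL, nmR, ?_, ?_, hM, ?_, ?_, ?_, ?_, ?_, ?_⟩
  · rw [card_image_of_injective _ hk, card_univ, hD]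
  · intro x hx
    obtain ⟨A, _, rfl⟩ := mem_image.1 hx
    exact ⟨hkB A, hkP A, hkM A⟩
  · intro t
    have : ∀ c, LC c (t+M) ↔ LC c t := by
      intro c; simp only [LC, hper]
    apply Option.ext
    intro c
    exact ((hL (t+M) c).trans (this c)).trans (hL t c).symm
  · intro t
    have : ∀ c, RC c (t+M) ↔ RC c t := by
      intro c; simp only [RC, hper]
    apply Option.ext
    intro c
    exact ((hR (t+M) c).trans (this c)).trans (hR t c).symm
  · intro t t' c h h'
    rw [hL] at h; rw [hR] at h'
    rw [hMs]
    have := err c c t t' h h'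
    simpa using this
  · intro t t' c c' h h' hne
    rw [hL] at h; rw [hR] at h'
    rw [hMs]
    have h1 := two c c' false true hne
    have h2 : (univ.filter (fun A : D => A (ι c) = false ∧ A (ι c') = true)).card ≤
        (univ.filter (fun A : D => k A ∣ t + t')).card := by
      apply card_le_card
      intro A hA
      simp only [mem_filter, mem_univ, true_and] at hA ⊢
      exact dvd_add (h.1 A hA.1) (h'.1 A hA.2)
    omega
  · intro t₁ t₁' t₂ t₂' c₁ c₁' c₂ c₂' a1 a1' a2 a2' hT hne1 hne2
    rw [hL] at a1 a2; rw [hR] at a1' a2'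
    by_contra hcon
    have he := err c₂ c₂' t₂ t₂' a2 a2'
    rw [← hT] at he
    -- pattern
    let b : Bool := if c₂ = c₁ ∨ c₂' = c₁ then false else if c₂ = c₁' ∨ c₂' = c₁' then true
      else false
    let p : X → Bool := fun x => if x = ι c₁ then false else if x = ι c₁' then true
      else b
    have hp1 : p (ι c₁) = false := by simp [p]
    have hp1' : p (ι c₁') = true := by
      have : (ι c₁') ≠ ι c₁ := fun h => hne1 (hι h).symm
      simp [p, this]
    have hp2 : p (ι c₂) = p (ι c₂') := by
      simp only [p, b, hι.eq_iff]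
      by_cases e1 : c₂ = c₁
      · subst e1
        have n1 : c₂' ≠ c₂ := fun h => hne2 h.symm
        have n2 : c₂' ≠ c₁' := fun h => hcon (Or.inl ⟨rfl, h⟩)
        simp [n1, n2]
      · by_cases e2 : c₂ = c₁'
        · subst e2
          have n1 : c₂' ≠ c₂ := fun h => hne2 h.symm
          have n2 : c₂' ≠ c₁ := fun h => hcon (Or.inr ⟨rfl, h⟩)
          simp [n1, n2, e1]
        · by_cases e3 : c₂' = c₁
          · simp [e1, e2, e3]
          · by_cases e4 : c₂' = c₁'
            · have h5 : c₁' ≠ c₁ := fun h => hne1 h.symm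
              simp [e1, e2, e4, h5]
            · simp [e1, e2, e3, e4]
    have h := pattern ({ι c₁, ι c₁', ι c₂, ι c₂'} : Finset X) p
    have hc4 : ({ι c₁, ι c₁', ι c₂, ι c₂'} : Finset X).card ≤ 4 :=
      card_le_four
    have h2 : (univ.filter (fun A : X → Bool =>
        ∀ x ∈ ({ι c₁, ι c₁', ι c₂, ι c₂'} : Finset X),
        A x = p x)).card ≤ (univ.filter (fun A : D => A (ι c₂) = A (ι c₂') ∧
          k A ∣ t₁ + t₁')).card := by
      apply card_le_card
      intro A hA
      simp only [mem_filter, mem_univ, true_and, mem_insert, mem_singleton] at hA ⊢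
      have g1 := hA (ι c₁) (by simp)
      have g1' := hA (ι c₁') (by simp)
      have g2 := hA (ι c₂) (by simp)
      have g2' := hA (ι c₂') (by simp)
      refine ⟨by rw [g2, g2', hp2], ?_⟩
      exact dvd_add (a1.1 A (g1.trans hp1)) (a1'.1 A (g1'.trans hp1'))
    have hpow : 2 ^ ({ι c₁, ι c₁', ι c₂, ι c₂'} : Finset X).card ≤ 2 ^ 4 :=
      Nat.pow_le_pow_right (by norm_num) hc4
    have hD' : Fintype.card (X → Bool) = 32 * ρ := hD
    rw [hD'] at h
    have h6 := h.trans (Nat.mul_le_mul h2 hpow)
    norm_num at h6
    omega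
  · intro T hT c
    rw [hMs] at hT
    let a : D → ℕ := fun A => if A (ι c) = true then T else 0
    have hcop : Set.Pairwise ((univ : Finset D) : Set D) (Function.onFun Nat.Coprime k) := by
      intro A _ A' _ hne
      exact (Nat.coprime_primes (hkP A) (hkP A')).2 (fun h => hne (hk h))
    let t := Nat.chineseRemainderOfFinset a k univ (fun A _ => (hkP A).ne_zero) hcop
    have ht : ∀ A, t.1 ≡ a A [MOD k A] := fun A => t.2 A (mem_univ A)
    have htlt : t.1 < M := Nat.chineseRemainderOfFinset_lt_prod a k (fun A _ => (hkP A).ne_zero) hcop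
    have h1 : ∀ A, A (ι c) = true → t.1 ≡ T [MOD k A] := by
      intro A hA
      have := ht A
      simpa [a, hA] using this
    have h0 : ∀ A, A (ι c) = false → k A ∣ t.1 := by
      intro A hA
      have := ht A
      simp only [a, hA] at this
      exact (Nat.modEq_zero_iff_dvd).1 (by simpa using this)
    refine ⟨t.1, htlt, ?_, ?_⟩
    · rw [hL]
      refine ⟨h0, ?_⟩
      refine lt_of_le_of_lt (card_le_card ?_) hT
      intro A hA
      simp only [mem_filter, mem_univ, true_and] at hA ⊢
      exact ((h1 A hA.1).dvd_iff dvd_rfl).1 hA.2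
    · intro t' ht'
      rw [hR]
      refine ⟨?_, ?_⟩
      · intro A hA
        have e1 : t.1 + t' ≡ T [MOD k A] := ht'.of_dvd (hkM A)
        have e2 := h1 A hA
        have e3 : t.1 + t' ≡ t.1 + 0 [MOD k A] := e1.trans (by simpa using e2.symm)
        have e4 := Nat.ModEq.add_left_cancel' t.1 e3
        exact (Nat.modEq_zero_iff_dvd).1 e4
      · refine lt_of_le_of_lt (card_le_card ?_) hT
        intro A hA
        simp only [mem_filter, mem_univ, true_and] at hA ⊢
        have e1 : t.1 + t' ≡ T [MOD k A] := ht'.of_dvd (hkM A)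
        have e2 : k A ∣ t.1 + t' := dvd_add (h0 A hA.1) hA.2
        exact (e1.dvd_iff dvd_rfl).1 e2

end Crest.Agent.R320.LN_648
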