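import Mathlib

/-! Row 320, leaf U1 (level names with errors), helper759. -/

namespace Crest.Agent.R320.LN759

open Finset

section Count

variable {P : Type} [Fintype P] [DecidableEq P]

/-- functions with at most four prescribed values: at least a sixteenth -/
lemma card_prescribed (Q : Finset P) (hQ : Q.card ≤ 4) (f : P → Bool) :
    2 ^ Fintype.card P ≤ 16 * (univ.filter (fun A : P → Bool => ∀ x ∈ Q, A x = f x)).card := by
  classical
  have h1 : (univ.filter (fun A : P → Bool => ∀ x ∈ Q, A x = f x))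
      = Fintype.piFinset (fun x => if x ∈ Q then ({f x} : Finset Bool) else univ) := by
    ext A
    simp only [mem_filter, mem_univ, true_and, Fintype.mem_piFinset]
    constructor
    · intro h x
      by_cases hx : x ∈ Q
      · simp [hx, h x hx]
      · simp [hx]
    · intro h x hx
      have := h x
      simpa [hx] using this
  rw [h1, Fintype.card_piFinset]
  have h2 : ∀ x : P, (if x ∈ Q then ({f x} : Finset Bool) else univ).card = if x ∈ Q then 1 else 2 := by
    intro x
    by_cases hx : x ∈ Q <;> simp [hx]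
  rw [Finset.prod_congr rfl (fun x _ => h2 x)]
  have h3 : (∏ x : P, if x ∈ Q then (2:ℕ) else 1) = 2 ^ Q.card := by
    rw [Finset.prod_ite_mem]
    simp
  have h4 : (∏ x : P, if x ∈ Q then (2:ℕ) else 1) * (∏ x : P, if x ∈ Q then (1:ℕ) else 2)
      = 2 ^ Fintype.card P := by
    rw [← Finset.prod_mul_distrib]
    rw [Finset.prod_congr rfl (fun x _ => (by split_ifs <;> norm_num :
      (if x ∈ Q then (2:ℕ) else 1) * (if x ∈ Q then (1:ℕ) else 2) = 2))]
    simp
  rw [← h4, h3]
  have h5 : 2 ^ Q.card ≤ 16 := by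
    calc 2 ^ Q.card ≤ 2 ^ 4 := Nat.pow_le_pow_right (by norm_num) hQ
      _ = 16 := by norm_num
  exact Nat.mul_le_mul_right _ h5

end Count

section Main

variable {N D : Type} [Fintype D] [DecidableEq D]

/-- abstract version: `D` indexes the primes, `b A c` is the bit of `c` in `A` -/
lemma abstract_names (b : D → N → Bool) (ρ : ℕ) (_hρ : 0 < ρ)
    (hcard : Fintype.card D ≤ 32 * ρ)
    (h2 : ∀ c c' : N, c ≠ c' →
      2 * ρ ≤ (univ.filter (fun A : D => b A c = false ∧ b A c' = true)).card)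
    (h3 : ∀ c₁ c₁' c₂ c₂' : N, c₁ ≠ c₁' → c₂ ≠ c₂' →
      ¬ ((c₂ = c₁ ∧ c₂' = c₁') ∨ (c₂ = c₁' ∧ c₂' = c₁)) →
      2 * ρ ≤ (univ.filter (fun A : D => b A c₁ = false ∧ b A c₁' = true ∧ b A c₂ = b A c₂')).card)
    (k : D → ℕ) (hkinj : Function.Injective k) (hkp : ∀ A, (k A).Prime) (B : ℕ) (hkB : ∀ A, B < k A) :
    ∃ (Ms : Finset ℕ) (M : ℕ) (nmL nmR : ℕ → Option N), Ms.card ≤ 32*ρ ∧ (∀ k ∈ Ms, B < k ∧ Nat.Prime k ∧ k ∣ M) ∧ 0 < M ∧ (∀ t, nmL (t+M) = nmL t) ∧ (∀ t, nmR (t+M) = nmR t) ∧ (∀ t t' c, nmL t = some c → nmR t' = some c → (Ms.filter (· ∣ t+t')).card < 2*ρ) ∧ (∀ t t' c c', nmL t = some c → nmR t' = some c' → c ≠ c' → 2*ρ ≤ (Ms.filter (· ∣ t+t')).card) ∧ (∀ t₁ t₁' t₂ t₂' c₁ c₁' c₂ c₂', nmL t₁ = some c₁ → nmR t₁' = some c₁' → nmL t₂ = some c₂ → nmR t₂' = some c₂' → t₁+t₁' = t₂+t₂' → c₁ ≠ c₁' → c₂ ≠ c₂' → (c₂ = c₁ ∧ c₂' = c₁') ∨ (c₂ = c₁' ∧ c₂' = c₁)) ∧ (∀ T, (Ms.filter (· ∣ T)).card < ρ → ∀ c, ∃ t < M, nmL t = some c ∧ ∀ t', t+t' ≡ T [MOD M] → nmR t' = some c) := by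
  classical
  set Ms : Finset ℕ := univ.image k with hMs
  set M : ℕ := ∏ A : D, k A with hM
  have hkM : ∀ A, k A ∣ M := fun A => Finset.dvd_prod_of_mem k (mem_univ A)
  have hMpos : 0 < M := Finset.prod_pos (fun A _ => (hkp A).pos)
  have hcnt : ∀ T, (Ms.filter (· ∣ T)).card = (univ.filter (fun A : D => k A ∣ T)).card := by
    intro T
    have : Ms.filter (· ∣ T) = (univ.filter (fun A : D => k A ∣ T)).image k := by
      ext x
      simp only [hMs, mem_filter, mem_image, mem_univ, true_and]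
      constructor
      · rintro ⟨⟨A, rfl⟩, h⟩
        exact ⟨A, h, rfl⟩
      · rintro ⟨A, h, rfl⟩
        exact ⟨⟨A, rfl⟩, h⟩
    rw [this, Finset.card_image_of_injective _ hkinj]
  -- carriers
  let CL : ℕ → N → Prop := fun t c => (∀ A, b A c = false → k A ∣ t) ∧
    (univ.filter (fun A : D => b A c = true ∧ k A ∣ t)).card < ρ
  let CR : ℕ → N → Prop := fun t c => (∀ A, b A c = true → k A ∣ t) ∧
    (univ.filter (fun A : D => b A c = false ∧ k A ∣ t)).card < ρ
  have CLu : ∀ t c c', CL t c → CL t c' → c = c' := by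
    intro t c c' h h'
    by_contra hne
    have h1 := h2 c' c (Ne.symm hne)
    have h4 : (univ.filter (fun A : D => b A c' = false ∧ b A c = true)).card
        ≤ (univ.filter (fun A : D => b A c = true ∧ k A ∣ t)).card := by
      apply Finset.card_le_card
      intro A hA
      simp only [mem_filter, mem_univ, true_and] at hA ⊢
      exact ⟨hA.2, h'.1 A hA.1⟩
    have := h.2
    omega
  have CRu : ∀ t c c', CR t c → CR t c' → c = c' := by
    intro t c c' h h'
    by_contra hne
    have h1 := h2 c c' hne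
    have h4 : (univ.filter (fun A : D => b A c = false ∧ b A c' = true)).card
        ≤ (univ.filter (fun A : D => b A c = false ∧ k A ∣ t)).card := by
      apply Finset.card_le_card
      intro A hA
      simp only [mem_filter, mem_univ, true_and] at hA ⊢
      exact ⟨hA.1, h'.1 A hA.2⟩
    have := h.2
    omega
  have hper : ∀ t A, k A ∣ t + M ↔ k A ∣ t := fun t A => (Nat.dvd_add_iff_left (hkM A)).symm
  have CLp : ∀ t, CL (t + M) = CL t := by
    intro t
    funext c
    simp only [CL, hper]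
  have CRp : ∀ t, CR (t + M) = CR t := by
    intro t
    funext c
    simp only [CR, hper]
  let nmOf : (N → Prop) → Option N := fun p => if h : ∃ c, p c then some h.choose else none
  have nm_some : ∀ p c, nmOf p = some c → p c := by
    intro p c h
    by_cases hp : ∃ c, p c
    · have : nmOf p = some hp.choose := by simp only [nmOf]; rw [dif_pos hp]
      rw [this] at h
      have h' := Option.some.inj h
      rw [← h']
      exact hp.choose_spec
    · have : nmOf p = none := by simp only [nmOf]; rw [dif_neg hp]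
      rw [this] at h
      cases h
  have nm_of : ∀ p c, p c → (∀ c', p c' → c' = c) → nmOf p = some c := by
    intro p c h hu
    have hp : ∃ c, p c := ⟨c, h⟩
    have : nmOf p = some hp.choose := by simp only [nmOf]; rw [dif_pos hp]
    rw [this, hu _ hp.choose_spec]
  refine ⟨Ms, M, fun t => nmOf (CL t), fun t => nmOf (CR t), ?_, ?_, hMpos, ?_, ?_, ?_, ?_, ?_, ?_⟩
  · rw [hMs]
    exact (Finset.card_image_le).trans (by simpa using hcard)
  · intro x hx
    rw [hMs, mem_image] at hx
    obtain ⟨A, _, rfl⟩ := hx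
    exact ⟨hkB A, hkp A, hkM A⟩
  · intro t
    simp only [CLp]
  · intro t
    simp only [CRp]
  · intro t t' c h h'
    have hL := nm_some _ _ h
    have hR := nm_some _ _ h'
    rw [hcnt]
    have hsub : (univ.filter (fun A : D => k A ∣ t + t')) ⊆
        (univ.filter (fun A : D => b A c = true ∧ k A ∣ t)) ∪
        (univ.filter (fun A : D => b A c = false ∧ k A ∣ t')) := by
      intro A hA
      simp only [mem_filter, mem_univ, true_and, mem_union] at hA ⊢
      rcases Bool.eq_false_or_eq_true (b A c) with hb | hb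
      · left
        exact ⟨hb, (Nat.dvd_add_iff_left (hR.1 A hb)).mpr hA⟩
      · right
        exact ⟨hb, (Nat.dvd_add_iff_right (hL.1 A hb)).mpr hA⟩
    have h5 := Finset.card_le_card hsub
    have h6 := Finset.card_union_le (univ.filter (fun A : D => b A c = true ∧ k A ∣ t))
        (univ.filter (fun A : D => b A c = false ∧ k A ∣ t'))
    have h7 := hL.2
    have h8 := hR.2
    omega
  · intro t t' c c' h h' hne
    have hL := nm_some _ _ h
    have hR := nm_some _ _ h'
    rw [hcnt]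
    refine (h2 c c' hne).trans (Finset.card_le_card ?_)
    intro A hA
    simp only [mem_filter, mem_univ, true_and] at hA ⊢
    exact dvd_add (hL.1 A hA.1) (hR.1 A hA.2)
  · intro t₁ t₁' t₂ t₂' c₁ c₁' c₂ c₂' hl1 hr1 hl2 hr2 hsum hne1 hne2
    have hL1 := nm_some _ _ hl1
    have hR1 := nm_some _ _ hr1
    have hL2 := nm_some _ _ hl2
    have hR2 := nm_some _ _ hr2
    by_contra hcon
    have h5 := h3 c₁ c₁' c₂ c₂' hne1 hne2 hcon
    have hsub : (univ.filter (fun A : D => b A c₁ = false ∧ b A c₁' = true ∧ b A c₂ = b A c₂')) ⊆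
        (univ.filter (fun A : D => b A c₂ = true ∧ k A ∣ t₂)) ∪
        (univ.filter (fun A : D => b A c₂' = false ∧ k A ∣ t₂')) := by
      intro A hA
      simp only [mem_filter, mem_univ, true_and, mem_union] at hA ⊢
      obtain ⟨ha, hb, hc⟩ := hA
      have hd : k A ∣ t₂ + t₂' := hsum ▸ dvd_add (hL1.1 A ha) (hR1.1 A hb)
      rcases Bool.eq_false_or_eq_true (b A c₂) with hb2 | hb2
      · left
        exact ⟨hb2, (Nat.dvd_add_iff_left (hR2.1 A (hc ▸ hb2))).mpr hd⟩
      · right
        exact ⟨hc ▸ hb2, (Nat.dvd_add_iff_right (hL2.1 A hb2)).mpr hd⟩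
    have h6 := Finset.card_le_card hsub
    have h7 := Finset.card_union_le (univ.filter (fun A : D => b A c₂ = true ∧ k A ∣ t₂))
        (univ.filter (fun A : D => b A c₂' = false ∧ k A ∣ t₂'))
    have h8 := hL2.2
    have h9 := hR2.2
    omega
  · intro T hT c
    rw [hcnt] at hT
    have hpw : Set.Pairwise (↑(univ : Finset D) : Set D) (Function.onFun Nat.Coprime k) := by
      intro A _ A' _ hAA'
      exact (Nat.coprime_primes (hkp A) (hkp A')).mpr (fun h => hAA' (hkinj h))
    have hne : ∀ A ∈ (univ : Finset D), k A ≠ 0 := fun A _ => (hkp A).ne_zero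
    let cr := Nat.chineseRemainderOfFinset (fun A => if b A c = true then T else 0) k univ hne hpw
    have hcr : ∀ A, (cr : ℕ) ≡ (if b A c = true then T else 0) [MOD k A] :=
      fun A => cr.2 A (mem_univ A)
    have hlt : (cr : ℕ) < M := Nat.chineseRemainderOfFinset_lt_prod _ _ hne hpw
    have ht1 : ∀ A, b A c = true → ((cr : ℕ) ≡ T [MOD k A]) := by
      intro A hA
      have := hcr A
      rwa [if_pos hA] at this
    have ht0 : ∀ A, b A c = false → k A ∣ (cr : ℕ) := by
      intro A hA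
      have := hcr A
      rw [if_neg (by simp [hA])] at this
      exact (Nat.modEq_zero_iff_dvd).mp this
    have hCL : CL cr c := by
      refine ⟨ht0, lt_of_le_of_lt (Finset.card_le_card ?_) hT⟩
      intro A hA
      simp only [mem_filter, mem_univ, true_and] at hA ⊢
      have h5 := ht1 A hA.1
      exact (h5.dvd_iff (dvd_refl _)).mp hA.2
    refine ⟨cr, hlt, nm_of _ _ hCL (fun c' h' => CLu _ _ _ h' hCL), ?_⟩
    intro t' ht'
    have hCR : CR t' c := by
      refine ⟨?_, lt_of_le_of_lt (Finset.card_le_card ?_) hT⟩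
      · intro A hA
        have h5 : (cr : ℕ) + t' ≡ T [MOD k A] := ht'.of_dvd (hkM A)
        have h6 : (cr : ℕ) + t' ≡ (cr : ℕ) + 0 [MOD k A] := by
          simpa using h5.trans (ht1 A hA).symm
        exact (Nat.modEq_zero_iff_dvd).mp (Nat.ModEq.add_left_cancel' _ h6)
      · intro A hA
        simp only [mem_filter, mem_univ, true_and] at hA ⊢
        have h5 : (cr : ℕ) + t' ≡ T [MOD k A] := ht'.of_dvd (hkM A)
        exact (h5.dvd_iff (dvd_refl _)).mp (dvd_add (ht0 A hA.1) hA.2)
    exact nm_of _ _ hCR (fun c' h' => CRu _ _ _ h' hCR)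

end Main

/-- infinitely many primes: an injective family of primes above `B` -/
lemma exists_primes (D : Type) [Finite D] (B : ℕ) :
    ∃ k : D → ℕ, Function.Injective k ∧ (∀ A, (k A).Prime) ∧ ∀ A, B < k A := by
  classical
  have hinf : Set.Infinite {p : ℕ | p.Prime ∧ B < p} := by
    rw [Set.infinite_iff_exists_gt]
    intro n
    obtain ⟨p, hp1, hp2⟩ := Nat.exists_infinite_primes (max n B + 1)
    refine ⟨p, ⟨hp2, ?_⟩, ?_⟩ <;> omega
  haveI : Infinite {p : ℕ | p.Prime ∧ B < p} := hinf.to_subtype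
  haveI := Fintype.ofFinite D
  obtain ⟨e⟩ : Nonempty (D ≃ Fin (Fintype.card D)) := ⟨Fintype.equivFin D⟩
  let em := Infinite.natEmbedding {p : ℕ | p.Prime ∧ B < p}
  refine ⟨fun A => (em (e A : ℕ) : ℕ), ?_, ?_, ?_⟩
  · intro A A' h
    have h1 : em (e A : ℕ) = em (e A' : ℕ) := Subtype.ext h
    have h2 := em.injective h1
    exact e.injective (Fin.ext h2)
  · intro A
    exact (em (e A : ℕ)).2.1
  · intro A
    exact (em (e A : ℕ)).2.2

theorem level_names (N : Type) [Finite N] : ∃ ρ : ℕ, 0 < ρ ∧ ∀ B : ℕ, ∃ (Ms : Finset ℕ) (M : ℕ) (nmL nmR : ℕ → Option N), Ms.card ≤ 32*ρ ∧ (∀ k ∈ Ms, B < k ∧ Nat.Prime k ∧ k ∣ M) ∧ 0 < M ∧ (∀ t, nmL (t+M) = nmL t) ∧ (∀ t, nmR (t+M) = nmR t) ∧ (∀ t t' c, nmL t = some c → nmR t' = some c → (Ms.filter (· ∣ t+t')).card < 2*ρ) ∧ (∀ t t' c c', nmL t = some c → nmR t' = some c' → c ≠ c' → 2*ρ ≤ (Ms.filter (· ∣ t+t')).card) ∧ (∀ t₁ t₁' t₂ t₂' c₁ c₁' c₂ c₂', nmL t₁ = some c₁ → nmR t₁' = some c₁' → nmL t₂ = some c₂ → nmR t₂' = some c₂' → t₁+t₁' = t₂+t₂'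 → c₁ ≠ c₁' → c₂ ≠ c₂' → (c₂ = c₁ ∧ c₂' = c₁') ∨ (c₂ = c₁' ∧ c₂' = c₁)) ∧ (∀ T, (Ms.filter (· ∣ T)).card < ρ → ∀ c, ∃ t < M, nmL t = some c ∧ ∀ t', t+t' ≡ T [MOD M] → nmR t' = some c) := by
  classical
  haveI := Fintype.ofFinite N
  let P := N ⊕ Fin 6
  let D := P → Bool
  have hcP : Fintype.card P = Fintype.card N + 6 := by simp [P]
  have hcD : Fintype.card D = 32 * 2 ^ (Fintype.card N + 1) := by
    have : Fintype.card D = 2 ^ Fintype.card P := by simp [D]
    rw [this, hcP]
    ring
  refine ⟨2 ^ (Fintype.card N + 1), by positivity, fun B => ?_⟩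
  obtain ⟨k, hk1, hk2, hk3⟩ := exists_primes D B
  have hpow : 2 ^ Fintype.card P = 32 * 2 ^ (Fintype.card N + 1) := by
    rw [hcP]; ring
  have ine : ∀ x y : N, x ≠ y → (Sum.inl x : P) ≠ Sum.inl y :=
    fun x y h e => h (Sum.inl_injective e)
  refine abstract_names (fun (A : D) (c : N) => A (Sum.inl c)) _ (by positivity) (le_of_eq hcD)
    ?_ ?_ k hk1 hk2 B hk3
  · intro c c' hne
    let Q : Finset P := {Sum.inl c, Sum.inl c'}
    have hQ : Q.card ≤ 4 := (Finset.card_le_two).trans (by norm_num)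
    have h := card_prescribed Q hQ (fun x => if x = Sum.inl c' then true else false)
    have hsub : (univ.filter (fun A : P → Bool => ∀ x ∈ Q, A x = if x = Sum.inl c' then true else false)) ⊆
        (univ.filter (fun A : D => A (Sum.inl c) = false ∧ A (Sum.inl c') = true)) := by
      intro A hA
      simp only [mem_filter, mem_univ, true_and] at hA ⊢
      have e1 := hA (Sum.inl c) (by simp [Q])
      have e2 := hA (Sum.inl c') (by simp [Q])
      rw [if_neg (ine _ _ hne)] at e1
      rw [if_pos rfl] at e2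
      exact ⟨e1, e2⟩
    have h' := Finset.card_le_card hsub
    omega
  · intro c₁ c₁' c₂ c₂' hne1 hne2 hcon
    let Q : Finset P := {Sum.inl c₁, Sum.inl c₁', Sum.inl c₂, Sum.inl c₂'}
    have hQ : Q.card ≤ 4 := Finset.card_le_four
    -- choose the values
    have hval : ∃ f : P → Bool, f (Sum.inl c₁) = false ∧ f (Sum.inl c₁') = true ∧
        f (Sum.inl c₂) = f (Sum.inl c₂') := by
      by_cases hA : c₂ = c₁ ∨ c₂' = c₁
      · -- the other one is not c₁'
        refine ⟨fun x => if x = Sum.inl c₁' then true else false, ?_, ?_, ?_⟩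
        · exact if_neg (ine _ _ hne1)
        · exact if_pos rfl
        · have n1 : c₂ ≠ c₁' := by
            rintro rfl
            rcases hA with hA | hA
            · exact hne1 hA.symm
            · exact hcon (Or.inr ⟨rfl, hA⟩)
          have n2 : c₂' ≠ c₁' := by
            rintro rfl
            rcases hA with hA | hA
            · exact hcon (Or.inl ⟨hA, rfl⟩)
            · exact hne1 hA.symm
          exact (if_neg (ine _ _ n1)).trans (if_neg (ine _ _ n2)).symm
      · push Not at hA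
        refine ⟨fun x => if x = Sum.inl c₁ then false else true, ?_, ?_, ?_⟩
        · exact if_pos rfl
        · exact if_neg (ine _ _ (Ne.symm hne1))
        · exact (if_neg (ine _ _ hA.1)).trans (if_neg (ine _ _ hA.2)).symm
    obtain ⟨f, f1, f2, f3⟩ := hval
    have h := card_prescribed Q hQ f
    have hsub : (univ.filter (fun A : P → Bool => ∀ x ∈ Q, A x = f x)) ⊆
        (univ.filter (fun A : D => A (Sum.inl c₁) = false ∧ A (Sum.inl c₁') = true ∧
          A (Sum.inl c₂) = A (Sum.inl c₂'))) := by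
      intro A hA
      simp only [mem_filter, mem_univ, true_and] at hA ⊢
      have e1 := hA (Sum.inl c₁) (by simp [Q])
      have e2 := hA (Sum.inl c₁') (by simp [Q])
      have e3 := hA (Sum.inl c₂) (by simp [Q])
      have e4 := hA (Sum.inl c₂') (by simp [Q])
      exact ⟨e1.trans f1, e2.trans f2, e3.trans (f3.trans e4.symm)⟩
    have h' := Finset.card_le_card hsub
    omega

end Crest.Agent.R320.LN759
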