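import Mathlib

/-!
# Row 320, LEAF U1 of helper638 #13151: error-tolerant level names (pure CRT).
-/

set_option autoImplicit false

namespace Crest.Agent.R320.LN783

open Finset

section core

variable {N : Type} [Fintype N] [DecidableEq N]

/-- the index set of the primes -/
abbrev D (N : Type) := (N → Bool) × Fin 32


theorem card_le_of_modify (S : Finset (D N)) (F : D N → D N) (k : ℕ)
    (hF : ∀ d, F d ∈ S) (G : D N → Fin k) (hinj : ∀ d d', F d = F d' → G d = G d' → d = d') :
    32 * 2 ^ Fintype.card N ≤ k * S.card := by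
  classical
  have h : Fintype.card (D N) ≤ Fintype.card (Fin k × S) := by
    apply Fintype.card_le_of_injective (fun d : D N => ((G d, ⟨F d, hF d⟩) : Fin k × S))
    intro d d' h
    simp only [Prod.mk.injEq, Subtype.mk.injEq] at h
    exact hinj d d' h.2 h.1
  simp only [Fintype.card_prod, Fintype.card_fin, Fintype.card_coe, D, Fintype.card_fun,
    Fintype.card_bool] at h
  linarith

/-- code of finitely many bits -/
def b4 (a b c d : Bool) : Fin 16 :=
  ⟨a.toNat + 2 * b.toNat + 4 * c.toNat + 8 * d.toNat, by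
    cases a <;> cases b <;> cases c <;> cases d <;> simp⟩

theorem b4_inj {a b c d a' b' c' d' : Bool} (h : b4 a b c d = b4 a' b' c' d') :
    a = a' ∧ b = b' ∧ c = c' ∧ d = d' := by
  revert h
  cases a <;> cases b <;> cases c <;> cases d <;> cases a' <;> cases b' <;> cases c' <;>
    cases d' <;> simp [b4]

/-- count lower bound: `A x = false`, `A y = true`, and `A c = A c'` for a pair different from
`{x, y}`. -/
theorem count4 (x y c c' : N) (hxy : x ≠ y) (hne : c ≠ c')
    (hp : ¬ ((x = c ∧ y = c') ∨ (x = c' ∧ y = c))) :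
    2 * 2 ^ Fintype.card N ≤
      (univ.filter fun d : D N => d.1 x = false ∧ d.1 y = true ∧ d.1 c = d.1 c').card := by
  classical
  let F : D N → D N := fun d => (fun n => if n = x then false else if n = y then true else
    if n = c ∨ n = c' then (if c = x ∨ c' = x then false else true) else d.1 n, d.2)
  have h := card_le_of_modify
    (univ.filter fun d : D N => d.1 x = false ∧ d.1 y = true ∧ d.1 c = d.1 c') F 16 ?_
    (fun d => b4 (d.1 x) (d.1 y) (d.1 c) (d.1 c')) ?_
  · omega
  · intro d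
    rw [mem_filter]
    refine ⟨mem_univ _, ?_, ?_, ?_⟩
    · simp [F]
    · simp [F, hxy.symm]
    · push Not at hp
      simp only [F]
      by_cases h1 : c = x
      · subst h1
        have h2 : c' ≠ c := hne.symm
        have h3 : c' ≠ y := fun e => hp.1 rfl e.symm
        simp [h2, h3]
      · by_cases h2 : c' = x
        · subst h2
          have h3 : c ≠ y := fun e => hp.2 rfl e.symm
          simp [h1, h3]
        · by_cases h3 : c = y
          · subst h3
            simp [h1, h2]
          · by_cases h4 : c' = y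
            · subst h4
              simp [h1, h2]
            · simp [h1, h2, h3, h4]
  · rintro ⟨A, i⟩ ⟨A', i'⟩ hF hG
    obtain ⟨e1, e2, e3, e4⟩ := b4_inj hG
    simp only [F, Prod.mk.injEq] at hF
    obtain ⟨hf, rfl⟩ := hF
    refine Prod.ext (funext fun n => ?_) rfl
    have hn := congrFun hf n
    simp only at hn e1 e2 e3 e4 ⊢
    by_cases h1 : n = x
    · rw [h1]; exact e1
    · by_cases h2 : n = y
      · rw [h2]; exact e2
      · by_cases h3 : n = c
        · rw [h3]; exact e3
        · by_cases h4 : n = c'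
          · rw [h4]; exact e4
          · simpa [h1, h2, h3, h4] using hn

/-- count lower bound for two different names. -/
theorem count2 (x y : N) (hxy : x ≠ y) :
    2 * 2 ^ Fintype.card N ≤
      (univ.filter fun d : D N => d.1 x = false ∧ d.1 y = true).card := by
  classical
  let F : D N → D N := fun d => (fun n => if n = x then false else if n = y then true else d.1 n,
    d.2)
  have h := card_le_of_modify
    (univ.filter fun d : D N => d.1 x = false ∧ d.1 y = true) F 16 ?_
    (fun d => b4 (d.1 x) (d.1 y) false false) ?_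
  · omega
  · intro d
    rw [mem_filter]
    refine ⟨mem_univ _, ?_, ?_⟩
    · simp [F]
    · simp [F, hxy.symm]
  · rintro ⟨A, i⟩ ⟨A', i'⟩ hF hG
    obtain ⟨e1, e2, -, -⟩ := b4_inj hG
    simp only [F, Prod.mk.injEq] at hF
    obtain ⟨hf, rfl⟩ := hF
    refine Prod.ext (funext fun n => ?_) rfl
    have hn := congrFun hf n
    simp only at hn e1 e2 ⊢
    by_cases h1 : n = x
    · rw [h1]; exact e1
    · by_cases h2 : n = y
      · rw [h2]; exact e2
      · simpa [h1, h2] using hn

end core

/-- left legality of the name `c` at the clock `t` -/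
def PL {N : Type} [Fintype N] [DecidableEq N] (k : D N → ℕ) (c : N) (t : ℕ) : Prop :=
  (∀ d : D N, d.1 c = false → k d ∣ t) ∧
    (univ.filter fun d : D N => d.1 c = true ∧ k d ∣ t).card < 2 ^ Fintype.card N

/-- right legality of the name `c` at the clock `t` -/
def PR {N : Type} [Fintype N] [DecidableEq N] (k : D N → ℕ) (c : N) (t : ℕ) : Prop :=
  (∀ d : D N, d.1 c = true → k d ∣ t) ∧
    (univ.filter fun d : D N => d.1 c = false ∧ k d ∣ t).card < 2 ^ Fintype.card N

section names

variable {N : Type} [Fintype N] [DecidableEq N] (k : D N → ℕ)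

theorem PL_unique {c c' : N} {t : ℕ} (h : PL k c t) (h' : PL k c' t) : c = c' := by
  classical
  by_contra hne
  have h1 := count2 c' c (Ne.symm hne)
  have h2 : (univ.filter fun d : D N => d.1 c' = false ∧ d.1 c = true).card ≤
      (univ.filter fun d : D N => d.1 c = true ∧ k d ∣ t).card := by
    apply card_le_card
    intro d hd
    rw [mem_filter] at hd ⊢
    exact ⟨mem_univ _, hd.2.2, h'.1 d hd.2.1⟩
  have h3 := h.2
  have h4 : 0 < 2 ^ Fintype.card N := by positivity
  omega

theorem PR_unique {c c' : N} {t : ℕ} (h : PR k c t) (h' : PR k c' t) : c = c' := by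
  classical
  by_contra hne
  have h1 := count2 c c' hne
  have h2 : (univ.filter fun d : D N => d.1 c = false ∧ d.1 c' = true).card ≤
      (univ.filter fun d : D N => d.1 c = false ∧ k d ∣ t).card := by
    apply card_le_card
    intro d hd
    rw [mem_filter] at hd ⊢
    exact ⟨mem_univ _, hd.2.1, h'.1 d hd.2.2⟩
  have h3 := h.2
  have h4 : 0 < 2 ^ Fintype.card N := by positivity
  omega

/-- divisors of `t + t'` on the places where both names agree are few. -/
theorem err {c c' : N} {t t' : ℕ} (h : PL k c t) (h' : PR k c' t') :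
    (univ.filter fun d : D N => d.1 c = d.1 c' ∧ k d ∣ t + t').card < 2 * 2 ^ Fintype.card N := by
  classical
  have hsub : (univ.filter fun d : D N => d.1 c = d.1 c' ∧ k d ∣ t + t') ⊆
      (univ.filter fun d : D N => d.1 c = true ∧ k d ∣ t) ∪
        (univ.filter fun d : D N => d.1 c' = false ∧ k d ∣ t') := by
    intro d hd
    rw [mem_filter] at hd
    obtain ⟨-, e, hdiv⟩ := hd
    rw [mem_union, mem_filter, mem_filter]
    rcases hb : d.1 c with _ | _
    · right
      rw [hb] at e
      exact ⟨mem_univ _, e.symm, (Nat.dvd_add_right (h.1 d hb)).1 hdiv⟩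
    · left
      rw [hb] at e
      exact ⟨mem_univ _, rfl, (Nat.dvd_add_left (h'.1 d e.symm)).1 hdiv⟩
  have h1 := card_le_card hsub
  have h2 := card_union_le (univ.filter fun d : D N => d.1 c = true ∧ k d ∣ t)
    (univ.filter fun d : D N => d.1 c' = false ∧ k d ∣ t')
  have h3 := h.2
  have h4 := h'.2
  omega

theorem same {c : N} {t t' : ℕ} (h : PL k c t) (h' : PR k c t') :
    (univ.filter fun d : D N => k d ∣ t + t').card < 2 * 2 ^ Fintype.card N := by
  classical
  have h1 := err k h h'
  refine lt_of_le_of_lt (card_le_card fun d hd => ?_) h1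
  rw [mem_filter] at hd ⊢
  exact ⟨mem_univ _, rfl, hd.2⟩

theorem mism {c c' : N} {t t' : ℕ} (h : PL k c t) (h' : PR k c' t') (hne : c ≠ c') :
    2 * 2 ^ Fintype.card N ≤ (univ.filter fun d : D N => k d ∣ t + t').card := by
  classical
  refine (count2 c c' hne).trans (card_le_card fun d hd => ?_)
  rw [mem_filter] at hd ⊢
  exact ⟨mem_univ _, dvd_add (h.1 d hd.2.1) (h'.1 d hd.2.2)⟩

theorem pair {c₁ c₁' c₂ c₂' : N} {t₁ t₁' t₂ t₂' : ℕ} (h1 : PL k c₁ t₁) (h1' : PR k c₁' t₁')
    (h2 : PL k c₂ t₂) (h2' : PR k c₂' t₂') (hT : t₁ + t₁' = t₂ + t₂') (hn1 : c₁ ≠ c₁')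
    (hn2 : c₂ ≠ c₂') : (c₂ = c₁ ∧ c₂' = c₁') ∨ (c₂ = c₁' ∧ c₂' = c₁) := by
  classical
  by_contra hp
  have ha := count4 c₂ c₂' c₁ c₁' hn2 hn1 hp
  have hb := err k h1 h1'
  have hc : (univ.filter fun d : D N => d.1 c₂ = false ∧ d.1 c₂' = true ∧ d.1 c₁ = d.1 c₁').card ≤
      (univ.filter fun d : D N => d.1 c₁ = d.1 c₁' ∧ k d ∣ t₁ + t₁').card := by
    apply card_le_card
    intro d hd
    rw [mem_filter] at hd ⊢
    refine ⟨mem_univ _, hd.2.2.2, ?_⟩
    rw [hT]
    exact dvd_add (h2.1 d hd.2.1) (h2'.1 d hd.2.2.1)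
  omega

end names

theorem exists_primes (ι : Type) [Finite ι] (B : ℕ) :
    ∃ k : ι → ℕ, Function.Injective k ∧ ∀ i, Nat.Prime (k i) ∧ B < k i := by
  classical
  have hinf : Set.Infinite {p : ℕ | Nat.Prime p ∧ B < p} := by
    rw [Set.infinite_iff_exists_gt]
    intro a
    obtain ⟨p, hp, hpp⟩ := Nat.exists_infinite_primes (a + B + 1)
    exact ⟨p, ⟨hpp, by omega⟩, by omega⟩
  haveI : Infinite {p : ℕ // Nat.Prime p ∧ B < p} := hinf.to_subtype
  obtain ⟨n, ⟨e⟩⟩ := Finite.exists_equiv_fin ι
  let f := Infinite.natEmbedding {p : ℕ // Nat.Prime p ∧ B < p}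
  refine ⟨fun i => (f (e i).val).val, ?_, fun i => (f (e i).val).2⟩
  intro i j h
  have h1 : f (e i).val = f (e j).val := Subtype.ext h
  exact e.injective (Fin.ext (f.injective h1))

theorem level_names (N : Type) [Finite N] : ∃ ρ : ℕ, 0 < ρ ∧ ∀ B : ℕ,
    ∃ (Ms : Finset ℕ) (M : ℕ) (nmL nmR : ℕ → Option N), Ms.card ≤ 32 * ρ ∧
      (∀ k ∈ Ms, B < k ∧ Nat.Prime k ∧ k ∣ M) ∧ 0 < M ∧
      (∀ t, nmL (t + M) = nmL t) ∧ (∀ t, nmR (t + M) = nmR t) ∧
      (∀ t t' c, nmL t = some c → nmR t' = some c →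
        (Ms.filter (· ∣ t + t')).card < 2 * ρ) ∧
      (∀ t t' c c', nmL t = some c → nmR t' = some c' → c ≠ c' →
        2 * ρ ≤ (Ms.filter (· ∣ t + t')).card) ∧
      (∀ t₁ t₁' t₂ t₂' c₁ c₁' c₂ c₂', nmL t₁ = some c₁ → nmR t₁' = some c₁' →
        nmL t₂ = some c₂ → nmR t₂' = some c₂' → t₁ + t₁' = t₂ + t₂' → c₁ ≠ c₁' → c₂ ≠ c₂' →
        (c₂ = c₁ ∧ c₂' = c₁') ∨ (c₂ = c₁' ∧ c₂' = c₁)) ∧
      (∀ T, (Ms.filter (· ∣ T)).card < ρ → ∀ c, ∃ t < M, nmL t = some c ∧
        ∀ t', t + t' ≡ T [MOD M] → nmR t' = some c) := by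
  classical
  haveI := Fintype.ofFinite N
  refine ⟨2 ^ Fintype.card N, by positivity, fun B => ?_⟩
  obtain ⟨k, hk, hkp⟩ := exists_primes (D N) B
  let M : ℕ := ∏ d : D N, k d
  let Ms : Finset ℕ := univ.image k
  let nmL : ℕ → Option N := fun t => if h : ∃ c, PL k c t then some h.choose else none
  let nmR : ℕ → Option N := fun t => if h : ∃ c, PR k c t then some h.choose else none
  have hL : ∀ t c, nmL t = some c ↔ PL k c t := by
    intro t c
    simp only [nmL]
    split_ifs with h
    · constructor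
      · intro e
        rw [← Option.some.inj e]
        exact h.choose_spec
      · intro e
        rw [PL_unique k h.choose_spec e]
    · exact ⟨fun e => by simp at e, fun e => absurd ⟨c, e⟩ h⟩
  have hR : ∀ t c, nmR t = some c ↔ PR k c t := by
    intro t c
    simp only [nmR]
    split_ifs with h
    · constructor
      · intro e
        rw [← Option.some.inj e]
        exact h.choose_spec
      · intro e
        rw [PR_unique k h.choose_spec e]
    · exact ⟨fun e => by simp at e, fun e => absurd ⟨c, e⟩ h⟩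
  have hdM : ∀ d, k d ∣ M := fun d => dvd_prod_of_mem k (mem_univ d)
  have hcard : ∀ T, (Ms.filter (· ∣ T)).card = (univ.filter fun d : D N => k d ∣ T).card := by
    intro T
    simp only [Ms, filter_image]
    exact card_image_of_injective _ hk
  have hshift : ∀ d t, k d ∣ t + M ↔ k d ∣ t := fun d t => Nat.dvd_add_left (hdM d)
  refine ⟨Ms, M, nmL, nmR, ?_, ?_, ?_, ?_, ?_, ?_, ?_, ?_, ?_⟩
  · refine card_image_le.trans ?_
    simp [D, Fintype.card_prod, mul_comm]
  · intro m hm
    obtain ⟨d, -, rfl⟩ := mem_image.1 hm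
    exact ⟨(hkp d).2, (hkp d).1, hdM d⟩
  · exact prod_pos fun d _ => (hkp d).1.pos
  · intro t
    have : ∀ c, PL k c (t + M) ↔ PL k c t := by
      intro c
      simp only [PL, hshift]
    simp only [nmL, this]
  · intro t
    have : ∀ c, PR k c (t + M) ↔ PR k c t := by
      intro c
      simp only [PR, hshift]
    simp only [nmR, this]
  · intro t t' c h h'
    rw [hcard]
    exact same k ((hL _ _).1 h) ((hR _ _).1 h')
  · intro t t' c c' h h' hne
    rw [hcard]
    exact mism k ((hL _ _).1 h) ((hR _ _).1 h') hne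
  · intro t₁ t₁' t₂ t₂' c₁ c₁' c₂ c₂' h1 h1' h2 h2' hT hn1 hn2
    exact pair k ((hL _ _).1 h1) ((hR _ _).1 h1') ((hL _ _).1 h2) ((hR _ _).1 h2') hT hn1 hn2
  · intro T hT c
    rw [hcard] at hT
    have hcop : Set.Pairwise (↑(univ : Finset (D N))) (Function.onFun Nat.Coprime k) := by
      intro d _ d' _ hne
      exact (Nat.coprime_primes (hkp d).1 (hkp d').1).2 fun e => hne (hk e)
    have hs : ∀ d ∈ (univ : Finset (D N)), k d ≠ 0 := fun d _ => (hkp d).1.ne_zero
    let a : D N → ℕ := fun d => if d.1 c = true then T else 0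
    let t := Nat.chineseRemainderOfFinset a k univ hs hcop
    have ht : ∀ d, (t : ℕ) ≡ a d [MOD k d] := fun d => t.2 d (mem_univ d)
    have hlt : (t : ℕ) < M := Nat.chineseRemainderOfFinset_lt_prod a k hs hcop
    have h0 : ∀ d : D N, d.1 c = false → k d ∣ (t : ℕ) := by
      intro d hd
      have h := ht d
      simp only [a, hd] at h
      exact (Nat.modEq_zero_iff_dvd).1 (by simpa using h)
    have h1 : ∀ d : D N, d.1 c = true → (t : ℕ) ≡ T [MOD k d] := by
      intro d hd
      have h := ht d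
      simpa only [a, hd, if_true] using h
    refine ⟨t, hlt, (hL _ _).2 ⟨h0, ?_⟩, ?_⟩
    · refine lt_of_le_of_lt (card_le_card fun d hd => ?_) hT
      rw [mem_filter] at hd ⊢
      exact ⟨mem_univ _, ((h1 d hd.2.1).dvd_iff dvd_rfl).1 hd.2.2⟩
    · intro t' ht'
      refine (hR _ _).2 ⟨?_, ?_⟩
      · intro d hd
        have e1 : (t : ℕ) + t' ≡ T [MOD k d] := ht'.of_dvd (hdM d)
        have e2 : (t : ℕ) + t' ≡ (t : ℕ) + 0 [MOD k d] := by
          rw [add_zero]
          exact e1.trans (h1 d hd).symm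
        exact (Nat.modEq_zero_iff_dvd).1 (Nat.ModEq.add_left_cancel' _ e2)
      · refine lt_of_le_of_lt (card_le_card fun d hd => ?_) hT
        rw [mem_filter] at hd ⊢
        have e1 : (t : ℕ) + t' ≡ T [MOD k d] := ht'.of_dvd (hdM d)
        exact ⟨mem_univ _, (e1.dvd_iff dvd_rfl).1 (dvd_add (h0 d hd.2.1) hd.2.2)⟩

end Crest.Agent.R320.LN783
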