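import Crest.Agent.R320.Hfib_138
import Crest.Agent.R320.WallU_228
import Crest.Agent.R320.Loc_354
import Crest.Agent.R320.SemJ_832

/-!
# Row 320: leaf LWK of helper832 (helper138)
-/

set_option autoImplicit false

namespace Crest.Agent.R320.LWK_138

open Crest.RegLang Crest.Agent.R320.Hk_851 Crest.Agent.R320.FewWalls_228
open Crest.Agent.R320.FewVal_228 Crest.Agent.R320.Hfib_138

universe u

/-- the same leaf in any universe, blocks written out -/
theorem left_walls' (α : Type u) [Finite α] (W : ℕ) :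
    ∃ (n : ℕ) (Wo : List α → Prop), 0 < n ∧
      (∀ P : List α, Wo P → n ≤ P.length) ∧
      (∀ P Q : List α, n ≤ Q.length → (Wo (P ++ Q) ↔ Wo Q)) ∧
      (∀ (X : List α) (t t' : ℕ), t < t' → t' ≤ X.length → Wo (X.take t) → Wo (X.take t') →
        t + W < t') ∧
      (∀ (z : ℕ) (L : Language α), L.IsRegular →
        HL 1 ({X | (z ≤ X.length ∧ Wo X ∧ ∀ t, z ≤ t → t < X.length → ¬ Wo (X.take t)) ∧
          X ∈ L} : Language α)) ∧
      (∀ (z : ℕ) (L : Language α), L.IsRegular →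
        HL 1 ({w | (∀ X : List α, (z ≤ X.length ∧ Wo X ∧
          ∀ t, z ≤ t → t < X.length → ¬ Wo (X.take t)) → ¬ X <+: w) ∧ w ∈ L} : Language α)) := by
  obtain ⟨n, c, P, S, hn, hP, hS, hsep, hper⟩ :=
    Crest.Agent.R320.Mk263.marker (α := α) (W + 1) (by omega)
  have hP' : 0 < P := hP
  have hper' : PerOff n c P S := hper
  refine ⟨n, Wo n S, hn, fun P h => h.1, fun P Q h => Wo_append P Q h, ?_, ?_, ?_⟩
  · intro X t t' ht ht' h1 h2
    rw [Wo_take (by omega)] at h1 h2
    obtain ⟨h3, h4, h5⟩ := h1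
    obtain ⟨h6, h7, h8⟩ := h2
    have := hsep X (t - n) (t' - n) (by omega) (by omega) h5 h8
    omega
  · intro z L hL
    exact HL_XX_inter hn hP' hper' z hL
  · intro z L hL
    exact HL_rest hn hP' hper' z hL

/-- leaf LWK of helper832 -/
theorem left_walls (α : Type) [Finite α] (W : ℕ) :
    ∃ (n : ℕ) (Wo : List α → Prop),
      (∀ P Q : List α, n ≤ Q.length → (Wo (P ++ Q) ↔ Wo Q)) ∧
      (∀ (X : List α) (t t' : ℕ), t < t' → t' ≤ X.length → Wo (X.take t) → Wo (X.take t') →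
        t + W < t') ∧
      ∀ (z A L : ℕ), 0 < L → 0 < z → ∀ (S : Type) [Monoid S] [Finite S] (φ : α → S)
        (P : List α → Prop),
        (∀ X X' : List α, A ≤ X.length → A ≤ X'.length → X.take A = X'.take A →
          ((X.drop A).map φ).prod = ((X'.drop A).map φ).prod →
          X.length % L = X'.length % L → (P X ↔ P X')) →
        HL 1 ({X | X ∈ SemJ_832.XX Wo z ∧ P X} : Language α) ∧
        HL 1 ({w | (∀ X ∈ SemJ_832.XX Wo z, ¬ X <+: w) ∧ P w} : Language α) := by
  obtain ⟨n, Wo, hn, h1, h2, h3, h4, h5⟩ := left_walls' α W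
  refine ⟨n, Wo, h2, h3, ?_⟩
  intro z A L hL hz S _ _ φ P hP
  have hreg : (lg P).IsRegular := by
    refine Loc_354.regular_of_local φ A L hL (lg P) ?_
    intro q q2 g1 g2 g3 g4 g5
    exact hP q q2 g1 g2 g3 g5 g4
  exact ⟨h4 z (lg P) hreg, h5 z (lg P) hreg⟩

end Crest.Agent.R320.LWK_138
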