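import Crest.Agent.R320.P4b_933
import Crest.Agent.R320.LWallAll_922
import Crest.Agent.R320.SemJ_832

/-!
# Row 320: leaf LWK of helper832 (#14161) (helper243)
-/

set_option autoImplicit false

namespace Crest.Agent.R320.LWK_243

open Crest.RegLang Crest.Agent.R320.Hk_851 Crest.Agent.R320.BddReg_746

theorem left_walls (α : Type) [Finite α] (W : ℕ) : ∃ (n : ℕ) (Wo : List α → Prop),
    (∀ P Q : List α, n ≤ Q.length → (Wo (P ++ Q) ↔ Wo Q)) ∧
    (∀ (X : List α) (t t' : ℕ), t < t' → t' ≤ X.length → Wo (X.take t) → Wo (X.take t') →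
      t + W < t') ∧
    ∀ (z A L : ℕ), 0 < L → 0 < z → ∀ (S : Type) [Monoid S] [Finite S] (φ : α → S)
      (P : List α → Prop),
      (∀ X X' : List α, A ≤ X.length → A ≤ X'.length → X.take A = X'.take A →
        ((X.drop A).map φ).prod = ((X'.drop A).map φ).prod → X.length % L = X'.length % L →
        (P X ↔ P X')) →
      HL 1 ({X | X ∈ SemJ_832.XX Wo z ∧ P X} : Language α) ∧
      HL 1 ({w | (∀ X ∈ SemJ_832.XX Wo z, ¬ X <+: w) ∧ P w} : Language α) := by
  obtain ⟨n, G, B, Wo, hLW, hgap, -, -, hfree⟩ :=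
    LWallAll_922.walls_all_left α (W + 1) (Nat.succ_pos W)
  refine ⟨n, Wo, fun P Q h => hLW.1 P Q h, fun X t t' h1 h2 h3 h4 => ?_, ?_⟩
  · have := hgap X t t' h1 h2 h3 h4
    omega
  · intro z A L hL hz S _ _ φ P hP
    have hreg : Language.IsRegular ({u | P u} : Language α) :=
      P4_933.regular_of_class' φ A L hL P fun u u' h1 h2 h3 h4 h5 => hP u u' h1 h2 h3 h5 h4
    have hfr : ∀ u : List α, (∀ t < u.length, ¬ Wo (u.take t)) →
        u ∈ (PN (max B (W + 1)) 2 : Language α) := by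
      intro u hu
      obtain ⟨a, x, v, k, h1, h2, h3, h4⟩ := hfree u hu
      rw [h4]
      refine Language.mem_mul.2 ⟨a ++ pw x k, ⟨a, x, k, by omega, by omega, rfl⟩, v, ?_, ?_⟩
      · exact Language.mem_mul.2 ⟨v, ⟨v, [], 0, by omega, by simp, by simp [pw]⟩, [], rfl, by simp⟩
      · rfl
    have e : ∀ X : List α, X ∈ SemJ_832.XX Wo z ↔ P4_933.XX Wo z X := by
      intro X
      constructor
      · rintro ⟨h1, h2, h3⟩
        exact ⟨h2, h1, fun t h4 h5 => h3 t h5 h4⟩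
      · rintro ⟨h1, h2, h3⟩
        exact ⟨h2, h1, fun t h4 h5 => h3 t h5 h4⟩
    constructor
    · exact (P4_933.hl_XX hLW.1 hLW.2 hfr hreg).congr fun w =>
        ⟨fun h => ⟨(e w).1 h.1, h.2⟩, fun h => ⟨(e w).2 h.1, h.2⟩⟩
    · refine (P4_933.hl_NB (z := z) hLW.1 hLW.2 hfr hreg).congr fun w => ?_
      constructor
      · rintro ⟨h1, h2⟩
        exact ⟨(P4_933.NB_iff Wo z w).2 fun Q hQ hX => h1 Q ((e Q).2 hX) hQ, h2⟩
      · rintro ⟨h1, h2⟩
        exact ⟨fun X hX hp => (P4_933.NB_iff Wo z w).1 h1 X hp ((e X).1 hX), h2⟩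

end Crest.Agent.R320.LWK_243
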