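import Crest.Agent.R320.WallU_228
import Crest.Agent.R320.HfibU_148
import Crest.Agent.R320.SemJ_832

/-!
# Row 320, LEAF LWK of helper832 (#14161): left-looking walls of all words, and height one of the
fibres of finite-state maps on the natural blocks `SemJ_832.XX` (first wall at distance `≥ z`) and
on the tails.  Over `WallU_228.walls_full` and `HfibU_148`.
-/

set_option autoImplicit false

namespace Crest.Agent.R320.LWK_442

open Crest.RegLang Crest.Agent.R320.Hk_851
open Crest.R320.Reg_143 Crest.Agent.R320.HfibU_148 Crest.Agent.R320.SemJ_832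

theorem mem_XX_iff {α : Type} (Wo : List α → Prop) (z : ℕ) (X : List α) :
    X ∈ Z Wo (fun _ => z) 1 ↔ X ∈ XX Wo z := by
  constructor
  · rintro ⟨h1, h2, h3⟩
    exact ⟨h2, h1, fun t ht ht' hw => h3 t ht' hw ht⟩
  · rintro ⟨h1, h2, h3⟩
    exact ⟨h2, h1, fun t ht hw ht' => h3 t ht' ht hw⟩

theorem left_walls (α : Type) [Finite α] (W : ℕ) : ∃ (n : ℕ) (Wo : List α → Prop),
    (∀ P Q : List α, n ≤ Q.length → (Wo (P ++ Q) ↔ Wo Q)) ∧
    (∀ (X : List α) (t t' : ℕ), t < t' → t' ≤ X.length → Wo (X.take t) → Wo (X.take t') →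
      t + W < t') ∧
    ∀ (z A L : ℕ), 0 < L → 0 < z → ∀ (S : Type) [Monoid S] [Finite S] (φ : α → S)
      (P : List α → Prop),
      (∀ X X' : List α, A ≤ X.length → A ≤ X'.length → X.take A = X'.take A →
        ((X.drop A).map φ).prod = ((X'.drop A).map φ).prod → X.length % L = X'.length % L →
        (P X ↔ P X')) →
      HL 1 ({X | X ∈ XX Wo z ∧ P X} : Language α) ∧
      HL 1 ({w | (∀ X ∈ XX Wo z, ¬ X <+: w) ∧ P w} : Language α) := by
  obtain ⟨n, c, Pp, S, hn, hP, hloc, hgap, hfree, hpc, hHL⟩ := WallU_228.walls_full (α := α) W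
  refine ⟨n, WallU_228.Wo n S, hloc, ?_, ?_⟩
  · intro X t t' htt' ht' hw hw'
    by_contra hcon
    have hlen : (X.take t').length = t' := by rw [List.length_take]; omega
    refine hgap (X.take t') (t' - t) hw' (by omega) (by omega) ?_
    rw [hlen, List.take_take, show min (t' - (t' - t)) t' = t by omega]
    exact hw
  · intro z A L hL hz T _ _ φ P hkey
    have len : ∀ P : List α, WallU_228.Wo n S P → n ≤ P.length := fun P h => h.1
    have hreg : (lg P).IsRegular :=
      reg_of_key φ A L hL P fun X Y hX hY h1 h2 h3 => hkey X Y hX hY h1 h3 h2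
    have a := HL_Z (Wo := WallU_228.Wo n S) (thr := fun _ => z) (Mp := 1) (n := n) (Zm := z)
      hloc len one_pos (fun _ _ => le_rfl) hfree hreg
    have b := HL_tail (Wo := WallU_228.Wo n S) (thr := fun _ => z) (Mp := 1) (n := n) (Zm := z)
      hloc len one_pos (fun _ _ => le_rfl) hfree hreg
    constructor
    · exact a.congr fun w => and_congr (mem_XX_iff _ _ _).symm Iff.rfl
    · exact b.congr fun w => and_congr
        (forall_congr' fun X => by rw [mem_XX_iff]) Iff.rfl

end Crest.Agent.R320.LWK_442
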