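import Crest.Agent.R320.SemJ_832
import Crest.Agent.R320.WallU_36
import Crest.Agent.R320.RegBd_11

/-!
# Row 320: leaf LWK of helper832 (left-looking walls of all words, `HL 1` of the block languages), helper71
-/

set_option autoImplicit false

namespace Crest.Agent.R320.LWK_71

open Crest.RegLang Crest.Agent.R320.Hk_851 Crest.Agent.R320.CompR_11 Crest.Agent.R320.SemJ_832

variable {α : Type}

/-- a language which is a union of classes of a right congruence of finite index is regular -/
theorem reg_of_cong {β : Type} (κ : List α → β) (hfin : (Set.range κ).Finite)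
    (h : ∀ x x' a, κ x = κ x' → κ (x ++ [a]) = κ (x' ++ [a])) (L : Language α)
    (hL : ∀ x x', κ x = κ x' → x ∈ L → x' ∈ L) : L.IsRegular := by
  classical
  have : Finite (Set.range κ) := hfin
  have := Fintype.ofFinite (Set.range κ)
  let M : DFA α (Set.range κ) :=
    ⟨fun s a => ⟨κ (s.2.choose ++ [a]), ⟨_, rfl⟩⟩, ⟨κ [], ⟨[], rfl⟩⟩, {s | ∃ x ∈ L, κ x = s.1}⟩
  refine ⟨Set.range κ, inferInstance, M, ?_⟩
  have hev : ∀ w, (M.eval w).1 = κ w := by
    intro w
    induction w using List.reverseRecOn with
    | nil => rfl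
    | append_singleton w a ih =>
      rw [DFA.eval_append_singleton]
      show κ ((M.eval w).2.choose ++ [a]) = _
      apply h
      rw [(M.eval w).2.choose_spec, ih]
  ext w
  rw [DFA.mem_accepts]
  constructor
  · rintro ⟨x, hx, e⟩
    rw [hev] at e
    exact hL x w e hx
  · intro hw
    exact ⟨w, hw, (hev w).symm⟩

/-- the finite data of a word -/
def gg {S : Type} [Monoid S] (φ : α → S) (M n L A : ℕ) (w : List α) :
    List α × List α × ℕ × S :=
  (w.take M, w.drop (w.length - n), w.length % L, ((w.drop A).map φ).prod)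

theorem gg_fin [Finite α] {S : Type} [Monoid S] [Finite S] (φ : α → S) {M n L A : ℕ}
    (hL : 0 < L) : (Set.range (gg φ M n L A)).Finite := by
  have h1 : ({l : List α | l.length ≤ M}).Finite := List.finite_length_le α M
  have h2 : ({l : List α | l.length ≤ n}).Finite := List.finite_length_le α n
  refine (h1.prod (h2.prod ((Set.finite_Iio L).prod (Set.finite_univ (α := S))))).subset ?_
  rintro _ ⟨w, rfl⟩
  refine ⟨?_, ?_, ?_, Set.mem_univ _⟩
  · show (w.take M).length ≤ M
    rw [List.length_take]; omega
  · show (w.drop (w.length - n)).length ≤ n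
    rw [List.length_drop]; omega
  · exact Nat.mod_lt _ hL

theorem take_snoc (w : List α) (a : α) (M : ℕ) :
    (w ++ [a]).take M = (w.take M ++ [a]).take M := by
  rcases Nat.lt_or_ge w.length M with h | h
  · rw [List.take_of_length_le h.le]
  · rw [List.take_append_of_le_length h, List.take_append_of_le_length
      (by rw [List.length_take]; omega), List.take_take, min_self]

theorem lastn_snoc (w : List α) (a : α) (n : ℕ) :
    (w ++ [a]).drop ((w ++ [a]).length - n) =
      (w.drop (w.length - n) ++ [a]).drop ((w.drop (w.length - n) ++ [a]).length - n) := by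
  have hl : (w.drop (w.length - n)).length = w.length - (w.length - n) := List.length_drop
  rw [List.length_append, List.length_append, hl, List.length_singleton]
  rcases Nat.lt_or_ge w.length n with h | h
  · have e1 : w.length - n = 0 := by omega
    rw [e1, List.drop_zero]
    congr 1
  · have e1 : w.length - (w.length - n) = n := by omega
    rw [e1]
    rcases Nat.eq_zero_or_pos n with h0 | h0
    · subst h0
      rw [List.drop_of_length_le (by simp), List.drop_of_length_le (by simp)]
    · rw [List.drop_append_of_le_length (by omega), List.drop_append_of_le_length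
        (by rw [List.length_drop]; omega), List.drop_drop]
      congr 2
      omega

theorem gg_cong [Finite α] {S : Type} [Monoid S] (φ : α → S) {M n L A : ℕ} (hAM : A < M)
    (x x' : List α) (a : α) (h : gg φ M n L A x = gg φ M n L A x') :
    gg φ M n L A (x ++ [a]) = gg φ M n L A (x' ++ [a]) := by
  simp only [gg, Prod.mk.injEq] at h ⊢
  obtain ⟨h1, h2, h3, h4⟩ := h
  refine ⟨?_, ?_, ?_, ?_⟩
  · rw [take_snoc, take_snoc x', h1]
  · rw [lastn_snoc, lastn_snoc x', h2]
  · rw [List.length_append, List.length_append, Nat.add_mod, h3, ← Nat.add_mod]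
  · have hlen : (x.length < A ∧ x'.length < A ∧ x = x') ∨ (A ≤ x.length ∧ A ≤ x'.length) := by
      have e := congrArg List.length h1
      rw [List.length_take, List.length_take] at e
      rcases Nat.lt_or_ge x.length A with h5 | h5
      · left
        have h6 : x'.length < A := by omega
        rw [List.take_of_length_le (by omega), List.take_of_length_le (by omega)] at h1
        exact ⟨h5, h6, h1⟩
      · right; omega
    rcases hlen with ⟨_, _, rfl⟩ | ⟨h5, h6⟩
    · rfl
    · rw [List.drop_append_of_le_length h5, List.drop_append_of_le_length h6, List.map_append,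
        List.map_append, List.prod_append, List.prod_append, h4]

section

variable (Wo : List α → Prop) (z : ℕ)

/-- accepted wall at the end -/
def Pz (w : List α) : Prop := z ≤ w.length ∧ Wo w

/-- no accepted wall -/
def NN (w : List α) : Prop := ∀ t, t ≤ w.length → ¬ Pz Wo z (w.take t)

theorem NN_snoc (w : List α) (a : α) : NN Wo z (w ++ [a]) ↔ (NN Wo z w ∧ ¬ Pz Wo z (w ++ [a])) := by
  constructor
  · intro h
    refine ⟨fun t ht => ?_, ?_⟩
    · have := h t (by rw [List.length_append]; omega)
      rwa [List.take_append_of_le_length ht] at this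
    · have := h (w ++ [a]).length le_rfl
      rwa [List.take_length] at this
  · rintro ⟨h1, h2⟩ t ht
    rcases Nat.lt_or_ge w.length t with h3 | h3
    · rw [List.take_of_length_le (by rw [List.length_append, List.length_singleton]; omega)]
      exact h2
    · rw [List.take_append_of_le_length h3]
      exact h1 t h3

theorem XX_snoc (w : List α) (a : α) : w ++ [a] ∈ XX Wo z ↔ (NN Wo z w ∧ Pz Wo z (w ++ [a])) := by
  constructor
  · rintro ⟨h1, h2, h3⟩
    refine ⟨fun t ht hp => ?_, h1, h2⟩
    obtain ⟨h4, h5⟩ := hp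
    rw [List.length_take] at h4
    have := h3 t (by omega) (by rw [List.length_append, List.length_singleton]; omega)
    rw [List.take_append_of_le_length ht] at this
    exact this h5
  · rintro ⟨h1, h2, h3⟩
    refine ⟨h2, h3, fun t ht1 ht2 hw => ?_⟩
    rw [List.length_append, List.length_singleton] at ht2
    rw [List.take_append_of_le_length (by omega)] at hw
    exact h1 t (by omega) ⟨by rw [List.length_take]; omega, hw⟩

theorem noPre_iff (w : List α) : (∀ X ∈ XX Wo z, ¬ X <+: w) ↔ NN Wo z w := by
  constructor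
  · intro h
    by_contra hn
    simp only [NN, not_forall, not_not] at hn
    classical
    obtain ⟨t, ht, hp⟩ := hn
    have hex : ∃ t, t ≤ w.length ∧ Pz Wo z (w.take t) := ⟨t, ht, hp⟩
    obtain ⟨h1, h2⟩ := Nat.find_spec hex
    refine h (w.take (Nat.find hex)) ⟨h2.1, h2.2, fun s hs1 hs2 hw => ?_⟩ (List.take_prefix _ _)
    rw [List.length_take] at hs2
    rw [List.take_take, min_eq_left (by omega)] at hw
    exact Nat.find_min hex (m := s) (by omega) ⟨by omega, by rw [List.length_take]; omega, hw⟩
  · rintro h X ⟨h1, h2, h3⟩ ⟨y, rfl⟩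
    refine h X.length (by simp) ⟨?_, ?_⟩
    · rw [List.take_left]; exact h1
    · rw [List.take_left]; exact h2

end

theorem pieces_add {R B R' B' : ℕ} {u v : List α} (h : Pieces R B u) (h' : Pieces R' B' v) :
    Pieces (R + R') (max B B') (u ++ v) := by
  obtain ⟨l, h1, h2, rfl⟩ := h
  obtain ⟨l', h1', h2', rfl⟩ := h'
  refine ⟨l ++ l', by rw [List.length_append]; omega, ?_, ?_⟩
  · intro t ht
    rcases List.mem_append.1 ht with h | h
    · exact ⟨(h2 t h).1.trans (le_max_left _ _), (h2 t h).2.trans (le_max_left _ _)⟩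
    · exact ⟨(h2' t h).1.trans (le_max_right _ _), (h2' t h).2.trans (le_max_right _ _)⟩
  · simp [Pump_360.val]

theorem pieces_short {z : ℕ} {u : List α} (h : u.length ≤ z) : Pieces 1 z u := by
  refine ⟨[(u, [], 0)], by simp, ?_, ?_⟩
  · intro t ht
    simp only [List.mem_singleton] at ht
    subst ht
    exact ⟨h, by simp⟩
  · simp [Pump_360.val, Pump_360.pw]

/-- **leaf LWK of 832** -/
theorem left_walls (α : Type) [Finite α] (W : ℕ) : ∃ (n : ℕ) (Wo : List α → Prop),
    (∀ P Q : List α, n ≤ Q.length → (Wo (P ++ Q) ↔ Wo Q)) ∧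
    (∀ (X : List α) (t t' : ℕ), t < t' → t' ≤ X.length → Wo (X.take t) → Wo (X.take t') →
      t + W < t') ∧
    ∀ (z A L : ℕ), 0 < L → 0 < z → ∀ (S : Type) [Monoid S] [Finite S] (φ : α → S)
      (P : List α → Prop),
      (∀ X X' : List α, A ≤ X.length → A ≤ X'.length → X.take A = X'.take A →
        ((X.drop A).map φ).prod = ((X'.drop A).map φ).prod → X.length % L = X'.length % L →
        (P X ↔ P X')) →
      HL 1 ({X | X ∈ XX Wo z ∧ P X} : Language α) ∧
      HL 1 ({w | (∀ X ∈ XX Wo z, ¬ X <+: w) ∧ P w} : Language α) := by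
  obtain ⟨n, Wo, hloc, hlen, hsep, R, B, hpc⟩ := WallU_36.wall_leaf α W
  refine ⟨n, Wo, hloc, ?_, ?_⟩
  · intro X t t' htt' ht' h1 h2
    by_contra hcon
    have hl : (X.take t').length = t' := by rw [List.length_take]; omega
    have h3 := hsep (X.take t') (t' - t) h2 (by omega) (by omega)
    rw [hl, List.take_take, min_eq_left (by omega)] at h3
    have e : t' - (t' - t) = t := by omega
    rw [e] at h3
    exact h3 h1
  intro z A L hL hz S _ _ φ P hP
  have hwl : ∀ w : List α, Wo w ↔ Wo (w.drop (w.length - n)) := by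
    intro w
    rcases Nat.lt_or_ge w.length n with h | h
    · have e1 : w.length - n = 0 := by omega
      rw [e1, List.drop_zero]
    · conv_lhs => rw [← List.take_append_drop (w.length - n) w]
      exact hloc _ _ (by rw [List.length_drop]; omega)
  let M := A + z + 1
  have hPg : ∀ x x', gg φ M n L A x = gg φ M n L A x' → P x → P x' := by
    intro x x' h hx
    simp only [gg, Prod.mk.injEq] at h
    obtain ⟨h1, h2, h3, h4⟩ := h
    have e := congrArg List.length h1
    rw [List.length_take, List.length_take] at e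
    rcases Nat.lt_or_ge x.length A with h5 | h5
    · rw [List.take_of_length_le (by omega), List.take_of_length_le (by omega)] at h1
      rwa [← h1]
    · refine (hP x x' h5 (by omega) ?_ h4 h3).1 hx
      have := congrArg (List.take A) h1
      rwa [List.take_take, List.take_take, min_eq_left (by omega)] at this
  have hzg : ∀ x x', gg φ M n L A x = gg φ M n L A x' → Pz Wo z x → Pz Wo z x' := by
    rintro x x' h ⟨hx1, hx2⟩
    simp only [gg, Prod.mk.injEq] at h
    obtain ⟨h1, h2, h3, h4⟩ := h
    have e := congrArg List.length h1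
    rw [List.length_take, List.length_take] at e
    refine ⟨by omega, ?_⟩
    rw [hwl, ← h2, ← hwl]; exact hx2
  let κ : List α → (List α × List α × ℕ × S) × Prop × Prop :=
    fun w => (gg φ M n L A w, NN Wo z w, w ∈ XX Wo z)
  have hfin : (Set.range κ).Finite := by
    refine ((gg_fin φ (M := M) (n := n) (A := A) hL).prod
      (Set.finite_univ (α := Prop × Prop))).subset ?_
    rintro _ ⟨w, rfl⟩
    exact ⟨⟨w, rfl⟩, Set.mem_univ _⟩
  have hstep : ∀ x x' a, κ x = κ x' → κ (x ++ [a]) = κ (x' ++ [a]) := by
    intro x x' a h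
    simp only [κ, Prod.mk.injEq] at h ⊢
    have h1 := gg_cong φ (show A < M by omega) x x' a h.1
    have h2 : Pz Wo z (x ++ [a]) ↔ Pz Wo z (x' ++ [a]) := ⟨hzg _ _ h1, hzg _ _ h1.symm⟩
    refine ⟨h1, ?_, ?_⟩
    · rw [eq_iff_iff, NN_snoc, NN_snoc, h.2.1, h2]
    · rw [eq_iff_iff, XX_snoc, XX_snoc, h.2.1, h2]
  have hpre : ∀ w : List α, (∀ t, z ≤ t → t < w.length → ¬ Wo (w.take t)) →
      Wo w ∨ NN Wo z w → Pieces (1 + R) (max z B) w := by
    intro w hw _
    rw [← List.take_append_drop z w]
    refine pieces_add (pieces_short (by rw [List.length_take]; omega)) (hpc _ ?_)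
    intro t ht hWt
    rw [List.length_drop] at ht
    have h1 : n ≤ ((w.drop z).take t).length := hlen _ hWt
    have h2 := (hloc (w.take z) _ h1).2 hWt
    have h3 : w.take z ++ (w.drop z).take t = w.take (z + t) := by rw [List.take_add]
    rw [h3] at h2
    exact hw (z + t) (by omega) (by omega) h2
  constructor
  · refine RegBd_11.reg_pieces (reg_of_cong κ hfin hstep _ ?_) (1 + R) (max z B) ?_
    · rintro x x' h ⟨h1, h2⟩
      simp only [κ, Prod.mk.injEq] at h
      exact ⟨h.2.2 ▸ h1, hPg _ _ h.1 h2⟩
    · rintro w ⟨⟨h1, h2, h3⟩, _⟩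
      exact hpre w h3 (Or.inl h2)
  · refine RegBd_11.reg_pieces (reg_of_cong κ hfin hstep _ ?_) (1 + R) (max z B) ?_
    · rintro x x' h ⟨h1, h2⟩
      simp only [κ, Prod.mk.injEq] at h
      refine ⟨(noPre_iff Wo z x').2 (h.2.1 ▸ (noPre_iff Wo z x).1 h1), hPg _ _ h.1 h2⟩
    · rintro w ⟨h1, _⟩
      have h2 := (noPre_iff Wo z w).1 h1
      refine hpre w (fun t ht1 ht2 hw => h2 t ht2.le ⟨?_, hw⟩) (Or.inr h2)
      rw [List.length_take]; omega

end Crest.Agent.R320.LWK_71
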