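import Crest.Agent.R320.FewVal_228
import Crest.Agent.R320.Reg_143
import Crest.Agent.R320.Reg_852
import Crest.Agent.R320.Hk2_851
import Crest.Agent.R320.SemJ_832

/-!
# Row 320: left-looking walls on all words, few walls, height one (helper920, leaf LWK of 832)
-/

set_option autoImplicit false

namespace Crest.Agent.R320.LWK_920

open Crest.RegLang Crest.Agent.R320.Hk_851 Crest.Agent.R320.FewWalls_228

universe u

variable {α : Type u}

/-- left-looking wall at `y` -/
def Wa (n : ℕ) (S : Set (List α)) (w : List α) (y : ℕ) : Prop :=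
  n ≤ y ∧ y ≤ w.length ∧ (w.drop (y - n)).take n ∈ S

theorem wa_left {n : ℕ} {S : Set (List α)} {P Q : List α} {y : ℕ} (h : y ≤ P.length) :
    Wa n S (P ++ Q) y ↔ Wa n S P y := by
  unfold Wa
  by_cases hn : n ≤ y
  · have e : ((P ++ Q).drop (y - n)).take n = (P.drop (y - n)).take n := by
      rw [List.drop_append_of_le_length (by omega), List.take_append_of_le_length]
      rw [List.length_drop]; omega
    rw [e, List.length_append]
    constructor
    · rintro ⟨a, b, c⟩; exact ⟨a, h, c⟩
    · rintro ⟨a, b, c⟩; exact ⟨a, by omega, c⟩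
  · constructor
    · rintro ⟨a, _⟩; exact (hn a).elim
    · rintro ⟨a, _⟩; exact (hn a).elim

theorem wa_right {n : ℕ} {S : Set (List α)} {P Q : List α} {y : ℕ} (h : P.length + n ≤ y) :
    Wa n S (P ++ Q) y ↔ Wa n S Q (y - P.length) := by
  unfold Wa
  have e : (P ++ Q).drop (y - n) = Q.drop (y - P.length - n) := by
    rw [List.drop_append, List.drop_eq_nil_of_le (by omega), List.nil_append]
    congr 1
    omega
  rw [e, List.length_append]
  constructor
  · rintro ⟨a, b, c⟩; exact ⟨by omega, by omega, c⟩
  · rintro ⟨a, b, c⟩; exact ⟨by omega, by omega, c⟩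

theorem wa_take {n : ℕ} {S : Set (List α)} {w : List α} {m y : ℕ} (h : y ≤ m) :
    Wa n S (w.take m) y ↔ Wa n S w y := by
  by_cases hm : m ≤ w.length
  · conv_rhs => rw [← List.take_append_drop m w]
    exact (wa_left (by rw [List.length_take]; omega)).symm
  · rw [List.take_of_length_le (by omega)]

/-- the wall predicate on words -/
def Wo (n : ℕ) (S : Set (List α)) (w : List α) : Prop := Wa n S w w.length

theorem wo_take {n : ℕ} {S : Set (List α)} {w : List α} {t : ℕ} (h : t ≤ w.length) :
    Wo n S (w.take t) ↔ Wa n S w t := by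
  unfold Wo
  rw [List.length_take, Nat.min_eq_left h]
  exact wa_take le_rfl

theorem HL_Wo [Finite α] (n : ℕ) (S : Set (List α)) (hS : ∀ s ∈ S, s.length = n) :
    HL 0 ({w | Wo n S w} : Language α) := by
  have hfin : (S : Set (List α)).Finite :=
    (List.finite_length_le α n).subset fun s hs => (hS s hs).le
  have h : HL 0 ((⊤ : Language α) * (show Language α from S)) := HL.top.mul (HL.finite hfin)
  refine h.congr fun w => Iff.symm ?_
  rw [Language.mem_mul]
  constructor
  · rintro ⟨a, -, b, hb, rfl⟩
    have hb' : b.length = n := hS b hb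
    refine ⟨by rw [List.length_append]; omega, le_rfl, ?_⟩
    rw [List.length_append, hb', Nat.add_sub_cancel, List.drop_left, List.take_of_length_le hb'.le]
    exact hb
  · rintro ⟨h1, h2, h3⟩
    refine ⟨w.take (w.length - n), trivial, (w.drop (w.length - n)).take n, h3, ?_⟩
    rw [List.take_of_length_le (l := w.drop (w.length - n))
      (by rw [List.length_drop]; omega)]
    exact List.take_append_drop _ _

/-- words with a wall at the end, length `≥ z` -/
def EL (n : ℕ) (S : Set (List α)) (z : ℕ) : Language α := {w | z ≤ w.length ∧ Wo n S w}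

theorem HL_EL [Finite α] (n z : ℕ) (S : Set (List α)) (hS : ∀ s ∈ S, s.length = n) :
    HL 0 (EL n S z) :=
  (HL.length_ge z).setOf_and (HL_Wo n S hS)

theorem HL_pre [Finite α] (n z : ℕ) (S : Set (List α)) (hS : ∀ s ∈ S, s.length = n) :
    HL 0 ({w | ∃ t ≤ w.length, z ≤ t ∧ Wo n S (w.take t)} : Language α) := by
  refine ((HL_EL n z S hS).mul HL.top).congr fun w => Iff.symm ?_
  rw [Language.mem_mul]
  constructor
  · rintro ⟨a, ⟨ha1, ha2⟩, b, -, rfl⟩
    exact ⟨a.length, by rw [List.length_append]; omega, ha1, by rwa [List.take_left]⟩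
  · rintro ⟨t, ht, hz, hw⟩
    exact ⟨w.take t, ⟨by rw [List.length_take]; omega, hw⟩, w.drop t, trivial,
      List.take_append_drop _ _⟩

theorem HL_pre' [Finite α] (n z : ℕ) (S : Set (List α)) (hS : ∀ s ∈ S, s.length = n) :
    HL 0 ({w | ∃ t, z ≤ t ∧ t < w.length ∧ Wo n S (w.take t)} : Language α) := by
  refine ((HL_EL n z S hS).mul (HL.length_ge 1)).congr fun w => Iff.symm ?_
  constructor
  · intro h
    obtain ⟨a, ⟨ha1, ha2⟩, b, hb, rfl⟩ := Language.mem_mul.1 h
    have hb' : 1 ≤ b.length := hb
    exact ⟨a.length, ha1, by rw [List.length_append]; omega, by rwa [List.take_left]⟩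
  · rintro ⟨t, hz, ht, hw⟩
    exact Language.mem_mul.2 ⟨w.take t, ⟨by rw [List.length_take]; omega, hw⟩, w.drop t,
      (by show 1 ≤ (w.drop t).length; rw [List.length_drop]; omega),
      List.take_append_drop _ _⟩

theorem HL_XX [Finite α] (n z : ℕ) (S : Set (List α)) (hS : ∀ s ∈ S, s.length = n) :
    HL 0 ({X | z ≤ X.length ∧ Wo n S X ∧ ∀ t, z ≤ t → t < X.length → ¬ Wo n S (X.take t)} :
      Language α) := by
  refine ((HL_EL n z S hS).setOf_and (HL_pre' n z S hS).setOf_not).congr fun w => Iff.symm ?_
  constructor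
  · rintro ⟨⟨h1, h2⟩, h3⟩
    exact ⟨h1, h2, fun t ht ht' hw => h3 ⟨t, ht, ht', hw⟩⟩
  · rintro ⟨h1, h2, h3⟩
    exact ⟨⟨h1, h2⟩, fun ⟨t, ht, ht', hw⟩ => h3 t ht ht' hw⟩

/-- finite state predicates are regular -/
theorem reg_key [Finite α] {S : Type*} [Monoid S] [Finite S] (φ : α → S) (A L : ℕ) (hL : 0 < L)
    (P : List α → Prop)
    (hP : ∀ X X' : List α, A ≤ X.length → A ≤ X'.length → X.take A = X'.take A →
      ((X.drop A).map φ).prod = ((X'.drop A).map φ).prod → X.length % L = X'.length % L →
      (P X ↔ P X')) : Language.IsRegular ({X | P X} : Language α) := by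
  classical
  haveI : Finite {l : List α // l.length ≤ A} := (List.finite_length_le α A).to_subtype
  let σ := {l : List α // l.length ≤ A} × S × Fin L
  let step : σ → α → σ := fun q a =>
    (⟨(q.1.1 ++ [a]).take A, by simp⟩,
      (if q.1.1.length < A then q.2.1 else q.2.1 * φ a),
      ⟨(q.2.2.1 + 1) % L, Nat.mod_lt _ hL⟩)
  let s0 : σ := (⟨[], by simp⟩, 1, ⟨0, hL⟩)
  let st : List α → σ := fun w => w.foldl step s0
  have key : ∀ w : List α, (st w).1.1 = w.take A ∧ (st w).2.1 = ((w.drop A).map φ).prod ∧
      (st w).2.2.1 = w.length % L := by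
    intro w
    induction w using List.reverseRecOn with
    | nil => simp [st, s0]
    | append_singleton w a ih =>
      obtain ⟨h1, h2, h3⟩ := ih
      have e : st (w ++ [a]) = step (st w) a := by simp [st, List.foldl_append]
      rw [e]
      refine ⟨?_, ?_, ?_⟩
      · show ((st w).1.1 ++ [a]).take A = _
        rw [h1]
        by_cases hw : w.length ≤ A
        · rw [List.take_of_length_le hw]
        · rw [List.take_append_of_le_length (by rw [List.length_take]; omega),
            List.take_append_of_le_length (by omega), List.take_take, min_self]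
      · show (if (st w).1.1.length < A then (st w).2.1 else (st w).2.1 * φ a) = _
        rw [h1, h2]
        by_cases hw : w.length < A
        · rw [if_pos (by rw [List.length_take]; omega), List.drop_eq_nil_of_le (by omega),
            List.drop_eq_nil_of_le (by rw [List.length_append, List.length_singleton]; omega)]
        · rw [if_neg (by rw [List.length_take]; omega),
            List.drop_append_of_le_length (by omega), List.map_append, List.prod_append]
          simp
      · show ((st w).2.2.1 + 1) % L = _
        rw [h3, List.length_append, List.length_singleton, Nat.mod_add_mod]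
  have hreg := Crest.R320.Reg_143.isRegular_fold step s0 (fun q => ∃ X, st X = q ∧ P X)
  refine Crest.R320.Reg_143.isRegular_congr hreg fun w => ?_
  constructor
  · rintro ⟨X, hX, hPX⟩
    have hX' : st X = st w := hX
    obtain ⟨a1, a2, a3⟩ := key X
    obtain ⟨b1, b2, b3⟩ := key w
    rw [hX'] at a1 a2 a3
    have c1 : X.take A = w.take A := a1.symm.trans b1
    by_cases hs : X.length < A
    · have e1 : X.take A = X := List.take_of_length_le (by omega)
      have hlw : w.length < A := by
        have := congrArg List.length c1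
        rw [List.length_take, List.length_take] at this
        omega
      have e2 : w.take A = w := List.take_of_length_le (by omega)
      rw [e1, e2] at c1
      rw [← c1]; exact hPX
    · have hlw : A ≤ w.length := by
        have := congrArg List.length c1
        rw [List.length_take, List.length_take] at this
        omega
      exact (hP X w (by omega) hlw c1 (a2.symm.trans b2) (a3.symm.trans b3)).1 hPX
  · intro hw
    exact ⟨w, rfl, hw⟩

/-- few walls -/
theorem nw_le {n : ℕ} {S : Set (List α)} (w : List α) (z : ℕ)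
    (h : ∀ y, z ≤ y → y < w.length → ¬ Wa n S w y) : nw n S w ≤ z + 1 := by
  classical
  unfold nw
  have hsub : ((Finset.range (w.length + 1)).filter (fun x => Wl n S w x)) ⊆
      insert (w.length - n) (Finset.range z) := by
    intro x hx
    rw [Finset.mem_filter] at hx
    obtain ⟨hx1, hx2⟩ := hx
    rw [Finset.mem_insert, Finset.mem_range]
    by_contra hc
    push Not at hc
    obtain ⟨hc1, hc2⟩ := hc
    have hl := hx2.1
    refine h (x + n) (by omega) (by omega) ⟨by omega, by omega, ?_⟩
    rw [Nat.add_sub_cancel]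
    exact hx2.2
  refine (Finset.card_le_card hsub).trans ((Finset.card_insert_le _ _).trans ?_)
  rw [Finset.card_range]

theorem left_walls (α : Type) [Finite α] (W : ℕ) : ∃ (n : ℕ) (Wo : List α → Prop),
    (∀ P Q : List α, n ≤ Q.length → (Wo (P ++ Q) ↔ Wo Q)) ∧
    (∀ (X : List α) (t t' : ℕ), t < t' → t' ≤ X.length → Wo (X.take t) → Wo (X.take t') →
      t + W < t') ∧
    ∀ (z A L : ℕ), 0 < L → 0 < z → ∀ (S : Type) [Monoid S] [Finite S] (φ : α → S)
      (P : List α → Prop),
      (∀ X X' : List α, A ≤ X.length → A ≤ X'.length → X.take A = X'.take A →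
        ((X.drop A).map φ).prod = ((X'.drop A).map φ).prod → X.length % L = X'.length % L →
        (P X ↔ P X')) →
      HL 1 ({X | X ∈ Crest.Agent.R320.SemJ_832.XX Wo z ∧ P X} : Language α) ∧
      HL 1 ({w | (∀ X ∈ Crest.Agent.R320.SemJ_832.XX Wo z, ¬ X <+: w) ∧ P w} : Language α) := by
  obtain ⟨n, c, P0, Sw, hn, hP0, hS, hsep, hper, -⟩ :=
    Crest.Agent.R320.FewVal_228.exists_walls α (W + 1) (by omega)
  refine ⟨n, Wo n Sw, ?_, ?_, ?_⟩
  · intro P Q hQ
    unfold Wo
    rw [List.length_append, wa_right (by omega), Nat.add_sub_cancel_left]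
  · intro X t t' htt ht' h1 h2
    rw [wo_take (by omega)] at h1 h2
    have e1 : Wl n Sw X (t - n) := ⟨by have := h1.1; omega, h1.2.2⟩
    have e2 : Wl n Sw X (t' - n) := ⟨by have := h2.1; omega, h2.2.2⟩
    have := hsep X (t - n) (t' - n) (by have := h1.1; have := h2.1; omega) e1 e2
    have h3 := h1.1
    have h4 := h2.1
    omega
  · intro z A L hL hz S _ _ φ P hP
    have hregP := reg_key φ A L hL P hP
    constructor
    · refine Crest.Agent.R320.FewVal_228.HL_of_few hn hP0 hper (z + 1) ?_ ?_
      · exact ((Crest.Agent.R320.Reg_852.HL.isRegular (HL_XX n z Sw hS)).inf hregP)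
      · rintro w ⟨⟨h1, h2, h3⟩, -⟩
        refine nw_le w z fun y hy hy' hw => h3 y hy hy' ?_
        rw [wo_take (by omega)]
        exact hw
    · refine Crest.Agent.R320.FewVal_228.HL_of_few hn hP0 hper (z + 1)
        (L := ({w | (∀ X ∈ Crest.Agent.R320.SemJ_832.XX (Wo n Sw) z, ¬ X <+: w) ∧ P w} :
          Language α)) ?_ ?_
      · have hreg : Language.IsRegular
            ({w | ∀ X ∈ Crest.Agent.R320.SemJ_832.XX (Wo n Sw) z, ¬ X <+: w} : Language α) := by
          refine Crest.Agent.R320.Reg_852.HL.isRegular (k := 0) ?_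
          refine (((HL_XX n z Sw hS).mul HL.top).compl).congr fun w => Iff.symm ?_
          constructor
          · intro h X hX hXw
            obtain ⟨Y, rfl⟩ := hXw
            exact h (Language.mem_mul.2 ⟨X, hX, Y, trivial, rfl⟩)
          · intro h hw
            obtain ⟨X, hX, Y, -, rfl⟩ := Language.mem_mul.1 hw
            exact h X hX ⟨Y, rfl⟩
        exact hreg.inf hregP
      · rintro w ⟨h, -⟩
        classical
        refine nw_le w z fun y hy hy' hw => ?_
        have hex : ∃ e, z ≤ e ∧ e ≤ w.length ∧ Wa n Sw w e := ⟨y, hy, by omega, hw⟩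
        obtain ⟨f1, f2, f3⟩ := Nat.find_spec hex
        refine h (w.take (Nat.find hex)) ⟨?_, ?_, ?_⟩ (List.take_prefix _ _)
        · rw [List.length_take]; omega
        · rw [wo_take f2]; exact f3
        · intro t ht ht'
          rw [List.length_take] at ht'
          rw [List.take_take, Nat.min_eq_left (by omega), wo_take (by omega)]
          intro hw'
          exact Nat.find_min hex (by omega) ⟨ht, by omega, hw'⟩

end Crest.Agent.R320.LWK_920
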