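import Crest.Agent.R320.WallAll_291

/-!
Row 320: left-looking walls on all words (helper406), by reversal from WallAll_291.
-/

set_option autoImplicit false

namespace Crest.Agent.R320.LWallAll_406

/-- LEFT-LOOKING WALLS ON ALL WORDS: fixed period `P` in wall-free stretches. -/
theorem exists_left_walls (α : Type*) [Finite α] (W : ℕ) :
    ∃ (n c P : ℕ) (Ws : List α → Prop), 0 < P ∧
      (∀ U Q : List α, n ≤ Q.length → (Ws (U ++ Q) ↔ Ws Q)) ∧
      (∀ Q, Ws Q → n ≤ Q.length) ∧
      (∀ (Q : List α) (d : ℕ), Ws Q → 0 < d → d ≤ W → ¬ Ws (Q.take (Q.length - d))) ∧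
      (∀ (Y : List α) (i : ℕ), c ≤ i → i + c ≤ Y.length →
        (∀ t, i ≤ t + c → t ≤ i + c → ¬ Ws (Y.take t)) → Y[i]? = Y[i + P]?) := by
  obtain ⟨n, D, P, C, R, hP, h1, h2, h3, h4, -⟩ :=
    Crest.Agent.R320.WallAll_291.exists_walls_all α W
  refine ⟨n, D + P + 1 + n, P, fun Q => R Q.reverse, hP, ?_, ?_, ?_, ?_⟩
  · intro U Q hQ
    show R (U ++ Q).reverse ↔ R Q.reverse
    rw [List.reverse_append, h1 (Q.reverse ++ U.reverse), h1 Q.reverse,
      List.take_append_of_le_length (by rw [List.length_reverse]; exact hQ)]
  · intro Q hQ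
    have := h2 _ hQ
    rwa [List.length_reverse] at this
  · intro Q d hQ hd hdW hQ'
    have e : (Q.take (Q.length - d)).reverse = Q.reverse.drop d := by
      rw [List.reverse_take]
      by_cases hle : d ≤ Q.length
      · congr 1; omega
      · rw [List.drop_of_length_le (by rw [List.length_reverse]; omega),
          List.drop_of_length_le (by rw [List.length_reverse]; omega)]
    have hQ'' : R (Q.take (Q.length - d)).reverse := hQ'
    rw [e] at hQ''
    exact h3 _ d hQ hd hdW hQ''
  · intro Y i hi hi2 hno
    have hl : Y.reverse.length = Y.length := List.length_reverse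
    have hlt : i + P < Y.length := by omega
    have key := h4 Y.reverse (Y.length - 1 - i - P) (by omega) (by omega) (by
      intro j hj1 hj2 hRj
      by_cases hjl : j ≤ Y.length
      · refine hno (Y.length - j) (by omega) (by omega) ?_
        show R (Y.take (Y.length - j)).reverse
        rw [List.reverse_take]
        have : Y.length - (Y.length - j) = j := by omega
        rwa [this]
      · omega)
    rw [List.getElem?_reverse (by omega), List.getElem?_reverse (by omega)] at key
    have e1 : Y.length - 1 - (Y.length - 1 - i - P) = i + P := by omega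
    have e2 : Y.length - 1 - (Y.length - 1 - i - P + P) = i := by omega
    rw [e1, e2] at key
    exact key.symm

end Crest.Agent.R320.LWallAll_406
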