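import Crest.Agent.R320.Wall_291

set_option autoImplicit false

/-!
Row 320, CORE-1 in block form (helper421): left-looking walls and the threshold prefix code.
-/

namespace Crest.Agent.R320.LWall_421

open Crest.Agent.R320.Wall_291

variable {α : Type*}

theorem RF.reverse {e p : ℕ} {Q : List α} (h : RF e p Q) : RF e p Q.reverse := by
  intro x hx hl hi
  have h1 : (List.replicate e x).flatten.reverse <:+: Q := by
    have := List.reverse_infix.2 hi
    simpa using this
  have h2 : (List.replicate e x).flatten.reverse = (List.replicate e x.reverse).flatten := by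
    rw [List.reverse_flatten]
    simp
  rw [h2] at h1
  exact h x.reverse (by simpa using hx) (by simpa using hl) h1

/-- left-looking walls -/
theorem exists_left_walls (α : Type*) [Finite α] (e W : ℕ) :
    ∃ (n G : ℕ) (Wo : List α → Prop),
      (∀ P Q, n ≤ Q.length → (Wo (P ++ Q) ↔ Wo Q)) ∧
      (∀ P, Wo P → n ≤ P.length) ∧
      (∀ P Q, Wo P → Wo (P ++ Q) → Q ≠ [] → W < Q.length) ∧
      (∀ w i, RF e W w → i + G ≤ w.length → ∃ t, i < t ∧ t ≤ i + G ∧ Wo (w.take t)) := by
  obtain ⟨n, G, R, h1, h2, h3, h4⟩ := exists_walls α e W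
  refine ⟨n, G + n + 1, fun P => R P.reverse, ?_, ?_, ?_, ?_⟩
  · intro P Q hQ
    show R (P ++ Q).reverse ↔ R Q.reverse
    rw [List.reverse_append, h1 (Q.reverse ++ P.reverse), h1 Q.reverse]
    rw [List.take_append_of_le_length (by simpa using hQ)]
  · intro P hP
    simpa using h2 _ hP
  · intro P Q hP hPQ hQ
    by_contra hlt
    have hpos : 0 < Q.length := List.length_pos_iff.2 hQ
    have := h3 (P ++ Q).reverse Q.length hPQ hpos (by omega)
    apply this
    rw [List.reverse_append]
    have : (Q.reverse ++ P.reverse).drop Q.length = P.reverse := by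
      rw [List.drop_append_of_le_length (by simp)]
      simp
    rw [this]
    exact hP
  · intro w i hw hi
    have hRF : RF e W (w.take (i + G + n + 1)).reverse := RF.reverse (hw.take _)
    have hlen : (w.take (i + G + n + 1)).length = i + G + n + 1 := by
      rw [List.length_take]; omega
    obtain ⟨j, hj, hR⟩ := h4 _ hRF (by rw [List.length_reverse, hlen]; omega)
    refine ⟨i + G + n + 1 - j, by omega, by omega, ?_⟩
    show R (w.take (i + G + n + 1 - j)).reverse
    have : (w.take (i + G + n + 1)).reverse.drop j = (w.take (i + G + n + 1 - j)).reverse := by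
      rw [List.drop_reverse, hlen, List.take_take]
      congr 2
      omega
    rw [← this]
    exact hR

section Code

variable (Wo : List α → Prop) (thr : ℕ → ℕ) (M : ℕ)

/-- the threshold prefix code -/
def XX : Set (List α) :=
  {X | Wo X ∧ thr (X.length % M) ≤ X.length ∧ ∀ t < X.length, Wo (X.take t) → t < thr (t % M)}

variable {Wo thr M}

theorem XX.ne_nil (hpos : ∀ r, 0 < thr r) {X : List α} (hX : X ∈ XX Wo thr M) : X ≠ [] := by
  rintro rfl
  have h1 := hX.2.1
  have h2 := hpos (([] : List α).length % M)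
  simp only [List.length_nil] at h1 h2
  omega

theorem XX.prefix_free {X Y : List α} (hX : X ∈ XX Wo thr M) (hY : Y ∈ XX Wo thr M)
    (h : X <+: Y) : X = Y := by
  rcases h with ⟨Z, rfl⟩
  by_contra hne
  have hZ : Z ≠ [] := by
    rintro rfl
    simp at hne
  have hl : X.length < (X ++ Z).length := by
    rw [List.length_append]
    have := List.length_pos_iff.2 hZ
    omega
  have h1 := hY.2.2 X.length hl (by simpa using hX.1)
  exact absurd hX.2.1 (by omega)

/-- the first qualifying place exists as soon as one exists -/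
theorem exists_prefix {w : List α} {t : ℕ} (ht : t ≤ w.length) (hW : Wo (w.take t))
    (hth : thr (t % M) ≤ t) : ∃ s, s ≤ t ∧ w.take s ∈ XX Wo thr M := by
  classical
  have hex : ∃ s, s ≤ w.length ∧ Wo (w.take s) ∧ thr (s % M) ≤ s := ⟨t, ht, hW, hth⟩
  refine ⟨Nat.find hex, Nat.find_min' hex ⟨ht, hW, hth⟩, ?_⟩
  have hs := Nat.find_spec hex
  have hlen : (w.take (Nat.find hex)).length = Nat.find hex := by
    rw [List.length_take]; omega
  refine ⟨hs.2.1, by rw [hlen]; exact hs.2.2, ?_⟩
  intro r hr hWr
  rw [hlen] at hr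
  have h1 := Nat.find_min hex hr
  rw [List.take_take, min_eq_left hr.le] at hWr
  by_contra hge
  exact h1 ⟨by omega, hWr, by omega⟩

theorem length_le {e W G Z0 : ℕ} (hz : ∀ r, thr r ≤ Z0)
    (hG : ∀ w i, RF e W w → i + G ≤ w.length → ∃ t, i < t ∧ t ≤ i + G ∧ Wo (w.take t))
    {X : List α} (hX : X ∈ XX Wo thr M) (hRF : RF e W X) : X.length ≤ Z0 + G := by
  by_contra hlt
  obtain ⟨t, ht1, ht2, ht3⟩ := hG X Z0 hRF (by omega)
  have h1 := hX.2.2 t (by omega) ht3
  have h2 := hz (t % M)
  omega

/-- every run-free text is a product of code words and a short rest -/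
theorem cover {e W G Z0 : ℕ} (hpos : ∀ r, 0 < thr r) (hz : ∀ r, thr r ≤ Z0)
    (hG : ∀ w i, RF e W w → i + G ≤ w.length → ∃ t, i < t ∧ t ≤ i + G ∧ Wo (w.take t))
    (w : List α) (hRF : RF e W w) :
    ∃ (l : List (List α)) (E : List α), w = l.flatten ++ E ∧
      (∀ X ∈ l, X ∈ XX Wo thr M ∧ X.length ≤ Z0 + G ∧ X ≠ [] ∧ RF e W X) ∧
      (∀ X, X <+: E → X ≠ [] → X ∉ XX Wo thr M) ∧ E.length ≤ Z0 + G ∧ RF e W E := by
  classical
  induction hn : w.length using Nat.strong_induction_on generalizing w with
  | _ n ih =>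
    by_cases hex : ∃ X, X <+: w ∧ X ≠ [] ∧ X ∈ XX Wo thr M
    · obtain ⟨X, ⟨Y, hY⟩, hne, hX⟩ := hex
      have hpos' : 0 < X.length := List.length_pos_iff.2 hne
      have hRX : RF e W X := hRF.infix ⟨[], Y, by simpa using hY⟩
      have hRY : RF e W Y := hRF.infix ⟨X, [], by simpa using hY⟩
      have hlen : Y.length < n := by
        have := congrArg List.length hY
        rw [List.length_append] at this
        omega
      obtain ⟨l, E, h1, h2, h3, h4, h5⟩ := ih Y.length hlen Y hRY rfl
      refine ⟨X :: l, E, ?_, ?_, h3, h4, h5⟩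
      · rw [← hY, h1]; simp
      · intro Z hZ
        rcases List.mem_cons.1 hZ with rfl | hZ
        · exact ⟨hX, length_le hz hG hX hRX, hne, hRX⟩
        · exact h2 Z hZ
    · refine ⟨[], w, by simp, by simp, ?_, ?_, hRF⟩
      · intro X hX hne hXX
        exact hex ⟨X, hX, hne, hXX⟩
      · by_contra hlt
        obtain ⟨t, ht1, ht2, ht3⟩ := hG w Z0 hRF (by omega)
        obtain ⟨s, hs1, hs2⟩ := exists_prefix (thr := thr) (M := M) (w := w) (t := t)
          (by omega) ht3 (le_trans (hz _) ht1.le)
        exact hex ⟨w.take s, List.take_prefix _ _, XX.ne_nil hpos hs2, hs2⟩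

end Code

end Crest.Agent.R320.LWall_421
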