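import Mathlib
import Crest.Agent.R320.Hk2_851

set_option autoImplicit false
set_option linter.unusedSectionVars false

namespace Crest.Agent.R320.Lang_352

open Crest.Agent.R320.Hk_851

variable {α V : Type*}

structure Sys (α V : Type*) where
  XX : Set (List α)
  T : V → List α → V
  L1 : V → Set (List α)
  R1 : V → Set (List α)
  L2 : V → Set (List α)
  R2 : V → Set (List α)
  F : Set (List α)
  Bad : Set (List α)

structure Sys.Ok (C : Sys α V) : Prop where
  ne : [] ∉ C.XX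
  pre : ∀ X Y, X ∈ C.XX → Y ∈ C.XX → X <+: Y → X = Y
  FX : ∀ X, X ∈ C.F → X ∈ C.XX
  fF : C.F.Finite
  fL1 : ∀ v, (C.L1 v).Finite
  fR1 : ∀ v, (C.R1 v).Finite
  fL2 : ∀ v, (C.L2 v).Finite
  fR2 : ∀ v, (C.R2 v).Finite
  ne2 : ∀ v, [] ∉ C.L2 v
  s1 : ∀ v v' P Q, P ∈ C.L1 v → Q ∈ C.R1 v' → P ++ Q ∈ C.XX ∧ C.T v (P ++ Q) = v'
  s2 : ∀ v v' P Q X r, P ∈ C.L2 v → Q ∈ C.R2 v' → X ∈ C.F → X ∈ C.Bad → X <+: P ++ Q ++ r →
    P ++ Q ∈ C.XX ∧ C.T v (P ++ Q) = v'
  c1 : ∀ X, X ∈ C.F → X ∉ C.Bad → ∀ v, ∃ P Q, X = P ++ Q ∧ P ∈ C.L1 v ∧ Q ∈ C.R1 (C.T v X)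
  c2 : ∀ X, X ∈ C.F → X ∈ C.Bad → ∀ v, ∃ P Q, X = P ++ Q ∧ P ∈ C.L2 v ∧ Q ∈ C.R2 (C.T v X)

variable {C : Sys α V}

def rb (T : V → List α → V) (v : V) (l : List (List α)) : V := l.foldl T v

theorem rb_nil (T : V → List α → V) (v : V) : rb T v [] = v := rfl

theorem rb_cons (T : V → List α → V) (v : V) (X : List α) (l : List (List α)) :
    rb T v (X :: l) = rb T (T v X) l := rfl

def tl (s : Set (List α)) : Language α := s

def FB (C : Sys α V) : Set (List α) := {X | X ∈ C.F ∧ X ∈ C.Bad}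

def K2 (C : Sys α V) : Set (List α) := {u | ∃ y, ∃ Q ∈ C.R2 y, ∃ P ∈ C.L2 y, u = Q ++ P}

def TC2 (C : Sys α V) (v v' : V) : Language α :=
  {M | ∃ l : List (List α), (∀ X ∈ l, X ∈ FB C) ∧ M = l.flatten ∧ rb C.T v l = v'}

theorem K2_fin [Finite V] (h : C.Ok) : (K2 C).Finite := by
  have : K2 C ⊆ ⋃ y, Set.image2 (fun Q P => Q ++ P) (C.R2 y) (C.L2 y) := by
    rintro u ⟨y, Q, hQ, P, hP, rfl⟩
    exact Set.mem_iUnion.2 ⟨y, Q, hQ, P, hP, rfl⟩
  exact (Set.finite_iUnion fun y => (h.fR2 y).image2 _ (h.fL2 y)).subset this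

theorem tc2_aux (h : C.Ok) {v' : V} (ks : List (List α)) (hks : ∀ u ∈ ks, u ∈ K2 C) :
    ∀ (v : V) (P Q : List α) (l : List (List α)), P ∈ C.L2 v → Q ∈ C.R2 v' →
      (∀ X ∈ l, X ∈ FB C) → l.flatten = P ++ ks.flatten ++ Q → rb C.T v l = v' := by
  have key : ∀ (v y : V) (P Q r : List α) (l : List (List α)), P ∈ C.L2 v → Q ∈ C.R2 y →
      (∀ X ∈ l, X ∈ FB C) → l.flatten = P ++ Q ++ r →
      ∃ l', l = (P ++ Q) :: l' ∧ l'.flatten = r ∧ C.T v (P ++ Q) = y := by
    intro v y P Q r l hP hQ hl e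
    cases l with
    | nil =>
      simp only [List.flatten_nil] at e
      have : P = [] := by
        have := congrArg List.length e
        simp only [List.length_nil, List.length_append] at this
        exact List.length_eq_zero_iff.1 (by omega)
      exact absurd (this ▸ hP) (h.ne2 v)
    | cons X l' =>
      obtain ⟨hX1, hX2⟩ := hl X (by simp)
      have hpre : X <+: P ++ Q ++ r := ⟨l'.flatten, by rw [← e]; simp⟩
      obtain ⟨a1, a2⟩ := h.s2 v y P Q X r hP hQ hX1 hX2 hpre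
      have hXe : X = P ++ Q := by
        rcases List.prefix_or_prefix_of_prefix hpre (List.prefix_append (P ++ Q) r) with h1 | h1
        · exact h.pre _ _ (h.FX _ hX1) a1 h1
        · exact (h.pre _ _ a1 (h.FX _ hX1) h1).symm
      refine ⟨l', by rw [hXe], ?_, a2⟩
      rw [List.flatten_cons, hXe] at e
      exact List.append_cancel_left e
  induction ks with
  | nil =>
    intro v P Q l hP hQ hl e
    obtain ⟨l', rfl, h1, h2⟩ := key v v' P Q [] l hP hQ hl (by simpa using e)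
    have : l' = [] := by
      cases l' with
      | nil => rfl
      | cons X l'' =>
        exfalso
        have hX := hl X (by simp)
        have : X = [] := by
          have := congrArg List.length h1
          simp only [List.flatten_cons, List.length_nil, List.length_append] at this
          exact List.length_eq_zero_iff.1 (by omega)
        exact h.ne (this ▸ h.FX _ hX.1)
    subst this
    rw [rb_cons, h2, rb_nil]
  | cons u ks ih =>
    intro v P Q l hP hQ hl e
    obtain ⟨y, Q1, hQ1, P1, hP1, rfl⟩ := hks u (by simp)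
    obtain ⟨l', rfl, h1, h2⟩ := key v y P Q1 (P1 ++ ks.flatten ++ Q) l hP hQ1 hl (by
      rw [e]; simp [List.append_assoc])
    rw [rb_cons, h2]
    exact ih (fun u hu => hks u (by simp [hu])) y P1 Q l' hP1 hQ (fun X hX => hl X (by simp [hX]))
      h1

theorem TC2_HL [Finite V] (h : C.Ok) (v v' : V) : HL 1 (TC2 C v v') := by
  have hFB : (FB C).Finite := h.fF.subset fun X hX => hX.1
  have b1 : HL 0 (tl (FB C)) := HL.finite hFB
  have a1 : HL 1 (KStar.kstar (tl (FB C))) := b1.star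
  have b2 : HL 0 (tl (K2 C)) := HL.finite (K2_fin h)
  have a2 : HL 1 (KStar.kstar (tl (K2 C))) := b2.star
  have a3 : HL 1 ((tl (C.L2 v)) * KStar.kstar (tl (K2 C)) * (tl (C.R2 v'))) :=
    ((show HL 1 (tl (C.L2 v)) from HL.finite (h.fL2 v)).mul a2).mul
      (show HL 1 (tl (C.R2 v')) from HL.finite (h.fR2 v'))
  have a4 : HL 1 ({w | w = [] ∧ v = v'} : Language α) :=
    HL.setOf_and (p := fun w => w = []) (HL.one.congr fun w => Iff.rfl) (HL.const _)
  refine (a1.inf (a4.sup a3)).congr fun M => ?_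
  constructor
  · rintro ⟨l, hl, rfl, hr⟩
    refine ⟨Language.mem_kstar.2 ⟨l, rfl, hl⟩, ?_⟩
    induction l generalizing v with
    | nil => exact Or.inl ⟨rfl, hr⟩
    | cons X l ih =>
      right
      obtain ⟨hX1, hX2⟩ := hl X (by simp)
      obtain ⟨P, Q, hX, hP, hQ⟩ := h.c2 X hX1 hX2 v
      rw [rb_cons] at hr
      rcases ih (v := C.T v X) (by
          exact ((show HL 1 (tl (C.L2 _)) from HL.finite (h.fL2 _)).mul a2).mul
            (show HL 1 (tl (C.R2 v')) from HL.finite (h.fR2 v')))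
        (HL.setOf_and (p := fun w => w = []) (HL.one.congr fun w => Iff.rfl) (HL.const _))
        (fun Y hY => hl Y (by simp [hY])) hr with ⟨h1, h2⟩ | ⟨a, ⟨P', hP', u, hu, rfl⟩, Q', hQ', h3⟩
      · refine ⟨P ++ [], ⟨P, hP, [], Language.nil_mem_kstar _, rfl⟩, Q, h2 ▸ hQ, ?_⟩
        rw [List.flatten_cons, h1]
        show P ++ [] ++ Q = X ++ []
        simp [hX]
      · obtain ⟨L, rfl, hL⟩ := Language.mem_kstar.1 hu
        refine ⟨P ++ ((Q ++ P') :: L).flatten, ⟨P, hP, _, Language.mem_kstar.2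
          ⟨(Q ++ P') :: L, rfl, ?_⟩, rfl⟩, Q', hQ', ?_⟩
        · intro y hy
          rcases List.mem_cons.1 hy with rfl | hy
          · exact ⟨_, Q, hQ, P', hP', rfl⟩
          · exact hL y hy
        · show P ++ ((Q ++ P') :: L).flatten ++ Q' = X ++ l.flatten
          rw [← h3]
          show P ++ ((Q ++ P') :: L).flatten ++ Q' = X ++ (P' ++ L.flatten ++ Q')
          rw [List.flatten_cons, hX]
          simp [List.append_assoc]
  · rintro ⟨hM, h1 | h1⟩
    · obtain ⟨h1, h2⟩ := h1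
      exact ⟨[], by simp, by simpa using h1, h2⟩
    · obtain ⟨a, ⟨P, hP, u, hu, rfl⟩, Q, hQ, rfl⟩ := h1
      obtain ⟨l, hl1, hl2⟩ := Language.mem_kstar.1 hM
      obtain ⟨L, rfl, hL⟩ := Language.mem_kstar.1 hu
      refine ⟨l, hl2, hl1, ?_⟩
      exact tc2_aux h L hL v P Q l hP hQ hl2 hl1.symm

def K1 (C : Sys α V) : Language α :=
  {u | ∃ p : V × V, u ∈ tl (C.R1 p.1) * TC2 C p.1 p.2 * tl (C.L1 p.2)}

theorem K1_HL [Finite V] (h : C.Ok) : HL 1 (K1 C) := by
  refine HL.iUnion (ι := V × V) (L := fun p => tl (C.R1 p.1) * TC2 C p.1 p.2 * tl (C.L1 p.2))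
    fun p => ?_
  have b1 : HL 1 (tl (C.R1 p.1)) := HL.finite (h.fR1 _)
  have b2 : HL 1 (tl (C.L1 p.2)) := HL.finite (h.fL1 _)
  exact (b1.mul (TC2_HL h _ _)).mul b2

def U (C : Sys α V) (v v' : V) : Language α :=
  {w | w ∈ TC2 C v v' ∨ w ∈ ({w | ∃ p : V × V, w ∈ TC2 C v p.1 * tl (C.L1 p.1) *
    KStar.kstar (K1 C) * tl (C.R1 p.2) * TC2 C p.2 v'} : Language α)}

theorem U_HL [Finite V] (h : C.Ok) (v v' : V) : HL 2 (U C v v') := by
  refine HL.setOf_or (p := fun w => w ∈ TC2 C v v') ((TC2_HL h v v').mono (by norm_num)) ?_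
  refine HL.iUnion (ι := V × V) (L := fun p => TC2 C v p.1 * tl (C.L1 p.1) *
    KStar.kstar (K1 C) * tl (C.R1 p.2) * TC2 C p.2 v') fun p => ?_
  have b1 : HL 2 (tl (C.L1 p.1)) := HL.finite (h.fL1 _)
  have b2 : HL 2 (tl (C.R1 p.2)) := HL.finite (h.fR1 _)
  exact (((((TC2_HL h _ _).mono (by norm_num)).mul b1).mul (K1_HL h).star).mul b2).mul
    ((TC2_HL h _ _).mono (by norm_num))

theorem rb_append (T : V → List α → V) (v : V) (l m : List (List α)) :
    rb T v (l ++ m) = rb T (rb T v l) m := List.foldl_append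

theorem tc2_XX (h : C.Ok) {v v' : V} {M : List α} (hM : M ∈ TC2 C v v') :
    ∃ l : List (List α), (∀ X ∈ l, X ∈ C.XX) ∧ M = l.flatten ∧ rb C.T v l = v' := by
  obtain ⟨l, h1, h2, h3⟩ := hM
  exact ⟨l, fun X hX => h.FX _ (h1 X hX).1, h2, h3⟩

theorem k1_aux (h : C.Ok) {y' : V} (ks : List (List α)) (hks : ∀ u ∈ ks, u ∈ K1 C) :
    ∀ (y : V) (P Q : List α), P ∈ C.L1 y → Q ∈ C.R1 y' →
      ∃ l : List (List α), (∀ X ∈ l, X ∈ C.XX) ∧ P ++ ks.flatten ++ Q = l.flatten ∧
        rb C.T y l = y' := by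
  induction ks with
  | nil =>
    intro y P Q hP hQ
    obtain ⟨h1, h2⟩ := h.s1 _ _ _ _ hP hQ
    exact ⟨[P ++ Q], by simpa using h1, by simp, by rw [rb_cons, h2, rb_nil]⟩
  | cons u ks ih =>
    intro y P Q hP hQ
    obtain ⟨p, a, ⟨Q1, hQ1, M1, hM1, rfl⟩, P1, hP1, rfl⟩ := hks u (by simp)
    obtain ⟨h1, h2⟩ := h.s1 _ _ _ _ hP hQ1
    obtain ⟨l1, g1, g2, g3⟩ := tc2_XX h hM1
    obtain ⟨l2, g4, g5, g6⟩ := ih (fun u hu => hks u (by simp [hu])) p.2 P1 Q hP1 hQ
    refine ⟨(P ++ Q1) :: (l1 ++ l2), ?_, ?_, ?_⟩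
    · intro X hX
      rcases List.mem_cons.1 hX with rfl | hX
      · exact h1
      · rcases List.mem_append.1 hX with hX | hX
        · exact g1 X hX
        · exact g4 X hX
    · show P ++ ((Q1 ++ M1 ++ P1) :: ks).flatten ++ Q = _
      rw [List.flatten_cons, List.flatten_cons, List.flatten_append, ← g2, ← g5]
      simp [List.append_assoc]
    · rw [rb_cons, h2, rb_append, g3, g6]

theorem U_sound (h : C.Ok) {v v' : V} {w : List α} (hw : w ∈ U C v v') :
    ∃ l : List (List α), (∀ X ∈ l, X ∈ C.XX) ∧ w = l.flatten ∧ rb C.T v l = v' := by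
  rcases hw with hw | ⟨p, a, ⟨b, ⟨c, ⟨M, hM, P, hP, rfl⟩, k, hk, rfl⟩, Q, hQ, rfl⟩, M', hM', rfl⟩
  · exact tc2_XX h hw
  · obtain ⟨L, rfl, hL⟩ := Language.mem_kstar.1 hk
    obtain ⟨l1, g1, g2, g3⟩ := tc2_XX h hM
    obtain ⟨l2, g4, g5, g6⟩ := k1_aux h L hL _ P Q hP hQ
    obtain ⟨l3, g7, g8, g9⟩ := tc2_XX h hM'
    refine ⟨l1 ++ l2 ++ l3, ?_, ?_, ?_⟩
    · intro X hX
      simp only [List.mem_append] at hX
      rcases hX with (hX | hX) | hX
      · exact g1 X hX
      · exact g4 X hX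
      · exact g7 X hX
    · rw [List.flatten_append, List.flatten_append, ← g2, ← g5, ← g8]
      show M ++ P ++ L.flatten ++ Q ++ M' = _
      simp [List.append_assoc]
    · rw [rb_append, rb_append, g3, g6, g9]

theorem TC2_nil (v : V) : [] ∈ TC2 C v v := ⟨[], by simp, rfl, rfl⟩

theorem U_complete (h : C.Ok) (l : List (List α)) (hl : ∀ X ∈ l, X ∈ C.F) :
    ∀ v : V, l.flatten ∈ U C v (rb C.T v l) := by
  induction l with
  | nil => intro v; exact Or.inl (TC2_nil v)
  | cons X l ih =>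
    intro v
    have hX := hl X (by simp)
    have ih' := ih (fun Y hY => hl Y (by simp [hY])) (C.T v X)
    rw [rb_cons, List.flatten_cons]
    set v' := rb C.T (C.T v X) l with hv'
    by_cases hb : X ∈ C.Bad
    · rcases ih' with h1 | ⟨p, a, ⟨b, ⟨c, ⟨M, hM, P, hP, rfl⟩, k, hk, rfl⟩, Q, hQ, rfl⟩, M', hM', e⟩
      · obtain ⟨l', a1, a2, a3⟩ := h1
        refine Or.inl ⟨X :: l', ?_, by rw [List.flatten_cons, a2], by rw [rb_cons, a3]⟩
        intro Y hY
        rcases List.mem_cons.1 hY with rfl | hY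
        · exact ⟨hX, hb⟩
        · exact a1 Y hY
      · obtain ⟨l', a1, a2, a3⟩ := hM
        refine Or.inr ⟨p, _, ⟨_, ⟨_, ⟨X ++ M, ⟨X :: l', ?_, by rw [List.flatten_cons, a2],
          by rw [rb_cons, a3]⟩, P, hP, rfl⟩, k, hk, rfl⟩, Q, hQ, rfl⟩, M', hM', ?_⟩
        · intro Y hY
          rcases List.mem_cons.1 hY with rfl | hY
          · exact ⟨hX, hb⟩
          · exact a1 Y hY
        · rw [← e]
          show X ++ M ++ P ++ k ++ Q ++ M' = X ++ (M ++ P ++ k ++ Q ++ M')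
          simp [List.append_assoc]
    · obtain ⟨P0, Q0, hX0, hP0, hQ0⟩ := h.c1 X hX hb v
      rcases ih' with h1 | ⟨p, a, ⟨b, ⟨c, ⟨M, hM, P, hP, rfl⟩, k, hk, rfl⟩, Q, hQ, rfl⟩, M', hM', e⟩
      · refine Or.inr ⟨(v, C.T v X), _, ⟨_, ⟨_, ⟨[], TC2_nil v, P0, hP0, rfl⟩, [],
          Language.nil_mem_kstar _, rfl⟩, Q0, hQ0, rfl⟩, l.flatten, h1, ?_⟩
        show [] ++ P0 ++ [] ++ Q0 ++ l.flatten = X ++ l.flatten
        rw [hX0]; simp
      · obtain ⟨L, rfl, hL⟩ := Language.mem_kstar.1 hk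
        refine Or.inr ⟨(v, p.2), _, ⟨_, ⟨_, ⟨[], TC2_nil v, P0, hP0, rfl⟩,
          ((Q0 ++ M ++ P) :: L).flatten, Language.mem_kstar.2 ⟨(Q0 ++ M ++ P) :: L, rfl, ?_⟩, rfl⟩,
          Q, hQ, rfl⟩, M', hM', ?_⟩
        · intro y hy
          rcases List.mem_cons.1 hy with rfl | hy
          · exact ⟨(C.T v X, p.1), _, ⟨Q0, hQ0, M, hM, rfl⟩, P, hP, rfl⟩
          · exact hL y hy
        · rw [← e]
          show [] ++ P0 ++ ((Q0 ++ M ++ P) :: L).flatten ++ Q ++ M' =
            X ++ (M ++ P ++ L.flatten ++ Q ++ M')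
          rw [hX0, List.flatten_cons]
          simp [List.append_assoc]

theorem parse_unique (h : C.Ok) : ∀ (l m : List (List α)), (∀ X ∈ l, X ∈ C.XX) →
    (∀ X ∈ m, X ∈ C.XX) → l.flatten = m.flatten → l = m := by
  intro l
  induction l with
  | nil =>
    intro m _ hm e
    cases m with
    | nil => rfl
    | cons Y m =>
      exfalso
      have : Y = [] := by
        have := congrArg List.length e
        simp only [List.flatten_cons, List.flatten_nil, List.length_nil,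
          List.length_append] at this
        exact List.length_eq_zero_iff.1 (by omega)
      exact h.ne (this ▸ hm Y (by simp))
  | cons X l ih =>
    intro m hl hm e
    cases m with
    | nil =>
      exfalso
      have : X = [] := by
        have := congrArg List.length e
        simp only [List.flatten_cons, List.flatten_nil, List.length_nil,
          List.length_append] at this
        exact List.length_eq_zero_iff.1 (by omega)
      exact h.ne (this ▸ hl X (by simp))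
    | cons Y m =>
      simp only [List.flatten_cons] at e
      have hXY : X = Y := by
        have p2 : Y <+: X ++ l.flatten := by rw [e]; exact List.prefix_append _ _
        rcases List.prefix_or_prefix_of_prefix (List.prefix_append X l.flatten) p2 with h1 | h1
        · exact h.pre _ _ (hl X (by simp)) (hm Y (by simp)) h1
        · exact (h.pre _ _ (hm Y (by simp)) (hl X (by simp)) h1).symm
      subst hXY
      rw [ih m (fun Z hZ => hl Z (by simp [hZ])) (fun Z hZ => hm Z (by simp [hZ]))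
        (List.append_cancel_left e)]

/-- reading of the content -/
theorem half1 {S : Type*} [Monoid S] [Finite S] [AddCommGroup V] [Finite V] [Finite α]
    (h : C.Ok) (φ : List α → S) (hφ0 : φ [] = 1) (hφ : ∀ u v, φ (u ++ v) = φ u * φ v)
    (act : V → S → V) (ha1 : ∀ v, act v 1 = v) (ha : ∀ v s t, act (act v s) t = act v (s * t))
    (hadd : ∀ v v' s, act (v - v') s = act v s - act v' s)
    (hfa : ∀ s t, (∀ v, act v s = act v t) → s = t)
    (nu : List α → V) (hT : ∀ v X, X ∈ C.XX → C.T v X = act v (φ X) + nu X)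
    (G : Language α) (hG : HL 2 G) (B : ℕ)
    (hpar : ∀ w ∈ G, ∃ l : List (List α), (∀ X ∈ l, X ∈ C.F) ∧ ∃ E, E.length ≤ B ∧
      w = l.flatten ++ E) (s : S) :
    HL 2 ({w | w ∈ G ∧ φ w = s} : Language α) := by
  have hact0 : ∀ s, act 0 s = 0 := fun s => by
    have := hadd 0 0 s
    simpa using this
  have hdiff : ∀ (l : List (List α)), (∀ X ∈ l, X ∈ C.XX) → ∀ v v',
      rb C.T v l - rb C.T v' l = act (v - v') (φ l.flatten) := by
    intro l
    induction l with
    | nil => intro _ v v'; rw [List.flatten_nil, hφ0, ha1]; rfl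
    | cons X l ih =>
      intro hl v v'
      rw [rb_cons, rb_cons, ih (fun Y hY => hl Y (by simp [hY])), List.flatten_cons, hφ, ← ha]
      congr 1
      rw [hT v X (hl X (by simp)), hT v' X (hl X (by simp)), hadd]
      abel
  let A : S → Language α := fun g => {M | ∀ v, M ∈ ({M | ∃ v', M ∈ ({M | M ∈ U C v v' ∧
    M ∈ U C 0 (v' - act v g)} : Language α)} : Language α)}
  have hA : ∀ g, HL 2 (A g) := fun g => by
    refine HL.iInter (ι := V) (L := fun v => ({M | ∃ v', M ∈ ({M | M ∈ U C v v' ∧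
      M ∈ U C 0 (v' - act v g)} : Language α)} : Language α)) fun v => ?_
    refine HL.iUnion (ι := V) (L := fun v' => ({M | M ∈ U C v v' ∧
      M ∈ U C 0 (v' - act v g)} : Language α)) fun v' => ?_
    exact HL.setOf_and (U_HL h _ _) (U_HL h _ _)
  have hA1 : ∀ g M, M ∈ A g → φ M = g := by
    intro g M hM
    apply hfa
    intro v
    obtain ⟨v', h1, h2⟩ := hM v
    obtain ⟨l, a1, a2, a3⟩ := U_sound h h1
    obtain ⟨m, b1, b2, b3⟩ := U_sound h h2
    have : l = m := parse_unique h l m a1 b1 (by rw [← a2, ← b2])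
    subst this
    have := hdiff l a1 v 0
    rw [a3, b3, sub_sub_cancel, sub_zero, ← a2] at this
    exact this.symm
  have hA2 : ∀ l : List (List α), (∀ X ∈ l, X ∈ C.F) → l.flatten ∈ A (φ l.flatten) := by
    intro l hl v
    refine ⟨rb C.T v l, U_complete h l hl v, ?_⟩
    have := hdiff l (fun X hX => h.FX _ (hl X hX)) v 0
    rw [sub_zero] at this
    rw [← this, sub_sub_cancel]
    exact U_complete h l hl 0
  have key : HL 2 ({w | ∃ E ∈ {E : List α | E.length ≤ B}, w ∈ ({w | ∃ g : S,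
      w ∈ ({w | g * φ E = s ∧ w ∈ A g * tl {E}} : Language α)} : Language α)} : Language α) := by
    refine HL.biUnion (List.finite_length_le α B) fun E _ => ?_
    refine HL.iUnion (ι := S) (L := fun g => ({w | g * φ E = s ∧ w ∈ A g * tl {E}} : Language α))
      fun g => ?_
    exact HL.setOf_and (p := fun _ => g * φ E = s) (HL.const _) ((hA g).mul (HL.word E))
  refine (HL.setOf_and (p := fun w => w ∈ G) hG key).congr fun w => ?_
  constructor
  · rintro ⟨hw, rfl⟩
    refine ⟨hw, ?_⟩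
    obtain ⟨l, hl, E, hE, rfl⟩ := hpar w hw
    exact ⟨E, hE, φ l.flatten, (hφ _ _).symm, l.flatten, hA2 l hl, E, rfl, rfl⟩
  · rintro ⟨hw, E, hE, g, hg, M, hM, E', hE', rfl⟩
    refine ⟨hw, ?_⟩
    have : E' = E := hE'
    subst this
    show φ (M ++ E') = s
    rw [hφ, hA1 g M hM, hg]

end Crest.Agent.R320.Lang_352
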