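import Mathlib

/-!
# Row 320, leaf U4 of helper638 (#13273): `spoil` (helper626)

Ruler `x a = 16 * 2 ^ a * (sum of all scales)`; every thin condition is met by at most one pair.
-/

set_option autoImplicit false

namespace Crest.Agent.R320.Spoil_626

def PP (R M0 M1 l : ℕ) := (R*M0) * (R*M1)^l

def Bad (R M0 M1 m rho : ℕ) (Ms Ms1 : Finset ℕ) (n : ℕ) : Prop :=
  (n % (R*M0) < M0 ∨ R*M0 ≤ n % (R*M0) + M0) ∨ (∃ k ∈ Ms, k ∣ n) ∨
    ∃ l < m, ((n / PP R M0 M1 l) % (R*M1) < M1 ∨ R*M1 ≤ (n / PP R M0 M1 l) % (R*M1) + M1) ∨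
      rho ≤ (Ms1.filter (· ∣ n / PP R M0 M1 l)).card

/-- sums of two powers of two -/
theorem pow_eq {a b c d : ℕ} (h : 2 ^ a + 2 ^ d = 2 ^ b + 2 ^ c) :
    (a = b ∧ d = c) ∨ (a = c ∧ d = b) := by
  have aux : ∀ {p q r s : ℕ}, 2 ^ p + 2 ^ q = 2 ^ r + 2 ^ s → p ≤ q → p < r → p < s → False := by
    intro p q r s h hpq hr hs
    obtain ⟨q', rfl⟩ := Nat.exists_eq_add_of_le hpq
    obtain ⟨r', rfl⟩ := Nat.exists_eq_add_of_lt hr
    obtain ⟨s', rfl⟩ := Nat.exists_eq_add_of_lt hs
    have hp : 0 < 2 ^ p := by positivity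
    have e1 : 2 ^ p * (1 + 2 ^ q') = 2 ^ p * (2 * 2 ^ r' + 2 * 2 ^ s') := by
      have : 2 ^ p + 2 ^ (p + q') = 2 ^ (p + r' + 1) + 2 ^ (p + s' + 1) := h
      rw [pow_add, pow_add, pow_add, pow_add, pow_add] at this
      nlinarith [this]
    have e2 := Nat.eq_of_mul_eq_mul_left hp e1
    rcases Nat.eq_zero_or_pos q' with rfl | hq
    · have h1 : 0 < 2 ^ r' := by positivity
      have h2 : 0 < 2 ^ s' := by positivity
      simp at e2
      omega
    · obtain ⟨q'', rfl⟩ := Nat.exists_eq_add_of_lt hq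
      rw [Nat.zero_add, pow_succ] at e2
      omega
  have inj : ∀ {p q : ℕ}, 2 ^ p = 2 ^ q → p = q := fun h => Nat.pow_right_injective le_rfl h
  -- the minimum of all four is attained on both sides
  rcases lt_trichotomy a b with h1 | h1 | h1
  · rcases lt_trichotomy a c with h2 | h2 | h2
    · rcases le_total a d with h3 | h3
      · exact (aux h h3 h1 h2).elim
      · exact (aux (p := d) (q := a) (r := b) (s := c) (by rw [Nat.add_comm]; exact h) h3 (by omega)
          (by omega)).elim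
    · subst h2
      right
      exact ⟨rfl, inj (by omega)⟩
    · -- c < a < b
      rcases lt_trichotomy d c with h4 | h4 | h4
      · exact (aux (p := d) (q := a) (r := b) (s := c) (by rw [Nat.add_comm]; exact h) (by omega) (by omega) h4).elim
      · subst h4
        exact absurd (inj (by omega : 2 ^ a = 2 ^ b)) (by omega)
      · exact (aux (p := c) (q := b) (r := a) (s := d) (by omega) (by omega) (by omega) h4).elim
  · subst h1
    left
    exact ⟨rfl, inj (by omega)⟩
  · rcases lt_trichotomy a c with h2 | h2 | h2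
    · -- b < a < c
      rcases lt_trichotomy d b with h4 | h4 | h4
      · exact (aux (p := d) (q := a) (r := b) (s := c) (by rw [Nat.add_comm]; exact h) (by omega) h4 (by omega)).elim
      · subst h4
        exact absurd (inj (by omega : 2 ^ a = 2 ^ c)) (by omega)
      · exact (aux (p := b) (q := c) (r := a) (s := d) (by omega) (by omega) (by omega) h4).elim
    · subst h2
      right
      exact ⟨rfl, inj (by omega)⟩
    · -- b, c < a
      rcases le_total b c with h3 | h3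
      · rcases Nat.lt_or_ge b d with h4 | h4
        · exact (aux (p := b) (q := c) (r := a) (s := d) (by omega) h3 h1 h4).elim
        · rcases Nat.eq_or_lt_of_le h4 with h5 | h5
          · subst h5
            exact absurd (inj (by omega : 2 ^ a = 2 ^ c)) (by omega)
          · exact (aux (p := d) (q := a) (r := b) (s := c) (by rw [Nat.add_comm]; exact h) (by omega) h5
              (by omega)).elim
      · rcases Nat.lt_or_ge c d with h4 | h4
        · exact (aux (p := c) (q := b) (r := a) (s := d) (by omega) h3 h2 h4).elim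
        · rcases Nat.eq_or_lt_of_le h4 with h5 | h5
          · subst h5
            exact absurd (inj (by omega : 2 ^ a = 2 ^ b)) (by omega)
          · exact (aux (p := d) (q := a) (r := b) (s := c) (by rw [Nat.add_comm]; exact h) (by omega) (by omega)
              h5).elim

/-- floor at one scale -/
theorem floor_scale (T s L U d : ℤ) (hs : 0 < s) (hL : |d * L| ≤ s) :
    ∃ ε : ℤ, |ε| ≤ 1 ∧ (T + d * (L + s * U)) / s = T / s + ε + d * U := by
  have e1 : (T + d * (L + s * U)) / s = (T + d * L) / s + d * U := by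
    have : T + d * (L + s * U) = (T + d * L) + s * (d * U) := by ring
    rw [this, Int.add_mul_ediv_left _ _ hs.ne']
  rw [abs_le] at hL
  have h1 := Int.mul_ediv_add_emod T s
  have h2 := Int.emod_nonneg T hs.ne'
  have h3 := Int.emod_lt_of_pos T hs
  have g1 : T / s - 1 ≤ (T + d * L) / s := by
    rw [Int.le_ediv_iff_mul_le hs]
    nlinarith
  have g2 : (T + d * L) / s < T / s + 2 := by
    rw [Int.ediv_lt_iff_lt_mul hs]
    nlinarith
  refine ⟨(T + d * L) / s - T / s, ?_, by rw [e1]; ring⟩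
  rw [abs_le]
  constructor <;> omega

/-- near a multiple of `Q` -/
def Near (M Q q : ℤ) : Prop := q % Q < M ∨ Q ≤ q % Q + M

theorem Near.exists {M Q q : ℤ} (hM : 0 ≤ M) (hQ : 0 < Q) (h : Near M Q q) :
    ∃ j : ℤ, |q - Q * j| ≤ M := by
  have h1 := Int.mul_ediv_add_emod q Q
  have h2 := Int.emod_nonneg q hQ.ne'
  have h3 := Int.emod_lt_of_pos q hQ
  rcases h with h | h
  · refine ⟨q / Q, ?_⟩
    rw [abs_le]; constructor <;> linarith
  · refine ⟨q / Q + 1, ?_⟩
    rw [abs_le]; constructor <;> nlinarith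

/-- two values at one scale cannot both be near a multiple -/
theorem near_unique (T s L M R W d d' B : ℤ) (hs : 0 < s) (hM : 0 < M) (hL0 : 0 ≤ L)
    (hB : 0 < B) (hd : |d| ≤ B) (hd' : |d'| ≤ B) (hBL : B * L ≤ s) (hR : 64 * B ≤ R)
    (hne : 16 ≤ |d - d'|)
    (h : Near M (R * M) ((T + d * (L + s * (1 + M + R * M * W))) / s))
    (h' : Near M (R * M) ((T + d' * (L + s * (1 + M + R * M * W))) / s)) : False := by
  have hRM : 0 < R * M := by nlinarith
  have k1 : |d * L| ≤ s := by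
    rw [abs_mul, abs_of_nonneg hL0]
    nlinarith
  have k2 : |d' * L| ≤ s := by
    rw [abs_mul, abs_of_nonneg hL0]
    nlinarith
  obtain ⟨ε, h1, e1⟩ := floor_scale T s L (1 + M + R * M * W) d hs k1
  obtain ⟨ε', h2, e2⟩ := floor_scale T s L (1 + M + R * M * W) d' hs k2
  rw [e1] at h
  rw [e2] at h'
  obtain ⟨j, hj⟩ := h.exists hM.le hRM
  obtain ⟨j', hj'⟩ := h'.exists hM.le hRM
  -- the difference
  set z : ℤ := (d - d') * (1 + M) + (ε - ε') - ((T / s + ε + d * (1 + M + R * M * W) - R * M * j)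
    - (T / s + ε' + d' * (1 + M + R * M * W) - R * M * j')) with hz
  have hdvd : (R * M) ∣ z := ⟨j - j' - (d - d') * W, by rw [hz]; ring⟩
  have hb : |z| < R * M := by
    have a1 : |(d - d') * (1 + M)| ≤ 2 * B * (1 + M) := by
      rw [abs_mul, abs_of_pos (by linarith : (0:ℤ) < 1 + M)]
      have : |d - d'| ≤ 2 * B := by
        have := abs_sub d d'
        linarith
      nlinarith
    rw [abs_le] at a1 h1 h2 hj hj'
    rw [abs_lt]
    constructor <;> nlinarith
  have h0 : z = 0 := Int.eq_zero_of_abs_lt_dvd hdvd hb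
  rw [abs_le] at h1 h2 hj hj'
  rcases le_abs.1 hne with h3 | h3
  · have : 16 * (1 + M) ≤ (d - d') * (1 + M) := by nlinarith
    linarith
  · have : 16 * (1 + M) ≤ -(d - d') * (1 + M) := by nlinarith
    linarith

theorem dvd_unique (T s L M R W d d' B k : ℤ) (hs : 0 < s) (hL0 : 0 ≤ L)
    (hB : 0 < B) (hd : |d| ≤ B) (hd' : |d'| ≤ B) (hBL : B * L ≤ s) (hk : 64 * B ≤ k) (hkM : k ∣ M)
    (hne : 16 ≤ |d - d'|)
    (h : k ∣ ((T + d * (L + s * (1 + M + R * M * W))) / s))
    (h' : k ∣ ((T + d' * (L + s * (1 + M + R * M * W))) / s)) : False := by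
  have k1 : |d * L| ≤ s := by
    rw [abs_mul, abs_of_nonneg hL0]
    nlinarith
  have k2 : |d' * L| ≤ s := by
    rw [abs_mul, abs_of_nonneg hL0]
    nlinarith
  obtain ⟨ε, h1, e1⟩ := floor_scale T s L (1 + M + R * M * W) d hs k1
  obtain ⟨ε', h2, e2⟩ := floor_scale T s L (1 + M + R * M * W) d' hs k2
  rw [e1] at h
  rw [e2] at h'
  have h3 := dvd_sub h h'
  obtain ⟨M', rfl⟩ := hkM
  have hdvd : k ∣ (d - d') + (ε - ε') := by
    have e : (d - d') + (ε - ε') = (T / s + ε + d * (1 + k * M' + R * (k * M') * W) -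
      (T / s + ε' + d' * (1 + k * M' + R * (k * M') * W))) -
        k * ((d - d') * (M' + R * M' * W)) := by ring
    rw [e]
    exact dvd_sub h3 (dvd_mul_right _ _)
  have hb : |(d - d') + (ε - ε')| < k := by
    have : |d - d'| ≤ 2 * B := by
      have := abs_sub d d'
      linarith
    rw [abs_le] at this h1 h2
    rw [abs_lt]
    constructor <;> linarith
  have h0 := Int.eq_zero_of_abs_lt_dvd hdvd hb
  rw [abs_le] at h1 h2
  rcases le_abs.1 hne with h4 | h4 <;> linarith

/-- `Σ_{i<j} (R*M1)^i * (1+M1)` -/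
def WW (R M1 : ℕ) : ℕ → ℕ
  | 0 => 0
  | j + 1 => 1 + M1 + R * M1 * WW R M1 j

/-- the sum of all scales -/
def Sg (Mp R M0 M1 m : ℕ) : ℕ := 1 + Mp * (1 + M0 + R * M0 * WW R M1 m)

/-- the sum of the scales below `Mp * PP l` -/
def LL (Mp R M0 M1 : ℕ) : ℕ → ℕ
  | 0 => 1 + Mp * (1 + M0)
  | l + 1 => LL Mp R M0 M1 l + Mp * PP R M0 M1 l * (1 + M1)

theorem PP_succ (R M0 M1 l : ℕ) : PP R M0 M1 (l + 1) = PP R M0 M1 l * (R * M1) := by
  unfold PP; rw [pow_succ]; ring

theorem Sg_eq (Mp R M0 M1 : ℕ) (l j : ℕ) :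
    Sg Mp R M0 M1 (l + j) = LL Mp R M0 M1 l + Mp * PP R M0 M1 l * WW R M1 j := by
  have key : ∀ (l j : ℕ), LL Mp R M0 M1 l + Mp * PP R M0 M1 l * WW R M1 j =
      Sg Mp R M0 M1 (l + j) := by
    intro l
    induction l with
    | zero => intro j; simp [Sg, LL, PP]; ring
    | succ l ih =>
      intro j
      have e : l + 1 + j = l + (j + 1) := by ring
      rw [e, ← ih (j + 1), PP_succ, LL, WW]
      ring
  exact (key l j).symm

theorem LL_le (Mp R M0 M1 B : ℕ) (hR : 8 * B ≤ R) (hB : 1 ≤ B) (h0 : 1 ≤ M0) (h1 : 1 ≤ M1)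
    (hMp : 1 ≤ Mp) (l : ℕ) : B * LL Mp R M0 M1 l ≤ Mp * PP R M0 M1 l := by
  induction l with
  | zero =>
    simp only [LL, PP, pow_zero, mul_one]
    have a1 : 1 + Mp * (1 + M0) ≤ 3 * (Mp * M0) := by nlinarith
    have a2 : B * (1 + Mp * (1 + M0)) ≤ 3 * B * (Mp * M0) := by nlinarith
    have a3 : 3 * B * (Mp * M0) ≤ R * (Mp * M0) := Nat.mul_le_mul_right _ (by omega)
    calc B * (1 + Mp * (1 + M0)) ≤ R * (Mp * M0) := a2.trans a3
      _ = Mp * (R * M0) := by ring
  | succ l ih =>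
    rw [LL, PP_succ]
    set s := Mp * PP R M0 M1 l with hs
    have a1 : B * (LL Mp R M0 M1 l + s * (1 + M1)) ≤ s * (1 + B * (1 + M1)) := by
      rw [Nat.mul_add]
      calc B * LL Mp R M0 M1 l + B * (s * (1 + M1)) ≤ s + B * (s * (1 + M1)) :=
            Nat.add_le_add_right ih _
        _ = s * (1 + B * (1 + M1)) := by ring
    have a2 : 1 + B * (1 + M1) ≤ R * M1 := by nlinarith
    calc B * (LL Mp R M0 M1 l + s * (1 + M1)) ≤ s * (1 + B * (1 + M1)) := a1
      _ ≤ s * (R * M1) := Nat.mul_le_mul_left _ a2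
      _ = Mp * (PP R M0 M1 l * (R * M1)) := by rw [hs]; ring

/-- at most one pair -/
theorem card_le_one_of {S : Finset (ℕ × ℕ)} (h : ∀ p ∈ S, ∀ q ∈ S, p ≠ q → False) :
    S.card ≤ 1 :=
  Finset.card_le_one.2 fun p hp q hq => by
    by_contra hne
    exact h p hp q hq hne

open Classical in
/-- **leaf U4** -/
theorem spoil (m r K Mp R M0 M1 rho : ℕ) (Ms Ms1 : Finset ℕ) (hMp : 2^(K+10) ≤ Mp)
    (hR : 2^(K+10) ≤ R) (h0 : 2^(K+10) ≤ M0) (h1 : 2^(K+10) ≤ M1)
    (hMs : ∀ k ∈ Ms, 2^(K+10) ≤ k ∧ k ∣ M0) (hMs1 : ∀ k ∈ Ms1, 2^(K+10) ≤ k ∧ k ∣ M1)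
    (hc : Ms.card ≤ r) (hc1 : Ms1.card ≤ 32*rho) (hrho : 0 < rho) :
    ∃ (x : ℕ → ℕ) (T0 : ℕ),
      (∀ a b c d, a < K → b < K → c < K → d < K →
        (Mp:ℤ) ∣ ((x a:ℤ) - x b) - (x c - x d) → (a = c ∧ b = d) ∨ (a = b ∧ c = d)) ∧
      ∀ T, T0 ≤ T → (((Finset.range K ×ˢ Finset.range K).filter (fun ab => ab.1 ≠ ab.2 ∧
        Bad R M0 M1 m rho Ms Ms1 ((T + x ab.1 - x ab.2) / Mp))).card ≤ 2 + r + 34*m) := by
  set S := Sg Mp R M0 M1 m with hS
  set B : ℕ := 16 * 2 ^ K with hBdef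
  have hBpos : 1 ≤ B := by have : 0 < 2 ^ K := by positivity
                           omega
  have hpow : 2 ^ (K + 10) = 64 * B := by rw [hBdef, pow_add]; norm_num; ring
  have hK0 : 0 < 2 ^ (K + 10) := by positivity
  have hMp1 : 1 ≤ Mp := by omega
  have hR1 : 1 ≤ R := by omega
  have hM01 : 1 ≤ M0 := by omega
  have hM11 : 1 ≤ M1 := by omega
  refine ⟨fun a => 16 * 2 ^ a * S, 16 * 2 ^ K * S, ?_, ?_⟩
  · intro a b c d ha hb hc' hd hdvd
    have hS1 : (S : ℤ) = 1 + Mp * (1 + M0 + R * M0 * WW R M1 m : ℕ) := by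
      rw [hS, Sg]; push_cast; ring
    have e : ((Mp : ℕ) : ℤ) ∣ 16 * ((2 ^ a - 2 ^ b : ℤ) - (2 ^ c - 2 ^ d)) := by
      have e1 : (16 * ((2 ^ a - 2 ^ b : ℤ) - (2 ^ c - 2 ^ d))) =
          (((16 * 2 ^ a * S : ℕ) : ℤ) - (16 * 2 ^ b * S : ℕ) -
            (((16 * 2 ^ c * S : ℕ) : ℤ) - (16 * 2 ^ d * S : ℕ))) -
          Mp * ((1 + M0 + R * M0 * WW R M1 m : ℕ) *
            (16 * ((2 ^ a - 2 ^ b : ℤ) - (2 ^ c - 2 ^ d)))) := by
        push_cast
        rw [hS1]
        push_cast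
        ring
      rw [e1]
      exact dvd_sub hdvd (dvd_mul_right _ _)
    have pl : ∀ {n : ℕ}, n < K → (2 : ℤ) ^ n ≤ 2 ^ K ∧ (0 : ℤ) < 2 ^ n := fun h =>
      ⟨pow_le_pow_right₀ (by norm_num) h.le, by positivity⟩
    have hlt : |16 * ((2 ^ a - 2 ^ b : ℤ) - (2 ^ c - 2 ^ d))| < Mp := by
      have q1 := pl ha
      have q2 := pl hb
      have q3 := pl hc'
      have q4 := pl hd
      have q5 : (64 * (16 * 2 ^ K) : ℤ) ≤ Mp := by
        have : 64 * B ≤ Mp := by omega
        rw [hBdef] at this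
        exact_mod_cast this
      rw [abs_lt]
      constructor <;> nlinarith
    have hz := Int.eq_zero_of_abs_lt_dvd e hlt
    have hz' : 2 ^ a + 2 ^ d = 2 ^ b + 2 ^ c := by
      have : (2 ^ a + 2 ^ d : ℤ) = 2 ^ b + 2 ^ c := by linarith
      exact_mod_cast this
    rcases pow_eq hz' with ⟨h1, h2⟩ | ⟨h1, h2⟩
    · exact Or.inr ⟨h1, h2.symm⟩
    · exact Or.inl ⟨h1, h2.symm⟩
  · intro T hT
    -- the difference
    set D : ℕ × ℕ → ℤ := fun p => 16 * 2 ^ p.1 - 16 * 2 ^ p.2 with hD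
    set P := (Finset.range K ×ˢ Finset.range K).filter (fun ab => ab.1 ≠ ab.2) with hP
    have hDle : ∀ p ∈ P, |D p| ≤ B := by
      intro p hp
      have hp' := Finset.mem_product.1 (Finset.mem_filter.1 hp).1
      have a1 : (2 : ℤ) ^ p.1 ≤ 2 ^ K :=
        pow_le_pow_right₀ (by norm_num) (Finset.mem_range.1 hp'.1).le
      have a2 : (2 : ℤ) ^ p.2 ≤ 2 ^ K :=
        pow_le_pow_right₀ (by norm_num) (Finset.mem_range.1 hp'.2).le
      have a3 : (0 : ℤ) < 2 ^ p.1 := by positivity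
      have a4 : (0 : ℤ) < 2 ^ p.2 := by positivity
      rw [hBdef, abs_le]
      push_cast
      constructor <;> simp only [hD] <;> linarith
    have hDne : ∀ p ∈ P, ∀ q ∈ P, p ≠ q → 16 ≤ |D p - D q| := by
      intro p hp q hq hne
      have hpn := (Finset.mem_filter.1 hp).2
      have hqn := (Finset.mem_filter.1 hq).2
      have e : D p - D q = 16 * ((2 : ℤ) ^ p.1 + 2 ^ q.2 - (2 ^ p.2 + 2 ^ q.1)) := by
        simp only [hD]; ring
      rw [e, abs_mul]
      have : (1 : ℤ) ≤ |(2 : ℤ) ^ p.1 + 2 ^ q.2 - (2 ^ p.2 + 2 ^ q.1)| := by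
        apply Int.one_le_abs
        intro h0'
        have h2 : (2 ^ p.1 + 2 ^ q.2 : ℤ) = 2 ^ p.2 + 2 ^ q.1 := by linarith
        have h3 : 2 ^ p.1 + 2 ^ q.2 = 2 ^ p.2 + 2 ^ q.1 := by exact_mod_cast h2
        rcases pow_eq h3 with ⟨g1, _⟩ | ⟨g1, g2⟩
        · exact hpn g1
        · exact hne (Prod.ext g1 g2.symm)
      simp only [abs_of_pos (by norm_num : (0:ℤ) < 16)]
      linarith
    have hN : ∀ p ∈ P, ((T + 16 * 2 ^ p.1 * S - 16 * 2 ^ p.2 * S : ℕ) : ℤ) = T + D p * S := by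
      intro p hp
      have hp' := Finset.mem_product.1 (Finset.mem_filter.1 hp).1
      have hle : 16 * 2 ^ p.2 * S ≤ T + 16 * 2 ^ p.1 * S := by
        have : 2 ^ p.2 ≤ 2 ^ K := Nat.pow_le_pow_right (by norm_num) (Finset.mem_range.1 hp'.2).le
        have : 16 * 2 ^ p.2 * S ≤ 16 * 2 ^ K * S := Nat.mul_le_mul_right _ (by omega)
        omega
      rw [Nat.cast_sub hle]
      push_cast
      simp only [hD]
      ring
    -- generic uniqueness at one scale
    have uniq : ∀ (s L M W : ℕ), 0 < s → 1 ≤ M → B * L ≤ s → S = L + s * (1 + M + R * M * W) →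
        (∀ p ∈ P, ∀ q ∈ P, p ≠ q →
          (((T + 16 * 2 ^ p.1 * S - 16 * 2 ^ p.2 * S) / s % (R * M) < M ∨
            R * M ≤ (T + 16 * 2 ^ p.1 * S - 16 * 2 ^ p.2 * S) / s % (R * M) + M)) →
          (((T + 16 * 2 ^ q.1 * S - 16 * 2 ^ q.2 * S) / s % (R * M) < M ∨
            R * M ≤ (T + 16 * 2 ^ q.1 * S - 16 * 2 ^ q.2 * S) / s % (R * M) + M)) → False) ∧
        (∀ k, 64 * B ≤ k → k ∣ M → ∀ p ∈ P, ∀ q ∈ P, p ≠ q →
          k ∣ (T + 16 * 2 ^ p.1 * S - 16 * 2 ^ p.2 * S) / s →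
          k ∣ (T + 16 * 2 ^ q.1 * S - 16 * 2 ^ q.2 * S) / s → False) := by
      intro s L M W hs hM hBL hSe
      have hSz : (S : ℤ) = L + s * (1 + M + R * M * W) := by rw [hSe]; push_cast; ring
      have hcast : ∀ p ∈ P, (((T + 16 * 2 ^ p.1 * S - 16 * 2 ^ p.2 * S) / s : ℕ) : ℤ) =
          (T + D p * (L + s * (1 + M + R * M * W))) / s := by
        intro p hp
        rw [Int.natCast_ediv, hN p hp, hSz]
      constructor
      · intro p hp q hq hne h h'
        have conv : ∀ p ∈ P, (((T + 16 * 2 ^ p.1 * S - 16 * 2 ^ p.2 * S) / s % (R * M) < M ∨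
            R * M ≤ (T + 16 * 2 ^ p.1 * S - 16 * 2 ^ p.2 * S) / s % (R * M) + M)) →
            Near M (R * M) (((T + D p * (L + s * (1 + M + R * M * W))) / s : ℤ)) := by
          intro p hp h
          rw [← hcast p hp]
          rcases h with h | h
          · left; exact_mod_cast h
          · right; exact_mod_cast h
        exact near_unique T s L M R W (D p) (D q) B (by exact_mod_cast hs) (by exact_mod_cast hM)
          (by positivity) (by exact_mod_cast hBpos) (hDle p hp) (hDle q hq)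
          (by exact_mod_cast hBL) (by exact_mod_cast (by omega : 64 * B ≤ R)) (hDne p hp q hq hne)
          (conv p hp h) (conv q hq h')
      · intro k hk hkM p hp q hq hne h h'
        have conv : ∀ p ∈ P, k ∣ (T + 16 * 2 ^ p.1 * S - 16 * 2 ^ p.2 * S) / s →
            (k : ℤ) ∣ (((T + D p * (L + s * (1 + M + R * M * W))) / s : ℤ)) := by
          intro p hp h
          rw [← hcast p hp]
          exact_mod_cast h
        exact dvd_unique T s L M R W (D p) (D q) B k (by exact_mod_cast hs)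
          (by positivity) (by exact_mod_cast hBpos) (hDle p hp) (hDle q hq)
          (by exact_mod_cast hBL) (by exact_mod_cast hk) (by exact_mod_cast hkM)
          (hDne p hp q hq hne) (conv p hp h) (conv q hq h')
    -- the thin sets
    set nn : ℕ × ℕ → ℕ := fun p => (T + 16 * 2 ^ p.1 * S - 16 * 2 ^ p.2 * S) / Mp with hnn
    set A0 := P.filter (fun p => nn p % (R * M0) < M0 ∨ R * M0 ≤ nn p % (R * M0) + M0) with hA0
    set DD : ℕ → Finset (ℕ × ℕ) := fun k => P.filter (fun p => k ∣ nn p) with hDD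
    set A1 : ℕ → Finset (ℕ × ℕ) := fun l => P.filter (fun p =>
      nn p / PP R M0 M1 l % (R * M1) < M1 ∨ R * M1 ≤ nn p / PP R M0 M1 l % (R * M1) + M1) with hA1
    set E1 : ℕ → Finset (ℕ × ℕ) := fun l => P.filter (fun p =>
      rho ≤ (Ms1.filter (· ∣ nn p / PP R M0 M1 l)).card) with hE1
    have u0 := uniq Mp 1 M0 (WW R M1 m) (by omega) hM01 (by omega) (by rw [hS, Sg])
    have hPPpos : ∀ l, 0 < PP R M0 M1 l := fun l => by unfold PP; positivity
    have ul : ∀ l, l < m → _ := fun l hl =>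
      uniq (Mp * PP R M0 M1 l) (LL Mp R M0 M1 l) M1 (WW R M1 (m - l - 1))
        (Nat.mul_pos (by omega) (hPPpos l)) hM11
        (LL_le Mp R M0 M1 B (by omega) hBpos hM01 hM11 hMp1 l)
        (by
          have e : m = l + (m - l - 1 + 1) := by omega
          rw [hS]
          conv_lhs => rw [e]
          rw [Sg_eq, WW])
    have cA0 : A0.card ≤ 1 := card_le_one_of fun p hp q hq hne =>
      u0.1 p (Finset.mem_filter.1 hp).1 q (Finset.mem_filter.1 hq).1 hne
        (Finset.mem_filter.1 hp).2 (Finset.mem_filter.1 hq).2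
    have cD : ∀ k ∈ Ms, (DD k).card ≤ 1 := fun k hk => card_le_one_of fun p hp q hq hne =>
      u0.2 k (by have := (hMs k hk).1; omega) (hMs k hk).2 p (Finset.mem_filter.1 hp).1 q
        (Finset.mem_filter.1 hq).1 hne (Finset.mem_filter.1 hp).2 (Finset.mem_filter.1 hq).2
    have cA1 : ∀ l, l < m → (A1 l).card ≤ 1 := fun l hl => card_le_one_of fun p hp q hq hne => by
      have hp2 := (Finset.mem_filter.1 hp).2
      have hq2 := (Finset.mem_filter.1 hq).2
      simp only [hnn, Nat.div_div_eq_div_mul] at hp2 hq2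
      exact (ul l hl).1 p (Finset.mem_filter.1 hp).1 q (Finset.mem_filter.1 hq).1 hne hp2 hq2
    have cE1 : ∀ l, l < m → (E1 l).card ≤ 32 := by
      intro l hl
      have h2 : (E1 l).card * rho ≤ 32 * rho := by
        calc (E1 l).card * rho = ∑ _p ∈ E1 l, rho := by rw [Finset.sum_const, smul_eq_mul]
          _ ≤ ∑ p ∈ E1 l, (Ms1.filter (· ∣ nn p / PP R M0 M1 l)).card :=
              Finset.sum_le_sum fun p hp => (Finset.mem_filter.1 hp).2
          _ = ∑ p ∈ E1 l, ∑ k ∈ Ms1, if k ∣ nn p / PP R M0 M1 l then 1 else 0 := by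
              refine Finset.sum_congr rfl fun p _ => ?_
              rw [Finset.card_filter]
          _ = ∑ k ∈ Ms1, ∑ p ∈ E1 l, if k ∣ nn p / PP R M0 M1 l then 1 else 0 :=
              Finset.sum_comm
          _ ≤ ∑ _k ∈ Ms1, 1 := by
              refine Finset.sum_le_sum fun k hk => ?_
              rw [← Finset.card_filter]
              refine card_le_one_of fun p hp q hq hne => ?_
              have hp1 := (Finset.mem_filter.1 hp)
              have hq1 := (Finset.mem_filter.1 hq)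
              have hp2 := hp1.2
              have hq2 := hq1.2
              simp only [hnn, Nat.div_div_eq_div_mul] at hp2 hq2
              exact (ul l hl).2 k (by have := (hMs1 k hk).1; omega) (hMs1 k hk).2 p
                (Finset.mem_filter.1 hp1.1).1 q (Finset.mem_filter.1 hq1.1).1 hne hp2 hq2
          _ = Ms1.card := by simp
          _ ≤ 32 * rho := hc1
      exact Nat.le_of_mul_le_mul_right h2 hrho
    have hsub : ((Finset.range K ×ˢ Finset.range K).filter (fun ab => ab.1 ≠ ab.2 ∧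
        Bad R M0 M1 m rho Ms Ms1 ((T + 16 * 2 ^ ab.1 * S - 16 * 2 ^ ab.2 * S) / Mp))) ⊆
        A0 ∪ (Ms.biUnion DD ∪ ((Finset.range m).biUnion fun l => A1 l ∪ E1 l)) := by
      intro p hp
      obtain ⟨hp1, hp2, hp3⟩ := Finset.mem_filter.1 hp
      have hpP : p ∈ P := Finset.mem_filter.2 ⟨hp1, hp2⟩
      rw [Finset.mem_union, Finset.mem_union, Finset.mem_biUnion, Finset.mem_biUnion]
      rcases hp3 with h | ⟨k, hk, h⟩ | ⟨l, hl, h | h⟩
      · exact Or.inl (Finset.mem_filter.2 ⟨hpP, h⟩)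
      · exact Or.inr (Or.inl ⟨k, hk, Finset.mem_filter.2 ⟨hpP, h⟩⟩)
      · exact Or.inr (Or.inr ⟨l, Finset.mem_range.2 hl, Finset.mem_union_left _
          (Finset.mem_filter.2 ⟨hpP, h⟩)⟩)
      · exact Or.inr (Or.inr ⟨l, Finset.mem_range.2 hl, Finset.mem_union_right _
          (Finset.mem_filter.2 ⟨hpP, h⟩)⟩)
    have c1 : (Ms.biUnion DD).card ≤ r := by
      calc (Ms.biUnion DD).card ≤ Ms.card * 1 := Finset.card_biUnion_le_card_mul _ _ _ cD
        _ ≤ r := by omega
    have c2 : ((Finset.range m).biUnion fun l => A1 l ∪ E1 l).card ≤ m * 33 := by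
      have := Finset.card_biUnion_le_card_mul (Finset.range m) (fun l => A1 l ∪ E1 l) 33
        (fun l hl => by
          have a := cA1 l (Finset.mem_range.1 hl)
          have b := cE1 l (Finset.mem_range.1 hl)
          have c := Finset.card_union_le (A1 l) (E1 l)
          omega)
      rwa [Finset.card_range] at this
    have c3 := Finset.card_le_card hsub
    have c4 := Finset.card_union_le A0 (Ms.biUnion DD ∪
      ((Finset.range m).biUnion fun l => A1 l ∪ E1 l))
    have c5 := Finset.card_union_le (Ms.biUnion DD)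
      ((Finset.range m).biUnion fun l => A1 l ∪ E1 l)
    refine c3.trans ?_
    omega

end Crest.Agent.R320.Spoil_626
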