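import Crest.Agent.R320.Join_517
import Crest.Agent.R320.Thin_963
import Crest.Agent.R320.RegCongr_253
import Crest.Agent.R320.ExactR_237
import Crest.Agent.R320.LWallAll_922
import Crest.Agent.R320.Spoil_626

/-!
# Row 320: the constants (helper517)
-/

set_option autoImplicit false

namespace Crest.Agent.R320.Last_517

open Crest.RegLang Crest.Agent.R320.Hk_851 Crest.Agent.R320.Sc2n_937

/-- gadget 1 with locality of the noise -/
def Gad (S V : Type) [Monoid S] [AddCommGroup V] (act : V → S → V) : Prop :=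
    ∃ m k : ℕ, ∀ q : Fin k → ℕ, (∀ j, Odd (q j)) →
      Pairwise (fun i j => Nat.Coprime (q i) (q j)) →
      ∀ b : ℕ, 4 * (∏ j, q j) + 4 < b → (∀ j, Nat.Coprime b (q j)) →
      ∀ (α : Type) (φ : List α → S), (∀ u v, φ (u ++ v) = φ u * φ v) →
      ∃ (lam rho : List α → Option V) (nu : List α → V),
        (∀ P v, lam P = some v → P.length < b ^ m) ∧
        (∀ P Q v v', lam P = some v → rho Q = some v' → v' = act v (φ (P ++ Q)) + nu (P ++ Q)) ∧
        (∀ X : List α, (∀ j, ¬ q j ∣ X.length) →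
          (∀ j < m, ∏ j, q j ≤ (X.length / b ^ j) % b ∧
            (X.length / b ^ j) % b + ∏ j, q j < b) →
          ∀ v, ∃ P Q, X = P ++ Q ∧ lam P = some v ∧ (rho Q).isSome = true) ∧
        (∀ X X' : List α, b ^ m ≤ X.length → b ^ m ≤ X'.length →
          X.take (b ^ m) = X'.take (b ^ m) →
          X.length % ((∏ j, q j) * b ^ m) = X'.length % ((∏ j, q j) * b ^ m) →
          φ (X.drop (b ^ m)) = φ (X'.drop (b ^ m)) → nu X = nu X')

/-- distinct large odd primes -/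
theorem exists_primes (k N : ℕ) : ∃ q : Fin k → ℕ, Function.Injective q ∧ ∀ j, (q j).Prime ∧
    N ≤ q j ∧ 2 < q j := by
  have hinf : {p : ℕ | p.Prime ∧ N ≤ p ∧ 2 < p}.Infinite := by
    refine Set.infinite_of_not_bddAbove ?_
    rintro ⟨B, hB⟩
    obtain ⟨p, hp1, hp2⟩ := Nat.exists_infinite_primes (B + N + 4)
    have := hB (show p ∈ {p : ℕ | p.Prime ∧ N ≤ p ∧ 2 < p} from ⟨hp2, by omega, by omega⟩)
    omega
  let e := Set.Infinite.natEmbedding _ hinf
  refine ⟨fun j => (e j.1 : ℕ), ?_, fun j => (e j.1).2⟩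
  intro i j h
  exact Fin.ext (e.injective (Subtype.ext h))

/-- digits near the ends are thin -/
theorem digit_thin {b M j n : ℕ} (hb : 0 < b) (hMb : M < b)
    (h : ¬ (M ≤ (n / b ^ j) % b ∧ (n / b ^ j) % b + M < b)) :
    ∃ e : ℤ, |e| ≤ ((M * b ^ j : ℕ) : ℤ) ∧ ((b ^ (j + 1) : ℕ) : ℤ) ∣ (n : ℤ) + e := by
  have hbj : 0 < b ^ j := pow_pos hb j
  have h1 : n % b ^ (j + 1) = n % b ^ j + b ^ j * ((n / b ^ j) % b) := by
    rw [pow_succ, Nat.mod_mul]
  have h2 := Nat.mod_lt n hbj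
  have h2' := Nat.zero_le (n % b ^ j)
  have h3 : (n / b ^ j) % b < b := Nat.mod_lt _ hb
  have h4 := Nat.div_add_mod n (b ^ (j + 1))
  set d := (n / b ^ j) % b with hd
  by_cases hc : M ≤ d
  · have hc' : b ≤ d + M := by
      by_contra hcon
      exact h ⟨hc, by omega⟩
    refine ⟨((b ^ (j + 1) : ℕ) : ℤ) - ((n % b ^ (j + 1) : ℕ) : ℤ), ?_, ?_⟩
    · have h5 : n % b ^ (j + 1) < b ^ (j + 1) := Nat.mod_lt _ (pow_pos hb _)
      rw [abs_of_nonneg (by omega)]
      have h6 : b ^ (j + 1) ≤ n % b ^ (j + 1) + M * b ^ j := by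
        rw [h1, pow_succ]
        have h7 : b ^ j * b ≤ b ^ j * (d + M) := Nat.mul_le_mul_left _ hc'
        rw [Nat.mul_add, Nat.mul_comm (b ^ j) M] at h7
        omega
      omega
    · refine ⟨(n / b ^ (j + 1) : ℕ) + 1, ?_⟩
      have : (n : ℤ) = ((b ^ (j + 1) : ℕ) : ℤ) * ((n / b ^ (j + 1) : ℕ) : ℤ) +
          ((n % b ^ (j + 1) : ℕ) : ℤ) := by exact_mod_cast h4.symm
      linarith
  · push Not at hc
    refine ⟨-((n % b ^ (j + 1) : ℕ) : ℤ), ?_, ?_⟩
    · rw [abs_neg, abs_of_nonneg (by positivity)]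
      have h8 : n % b ^ (j + 1) ≤ M * b ^ j := by
        rw [h1]
        have h7 : b ^ j * (d + 1) ≤ b ^ j * M := Nat.mul_le_mul_left _ hc
        rw [Nat.mul_add, Nat.mul_comm (b ^ j) M] at h7
        omega
      exact_mod_cast h8
    · refine ⟨(n / b ^ (j + 1) : ℕ), ?_⟩
      have : (n : ℤ) = ((b ^ (j + 1) : ℕ) : ℤ) * ((n / b ^ (j + 1) : ℕ) : ℤ) +
          ((n % b ^ (j + 1) : ℕ) : ℤ) := by exact_mod_cast h4.symm
      linarith

theorem sum_pow_le {b : ℕ} (hb : 2 ≤ b) (i : ℕ) :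
    ∑ j ∈ Finset.range (i + 1), b ^ j ≤ 2 * b ^ i := by
  induction i with
  | zero => simp
  | succ i ih =>
    rw [Finset.sum_range_succ]
    have : 2 * b ^ i ≤ b ^ (i + 1) := by
      rw [pow_succ, Nat.mul_comm (b ^ i) b]; exact Nat.mul_le_mul_right _ hb
    omega

theorem fin_of_gad (α : Type) [Finite α] (S : Type) [Monoid S] [Fintype S] [DecidableEq S]
    (hG : Gad S (S → ZMod 2) (Fin_517.pact)) (φ : α → S) (s : S) :
    HL 3 ({w | (w.map φ).prod = s} : Language α) := by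
  classical
  let V := S → ZMod 2
  obtain ⟨m, k, hgad⟩ := hG
  set C0 : ℕ := k + m with hC0
  obtain ⟨K, hK⟩ := ExactR_237.exact_gadget α S V φ Fin_517.pact (2 * C0 + 2)
  obtain ⟨q, hqi, hq⟩ := exists_primes k (2 ^ (K + 1))
  set M : ℕ := ∏ j, q j with hM
  have hM0 : 0 < M := Finset.prod_pos fun j _ => (hq j).1.pos
  -- base
  set κ : ℕ := K + 5 + M + 4 with hκ
  set b : ℕ := 2 ^ κ with hb
  have hbM : 2 ^ (K + 5) * M < b := by
    have h0 : M < 2 ^ (M + 4) := lt_of_lt_of_le Nat.lt_two_pow_self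
      (Nat.pow_le_pow_right (by norm_num) (by omega))
    calc 2 ^ (K + 5) * M < 2 ^ (K + 5) * 2 ^ (M + 4) :=
          (Nat.mul_lt_mul_left (by positivity)).2 h0
      _ = b := by rw [hb, hκ, ← pow_add, Nat.add_assoc (K + 5) M 4]
  have hb4 : 4 * M + 4 < b := by
    have h1 : 2 ^ 5 ≤ 2 ^ (K + 5) := Nat.pow_le_pow_right (by norm_num) (by omega)
    have h2 : 32 * M ≤ 2 ^ (K + 5) * M := Nat.mul_le_mul_right _ (by simpa using h1)
    omega
  have hbq : ∀ j, Nat.Coprime b (q j) := by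
    intro j
    rw [hb]
    apply Nat.Coprime.pow_left
    rw [Nat.coprime_primes Nat.prime_two (hq j).1]
    have := (hq j).2.2
    omega
  obtain ⟨lam, rho, nu1, hlen, hsnd, hcpl, hloc⟩ := hgad q
    (fun j => (hq j).1.odd_of_ne_two (by have := (hq j).2.2; omega))
    (fun i j hij => (Nat.coprime_primes (hq i).1 (hq j).1).2 fun h => hij (hqi h)) b hb4 hbq α
    (fun w => (w.map φ).prod) (fun u v => by simp)
  rw [← hM] at hcpl hloc
  set N1 : ℕ := b ^ m with hN1
  have hN1p : 0 < N1 := pow_pos (by omega) _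
  -- the ruler
  set Ms : Finset ℕ := Finset.univ.image q with hMs
  obtain ⟨X', hX1, hX2, hX3⟩ := Thin963.thin K m Ms (fun i => ((b ^ i : ℕ) : ℤ))
    (fun i => ((M * b ^ i : ℕ) : ℤ)) (fun _ => 0)
    (by
      intro p hp
      obtain ⟨j, -, rfl⟩ := Finset.mem_image.1 hp
      exact ⟨(hq j).1, (hq j).2.1⟩)
    (by
      intro p hp
      obtain ⟨j, -, rfl⟩ := Finset.mem_image.1 hp
      rw [Nat.isCoprime_iff_coprime]
      exact (Nat.Coprime.pow_left m (hbq j)).symm)
    (by positivity)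
    (by
      intro i j hij
      exact_mod_cast pow_dvd_pow b hij)
    (by intro i; have : 0 < M * b ^ i := Nat.mul_pos hM0 (pow_pos (by omega) _); exact_mod_cast this)
    (by intro i; exact_mod_cast Dvd.intro_left M rfl)
    (by
      intro i _
      have h1 := sum_pow_le (b := b) (by omega) i
      have h2 : 2 ^ (K + 4) * ∑ j ∈ Finset.range (i + 1), M * b ^ j ≤ b ^ (i + 1) := by
        rw [← Finset.mul_sum]
        calc 2 ^ (K + 4) * (M * ∑ j ∈ Finset.range (i + 1), b ^ j)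
            ≤ 2 ^ (K + 4) * (M * (2 * b ^ i)) := by gcongr
          _ = (2 ^ (K + 5) * M) * b ^ i := by rw [pow_succ 2 (K + 4)]; ring
          _ ≤ b * b ^ i := Nat.mul_le_mul_right _ hbM.le
          _ = b ^ (i + 1) := by rw [pow_succ, Nat.mul_comm]
      exact_mod_cast h2)
    ((2 * N1 + 1 : ℕ) : ℤ)
  obtain ⟨X, rfl⟩ := Int.eq_ofNat_of_zero_le hX2.le
  have hXN : 2 * N1 + 1 ≤ X := by exact_mod_cast hX1
  set c : ℕ → ℕ := fun j => X * 2 ^ j with hcdef
  obtain ⟨lam2, rho2', nu2', hs2, hc2⟩ := hK c (by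
    intro i j hij _
    simp only [hcdef]
    exact (Nat.mul_lt_mul_left (by omega)).2 (Nat.pow_lt_pow_right (by norm_num) hij))
  set p0 : ℕ := c K with hp0
  have hcp : ∀ k, k < K → c k ≤ p0 := by
    intro k hk
    simp only [hp0, hcdef]
    exact Nat.mul_le_mul_left _ (Nat.pow_le_pow_right (by norm_num) hk.le)
  -- walls
  obtain ⟨n, G, B, Wo, hLW, hgap, -, -, hfree⟩ :=
    LWallAll_922.walls_all_left α (2 * p0 + 2 * N1 + 1) (by omega)
  set q0 : ℕ := n + 2 * p0 + 1 with hq0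
  let g : Geo α :=
    { Wo := Wo, n := n, z := p0 + N1 + q0, p0 := p0, q0 := q0, N1 := N1, loc := hLW.app,
      hz := rfl, hq := by omega, hN := hN1p, hqp := by omega }
  let BadT : ℕ → Prop := fun t => (∃ j, q j ∣ t) ∨
    ∃ j < m, ¬ (M ≤ (t / b ^ j) % b ∧ (t / b ^ j) % b + M < b)
  refine Join_517.join g n (max B (2 * p0 + 2 * N1 + 1)) ?_ ?_ ?_ Fin_517.pact Fin_517.pact_add
    (fun v => Fin_517.pact_one v) (fun v s t => (Fin_517.pact_mul v s t).symm) ?_ φ lam rho nu1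
    (fun u => nu2' u 1) BadT ?_ ?_ ?_ ?_ K C0 c lam2 (fun k Q => rho2' k Q 1) hcp ?_ ?_ ?_ ?_ ?_ s
  · refine ⟨hLW.app, hLW.len, ?_⟩
    intro X hX
    obtain ⟨u, x, v, j, h1, h2, h3, h4⟩ := hfree X hX
    exact ⟨u, x, v, j, h4, h1.trans (le_max_left _ _), h2.trans (le_max_right _ _),
      h3.trans (le_max_left _ _)⟩
  · show n ≤ p0 + N1 + q0
    omega
  · show 0 < p0 + N1 + q0
    omega
  · intro s t h
    exact Fin_517.pact_inj (h _)
  · intro P v h
    exact (hlen P v h).le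
  · exact hsnd
  · intro Y _ hY v
    refine hcpl Y (fun j hj => hY (Or.inl ⟨j, hj⟩)) (fun j hj => ?_) v
    by_contra hcon
    exact hY (Or.inr ⟨j, hj, hcon⟩)
  · intro y
    refine RegCongr_253.regular_of_congr φ N1 (M * N1) (Nat.mul_pos hM0 hN1p) _ ?_
    intro X X' h1 h2 h3 h4 h5 h6
    show nu1 X' = y
    rw [← hloc X X' h1 h2 h3 h4 h5]
    exact h6
  · intro k hk P Q v u hP _ h1 h2
    have := hs2 k hk P Q 1 v u hP h1 h2
    rw [mul_one] at this
    exact this
  · intro P Q hP hPQ hQ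
    have hl : 0 < Q.length := List.length_pos_of_ne_nil hQ
    have := hgap (P ++ Q) P.length (P ++ Q).length (by rw [List.length_append]; omega) le_rfl
      (by rw [List.take_left]; exact hP) (by rw [List.take_length]; exact hPQ)
    rw [List.length_append] at this
    show 2 * p0 + 2 * N1 < Q.length
    omega
  · intro k k' l l' _ _ _ _ hkk hll h1 h2
    change X * 2 ^ k + X * 2 ^ l' < X * 2 ^ l + X * 2 ^ k' + 2 * N1 at h1
    change X * 2 ^ l + X * 2 ^ k' < X * 2 ^ k + X * 2 ^ l' + 2 * N1 at h2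
    have h3 : 2 ^ k + 2 ^ l' = 2 ^ l + 2 ^ k' := by
      rcases lt_trichotomy (2 ^ k + 2 ^ l') (2 ^ l + 2 ^ k') with h | h | h
      · have : X * (2 ^ k + 2 ^ l' + 1) ≤ X * (2 ^ l + 2 ^ k') := Nat.mul_le_mul_left _ h
        rw [Nat.mul_add, Nat.mul_add, Nat.mul_add, Nat.mul_one] at this
        omega
      · exact h
      · have : X * (2 ^ l + 2 ^ k' + 1) ≤ X * (2 ^ k + 2 ^ l') := Nat.mul_le_mul_left _ h
        rw [Nat.mul_add, Nat.mul_add, Nat.mul_add, Nat.mul_one] at this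
        omega
    rcases Spoil_626.pow_eq h3 with ⟨h, -⟩ | ⟨h, -⟩
    · exact h
    · exact absurd h.symm hkk
  · intro τ hτ J hJ
    change p0 + N1 + q0 ≤ τ + p0 at hτ
    have h := hX3 ((τ : ℤ) - p0)
    have hcard : Ms.card ≤ k := by
      rw [hMs]
      exact Finset.card_image_le.trans (by simp)
    refine le_trans ?_ (h.trans (by omega))
    choose! f hf using fun x hx => (hJ x hx).2
    refine Finset.card_le_card_of_injOn (fun x => (f x, x)) ?_ ?_
    · intro x hx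
      obtain ⟨hxK, -⟩ := hJ x hx
      obtain ⟨hfK, hne, hbad⟩ := hf x hx
      rw [Finset.mem_coe, Finset.mem_filter, Finset.mem_product, Finset.mem_range,
        Finset.mem_range]
      refine ⟨⟨hfK, hxK⟩, hne, ?_⟩
      have hcx : c x ≤ p0 := hcp x hxK
      have hcf : c (f x) ≤ p0 := hcp _ hfK
      change BadT (τ + c (f x) - c x - p0) at hbad
      have hcast : ((τ + c (f x) - c x - p0 : ℕ) : ℤ) =
          (τ : ℤ) - p0 + (X : ℤ) * 2 ^ (f x) - (X : ℤ) * 2 ^ x := by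
        have e1 : ((c (f x) : ℕ) : ℤ) = (X : ℤ) * 2 ^ (f x) := by simp [hcdef]
        have e2 : ((c x : ℕ) : ℤ) = (X : ℤ) * 2 ^ x := by simp [hcdef]
        rw [← e1, ← e2]
        omega
      rcases hbad with ⟨j, hj⟩ | ⟨j, hj, hd⟩
      · left
        refine ⟨q j, Finset.mem_image_of_mem _ (Finset.mem_univ _), ?_⟩
        rw [← hcast]
        exact_mod_cast hj
      · right
        obtain ⟨e, he1, he2⟩ := digit_thin (by omega) (by omega) hd
        refine ⟨j, hj, e, he1, ?_⟩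
        rw [← hcast]
        simpa using he2
    · intro x _ y _ hxy
      exact (Prod.ext_iff.1 hxy).2
  · intro Y hY v
    change p0 ≤ Y.length at hY
    obtain ⟨I, hI1, hI2⟩ := hc2 (Y.take p0) 1 v (fun k hk => by
      rw [List.length_take]; have := hcp k hk; omega)
    refine ⟨I, hI1, fun k hk => ?_⟩
    obtain ⟨h1, h2, h3⟩ := hI2 k hk
    have hck := hcp k h1
    refine ⟨h1, ?_, h3⟩
    rw [List.take_take, min_eq_left hck] at h2
    exact h2

end Crest.Agent.R320.Last_517
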