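import Crest.Agent.R320.Thr2_285

/-!
# Row 320: lazy re-anchoring automata (helper296), over 285's thread calculus

State = (text since the anchor, shorter than `B`; token).
-/

set_option autoImplicit false

namespace Crest.Agent.R320.Half1_296

open Crest.RegLang Crest.Agent.R320.Hk_851 Crest.Agent.R320.Thr_285

universe u

section gen

variable {α : Type u} {T : Type*}

/-- lazy step on raw states -/
def dl (B : ℕ) (M : List α → ℕ) (f : List α → T → T) (s : List α × T) (c : α) : List α × T :=
  if s.1.length + 1 < B then (s.1 ++ [c], s.2)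
  else ((s.1 ++ [c]).drop (M (s.1 ++ [c])), f (s.1 ++ [c]) s.2)

/-- run from an anchor -/
def G (B : ℕ) (M : List α → ℕ) (f : List α → T → T) (t : T) (U : List α) : List α × T :=
  U.foldl (dl B M f) ([], t)

variable {B : ℕ} {M : List α → ℕ} {f : List α → T → T}

theorem foldl_short : ∀ (w : List α) (s : List α × T), s.1.length + w.length < B →
    w.foldl (dl B M f) s = (s.1 ++ w, s.2) := by
  intro w
  induction w with
  | nil => intro s _; simp
  | cons c w ih =>
    intro s h
    rw [List.length_cons] at h
    rw [List.foldl_cons]
    have h1 : dl B M f s c = (s.1 ++ [c], s.2) := by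
      unfold dl; rw [if_pos (by omega)]
    rw [h1, ih _ (by simp; omega)]
    simp

theorem run_eq {s : List α × T} (hs : s.1.length < B) (w : List α) :
    w.foldl (dl B M f) s = G B M f s.2 (s.1 ++ w) := by
  unfold G
  rw [List.foldl_append, foldl_short s.1 ([], s.2) (by simpa using hs)]
  simp

theorem G_short {t : T} {U : List α} (h : U.length < B) : G B M f t U = (U, t) := by
  unfold G
  rw [foldl_short U ([], t) (by simpa using h)]
  simp

theorem G_long {t : T} {U : List α} (h : B ≤ U.length) (hB : 0 < B)
    (h0 : 0 < M (U.take B)) (_h1 : M (U.take B) ≤ B) :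
    G B M f t U = G B M f (f (U.take B) t) (U.drop (M (U.take B))) := by
  have hlt : B - 1 < U.length := by omega
  have e1 : U = U.take (B - 1) ++ (U[B - 1] :: U.drop B) := by
    conv_lhs => rw [← List.take_append_drop (B - 1) U]
    congr 1
    rw [List.drop_eq_getElem_cons hlt]
    congr 2
    omega
  have e2 : U.take B = U.take (B - 1) ++ [U[B - 1]] := by
    have := List.take_succ_eq_append_getElem (l := U) (i := B - 1) hlt
    rw [← this]; congr 1; omega
  have hl : (U.take (B - 1)).length = B - 1 := by rw [List.length_take]; omega
  have e3 : G B M f t U = (U.drop B).foldl (dl B M f) ((U.take B).drop (M (U.take B)), f (U.take B) t) := by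
    conv_lhs => rw [e1]
    unfold G
    rw [List.foldl_append, foldl_short (U.take (B - 1)) ([], t) (by
      rw [hl]; change 0 + (B - 1) < B; omega), List.foldl_cons]
    congr 1
    unfold dl
    rw [if_neg (by simp only [List.nil_append]; omega)]
    simp only [List.nil_append]
    rw [← e2]
  rw [e3, run_eq (by
    simp only [List.length_drop, List.length_take]; omega)]
  congr 1
  have : U.drop (M (U.take B)) = ((U.take B) ++ (U.drop B)).drop (M (U.take B)) := by
    rw [List.take_append_drop]
  rw [this, List.drop_append_of_le_length (by rw [List.length_take]; omega)]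

theorem dl_length (hM : ∀ U : List α, U.length = B → 0 < M U) {s : List α × T}
    (hs : s.1.length < B) (c : α) : (dl B M f s c).1.length < B := by
  unfold dl
  split
  · simp; omega
  · have h1 : (s.1 ++ [c]).length = B := by simp; omega
    have h2 := hM _ h1
    simp only [List.length_drop]; omega

/-- the finite state type -/
abbrev St (α : Type u) (T : Type*) (B : ℕ) := {s : List α × T // s.1.length < B}

theorem finite_St [Finite α] [Finite T] : Finite (St α T B) := by
  have : Finite {u : List α // u.length < B} := (List.finite_length_lt α B).to_subtype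
  refine Finite.of_injective (fun s : St α T B => ((⟨s.1.1, s.2⟩ : {u : List α // u.length < B}), s.1.2)) ?_
  rintro ⟨⟨a, b⟩, h⟩ ⟨⟨a', b'⟩, h'⟩ e
  simp only [Prod.mk.injEq, Subtype.mk.injEq] at e
  obtain ⟨rfl, rfl⟩ := e
  rfl

/-- the automaton -/
def dS (f : List α → T → T) (hM : ∀ U : List α, U.length = B → 0 < M U) (s : St α T B) (c : α) :
    St α T B := ⟨dl B M f s.1 c, dl_length hM s.2 c⟩

theorem run_val (hM : ∀ U : List α, U.length = B → 0 < M U) (s : St α T B) (w : List α) :
    (run (dS f hM) s w).1 = w.foldl (dl B M f) s.1 := by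
  induction w generalizing s with
  | nil => rfl
  | cons c w ih => rw [run_cons, ih]; rfl

theorem run_G (hM : ∀ U : List α, U.length = B → 0 < M U) (s : St α T B) (w : List α) :
    (run (dS f hM) s w).1 = G B M f s.1.2 (s.1.1 ++ w) := by
  rw [run_val, run_eq s.2]

theorem G_junction {t : T} {P p : List α} {d : ℕ} {R : T} (hB : 0 < B)
    (h : B ≤ P.length + p.length) (h0 : 0 < M ((P ++ p).take B)) (h1 : M ((P ++ p).take B) ≤ B)
    (h2 : M ((P ++ p).take B) = P.length + d) (h3 : f ((P ++ p).take B) t = R) :
    G B M f t (P ++ p) = G B M f R (p.drop d) := by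
  rw [G_long (by rw [List.length_append]; exact h) hB h0 h1, h3, h2]
  congr 1
  simp [List.drop_append]

theorem G_lt (hM : ∀ U : List α, U.length = B → 0 < M U) (hB : 0 < B) (t : T) (U : List α) :
    (G B M f t U).1.length < B := by
  let s0 : St α T B := ⟨([], t), by simpa using hB⟩
  have h := (run (dS f hM) s0 U).2
  have e := congrArg (fun s : List α × T => s.1.length) (run_G (f := f) hM s0 U)
  exact lt_of_eq_of_lt e.symm h

end gen

end Crest.Agent.R320.Half1_296
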