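import Mathlib

set_option autoImplicit false

/-! Lazy re-anchoring automaton: state = (text since the anchor, value at the anchor). -/

namespace Crest.Agent.R320.Lazy_570

variable {α V : Type*}

/-- one letter -/
def step (Bm : ℕ) (N : List α → ℕ) (zm : V → List α → V) (θ : List α × V) (c : α) :
    List α × V :=
  if (θ.1 ++ [c]).length < Bm then (θ.1 ++ [c], θ.2)
  else ((θ.1 ++ [c]).drop (N (θ.1 ++ [c])), zm θ.2 ((θ.1 ++ [c]).take (N (θ.1 ++ [c]))))

/-- reading a word -/
def run (Bm : ℕ) (N : List α → ℕ) (zm : V → List α → V) (θ : List α × V) (w : List α) :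
    List α × V := w.foldl (step Bm N zm) θ

variable {Bm : ℕ} {N : List α → ℕ} {zm : V → List α → V}

@[simp] lemma run_nil (θ : List α × V) : run Bm N zm θ [] = θ := rfl

lemma run_append (θ : List α × V) (w w' : List α) :
    run Bm N zm θ (w ++ w') = run Bm N zm (run Bm N zm θ w) w' := by
  simp [run, List.foldl_append]

lemma run_cons (θ : List α × V) (c : α) (w : List α) :
    run Bm N zm θ (c :: w) = run Bm N zm (step Bm N zm θ c) w := rfl

/-- before the re-anchoring nothing happens -/
lemma run_short (u : List α) (v : V) (r : List α) (h : u.length + r.length < Bm) :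
    run Bm N zm (u, v) r = (u ++ r, v) := by
  induction r generalizing u with
  | nil => simp
  | cons c r ih =>
    simp only [List.length_cons] at h
    rw [run_cons]
    have h1 : step Bm N zm (u, v) c = (u ++ [c], v) := by
      unfold step
      rw [if_pos (by simp; omega)]
    rw [h1, ih _ (by simp; omega)]
    simp

/-- at the time `Bm` after the anchor the anchor moves -/
lemma run_full (u : List α) (v : V) (r : List α) (hu : u.length < Bm)
    (h : u.length + r.length = Bm) :
    run Bm N zm (u, v) r = ((u ++ r).drop (N (u ++ r)), zm v ((u ++ r).take (N (u ++ r)))) := by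
  have hr : r ≠ [] := by rintro rfl; simp at h; omega
  obtain ⟨r', c, rfl⟩ := List.eq_nil_or_concat' r |>.resolve_left hr
  simp only [List.length_append, List.length_singleton] at h
  rw [run_append, run_short u v r' (by omega), run_cons, run_nil]
  unfold step
  rw [if_neg (by simp; omega)]
  simp

/-- the state text is always shorter than `Bm` -/
lemma run_fst_lt (hN : ∀ u : List α, u.length = Bm → 0 < N u) (θ : List α × V)
    (hθ : θ.1.length < Bm) (w : List α) : (run Bm N zm θ w).1.length < Bm := by
  induction w generalizing θ with
  | nil => simpa using hθ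
  | cons c w ih =>
    rw [run_cons]
    apply ih
    unfold step
    split_ifs with h
    · exact h
    · have hl : (θ.1 ++ [c]).length = Bm := by
        simp only [List.length_append, List.length_singleton] at h ⊢; omega
      have := hN _ hl
      simp only [List.length_drop]
      omega

/-- **Soundness of a cut**: if the next anchor computed from the left text is the one named by
the right word and the label is the transported value, the run from the left state equals the run
started at the named anchor. -/
theorem run_cut (u : List α) (v : V) (r : List α) (b : ℕ) (R : V) (hu : u.length < Bm)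
    (hr : Bm ≤ u.length + r.length) (hb0 : 0 < u.length + b)
    (hb : u.length + b ≤ Bm)
    (hN : N ((u ++ r).take Bm) = u.length + b)
    (hR : zm v (u ++ r.take b) = R) :
    run Bm N zm (u, v) r = run Bm N zm ([], R) (r.drop b) := by
  obtain ⟨r1, r2, rfl, hr1⟩ : ∃ r1 r2, r = r1 ++ r2 ∧ u.length + r1.length = Bm := by
    refine ⟨r.take (Bm - u.length), r.drop (Bm - u.length), (List.take_append_drop _ _).symm, ?_⟩
    simp only [List.length_take]; omega
  have ht : (u ++ (r1 ++ r2)).take Bm = u ++ r1 := by
    rw [← List.append_assoc, List.take_append_of_le_length (by simp; omega),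
      List.take_of_length_le (by simp; omega)]
  rw [ht] at hN
  have hb1 : b ≤ r1.length := by omega
  have htk : (r1 ++ r2).take b = r1.take b := List.take_append_of_le_length hb1
  have hdr : (r1 ++ r2).drop b = r1.drop b ++ r2 := List.drop_append_of_le_length hb1
  rw [htk] at hR
  rw [hdr, run_append, run_append, run_full u v r1 hu hr1, hN]
  have e1 : (u ++ r1).drop (u.length + b) = r1.drop b := by
    rw [List.drop_append]; simp
  have e2 : (u ++ r1).take (u.length + b) = u ++ r1.take b := by
    rw [List.take_append]; simp
  rw [e1, e2, hR, run_short [] R (r1.drop b) (by simp; omega)]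
  simp

section Reading

variable {S : Type*} [Monoid S] [AddCommGroup V] (φ : List α → S) (act : V → S → V)
  (nu : List α → V)

/-- all runs from `([], v)` have the same text part, and the value part is affine in `v` with
linear part `act · (φ p)` where `w = p ++ text part`. -/
theorem run_affine (hφn : φ [] = 1) (hφ : ∀ x y, φ (x ++ y) = φ x * φ y)
    (h1 : ∀ v, act v 1 = v) (hm : ∀ v s t, act v (s * t) = act (act v s) t)
    (hadd : ∀ v v' s, act (v + v') s = act v s + act v' s) (w : List α) :
    ∃ (p u : List α) (k : V), p ++ u = w ∧
      ∀ v, run Bm N (fun v Z => act v (φ Z) + nu Z) ([], v) w = (u, act v (φ p) + k) := by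
  induction w using List.reverseRecOn with
  | nil => exact ⟨[], [], 0, rfl, fun v => by simp [hφn, h1]⟩
  | append_singleton w c ih =>
    obtain ⟨p, u, k, hpu, h⟩ := ih
    by_cases hlt : (u ++ [c]).length < Bm
    · refine ⟨p, u ++ [c], k, by rw [← List.append_assoc, hpu], fun v => ?_⟩
      rw [run_append, h v, run_cons, run_nil]
      unfold step
      rw [if_pos hlt]
    · refine ⟨p ++ (u ++ [c]).take (N (u ++ [c])), (u ++ [c]).drop (N (u ++ [c])),
        act k (φ ((u ++ [c]).take (N (u ++ [c])))) + nu ((u ++ [c]).take (N (u ++ [c]))), ?_,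
        fun v => ?_⟩
      · rw [List.append_assoc, List.take_append_drop, ← List.append_assoc, hpu]
      · rw [run_append, h v, run_cons, run_nil]
        unfold step
        rw [if_neg hlt]
        simp only [hφ, hm, hadd, Prod.mk.injEq, true_and]
        abel

/-- reading `φ w` from the runs, for a faithful action -/
theorem phi_eq_of_runs (hφn : φ [] = 1) (hφ : ∀ x y, φ (x ++ y) = φ x * φ y)
    (h1 : ∀ v, act v 1 = v) (hm : ∀ v s t, act v (s * t) = act (act v s) t)
    (hadd : ∀ v v' s, act (v + v') s = act v s + act v' s)
    (hf : ∀ s t, (∀ v, act v s = act v t) → s = t) (w w' : List α)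
    (h : ∀ v, run Bm N (fun v Z => act v (φ Z) + nu Z) ([], v) w =
      run Bm N (fun v Z => act v (φ Z) + nu Z) ([], v) w') : φ w = φ w' := by
  obtain ⟨p, u, k, hpu, hw⟩ := run_affine (Bm := Bm) (N := N) φ act nu hφn hφ h1 hm hadd w
  obtain ⟨p', u', k', hpu', hw'⟩ := run_affine (Bm := Bm) (N := N) φ act nu hφn hφ h1 hm hadd w'
  have h0 : ∀ s, act 0 s = 0 := fun s => by
    have := hadd 0 0 s
    simpa using this
  have hall : ∀ v, u = u' ∧ act v (φ p) + k = act v (φ p') + k' := by
    intro v
    have := h v
    rw [hw v, hw' v] at this
    exact ⟨(Prod.mk.inj this).1, (Prod.mk.inj this).2⟩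
  have hk : k = k' := by simpa [h0] using (hall 0).2
  have hpp : φ p = φ p' := hf _ _ (fun v => by
    have := (hall v).2
    rw [hk] at this
    exact add_right_cancel this)
  rw [← hpu, ← hpu', hφ, hφ, hpp, (hall 0).1]

end Reading

end Crest.Agent.R320.Lazy_570
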