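import Mathlib

/-!
ROW 320 (S0495), piece (3) of the plan of 13:20Z: helper818's lemma (#12250) in word form.

A wall rule is right-looking with window `n`: the status of position `t` of a word `w` is
`R (w.drop t)`, and `R` only reads the first `n` letters.  So a word ending at `x` sees exactly
the walls `<= x - n`, a word starting at `x` sees all walls `>= x`.

Chain rule: `N(a) = first wall >= a + z`, `z = p + q + N1`, `n <= p`.
Legal cut at `x`: left side `x = a + p + j`, `j <= N1`, `a` a wall; right side: no wall in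
`[x + q, x + q + N1)`, `b(x) := first wall >= x + q + N1`.  LEMMA: `b(x) = N(a)`.
-/

set_option autoImplicit false

namespace Crest.Agent.R320.L818_372

/-- `b` is the first wall at or after `y`. -/
def Nxt (W : ℕ → Prop) (y b : ℕ) : Prop := y ≤ b ∧ W b ∧ ∀ t, y ≤ t → t < b → ¬ W t

theorem Nxt.unique {W : ℕ → Prop} {y b b' : ℕ} (h : Nxt W y b) (h' : Nxt W y b') : b = b' := by
  rcases lt_trichotomy b b' with hlt | heq | hgt
  · exact absurd h.2.1 (h'.2.2 b h.1 hlt)
  · exact heq
  · exact absurd h'.2.1 (h.2.2 b' h'.1 hgt)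

theorem Nxt.mono_left {W : ℕ → Prop} {y y' b : ℕ} (h : Nxt W y b) (h1 : y ≤ y') (h2 : y' ≤ b) :
    Nxt W y' b := ⟨h2, h.2.1, fun t ht htb => h.2.2 t (h1.trans ht) htb⟩

/-- Moving the starting point over a wall-free interval does not change the next wall. -/
theorem nxt_shift_iff {W : ℕ → Prop} {y y' : ℕ} (hyy : y ≤ y')
    (hno : ∀ t, y ≤ t → t < y' → ¬ W t) (b : ℕ) : Nxt W y b ↔ Nxt W y' b := by
  constructor
  · intro h
    have hb : y' ≤ b := by
      by_contra hcon
      exact hno b h.1 (not_le.mp hcon) h.2.1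
    exact h.mono_left hyy hb
  · rintro ⟨h1, h2, h3⟩
    refine ⟨hyy.trans h1, h2, fun t ht htb => ?_⟩
    rcases lt_or_ge t y' with hlt | hge
    · exact hno t ht hlt
    · exact h3 t hge htb

theorem Nxt.exists_of_wall {W : ℕ → Prop} {y t : ℕ} (hyt : y ≤ t) (ht : W t) :
    ∃ b, Nxt W y b ∧ b ≤ t := by
  classical
  have hex : ∃ s, y ≤ s ∧ W s := ⟨t, hyt, ht⟩
  refine ⟨Nat.find hex, ⟨(Nat.find_spec hex).1, (Nat.find_spec hex).2, ?_⟩, Nat.find_min' hex ⟨hyt, ht⟩⟩
  intro s hs hlt hW
  exact Nat.find_min hex hlt ⟨hs, hW⟩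

/-- **818's lemma, positions form.**  At a legal junction `x = a + p + j` (`j ≤ N1`) with no wall
in `[x + q, x + q + N1)` the first wall `>= x + q + N1` (known to the right side) is the first
wall `>= a + (p + q + N1)` (the chain successor of `a`, known to nobody else). -/
theorem lem818 (W : ℕ → Prop) (a p q N1 j x : ℕ) (hj : j ≤ N1) (hx : x = a + p + j)
    (hno : ∀ t, x + q ≤ t → t < x + q + N1 → ¬ W t) (b : ℕ) :
    Nxt W (a + (p + q + N1)) b ↔ Nxt W (x + q + N1) b := by
  refine nxt_shift_iff (by omega) (fun t h1 h2 => hno t (by omega) h2) b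

section Words

variable {α : Type*}

/-- Right-looking rule with window `n`. -/
structure Rule (n : ℕ) (R : List α → Prop) : Prop where
  len : ∀ Q, R Q → n ≤ Q.length
  take : ∀ Q Q' : List α, n ≤ Q.length → (R Q ↔ R (Q ++ Q'))

/-- Walls of a word. -/
def Wall (R : List α → Prop) (w : List α) (t : ℕ) : Prop := R (w.drop t)

variable {n : ℕ} {R : List α → Prop}

theorem Wall.lt (hR : Rule n R) {w : List α} {t : ℕ} (h : Wall R w t) : t + n ≤ w.length ∨ n = 0 := by
  have := hR.len _ h
  rw [List.length_drop] at this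
  omega

/-- A left piece `u` sees exactly the walls `t` of `u ++ v` with `t + n ≤ |u|`. -/
theorem wall_left_iff (hR : Rule n R) (u v : List α) (t : ℕ) (ht : t + n ≤ u.length) :
    Wall R u t ↔ Wall R (u ++ v) t := by
  unfold Wall
  rw [List.drop_append_of_le_length (by omega)]
  exact hR.take _ _ (by rw [List.length_drop]; omega)

/-- A right piece `v` sees all the walls `≥ |u|` of `u ++ v`. -/
theorem wall_right_iff (u v : List α) (s : ℕ) : Wall R v s ↔ Wall R (u ++ v) (u.length + s) := by
  unfold Wall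
  rw [← List.drop_drop, List.drop_left]

/-- Left side of a cut behind the word `u`: chain node `a`, clock `j`. -/
def LeftLegal (R : List α → Prop) (p N1 : ℕ) (u : List α) (a j : ℕ) : Prop :=
  Wall R u a ∧ j ≤ N1 ∧ u.length = a + p + j

/-- Right side of a cut before the word `v`: `b` = distance to the next chain node. -/
def RightLegal (R : List α → Prop) (q N1 : ℕ) (v : List α) (b : ℕ) : Prop :=
  (∀ s, q ≤ s → s < q + N1 → ¬ Wall R v s) ∧ Nxt (Wall R v) (q + N1) b

/-- **818's lemma, word form.** -/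
theorem lem818_word (hR : Rule n R) {p q N1 : ℕ} (hn : n ≤ p) {u v : List α} {a j b : ℕ}
    (hl : LeftLegal R p N1 u a j) (hr : RightLegal R q N1 v b) :
    Wall R (u ++ v) a ∧ Nxt (Wall R (u ++ v)) (a + (p + q + N1)) (u.length + b) := by
  obtain ⟨ha, hj, hlen⟩ := hl
  obtain ⟨hno, hb1, hb2, hb3⟩ := hr
  refine ⟨(wall_left_iff hR u v a (by omega)).1 ha, ?_⟩
  refine (lem818 _ a p q N1 j u.length hj hlen ?_ _).2 ?_
  · intro t h1 h2 hW
    obtain ⟨s, rfl⟩ : ∃ s, t = u.length + s := ⟨t - u.length, by omega⟩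
    exact hno s (by omega) (by omega) ((wall_right_iff u v s).2 hW)
  · refine ⟨by omega, (wall_right_iff u v b).1 hb2, fun t h1 h2 hW => ?_⟩
    obtain ⟨s, rfl⟩ : ∃ s, t = u.length + s := ⟨t - u.length, by omega⟩
    exact hb3 s (by omega) (by omega) ((wall_right_iff u v s).2 hW)

/-- The next wall seen inside a word `u` is the next wall of every extension, if it is seen. -/
theorem nxt_left_iff (hR : Rule n R) (u v : List α) {y b : ℕ} (hb : b + n ≤ u.length) :
    Nxt (Wall R u) y b ↔ Nxt (Wall R (u ++ v)) y b := by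
  unfold Nxt
  constructor
  · rintro ⟨h1, h2, h3⟩
    refine ⟨h1, (wall_left_iff hR u v b hb).1 h2, fun t ht htb hW => ?_⟩
    exact h3 t ht htb ((wall_left_iff hR u v t (by omega)).2 hW)
  · rintro ⟨h1, h2, h3⟩
    refine ⟨h1, (wall_left_iff hR u v b hb).2 h2, fun t ht htb hW => ?_⟩
    exact h3 t ht htb ((wall_left_iff hR u v t (by omega)).1 hW)

/-- Next walls seen by a right piece. -/
theorem nxt_right_iff (u v : List α) {y b : ℕ} :
    Nxt (Wall R v) y b ↔ Nxt (Wall R (u ++ v)) (u.length + y) (u.length + b) := by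
  unfold Nxt
  constructor
  · rintro ⟨h1, h2, h3⟩
    refine ⟨by omega, (wall_right_iff u v b).1 h2, fun t ht htb hW => ?_⟩
    obtain ⟨s, rfl⟩ : ∃ s, t = u.length + s := ⟨t - u.length, by omega⟩
    exact h3 s (by omega) (by omega) ((wall_right_iff u v s).2 hW)
  · rintro ⟨h1, h2, h3⟩
    refine ⟨by omega, (wall_right_iff u v b).2 h2, fun t ht htb hW => ?_⟩
    exact h3 (u.length + t) (by omega) (by omega) ((wall_right_iff u v t).1 hW)

/-- Chain of nodes of a text: `c 0, c 1, …, c m` with `c (i+1) = ` first wall `≥ c i + z`. -/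
def Chain (W : ℕ → Prop) (z m : ℕ) (c : ℕ → ℕ) : Prop :=
  W (c 0) ∧ ∀ i, i < m → Nxt W (c i + z) (c (i + 1))

theorem Chain.wall {W : ℕ → Prop} {z m : ℕ} {c : ℕ → ℕ} (h : Chain W z m c) :
    ∀ i, i ≤ m → W (c i) := by
  intro i hi
  cases i with
  | zero => exact h.1
  | succ i => exact (h.2 i (by omega)).2.1

theorem Chain.lt {W : ℕ → Prop} {z m : ℕ} {c : ℕ → ℕ} (h : Chain W z m c) :
    ∀ i, i < m → c i + z ≤ c (i + 1) := fun i hi => (h.2 i hi).1

/-- Chains from the same node agree. -/
theorem Chain.unique {W : ℕ → Prop} {z m : ℕ} {c c' : ℕ → ℕ} (h : Chain W z m c)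
    (h' : Chain W z m c') (h0 : c 0 = c' 0) : ∀ i, i ≤ m → c i = c' i := by
  intro i
  induction i with
  | zero => intro _; exact h0
  | succ i ih =>
    intro hi
    have e := ih (by omega)
    have h1 := h.2 i (by omega)
    have h2 := h'.2 i (by omega)
    rw [← e] at h2
    exact h1.unique h2

/-- A junction continues the chain of the left piece by the chain of the right piece:
if `a` is a node of the chain of `u` at which the cut is legal and `b` is the first node named by
the right side, then in `u ++ v` the node after `a` is `|u| + b`, and the later nodes named by `v`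
(chain of `v` from `b`) are the later nodes of the chain of `u ++ v`. -/
theorem chain_junction (hR : Rule n R) {p q N1 : ℕ} (hn : n ≤ p) {u v : List α} {a j b m : ℕ}
    {c : ℕ → ℕ} (hl : LeftLegal R p N1 u a j) (hr : RightLegal R q N1 v b)
    (hc : Chain (Wall R v) (p + q + N1) m c) (hc0 : c 0 = b) :
    Chain (Wall R (u ++ v)) (p + q + N1) (m + 1)
      (fun i => if i = 0 then a else u.length + c (i - 1)) := by
  obtain ⟨hW, hN⟩ := lem818_word hR hn hl hr
  refine ⟨by simpa using hW, ?_⟩
  intro i hi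
  cases i with
  | zero => simpa [hc0] using hN
  | succ i =>
    have h1 := (nxt_right_iff (R := R) u v).1 (hc.2 i (by omega))
    have e1 : (if i + 1 = 0 then a else u.length + c (i + 1 - 1)) = u.length + c i := by simp
    have e2 : (if i + 1 + 1 = 0 then a else u.length + c (i + 1 + 1 - 1)) = u.length + c (i + 1) := by
      simp
    simp only [e1, e2]
    rw [Nat.add_assoc]
    exact h1

end Words

end Crest.Agent.R320.L818_372
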