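import Mathlib

/-!
ROW 320 (S0495), piece (4) of the plan of 13:20Z: helper860's lemma (#12446 (3)).

Rigid walls: consecutive walls are at distance `L` or `L + 1`.  Chain `N_z(a) = ` first wall
`>= a + z`.  A node `a` is critical for `z` if there is a wall within `N` of `a + z`; then
`N_z(a)` is that wall or the next one.  Let `z2 = z1 + 2 L + L / 2`, `4 N + 30 <= L`.  Then a chain
of `z1` and a chain of `z2` cannot both be critical at every node of a long common stretch.
-/

set_option autoImplicit false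

namespace Crest.Agent.R320.L860_372

/-- Enumerated rigid walls: the first `K + 1` walls `om 0 < om 1 < … < om K` of a stretch. -/
def Rigid (L : ℤ) (K : ℕ) (om : ℕ → ℤ) : Prop :=
  ∀ k, k < K → om (k + 1) = om k + L ∨ om (k + 1) = om k + L + 1

theorem Rigid.dist {L : ℤ} {K : ℕ} {om : ℕ → ℤ} (h : Rigid L K om) :
    ∀ i k : ℕ, k + i ≤ K → om k + i * L ≤ om (k + i) ∧ om (k + i) ≤ om k + i * L + i := by
  intro i
  induction i with
  | zero => intro k _; simp
  | succ i ih =>
    intro k hk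
    obtain ⟨h1, h2⟩ := ih k (by omega)
    rcases h (k + i) (by omega) with h3 | h3
    · have e : k + (i + 1) = k + i + 1 := by omega
      rw [e, h3]
      push_cast
      constructor <;> nlinarith
    · have e : k + (i + 1) = k + i + 1 := by omega
      rw [e, h3]
      push_cast
      constructor <;> nlinarith

/-- The node with index `k` is critical for `z` (witness wall `m`) and `k'` is its successor. -/
def Bad (N z : ℤ) (K : ℕ) (om : ℕ → ℤ) (k k' : ℕ) : Prop :=
  k ≤ K ∧ k' ≤ K ∧ ∃ m, m ≤ K ∧ om m - (om k + z) ≤ N ∧ -N ≤ om m - (om k + z) ∧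
    (k' = m ∨ k' = m + 1)

theorem Bad.step {L N z : ℤ} {K : ℕ} {om : ℕ → ℤ} (h : Rigid L K om) (hL : 0 ≤ L) {k k' : ℕ}
    (hb : Bad N z K om k k') : z - N ≤ om k' - om k ∧ om k' - om k ≤ z + L + N + 1 := by
  obtain ⟨_, h2, m, hm, h3, h4, h5⟩ := hb
  rcases h5 with rfl | rfl
  · constructor <;> linarith
  · rcases h m (by omega) with h6 | h6 <;> rw [h6] <;> constructor <;> linarith

/-- Distances of two walls (indices at most `K`) which are at most `7 L` in absolute value, as a
signed pair: `om b - om a = s * (i * L + r)` with `0 ≤ r ≤ i ≤ 7`. -/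
theorem Rigid.near {L : ℤ} {K : ℕ} {om : ℕ → ℤ} (h : Rigid L K om) (hL : 30 ≤ L) {a b : ℕ}
    (ha : a ≤ K) (hb : b ≤ K) (h1 : om b - om a ≤ 6 * L) (h2 : -(6 * L) ≤ om b - om a) :
    ∃ i r : ℤ, 0 ≤ r ∧ r ≤ i ∧ i ≤ 6 ∧
      (om b - om a = i * L + r ∨ om b - om a = -(i * L + r)) := by
  rcases le_total a b with hab | hab
  · obtain ⟨i, rfl⟩ := Nat.exists_eq_add_of_le hab
    obtain ⟨h3, h4⟩ := h.dist i a hb
    have hi : (i : ℤ) ≤ 6 := by
      by_contra hcon
      have : (7 : ℤ) ≤ i := by omega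
      nlinarith
    exact ⟨i, om (a + i) - om a - i * L, by linarith, by linarith, hi, Or.inl (by ring)⟩
  · obtain ⟨i, rfl⟩ := Nat.exists_eq_add_of_le hab
    obtain ⟨h3, h4⟩ := h.dist i b ha
    have hi : (i : ℤ) ≤ 6 := by
      by_contra hcon
      have : (7 : ℤ) ≤ i := by omega
      nlinarith
    exact ⟨i, om (b + i) - om b - i * L, by linarith, by linarith, hi, Or.inr (by ring)⟩

/-- (i): two critical nodes of the two chains are never within `3 L` of each other. -/
theorem not_near {L N z1 z2 : ℤ} {K : ℕ} {om : ℕ → ℤ} (h : Rigid L K om) (hN : 0 ≤ N)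
    (hL : 4 * N + 30 ≤ L) (hz : z2 = z1 + 2 * L + L / 2) {a a' b b' : ℕ}
    (ha : Bad N z1 K om a a') (hb : Bad N z2 K om b b') (h1 : om b - om a ≤ 3 * L)
    (h2 : -(3 * L) ≤ om b - om a) : False := by
  obtain ⟨ha1, _, m, hm, hm1, hm2, _⟩ := ha
  obtain ⟨hb1, _, m', hm', hm1', hm2', _⟩ := hb
  have hhalf : 2 * (L / 2) ≤ L ∧ L ≤ 2 * (L / 2) + 1 := by omega
  obtain ⟨i, r, hr0, hri, hi6, hd⟩ := h.near (by linarith) ha1 hb1 (by linarith) (by linarith)
  obtain ⟨i', r', hr0', hri', hi6', hd'⟩ := h.near (by linarith) hm hm'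
    (by linarith) (by linarith)
  have hi0 : 0 ≤ i := hr0.trans hri
  have hi0' : 0 ≤ i' := hr0'.trans hri'
  -- `om m' - om m = d + 2 L + L / 2 + e`, `|e| ≤ 2 N`
  have e1 : om m' - om m ≤ (om b - om a) + 2 * L + L / 2 + 2 * N := by linarith
  have e2 : (om b - om a) + 2 * L + L / 2 - 2 * N ≤ om m' - om m := by linarith
  -- finitely many cases for `i`, `i'`
  have ci : i = 0 ∨ i = 1 ∨ i = 2 ∨ i = 3 ∨ i = 4 ∨ i = 5 ∨ i = 6 := by omega
  have ci' : i' = 0 ∨ i' = 1 ∨ i' = 2 ∨ i' = 3 ∨ i' = 4 ∨ i' = 5 ∨ i' = 6 := by omega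
  generalize L / 2 = H at *
  rcases ci with rfl | rfl | rfl | rfl | rfl | rfl | rfl <;>
  rcases ci' with rfl | rfl | rfl | rfl | rfl | rfl | rfl <;>
  rcases hd with hd | hd <;> rcases hd' with hd' | hd' <;> omega

/-- **860's lemma.** -/
theorem lem860 {L N z1 z2 : ℤ} {K : ℕ} {om : ℕ → ℤ} (h : Rigid L K om) (hN : 0 ≤ N)
    (hL : 4 * N + 30 ≤ L) (hz : z2 = z1 + 2 * L + L / 2) (J : ℕ) (al be : ℕ → ℕ)
    (ha : ∀ j, j < J + 1 → Bad N z1 K om (al j) (al (j + 1)))
    (hb : ∀ j, j < J + 1 → Bad N z2 K om (be j) (be (j + 1)))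
    (h0 : om (be 0) - om (al 0) < -(3 * L)) (hJ : -(J * L) ≤ om (be 0) - om (al 0)) : False := by
  have hhalf : 2 * (L / 2) ≤ L ∧ L ≤ 2 * (L / 2) + 1 := by omega
  have key : ∀ k : ℕ, k ≤ J → om (be 0) - om (al 0) + k * L ≤ om (be k) - om (al k) ∧
      om (be k) - om (al k) < -(3 * L) := by
    intro k
    induction k with
    | zero => intro _; simpa using h0
    | succ k ih =>
      intro hk
      obtain ⟨i1, i2⟩ := ih (by omega)
      obtain ⟨s1, s2⟩ := (ha k (by omega)).step h (by linarith)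
      obtain ⟨t1, t2⟩ := (hb k (by omega)).step h (by linarith)
      have hlow : om (be k) - om (al k) + L ≤ om (be (k + 1)) - om (al (k + 1)) := by linarith
      have hup : om (be (k + 1)) - om (al (k + 1)) ≤ om (be k) - om (al k) + 4 * L := by linarith
      refine ⟨by push_cast; linarith, ?_⟩
      by_contra hcon
      exact not_near h hN hL hz (ha (k + 1) (by omega)) (hb (k + 1) (by omega)) (by linarith)
        (by linarith)
  obtain ⟨k1, k2⟩ := key J le_rfl
  linarith

/-- Version with an arbitrary start: if the `z1`-chain is critical for `J1 + J2 + 1` steps and the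
`z2`-chain for `J2 + 1` steps, starting at most `D` before / behind each other, a contradiction as
soon as both numbers are large against `D`. -/
theorem lem860' {L N z1 z2 D : ℤ} {K : ℕ} {om : ℕ → ℤ} (h : Rigid L K om) (hN : 0 ≤ N)
    (hL : 4 * N + 30 ≤ L) (hz : z2 = z1 + 2 * L + L / 2) (hz1 : L + N ≤ z1) (J1 J2 : ℕ)
    (al be : ℕ → ℕ)
    (ha : ∀ j, j < J1 + J2 + 1 → Bad N z1 K om (al j) (al (j + 1)))
    (hb : ∀ j, j < J2 + 1 → Bad N z2 K om (be j) (be (j + 1)))
    (hD : om (be 0) - om (al 0) ≤ D) (hD' : -D ≤ om (be 0) - om (al 0))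
    (hJ1 : D + 3 * L < J1 * L) (hJ2 : D + 4 * L + z1 + L + N + 1 ≤ J2 * L) : False := by
  have hLpos : 0 < L := by linarith
  -- positions of the first chain increase by at least `L`
  have hstep : ∀ j, j < J1 + J2 + 1 → om (al j) + L ≤ om (al (j + 1)) ∧
      om (al (j + 1)) ≤ om (al j) + z1 + L + N + 1 := by
    intro j hj
    obtain ⟨s1, s2⟩ := (ha j hj).step h (by linarith)
    constructor <;> linarith
  have hgrow : ∀ j, j ≤ J1 + J2 → om (al 0) + j * L ≤ om (al j) := by
    intro j
    induction j with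
    | zero => intro _; simp
    | succ j ih =>
      intro hj
      have := ih (by omega)
      have := (hstep j (by omega)).1
      push_cast
      linarith
  -- first index at which the first chain is more than `3 L` right of `be 0`
  have hex : ∃ j, j ≤ J1 ∧ om (be 0) - om (al j) < -(3 * L) := by
    refine ⟨J1, le_rfl, ?_⟩
    have := hgrow J1 (by omega)
    linarith
  classical
  obtain ⟨j0, hj0, hj1, hmin⟩ : ∃ j, j ≤ J1 ∧ om (be 0) - om (al j) < -(3 * L) ∧
      ∀ i, i < j → ¬ (om (be 0) - om (al i) < -(3 * L)) := by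
    refine ⟨Nat.find hex, (Nat.find_spec hex).1, (Nat.find_spec hex).2, fun i hi hcon => ?_⟩
    exact Nat.find_min hex hi ⟨by have := (Nat.find_spec hex).1; omega, hcon⟩
  have hlow : -(D + 4 * L + z1 + L + N + 1) ≤ om (be 0) - om (al j0) := by
    cases j0 with
    | zero => linarith
    | succ i =>
      have h1 := hmin i (by omega)
      have h2 := (hstep i (by omega)).2
      rw [not_lt] at h1
      have hD0 : 0 ≤ D := by linarith
      linarith
  refine lem860 h hN hL hz J2 (fun j => al (j0 + j)) be ?_ hb (by simpa using hj1) ?_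
  · intro j hj
    have := ha (j0 + j) (by omega)
    simpa [Nat.add_assoc] using this
  · have : -((J2 : ℤ) * L) ≤ -(D + 4 * L + z1 + L + N + 1) := by linarith
    simpa using this.trans hlow

end Crest.Agent.R320.L860_372
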