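import Crest.Agent.R320.Hk2_851

/-!
# Row 320, piece (9), concrete wall-chain form, part 1 (helper256)

Walls are a right-looking local rule.  `Step W Q b`: on the text `Q` which starts at the present
anchor, the next anchor is at distance `b` (the first wall at distance `≥ z`, within `B`).
`IsCh W zs y`: `zs` is the list of zones of the chain which starts at the first letter of
`zs.flatten ++ y` and reaches the first letter of `y`.
-/

set_option autoImplicit false

namespace Crest.Agent.R320.Lev_256

open Crest.Agent.R320.Hk_851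

universe u

variable {α : Type u}

structure Walls (α : Type u) where
  R : List α → Prop
  n : ℕ
  z : ℕ
  B : ℕ
  hR : ∀ Q, R Q ↔ R (Q.take n)
  hRn : ∀ Q, R Q → n ≤ Q.length
  hnz : n ≤ z
  hz : 0 < z

variable (W : Walls α)

/-- next anchor -/
def Step (Q : List α) (b : ℕ) : Prop :=
  W.z ≤ b ∧ b ≤ W.B ∧ W.R (Q.drop b) ∧ ∀ c, W.z ≤ c → c < b → ¬ W.R (Q.drop c)

def IsCh : List (List α) → List α → Prop
  | [], _ => True
  | Z :: zs, y => Step W (Z ++ (zs.flatten ++ y)) Z.length ∧ IsCh zs y

/-- a property of the right text at every anchor which starts a zone -/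
def AllZ (q : List α → Prop) : List (List α) → List α → Prop
  | [], _ => True
  | Z :: zs, y => q (Z ++ (zs.flatten ++ y)) ∧ AllZ q zs y

/-- composition of zone maps -/
def Tc {V : Type*} (T : List α → V → V) (zs : List (List α)) (v : V) : V :=
  zs.foldl (fun v Z => T Z v) v

variable {W}

theorem Tc_nil {V : Type*} (T : List α → V → V) (v : V) : Tc T [] v = v := rfl

theorem Tc_cons {V : Type*} (T : List α → V → V) (Z : List α) (zs : List (List α)) (v : V) :
    Tc T (Z :: zs) v = Tc T zs (T Z v) := rfl

theorem Tc_append {V : Type*} (T : List α → V → V) (zs zs' : List (List α)) (v : V) :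
    Tc T (zs ++ zs') v = Tc T zs' (Tc T zs v) := by
  simp [Tc, List.foldl_append]

theorem take_eq_mono {Y Y' : List α} {n m : ℕ} (h : Y.take n = Y'.take n) (hm : m ≤ n) :
    Y.take m = Y'.take m := by
  have := congrArg (List.take m) h
  simpa [List.take_take, Nat.min_eq_left hm] using this

theorem take_append_congr (X : List α) {Y Y' : List α} {n : ℕ} (h : Y.take n = Y'.take n) :
    (X ++ Y).take n = (X ++ Y').take n := by
  rw [List.take_append, List.take_append]
  congr 1
  exact take_eq_mono h (Nat.sub_le _ _)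

theorem step_det {Q : List α} {b b' : ℕ} (h : Step W Q b) (h' : Step W Q b') : b = b' := by
  rcases lt_trichotomy b b' with hl | he | hg
  · exact absurd h.2.2.1 (h'.2.2.2 b h.1 hl)
  · exact he
  · exact absurd h'.2.2.1 (h.2.2.2 b' h'.1 hg)

theorem drop_append_congr (Z : List α) {Y Y' : List α} {n c : ℕ} (hc : c ≤ Z.length)
    (h : Y.take n = Y'.take n) : ((Z ++ Y).drop c).take n = ((Z ++ Y').drop c).take n := by
  rw [List.drop_append_of_le_length hc, List.drop_append_of_le_length hc]
  exact take_append_congr _ h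

theorem step_congr' {Z Y Y' : List α} (h : Y.take W.n = Y'.take W.n)
    (hs : Step W (Z ++ Y) Z.length) : Step W (Z ++ Y') Z.length := by
  obtain ⟨h1, h2, h3, h4⟩ := hs
  refine ⟨h1, h2, ?_, ?_⟩
  · rw [W.hR] at h3 ⊢
    rwa [← drop_append_congr Z le_rfl h]
  · intro c hc hc' hR
    refine h4 c hc hc' ?_
    rw [W.hR] at hR ⊢
    rwa [drop_append_congr Z hc'.le h]

theorem step_congr {Z Y Y' : List α} (h : Y.take W.n = Y'.take W.n) :
    Step W (Z ++ Y) Z.length ↔ Step W (Z ++ Y') Z.length :=
  ⟨step_congr' h, step_congr' h.symm⟩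

theorem isCh_congr {zs : List (List α)} {Y Y' : List α} (h : Y.take W.n = Y'.take W.n) :
    IsCh W zs Y ↔ IsCh W zs Y' := by
  induction zs with
  | nil => exact Iff.rfl
  | cons Z zs ih =>
    simp only [IsCh]
    rw [ih, step_congr (take_append_congr zs.flatten h)]

theorem allZ_congr {q : List α → Prop} {H : ℕ} (hq : ∀ Q, q Q ↔ q (Q.take H))
    {zs : List (List α)} {Y Y' : List α} (h : Y.take H = Y'.take H) :
    AllZ q zs Y ↔ AllZ q zs Y' := by
  induction zs with
  | nil => exact Iff.rfl
  | cons Z zs ih =>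
    simp only [AllZ]
    rw [ih, hq, hq (Z ++ (zs.flatten ++ Y')),
      take_append_congr Z (take_append_congr zs.flatten h)]

theorem isCh_append {zs zs' : List (List α)} {Y : List α} :
    IsCh W (zs ++ zs') Y ↔ IsCh W zs (zs'.flatten ++ Y) ∧ IsCh W zs' Y := by
  induction zs with
  | nil => simp [IsCh]
  | cons Z zs ih =>
    simp only [List.cons_append, IsCh, ih, List.flatten_append, List.append_assoc]
    tauto

theorem allZ_append {q : List α → Prop} {zs zs' : List (List α)} {Y : List α} :
    AllZ q (zs ++ zs') Y ↔ AllZ q zs (zs'.flatten ++ Y) ∧ AllZ q zs' Y := by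
  induction zs with
  | nil => simp [AllZ]
  | cons Z zs ih =>
    simp only [List.cons_append, AllZ, ih, List.flatten_append, List.append_assoc]
    tauto

theorem allZ_mono {q q' : List α → Prop} (h : ∀ Q, q Q → q' Q) {zs : List (List α)}
    {Y : List α} (hz : AllZ q zs Y) : AllZ q' zs Y := by
  induction zs with
  | nil => trivial
  | cons Z zs ih => exact ⟨h _ hz.1, ih hz.2⟩

theorem cons_eq_of_step {Z Z' X X' : List α} (h : Z ++ X = Z' ++ X')
    (hs : Step W (Z ++ X) Z.length) (hs' : Step W (Z' ++ X') Z'.length) : Z = Z' ∧ X = X' := by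
  have hl : Z.length = Z'.length := by
    rw [← h] at hs'
    exact step_det hs hs'
  exact List.append_inj h hl

/-- the chain is deterministic -/
theorem isCh_prefix : ∀ {zs zs' : List (List α)} {Y Y' : List α},
    zs.flatten ++ Y = zs'.flatten ++ Y' → IsCh W zs Y → IsCh W zs' Y' →
    zs'.flatten.length ≤ zs.flatten.length → ∃ r, zs = zs' ++ r ∧ Y' = r.flatten ++ Y
  | zs, [], Y, Y', h, _, _, _ => ⟨zs, rfl, by simpa using h.symm⟩
  | [], Z' :: zs', Y, Y', h, _, h2, hl => by
    exfalso
    have hZ : 0 < Z'.length := lt_of_lt_of_le W.hz h2.1.1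
    simp at hl
    have : Z' = [] := hl.1
    rw [this] at hZ
    simp at hZ
  | Z :: zs, Z' :: zs', Y, Y', h, h1, h2, hl => by
    have h' : Z ++ (zs.flatten ++ Y) = Z' ++ (zs'.flatten ++ Y') := by
      simpa [List.append_assoc] using h
    obtain ⟨rfl, h3⟩ := cons_eq_of_step h' h1.1 h2.1
    have hl' : zs'.flatten.length ≤ zs.flatten.length := by
      simp only [List.flatten_cons, List.length_append] at hl
      omega
    obtain ⟨r, hr, hY⟩ := isCh_prefix h3 h1.2 h2.2 hl'
    exact ⟨r, by rw [hr]; rfl, hY⟩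

theorem isCh_unique {zs zs' : List (List α)} {Y : List α}
    (h : zs.flatten = zs'.flatten) (h1 : IsCh W zs Y) (h2 : IsCh W zs' Y) : zs = zs' := by
  obtain ⟨r, hr, hY⟩ := isCh_prefix (by rw [h]) h1 h2 (by rw [h])
  have hr0 : r = [] := by
    rcases r with _ | ⟨Z, r⟩
    · rfl
    · exfalso
      have hZ : 0 < Z.length := by
        rw [hr] at h1
        exact lt_of_lt_of_le W.hz ((isCh_append.1 h1).2.1).1
      have := congrArg List.length hY
      simp only [List.flatten_cons, List.append_assoc, List.length_append] at this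
      omega
  rw [hr, hr0, List.append_nil]

theorem isCh_len {zs : List (List α)} {Y : List α} (h : IsCh W zs Y) :
    ∀ Z ∈ zs, W.z ≤ Z.length ∧ Z.length ≤ W.B := by
  induction zs with
  | nil => simp
  | cons Z zs ih =>
    intro Z' hZ'
    rcases List.mem_cons.1 hZ' with rfl | h'
    · exact ⟨h.1.1, h.1.2.1⟩
    · exact ih h.2 Z' h'

/-- cut off a suffix of zones of controlled length -/
theorem exists_tail {zs : List (List α)} {Y P : List α} (h : IsCh W zs Y) {H : ℕ}
    (hH : H ≤ (zs.flatten ++ P).length) (hP : P.length ≤ W.B) :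
    ∃ zs1 zs2, zs = zs1 ++ zs2 ∧ H ≤ (zs2.flatten ++ P).length ∧
      (zs2.flatten ++ P).length ≤ H + W.B := by
  induction zs with
  | nil => exact ⟨[], [], rfl, by simpa using hH, by simpa using le_trans hP (Nat.le_add_left _ _)⟩
  | cons Z zs ih =>
    by_cases hc : H ≤ (zs.flatten ++ P).length
    · obtain ⟨zs1, zs2, h1, h2, h3⟩ := ih h.2 hc
      exact ⟨Z :: zs1, zs2, by rw [h1]; rfl, h2, h3⟩
    · refine ⟨[], Z :: zs, rfl, hH, ?_⟩
      have := h.1.2.1
      simp only [List.flatten_cons, List.append_assoc, List.length_append] at hH hc ⊢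
      omega

end Crest.Agent.R320.Lev_256
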