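import Crest.Agent.R320.Def_871

/-! Row 320, helper871: the outer level (scheme 1) on single zones. -/

set_option autoImplicit false

namespace Crest.Agent.R320.Main871

open Crest.Agent.R320.Asm_505

variable {α : Type}

theorem take_left {p q : List α} {t : ℕ} (h : t ≤ p.length) : (p ++ q).take t = p.take t :=
  List.take_append_of_le_length h

theorem take_right {p q : List α} {s : ℕ} : (p ++ q).take (p.length + s) = p ++ q.take s := by
  simp [List.take_append]

theorem drop_right {p q : List α} {s : ℕ} : (p ++ q).drop (p.length + s) = q.drop s := by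
  simp [List.drop_append]

variable {Wo : List α → Prop} {n W : ℕ}

theorem Walls.right (hW : Walls Wo n W) {p q : List α} {s : ℕ} (h1 : n ≤ s) (h2 : s ≤ q.length) :
    Wo ((p ++ q).take (p.length + s)) ↔ Wo (q.take s) := by
  rw [take_right]
  exact hW.loc _ _ (by rw [List.length_take]; omega)

theorem TW.mem_UU {z1 t : ℕ} {X : List α} (h : TW Wo z1 X t) : X ∈ UU Wo z1 := ⟨t, h⟩

theorem TW.uniq {lo t t' : ℕ} {X : List α} (h : TW Wo lo X t) (h' : TW Wo lo X t') : t = t' := by
  obtain ⟨a1, a2, a3, a4, a5⟩ := h
  obtain ⟨b1, b2, b3, b4, b5⟩ := h'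
  exact b5 t a1 a2 a3

theorem pcU (z1 : ℕ) : PC (UU Wo z1) := by
  constructor
  · rintro ⟨t, h1, h2, _⟩
    simp at h2
  · rintro z ⟨t, a1, a2, a3, a4, a5⟩ z' ⟨t', b1, b2, b3, b4, b5⟩ ⟨y, rfl⟩
    by_contra hne
    have hy : y ≠ [] := fun h => hne (by simp [h])
    have hy' : 0 < y.length := List.length_pos_iff.2 hy
    have e1 : t = t' := by
      apply b5 t a1
      · rw [List.length_append]; omega
      · rw [take_left a2.le]; exact a3
    have e2 : z.length = t' := by
      apply b5 z.length (by omega)
      · rw [List.length_append]; omega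
      · rw [take_left le_rfl, List.take_length]; exact a4
    omega

theorem TW.fw {z1 t : ℕ} {z : List α} (h : TW Wo z1 z t) : Main871.fw Wo z1 z = t := by
  obtain ⟨a1, a2, a3, a4, a5⟩ := h
  unfold Main871.fw
  apply le_antisymm
  · exact Nat.sInf_le ⟨a1, a3⟩
  · have hm := Nat.sInf_mem (s := {t | z1 ≤ t ∧ Wo (z.take t)}) ⟨t, a1, a3⟩
    obtain ⟨h1, h2⟩ := hm
    by_contra hlt
    push Not at hlt
    have := a5 _ h1 (by omega) h2
    omega

/-- transport of the two-wall structure to the left -/
theorem TW.app (hW : Walls Wo n W) {lo lo' s : ℕ} {p q : List α} (h : TW Wo lo q s) (hn : n ≤ lo)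
    (h1 : p.length + lo ≤ lo') (h2 : lo' ≤ p.length + s) :
    TW Wo lo' (p ++ q) (p.length + s) := by
  obtain ⟨a1, a2, a3, a4, a5⟩ := h
  refine ⟨h2, ?_, ?_, ?_, ?_⟩
  · rw [List.length_append]; omega
  · exact (hW.right (by omega) a2.le).2 a3
  · exact (hW.loc _ _ (by omega)).2 a4
  · intro s' hs1 hs2 hs3
    rw [List.length_append] at hs2
    obtain ⟨u, rfl⟩ := Nat.exists_eq_add_of_le (show p.length ≤ s' by omega)
    have := a5 u (by omega) (by omega) ((hW.right (by omega) (by omega)).1 hs3)
    omega

variable {S V : Type} [Monoid S] [AddCommGroup V] {act : V → S → V} {φ : List α → S}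
  {lam rho : List α → Option V} {nu : List α → V} {p0 z1 N A : ℕ} {Bad : ℕ → Prop}

theorem level1 (hW : Walls Wo n W) (h0 : 0 < p0) (hz : p0 + N + n ≤ z1) (hz2 : p0 + N + A ≤ z1)
    (lamN : ∀ p v, lam p = some v → p.length ≤ N)
    (ex : ∀ p q v r, lam p = some v → rho q = some r → r = act v (φ (p ++ q)) + nu (p ++ q))
    (cp : ∀ u, 2 * N + A ≤ u.length → ¬ Bad u.length → ∀ v, ∃ p q, p ++ q = u ∧
      lam p = some v ∧ (rho q).isSome) :
    Level (UU Wo z1) (BB Wo z1 p0 N Bad) (eps1 Wo z1 p0 act φ nu) (P1 p0 act φ lam)
      (R1 Wo z1 p0 N act φ rho) := by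
  constructor
  · rintro x ⟨h1, _⟩
    simp at h1
    omega
  · rintro z hz0 x y p ⟨hp1, hp2⟩ q ⟨s, r, hq1, hq2, hq3, hq4⟩ hcomp
    have hpl : p.length - p0 ≤ N := by
      have := lamN _ _ hp2
      rwa [List.length_drop] at this
    have hT : TW Wo z1 (p ++ q) (p.length + s) :=
      hq1.app hW (by omega) (by omega) (by omega)
    have hzz : z = p ++ q := by
      rcases hcomp with h | h
      · exact (pcU z1).pc z hz0 _ hT.mem_UU h
      · exact ((pcU z1).pc _ hT.mem_UU z hz0 h).symm
    refine ⟨hzz, ?_⟩
    subst hzz
    unfold eps1 tY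
    rw [hT.fw]
    have e0 : (p ++ q).take p0 = p.take p0 := take_left hp1
    have e1 : (p ++ q).drop p0 = p.drop p0 ++ q := List.drop_append_of_le_length hp1
    have e2 : p.length + s - p0 = (p.drop p0).length + s := by
      rw [List.length_drop]; omega
    rw [e0, e1, e2, take_right, drop_right, ← ex _ _ _ _ hp2 hq3, hq4]
  · rintro z ⟨t, hT⟩ hB x
    obtain ⟨a1, a2, a3, a4, a5⟩ := id hT
    have hE : ∀ s, z1 ≤ s + N → s ≤ z1 + N → s ≤ z.length → ¬ Wo (z.take s) := by
      intro s h1 h2 h3 h4
      exact hB ⟨t, hT, Or.inl ⟨s, h1, h2, h3, h4⟩⟩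
    have hBt : ¬ Bad (t - p0) := fun h => hB ⟨t, hT, Or.inr h⟩
    have ht : z1 + N < t := by
      by_contra hlt
      exact hE t (by omega) (by omega) a2.le a3
    set u := (z.drop p0).take (t - p0) with hu
    have hul : u.length = t - p0 := by
      rw [hu, List.length_take, List.length_drop]; omega
    obtain ⟨p', q', hpq, hl, hr⟩ := cp u (by omega) (by rw [hul]; exact hBt)
      (act x (φ (z.take p0)))
    obtain ⟨r, hr⟩ := Option.isSome_iff_exists.1 hr
    have hp'N := lamN _ _ hl
    have hX1 : (z.take p0).length = p0 := by rw [List.length_take]; omega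
    have hpl : p'.length + q'.length = t - p0 := by
      rw [← hul, ← hpq, List.length_append]
    have hzdec : z = (z.take p0 ++ p') ++ (q' ++ z.drop t) := by
      have h1 : z.drop p0 = u ++ z.drop t := by
        have : z.drop t = (z.drop p0).drop (t - p0) := by
          rw [List.drop_drop]; congr 1; omega
        rw [this, hu, List.take_append_drop]
      calc z = z.take p0 ++ z.drop p0 := (List.take_append_drop _ _).symm
        _ = z.take p0 ++ ((p' ++ q') ++ z.drop t) := by rw [h1, ← hpq]
        _ = _ := by simp
    refine ⟨z.take p0 ++ p', ⟨?_, ?_⟩, q' ++ z.drop t, ⟨q'.length, r, ?_, ?_, ?_, ?_⟩, hzdec⟩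
    · rw [List.length_append]; omega
    · have e1 : (z.take p0 ++ p').drop p0 = p' := by
        have : (z.take p0 ++ p').drop (z.take p0).length = p' := by simp
        rwa [hX1] at this
      have e2 : (z.take p0 ++ p').take p0 = z.take p0 := by
        have : (z.take p0 ++ p').take (z.take p0).length = z.take p0 := by simp
        rwa [hX1] at this
      rw [e1, e2]; exact hl
    · -- two walls of the right word
      have hlen : z.length = (z.take p0 ++ p').length + (q' ++ z.drop t).length := by
        conv_lhs => rw [hzdec]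
        rw [List.length_append]
      have hPl : (z.take p0 ++ p').length = p0 + p'.length := by
        rw [List.length_append, hX1]
      have hdt : (z.drop t).length = z.length - t := List.length_drop
      have key : ∀ s', n ≤ s' → s' ≤ (q' ++ z.drop t).length →
          (Wo ((q' ++ z.drop t).take s') ↔ Wo (z.take (p0 + p'.length + s'))) := by
        intro s' h1 h2
        conv_rhs => rw [hzdec, ← hPl]
        exact (hW.right h1 h2).symm
      have hqt : (q' ++ z.drop t).take q'.length = q' := by simp
      refine ⟨by omega, ?_, ?_, ?_, ?_⟩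
      · rw [List.length_append, hdt]; omega
      · rw [key _ (by omega) (by rw [List.length_append]; omega)]
        rw [show p0 + p'.length + q'.length = t by omega]
        exact a3
      · have h3 := key (q' ++ z.drop t).length (by rw [List.length_append]; omega) le_rfl
        rw [List.take_length] at h3
        rw [h3, show p0 + p'.length + (q' ++ z.drop t).length = z.length by omega,
          List.take_length]
        exact a4
      · intro s' h1 h2 h3
        rw [key _ (by omega) h2.le] at h3
        rcases lt_or_ge (p0 + p'.length + s') z1 with h4 | h4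
        · exact absurd h3 (hE _ (by omega) (by omega) (by omega))
        · have := a5 _ h4 (by omega) h3
          omega
    · omega
    · have : (q' ++ z.drop t).take q'.length = q' := by simp
      rw [this]; exact hr
    · have e3 : (q' ++ z.drop t).drop q'.length = z.drop t := by simp
      rw [e3]
      unfold eps1 tY
      rw [hT.fw]
      have e4 : (z.drop p0).drop (t - p0) = z.drop t := by
        rw [List.drop_drop]; congr 1; omega
      rw [e4, ← hu, ← hpq, ← ex _ _ _ _ hl hr]

end Crest.Agent.R320.Main871
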