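import Crest.Agent.R320.Lev1_256

/-!
# Row 320, piece (9), concrete wall-chain form, part 2 (helper256): the chain language and
'all anchors of the chain satisfy Pr' are of star height at most one.
-/

set_option autoImplicit false

namespace Crest.Agent.R320.Lev_256

open Crest.Agent.R320.Hk_851

universe u

variable {α : Type u} {W : Walls α}

/-- shifted zone words -/
def Kch (W : Walls α) : Language α := {g | ∃ c : List α, c.length = W.n ∧ Step W (c ++ g) g.length}

theorem step_indep {c c' g : List α} (hc : c.length = W.n) (hc' : c'.length = W.n)
    (h : Step W (c ++ g) g.length) : Step W (c' ++ g) g.length := by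
  have key : ∀ m, W.z ≤ m → (c' ++ g).drop m = (c ++ g).drop m := by
    intro m hm
    have h1 : W.n ≤ m := le_trans W.hnz hm
    have e1 : c'.drop m = [] := List.drop_eq_nil_of_le (by omega)
    have e2 : c.drop m = [] := List.drop_eq_nil_of_le (by omega)
    rw [List.drop_append, List.drop_append, e1, e2, hc, hc']
  obtain ⟨h1, h2, h3, h4⟩ := h
  refine ⟨h1, h2, ?_, ?_⟩
  · rw [key _ h1]; exact h3
  · intro m hm hm'
    rw [key _ hm]
    exact h4 m hm hm'

theorem chain_to_star {t : List α} (ht : W.n ≤ t.length) : ∀ {zs : List (List α)},
    IsCh W zs t → ∃ c g, c.length = W.n ∧ g ∈ KStar.kstar (Kch W) ∧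
      c ++ g = zs.flatten ++ t.take W.n
  | [], _ => ⟨t.take W.n, [], by simp [ht], Language.nil_mem_kstar _, by simp⟩
  | Z :: zs, h => by
    obtain ⟨c', g', hc', hg', he⟩ := chain_to_star ht h.2
    have hlen : (Z ++ c').length = Z.length + W.n := by rw [List.length_append, hc']
    have hsplit : (Z ++ c').take W.n ++ (Z ++ c').drop W.n = Z ++ c' := List.take_append_drop _ _
    refine ⟨(Z ++ c').take W.n, (Z ++ c').drop W.n ++ g', ?_, ?_, ?_⟩
    · rw [List.length_take, hlen]; omega
    · have h1 : (Z ++ c').drop W.n ∈ Kch W := by
        refine ⟨(Z ++ c').take W.n, ?_, ?_⟩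
        · rw [List.length_take, hlen]; omega
        · rw [hsplit]
          have hl : ((Z ++ c').drop W.n).length = Z.length := by
            rw [List.length_drop, hlen]; omega
          rw [hl]
          refine step_congr' ?_ h.1
          have h2 : (zs.flatten ++ t).take W.n = (zs.flatten ++ t.take W.n).take W.n := by
            refine take_append_congr _ ?_
            rw [List.take_take]; simp
          rw [h2, ← he, List.take_append_of_le_length (by omega)]
      rw [Language.mem_kstar] at hg' ⊢
      obtain ⟨L, hL, hL'⟩ := hg'
      refine ⟨(Z ++ c').drop W.n :: L, by rw [hL]; rfl, ?_⟩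
      intro y hy
      rcases List.mem_cons.1 hy with rfl | hy
      · exact h1
      · exact hL' y hy
    · rw [← List.append_assoc, hsplit, List.append_assoc, he]
      simp

theorem star_to_chain {t : List α} (ht : W.n ≤ t.length) : ∀ (L : List (List α)) (c w : List α),
    (∀ y ∈ L, y ∈ Kch W) → c.length = W.n → c ++ L.flatten = w ++ t.take W.n →
    ∃ zs, IsCh W zs t ∧ zs.flatten = w
  | [], c, w, _, hc, he => by
    refine ⟨[], trivial, ?_⟩
    have := congrArg List.length he
    simp only [List.flatten_nil, List.append_nil, List.length_append, List.length_take] at this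
    have hw : w.length = 0 := by omega
    simpa using (List.length_eq_zero_iff.1 hw).symm
  | g :: L, c, w, hL, hc, he => by
    obtain ⟨c1, hc1, hs1⟩ := hL g (by simp)
    have hs : Step W (c ++ g) g.length := step_indep hc1 hc hs1
    have hsplit : (c ++ g).take g.length ++ (c ++ g).drop g.length = c ++ g :=
      List.take_append_drop _ _
    have hlc' : ((c ++ g).drop g.length).length = W.n := by
      rw [List.length_drop, List.length_append]; omega
    have hlZ : ((c ++ g).take g.length).length = g.length := by
      rw [List.length_take, List.length_append]; omega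
    have he' : (c ++ g).take g.length ++ ((c ++ g).drop g.length ++ L.flatten)
        = w ++ t.take W.n := by
      rw [← List.append_assoc, hsplit, ← he]
      simp
    have hlen := congrArg List.length he'
    simp only [List.length_append, hlZ] at hlen
    have hlt : (t.take W.n).length = W.n := by rw [List.length_take]; omega
    have hlc'' := hlc'
    rw [List.length_drop, List.length_append] at hlc''
    have hle : ((c ++ g).take g.length).length ≤ w.length := by
      rw [hlZ]
      simp only [List.length_drop, List.length_append] at hlen
      omega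
    obtain ⟨w', hw'⟩ : ∃ w', w = (c ++ g).take g.length ++ w' := by
      refine ⟨w.drop ((c ++ g).take g.length).length, ?_⟩
      have h1 := congrArg (List.take ((c ++ g).take g.length).length) he'
      rw [List.take_append_of_le_length hle, List.take_append_of_le_length le_rfl,
        List.take_length] at h1
      conv_lhs => rw [← List.take_append_drop ((c ++ g).take g.length).length w]
      rw [← h1]
    rw [hw', List.append_assoc] at he'
    have he2 := List.append_cancel_left he'
    obtain ⟨zs, hzs, hfl⟩ := star_to_chain ht L ((c ++ g).drop g.length) w'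
      (fun y hy => hL y (by simp [hy])) hlc' he2
    refine ⟨(c ++ g).take g.length :: zs, ⟨?_, hzs⟩, ?_⟩
    · rw [hfl]
      have h3 : (w' ++ t).take W.n = ((c ++ g).drop g.length).take W.n := by
        have h4 : (w' ++ t).take W.n = (w' ++ t.take W.n).take W.n := by
          refine take_append_congr _ ?_
          rw [List.take_take]; simp
        rw [h4, ← he2, List.take_append_of_le_length (by omega)]
      refine step_congr' h3.symm ?_
      rw [hsplit, hlZ]
      exact hs
    · rw [List.flatten_cons, hfl, hw']

theorem kch_HL [Finite α] (k : ℕ) : HL k (Kch W) := by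
  refine HL.finite (s := Kch W) ((List.finite_length_le α W.B).subset ?_)
  rintro g ⟨c, -, h⟩
  exact h.2.1

def lenL (α : Type u) (n : ℕ) : Language α := {c | c.length = n}

def chL (W : Walls α) (t : List α) : Language α := {w | ∃ zs, IsCh W zs t ∧ zs.flatten = w}

def wordL (t : List α) : Language α := {t}

def neL (α : Type u) : Language α := {w | w ≠ []}

/-- words which are parsed by the chain, with a given right context -/
theorem chain_HL [Finite α] (k : ℕ) {t : List α} (ht : W.n ≤ t.length) :
    HL (k + 1) (chL W t) := by
  have h1 : HL (k + 1) (lenL α W.n * KStar.kstar (Kch W)) :=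
    HL.mul (HL.length_eq _) (kch_HL k).star
  refine (h1.rquot (t.take W.n)).congr fun w => ?_
  constructor
  · rintro ⟨zs, hzs, rfl⟩
    obtain ⟨c, g, hc, hg, he⟩ := chain_to_star ht hzs
    exact Language.mem_mul.2 ⟨c, hc, g, hg, he⟩
  · intro hw
    obtain ⟨c, hc, g, hg, he⟩ := Language.mem_mul.1 hw
    rw [Language.mem_kstar] at hg
    obtain ⟨L, rfl, hL⟩ := hg
    exact star_to_chain ht L c w hL hc he

/-- all anchors of the chain inside `m` satisfy `Pr` -/
def AllPr (W : Walls α) (Pr : List α → Prop) (y : List α) : Language α :=
  {m | ∀ zs m', m = zs.flatten ++ m' → m' ≠ [] → IsCh W zs (m' ++ y) → Pr (m' ++ y)}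

theorem allPr_HL [Finite α] (k : ℕ) {Pr : List α → Prop} {H : ℕ} (hH : W.n ≤ H)
    (hPr : ∀ Q, Pr Q ↔ Pr (Q.take H)) {y : List α} (hy : y.length = H) :
    HL (k + 1) (AllPr W Pr y) := by
  have hfin : ({t : List α | t.length = H ∧ ¬ Pr t} : Set (List α)).Finite :=
    (List.finite_length_eq α H).subset fun t ht => ht.1
  have h1 : HL (k + 1) ({w | ∃ t ∈ {t : List α | t.length = H ∧ ¬ Pr t},
      w ∈ (chL W t * wordL t) * neL α} : Language α) := by
    refine HL.biUnion hfin fun t ht => ?_
    refine ((chain_HL k (by rw [ht.1]; exact hH)).mul (HL.word t)).mul ?_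
    exact (HL.length_ge (α := α) (k := k + 1) 1).congr fun w => by
      change w ≠ [] ↔ 1 ≤ w.length
      rw [Nat.one_le_iff_ne_zero, Ne, Ne, List.length_eq_zero_iff]
  refine (h1.rquot y).compl.congr fun m => ?_
  constructor
  · rintro hm ⟨t, ⟨ht, hnp⟩, hw⟩
    obtain ⟨wt, hwt, r, hr, he⟩ := Language.mem_mul.1 hw
    obtain ⟨w, ⟨zs, hzs, rfl⟩, t', ht', rfl⟩ := Language.mem_mul.1 hwt
    rw [Set.mem_singleton_iff.1 ht'] at he
    have hr' : 0 < r.length := List.length_pos_iff.2 hr
    have hlen := congrArg List.length he
    simp only [List.length_append] at hlen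
    obtain ⟨m', hm'⟩ : ∃ m', m = zs.flatten ++ m' := by
      refine ⟨m.drop zs.flatten.length, ?_⟩
      have h2 := congrArg (List.take zs.flatten.length) he
      rw [List.append_assoc, List.take_append_of_le_length le_rfl,
        List.take_append_of_le_length (by omega), List.take_length] at h2
      conv_lhs => rw [← List.take_append_drop zs.flatten.length m]
      rw [← h2]
    have he2 : t ++ r = m' ++ y := by
      rw [hm', List.append_assoc, List.append_assoc] at he
      exact List.append_cancel_left he
    have hne : m' ≠ [] := by
      rintro rfl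
      have := congrArg List.length he2
      simp only [List.length_append, List.nil_append] at this
      omega
    have htake : (m' ++ y).take H = t := by
      rw [← he2, List.take_append_of_le_length (by omega), List.take_of_length_le (by omega)]
    refine hnp ?_
    rw [← htake, ← hPr]
    refine hm zs m' hm' hne ?_
    refine (isCh_congr ?_).1 hzs
    refine take_eq_mono (n := H) ?_ hH
    rw [htake, List.take_of_length_le (by omega)]
  · intro hm zs m' he hne hch
    by_contra hnp
    refine hm ⟨(m' ++ y).take H, ⟨?_, ?_⟩, ?_⟩
    · rw [List.length_take, List.length_append]; omega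
    · rwa [← hPr]
    · refine Language.mem_mul.2 ⟨zs.flatten ++ (m' ++ y).take H,
        Language.mem_mul.2 ⟨zs.flatten, ⟨zs, ?_, rfl⟩, _, rfl, rfl⟩, (m' ++ y).drop H, ?_, ?_⟩
      · refine (isCh_congr ?_).1 hch
        rw [List.take_take, Nat.min_eq_left hH]
      · intro h0
        have := congrArg List.length h0
        simp only [List.length_drop, List.length_append, List.length_nil] at this
        have h3 := List.length_pos_iff.2 hne
        omega
      · rw [List.append_assoc, List.take_append_drop, he, List.append_assoc]

end Crest.Agent.R320.Lev_256
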