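import Crest.Agent.R320.Lev2_256

/-!
# Row 320, piece (9), concrete wall-chain form, part 3 (helper256): THE LEVEL STEP.
-/

set_option autoImplicit false

namespace Crest.Agent.R320.Lev_256

open Crest.Agent.R320.Hk_851

universe u v

variable {α : Type u} {W : Walls α} {V : Type v}

/-- a scheme on the wall chain `W`: zone maps, left labels, right data, promise -/
structure Sch (W : Walls α) (V : Type v) where
  T : List α → V → V
  Ll : List α → Option V
  Rl : List α → Option (ℕ × V)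
  Pr : List α → Prop
  p : ℕ
  hp : W.n ≤ p
  hp0 : 0 < p
  Lp : ∀ P v, Ll P = some v → p ≤ P.length ∧ P.length ≤ W.B
  Rp : ∀ Q d r, Rl Q = some (d, r) → d ≤ W.B ∧ d + p ≤ Q.length ∧
    ∀ Q', Q'.take (d + p) = Q.take (d + p) → Rl Q' = some (d, r)
  ex : ∀ P Q v d r, Pr (P ++ Q) → Ll P = some v → Rl Q = some (d, r) →
    Step W (P ++ Q) (P.length + d) ∧ T (P ++ Q.take d) v = r

/-- the thread with value `v` at the anchor is cut inside the first zone of `Q` -/
def Sch.Cut (S : Sch W V) (v : V) (Q : List α) : Prop :=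
  ∃ P Q' d r, Q = P ++ Q' ∧ P.length + d ≤ W.B ∧ S.Ll P = some v ∧ S.Rl Q' = some (d, r)

/-- the first zone of `Q` is complete: every thread is cut in it -/
def Sch.Cmp (S : Sch W V) (Q : List α) : Prop := ∀ v, S.Cut v Q

/-- the zone maps (as maps of `V`) are computable with height `k` on chains all of whose anchors
satisfy `bad`, with a right context of `H` letters -/
def LevT (W : Walls α) (H : ℕ) (bad : List α → Prop) (T : List α → V → V) (k : ℕ) : Prop :=
  ∀ y : List α, y.length = H → ∀ f : V → V, ∃ L : Language α, HL k L ∧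
    (∀ zs, IsCh W zs y → AllZ bad zs y → Tc T zs = f → zs.flatten ∈ L) ∧
    (∀ w ∈ L, ∃ zs, IsCh W zs y ∧ zs.flatten = w ∧ Tc T zs = f)

/-- change of the observed maps -/
theorem LevT.dec {V' : Type*} [Finite V'] {H : ℕ} {bad : List α → Prop}
    {T : List α → V → V} {T' : List α → V' → V'} {k : ℕ} (d : (V' → V') → (V → V))
    (hd : ∀ zs, d (Tc T' zs) = Tc T zs) (h : LevT W H bad T' k) : LevT W H bad T k := by
  intro y hy f
  choose L hL1 hL2 hL3 using h y hy
  haveI : Finite (V' → V') := by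
    classical
    haveI := Fintype.ofFinite V'
    exact Pi.finite
  refine ⟨{w | ∃ g ∈ {g : V' → V' | d g = f}, w ∈ L g}, ?_, ?_, ?_⟩
  · exact HL.biUnion (Set.toFinite _) fun g _ => hL1 g
  · intro zs h1 h2 h3
    exact ⟨Tc T' zs, by rw [Set.mem_setOf_eq, hd, h3], hL2 _ zs h1 h2 rfl⟩
  · rintro w ⟨g, hg, hw⟩
    obtain ⟨zs, h1, h2, h3⟩ := hL3 g w hw
    exact ⟨zs, h1, h2, by rw [← hd, h3, hg]⟩

/-- base: no zone at all -/
theorem LevT.base {H : ℕ} {bad : List α → Prop} {T : List α → V → V} (k : ℕ)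
    (hb : ∀ Q, ¬ bad Q) : LevT W H bad T k := by
  intro y hy f
  by_cases hf : f = id
  · refine ⟨1, HL.one, ?_, ?_⟩
    · intro zs h1 h2 h3
      rcases zs with _ | ⟨Z, zs⟩
      · exact rfl
      · exact absurd h2.1 (hb _)
    · intro w hw
      refine ⟨[], trivial, ?_, ?_⟩
      · exact ((Language.mem_one w).1 hw).symm
      · rw [hf]; rfl
  · refine ⟨0, HL.zero, ?_, ?_⟩
    · intro zs h1 h2 h3
      rcases zs with _ | ⟨Z, zs⟩
      · exact absurd h3.symm hf
      · exact absurd h2.1 (hb _)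
    · intro w hw
      exact absurd hw (Language.notMem_zero w)

namespace Sch

variable (S : Sch W V)

theorem cut_congr {v : V} {Q Q2 : List α} {H : ℕ} (hH : W.B + S.p ≤ H)
    (h : Q.take H = Q2.take H) (hc : S.Cut v Q) : S.Cut v Q2 := by
  obtain ⟨P, Q', d, r, rfl, h1, h2, h3⟩ := hc
  obtain ⟨h4, h5, h6⟩ := S.Rp _ _ _ h3
  have e1 : (P ++ Q').take (P.length + (d + S.p)) = Q2.take (P.length + (d + S.p)) :=
    take_eq_mono h (by omega)
  have e2 : (P ++ Q').take (P.length + (d + S.p)) = P ++ Q'.take (d + S.p) :=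
    List.take_length_add_append _
  have e3 : Q2 = P ++ (Q'.take (d + S.p) ++ Q2.drop (P.length + (d + S.p))) := by
    conv_lhs => rw [← List.take_append_drop (P.length + (d + S.p)) Q2]
    rw [← e1, e2, List.append_assoc]
  refine ⟨P, _, d, r, e3, h1, h2, h6 _ ?_⟩
  rw [List.take_append_of_le_length (by rw [List.length_take]; omega), List.take_take]
  simp

theorem cmp_local {Q : List α} {H : ℕ} (hH : W.B + S.p ≤ H) : S.Cmp Q ↔ S.Cmp (Q.take H) := by
  constructor
  · intro h v
    exact S.cut_congr hH (by rw [List.take_take]; simp) (h v)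
  · intro h v
    exact S.cut_congr hH (by rw [List.take_take]; simp) (h v)

theorem first_cut (v : V) (zs : List (List α)) (y : List α) :
    AllZ (fun Q => ¬ S.Cmp Q) zs y ∨ ∃ zsa Z zsb, zs = zsa ++ Z :: zsb ∧
      AllZ (fun Q => ¬ S.Cmp Q) zsa (Z ++ (zsb.flatten ++ y)) ∧
      S.Cut (Tc S.T zsa v) (Z ++ (zsb.flatten ++ y)) := by
  induction zs generalizing v with
  | nil => exact Or.inl trivial
  | cons Z zs ih =>
    by_cases hc : S.Cut v (Z ++ (zs.flatten ++ y))
    · exact Or.inr ⟨[], Z, zs, rfl, trivial, hc⟩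
    · have hn : ¬ S.Cmp (Z ++ (zs.flatten ++ y)) := fun h => hc (h v)
      rcases ih (S.T Z v) with h | ⟨zsa, Z', zsb, rfl, h2, h3⟩
      · exact Or.inl ⟨hn, h⟩
      · refine Or.inr ⟨Z :: zsa, Z', zsb, rfl, ⟨?_, h2⟩, h3⟩
        simpa [List.append_assoc] using hn

/-- words from an anchor with value `v` to a left-legal place -/
def IniFull (v : V) (I : List α) : Prop :=
  ∃ zs P, I = zs.flatten ++ P ∧ IsCh W zs P ∧ S.Ll P = some (Tc S.T zs v)

def Lin' {H : ℕ} (Lin : ∀ y : List α, y.length = H → (V → V) → Language α) (y : List α)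
    (f : V → V) : Language α := {w | ∃ h : y.length = H, w ∈ Lin y h f}

def Ini {H : ℕ} (Lin : ∀ y : List α, y.length = H → (V → V) → Language α) (v : V) :
    Language α :=
  {I | (I.length < H ∧ S.IniFull v I) ∨
    ∃ ft ∈ {ft : (V → V) × List α | ft.2.length ≤ H + W.B ∧ H ≤ ft.2.length ∧
      S.IniFull (ft.1 v) ft.2}, I ∈ Lin' Lin (ft.2.take H) ft.1 * wordL ft.2}

def Pre (F : V → Language α) : Language α :=
  {u | ∃ d r, S.Rl u = some (d, r) ∧ u.drop d ∈ F r}

def En {H : ℕ} (Lin : ∀ y : List α, y.length = H → (V → V) → Language α) (y : List α)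
    (v1 v : V) : Language α :=
  {E | ∃ f ∈ {f : V → V | f v = v1}, E ∈ Lin' Lin y f * wordL y}

theorem pre_HL [Finite α] [Finite V] {k : ℕ} {F : V → Language α} (hF : ∀ r, HL k (F r)) :
    HL k (S.Pre F) := by
  have hfin : ({dr : ℕ × V | dr.1 ≤ W.B} : Set (ℕ × V)).Finite := by
    have : ({dr : ℕ × V | dr.1 ≤ W.B} : Set (ℕ × V)) = {d | d ≤ W.B} ×ˢ Set.univ := by
      ext; simp
    rw [this]
    exact (Set.finite_le_nat _).prod Set.finite_univ
  have h1 : HL k ({w | ∃ dr ∈ {dr : ℕ × V | dr.1 ≤ W.B}, w ∈ (({w | ∃ s ∈ ({s : List α |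
      s.length = dr.1 + S.p ∧ S.Rl s = some (dr.1, dr.2)} : Language α), s <+: w} : Language α) ⊓
      (lenL α dr.1 * F dr.2) : Language α)} : Language α) := by
    refine HL.biUnion hfin fun dr _ => ?_
    refine HL.inf (HL.prefix (HL.finite ?_)) ((HL.length_eq _).mul (hF _))
    exact (List.finite_length_eq α (dr.1 + S.p)).subset fun s hs => hs.1
  refine h1.congr fun u => ?_
  constructor
  · rintro ⟨d, r, h2, h3⟩
    obtain ⟨h4, h5, h6⟩ := S.Rp _ _ _ h2
    refine ⟨(d, r), h4, ⟨u.take (d + S.p), ⟨?_, h6 _ ?_⟩, List.take_prefix _ _⟩, ?_⟩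
    · rw [List.length_take]; simp only; omega
    · rw [List.take_take]; simp
    · exact Language.mem_mul.2 ⟨u.take d, by
        change (u.take d).length = d
        rw [List.length_take]; omega, u.drop d, h3, List.take_append_drop _ _⟩
  · rintro ⟨⟨d, r⟩, h4, ⟨s, ⟨hs1, hs2⟩, hsu⟩, hm⟩
    obtain ⟨x, hx, w, hw, rfl⟩ := Language.mem_mul.1 hm
    have hx' : x.length = d := hx
    simp only at hs1 hs2
    refine ⟨d, r, ?_, ?_⟩
    · refine (S.Rp _ _ _ hs2).2.2 _ ?_
      rw [← hs1, List.take_length]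
      exact (List.prefix_iff_eq_take.1 hsu).symm
    · rw [← hx', List.drop_left]
      exact hw

end Sch

end Crest.Agent.R320.Lev_256
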