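import Crest.Agent.R320.Lev3_256

/-!
# Row 320, piece (9), concrete wall-chain form, part 4 (helper256): THE LEVEL STEP, proof.
-/

set_option autoImplicit false

namespace Crest.Agent.R320.Lev_256

open Crest.Agent.R320.Hk_851

universe u v

variable {α : Type u} {W : Walls α} {V : Type v}

namespace Sch

variable (S : Sch W V)

theorem lin'_HL {k H : ℕ} {Lin : ∀ y : List α, y.length = H → (V → V) → Language α}
    (hL : ∀ y h f, HL k (Lin y h f)) {y : List α} (hy : y.length = H) (f : V → V) :
    HL k (Lin' Lin y f) :=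
  (hL y hy f).congr fun _ => ⟨fun ⟨_, h⟩ => h, fun h => ⟨hy, h⟩⟩

theorem ini_HL [Finite α] [Finite V] {k H : ℕ}
    {Lin : ∀ y : List α, y.length = H → (V → V) → Language α}
    (hL : ∀ y h f, HL k (Lin y h f)) (v : V) : HL k (S.Ini Lin v) := by
  haveI : Finite (V → V) := by
    classical
    haveI := Fintype.ofFinite V
    exact Pi.finite
  refine HL.setOf_or ?_ ?_
  · exact HL.finite ((List.finite_length_lt α H).subset fun I hI => hI.1)
  · refine HL.biUnion ?_ ?_
    · refine ((Set.finite_univ (α := V → V)).prod (List.finite_length_le α (H + W.B))).subset ?_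
      rintro ⟨f, t⟩ h
      exact ⟨trivial, h.1⟩
    · rintro ⟨f, t⟩ h
      refine (lin'_HL hL ?_ f).mul (HL.word _)
      rw [List.length_take]
      exact Nat.min_eq_left h.2.1

theorem en_HL [Finite V] {k H : ℕ}
    {Lin : ∀ y : List α, y.length = H → (V → V) → Language α}
    (hL : ∀ y h f, HL k (Lin y h f)) {y : List α} (hy : y.length = H) (v1 v : V) :
    HL k (En Lin y v1 v) := by
  haveI : Finite (V → V) := by
    classical
    haveI := Fintype.ofFinite V
    exact Pi.finite
  exact HL.biUnion (Set.toFinite _) fun f _ => (lin'_HL hL hy f).mul (HL.word _)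

theorem iniFull_ge {v : V} {I : List α} (h : S.IniFull v I) : S.p ≤ I.length := by
  obtain ⟨zs, P, rfl, h1, h2⟩ := h
  have := (S.Lp _ _ h2).1
  rw [List.length_append]; omega

theorem ini_sound {H : ℕ} {Lin : ∀ y : List α, y.length = H → (V → V) → Language α}
    (hH : W.n ≤ H)
    (hL : ∀ y h f, ∀ w ∈ Lin y h f, ∃ zs, IsCh W zs y ∧ zs.flatten = w ∧ Tc S.T zs = f)
    {v : V} {I : List α} (h : I ∈ S.Ini Lin v) : S.IniFull v I := by
  rcases h with h | ⟨⟨f, t⟩, ⟨h1, h2, zs2, P, h3, h4, h5⟩, h6⟩
  · exact h.2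
  · obtain ⟨w, ⟨hy, hw⟩, t', ht', rfl⟩ := Language.mem_mul.1 h6
    have ht'' : t' = t := ht'
    obtain ⟨zs1, g1, g2, g3⟩ := hL _ hy f w hw
    simp only at h3 h4 h5 g1
    refine ⟨zs1 ++ zs2, P, ?_, ?_, ?_⟩
    · rw [ht'', ← g2, h3]; simp
    · rw [isCh_append]
      refine ⟨(isCh_congr ?_).1 g1, h4⟩
      rw [← h3, List.take_take, Nat.min_eq_left hH]
    · rw [Tc_append, g3]; exact h5

theorem up_aux {H : ℕ} {Lin : ∀ y : List α, y.length = H → (V → V) → Language α}
    (hH : W.n ≤ H)
    (hL : ∀ y h f, ∀ w ∈ Lin y h f, ∃ zs, IsCh W zs y ∧ zs.flatten = w ∧ Tc S.T zs = f)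
    {m y : List α} (hAll : m ∈ AllPr W S.Pr y) {v0 v1 : V} :
    ∀ (Ls : List (List α)) (zs : List (List α)) (P F : List α),
      (∀ u ∈ Ls, u ∈ S.Pre (S.Ini Lin)) → IsCh W zs (P ++ (Ls.flatten ++ F)) →
      S.Ll P = some (Tc S.T zs v0) → m ++ y = zs.flatten ++ (P ++ (Ls.flatten ++ F)) →
      F ∈ S.Pre (En Lin y v1) → ∃ zs', IsCh W zs' y ∧ zs'.flatten = m ∧ Tc S.T zs' v0 = v1
  | [], zs, P, F, _, hch, hP, hm, hF => by
    obtain ⟨d, r, hR, f, hf, hE⟩ := hF
    obtain ⟨w, ⟨hy, hw⟩, y', hy', he⟩ := Language.mem_mul.1 hE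
    have hy'' : y' = y := hy'
    obtain ⟨zs2, g1, g2, g3⟩ := hL _ hy f w hw
    have hP' := S.Lp _ _ hP
    have hFe : F = F.take d ++ (zs2.flatten ++ y) := by
      conv_lhs => rw [← List.take_append_drop d F]
      rw [← he, g2, hy'']
    simp only [List.flatten_nil, List.nil_append] at hch hm
    have hm' : m = zs.flatten ++ (P ++ (F.take d ++ zs2.flatten)) := by
      rw [hFe] at hm
      have : m ++ y = (zs.flatten ++ (P ++ (F.take d ++ zs2.flatten))) ++ y := by
        rw [hm]
        simp only [List.append_assoc]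
      exact List.append_cancel_right this
    have hy2 : (P ++ (F.take d ++ zs2.flatten)) ++ y = P ++ F := by
      conv_rhs => rw [hFe]
      simp only [List.append_assoc]
    have hPr : S.Pr (P ++ F) := by
      have := hAll zs (P ++ (F.take d ++ zs2.flatten)) hm' ?_ (by rw [hy2]; exact hch)
      · rwa [hy2] at this
      · intro h0
        have h1 := congrArg List.length h0
        simp only [List.length_append, List.length_nil] at h1
        have := S.hp0
        omega
    obtain ⟨hs, hT⟩ := S.ex _ _ _ _ _ hPr hP hR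
    have hld : (P ++ F.take d).length = P.length + d := by
      have h9 := (S.Rp _ _ _ hR).2.1
      rw [List.length_append, List.length_take]; omega
    refine ⟨zs ++ (P ++ F.take d) :: zs2, ?_, ?_, ?_⟩
    · rw [isCh_append]
      refine ⟨?_, ?_, g1⟩
      · have : ((P ++ F.take d) :: zs2).flatten ++ y = P ++ F := by
          rw [← hy2]; simp
        rw [this]; exact hch
      · have : (P ++ F.take d) ++ (zs2.flatten ++ y) = P ++ F := by
          rw [← hy2]; simp
        rw [this, hld]; exact hs
    · rw [hm']; simp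
    · rw [Tc_append, Tc_cons, hT, g3]
      exact hf
  | u :: Ls, zs, P, F, hLs, hch, hP, hm, hF => by
    obtain ⟨d, r, hR, hI⟩ := hLs u (by simp)
    obtain ⟨zs2, P2, h1, h2, h3⟩ := S.ini_sound hH hL hI
    obtain ⟨r1, r2, r3⟩ := S.Rp _ _ _ hR
    have hP' := S.Lp _ _ hP
    have hP2 := S.Lp _ _ h3
    -- the right end of `F` is `y`
    obtain ⟨F0, hF0⟩ : ∃ F0, F = F0 ++ y := by
      obtain ⟨d', r', hR', f, hf, hE⟩ := hF
      obtain ⟨w, -, y', hy', he⟩ := Language.mem_mul.1 hE
      have hy'' : y' = y := hy'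
      refine ⟨F.take d' ++ w, ?_⟩
      conv_lhs => rw [← List.take_append_drop d' F]
      rw [← he, hy'', List.append_assoc]
    have hue : u = u.take d ++ (zs2.flatten ++ P2) := by
      conv_lhs => rw [← List.take_append_drop d u]
      rw [h1]
    have hfl : (u :: Ls).flatten ++ F = u ++ (Ls.flatten ++ F) := by simp
    rw [hfl] at hch hm
    have hm' : m = zs.flatten ++ (P ++ (u ++ (Ls.flatten ++ F0))) := by
      rw [hF0] at hm
      have : m ++ y = (zs.flatten ++ (P ++ (u ++ (Ls.flatten ++ F0)))) ++ y := by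
        rw [hm]; simp only [List.append_assoc]
      exact List.append_cancel_right this
    have hy2 : (P ++ (u ++ (Ls.flatten ++ F0))) ++ y = P ++ (u ++ (Ls.flatten ++ F)) := by
      rw [hF0]; simp only [List.append_assoc]
    have hPr : S.Pr (P ++ (u ++ (Ls.flatten ++ F))) := by
      have := hAll zs (P ++ (u ++ (Ls.flatten ++ F0))) hm' ?_ (by rw [hy2]; exact hch)
      · rwa [hy2] at this
      · intro h0
        have h1 := congrArg List.length h0
        simp only [List.length_append, List.length_nil] at h1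
        have := S.hp0
        omega
    have hR' : S.Rl (u ++ (Ls.flatten ++ F)) = some (d, r) := by
      refine r3 _ ?_
      rw [List.take_append_of_le_length r2]
    obtain ⟨hs, hT⟩ := S.ex _ _ _ _ _ hPr hP hR'
    rw [List.take_append_of_le_length (by omega)] at hT
    have hld : (P ++ u.take d).length = P.length + d := by
      rw [List.length_append, List.length_take]; omega
    have htx : (P ++ u.take d) ++ (zs2.flatten ++ (P2 ++ (Ls.flatten ++ F)))
        = P ++ (u ++ (Ls.flatten ++ F)) := by
      conv_rhs => rw [hue]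
      simp only [List.append_assoc]
    refine up_aux hH hL hAll Ls (zs ++ (P ++ u.take d) :: zs2) P2 F
      (fun u' hu' => hLs u' (by simp [hu'])) ?_ ?_ ?_ hF
    · rw [isCh_append]
      refine ⟨?_, ?_, ?_⟩
      · have : ((P ++ u.take d) :: zs2).flatten ++ (P2 ++ (Ls.flatten ++ F))
            = P ++ (u ++ (Ls.flatten ++ F)) := by
          rw [← htx]; simp
        rw [this]; exact hch
      · rw [htx, hld]; exact hs
      · refine (isCh_congr ?_).1 h2
        rw [List.take_append_of_le_length (le_trans S.hp hP2.1)]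
    · rw [Tc_append, Tc_cons, hT]; exact h3
    · rw [hm, ← htx]; simp

theorem low_aux {H : ℕ} {Lin : ∀ y : List α, y.length = H → (V → V) → Language α}
    (hH : W.B + S.p ≤ H) {bad : List α → Prop}
    (hbl : ∀ Q, bad Q ↔ bad (Q.take H)) (hbp : ∀ Q, bad Q → S.Pr Q)
    (hL : ∀ y h f zs, IsCh W zs y → AllZ (fun Q => bad Q ∧ ¬ S.Cmp Q) zs y → Tc S.T zs = f →
      zs.flatten ∈ Lin y h f)
    (hL3 : ∀ y h f, ∀ w ∈ Lin y h f, ∃ zs, IsCh W zs y ∧ zs.flatten = w ∧ Tc S.T zs = f)
    {y : List α} (hy : y.length = H) :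
    ∀ (N : ℕ) (zs : List (List α)) (v : V), zs.length ≤ N → IsCh W zs y → AllZ bad zs y →
      zs.flatten ++ y ∈ En Lin y (Tc S.T zs v) v ∨
      zs.flatten ++ y ∈ S.Ini Lin v * (KStar.kstar (S.Pre (S.Ini Lin)) *
        S.Pre (En Lin y (Tc S.T zs v))) := by
  have hnH : W.n ≤ H := le_trans S.hp (le_trans (Nat.le_add_left _ _) hH)
  have hqloc : ∀ Q, (bad Q ∧ ¬ S.Cmp Q) ↔ (bad (Q.take H) ∧ ¬ S.Cmp (Q.take H)) := fun Q => by
    rw [← hbl, ← S.cmp_local hH]
  have hand : ∀ (zs : List (List α)) (Y : List α), AllZ bad zs Y →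
      AllZ (fun Q => ¬ S.Cmp Q) zs Y → AllZ (fun Q => bad Q ∧ ¬ S.Cmp Q) zs Y := by
    intro zs Y
    induction zs with
    | nil => intro _ _; trivial
    | cons Z zs ih => intro h1 h2; exact ⟨⟨h1.1, h2.1⟩, ih h1.2 h2.2⟩
  intro N
  induction N with
  | zero =>
    intro zs v hN hch hbad
    have : zs = [] := List.length_eq_zero_iff.1 (Nat.le_zero.1 hN)
    subst this
    refine Or.inl ⟨id, rfl, Language.mem_mul.2 ⟨[], ⟨hy, ?_⟩, y, rfl, rfl⟩⟩
    exact hL y hy id [] trivial trivial rfl
  | succ N ih =>
    intro zs v hN hch hbad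
    rcases S.first_cut v zs y with hno | ⟨zsa, Z, zsb, hzs, hno, P, Q', d, r, hQ, hPd, hLl, hRl⟩
    · refine Or.inl ⟨Tc S.T zs, rfl, Language.mem_mul.2 ⟨zs.flatten, ⟨hy, ?_⟩, y, rfl, rfl⟩⟩
      exact hL y hy _ zs hch (hand _ _ hbad hno) rfl
    · right
      subst hzs
      rw [isCh_append] at hch
      rw [allZ_append] at hbad
      obtain ⟨hch1, hch2, hch3⟩ := hch
      obtain ⟨hb1, hb2, hb3⟩ := hbad
      have hflat : (Z :: zsb).flatten ++ y = P ++ Q' := by
        rw [← hQ]; simp
      rw [hflat] at hch1 hb1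
      rw [hQ] at hno hb2 hch2
      obtain ⟨hs, hT⟩ := S.ex _ _ _ _ _ (hbp _ hb2) hLl hRl
      have hZl : Z.length = P.length + d := step_det hch2 hs
      obtain ⟨r1, r2, r3⟩ := S.Rp _ _ _ hRl
      have hP' := S.Lp _ _ hLl
      have hZ : Z = P ++ Q'.take d := by
        have h1 := congrArg (List.take Z.length) hQ
        rw [List.take_append_of_le_length le_rfl, List.take_length, hZl,
          List.take_length_add_append] at h1
        exact h1
      have hrest : zsb.flatten ++ y = Q'.drop d := by
        have h1 := congrArg (List.drop Z.length) hQ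
        rw [List.drop_left, hZl, ← List.drop_drop, List.drop_left] at h1
        exact h1
      have hTr : Tc S.T (zsa ++ Z :: zsb) v = Tc S.T zsb r := by
        rw [Tc_append, Tc_cons, hZ, hT]
      rw [hTr]
      -- the initial part
      have hchP : IsCh W zsa P := by
        refine (isCh_congr ?_).1 hch1
        rw [List.take_append_of_le_length (le_trans S.hp hP'.1)]
      have hI : zsa.flatten ++ P ∈ S.Ini Lin v := by
        by_cases hlt : (zsa.flatten ++ P).length < H
        · exact Or.inl ⟨hlt, zsa, P, rfl, hchP, hLl⟩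
        · right
          obtain ⟨zs1, zs2, hz, ht1, ht2⟩ := exists_tail hchP (not_lt.1 hlt) hP'.2
          subst hz
          refine ⟨(Tc S.T zs1, zs2.flatten ++ P), ⟨ht2, ht1, zs2, P, rfl,
            (isCh_append.1 hchP).2, ?_⟩, ?_⟩
          · rw [hLl, Tc_append]
          · refine Language.mem_mul.2 ⟨zs1.flatten, ⟨?_, ?_⟩, _, rfl, ?_⟩
            · simp only [List.length_take]; exact Nat.min_eq_left ht1
            · refine hL _ _ _ zs1 ?_ ?_ rfl
              · refine (isCh_congr ?_).1 (isCh_append.1 hchP).1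
                rw [List.take_take, Nat.min_eq_left hnH]
              · refine (allZ_congr hqloc ?_).1
                  ((allZ_append.1 (hand _ _ hb1 hno)).1)
                rw [← List.append_assoc, List.take_append_of_le_length ht1, List.take_take]
                simp
            · simp
      have htext : (zsa ++ Z :: zsb).flatten ++ y = (zsa.flatten ++ P) ++ Q' := by
        have : (zsa ++ Z :: zsb).flatten ++ y = zsa.flatten ++ ((Z :: zsb).flatten ++ y) := by
          simp
        rw [this, hflat]; simp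
      rw [htext]
      refine Language.mem_mul.2 ⟨_, hI, Q', ?_, rfl⟩
      have hNb : zsb.length ≤ N := by
        simp only [List.length_append, List.length_cons] at hN
        omega
      rcases ih zsb r hNb hch3 hb3 with h | h
      · refine Language.mem_mul.2 ⟨[], Language.nil_mem_kstar _, Q', ⟨d, r, hRl, ?_⟩, rfl⟩
        rw [← hrest]; exact h
      · obtain ⟨I', hI', sF, hsF, he⟩ := Language.mem_mul.1 h
        obtain ⟨s', hs', F', hF', rfl⟩ := Language.mem_mul.1 hsF
        have hQ' : Q' = (Q'.take d ++ I') ++ (s' ++ F') := by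
          conv_lhs => rw [← List.take_append_drop d Q']
          rw [← hrest, ← he, List.append_assoc]
        have hIge := S.iniFull_ge (S.ini_sound hnH hL3 hI')
        · have hu : Q'.take d ++ I' ∈ S.Pre (S.Ini Lin) := by
            have hl : (Q'.take d).length = d := by rw [List.length_take]; omega
            refine ⟨d, r, r3 _ ?_, ?_⟩
            · conv_rhs => rw [hQ']
              rw [List.take_append_of_le_length (l₁ := Q'.take d ++ I')]
              rw [List.length_append, hl]; omega
            · rw [List.drop_append_of_le_length (by omega), List.drop_eq_nil_of_le (by omega)]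
              exact hI'
          rw [hQ']
          refine Language.mem_mul.2 ⟨(Q'.take d ++ I') ++ s', ?_, F', hF', by simp⟩
          rw [Language.mem_kstar] at hs' ⊢
          obtain ⟨L, rfl, hL'⟩ := hs'
          refine ⟨(Q'.take d ++ I') :: L, rfl, ?_⟩
          intro x hx
          rcases List.mem_cons.1 hx with rfl | hx
          · exact hu
          · exact hL' x hx

end Sch

end Crest.Agent.R320.Lev_256
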