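import Crest.Agent.R320.Lev4_256

/-!
# Row 320, piece (9), concrete wall-chain form, part 5 (helper256): THE LEVEL STEP and the
three-fold nesting.
-/

set_option autoImplicit false

namespace Crest.Agent.R320.Lev_256

open Crest.Agent.R320.Hk_851

universe u v

variable {α : Type u} {W : Walls α} {V : Type v}

/-- **THE LEVEL STEP.**  If the zone maps `S.T` are computable with height `k` on the chains all of
whose zones are `bad` and incomplete for the scheme `S`, they are computable with height `k + 1` on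
the chains all of whose zones are `bad`.  `S` only has to be sound on its promise `Pr`, and `bad`
implies the promise. -/
theorem level_step [Finite α] [Finite V] [Nonempty V] (S : Sch W V) {H k : ℕ}
    (hH : W.B + S.p ≤ H) (hPr : ∀ Q, S.Pr Q ↔ S.Pr (Q.take H)) {bad : List α → Prop}
    (hbl : ∀ Q, bad Q ↔ bad (Q.take H)) (hbp : ∀ Q, bad Q → S.Pr Q)
    (hin : LevT W H (fun Q => bad Q ∧ ¬ S.Cmp Q) S.T k) : LevT W H bad S.T (k + 1) := by
  have hnH : W.n ≤ H := le_trans S.hp (le_trans (Nat.le_add_left _ _) hH)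
  choose Lin hL1 hL2 hL3 using hin
  intro y hy f
  -- the language of the thread which goes from `v0` to `v1`
  have key : ∀ v0 v1 : V, ∃ L : Language α, HL (k + 1) L ∧
      (∀ zs, IsCh W zs y → AllZ bad zs y → Tc S.T zs v0 = v1 → zs.flatten ∈ L) ∧
      (∀ w ∈ L, ∃ zs, IsCh W zs y ∧ zs.flatten = w ∧ Tc S.T zs v0 = v1) := by
    intro v0 v1
    have h1 : HL (k + 1) ({x | x ∈ Sch.En Lin y v1 v0 ∨ x ∈ S.Ini Lin v0 *
        (KStar.kstar (S.Pre (S.Ini Lin)) * S.Pre (Sch.En Lin y v1))} : Language α) := by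
      refine HL.setOf_or ((Sch.en_HL hL1 hy v1 v0).mono (Nat.le_succ _)) ?_
      refine ((S.ini_HL hL1 v0).mono (Nat.le_succ _)).mul (HL.mul ?_ ?_)
      · exact (S.pre_HL fun r => S.ini_HL hL1 r).star
      · exact (S.pre_HL fun r => Sch.en_HL hL1 hy v1 r).mono (Nat.le_succ _)
    refine ⟨{m | m ++ y ∈ ({x | x ∈ Sch.En Lin y v1 v0 ∨ x ∈ S.Ini Lin v0 *
        (KStar.kstar (S.Pre (S.Ini Lin)) * S.Pre (Sch.En Lin y v1))} : Language α) ∧
        m ∈ AllPr W S.Pr y}, ?_, ?_, ?_⟩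
    · exact HL.setOf_and (h1.rquot y) (allPr_HL k hnH hPr hy)
    · intro zs hch hbad hv
      refine ⟨?_, ?_⟩
      · have := S.low_aux hH hbl hbp (fun y h f zs a b c => hL2 y h f zs a b c) hL3 hy
          zs.length zs v0 le_rfl hch hbad
        rw [hv] at this
        exact this
      · intro zs' m' he hne hch'
        obtain ⟨r, hr, hY⟩ := isCh_prefix (by rw [he, List.append_assoc]) hch hch' (by
          rw [he, List.length_append]; omega)
        rcases r with _ | ⟨Z, r⟩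
        · exfalso
          apply hne
          have := congrArg List.length hY
          simp only [List.flatten_nil, List.nil_append, List.length_append] at this
          exact List.length_eq_zero_iff.1 (by omega)
        · subst hr
          rw [hY]
          have := (allZ_append.1 hbad).2.1
          have e : (Z :: r).flatten ++ y = Z ++ (r.flatten ++ y) := by simp
          rw [e]
          exact hbp _ this
    · rintro m ⟨hm, hAll⟩
      rcases hm with ⟨g, hg, hm⟩ | hm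
      · obtain ⟨w, ⟨hy', hw⟩, y', hyy, he⟩ := Language.mem_mul.1 hm
        have hyy' : y' = y := hyy
        rw [hyy'] at he
        have hwm : w = m := List.append_cancel_right he
        obtain ⟨zs, h2, h3, h4⟩ := hL3 y hy' g w hw
        exact ⟨zs, h2, by rw [h3, hwm], by rw [h4]; exact hg⟩
      · obtain ⟨I, hI, sF, hsF, he⟩ := Language.mem_mul.1 hm
        obtain ⟨s, hs, F, hF, rfl⟩ := Language.mem_mul.1 hsF
        rw [Language.mem_kstar] at hs
        obtain ⟨Ls, rfl, hLs⟩ := hs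
        obtain ⟨zs, P, h2, h3, h4⟩ := S.ini_sound hnH hL3 hI
        have hP' := S.Lp _ _ h4
        refine S.up_aux hnH hL3 hAll Ls zs P F hLs ?_ h4 ?_ hF
        · refine (isCh_congr ?_).1 h3
          rw [List.take_append_of_le_length (le_trans S.hp hP'.1)]
        · rw [← he, h2, List.append_assoc]
  choose L g1 g2 g3 using key
  refine ⟨{w | ∀ v, w ∈ L v (f v)}, HL.iInter fun v => g1 v (f v), ?_, ?_⟩
  · intro zs h1 h2 h3 v
    exact g2 v (f v) zs h1 h2 (by rw [h3])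
  · intro w hw
    obtain ⟨v⟩ := ‹Nonempty V›
    obtain ⟨zs, h1, h2, -⟩ := g3 v (f v) w (hw v)
    refine ⟨zs, h1, h2, funext fun v' => ?_⟩
    obtain ⟨zs', h1', h2', h3'⟩ := g3 v' (f v') w (hw v')
    have : zs' = zs := isCh_unique (by rw [h2, h2']) h1' h1
    rw [← this]
    exact h3'

/-- **three nested schemes on one wall chain**: `S1, S2` are sound everywhere where `bad0` holds,
`S3` on its promise; every zone is complete for one of the three. -/
theorem three_levels [Finite α] {V1 V2 V3 : Type v} [Finite V1] [Finite V2] [Finite V3]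
    [Nonempty V1] [Nonempty V2] [Nonempty V3] (S1 : Sch W V1) (S2 : Sch W V2) (S3 : Sch W V3)
    {H : ℕ} (h1 : W.B + S1.p ≤ H) (h2 : W.B + S2.p ≤ H) (h3 : W.B + S3.p ≤ H)
    (p1 : ∀ Q, S1.Pr Q ↔ S1.Pr (Q.take H)) (p2 : ∀ Q, S2.Pr Q ↔ S2.Pr (Q.take H))
    (p3 : ∀ Q, S3.Pr Q ↔ S3.Pr (Q.take H)) {bad : List α → Prop}
    (hbl : ∀ Q, bad Q ↔ bad (Q.take H))
    (b1 : ∀ Q, bad Q → S1.Pr Q) (b2 : ∀ Q, bad Q → ¬ S1.Cmp Q → S2.Pr Q)
    (b3 : ∀ Q, bad Q → ¬ S1.Cmp Q → ¬ S2.Cmp Q → S3.Pr Q)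
    (hall : ∀ Q, bad Q → S1.Cmp Q ∨ S2.Cmp Q ∨ S3.Cmp Q)
    (d2 : (V2 → V2) → (V1 → V1)) (hd2 : ∀ zs, d2 (Tc S2.T zs) = Tc S1.T zs)
    (d3 : (V3 → V3) → (V2 → V2)) (hd3 : ∀ zs, d3 (Tc S3.T zs) = Tc S2.T zs) :
    LevT W H bad S1.T 3 := by
  have e0 : LevT W H (fun Q => ((bad Q ∧ ¬ S1.Cmp Q) ∧ ¬ S2.Cmp Q) ∧ ¬ S3.Cmp Q) S3.T 0 :=
    LevT.base 0 fun Q hQ => by
      rcases hall Q hQ.1.1.1 with h | h | h
      · exact hQ.1.1.2 h
      · exact hQ.1.2 h
      · exact hQ.2 h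
  have l1 : ∀ Q, (bad Q ∧ ¬ S1.Cmp Q) ↔ (bad (Q.take H) ∧ ¬ S1.Cmp (Q.take H)) := fun Q => by
    rw [← hbl, ← S1.cmp_local h1]
  have l2 : ∀ Q, ((bad Q ∧ ¬ S1.Cmp Q) ∧ ¬ S2.Cmp Q) ↔
      ((bad (Q.take H) ∧ ¬ S1.Cmp (Q.take H)) ∧ ¬ S2.Cmp (Q.take H)) := fun Q => by
    rw [← l1, ← S2.cmp_local h2]
  have e1 := (level_step S3 h3 p3 l2 (fun Q hQ => b3 Q hQ.1.1 hQ.1.2 hQ.2) e0).dec d3 hd3
  have e2 := (level_step S2 h2 p2 l1 (fun Q hQ => b2 Q hQ.1 hQ.2) e1).dec d2 hd2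
  exact level_step S1 h1 p1 hbl b1 e2

end Crest.Agent.R320.Lev_256
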