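import Crest.Agent.R320.NestP_528

/-!
# Row 320: levels = cocycles along chains (helper528)

A *chain* is a partial deterministic automaton `sC : C → α → Option C` (`none` = the promise of the
level is violated).  `Lev n GG sC`: for every finite monoid `M` and every chain dependent letter
weight `ψ : C → α → M`, the product of the weights along the chain is computed at level `n` on `GG`.

* `Lev.top`   : a chain which never dies on `GG` gives all finite monoids.
* `Lev.base`  : a chain with bounded life is of level 0.
* `Lev.step`  : the induction step: a relatively sound scheme for every finite monoid whose uncut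
                alive words stay alive for an inner chain of level `n` gives level `n + 1`.
-/

set_option autoImplicit false

namespace Crest.Agent.R320.Nest_528

open Crest.RegLang Crest.Agent.R320.Hk_851

universe u

variable {α : Type u}

/-- right action of a monoid on an abelian group by endomorphisms -/
structure RAct (V M : Type u) [AddCommGroup V] [Monoid M] where
  act : V → M → V
  add : ∀ v v' m, act (v + v') m = act v m + act v' m
  one : ∀ v, act v 1 = v
  mul : ∀ v m m', act v (m * m') = act (act v m) m'
  faithful : ∀ m m', (∀ v, act v m = act v m') → m = m'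

theorem RAct.zero {V M : Type u} [AddCommGroup V] [Monoid M] (A : RAct V M) (m : M) :
    A.act 0 m = 0 := by
  have := A.add 0 0 m
  simpa using this

/-- the chain run -/
def crun {C : Type u} (sC : C → α → Option C) (o : Option C) (w : List α) : Option C :=
  run (fun o a => o.bind fun c => sC c a) o w

theorem crun_none {C : Type u} (sC : C → α → Option C) (w : List α) : crun sC none w = none :=
  run_dead (fun _ => rfl) w

@[simp] theorem crun_nil {C : Type u} (sC : C → α → Option C) (o : Option C) :
    crun sC o [] = o := rfl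

theorem crun_cons {C : Type u} (sC : C → α → Option C) (c : C) (a : α) (w : List α) :
    crun sC (some c) (a :: w) = crun sC (sC c a) w := rfl

/-- product of the weights along the chain (the value is junk behind the death) -/
def coc {C M : Type u} [Monoid M] (sC : C → α → Option C) (ψ : C → α → M) : C → List α → M
  | _, [] => 1
  | c, a :: w => ψ c a * (match sC c a with
    | none => 1
    | some c' => coc sC ψ c' w)

theorem coc_cons {C M : Type u} [Monoid M] {sC : C → α → Option C} (ψ : C → α → M) {c c' : C}
    {a : α} (h : sC c a = some c') (w : List α) :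
    coc sC ψ c (a :: w) = ψ c a * coc sC ψ c' w := by
  rw [coc, h]

/-- thread step: chain state and token -/
def skew {C V M : Type u} [AddCommGroup V] [Monoid M] (sC : C → α → Option C) (ψ : C → α → M)
    (A : RAct V M) (nz : C → α → V) : Option (C × V) → α → Option (C × V)
  | none, _ => none
  | some p, a => (sC p.1 a).map fun c' => (c', A.act p.2 (ψ p.1 a) + nz p.1 a)

/-- accumulated noise -/
def noise {C V M : Type u} [AddCommGroup V] [Monoid M] (sC : C → α → Option C) (ψ : C → α → M)
    (A : RAct V M) (nz : C → α → V) : C → List α → V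
  | _, [] => 0
  | c, a :: w => match sC c a with
    | none => 0
    | some c' => A.act (nz c a) (coc sC ψ c' w) + noise sC ψ A nz c' w

theorem run_skew {C V M : Type u} [AddCommGroup V] [Monoid M] (sC : C → α → Option C)
    (ψ : C → α → M) (A : RAct V M) (nz : C → α → V) (w : List α) : ∀ (c : C) (v : V),
    run (skew sC ψ A nz) (some (c, v)) w =
      (crun sC (some c) w).map fun c' => (c', A.act v (coc sC ψ c w) + noise sC ψ A nz c w) := by
  induction w with
  | nil => intro c v; simp [coc, noise, A.one]
  | cons a w ih =>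
    intro c v
    rw [crun_cons]
    change run (skew sC ψ A nz) (skew sC ψ A nz (some (c, v)) a) w = _
    rcases h : sC c a with _ | c'
    · have h1 : skew sC ψ A nz (some (c, v)) a = none := by simp [skew, h]
      rw [h1, crun_none, run_dead (dead := none) (fun _ => rfl)]; rfl
    · have h1 : skew sC ψ A nz (some (c, v)) a = some (c', A.act v (ψ c a) + nz c a) := by
        simp [skew, h]
      rw [h1, ih, coc_cons ψ h]
      have h2 : noise sC ψ A nz c (a :: w) =
          A.act (nz c a) (coc sC ψ c' w) + noise sC ψ A nz c' w := by rw [noise, h]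
      rw [h2, A.add, A.mul, add_assoc]

/-- cocycles along the chain are computed at level `n` on `GG` -/
def Lev {C : Type u} (n : ℕ) (GG : Set (List α)) (sC : C → α → Option C) : Prop :=
  ∀ (M : Type u) [Monoid M] [Finite M] (ψ : C → α → M) (c0 c1 : C) (m : M),
    ∃ Y : Language α, HL n Y ∧ ∀ w ∈ GG, (w ∈ Y ↔ crun sC (some c0) w = some c1 ∧
      coc sC ψ c0 w = m)

/-- **Top**: a chain which never dies gives all finite monoids. -/
theorem Lev.top {C : Type u} [Finite C] {n : ℕ} {GG : Set (List α)} {sC : C → α → Option C}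
    (h : Lev n GG sC) (c0 : C) (hal : ∀ w ∈ GG, crun sC (some c0) w ≠ none)
    (M : Type u) [Monoid M] [Finite M] (φ : α → M) (m : M) :
    ∃ Y : Language α, HL n Y ∧ ∀ w ∈ GG, (w ∈ Y ↔ (w.map φ).prod = m) := by
  choose Y hY1 hY2 using fun c1 => h M (fun _ a => φ a) c0 c1 m
  have key : ∀ (w : List α) (c : C), crun sC (some c) w ≠ none →
      coc sC (fun _ a => φ a) c w = (w.map φ).prod := by
    intro w
    induction w with
    | nil => intro c _; rfl
    | cons a w ih =>
      intro c hc
      rw [crun_cons] at hc
      rcases h' : sC c a with _ | c'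
      · rw [h', crun_none] at hc; exact (hc rfl).elim
      · rw [h'] at hc
        rw [coc_cons _ h', ih c' hc, List.map_cons, List.prod_cons]
  refine ⟨{w | ∃ c1, w ∈ Y c1}, HL.iUnion hY1, fun w hw => ?_⟩
  constructor
  · rintro ⟨c1, hc⟩
    have := (hY2 c1 w hw).1 hc
    rw [← key w c0 (hal w hw)]; exact this.2
  · intro hm
    obtain ⟨c1, hc⟩ := Option.ne_none_iff_exists'.1 (hal w hw)
    exact ⟨c1, (hY2 c1 w hw).2 ⟨hc, by rw [key w c0 (hal w hw)]; exact hm⟩⟩

/-- **Base**: bounded life. -/
theorem Lev.base {C : Type u} [Finite α] {GG : Set (List α)} {sC : C → α → Option C} (R : ℕ)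
    (hR : ∀ c0, ∀ w ∈ GG, crun sC (some c0) w ≠ none → w.length ≤ R) : Lev 0 GG sC := by
  intro M _ _ ψ c0 c1 m
  refine ⟨{w | w.length ≤ R ∧ crun sC (some c0) w = some c1 ∧ coc sC ψ c0 w = m},
    HL.finite ((List.finite_length_le α R).subset fun v hv => hv.1), fun w hw => ?_⟩
  constructor
  · rintro ⟨-, h⟩; exact h
  · intro h
    exact ⟨hR c0 w hw (by rw [h.1]; simp), h⟩

/-- affine maps `v ↦ v.m + t` as a monoid -/
structure Aff (V M : Type u) where
  m : M
  t : V

theorem Aff.ext' {V M : Type u} {x y : Aff V M} (h1 : x.m = y.m) (h2 : x.t = y.t) : x = y := by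
  cases x; cases y; simp_all

/-- the affine monoid of an action -/
@[reducible] def affMonoid {V M : Type u} [AddCommGroup V] [Monoid M] (A : RAct V M) :
    Monoid (Aff V M) where
  mul x y := ⟨x.m * y.m, A.act x.t y.m + y.t⟩
  one := ⟨1, 0⟩
  mul_assoc x y z := Aff.ext' (mul_assoc x.m y.m z.m) (by
    change A.act (A.act x.t y.m + y.t) z.m + z.t = A.act x.t (y.m * z.m) + (A.act y.t z.m + z.t)
    rw [A.add, A.mul, add_assoc])
  one_mul x := Aff.ext' (one_mul x.m) (by
    change A.act 0 x.m + x.t = x.t
    rw [A.zero, zero_add])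
  mul_one x := Aff.ext' (mul_one x.m) (by
    change A.act x.t 1 + 0 = x.t
    rw [A.one, add_zero])

/-- what a scheme of the outer level has to provide for one monoid weight `ψ` -/
structure Good {C C' : Type u} (GG : Set (List α)) (sC : C → α → Option C)
    (sC' : C' → α → Option C') (sim : C' → C) (M : Type u) [Monoid M] (ψ : C → α → M) where
  V : Type u
  grp : AddCommGroup V
  fin : Finite V
  A : RAct V M
  nz : C → α → V
  D : ℕ
  hD : 0 < D
  lam : List α → Option (Option (C × V))
  rho : List α → Option (Option (C × V))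
  sound : Scheme.RelSound (Scheme.mk D hD (skew sC ψ A nz) lam rho) GG none
  inner : ∀ Q c v, Ctx (Scheme.mk D hD (skew sC ψ A nz) lam rho) Q (some (c, v)) →
    ∃ c', sim c' = c ∧ ∀ y, Q ++ y ∈ GG → crun sC (some c) y ≠ none →
      Scheme.Uc (Scheme.mk D hD (skew sC ψ A nz) lam rho) Q (some (c, v)) y →
      crun sC' (some c') y ≠ none

theorem crun_sim {C C' : Type u} {sC : C → α → Option C} {sC' : C' → α → Option C'}
    {sim : C' → C} (hsim : ∀ c' a d', sC' c' a = some d' → sC (sim c') a = some (sim d'))
    (w : List α) : ∀ c' d', crun sC' (some c') w = some d' → crun sC (some (sim c')) w =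
      some (sim d') := by
  induction w with
  | nil =>
    intro c' d' h
    have : c' = d' := by simpa using h
    rw [this]; rfl
  | cons a w ih =>
    intro c' d' h
    rw [crun_cons] at h ⊢
    rcases h' : sC' c' a with _ | e'
    · rw [h', crun_none] at h; exact absurd h (by simp)
    · rw [h'] at h
      rw [hsim c' a e' h']
      exact ih e' d' h

theorem coc_sim {C C' V M : Type u} [AddCommGroup V] [Monoid M] {sC : C → α → Option C}
    {sC' : C' → α → Option C'}
    {sim : C' → C} (hsim : ∀ c' a d', sC' c' a = some d' → sC (sim c') a = some (sim d'))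
    (ψ : C → α → M) (A : RAct V M) (nz : C → α → V) (w : List α) : ∀ c',
    crun sC' (some c') w ≠ none →
    (@coc α C' (Aff V M) (affMonoid A) sC' (fun c' a => ⟨ψ (sim c') a, nz (sim c') a⟩) c' w) =
      ⟨coc sC ψ (sim c') w, noise sC ψ A nz (sim c') w⟩ := by
  letI := affMonoid A
  induction w with
  | nil => intro c' _; rfl
  | cons a w ih =>
    intro c' h
    rw [crun_cons] at h
    rcases h' : sC' c' a with _ | e'
    · rw [h', crun_none] at h; exact (h rfl).elim
    · rw [h'] at h
      rw [coc_cons _ h', ih e' h, coc_cons ψ (hsim c' a e' h')]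
      have h2 : noise sC ψ A nz (sim c') (a :: w) =
          A.act (nz (sim c') a) (coc sC ψ (sim e') w) + noise sC ψ A nz (sim e') w := by
        rw [noise, hsim c' a e' h']
      rw [h2]; rfl

/-- **Induction step.** -/
theorem Lev.step {C C' : Type u} [Finite α] [Finite C] [Finite C'] {n : ℕ} {GG : Set (List α)}
    (hfac : FacClosed GG) {sC : C → α → Option C} {sC' : C' → α → Option C'} (sim : C' → C)
    (hsim : ∀ c' a d', sC' c' a = some d' → sC (sim c') a = some (sim d'))
    (hL : Lev n GG sC')
    (hG : ∀ (M : Type u) [Monoid M] [Finite M] (ψ : C → α → M),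
      Nonempty (Good GG sC sC' sim M ψ)) : Lev (n + 1) GG sC := by
  classical
  intro M _ _ ψ c0 c1 m
  obtain ⟨G⟩ := hG M ψ
  letI := G.grp
  haveI := G.fin
  have hsufG : ∀ x y : List α, x ++ y ∈ GG → y ∈ GG := fun x y h =>
    hfac x y [] (by simpa using h)
  letI := affMonoid G.A
  haveI : Finite (Aff G.V M) := by
    refine Finite.of_injective (fun x : Aff G.V M => (x.m, x.t)) ?_
    intro x y h
    exact Aff.ext' (congrArg Prod.fst h) (congrArg Prod.snd h)
  let S : Scheme α (Option (C × G.V)) := ⟨G.D, G.hD, skew sC ψ G.A G.nz, G.lam, G.rho⟩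
  have main : ∀ v d v', ∃ X : Language α, HL (n + 1) X ∧ ∀ w ∈ GG,
      (w ∈ X ↔ run (skew sC ψ G.A G.nz) (some (c0, v)) w = some (d, v')) := by
    intro v d v'
    refine nestP (S := S) (dead := none) (fun _ => rfl) hfac G.sound ?_ (some (c0, v))
      (some (d, v')) (by simp)
    rintro Q (_ | ⟨c, v⟩) hQ hω (_ | ⟨d, v'⟩) h1
    · exact (hω rfl).elim
    · exact (hω rfl).elim
    · exact (h1 rfl).elim
    · obtain ⟨c', hc', hal⟩ := G.inner Q c v hQ
      choose Y hY1 hY2 using fun (i : C' × Aff G.V M) =>
        hL (Aff G.V M) (fun c' a => ⟨ψ (sim c') a, G.nz (sim c') a⟩) c' i.1 i.2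
      refine ⟨{y | ∃ i : {i : C' × Aff G.V M // sim i.1 = d ∧ G.A.act v i.2.m + i.2.t = v'},
        y ∈ Y i.1}, HL.iUnion fun i => hY1 _, ?_, ?_⟩
      · rintro y hy ⟨⟨⟨d', x⟩, hd, hx⟩, hyY⟩
        obtain ⟨h2, h3⟩ := (hY2 _ y (hsufG _ _ hy)).1 hyY
        have h4 := crun_sim hsim y c' d' h2
        have h5 := coc_sim hsim ψ G.A G.nz y c' (by rw [h2]; simp)
        rw [h5] at h3
        change run (skew sC ψ G.A G.nz) (some (c, v)) y = _
        rw [run_skew, ← hc', h4, ← hx, ← hd, ← h3]; rfl
      · intro y hy hu hr
        change run (skew sC ψ G.A G.nz) (some (c, v)) y = _ at hr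
        rw [run_skew] at hr
        have h6 : crun sC (some c) y ≠ none := by
          intro h; rw [h] at hr; simp at hr
        have h7 := hal y hy h6 hu
        obtain ⟨d', hd'⟩ := Option.ne_none_iff_exists'.1 h7
        have h4 := crun_sim hsim y c' d' hd'
        rw [hc'] at h4
        rw [h4] at hr
        simp only [Option.map_some, Option.some.injEq, Prod.mk.injEq] at hr
        have h5 := coc_sim hsim ψ G.A G.nz y c' h7
        refine ⟨⟨(d', _), hr.1, ?_⟩, (hY2 (d', _) y (hsufG _ _ hy)).2 ⟨hd', rfl⟩⟩
        rw [h5, hc']; exact hr.2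
  choose X hX1 hX2 using main
  refine ⟨{w | ∃ t0 : G.V, w ∈ ({w | ∀ v, w ∈ X v c1 (G.A.act v m + t0)} : Language α)},
    HL.iUnion (L := fun t0 => ({w | ∀ v, w ∈ X v c1 (G.A.act v m + t0)} : Language α))
      fun t0 => HL.iInter fun v => hX1 _ _ _, fun w hw => ?_⟩
  constructor
  · rintro ⟨t0, ht⟩
    have h2 : ∀ v, run (skew sC ψ G.A G.nz) (some (c0, v)) w =
        some (c1, G.A.act v m + t0) := fun v => (hX2 _ _ _ w hw).1 (ht v)
    have h3 : crun sC (some c0) w = some c1 ∧
        ∀ v, G.A.act v (coc sC ψ c0 w) + noise sC ψ G.A G.nz c0 w = G.A.act v m + t0 := by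
      have h4 : ∀ v, crun sC (some c0) w = some c1 ∧
          G.A.act v (coc sC ψ c0 w) + noise sC ψ G.A G.nz c0 w = G.A.act v m + t0 := by
        intro v
        have := h2 v
        rw [run_skew] at this
        rcases h5 : crun sC (some c0) w with _ | d
        · rw [h5] at this; simp at this
        · rw [h5] at this
          simp only [Option.map_some, Option.some.injEq, Prod.mk.injEq] at this
          exact ⟨by rw [this.1], this.2⟩
      exact ⟨(h4 0).1, fun v => (h4 v).2⟩
    refine ⟨h3.1, G.A.faithful _ _ fun v => ?_⟩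
    have h0 := h3.2 0
    rw [G.A.zero, G.A.zero, zero_add, zero_add] at h0
    have := h3.2 v
    rw [h0] at this
    exact add_right_cancel this
  · rintro ⟨h1, h2⟩
    refine ⟨noise sC ψ G.A G.nz c0 w, fun v => (hX2 _ _ _ w hw).2 ?_⟩
    rw [run_skew, h1, h2]; rfl

end Crest.Agent.R320.Nest_528
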