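import Crest.Agent.R320.Cut_974
import Crest.Agent.R320.Hk2_851

/-!
# Row 320: levels (helper974)

`MC n C` : on the class `C` every finite monoid product is computable with height `n`.
`Sch C φ` : a scheme = finite automaton with finitely many start states, cut data, from the end states
the product can be read.  `MC_succ` : schemes on `C` whose uncut classes are `MC n` give `MC (n+1) C`.
`top` : `MC k` of all words gives the row with height `k`.
-/

set_option autoImplicit false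

namespace Crest.Agent.R320.Lev_974

open Crest.RegLang Crest.Agent.R320.Hk_851 Crest.Agent.R320.Cut_974

universe u

variable {α : Type u}

/-- all finite monoid products are computable at height `n` on the class `C` -/
def MC (n : ℕ) (C : Language α) : Prop :=
  ∀ (S : Type u) [Monoid S] [Finite S] (φ : α → S) (s : S),
    ∃ L : Language α, HL n L ∧ ∀ w, w ∈ C → (w ∈ L ↔ (w.map φ).prod = s)

theorem MC.mono {n m : ℕ} (h : n ≤ m) {C : Language α} (hC : MC n C) : MC m C := by
  intro S _ _ φ s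
  obtain ⟨L, h1, h2⟩ := hC S φ s
  exact ⟨L, h1.mono h, h2⟩

theorem MC.subset {n : ℕ} {C C' : Language α} (h : ∀ w, w ∈ C' → w ∈ C) (hC : MC n C) : MC n C' := by
  intro S _ _ φ s
  obtain ⟨L, h1, h2⟩ := hC S φ s
  exact ⟨L, h1, fun w hw => h2 w (h w hw)⟩

/-- short words are computable without stars -/
theorem MC.short [Finite α] {C : Language α} (M : ℕ) (h : ∀ w, w ∈ C → w.length < M) : MC 0 C := by
  intro S _ _ φ s
  refine ⟨{w | w.length < M ∧ (w.map φ).prod = s}, HL.finite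
    ((List.finite_length_lt α M).subset fun _ h => h.1), fun w hw => ?_⟩
  exact ⟨fun h => h.2, fun h' => ⟨h w hw, h'⟩⟩

/-- two classes -/
theorem MC.union {n : ℕ} {C1 C2 D : Language α} (hD : HL n D)
    (hD1 : ∀ w, w ∈ C1 → w ∈ D) (hD2 : ∀ w, w ∈ C2 → ¬ w ∈ D)
    (h1 : MC n C1) (h2 : MC n C2) : MC n ({w | w ∈ C1 ∨ w ∈ C2} : Language α) := by
  intro S _ _ φ s
  obtain ⟨L1, a1, b1⟩ := h1 S φ s
  obtain ⟨L2, a2, b2⟩ := h2 S φ s
  refine ⟨(D ⊓ L1) ⊔ (Dᶜ ⊓ L2), (hD.inf a1).sup (hD.compl.inf a2), ?_⟩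
  rintro w (hw | hw)
  · constructor
    · rintro (⟨-, h⟩ | ⟨h, -⟩)
      · exact (b1 w hw).1 h
      · exact (h (hD1 w hw)).elim
    · intro h; exact Or.inl ⟨hD1 w hw, (b1 w hw).2 h⟩
  · constructor
    · rintro (⟨h, -⟩ | ⟨-, h⟩)
      · exact (hD2 w hw h).elim
      · exact (b2 w hw).1 h
    · intro h; exact Or.inr ⟨hD2 w hw, (b2 w hw).2 h⟩

/-- runs of a finite automaton are computable on an `MC n` class -/
theorem MC.run {n : ℕ} {C : Language α} (hC : MC n C) {Th : Type u} [Finite Th]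
    (δ : Th → α → Th) (θ θ' : Th) :
    ∃ L : Language α, HL n L ∧ ∀ w, w ∈ C → (w ∈ L ↔ run δ θ w = θ') := by
  classical
  let φ : α → (Function.End Th)ᵐᵒᵖ := fun a => MulOpposite.op (fun s => δ s a)
  have key : ∀ (w : List α) (s : Th), Cut_974.run δ s w = ((w.map φ).prod).unop s := by
    intro w
    induction w with
    | nil => intro s; rfl
    | cons a w ih =>
      intro s
      rw [List.map_cons, List.prod_cons, MulOpposite.unop_mul]
      change Cut_974.run δ (δ s a) w = ((w.map φ).prod).unop (δ s a)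
      exact ih _
  haveI : Finite (Function.End Th)ᵐᵒᵖ := by
    haveI : Finite (Function.End Th) := inferInstanceAs (Finite (Th → Th))
    exact Finite.of_injective MulOpposite.unop MulOpposite.unop_injective
  choose L h1 h2 using fun s => hC (Function.End Th)ᵐᵒᵖ φ s
  refine ⟨{w | ∃ s ∈ {s : (Function.End Th)ᵐᵒᵖ | s.unop θ = θ'}, w ∈ L s},
    HL.biUnion (Set.toFinite _) fun s _ => h1 s, fun w hw => ?_⟩
  rw [key]
  constructor
  · rintro ⟨s, hs, h⟩
    have := (h2 s w hw).1 h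
    rw [this]; exact hs
  · intro h
    exact ⟨_, h, (h2 _ w hw).2 rfl⟩

/-- a scheme for the product of `φ` on the class `C` -/
structure Sch (C : Language α) {S : Type u} [Monoid S] (φ : α → S) where
  Th : Type u
  fin : Finite Th
  δ : Th → α → Th
  ι : Type
  finι : Finite ι
  st : ι → Th
  CutL : Th → Prop
  D : ℕ
  hD : 0 < D
  ρ : List α → Option Th
  pref : ∀ u w : List α, u ++ w ∈ C → u ∈ C
  sound : ∀ i θ θ' r, Pos δ C (st i) θ r → CutL θ → r.length = D → ρ r = some θ' →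
    Cut_974.run δ θ r = θ'
  read : (ι → Th) → S
  read_spec : ∀ w, w ∈ C → read (fun i => Cut_974.run δ (st i) w) = (w.map φ).prod

namespace Sch

variable {C : Language α} {S : Type u} [Monoid S] {φ : α → S}

/-- the cut automaton with start `i` -/
def toCutA (A : Sch C φ) (i : A.ι) : CutA C A.δ (A.st i) where
  CutL := A.CutL
  D := A.D
  hD := A.hD
  ρ := A.ρ
  pref := A.pref
  sound := A.sound i

/-- `w` read from `θ` has a cut -/
def Cut (A : Sch C φ) (θ : A.Th) (w : List α) : Prop :=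
  ∃ p r s, w = p ++ (r ++ s) ∧ r.length = A.D ∧ A.CutL (Cut_974.run A.δ θ p) ∧ (A.ρ r).isSome

/-- the uncut words (read from the true state `θ`) -/
def Unc (A : Sch C φ) (i : A.ι) (θ : A.Th) : Language α :=
  {w | Pos A.δ C (A.st i) θ w ∧ ¬ A.Cut θ w}

theorem unc_pref (A : Sch C φ) (i : A.ι) (θ : A.Th) (u w : List α) (h : u ++ w ∈ A.Unc i θ) :
    u ∈ A.Unc i θ :=
  ⟨(A.toCutA i).pos_pref h.1, fun hc => h.2 (CutA.Cut.append (A := A.toCutA i) hc w)⟩

end Sch

/-- **one more star** -/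
theorem MC_succ [Finite α] {n : ℕ} {C : Language α}
    (h : ∀ (S : Type u) [Monoid S] [Finite S] (φ : α → S),
      ∃ A : Sch C φ, ∀ i θ, MC n (A.Unc i θ)) : MC (n + 1) C := by
  intro S _ _ φ s
  obtain ⟨A, hA⟩ := h S φ
  haveI := A.fin
  haveI := A.finι
  classical
  have hU : ∀ i, UncutRC n (A.toCutA i) := by
    intro i θ θ'
    obtain ⟨U, h1, h2⟩ := (hA i θ).run A.δ θ θ'
    exact ⟨U, h1, fun w hp hc => h2 w ⟨hp, hc⟩⟩
  choose L h1 h2 using fun i θF => nested (A.toCutA i) (hU i) θF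
  refine ⟨{w | ∃ f ∈ {f : A.ι → A.Th | A.read f = s}, w ∈ ({w | ∀ i, w ∈ L i (f i)} : Language α)},
    HL.biUnion (Set.toFinite _) fun f _ => HL.iInter fun i => h1 i (f i), fun w hw => ?_⟩
  constructor
  · rintro ⟨f, hf, hwf⟩
    have : (fun i => Cut_974.run A.δ (A.st i) w) = f := funext fun i => (h2 i (f i) w hw).1 (hwf i)
    rw [← A.read_spec w hw, this]
    exact hf
  · intro hs
    refine ⟨fun i => Cut_974.run A.δ (A.st i) w, ?_, fun i => (h2 i _ w hw).2 rfl⟩
    change A.read _ = s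
    rw [A.read_spec w hw, hs]

/-- the innermost star: uncut words are short -/
theorem MC_one [Finite α] {C : Language α}
    (h : ∀ (S : Type u) [Monoid S] [Finite S] (φ : α → S),
      ∃ A : Sch C φ, ∃ M : ℕ, ∀ i θ w, w ∈ A.Unc i θ → w.length < M) : MC 1 C :=
  MC_succ fun S _ _ φ => by
    obtain ⟨A, M, hM⟩ := h S φ
    exact ⟨A, fun i θ => MC.short M (hM i θ)⟩

/-- **three nested families of schemes on all words** -/
theorem MC_three [Finite α]
    (h1 : ∀ (S : Type u) [Monoid S] [Finite S] (φ : α → S), ∃ A : Sch (⊤ : Language α) φ,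
      ∀ i θ, ∀ (S2 : Type u) [Monoid S2] [Finite S2] (φ2 : α → S2),
        ∃ A2 : Sch (A.Unc i θ) φ2, ∀ i2 θ2, ∀ (S3 : Type u) [Monoid S3] [Finite S3] (φ3 : α → S3),
          ∃ A3 : Sch (A2.Unc i2 θ2) φ3, ∃ M : ℕ, ∀ i3 θ3 w, w ∈ A3.Unc i3 θ3 → w.length < M) :
    MC 3 (⊤ : Language α) :=
  MC_succ fun S _ _ φ => by
    obtain ⟨A, hA⟩ := h1 S φ
    refine ⟨A, fun i θ => MC_succ fun S2 _ _ φ2 => ?_⟩
    obtain ⟨A2, hA2⟩ := hA i θ S2 φ2
    exact ⟨A2, fun i2 θ2 => MC_one (hA2 i2 θ2)⟩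

/-- **top**: from `MC k` of all words to regular languages -/
theorem top [Finite α] {k : ℕ} (h : MC k (⊤ : Language α)) (L : Language α) (hL : L.IsRegular) :
    ∃ e : GRegExp α, e.height ≤ k ∧ e.lang = L := by
  refine of_monoid (k := k) (fun S _ _ φ s => ?_) L hL
  obtain ⟨L', h1, h2⟩ := h S φ s
  exact h1.congr fun w => (h2 w trivial).symm

/-- the row from `MC 3` of all words, for every finite alphabet -/
theorem s0495_of_MC (h : ∀ (α : Type u) [Finite α], MC 3 (⊤ : Language α))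
    (α : Type u) [Finite α] (L : Language α) (hL : L.IsRegular) :
    ∃ e : GRegExp α, e.height ≤ 3 ∧ e.lang = L :=
  top (h α) L hL

end Crest.Agent.R320.Lev_974
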