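import Crest.Agent.R320.Level_297

/-!
# Row 320, read-off and top of the two-level scheme (helper297)

* `Lg_map`  : a rule whose zone maps are read off from another rule with the same zones
* `top`     : run languages of all zones of height `k`, the words without visible zone of height
  `k` : then `{w | φ w = s}` has height `k`
* `two_schemes` : the reduction of row 320 to two junction schemes
-/

set_option autoImplicit false

namespace Crest.Agent.R320.Level_297

open Crest.RegLang Crest.Agent.R320.Hk_851 Computability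

universe u

variable {α : Type u} {V V1 V2 : Type} {n : ℕ}

/-- the zone maps of `r1` are read off from those of `r2` by `τ` -/
structure ReadOff (r1 : Rule α V1 n) (r2 : Rule α V2 n) (τ : (V2 → V2) → (V1 → V1)) : Prop where
  id_eq : τ id = id
  fwd : ∀ Q l f2, r2.nx Q = some (l, f2) →
    ∃ f1, r1.nx Q = some (l, f1) ∧ ∀ F, τ (F ∘ f2) = τ F ∘ f1
  bwd : ∀ Q l f1, r1.nx Q = some (l, f1) → ∃ f2, r2.nx Q = some (l, f2)

theorem ReadOff.run2 {r1 : Rule α V1 n} {r2 : Rule α V2 n} {τ : (V2 → V2) → (V1 → V1)}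
    (H : ReadOff r1 r2 τ) {y Q : List α} {F : V2 → V2} (h : Run r2 y F Q) :
    Run r1 y (τ F) Q := by
  induction h with
  | nil Q => rw [H.id_eq]; exact Run.nil _
  | cons h1 _ ih =>
    obtain ⟨f1, h2, h3⟩ := H.fwd _ _ _ h1
    rw [h3]
    exact Run.cons h2 ih

theorem ReadOff.run1 {r1 : Rule α V1 n} {r2 : Rule α V2 n} {τ : (V2 → V2) → (V1 → V1)}
    (H : ReadOff r1 r2 τ) {y Q : List α} {F : V1 → V1} (h : Run r1 y F Q) :
    ∃ F2, Run r2 y F2 Q ∧ τ F2 = F := by
  induction h with
  | nil Q => exact ⟨id, Run.nil _, H.id_eq⟩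
  | cons h1 _ ih =>
    obtain ⟨F2, h2, h3⟩ := ih
    obtain ⟨f2, h4⟩ := H.bwd _ _ _ h1
    obtain ⟨f1, h5, h6⟩ := H.fwd _ _ _ h4
    rw [h1] at h5
    simp only [Option.some.injEq, Prod.mk.injEq, true_and] at h5
    subst h5
    exact ⟨F2 ∘ f2, Run.cons h4 h2, by rw [h6, h3]⟩

theorem Lg_map [Finite V2] {k : ℕ} {r1 : Rule α V1 n} {r2 : Rule α V2 n}
    {τ : (V2 → V2) → (V1 → V1)} (H : ReadOff r1 r2 τ) (h : ∀ F, HL k (Lg r2 F)) (F : V1 → V1) :
    HL k (Lg r1 F) := by
  have h1 := HL.iUnion (k := k) fun F2 : {F2 : V2 → V2 // τ F2 = F} => h F2.1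
  refine h1.congr fun w => ?_
  constructor
  · rintro ⟨y, z, e, hz, hrun⟩
    obtain ⟨F2, h2, h3⟩ := H.run1 hrun
    exact ⟨⟨F2, h3⟩, y, z, e, hz, h2⟩
  · rintro ⟨⟨F2, h3⟩, y, z, e, hz, hrun⟩
    exact ⟨y, z, e, hz, h3 ▸ H.run2 hrun⟩

/-- every text has a run up to a suffix without visible zone -/
theorem exists_run (r : Rule α V n) (w : List α) :
    ∃ y Q F, w = y ++ Q ∧ Run r y F Q ∧ r.nx Q = none := by
  induction hm : w.length using Nat.strong_induction_on generalizing w with
  | _ m ih =>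
    cases h : r.nx w with
    | none => exact ⟨[], w, id, rfl, Run.nil _, h⟩
    | some x =>
      obtain ⟨l, f⟩ := x
      have hl := r.pos _ _ _ h
      have hv := r.vis _ _ _ h
      have hlen : (w.drop l).length < m := by
        rw [List.length_drop]
        omega
      obtain ⟨y, Q, F, e, hrun, hQ⟩ := ih _ hlen (w.drop l) rfl
      refine ⟨w.take l ++ y, Q, F ∘ f, ?_, Run.cons ?_ hrun, hQ⟩
      · rw [List.append_assoc, ← e, List.take_append_drop]
      · rw [← e, List.take_append_drop, h, List.length_take]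
        congr 2
        omega

theorem Run.len {r : Rule α V n} {y Q : List α} {F : V → V} (h : Run r y F Q) :
    y = [] ∨ n ≤ Q.length := by
  induction h with
  | nil Q => exact Or.inl rfl
  | @cons u y Q f F h1 h2 ih =>
    right
    have hv := r.vis _ _ _ h1
    simp only [List.length_append] at hv
    rcases ih with h | h
    · subst h
      simp only [List.length_nil] at hv
      omega
    · exact h

/-- **top** -/
theorem top [Finite α] [Finite V] {M : Type} [Monoid M] [Finite M] {k : ℕ} (r : Rule α V n)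
    (φ : α → M) (σ : (V → V) → M)
    (hσ : ∀ y F Q, Run r y F Q → σ F = (y.map φ).prod)
    (hr : ∀ F, HL k (Lg r F))
    (hN : ∀ s, HL k ({Q | r.nx Q = none ∧ (Q.map φ).prod = s} : Language α)) (s : M) :
    HL k ({w | (w.map φ).prod = s} : Language α) := by
  have h1 := HL.iUnion (k := k) fun p : {p : (V → V) × M // σ p.1 * p.2 = s} =>
    HL.runJ (k := k) hr p.1.1 (hN p.1.2)
  refine ((h1.sup (hN s))).congr fun w => ?_
  constructor
  · intro hw
    obtain ⟨y, Q, F, rfl, hrun, hQ⟩ := exists_run r w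
    rcases hrun.len with h | h
    · subst h
      right
      exact ⟨by simpa using hQ, hw⟩
    · left
      refine ⟨⟨(F, (Q.map φ).prod), ?_⟩, y, Q, rfl, hrun, ⟨hQ, rfl⟩, h⟩
      show σ F * (Q.map φ).prod = s
      rw [hσ _ _ _ hrun, ← List.prod_append, ← List.map_append]
      exact hw
  · rintro (⟨⟨⟨F, m⟩, hp⟩, y, Q, rfl, hrun, ⟨_, hQ⟩, _⟩ | hw)
    · show ((y ++ Q).map φ).prod = s
      rw [List.map_append, List.prod_append, ← hσ _ _ _ hrun, hQ]
      exact hp
    · exact hw.2

/-- a composed map whose linear part is the product: it is enough to check one zone -/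
theorem sigma_of_zone {M : Type} [Monoid M] (r : Rule α V n) (φ : α → M) (σ : (V → V) → M)
    (h1 : σ id = 1)
    (h2 : ∀ (u Q : List α) f, r.nx (u ++ Q) = some (u.length, f) → ∀ F,
      σ (F ∘ f) = (u.map φ).prod * σ F) :
    ∀ y F Q, Run r y F Q → σ F = (y.map φ).prod := by
  intro y F Q h
  induction h with
  | nil Q => simpa using h1
  | cons h3 _ ih =>
    rw [h2 _ _ _ h3, ih, List.map_append, List.prod_append]

/-- **two schemes**: heights `k`, `k + 1`, `k + 2` -/
theorem two_schemes [Finite α] [Finite V1] [Nonempty V1] [Finite V2] [Nonempty V2]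
    {M : Type} [Monoid M] [Finite M] {k : ℕ} (φ : α → M)
    (r b1 : Rule α V1 n) (b2 : Rule α V2 n) (τ : (V2 → V2) → (V1 → V1)) (H : ReadOff b1 b2 τ)
    (S1 : Scheme r b1) (S2 : Scheme b2 (emptyRule α V2 n))
    (σ : (V1 → V1) → M) (hσ : ∀ y F Q, Run r y F Q → σ F = (y.map φ).prod)
    (hL2 : ∀ v, HL k (S2.LLq v)) (hR2 : ∀ c z, z.length = n → HL k (S2.RLq c z))
    (hD2 : HL (k + 1) S2.Dead)
    (hL1 : ∀ v, HL (k + 1) (S1.LLq v)) (hR1 : ∀ c z, z.length = n → HL (k + 1) (S1.RLq c z))
    (hD1 : HL (k + 2) S1.Dead)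
    (hN : ∀ s, HL (k + 2) ({Q | r.nx Q = none ∧ (Q.map φ).prod = s} : Language α)) (s : M) :
    HL (k + 2) ({w | (w.map φ).prod = s} : Language α) := by
  have h2 : ∀ F, HL (k + 1) (Lg b2 F) := S2.step hL2 hR2 hD2 (fun F => HL_empty F)
  have h1 : ∀ F, HL (k + 1) (Lg b1 F) := Lg_map H h2
  have h0 : ∀ F, HL (k + 2) (Lg r F) := S1.step hL1 hR1 hD1 h1
  exact top r φ σ hσ h0 hN s

end Crest.Agent.R320.Level_297
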