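import Crest.Agent.R320.Level_878

/-! The level step: a scheme, sound for every text with respect to its own chain map `st'` and
complete on the zones in `stZ` but not in `stZ'`, lifts sandwich computability by one star. -/

set_option autoImplicit false

namespace Crest.Agent.R320.Level_878

open Crest.RegLang Crest.Agent.R320.Hgt1_903

variable {α : Type*} {V : Type*}

/-- A scheme. `lam P = some v`: the word `P` from the last node to the cut is a legal left word with
label `v`. `rho Q = some (t, c)`: the word from the cut on is a legal right word, next node at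
distance `t`, label `c`. -/
structure Scheme (ℓ B' : ℕ) (stZ' stZ st' : List α → ℕ → Prop) (act : List α → V → V)
    (lam : List α → Option V) (rho : List α → Option (ℕ × V)) : Prop where
  lam_len : ∀ {P v}, lam P = some v → ℓ ≤ P.length ∧ P.length ≤ B'
  rho_len : ∀ {Q t c}, rho Q = some (t, c) → t ≤ ℓ ∧ t ≤ Q.length
  rho_app : ∀ {Q r} (R : List α), rho Q = some r → rho (Q ++ R) = some r
  rho_cut : ∀ {Q R : List α} {r}, rho (Q ++ R) = some r → ℓ ≤ Q.length → rho Q = some r
  exact_st : ∀ {P v Q t c}, lam P = some v → rho Q = some (t, c) → st' (P ++ Q) (P.length + t)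
  exact_act : ∀ {P v Q t c}, lam P = some v → rho Q = some (t, c) →
    act ((P ++ Q).take (P.length + t)) v = c
  complete : ∀ {Q t}, stZ Q t → ¬ stZ' Q t → t + ℓ ≤ Q.length → ∀ v : V, ∃ x ≤ t,
    lam (Q.take x) = some v ∧ rho (Q.drop x) = some (t - x, act (Q.take t) v)

def Init (st : List α → ℕ → Prop) (act : List α → V → V) (lam : List α → Option V) (c : V) :
    Language α :=
  {P | ∃ a v, Run st act P c a v ∧ lam (P.drop a) = some v}

def Pre (rho : List α → Option (ℕ × V)) (A : V → Language α) : Language α :=
  {u | ∃ t c, rho u = some (t, c) ∧ u.drop t ∈ A c}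

section sound

variable {n ℓ B' : ℕ} {stZ' stZ st' : List α → ℕ → Prop} {act : List α → V → V}
  {lam : List α → Option V} {rho : List α → Option (ℕ × V)}

theorem junction (hs : IsStep n st') (S : Scheme ℓ B' stZ' stZ st' act lam rho) {P Q : List α}
    {c c' : V} {t : ℕ} (hP : P ∈ Init st' act lam c) (hQ : rho Q = some (t, c')) :
    Run st' act (P ++ Q) c (P.length + t) c' := by
  obtain ⟨a, v, hr, hl⟩ := hP
  have hle := hr.le hs
  have e : (P ++ Q).drop a = P.drop a ++ Q := List.drop_append_of_le_length hle
  have h1 := S.exact_st hl hQ
  have h2 := S.exact_act hl hQ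
  have h3 := (hr.app hs Q).snoc (t := (P.drop a).length + t) (by rw [e]; exact h1)
  rw [e, h2] at h3
  have : P.length + t = a + ((P.drop a).length + t) := by rw [List.length_drop]; omega
  rw [this]
  exact h3

theorem init_app (hs : IsStep n st') (S : Scheme ℓ B' stZ' stZ st' act lam rho) {P k : List α}
    {c : V} (hP : P ∈ Init st' act lam c) (hk : k ∈ Pre rho (Init st' act lam)) :
    P ++ k ∈ Init st' act lam c := by
  obtain ⟨t, c', hrho, a, v, hr, hl⟩ := hk
  have hj := junction hs S hP hrho
  have ht := (S.rho_len hrho).2
  have e : (P ++ k).drop (P.length + t) = k.drop t := by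
    rw [← List.drop_drop, List.drop_left]
  refine ⟨P.length + t + a, v, hj.trans (by rw [e]; exact hr), ?_⟩
  rw [← List.drop_drop, e]
  exact hl

theorem whole_app (hs : IsStep n st') (S : Scheme ℓ B' stZ' stZ st' act lam rho) {P k : List α}
    {c v : V} (hP : P ∈ Init st' act lam c) (hk : k ∈ Pre rho (fun c => Whole st' act ℓ c v)) :
    P ++ k ∈ Whole st' act ℓ c v := by
  obtain ⟨t, c', hrho, hlen, hr⟩ := hk
  have hj := junction hs S hP hrho
  have ht := (S.rho_len hrho).2
  have e : (P ++ k).drop (P.length + t) = k.drop t := by
    rw [← List.drop_drop, List.drop_left]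
  rw [List.length_drop] at hlen hr
  have h2 := hj.trans (by rw [e]; exact hr)
  refine ⟨by rw [List.length_append]; omega, ?_⟩
  have : (P ++ k).length - ℓ = P.length + t + (k.length - t - ℓ) := by
    rw [List.length_append]; omega
  rw [this]
  exact h2

theorem init_star (hs : IsStep n st') (S : Scheme ℓ B' stZ' stZ st' act lam rho)
    {X : Language α} (hX : ∀ x ∈ X, x ∈ Pre rho (Init st' act lam)) {k : List α}
    (hk : k ∈ KStar.kstar X) :
    ∀ {P : List α} {c : V}, P ∈ Init st' act lam c → P ++ k ∈ Init st' act lam c := by
  rw [Language.mem_kstar] at hk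
  obtain ⟨l, rfl, hl⟩ := hk
  induction l with
  | nil => intro P c hP; simpa using hP
  | cons x l ih =>
    intro P c hP
    rw [List.flatten_cons, ← List.append_assoc]
    exact ih (fun y hy => hl y (List.mem_cons_of_mem x hy))
      (init_app hs S hP (hX x (hl x List.mem_cons_self)))

end sound

section complete

variable {n ℓ B' : ℕ} {stZ' stZ st' : List α → ℕ → Prop} {act : List α → V → V}
  {lam : List α → Option V} {rho : List α → Option (ℕ × V)}

theorem first_cut (hn : n ≤ ℓ) (hZ' : IsStep n stZ')
    (S : Scheme ℓ B' stZ' stZ st' act lam rho)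
    {Q : List α} {c : V} {a : ℕ} {v : V} (h : Run stZ act Q c a v) :
    a + ℓ ≤ Q.length →
    Run stZ' act Q c a v ∨ ∃ P R t c' a', P ++ R = Q ∧ P ∈ Init stZ' act lam c ∧
      rho R = some (t, c') ∧ Run stZ act (R.drop t) c' a' v ∧ P.length + t + a' = a ∧
      ℓ ≤ P.length := by
  induction h with
  | nil Q c => exact fun _ => Or.inl (Run.nil Q c)
  | cons Q t c a v h hr ih =>
    intro hl
    by_cases hz : stZ' Q t
    · rcases ih (by rw [List.length_drop]; omega) with h1 | ⟨P, R, t', c', a', e, hP, hrho, hr', hsum, hPl⟩
      · exact Or.inl (Run.cons Q t c a v hz h1)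
      · right
        have hlt : t ≤ Q.length := by omega
        refine ⟨Q.take t ++ P, R, t', c', a', ?_, ?_, hrho, hr', ?_, ?_⟩
        · rw [List.append_assoc, e, List.take_append_drop]
        · obtain ⟨b, w, hb, hlam⟩ := hP
          have htl : (Q.take t).length = t := by rw [List.length_take]; omega
          refine ⟨t + b, w, Run.cons _ t c b w ?_ ?_, ?_⟩
          · have hQ : Q = (Q.take t ++ P) ++ R := by
              rw [List.append_assoc, e, List.take_append_drop]
            rw [hQ] at hz
            exact hZ'.cut hz (by rw [List.length_append, htl]; omega)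
          · have e1 : (Q.take t ++ P).drop t = P := by
              conv_lhs => rw [← htl]
              simp
            have e2 : (Q.take t ++ P).take t = Q.take t := by
              conv_lhs => rw [← htl]
              simp
            rw [e1, e2]
            exact hb
          · have e1 : (Q.take t ++ P).drop t = P := by
              conv_lhs => rw [← htl]
              simp
            rw [← List.drop_drop, e1]
            exact hlam
        · have htl : (Q.take t).length = t := by rw [List.length_take]; omega
          rw [List.length_append, htl]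
          omega
        · rw [List.length_append]; omega
    · right
      obtain ⟨x, hx, hlam, hrho⟩ := S.complete h hz (by omega) c
      have hxl : (Q.take x).length = x := by rw [List.length_take]; omega
      refine ⟨Q.take x, Q.drop x, t - x, act (Q.take t) c, a, List.take_append_drop _ _,
        ⟨0, c, Run.nil _ _, by rw [List.drop_zero]; exact hlam⟩, hrho, ?_, ?_, ?_⟩
      · rw [List.drop_drop]
        have : x + (t - x) = t := by omega
        rw [this]
        exact hr
      · rw [hxl]; omega
      · exact (S.lam_len hlam).1

theorem factor (hn : n ≤ ℓ) (hℓ : 0 < ℓ) (hZ' : IsStep n stZ')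
    (S : Scheme ℓ B' stZ' stZ st' act lam rho) :
    ∀ (m : ℕ) (R : List α) (t : ℕ) (c : V) (a : ℕ) (v : V), R.length ≤ m →
      rho R = some (t, c) → Run stZ act (R.drop t) c a v → t + a + ℓ = R.length →
      ∃ k R', k ++ R' = R ∧ k ∈ KStar.kstar (Pre rho (Init stZ' act lam)) ∧
        R' ∈ Pre rho (fun c => Whole stZ' act ℓ c v) := by
  intro m
  induction m with
  | zero =>
    intro R t c a v hm _ _ hl
    omega
  | succ m ih =>
    intro R t c a v hm hrho hr hl
    have hdl : (R.drop t).length = R.length - t := List.length_drop
    rcases first_cut hn hZ' S hr (by omega) with h1 | ⟨P, R1, t1, c1, a1, e, hP, hrho1, hr1, hsum, hPl⟩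
    · refine ⟨[], R, rfl, Language.nil_mem_kstar _, t, c, hrho, by omega, ?_⟩
      have : (R.drop t).length - ℓ = a := by omega
      rw [this]
      exact h1
    · have hR : R = (R.take t ++ P) ++ R1 := by
        rw [List.append_assoc, e, List.take_append_drop]
      have htR := (S.rho_len hrho).2
      have htl : (R.take t).length = t := by rw [List.length_take]; omega
      have hlen1 : R.length = t + P.length + R1.length := by
        conv_lhs => rw [hR]
        rw [List.length_append, List.length_append, htl]
      obtain ⟨k, R', e', hk, hR'⟩ := ih R1 t1 c1 a1 v (by omega) hrho1 hr1 (by omega)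
      refine ⟨(R.take t ++ P) ++ k, R', by rw [List.append_assoc, e', ← hR], ?_, hR'⟩
      have hmem : R.take t ++ P ∈ Pre rho (Init stZ' act lam) := by
        refine ⟨t, c, ?_, ?_⟩
        · rw [hR] at hrho
          exact S.rho_cut hrho (by rw [List.length_append]; omega)
        · have e1 : (R.take t ++ P).drop t = P := by
            conv_lhs => rw [← htl]
            simp
          rw [e1]
          exact hP
      rw [Language.mem_kstar] at hk ⊢
      obtain ⟨l, rfl, hl'⟩ := hk
      refine ⟨(R.take t ++ P) :: l, by rw [List.flatten_cons], ?_⟩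
      intro y hy
      rcases List.mem_cons.1 hy with rfl | hy
      · exact hmem
      · exact hl' y hy

end complete

end Crest.Agent.R320.Level_878
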