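import Crest.Agent.R320.Level2_878

/-! The level step, heights. -/

set_option autoImplicit false

namespace Crest.Agent.R320.Level_878

open Crest.RegLang Crest.Agent.R320.Hgt1_903

variable {α : Type*} {V : Type*}

section heights

variable {n ℓ B' j : ℕ} {stZ' stZ st' : List α → ℕ → Prop} {act : List α → V → V}
  {lam : List α → Option V} {rho : List α → Option (ℕ × V)}

theorem H.init [Finite α] [Finite V] (hn : n ≤ ℓ) (hZ' : IsStep n stZ')
    (S : Scheme ℓ B' stZ' stZ st' act lam rho)
    (hW : ∀ c v : V, H j (Whole stZ' act ℓ c v)) (c : V) : H j (Init stZ' act lam c) := by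
  have h1 : H j ({P | ∃ v : V, P ∈ ({P | ∃ k ∈ Finset.range (B' + 1),
      P ∈ ({P | P ∈ ({P | (fun s : List α => s.length = k ∧ lam s = some v ∧ ℓ ≤ k)
          (P.drop (P.length - k))} : Language α) ∧
        P ∈ ({P | ∃ P1 P2, P1 ++ P2 = P ∧ P1 ∈ Whole stZ' act ℓ c v ∧
          P2 ∈ ({P2 | P2.length = k - ℓ} : Language α)} : Language α)} : Language α)} :
      Language α)} : Language α) := by
    refine H.exists_fintype (ι := V) _ fun v => ?_
    refine H.exists_finset _ _ fun k _ => ?_
    refine H.inter ?_ ?_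
    · exact H.suffixWindow (α := α) j k (fun s : List α => s.length = k ∧ lam s = some v ∧ ℓ ≤ k)
    · exact H.cat (hW c v) (H.bounded (α := α) j (k - ℓ) fun w hw => le_of_eq hw)
  refine H.congr h1 fun P => ?_
  constructor
  · rintro ⟨v, k, hk, ⟨hk1, hlam, hk2⟩, P1, P2, rfl, ⟨hP1, hr⟩, hP2⟩
    have hP2' : P2.length = k - ℓ := hP2
    refine ⟨P1.length - ℓ, v, hr.app hZ' P2, ?_⟩
    have : (P1 ++ P2).length - k = P1.length - ℓ := by
      rw [List.length_append]; omega
    rw [← this]
    exact hlam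
  · rintro ⟨a, v, hr, hlam⟩
    have hle := hr.le hZ'
    obtain ⟨hl1, hl2⟩ := S.lam_len hlam
    rw [List.length_drop] at hl1 hl2
    refine ⟨v, P.length - a, Finset.mem_range.2 (by omega), ⟨?_, ?_, ?_⟩,
      P.take (a + ℓ), P.drop (a + ℓ), List.take_append_drop _ _, ⟨?_, ?_⟩, ?_⟩
    · rw [List.length_drop]; omega
    · have : P.length - (P.length - a) = a := by omega
      rw [this]; exact hlam
    · omega
    · rw [List.length_take]; omega
    · have : (P.take (a + ℓ)).length - ℓ = a := by rw [List.length_take]; omega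
      rw [this]
      exact hr.cut hZ' _ (P.drop (a + ℓ)) (List.take_append_drop _ _)
        (by rw [List.length_take]; omega)
    · change (P.drop (a + ℓ)).length = P.length - a - ℓ
      rw [List.length_drop]; omega

theorem H.pre [Finite α] [Finite V]
    (S : Scheme ℓ B' stZ' stZ st' act lam rho) {A : V → Language α}
    (hA : ∀ c, H j (A c)) (hlen : ∀ c, ∀ y ∈ A c, ℓ ≤ y.length) : H j (Pre rho A) := by
  have h1 : H j ({u | ∃ c : V, u ∈ ({u | ∃ t ∈ Finset.range (ℓ + 1),
      u ∈ ({u | u ∈ ({u | (fun s : List α => rho s = some (t, c)) (u.take ℓ)} : Language α) ∧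
        u ∈ ({u | ∃ u0 y, u0 ++ y = u ∧ u0 ∈ ({u0 | u0.length = t} : Language α) ∧
          y ∈ A c} : Language α)} : Language α)} : Language α)} : Language α) := by
    refine H.exists_fintype (ι := V) _ fun c => ?_
    refine H.exists_finset _ _ fun t _ => ?_
    refine H.inter ?_ ?_
    · exact H.prefixWindow (α := α) j ℓ (fun s : List α => rho s = some (t, c))
    · exact H.cat (H.bounded (α := α) j t fun w hw => le_of_eq hw) (hA c)
  refine H.congr h1 fun u => ?_
  constructor
  · rintro ⟨c, t, ht, hrho, u0, y, rfl, hu0, hy⟩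
    have hu0' : u0.length = t := hu0
    have hrho' : rho ((u0 ++ y).take ℓ) = some (t, c) := hrho
    refine ⟨t, c, ?_, ?_⟩
    · have := S.rho_app ((u0 ++ y).drop ℓ) hrho'
      rwa [List.take_append_drop] at this
    · rw [← hu0', List.drop_left]
      exact hy
  · rintro ⟨t, c, hrho, hy⟩
    obtain ⟨ht1, ht2⟩ := S.rho_len hrho
    have hl := hlen c _ hy
    rw [List.length_drop] at hl
    refine ⟨c, t, Finset.mem_range.2 (by omega), ?_, u.take t, u.drop t,
      List.take_append_drop _ _, ?_, hy⟩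
    · change rho (u.take ℓ) = some (t, c)
      refine S.rho_cut (R := u.drop ℓ) ?_ ?_
      · rw [List.take_append_drop]; exact hrho
      · rw [List.length_take]; omega
    · change (u.take t).length = t
      rw [List.length_take]; omega

/-- the run language computed by the scheme. -/
def RR (ℓ : ℕ) (stZ' : List α → ℕ → Prop) (act : List α → V → V) (lam : List α → Option V)
    (rho : List α → Option (ℕ × V)) (c v : V) : Language α :=
  {w | w ∈ Whole stZ' act ℓ c v ∨ w ∈ ({w | ∃ P y, P ++ y = w ∧ P ∈ Init stZ' act lam c ∧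
    y ∈ ({y | ∃ k R, k ++ R = y ∧ k ∈ (KStar.kstar (Pre rho (Init stZ' act lam)) : Language α) ∧
      R ∈ Pre rho (fun c => Whole stZ' act ℓ c v)} : Language α)} : Language α)}

theorem H.rr [Finite α] [Finite V] (hn : n ≤ ℓ) (hZ' : IsStep n stZ')
    (S : Scheme ℓ B' stZ' stZ st' act lam rho)
    (hW : ∀ c v : V, H j (Whole stZ' act ℓ c v)) (c v : V) :
    H (j + 1) (RR ℓ stZ' act lam rho c v) := by
  have hI := fun c => H.init hn hZ' S hW c
  refine H.union ((hW c v).mono (Nat.le_succ j)) (H.cat ((hI c).mono (Nat.le_succ j))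
    (H.cat (H.star (H.pre S hI ?_)) (H.mono (Nat.le_succ j) (H.pre S (fun c => hW c v) ?_))))
  · rintro c y ⟨a, v, _, hlam⟩
    have := (S.lam_len hlam).1
    rw [List.length_drop] at this
    omega
  · rintro c y ⟨h, _⟩
    exact h

theorem rr_sound (hs : IsStep n st') (hss : ∀ Q t, stZ' Q t → st' Q t)
    (S : Scheme ℓ B' stZ' stZ st' act lam rho) {c v : V} {w : List α}
    (hw : w ∈ RR ℓ stZ' act lam rho c v) : w ∈ Whole st' act ℓ c v := by
  have hI : ∀ (c : V) (P : List α), P ∈ Init stZ' act lam c → P ∈ Init st' act lam c := by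
    rintro c P ⟨a, v, hr, hl⟩
    exact ⟨a, v, hr.mono hss, hl⟩
  rcases hw with ⟨h1, h2⟩ | ⟨P, y, rfl, hP, k, R, rfl, hk, t, c', hrho, hR1, hR2⟩
  · exact ⟨h1, h2.mono hss⟩
  · rw [← List.append_assoc]
    refine whole_app hs S ?_ ⟨t, c', hrho, hR1, hR2.mono hss⟩
    refine init_star hs S ?_ hk (hI c P hP)
    rintro x ⟨t, c, h, h'⟩
    exact ⟨t, c, h, hI _ _ h'⟩

theorem rr_complete (hn : n ≤ ℓ) (hℓ : 0 < ℓ) (hZ' : IsStep n stZ')
    (S : Scheme ℓ B' stZ' stZ st' act lam rho) {c v : V} {w : List α}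
    (hw : w ∈ Whole stZ act ℓ c v) : w ∈ RR ℓ stZ' act lam rho c v := by
  obtain ⟨hl, hr⟩ := hw
  rcases first_cut hn hZ' S hr (by omega) with h1 | ⟨P, R, t, c', a', e, hP, hrho, hr', hsum, hPl⟩
  · exact Or.inl ⟨hl, h1⟩
  · right
    have hlen : P.length + R.length = w.length := by rw [← e, List.length_append]
    obtain ⟨k, R', e', hk, hR'⟩ := factor hn hℓ hZ' S R.length R t c' a' v le_rfl hrho hr'
      (by omega)
    exact ⟨P, R, e, hP, k, R', e', hk, hR'⟩

end heights

end Crest.Agent.R320.Level_878
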