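import Crest.Agent.R320.Level3_878

/-! The level step: exactness (first failure), read-off, top. -/

set_option autoImplicit false

namespace Crest.Agent.R320.Level_878

open Crest.RegLang Crest.Agent.R320.Hgt1_903

variable {α : Type*} {V : Type*}

section exactness

variable {n n' ℓ B j : ℕ} {stZ st' : List α → ℕ → Prop} {act : List α → V → V}

theorem split_step (hs' : IsStep n' st') (hss : ∀ Q t, stZ Q t → st' Q t)
    {W : List α} {c : V} {a : ℕ} {v' : V} (h : Run st' act W c a v') :
    ∀ {t b : ℕ} {v : V}, st' (W.drop a) t → Run stZ act W c b v → a + t ≤ b →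
      stZ (W.drop a) t := by
  induction h with
  | nil W c =>
    intro t b v ht hr hab
    have hp := hs'.pos ht
    cases hr with
    | nil => omega
    | cons _ t' _ b' _ h1 h2 =>
      rw [List.drop_zero] at ht ⊢
      have := hs'.fn ht (hss _ _ h1)
      subst this
      exact h1
  | cons W t1 c a v' h1 _ ih =>
    intro t b v ht hr hab
    have hp := hs'.pos ht
    cases hr with
    | nil => omega
    | cons _ t' _ b' _ h3 h4 =>
      have := hs'.fn h1 (hss _ _ h3)
      subst this
      rw [← List.drop_drop] at ht ⊢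
      exact ih ht h4 (by omega)

def DD (ℓ B : ℕ) (stZ st' : List α → ℕ → Prop) (X : V → V → Language α) (c : V) : Language α :=
  {w' | ∃ v : V, w' ∈ ({w' | ∃ t ∈ Finset.range (B + 1),
    w' ∈ ({w' | w' ∈ ({w' | (fun s : List α => s.length = t + ℓ ∧ st' s t ∧ ¬ stZ s t)
        (w'.drop (w'.length - (t + ℓ)))} : Language α) ∧
      w' ∈ ({w' | ∃ w1 T2, w1 ++ T2 = w' ∧ w1 ∈ X c v ∧
        T2 ∈ ({T2 | T2.length = t} : Language α)} : Language α)} : Language α)} : Language α)}

theorem H.dd [Finite α] [Finite V] {X : V → V → Language α} (hX : ∀ c v, H j (X c v)) (c : V) :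
    H j (DD ℓ B stZ st' X c) := by
  refine H.exists_fintype (ι := V) _ fun v => ?_
  refine H.exists_finset _ _ fun t _ => ?_
  refine H.inter ?_ ?_
  · exact H.suffixWindow (α := α) j (t + ℓ)
      (fun s : List α => s.length = t + ℓ ∧ st' s t ∧ ¬ stZ s t)
  · exact H.cat (hX c v) (H.bounded (α := α) j t fun w hw => le_of_eq hw)

theorem live_run (hZ : IsStep n stZ) (hs' : IsStep n' st') (hn : n ≤ ℓ) (hn' : n' ≤ ℓ)
    (hB : ∀ Q t, st' Q t → t ≤ B) {X : V → V → Language α}
    (h1 : ∀ c v, ∀ w ∈ Whole stZ act ℓ c v, w ∈ X c v) {w : List α} {c : V}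
    (hD : ∀ u y, u ++ y = w → ¬ u ∈ DD ℓ B stZ st' X c) :
    ∀ {R : List α} {v1 : V} {a2 : ℕ} {v : V}, Run st' act R v1 a2 v →
      ∀ a1, R = w.drop a1 → Run stZ act w c a1 v1 → a1 + a2 + ℓ ≤ w.length →
      Run stZ act w c (a1 + a2) v := by
  intro R v1 a2 v h
  induction h with
  | nil R v1 => intro a1 _ h _; simpa using h
  | cons R t v1 a2 v ht _ ih =>
    rintro a1 rfl hr hl
    by_cases hz : stZ (w.drop a1) t
    · have h3 := hr.snoc hz
      have h4 := ih (a1 + t) (by rw [List.drop_drop]) h3 (by omega)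
      rwa [Nat.add_assoc] at h4
    · exfalso
      have hlt := hs'.len ht
      have htB := hB _ _ ht
      have hdl : (w.drop a1).length = w.length - a1 := List.length_drop
      refine hD (w.take (a1 + t + ℓ)) (w.drop (a1 + t + ℓ)) (List.take_append_drop _ _) ?_
      have hlen : (w.take (a1 + t + ℓ)).length = a1 + t + ℓ := by
        rw [List.length_take]; omega
      refine ⟨v1, t, Finset.mem_range.2 (by omega), ?_, w.take (a1 + ℓ),
        (w.drop (a1 + ℓ)).take t, ?_, h1 c v1 _ ⟨?_, ?_⟩, ?_⟩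
      · have e : (w.take (a1 + t + ℓ)).drop ((w.take (a1 + t + ℓ)).length - (t + ℓ)) =
            (w.drop a1).take (t + ℓ) := by
          rw [hlen]
          have : a1 + t + ℓ - (t + ℓ) = a1 := by omega
          rw [this, List.drop_take]
          congr 1
          omega
        change (fun s : List α => s.length = t + ℓ ∧ st' s t ∧ ¬ stZ s t) _
        rw [e]
        refine ⟨by rw [List.length_take]; omega, ?_, fun hh => hz ?_⟩
        · refine hs'.cut (R := (w.drop a1).drop (t + ℓ)) ?_ ?_
          · rw [List.take_append_drop]; exact ht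
          · rw [List.length_take]; omega
        · have := hZ.app ((w.drop a1).drop (t + ℓ)) hh
          rwa [List.take_append_drop] at this
      · have : a1 + t + ℓ = (a1 + ℓ) + t := by omega
        rw [this]
        exact List.take_add.symm
      · rw [List.length_take]; omega
      · have : (w.take (a1 + ℓ)).length - ℓ = a1 := by rw [List.length_take]; omega
        rw [this]
        exact hr.cut hZ _ (w.drop (a1 + ℓ)) (List.take_append_drop _ _)
          (by rw [List.length_take]; omega)
      · change ((w.drop (a1 + ℓ)).take t).length = t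
        rw [List.length_take, List.length_drop]; omega

/-- `(EX)`: from a sandwich to the exact language. -/
theorem H.exact [Finite α] [Finite V] (hZ : IsStep n stZ) (hs' : IsStep n' st') (hn : n ≤ ℓ)
    (hn' : n' ≤ ℓ) (hB : ∀ Q t, st' Q t → t ≤ B) (hss : ∀ Q t, stZ Q t → st' Q t)
    {X : V → V → Language α} (hX : ∀ c v, H j (X c v))
    (h1 : ∀ c v, ∀ w ∈ Whole stZ act ℓ c v, w ∈ X c v)
    (h2 : ∀ c v, ∀ w ∈ X c v, w ∈ Whole st' act ℓ c v) (c v : V) :
    H j (Whole stZ act ℓ c v) := by
  have h3 : H j ({w | w ∈ X c v ∧ w ∈ ({w | ¬ w ∈ ({w | ∃ u y, u ++ y = w ∧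
      u ∈ DD ℓ B stZ st' X c ∧ y ∈ (⊤ : Language α)} : Language α)} : Language α)} :
      Language α) :=
    H.inter (hX c v) (H.not (H.cat (H.dd hX c) (H.univ j)))
  refine H.congr h3 fun w => ?_
  constructor
  · rintro ⟨hw, hnd⟩
    obtain ⟨hl, hr⟩ := h2 c v w hw
    refine ⟨hl, ?_⟩
    have := live_run hZ hs' hn hn' hB h1 (w := w) (c := c)
      (fun u y e hu => hnd ⟨u, y, e, hu, trivial⟩) hr 0 (by rw [List.drop_zero])
      (Run.nil _ _) (by omega)
    rwa [Nat.zero_add] at this
  · rintro ⟨hl, hr⟩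
    refine ⟨h1 c v w ⟨hl, hr⟩, ?_⟩
    rintro ⟨u, y, rfl, ⟨v', t, htB, hwin, w1, T2, rfl, hw1, hT2⟩, -⟩
    have hT2' : T2.length = t := hT2
    obtain ⟨hl1, hr1⟩ := h2 c v' w1 hw1
    have hwin' : (fun s : List α => s.length = t + ℓ ∧ st' s t ∧ ¬ stZ s t)
      ((w1 ++ T2).drop ((w1 ++ T2).length - (t + ℓ))) := hwin
    have e0 : (w1 ++ T2).length - (t + ℓ) = w1.length - ℓ := by
      rw [List.length_append]; omega
    rw [e0] at hwin'
    obtain ⟨hw3, hw4, hw5⟩ := hwin'
    apply hw5
    have e1 : ((w1 ++ T2) ++ y).drop (w1.length - ℓ) =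
        (w1 ++ T2).drop (w1.length - ℓ) ++ y :=
      List.drop_append_of_le_length (by rw [List.length_append]; omega)
    have h5 := split_step hs' hss (W := (w1 ++ T2) ++ y) (c := c) (a := w1.length - ℓ) (v' := v')
      (t := t) (by rw [List.append_assoc]; exact hr1.app hs' _)
      (by rw [e1]; exact hs'.app y hw4) hr
      (by simp only [List.length_append] at hl ⊢; omega)
    rw [e1] at h5
    exact hZ.cut h5 (by omega)

end exactness

/-- **LEVEL STEP.** -/
theorem level [Finite α] [Finite V] {n n' ℓ B B' j : ℕ} {stZ' stZ st' : List α → ℕ → Prop}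
    {act : List α → V → V} {lam : List α → Option V} {rho : List α → Option (ℕ × V)}
    (hn : n ≤ ℓ) (hn' : n' ≤ ℓ) (hℓ : 0 < ℓ) (hZ' : IsStep n stZ') (hZ : IsStep n stZ)
    (hs' : IsStep n' st') (hZZ : ∀ Q t, stZ' Q t → stZ Q t) (hss : ∀ Q t, stZ Q t → st' Q t)
    (hB : ∀ Q t, st' Q t → t ≤ B)
    (S : Scheme ℓ B' stZ' stZ st' act lam rho)
    (hW : ∀ c v : V, H j (Whole stZ' act ℓ c v)) :
    ∀ c v : V, H (j + 1) (Whole stZ act ℓ c v) := by
  refine H.exact hZ hs' hn hn' hB hss (X := RR ℓ stZ' act lam rho) (fun c v => H.rr hn hZ' S hW c v)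
    (fun c v w hw => rr_complete hn hℓ hZ' S hw)
    (fun c v w hw => rr_sound hs' (fun Q t h => hss _ _ (hZZ _ _ h)) S hw)

/-- No zones: height `0`. -/
theorem level_bot [Finite α] {st : List α → ℕ → Prop} (hst : ∀ Q t, ¬ st Q t)
    (act : List α → V → V) (ℓ : ℕ) (c v : V) : H 0 (Whole st act ℓ c v) := by
  refine H.bounded 0 ℓ ?_
  rintro w ⟨h1, h2⟩
  generalize hz : w.length - ℓ = z at h2
  cases h2 with
  | nil => omega
  | cons _ t _ a _ h _ => exact (hst _ _ h).elim

section readoff

variable {V1 V2 : Type*} [AddCommGroup V2] {n ℓ j : ℕ} {st : List α → ℕ → Prop}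
  {act1 : List α → V1 → V1} {lin : List α → V2 → V2} {nu : List α → V2} {e : V1 → V2}

theorem run_shift (hs : IsStep n st) (hadd : ∀ Q x y, lin Q (x + y) = lin Q x + lin Q y)
    (he : ∀ Q x, lin Q (e x) = e (act1 Q x))
    {W : List α} {c : V1} {a : ℕ} {v : V1} (h : Run st act1 W c a v) :
    ∀ {y y0 : V2}, Run st (fun Q x => lin Q x + nu Q) W y a y0 →
      Run st (fun Q x => lin Q x + nu Q) W (y + e c) a (y0 + e v) := by
  induction h with
  | nil W c =>
    intro y y0 h
    generalize hz : 0 = z at h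
    cases h with
    | nil => exact Run.nil _ _
    | cons _ t _ a _ h _ =>
      have := hs.pos h
      omega
  | cons W t c a v h _ ih =>
    intro y y0 h'
    generalize hz : t + a = z at h'
    cases h' with
    | nil =>
      have := hs.pos h
      omega
    | cons _ t' _ a' _ h2 h3 =>
      have h4 := hs.fn h h2
      subst h4
      have h5 : a = a' := by omega
      subst h5
      have h6 := ih h3
      refine Run.cons _ t _ a _ h ?_
      have e1 : lin (W.take t) (y + e c) + nu (W.take t) =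
          lin (W.take t) y + nu (W.take t) + e (act1 (W.take t) c) := by
        rw [hadd, he]
        abel
      change Run st (fun Q x => lin Q x + nu Q) (W.drop t)
        (lin (W.take t) (y + e c) + nu (W.take t)) a (y0 + e v)
      rw [e1]
      exact h6

/-- **READ-OFF**: the noise is irrelevant. -/
theorem readoff [Finite V2] (hs : IsStep n st)
    (hadd : ∀ Q x y, lin Q (x + y) = lin Q x + lin Q y)
    (he : ∀ Q x, lin Q (e x) = e (act1 Q x)) (hinj : Function.Injective e)
    (h : ∀ c v : V2, H j (Whole st (fun Q x => lin Q x + nu Q) ℓ c v)) (c v : V1) :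
    H j (Whole st act1 ℓ c v) := by
  have h1 : H j ({w | ∃ y0 : V2, w ∈ ({w | w ∈ Whole st (fun Q x => lin Q x + nu Q) ℓ 0 y0 ∧
      w ∈ Whole st (fun Q x => lin Q x + nu Q) ℓ (e c) (y0 + e v)} : Language α)} :
      Language α) := by
    refine H.exists_fintype (ι := V2) _ fun y0 => ?_
    exact H.inter (h _ _) (h _ _)
  refine H.congr h1 fun w => ?_
  constructor
  · rintro ⟨y0, ⟨hl, hr⟩, hr2⟩
    refine ⟨hl, ?_⟩
    obtain ⟨v', hv'⟩ := hr.reach.run act1 c
    have h2 := run_shift hs hadd he hv' hr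
    rw [zero_add] at h2
    have h3 := h2.det hs hr2.2
    have h4 : e v' = e v := add_left_cancel h3
    rw [← hinj h4]
    exact hv'
  · rintro ⟨hl, hr⟩
    obtain ⟨y0, hy0⟩ := hr.reach.run (fun Q x => lin Q x + nu Q) (0 : V2)
    refine ⟨y0, ⟨hl, hy0⟩, hl, ?_⟩
    have h2 := run_shift hs hadd he hr hy0
    rwa [zero_add] at h2

end readoff

end Crest.Agent.R320.Level_878
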