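import Crest.Agent.R320.Level4_878

/-! The top: from the last level to regular languages; three nested schemes. -/

set_option autoImplicit false

namespace Crest.Agent.R320.Level_878

open Crest.RegLang Crest.Agent.R320.Hgt1_903

variable {α : Type*}

theorem run_eval {σ : Type*} (M : DFA α σ) {n : ℕ} {st : List α → ℕ → Prop} (hs : IsStep n st)
    {W : List α} {c : σ} {a : ℕ} {v : σ} (h : Run st (fun Q q => M.evalFrom q Q) W c a v) :
    v = M.evalFrom c (W.take a) := by
  induction h with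
  | nil Q c => simp
  | cons Q t c a v h _ ih =>
    rw [ih, List.take_add, DFA.evalFrom_of_append]

theorem max_chain {n ℓ B : ℕ} {st : List α → ℕ → Prop} (hs : IsStep n st)
    (hB : ∀ Q t, st Q t → t ≤ B) {G : List α → Prop} (hG : ∀ P Q, G (P ++ Q) → G Q)
    (htot : ∀ Q, G Q → B + ℓ < Q.length → ∃ t, st Q t) :
    ∀ (m : ℕ) (Q : List α), Q.length ≤ m → G Q → ℓ ≤ Q.length →
      ∃ a, Reach st Q a ∧ a + ℓ ≤ Q.length ∧ Q.length ≤ a + B + ℓ := by
  intro m
  induction m with
  | zero =>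
    intro Q hm _ hl
    exact ⟨0, Reach.nil Q, by omega, by omega⟩
  | succ m ih =>
    intro Q hm hg hl
    by_cases h1 : B + ℓ < Q.length
    · obtain ⟨t, ht⟩ := htot Q hg h1
      have h2 := hB _ _ ht
      have h3 := hs.pos ht
      have h4 : (Q.drop t).length = Q.length - t := List.length_drop
      obtain ⟨a, ha, h5, h6⟩ := ih (Q.drop t) (by omega)
        (hG (Q.take t) _ (by rw [List.take_append_drop]; exact hg)) (by omega)
      exact ⟨t + a, Reach.cons Q t a ht ha, by omega, by omega⟩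
    · exact ⟨0, Reach.nil Q, by omega, by omega⟩

/-- **TOP**: `G` = a class of words closed under suffixes on which the chain never stops
(e.g. all words, or the words without long runs). -/
theorem top [Finite α] {σ : Type*} [Finite σ] (M : DFA α σ) {n ℓ B j : ℕ}
    {st : List α → ℕ → Prop} (hs : IsStep n st) (hn : n ≤ ℓ)
    (hB : ∀ Q t, st Q t → t ≤ B) {G : List α → Prop} (hG : ∀ P Q, G (P ++ Q) → G Q)
    (htot : ∀ Q, G Q → B + ℓ < Q.length → ∃ t, st Q t)
    (hW : ∀ c v : σ, H j (Whole st (fun Q q => M.evalFrom q Q) ℓ c v)) :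
    ∃ X : Language α, H j X ∧ (∀ w, G w → w ∈ M.accepts → w ∈ X) ∧
      (∀ w ∈ X, w ∈ M.accepts) := by
  refine ⟨{w | w ∈ ({w | w.length ≤ B + ℓ ∧ w ∈ M.accepts} : Language α) ∨
    w ∈ ({w | ∃ q : σ, w ∈ ({w | ∃ k ∈ Finset.range (B + ℓ + 1),
      w ∈ ({w | w ∈ ({w | (fun s : List α => s.length = k ∧ M.evalFrom q s ∈ M.accept ∧ ℓ ≤ k)
          (w.drop (w.length - k))} : Language α) ∧
        w ∈ ({w | ∃ w1 T2, w1 ++ T2 = w ∧
          w1 ∈ Whole st (fun Q q => M.evalFrom q Q) ℓ M.start q ∧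
          T2 ∈ ({T2 | T2.length = k - ℓ} : Language α)} : Language α)} : Language α)} :
        Language α)} : Language α)}, ?_, ?_, ?_⟩
  · refine H.union (H.bounded (α := α) j (B + ℓ) fun w hw => hw.1) ?_
    refine H.exists_fintype (ι := σ) _ fun q => ?_
    refine H.exists_finset _ _ fun k _ => ?_
    refine H.inter ?_ ?_
    · exact H.suffixWindow (α := α) j k
        (fun s : List α => s.length = k ∧ M.evalFrom q s ∈ M.accept ∧ ℓ ≤ k)
    · exact H.cat (hW _ _) (H.bounded (α := α) j (k - ℓ) fun w hw => le_of_eq hw)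
  · intro w hg hw
    by_cases h1 : w.length ≤ B + ℓ
    · exact Or.inl ⟨h1, hw⟩
    · right
      obtain ⟨a, ha, h2, h3⟩ := max_chain hs hB hG htot w.length w le_rfl hg (by omega)
      obtain ⟨q, hq⟩ := ha.run (fun Q q => M.evalFrom q Q) M.start
      have he := run_eval M hs hq
      refine ⟨q, w.length - a, Finset.mem_range.2 (by omega), ?_, w.take (a + ℓ),
        w.drop (a + ℓ), List.take_append_drop _ _, ⟨?_, ?_⟩, ?_⟩
      · have : w.length - (w.length - a) = a := by omega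
        change (fun s : List α => s.length = w.length - a ∧ M.evalFrom q s ∈ M.accept ∧
          ℓ ≤ w.length - a) _
        rw [this]
        refine ⟨List.length_drop, ?_, by omega⟩
        rw [he, ← DFA.evalFrom_of_append, List.take_append_drop]
        exact hw
      · rw [List.length_take]; omega
      · have : (w.take (a + ℓ)).length - ℓ = a := by rw [List.length_take]; omega
        rw [this]
        exact hq.cut hs _ (w.drop (a + ℓ)) (List.take_append_drop _ _)
          (by rw [List.length_take]; omega)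
      · change (w.drop (a + ℓ)).length = w.length - a - ℓ
        rw [List.length_drop]; omega
  · rintro w (⟨-, h⟩ | ⟨q, k, hk, hwin, w1, T2, rfl, ⟨hl, hr⟩, hT2⟩)
    · exact h
    · have hT2' : T2.length = k - ℓ := hT2
      have hwin' : (fun s : List α => s.length = k ∧ M.evalFrom q s ∈ M.accept ∧ ℓ ≤ k)
        ((w1 ++ T2).drop ((w1 ++ T2).length - k)) := hwin
      have he := run_eval M hs (hr.app hs T2)
      have hkl : ℓ ≤ k := hwin'.2.2
      have e0 : (w1 ++ T2).length - k = w1.length - ℓ := by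
        rw [List.length_append]; omega
      rw [e0] at hwin'
      obtain ⟨-, h2, -⟩ := hwin'
      rw [he, ← DFA.evalFrom_of_append, List.take_append_drop] at h2
      exact h2

/-- Noisy push-forward of a zone action. -/
noncomputable def Psh {V : Type*} (act : List α → V → V) (nu : List α → (V →₀ ZMod 2)) :
    List α → (V →₀ ZMod 2) → (V →₀ ZMod 2) :=
  fun Q x => Finsupp.mapDomain (act Q) x + nu Q

theorem readoff_psh {V : Type*} [Finite V] {n ℓ j : ℕ} {st : List α → ℕ → Prop}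
    (hs : IsStep n st) (act : List α → V → V) (nu : List α → (V →₀ ZMod 2))
    (h : ∀ c v, H j (Whole st (Psh act nu) ℓ c v)) (c v : V) : H j (Whole st act ℓ c v) := by
  haveI : Finite (V →₀ ZMod 2) :=
    Finite.of_injective (fun f : V →₀ ZMod 2 => (f : V → ZMod 2)) DFunLike.coe_injective
  exact readoff (V2 := V →₀ ZMod 2) (lin := fun Q x => Finsupp.mapDomain (act Q) x) (nu := nu)
    (e := fun x => Finsupp.single x 1) hs (fun Q x y => Finsupp.mapDomain_add)
    (fun Q x => Finsupp.mapDomain_single) (Finsupp.single_left_injective one_ne_zero) h c v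

/-- One scheme = one star: from the noisy action on the smaller class to the clean action on the
larger class. -/
theorem level_clean [Finite α] {V : Type*} [Finite V] {n n' ℓ B B' j : ℕ}
    {stZ' stZ st' : List α → ℕ → Prop}
    {act : List α → V → V} {nu : List α → (V →₀ ZMod 2)}
    {lam : List α → Option (V →₀ ZMod 2)} {rho : List α → Option (ℕ × (V →₀ ZMod 2))}
    (hn : n ≤ ℓ) (hn' : n' ≤ ℓ) (hℓ : 0 < ℓ) (hZ' : IsStep n stZ') (hZ : IsStep n stZ)
    (hs' : IsStep n' st') (hZZ : ∀ Q t, stZ' Q t → stZ Q t) (hss : ∀ Q t, stZ Q t → st' Q t)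
    (hB : ∀ Q t, st' Q t → t ≤ B)
    (S : Scheme ℓ B' stZ' stZ st' (Psh act nu) lam rho)
    (hW : ∀ c v, H j (Whole stZ' (Psh act nu) ℓ c v)) :
    ∀ c v : V, H (j + 1) (Whole stZ act ℓ c v) := by
  haveI : Finite (V →₀ ZMod 2) :=
    Finite.of_injective (fun f : V →₀ ZMod 2 => (f : V → ZMod 2)) DFunLike.coe_injective
  exact readoff_psh hZ act nu (level hn hn' hℓ hZ' hZ hs' hZZ hss hB S hW)

/-- **THREE NESTED SCHEMES GIVE HEIGHT 3.** Chain map `st3` (all zones); `st2`, `st1` = its zones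
which are incomplete for scheme 1, for schemes 1 and 2; no zone is incomplete for all three. Scheme
`i` is sound for its own chain map `stA`, `stB`, `stC` (which contains the steps it is used for). -/
theorem nested3 [Finite α] {σ : Type*} [Finite σ] (M : DFA α σ) {n ℓ B B' : ℕ}
    {st0 st1 st2 st3 stA stB stC : List α → ℕ → Prop} (hn : n ≤ ℓ) (hℓ : 0 < ℓ)
    (h0 : ∀ Q t, ¬ st0 Q t)
    (h1 : IsStep n st1) (h2 : IsStep n st2) (h3 : IsStep n st3)
    (hA : IsStep n stA) (hB : IsStep n stB) (hC : IsStep n stC)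
    (h12 : ∀ Q t, st1 Q t → st2 Q t) (h23 : ∀ Q t, st2 Q t → st3 Q t)
    (h3A : ∀ Q t, st3 Q t → stA Q t) (h2B : ∀ Q t, st2 Q t → stB Q t)
    (h1C : ∀ Q t, st1 Q t → stC Q t)
    (bA : ∀ Q t, stA Q t → t ≤ B) (bB : ∀ Q t, stB Q t → t ≤ B) (bC : ∀ Q t, stC Q t → t ≤ B)
    {nu1 : List α → (σ →₀ ZMod 2)} {nu2 : List α → ((σ →₀ ZMod 2) →₀ ZMod 2)}
    {nu3 : List α → (((σ →₀ ZMod 2) →₀ ZMod 2) →₀ ZMod 2)}
    {lam1 rho1 lam2 rho2 lam3 rho3}
    (S1 : Scheme ℓ B' st2 st3 stA (Psh (fun Q q => M.evalFrom q Q) nu1) lam1 rho1)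
    (S2 : Scheme ℓ B' st1 st2 stB (Psh (Psh (fun Q q => M.evalFrom q Q) nu1) nu2) lam2 rho2)
    (S3 : Scheme ℓ B' st0 st1 stC (Psh (Psh (Psh (fun Q q => M.evalFrom q Q) nu1) nu2) nu3)
      lam3 rho3)
    {G : List α → Prop} (hG : ∀ P Q, G (P ++ Q) → G Q)
    (htot : ∀ Q, G Q → B + ℓ < Q.length → ∃ t, st3 Q t) :
    ∃ X : Language α, H 3 X ∧ (∀ w, G w → w ∈ M.accepts → w ∈ X) ∧
      (∀ w ∈ X, w ∈ M.accepts) := by
  haveI f1 : Finite (σ →₀ ZMod 2) :=
    Finite.of_injective (fun f : σ →₀ ZMod 2 => (f : σ → ZMod 2)) DFunLike.coe_injective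
  haveI f2 : Finite ((σ →₀ ZMod 2) →₀ ZMod 2) :=
    Finite.of_injective (fun f : (σ →₀ ZMod 2) →₀ ZMod 2 => (f : _ → ZMod 2))
      DFunLike.coe_injective
  have i0 : IsStep n st0 :=
    ⟨fun h => (h0 _ _ h).elim, fun h => (h0 _ _ h).elim, fun _ h => (h0 _ _ h).elim,
      fun h _ => (h0 _ _ h).elim, fun h _ => (h0 _ _ h).elim⟩
  have l0 := fun c v => level_bot (α := α) h0
    (Psh (Psh (Psh (fun Q q => M.evalFrom q Q) nu1) nu2) nu3) ℓ c v
  have l1 := level_clean hn hn hℓ i0 h1 hC (fun Q t h => (h0 _ _ h).elim) h1C bC S3 l0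
  have l2 := level_clean hn hn hℓ h1 h2 hB h12 h2B bB S2 l1
  have l3 := level_clean hn hn hℓ h2 h3 hA h23 h3A bA S1 l2
  exact top M h3 hn (fun Q t h => bA _ _ (h3A _ _ h)) hG htot l3

end Crest.Agent.R320.Level_878
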