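import Crest.Agent.R320.LevelU_58

/-!
# Row 320: promise schemes via a dead state (helper58)

`SchemeD`: automaton with an absorbing state `dead` (= "the promise is broken"); soundness of a cut
is only required modulo `dead`.  First-failure trick inside `nestD`: the conclusion is exact on ALL
words.  `levelD`: outer scheme over an inner automaton with a dead state.
-/

set_option autoImplicit false

namespace Crest.Agent.R320.LevelD_58

open Crest.RegLang Crest.Agent.R320.Hk_851 Crest.Agent.R320.Thr_851 Crest.Agent.R320.LevelU_58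

universe u v

variable {α : Type u} {Q : Type v}

/-- a promise scheme: unbounded right contexts, soundness modulo the absorbing state `dead` -/
structure SchemeD (α : Type u) (Q : Type v) where
  δ : Q → α → Q
  dead : Q
  habs : ∀ a, δ dead a = dead
  PL : Set Q
  R : Q → Language α
  ne : ∀ p, ∀ r ∈ R p, r ≠ []
  sound : ∀ p, ∀ r ∈ R p, ∀ q ∈ PL, run δ q r = p ∨ run δ q r = dead

theorem run_dead {δ : Q → α → Q} {d : Q} (h : ∀ a, δ d a = d) (w : List α) : run δ d w = d := by
  induction w with
  | nil => rfl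
  | cons a w ih =>
    have : run δ d (a :: w) = run δ (δ d a) w := rfl
    rw [this, h a]; exact ih

theorem run_alive_left {δ : Q → α → Q} {d : Q} (h : ∀ a, δ d a = d) {q : Q} {x y : List α}
    (hw : run δ q (x ++ y) ≠ d) : run δ q x ≠ d := by
  intro e
  apply hw
  rw [run_append, e, run_dead h]

namespace SchemeD

variable (C : SchemeD α Q)

/-- the thread `q` may be cut in `w` at the place `i` -/
def CutAt (q : Q) (w : List α) (i : ℕ) : Prop :=
  ∃ x r y p, w = x ++ r ++ y ∧ x.length = i ∧ r ∈ C.R p ∧ run C.δ q x ∈ C.PL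

def Ok (q : Q) : Prop := q ∈ C.PL ∨ q = C.dead

/-- from one cut to another one -/
def K : Set (List α) := {m | ∃ p r y, m = r ++ y ∧ r ∈ C.R p ∧ C.Ok (run C.δ p y)}

theorem K_sound {q : Q} (hq : C.Ok q) {m : List α} (hm : m ∈ C.K) : C.Ok (run C.δ q m) := by
  rcases hq with hq | hq
  · obtain ⟨p, r, y, rfl, hr, hy⟩ := hm
    rw [run_append]
    rcases C.sound p r hr q hq with h | h
    · rw [h]; exact hy
    · rw [h, run_dead C.habs]; exact Or.inr rfl
  · subst hq
    rw [run_dead C.habs]; exact Or.inr rfl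

theorem kstar_sound {K' : Language α} (hK : ∀ m ∈ K', m ∈ C.K) {q : Q} (hq : C.Ok q)
    {m : List α} (hm : m ∈ KStar.kstar K') : C.Ok (run C.δ q m) := by
  obtain ⟨S, rfl, hS⟩ := Language.mem_kstar.1 hm
  induction S generalizing q with
  | nil => exact hq
  | cons x S ih =>
    rw [List.flatten_cons, run_append]
    exact ih (C.K_sound hq (hK x (hS x (by simp)))) (fun y hy => hS y (by simp [hy]))
      (Language.mem_kstar.2 ⟨S, rfl, fun y hy => hS y (by simp [hy])⟩)

theorem F_sound {K' A B : Language α} (hK : ∀ m ∈ K', m ∈ C.K) {q q' : Q}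
    (hA : ∀ x ∈ A, C.Ok (run C.δ q x))
    (hB : ∀ y ∈ B, ∃ p r z, y = r ++ z ∧ r ∈ C.R p ∧ run C.δ p z = q')
    {w : List α} (hw : w ∈ A * (KStar.kstar K') * B) :
    run C.δ q w = q' ∨ run C.δ q w = C.dead := by
  obtain ⟨xm, hxm, y, hy, rfl⟩ := Language.mem_mul.1 hw
  obtain ⟨x, hx, m, hm, rfl⟩ := Language.mem_mul.1 hxm
  obtain ⟨p, r, z, rfl, hr, hz⟩ := hB y hy
  have h1 := C.kstar_sound hK (hA x hx) hm
  rw [run_append, run_append, run_append]
  rcases h1 with h1 | h1
  · rcases C.sound p r hr _ h1 with h | h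
    · rw [h]; exact Or.inl hz
    · rw [h, run_dead C.habs]; exact Or.inr rfl
  · rw [h1, run_dead C.habs, run_dead C.habs]; exact Or.inr rfl

theorem CutAt.take {q : Q} {w : List α} {j i : ℕ} (h : C.CutAt q (w.take j) i) :
    C.CutAt q w i := by
  obtain ⟨x, r, y, p, e, h1, h2, h3⟩ := h
  refine ⟨x, r, y ++ w.drop j, p, ?_, h1, h2, h3⟩
  rw [← List.append_assoc, ← e, List.take_append_drop]

theorem CutAt.lt {q : Q} {w : List α} {i : ℕ} (h : C.CutAt q w i) : i < w.length := by
  obtain ⟨x, r, y, p, rfl, h1, h2, -⟩ := h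
  have := List.length_pos_iff.2 (C.ne p r h2)
  simp only [List.length_append]
  omega

/-- the words up to the first cut -/
def Ab (E : Q → Q → Language α) (q : Q) : Language α := {m | ∃ p ∈ C.PL, m ∈ E q p}

/-- the words from a cut to the first following cut -/
def Kb (E : Q → Q → Language α) : Language α :=
  {m | ∃ p, m ∈ C.R p * C.Ab E p}

/-- the words from the last cut to the end -/
def Bb (E : Q → Q → Language α) (q' : Q) : Language α :=
  {m | ∃ p, m ∈ C.R p * E p q'}

theorem complete_aux (E : Q → Q → Language α)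
    (hEc : ∀ q w, run C.δ q w ≠ C.dead → (∀ i, ¬ C.CutAt q w i) → w ∈ E q (run C.δ q w)) :
    ∀ (n : ℕ) (p : Q) (r y : List α), y.length ≤ n → r ∈ C.R p → run C.δ p y ≠ C.dead →
      r ++ y ∈ KStar.kstar (C.Kb E) * C.Bb E (run C.δ p y) := by
  intro n
  induction n with
  | zero =>
    intro p r y hy hr ht
    have hy0 : y = [] := List.length_eq_zero_iff.1 (Nat.le_zero.1 hy)
    subst hy0
    have h1 : ([] : List α) ∈ E p (run C.δ p []) :=
      hEc _ _ ht fun i hi => by have := SchemeD.CutAt.lt C hi; simp at this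
    exact Language.mem_mul.2 ⟨[], Language.nil_mem_kstar _, r ++ [],
      ⟨p, Language.mem_mul.2 ⟨r, hr, [], h1, rfl⟩⟩, rfl⟩
  | succ n ih =>
    intro p r y hy hr ht
    by_cases hc : ∃ i, C.CutAt p y i
    · classical
      obtain ⟨z, r', y', p', e, h1, h2, h3⟩ := Nat.find_spec hc
      have hmin : ∀ i, i < z.length → ¬ C.CutAt p y i := fun i hi =>
        Nat.find_min hc (by rw [← h1]; exact hi)
      have e1 : y = z ++ (r' ++ y') := by rw [e]; simp
      have hz0 : run C.δ p z ≠ C.dead := run_alive_left C.habs (y := r' ++ y') (by rw [← e1]; exact ht)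
      have hz1 : run C.δ p (z ++ r') ≠ C.dead := run_alive_left C.habs (y := y') (by rw [← e]; exact ht)
      have hz : z ∈ E p (run C.δ p z) := by
        refine hEc _ _ hz0 fun i hi => ?_
        have hl := SchemeD.CutAt.lt C hi
        have hz' : y.take z.length = z := by rw [e]; simp
        rw [← hz'] at hi
        exact hmin i (by omega) (SchemeD.CutAt.take C hi)
      have hK : r ++ z ∈ C.Kb E :=
        ⟨p, Language.mem_mul.2 ⟨r, hr, z, ⟨_, h3, hz⟩, rfl⟩⟩
      have hr0 := List.length_pos_iff.2 (C.ne p' r' h2)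
      have hs : run C.δ (run C.δ p z) r' = p' := by
        rcases C.sound p' r' h2 _ h3 with h | h
        · exact h
        · exact absurd (by rw [run_append]; exact h) hz1
      have hrun : run C.δ p y = run C.δ p' y' := by
        rw [e, run_append, run_append, hs]
      have hlen : y'.length ≤ n := by
        have : y.length = z.length + r'.length + y'.length := by rw [e]; simp [Nat.add_assoc]
        omega
      have ht' : run C.δ p' y' ≠ C.dead := by rw [← hrun]; exact ht
      have hI := ih p' r' y' hlen h2 ht'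
      rw [hrun]
      obtain ⟨m, hm, b, hb, hmb⟩ := Language.mem_mul.1 hI
      refine Language.mem_mul.2 ⟨(r ++ z) ++ m, ?_, b, hb, ?_⟩
      · obtain ⟨S, rfl, hS⟩ := Language.mem_kstar.1 hm
        refine Language.mem_kstar.2 ⟨(r ++ z) :: S, by simp, ?_⟩
        intro x hx
        rcases List.mem_cons.1 hx with rfl | hx
        · exact hK
        · exact hS x hx
      · have : r ++ y = (r ++ z) ++ (r' ++ y') := by rw [e]; simp
        rw [this, ← hmb]; simp
    · have h1 : y ∈ E p (run C.δ p y) :=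
        hEc _ _ ht fun i hi => hc ⟨i, hi⟩
      exact Language.mem_mul.2 ⟨[], Language.nil_mem_kstar _, r ++ y,
        ⟨p, Language.mem_mul.2 ⟨r, hr, y, h1, rfl⟩⟩, rfl⟩

/-- first failure: from languages which are sound modulo `dead` and complete on the live words to an
exact computation of ALL runs -/
theorem firstFailure [Finite α] [Finite Q] {k : ℕ} {δ : Q → α → Q} {d : Q}
    (habs : ∀ a, δ d a = d)
    (F : Q → Q → Language α) (hF : ∀ q q', HL k (F q q'))
    (hs : ∀ q q', ∀ w ∈ F q q', run δ q w = q' ∨ run δ q w = d)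
    (hc : ∀ q w, run δ q w ≠ d → w ∈ F q (run δ q w)) :
    Comp k δ (fun _ _ => True) := by
  -- the dead words
  have hdead : ∀ q, q ≠ d → ∀ w, run δ q w = d ↔
      ∃ s : Q × α, (s.1 ≠ d ∧ δ s.1 s.2 = d) ∧ w ∈ F q s.1 * ({[s.2]} : Language α) * (⊤ : Language α) := by
    intro q hq w
    constructor
    · intro hw
      -- induction from the right: find the first death
      induction w using List.reverseRecOn with
      | nil => exact absurd hw hq
      | append_singleton w a ih =>
        by_cases h : run δ q w = d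
        · obtain ⟨s, hs1, hs2⟩ := ih h
          refine ⟨s, hs1, ?_⟩
          obtain ⟨x, hx, y, -, rfl⟩ := Language.mem_mul.1 hs2
          exact Language.mem_mul.2 ⟨x, hx, y ++ [a], trivial, by simp⟩
        · refine ⟨(run δ q w, a), ⟨h, ?_⟩, ?_⟩
          · have : run δ q (w ++ [a]) = δ (run δ q w) a := by rw [run_append]; rfl
            rw [← this]; exact hw
          · exact Language.mem_mul.2 ⟨w ++ [a], Language.mem_mul.2 ⟨w, hc q w h, [a], rfl, rfl⟩,
              [], trivial, by simp⟩
    · rintro ⟨⟨s, a⟩, ⟨-, ha⟩, hw⟩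
      obtain ⟨xa, hxa, y, -, rfl⟩ := Language.mem_mul.1 hw
      obtain ⟨x, hx, b, hb, rfl⟩ := Language.mem_mul.1 hxa
      have hb' : b = [a] := hb
      subst hb'
      rw [run_append, run_append]
      rcases hs q s x hx with h | h
      · rw [h]
        have : run δ s [a] = d := ha
        rw [this, run_dead habs]
      · rw [h, run_dead habs, run_dead habs]
  have hDq : ∀ q, HL k ({w | run δ q w = d} : Language α) := by
    intro q
    by_cases hq : q = d
    · refine HL.top.congr fun w => ⟨fun _ => trivial, fun _ => ?_⟩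
      show run δ q w = d
      rw [hq]; exact run_dead habs w
    · refine (HL.biUnion (s := {s : Q × α | s.1 ≠ d ∧ δ s.1 s.2 = d}) (Set.toFinite _)
        (L := fun s => F q s.1 * ({[s.2]} : Language α) * (⊤ : Language α))
        (fun s _ => ((hF q s.1).mul (HL.char s.2)).mul HL.top)).congr fun w => ?_
      exact hdead q hq w
  refine ⟨fun q q' => {w | (q' = d ∧ run δ q w = d) ∨ (q' ≠ d ∧ (w ∈ F q q' ∧ ¬ run δ q w = d))},
    ?_, ?_, ?_⟩
  · intro q q'
    exact ((HL.const (q' = d)).setOf_and (hDq q)).setOf_or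
      ((HL.const (q' ≠ d)).setOf_and ((show HL k ({w | w ∈ F q q'} : Language α) from
        hF q q').setOf_and (hDq q).setOf_not))
  · intro q q' w hw
    rcases hw with ⟨h, hw⟩ | ⟨h, hw1, hw2⟩
    · rw [h]; exact hw
    · rcases hs q q' w hw1 with h1 | h1
      · exact h1
      · exact absurd h1 hw2
  · intro q w _
    by_cases h : run δ q w = d
    · exact Or.inl ⟨h, h⟩
    · exact Or.inr ⟨h, hc q w h, h⟩

/-- **Promise level theorem.**  Soundness of cuts modulo `dead`, completeness only on live words; the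
conclusion is exact on all words. -/
theorem nestD [Finite α] [Finite Q] {k : ℕ} (hRk : ∀ p, HL k (C.R p))
    (E : Q → Q → Language α) (hE : ∀ q q', HL k (E q q'))
    (hEs : ∀ q q', ∀ w ∈ E q q', run C.δ q w = q')
    (hEc : ∀ q w, run C.δ q w ≠ C.dead → (∀ i, ¬ C.CutAt q w i) → w ∈ E q (run C.δ q w)) :
    Comp (k + 1) C.δ (fun _ _ => True) := by
  have hA : ∀ q, HL k (C.Ab E q) := fun q =>
    HL.biUnion (Set.toFinite C.PL) fun p _ => hE q p
  have hK : HL k (C.Kb E) := HL.iUnion fun p => (hRk p).mul (hA _)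
  have hB : ∀ q', HL k (C.Bb E q') := fun q' => HL.iUnion fun p => (hRk p).mul (hE _ q')
  refine firstFailure C.habs
    (fun q q' => E q q' + C.Ab E q * KStar.kstar (C.Kb E) * C.Bb E q') ?_ ?_ ?_
  · intro q q'
    exact ((hE q q').mono (Nat.le_succ k)).add
      ((((hA q).mono (Nat.le_succ k)).mul hK.star).mul ((hB q').mono (Nat.le_succ k)))
  · rintro q q' w (hw | hw)
    · exact Or.inl (hEs q q' w hw)
    · refine C.F_sound (K' := C.Kb E) (A := C.Ab E q) (B := C.Bb E q') ?_ ?_ ?_ hw
      · rintro m ⟨p, hm⟩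
        obtain ⟨r, hr, z, ⟨p', hp', hz⟩, rfl⟩ := Language.mem_mul.1 hm
        exact ⟨p, r, z, rfl, hr, by rw [hEs _ _ z hz]; exact Or.inl hp'⟩
      · rintro x ⟨p, hp, hx⟩
        rw [hEs _ _ x hx]; exact Or.inl hp
      · rintro y ⟨p, hy⟩
        obtain ⟨r, hr, z, hz, rfl⟩ := Language.mem_mul.1 hy
        exact ⟨p, r, z, rfl, hr, hEs _ _ z hz⟩
  · intro q w hw
    by_cases hc : ∃ i, C.CutAt q w i
    · right
      classical
      obtain ⟨x, r, y, p, e, h1, h2, h3⟩ := Nat.find_spec hc
      have hmin : ∀ i, i < x.length → ¬ C.CutAt q w i := fun i hi =>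
        Nat.find_min hc (by rw [← h1]; exact hi)
      have hw' : w = x ++ (r ++ y) := by rw [e]; simp
      have hx0 : run C.δ q x ≠ C.dead :=
        run_alive_left C.habs (y := r ++ y) (by rw [← hw']; exact hw)
      have hx1 : run C.δ q (x ++ r) ≠ C.dead :=
        run_alive_left C.habs (y := y) (by rw [← e]; exact hw)
      have hx : x ∈ E q (run C.δ q x) := by
        refine hEc _ _ hx0 fun i hi => ?_
        have hl := SchemeD.CutAt.lt C hi
        have hx' : w.take x.length = x := by rw [e]; simp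
        rw [← hx'] at hi
        exact hmin i (by omega) (SchemeD.CutAt.take C hi)
      have hs : run C.δ (run C.δ q x) r = p := by
        rcases C.sound p r h2 _ h3 with h | h
        · exact h
        · exact absurd (by rw [run_append]; exact h) hx1
      have hrun : run C.δ q w = run C.δ p y := by
        rw [e, run_append, run_append, hs]
      have hI := C.complete_aux E hEc _ p r y le_rfl h2 (by rw [← hrun]; exact hw)
      rw [hrun]
      obtain ⟨m, hm, b, hb, hmb⟩ := Language.mem_mul.1 hI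
      refine Language.mem_mul.2 ⟨x ++ m, Language.mem_mul.2 ⟨x, ⟨_, h3, hx⟩, m, hm, rfl⟩, b, hb, ?_⟩
      rw [hw', ← hmb]; simp
    · left
      exact hEc _ _ hw fun i hi => hc ⟨i, hi⟩

end SchemeD

/-- **Transfer with a dead state**: the run of `δ₁` from `q` is a function of finitely many runs of
`δ₂` as long as these are alive. -/
theorem transferD [Finite Q] {k : ℕ} {δ₂ : Q → α → Q} {d : Q} {Gd : Q → List α → Prop}
    (h : Comp k δ₂ Gd) {ι : Type*} [Finite ι] {P : Type*} (δ₁ : P → α → P) (q : P)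
    (b : ι → Q) (G : (ι → Q) → P)
    (hG : ∀ w, (∀ i, run δ₂ (b i) w ≠ d) → run δ₁ q w = G (fun i => run δ₂ (b i) w)) :
    ∃ E : P → Language α, (∀ p, HL k (E p)) ∧ (∀ p, ∀ w ∈ E p, run δ₁ q w = p) ∧
      (∀ w, (∀ i, Gd (b i) w) → (∀ i, run δ₂ (b i) w ≠ d) → w ∈ E (run δ₁ q w)) := by
  obtain ⟨F, h1, h2, h3⟩ := h
  refine ⟨fun p => {w | ∃ f ∈ {f : ι → Q | G f = p ∧ ∀ i, f i ≠ d},
      w ∈ ({w | ∀ i, w ∈ F (b i) (f i)} : Language α)},
    fun p => HL.biUnion (Set.toFinite _) fun f _ => HL.iInter fun i => h1 (b i) (f i), ?_, ?_⟩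
  · rintro p w ⟨f, ⟨hf, hfd⟩, hw⟩
    have he : (fun i => run δ₂ (b i) w) = f := by
      funext i; exact h2 _ _ w (hw i)
    rw [hG w (fun i => by rw [h2 _ _ w (hw i)]; exact hfd i), he]
    exact hf
  · intro w hw hd
    exact ⟨fun i => run δ₂ (b i) w, ⟨(hG w hd).symm, hd⟩, fun i => h3 _ _ (hw i)⟩

/-- **Outer level over an inner automaton with a dead state** (`d`): the outer run is determined by
the inner ones while these are alive, and on the uncut words of the outer scheme they are alive. -/
theorem levelD [Finite Q] (C : SchemeU α Q) {k : ℕ} (hRk : ∀ p, HL k (C.R p))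
    (Gd : Q → List α → Prop)
    (hG : ∀ q x y, Gd q (x ++ y) → Gd q x ∧ Gd (run C.δ q x) y)
    {Q₂ : Type*} [Finite Q₂] {δ₂ : Q₂ → α → Q₂} (d : Q₂)
    (h₂ : Comp k δ₂ (fun _ _ => True)) {ι : Type*} [Finite ι] (b : Q → ι → Q₂)
    (G : Q → (ι → Q₂) → Q)
    (hrun : ∀ q w, (∀ i, run δ₂ (b q i) w ≠ d) → run C.δ q w = G q (fun i => run δ₂ (b q i) w))
    (hgd : ∀ q w, Gd q w → (∀ i, ¬ C.CutAt q w i) → ∀ i, run δ₂ (b q i) w ≠ d) :
    Comp (k + 1) C.δ Gd := by
  choose E h1 h2 h3 using fun q => transferD (d := d) h₂ C.δ q (b q) (G q) (hrun q)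
  exact C.nest hRk Gd hG (fun q p => E q p) (fun q p => h1 q p) (fun q p => h2 q p)
    (fun q w hw hc => h3 q w (fun _ => trivial) (hgd q w hw hc))

/-- the synchronising promise scheme: right contexts = nonempty words for which `F₁` shows that
every state of `PL` goes to `p` or to `dead` -/
def syncSchemeD (δ : Q → α → Q) (d : Q) (habs : ∀ a, δ d a = d) (PL : Set Q)
    (F₁ : Q → Q → Language α) (hs : ∀ q q', ∀ w ∈ F₁ q q', run δ q w = q') : SchemeD α Q where
  δ := δ
  dead := d
  habs := habs
  PL := PL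
  R := fun p => {r | r ≠ [] ∧ ∀ q ∈ PL, r ∈ F₁ q p ∨ r ∈ F₁ q d}
  ne := fun p r hr => hr.1
  sound := fun p r hr q hq => (hr.2 q hq).imp (hs q p r) (hs q d r)

/-- **`levelSyncD`: inner promise level, soundness automatic.**  `δ` has an absorbing state `d`; `δ`
is computed at height `k` on the class `G₁` (all start states); every live run without a
synchronising cut (place with state in `PL`, following nonempty factor `r` in `G₁` from every
`q ∈ PL` and sending every `q ∈ PL` to `p` or to `d`) is itself in `G₁`.  Then `δ` is computed at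
height `k + 1` on ALL words. -/
theorem levelSyncD [Finite α] [Finite Q] {k : ℕ} (δ : Q → α → Q) (d : Q)
    (habs : ∀ a, δ d a = d) (PL : Set Q) (G₁ : Q → List α → Prop) (hc₁ : Comp k δ G₁)
    (hgd : ∀ q w, run δ q w ≠ d →
      (∀ x r y, w = x ++ r ++ y → run δ q x ∈ PL → r ≠ [] → (∀ q' ∈ PL, G₁ q' r) →
        ¬ ∃ p, ∀ q' ∈ PL, run δ q' r = p ∨ run δ q' r = d) → G₁ q w) :
    Comp (k + 1) δ (fun _ _ => True) := by
  obtain ⟨F₁, h1, hs, hc⟩ := hc₁
  have hR : ∀ p, HL k ((syncSchemeD δ d habs PL F₁ hs).R p) := by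
    intro p
    have h0 : HL k ({r : List α | r ≠ []} : Language α) := HL.one.compl.congr fun w => Iff.rfl
    exact h0.setOf_and (HL.biInter (Set.toFinite PL) fun q _ => (h1 q p).setOf_or (h1 q d))
  refine (syncSchemeD δ d habs PL F₁ hs).nestD hR F₁ h1 hs ?_
  intro q w hw hnc
  refine hc q w (hgd q w hw fun x r y e hx hr hg ⟨p, hp⟩ => ?_)
  refine hnc x.length ⟨x, r, y, p, e, rfl, ⟨hr, fun q' hq' => ?_⟩, hx⟩
  have := hc q' r (hg q' hq')
  rcases hp q' hq' with h | h
  · left; rwa [h] at this
  · right; rwa [h] at this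

end Crest.Agent.R320.LevelD_58
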