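import Crest.Agent.R320.Thr2_851

/-!
# Row 320: level theorem with UNBOUNDED right words (helper58)

`SchemeU` = 851's `Scheme` without the length bound on the right contexts: `R p` = a language of
right contexts after which every cuttable thread is in the state `p`.
-/

set_option autoImplicit false

namespace Crest.Agent.R320.LevelU_58

open Crest.RegLang Crest.Agent.R320.Hk_851 Crest.Agent.R320.Thr_851

universe u v

variable {α : Type u} {Q : Type v}

/-- a cut scheme with unbounded right contexts -/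
structure SchemeU (α : Type u) (Q : Type v) where
  δ : Q → α → Q
  PL : Set Q
  R : Q → Language α
  ne : ∀ p, ∀ r ∈ R p, r ≠ []
  sound : ∀ p, ∀ r ∈ R p, ∀ q ∈ PL, run δ q r = p

namespace SchemeU

variable (C : SchemeU α Q)

/-- the thread `q` may be cut in `w` at the place `i` -/
def CutAt (q : Q) (w : List α) (i : ℕ) : Prop :=
  ∃ x r y p, w = x ++ r ++ y ∧ x.length = i ∧ r ∈ C.R p ∧ run C.δ q x ∈ C.PL

/-- from one cut to another one -/
def K : Set (List α) := {m | ∃ p r y, m = r ++ y ∧ r ∈ C.R p ∧ run C.δ p y ∈ C.PL}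

theorem K_sound {q : Q} (hq : q ∈ C.PL) {m : List α} (hm : m ∈ C.K) : run C.δ q m ∈ C.PL := by
  obtain ⟨p, r, y, rfl, hr, hy⟩ := hm
  rw [run_append, C.sound p r hr q hq]
  exact hy

theorem kstar_sound {K' : Language α} (hK : ∀ m ∈ K', m ∈ C.K) {q : Q} (hq : q ∈ C.PL)
    {m : List α} (hm : m ∈ KStar.kstar K') : run C.δ q m ∈ C.PL := by
  obtain ⟨S, rfl, hS⟩ := Language.mem_kstar.1 hm
  induction S generalizing q with
  | nil => exact hq
  | cons x S ih =>
    rw [List.flatten_cons, run_append]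
    exact ih (C.K_sound hq (hK x (hS x (by simp)))) (fun y hy => hS y (by simp [hy]))
      (Language.mem_kstar.2 ⟨S, rfl, fun y hy => hS y (by simp [hy])⟩)

theorem F_sound {K' A B : Language α} (hK : ∀ m ∈ K', m ∈ C.K) {q q' : Q}
    (hA : ∀ x ∈ A, run C.δ q x ∈ C.PL)
    (hB : ∀ y ∈ B, ∃ p r z, y = r ++ z ∧ r ∈ C.R p ∧ run C.δ p z = q')
    {w : List α} (hw : w ∈ A * (KStar.kstar K') * B) : run C.δ q w = q' := by
  obtain ⟨xm, hxm, y, hy, rfl⟩ := Language.mem_mul.1 hw
  obtain ⟨x, hx, m, hm, rfl⟩ := Language.mem_mul.1 hxm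
  obtain ⟨p, r, z, rfl, hr, hz⟩ := hB y hy
  rw [run_append, run_append, run_append,
    C.sound p r hr _ (C.kstar_sound hK (hA x hx) hm)]
  exact hz

theorem CutAt.take {q : Q} {w : List α} {j i : ℕ} (h : C.CutAt q (w.take j) i) :
    C.CutAt q w i := by
  obtain ⟨x, r, y, p, e, h1, h2, h3⟩ := h
  refine ⟨x, r, y ++ w.drop j, p, ?_, h1, h2, h3⟩
  rw [← List.append_assoc, ← e, List.take_append_drop]

theorem CutAt.lt {q : Q} {w : List α} {i : ℕ} (h : C.CutAt q w i) : i < w.length := by
  obtain ⟨x, r, y, p, rfl, h1, h2, -⟩ := h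
  have := List.length_pos_iff.2 (C.ne p r h2)
  simp only [List.length_append]
  omega

/-- the words up to the first cut -/
def Ab (E : Q → Q → Language α) (q : Q) : Language α := {m | ∃ p ∈ C.PL, m ∈ E q p}

/-- the words from a cut to the first following cut -/
def Kb (E : Q → Q → Language α) : Language α :=
  {m | ∃ p, m ∈ C.R p * C.Ab E p}

/-- the words from the last cut to the end -/
def Bb (E : Q → Q → Language α) (q' : Q) : Language α :=
  {m | ∃ p, m ∈ C.R p * E p q'}

/-- the maximal decomposition behind a cut -/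
theorem complete_aux (Gd : Q → List α → Prop)
    (hG : ∀ q x y, Gd q (x ++ y) → Gd q x ∧ Gd (run C.δ q x) y) (E : Q → Q → Language α)
    (hEc : ∀ q w, Gd q w → (∀ i, ¬ C.CutAt q w i) → w ∈ E q (run C.δ q w)) :
    ∀ (n : ℕ) (p : Q) (r y : List α), y.length ≤ n → r ∈ C.R p → Gd p y →
      r ++ y ∈ KStar.kstar (C.Kb E) * C.Bb E (run C.δ p y) := by
  intro n
  induction n with
  | zero =>
    intro p r y hy hr ht
    have hy0 : y = [] := List.length_eq_zero_iff.1 (Nat.le_zero.1 hy)
    subst hy0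
    have h1 : ([] : List α) ∈ E p (run C.δ p []) :=
      hEc _ _ ht fun i hi => by have := SchemeU.CutAt.lt C hi; simp at this
    exact Language.mem_mul.2 ⟨[], Language.nil_mem_kstar _, r ++ [],
      ⟨p, Language.mem_mul.2 ⟨r, hr, [], h1, rfl⟩⟩, rfl⟩
  | succ n ih =>
    intro p r y hy hr ht
    by_cases hc : ∃ i, C.CutAt p y i
    · classical
      obtain ⟨z, r', y', p', e, h1, h2, h3⟩ := Nat.find_spec hc
      have hmin : ∀ i, i < z.length → ¬ C.CutAt p y i := fun i hi =>
        Nat.find_min hc (by rw [← h1]; exact hi)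
      have e1 : y = z ++ (r' ++ y') := by rw [e]; simp
      have hz0 := hG _ z (r' ++ y') (by rw [← e1]; exact ht)
      have hz : z ∈ E p (run C.δ p z) := by
        refine hEc _ _ hz0.1 fun i hi => ?_
        have hl := SchemeU.CutAt.lt C hi
        have hz' : y.take z.length = z := by rw [e]; simp
        rw [← hz'] at hi
        exact hmin i (by omega) (SchemeU.CutAt.take C hi)
      have hK : r ++ z ∈ C.Kb E :=
        ⟨p, Language.mem_mul.2 ⟨r, hr, z, ⟨_, h3, hz⟩, rfl⟩⟩
      have hr0 := List.length_pos_iff.2 (C.ne p' r' h2)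
      have hrun : run C.δ p y = run C.δ p' y' := by
        rw [e, run_append, run_append, C.sound p' r' h2 _ h3]
      have hlen : y'.length ≤ n := by
        have : y.length = z.length + r'.length + y'.length := by rw [e]; simp [Nat.add_assoc]
        omega
      have ht' : Gd p' y' := by
        have := (hG _ r' y' hz0.2).2
        rwa [C.sound p' r' h2 _ h3] at this
      have hI := ih p' r' y' hlen h2 ht'
      rw [hrun]
      obtain ⟨m, hm, b, hb, hmb⟩ := Language.mem_mul.1 hI
      refine Language.mem_mul.2 ⟨(r ++ z) ++ m, ?_, b, hb, ?_⟩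
      · obtain ⟨S, rfl, hS⟩ := Language.mem_kstar.1 hm
        refine Language.mem_kstar.2 ⟨(r ++ z) :: S, by simp, ?_⟩
        intro x hx
        rcases List.mem_cons.1 hx with rfl | hx
        · exact hK
        · exact hS x hx
      · have : r ++ y = (r ++ z) ++ (r' ++ y') := by rw [e]; simp
        rw [this, ← hmb]; simp
    · have h1 : y ∈ E p (run C.δ p y) :=
        hEc _ _ ht fun i hi => hc ⟨i, hi⟩
      exact Language.mem_mul.2 ⟨[], Language.nil_mem_kstar _, r ++ y,
        ⟨p, Language.mem_mul.2 ⟨r, hr, y, h1, rfl⟩⟩, rfl⟩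

/-- **Level theorem, unbounded right words.** -/
theorem nest [Finite Q] {k : ℕ} (hRk : ∀ p, HL k (C.R p)) (Gd : Q → List α → Prop)
    (hG : ∀ q x y, Gd q (x ++ y) → Gd q x ∧ Gd (run C.δ q x) y)
    (E : Q → Q → Language α) (hE : ∀ q q', HL k (E q q'))
    (hEs : ∀ q q', ∀ w ∈ E q q', run C.δ q w = q')
    (hEc : ∀ q w, Gd q w → (∀ i, ¬ C.CutAt q w i) → w ∈ E q (run C.δ q w)) :
    Comp (k + 1) C.δ Gd := by
  have hA : ∀ q, HL k (C.Ab E q) := fun q =>
    HL.biUnion (Set.toFinite C.PL) fun p _ => hE q p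
  have hK : HL k (C.Kb E) := HL.iUnion fun p => (hRk p).mul (hA _)
  have hB : ∀ q', HL k (C.Bb E q') := fun q' => HL.iUnion fun p => (hRk p).mul (hE _ q')
  refine ⟨fun q q' => E q q' + C.Ab E q * KStar.kstar (C.Kb E) * C.Bb E q', ?_, ?_, ?_⟩
  · intro q q'
    exact ((hE q q').mono (Nat.le_succ k)).add
      ((((hA q).mono (Nat.le_succ k)).mul hK.star).mul ((hB q').mono (Nat.le_succ k)))
  · rintro q q' w (hw | hw)
    · exact hEs q q' w hw
    · refine C.F_sound (K' := C.Kb E) (A := C.Ab E q) (B := C.Bb E q') ?_ ?_ ?_ hw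
      · rintro m ⟨p, hm⟩
        obtain ⟨r, hr, z, ⟨p', hp', hz⟩, rfl⟩ := Language.mem_mul.1 hm
        exact ⟨p, r, z, rfl, hr, by rw [hEs _ _ z hz]; exact hp'⟩
      · rintro x ⟨p, hp, hx⟩
        rw [hEs _ _ x hx]; exact hp
      · rintro y ⟨p, hy⟩
        obtain ⟨r, hr, z, hz, rfl⟩ := Language.mem_mul.1 hy
        exact ⟨p, r, z, rfl, hr, hEs _ _ z hz⟩
  · intro q w hw
    by_cases hc : ∃ i, C.CutAt q w i
    · right
      classical
      obtain ⟨x, r, y, p, e, h1, h2, h3⟩ := Nat.find_spec hc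
      have hmin : ∀ i, i < x.length → ¬ C.CutAt q w i := fun i hi =>
        Nat.find_min hc (by rw [← h1]; exact hi)
      have hw' : w = x ++ (r ++ y) := by rw [e]; simp
      have hx0 := hG _ x (r ++ y) (by rw [← hw']; exact hw)
      have hx : x ∈ E q (run C.δ q x) := by
        refine hEc _ _ hx0.1 fun i hi => ?_
        have hl := SchemeU.CutAt.lt C hi
        have hx' : w.take x.length = x := by rw [e]; simp
        rw [← hx'] at hi
        exact hmin i (by omega) (SchemeU.CutAt.take C hi)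
      have hy0 : Gd p y := by
        have := (hG _ r y hx0.2).2
        rwa [C.sound p r h2 _ h3] at this
      have hI := C.complete_aux Gd hG E hEc _ p r y le_rfl h2 hy0
      have hrun : run C.δ q w = run C.δ p y := by
        rw [e, run_append, run_append, C.sound p r h2 _ h3]
      rw [hrun]
      obtain ⟨m, hm, b, hb, hmb⟩ := Language.mem_mul.1 hI
      refine Language.mem_mul.2 ⟨x ++ m, Language.mem_mul.2 ⟨x, ⟨_, h3, hx⟩, m, hm, rfl⟩, b, hb, ?_⟩
      rw [hw', ← hmb]; simp
    · left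
      exact hEc _ _ hw fun i hi => hc ⟨i, hi⟩

end SchemeU

/-- **Level theorem with unbounded right words and an inner automaton** (851's `level`). -/
theorem levelU [Finite Q] (C : SchemeU α Q) {k : ℕ} (hRk : ∀ p, HL k (C.R p))
    (Gd : Q → List α → Prop)
    (hG : ∀ q x y, Gd q (x ++ y) → Gd q x ∧ Gd (run C.δ q x) y)
    {Q₂ : Type*} [Finite Q₂] {δ₂ : Q₂ → α → Q₂} {Gd₂ : Q₂ → List α → Prop}
    (h₂ : Comp k δ₂ Gd₂) {ι : Type*} [Finite ι] (b : Q → ι → Q₂) (G : Q → (ι → Q₂) → Q)
    (hrun : ∀ q w, run C.δ q w = G q (fun i => run δ₂ (b q i) w))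
    (hgd : ∀ q w, Gd q w → (∀ i, ¬ C.CutAt q w i) → ∀ i, Gd₂ (b q i) w) :
    Comp (k + 1) C.δ Gd := by
  choose E h1 h2 h3 using fun q => transfer h₂ C.δ q (b q) (G q) (hrun q)
  exact C.nest hRk Gd hG (fun q p => E q p) (fun q p => h1 q p) (fun q p => h2 q p)
    (fun q w hw hc => h3 q w (hgd q w hw hc))

/-- **Promise-free synchronising scheme**: `F₁` computes `δ` soundly (on all words), `PL` any set of
states; the right contexts are all nonempty words `r` for which `F₁` shows that every `q ∈ PL` goes to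
the same state.  Soundness is automatic. -/
def syncScheme (δ : Q → α → Q) (PL : Set Q) (F₁ : Q → Q → Language α)
    (hs : ∀ q q', ∀ w ∈ F₁ q q', run δ q w = q') : SchemeU α Q where
  δ := δ
  PL := PL
  R := fun p => {r | r ≠ [] ∧ ∀ q ∈ PL, r ∈ F₁ q p}
  ne := fun p r hr => hr.1
  sound := fun p r hr q hq => hs q p r (hr.2 q hq)

theorem syncScheme_HL [Finite Q] {k : ℕ} (δ : Q → α → Q) (PL : Set Q) (F₁ : Q → Q → Language α)
    (hs : ∀ q q', ∀ w ∈ F₁ q q', run δ q w = q') (h1 : ∀ q q', HL k (F₁ q q')) (p : Q) :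
    HL k ((syncScheme δ PL F₁ hs).R p) := by
  have h0 : HL k ({r : List α | r ≠ []} : Language α) := HL.one.compl.congr fun w => Iff.rfl
  exact h0.setOf_and (HL.biInter (Set.toFinite PL) fun q _ => h1 q p)

/-- **`levelSync`**: `δ` is computed at height `k` on the class `G₁` (all start states, e.g. products
of a bounded number of short words and powers); `PL` any set of states; if every run of the class `Gd`
without a *synchronising cut* (a place with state in `PL` and a following nonempty factor `r` which is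
in `G₁` from every `q ∈ PL` and sends all of `PL` to one state) is a function of inner runs computed
at height `k`, then all runs of `Gd` are computed at height `k + 1`. -/
theorem levelSync [Finite Q] {k : ℕ} (δ : Q → α → Q) (PL : Set Q) (G₁ : Q → List α → Prop)
    (hc₁ : Comp k δ G₁) (Gd : Q → List α → Prop)
    (hG : ∀ q x y, Gd q (x ++ y) → Gd q x ∧ Gd (run δ q x) y)
    {Q₂ : Type*} [Finite Q₂] {δ₂ : Q₂ → α → Q₂} {Gd₂ : Q₂ → List α → Prop}
    (h₂ : Comp k δ₂ Gd₂) {ι : Type*} [Finite ι] (b : Q → ι → Q₂) (G : Q → (ι → Q₂) → Q)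
    (hrun : ∀ q w, run δ q w = G q (fun i => run δ₂ (b q i) w))
    (hgd : ∀ q w, Gd q w →
      (∀ x r y, w = x ++ r ++ y → run δ q x ∈ PL → r ≠ [] → (∀ q' ∈ PL, G₁ q' r) →
        ¬ ∃ p, ∀ q' ∈ PL, run δ q' r = p) → ∀ i, Gd₂ (b q i) w) :
    Comp (k + 1) δ Gd := by
  obtain ⟨F₁, h1, hs, hc⟩ := hc₁
  refine levelU (syncScheme δ PL F₁ hs) (syncScheme_HL δ PL F₁ hs h1) Gd hG h₂ b G hrun ?_
  intro q w hw hnc
  refine hgd q w hw fun x r y e hx hr hg ⟨p, hp⟩ => ?_
  exact hnc x.length ⟨x, r, y, p, e, rfl, ⟨hr, fun q' hq' => by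
    have := hc q' r (hg q' hq')
    rwa [hp q' hq'] at this⟩, hx⟩

end Crest.Agent.R320.LevelU_58
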