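import Crest.Agent.R320.Hk1_851

/-!
# Row 320: the abstract level step (cut automata, unbounded right words)

`run δ p w` is the state of a finite automaton. `F c` is the language of right words which make a
cut at state `c` usable. `Live F p w`: the run of `p` on `w` has no usable cut.
A level `(C, R)`: cut states `C`, right languages `R q`, and soundness on live words: a cut state
which reads `Q ∈ R q` is in state `q` afterwards. Then one star suffices for the level.
-/

set_option autoImplicit false

namespace Crest.Agent.R320.Level28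

open Crest.Agent.R320.Hk_851

universe u v

variable {α : Type u} {Ω : Type v}

def run (δ : Ω → α → Ω) (p : Ω) (w : List α) : Ω := w.foldl δ p

theorem run_append (δ : Ω → α → Ω) (p : Ω) (u w : List α) :
    run δ p (u ++ w) = run δ (run δ p u) w := by simp [run]

theorem run_nil (δ : Ω → α → Ω) (p : Ω) : run δ p [] = p := rfl

/-- No usable cut in the run of `p` on `w`. -/
def Live (δ : Ω → α → Ω) (F : Ω → Language α) (p : Ω) (w : List α) : Prop :=
  ∀ P Q s : List α, w = P ++ Q ++ s → Q ∉ F (run δ p P)

theorem Live.factor {δ : Ω → α → Ω} {F : Ω → Language α} {p : Ω} {u w s : List α}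
    (h : Live δ F p (u ++ w ++ s)) : Live δ F (run δ p u) w := by
  intro P Q t hw hQ
  rw [← run_append] at hQ
  exact h (u ++ P) Q (t ++ s) (by rw [hw]; simp [List.append_assoc]) hQ

theorem Live.left {δ : Ω → α → Ω} {F : Ω → Language α} {p : Ω} {w s : List α}
    (h : Live δ F p (w ++ s)) : Live δ F p w := by
  have h' : Live δ F p ([] ++ w ++ s) := by simpa using h
  have := Live.factor h'
  simpa [run_nil] using this

theorem Live.right {δ : Ω → α → Ω} {F : Ω → Language α} {p : Ω} {u w : List α}
    (h : Live δ F p (u ++ w)) : Live δ F (run δ p u) w := by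
  have h' : Live δ F p (u ++ w ++ []) := by simpa using h
  exact Live.factor h'

/-- The usable words of the next inner level. -/
def Nxt (F : Ω → Language α) (C : Ω → Prop) (R : Ω → Language α) : Ω → Language α :=
  fun c => {Q | Q ∈ F c ∨ (C c ∧ ∃ q, Q ∈ R q)}

/-- Soundness of a level on live words. -/
def Sound (δ : Ω → α → Ω) (F : Ω → Language α) (C : Ω → Prop) (R : Ω → Language α) : Prop :=
  ∀ p q (Q : List α), C p → Q ∈ R q → Live δ F p Q → run δ p Q = q

section
variable (δ : Ω → α → Ω) (F : Ω → Language α) (C : Ω → Prop) (R : Ω → Language α)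

def A (p p' : Ω) : Language α := {w | Live δ (Nxt F C R) p w ∧ run δ p w = p'}

def Kl : Language α := {w | ∃ q c, C c ∧ w ∈ R q * A δ F C R q c}

def El (p' : Ω) : Language α := {w | ∃ q, w ∈ R q * A δ F C R q p'}

def Wl (p p' : Ω) : Language α :=
  {w | w ∈ A δ F C R p p' ∨ ∃ c, C c ∧ w ∈ A δ F C R p c * KStar.kstar (Kl δ F C R) *
    El δ F C R p'}

variable {δ F C R}

theorem forward (hR : ∀ q, ([] : List α) ∉ R q) (hs : Sound δ F C R) :
    ∀ (n : ℕ) (w : List α), w.length ≤ n → ∀ p, Live δ F p w → w ∈ Wl δ F C R p (run δ p w) := by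
  intro n
  induction n with
  | zero =>
    intro w hw p hl
    have hw0 : w = [] := List.length_eq_zero_iff.1 (by omega)
    subst hw0
    left
    refine ⟨?_, rfl⟩
    intro P Q s h hQ
    have h1 : P = [] ∧ Q = [] ∧ s = [] := by
      have := h.symm
      simp at this
      exact ⟨this.1, this.2.1, this.2.2⟩
    obtain ⟨rfl, rfl, rfl⟩ := h1
    rcases hQ with hQ | ⟨_, q, hq⟩
    · exact hl [] [] [] rfl hQ
    · exact hR q hq
  | succ n ih =>
    intro w hw p hl
    by_cases hG : Live δ (Nxt F C R) p w
    · left; exact ⟨hG, rfl⟩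
    · -- choose the first usable cut
      have hex : ∃ m, ∃ P Q s : List α, P.length = m ∧ w = P ++ Q ++ s ∧ C (run δ p P) ∧
          ∃ q, Q ∈ R q := by
        unfold Live at hG
        push Not at hG
        obtain ⟨P, Q, s, h, hQ⟩ := hG
        rcases hQ with hQ | ⟨hC, q, hq⟩
        · exact absurd hQ (hl P Q s h)
        · exact ⟨_, P, Q, s, rfl, h, hC, q, hq⟩
      classical
      obtain ⟨P, Q, s, hm, hwe, hC, q, hq⟩ := Nat.find_spec hex
      have hmin := fun m (h : m < Nat.find hex) => Nat.find_min hex h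
      have hQne : Q ≠ [] := by rintro rfl; exact hR q hq
      have hQl : 0 < Q.length := List.length_pos_iff.2 hQne
      have hPA : P ∈ A δ F C R p (run δ p P) := by
        refine ⟨?_, rfl⟩
        intro P1 Q1 s1 h1 hQ1
        rcases hQ1 with hQ1 | ⟨hC1, q1, hq1⟩
        · exact hl P1 Q1 (s1 ++ Q ++ s) (by rw [hwe, h1]; simp [List.append_assoc]) hQ1
        · have hQ1l : 0 < Q1.length := List.length_pos_iff.2 (by rintro rfl; exact hR q1 hq1)
          refine hmin P1.length ?_ ⟨P1, Q1, s1 ++ Q ++ s, rfl, by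
            rw [hwe, h1]; simp [List.append_assoc], hC1, q1, hq1⟩
          have := congrArg List.length h1
          simp only [List.length_append] at this
          omega
      have hstate : run δ (run δ p P) Q = q := hs _ _ _ hC hq (by
        rw [hwe] at hl; exact Live.factor hl)
      have hls : Live δ F q s := by
        rw [hwe] at hl
        have := Live.right hl
        rwa [run_append, hstate] at this
      have hrun : run δ p w = run δ q s := by
        rw [hwe, run_append, run_append, hstate]
      have hsl : s.length ≤ n := by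
        have := congrArg List.length hwe
        simp only [List.length_append] at this
        omega
      rw [hrun]
      right
      refine ⟨run δ p P, hC, ?_⟩
      rcases ih s hsl q hls with h | ⟨c, hc, h⟩
      · rw [hwe, List.append_assoc, Language.mem_mul]
        refine ⟨P, ?_, Q ++ s, ?_, rfl⟩
        · rw [Language.mem_mul]
          exact ⟨P, hPA, [], by
            rw [Language.mem_kstar]
            exact ⟨[], rfl, by simp⟩, by simp⟩
        · exact ⟨q, Language.mem_mul.2 ⟨Q, hq, s, h, rfl⟩⟩
      · rw [Language.mem_mul] at h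
        obtain ⟨x, hx, y, hy, hxy⟩ := h
        rw [Language.mem_mul] at hx
        obtain ⟨x1, hx1, x2, hx2, hx12⟩ := hx
        rw [Language.mem_kstar] at hx2
        obtain ⟨S, hS, hS'⟩ := hx2
        rw [Language.mem_mul]
        refine ⟨P ++ ((Q ++ x1) ++ x2), ?_, y, hy, ?_⟩
        · rw [Language.mem_mul]
          refine ⟨P, hPA, (Q ++ x1) ++ x2, ?_, rfl⟩
          rw [Language.mem_kstar]
          refine ⟨(Q ++ x1) :: S, by rw [hS]; rfl, ?_⟩
          intro z hz
          rcases List.mem_cons.1 hz with rfl | hz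
          · exact ⟨q, c, hc, Language.mem_mul.2 ⟨Q, hq, x1, hx1, rfl⟩⟩
          · exact hS' z hz
        · rw [hwe, ← hxy, ← hx12]
          simp [List.append_assoc]

theorem backward_star (hs : Sound δ F C R) (p' : Ω) (e : List α) (he : e ∈ El δ F C R p') :
    ∀ (S : List (List α)), (∀ y ∈ S, y ∈ Kl δ F C R) → ∀ c, C c →
      Live δ F c (S.flatten ++ e) → run δ c (S.flatten ++ e) = p' := by
  intro S
  induction S with
  | nil =>
    intro _ c hc hl
    obtain ⟨q, hq⟩ := he
    obtain ⟨Q, hQ, a, ha, rfl⟩ := Language.mem_mul.1 hq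
    simp only [List.flatten_nil, List.nil_append] at hl ⊢
    rw [run_append, hs c q Q hc hQ (Live.left hl)]
    exact ha.2
  | cons k S ih =>
    intro hS c hc hl
    obtain ⟨q, c', hc', hk⟩ := hS k List.mem_cons_self
    obtain ⟨Q, hQ, a, ha, hQa⟩ := Language.mem_mul.1 hk
    have e1 : (k :: S).flatten ++ e = (Q ++ a) ++ (S.flatten ++ e) := by
      rw [← hQa]; simp [List.append_assoc]
    rw [e1] at hl ⊢
    have h1 : run δ c (Q ++ a) = c' := by
      rw [run_append, hs c q Q hc hQ (Live.left (Live.left hl))]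
      exact ha.2
    rw [run_append, h1]
    apply ih (fun y hy => hS y (List.mem_cons_of_mem _ hy)) c' hc'
    have := Live.right hl
    rwa [h1] at this

theorem backward (hs : Sound δ F C R) (p p' : Ω) (w : List α) (hl : Live δ F p w)
    (hw : w ∈ Wl δ F C R p p') : run δ p w = p' := by
  rcases hw with h | ⟨c, hc, h⟩
  · exact h.2
  · obtain ⟨x, hx, e, he, rfl⟩ := Language.mem_mul.1 h
    obtain ⟨a, ha, k, hk, rfl⟩ := Language.mem_mul.1 hx
    rw [Language.mem_kstar] at hk
    obtain ⟨S, rfl, hS⟩ := hk
    rw [List.append_assoc] at hl ⊢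
    rw [run_append, ha.2]
    apply backward_star hs p' e he S hS c hc
    have := Live.right hl
    rwa [ha.2] at this

end

theorem HL_ex {ι : Type*} [Finite ι] {k : ℕ} {p : ι → List α → Prop}
    (h : ∀ i, HL k ({w | p i w} : Language α)) : HL k ({w | ∃ i, p i w} : Language α) := by
  exact (HL.iUnion (L := fun i => ({w | p i w} : Language α)) h).congr fun w => Iff.rfl

/-- **Level step.** -/
theorem level_step [Finite Ω] {δ : Ω → α → Ω} {F : Ω → Language α} {C : Ω → Prop}
    {R : Ω → Language α} {n : ℕ}
    (hFne : ∀ c, ([] : List α) ∉ F c) (hRne : ∀ q, ([] : List α) ∉ R q)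
    (hF : ∀ c, HL (n + 1) (F c)) (hR : ∀ q, HL n (R q))
    (hs : Sound δ F C R)
    (hA : ∀ p p', HL n {w | Live δ (Nxt F C R) p w ∧ run δ p w = p'}) :
    ∀ p p', HL (n + 1) {w | Live δ F p w ∧ run δ p w = p'} := by
  have hK : HL n (Kl δ F C R) := by
    apply HL_ex; intro q
    apply HL_ex; intro c
    apply HL.setOf_and (HL.const _)
    exact (hR q).mul (hA q c)
  have hE : ∀ p', HL n (El δ F C R p') := by
    intro p'
    apply HL_ex; intro q
    exact (hR q).mul (hA q p')
  have hW : ∀ p p', HL (n + 1) (Wl δ F C R p p') := by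
    intro p p'
    have h1 : HL (n + 1) (A δ F C R p p') := HL.mono (Nat.le_succ n) (hA p p')
    apply HL.setOf_or h1
    apply HL_ex; intro c
    apply HL.setOf_and (HL.const _)
    exact ((HL.mono (Nat.le_succ n) (hA p c)).mul hK.star).mul (HL.mono (Nat.le_succ n) (hE p'))
  have hL : ∀ p, HL (n + 1) ({w | Live δ F p w} : Language α) := by
    intro p
    have h1 : HL (n + 1) ({w | ∃ c : Ω, w ∈ Wl δ F C R p c * F c * (⊤ : Language α)} :
        Language α) := by
      apply HL_ex; intro c
      exact ((hW p c).mul (hF c)).mul HL.top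
    apply h1.compl.congr
    intro w
    change Live δ F p w ↔ ¬ (∃ c : Ω, w ∈ Wl δ F C R p c * F c * (⊤ : Language α))
    rw [not_exists]
    constructor
    · intro hl c hc
      obtain ⟨x, hx, s, _, rfl⟩ := Language.mem_mul.1 hc
      obtain ⟨P, hP, Q, hQ, rfl⟩ := Language.mem_mul.1 hx
      have hlP : Live δ F p P := Live.left (Live.left hl)
      have := backward hs p c P hlP hP
      exact hl P Q s rfl (by rw [this]; exact hQ)
    · intro h
      by_contra hnl
      have hex : ∃ m, ∃ P Q s : List α, (P ++ Q).length = m ∧ w = P ++ Q ++ s ∧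
          Q ∈ F (run δ p P) := by
        unfold Live at hnl
        push Not at hnl
        obtain ⟨P, Q, s, h1, h2⟩ := hnl
        exact ⟨_, P, Q, s, rfl, h1, h2⟩
      classical
      obtain ⟨P, Q, s, hm, hwe, hQ⟩ := Nat.find_spec hex
      have hmin := fun m (h : m < Nat.find hex) => Nat.find_min hex h
      have hQl : 0 < Q.length := List.length_pos_iff.2 (by rintro rfl; exact hFne _ hQ)
      have hlP : Live δ F p P := by
        intro P1 Q1 s1 h1 hQ1
        refine hmin (P1 ++ Q1).length ?_ ⟨P1, Q1, s1 ++ Q ++ s, rfl, by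
          rw [hwe, h1]; simp [List.append_assoc], hQ1⟩
        have h2 := congrArg List.length h1
        simp only [List.length_append] at h2 hm ⊢
        omega
      apply h (run δ p P)
      refine Language.mem_mul.2 ⟨P ++ Q, Language.mem_mul.2 ⟨P, ?_, Q, hQ, rfl⟩, s, trivial, hwe.symm⟩
      exact forward hRne hs P.length P le_rfl p hlP
  intro p p'
  apply ((hW p p').inf (hL p)).congr
  intro w
  constructor
  · rintro ⟨hl, hr⟩
    refine ⟨?_, hl⟩
    have := forward hRne hs w.length w le_rfl p hl
    rwa [hr] at this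
  · rintro ⟨hw, hl⟩
    exact ⟨hl, backward hs p p' w hl hw⟩

/-- **Two levels over an `H 1` bottom.** -/
theorem two_levels [Finite Ω] {δ : Ω → α → Ω} {C₀ C₁ : Ω → Prop} {R₀ R₁ : Ω → Language α}
    (h0ne : ∀ q, ([] : List α) ∉ R₀ q) (h1ne : ∀ q, ([] : List α) ∉ R₁ q)
    (hR₀ : ∀ q, HL 1 (R₀ q)) (hR₁ : ∀ q, HL 1 (R₁ q))
    (hs₀ : ∀ p q (Q : List α), C₀ p → Q ∈ R₀ q → run δ p Q = q)
    (hs₁ : ∀ p q (Q : List α), C₁ p → Q ∈ R₁ q →
      (∀ P Q' s : List α, Q = P ++ Q' ++ s → C₀ (run δ p P) → ∀ q', Q' ∉ R₀ q') →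
      run δ p Q = q)
    (hbot : ∀ p p', HL 1 {w | (∀ P Q s : List α, w = P ++ Q ++ s →
      ¬ ((C₀ (run δ p P) ∧ ∃ q, Q ∈ R₀ q) ∨ (C₁ (run δ p P) ∧ ∃ q, Q ∈ R₁ q))) ∧
      run δ p w = p'}) :
    ∀ p p', HL 3 {w | run δ p w = p'} := by
  let F0 : Ω → Language α := fun _ => 0
  let F1 : Ω → Language α := Nxt F0 C₀ R₀
  have hF1 : ∀ c Q, Q ∈ F1 c ↔ (C₀ c ∧ ∃ q, Q ∈ R₀ q) := by
    intro c Q
    constructor
    · rintro (h | h)
      · exact absurd h (Language.notMem_zero _)
      · exact h
    · intro h; exact Or.inr h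
  have hUR : HL 1 ({w | ∃ q : Ω, w ∈ R₀ q} : Language α) := HL_ex hR₀
  have hlev1 : ∀ p p', HL 2 {w | Live δ F1 p w ∧ run δ p w = p'} := by
    apply level_step (F := F1) (C := C₁) (R := R₁) (n := 1)
    · intro c h
      obtain ⟨_, q, hq⟩ := (hF1 c _).1 h
      exact h0ne q hq
    · exact h1ne
    · intro c
      have h2 : HL 2 ({w | C₀ c ∧ ∃ q, w ∈ R₀ q} : Language α) :=
        HL.setOf_and (HL.const _) (HL.mono (by norm_num) hUR)
      apply h2.congr
      intro w
      exact hF1 c w
    · exact hR₁
    · intro p q Q hC hQ hl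
      apply hs₁ p q Q hC hQ
      intro P Q' s h hC0 q' hq'
      exact hl P Q' s h ((hF1 _ _).2 ⟨hC0, q', hq'⟩)
    · intro p p'
      apply (hbot p p').congr
      intro w
      constructor
      · rintro ⟨h1, h2⟩
        refine ⟨?_, h2⟩
        intro P Q s h hor
        apply h1 P Q s h
        rcases hor with h3 | h3
        · exact Or.inl ((hF1 _ _).2 h3)
        · exact Or.inr h3
      · rintro ⟨h1, h2⟩
        refine ⟨?_, h2⟩
        intro P Q s h hor
        apply h1 P Q s h
        rcases hor with h3 | h3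
        · exact Or.inl ((hF1 _ _).1 h3)
        · exact Or.inr h3
  have hlev0 : ∀ p p', HL 3 {w | Live δ F0 p w ∧ run δ p w = p'} := by
    apply level_step (F := F0) (C := C₀) (R := R₀) (n := 2)
    · intro c h; exact absurd h (Language.notMem_zero _)
    · exact h0ne
    · intro c; exact HL.zero
    · intro q; exact HL.mono (by norm_num) (hR₀ q)
    · intro p q Q hC hQ _
      exact hs₀ p q Q hC hQ
    · exact hlev1
  intro p p'
  apply (hlev0 p p').congr
  intro w
  constructor
  · intro h
    exact ⟨fun P Q s _ h' => absurd h' (Language.notMem_zero _), h⟩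
  · intro h; exact h.2

end Crest.Agent.R320.Level28
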