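import Crest.Agent.R320.Hk2_851

/-!
# Row 320, the level (step) theorem in relative form (helper297)

* `Rule α V`  : right-looking chain rule with look-ahead `n`; `nx Q = some (l, f)` says that the
  zone which starts at the beginning of `Q` has `l` letters and acts on the threads by `f`.
* `Run r y F Q` : the chain from the beginning of `y ++ Q` reaches `Q`, composed map `F`.
* `Lg r F`    : words whose chain reaches the place `n` letters before the end, with map `F`.
* `Scheme r r' k` : a scheme of junctions, exact on the texts of `r` (up to a visible failure),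
  complete outside the zones of the sub-rule `r'`, with descriptions of height `k`.
* `Scheme.step` : `Lg r' F` of height `k` for all `F` gives `Lg r F` of height `k + 1`.
-/

set_option autoImplicit false

namespace Crest.Agent.R320.Level_297

open Crest.RegLang Crest.Agent.R320.Hk_851 Computability

universe u

variable {α : Type u} {V : Type}

/-- right-looking chain rule with look-ahead -/
structure Rule (α : Type u) (V : Type) (n : ℕ) where
  nx : List α → Option (ℕ × (V → V))
  pos : ∀ Q l f, nx Q = some (l, f) → 0 < l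
  vis : ∀ Q l f, nx Q = some (l, f) → l + n ≤ Q.length
  ext : ∀ Q s l f, nx Q = some (l, f) → nx (Q ++ s) = some (l, f)
  cut : ∀ Q s l f, nx (Q ++ s) = some (l, f) → l + n ≤ Q.length → nx Q = some (l, f)

variable {n : ℕ}

/-- the chain from the beginning of `y ++ Q` reaches `Q` with composed map `F` -/
inductive Run (r : Rule α V n) : List α → (V → V) → List α → Prop
  | nil (Q : List α) : Run r [] id Q
  | cons {u y Q : List α} {f F : V → V} :
      r.nx (u ++ (y ++ Q)) = some (u.length, f) → Run r y F Q → Run r (u ++ y) (F ∘ f) Q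

theorem Run.ext {r : Rule α V n} {y Q : List α} {F : V → V} (h : Run r y F Q) (s : List α) :
    Run r y F (Q ++ s) := by
  induction h with
  | nil Q => exact Run.nil _
  | @cons u y Q f F h1 _ ih =>
    refine Run.cons ?_ ih
    have := r.ext _ s _ _ h1
    simpa [List.append_assoc] using this

theorem Run.trunc {r : Rule α V n} {y Q : List α} {F : V → V} (h : Run r y F Q) :
    ∀ {z s : List α}, Q = z ++ s → n ≤ z.length → Run r y F z := by
  induction h with
  | nil Q => intro z s _ _; exact Run.nil _
  | @cons u y Q f F h1 _ ih =>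
    intro z s hz hn
    refine Run.cons ?_ (ih hz hn)
    refine r.cut _ s _ _ ?_ ?_
    · rw [hz] at h1
      simpa [List.append_assoc] using h1
    · simp only [List.length_append]
      omega

theorem Run.append {r : Rule α V n} {y1 : List α} {F1 : V → V} {R : List α}
    (h : Run r y1 F1 R) : ∀ {y2 Q : List α} {F2 : V → V}, R = y2 ++ Q → Run r y2 F2 Q →
      Run r (y1 ++ y2) (F2 ∘ F1) Q := by
  induction h with
  | nil R => intro y2 Q F2 _ h2; simpa using h2
  | @cons u y R f F h1 _ ih =>
    intro y2 Q F2 hR h2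
    have := Run.cons (r := r) (u := u) (y := y ++ y2) (Q := Q) (f := f) (F := F2 ∘ F) ?_
      (ih hR h2)
    · simpa [List.append_assoc, Function.comp_assoc] using this
    · rw [hR] at h1
      simpa [List.append_assoc] using h1

theorem Run.single {r : Rule α V n} {u Q : List α} {f : V → V}
    (h : r.nx (u ++ Q) = some (u.length, f)) : Run r u f Q := by
  have := Run.cons (r := r) (u := u) (y := []) (Q := Q) (f := f) (F := id) (by simpa using h)
    (Run.nil Q)
  simpa using this

/-- determinism of the map -/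
theorem Run.det {r : Rule α V n} {y Q : List α} {F : V → V} (h : Run r y F Q) :
    ∀ {F' : V → V}, Run r y F' Q → F' = F := by
  induction h with
  | nil Q =>
    intro F' h'
    generalize hy : ([] : List α) = y at h'
    cases h' with
    | nil => rfl
    | @cons u y Q f F h1 _ =>
      have hu : u = [] := (List.append_eq_nil_iff.1 hy.symm).1
      have := r.pos _ _ _ h1
      rw [hu] at this
      simp at this
  | @cons u y Q f F h1 h2 ih =>
    intro F' h'
    generalize hy : u ++ y = y1 at h'
    cases h' with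
    | nil =>
      have hu : u = [] := (List.append_eq_nil_iff.1 hy).1
      have := r.pos _ _ _ h1
      rw [hu] at this
      simp at this
    | @cons u' y' Q' f' F' h1' h2' =>
      have e : r.nx (u ++ (y ++ Q)) = r.nx (u' ++ (y' ++ Q)) := by
        rw [← List.append_assoc, hy, List.append_assoc]
      rw [h1, h1'] at e
      simp only [Option.some.injEq, Prod.mk.injEq] at e
      obtain ⟨hu, hy'⟩ := List.append_inj hy e.1
      subst hu; subst hy'
      rw [ih h2', e.2]

/-- a run that goes on is not dead -/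
theorem Run.next {r : Rule α V n} {y2 Q2 : List α} {F2 : V → V} (h : Run r y2 F2 Q2) :
    ∀ {y Q : List α} {F : V → V}, Run r y F Q → y ++ Q = y2 ++ Q2 → y2.length < y.length →
      r.nx Q2 ≠ none := by
  induction h with
  | nil Q2 =>
    intro y Q F h e hl
    cases h with
    | nil => simp at hl
    | @cons u y Q f F h1 _ =>
      rw [List.append_assoc, List.nil_append] at e
      rw [← e, h1]
      simp
  | @cons u y2 Q2 f F h1 h2 ih =>
    intro y Q F h e hl
    cases h with
    | nil => simp at hl
    | @cons u' y' Q' f' F' h1' h2' =>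
      have e0 : r.nx (u ++ (y2 ++ Q2)) = r.nx (u' ++ (y' ++ Q)) := by
        rw [← List.append_assoc, ← e, List.append_assoc]
      rw [h1, h1'] at e0
      simp only [Option.some.injEq, Prod.mk.injEq] at e0
      rw [List.append_assoc, List.append_assoc] at e
      obtain ⟨hu, hy'⟩ := List.append_inj e e0.1.symm
      subst hu
      refine ih h2' hy' ?_
      simp only [List.length_append] at hl
      omega

/-- words whose chain reaches the place `n` letters before the end, with map `F` -/
def Lg (r : Rule α V n) (F : V → V) : Language α :=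
  {w | ∃ y z, w = y ++ z ∧ z.length = n ∧ Run r y F z}

/-- right quotient by a word -/
def rq (L : Language α) (z : List α) : Language α := {y | y ++ z ∈ L}

/-- run language with end condition `J` -/
def RJ (r : Rule α V n) (F : V → V) (J : Language α) : Language α :=
  {w | ∃ y Q, w = y ++ Q ∧ Run r y F Q ∧ Q ∈ J ∧ n ≤ Q.length}

/-- the run languages with an end condition `J` -/
theorem HL.runJ [Finite α] {k : ℕ} {r : Rule α V n} (hr : ∀ F, HL k (Lg r F)) (F : V → V)
    {J : Language α} (hJ : HL k J) : HL k (RJ r F J) := by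
  have hfin : ({z : List α | z.length = n}).Finite := List.finite_length_eq α n
  have h := HL.biUnion (k := k) hfin (L := fun z =>
    rq (Lg r F) z * (J ⊓ (({z} : Language α) * (⊤ : Language α))))
    (fun z _ => ((hr F).rquot z).mul (hJ.inf ((HL.word z).mul HL.top)))
  refine h.congr fun w => ?_
  constructor
  · rintro ⟨y, Q, rfl, hrun, hQ, hn⟩
    refine ⟨Q.take n, by simp [hn], ?_⟩
    refine Language.mem_mul.2 ⟨y, ⟨y, Q.take n, rfl, by simp [hn], ?_⟩, Q, ⟨hQ, ?_⟩, rfl⟩
    · exact hrun.trunc (List.take_append_drop n Q).symm (by simp [hn])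
    · exact Language.mem_mul.2 ⟨Q.take n, rfl, Q.drop n, trivial, List.take_append_drop n Q⟩
  · rintro ⟨z, hz, hw⟩
    obtain ⟨y, hy, Q, ⟨hQ, hQz⟩, rfl⟩ := Language.mem_mul.1 hw
    obtain ⟨z', hz', s, _, rfl⟩ := Language.mem_mul.1 hQz
    have hz'' : z' = z := hz'
    subst hz''
    obtain ⟨y', z1, e, hz1, hrun⟩ := hy
    have hz0 : z'.length = n := hz
    obtain ⟨e1, e2⟩ := List.append_inj' e (by rw [hz0, hz1])
    subst e1; subst e2
    exact ⟨y, z' ++ s, rfl, hrun.ext s, hQ, by simp [hz0]⟩

/-- a scheme of junctions for the rule `r`; the zones of the sub-rule `r'` need not be cut -/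
structure Scheme (r r' : Rule α V n) where
  LL : List α → V → Prop
  RL : List α → ℕ → V → Prop
  Dead : Language α
  sub : ∀ Q x, r'.nx Q = some x → r.nx Q = some x
  LLn : ∀ P v, LL P v → n ≤ P.length
  RLpos : ∀ Q d c, RL Q d c → 0 < Q.length
  RLext : ∀ Q s d c, RL Q d c → RL (Q ++ s) d c
  RLcut : ∀ Q s d c, RL (Q ++ s) d c → d + n ≤ Q.length → RL Q d c
  Dext : ∀ Q s, Q ∈ Dead → Q ++ s ∈ Dead
  Dnone : ∀ Q, Q ∈ Dead → r.nx Q = none
  exact : ∀ P v Q d c, LL P v → RL Q d c → P ++ Q ∉ Dead →
    ∃ f, r.nx (P ++ Q) = some (P.length + d, f) ∧ f v = c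
  complete : ∀ Q l f, r.nx Q = some (l, f) → r'.nx Q = some (l, f) ∨
    ∀ v, ∃ P Q' d c, Q = P ++ Q' ∧ LL P v ∧ RL Q' d c

namespace Scheme

variable {r r' : Rule α V n} (S : Scheme r r')

include S in
theorem toRun {y Q : List α} {F : V → V} (h : Run r' y F Q) : Run r y F Q := by
  induction h with
  | nil Q => exact Run.nil _
  | cons h1 _ ih => exact Run.cons (S.sub _ _ h1) ih

/-- starting words: up to the first junction -/
def St (v : V) : Language α :=
  {w | ∃ F, ∃ y P, w = y ++ P ∧ Run r' y F P ∧ P ∈ ({P | S.LL P (F v)} : Language α) ∧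
    n ≤ P.length}

/-- pieces between two junctions -/
def X : Language α :=
  {k | ∃ c F, ∃ Q0 y P, k = Q0 ++ (y ++ P) ∧ S.RL k Q0.length c ∧ Run r' y F P ∧ S.LL P (F c)}

/-- last pieces -/
def En (v' : V) : Language α :=
  {k | ∃ c F, F c = v' ∧ ∃ Q0 y z, k = Q0 ++ (y ++ z) ∧ S.RL k Q0.length c ∧ z.length = n ∧
    Run r' y F z}

/-- words without junction -/
def Sh (v v' : V) : Language α := {w | ∃ F : V → V, F v = v' ∧ w ∈ Lg r' F}

/-- the thread language -/
def T (v v' : V) : Language α := S.St v * (KStar.kstar S.X * S.En v') + Sh (r' := r') v v'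

/-- the chain meets a visible failure -/
def TrueDead (w : List α) : Prop :=
  ∃ y Q F, w = y ++ Q ∧ Run r y F Q ∧ n < Q.length ∧ Q ∈ S.Dead

theorem RL_split {Q0 y P s : List α} {c : V} (hn : n ≤ P.length) :
    S.RL (Q0 ++ (y ++ P)) Q0.length c ↔ S.RL (Q0 ++ (y ++ P) ++ s) Q0.length c := by
  constructor
  · exact S.RLext _ _ _ _
  · intro h
    refine S.RLcut _ s _ _ h ?_
    simp only [List.length_append]
    omega

/-- soundness, one junction -/
theorem step1 {y P : List α} {F : V → V} {v : V} {Q0 R : List α} {c : V}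
    (hrun : Run r y F (P ++ (Q0 ++ R))) (hL : S.LL P (F v)) (hR : S.RL (Q0 ++ R) Q0.length c)
    (hD : ¬ S.TrueDead (y ++ (P ++ (Q0 ++ R)))) :
    ∃ G : V → V, Run r (y ++ (P ++ Q0)) G R ∧ G v = c := by
  have hnd : P ++ (Q0 ++ R) ∉ S.Dead := by
    intro hd
    refine hD ⟨y, _, F, rfl, hrun, ?_, hd⟩
    have h1 := S.LLn _ _ hL
    have h2 := S.RLpos _ _ _ hR
    rw [List.length_append]
    omega
  obtain ⟨f, h1, h2⟩ := S.exact _ _ _ _ _ hL hR hnd
  refine ⟨f ∘ F, ?_, h2⟩
  refine hrun.append (y2 := P ++ Q0) (Q := R) (by simp [List.append_assoc]) ?_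
  refine Run.single ?_
  simpa [List.append_assoc] using h1

theorem sound_aux {v v' : V} (L : List (List α)) (hX : ∀ k ∈ L, k ∈ S.X) :
    ∀ {y P : List α} {F : V → V} {E : List α}, E ∈ S.En v' →
      Run r y F (P ++ (L.flatten ++ E)) → S.LL P (F v) →
      (∃ F', ∃ y' z, y ++ (P ++ (L.flatten ++ E)) = y' ++ z ∧ z.length = n ∧ Run r y' F' z ∧
        F' v = v') ∨ S.TrueDead (y ++ (P ++ (L.flatten ++ E))) := by
  induction L with
  | nil =>
    intro y P F E hE hrun hL
    by_cases hD : S.TrueDead (y ++ (P ++ (([] : List (List α)).flatten ++ E)))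
    · exact Or.inr hD
    left
    obtain ⟨c, F2, hc, Q0, y2, z, rfl, hR, hz, hrun2⟩ := hE
    simp only [List.flatten_nil, List.nil_append] at hrun hD ⊢
    obtain ⟨G, hG, hGv⟩ := S.step1 hrun hL hR hD
    refine ⟨F2 ∘ G, y ++ (P ++ Q0) ++ y2, z, by simp [List.append_assoc], hz,
      hG.append rfl (S.toRun hrun2), ?_⟩
    simp [hGv, hc]
  | cons k L ih =>
    intro y P F E hE hrun hL
    by_cases hD : S.TrueDead (y ++ (P ++ ((k :: L).flatten ++ E)))
    · exact Or.inr hD
    obtain ⟨c, F2, Q0, y2, P2, rfl, hR, hrun2, hL2⟩ := hX k (by simp)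
    have e1 : ((Q0 ++ (y2 ++ P2)) :: L).flatten ++ E
        = Q0 ++ (y2 ++ (P2 ++ (L.flatten ++ E))) := by simp [List.append_assoc]
    rw [e1] at hrun hD ⊢
    have hR' : S.RL (Q0 ++ (y2 ++ (P2 ++ (L.flatten ++ E)))) Q0.length c := by
      have := S.RLext _ (L.flatten ++ E) _ _ hR
      simpa [List.append_assoc] using this
    obtain ⟨G, hG, hGv⟩ := S.step1 hrun hL hR' hD
    have hrun3 : Run r (y ++ (P ++ Q0) ++ y2) (F2 ∘ G) (P2 ++ (L.flatten ++ E)) :=
      hG.append rfl ((S.toRun hrun2).ext _)
    have hL3 : S.LL P2 ((F2 ∘ G) v) := by simpa [hGv] using hL2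
    have := ih (fun k hk => hX k (by simp [hk])) hE hrun3 hL3
    have e2 : y ++ (P ++ Q0) ++ y2 ++ (P2 ++ (L.flatten ++ E))
        = y ++ (P ++ (Q0 ++ (y2 ++ (P2 ++ (L.flatten ++ E))))) := by simp [List.append_assoc]
    rw [e2] at this
    exact this

theorem sound {v v' : V} {w : List α} (hw : w ∈ S.T v v') :
    (∃ F, ∃ y z, w = y ++ z ∧ z.length = n ∧ Run r y F z ∧ F v = v') ∨ S.TrueDead w := by
  rcases (Language.mem_add _ _ _).1 hw with hw | hw
  · obtain ⟨a, ha, b, hb, rfl⟩ := Language.mem_mul.1 hw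
    obtain ⟨F, y, P, rfl, hrun, hP, _⟩ := ha
    obtain ⟨x, hx, E, hE, rfl⟩ := Language.mem_mul.1 hb
    obtain ⟨L, rfl, hL⟩ := Language.mem_kstar.1 hx
    have := S.sound_aux (v := v) L hL (y := y) (P := P) (F := F) hE
      ((S.toRun hrun).ext _) hP
    rw [List.append_assoc]
    exact this
  · obtain ⟨F, hF, y, z, rfl, hz, hrun⟩ := hw
    exact Or.inl ⟨F, y, z, rfl, hz, S.toRun hrun, hF⟩

/-- completeness after a junction -/
theorem complete_aux {y Q : List α} {F : V → V} (h : Run r y F Q) (hQ : Q.length = n) :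
    ∀ {Q0 y0 : List α} {c : V} {F0 : V → V}, S.RL (Q0 ++ (y0 ++ (y ++ Q))) Q0.length c →
      Run r' y0 F0 (y ++ Q) →
      Q0 ++ (y0 ++ (y ++ Q)) ∈ KStar.kstar S.X * S.En (F (F0 c)) := by
  induction h with
  | nil Q =>
    intro Q0 y0 c F0 hR hrun
    simp only [List.nil_append] at hR hrun ⊢
    exact Language.mem_mul.2 ⟨[], Language.nil_mem_kstar _, Q0 ++ (y0 ++ Q),
      ⟨c, F0, rfl, Q0, y0, Q, rfl, hR, hQ, hrun⟩, by simp⟩
  | @cons u y Q f F h1 h2 ih =>
    intro Q0 y0 c F0 hR hrun
    rcases S.complete _ _ _ h1 with h' | h'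
    · have hrun' : Run r' (y0 ++ u) (f ∘ F0) (y ++ Q) := by
        refine hrun.append (y2 := u) (by simp [List.append_assoc]) (Run.single ?_)
        exact h'
      have := ih hQ (Q0 := Q0) (y0 := y0 ++ u) (c := c) (F0 := f ∘ F0)
        (by simpa [List.append_assoc] using hR) hrun'
      simpa [List.append_assoc] using this
    · obtain ⟨P, Q', d, c', e, hL, hR'⟩ := h' (F0 c)
      have hnd : P ++ Q' ∉ S.Dead := by
        intro hd
        rw [← e] at hd
        rw [S.Dnone _ hd] at h1
        simp at h1
      obtain ⟨g, hg, hgc⟩ := S.exact _ _ _ _ _ hL hR' hnd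
      rw [← e, h1] at hg
      simp only [Option.some.injEq, Prod.mk.injEq] at hg
      obtain ⟨hlen, rfl⟩ := hg
      -- u = P ++ Q0'
      have hu : ∃ Q1, u = P ++ Q1 ∧ Q' = Q1 ++ (y ++ Q) := by
        have hle : P.length ≤ u.length := by omega
        have hp : P = u.take P.length := by
          have := congrArg (List.take P.length) e
          rw [List.take_append_of_le_length hle, List.take_left'] at this
          · exact this.symm
          · rfl
        refine ⟨u.drop P.length, ?_, ?_⟩
        · conv_lhs => rw [← List.take_append_drop P.length u, ← hp]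
        · have := congrArg (List.drop P.length) e
          rw [List.drop_append_of_le_length hle, List.drop_left'] at this
          · exact this.symm
          · rfl
      obtain ⟨Q1, hu1, hQ1⟩ := hu
      have hnP := S.LLn _ _ hL
      have hd : d = Q1.length := by
        have := congrArg List.length hu1
        rw [List.length_append] at this
        omega
      -- the rest
      have hrest := ih hQ (Q0 := Q1) (y0 := []) (c := c') (F0 := id)
        (by rw [hd, hQ1] at hR'; simpa using hR') (Run.nil _)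
      simp only [id, List.nil_append] at hrest
      obtain ⟨x, hx, E, hE, hxE⟩ := Language.mem_mul.1 hrest
      -- the piece
      have hpiece : Q0 ++ (y0 ++ P) ∈ S.X := by
        refine ⟨c, F0, Q0, y0, P, rfl, ?_, ?_, hL⟩
        · refine (S.RL_split (s := Q1 ++ (y ++ Q)) hnP).2 ?_
          rw [hu1] at hR
          simpa [List.append_assoc] using hR
        · refine hrun.trunc (s := Q1 ++ (y ++ Q)) ?_ hnP
          rw [hu1]
          simp [List.append_assoc]
      refine Language.mem_mul.2 ⟨(Q0 ++ (y0 ++ P)) ++ x, ?_, E, ?_, ?_⟩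
      · obtain ⟨L, rfl, hL'⟩ := Language.mem_kstar.1 hx
        refine Language.mem_kstar.2 ⟨(Q0 ++ (y0 ++ P)) :: L, by simp, ?_⟩
        intro k hk
        rcases List.mem_cons.1 hk with rfl | hk
        · exact hpiece
        · exact hL' k hk
      · have e3 : (F ∘ f) (F0 c) = F c' := by
          simp only [Function.comp_apply]
          rw [hgc]
        rw [e3]
        exact hE
      · rw [hu1]
        simp only [List.append_assoc]
        rw [hxE]

/-- completeness from the start -/
theorem complete_start {y Q : List α} {F : V → V} (h : Run r y F Q) (hQ : Q.length = n) (v : V) :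
    ∀ {y0 : List α} {F0 : V → V}, Run r' y0 F0 (y ++ Q) →
      y0 ++ (y ++ Q) ∈ S.T v (F (F0 v)) := by
  induction h with
  | nil Q =>
    intro y0 F0 hrun
    refine (Language.mem_add _ _ _).2 (Or.inr ?_)
    simp only [List.nil_append] at hrun ⊢
    exact ⟨F0, rfl, y0, Q, rfl, hQ, hrun⟩
  | @cons u y Q f F h1 h2 ih =>
    intro y0 F0 hrun
    rcases S.complete _ _ _ h1 with h' | h'
    · have hrun' : Run r' (y0 ++ u) (f ∘ F0) (y ++ Q) := by
        refine hrun.append (y2 := u) (by simp [List.append_assoc]) (Run.single ?_)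
        exact h'
      have := ih hQ (y0 := y0 ++ u) (F0 := f ∘ F0) hrun'
      simpa [List.append_assoc] using this
    · obtain ⟨P, Q', d, c', e, hL, hR'⟩ := h' (F0 v)
      have hnd : P ++ Q' ∉ S.Dead := by
        intro hd
        rw [← e] at hd
        rw [S.Dnone _ hd] at h1
        simp at h1
      obtain ⟨g, hg, hgc⟩ := S.exact _ _ _ _ _ hL hR' hnd
      rw [← e, h1] at hg
      simp only [Option.some.injEq, Prod.mk.injEq] at hg
      obtain ⟨hlen, rfl⟩ := hg
      have hu : ∃ Q1, u = P ++ Q1 ∧ Q' = Q1 ++ (y ++ Q) := by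
        have hle : P.length ≤ u.length := by omega
        have hp : P = u.take P.length := by
          have := congrArg (List.take P.length) e
          rw [List.take_append_of_le_length hle, List.take_left'] at this
          · exact this.symm
          · rfl
        refine ⟨u.drop P.length, ?_, ?_⟩
        · conv_lhs => rw [← List.take_append_drop P.length u, ← hp]
        · have := congrArg (List.drop P.length) e
          rw [List.drop_append_of_le_length hle, List.drop_left'] at this
          · exact this.symm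
          · rfl
      obtain ⟨Q1, hu1, hQ1⟩ := hu
      have hnP := S.LLn _ _ hL
      have hd : d = Q1.length := by
        have := congrArg List.length hu1
        rw [List.length_append] at this
        omega
      have hrest := S.complete_aux h2 hQ (Q0 := Q1) (y0 := []) (c := c') (F0 := id)
        (by rw [hd, hQ1] at hR'; simpa using hR') (Run.nil _)
      simp only [id, List.nil_append] at hrest
      refine (Language.mem_add _ _ _).2 (Or.inl ?_)
      refine Language.mem_mul.2 ⟨y0 ++ P, ⟨F0, y0, P, rfl, ?_, hL, hnP⟩, Q1 ++ (y ++ Q), ?_, ?_⟩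
      · refine hrun.trunc (s := Q1 ++ (y ++ Q)) ?_ hnP
        rw [hu1]
        simp [List.append_assoc]
      · have e3 : (F ∘ f) (F0 v) = F c' := by
          simp only [Function.comp_apply]
          rw [hgc]
        rw [e3]
        exact hrest
      · rw [hu1]
        simp [List.append_assoc]

/-- words accepted for the map `F` -/
def A (F : V → V) : Language α := {w | ∀ v, w ∈ S.T v (F v)}

/-- computed failures -/
def DW : Language α :=
  {w | ∃ F : V → V, ∃ y Q, w = y ++ Q ∧ n < Q.length ∧ y ++ Q.take n ∈ S.A F ∧ Q ∈ S.Dead}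

theorem mem_A {w : List α} {F : V → V} (h : w ∈ Lg r F) : w ∈ S.A F := by
  obtain ⟨y, z, rfl, hz, hrun⟩ := h
  intro v
  have := S.complete_start hrun hz v (y0 := []) (F0 := id) (Run.nil _)
  simpa using this

theorem TrueDead.ext {w : List α} (h : S.TrueDead w) (s : List α) : S.TrueDead (w ++ s) := by
  obtain ⟨y, Q, F, rfl, hrun, hn, hd⟩ := h
  refine ⟨y, Q ++ s, F, by simp, hrun.ext s, ?_, S.Dext _ _ hd⟩
  rw [List.length_append]
  omega

theorem TrueDead.not_Lg {w : List α} (h : S.TrueDead w) (F : V → V) : w ∉ Lg r F := by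
  rintro ⟨y, z, e, hz, hrun⟩
  obtain ⟨y2, Q2, F2, rfl, hrun2, hn, hd⟩ := h
  have hl : y2.length < y.length := by
    have := congrArg List.length e
    simp only [List.length_append] at this
    omega
  exact hrun2.next hrun e.symm hl (S.Dnone _ hd)

/-- the run languages are the accepted words without failure -/
theorem Lg_iff [Nonempty V] (F : V → V) (w : List α) :
    w ∈ Lg r F ↔ w ∈ S.A F ∧ w ∉ S.DW := by
  constructor
  · intro h
    refine ⟨S.mem_A h, ?_⟩
    rintro ⟨F1, y1, Q, rfl, hn, hA, hd⟩
    obtain ⟨v⟩ := (inferInstance : Nonempty V)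
    have htr : S.TrueDead (y1 ++ Q) := by
      rcases S.sound (hA v) with ⟨G, y, z, e, hz, hrun, _⟩ | hD
      · have hz' : (Q.take n).length = z.length := by
          rw [hz, List.length_take]
          omega
        obtain ⟨e1, e2⟩ := List.append_inj' e hz'
        subst e1
        refine ⟨y1, Q, G, rfl, ?_, hn, hd⟩
        have := hrun.ext (Q.drop n)
        rw [← e2, List.take_append_drop] at this
        exact this
      · have := TrueDead.ext S hD (Q.drop n)
        rw [List.append_assoc, List.take_append_drop] at this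
        exact this
    exact TrueDead.not_Lg S htr F h
  · rintro ⟨hA, hD⟩
    have hnt : ¬ S.TrueDead w := by
      rintro ⟨y, Q, G, rfl, hrun, hn, hd⟩
      refine hD ⟨G, y, Q, rfl, hn, S.mem_A ⟨y, Q.take n, rfl, ?_, ?_⟩, hd⟩
      · rw [List.length_take]
        omega
      · refine hrun.trunc (List.take_append_drop n Q).symm ?_
        rw [List.length_take]
        omega
    have key : ∀ v, ∃ G, ∃ y z, w = y ++ z ∧ z.length = n ∧ Run r y G z ∧ G v = F v := by
      intro v
      rcases S.sound (hA v) with h | h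
      · exact h
      · exact (hnt h).elim
    obtain ⟨v0⟩ := (inferInstance : Nonempty V)
    obtain ⟨G, y, z, e, hz, hrun, _⟩ := key v0
    refine ⟨y, z, e, hz, ?_⟩
    have : G = F := by
      funext v
      obtain ⟨G', y', z', e', hz', hrun', hv⟩ := key v
      rw [e] at e'
      obtain ⟨e1, e2⟩ := List.append_inj' e' (by rw [hz, hz'])
      subst e1; subst e2
      rw [← hv, hrun.det hrun']
    rw [← this]
    exact hrun

/-- prefixes which are right-legal in front of `z` -/
def RLq (c : V) (z : List α) : Language α := {Q0 | S.RL (Q0 ++ z) Q0.length c}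

/-- left-legal words -/
def LLq (v : V) : Language α := {P | S.LL P v}

section height

variable [Finite α] [Finite V] {k : ℕ}

theorem HL_mid (hRL : ∀ c z, z.length = n → HL k (S.RLq c z)) (hr' : ∀ F, HL k (Lg r' F))
    (c : V) (F : V → V) {J : Language α} (hJ : HL k J) :
    HL k ({w | ∃ Q0 y P, w = Q0 ++ (y ++ P) ∧ S.RL w Q0.length c ∧ Run r' y F P ∧ P ∈ J ∧
      n ≤ P.length} : Language α) := by
  have hfin : ({z : List α | z.length = n}).Finite := List.finite_length_eq α n
  have hJ' := HL.runJ (k := k) hr' F hJ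
  have h := HL.biUnion (k := k) hfin (L := fun z => S.RLq c z *
    (RJ r' F J ⊓ (({z} : Language α) * (⊤ : Language α))))
    (fun z hz => (hRL c z hz).mul (hJ'.inf ((HL.word z).mul HL.top)))
  refine h.congr fun w => ?_
  constructor
  · rintro ⟨Q0, y, P, rfl, hR, hrun, hP, hn⟩
    have hlen : n ≤ (y ++ P).length := by
      rw [List.length_append]
      omega
    refine ⟨(y ++ P).take n, by show (List.take n _).length = n; rw [List.length_take]; omega, ?_⟩
    refine Language.mem_mul.2 ⟨Q0, ?_, y ++ P, ⟨⟨y, P, rfl, hrun, hP, hn⟩, ?_⟩, rfl⟩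
    · refine S.RLcut _ ((y ++ P).drop n) _ _ ?_ ?_
      · rw [List.append_assoc, List.take_append_drop]
        exact hR
      · simp only [List.length_append, List.length_take] at hlen ⊢
        omega
    · exact Language.mem_mul.2 ⟨(y ++ P).take n, rfl, (y ++ P).drop n, trivial,
        List.take_append_drop _ _⟩
  · rintro ⟨z, hz, hw⟩
    obtain ⟨Q0, hQ0, m, ⟨⟨y, P, rfl, hrun, hP, hn⟩, hm⟩, rfl⟩ := Language.mem_mul.1 hw
    obtain ⟨z', hz', s, _, e⟩ := Language.mem_mul.1 hm
    have hz'' : z' = z := hz'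
    subst hz''
    refine ⟨Q0, y, P, rfl, ?_, hrun, hP, hn⟩
    have h1 := S.RLext _ s _ _ hQ0
    rw [List.append_assoc, e] at h1
    exact h1

theorem HL_X (hLL : ∀ v, HL k (S.LLq v)) (hRL : ∀ c z, z.length = n → HL k (S.RLq c z))
    (hr' : ∀ F, HL k (Lg r' F)) : HL k S.X := by
  have h := HL.iUnion (k := k) fun c : V => HL.iUnion (k := k) fun F : V → V =>
    S.HL_mid hRL hr' c F (hLL (F c))
  refine h.congr fun w => ?_
  constructor
  · rintro ⟨c, F, Q0, y, P, e, hR, hrun, hL⟩
    exact ⟨c, F, Q0, y, P, e, hR, hrun, hL, S.LLn _ _ hL⟩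
  · rintro ⟨c, F, Q0, y, P, e, hR, hrun, hL, _⟩
    exact ⟨c, F, Q0, y, P, e, hR, hrun, hL⟩

theorem HL_En (hRL : ∀ c z, z.length = n → HL k (S.RLq c z))
    (hr' : ∀ F, HL k (Lg r' F)) (v' : V) : HL k (S.En v') := by
  have h := HL.iUnion (k := k) fun c : V => HL.iUnion (k := k) fun F : {F : V → V // F c = v'} =>
    S.HL_mid hRL hr' c F.1 (HL.length_eq (k := k) (α := α) n)
  refine h.congr fun w => ?_
  constructor
  · rintro ⟨c, F, hF, Q0, y, z, e, hR, hz, hrun⟩
    exact ⟨c, ⟨F, hF⟩, Q0, y, z, e, hR, hrun, hz, hz.ge⟩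
  · rintro ⟨c, F, Q0, y, z, e, hR, hrun, hz, _⟩
    exact ⟨c, F.1, F.2, Q0, y, z, e, hR, hz, hrun⟩

theorem HL_St (hLL : ∀ v, HL k (S.LLq v)) (hr' : ∀ F, HL k (Lg r' F)) (v : V) :
    HL k (S.St v) := by
  have h := HL.iUnion (k := k) fun F : V → V => HL.runJ (k := k) hr' F (hLL (F v))
  refine h.congr fun w => ?_
  constructor
  · rintro ⟨F, y, P, e, hrun, hL, hn⟩
    exact ⟨F, y, P, e, hrun, hL, hn⟩
  · rintro ⟨F, y, P, e, hrun, hL, hn⟩
    exact ⟨F, y, P, e, hrun, hL, hn⟩

omit [Finite α] in
theorem HL_Sh (hr' : ∀ F, HL k (Lg r' F)) (v v' : V) : HL k (Sh (r' := r') v v') := by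
  have h := HL.iUnion (k := k) fun F : {F : V → V // F v = v'} => hr' F.1
  refine h.congr fun w => ?_
  constructor
  · rintro ⟨F, hF, hw⟩
    exact ⟨⟨F, hF⟩, hw⟩
  · rintro ⟨F, hw⟩
    exact ⟨F.1, F.2, hw⟩

theorem HL_A (hLL : ∀ v, HL k (S.LLq v)) (hRL : ∀ c z, z.length = n → HL k (S.RLq c z))
    (hr' : ∀ F, HL k (Lg r' F)) (F : V → V) : HL (k + 1) (S.A F) := by
  refine HL.iInter fun v => ?_
  refine HL.add ?_ ((HL_Sh hr' v _).mono (Nat.le_succ k))
  exact ((S.HL_St hLL hr' v).mono (Nat.le_succ k)).mul
    ((S.HL_X hLL hRL hr').star.mul ((S.HL_En hRL hr' _).mono (Nat.le_succ k)))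

/-- **the level theorem** -/
theorem step [Nonempty V] (hLL : ∀ v, HL k (S.LLq v))
    (hRL : ∀ c z, z.length = n → HL k (S.RLq c z)) (hD : HL (k + 1) S.Dead)
    (hr' : ∀ F, HL k (Lg r' F)) (F : V → V) : HL (k + 1) (Lg r F) := by
  have hA := S.HL_A hLL hRL hr'
  have hfin : ({z : List α | z.length = n}).Finite := List.finite_length_eq α n
  have hDW : HL (k + 1) S.DW := by
    have h := HL.iUnion (k := k + 1) fun F : V → V => HL.biUnion (k := k + 1) hfin
      (L := fun z => rq (S.A F) z * ((S.Dead ⊓ (({z} : Language α) * (⊤ : Language α))) ⊓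
        ({w : List α | n + 1 ≤ w.length} : Language α)))
      (fun z _ => ((hA F).rquot z).mul ((hD.inf ((HL.word z).mul HL.top)).inf
        (HL.length_ge (n + 1))))
    refine h.congr fun w => ?_
    constructor
    · rintro ⟨F, y, Q, rfl, hn, hw, hd⟩
      refine ⟨F, Q.take n, by show (List.take n _).length = n; rw [List.length_take]; omega, ?_⟩
      refine Language.mem_mul.2 ⟨y, hw, Q, ⟨⟨hd, ?_⟩, hn⟩, rfl⟩
      exact Language.mem_mul.2 ⟨Q.take n, rfl, Q.drop n, trivial, List.take_append_drop _ _⟩
    · rintro ⟨F, z, hz, hw⟩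
      obtain ⟨y, hy, Q, ⟨⟨hd, hQ⟩, hn⟩, rfl⟩ := Language.mem_mul.1 hw
      obtain ⟨z', hz', s, _, rfl⟩ := Language.mem_mul.1 hQ
      have hz'' : z' = z := hz'
      subst hz''
      have hz0 : z'.length = n := hz
      refine ⟨F, y, z' ++ s, rfl, hn, ?_, hd⟩
      rw [List.take_left' hz0]
      exact hy
  refine (hA F).sdiff hDW |>.congr fun w => ?_
  exact S.Lg_iff F w

end height

end Scheme

/-- the empty rule -/
def emptyRule (α : Type u) (V : Type) (n : ℕ) : Rule α V n where
  nx _ := none
  pos := by intro _ _ _ h; simp at h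
  vis := by intro _ _ _ h; simp at h
  ext := by intro _ _ _ _ h; simp at h
  cut := by intro _ _ _ _ h; simp at h

theorem HL_empty [Finite α] {k : ℕ} (F : V → V) : HL k (Lg (emptyRule α V n) F) := by
  classical
  by_cases hF : F = id
  · refine (HL.length_eq (k := k) (α := α) n).congr fun w => ?_
    constructor
    · rintro ⟨y, z, rfl, hz, hrun⟩
      cases hrun with
      | nil => exact hz
      | cons h _ => simp [emptyRule] at h
    · intro hw
      subst hF
      exact ⟨[], w, rfl, hw, Run.nil _⟩
  · refine HL.bot.congr fun w => ⟨?_, fun h => h.elim⟩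
    rintro ⟨y, z, rfl, hz, hrun⟩
    cases hrun with
    | nil => exact hF rfl
    | cons h _ => simp [emptyRule] at h

end Crest.Agent.R320.Level_297
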