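import Crest.Agent.R320.Thread_344

/-!
# Row 320, item (9): schemes and levels (helper344)

`Val k φ N Free` : all `{w ∈ Free | φ w = s, |w| = r mod N}` have height `≤ k`.
`Scheme act φ N Free P U` : one star scheme, exact on `U` (a class of words inside the prefix
closed promise class `P`), all of whose languages are computed from the exact values on the
cut-free words `Free` *without a new star* (`Rel`).
`Scheme.level` : `Val k φ N Free` and `HL (k+1) U` give `Val (k+1) φ N U`.
`height_three` : three nested schemes (`Free` finite at the bottom, all words at the top) for every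
finite monoid give height three for every regular language.
-/

set_option autoImplicit false

namespace Crest.Agent.R320.Level_344

open Crest.RegLang Crest.Agent.R320.Hk_851 Crest.Agent.R320.Thread_344
open Computability

universe u

variable {α : Type u} {k : ℕ}

/-- length modulo `N` costs one star -/
theorem HL.len_mod [Finite α] (k N r : ℕ) :
    HL (k + 1) ({w | w.length % N = r} : Language α) := by
  rcases Nat.eq_zero_or_pos N with rfl | hN
  · refine HL.congr (HL.length_eq r) fun w => ?_
    change w.length % 0 = r ↔ w.length = r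
    rw [Nat.mod_zero]
  · by_cases hr : r < N
    · let K : Language α := {w | w.length = N}
      let A : Language α := {w | w.length = r}
      have hst : HL (k + 1) (A * K∗) := HL.mul (HL.length_eq r) (HL.star (HL.length_eq N))
      refine HL.congr hst fun w => ⟨fun hw => ?_, fun hw => ?_⟩
      · have h := sig_complete (α := α) (St := A) (K := K)
          (Sig := {w | w.length % N = r}) ?_
        · exact h hw
        · intro x hx
          have hx' : x.length % N = r := hx
          by_cases h1 : x.length = r
          · exact Or.inl h1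
          · right
            have h2 : N ≤ x.length := by
              by_contra hc
              apply h1
              rw [← hx', Nat.mod_eq_of_lt (by omega)]
            refine ⟨x.take (x.length - N), ?_, x.drop (x.length - N), ?_, ?_,
              (List.take_append_drop _ _).symm⟩
            · change (x.take (x.length - N)).length % N = r
              rw [List.length_take, min_eq_left (Nat.sub_le _ _), ← hx']
              exact (Nat.mod_eq_sub_mod h2).symm
            · change (x.drop (x.length - N)).length = N
              rw [List.length_drop]; omega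
            · intro h3
              have := congrArg List.length h3
              rw [List.length_drop, List.length_nil] at this
              omega
      · have h : A * K∗ ≤ ({w | w.length % N = r} : Language α) := by
          refine mul_kstar_le ?_ ?_
          · intro x hx
            have hx' : x.length = r := hx
            change x.length % N = r
            rw [hx', Nat.mod_eq_of_lt hr]
          · intro x hx
            obtain ⟨y, hy, z, hz, rfl⟩ := Language.mem_mul.1 hx
            have hy' : y.length % N = r := hy
            have hz' : z.length = N := hz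
            change (y ++ z).length % N = r
            rw [List.length_append, hz', Nat.add_mod_right, hy']
        exact h hw
    · refine HL.congr HL.bot fun w => ⟨fun hw => ?_, fun hw => hw.elim⟩
      exact (hr (by rw [← (show w.length % N = r from hw)]; exact Nat.mod_lt _ hN)).elim

/-- exact values (with the length clock) on `Free` have height `≤ k` -/
def Val {S : Type*} (k : ℕ) (φ : List α → S) (N : ℕ) (Free : Language α) : Prop :=
  ∀ s r, HL k ({w | w ∈ Free ∧ φ w = s ∧ w.length % N = r} : Language α)

/-- `L` is obtained without a new star from the exact values on `Free` -/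
def Rel {S : Type*} (φ : List α → S) (N : ℕ) (Free L : Language α) : Prop :=
  ∀ k, Val k φ N Free → HL k L

section rel

variable {S : Type*} {φ : List α → S} {N : ℕ} {Free : Language α}

theorem Rel.of_HL {L : Language α} (h : HL 0 L) : Rel φ N Free L :=
  fun k _ => HL.mono (Nat.zero_le k) h

theorem Rel.congr {L M : Language α} (h : Rel φ N Free M) (e : ∀ w, w ∈ L ↔ w ∈ M) :
    Rel φ N Free L := fun k hk => HL.congr (h k hk) e

theorem Rel.add {L M : Language α} (hL : Rel φ N Free L) (hM : Rel φ N Free M) :
    Rel φ N Free (L + M) := fun k hk => HL.add (hL k hk) (hM k hk)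

theorem Rel.mul {L M : Language α} (hL : Rel φ N Free L) (hM : Rel φ N Free M) :
    Rel φ N Free (L * M) := fun k hk => HL.mul (hL k hk) (hM k hk)

theorem Rel.compl {L : Language α} (hL : Rel φ N Free L) : Rel φ N Free Lᶜ :=
  fun k hk => HL.compl (hL k hk)

theorem Rel.inf {L M : Language α} (hL : Rel φ N Free L) (hM : Rel φ N Free M) :
    Rel φ N Free (L ⊓ M) := fun k hk => HL.inf (hL k hk) (hM k hk)

theorem Rel.iUnion {ι : Type*} [Finite ι] {L : ι → Language α} (h : ∀ i, Rel φ N Free (L i)) :
    Rel φ N Free {w | ∃ i, w ∈ L i} := fun k hk => HL.iUnion fun i => h i k hk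

theorem Rel.iInter {ι : Type*} [Finite ι] {L : ι → Language α} (h : ∀ i, Rel φ N Free (L i)) :
    Rel φ N Free {w | ∀ i, w ∈ L i} := fun k hk => HL.iInter fun i => h i k hk

/-- conditions on the first `D` letters, the last `D` letters, the value and the clock -/
theorem Rel.window [Finite α] [Finite S] (hN : N ≠ 0) (D : ℕ)
    (A : List α → List α → S → ℕ → Prop) :
    Rel φ N Free
      {w | w ∈ Free ∧ A (w.take D) (w.drop (w.length - D)) (φ w) (w.length % N)} := by
  intro k hk
  have h : ∀ t : S × Fin N, HL k ({w | w ∈ Free ∧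
      (fun w => ((φ w, ⟨w.length % N, Nat.mod_lt _ (Nat.pos_of_ne_zero hN)⟩) : S × Fin N)) w = t} :
      Language α) := by
    rintro ⟨s, r⟩
    refine HL.congr (hk s r.1) fun w => ?_
    change (w ∈ Free ∧ (_ : S × Fin N) = (s, r)) ↔ (w ∈ Free ∧ φ w = s ∧ w.length % N = r.1)
    rw [Prod.mk.injEq, Fin.ext_iff]
  exact HL.congr (HL.window h D (fun p q t => A p q t.1 t.2.1)) fun w => Iff.rfl

end rel

/-- One scheme.  `V` = tokens with the action of the value monoid, `ν` = noise (any function),
`P` = promise class, `U` = the class on which the scheme is exact, `Free` = the class of words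
without cut, whose exact values are available. -/
structure Scheme {V S : Type*} [AddCommGroup V] (act : V → S → V) (φ : List α → S) (N : ℕ)
    (Free P U : Language α) where
  /-- the noise -/
  ν : List α → V
  /-- words from the left edge to the first cut -/
  St : V → Language α
  /-- words from a cut to the next cut -/
  K : Language α
  /-- words from the last cut to the right edge -/
  En : V → Language α
  /-- words without cut -/
  Short : V → V → Language α
  /-- words which end at a cut of the thread started with `v` -/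
  Sig : V → Language α
  relSt : ∀ v, Rel φ N Free (St v)
  relK : Rel φ N Free K
  relEn : ∀ v, Rel φ N Free (En v)
  relShort : ∀ v v', Rel φ N Free (Short v v')
  prefix_closed : ∀ x y, x ++ y ∈ P → x ∈ P
  sub : ∀ w ∈ U, w ∈ P
  sound_st : ∀ v, ∀ x ∈ St v, x ∈ P → x ∈ Sig v
  sound_K : ∀ v, ∀ x ∈ Sig v, ∀ z ∈ K, x ++ z ∈ P → x ++ z ∈ Sig v
  sound_En : ∀ v v', ∀ x ∈ Sig v, ∀ y ∈ En v', x ++ y ∈ U → v' = act v (φ (x ++ y)) + ν (x ++ y)
  sound_short : ∀ v v', ∀ w ∈ Short v v', w ∈ U → v' = act v (φ w) + ν w
  complete : ∀ v, ∀ w ∈ U, w ∈ Short v (act v (φ w) + ν w) ∨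
    ∃ x ∈ Sig v, ∃ y ∈ En (act v (φ w) + ν w), w = x ++ y
  last_cut : ∀ v, ∀ x ∈ Sig v, x ∈ P → x ∈ St v ∨ ∃ y ∈ Sig v, ∃ z ∈ K, z ≠ [] ∧ x = y ++ z

/-- **LEVEL THEOREM**, values -/
theorem Scheme.level_value {V S : Type*} [AddCommGroup V] [Finite V] {act : V → S → V}
    (h0 : ∀ s, act 0 s = 0) (hf : ∀ s t, (∀ v, act v s = act v t) → s = t)
    {φ : List α → S} {N : ℕ} {Free P U : Language α} (σ : Scheme act φ N Free P U)
    (hU : HL (k + 1) U) (hF : Val k φ N Free) (s : S) :
    HL (k + 1) ({w | w ∈ U ∧ φ w = s} : Language α) := by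
  -- the thread languages, as they are written
  let T : V → V → Language α := fun v v' => σ.Short v v' + σ.St v * σ.K∗ * σ.En v'
  have hT : ∀ v v', HL (k + 1) (T v v') := fun v v' =>
    HL.add (HL.mono (Nat.le_succ k) (σ.relShort v v' k hF))
      (HL.mul (HL.mul (HL.mono (Nat.le_succ k) (σ.relSt v k hF)) (HL.star (σ.relK k hF)))
        (HL.mono (Nat.le_succ k) (σ.relEn v' k hF)))
  have hr : ∀ w ∈ U, ∀ v v', w ∈ T v v' ↔ v' = act v (φ w) + σ.ν w := by
    intro w hw v v'
    constructor
    · rintro (h | h)
      · exact σ.sound_short v v' w h hw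
      · -- soundness with `Sig' = Sig ∪ Pᶜ`
        have hs : σ.St v * σ.K∗ ≤ ({x | x ∈ P → x ∈ σ.Sig v} : Language α) := by
          refine mul_kstar_le ?_ ?_
          · intro x hx hP
            exact σ.sound_st v x hx hP
          · intro x hx
            obtain ⟨y, hy, z, hz, rfl⟩ := Language.mem_mul.1 hx
            intro hP
            exact σ.sound_K v y (hy (σ.prefix_closed y z hP)) z hz hP
        obtain ⟨x, hx, y, hy, rfl⟩ := Language.mem_mul.1 h
        exact σ.sound_En v v' x (hs hx (σ.prefix_closed x y (σ.sub _ hw))) y hy hw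
    · rintro rfl
      rcases σ.complete v w hw with h | ⟨x, hx, y, hy, hxy⟩
      · exact Or.inl h
      · right
        have hP : x ∈ P := σ.prefix_closed x y (by rw [← hxy]; exact σ.sub w hw)
        have hc : ({x | x ∈ σ.Sig v ∧ x ∈ P} : Language α) ≤ σ.St v * σ.K∗ := by
          refine sig_complete ?_
          rintro x ⟨hx, hxP⟩
          rcases σ.last_cut v x hx hxP with h | ⟨y, hy, z, hz, hz0, rfl⟩
          · exact Or.inl h
          · exact Or.inr ⟨y, ⟨hy, σ.prefix_closed y z hxP⟩, z, hz, hz0, rfl⟩
        rw [hxy]
        rw [hxy] at hy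
        exact Language.mem_mul.2 ⟨x, hc ⟨hx, hP⟩, y, hy, rfl⟩
  exact reading act φ σ.ν h0 hf hU hT hr s

/-- **LEVEL THEOREM**, values and clock -/
theorem Scheme.level [Finite α] {V S : Type*} [AddCommGroup V] [Finite V] {act : V → S → V}
    (h0 : ∀ s, act 0 s = 0) (hf : ∀ s t, (∀ v, act v s = act v t) → s = t)
    {φ : List α → S} {N : ℕ} {Free P U : Language α} (σ : Scheme act φ N Free P U)
    (hU : HL (k + 1) U) (hF : Val k φ N Free) : Val (k + 1) φ N U := by
  intro s r
  have h1 := σ.level_value h0 hf hU hF s
  refine HL.congr (HL.setOf_and h1 (HL.len_mod k N r)) fun w => ?_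
  constructor
  · rintro ⟨a, b, c⟩; exact ⟨⟨a, b⟩, c⟩
  · rintro ⟨⟨a, b⟩, c⟩; exact ⟨a, b, c⟩

/-- exact values on a finite class have height `0` -/
theorem Val.finite {S : Type*} {φ : List α → S} {N : ℕ} {Free : Language α}
    (h : (Free : Set (List α)).Finite) : Val k φ N Free := by
  intro s r
  refine HL.finite (h.subset ?_)
  rintro w ⟨hw, -⟩
  exact hw

/-- every finite monoid acts faithfully on a finite abelian group, from the right -/
theorem exists_faithful (S : Type u) [Monoid S] [Finite S] :
    ∃ act : (S → ZMod 2) → S → (S → ZMod 2), (∀ s, act 0 s = 0) ∧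
      (∀ v w s, act (v + w) s = act v s + act w s) ∧ (∀ v, act v 1 = v) ∧
      (∀ v s t, act v (s * t) = act (act v s) t) ∧
      (∀ s t, (∀ v, act v s = act v t) → s = t) := by
  classical
  refine ⟨fun v s t => v (s * t), fun s => rfl, fun v w s => rfl, fun v => ?_, fun v s t => ?_,
    fun s t h => ?_⟩
  · funext t
    change v (1 * t) = v t
    rw [one_mul]
  · funext r
    change v (s * t * r) = v (s * (t * r))
    rw [mul_assoc]
  · have h1 := congrFun (h (fun r => if r = s then 1 else 0)) 1
    change (if s * 1 = s then (1 : ZMod 2) else 0) = (if t * 1 = s then (1 : ZMod 2) else 0) at h1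
    rw [mul_one, mul_one, if_pos rfl] at h1
    by_contra hne
    rw [if_neg (fun h2 => hne h2.symm)] at h1
    exact one_ne_zero h1

/-- **TOP.** Three nested schemes for every finite monoid give height three. -/
theorem height_three [Finite α]
    (h : ∀ (S : Type u) [Monoid S] [Finite S] (φ : α → S),
      ∃ (V : Type u) (_ : AddCommGroup V) (_ : Finite V) (act : V → S → V) (N : ℕ)
        (F P₁ U₁ P₂ U₂ P₃ : Language α),
        (∀ s, act 0 s = 0) ∧ (∀ s t, (∀ v, act v s = act v t) → s = t) ∧
        (F : Set (List α)).Finite ∧ HL 1 U₁ ∧ HL 2 U₂ ∧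
        Nonempty (Scheme act (fun w => (w.map φ).prod) N F P₁ U₁) ∧
        Nonempty (Scheme act (fun w => (w.map φ).prod) N U₁ P₂ U₂) ∧
        Nonempty (Scheme act (fun w => (w.map φ).prod) N U₂ P₃ ⊤))
    (L : Language α) (hL : L.IsRegular) :
    ∃ e : GRegExp α, e.height ≤ 3 ∧ e.lang = L := by
  refine of_monoid (k := 3) ?_ L hL
  intro S _ _ φ s
  obtain ⟨V, i1, i2, act, N, F, P₁, U₁, P₂, U₂, P₃, h0, hf, hF, hU₁, hU₂, ⟨σ₁⟩, ⟨σ₂⟩, ⟨σ₃⟩⟩ :=
    h S φ
  have v1 := σ₁.level (k := 0) h0 hf hU₁ (Val.finite hF)
  have v2 := σ₂.level (k := 1) h0 hf hU₂ v1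
  exact HL.congr (σ₃.level_value (k := 2) h0 hf HL.top v2 s) fun w =>
    ⟨fun hw => ⟨trivial, hw⟩, fun hw => hw.2⟩

end Crest.Agent.R320.Level_344
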