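import Crest.Agent.R320.Hgt1_903

/-! Abstract level step for nested schemes, in concrete word form. -/

set_option autoImplicit false

namespace Crest.Agent.R320.Level_878

open Crest.RegLang Crest.Agent.R320.Hgt1_903

variable {α : Type*} {V : Type*}

/-- `Run st act Q c a v`: the chain started at position `0` of the text `Q` with value `c` reaches
the node at position `a` with value `v`. -/
inductive Run (st : List α → ℕ → Prop) (act : List α → V → V) : List α → V → ℕ → V → Prop
  | nil (Q : List α) (c : V) : Run st act Q c 0 c
  | cons (Q : List α) (t : ℕ) (c : V) (a : ℕ) (v : V) (h : st Q t)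
      (h' : Run st act (Q.drop t) (act (Q.take t) c) a v) : Run st act Q c (t + a) v

inductive Reach (st : List α → ℕ → Prop) : List α → ℕ → Prop
  | nil (Q : List α) : Reach st Q 0
  | cons (Q : List α) (t a : ℕ) (h : st Q t) (h' : Reach st (Q.drop t) a) : Reach st Q (t + a)

/-- Properties of a step relation: positive, inside the word, local with right window `n`,
functional. -/
structure IsStep (n : ℕ) (st : List α → ℕ → Prop) : Prop where
  pos : ∀ {Q t}, st Q t → 0 < t
  len : ∀ {Q t}, st Q t → t + n ≤ Q.length
  app : ∀ {Q t} (R : List α), st Q t → st (Q ++ R) t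
  cut : ∀ {Q R : List α} {t}, st (Q ++ R) t → t + n ≤ Q.length → st Q t
  fn : ∀ {Q t t'}, st Q t → st Q t' → t = t'

section basics

variable {n : ℕ} {st st' : List α → ℕ → Prop} {act : List α → V → V}

theorem Run.reach {Q : List α} {c : V} {a : ℕ} {v : V} (h : Run st act Q c a v) :
    Reach st Q a := by
  induction h with
  | nil Q c => exact Reach.nil Q
  | cons Q t c a v h _ ih => exact Reach.cons Q t a h ih

theorem Reach.run {Q : List α} {a : ℕ} (h : Reach st Q a) (act : List α → V → V) :
    ∀ c : V, ∃ v, Run st act Q c a v := by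
  induction h with
  | nil Q => exact fun c => ⟨c, Run.nil Q c⟩
  | cons Q t a h _ ih =>
    intro c
    obtain ⟨v, hv⟩ := ih (act (Q.take t) c)
    exact ⟨v, Run.cons Q t c a v h hv⟩

theorem Run.mono (hss : ∀ Q t, st Q t → st' Q t) {Q : List α} {c : V} {a : ℕ} {v : V}
    (h : Run st act Q c a v) : Run st' act Q c a v := by
  induction h with
  | nil Q c => exact Run.nil Q c
  | cons Q t c a v h _ ih => exact Run.cons Q t c a v (hss _ _ h) ih

theorem Run.le (hs : IsStep n st) {Q : List α} {c : V} {a : ℕ} {v : V}
    (h : Run st act Q c a v) : a ≤ Q.length := by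
  induction h with
  | nil Q c => exact Nat.zero_le _
  | cons Q t c a v h _ ih =>
    have := hs.len h
    rw [List.length_drop] at ih
    omega

theorem Reach.le (hs : IsStep n st) {Q : List α} {a : ℕ}
    (h : Reach st Q a) : a ≤ Q.length := by
  induction h with
  | nil Q => exact Nat.zero_le _
  | cons Q t a h _ ih =>
    have := hs.len h
    rw [List.length_drop] at ih
    omega

theorem Run.app (hs : IsStep n st) {Q : List α} {c : V} {a : ℕ} {v : V}
    (h : Run st act Q c a v) (R : List α) : Run st act (Q ++ R) c a v := by
  induction h with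
  | nil Q c => exact Run.nil _ c
  | cons Q t c a v h _ ih =>
    have hl := hs.len h
    refine Run.cons _ t c a v (hs.app R h) ?_
    rw [List.drop_append_of_le_length (by omega), List.take_append_of_le_length (by omega)]
    exact ih

theorem Run.cut (hs : IsStep n st) {W : List α} {c : V} {a : ℕ} {v : V}
    (h : Run st act W c a v) : ∀ Q R : List α, Q ++ R = W → a + n ≤ Q.length →
      Run st act Q c a v := by
  induction h with
  | nil W c => exact fun Q R _ _ => Run.nil _ c
  | cons W t c a v h _ ih =>
    rintro Q R rfl hle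
    have h1 : st Q t := hs.cut h (by omega)
    refine Run.cons _ t c a v h1 ?_
    have := ih (Q.drop t) R (by rw [List.drop_append_of_le_length (by omega)])
      (by rw [List.length_drop]; omega)
    rwa [List.take_append_of_le_length (by omega)] at this

theorem Reach.cut (hs : IsStep n st) {W : List α} {a : ℕ}
    (h : Reach st W a) : ∀ Q R : List α, Q ++ R = W → a + n ≤ Q.length →
      Reach st Q a := by
  induction h with
  | nil W => exact fun Q R _ _ => Reach.nil _
  | cons W t a h _ ih =>
    rintro Q R rfl hle
    have h1 : st Q t := hs.cut h (by omega)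
    refine Reach.cons _ t a h1 ?_
    exact ih (Q.drop t) R (by rw [List.drop_append_of_le_length (by omega)])
      (by rw [List.length_drop]; omega)

theorem Run.trans {Q : List α} {c : V} {a : ℕ} {v : V} (h : Run st act Q c a v) :
    ∀ {b : ℕ} {v' : V}, Run st act (Q.drop a) v b v' → Run st act Q c (a + b) v' := by
  induction h with
  | nil Q c => intro b v' h; simpa using h
  | cons Q t c a v h _ ih =>
    intro b v' h'
    rw [Nat.add_assoc]
    refine Run.cons _ t c (a + b) v' h (ih ?_)
    rwa [List.drop_drop]

theorem Run.snoc {Q : List α} {c : V} {a : ℕ} {v : V} (h : Run st act Q c a v)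
    {t : ℕ} (ht : st (Q.drop a) t) :
    Run st act Q c (a + t) (act ((Q.drop a).take t) v) := by
  refine h.trans ?_
  simpa using Run.cons (Q.drop a) t v 0 _ ht (Run.nil _ _)

theorem Run.det (hs : IsStep n st) {Q : List α} {c : V} {a : ℕ} {v : V}
    (h : Run st act Q c a v) : ∀ {v' : V}, Run st act Q c a v' → v = v' := by
  induction h with
  | nil Q c =>
    intro v' h'
    generalize hz : 0 = z at h'
    cases h' with
    | nil => rfl
    | cons _ t a _ _ h h' =>
      have := hs.pos h
      omega
  | cons Q t c a v h _ ih =>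
    intro v' h'
    generalize hz : t + a = z at h'
    cases h' with
    | nil =>
      have := hs.pos h
      omega
    | cons _ t' _ a' _ h2 h' =>
      have h3 := hs.fn h h2
      subst h3
      have h4 : a = a' := by omega
      subst h4
      exact ih h'

end basics

/-! ### Regularity of the run languages -/

section regular

variable {n : ℕ} {st : List α → ℕ → Prop} {act : List α → V → V}

/-- the run reaches the node exactly `ℓ` letters before the end. -/
def Whole (st : List α → ℕ → Prop) (act : List α → V → V) (ℓ : ℕ) (c v : V) : Language α :=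
  {w | ℓ ≤ w.length ∧ Run st act w c (w.length - ℓ) v}

/-- left quotients. -/
def Pd (st : List α → ℕ → Prop) (act : List α → V → V) (ℓ : ℕ) (T : List α) (c v : V) :
    Language α :=
  {y | T ++ y ∈ Whole st act ℓ c v}

theorem quot_reduce (hs : IsStep n st) {ℓ : ℕ} {T : List α} {t : ℕ} (c v : V)
    (ht : st T t) (htl : t + ℓ ≤ T.length) :
    Pd st act ℓ T c v = Pd st act ℓ (T.drop t) (act (T.take t) c) v := by
  ext y
  change (ℓ ≤ (T ++ y).length ∧ Run st act (T ++ y) c ((T ++ y).length - ℓ) v) ↔
    (ℓ ≤ (T.drop t ++ y).length ∧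
      Run st act (T.drop t ++ y) (act (T.take t) c) ((T.drop t ++ y).length - ℓ) v)
  have hpos := hs.pos ht
  have e1 : (T ++ y).drop t = T.drop t ++ y := List.drop_append_of_le_length (by omega)
  have e2 : (T ++ y).take t = T.take t := List.take_append_of_le_length (by omega)
  constructor
  · rintro ⟨h1, h2⟩
    refine ⟨by simp only [List.length_append, List.length_drop]; omega, ?_⟩
    generalize hz : (T ++ y).length - ℓ = z at h2
    cases h2 with
    | nil =>
      simp only [List.length_append] at hz
      omega
    | cons _ t' _ a' _ h3 h4 =>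
      have h5 := hs.fn h3 (hs.app y ht)
      subst h5
      rw [e1, e2] at h4
      have : (T.drop t' ++ y).length - ℓ = a' := by
        simp only [List.length_append, List.length_drop] at hz ⊢
        omega
      rw [this]
      exact h4
  · rintro ⟨h1, h2⟩
    refine ⟨by simp only [List.length_append, List.length_drop] at h1 ⊢; omega, ?_⟩
    have h3 := Run.cons (T ++ y) t c _ v (hs.app y ht) (by rw [e1, e2]; exact h2)
    have : (T ++ y).length - ℓ = t + ((T.drop t ++ y).length - ℓ) := by
      simp only [List.length_append, List.length_drop]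
      omega
    rw [this]
    exact h3

theorem quot_dead (hs : IsStep n st) {ℓ B : ℕ} (hn : n ≤ ℓ) (hB : ∀ Q t, st Q t → t ≤ B)
    {T : List α} (c v : V) (hT : B + ℓ < T.length) (hd : ∀ t, ¬ (st T t ∧ t + ℓ ≤ T.length)) :
    Pd st act ℓ T c v = 0 := by
  ext y
  constructor
  · rintro ⟨h1, h2⟩
    exfalso
    generalize hz : (T ++ y).length - ℓ = z at h2
    cases h2 with
    | nil =>
      simp only [List.length_append] at hz
      omega
    | cons _ t' _ a' _ h3 h4 =>
      have h5 := hB _ _ h3
      exact hd t' ⟨hs.cut h3 (by omega), by omega⟩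
  · intro h
    exact h.elim

theorem whole_regular [Finite α] [Finite V] (hs : IsStep n st) {ℓ B : ℕ} (hn : n ≤ ℓ)
    (hB : ∀ Q t, st Q t → t ≤ B) (c v : V) :
    (Whole st act ℓ c v).IsRegular := by
  classical
  apply Language.IsRegular.of_finite_range_leftQuotient
  have hfin : Set.Finite {T : List α | T.length ≤ B + ℓ} := List.finite_length_le α (B + ℓ)
  have hfin2 : Set.Finite (({T : List α | T.length ≤ B + ℓ} ×ˢ (Set.univ : Set V)) :
      Set (List α × V)) := hfin.prod Set.finite_univ
  have hfin3 := (hfin2.image (fun p : List α × V => Pd st act ℓ p.1 p.2 v)).insert 0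
  refine hfin3.subset ?_
  rintro _ ⟨x, rfl⟩
  have key : ∀ (m : ℕ) (T : List α) (c : V), T.length ≤ m →
      Pd st act ℓ T c v ∈
        insert 0 ((fun p : List α × V => Pd st act ℓ p.1 p.2 v) ''
          (({T : List α | T.length ≤ B + ℓ} ×ˢ (Set.univ : Set V)) : Set (List α × V))) := by
    intro m
    induction m with
    | zero =>
      intro T c hT
      exact Or.inr ⟨(T, c), ⟨by change T.length ≤ B + ℓ; omega, trivial⟩, rfl⟩
    | succ m ih =>
      intro T c hT
      by_cases h1 : T.length ≤ B + ℓ
      · exact Or.inr ⟨(T, c), ⟨h1, trivial⟩, rfl⟩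
      · by_cases h2 : ∃ t, st T t ∧ t + ℓ ≤ T.length
        · obtain ⟨t, ht, htl⟩ := h2
          rw [quot_reduce hs c v ht htl]
          apply ih
          have := hs.pos ht
          rw [List.length_drop]
          omega
        · push Not at h2
          left
          exact quot_dead hs hn hB c v (by omega) (fun t ht => by
            have := h2 t ht.1
            omega)
  exact key x.length x c le_rfl

end regular

/-- Sandwich computability at height `j`. -/
def SW (st : List α → ℕ → Prop) (ℓ j : ℕ) : Prop :=
  ∀ L : Language α, L.IsRegular → ∃ X : Language α, H j X ∧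
    (∀ w : List α, ℓ ≤ w.length → Reach st w (w.length - ℓ) → w ∈ L → w ∈ X) ∧
    (∀ w ∈ X, w ∈ L)

theorem SW.whole [Finite α] [Finite V] {n ℓ B j : ℕ} {st : List α → ℕ → Prop}
    (hs : IsStep n st) (hn : n ≤ ℓ) (hB : ∀ Q t, st Q t → t ≤ B) (h : SW st ℓ j)
    (act : List α → V → V) (c v : V) : H j (Whole st act ℓ c v) := by
  obtain ⟨X, hX, h1, h2⟩ := h _ (whole_regular (act := act) hs hn hB c v)
  exact H.congr hX fun w => ⟨h2 w, fun hw => h1 w hw.1 hw.2.reach hw⟩

/-- `(T0)`: no steps at all. -/
theorem SW.bot [Finite α] {ℓ : ℕ} {st : List α → ℕ → Prop} (hst : ∀ Q t, ¬ st Q t) :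
    SW st ℓ 0 := by
  intro L _
  refine ⟨{w | w.length = ℓ ∧ w ∈ L}, H.bounded 0 ℓ fun w hw => hw.1.le, ?_, fun w hw => hw.2⟩
  intro w hw hr hL
  refine ⟨?_, hL⟩
  generalize hz : w.length - ℓ = z at hr
  cases hr with
  | nil => omega
  | cons _ t a h _ => exact (hst _ _ h).elim

end Crest.Agent.R320.Level_878
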