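import Crest.Agent.R320.Hk1_851

/-!
# Row 320: the level theorem for PARTIAL automata (partial synchronisation), helper942

`st : Om → α → Option Om` a partial DFA (`none` = the promise is broken), `Lam` the left-legal
states, `Rst k c` = the word `k` sends every left-legal state to `c` or to `none`,
`D l` = the class of pieces seen from the state `l`.
`level`: if `{k ∈ D l | transition of k = s}` is `HL n` and every alive word can be cut,
then `{w | run w0 w = some w1}` is `HL (n+1)`.
-/

set_option autoImplicit false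

namespace Crest.Agent.R320.Lev942

open Crest.Agent.R320.Hk_851

universe u v

variable {α : Type u} {Om : Type v}

/-- run of a partial DFA -/
def run (st : Om → α → Option Om) : Om → List α → Option Om
  | m, [] => some m
  | m, c :: w => (st m c).bind fun m' => run st m' w

theorem run_append (st : Om → α → Option Om) (m : Om) (u w : List α) :
    run st m (u ++ w) = (run st m u).bind fun m' => run st m' w := by
  induction u generalizing m with
  | nil => simp [run]
  | cons c u ih =>
    simp only [List.cons_append, run]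
    cases h : st m c with
    | none => simp
    | some m' => simp [ih m']

theorem run_singleton (st : Om → α → Option Om) (m : Om) (c : α) :
    run st m [c] = st m c := by
  simp only [run]
  cases st m c <;> rfl

/-- `k` synchronises all left-legal states (or kills them) -/
def Rst (st : Om → α → Option Om) (Lam : Set Om) (k : List α) (c : Om) : Prop :=
  ∀ l ∈ Lam, ∀ m, run st l k = some m → m = c

variable (st : Om → α → Option Om) (Lam : Set Om) (D : Om → Language α)

/-- short words -/
def LShort (w0 w1 : Om) : Language α := {w | w ∈ D w0 ∧ run st w0 w = some w1}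
/-- first pieces -/
def LBeg (w0 : Om) : Language α := {y | y ∈ D w0 ∧ ∃ l ∈ Lam, run st w0 y = some l}
/-- middle pieces -/
def LK : Language α := {k | ∃ l, l ∈ Lam ∧ k ∈ D l ∧ ∃ c ∈ Lam, Rst st Lam k c}
/-- last pieces -/
def LFin (w1 : Om) : Language α := {y | ∃ l, l ∈ Lam ∧ y ∈ D l ∧ Rst st Lam y w1}
/-- the thread language -/
def LT (w0 w1 : Om) : Language α :=
  LShort st D w0 w1 + LBeg st Lam D w0 * (KStar.kstar (LK st Lam D) * LFin st Lam D w1)

theorem kstar_lam {z : List α} (hz : z ∈ KStar.kstar (LK st Lam D)) :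
    ∀ l ∈ Lam, ∀ m, run st l z = some m → m ∈ Lam := by
  rw [Language.mem_kstar] at hz
  obtain ⟨L, rfl, hL⟩ := hz
  induction L with
  | nil =>
    intro l hl m hm
    simp only [List.flatten_nil, run, Option.some.injEq] at hm
    exact hm ▸ hl
  | cons k L ih =>
    intro l hl m hm
    rw [List.flatten_cons, run_append] at hm
    obtain ⟨m1, h1, h2⟩ := Option.bind_eq_some_iff.1 hm
    obtain ⟨_, _, _, c, hc, hr⟩ := hL k (List.mem_cons_self ..)
    have : m1 = c := hr l hl m1 h1
    subst this
    exact ih (fun y hy => hL y (List.mem_cons_of_mem _ hy)) m1 hc m h2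

theorem sound {w0 w1 : Om} {w : List α} (hw : w ∈ LT st Lam D w0 w1) :
    ∀ m, run st w0 w = some m → m = w1 := by
  intro m hm
  rcases hw with hw | hw
  · obtain ⟨_, h⟩ := hw
    rw [h] at hm
    exact (Option.some.inj hm).symm
  · obtain ⟨y, hy, r, hr, rfl⟩ := Language.mem_mul.1 hw
    obtain ⟨z, hz, f, hf, rfl⟩ := Language.mem_mul.1 hr
    obtain ⟨_, l, hl, hly⟩ := hy
    obtain ⟨_, _, _, hfr⟩ := hf
    rw [run_append, hly] at hm
    simp only [Option.bind_some] at hm
    rw [run_append] at hm
    obtain ⟨m1, h1, h2⟩ := Option.bind_eq_some_iff.1 hm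
    exact hfr m1 (kstar_lam st Lam D hz l hl m1 h1) m h2

/-- cutting hypothesis for left-legal states -/
def Cut1 : Prop := ∀ l ∈ Lam, ∀ w c, run st l w = some c → Rst st Lam w c →
  w ∈ D l ∨ ∃ k w', w = k ++ w' ∧ k ≠ [] ∧ k ∈ D l ∧
    (∃ c' ∈ Lam, run st l k = some c' ∧ Rst st Lam k c') ∧ Rst st Lam w' c

/-- cutting hypothesis for arbitrary states -/
def Cut0 : Prop := ∀ w0 w c, run st w0 w = some c →
  w ∈ D w0 ∨ ∃ y w', w = y ++ w' ∧ y ∈ D w0 ∧ (∃ l ∈ Lam, run st w0 y = some l) ∧
    Rst st Lam w' c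

theorem mem_star_fin (h1 : Cut1 st Lam D) : ∀ (N : ℕ) (w : List α), w.length ≤ N →
    ∀ l ∈ Lam, ∀ c, run st l w = some c → Rst st Lam w c →
    w ∈ KStar.kstar (LK st Lam D) * LFin st Lam D c := by
  intro N
  induction N with
  | zero =>
    intro w hw l hl c hc hr
    rcases h1 l hl w c hc hr with h | ⟨k, w', rfl, hk, _⟩
    · exact Language.mem_mul.2 ⟨[], Language.nil_mem_kstar _, w, ⟨l, hl, h, hr⟩, rfl⟩
    · exact absurd (List.length_eq_zero_iff.1 (Nat.le_zero.1 hw)) (by simp [hk])
  | succ N ih =>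
    intro w hw l hl c hc hr
    rcases h1 l hl w c hc hr with h | ⟨k, w', rfl, hk, hkD, ⟨c', hc', hlc, hkr⟩, hw'⟩
    · exact Language.mem_mul.2 ⟨[], Language.nil_mem_kstar _, w, ⟨l, hl, h, hr⟩, rfl⟩
    · have hk0 : 0 < k.length := List.length_pos_iff.2 hk
      rw [List.length_append] at hw
      rw [run_append, hlc] at hc
      simp only [Option.bind_some] at hc
      obtain ⟨z, hz, f, hf, rfl⟩ := Language.mem_mul.1 (ih w' (by omega) c' hc' c hc hw')
      refine Language.mem_mul.2 ⟨k ++ z, ?_, f, hf, by simp⟩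
      rw [Language.mem_kstar] at hz ⊢
      obtain ⟨L, rfl, hL⟩ := hz
      refine ⟨k :: L, by simp, ?_⟩
      intro y hy
      rcases List.mem_cons.1 hy with rfl | hy
      · exact ⟨l, hl, hkD, c', hc', hkr⟩
      · exact hL y hy

theorem complete (h0 : Cut0 st Lam D) (h1 : Cut1 st Lam D) {w0 : Om} {w : List α} {c : Om}
    (hc : run st w0 w = some c) : w ∈ LT st Lam D w0 c := by
  rcases h0 w0 w c hc with h | ⟨y, w', rfl, hy, ⟨l, hl, hly⟩, hr⟩
  · exact Or.inl ⟨h, hc⟩
  · rw [run_append, hly] at hc
    simp only [Option.bind_some] at hc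
    exact Or.inr (Language.mem_mul.2 ⟨y, ⟨hy, l, hl, hly⟩, w',
      mem_star_fin st Lam D h1 w'.length w' le_rfl l hl c hc hr, rfl⟩)

theorem dead_split : ∀ (w : List α) (w0 : Om), run st w0 w = none →
    ∃ u c r w1, w = u ++ ([c] ++ r) ∧ run st w0 u = some w1 ∧ st w1 c = none := by
  intro w
  induction w with
  | nil => intro w0 h; simp [run] at h
  | cons a w ih =>
    intro w0 h
    cases hs : st w0 a with
    | none => exact ⟨[], a, w, w0, rfl, rfl, hs⟩
    | some m =>
      have h' : run st m w = none := by simpa [run, hs] using h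
      obtain ⟨u, c, r, w1, rfl, h2, h3⟩ := ih m h'
      exact ⟨a :: u, c, r, w1, rfl, by simp [run, hs, h2], h3⟩

theorem dead_iff (h0 : Cut0 st Lam D) (h1 : Cut1 st Lam D) (w0 : Om) (w : List α) :
    run st w0 w = none ↔
    ∃ p : Om × α, st p.1 p.2 = none ∧ w ∈ LT st Lam D w0 p.1 * (({[p.2]} : Language α) * ⊤) := by
  constructor
  · intro h
    obtain ⟨u, c, r, w1, rfl, h2, h3⟩ := dead_split st w w0 h
    exact ⟨(w1, c), h3, Language.mem_mul.2 ⟨u, complete st Lam D h0 h1 h2, [c] ++ r,
      Language.mem_mul.2 ⟨[c], rfl, r, trivial, rfl⟩, rfl⟩⟩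
  · rintro ⟨⟨w1, c⟩, h3, hw⟩
    obtain ⟨u, hu, z, hz, rfl⟩ := Language.mem_mul.1 hw
    obtain ⟨x, hx, r, _, rfl⟩ := Language.mem_mul.1 hz
    have hx' : x = [c] := hx
    subst hx'
    rw [run_append]
    cases h : run st w0 u with
    | none => rfl
    | some m =>
      have hm := sound st Lam D hu m h
      subst hm
      simp only [Option.bind_some, List.singleton_append, run]
      rw [show st m c = none from h3]
      rfl

section height

variable {n : ℕ}

theorem fib [Finite Om]
    (hD : ∀ (l : Om) (s : Om → Option Om), HL n {k | k ∈ D l ∧ ∀ m, run st m k = s m})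
    (l : Om) (P : (Om → Option Om) → Prop) :
    HL n {k | k ∈ D l ∧ P (fun m => run st m k)} := by
  have h := HL.biUnion (s := {s : Om → Option Om | P s}) (Set.toFinite _)
    (L := fun s => ({k | k ∈ D l ∧ ∀ m, run st m k = s m} : Language α)) (fun s _ => hD l s)
  refine h.congr fun w => ?_
  constructor
  · rintro ⟨h1, h2⟩
    exact ⟨fun m => run st m w, h2, h1, fun m => rfl⟩
  · rintro ⟨s, hs, h1, h2⟩
    have : (fun m => run st m w) = s := funext h2
    exact ⟨h1, by rw [this]; exact hs⟩

theorem hl_short [Finite Om]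
    (hD : ∀ (l : Om) (s : Om → Option Om), HL n {k | k ∈ D l ∧ ∀ m, run st m k = s m})
    (w0 w1 : Om) : HL n (LShort st D w0 w1) :=
  fib st D hD w0 (fun s => s w0 = some w1)

theorem hl_beg [Finite Om]
    (hD : ∀ (l : Om) (s : Om → Option Om), HL n {k | k ∈ D l ∧ ∀ m, run st m k = s m})
    (w0 : Om) : HL n (LBeg st Lam D w0) :=
  fib st D hD w0 (fun s => ∃ l ∈ Lam, s w0 = some l)

theorem hl_K [Finite Om]
    (hD : ∀ (l : Om) (s : Om → Option Om), HL n {k | k ∈ D l ∧ ∀ m, run st m k = s m}) :
    HL n (LK st Lam D) := by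
  have h := HL.biUnion (s := Lam) (Set.toFinite _)
    (L := fun l => ({k | k ∈ D l ∧ ∃ c ∈ Lam, Rst st Lam k c} : Language α))
    (fun l _ => fib st D hD l (fun s => ∃ c ∈ Lam, ∀ l ∈ Lam, ∀ m, s l = some m → m = c))
  exact h.congr fun w => Iff.rfl

theorem hl_fin [Finite Om]
    (hD : ∀ (l : Om) (s : Om → Option Om), HL n {k | k ∈ D l ∧ ∀ m, run st m k = s m})
    (w1 : Om) : HL n (LFin st Lam D w1) := by
  have h := HL.biUnion (s := Lam) (Set.toFinite _)
    (L := fun l => ({k | k ∈ D l ∧ Rst st Lam k w1} : Language α))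
    (fun l _ => fib st D hD l (fun s => ∀ l ∈ Lam, ∀ m, s l = some m → m = w1))
  exact h.congr fun w => Iff.rfl

theorem hl_T [Finite Om]
    (hD : ∀ (l : Om) (s : Om → Option Om), HL n {k | k ∈ D l ∧ ∀ m, run st m k = s m})
    (w0 w1 : Om) : HL (n + 1) (LT st Lam D w0 w1) := by
  refine HL.add ((hl_short st D hD w0 w1).mono (Nat.le_succ n)) ?_
  refine HL.mul ((hl_beg st Lam D hD w0).mono (Nat.le_succ n)) ?_
  exact HL.mul (hl_K st Lam D hD).star ((hl_fin st Lam D hD w1).mono (Nat.le_succ n))

/-- **The level theorem.** -/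
theorem level [Finite Om] [Finite α]
    (hD : ∀ (l : Om) (s : Om → Option Om), HL n {k | k ∈ D l ∧ ∀ m, run st m k = s m})
    (h0 : Cut0 st Lam D) (h1 : Cut1 st Lam D) (w0 w1 : Om) :
    HL (n + 1) {w | run st w0 w = some w1} := by
  have hdead : HL (n + 1) {w | run st w0 w = none} := by
    have h := HL.biUnion (k := n + 1) (s := {p : Om × α | st p.1 p.2 = none}) (Set.toFinite _)
      (L := fun p => LT st Lam D w0 p.1 * (({[p.2]} : Language α) * ⊤))
      (fun p _ => (hl_T st Lam D hD w0 p.1).mul ((HL.char p.2).mul HL.top))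
    exact h.congr fun w => dead_iff st Lam D h0 h1 w0 w
  refine ((hl_T st Lam D hD w0 w1).sdiff hdead).congr fun w => ?_
  constructor
  · intro h
    exact ⟨complete st Lam D h0 h1 h, fun hn => by
      have h' : run st w0 w = some w1 := h
      have hn' : run st w0 w = none := hn
      rw [h'] at hn'; exact absurd hn' (by simp)⟩
  · rintro ⟨h, hn⟩
    cases hr : run st w0 w with
    | none => exact absurd hr hn
    | some m => exact (show run st w0 w = some w1 by rw [hr, sound st Lam D h m hr])

/-- complement form: the dead words. -/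
theorem level_none [Finite Om] [Finite α]
    (hD : ∀ (l : Om) (s : Om → Option Om), HL n {k | k ∈ D l ∧ ∀ m, run st m k = s m})
    (h0 : Cut0 st Lam D) (h1 : Cut1 st Lam D) (w0 : Om) :
    HL (n + 1) {w | run st w0 w = none} := by
  have h := (HL.biUnion (s := (Set.univ : Set Om)) (Set.toFinite _)
    (L := fun w1 => ({w | run st w0 w = some w1} : Language α))
    (fun w1 _ => level st Lam D hD h0 h1 w0 w1)).compl
  refine h.congr fun w => ?_
  constructor
  · intro hw ⟨w1, _, h2⟩
    have h' : run st w0 w = none := hw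
    have h2' : run st w0 w = some w1 := h2
    rw [h'] at h2'; exact absurd h2' (by simp)
  · intro hw
    cases hr : run st w0 w with
    | none => exact hr
    | some m => exact absurd ⟨m, trivial, hr⟩ hw

end height

end Crest.Agent.R320.Lev942
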