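import Crest.Agent.R320.Two_457

/-!
# Row 320, two-level joint, second half (helper457): outer runs from inner affine runs
-/

set_option autoImplicit false

namespace Crest.Agent.R320.Two_457

open Crest.Agent.R320.Hk_851 Crest.Agent.R320.Scheme_457
open Crest.Agent.R320.Scheme_457.Sch (drop_app drop_app' take_pre)

universe u v w

/-- the promise scheme `P` carries the tokens of the outer scheme `S` (as differences of its own
tokens); a token cut by `S` becomes `0` -/
structure Link {α : Type u} {Q : Type v} {V : Type w} [AddGroup V] (S : Sch α Q) (P : PSch α V)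
    where
  nx_eq : ∀ F, S.nx F = P.nx F
  cut : ∀ {F m} (v), S.nx F = some m → ¬ P.bad F → S.Cut F v
  e : Q → V
  e_inj : Function.Injective e
  e_ne : ∀ q, e q ≠ 0
  live : ∀ {F m} (v y), S.nx F = some m → P.bad F → ¬ S.Cut F v →
    P.ze F (e v + y) = e (S.ze F v) + P.ze F y
  dead : ∀ {F m} (v y), S.nx F = some m → P.bad F → S.Cut F v →
    P.ze F (e v + y) = P.ze F y

namespace Link

variable {α : Type u} {Q : Type v} {V : Type w} [AddGroup V] {S : Sch α Q} {P : PSch α V}
  (K : Link S P) {En : List α → Q → Prop}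

/-- end conditions of the inner runs -/
def A (En : List α → Q → Prop) (q : Q) (y : V) (F : List α) (x : V) : Prop :=
  S.nx F = none ∧ En F q ∧ x = K.e q + y

def B (_K : Link S P) (y : V) (F : List α) (x : V) : Prop := S.nx F = none ∧ x = y

include K in
theorem nab_of (hEn : ∀ F v, En F v → S.nx F = none) {F : List α} {v : Q}
    (h : S.RunU En F v) : ¬ P.NAB F := by
  induction h with
  | @fin F v h =>
    intro hN
    have h1 := hEn _ _ h
    rw [K.nx_eq] at h1
    cases hN with
    | here h2 _ => rw [h1] at h2; cases h2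
    | next h2 _ => rw [h1] at h2; cases h2
  | @step F v m h1 h2 _ ih =>
    intro hN
    cases hN with
    | here h3 h4 => exact h2 (K.cut v h1 h4)
    | @next _ m' h3 h4 =>
      rw [K.nx_eq] at h1
      rw [h1] at h3
      cases h3
      exact ih h4

theorem fwd (hEn : ∀ F v, En F v → S.nx F = none) {F : List α} {v : Q} (h : S.RunU En F v) :
    ∀ y0, ∃ q y, P.Run (K.A En q y) F (K.e v + y0) ∧ P.Run (K.B y) F y0 := by
  induction h with
  | @fin F v h =>
    intro y0
    exact ⟨v, y0, .fin ⟨hEn _ _ h, h, rfl⟩, .fin ⟨hEn _ _ h, rfl⟩⟩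
  | @step F v m h1 h2 h3 ih =>
    intro y0
    have hb : P.bad F := by
      by_contra hb
      exact h2 (K.cut v h1 hb)
    obtain ⟨q, y, h4, h5⟩ := ih (P.ze F y0)
    have h1' : P.nx F = some m := by rw [← K.nx_eq]; exact h1
    refine ⟨q, y, .step h1' ?_, .step h1' h5⟩
    rw [K.live v y0 h1 hb h2]
    exact h4

theorem same {q : Q} {y : V} {F : List α} {z : V} (h1 : P.Run (K.A En q y) F z) :
    P.Run (K.B y) F z → False := by
  induction h1 with
  | @fin F z h =>
    intro h2
    obtain ⟨h3, -, rfl⟩ := h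
    rw [K.nx_eq] at h3
    generalize hz : K.e q + y = z at h2
    cases h2 with
    | fin h4 =>
      obtain ⟨-, h5⟩ := h4
      rw [h5] at hz
      exact K.e_ne q (by simpa using hz)
    | step h4 _ => rw [h3] at h4; cases h4
  | @step F z m h3 _ ih =>
    intro h2
    cases h2 with
    | fin h4 =>
      have h5 := h4.1
      rw [K.nx_eq, h3] at h5; cases h5
    | @step _ _ m' h4 h5 =>
      rw [h3] at h4; cases h4
      exact ih h5

theorem back {q : Q} {y y0 : V} {F : List α} (h : P.Run (K.B y) F y0) : ∀ v, ¬ P.NAB F →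
    P.Run (K.A En q y) F (K.e v + y0) → S.RunU En F v := by
  induction h with
  | @fin F y0 h =>
    intro v _ h2
    obtain ⟨h3, rfl⟩ := h
    generalize hz : K.e v + y0 = z at h2
    cases h2 with
    | fin h4 =>
      obtain ⟨-, h5, rfl⟩ := h4
      have : v = q := K.e_inj (add_right_cancel hz)
      subst this
      exact .fin h5
    | step h4 _ =>
      rw [K.nx_eq] at h3
      rw [h3] at h4; cases h4
  | @step F y0 m h1 h2 ih =>
    intro v hN h3
    have hb := PSch.bad_of hN h1
    have hn := PSch.nab_drop hN h1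
    have h1' : S.nx F = some m := by rw [K.nx_eq]; exact h1
    generalize hz : K.e v + y0 = z at h3
    cases h3 with
    | fin h4 =>
      have h5 := h4.1
      rw [h1'] at h5; cases h5
    | @step _ _ m' h4 h5 =>
      rw [h1] at h4; cases h4
      subst hz
      by_cases hc : S.Cut F v
      · rw [K.dead v y0 h1' hb hc] at h5
        exact (K.same h5 h2).elim
      · rw [K.live v y0 h1' hb hc] at h5
        exact .step h1' hc (ih _ hn h5)

theorem runU_iff (hEn : ∀ F v, En F v → S.nx F = none) (F : List α) (v : Q) :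
    S.RunU En F v ↔ ∃ q y, (¬ P.NAB F ∧ P.Run (K.A En q y) F (K.e v + 0)) ∧
      (¬ P.NAB F ∧ P.Run (K.B y) F 0) := by
  constructor
  · intro h
    obtain ⟨q, y, h1, h2⟩ := K.fwd hEn h 0
    exact ⟨q, y, ⟨K.nab_of hEn h, h1⟩, K.nab_of hEn h, h2⟩
  · rintro ⟨q, y, ⟨h1, h2⟩, _, h3⟩
    exact K.back h3 v h1 h2

/-- one-zone languages of an end condition -/
def Pieces {ι : Type*} (j : ℕ) (S : Sch α Q) (P : PSch α V) (E : List α → ι → Prop) : Prop :=
  (∀ i, HL j {F | S.nx F = none ∧ E F i}) ∧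
  (∀ r i, HL j {u | ∃ b, P.rt u = some (r, b) ∧ S.nx (u.drop b) = none ∧ E (u.drop b) i})

include K in
theorem hl_runU [Finite Q] [Finite V] {j : ℕ} (hEn : ∀ F v, En F v → S.nx F = none)
    (b1 : HL j (P.XE P.Lf)) (b2 : HL j P.NB0) (b5 : HL j {F | P.Nb F})
    (b6 : ∀ v, HL j {F | P.lf F = some v})
    (c1 : Pieces j S P En) (c2 : Pieces j S P (fun _ (_ : Unit) => True)) (v : Q) :
    HL (j + 1) {F | S.RunU En F v} := by
  have hA1 : ∀ q y, HL j (P.XE (K.A En q y)) := by
    intro q y
    refine (c1.2 (K.e q + y) q).congr fun u => ?_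
    constructor
    · rintro ⟨r, b, h1, h2, h3, h4⟩
      subst h4
      exact ⟨b, h1, h2, h3⟩
    · rintro ⟨b, h1, h2, h3⟩
      exact ⟨_, b, h1, h2, h3, rfl⟩
  have hA2 : ∀ q y x, HL j {F | K.A En q y F x} := by
    intro q y x
    refine ((c1.1 q).inf (HL.const (x = K.e q + y))).congr fun F => ?_
    constructor
    · rintro ⟨h1, h2, h3⟩; exact ⟨⟨h1, h2⟩, h3⟩
    · rintro ⟨⟨h1, h2⟩, h3⟩; exact ⟨h1, h2, h3⟩
  have hB1 : ∀ y, HL j (P.XE (K.B y)) := by
    intro y
    refine (c2.2 y ()).congr fun u => ?_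
    constructor
    · rintro ⟨r, b, h1, h2, h3⟩
      subst h3
      exact ⟨b, h1, h2, trivial⟩
    · rintro ⟨b, h1, h2, -⟩
      exact ⟨_, b, h1, h2, rfl⟩
  have hB2 : ∀ y x, HL j {F | K.B y F x} := by
    intro y x
    refine ((c2.1 ()).inf (HL.const (x = y))).congr fun F => ?_
    constructor
    · rintro ⟨h1, h3⟩; exact ⟨⟨h1, trivial⟩, h3⟩
    · rintro ⟨⟨h1, -⟩, h3⟩; exact ⟨h1, h3⟩
  have key : HL (j + 1) {F | ∃ q : Q, F ∈ ({F | ∃ y : V, F ∈
      (({F | ¬ P.NAB F ∧ P.Run (K.A En q y) F (K.e v + 0)} : Language α) ⊓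
        ({F | ¬ P.NAB F ∧ P.Run (K.B y) F 0} : Language α))} : Language α)} := by
    refine HL.iUnion fun q => HL.iUnion fun y => ?_
    exact (PSch.hl_run _ b1 b2 (hA1 q y) (hA2 q y _) b5 (b6 _)).inf
      (PSch.hl_run _ b1 b2 (hB1 y) (hB2 y _) b5 (b6 _))
  refine key.congr fun F => ?_
  show S.RunU En F v ↔ _
  rw [K.runU_iff hEn]
  constructor
  · rintro ⟨q, y, h1, h2⟩; exact ⟨q, y, h1, h2⟩
  · rintro ⟨q, y, h1, h2⟩; exact ⟨q, y, h1, h2⟩

def RtL (S : Sch α Q) (r : Q) (t : List α) : Language α :=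
  {w | S.rt (w ++ t) = some (r, w.length)}

def PreL (t : List α) : Language α := {F | ∃ x ∈ ({t} : Language α), x <+: F}

def RU (S : Sch α Q) (En : List α → Q → Prop) (r : Q) : Language α := {F | S.RunU En F r}

omit [AddGroup V] in
theorem hl_KEU [Finite α] [Finite Q] {j : ℕ} (S : Sch α Q) (En : List α → Q → Prop)
    (a1 : ∀ r t, t.length = S.n → HL j {w | S.rt (w ++ t) = some (r, w.length)})
    (h : ∀ v, HL j {F | S.RunU En F v}) : HL j (S.KEU En) := by
  have hfin : Finite {t : List α // t.length = S.n} := by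
    have := (List.finite_length_eq α S.n)
    exact this
  have key : HL j {u | ∃ r : Q, u ∈ ({u | ∃ t : {t : List α // t.length = S.n}, u ∈
      RtL S r t.1 * (PreL t.1 ⊓ RU S En r)} : Language α)} := by
    refine HL.iUnion fun r => HL.iUnion fun t => ?_
    have e1 : HL j (RtL S r t.1) := a1 r t.1 t.2
    have e2 : HL j (PreL t.1) := (HL.word t.1).prefix
    have e3 : HL j (RU S En r) := h r
    exact e1.mul (e2.inf e3)
  refine key.congr fun u => ?_
  constructor
  · rintro ⟨r, b, h1, h2⟩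
    have hl := S.rt_len h1
    refine ⟨r, ⟨(u.drop b).take S.n, ?_⟩, u.take b, ?_, u.drop b, ⟨?_, h2⟩, ?_⟩
    · rw [List.length_take, List.length_drop]; omega
    · show S.rt (u.take b ++ (u.drop b).take S.n) = some (r, (u.take b).length)
      have h3 : u.take b ++ (u.drop b).take S.n = u.take (b + S.n) := by rw [List.take_add]
      have h4 : (u.take b).length = b := by rw [List.length_take]; omega
      rw [h3, h4]; exact S.rt_take h1
    · exact ⟨_, rfl, List.take_prefix _ _⟩
    · simp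
  · rintro ⟨r, t, w, h1, F, ⟨⟨x, hx, y, hy⟩, h2⟩, h3⟩
    have hx' : x = t.1 := hx
    subst hx'
    have h1' : S.rt (w ++ t.1) = some (r, w.length) := h1
    have hu : u = w ++ F := h3.symm
    refine ⟨r, w.length, ?_, ?_⟩
    · rw [hu, ← hy, ← List.append_assoc]; exact S.rt_app y h1'
    · have : u.drop w.length = F := by rw [hu]; simp
      rw [this]; exact h2

include K in
/-- TWO STARS: outer run languages from one-zone languages -/
theorem two_level [Finite α] [Finite Q] [Finite V] {j : ℕ}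
    (hEn : ∀ F v, En F v → S.nx F = none)
    (a1 : ∀ r t, t.length = S.n → HL j {w | S.rt (w ++ t) = some (r, w.length)})
    (b1 : HL j (P.XE P.Lf)) (b2 : HL j P.NB0) (b5 : HL j {F | P.Nb F})
    (b6 : ∀ v, HL j {F | P.lf F = some v})
    (c1 : Pieces j S P En) (c1' : Pieces j S P S.Lf)
    (c2 : Pieces j S P (fun _ (_ : Unit) => True)) (v : Q) :
    HL (j + 2) {F | S.Run En F v} := by
  have hLf : ∀ F v, S.Lf F v → S.nx F = none := fun _ _ h => S.lf_nx h
  have h1 : ∀ v, HL (j + 1) {F | S.RunU S.Lf F v} := K.hl_runU hLf b1 b2 b5 b6 c1' c2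
  have h2 : ∀ v, HL (j + 1) {F | S.RunU En F v} := K.hl_runU hEn b1 b2 b5 b6 c1 c2
  have a1' : ∀ r t, t.length = S.n → HL (j + 1) {w | S.rt (w ++ t) = some (r, w.length)} :=
    fun r t ht => (a1 r t ht).mono (Nat.le_succ j)
  exact Sch.level_run v (hl_KEU S _ a1' h1) (h1 v) (h2 v) (hl_KEU S _ a1' h2)

include K in
/-- the same for words starting right-legal -/
theorem two_level_KE [Finite α] [Finite Q] [Finite V] {j : ℕ}
    (hEn : ∀ F v, En F v → S.nx F = none)
    (a1 : ∀ r t, t.length = S.n → HL j {w | S.rt (w ++ t) = some (r, w.length)})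
    (b1 : HL j (P.XE P.Lf)) (b2 : HL j P.NB0) (b5 : HL j {F | P.Nb F})
    (b6 : ∀ v, HL j {F | P.lf F = some v})
    (c1 : Pieces j S P En) (c1' : Pieces j S P S.Lf)
    (c2 : Pieces j S P (fun _ (_ : Unit) => True)) :
    HL (j + 2) (S.KE En) := by
  have hLf : ∀ F v, S.Lf F v → S.nx F = none := fun _ _ h => S.lf_nx h
  have h1 : ∀ v, HL (j + 1) {F | S.RunU S.Lf F v} := K.hl_runU hLf b1 b2 b5 b6 c1' c2
  have h2 : ∀ v, HL (j + 1) {F | S.RunU En F v} := K.hl_runU hEn b1 b2 b5 b6 c1 c2
  have a1' : ∀ r t, t.length = S.n → HL (j + 1) {w | S.rt (w ++ t) = some (r, w.length)} :=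
    fun r t ht => (a1 r t ht).mono (Nat.le_succ j)
  exact Sch.level_KE (hl_KEU S _ a1' h1) (hl_KEU S _ a1' h2)

end Link

end Crest.Agent.R320.Two_457
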