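import Crest.Agent.R320.Two_973
import Crest.Agent.R320.Zone132b_898

/-! Row 320: scheme 1 as a level of the residual-word machine. -/

set_option autoImplicit false

namespace Crest.Agent.R320.Lv1_973

open Crest.RegLang Crest.Agent.R320.Hgt1_903 Crest.Agent.R320.Nest_85 Crest.Agent.R320.Mach_973
open Crest.Agent.R320.Two_973
open Crest.Agent.R320.Zone132_898 (R_left drop_add FW)

abbrev WR := Zone132_898.Rule

variable {α : Type*}

theorem wlen (W : WR α) {s : List α} {t : ℕ} (h : W.R (s.drop t)) : t + W.n ≤ s.length := by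
  have h1 := W.len _ h
  have h2 := W.pos
  rw [List.length_drop] at h1
  omega

/-- the chain rule from outer walls and a set of thresholds -/
def rule (W : WR α) (thr : ℕ → Prop) (h0 : ∀ t, thr t → 0 < t) : Mach_973.Rule α where
  cut w t := thr t ∧ W.R (w.drop t)
  n := W.n
  n_pos := W.pos
  pos _ t h := h0 t h.1
  len _ _ h := wlen W h.2
  app w y t h := by rw [R_left W h]

/-- parameters of the geometry -/
structure Geo (α : Type*) where
  Wo : WR α
  Ws : WR α
  thr : ℕ → Prop
  zz : ℕ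
  zm : ℕ
  thr_lo : ∀ t, thr t → zz ≤ t
  thr_hi : ∀ t, zm ≤ t → thr t
  zz_pos : 0 < zz
  RFp : List α → Prop
  hRF : ∀ u v, u <:+: v → RFp v → RFp u
  Go : ℕ
  hWo : ∀ s x, RFp s → x + Go + Wo.n ≤ s.length → ∃ i < Go, Wo.R (s.drop (x + i))
  Gs : ℕ
  hWs : ∀ s x, RFp s → x + Gs + Ws.n ≤ s.length → ∃ i < Gs, Ws.R (s.drop (x + i))
  q : ℕ
  hq : 0 < q
  p0 : ℕ
  Om : ℕ
  m : ℕ
  A : ℕ → ℕ
  hA : Monotone A
  lo : ℕ → ℕ
  Ms : Finset ℕ
  M : ℕ
  hlo1 : ∀ i, i < m → lo i + M ≤ Om
  hz : p0 + q * Om + A m + Gs + Ws.n + q * M < zz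
  Tb : ℕ
  hTb : zm + Go ≤ Tb
  D : ℕ
  hD : Tb + Wo.n < D
  Lv : ℕ
  hLv1 : q * Om + D ≤ Lv
  hLv2 : A m + q * M + Ws.n ≤ Lv

namespace Geo

variable (g : Geo α)

def K : Mach_973.Rule α := rule g.Wo g.thr fun t h => lt_of_lt_of_le g.zz_pos (g.thr_lo t h)

def GE (s : List α) : Prop := ∀ t, t ≤ g.Tb → g.Wo.R (s.drop t) → ∀ t' k, k ≤ g.Om →
  (t' = t + g.q * k ∨ t = t' + g.q * k) → (g.thr (g.p0 + t') ↔ g.thr (g.p0 + t))

def GB (s : List α) : Prop := ∀ t, t ≤ g.Tb → g.Wo.R (s.drop t) → g.thr (g.p0 + t) →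
  (∀ t' < t, g.Wo.R (s.drop t') → ¬ g.thr (g.p0 + t')) → ∀ p ∈ g.Ms, ¬ p ∣ t / g.q

def GD (s : List α) : Prop := ∀ k, k ≤ g.m → ∀ t, g.A k ≤ t + g.q * g.M →
  t < g.A k + g.q * g.M → ¬ g.Ws.R (s.drop t)

def Good (s : List α) : Prop := g.GE s ∧ g.GB s ∧ g.GD s

theorem good_append (s u : List α) (h : g.Lv ≤ s.length) : g.Good (s ++ u) ↔ g.Good s := by
  have hA : ∀ k, k ≤ g.m → g.A k ≤ g.A g.m := fun k hk => g.hA hk
  have h1 : ∀ t, t ≤ g.Tb → (g.Wo.R ((s ++ u).drop t) ↔ g.Wo.R (s.drop t)) := by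
    intro t ht
    apply R_left
    have := g.hD
    have := g.hLv1
    omega
  have h2 : ∀ k, k ≤ g.m → ∀ t, t < g.A k + g.q * g.M →
      (g.Ws.R ((s ++ u).drop t) ↔ g.Ws.R (s.drop t)) := by
    intro k hk t ht
    apply R_left
    have := hA k hk
    have := g.hLv2
    omega
  unfold Good GE GB GD
  refine and_congr ?_ (and_congr ?_ ?_)
  · refine forall_congr' fun t => forall_congr' fun ht => ?_
    rw [h1 t ht]
  · refine forall_congr' fun t => forall_congr' fun ht => ?_
    rw [h1 t ht]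
    refine imp_congr_right fun _ => imp_congr_right fun _ => imp_congr ?_ Iff.rfl
    refine forall_congr' fun t' => forall_congr' fun ht' => ?_
    rw [h1 t' (by omega)]
  · refine forall_congr' fun k => forall_congr' fun hk => forall_congr' fun t =>
      forall_congr' fun _ => forall_congr' fun ht => ?_
    rw [h2 k hk t ht]

/-- the first wall which passes the threshold -/
def FC (x : ℕ) (s : List α) (t : ℕ) : Prop :=
  g.thr (x + t) ∧ g.Wo.R (s.drop t) ∧ ∀ t' < t, g.Wo.R (s.drop t') → ¬ g.thr (x + t')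

def okE (s : List α) (t : ℕ) : Prop := ∀ om ≤ g.Om, g.FC (g.p0 + g.q * om) s t

theorem first_of_FC {r s : List α} {t : ℕ} (hr : r.length < g.zz) (h : g.FC r.length s t) :
    First g.K (r ++ s) (r.length + t) := by
  obtain ⟨h1, h2, h3⟩ := h
  refine ⟨⟨h1, by rw [drop_add]; exact h2⟩, fun t' ht' hc => ?_⟩
  obtain ⟨hc1, hc2⟩ := hc
  have := g.thr_lo _ hc1
  obtain ⟨u, rfl⟩ : ∃ u, t' = r.length + u := ⟨t' - r.length, by omega⟩
  rw [drop_add] at hc2
  exact h3 u (by omega) hc2 hc1

theorem exists_FC (x : ℕ) (s : List α) (hs : g.RFp s) (hx : x ≤ g.zm)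
    (hl : g.zm - x + g.Go + g.Wo.n ≤ s.length) : ∃ t, g.FC x s t ∧ x + t < g.zm + g.Go := by
  classical
  obtain ⟨i, hi, hR⟩ := g.hWo s (g.zm - x) hs hl
  have hex : ∃ t, g.thr (x + t) ∧ g.Wo.R (s.drop t) :=
    ⟨g.zm - x + i, g.thr_hi _ (by omega), hR⟩
  refine ⟨Nat.find hex, ⟨(Nat.find_spec hex).1, (Nat.find_spec hex).2, ?_⟩, ?_⟩
  · intro t' ht' h1 h2
    exact Nat.find_min hex ht' ⟨h2, h1⟩
  · have := Nat.find_min' hex (m := g.zm - x + i) ⟨g.thr_hi _ (by omega), hR⟩
    omega

theorem noCut_short {r : List α} (hr : r.length ≤ g.zz) : NoCut g.K r := by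
  intro t ht
  have h1 := g.K.len _ _ ht
  have h2 := g.thr_lo _ ht.1
  have h3 := g.K.n_pos
  omega

section L1

variable {S V : Type*} [Monoid S] [Ring V] (phi : List α → S) (o : S →* V)
  (L Rt : V → Language α) (nu : List α → V)

def nu1 (Z : List α) : V := nu (Z.drop g.p0)

def R1 : Set (List α) := {s | s.length = g.D ∧ ∃ tb : ℕ × V, g.okE s tb.1 ∧ s.take tb.1 ∈ Rt tb.2}

open Classical in
noncomputable def c1 (s : List α) : V × List α :=
  if h : ∃ tb : ℕ × V, g.okE s tb.1 ∧ s.take tb.1 ∈ Rt tb.2 then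
    fin g.K (AA o phi (g.nu1 nu)) h.choose.2 (s.drop h.choose.1) else (0, [])

noncomputable def L1 : Level α (V × List α) where
  Lg q := ∃ om, om ≤ g.Om ∧ q.2.length = g.p0 + g.q * om ∧
    q.2.drop g.p0 ∈ L (q.1 * o (phi (q.2.take g.p0)))
  R := g.R1 Rt
  c := g.c1 phi o Rt nu

variable {phi} {o} {L} {Rt} {nu}

theorem exact1 (hphi : ∀ u v, phi (u ++ v) = phi u * phi v)
    (sound : ∀ P Q v b, P ∈ L v → Q ∈ Rt b → b = v * o (phi (P ++ Q)) + nu (P ++ Q))
    (v : V) (r s : List α) (hs : s ∈ (g.L1 phi o L Rt nu).R)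
    (hl : (g.L1 phi o L Rt nu).Lg (v, r)) :
    fin g.K (AA o phi (g.nu1 nu)) v (r ++ s) = (g.L1 phi o L Rt nu).c s := by
  obtain ⟨om, hom, hr, hL⟩ := hl
  have hex := hs.2
  change _ = g.c1 phi o Rt nu s
  rw [c1, dif_pos hex]
  obtain ⟨h1, h2⟩ := hex.choose_spec
  generalize hex.choose = tb at h1 h2 ⊢
  simp only at hr hL
  have h3 := h1 om hom
  rw [← hr] at h3
  have hzz := g.hz
  have hom2 : g.q * om ≤ g.q * g.Om := Nat.mul_le_mul_left _ hom
  rw [fin_first _ _ (g.first_of_FC (by omega) h3), drop_add]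
  congr 1
  rw [List.take_length_add_append]
  have h4 := sound _ _ _ _ hL h2
  rw [h4]
  unfold AA nu1
  rw [List.drop_append_of_le_length (by omega), mul_assoc, ← map_mul, ← hphi,
    ← List.append_assoc, List.take_append_drop]

theorem st1 (s : List α) : NoCut g.K ((g.L1 phi o L Rt nu).c s).2 := by
  classical
  change NoCut g.K (g.c1 phi o Rt nu s).2
  rw [c1]
  split
  · exact fin_noCut _ _ _ _
  · exact g.noCut_short (by simp)

theorem complete1
    (complete : ∀ Z : List α, (∀ p ∈ g.Ms, ¬ p ∣ Z.length / g.q) →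
          (∃ H : ℕ → ℕ, ∀ k, k ≤ g.m → FW g.Ws Z (g.A k) (H k) ∧ H k ≤ g.A k + g.Gs) →
          (∀ k, k ≤ g.m → ∀ t, g.A k ≤ t + g.q * g.M → t < g.A k + g.q * g.M →
            ¬ g.Ws.R (Z.drop t)) →
          (∀ i, i < g.m → g.q * (g.lo i + g.M) ≤ Z.length) →
          ∀ v, ∃ (P Q : List α) (i om : ℕ), Z = P ++ Q ∧ i < g.m ∧ P.length = g.q * om ∧
            g.lo i ≤ om ∧ om < g.lo i + g.M ∧ P ∈ L v ∧
            Q ∈ Rt (v * o (phi Z) + nu Z))
    (v : V) (r s : List α) (hr : r.length = g.p0) (hs : g.Lv ≤ s.length)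
    (hRF : g.RFp (r ++ s)) (hG : g.Good s) :
    Cut (step g.K (AA o phi (g.nu1 nu))) (g.L1 phi o L Rt nu) (v, r) s := by
  classical
  have hz := g.hz
  have hTb := g.hTb
  have hD := g.hD
  have hLv1 := g.hLv1
  have hRs : g.RFp s := g.hRF _ _ (List.suffix_append r s).isInfix hRF
  have hzm : g.zz ≤ g.zm := g.thr_lo _ (g.thr_hi _ le_rfl)
  obtain ⟨t, ht, htb⟩ := g.exists_FC g.p0 s hRs (by omega) (by omega)
  have hzt := g.thr_lo _ ht.1
  have htl : t ≤ g.Tb := by omega
  have hsl : t + g.Wo.n ≤ s.length := wlen _ ht.2.1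
  obtain ⟨hE, hB, hDd⟩ := hG
  have hB' := hB t htl ht.2.1 ht.1 ht.2.2
  have hZl : (s.take t).length = t := by rw [List.length_take]; omega
  obtain ⟨P, Q, i, om, hPQ, hi, hPl, hlo, hhi, hP, hQ⟩ := complete (s.take t)
    (by rw [hZl]; exact hB')
    (by
      have : ∀ k, ∃ H, k ≤ g.m → FW g.Ws (s.take t) (g.A k) H ∧ H ≤ g.A k + g.Gs := by
        intro k
        by_cases hk : k ≤ g.m
        · have hAk : g.A k ≤ g.A g.m := g.hA hk
          obtain ⟨j, hj, hR⟩ := g.hWs (s.take t) (g.A k)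
            (g.hRF _ _ (List.take_prefix t s).isInfix hRs) (by rw [hZl]; omega)
          have hex : ∃ H, g.A k ≤ H ∧ g.Ws.R ((s.take t).drop H) := ⟨g.A k + j, by omega, hR⟩
          refine ⟨Nat.find hex, fun _ => ⟨⟨(Nat.find_spec hex).1, (Nat.find_spec hex).2, ?_⟩, ?_⟩⟩
          · intro t' h1 h2 h3
            exact Nat.find_min hex h2 ⟨h1, h3⟩
          · have := Nat.find_min' hex (m := g.A k + j) ⟨by omega, hR⟩
            omega
        · exact ⟨0, fun h => absurd h hk⟩
      choose H hH using this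
      exact ⟨H, hH⟩)
    (by
      intro k hk t' h1 h2 h3
      apply hDd k hk t' h1 h2
      have h4 := wlen _ h3
      have h5 := R_left (Q := s.drop t) g.Ws h4
      rw [List.take_append_drop] at h5
      exact h5.2 h3)
    (by
      intro i hi
      rw [hZl]
      have h1 := g.hlo1 i hi
      have h2 : g.q * (g.lo i + g.M) ≤ g.q * g.Om := Nat.mul_le_mul_left _ h1
      omega)
    (v * o (phi r))
  have hom : om ≤ g.Om := by
    have h1 := g.hlo1 i hi
    omega
  have homq : g.q * om ≤ g.q * g.Om := Nat.mul_le_mul_left _ hom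
  have hPQl : P.length + Q.length = t := by
    rw [← List.length_append, ← hPQ, hZl]
  have hs1 : s = P ++ (Q ++ s.drop t) := by
    rw [← List.append_assoc, ← hPQ, List.take_append_drop]
  set s' := Q ++ s.drop t with hs'
  have hs'l : g.D ≤ s'.length := by
    have : s.length = P.length + s'.length := by rw [hs1, List.length_append]
    omega
  have htk : (s'.take g.D).length = g.D := by rw [List.length_take]; omega
  have hloc : ∀ u, u + g.Wo.n ≤ g.D → (g.Wo.R (s'.drop u) ↔ g.Wo.R ((s'.take g.D).drop u)) := by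
    intro u hu
    have h5 := R_left (P := s'.take g.D) (Q := s'.drop g.D) g.Wo (t := u) (by rw [htk]; exact hu)
    rw [List.take_append_drop] at h5
    exact h5
  have hsd : ∀ u, s.drop (P.length + u) = s'.drop u := by
    intro u; rw [hs1, drop_add]
  refine ⟨P, s'.take g.D, s'.drop g.D, ?_, ?_, ?_⟩
  · rw [List.append_assoc, List.take_append_drop, ← hs1]
  · refine ⟨htk, (Q.length, v * o (phi r) * o (phi (s.take t)) + nu (s.take t)), ?_, ?_⟩
    · intro om' hom'
      refine ⟨?_, ?_, ?_⟩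
      · -- thr
        have h1 := hE t htl ht.2.1
        rcases le_total om om' with h | h
        · have h2 := h1 (t + g.q * (om' - om)) (om' - om) (by omega) (Or.inl rfl)
          have h3 : g.q * om' = g.q * om + g.q * (om' - om) := by
            rw [← Nat.mul_add]; congr 1; omega
          have h4 : g.p0 + g.q * om' + Q.length = g.p0 + (t + g.q * (om' - om)) := by omega
          simp only
          rw [h4]; exact h2.2 ht.1
        · have h3 : g.q * om = g.q * om' + g.q * (om - om') := by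
            rw [← Nat.mul_add]; congr 1; omega
          have h5 : g.q * om' + Q.length + g.q * (om - om') = t := by omega
          have h2 := h1 (g.q * om' + Q.length) (om - om') (by omega) (Or.inr h5.symm)
          simp only
          rw [Nat.add_assoc]; exact h2.2 ht.1
      · simp only
        rw [← hloc _ (by omega), ← hsd, hPQl]; exact ht.2.1
      · intro t' ht' hR hth
        simp only at ht'
        rw [← hloc _ (by omega), ← hsd] at hR
        have h0 := ht.2.2 (P.length + t') (by omega) hR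
        have h1 := hE (P.length + t') (by omega) hR
        apply h0
        rcases le_total om om' with h | h
        · have h3 : g.q * om' = g.q * om + g.q * (om' - om) := by
            rw [← Nat.mul_add]; congr 1; omega
          have h2 := h1 (P.length + t' + g.q * (om' - om)) (om' - om) (by omega) (Or.inl rfl)
          apply h2.1
          have h4 : g.p0 + g.q * om' + t' = g.p0 + (P.length + t' + g.q * (om' - om)) := by omega
          rw [← h4]; exact hth
        · have h3 : g.q * om = g.q * om' + g.q * (om - om') := by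
            rw [← Nat.mul_add]; congr 1; omega
          have h2 := h1 (g.q * om' + t') (om - om') (by omega) (Or.inr (by omega))
          apply h2.1
          rw [← Nat.add_assoc]; exact hth
    · simp only
      have : (s'.take g.D).take Q.length = Q := by
        rw [List.take_take, min_eq_left (by omega), hs', List.take_left]
      rw [this]
      exact hQ
  · have hshort : (r ++ P).length ≤ g.zz := by rw [List.length_append]; omega
    rw [run_eq _ _ _ _ _ (g.noCut_short (by omega)), fin_nocut _ _ (g.noCut_short hshort)]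
    refine ⟨om, hom, by simp only [List.length_append]; omega, ?_⟩
    simp only
    rw [← hr, List.drop_left, List.take_left]
    exact hP

end L1

end Geo

end Crest.Agent.R320.Lv1_973
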