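import Crest.Agent.R320.Lv1_973
import Crest.Agent.R320.Exact_374

/-! Row 320: scheme 2 (exact places, promise) as a level of the residual-word machine. -/

set_option autoImplicit false

namespace Crest.Agent.R320.Lv1_973

open Crest.RegLang Crest.Agent.R320.Hgt1_903 Crest.Agent.R320.Nest_85 Crest.Agent.R320.Mach_973
open Crest.Agent.R320.Two_973
open Crest.Agent.R320.Zone132_898 (R_left drop_add FW)
open MulOpposite

variable {α : Type*}

section blocks

variable {Γ : Type*} [Monoid Γ] (gf gl : List α → Γ) (X : ℕ → ℕ) (nb : ℕ)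

def lbk (j : ℕ) (P : List α) : List Γ :=
  (List.range j).map fun i => gf ((P.drop (X i)).take (X (i + 1) - X i))

def rbk (j : ℕ) (Q : List α) : List Γ :=
  ((List.range (nb - j)).map fun i =>
    gf ((Q.drop (X (j + i) - X j)).take (X (j + i + 1) - X (j + i)))) ++ [gl (Q.drop (X nb - X j))]

def blk (Z : List α) : List Γ := lbk gf X nb Z ++ [gl (Z.drop (X nb))]

theorem lbk_length (j : ℕ) (P : List α) : (lbk gf X j P).length = j := by simp [lbk]

theorem blk_length (Z : List α) : (blk gf gl X nb Z).length = nb + 1 := by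
  simp [blk, lbk_length]

theorem blk_split (hX : Monotone X) {j : ℕ} (hj : j ≤ nb) {P Q : List α} (hP : P.length = X j) :
    blk gf gl X nb (P ++ Q) = lbk gf X j P ++ rbk gf gl X nb j Q := by
  obtain ⟨e, rfl⟩ : ∃ e, nb = j + e := ⟨nb - j, by omega⟩
  unfold blk lbk rbk
  rw [List.range_add, List.map_append, List.append_assoc]
  congr 1
  · apply List.map_congr_left
    intro i hi
    rw [List.mem_range] at hi
    have h1 : X (i + 1) ≤ X j := hX (by omega)
    have h2 : X i ≤ X (i + 1) := hX (by omega)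
    congr 1
    rw [List.drop_append_of_le_length (by omega), List.take_append_of_le_length]
    rw [List.length_drop]; omega
  · have hd : ∀ i, (P ++ Q).drop (X (j + i)) = Q.drop (X (j + i) - X j) := by
      intro i
      have h1 : X j ≤ X (j + i) := hX (by omega)
      have h2 := drop_add P Q (X (j + i) - X j)
      rw [hP, show X j + (X (j + i) - X j) = X (j + i) by omega] at h2
      exact h2
    rw [hd e]
    congr 1
    rw [List.map_map, show j + e - j = e by omega]
    apply List.map_congr_left
    intro i hi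
    simp only [Function.comp]
    rw [hd i]

theorem lbk_prod (hX : Monotone X) (h0 : X 0 = 0) (hf1 : gf [] = 1)
    (hf : ∀ u v, gf (u ++ v) = gf u * gf v) (Z : List α) (j : ℕ) :
    (lbk gf X j Z).prod = gf (Z.take (X j)) := by
  induction j with
  | zero => simp [lbk, h0, hf1]
  | succ j ih =>
    have h1 : lbk gf X (j + 1) Z = lbk gf X j Z ++ [gf ((Z.drop (X j)).take (X (j + 1) - X j))] := by
      simp [lbk, List.range_succ]
    rw [h1, List.prod_append, ih, List.prod_singleton, ← hf]
    congr 1
    have h2 : X j ≤ X (j + 1) := hX (by omega)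
    have h3 : Z.take (X (j + 1)) = Z.take (X j + (X (j + 1) - X j)) := by
      congr 1; omega
    rw [h3, List.take_add]

theorem blk_prod (hX : Monotone X) (h0 : X 0 = 0) (hf1 : gf [] = 1)
    (hf : ∀ u v, gf (u ++ v) = gf u * gf v) (Z : List α) :
    (blk gf gl X nb Z).prod = gf (Z.take (X nb)) * gl (Z.drop (X nb)) := by
  rw [blk, List.prod_append, lbk_prod gf X hX h0 hf1 hf, List.prod_singleton]

end blocks

theorem First.restrict {K : Mach_973.Rule α} {x y : List α} {t : ℕ} (h : First K (x ++ y) t)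
    (ht : t + K.n ≤ x.length) : First K x t := by
  refine ⟨(K.app x y t ht).1 h.1, fun t' ht' hc => h.2 t' ht' ?_⟩
  exact (K.app x y t' (K.len _ _ hc)).2 hc

namespace Geo

variable (g : Geo α)

section L2

variable {Γ V : Type*} [Monoid Γ] [Ring V] {U : Type*} (gf gl : List α → Γ) (o : Γ →* V)
  (X : ℕ → ℕ) (nb D2 : ℕ) (lam rho : List Γ → Option (V × U)) (nu : List Γ → V × U)

def gam (Z : List α) : Γ := (blk gf gl X nb Z).prod

def nu2 (Z : List α) : V := (nu (blk gf gl X nb Z)).1

def Sel (s : List α) (d : ℕ × ℕ × (V × U)) : Prop :=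
  1 ≤ d.1 ∧ d.1 ≤ nb ∧ (∀ j', 1 ≤ j' → j' ≤ nb → j' ≠ d.1 → g.Good (s.drop (g.p0 - X j'))) ∧
    g.FC (X d.1) s d.2.1 ∧ rho (rbk gf gl X nb d.1 (s.take d.2.1)) = some d.2.2

open Classical in
noncomputable def c2 (s : List α) : V × List α :=
  if h : ∃ d, g.Sel gf gl X nb rho s d then
    fin g.K (AA o (gam gf gl X nb) (nu2 gf gl X nb nu)) h.choose.2.2.1 (s.drop h.choose.2.1)
  else (0, [])

noncomputable def L2 : Level α (V × List α) where
  Lg q := ∃ j, 1 ≤ j ∧ j ≤ nb ∧ q.2.length = X j ∧ ∃ u, lam (lbk gf X j q.2) = some (q.1, u)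
  R := {s | s.length = D2 ∧ ∃ d, g.Sel gf gl X nb rho s d}
  c := g.c2 gf gl o X nb rho nu

variable {gf gl o X nb D2 lam rho nu}

theorem st2 (s : List α) : NoCut g.K ((g.L2 gf gl o X nb D2 lam rho nu).c s).2 := by
  classical
  change NoCut g.K (g.c2 gf gl o X nb rho nu s).2
  rw [c2]
  split
  · exact fin_noCut _ _ _ _
  · exact g.noCut_short (by simp)

theorem exact2 (hX : Monotone X) (hXp : ∀ j, 1 ≤ j → j ≤ nb → X j ≤ g.p0)
    (hD2 : g.p0 + g.Lv ≤ D2)
    (sound : ∀ p q v u r, (p ++ q).length = nb + 1 → lam p = some (v, u) → rho q = some r →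
        r.1 = v * o ((p ++ q).prod) + (nu (p ++ q)).1)
    (v : V) (r s u : List α) (hr0 : NoCut g.K r) (hs : s ∈ (g.L2 gf gl o X nb D2 lam rho nu).R)
    (hl : (g.L2 gf gl o X nb D2 lam rho nu).Lg (v, r))
    (hP : Prm2 g.K g.RFp g.p0 g.Lv g.Good r (s ++ u)) :
    fin g.K (AA o (gam gf gl X nb) (nu2 gf gl X nb nu)) v (r ++ s) =
      (g.L2 gf gl o X nb D2 lam rho nu).c s := by
  classical
  obtain ⟨j0, hj1, hj2, hrl, uu, hlam⟩ := hl
  obtain ⟨hsl, hex⟩ := hs
  change _ = g.c2 gf gl o X nb rho nu s
  rw [c2, dif_pos hex]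
  have hsel := hex.choose_spec
  generalize hex.choose = d at hsel ⊢
  obtain ⟨j, t, b⟩ := d
  obtain ⟨h1, h2, h3, h4, h5⟩ := hsel
  simp only at h1 h2 h3 h4 h5 hrl hlam ⊢
  have hz := g.hz
  have hXj0 := hXp j0 hj1 hj2
  have hbad : ¬ g.Good (s.drop (g.p0 - X j0)) := by
    have h6 := hP.2 (s.take (g.p0 - X j0)) (s.drop (g.p0 - X j0) ++ u)
      (by rw [← List.append_assoc, List.take_append_drop])
      (by
        have h7 : (r ++ s.take (g.p0 - X j0)).length = g.p0 := by
          rw [List.length_append, List.length_take]; omega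
        rw [res_nocut g.K (g.noCut_short (by omega))]
        exact h7)
      (by rw [List.length_append, List.length_drop]; omega)
    rwa [g.good_append _ _ (by rw [List.length_drop]; omega)] at h6
  have hjj : j0 = j := by
    by_contra hne
    exact hbad (h3 j0 hj1 hj2 hne)
  subst hjj
  rw [← hrl] at h4
  rw [fin_first _ _ (g.first_of_FC (by omega) h4), drop_add]
  congr 1
  rw [List.take_length_add_append]
  have h6 := blk_split gf gl X nb hX hj2 (P := r) (Q := s.take t) hrl
  have h7 := sound _ _ _ _ _ (by rw [← h6, blk_length]) hlam h5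
  rw [h7, ← h6]
  rfl

theorem bound [Nonempty U] (hX : Monotone X) (hX1 : ∀ j, 1 ≤ j → g.Wo.n ≤ X j)
    (hXp : ∀ j, 1 ≤ j → j ≤ nb → X j ≤ g.p0)
    (hD2 : g.p0 + g.Lv ≤ D2) (hD3 : g.zm + g.Go + g.Wo.n ≤ D2)
    (complete : ∀ u : List Γ, u.length = nb + 1 → ∀ v : V × U, ∃ p q, u = p ++ q ∧ p ≠ [] ∧ q ≠ [] ∧
        lam p = some v ∧ ∃ r, rho q = some r)
    (spoil : ∀ Y, g.RFp Y → ∀ f h : U → ℕ, (∀ c, 1 ≤ f c ∧ f c ≤ nb ∧ 1 ≤ h c ∧ h c ≤ nb ∧
      h c ≠ f c ∧ ¬ g.Good (Y.drop (X (f c) + g.p0 - X (h c)))) → ¬ Function.Injective f)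
    (r : List α) (hr0 : NoCut g.K r) : ∃ N, ∀ v w, Prm2 g.K g.RFp g.p0 g.Lv g.Good r w →
      ¬ Cut (step g.K (AA o (gam gf gl X nb) (nu2 gf gl X nb nu)))
        (g.L2 gf gl o X nb D2 lam rho nu) (v, r) w → w.length ≤ N := by
  classical
  have hz := g.hz
  have hzm : g.zz ≤ g.zm := g.thr_lo _ (g.thr_hi _ le_rfl)
  refine ⟨r.length + g.zm + g.Go + g.Wo.n + g.Wo.n + g.p0 + g.p0 + D2 + D2 + g.Lv, ?_⟩
  intro v w hP hnc
  by_contra hlong
  rw [not_le] at hlong
  obtain ⟨t, ht, htb⟩ := g.exists_FC 0 (r ++ w) hP.1 (by omega)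
    (by rw [List.length_append]; omega)
  have hft : First g.K (r ++ w) t := by
    have := g.first_of_FC (r := []) (s := r ++ w) (t := t) (by simpa using g.zz_pos)
      (by simpa using ht)
    simpa using this
  have hKn : g.K.n = g.Wo.n := rfl
  have hnpos := g.Wo.pos
  have hrt : r.length < t + g.Wo.n := by
    by_contra hle
    rw [not_lt] at hle
    exact hr0 t ((g.K.app r w t hle).1 hft.1)
  -- first part
  set p := w.take (t + g.Wo.n - r.length) with hp
  set w' := w.drop (t + g.Wo.n - r.length) with hw'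
  have hw : p ++ w' = w := List.take_append_drop _ _
  have hpl : p.length = t + g.Wo.n - r.length := by rw [hp, List.length_take]; omega
  have hrp : (r ++ p).length = t + g.Wo.n := by rw [List.length_append]; omega
  have hf2 : First g.K (r ++ p) t := by
    apply First.restrict (y := w') _ (by omega)
    rw [List.append_assoc, hw]; exact hft
  set r' := (r ++ p).drop t with hr'
  have hr'l : r'.length = g.Wo.n := by rw [hr', List.length_drop]; omega
  have hr'c : NoCut g.K r' := g.noCut_short (by
    have := g.thr_lo _ ht.1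
    have := hX1 1 le_rfl
    by_cases hnb : 1 ≤ nb
    · have := hXp 1 le_rfl hnb
      omega
    · exfalso
      obtain ⟨pp, qq, hpq, hp1, hq1, -, -⟩ := complete (List.replicate (nb + 1) 1) (by simp)
        (0, Classical.arbitrary U)
      have h1 : (List.replicate (nb + 1) (1 : Γ)).length = pp.length + qq.length := by
        rw [hpq, List.length_append]
      have h2 : 0 < pp.length := List.length_pos_iff.2 hp1
      have h3 : 0 < qq.length := List.length_pos_iff.2 hq1
      rw [List.length_replicate] at h1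
      omega)
  obtain ⟨v', hv'⟩ : ∃ v', fin g.K (AA o (gam gf gl X nb) (nu2 gf gl X nb nu)) v (r ++ p) =
      (v', r') := ⟨_, by rw [fin_first _ _ hf2, fin_nocut _ _ hr'c]⟩
  have hres : res g.K (r ++ p) = r' := by
    rw [← fin_snd g.K (AA o (gam gf gl X nb) (nu2 gf gl X nb nu)) (r ++ p) v, hv']
  have hP' : Prm2 g.K g.RFp g.p0 g.Lv g.Good r' w' := by
    rw [← hres]
    apply Prm2.move g.hRF
    rw [hw]; exact hP
  have hnc' : ¬ Cut (step g.K (AA o (gam gf gl X nb) (nu2 gf gl X nb nu)))
      (g.L2 gf gl o X nb D2 lam rho nu) (v', r') w' := by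
    intro hc
    apply hnc
    rw [← hw]
    apply Cut.prepend
    rw [run_eq _ _ _ _ _ hr0, hv']
    exact hc
  have hw'l : g.p0 + g.p0 + D2 + D2 + g.Lv + g.Wo.n < w'.length := by
    have : w.length = p.length + w'.length := by rw [← hw, List.length_append]
    omega
  set Y := r' ++ w' with hY
  have hYl : Y.length = g.Wo.n + w'.length := by rw [hY, List.length_append, hr'l]
  obtain ⟨t0, ht0, ht0b⟩ := g.exists_FC 0 Y hP'.1 (by omega) (by omega)
  rw [Nat.zero_add] at ht0b
  have ht0z : g.zz ≤ t0 := by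
    have := g.thr_lo _ ht0.1
    omega
  -- the zone is bad
  have hbadY : g.Wo.n ≤ g.p0 → ¬ g.Good (Y.drop g.p0) := by
    intro hnp
    have h6 := hP'.2 (w'.take (g.p0 - g.Wo.n)) (w'.drop (g.p0 - g.Wo.n))
      (List.take_append_drop _ _)
      (by
        have h7 : (r' ++ w'.take (g.p0 - g.Wo.n)).length = g.p0 := by
          rw [List.length_append, List.length_take]; omega
        rw [res_nocut g.K (g.noCut_short (by omega))]
        exact h7)
      (by rw [List.length_drop]; omega)
    have h8 : Y.drop g.p0 = w'.drop (g.p0 - g.Wo.n) := by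
      have h9 := drop_add r' w' (g.p0 - g.Wo.n)
      rw [hr'l, show g.Wo.n + (g.p0 - g.Wo.n) = g.p0 by omega] at h9
      exact h9
    rw [h8]; exact h6
  -- for every u a spoiled place
  have main : ∀ c : U, ∃ j j', 1 ≤ j ∧ j ≤ nb ∧ 1 ≤ j' ∧ j' ≤ nb ∧ j' ≠ j ∧
      ¬ g.Good (Y.drop (X j + g.p0 - X j')) ∧ lam (lbk gf X j (Y.take (X j))) = some (v', c) := by
    intro c
    obtain ⟨pp, qq, hpq, hp1, hq1, hlam, b, hrho⟩ := complete (blk gf gl X nb (Y.take t0))
      (blk_length _ _ _ _ _) (v', c)
    have h1 : nb + 1 = pp.length + qq.length := by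
      rw [← List.length_append, ← hpq, blk_length]
    have h2 : 0 < pp.length := List.length_pos_iff.2 hp1
    have h3 : 0 < qq.length := List.length_pos_iff.2 hq1
    set j := pp.length with hj
    have hjn : j ≤ nb := by omega
    have hXj := hXp j (by omega) hjn
    have hXj1 := hX1 j (by omega)
    have hPl : (Y.take (X j)).length = X j := by rw [List.length_take]; omega
    have hZ : Y.take t0 = Y.take (X j) ++ (Y.drop (X j)).take (t0 - X j) := by
      have : t0 = X j + (t0 - X j) := by omega
      conv_lhs => rw [this]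
      rw [List.take_add]
    have h4 := blk_split gf gl X nb hX hjn (P := Y.take (X j))
      (Q := (Y.drop (X j)).take (t0 - X j)) hPl
    rw [← hZ, hpq] at h4
    obtain ⟨h5, h6⟩ := List.append_inj h4 (by rw [lbk_length])
    have hex : ∃ j', 1 ≤ j' ∧ j' ≤ nb ∧ j' ≠ j ∧
        ¬ g.Good (((Y.drop (X j)).take D2).drop (g.p0 - X j')) := by
      by_contra hno
      push Not at hno
      apply hnc'
      have hsD : ((Y.drop (X j)).take D2).length = D2 := by
        rw [List.length_take, List.length_drop]; omega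
      have hYj : Y.drop (X j) = w'.drop (X j - g.Wo.n) := by
        have h9 := drop_add r' w' (X j - g.Wo.n)
        rw [hr'l, show g.Wo.n + (X j - g.Wo.n) = X j by omega] at h9
        exact h9
      have hYt : Y.take (X j) = r' ++ w'.take (X j - g.Wo.n) := by
        rw [hY, List.take_append, hr'l, List.take_of_length_le (by omega)]
      refine ⟨w'.take (X j - g.Wo.n), (Y.drop (X j)).take D2, (Y.drop (X j)).drop D2, ?_, ?_, ?_⟩
      · rw [List.append_assoc, List.take_append_drop, hYj, List.take_append_drop]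
      · refine ⟨hsD, (j, t0 - X j, b), by simp only; omega, hjn, fun j' h7 h8 h9 =>
          hno j' h7 h8 h9, ?_, ?_⟩
        · have hloc : ∀ u, u + g.Wo.n ≤ D2 →
              (g.Wo.R (((Y.drop (X j)).take D2).drop u) ↔ g.Wo.R (Y.drop (X j + u))) := by
            intro u hu
            have h5 := R_left (P := (Y.drop (X j)).take D2) (Q := (Y.drop (X j)).drop D2) g.Wo
              (t := u) (by rw [hsD]; exact hu)
            rw [List.take_append_drop, List.drop_drop] at h5
            exact h5.symm
          refine ⟨?_, ?_, ?_⟩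
          · have := ht0.1
            rw [Nat.zero_add] at this
            simp only
            rw [show X j + (t0 - X j) = t0 by omega]; exact this
          · simp only
            rw [hloc _ (by omega), show X j + (t0 - X j) = t0 by omega]; exact ht0.2.1
          · intro t' ht' hR
            simp only at ht' ⊢
            rw [hloc _ (by omega)] at hR
            have := ht0.2.2 (X j + t') (by omega) hR
            rwa [Nat.zero_add] at this
        · simp only
          have : ((Y.drop (X j)).take D2).take (t0 - X j) = (Y.drop (X j)).take (t0 - X j) := by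
            rw [List.take_take, min_eq_left (by omega)]
          rw [this, ← h6]
          exact hrho
      · have hshort : (r' ++ w'.take (X j - g.Wo.n)).length ≤ g.zz := by
          rw [← hYt, hPl]; omega
        rw [run_eq _ _ _ _ _ hr'c, fin_nocut _ _ (g.noCut_short hshort), ← hYt]
        exact ⟨j, by omega, hjn, hPl, c, by rw [← h5]; exact hlam⟩
    obtain ⟨j', h7, h8, h9, h10⟩ := hex
    have hXj' := hXp j' h7 h8
    refine ⟨j, j', by omega, hjn, h7, h8, h9, ?_, by rw [← h5]; exact hlam⟩
    have h11 : Y.drop (X j + g.p0 - X j') =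
        ((Y.drop (X j)).take D2).drop (g.p0 - X j') ++ (Y.drop (X j)).drop D2 := by
      rw [← List.drop_append_of_le_length, List.take_append_drop, List.drop_drop]
      · congr 1; omega
      · rw [List.length_take, List.length_drop]; omega
    rw [h11, g.good_append _ _ (by simp only [List.length_drop, List.length_take]; omega)]
    exact h10
  choose f h hm using main
  apply spoil Y hP'.1 f h (fun c => ⟨(hm c).1, (hm c).2.1, (hm c).2.2.1, (hm c).2.2.2.1,
    (hm c).2.2.2.2.1, (hm c).2.2.2.2.2.1⟩)
  intro c c' hcc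
  have h1 := (hm c).2.2.2.2.2.2
  have h2 := (hm c').2.2.2.2.2.2
  rw [hcc] at h1
  rw [h1] at h2
  have := Option.some.inj h2
  exact (Prod.ext_iff.1 this).2

end L2

end Geo

end Crest.Agent.R320.Lv1_973
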