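import Crest.Agent.R320.Names_274
import Crest.Agent.R320.RandF_808

/-!
# Row 320: content-level gadget of scheme 1 (names + fixed levels + random noise)

Zone contents `z = z_0 z_1 .. z_m z_(m+1)` (`z_(i+1)` = hole of level `i < m`), left clock `om`, right
clock `om'`, names of `Names_274` on the pair of clocks. See `gadget`.
-/

set_option autoImplicit false
set_option linter.unusedSectionVars false

namespace Crest.Agent.R320.Lvl_274

open Crest.Agent.R320.Names_274

section wt

variable {S W : Type*} [AddCommGroup W]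

/-- weight of a list of contents whose first entry has index `k`. -/
def wt (e : ℕ → S → W) : ℕ → List S → W
  | _, [] => 0
  | k, z :: l => e k z + wt e (k + 1) l

theorem wt_append (e : ℕ → S → W) (l l' : List S) (k : ℕ) :
    wt e k (l ++ l') = wt e k l + wt e (k + l.length) l' := by
  induction l generalizing k with
  | nil => simp [wt]
  | cons a l ih =>
    simp only [List.cons_append, wt, ih, List.length_cons]
    rw [show k + 1 + l.length = k + (l.length + 1) by omega, add_assoc]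

/-- index shift: index `0` and indices `> m` carry no weight. -/
def ee (m : ℕ) (e : ℕ → S → W) : ℕ → S → W
  | 0 => 0
  | k + 1 => if k < m then e k else 0

end wt

section Main

variable {S V W : Type*} [Monoid S] [AddCommGroup V] [AddCommGroup W]

/-- names: level, `g`, `w_l`, `h`, `w_r`, token, signs. -/
abbrev Nm (m : ℕ) (S V W : Type*) := Fin m × S × W × S × W × V × ((V × V) → Bool)

variable {m : ℕ} (act : V → S → V) (e : ℕ → S → W) (F : S → W → V)

def bval (c : Nm m S V W) : V :=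
  F (c.2.1 * 1 * c.2.2.2.1) (c.2.2.1 + e c.1 1 + c.2.2.2.2.1) +
    act c.2.2.2.2.2.1 (c.2.1 * 1 * c.2.2.2.1)

/-- the name is used: the line is good. -/
def Used (c : Nm m S V W) : Prop :=
  ∀ z, F (c.2.1 * z * c.2.2.2.1) (c.2.2.1 + e c.1 z + c.2.2.2.2.1) +
    act c.2.2.2.2.2.1 (c.2.1 * z * c.2.2.2.1) = bval act e F c

open Classical in
/-- the name system. -/
noncomputable def mkNS (q q' : Nm m S V W → ℕ) (μ : V × V → ℕ) : NS (Nm m S V W) (V × V) where
  q := q
  q' := q'
  m := μ
  col := fun c j => decide ((c.2.2.2.2.2.1, bval act e F c) = j)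
  sg := fun c => c.2.2.2.2.2.2

variable (D : NS (Nm m S V W) (V × V))

/-- a legal pair of names at clocks with sum `n` mod `M`. -/
def Pr (M : ℕ) (n : ℕ) (c c' : Nm m S V W) : Prop :=
  ∃ t t', LOK D c t ∧ ROK D c' t' ∧ (t + t') % M = n % M

def LProp (i : ℕ) (pre : List S) (om : ℕ) (c : Nm m S V W) : Prop :=
  LOK D c om ∧ (c.1 : ℕ) = i ∧ pre.prod = c.2.1 ∧ wt (ee m e) 0 pre = c.2.2.1 ∧ Used act e F c

def RProp (om : ℕ) (cont : ℕ → Option (List S)) (c : Nm m S V W) : Prop :=
  ROK D c om ∧ Used act e F c ∧ ∃ post, cont (c.1 : ℕ) = some post ∧ post.prod = c.2.2.2.1 ∧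
    wt (ee m e) ((c.1 : ℕ) + 2) post = c.2.2.2.2.1

open Classical in
/-- value of `f` at a chosen element of `P`, if there is one. -/
noncomputable def pick {A B : Type*} (f : A → B) (P : A → Prop) : Option B :=
  if h : ∃ c, P c then some (f h.choose) else none

noncomputable def LL (i : ℕ) (pre : List S) (om : ℕ) : Option V :=
  pick (fun c : Nm m S V W => c.2.2.2.2.2.1) (LProp act e F D i pre om)

noncomputable def RR (om : ℕ) (cont : ℕ → Option (List S)) : Option V :=
  pick (bval act e F) (RProp act e F D om cont)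

open Classical in
noncomputable def nuA (P : Nm m S V W → Nm m S V W → Prop) (z : List S) : V :=
  if h : ∃ p : Nm m S V W × Nm m S V W, p.1 ≠ p.2 ∧ P p.1 p.2 then
    bval act e F h.choose.2 - act h.choose.1.2.2.2.2.2.1 z.prod
  else F z.prod (wt (ee m e) 0 z)

noncomputable def nu (M : ℕ) (n : ℕ) (z : List S) : V :=
  nuA act e F (Pr D M n) z

theorem split_list {S : Type*} (z : List S) (i : ℕ) (h : i < z.length) :
    z = z.take i ++ z[i] :: z.drop (i + 1) := by
  rw [← List.drop_eq_getElem_cons h, List.take_append_drop]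

theorem totals (z : List S) {i : ℕ} (hi : i < m) (h : i + 1 < z.length) :
    z.prod = (z.take (i + 1)).prod * z[i + 1] * (z.drop (i + 2)).prod ∧
    wt (ee m e) 0 z = wt (ee m e) 0 (z.take (i + 1)) + e i z[i + 1] +
      wt (ee m e) (i + 2) (z.drop (i + 2)) := by
  have hs := split_list z (i + 1) h
  have hl : (z.take (i + 1)).length = i + 1 := by
    rw [List.length_take]; omega
  constructor
  · conv_lhs => rw [hs]
    rw [List.prod_append, List.prod_cons, mul_assoc]
  · conv_lhs => rw [hs]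
    rw [wt_append, hl]
    simp only [wt, Nat.zero_add]
    rw [show ee m e (i + 1) = e i from by simp [ee, hi]]
    exact (add_assoc _ _ _).symm

section periodic

variable {D}

variable {M : ℕ} (hM : ∀ l, D.q l ∣ M ∧ D.q' l ∣ M) (hM' : ∀ j, D.m j ∣ M)

include hM hM'

theorem Sgn.add_mul' {m' : ℕ} {s : Bool} {t M : ℕ} (hm : m' ∣ M) (k : ℕ) :
    Sgn m' s (t + k * M) ↔ Sgn m' s t := by
  have : (t + k * M) % m' = t % m' := by
    obtain ⟨a, rfl⟩ := hm
    rw [show k * (m' * a) = m' * (k * a) by ring, Nat.add_mul_mod_self_left]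
  constructor
  · exact fun h => h.congr this
  · exact fun h => h.congr this.symm

theorem LOK_add (c : Nm m S V W) (t k : ℕ) : LOK D c (t + k * M) ↔ LOK D c t := by
  have h1 : ∀ l, D.q l ∣ t + k * M ↔ D.q l ∣ t := fun l =>
    Nat.dvd_add_left ((hM l).1.mul_left k)
  have h2 : ∀ l, D.q' l ∣ t + k * M ↔ D.q' l ∣ t := fun l =>
    Nat.dvd_add_left ((hM l).2.mul_left k)
  have h3 : ∀ j, D.m j ∣ t + k * M ↔ D.m j ∣ t := fun j =>
    Nat.dvd_add_left ((hM' j).mul_left k)
  have h4 : ∀ j s, Sgn (D.m j) s (t + k * M) ↔ Sgn (D.m j) s t := fun j s =>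
    Sgn.add_mul' hM hM' (hM' j) k
  simp only [LOK, h1, h2, h3, h4]

theorem ROK_add (c : Nm m S V W) (t k : ℕ) : ROK D c (t + k * M) ↔ ROK D c t := by
  have h1 : ∀ l, D.q l ∣ t + k * M ↔ D.q l ∣ t := fun l =>
    Nat.dvd_add_left ((hM l).1.mul_left k)
  have h2 : ∀ l, D.q' l ∣ t + k * M ↔ D.q' l ∣ t := fun l =>
    Nat.dvd_add_left ((hM l).2.mul_left k)
  have h3 : ∀ j, D.m j ∣ t + k * M ↔ D.m j ∣ t := fun j =>
    Nat.dvd_add_left ((hM' j).mul_left k)
  have h4 : ∀ j s, Sgn (D.m j) s (t + k * M) ↔ Sgn (D.m j) s t := fun j s =>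
    Sgn.add_mul' hM hM' (hM' j) k
  simp only [ROK, h1, h2, h3, h4]

theorem equalize (t t' s s' : ℕ) (h : (t + t') % M = (s + s') % M) :
    t + ((s + s') / M) * M + t' = s + ((t + t') / M) * M + s' := by
  have h1 := Nat.div_add_mod (t + t') M
  have h2 := Nat.div_add_mod (s + s') M
  rw [mul_comm] at h1 h2
  omega

theorem pair' {c c' d d' : Nm m S V W} {n : ℕ} (hne : c ≠ c') (h : Pr D M n c c')
    (k : Pr D M n d d') : (d = c ∧ d' = c') ∨ (d = c' ∧ d' = c) := by
  obtain ⟨t, t', h1, h2, h3⟩ := h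
  obtain ⟨s, s', k1, k2, k3⟩ := k
  have he := equalize hM hM' t t' s s' (h3.trans k3.symm)
  exact pair hne ((LOK_add hM hM' c t _).2 h1) h2 ((LOK_add hM hM' d s _).2 k1) k2 he

theorem swap' {c c' : Nm m S V W} {n : ℕ} (h : Pr D M n c c') (k : Pr D M n c' c) :
    D.col c = D.col c' := by
  obtain ⟨t, t', h1, h2, h3⟩ := h
  obtain ⟨s, s', k1, k2, k3⟩ := k
  have he := equalize hM hM' t t' s s' (h3.trans k3.symm)
  exact swap ((LOK_add hM hM' c t _).2 h1) h2 ((LOK_add hM hM' c' s _).2 k1) k2 he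

theorem same' {c d d' : Nm m S V W} {n : ℕ} (h : Pr D M n c c) (k : Pr D M n d d') : d = d' := by
  obtain ⟨t, t', h1, h2, h3⟩ := h
  obtain ⟨s, s', k1, k2, k3⟩ := k
  have he := equalize hM hM' t t' s s' (h3.trans k3.symm)
  by_contra hne
  have := diff_dvd hne ((LOK_add hM hM' d s ((t + t') / M)).2 k1) k2
  rw [← he] at this
  exact (same_not_dvd ((LOK_add hM hM' c t ((s + s') / M)).2 h1) h2 d).1 this.1

end periodic

section core

variable (q q' : Nm m S V W → ℕ) (μ : V × V → ℕ) {M : ℕ}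

theorem col_eq {c c' : Nm m S V W}
    (h : (mkNS act e F q q' μ).col c = (mkNS act e F q q' μ).col c') :
    c.2.2.2.2.2.1 = c'.2.2.2.2.2.1 ∧ bval act e F c = bval act e F c' := by
  classical
  have h1 := congrFun h (c.2.2.2.2.2.1, bval act e F c)
  simp only [mkNS, decide_true] at h1
  have h2 := of_decide_eq_true h1.symm
  exact ⟨(congrArg Prod.fst h2).symm, (congrArg Prod.snd h2).symm⟩

theorem sound (hM : ∀ l, q l ∣ M ∧ q' l ∣ M) (hM' : ∀ j, μ j ∣ M)
    (z : List S) {i : ℕ} (om om' : ℕ) (cont : ℕ → Option (List S)) (v r : V) (hi : i < m)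
    (hz : i + 1 < z.length) (hc : cont i = some (z.drop (i + 2)))
    (hL : LL act e F (mkNS act e F q q' μ) i (z.take (i + 1)) om = some v)
    (hR : RR act e F (mkNS act e F q q' μ) om' cont = some r) :
    r = nu act e F (mkNS act e F q q' μ) M (om + om') z + act v z.prod := by
  classical
  set D := mkNS act e F q q' μ with hD
  unfold LL pick at hL
  unfold RR pick at hR
  split_ifs at hL with h1
  split_ifs at hR with h2
  obtain ⟨a1, a2, a3, a4, a5⟩ := h1.choose_spec
  obtain ⟨b1, b2, post, b3, b4, b5⟩ := h2.choose_spec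
  set c := h1.choose with hcdef
  set c' := h2.choose with hcdef'
  have hv : c.2.2.2.2.2.1 = v := Option.some.inj hL
  have hr : bval act e F c' = r := Option.some.inj hR
  have hPr : Pr D M (om + om') c c' := ⟨om, om', a1, b1, rfl⟩
  by_cases hcc : c = c'
  · have hno : ¬ ∃ p : Nm m S V W × Nm m S V W, p.1 ≠ p.2 ∧ Pr D M (om + om') p.1 p.2 := by
      rintro ⟨p, hp1, hp2⟩
      rw [← hcc] at hPr
      exact hp1 (same' (D := D) hM hM' hPr hp2)
    unfold nu nuA
    rw [dif_neg hno]
    rw [← hcc] at b3 b4 b5 hr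
    rw [a2] at b3 b5
    rw [hc] at b3
    have hpost := Option.some.inj b3
    obtain ⟨t1, t2⟩ := totals e z hi hz
    have hci : (c.1 : ℕ) = i := a2
    have hU := a5 z[i + 1]
    rw [← hr, ← hU, ← hv, t1, t2, a3, a4, hpost, b4, b5, hci]
  · have hex : ∃ p : Nm m S V W × Nm m S V W, p.1 ≠ p.2 ∧ Pr D M (om + om') p.1 p.2 :=
      ⟨(c, c'), hcc, hPr⟩
    unfold nu nuA
    rw [dif_pos hex]
    obtain ⟨p1, p2⟩ := hex.choose_spec
    set p := hex.choose with hp
    rcases pair' (D := D) hM hM' hcc hPr p2 with ⟨e1, e2⟩ | ⟨e1, e2⟩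
    · rw [e1, e2, hv, hr]; abel
    · have hcol := swap' (D := D) hM hM' hPr (by rw [← e1, ← e2]; exact p2)
      obtain ⟨k1, k2⟩ := col_eq act e F q q' μ hcol
      rw [e1, e2, ← k1, k2, hv, hr]; abel

theorem complete [Fintype (Nm m S V W)] [Fintype V]
    (hF : ∀ (s : S) (w : W) (v : V), ∃ i < m, ∀ g x h : S, g * x * h = s → ∀ z : S,
        F (g * z * h) (w - e i x + e i z) + act v (g * z * h) = F s w + act v s)
    (hpos : ∀ i, (mkNS act e F q q' μ).mod i ≠ 0)
    (hco : Pairwise (Function.onFun Nat.Coprime (mkNS act e F q q' μ).mod))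
    (hodd : ∀ j, μ j % 2 = 1)
    (z : List S) (hz : m + 1 ≤ z.length) (v : V) (n : ℕ)
    (hn : ∀ i, ¬ (mkNS act e F q q' μ).mod i ∣ n) :
    ∃ i < m, ∀ x0, x0 + (mkNS act e F q q' μ).M ≤ n + 1 →
      ∃ om, x0 ≤ om ∧ om < x0 + (mkNS act e F q q' μ).M ∧ om ≤ n ∧
        LL act e F (mkNS act e F q q' μ) i (z.take (i + 1)) om = some v ∧
        ∀ cont : ℕ → Option (List S), cont i = some (z.drop (i + 2)) →
          (RR act e F (mkNS act e F q q' μ) (n - om) cont).isSome := by
  classical
  set D := mkNS act e F q q' μ with hD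
  obtain ⟨i, hi, hgood⟩ := hF z.prod (wt (ee m e) 0 z) v
  have hzi : i + 1 < z.length := by omega
  obtain ⟨t1, t2⟩ := totals e z hi hzi
  have hsg : ∀ j, ∃ s, Sgn (μ j) s n := fun j =>
    Sgn.exists_of (hodd j) (by simpa [NS.mod, hD, mkNS] using hn (Sum.inr (Sum.inr j)))
  choose sg hsg using hsg
  let c : Nm m S V W := (⟨i, hi⟩, (z.take (i + 1)).prod, wt (ee m e) 0 (z.take (i + 1)),
    (z.drop (i + 2)).prod, wt (ee m e) (i + 2) (z.drop (i + 2)), v, sg)
  have key : ∀ y, F ((z.take (i + 1)).prod * y * (z.drop (i + 2)).prod)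
      (wt (ee m e) 0 (z.take (i + 1)) + e i y + wt (ee m e) (i + 2) (z.drop (i + 2))) +
      act v ((z.take (i + 1)).prod * y * (z.drop (i + 2)).prod) =
      F z.prod (wt (ee m e) 0 z) + act v z.prod := by
    intro y
    have := hgood _ _ _ t1.symm y
    rw [← this]
    congr 2
    rw [t2]; abel
  have hU : Used act e F c := by
    intro y
    have h1 := key y
    have h2 := key 1
    show F ((z.take (i + 1)).prod * y * (z.drop (i + 2)).prod)
      (wt (ee m e) 0 (z.take (i + 1)) + e i y + wt (ee m e) (i + 2) (z.drop (i + 2))) +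
      act v ((z.take (i + 1)).prod * y * (z.drop (i + 2)).prod) =
      F ((z.take (i + 1)).prod * 1 * (z.drop (i + 2)).prod)
      (wt (ee m e) 0 (z.take (i + 1)) + e i 1 + wt (ee m e) (i + 2) (z.drop (i + 2))) +
      act v ((z.take (i + 1)).prod * 1 * (z.drop (i + 2)).prod)
    rw [h1, h2]
  refine ⟨i, hi, fun x0 hx0 => ?_⟩
  obtain ⟨om, o1, o2, o3, o4, o5⟩ := Names_274.complete (D := D) hpos hco (T := n) (c := c)
    (fun l => by simpa [NS.mod] using hn (Sum.inl l))
    (fun l => by simpa [NS.mod] using hn (Sum.inr (Sum.inl l)))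
    (fun j => hsg j) x0 hx0
  refine ⟨om, o1, o2, o3, ?_, ?_⟩
  · have hex : ∃ c, LProp act e F D i (z.take (i + 1)) om c := ⟨c, o4, rfl, rfl, rfl, hU⟩
    unfold LL pick
    rw [dif_pos hex]
    have hch := hex.choose_spec
    have : hex.choose = c := hch.1.unique o4
    rw [this]
  · intro cont hcont
    have hex : ∃ c, RProp act e F D (n - om) cont c := ⟨c, o5, hU, _, hcont, rfl, rfl⟩
    unfold RR pick
    rw [dif_pos hex]
    rfl

end core

end Main

/-- **Content-level gadget of scheme 1** (names + fixed levels + random noise): sound for all clocks,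
complete when no modulus of `mods` divides `n' = om + om'`. `M`-periodic in all clocks. -/
theorem gadget (S V : Type*) [Monoid S] [Finite S] [AddCommGroup V] [Finite V]
    (act : V → S → V) (B : ℕ) :
    ∃ (m M : ℕ) (mods : Finset ℕ) (L : ℕ → List S → ℕ → Option V)
      (R : ℕ → (ℕ → Option (List S)) → Option V) (nu : ℕ → List S → V),
      0 < M ∧ (∀ μ ∈ mods, B < μ ∧ μ ∣ M) ∧
      (∀ i pre om, L i pre (om + M) = L i pre om) ∧
      (∀ om cont, R (om + M) cont = R om cont) ∧ (∀ n z, nu (n + M) z = nu n z) ∧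
      (∀ (z : List S) (i om om' : ℕ) (cont : ℕ → Option (List S)) (v r : V), i < m →
        i + 1 < z.length → cont i = some (z.drop (i + 2)) → L i (z.take (i + 1)) om = some v →
        R om' cont = some r → r = nu (om + om') z + act v z.prod) ∧
      (∀ (z : List S), m + 1 ≤ z.length → ∀ (v : V) (n : ℕ), (∀ μ ∈ mods, ¬ μ ∣ n) →
        ∃ i < m, ∀ x0, x0 + M ≤ n + 1 → ∃ om, x0 ≤ om ∧ om < x0 + M ∧ om ≤ n ∧
          L i (z.take (i + 1)) om = some v ∧
          ∀ cont : ℕ → Option (List S), cont i = some (z.drop (i + 2)) →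
            (R (n - om) cont).isSome) := by
  classical
  have : Fintype S := Fintype.ofFinite S
  have : Fintype V := Fintype.ofFinite V
  obtain ⟨m, N, e, F, hN, hF⟩ := RandF808.exists_noise S V act
  have : NeZero N := ⟨hN.ne'⟩
  obtain ⟨μ, hco, hμ⟩ := exists_moduli (Nm m S V (ZMod N × ZMod N) ⊕
    Nm m S V (ZMod N × ZMod N) ⊕ (V × V)) B
  set D := mkNS (m := m) act e F (fun l => μ (Sum.inl l)) (fun l => μ (Sum.inr (Sum.inl l)))
    (fun j => μ (Sum.inr (Sum.inr j))) with hD
  have hmod : D.mod = μ := by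
    funext i
    rcases i with l | l | j <;> rfl
  have hdvd : ∀ i, μ i ∣ D.M := fun i => by
    rw [← hmod]; exact Finset.dvd_prod_of_mem _ (Finset.mem_univ i)
  have hM1 : ∀ l, D.q l ∣ D.M ∧ D.q' l ∣ D.M := fun l =>
    ⟨hdvd (Sum.inl l), hdvd (Sum.inr (Sum.inl l))⟩
  have hM2 : ∀ j, D.m j ∣ D.M := fun j => hdvd (Sum.inr (Sum.inr j))
  have hL1 : ∀ c t, LOK D c (t + D.M) ↔ LOK D c t := fun c t => by
    simpa using LOK_add (D := D) hM1 hM2 c t 1
  have hR1 : ∀ c t, ROK D c (t + D.M) ↔ ROK D c t := fun c t => by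
    simpa using ROK_add (D := D) hM1 hM2 c t 1
  refine ⟨m, D.M, Finset.image μ Finset.univ, LL act e F D, RR act e F D, nu act e F D D.M,
    ?_, ?_, ?_, ?_, ?_, ?_, ?_⟩
  · exact Finset.prod_pos (fun i _ => by rw [hmod]; have := (hμ i).2.2; omega)
  · intro x hx
    obtain ⟨i, -, rfl⟩ := Finset.mem_image.1 hx
    exact ⟨(hμ i).1, hdvd i⟩
  · intro i pre om
    have h2 : LProp act e F D i pre (om + D.M) = LProp act e F D i pre om := by
      funext c
      simp only [LProp, hL1]
    unfold LL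
    rw [h2]
  · intro om cont
    have h2 : RProp act e F D (om + D.M) cont = RProp act e F D om cont := by
      funext c
      simp only [RProp, hR1]
    unfold RR
    rw [h2]
  · intro n z
    have h2 : Pr D D.M (n + D.M) = Pr D D.M n := by
      funext c c'
      simp only [Pr, Nat.add_mod_right]
    unfold nu
    rw [h2]
  · intro z i om om' cont v r hi hz hc hL hR
    exact sound act e F _ _ _ (fun l => hM1 l) (fun j => hM2 j) z om om' cont v r hi hz hc hL hR
  · intro z hz v n hn
    refine complete act e F _ _ _ hF (fun i => ?_) ?_ (fun j => (hμ _).2.1) z hz v n (fun i => ?_)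
    · have h3 : D.mod i ≠ 0 := by rw [hmod]; have := (hμ i).2.2; omega
      exact h3
    · have h3 : Pairwise (Function.onFun Nat.Coprime D.mod) := by rw [hmod]; exact hco
      exact h3
    · have h3 : ¬ D.mod i ∣ n := by
        rw [hmod]; exact hn _ (Finset.mem_image_of_mem _ (Finset.mem_univ i))
      exact h3

end Crest.Agent.R320.Lvl_274
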