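import Crest.Agent.R320.Nest_85

/-! Row 320: residual-word machine for an abstract chain rule, over 85's nest. -/

set_option autoImplicit false

namespace Crest.Agent.R320.Mach_973

open Crest.RegLang Crest.Agent.R320.Hgt1_903 Crest.Agent.R320.Nest_85

variable {α : Type*}

/-- an abstract chain rule: the cut places of a residual word -/
structure Rule (α : Type*) where
  cut : List α → ℕ → Prop
  n : ℕ
  n_pos : 0 < n
  pos : ∀ w t, cut w t → 0 < t
  len : ∀ w t, cut w t → t + n ≤ w.length
  app : ∀ w y t, t + n ≤ w.length → (cut (w ++ y) t ↔ cut w t)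

variable (K : Rule α) {V : Type*} (A : V → List α → V)

open Classical in
noncomputable def fin (v : V) (w : List α) : V × List α :=
  if h : ∃ t, K.cut w t then
    fin (A v (w.take (Nat.find h))) (w.drop (Nat.find h))
  else (v, w)
termination_by w.length
decreasing_by
  have h1 := K.pos _ _ (Nat.find_spec h)
  have h2 := K.len _ _ (Nat.find_spec h)
  rw [List.length_drop]; omega

def NoCut (w : List α) : Prop := ∀ t, ¬ K.cut w t

def First (w : List α) (t : ℕ) : Prop := K.cut w t ∧ ∀ t', t' < t → ¬ K.cut w t'

theorem fin_nocut {v : V} {w : List α} (h : NoCut K w) : fin K A v w = (v, w) := by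
  rw [fin, dif_neg]
  rintro ⟨t, ht⟩
  exact h t ht

theorem fin_first {v : V} {w : List α} {t : ℕ} (h : First K w t) :
    fin K A v w = fin K A (A v (w.take t)) (w.drop t) := by
  classical
  have hex : ∃ t, K.cut w t := ⟨t, h.1⟩
  have : Nat.find hex = t := by
    rw [Nat.find_eq_iff]
    exact ⟨h.1, fun n hn => h.2 n hn⟩
  rw [fin, dif_pos hex, this]

theorem nocut_or_first (w : List α) : NoCut K w ∨ ∃ t, First K w t := by
  classical
  by_cases hex : ∃ t, K.cut w t
  · right
    exact ⟨Nat.find hex, Nat.find_spec hex, fun t' ht' => Nat.find_min hex ht'⟩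
  · left
    intro t ht
    exact hex ⟨t, ht⟩

theorem First.append {w y : List α} {t : ℕ} (h : First K w t) : First K (w ++ y) t := by
  have h1 := K.len _ _ h.1
  refine ⟨(K.app w y t h1).2 h.1, fun t' ht' hc => h.2 t' ht' ?_⟩
  exact (K.app w y t' (by omega)).1 hc

theorem fin_append (w y : List α) : ∀ (v : V), fin K A v (w ++ y) =
    fin K A (fin K A v w).1 ((fin K A v w).2 ++ y) := by
  induction hn : w.length using Nat.strong_induction_on generalizing w with
  | _ n ih =>
    intro v
    rcases nocut_or_first K w with h | ⟨t, h⟩
    · rw [fin_nocut K A h]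
    · have h1 := K.len _ _ h.1
      have h2 := K.pos _ _ h.1
      rw [fin_first K A (h.append K), fin_first K A h]
      rw [List.take_append_of_le_length (by omega), List.drop_append_of_le_length (by omega)]
      exact ih (w.drop t).length (by rw [List.length_drop]; omega) (w.drop t) rfl _

theorem fin_noCut (w : List α) : ∀ (v : V), NoCut K (fin K A v w).2 := by
  induction hn : w.length using Nat.strong_induction_on generalizing w with
  | _ n ih =>
    intro v
    rcases nocut_or_first K w with h | ⟨t, h⟩
    · rw [fin_nocut K A h]; exact h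
    · have h1 := K.len _ _ h.1
      have h2 := K.pos _ _ h.1
      rw [fin_first K A h]
      exact ih (w.drop t).length (by rw [List.length_drop]; omega) (w.drop t) rfl _

theorem fin_suffix (w : List α) : ∀ (v : V), (fin K A v w).2 <:+ w := by
  induction hn : w.length using Nat.strong_induction_on generalizing w with
  | _ n ih =>
    intro v
    rcases nocut_or_first K w with h | ⟨t, h⟩
    · rw [fin_nocut K A h]
    · have h1 := K.len _ _ h.1
      have h2 := K.pos _ _ h.1
      rw [fin_first K A h]
      exact (ih (w.drop t).length (by rw [List.length_drop]; omega) (w.drop t) rfl _).trans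
        (List.drop_suffix t w)

noncomputable def step (q : V × List α) (a : α) : V × List α := fin K A q.1 (q.2 ++ [a])

theorem run_eq (w : List α) : ∀ (v : V) (r : List α), NoCut K r →
    run (step K A) (v, r) w = fin K A v (r ++ w) := by
  induction w with
  | nil => intro v r h; simp [run, fin_nocut K A h]
  | cons a w ih =>
    intro v r h
    have h1 : run (step K A) (v, r) (a :: w) = run (step K A) (fin K A v (r ++ [a])) w := rfl
    rw [h1, ih _ _ (fin_noCut K A _ _), ← fin_append]
    simp

theorem run_noCut (w : List α) (q : V × List α) (h : NoCut K q.2) :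
    NoCut K (run (step K A) q w).2 := by
  obtain ⟨v, r⟩ := q
  rw [run_eq K A w v r h]
  exact fin_noCut K A _ _


open Classical in
noncomputable def res (w : List α) : List α :=
  (fin K (fun (_ : Unit) _ => ()) () w).2

open Classical in
noncomputable def cp {M : Type*} [Monoid M] (g : List α → M) (w : List α) : M :=
  (fin K (fun (x : M) Z => x * g Z) 1 w).1

theorem fin_snd (w : List α) : ∀ (v : V), (fin K A v w).2 = res K w := by
  induction hn : w.length using Nat.strong_induction_on generalizing w with
  | _ n ih =>
    intro v
    rcases nocut_or_first K w with h | ⟨t, h⟩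
    · rw [res, fin_nocut K A h, fin_nocut K _ h]
    · have h1 := K.len _ _ h.1
      have h2 := K.pos _ _ h.1
      rw [res, fin_first K A h, fin_first K _ h]
      exact ih (w.drop t).length (by rw [List.length_drop]; omega) (w.drop t) rfl _

theorem cp_nocut {M : Type*} [Monoid M] (g : List α → M) {w : List α} (h : NoCut K w) :
    cp K g w = 1 := by rw [cp, fin_nocut K _ h]

theorem cp_gen {M : Type*} [Monoid M] (g : List α → M) (w : List α) : ∀ x : M,
    (fin K (fun (x : M) Z => x * g Z) x w).1 = x * cp K g w := by
  induction hn : w.length using Nat.strong_induction_on generalizing w with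
  | _ n ih =>
    intro x
    rcases nocut_or_first K w with h | ⟨t, h⟩
    · rw [cp_nocut K g h, fin_nocut K _ h, mul_one]
    · have h1 := K.len _ _ h.1
      have h2 := K.pos _ _ h.1
      have h3 : (w.drop t).length < n := by rw [List.length_drop]; omega
      rw [cp, fin_first K _ h, fin_first K _ h]
      rw [ih _ h3 (w.drop t) rfl, ih _ h3 (w.drop t) rfl, one_mul, mul_assoc]

theorem cp_first {M : Type*} [Monoid M] (g : List α → M) {w : List α} {t : ℕ}
    (h : First K w t) : cp K g w = g (w.take t) * cp K g (w.drop t) := by
  rw [cp, fin_first K _ h, cp_gen, one_mul]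


theorem cp_res {M : Type*} [Monoid M] (g : List α → M) (hg : ∀ u v, g (u ++ v) = g u * g v)
    (w : List α) : g w = cp K g w * g (res K w) := by
  induction hn : w.length using Nat.strong_induction_on generalizing w with
  | _ n ih =>
    rcases nocut_or_first K w with h | ⟨t, h⟩
    · rw [cp_nocut K g h, res, fin_nocut K _ h, one_mul]
    · have h1 := K.len _ _ h.1
      have h2 := K.pos _ _ h.1
      have h3 : (w.drop t).length < n := by rw [List.length_drop]; omega
      rw [cp_first K g h, mul_assoc]
      have h4 : res K w = res K (w.drop t) := by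
        rw [res, fin_first K _ h]; rfl
      rw [h4, ← ih _ h3 (w.drop t) rfl, ← hg, List.take_append_drop]

/-- machine values as an action of the chain product -/
theorem fin_act {M : Type*} [Monoid M] (g : List α → M) (act : V → M → V)
    (act_one : ∀ v, act v 1 = v) (act_mul : ∀ v x y, act v (x * y) = act (act v x) y)
    (hA : ∀ v Z, A v Z = act v (g Z)) (w : List α) :
    ∀ v, (fin K A v w).1 = act v (cp K g w) := by
  induction hn : w.length using Nat.strong_induction_on generalizing w with
  | _ n ih =>
    intro v
    rcases nocut_or_first K w with h | ⟨t, h⟩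
    · rw [cp_nocut K g h, fin_nocut K _ h, act_one]
    · have h1 := K.len _ _ h.1
      have h2 := K.pos _ _ h.1
      have h3 : (w.drop t).length < n := by rw [List.length_drop]; omega
      rw [fin_first K _ h, ih _ h3 (w.drop t) rfl, cp_first K g h, act_mul, hA]

section read
variable {M R : Type*} [Monoid M] [Ring R] (o : M →* R) (g : List α → M) (nu : List α → R)

def AA : R → List α → R := fun v Z => v * o (g Z) + nu Z

theorem fin_aff (w : List α) : ∀ v v' : R, (fin K (AA o g nu) v w).1 - (fin K (AA o g nu) v' w).1 =
    (v - v') * o (cp K g w) := by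
  induction hn : w.length using Nat.strong_induction_on generalizing w with
  | _ n ih =>
    intro v v'
    rcases nocut_or_first K w with h | ⟨t, h⟩
    · rw [cp_nocut K g h, fin_nocut K _ h, fin_nocut K _ h, map_one, mul_one]
    · have h1 := K.len _ _ h.1
      have h2 := K.pos _ _ h.1
      have h3 : (w.drop t).length < n := by rw [List.length_drop]; omega
      rw [fin_first K _ h, fin_first K _ h, ih _ h3 (w.drop t) rfl, cp_first K g h, map_mul]
      simp only [AA]
      rw [show v * o (g (w.take t)) + nu (w.take t) - (v' * o (g (w.take t)) + nu (w.take t)) =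
        (v - v') * o (g (w.take t)) by noncomm_ring, mul_assoc]

/-- **read-off** -/
theorem readoff [Finite M] [Finite R] (ho : Function.Injective o) (k : ℕ)
    (Prm : List α → List α → Prop) (r : List α) (hr : NoCut K r)
    (h : ∀ v : R, ∀ T : R × List α → Prop, ∃ E : Language α, H k E ∧
      ∀ w, Prm r w → (w ∈ E ↔ T (run (step K (AA o g nu)) (v, r) w)))
    (T' : M → List α → Prop) : ∃ E : Language α, H k E ∧
      ∀ w, Prm r w → (w ∈ E ↔ T' (cp K g (r ++ w)) (res K (r ++ w))) := by
  classical
  choose E hE1 hE2 using h
  refine ⟨({w | ∃ p : M × R, w ∈ ({w | w ∈ E 0 (fun st => st.1 = p.2) ∧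
    w ∈ E 1 (fun st => st.1 = o p.1 + p.2 ∧ T' p.1 st.2)} : Language α)} : Language α),
    H.exists_fintype _ fun p => H.inter (hE1 _ _) (hE1 _ _), ?_⟩
  intro w hw
  have key : (fin K (AA o g nu) 1 (r ++ w)).1 = o (cp K g (r ++ w)) +
      (fin K (AA o g nu) 0 (r ++ w)).1 := by
    have := fin_aff K o g nu (r ++ w) 1 0
    rw [sub_zero, one_mul] at this
    rw [← this]; abel
  constructor
  · rintro ⟨⟨x, u⟩, h1, h2⟩
    have h1' := (hE2 0 _ w hw).1 h1
    have h2' := (hE2 1 _ w hw).1 h2
    simp only [run_eq K (AA o g nu) w _ r hr] at h1' h2'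
    obtain ⟨h3, h4⟩ := h2'
    rw [fin_snd] at h4
    rw [h1'] at key
    rw [h3] at key
    have h5 : o x = o (cp K g (r ++ w)) := by
      have := add_right_cancel key
      exact this
    rw [← ho h5]
    exact h4
  · intro ht
    refine ⟨(cp K g (r ++ w), (fin K (AA o g nu) 0 (r ++ w)).1), (hE2 0 _ w hw).2 ?_,
      (hE2 1 _ w hw).2 ?_⟩
    · simp only [run_eq K (AA o g nu) w _ r hr]
    · simp only [run_eq K (AA o g nu) w _ r hr]
      refine ⟨key, ?_⟩
      rw [fin_snd]
      exact ht

end read

end Crest.Agent.R320.Mach_973
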