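import Crest.Agent.R320.Top_180
import Crest.Agent.R320.FewVal_228
import Crest.Agent.R320.Reg_852
import Crest.Agent.R320.ExactR_237

/-!
# Row 320: blocks of the natural chain rule on ALL words (left-looking walls), P4 (helper206)
-/

set_option autoImplicit false

namespace Crest.Agent.R320.Main_206

open Crest.RegLang Crest.Agent.R320.Hk_851 Crest.Agent.R320.FewWalls_228
  Crest.Agent.R320.Half1_180

universe u

variable {α : Type u}

/-- from `Zone132b_898` -/
theorem isRegular_of_inv {α : Type u} {S : Type*} [Finite α] [Finite S] [Monoid S]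
    (phi : List α → S) (hphi : ∀ u v, phi (u ++ v) = phi u * phi v) (L0 N : ℕ) (hN : 0 < N)
    (Φ : List α → S → ℕ → Prop) :
    Language.IsRegular ({Q | Φ (Q.take L0) (phi (Q.drop L0)) (Q.length % N)} : Language α) := by
  apply Language.IsRegular.of_finite_range_leftQuotient
  let f : List α × S × ℕ → Language α := fun p =>
    {y | Φ (p.1 ++ y.take (L0 - p.1.length)) (p.2.1 * phi (y.drop (L0 - p.1.length)))
      ((p.2.2 + y.length) % N)}
  have hfin : ((({l : List α | l.length ≤ L0}) ×ˢ
      ((Set.univ : Set S) ×ˢ Set.Iio N))).Finite :=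
    (List.finite_length_le α L0).prod (Set.finite_univ.prod (Set.finite_Iio N))
  refine (hfin.image f).subset ?_
  rintro _ ⟨x, rfl⟩
  refine ⟨(x.take L0, phi (x.drop L0), x.length % N), ⟨?_, trivial, Nat.mod_lt _ hN⟩, ?_⟩
  · simp only [Set.mem_ofPred_eq, List.length_take]; omega
  · ext y
    have h1 : L0 - (x.take L0).length = L0 - x.length := by
      rw [List.length_take]; omega
    have h2 : (x ++ y).take L0 = x.take L0 ++ y.take (L0 - (x.take L0).length) := by
      rw [h1, List.take_append]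
    have h3 : phi ((x ++ y).drop L0)
        = phi (x.drop L0) * phi (y.drop (L0 - (x.take L0).length)) := by
      rw [h1, ← hphi, List.drop_append]
    have h4 : (x ++ y).length % N = (x.length % N + y.length) % N := by
      rw [List.length_append, Nat.mod_add_mod]
    change Φ _ _ _ ↔ Φ ((x ++ y).take L0) (phi ((x ++ y).drop L0)) ((x ++ y).length % N)
    rw [h2, h3, h4]



/-- left-looking wall at place `t` -/
def wa (n : ℕ) (S : Set (List α)) (w : List α) (t : ℕ) : Prop := n ≤ t ∧ Wl n S w (t - n)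

theorem wa_iff {n : ℕ} {S : Set (List α)} {w : List α} {t : ℕ} :
    wa n S w t ↔ n ≤ t ∧ t ≤ w.length ∧ (w.drop (t - n)).take n ∈ S := by
  unfold wa Wl
  constructor
  · rintro ⟨h1, h2, h3⟩; exact ⟨h1, by omega, h3⟩
  · rintro ⟨h1, h2, h3⟩; exact ⟨h1, by omega, h3⟩

theorem drop_add (P Q : List α) (t : ℕ) : (P ++ Q).drop (P.length + t) = Q.drop t := by
  rw [← List.drop_drop, List.drop_left]

theorem wa_right {n : ℕ} {S : Set (List α)} {P Q : List α} {t : ℕ} (h : n ≤ t) :
    wa n S (P ++ Q) (P.length + t) ↔ wa n S Q t := by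
  rw [wa_iff, wa_iff]
  have e : (P ++ Q).drop (P.length + t - n) = Q.drop (t - n) := by
    rw [show P.length + t - n = P.length + (t - n) by omega, drop_add]
  rw [e, List.length_append]
  constructor
  · rintro ⟨h1, h2, h3⟩; exact ⟨h, by omega, h3⟩
  · rintro ⟨h1, h2, h3⟩; exact ⟨by omega, by omega, h3⟩

theorem wa_left {n : ℕ} {S : Set (List α)} {P Q : List α} {t : ℕ} (h : t ≤ P.length) :
    wa n S (P ++ Q) t ↔ wa n S P t := by
  rw [wa_iff, wa_iff]
  constructor
  · rintro ⟨h1, h2, h3⟩
    refine ⟨h1, h, ?_⟩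
    rwa [List.drop_append_of_le_length (by omega),
      List.take_append_of_le_length (by rw [List.length_drop]; omega)] at h3
  · rintro ⟨h1, h2, h3⟩
    refine ⟨h1, by rw [List.length_append]; omega, ?_⟩
    rwa [List.drop_append_of_le_length (by omega),
      List.take_append_of_le_length (by rw [List.length_drop]; omega)]

theorem wa_take {n : ℕ} {S : Set (List α)} {w : List α} {m t : ℕ} (h : t ≤ m) :
    wa n S (w.take m) t ↔ wa n S w t := by
  by_cases ht : t ≤ w.length
  · have hw := List.take_append_drop m w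
    conv_rhs => rw [← hw]
    exact (wa_left (by rw [List.length_take]; omega)).symm
  · constructor
    · intro h1; have := (wa_iff.1 h1).2.1; rw [List.length_take] at this; omega
    · intro h1; have := (wa_iff.1 h1).2.1; omega

/-- the blocks -/
def XX (n : ℕ) (S : Set (List α)) (z : ℕ) : Set (List α) :=
  {X | z ≤ X.length ∧ wa n S X X.length ∧ ∀ t, z ≤ t → t < X.length → ¬ wa n S X t}

theorem XX_pf {n : ℕ} {S : Set (List α)} {z : ℕ} (hz : 0 < z) : PF (XX n S z) := by
  constructor
  · rintro X ⟨h1, -, -⟩ rfl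
    simp at h1; omega
  · rintro X ⟨h1, h2, h3⟩ Y ⟨h4, h5, h6⟩ ⟨R, rfl⟩
    by_cases hR : R.length = 0
    · rw [List.length_eq_zero_iff.1 hR, List.append_nil]
    · exact absurd ((wa_left (le_refl _)).2 h2) (h6 X.length h1 (by rw [List.length_append]; omega))

theorem XX_join {n : ℕ} {S : Set (List α)} {z q : ℕ} {P Q : List α} (h1 : z ≤ P.length + Q.length)
    (hn : n ≤ q) (hq : q + P.length ≤ z) (hQ : wa n S Q Q.length)
    (hno : ∀ t, q ≤ t → t < Q.length → ¬ wa n S Q t) : P ++ Q ∈ XX n S z := by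
  refine ⟨by rw [List.length_append]; exact h1, ?_, ?_⟩
  · rw [List.length_append]
    exact (wa_right (by have := (wa_iff.1 hQ).1; omega)).2 hQ
  · intro t ht1 ht2 ht
    rw [List.length_append] at ht2
    obtain ⟨t', rfl⟩ : ∃ t', t = P.length + t' := ⟨t - P.length, by omega⟩
    exact hno t' (by omega) (by omega) ((wa_right (by omega)).1 ht)

/-- every long text with a wall at a place `≥ z` starts with a block -/
theorem XX_exists {n : ℕ} {S : Set (List α)} {z : ℕ} {w : List α} {t : ℕ} (hz : z ≤ t)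
    (ht : wa n S w t) : ∃ t0, z ≤ t0 ∧ t0 ≤ t ∧ w.take t0 ∈ XX n S z := by
  classical
  have hex : ∃ t0, z ≤ t0 ∧ wa n S w t0 := ⟨t, hz, ht⟩
  obtain ⟨h1, h2⟩ := Nat.find_spec hex
  have hlen : Nat.find hex ≤ w.length := (wa_iff.1 h2).2.1
  have hw : w.take (Nat.find hex) ++ w.drop (Nat.find hex) = w := List.take_append_drop _ _
  have hl : (w.take (Nat.find hex)).length = Nat.find hex := by
    rw [List.length_take]; omega
  refine ⟨Nat.find hex, h1, Nat.find_min' hex ⟨hz, ht⟩, ?_, ?_, ?_⟩
  · rw [hl]; exact h1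
  · rw [hl]
    exact (wa_take le_rfl).2 h2
  · intro t' h3 h4 h5
    rw [hl] at h4
    exact Nat.find_min hex h4 ⟨h3, (wa_take h4.le).1 h5⟩

/-! ### heights -/

theorem HL_endwall [Finite α] {n : ℕ} {S : Set (List α)} (hS : ∀ s ∈ S, s.length = n) :
    HL 0 ({w | wa n S w w.length} : Language α) := by
  have hfin : S.Finite := (List.finite_length_eq α n).subset fun s hs => hS s hs
  have h1 : HL 0 ((⊤ : Language α) * Lof S) :=
    HL.top.mul (HL.finite hfin)
  refine h1.congr fun w => ?_
  constructor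
  · intro hw
    obtain ⟨h2, h3, h4⟩ := wa_iff.1 hw
    refine Language.mem_mul.2 ⟨w.take (w.length - n), trivial, w.drop (w.length - n), ?_,
      List.take_append_drop _ _⟩
    rwa [List.take_of_length_le (by rw [List.length_drop]; omega)] at h4
  · intro hw
    obtain ⟨P, -, s, hs, rfl⟩ := Language.mem_mul.1 hw
    have hs' : s ∈ S := hs
    have hl := hS s hs'
    refine wa_iff.2 ⟨by rw [List.length_append]; omega, le_refl _, ?_⟩
    rw [List.length_append, hl, Nat.add_sub_cancel, List.drop_left,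
      List.take_of_length_le (by omega)]
    exact hs'

theorem HL_XX [Finite α] {n : ℕ} {S : Set (List α)} (hS : ∀ s ∈ S, s.length = n) (z : ℕ) :
    HL 0 (Lof (XX n S z)) := by
  have hA : HL 0 (({w | z ≤ w.length} : Language α) ⊓ ({w | wa n S w w.length} : Language α)) :=
    (HL.length_ge z).inf (HL_endwall hS)
  have hB := hA.mul (HL.length_ge (k := 0) (α := α) 1)
  refine (hA.sdiff hB).congr fun w => ?_
  constructor
  · rintro ⟨h1, h2, h3⟩
    refine ⟨⟨h1, h2⟩, ?_⟩
    intro hw
    obtain ⟨P, ⟨hP1, hP2⟩, R, hR, rfl⟩ := Language.mem_mul.1 hw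
    have hR' : 1 ≤ R.length := hR
    exact h3 P.length hP1 (by rw [List.length_append]; omega) ((wa_left (le_refl _)).2 hP2)
  · rintro ⟨⟨h1, h2⟩, h3⟩
    refine ⟨h1, h2, ?_⟩
    intro t h4 h5 h6
    apply h3
    have hw : w.take t ++ w.drop t = w := List.take_append_drop _ _
    have hl : (w.take t).length = t := by rw [List.length_take]; omega
    refine Language.mem_mul.2 ⟨w.take t, ⟨?_, ?_⟩, w.drop t, ?_, hw⟩
    · show z ≤ (w.take t).length
      rw [hl]; exact h4
    · show wa n S (w.take t) (w.take t).length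
      rw [hl]
      exact (wa_take le_rfl).2 h6
    · show 1 ≤ (w.drop t).length
      rw [List.length_drop]; omega

/-- few walls -/
theorem nw_le {n : ℕ} {S : Set (List α)} {w : List α} {z : ℕ}
    (h : ∀ t, z ≤ t → t < w.length → ¬ wa n S w t) : nw n S w ≤ z + 1 := by
  classical
  unfold nw
  calc _ ≤ (Finset.range z ∪ {w.length - n}).card := by
        apply Finset.card_le_card
        intro x hx
        rw [Finset.mem_filter, Finset.mem_range] at hx
        rw [Finset.mem_union, Finset.mem_range, Finset.mem_singleton]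
        by_contra hcon
        push Not at hcon
        have hx1 := hx.2.1
        exact h (x + n) (by omega) (by omega) ⟨by omega, by rw [Nat.add_sub_cancel]; exact hx.2⟩
    _ ≤ _ := by
        refine (Finset.card_union_le _ _).trans ?_
        simp

/-- a regular set of blocks has height one -/
theorem HL_blocks [Finite α] {n : ℕ} {S : Set (List α)} (hS : ∀ s ∈ S, s.length = n) (z : ℕ)
    (few : ∀ (L : Language α), L.IsRegular → ∀ r, HL 1 ({w | w ∈ L ∧ nw n S w ≤ r} : Language α))
    (L : Language α) (hL : L.IsRegular) :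
    HL 1 (Lg fun X => X ∈ XX n S z ∧ X ∈ L) := by
  have hX : Language.IsRegular (Lof (XX n S z)) := Reg_852.HL.isRegular (HL_XX hS z)
  refine (few _ (hX.inf hL) (z + 1)).congr fun w => ?_
  constructor
  · rintro ⟨h1, h2⟩
    exact ⟨⟨h1, h2⟩, nw_le h1.2.2⟩
  · rintro ⟨⟨h1, h2⟩, -⟩
    exact ⟨h1, h2⟩

theorem isRegular_fibre [Finite α] {M : Type} [Monoid M] [Finite M] (f : α → M) (s : M) :
    Language.IsRegular ({w | (w.map f).prod = s} : Language α) := by
  have := isRegular_of_inv (α := α) (fun w => (w.map f).prod)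
    (fun u v => by simp) 0 1 one_pos (fun _ t _ => t = s)
  simpa using this

/-- tails have height one -/
theorem HL_tail [Finite α] {n : ℕ} {S : Set (List α)} (hS : ∀ s ∈ S, s.length = n) (z : ℕ)
    (few : ∀ (L : Language α), L.IsRegular → ∀ r, HL 1 ({w | w ∈ L ∧ nw n S w ≤ r} : Language α))
    {M : Type} [Monoid M] [Finite M] (f : α → M) (s : M) :
    HL 1 (Lg fun E => E ∈ Tail (XX n S z) ∧ (E.map f).prod = s) := by
  have hX : HL 0 ((Lof (XX n S z) * ⊤)ᶜ) := ((HL_XX hS z).mul HL.top).compl
  have hT : ∀ w : List α, w ∈ Tail (XX n S z) ↔ w ∈ ((Lof (XX n S z) * ⊤)ᶜ : Language α) := by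
    intro w
    constructor
    · intro h hw
      obtain ⟨X, hX, R, -, rfl⟩ := Language.mem_mul.1 hw
      exact h X hX (List.prefix_append _ _)
    · rintro h X hX ⟨R, rfl⟩
      exact h (Language.append_mem_mul hX trivial)
  have hreg := (Reg_852.HL.isRegular hX).inf (isRegular_fibre f s)
  refine (few _ hreg (z + 1)).congr fun w => ?_
  constructor
  · rintro ⟨h1, h2⟩
    refine ⟨⟨(hT w).1 h1, h2⟩, nw_le fun t h3 h4 h5 => ?_⟩
    obtain ⟨t0, -, -, h6⟩ := XX_exists h3 h5
    exact h1 _ h6 (List.take_prefix _ _)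
  · rintro ⟨⟨h1, h2⟩, -⟩
    exact ⟨(hT w).2 h1, h2⟩

end Crest.Agent.R320.Main_206
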