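import Crest.Agent.R320.MainA_206

/-!
# Row 320: spoil count for the natural chain rule and regularity by invariance (helper206)
-/

set_option autoImplicit false

namespace Crest.Agent.R320.Main_206

open Crest.RegLang Crest.Agent.R320.Hk_851 Crest.Agent.R320.FewWalls_228
  Crest.Agent.R320.Half1_180

universe u

variable {α : Type u}

/-- a property which depends on a bounded prefix, the type of the rest and the length modulo `N` -/
theorem reg_of_inv [Finite α] {M : Type} [Monoid M] [Finite M] (f : α → M) (L N : ℕ) (hN : 0 < N)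
    (p : List α → Prop)
    (h : ∀ X Y : List α, L ≤ X.length → L ≤ Y.length → X.take L = Y.take L →
      ((X.drop L).map f).prod = ((Y.drop L).map f).prod → X.length % N = Y.length % N →
      p X → p Y) : Language.IsRegular ({w | p w} : Language α) := by
  have h1 := isRegular_of_inv (fun w : List α => (w.map f).prod) (fun u v => by simp) L N hN
    (fun x s r => ∃ Y : List α, Y.take L = x ∧ ((Y.drop L).map f).prod = s ∧ Y.length % N = r ∧
      p Y)
  have e : ({w | p w} : Language α) = ({Q | (fun x s r => ∃ Y : List α, Y.take L = x ∧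
      ((Y.drop L).map f).prod = s ∧ Y.length % N = r ∧ p Y) (Q.take L)
      ((fun w : List α => (w.map f).prod) (Q.drop L)) (Q.length % N)} : Language α) := by
    ext X
    constructor
    · intro hX
      exact ⟨X, rfl, rfl, rfl, hX⟩
    · rintro ⟨Y, h2, h3, h4, h5⟩
      have hlen := congrArg List.length h2
      rw [List.length_take, List.length_take] at hlen
      rcases Nat.lt_or_ge X.length L with h6 | h6
      · have h7 : Y.length < L := by omega
        rw [List.take_of_length_le h7.le, List.take_of_length_le h6.le] at h2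
        rw [← h2]; exact h5
      · exact h Y X (by omega) h6 h2 h3 h4 h5
  rw [e]
  exact h1

open Classical in
/-- **the spoil count** for the natural chain rule -/
theorem spoil (K CT N1 p0 z W : ℕ) (c : ℕ → ℕ) (BadT : ℕ → Prop) (Wt : ℕ → Prop)
    (gap : ∀ s t, Wt s → Wt t → s < t → s + W ≤ t) (hW : 2 * p0 + 2 * N1 < W)
    (hc : ∀ k < K, c k ≤ p0) (hz : 3 * p0 ≤ z)
    (hres : ∀ a b a' b', a < K → b < K → a' < K → b' < K → a ≠ b → a' ≠ b' →
      |((c a : ℤ) - c b) - ((c a' : ℤ) - c b')| < 2 * N1 → a = a' ∧ b = b')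
    (hthin : ∀ T : ℕ, (∀ k < K, c k ≤ T) → ((Finset.range K ×ˢ Finset.range K).filter
      (fun p => p.1 ≠ p.2 ∧ BadT (T + c p.1 - c p.2))).card ≤ CT) :
    ((Finset.range K).filter (fun k => ∃ k' < K, k' ≠ k ∧
      ((∃ t, Wt t ∧ z + c k ≤ t + c k' + N1 ∧ t + c k' < z + N1 + c k) ∨
       (∃ t, Wt t ∧ z + c k ≤ t + c k' ∧ (∀ t' < t, Wt t' → t' + c k' < z + c k) ∧
         BadT (t + c k' - c k - p0))))).card ≤ 1 + 2 * CT := by
  set A1 := (Finset.range K).filter (fun k => ∃ k' < K, k' ≠ k ∧
      ∃ t, Wt t ∧ z + c k ≤ t + c k' + N1 ∧ t + c k' < z + N1 + c k) with hA1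
  set A2 := (Finset.range K).filter (fun k => ∃ k' < K, k' ≠ k ∧
      ∃ t, Wt t ∧ z + c k ≤ t + c k' ∧ (∀ t' < t, Wt t' → t' + c k' < z + c k) ∧
         BadT (t + c k' - c k - p0)) with hA2
  have hsub : ((Finset.range K).filter (fun k => ∃ k' < K, k' ≠ k ∧
      ((∃ t, Wt t ∧ z + c k ≤ t + c k' + N1 ∧ t + c k' < z + N1 + c k) ∨
       (∃ t, Wt t ∧ z + c k ≤ t + c k' ∧ (∀ t' < t, Wt t' → t' + c k' < z + c k) ∧
         BadT (t + c k' - c k - p0))))) ⊆ A1 ∪ A2 := by
    intro k hk
    rw [Finset.mem_filter] at hk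
    obtain ⟨hk1, k', hk', hne, h | h⟩ := hk
    · exact Finset.mem_union_left _ (Finset.mem_filter.2 ⟨hk1, k', hk', hne, h⟩)
    · exact Finset.mem_union_right _ (Finset.mem_filter.2 ⟨hk1, k', hk', hne, h⟩)
  refine (Finset.card_le_card hsub).trans ((Finset.card_union_le _ _).trans ?_)
  have h1 : A1.card ≤ 1 := by
    rw [Finset.card_le_one]
    intro k hk l hl
    rw [hA1, Finset.mem_filter, Finset.mem_range] at hk hl
    obtain ⟨hk1, k', hk', hne, t, ht, ht1, ht2⟩ := hk
    obtain ⟨hl1, l', hl', hne', s, hs, hs1, hs2⟩ := hl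
    have c1 := hc k hk1
    have c2 := hc k' hk'
    have c3 := hc l hl1
    have c4 := hc l' hl'
    have hts : t = s := by
      rcases lt_trichotomy t s with h | h | h
      · have := gap t s ht hs h; omega
      · exact h
      · have := gap s t hs ht h; omega
    subst hts
    refine (hres k k' l l' hk1 hk' hl1 hl' hne.symm hne'.symm ?_).1
    rw [abs_lt]
    constructor <;> omega
  have h2 : A2.card ≤ 2 * CT := by
    by_cases hex : ∃ t, z ≤ t + p0 ∧ Wt t
    · -- first wall in reach
      obtain ⟨h3, h4⟩ := Nat.find_spec hex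
      set t0 := Nat.find hex with ht0
      have hmin0 : ∀ t, z ≤ t + p0 → Wt t → t0 ≤ t := fun t h5 h6 => Nat.find_min' hex ⟨h5, h6⟩
      obtain ⟨t1, ht1⟩ : ∃ t1, (∀ t, Wt t → t0 < t → t1 ≤ t) ∧ ((∃ t, Wt t ∧ t0 < t) →
          Wt t1 ∧ t0 < t1) ∧ t0 ≤ t1 := by
        by_cases hex1 : ∃ t, Wt t ∧ t0 < t
        · exact ⟨Nat.find hex1, fun t h5 h6 => Nat.find_min' hex1 ⟨h5, h6⟩,
            fun _ => Nat.find_spec hex1, (Nat.find_spec hex1).2.le⟩
        · refine ⟨t0, fun t h5 h6 => absurd ⟨t, h5, h6⟩ hex1, fun h => absurd h hex1, le_rfl⟩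
      obtain ⟨hmin1, hsp1, h01⟩ := ht1
      have hsub2 : A2 ⊆ (((Finset.range K ×ˢ Finset.range K).filter
          (fun p => p.1 ≠ p.2 ∧ BadT ((t0 - p0) + c p.1 - c p.2))).image Prod.snd) ∪
          (((Finset.range K ×ˢ Finset.range K).filter
          (fun p => p.1 ≠ p.2 ∧ BadT ((t1 - p0) + c p.1 - c p.2))).image Prod.snd) := by
        intro k hk
        rw [hA2, Finset.mem_filter, Finset.mem_range] at hk
        obtain ⟨hk1, k', hk', hne, t, ht, hta, htb, hbad⟩ := hk
        have c1 := hc k hk1
        have c2 := hc k' hk'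
        have h5 : t0 ≤ t := hmin0 t (by omega) ht
        have h6 : t = t0 ∨ t = t1 := by
          rcases Nat.eq_or_lt_of_le h5 with h7 | h7
          · exact Or.inl h7.symm
          · right
            have h8 := hmin1 t ht h7
            obtain ⟨h9, h10⟩ := hsp1 ⟨t, ht, h7⟩
            rcases Nat.eq_or_lt_of_le h8 with h11 | h11
            · exact h11.symm
            · have := htb t1 h11 h9
              have := gap t0 t1 h4 h9 h10
              omega
        rcases h6 with h6 | h6
        · rw [h6] at hbad hta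
          apply Finset.mem_union_left
          rw [Finset.mem_image]
          refine ⟨(k', k), ?_, rfl⟩
          rw [Finset.mem_filter, Finset.mem_product, Finset.mem_range, Finset.mem_range]
          refine ⟨⟨hk', hk1⟩, hne, ?_⟩
          show BadT ((t0 - p0) + c k' - c k)
          rwa [show (t0 - p0) + c k' - c k = t0 + c k' - c k - p0 by omega]
        · rw [h6] at hbad hta h5
          apply Finset.mem_union_right
          rw [Finset.mem_image]
          refine ⟨(k', k), ?_, rfl⟩
          rw [Finset.mem_filter, Finset.mem_product, Finset.mem_range, Finset.mem_range]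
          refine ⟨⟨hk', hk1⟩, hne, ?_⟩
          show BadT ((t1 - p0) + c k' - c k)
          rwa [show (t1 - p0) + c k' - c k = t1 + c k' - c k - p0 by omega]
      refine (Finset.card_le_card hsub2).trans ((Finset.card_union_le _ _).trans ?_)
      have e0 := (Finset.card_image_le (f := Prod.snd)).trans (hthin (t0 - p0) (fun k hk => by
        have := hc k hk; omega))
      have e1 := (Finset.card_image_le (f := Prod.snd)).trans (hthin (t1 - p0) (fun k hk => by
        have := hc k hk; omega))
      omega
    · have : A2 = ∅ := by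
        rw [Finset.eq_empty_iff_forall_notMem]
        intro k hk
        rw [hA2, Finset.mem_filter, Finset.mem_range] at hk
        obtain ⟨hk1, k', hk', hne, t, ht, hta, -⟩ := hk
        have c1 := hc k' hk'
        exact hex ⟨t, by omega, ht⟩
      rw [this]; simp
  omega

end Crest.Agent.R320.Main_206
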