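import Crest.Agent.R320.MainB_206

/-!
# Row 320: gadget 1 (pure words, `G1`) implies height three (helper206)

Design 693 #13203 + 110 #13081 (semantic right words) + 237 ExactR + 180 Top_180.top2 + 228 / 263
walls on all words: natural chain rule, two schemes on one token system.
-/

set_option autoImplicit false

namespace Crest.Agent.R320.Main_206

open Crest.RegLang Crest.Agent.R320.Hk_851 Crest.Agent.R320.FewWalls_228
  Crest.Agent.R320.Half1_180

universe u

variable {α : Type u}

open Classical in
/-- the gadget of scheme 1 on words over `S` (all lengths, all contents), with its thinness and a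
ruler -/
def G1 (S V : Type) [Monoid S] [AddCommGroup V] (act : V → S → V) : Prop :=
  ∃ CT : ℕ, ∀ K : ℕ, ∃ (N1 L0 Mo : ℕ) (BadT : ℕ → Prop) (c : ℕ → ℕ)
    (lam rho : List S → Option V) (nu : List S → V),
    0 < Mo ∧ (∀ T, BadT (T + Mo) ↔ BadT T) ∧
    (∀ i j, i < j → j < K → c i < c j) ∧
    (∀ a b a' b', a < K → b < K → a' < K → b' < K → a ≠ b → a' ≠ b' →
      |((c a : ℤ) - c b) - ((c a' : ℤ) - c b')| < 2 * N1 → a = a' ∧ b = b') ∧
    (∀ T : ℕ, (∀ k < K, c k ≤ T) → ((Finset.range K ×ˢ Finset.range K).filter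
      (fun p => p.1 ≠ p.2 ∧ BadT (T + c p.1 - c p.2))).card ≤ CT) ∧
    (∀ P v, lam P = some v → P.length ≤ N1) ∧
    (∀ P Q v b, lam P = some v → rho Q = some b → b = act v (P ++ Q).prod + nu (P ++ Q)) ∧
    (∀ Z : List S, L0 ≤ Z.length → ¬ BadT Z.length → ∀ v, ∃ P Q, Z = P ++ Q ∧ lam P = some v ∧
      (rho Q).isSome) ∧
    (∀ X Y : List S, L0 ≤ X.length → L0 ≤ Y.length → X.take L0 = Y.take L0 →
      (X.drop L0).prod = (Y.drop L0).prod → X.length % Mo = Y.length % Mo → nu X = nu Y)

/-- the zone map -/
def Tm {S V : Type} [Monoid S] [AddCommGroup V] (act : V → S → V) (p0 : ℕ)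
    (nu1 nu2 : List S → V) (f : α → S) (X : List α) (v : V) : V :=
  act (act v ((X.map f).take p0).prod + nu2 ((X.map f).take p0)) ((X.map f).drop p0).prod +
    nu1 ((X.map f).drop p0)

theorem Bs_first {XX Bad : Set (List α)} (h : PF XX) (hB : Bad ⊆ XX) {X R w : List α}
    (hX : X ∈ XX) (hw : Bs Bad w) (e : w = X ++ R) : X ∈ Bad ∧ Bs Bad R := by
  rcases Bs.inv h hB hw with rfl | ⟨Y, hY, w', rfl, hw'⟩
  · exfalso
    have : X = [] := (List.append_eq_nil_iff.1 e.symm).1
    exact h.1 X hX this
  · obtain ⟨rfl, rfl⟩ := h.eq (hB hY) hX e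
    exact ⟨hY, hw'⟩

theorem main {S : Type} [Monoid S] [Finite S] {V : Type} [AddCommGroup V] [Finite V]
    (act : V → S → V) (hadd : ∀ a b s, act (a + b) s = act a s + act b s)
    (hone : ∀ v, act v 1 = v) (hmul : ∀ v s t, act v (s * t) = act (act v s) t)
    (faith : ∀ s t, (∀ v, act v s = act v t) → s = t) (hG : G1 S V act) [Finite α]
    (f : α → S) (s : S) : HL 3 ({w | (w.map f).prod = s} : Language α) := by
  classical
  haveI := Fintype.ofFinite S
  haveI := Fintype.ofFinite V
  have hzero : ∀ s, act 0 s = 0 := by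
    intro s
    have := hadd 0 0 s
    rw [add_zero] at this
    exact left_eq_add.1 this
  have hsub : ∀ a b s, act (a - b) s = act a s - act b s := by
    intro a b s
    have := hadd (a - b) b s
    rw [sub_add_cancel] at this
    rw [this]; abel
  obtain ⟨CT, hCT⟩ := hG
  obtain ⟨K, hK⟩ := ExactR_237.exact_gadget S S V id act (2 + 2 * CT)
  obtain ⟨N1, L0, Mo, BadT, c, lam, rho, nu1, hMo, hper, hcm, hres, hthin, hlamN, hsound, hcompl,
    hnu⟩ := hCT K
  obtain ⟨lam2, rho2, nu2', hex2, hco2⟩ := hK c hcm
  set nu2 : List S → V := fun u => nu2' u 1 with hnu2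
  set p0 : ℕ := ∑ k ∈ Finset.range K, c k with hp0
  have hcp : ∀ k < K, c k ≤ p0 := fun k hk =>
    Finset.single_le_sum (f := c) (fun _ _ => Nat.zero_le _) (Finset.mem_range.2 hk)
  set W : ℕ := 2 * p0 + 2 * N1 + 1 with hWdef
  obtain ⟨n, cc, Pp, SS, hn, hPp, hSS, hsep, -, few⟩ := FewVal_228.exists_walls α W (by omega)
  set z : ℕ := 4 * p0 + 2 * N1 + n + L0 + 1 with hz
  set T : List α → V → V := Tm act p0 nu1 nu2 f with hT
  set X0 : Set (List α) := XX n SS z with hX0
  have hPF : PF X0 := XX_pf (by omega)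
  set Eb : List α → Prop := fun X => ∃ t, z ≤ t + N1 ∧ t < z + N1 ∧ wa n SS X t with hEb
  set Bad : Set (List α) := {X | X ∈ X0 ∧ (Eb X ∨ BadT (X.length - p0))} with hBad
  have hBX : Bad ⊆ X0 := fun X h => h.1
  -- walls of a text have gaps
  have hgap : ∀ (w : List α) s t, wa n SS w s → wa n SS w t → s < t → s + W ≤ t := by
    intro w s t hs ht hst
    have := hsep w (s - n) (t - n) (by have := hs.1; have := ht.1; omega) hs.2 ht.2
    have := hs.1
    omega
  -- regularity
  set L1 : ℕ := z + N1 + p0 + L0 with hL1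
  have hEbreg : Language.IsRegular ({w | Eb w} : Language α) := by
    refine reg_of_inv f L1 1 one_pos Eb ?_
    rintro X Y - - h - - ⟨t, h1, h2, h3⟩
    refine ⟨t, h1, h2, ?_⟩
    rw [← wa_take (m := L1) (by omega), ← h]
    exact (wa_take (by omega)).2 h3
  have hper' : ∀ a b, a % Mo = b % Mo → (BadT a ↔ BadT b) := by
    have h1 : ∀ k a, BadT (a + Mo * k) ↔ BadT a := by
      intro k
      induction k with
      | zero => intro a; simp
      | succ k ih => intro a; rw [Nat.mul_succ, ← Nat.add_assoc, hper, ih]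
    intro a b hab
    rw [← Nat.mod_add_div a Mo, ← Nat.mod_add_div b Mo, h1, h1, hab]
  have hmodsub : ∀ X Y : List α, L1 ≤ X.length → L1 ≤ Y.length → X.length % Mo = Y.length % Mo →
      (X.length - p0) % Mo = (Y.length - p0) % Mo := by
    intro X Y h1 h2 h3
    have h4 : X.length ≡ Y.length [MOD Mo] := h3
    have h5 : (X.length - p0) + p0 ≡ (Y.length - p0) + p0 [MOD Mo] := by
      rwa [Nat.sub_add_cancel (by omega), Nat.sub_add_cancel (by omega)]
    exact Nat.ModEq.add_right_cancel' p0 h5
  have hBTreg : Language.IsRegular ({w | BadT (w.length - p0)} : Language α) := by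
    refine reg_of_inv f L1 Mo hMo (fun w => BadT (w.length - p0)) ?_
    intro X Y h1 h2 _ _ h3 h4
    exact (hper' _ _ (hmodsub X Y h1 h2 h3)).1 h4
  have hTinv : ∀ v (X Y : List α), L1 ≤ X.length → L1 ≤ Y.length → X.take L1 = Y.take L1 →
      ((X.drop L1).map f).prod = ((Y.drop L1).map f).prod → X.length % Mo = Y.length % Mo →
      T X v = T Y v := by
    intro v X Y h1 h2 h3 h4 h5
    have htk : ∀ m, m ≤ L1 → X.take m = Y.take m := by
      intro m hm
      have := congrArg (List.take m) h3
      rwa [List.take_take, List.take_take, min_eq_left hm] at this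
    have hdp : ∀ m, m ≤ L1 → ((X.drop m).map f).prod = ((Y.drop m).map f).prod := by
      intro m hm
      have e : ∀ Z : List α, Z.drop m = (Z.take L1).drop m ++ Z.drop L1 := by
        intro Z
        rcases Nat.lt_or_ge Z.length m with h | h
        · have a1 : Z.drop m = [] := List.drop_eq_nil_of_le (by omega)
          have a2 : (Z.take L1).drop m = [] := List.drop_eq_nil_of_le (by
            rw [List.length_take]
            omega)
          have a3 : Z.drop L1 = [] := List.drop_eq_nil_of_le (by omega)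
          rw [a1, a2, a3]
          rfl
        · conv_lhs => rw [← List.take_append_drop L1 Z]
          rw [List.drop_append_of_le_length (by rw [List.length_take]; omega)]
      rw [e X, e Y, List.map_append, List.map_append, List.prod_append, List.prod_append, h3, h4]
    have hnu' : nu1 ((X.map f).drop p0) = nu1 ((Y.map f).drop p0) := by
      apply hnu
      · rw [List.length_drop, List.length_map]; omega
      · rw [List.length_drop, List.length_map]; omega
      · have e : ∀ Z : List α, ((Z.map f).drop p0).take L0 =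
            ((Z.take (p0 + L0)).drop p0).map f := by
          intro Z
          rw [List.drop_take, List.map_take, List.map_drop, Nat.add_sub_cancel_left]
        rw [e X, e Y, htk (p0 + L0) (by omega)]
      · rw [List.drop_drop, List.drop_drop, ← List.map_drop, ← List.map_drop]
        exact hdp _ (by omega)
      · rw [List.length_drop, List.length_map, List.length_drop, List.length_map]
        exact hmodsub X Y h1 h2 h5
    rw [hT]
    unfold Tm
    rw [hnu', ← List.map_take, ← List.map_take, ← List.map_drop, ← List.map_drop,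
      htk p0 (by omega), hdp p0 (by omega)]
  have hTreg : ∀ v v', Language.IsRegular ({w | T w v = v'} : Language α) := by
    intro v v'
    refine reg_of_inv f L1 Mo hMo (fun w => T w v = v') ?_
    intro X Y h1 h2 h3 h4 h5 h6
    rw [← hTinv v X Y h1 h2 h3 h4 h5]; exact h6
  have hHX : ∀ v v', HL 1 (Lg fun X => X ∈ X0 ∧ T X v = v') := fun v v' =>
    HL_blocks hSS z few _ (hTreg v v')
  have hBadreg : Language.IsRegular ((({w | Eb w} : Language α) ⊓
      ({w | BadT (w.length - p0)} : Language α)ᶜ) ⊔ ({w | BadT (w.length - p0)} : Language α)) :=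
    Language.IsRegular.add (hEbreg.inf hBTreg.compl) hBTreg
  have hBadiff : ∀ w, w ∈ (((({w | Eb w} : Language α) ⊓
      ({w | BadT (w.length - p0)} : Language α)ᶜ) ⊔ ({w | BadT (w.length - p0)} : Language α)) :
      Language α) ↔ (Eb w ∨ BadT (w.length - p0)) := by
    intro w
    constructor
    · rintro (⟨h1, -⟩ | h1)
      · exact Or.inl h1
      · exact Or.inr h1
    · intro h
      by_cases h2 : BadT (w.length - p0)
      · exact Or.inr h2
      · rcases h with h | h
        · exact Or.inl ⟨h, h2⟩
        · exact absurd h h2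
  have hHBad : HL 1 (Lof Bad) :=
    (HL_blocks hSS z few _ hBadreg).congr fun w =>
      ⟨fun h => ⟨h.1, (hBadiff w).2 h.2⟩, fun h => ⟨h.1, (hBadiff w).1 h.2⟩⟩
  have hHBT : ∀ v v', HL 1 (Lg fun X => X ∈ Bad ∧ T X v = v') := fun v v' =>
    (hHBad.inf (hHX v v')).congr fun w =>
      ⟨fun h => ⟨h.1, hBX h.1, h.2⟩, fun h => ⟨h.1, h.2.2⟩⟩
  have hHGood : HL 1 (Lof (X0 \ Bad)) :=
    (((HL_XX hSS z).mono (Nat.zero_le 1)).inf hHBad.compl).congr fun w => Iff.rfl
  -- the left languages
  set LP1 : V → Language α := fun v => {P | p0 ≤ P.length ∧ P.length ≤ p0 + N1 ∧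
    lam ((P.map f).drop p0) = some (act v ((P.map f).take p0).prod + nu2 ((P.map f).take p0))}
    with hLP1
  set LP2 : V → Language α := fun v => {P | ∃ k < K, P.length = c k ∧ lam2 k (P.map f) = some v}
    with hLP2
  have hf1 : {x : V × List α | x.2 ∈ LP1 x.1}.Finite := by
    refine ((Set.finite_univ (α := V)).prod (List.finite_length_le α (p0 + N1))).subset ?_
    rintro ⟨v, P⟩ ⟨h1, h2, h3⟩
    exact ⟨trivial, h2⟩
  have hf2 : {x : V × List α | x.2 ∈ LP2 x.1}.Finite := by
    refine ((Set.finite_univ (α := V)).prod (List.finite_length_le α p0)).subset ?_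
    rintro ⟨v, P⟩ ⟨k, hk, h2, h3⟩
    refine ⟨trivial, ?_⟩
    show P.length ≤ p0
    rw [show P.length = c k from h2]
    exact hcp k hk
  have hHLP : ∀ (LP : V → Language α), {x : V × List α | x.2 ∈ LP x.1}.Finite → ∀ v,
      HL 1 (LP v) := by
    intro LP hfin v
    have : {P | P ∈ LP v}.Finite := by
      refine (hfin.image Prod.snd).subset ?_
      intro P hP
      exact ⟨(v, P), hP, rfl⟩
    exact (HL.finite this).congr fun w => Iff.rfl
  -- the right languages (semantic)
  set D1 : V → Language α := fun b => {w | ∃ v, (w ∈ X0 ∧ T w v = b)} with hD1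
  set RQ1 : V → Language α := fun b => {Q | ∀ x ∈ {x : V × List α | x.2 ∈ LP1 x.1},
    x.2 ++ Q ∈ X0 ∧ T (x.2 ++ Q) x.1 = b} with hRQ1
  have hHRQ1 : ∀ b, HL 1 (RQ1 b) := by
    intro b
    refine (HL.biInter hf1 (L := fun x => ({Q | x.2 ++ Q ∈ (Lg fun X => X ∈ X0 ∧ T X x.1 = b)} :
      Language α)) fun x _ => (hHX x.1 b).lquot x.2).congr fun Q => ?_
    constructor
    · intro h x hx; exact h x hx
    · intro h x hx; exact h x hx
  set D2 : V → V → Language α := fun v b => {w | (∃ X ∈ X0 \ Bad, X <+: w) ∨
    (∃ X1 ∈ Bad, ∃ X2 ∈ X0 \ Bad, X1 ++ X2 <+: w) ∨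
    (∃ X1 ∈ Bad, ∃ X2 ∈ Bad, w = X1 ++ X2 ∧ T X2 (T X1 v) = b)} with hD2
  have hHD2 : ∀ v b, HL 1 (D2 v b) := by
    intro v b
    have h1 : HL 1 (Lof (X0 \ Bad) * ⊤) := hHGood.mul HL.top
    have h2 : HL 1 (Lof Bad * (Lof (X0 \ Bad) * ⊤)) := hHBad.mul h1
    have h3 : HL 1 (Lg fun w => ∃ u : V, w ∈ (Lg fun X => X ∈ Bad ∧ T X v = u) *
        (Lg fun X => X ∈ Bad ∧ T X u = b)) :=
      HL.iUnion fun u => (hHBT v u).mul (hHBT u b)
    refine ((h1.sup h2).sup h3).congr fun w => ?_
    constructor
    · rintro (⟨X, hX, R, rfl⟩ | ⟨X1, hX1, X2, hX2, R, rfl⟩ | ⟨X1, hX1, X2, hX2, rfl, h4⟩)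
      · exact Or.inl (Or.inl (Language.append_mem_mul hX trivial))
      · refine Or.inl (Or.inr ?_)
        rw [List.append_assoc]
        exact Language.append_mem_mul hX1 (Language.append_mem_mul hX2 trivial)
      · exact Or.inr ⟨T X1 v, Language.append_mem_mul ⟨hX1, rfl⟩ ⟨hX2, h4⟩⟩
    · rintro ((h4 | h4) | ⟨u, h4⟩)
      · obtain ⟨X, hX, R, -, rfl⟩ := Language.mem_mul.1 h4
        exact Or.inl ⟨X, hX, List.prefix_append _ _⟩
      · obtain ⟨X1, hX1, R', hR', rfl⟩ := Language.mem_mul.1 h4
        obtain ⟨X2, hX2, R, -, rfl⟩ := Language.mem_mul.1 hR'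
        exact Or.inr (Or.inl ⟨X1, hX1, X2, hX2, ⟨R, by simp⟩⟩)
      · obtain ⟨X1, ⟨hX1, h5⟩, X2, ⟨hX2, h6⟩, rfl⟩ := Language.mem_mul.1 h4
        exact Or.inr (Or.inr ⟨X1, hX1, X2, hX2, rfl, by rw [h5]; exact h6⟩)
  set RQ2 : V → Language α := fun b => {Q | ∀ x ∈ {x : V × List α | x.2 ∈ LP2 x.1},
    x.2 ++ Q ∈ D2 x.1 b} with hRQ2
  have hHRQ2 : ∀ b, HL 1 (RQ2 b) := by
    intro b
    refine (HL.biInter hf2 (L := fun x => ({Q | x.2 ++ Q ∈ D2 x.1 b} :
      Language α)) fun x _ => (hHD2 x.1 b).lquot x.2).congr fun Q => ?_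
    constructor
    · intro h x hx; exact h x hx
    · intro h x hx; exact h x hx
  -- apply the top theorem
  refine top2 (k := 1) f act hzero hone (fun v s s' => (hmul v s s').symm) faith X0 (X0 \ Bad) Bad
    hPF ?_ T ?_ LP1 RQ1 (fun v => (hHLP LP1 hf1 v).mono (by omega))
    (fun v => (hHRQ1 v).mono (by omega)) ?_ ?_ hHBad LP2 RQ2 (hHLP LP2 hf2) hHRQ2 hHBT ?_ ?_
    (fun s => (HL_tail hSS z few f s).mono (by omega)) s
  · rw [Set.diff_union_self, Set.union_eq_self_of_subset_right hBX]
  · -- affine
    intro X hX v v'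
    rw [hT]
    unfold Tm
    have e : (X.map f).prod = ((X.map f).take p0).prod * ((X.map f).drop p0).prod := by
      rw [← List.prod_append, List.take_append_drop]
    rw [e, hmul, hadd, hadd, hsub, hsub]
    abel
  · -- sound1
    intro v v' P Q hP hQ
    exact hQ (v, P) hP
  · -- compl1
    rintro X ⟨hX, hXb⟩ v
    have hE : ¬ Eb X := fun h => hXb ⟨hX, Or.inl h⟩
    have hB : ¬ BadT (X.length - p0) := fun h => hXb ⟨hX, Or.inr h⟩
    have hXz : z + N1 ≤ X.length := by
      by_contra hcon
      exact hE ⟨X.length, by have := hX.1; omega, by omega, hX.2.1⟩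
    set v1 : V := act v ((X.map f).take p0).prod + nu2 ((X.map f).take p0) with hv1
    have hZl : ((X.map f).drop p0).length = X.length - p0 := by
      rw [List.length_drop, List.length_map]
    obtain ⟨P', Q', hPQ, hl, hr⟩ := hcompl ((X.map f).drop p0) (by rw [hZl]; omega)
      (by rw [hZl]; exact hB) v1
    obtain ⟨b, hb⟩ := Option.isSome_iff_exists.1 hr
    have hPl := hlamN P' v1 hl
    have hlen' : P'.length + Q'.length = X.length - p0 := by
      rw [← hZl, hPQ, List.length_append]
    set m := p0 + P'.length with hm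
    have hmX : m ≤ X.length := by omega
    have hXPQ : X.take m ++ X.drop m = X := List.take_append_drop _ _
    have htl : (X.take m).length = m := by rw [List.length_take]; omega
    have hP'' : ((X.take m).map f).drop p0 = P' := by
      rw [List.map_take, List.drop_take, hPQ, hm, Nat.add_sub_cancel_left, List.take_left]
    have hQ'' : (X.drop m).map f = Q' := by
      rw [List.map_drop, hm, ← List.drop_drop, hPQ, List.drop_left]
    have htp : ((X.take m).map f).take p0 = (X.map f).take p0 := by
      rw [List.map_take, List.take_take, min_eq_left (by omega)]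
    have hPmem : X.take m ∈ LP1 v := by
      refine ⟨by rw [htl]; omega, by rw [htl]; omega, ?_⟩
      rw [hP'', htp]; exact hl
    -- every legal left word fits
    have key : ∀ v' P1, P1 ∈ LP1 v' → P1 ++ X.drop m ∈ X0 ∧ T (P1 ++ X.drop m) v' = b := by
      rintro v' P1 ⟨g1, g2, g3⟩
      refine ⟨?_, ?_⟩
      · apply XX_join (q := z - (p0 + N1))
        · rw [List.length_drop]; omega
        · omega
        · omega
        · have h1 := hX.2.1
          rw [← hXPQ] at h1
          rw [List.length_append] at h1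
          exact (wa_right (by rw [List.length_drop]; omega)).1 h1
        · intro t ht1 ht2 ht3
          rw [List.length_drop] at ht2
          have h1 : wa n SS X (m + t) := by
            have h2 := (wa_right (P := X.take m) (by omega : n ≤ t)).2 ht3
            rwa [hXPQ, htl] at h2
          by_cases h3 : m + t < z
          · exact hE ⟨m + t, by omega, by omega, h1⟩
          · exact hX.2.2 (m + t) (by omega) (by omega) h1
      · have hd : ((P1 ++ X.drop m).map f).drop p0 = (P1.map f).drop p0 ++ Q' := by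
          rw [List.map_append, List.drop_append_of_le_length (by rw [List.length_map]; exact g1),
            hQ'']
        have ht : ((P1 ++ X.drop m).map f).take p0 = (P1.map f).take p0 := by
          rw [List.map_append, List.take_append_of_le_length (by rw [List.length_map]; exact g1)]
        show Tm act p0 nu1 nu2 f (P1 ++ X.drop m) v' = b
        unfold Tm
        rw [hd, ht]
        exact (hsound _ _ _ _ g3 hb).symm
    have hTX : T X v = b := by
      have := (key v _ hPmem).2
      rwa [hXPQ] at this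
    refine ⟨X.take m, X.drop m, hXPQ.symm, hPmem, ?_⟩
    rintro ⟨v', P1⟩ hP1
    rw [hTX]
    exact key v' P1 hP1
  · -- sound2
    intro v v' P Q R hP hQ hw
    have h1 := hQ (v, P) hP
    rcases h1 with ⟨X, hX, R', hR'⟩ | ⟨X1, hX1, X2, hX2, R', hR'⟩ | ⟨X1, hX1, X2, hX2, he, h4⟩
    · exfalso
      have h2 := Bs_first hPF hBX (R := R' ++ R) hX.1 hw (by
        rw [← List.append_assoc, ← List.append_assoc]
        exact congrArg (· ++ R) hR'.symm)
      exact hX.2 h2.1
    · exfalso
      have h2 := Bs_first hPF hBX (R := X2 ++ (R' ++ R)) (hBX hX1) hw (by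
        have : P ++ Q = X1 ++ X2 ++ R' := hR'.symm
        rw [← List.append_assoc, this]; simp)
      have h3 := Bs_first hPF hBX (R := R' ++ R) hX2.1 h2.2 rfl
      exact hX2.2 h3.1
    · have he' : P ++ Q = X1 ++ X2 := he
      have h2 := Bs_first hPF hBX (R := X2 ++ R) (hBX hX1) hw (by
        rw [← List.append_assoc, he']; simp)
      have h3 := Bs_first hPF hBX (R := R) (hBX hX2) h2.2 rfl
      refine ⟨?_, h3.2⟩
      rw [he', ← h4]
      exact Tr.cons (hBX hX1) (Tr.single (hBX hX2))
  · -- compl2
    intro Y1 hY1 Y2 hY2 v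
    have hY1z := (hBX hY1).1
    have hY2z := (hBX hY2).1
    set U1 : List S := (Y1.map f).take p0 with hU1
    have hU1l : U1.length = p0 := by
      rw [hU1, List.length_take, List.length_map]; omega
    obtain ⟨I, hI, hIk⟩ := hco2 U1 1 v (fun k hk => by rw [hU1l]; exact hcp k hk)
    have hsp := spoil K CT N1 p0 z W c BadT (fun t => wa n SS (Y1 ++ Y2) t)
      (fun s t hs ht hst => hgap _ s t hs ht hst) (by omega) hcp (by omega) hres hthin
    obtain ⟨k, hkI, hks⟩ : ∃ k ∈ I, k ∉ ((Finset.range K).filter (fun k => ∃ k' < K, k' ≠ k ∧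
      ((∃ t, wa n SS (Y1 ++ Y2) t ∧ z + c k ≤ t + c k' + N1 ∧ t + c k' < z + N1 + c k) ∨
       (∃ t, wa n SS (Y1 ++ Y2) t ∧ z + c k ≤ t + c k' ∧
        (∀ t' < t, wa n SS (Y1 ++ Y2) t' → t' + c k' < z + c k) ∧
         BadT (t + c k' - c k - p0))))) := by
      by_contra h
      push Not at h
      have h2 := Finset.card_le_card (fun k hk => h k hk)
      omega
    obtain ⟨hk, hl, hr⟩ := hIk k hkI
    obtain ⟨bu, hbu⟩ := Option.isSome_iff_exists.1 hr
    have hck := hcp k hk
    have hY12 : Y1.take (c k) ++ Y1.drop (c k) = Y1 := List.take_append_drop _ _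
    have htl : (Y1.take (c k)).length = c k := by rw [List.length_take]; omega
    have hPmem : Y1.take (c k) ∈ LP2 v := by
      refine ⟨k, hk, htl, ?_⟩
      have : U1.take (c k) = (Y1.take (c k)).map f := by
        rw [hU1, List.take_take, min_eq_left hck, List.map_take]
      rw [← this]; exact hl
    refine ⟨Y1.take (c k), Y1.drop (c k) ++ Y2, by rw [← List.append_assoc, hY12], hPmem, ?_⟩
    -- value after the prefix of length p0
    have hval : ∀ v' (P1 : List α), P1.length = c k → lam2 k (P1.map f) = some v' →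
        ∀ R : List α, act v' (((P1 ++ Y1.drop (c k)).map f).take p0).prod +
          nu2 (((P1 ++ Y1.drop (c k)).map f).take p0) = bu := by
      intro v' P1 h1 h2 _
      have h3 : ((P1 ++ Y1.drop (c k)).map f).take p0 = P1.map f ++ U1.drop (c k) := by
        rw [List.map_append, List.take_append, List.take_of_length_le (by
          rw [List.length_map, h1]; exact hck), List.length_map, h1, hU1, List.drop_take,
          List.map_drop]
      have h4 := hex2 k hk (P1.map f) (U1.drop (c k)) 1 v' bu (by rw [List.length_map, h1]) h2 hbu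
      rw [h3, h4, mul_one]
      unfold ExactR_237.pr
      rw [List.map_id]
    have hTeq : ∀ v' (P1 : List α), P1.length = c k → lam2 k (P1.map f) = some v' →
        T (P1 ++ Y1.drop (c k)) v' = T Y1 v := by
      intro v' P1 h1 h2
      have h3 := hval v' P1 h1 h2 []
      have h4 := hval v (Y1.take (c k)) htl (by
        have : U1.take (c k) = (Y1.take (c k)).map f := by
          rw [hU1, List.take_take, min_eq_left hck, List.map_take]
        rw [← this]; exact hl) []
      rw [hY12] at h4
      have h5 : ((P1 ++ Y1.drop (c k)).map f).drop p0 = (Y1.map f).drop p0 := by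
        rw [List.map_append, List.drop_append, List.drop_eq_nil_of_le (by
          rw [List.length_map, h1]; exact hck), List.length_map, h1, List.nil_append,
          List.map_drop, List.drop_drop]
        congr 1
        omega
      show Tm act p0 nu1 nu2 f _ v' = Tm act p0 nu1 nu2 f _ v
      unfold Tm
      rw [h3, h4, h5]
    rintro ⟨v', P1⟩ ⟨k', hk', hP1l, hP1⟩
    have hP1l' : P1.length = c k' := hP1l
    have hP1' : lam2 k' (P1.map f) = some v' := hP1
    show P1 ++ (Y1.drop (c k) ++ Y2) ∈ D2 v' (T Y2 (T Y1 v))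
    have hck' := hcp k' hk'
    by_cases hkk : k' = k
    · subst hkk
      refine Or.inr (Or.inr ⟨P1 ++ Y1.drop (c k'), ?_, Y2, hY2, by rw [List.append_assoc], ?_⟩)
      · have hlen : (P1 ++ Y1.drop (c k')).length = Y1.length := by
          rw [List.length_append, List.length_drop, hP1l']; omega
        have hwa : ∀ t, c k' + n ≤ t → (wa n SS (P1 ++ Y1.drop (c k')) t ↔ wa n SS Y1 t) := by
          intro t ht
          obtain ⟨t', rfl⟩ : ∃ t', t = c k' + t' := ⟨t - c k', by omega⟩
          have e1 := wa_right (S := SS) (P := P1) (Q := Y1.drop (c k')) (t := t') (n := n) (by omega)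
          have e2 := wa_right (S := SS) (P := Y1.take (c k')) (Q := Y1.drop (c k')) (t := t')
            (n := n) (by omega)
          rw [hP1l'] at e1
          rw [htl, hY12] at e2
          rw [e1, e2]
        refine ⟨⟨by rw [hlen]; exact hY1z, ?_, ?_⟩, ?_⟩
        · rw [hlen, hwa _ (by omega)]; exact (hBX hY1).2.1
        · intro t h1 h2 h3
          rw [hlen] at h2
          exact (hBX hY1).2.2 t h1 h2 ((hwa t (by omega)).1 h3)
        · rw [hlen]
          rcases hY1.2 with ⟨t, h1, h2, h3⟩ | h1
          · exact Or.inl ⟨t, h1, h2, (hwa t (by omega)).2 h3⟩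
          · exact Or.inr h1
      · rw [hTeq v' P1 hP1l' hP1']
    · left
      have hlen : (P1 ++ (Y1.drop (c k) ++ Y2)).length = c k' + (Y1.length - c k) + Y2.length := by
        rw [List.length_append, List.length_append, List.length_drop, hP1l']; omega
      -- walls of the shifted text
      have hwa : ∀ t', n ≤ t' → (wa n SS (P1 ++ (Y1.drop (c k) ++ Y2)) (c k' + t') ↔
          wa n SS (Y1 ++ Y2) (c k + t')) := by
        intro t' ht
        have e1 := wa_right (S := SS) (P := P1) (Q := Y1.drop (c k) ++ Y2) (t := t') (n := n) ht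
        have e2 := wa_right (S := SS) (P := Y1.take (c k)) (Q := Y1.drop (c k) ++ Y2) (t := t')
            (n := n) ht
        rw [hP1l'] at e1
        rw [htl, ← List.append_assoc, hY12] at e2
        rw [e1, e2]
      have hend : wa n SS (P1 ++ (Y1.drop (c k) ++ Y2)) (c k' + (Y1.length - c k) + Y2.length) := by
        have h1 := (wa_right (S := SS) (P := Y1) (Q := Y2) (t := Y2.length) (n := n) (by
          omega)).2 (hBX hY2).2.1
        have h2 := (hwa ((Y1.length - c k) + Y2.length) (by omega)).2 (by
          rwa [show c k + ((Y1.length - c k) + Y2.length) = Y1.length + Y2.length by omega])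
        rwa [← Nat.add_assoc] at h2
      obtain ⟨t0, ht0, ht0', hX'⟩ := XX_exists (z := z) (by omega) hend
      refine ⟨_, ⟨hX', fun hbad => ?_⟩, List.take_prefix _ _⟩
      apply hks
      rw [Finset.mem_filter, Finset.mem_range]
      refine ⟨hk, k', hk', hkk, ?_⟩
      have htl0 : ((P1 ++ (Y1.drop (c k) ++ Y2)).take t0).length = t0 := by
        rw [List.length_take, hlen]; omega
      rcases hbad.2 with ⟨t, h1, h2, h3⟩ | h1
      · left
        have h4 := (wa_iff.1 h3).2.1
        rw [htl0] at h4
        have h5 : wa n SS (P1 ++ (Y1.drop (c k) ++ Y2)) t := (wa_take h4).1 h3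
        refine ⟨c k + (t - c k'), (hwa _ (by omega)).1 (by
          rwa [show c k' + (t - c k') = t by omega]), by omega, by omega⟩
      · right
        rw [htl0] at h1
        have h5 : wa n SS (P1 ++ (Y1.drop (c k) ++ Y2)) t0 := by
          have := hX'.2.1
          rw [htl0] at this
          exact (wa_take le_rfl).1 this
        refine ⟨c k + (t0 - c k'), (hwa _ (by omega)).1 (by
          rwa [show c k' + (t0 - c k') = t0 by omega]), by omega, ?_, ?_⟩
        · intro t' h6 h7
          by_contra hcon
          have h8 := (hwa (t' - c k) (by omega)).2 (by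
            rwa [show c k + (t' - c k) = t' by omega])
          refine hX'.2.2 (c k' + (t' - c k)) (by omega) (by rw [htl0]; omega) ?_
          exact (wa_take (by omega)).2 h8
        · rwa [show c k + (t0 - c k') + c k' - c k - p0 = t0 - p0 by omega]

end Crest.Agent.R320.Main_206
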