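import Crest.Agent.R320.Joint2_369
import Crest.Agent.R320.Hf_369

/-!
# Row 320: all words, height three, from one black box `UG` (helper369)
-/

set_option autoImplicit false

namespace Crest.Agent.R320.Joint369

open Crest.RegLang Crest.Agent.R320.Hk_851 Crest.Agent.R320.FewWalls_228
open Crest.Agent.R320.WallU_228

/-- the gadget of scheme 1 with its ruler -/
def UG (S V : Type) [Monoid S] [AddCommGroup V] (act : V → S → V) : Prop :=
  ∃ C0 : ℕ, ∀ K : ℕ, ∃ (N Pm Cm : ℕ) (c : ℕ → ℕ) (BT : ℕ → Prop), 0 < Pm ∧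
    (∀ i j, i < j → j < K → c i < c j) ∧ (∀ k < K, c k ≤ Cm) ∧
    (∀ i j k l, i < K → j < K → k < K → l < K → i ≠ j → k ≠ l → ¬ (i = k ∧ j = l) →
      (2 * N : ℤ) ≤ |((c i : ℤ) - c j) - (c k - c l)|) ∧
    (∀ T : ℕ, (∀ i < K, c i ≤ T) → ∀ F : Finset (ℕ × ℕ),
      (∀ ij ∈ F, ij.1 < K ∧ ij.2 < K ∧ ij.1 ≠ ij.2 ∧ BT (T + c ij.2 - c ij.1)) → F.card ≤ C0) ∧
    (∀ T T', N ≤ T → N ≤ T' → T % Pm = T' % Pm → BT T → BT T') ∧
    ∀ (α : Type) (φ : α → S), ∃ (lam rho : List α → Option V) (nu1 : List α → V),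
      (∀ p v, lam p = some v → p.length ≤ N) ∧
      (∀ p q v r, lam p = some v → rho q = some r → r = act v (pr φ (p ++ q)) + nu1 (p ++ q)) ∧
      (∀ u : List α, N ≤ u.length → ¬ BT u.length → ∀ v, ∃ p q, p ++ q = u ∧ lam p = some v ∧
        (rho q).isSome) ∧
      (∀ Y Y' : List α, N ≤ Y.length → N ≤ Y'.length → Y.take N = Y'.take N →
        Y.length % Pm = Y'.length % Pm → pr φ (Y.drop N) = pr φ (Y'.drop N) → nu1 Y = nu1 Y')

section

variable {α S V : Type} [Monoid S] [AddCommGroup V]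

theorem drop_key (φ : α → S) {X X' : List α} {N2 q : ℕ} (hq : q ≤ N2)
    (h1 : N2 ≤ X.length) (h2 : N2 ≤ X'.length)
    (ht : X.take N2 = X'.take N2) (hd : pr φ (X.drop N2) = pr φ (X'.drop N2)) :
    X.take q = X'.take q ∧ pr φ (X.drop q) = pr φ (X'.drop q) := by
  have e : ∀ Z : List α, Z.drop q = (Z.take N2).drop q ++ Z.drop N2 := by
    intro Z
    conv_lhs => rw [← List.take_append_drop N2 Z]
    rw [List.drop_append]
    rcases Nat.lt_or_ge Z.length N2 with h | h
    · have : Z.drop N2 = [] := List.drop_eq_nil_of_le h.le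
      rw [this]; simp
    · have : q - (Z.take N2).length = 0 := by rw [List.length_take]; omega
      rw [this, List.drop_zero]
  constructor
  · have : ∀ Z : List α, Z.take q = (Z.take N2).take q := fun Z => by
      rw [List.take_take, Nat.min_eq_left hq]
    rw [this X, this X', ht]
  · rw [e X, e X', pr_append, pr_append, ht, hd]

theorem T_key (φ : α → S) (act : V → S → V) (nu2 nu1 : List α → V) {p0 N N2 Pm : ℕ}
    (hkey : ∀ Y Y' : List α, N ≤ Y.length → N ≤ Y'.length → Y.take N = Y'.take N →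
        Y.length % Pm = Y'.length % Pm → pr φ (Y.drop N) = pr φ (Y'.drop N) → nu1 Y = nu1 Y')
    (hN2 : p0 + N ≤ N2) (x : V) {X X' : List α} (h1 : N2 ≤ X.length) (h2 : N2 ≤ X'.length)
    (ht : X.take N2 = X'.take N2) (hm : X.length % Pm = X'.length % Pm)
    (hd : pr φ (X.drop N2) = pr φ (X'.drop N2)) :
    act x (pr φ X) + nuX φ act nu2 nu1 p0 X = act x (pr φ X') + nuX φ act nu2 nu1 p0 X' := by
  obtain ⟨-, a2⟩ := drop_key φ (q := 0) (Nat.zero_le _) h1 h2 ht hd
  obtain ⟨b1, b2⟩ := drop_key φ (q := p0) (by omega) h1 h2 ht hd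
  obtain ⟨c1, c2⟩ := drop_key φ (q := p0 + N) (by omega) h1 h2 ht hd
  rw [List.drop_zero, List.drop_zero] at a2
  have hn : nu1 (X.drop p0) = nu1 (X'.drop p0) := by
    refine hkey _ _ (by rw [List.length_drop]; omega) (by rw [List.length_drop]; omega) ?_ ?_ ?_
    · rw [← Nat.add_sub_cancel_left (n := p0) (m := N), ← List.drop_take, ← List.drop_take, c1]
    · rw [List.length_drop, List.length_drop]
      have h3 : (X.length - p0) + p0 ≡ (X'.length - p0) + p0 [MOD Pm] := by
        rw [Nat.sub_add_cancel (by omega), Nat.sub_add_cancel (by omega)]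
        exact hm
      exact Nat.ModEq.add_right_cancel' p0 h3
    · rw [List.drop_drop, List.drop_drop]
      exact c2
  unfold nuX
  rw [a2, b1, b2, hn]

end

theorem main {α : Type} [Finite α] {S V : Type} [Monoid S] [Finite S] [AddCommGroup V] [Finite V]
    (act : V → S → V)
    (hadd : ∀ a b s, act (a + b) s = act a s + act b s)
    (hone : ∀ v, act v 1 = v) (hmul : ∀ v s t, act v (s * t) = act (act v s) t)
    (hfaith : ∀ s t, (∀ v, act v s = act v t) → s = t)
    (hUG : UG S V act) (φ : α → S) (s : S) :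
    HL 3 ({w | (w.map φ).prod = s} : Language α) := by
  classical
  letI := Fintype.ofFinite S
  letI := Fintype.ofFinite V
  obtain ⟨C0, hUG⟩ := hUG
  obtain ⟨K, hE⟩ := ExactR_237.exact_gadget α S V φ act (2 * C0 + 2)
  obtain ⟨N, Pm, Cm, c, BT, hPm, hcm, hc, hgol, hsp, hBT, hG⟩ := hUG K
  obtain ⟨lam, rho, nu1, hlam, hsound, hcomp, hkey⟩ := hG α φ
  obtain ⟨lamE, rhoE, nuE, hsE, hcE⟩ := hE c hcm
  obtain ⟨n, c', P, S', hn, hP, loc, sep, -, -, hHL⟩ := walls_full (α := α) (2 * Cm + 2 * N)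
  let z : ℕ := 3 * Cm + 2 * N + n + 1
  have hz : z = 3 * Cm + 2 * N + n + 1 := rfl
  let nu2 : List α → V := fun u => nuE u 1
  have hCC : HL 1 ((CC (Wo n S') z : Set (List α)) : Language α) := HL_CC n z S'
  refine Top5_120.top5 act hadd hone hmul hfaith φ (nuX φ act nu2 nu1 Cm) (CC (Wo n S') z)
    (Bd (Wo n S') z N Cm BT) (pcode (by omega)) (fun X hX => hX.1)
    (LL1 φ act nu2 lam Cm) (LL2 lamE c K) ?_ ?_ ?_ ?_ ?_ ?_ ?_ s
  · intro v
    refine (List.finite_length_le α (Cm + N)).subset ?_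
    rintro P ⟨h1, h2⟩
    have := hlam _ _ h2
    rw [List.length_drop] at this
    show P.length ≤ Cm + N
    omega
  · intro v
    refine (List.finite_length_le α Cm).subset ?_
    rintro P ⟨k, hk, h1, -⟩
    show P.length ≤ Cm
    rw [h1]; exact hc k hk
  · intro x y
    exact key_HL hHL φ (z + N + Cm) Pm hPm
      (fun X => act x (X.map φ).prod + nuX φ act nu2 nu1 Cm X = y)
      (fun X X' h1 h2 ht hm hd h => by
        have := T_key φ act nu2 nu1 hkey (p0 := Cm) (N2 := z + N + Cm) (by omega) x h1 h2 ht hm hd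
        rw [← h]; exact this.symm) hCC (z + 1) (fun X hX => nw_CC hX)
  · intro x y
    refine (key_HL hHL φ (z + N + Cm) Pm hPm
      (fun X => (EE (Wo n S') z N X ∨ BT (X.length - Cm)) ∧
        act x (X.map φ).prod + nuX φ act nu2 nu1 Cm X = y)
      (fun X X' h1 h2 ht hm hd h => ?_) hCC (z + 1) (fun X hX => nw_CC hX)).congr fun X => ?_
    · obtain ⟨hb, h⟩ := h
      refine ⟨?_, ?_⟩
      · rcases hb with ⟨t, g1, g2, g3, g4⟩ | hb
        · left
          refine ⟨t, g1, g2, by omega, ?_⟩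
          obtain ⟨e1, -⟩ := drop_key φ (q := t) (by omega) h1 h2 ht hd
          rw [← e1]; exact g4
        · right
          refine hBT _ _ (by omega) (by omega) ?_ hb
          have h3 : (X.length - Cm) + Cm ≡ (X'.length - Cm) + Cm [MOD Pm] := by
            rw [Nat.sub_add_cancel (by omega), Nat.sub_add_cancel (by omega)]
            exact hm
          exact Nat.ModEq.add_right_cancel' Cm h3
      · have := T_key φ act nu2 nu1 hkey (p0 := Cm) (N2 := z + N + Cm) (by omega) x h1 h2 ht hm hd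
        rw [← h]; exact this.symm
    · constructor
      · rintro ⟨⟨h1, h2⟩, h3⟩
        exact ⟨h1, h2, h3⟩
      · rintro ⟨h1, h2, h3⟩
        exact ⟨⟨h1, h2⟩, h3⟩
  · intro s
    have hNC : HL 1 ({w | ¬ ∃ X ∈ ((CC (Wo n S') z : Set (List α)) : Language α), X <+: w} :
        Language α) := (HL.prefix hCC).setOf_not
    have hv := hHL _ (val_reg φ s) (z + 1)
    refine (hNC.inf hv).congr fun w => ?_
    constructor
    · rintro ⟨h1, h2⟩
      refine ⟨?_, h2, nw_NC h1⟩
      rintro ⟨X, hX, hp⟩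
      exact h1 X hX hp
    · rintro ⟨h1, h2, h3⟩
      exact ⟨fun X hX hp => h1 ⟨X, hX, hp⟩, h2⟩
  · intro X hX hXb v
    exact cc1 (Wo := Wo n S') (z := z) (N := N) (p0 := Cm) (n := n) (BT := BT) loc φ act nu2 nu1
      lam rho hadd hmul hlam hsound hcomp (by omega) X hX hXb v
  · intro X hX Y hY v
    exact cc2 (Wo := Wo n S') (z := z) (N := N) (p0 := Cm) (n := n) (BT := BT) (Cm := Cm)
      (W := 2 * Cm + 2 * N) (K := K) (C0 := C0) (R := 2 * C0 + 2) (c := c) loc sep φ act nu2 nu1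
      lamE (fun k Q => rhoE k Q 1) hadd hmul
      (fun k hk P Q v b h1 h2 h3 => by
        have := hsE k hk P Q 1 v b h1 h2 h3
        rw [mul_one] at this
        exact this)
      (fun u v h => hcE u 1 v h) (by omega) le_rfl hc le_rfl hgol hsp (by omega) X hX Y hY v

end Crest.Agent.R320.Joint369
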