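import Crest.Agent.R320.C12_790
import Crest.Agent.R320.GridG_19
import Crest.Agent.R320.GridRuler_257
import Crest.Agent.R320.ExactR_237
import Crest.Agent.R320.Hfib_138
import Crest.Agent.R320.Bridge_975
import Crest.Agent.R320.Block_467
import Crest.Agent.R320.Univ_188

/-!
# Row 320: final assembly (helper790)

110's semantic top (`Top5_110.top_sem`), the two completeness statements (`C12_790`), 693's grid gadget
(`GridG_19.grid`), the ruler (`GridRuler_257.ruler`), the exact gadget (`ExactR_237`), the heights of the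
natural block code (`Hfib_138`).
-/

set_option autoImplicit false

namespace Crest.Agent.R320.Main_790

open Crest.RegLang Crest.Agent.R320.Hk_851 Crest.Agent.R320.Code110

theorem walls_of {α : Type} {n W : ℕ} {S : Set (List α)}
    (hsep : ∀ (u : List α) (x y : ℕ), x < y → y + n ≤ u.length →
        (u.drop x).take n ∈ S → (u.drop y).take n ∈ S → x + (W + 1) ≤ y) :
    C12_790.Walls (Hfib_138.Wo n S) n W where
  loc := Hfib_138.Wo_append
  gap := by
    intro w s t hst htw h1 h2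
    obtain ⟨a1, a2⟩ := (Hfib_138.Wo_take (by omega)).1 h1
    obtain ⟨b1, b2⟩ := (Hfib_138.Wo_take htw).1 h2
    have := hsep w (s - n) (t - n) (by omega) (by omega) a2.2 b2.2
    omega

theorem main (α : Type) [Finite α] (S : Type) [Monoid S] [Finite S] (f : α → S) (s : S) :
    HL 3 ({w | (w.map f).prod = s} : Language α) := by
  classical
  haveI := Fintype.ofFinite S
  obtain ⟨act, hadd, hact1, hactm, hfaith⟩ := Crest.Agent.R320.Blk467.exists_module S
  obtain ⟨m, r, hgrid⟩ := GridG_19.grid S (S → ZMod 2) act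
  obtain ⟨K, hexact⟩ := ExactR_237.exact_gadget α S (S → ZMod 2) f act (2 + 2 * (r + m))
  obtain ⟨Ms, hcard, hMs, hg2⟩ := hgrid (4 ^ K + 2)
  obtain ⟨M, hMdef⟩ : ∃ M, M = ∏ q ∈ Ms, q := ⟨_, rfl⟩
  have hM : 0 < M := by
    rw [hMdef]
    exact Finset.prod_pos fun q hq => (hMs q hq).1.pos
  have hMdiv : ∀ q ∈ Ms, q ∣ M := fun q hq => hMdef ▸ Finset.dvd_prod_of_mem _ hq
  have hcop2 : Nat.Coprime M 2 := by
    rw [hMdef]
    refine Nat.Coprime.prod_left fun q hq => ?_
    rw [Nat.coprime_primes (hMs q hq).1 Nat.prime_two]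
    have h1 := (hMs q hq).2
    intro h2
    rw [h2] at h1
    have h3 : 0 < 4 ^ K := by positivity
    omega
  obtain ⟨κ, hκ⟩ : ∃ κ, κ = 16 * 4 ^ K * M := ⟨_, rfl⟩
  obtain ⟨G, hGdef⟩ : ∃ G : ℕ → ℕ, G = fun k => (2 ^ κ) ^ k := ⟨_, rfl⟩
  have hGpos : ∀ k, 0 < G k := by
    intro k; rw [hGdef]; positivity
  have hGdvd : ∀ a b, a ≤ b → G a ∣ G b := by
    intro a b hab; rw [hGdef]; exact pow_dvd_pow _ hab
  have hGcop : ∀ k, Nat.Coprime M (G k) := by
    intro k; rw [hGdef]
    exact (hcop2.pow_right κ).pow_right k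
  have hGb : ∀ j, 16 * 4 ^ K * (M * G j) ≤ G (j + 1) := by
    intro j
    rw [hGdef]
    show 16 * 4 ^ K * (M * (2 ^ κ) ^ j) ≤ (2 ^ κ) ^ (j + 1)
    rw [pow_succ, ← mul_assoc, ← hκ, mul_comm]
    exact Nat.mul_le_mul_left _ (Nat.lt_two_pow_self).le
  obtain ⟨lam, rho, nu1, g2, g1, -, g3, gnu⟩ :=
    hg2 G 0 hGpos hGdvd (fun k => hMdef ▸ hGcop k) α (fun w => (w.map f).prod)
      (fun u v => by simp)
  rw [← hMdef] at g1 g3 gnu
  set A := GridG_19.Am G M 0 with hA
  set N1 := A m with hN1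
  obtain ⟨U, hU1, hU2, hU3, hU4⟩ := GridRuler_257.ruler K m Ms M G A N1 hM
    (fun q hq => ⟨hMdiv q hq, by have := (hMs q hq).2; omega⟩) (hGpos 0)
    (fun j => hGdvd j (j + 1) (Nat.le_succ j)) hGb (hGcop m)
  obtain ⟨lam2, rho2, nu2, ex2, cp2⟩ := hexact (fun i => U * 4 ^ i) (by
    intro i j hij _
    have := hU2 i j hij
    show U * 4 ^ i < U * 4 ^ j
    omega)
  set p0 := U * 4 ^ K with hp0
  let BadT : ℕ → Prop := fun n => (∃ q ∈ Ms, q ∣ n) ∨ GridG_19.BadG G M 0 m n
  set N0 := 2 * N1 + M with hN0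
  obtain ⟨n, c', P, SS, hn, hP, -, hsep, hper⟩ :=
    Crest.Agent.R320.Mk263.marker (α := α) (2 * p0 + 2 * N1 + 1) (by omega)
  have hw : C12_790.Walls (Hfib_138.Wo n SS) n (2 * p0 + 2 * N1) := walls_of hsep
  -- threshold
  set Tm := N1 + A (m + 1) + p0 with hTm
  set z := 2 * p0 + 2 * N1 + n + Tm + N0 + 1 with hz
  have hc : ∀ k < K, U * 4 ^ k ≤ p0 := fun k hk =>
    Nat.mul_le_mul_left _ (Nat.pow_le_pow_right (by norm_num) hk.le)
  -- facts about the gadget
  have G1 : ∀ P v, lam P = some v → P.length ≤ N1 := fun P v h => (g1 P v h).2.le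
  have G3 : ∀ u, N0 ≤ u.length → ¬ BadT u.length → ∀ v, ∃ P Q, u = P ++ Q ∧ lam P = some v ∧
      (rho Q).isSome := by
    intro u hu hb v
    obtain ⟨P, Q, h1, h2, h3⟩ := g3 u (by omega) (by omega)
      (fun q hq h => hb (Or.inl ⟨q, hq, h⟩)) (fun h => hb (Or.inr h)) v
    exact ⟨P, Q, h1.symm, h2, h3⟩
  have hres : ∀ a b d e, a < K → b < K → d < K → e < K → a ≠ b → d ≠ e →
      U * 4 ^ a + U * 4 ^ e ≤ U * 4 ^ b + U * 4 ^ d + 2 * N1 →
      U * 4 ^ b + U * 4 ^ d ≤ U * 4 ^ a + U * 4 ^ e + 2 * N1 → a = d ∧ b = e := by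
    intro a b d e _ _ _ _ hab _ h1 h2
    rcases hU3 a b d e hab with h | h
    · exact h
    · exfalso
      rcases abs_cases ((((U * 4 ^ a : ℕ) : ℤ) - (U * 4 ^ b : ℕ)) -
          (((U * 4 ^ d : ℕ) : ℤ) - (U * 4 ^ e : ℕ))) with ⟨h5, _⟩ | ⟨h5, _⟩ <;>
        rw [h5] at h <;> omega
  have hbad : ∀ T : ℕ, A (m + 1) ≤ T → BadT T → GridRuler_257.BadZ Ms m M G A (T : ℤ) := by
    intro T hT hB
    rcases hB with ⟨q, hq, h⟩ | ⟨k, hk, h⟩
    · exact Or.inl ⟨q, hq, by exact_mod_cast h⟩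
    · right
      have hle : A (k + 1) ≤ T := (GridG_19.Am_mono G M 0 (by omega)).trans hT
      obtain ⟨D, hD⟩ : ∃ D, T = A (k + 1) + D := ⟨T - A (k + 1), by omega⟩
      have e1 : T - GridG_19.Am G M 0 (k + 1) = D := by
        rw [hD]
        show A (k + 1) + D - A (k + 1) = D
        omega
      rw [e1] at h
      have hdm := Nat.div_add_mod D (G (k + 1))
      refine ⟨k + 1, by omega, by omega, ?_⟩
      rcases h with h | h
      · refine ⟨((D % G (k + 1) : ℕ) : ℤ), ?_, ?_⟩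
        · rw [abs_of_nonneg (by positivity)]
          show ((D % G (k + 1) : ℕ) : ℤ) ≤ ((M * G (k + 1 - 1) : ℕ) : ℤ)
          rw [Nat.add_sub_cancel]
          exact_mod_cast h.le
        · refine ⟨((D / G (k + 1) : ℕ) : ℤ), ?_⟩
          have : (D : ℤ) = (G (k + 1) : ℤ) * ((D / G (k + 1) : ℕ) : ℤ) +
              ((D % G (k + 1) : ℕ) : ℤ) := by exact_mod_cast hdm.symm
          rw [hD]
          push_cast at this ⊢
          linarith
      · refine ⟨((D % G (k + 1) : ℕ) : ℤ) - (G (k + 1) : ℤ), ?_, ?_⟩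
        · have hlt : D % G (k + 1) < G (k + 1) := Nat.mod_lt _ (hGpos _)
          rw [Nat.add_sub_cancel, abs_le]
          constructor
          · have : ((G (k + 1) : ℕ) : ℤ) ≤ ((D % G (k + 1) : ℕ) : ℤ) + ((M * G k : ℕ) : ℤ) := by
              exact_mod_cast h
            linarith
          · have h1 : ((D % G (k + 1) : ℕ) : ℤ) < ((G (k + 1) : ℕ) : ℤ) := by exact_mod_cast hlt
            have h2 : (0 : ℤ) ≤ ((M * G k : ℕ) : ℤ) := by positivity
            linarith
        · refine ⟨((D / G (k + 1) : ℕ) : ℤ) + 1, ?_⟩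
          have : (D : ℤ) = (G (k + 1) : ℤ) * ((D / G (k + 1) : ℕ) : ℤ) +
              ((D % G (k + 1) : ℕ) : ℤ) := by exact_mod_cast hdm.symm
          rw [hD]
          push_cast at this ⊢
          linarith
  have hspoil : ∀ T, Tm ≤ T → ∀ F : Finset (ℕ × ℕ), (∀ q ∈ F, q.1 < K ∧ q.2 < K ∧ q.1 ≠ q.2 ∧
      BadT (T + U * 4 ^ q.2 - U * 4 ^ q.1)) → F.card ≤ r + m := by
    intro T hT F hF
    have h := hU4 T (F.map ⟨Prod.swap, Prod.swap_injective⟩) ?_
    · rw [Finset.card_map] at h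
      exact h.trans (Nat.add_le_add_right hcard m)
    · intro ab hab
      obtain ⟨q, hq, rfl⟩ := Finset.mem_map.1 hab
      obtain ⟨h1, h2, h3, h4⟩ := hF q hq
      have hc1 := hc q.1 h1
      refine ⟨h2, h1, h3.symm, ?_⟩
      have h5 := hbad _ (by omega) h4
      have e : ((T + U * 4 ^ q.2 - U * 4 ^ q.1 : ℕ) : ℤ) =
          (T : ℤ) + ((U * 4 ^ q.2 : ℕ) : ℤ) - ((U * 4 ^ q.1 : ℕ) : ℤ) := by
        rw [Nat.cast_sub (by omega), Nat.cast_add]
      rw [e] at h5
      exact h5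
  -- regularity of the noise and of the bad set
  have hnuR : ∀ x, (Hfib_138.lg (fun Y => nu1 Y = x)).IsRegular := by
    intro x
    refine Bridge_975.reg_of_local f (GridG_19.Ac G M 0 m) (M * G m)
      (Nat.mul_pos hM (hGpos m)) (fun Y => nu1 Y = x) ?_
    intro q q2 h1 h2 h3 h4 h5
    have : nu1 q = nu1 q2 := gnu q q2 h1 h2 h3 h4 (by
      rw [← List.take_append_drop (GridG_19.Ac G M 0 m) q,
        ← List.take_append_drop (GridG_19.Ac G M 0 m) q2, h3]
      simp only [List.map_append, List.prod_append, h5])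
    rw [this]
  have hBper : ∀ T T', A (m + 1) ≤ T → A (m + 1) ≤ T' → T ≡ T' [MOD M * G m] →
      (BadT T ↔ BadT T') := by
    have key : ∀ T T', A (m + 1) ≤ T → A (m + 1) ≤ T' → T ≡ T' [MOD M * G m] →
        BadT T → BadT T' := by
      intro T T' h1 h2 h3 hB
      rcases hB with ⟨q, hq, h⟩ | ⟨k, hk, h⟩
      · left
        refine ⟨q, hq, ?_⟩
        have h4 : T ≡ T' [MOD q] := h3.of_dvd ((hMdiv q hq).trans (Dvd.intro _ rfl))
        exact (h4.dvd_iff dvd_rfl).1 h
      · right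
        refine ⟨k, hk, ?_⟩
        have hle : A (k + 1) ≤ T := (GridG_19.Am_mono G M 0 (by omega)).trans h1
        have hle' : A (k + 1) ≤ T' := (GridG_19.Am_mono G M 0 (by omega)).trans h2
        have h4 : T ≡ T' [MOD G (k + 1)] :=
          h3.of_dvd ((hGdvd (k + 1) m (by omega)).trans (Dvd.intro_left _ rfl))
        have h5 : T - A (k + 1) ≡ T' - A (k + 1) [MOD G (k + 1)] := by
          refine Nat.ModEq.add_right_cancel' (A (k + 1)) ?_
          rw [Nat.sub_add_cancel hle, Nat.sub_add_cancel hle']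
          exact h4
        have h6 : (T - GridG_19.Am G M 0 (k + 1)) % G (k + 1) =
            (T' - GridG_19.Am G M 0 (k + 1)) % G (k + 1) := h5
        rw [← h6]
        exact h
    exact fun T T' h1 h2 h3 => ⟨key T T' h1 h2 h3, key T' T h2 h1 h3.symm⟩
  have hBadR : (Hfib_138.lg (fun u => C12_790.EE (Hfib_138.Wo n SS) z N1 u ∨
      BadT (u.length - p0))).IsRegular := by
    refine Bridge_975.reg_of_local f (z + N1 + A (m + 1) + p0) (M * G m)
      (Nat.mul_pos hM (hGpos m)) _ ?_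
    intro q q2 h1 h2 h3 h4 _
    have hEE : C12_790.EE (Hfib_138.Wo n SS) z N1 q ↔ C12_790.EE (Hfib_138.Wo n SS) z N1 q2 := by
      have ht : ∀ t, t < z → q.take t = q2.take t := by
        intro t ht
        have := congrArg (List.take t) h3
        rwa [List.take_take, List.take_take, min_eq_left (by omega)] at this
      constructor
      · rintro (h | ⟨t, a1, a2, a3⟩)
        · omega
        · exact Or.inr ⟨t, a1, a2, by rw [← ht t a2]; exact a3⟩
      · rintro (h | ⟨t, a1, a2, a3⟩)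
        · omega
        · exact Or.inr ⟨t, a1, a2, by rw [ht t a2]; exact a3⟩
    have h5 : q.length - p0 ≡ q2.length - p0 [MOD M * G m] := by
      refine Nat.ModEq.add_right_cancel' p0 ?_
      rw [Nat.sub_add_cancel (by omega), Nat.sub_add_cancel (by omega)]
      exact h4
    exact or_congr hEE (hBper _ _ (by omega) (by omega) h5)
  have hw0 : 0 < z := by omega
  refine Crest.Agent.R320.Top5_110.top_sem (φ := fun w => (w.map f).prod) (act := act)
    (XX := C12_790.XX (Hfib_138.Wo n SS) z)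
    (Bad := C12_790.Bad (Hfib_138.Wo n SS) z N1 p0 BadT)
    (T := C12_790.TM (fun w => (w.map f).prod) act (fun X => nu2 X 1) nu1 p0)
    (by simp) (fun u w => by simp) hact1 hactm hfaith (C12_790.pc hw0) (fun u hu => hu.1)
    (fun u _ v v' => C12_790.hT (fun u w => by simp) hactm hadd u v v')
    ((Hfib_138.HL_XX (k := 0) n SS z).mono (by norm_num)) ?_ ?_ ?_
    (N1 := 0) (N2 := 1)
    (L1 := C12_790.L1 (fun w => (w.map f).prod) act (fun X => nu2 X 1) p0 lam)
    (L2 := C12_790.L2 K (fun i => U * 4 ^ i) lam2)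
    (C12_790.f1 G1) (C12_790.f2 hc) ?_ ?_ s
  · exact Hfib_138.HL_XX_inter hn hP hper z hBadR
  · intro x y
    exact Hfib_138.hfib hn hP hper z (fun w => (w.map f).prod) (by simp) (fun u v => by simp)
      act nu1 (fun X => nu2 X 1) hnuR p0 (by omega)
      (fun v X => C12_790.TM (fun w => (w.map f).prod) act (fun X => nu2 X 1) nu1 p0 X v)
      (fun v X => rfl) x y
  · intro t
    refine (Hfib_138.HL_rest hn hP hper z (L := {w | (w.map f).prod = t}) ?_).mono (by norm_num)
    refine Bridge_975.reg_of_local f 0 1 one_pos (fun w => (w.map f).prod = t) ?_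
    intro q q2 _ _ _ _ h5
    simp only [List.drop_zero] at h5
    rw [h5]
  · exact C12_790.c1 (W := 2 * p0 + 2 * N1) hw (N0 := N0) (by omega) G1 g2 G3
  · refine C12_790.c2 (W := 2 * p0 + 2 * N1) hw (Tm := Tm) (by omega) hw0 le_rfl hc ?_ hres
      hspoil (C0 := r + m) (rho2 := fun k Q => rho2 k Q 1) ?_ ?_
    · intro k _ k' _ h
      rcases lt_trichotomy k k' with h1 | h1 | h1
      · have := hU2 k k' h1
        have h' : U * 4 ^ k = U * 4 ^ k' := h
        omega
      · exact h1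
      · have := hU2 k' k h1
        have h' : U * 4 ^ k = U * 4 ^ k' := h
        omega
    · intro k hk P Q v b hPl h1 h2
      have := ex2 k hk P Q 1 v b hPl h1 h2
      rw [mul_one] at this
      exact this
    · intro u v hu
      obtain ⟨I, hI1, hI2⟩ := cp2 u 1 v (fun k hk => by rw [hu]; exact hc k hk)
      exact ⟨I, by omega, hI2⟩

theorem row (α : Type*) [Finite α] (L : Language α) (hL : L.IsRegular) :
    ∃ e : GRegExp α, e.height ≤ 3 ∧ e.lang = L :=
  Crest.Agent.R320.Univ_188.of_type0 3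
    (fun α _ L hL => of_monoid (k := 3) (fun S _ _ φ s => main α S φ s) L hL) α L hL

end Crest.Agent.R320.Main_790
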