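import Crest.Agent.R320.Mark_198

/-!
# Row 320: marker rule on ALL words (helper198)

Greedy over the finite list of the names of length `N ≥ 2 W + 1` WITHOUT period `≤ W`.
`wallsAll`: right-looking rule; walls more than `W` apart; no wall inside a periodic stretch;
a wall-free word is periodic with ONE period `p ≤ W` except for `G` letters at each end.
`wallfree_form`: such a word is `u ++ x ^ k ++ v` with bounded `u`, `x`, `v`.
-/

set_option autoImplicit false

namespace Crest.Agent.R320.MarkAll_198

open Crest.Agent.R320.Mark_198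

universe u

variable {α : Type u}

/-- `p` is a period of the word `v` -/
def Per (p : ℕ) (v : List α) : Prop := ∀ i, i + p < v.length → v[i]? = v[i + p]?

theorem per_of_names {N δ a : ℕ} {Q u : List α} (hu : u.length = N)
    (h1 : (Q.drop a).take N = u) (h2 : (Q.drop (a + δ)).take N = u) : Per δ u := by
  intro i hi
  have e2 : u[i]? = Q[a + δ + i]? := by
    rw [← h2, List.getElem?_take_of_lt (by omega), List.getElem?_drop]
  have e1 : u[i + δ]? = Q[a + (i + δ)]? := by
    rw [← h1, List.getElem?_take_of_lt (by omega), List.getElem?_drop]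
  rw [e1, e2]
  congr 1
  omega

theorem Per.infix {p : ℕ} {v w : List α} (h : Per p w) (hv : v <:+: w) : Per p v := by
  obtain ⟨s, t, rfl⟩ := hv
  intro i hi
  have := h (s.length + i) (by simp; omega)
  have e : ∀ j, j < v.length → (s ++ v ++ t)[s.length + j]? = v[j]? := by
    intro j hj
    rw [List.append_assoc, List.getElem?_append_right (by omega),
      show s.length + j - s.length = j by omega, List.getElem?_append_left hj]
  rw [e i (by omega), Nat.add_assoc, e (i + p) (by omega)] at this
  exact this

theorem per_drop_take {p a N : ℕ} {Q : List α} (h : Per p ((Q.drop a).take N))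
    (hl : a + N ≤ Q.length) (i : ℕ) (hi : i + p < N) : Q[a + i]? = Q[a + i + p]? := by
  have := h i (by rw [List.length_take, List.length_drop]; omega)
  rwa [List.getElem?_take_of_lt (by omega), List.getElem?_take_of_lt (by omega),
    List.getElem?_drop, List.getElem?_drop, ← Nat.add_assoc] at this

/-- every position whose name is on the list is near a mark -/
theorem Rg_cover' {W N : ℕ} (l : List (List α)) {Q : List α} (u : List α)
    (hne : ∀ a δ, 0 < δ → δ ≤ W → (Q.drop a).take N = u → (Q.drop (a + δ)).take N ≠ u)
    (hul : u ∈ l)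
    (hp : (Q.drop ((l.length + 1) * W)).take N = u) :
    ∃ j ≤ 2 * W, Rg W N l (Q.drop j) := by
  obtain ⟨vs, us, rfl⟩ := List.append_of_mem hul
  have hlen : (vs ++ u :: us).length = vs.length + us.length + 1 := by simp; ring
  rw [hlen] at hp
  by_cases hA : ∃ d ≤ 2 * W, Rg W N us (Q.drop ((vs.length + 1) * W + d))
  · obtain ⟨d, hd, h⟩ := hA
    refine ⟨d, hd, ?_⟩
    have := Rg_lift W N us (vs ++ [u]) (Q.drop d) (by
      rw [List.drop_drop]
      convert h using 2
      simp
      ring)
    simpa using this
  · refine ⟨W, by omega, ?_⟩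
    apply Rg_lift
    rw [List.drop_drop, Rg_cons]
    right
    refine ⟨?_, fun d hd hdW => ⟨fun h => hA ⟨d, hd, ?_⟩, ?_⟩⟩
    · rw [List.drop_drop]
      rw [← hp]
      congr 2
      ring
    · rw [List.drop_drop] at h
      convert h using 2
      ring
    · rw [List.drop_drop]
      rcases lt_or_gt_of_ne hdW with h | h
      · intro h'
        refine hne _ (W - d) (by omega) (by omega) h' ?_
        rw [← hp]
        congr 2
        have e1 : W + vs.length * W + (us.length * W + d) + (W - d)
            = W + vs.length * W + us.length * W + W := by omega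
        rw [e1]
        ring
      · have := hne _ (d - W) (by omega) (by omega) hp
        intro h'
        apply this
        rw [← h']
        congr 2
        have e1 : (vs.length + us.length + 1 + 1) * W
            = W + vs.length * W + us.length * W + W := by ring
        rw [e1]
        omega

/-- a mark sits at a name of the list -/
theorem Rg_name (W N : ℕ) : ∀ (l : List (List α)) (Q : List α), Rg W N l Q →
    ∃ i, (Q.drop i).take N ∈ l ∧ i + N ≤ 2 * W * l.length + N := by
  intro l
  induction l with
  | nil => intro Q h; exact h.elim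
  | cons u us ih =>
    intro Q h
    have e0 : 2 * W * (u :: us).length = 2 * W * us.length + 2 * W := by
      simp [Nat.mul_add]
    rw [Rg_cons] at h
    rcases h with h | ⟨h1, -⟩
    · obtain ⟨i, hi, hi'⟩ := ih _ h
      rw [List.drop_drop] at hi
      exact ⟨W + i, List.mem_cons_of_mem _ hi, by omega⟩
    · refine ⟨(us.length + 1) * W, by rw [h1]; exact List.mem_cons_self, ?_⟩
      have : (us.length + 1) * W ≤ 2 * W * us.length + 2 * W := by nlinarith
      omega

/-- gluing: if every window of length `N ≥ 2 W + 1` has some period `≤ W`, then one period does -/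
theorem glue {W N : ℕ} (hN : 2 * W + 1 ≤ N) (f : ℕ → Option α) (q : ℕ) (hq : 0 < q) (hqW : q ≤ W)
    (h0 : ∀ i, i + q < N → f i = f (i + q)) : ∀ M : ℕ,
    (∀ a, a ≤ M → ∃ p, 0 < p ∧ p ≤ W ∧ ∀ i, i + p < N → f (a + i) = f (a + i + p)) →
    ∀ i, i + q < N + M → f i = f (i + q) := by
  intro M
  induction M with
  | zero => intro _ i hi; exact h0 i hi
  | succ M ih =>
    intro h i hi
    have ih' := ih (fun a ha => h a (by omega))
    rcases lt_or_ge (i + q) (N + M) with hlt | hge
    · exact ih' i hlt
    · obtain ⟨p, hp, hpW, hper⟩ := h (M + 1) le_rfl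
      have hi' : i + q = N + M := by omega
      -- P = i + q
      have e1 : f (i + q) = f (i + q - p) := by
        have := hper (i + q - p - (M + 1)) (by omega)
        rw [show M + 1 + (i + q - p - (M + 1)) = i + q - p by omega,
          show i + q - p + p = i + q by omega] at this
        exact this.symm
      have e2 : f (i + q - p - q) = f (i + q - p) := by
        have := ih' (i + q - p - q) (by omega)
        rwa [show i + q - p - q + q = i + q - p by omega] at this
      have e3 : f (i + q - p - q) = f i := by
        have := hper (i + q - p - q - (M + 1)) (by omega)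
        rw [show M + 1 + (i + q - p - q - (M + 1)) = i + q - p - q by omega,
          show i + q - p - q + p = i by omega] at this
        exact this
      rw [e1, ← e2, e3]

/-- **Walls on all words.** -/
theorem wallsAll [Finite α] (W : ℕ) (hW : 0 < W) (N : ℕ) (hN : 2 * W + 1 ≤ N) :
    ∃ (n G : ℕ) (R : List α → Prop), N ≤ n ∧
    (∀ Q, R Q ↔ R (Q.take n)) ∧ (∀ Q, R Q → n ≤ Q.length) ∧
    (∀ Q d, R Q → 0 < d → d ≤ W → ¬ R (Q.drop d)) ∧
    (∀ Q p, 0 < p → p ≤ W → Per p (Q.take n) → ¬ R Q) ∧
    (∀ Q : List α, (∀ i, i + n ≤ Q.length → ¬ R (Q.drop i)) →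
      ∃ p, 0 < p ∧ p ≤ W ∧ Per p ((Q.drop G).take (Q.length - 2 * G))) := by
  classical
  have hfin : {v : List α | v.length = N ∧ ∀ p, 0 < p → p ≤ W → ¬ Per p v}.Finite :=
    (List.finite_length_eq α N).subset fun v hv => hv.1
  obtain ⟨l, hl⟩ : ∃ l : List (List α), ∀ v : List α,
      v ∈ l ↔ (v.length = N ∧ ∀ p, 0 < p → p ≤ W → ¬ Per p v) :=
    ⟨hfin.toFinset.toList, fun v => by simp⟩
  set n := 2 * W * l.length + N with hn
  refine ⟨n, n + 2 * W + 1,
    fun Q => n ≤ Q.length ∧ Rg W N l Q, by omega, ?_, fun Q h => h.1, ?_, ?_, ?_⟩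
  · intro Q
    dsimp only
    rw [Rg_local W N l Q _ le_rfl, List.length_take]
    constructor
    · rintro ⟨h1, h2⟩; exact ⟨by omega, h2⟩
    · rintro ⟨h1, h2⟩; exact ⟨by omega, h2⟩
  · rintro Q d ⟨_, h⟩ hd hdW ⟨_, h'⟩
    exact Rg_gap W _ l Q d hd hdW h h'
  · rintro Q p hp hpW hper ⟨hlen, h⟩
    obtain ⟨i, hi, hi'⟩ := Rg_name W N l Q h
    refine ((hl _).1 hi).2 p hp hpW (hper.infix ?_)
    have : (Q.drop i).take N = ((Q.take n).drop i).take N := by
      rw [List.drop_take, List.take_take, min_eq_left (by omega)]
    rw [this]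
    exact (List.take_prefix _ _).isInfix.trans (List.drop_suffix _ _).isInfix
  · intro Q hQ
    have hWl : (l.length + 1) * W ≤ 2 * W * l.length + W := by nlinarith
    -- all names deep inside are periodic
    have key : ∀ a, (l.length + 1) * W ≤ a → a + n + 2 * W + 1 ≤ Q.length →
        ∃ p, 0 < p ∧ p ≤ W ∧ Per p ((Q.drop a).take N) := by
      intro a ha hal
      by_contra hcon
      push Not at hcon
      have hlen : ((Q.drop a).take N).length = N := by
        rw [List.length_take, List.length_drop]; omega
      have hmem : (Q.drop a).take N ∈ l := (hl _).2 ⟨hlen, fun p hp hpW => hcon p hp hpW⟩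
      set b := a - (l.length + 1) * W with hb
      obtain ⟨j, hj, h⟩ := Rg_cover' (W := W) (N := N) l (Q := Q.drop b) _
        (fun c δ hδ hδW h1 h2 => ((hl _).1 hmem).2 δ hδ hδW (per_of_names hlen h1 h2)) hmem (by
          rw [List.drop_drop, show b + (l.length + 1) * W = a by omega])
      rw [List.drop_drop] at h
      exact hQ (b + j) (by omega) ⟨by rw [List.length_drop]; omega, h⟩
    set G := n + 2 * W + 1 with hG
    rcases lt_or_ge (Q.length) (2 * G) with hshort | hlong
    · refine ⟨1, one_pos, hW, ?_⟩
      intro i hi
      rw [List.length_take] at hi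
      omega
    · obtain ⟨q, hq, hqW, hper⟩ := key G (by omega) (by omega)
      refine ⟨q, hq, hqW, ?_⟩
      have hg := glue hN (fun i => Q[G + i]?) q hq hqW
        (fun i hi => by
          have := per_drop_take hper (by omega) i hi
          rwa [Nat.add_assoc G i q] at this)
        (Q.length - 2 * G)
        (fun a ha => by
          obtain ⟨p, hp, hpW, hper'⟩ := key (G + a) (by omega) (by omega)
          refine ⟨p, hp, hpW, fun i hi => ?_⟩
          have := per_drop_take hper' (by omega) i hi
          simpa [Nat.add_assoc] using this)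
      intro i hi
      rw [List.length_take] at hi
      have := hg i (by omega)
      rw [List.getElem?_take_of_lt (by omega), List.getElem?_take_of_lt (by omega),
        List.getElem?_drop, List.getElem?_drop]
      exact this

/-- a word with period `p` is a power of its prefix of length `p`, up to a short tail -/
theorem Per.form {p : ℕ} (hp : 0 < p) {v : List α} (h : Per p v) :
    ∃ (k : ℕ) (x t : List α), x.length ≤ p ∧ t.length < p ∧
      v = (List.replicate k x).flatten ++ t := by
  rcases lt_or_ge v.length p with hlt | hge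
  · exact ⟨0, [], v, by simp, hlt, by simp⟩
  · have h1 : v.take (v.length - p) = (v.drop p).take (v.length - p) := by
      apply List.ext_getElem?
      intro i
      rcases lt_or_ge i (v.length - p) with hi | hi
      · rw [List.getElem?_take_of_lt hi, List.getElem?_take_of_lt hi, List.getElem?_drop,
          h i (by omega), Nat.add_comm]
      · rw [List.getElem?_eq_none (by rw [List.length_take]; omega),
          List.getElem?_eq_none (by rw [List.length_take]; omega)]
    have h2 := power_of_names (v.length - p) p v h1 (v.length / p) (by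
      have := Nat.div_mul_le_self v.length p
      omega)
    obtain ⟨t, ht⟩ := h2
    refine ⟨v.length / p, v.take p, t, List.length_take_le _ _, ?_, ht.symm⟩
    have hl := congrArg List.length ht
    simp only [List.length_append, List.length_flatten, List.map_replicate, List.sum_replicate,
      smul_eq_mul, List.length_take, min_eq_left hge] at hl
    have := Nat.div_add_mod v.length p
    have h3 := Nat.mod_lt v.length hp
    have h4 : v.length / p * p = p * (v.length / p) := Nat.mul_comm _ _
    omega

/-- **Walls on all words, with the shape of the wall-free words**: `u ++ x ^ k ++ v`. -/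
theorem wallsAll_form [Finite α] (W : ℕ) (hW : 0 < W) (N : ℕ) (hN : 2 * W + 1 ≤ N) :
    ∃ (n B : ℕ) (R : List α → Prop), N ≤ n ∧
    (∀ Q, R Q ↔ R (Q.take n)) ∧ (∀ Q, R Q → n ≤ Q.length) ∧
    (∀ Q d, R Q → 0 < d → d ≤ W → ¬ R (Q.drop d)) ∧
    (∀ Q p, 0 < p → p ≤ W → Per p (Q.take n) → ¬ R Q) ∧
    (∀ Q : List α, (∀ i, i + n ≤ Q.length → ¬ R (Q.drop i)) →
      ∃ (u x v : List α) (k : ℕ), u.length ≤ B ∧ v.length ≤ B ∧ x.length ≤ W ∧
        Q = u ++ (List.replicate k x).flatten ++ v) := by
  obtain ⟨n, G, R, h0, h1, h2, h3, h4, h5⟩ := wallsAll (α := α) W hW N hN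
  refine ⟨n, 2 * G + W, R, h0, h1, h2, h3, h4, fun Q hQ => ?_⟩
  obtain ⟨p, hp, hpW, hper⟩ := h5 Q hQ
  obtain ⟨k, x, t, hx, ht, he⟩ := hper.form hp
  rcases lt_or_ge Q.length (2 * G) with hlt | hge
  · exact ⟨Q, [], [], 0, by omega, by simp, by simp, by simp⟩
  · refine ⟨Q.take G, x, t ++ Q.drop (Q.length - G), k, ?_, ?_, by omega, ?_⟩
    · rw [List.length_take]; omega
    · rw [List.length_append, List.length_drop]; omega
    · have e1 : Q.drop (Q.length - G) = (Q.drop G).drop (Q.length - 2 * G) := by
        rw [List.drop_drop]; congr 1; omega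
      rw [e1, List.append_assoc, ← List.append_assoc _ t, ← he, List.take_append_drop,
        List.take_append_drop]

end Crest.Agent.R320.MarkAll_198
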