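import Mathlib.Data.List.Basic
import Mathlib.Data.Set.Finite.List
import Mathlib.Tactic

/-!
# Row 320, piece (2): one-sided markers (walls) on words without short powers (helper198)

Greedy marking over the finite list of all names (words of length `N`).
`Rg W N l Q` : position `l.length * W` of `Q` is marked after the names of `l` have been
treated (last name of `l` first).  A position is newly marked at name `u` iff it carries `u`
and no other position at distance `≤ W` carries `u` or is already marked.
Statement `walls`: the literal of helper291.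
-/

set_option autoImplicit false

namespace Crest.Agent.R320.Mark_198

universe u

variable {α : Type u}

/-- no power `x ^ e` with `x` nonempty of length at most `W` inside `Q` -/
def RF (e W : ℕ) (Q : List α) : Prop :=
  ∀ x : List α, x ≠ [] → x.length ≤ W → ¬ (List.replicate e x).flatten <:+: Q

/-- greedy marking -/
def Rg (W N : ℕ) : List (List α) → List α → Prop
  | [], _ => False
  | u :: us, Q => Rg W N us (Q.drop W) ∨
      ((Q.drop ((us.length + 1) * W)).take N = u ∧
        ∀ d ≤ 2 * W, d ≠ W → ¬ Rg W N us (Q.drop d) ∧ (Q.drop (us.length * W + d)).take N ≠ u)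

theorem Rg_cons (W N : ℕ) (u : List α) (us : List (List α)) (Q : List α) :
    Rg W N (u :: us) Q ↔ Rg W N us (Q.drop W) ∨
      ((Q.drop ((us.length + 1) * W)).take N = u ∧
        ∀ d ≤ 2 * W, d ≠ W → ¬ Rg W N us (Q.drop d) ∧
          (Q.drop (us.length * W + d)).take N ≠ u) := Iff.rfl

/-- two marks are more than `W` apart -/
theorem Rg_gap (W N : ℕ) : ∀ (l : List (List α)) (Q : List α) (d : ℕ), 0 < d → d ≤ W →
    Rg W N l Q → ¬ Rg W N l (Q.drop d) := by
  intro l
  induction l with
  | nil => intro Q d _ _ h; exact h.elim
  | cons u us ih =>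
    intro Q d hd hdW h h'
    rw [Rg_cons] at h h'
    rw [List.drop_drop] at h'
    rcases h with h | ⟨h1, h2⟩
    · rcases h' with h' | ⟨h1', h2'⟩
      · refine ih (Q.drop W) d hd hdW h ?_
        rw [List.drop_drop]
        rwa [Nat.add_comm] at h'
      · have := (h2' (W - d) (by omega) (by omega)).1
        rw [List.drop_drop, show d + (W - d) = W by omega] at this
        exact this h
    · rcases h' with h' | ⟨h1', h2'⟩
      · exact (h2 (d + W) (by omega) (by omega)).1 h'
      · have := (h2 (W + d) (by omega) (by omega)).2
        rw [List.drop_drop] at h1'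
        apply this
        rw [← h1']
        congr 2
        ring

/-- old marks stay -/
theorem Rg_lift (W N : ℕ) (us : List (List α)) : ∀ (vs : List (List α)) (Q : List α),
    Rg W N us (Q.drop (vs.length * W)) → Rg W N (vs ++ us) Q := by
  intro vs
  induction vs with
  | nil => intro Q h; simpa using h
  | cons v vs ih =>
    intro Q h
    rw [List.cons_append, Rg_cons]
    left
    apply ih
    rw [List.drop_drop]
    convert h using 2
    simp
    ring

/-- the rule reads a bounded window -/
theorem Rg_local (W N : ℕ) : ∀ (l : List (List α)) (Q : List α) (m : ℕ),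
    2 * W * l.length + N ≤ m → (Rg W N l (Q.take m) ↔ Rg W N l Q) := by
  intro l
  induction l with
  | nil => intro Q m _; exact Iff.rfl
  | cons u us ih =>
    intro Q m hm
    have hm' : 2 * W * us.length + 2 * W + N ≤ m := by
      have : 2 * W * (u :: us).length = 2 * W * us.length + 2 * W := by
        simp [Nat.mul_add]
      omega
    have hle : us.length * W ≤ 2 * W * us.length := by nlinarith
    have e1 : ∀ d ≤ 2 * W, (Rg W N us ((Q.take m).drop d) ↔ Rg W N us (Q.drop d)) := by
      intro d hd
      rw [List.drop_take]
      exact ih _ _ (by omega)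
    have e2 : ∀ p, p + N ≤ m → ((Q.take m).drop p).take N = (Q.drop p).take N := by
      intro p hp
      rw [List.drop_take, List.take_take, min_eq_left (by omega)]
    rw [Rg_cons, Rg_cons, e1 W (by omega), e2 _ (by nlinarith)]
    constructor
    · rintro (h | ⟨h1, h2⟩)
      · exact Or.inl h
      · refine Or.inr ⟨h1, fun d hd hdW => ?_⟩
        have := h2 d hd hdW
        rw [e1 d hd, e2 _ (by omega)] at this
        exact this
    · rintro (h | ⟨h1, h2⟩)
      · exact Or.inl h
      · refine Or.inr ⟨h1, fun d hd hdW => ?_⟩
        have := h2 d hd hdW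
        rw [e1 d hd, e2 _ (by omega)]
        exact this

/-- equal names at distance `δ` give a power -/
theorem power_of_names (N δ : ℕ) (P : List α)
    (h : P.take N = (P.drop δ).take N) : ∀ k : ℕ, k * δ ≤ N + δ →
    (List.replicate k (P.take δ)).flatten <+: P := by
  intro k
  induction k with
  | zero => intro _; simp
  | succ k ih =>
    intro hk
    have hk' : k * δ ≤ N := by
      have : (k + 1) * δ = k * δ + δ := by ring
      omega
    have h1 := ih (by omega)
    have hlen : (List.replicate k (P.take δ)).flatten.length ≤ N := by
      simp only [List.length_flatten, List.map_replicate, List.sum_replicate, smul_eq_mul]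
      calc k * (P.take δ).length ≤ k * δ := by
            apply Nat.mul_le_mul_left
            exact List.length_take_le _ _
        _ ≤ N := hk'
    have h2 : (List.replicate k (P.take δ)).flatten <+: P.take N :=
      List.prefix_take_iff.2 ⟨h1, hlen⟩
    rw [h] at h2
    have h3 : (List.replicate k (P.take δ)).flatten <+: P.drop δ :=
      h2.trans (List.take_prefix _ _)
    rw [List.replicate_succ, List.flatten_cons]
    conv_rhs => rw [← List.take_append_drop δ P]
    exact (List.prefix_append_right_inj _).2 h3

theorem names_ne {e W : ℕ} {Q : List α} (hQ : RF e W Q) (a δ : ℕ) (hδ : 0 < δ) (hδW : δ ≤ W)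
    (u : List α) (hu : u.length = e * W + 1) (h1 : (Q.drop a).take (e * W + 1) = u) :
    (Q.drop (a + δ)).take (e * W + 1) ≠ u := by
  intro h2
  set P := Q.drop a with hP
  have hPl : e * W + 1 ≤ P.length := by
    have := congrArg List.length h1
    rw [List.length_take, hu] at this
    omega
  have h3 : P.take (e * W + 1) = (P.drop δ).take (e * W + 1) := by
    rw [hP, List.drop_drop, h2, ← h1]
  have h4 := power_of_names (e * W + 1) δ P h3 e (by nlinarith)
  have h5 : (P.take δ).length = δ ∨ (P.take δ).length = P.length := by
    rw [List.length_take]; omega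
  refine hQ (P.take δ) ?_ ?_ ?_
  · intro h
    have := congrArg List.length h
    rw [List.length_nil] at this
    omega
  · exact (List.length_take_le _ _).trans hδW
  · exact h4.isInfix.trans (List.drop_suffix _ _).isInfix

/-- every position is near a mark -/
theorem Rg_cover {e W : ℕ} (l : List (List α)) {Q : List α} (hQ : RF e W Q) (u : List α)
    (hu : u.length = e * W + 1) (hul : u ∈ l)
    (hp : (Q.drop ((l.length + 1) * W)).take (e * W + 1) = u) :
    ∃ j ≤ 2 * W, Rg W (e * W + 1) l (Q.drop j) := by
  obtain ⟨vs, us, rfl⟩ := List.append_of_mem hul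
  have hlen : (vs ++ u :: us).length = vs.length + us.length + 1 := by simp; ring
  rw [hlen] at hp
  by_cases hA : ∃ d ≤ 2 * W, Rg W (e * W + 1) us (Q.drop ((vs.length + 1) * W + d))
  · obtain ⟨d, hd, h⟩ := hA
    refine ⟨d, hd, ?_⟩
    have := Rg_lift W (e * W + 1) us (vs ++ [u]) (Q.drop d) (by
      rw [List.drop_drop]
      convert h using 2
      simp
      ring)
    simpa using this
  · refine ⟨W, by omega, ?_⟩
    apply Rg_lift
    rw [List.drop_drop, Rg_cons]
    right
    refine ⟨?_, fun d hd hdW => ⟨fun h => hA ⟨d, hd, ?_⟩, ?_⟩⟩
    · rw [List.drop_drop]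
      rw [← hp]
      congr 2
      ring
    · rw [List.drop_drop] at h
      convert h using 2
      ring
    · rw [List.drop_drop]
      rcases lt_or_gt_of_ne hdW with h | h
      · intro h'
        refine names_ne hQ _ (W - d) (by omega) (by omega) u hu h' ?_
        rw [← hp]
        congr 2
        have e1 : W + vs.length * W + (us.length * W + d) + (W - d)
            = W + vs.length * W + us.length * W + W := by omega
        rw [e1]
        ring
      · have := names_ne hQ _ (d - W) (by omega) (by omega) u hu hp
        intro h'
        apply this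
        rw [← h']
        congr 2
        have e1 : (vs.length + us.length + 1 + 1) * W
            = W + vs.length * W + us.length * W + W := by ring
        rw [e1]
        omega

/-- **Walls**: a right-looking rule with bounded window; marks are more than `W` apart, and in
text without powers `x ^ e`, `|x| ≤ W`, every `G` consecutive places contain a mark. -/
theorem walls [Finite α] (e W : ℕ) : ∃ (n G : ℕ) (R : List α → Prop),
    (∀ Q, R Q ↔ R (Q.take n)) ∧ (∀ Q, R Q → n ≤ Q.length) ∧
    (∀ Q d, R Q → 0 < d → d ≤ W → ¬ R (Q.drop d)) ∧
    (∀ Q, RF e W Q → G + n ≤ Q.length → ∃ i < G, R (Q.drop i)) := by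
  classical
  have hfin : {v : List α | v.length = e * W + 1}.Finite := List.finite_length_eq α _
  obtain ⟨l, hl⟩ : ∃ l : List (List α), ∀ v : List α, v.length = e * W + 1 → v ∈ l :=
    ⟨hfin.toFinset.toList, fun v hv => by simpa using hv⟩
  refine ⟨2 * W * l.length + (e * W + 1), 2 * W + 1,
    fun Q => 2 * W * l.length + (e * W + 1) ≤ Q.length ∧ Rg W (e * W + 1) l Q,
    ?_, fun Q h => h.1, ?_, ?_⟩
  · intro Q
    dsimp only
    rw [Rg_local W (e * W + 1) l Q _ le_rfl, List.length_take]
    constructor
    · rintro ⟨h1, h2⟩; exact ⟨by omega, h2⟩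
    · rintro ⟨h1, h2⟩; exact ⟨by omega, h2⟩
  · rintro Q d ⟨_, h⟩ hd hdW ⟨_, h'⟩
    exact Rg_gap W _ l Q d hd hdW h h'
  · intro Q hQ hlen
    have hWl : W * l.length ≤ 2 * W * l.length := by nlinarith
    have hp : ((Q.drop ((l.length + 1) * W)).take (e * W + 1)).length = e * W + 1 := by
      rw [List.length_take, List.length_drop]
      have : (l.length + 1) * W = W * l.length + W := by ring
      omega
    obtain ⟨j, hj, h⟩ := Rg_cover l hQ _ hp (hl _ hp) rfl
    refine ⟨j, by omega, ?_, h⟩
    rw [List.length_drop]
    omega

end Crest.Agent.R320.Mark_198
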