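import Mathlib

/-!
Row 320: local right-looking marker rules (walls).

`rule n W us w t` : the greedy rule which goes through the list `us` of words of length `n`
(last element first); position `t` of the infinite word `w` is marked after the step for `u` iff
`t + W` was marked before or the window at `t + K W` is `u` and no place in `(t, t + 2W)` was marked
before. All marks are seen from the right word `w[t, t + N)` alone.
-/

set_option autoImplicit false

namespace Crest.Agent.R320.Mark28

variable {α : Type*}

/-- Window of length `n` at `i`. -/
def win (w : ℕ → α) (i n : ℕ) : Fin n → α := fun k => w (i + k)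

/-- The greedy right-looking marker rule. -/
def rule (n W : ℕ) : List (Fin n → α) → (ℕ → α) → ℕ → Prop
  | [], _, _ => False
  | u :: us, w, t => rule n W us w (t + W) ∨
      (win w (t + (us.length + 1) * W) n = u ∧ ∀ s, t < s → s < t + 2 * W → ¬ rule n W us w s)

/-- `u` has no period `p` with `0 < p < W`. -/
def Aper (W : ℕ) {n : ℕ} (u : Fin n → α) : Prop :=
  ∀ p, 0 < p → p < W → ∃ (k : ℕ) (h : k + p < n), u ⟨k, by omega⟩ ≠ u ⟨k + p, h⟩

theorem rule_sep {n W : ℕ} (us : List (Fin n → α)) (hus : ∀ u ∈ us, Aper W u) (w : ℕ → α) :
    ∀ t t', rule n W us w t → rule n W us w t' → t < t' → t + W ≤ t' := by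
  induction us with
  | nil => intro t t' h; exact absurd h (by simp [rule])
  | cons u us ih =>
    intro t t' h h' hlt
    have ih' := ih (fun v hv => hus v (List.mem_cons_of_mem _ hv))
    by_contra hcon
    push Not at hcon
    simp only [rule] at h h'
    rcases h with h | ⟨hw, hn⟩
    · rcases h' with h' | ⟨hw', hn'⟩
      · have := ih' _ _ h h' (by omega)
        omega
      · exact hn' (t + W) (by omega) (by omega) h
    · rcases h' with h' | ⟨hw', hn'⟩
      · exact hn (t' + W) (by omega) (by omega) h'
      · obtain ⟨k, hk, hne⟩ := hus u List.mem_cons_self (t' - t) (by omega) (by omega)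
        apply hne
        have h1 : u ⟨k, by omega⟩ = w (t' + (us.length + 1) * W + k) := by
          rw [← hw']; rfl
        have h2 : u ⟨k + (t' - t), hk⟩ = w (t + (us.length + 1) * W + (k + (t' - t))) := by
          conv_lhs => rw [← hw]
          rfl
        rw [h1, h2]
        congr 1
        omega

theorem rule_local {n W : ℕ} (us : List (Fin n → α)) (w w' : ℕ → α) :
    ∀ t t', (∀ k, k < 2 * us.length * W + n → w (t + k) = w' (t' + k)) →
      (rule n W us w t ↔ rule n W us w' t') := by
  induction us with
  | nil => intro t t' _; simp [rule]
  | cons u us ih =>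
    intro t t' h
    simp only [List.length_cons] at h
    have e1 : 2 * (us.length + 1) * W = 2 * us.length * W + 2 * W := by ring
    have e2 : (us.length + 1) * W = us.length * W + W := by ring
    have e3 : 2 * us.length * W = us.length * W + us.length * W := by ring
    simp only [rule]
    have hA : rule n W us w (t + W) ↔ rule n W us w' (t' + W) := by
      apply ih
      intro k hk
      have := h (W + k) (by omega)
      rw [add_assoc, add_assoc]; exact this
    have hB : win w (t + (us.length + 1) * W) n = win w' (t' + (us.length + 1) * W) n := by
      funext k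
      have := h ((us.length + 1) * W + k) (by have := k.2; omega)
      simp only [win]
      rw [add_assoc, add_assoc]; exact this
    have hC : ∀ r, 0 < r → r < 2 * W → (rule n W us w (t + r) ↔ rule n W us w' (t' + r)) := by
      intro r hr hr'
      apply ih
      intro k hk
      have := h (r + k) (by omega)
      rw [add_assoc, add_assoc]; exact this
    rw [hA, hB]
    have hD : (∀ s, t < s → s < t + 2 * W → ¬ rule n W us w s) ↔
        (∀ s, t' < s → s < t' + 2 * W → ¬ rule n W us w' s) := by
      constructor
      · intro H s hs hs' hr
        have := (hC (s - t') (by omega) (by omega)).2 (by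
          rw [show t' + (s - t') = s by omega]; exact hr)
        exact H (t + (s - t')) (by omega) (by omega) this
      · intro H s hs hs' hr
        have := (hC (s - t) (by omega) (by omega)).1 (by
          rw [show t + (s - t) = s by omega]; exact hr)
        exact H (t' + (s - t)) (by omega) (by omega) this
    rw [hD]

theorem rule_cover {n W : ℕ} (hW : 0 < W) (us : List (Fin n → α)) (w : ℕ → α) :
    ∀ t0, W ≤ t0 → win w (t0 + us.length * W) n ∈ us →
      ∃ t, t0 < t + W ∧ t < t0 + W ∧ rule n W us w t := by
  induction us with
  | nil => intro t0 _ h; simp at h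
  | cons u us ih =>
    intro t0 h0 hm
    simp only [List.length_cons] at hm
    have e2 : (us.length + 1) * W = us.length * W + W := by ring
    by_cases hu : win w (t0 + (us.length + 1) * W) n = u
    · by_cases hex : ∃ s, t0 < s ∧ s < t0 + 2 * W ∧ rule n W us w s
      · obtain ⟨s, hs1, hs2, hs3⟩ := hex
        refine ⟨s - W, by omega, by omega, ?_⟩
        simp only [rule]
        left
        rw [show s - W + W = s by omega]
        exact hs3
      · push Not at hex
        refine ⟨t0, by omega, by omega, ?_⟩
        simp only [rule]
        right
        exact ⟨hu, hex⟩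
    · have hm' : win w (t0 + W + us.length * W) n ∈ us := by
        rcases List.mem_cons.1 hm with h | h
        · exact absurd h hu
        · rw [show t0 + W + us.length * W = t0 + (us.length + 1) * W by omega]; exact h
      obtain ⟨t, h1, h2, h3⟩ := ih (t0 + W) (by omega) hm'
      refine ⟨t - W, by omega, by omega, ?_⟩
      simp only [rule]
      left
      rw [show t - W + W = t by omega]
      exact h3

/-- **Marker lemma.** For every `W > 0` and window length `n` there is a right-looking rule `R`
with window `N`, marks at distance at least `W`, such that every window of length `n` without a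
period `< W` forces a mark near it. -/
theorem exists_mark [Finite α] {W : ℕ} (hW : 0 < W) (n : ℕ) :
    ∃ (N K : ℕ) (R : (ℕ → α) → ℕ → Prop),
      (∀ w w' t t', (∀ k, k < N → w (t + k) = w' (t' + k)) → (R w t ↔ R w' t')) ∧
      (∀ w t t', R w t → R w t' → t < t' → t + W ≤ t') ∧
      (∀ w t0, W ≤ t0 →
        (∀ p, 0 < p → p < W → ∃ k, k + p < n ∧ w (t0 + K + k) ≠ w (t0 + K + k + p)) →
        ∃ t, t0 < t + W ∧ t < t0 + W ∧ R w t) := by
  classical
  have := Fintype.ofFinite α
  let us : List (Fin n → α) := (Finset.univ.filter (fun u => Aper W u)).toList
  refine ⟨2 * us.length * W + n, us.length * W, rule n W us, ?_, ?_, ?_⟩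
  · intro w w' t t' h
    exact rule_local us w w' t t' h
  · intro w
    refine rule_sep us ?_ w
    intro u hu
    have := Finset.mem_toList.1 hu
    exact (Finset.mem_filter.1 this).2
  · intro w t0 h0 hp
    apply rule_cover hW us w t0 h0
    apply Finset.mem_toList.2
    refine Finset.mem_filter.2 ⟨Finset.mem_univ _, ?_⟩
    intro p hp0 hpW
    obtain ⟨k, hk, hne⟩ := hp p hp0 hpW
    refine ⟨k, hk, ?_⟩
    simp only [win]
    rw [← add_assoc]
    exact hne

/-! ### List form -/

/-- Infinite extension of a finite word. -/
noncomputable def ext [Nonempty α] (Q : List α) : ℕ → α :=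
  fun k => if h : k < Q.length then Q[k] else Classical.arbitrary α

theorem ext_of_lt [Nonempty α] (Q : List α) {k : ℕ} (h : k < Q.length) : ext Q k = Q[k] := by
  simp [ext, h]

theorem ext_drop [Nonempty α] (Q : List α) (d k : ℕ) : ext (Q.drop d) k = ext Q (d + k) := by
  unfold ext
  by_cases h : d + k < Q.length
  · rw [dif_pos h, dif_pos (by rw [List.length_drop]; omega)]
    simp
  · rw [dif_neg h, dif_neg (by rw [List.length_drop]; omega)]

theorem ext_take [Nonempty α] (Q : List α) (n k : ℕ) (h : k < n) (h' : n ≤ Q.length) :
    ext (Q.take n) k = ext Q k := by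
  unfold ext
  rw [dif_pos (show k < Q.length by omega),
    dif_pos (show k < (Q.take n).length by rw [List.length_take]; omega)]
  simp

/-- No factor `x ^ e` with `0 < |x| ≤ W`. -/
def RF (e W : ℕ) (Q : List α) : Prop :=
  ∀ x : List α, x ≠ [] → x.length ≤ W → ¬ (List.replicate e x).flatten <:+: Q

/-- A word with period `p = |x|` is a prefix of a power of its first `p` letters. -/
theorem per_flatten (e p : ℕ) (hp : 0 < p) (Q : List α) (hl : e * p ≤ Q.length)
    (hper : ∀ k (h : k + p < e * p), Q[k]'(by omega) = Q[k + p]'(by omega)) :
    (List.replicate e (Q.take p)).flatten = Q.take (e * p) := by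
  rcases Nat.eq_zero_or_pos e with he | he
  · subst he; simp
  have hpl : p ≤ Q.length := le_trans (Nat.le_mul_of_pos_left p he) hl
  have hlen : (Q.take p).length = p := by rw [List.length_take]; omega
  have key : ∀ m, m ≤ e → (List.replicate m (Q.take p)).flatten = Q.take (m * p) := by
    intro m
    induction m with
    | zero => intro _; simp
    | succ m ih =>
      intro hm
      have ih' := ih (by omega)
      have hmp : (m + 1) * p ≤ e * p := Nat.mul_le_mul_right p hm
      have hm1 : (m + 1) * p = m * p + p := by ring
      rw [List.replicate_succ', List.flatten_append, ih']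
      simp only [List.flatten_cons, List.flatten_nil, List.append_nil]
      -- Q.take p = (Q.drop (m p)).take p
      have hT : Q.take p = (Q.drop (m * p)).take p := by
        have hj : ∀ j (hjm : j ≤ m), ∀ k (hk : k < p), Q[k]'(by omega) = Q[j * p + k]'(by
            have : j * p ≤ m * p := Nat.mul_le_mul_right p (by omega)
            omega) := by
          intro j
          induction j with
          | zero => intro _ k hk; simp
          | succ j ihj =>
            intro hj k hk
            have h1 := ihj (by omega) k hk
            have hjp : (j + 1) * p ≤ m * p := Nat.mul_le_mul_right p (by omega)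
            have hj1 : (j + 1) * p = j * p + p := by ring
            have h2 := hper (j * p + k) (by omega)
            rw [h1, h2]
            congr 1
            omega
        apply List.ext_getElem
        · rw [List.length_take, List.length_take, List.length_drop]; omega
        · intro k h1 h2
          rw [List.length_take] at h1
          simp only [List.getElem_take, List.getElem_drop]
          exact hj m le_rfl k (by omega)
      rw [hT, hm1, List.take_add]
  exact key e le_rfl

/-- **Marker lemma, list form** (right-looking rule on finite words). -/
theorem exists_mark_list [Finite α] (e W : ℕ) (hW : 0 < W) :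
    ∃ (n G : ℕ) (R : List α → Prop),
      (∀ Q, R Q ↔ R (Q.take n)) ∧ (∀ Q, R Q → n ≤ Q.length) ∧
      (∀ Q d, R Q → 0 < d → d < W → ¬ R (Q.drop d)) ∧
      (∀ Q, RF e W Q → G + n ≤ Q.length → ∃ i < G, R (Q.drop i)) ∧ G = 2 * W := by
  rcases isEmpty_or_nonempty α with hα | hα
  · refine ⟨1, 2 * W, fun _ => False, by simp, by simp, by simp, ?_, rfl⟩
    · intro Q _ h
      cases Q with
      | nil => simp at h
      | cons a _ => exact hα.elim a
  obtain ⟨N, K, R, hloc, hsep, hcov⟩ := exists_mark (α := α) hW ((e + 1) * W)
  -- window large enough to contain the names used in the covering property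
  let n : ℕ := N + K + (e + 1) * W + 2 * W
  have hN : N ≤ n := by simp only [n]; omega
  let RL : List α → Prop := fun Q => n ≤ Q.length ∧ R (ext Q) 0
  refine ⟨n, 2 * W, RL, ?_, ?_, ?_, ?_, rfl⟩
  · intro Q
    by_cases h : n ≤ Q.length
    · have : R (ext Q) 0 ↔ R (ext (Q.take n)) 0 := by
        apply hloc
        intro k hk
        simp only [Nat.zero_add]
        rw [ext_take Q n k (by omega) h]
      simp only [RL, h, true_and, this, List.length_take]
      simp [h]
    · simp only [RL, h, false_and, List.length_take, false_iff, not_and]
      intro h'
      omega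
  · intro Q h; exact h.1
  · intro Q d h hd hdW h'
    have h2 : R (ext Q) d := by
      refine (hloc (ext (Q.drop d)) (ext Q) 0 d ?_).1 h'.2
      intro k _
      simp only [Nat.zero_add]
      exact ext_drop Q d k
    have := hsep (ext Q) 0 d h.2 h2 hd
    omega
  · intro Q hQ hlen
    have hc := hcov (ext Q) W le_rfl (by
      intro p hp hpW
      by_contra hcon
      push Not at hcon
      -- the factor of length e p at W + K is a power
      let Q' := Q.drop (W + K)
      have hQ'l : (e + 1) * W ≤ Q'.length := by
        simp only [Q', List.length_drop]
        simp only [n] at hlen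
        omega
      have hep : e * p ≤ e * W := Nat.mul_le_mul_left e hpW.le
      have hew : (e + 1) * W = e * W + W := by ring
      have hflat := per_flatten e p hp Q' (by omega) (by
        intro k hk
        have hk' : k + p < (e + 1) * W := by omega
        have h1 := hcon k hk'
        have e1 : ext Q (W + K + k) = Q'[k]'(by omega) := by
          rw [ext_of_lt Q (by simp only [n] at hlen; omega)]
          simp [Q']
        have e2 : ext Q (W + K + k + p) = Q'[k + p]'(by omega) := by
          rw [ext_of_lt Q (by simp only [n] at hlen; omega)]
          simp only [Q', List.getElem_drop]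
          congr 1
          omega
        rw [e1, e2] at h1
        exact h1)
      refine hQ (Q'.take p) ?_ ?_ ?_
      · intro h0
        have h5 : (Q'.take p).length = p := by rw [List.length_take]; omega
        rw [h0] at h5
        simp at h5
        omega
      · rw [List.length_take]; omega
      · rw [hflat]
        exact ((List.take_prefix _ _).isInfix).trans (List.drop_suffix _ _).isInfix)
    obtain ⟨t, h1, h2, h3⟩ := hc
    refine ⟨t, by omega, ?_, ?_⟩
    · rw [List.length_drop]; omega
    · refine (hloc (ext Q) (ext (Q.drop t)) t 0 ?_).1 h3
      intro k _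
      simp only [Nat.zero_add]
      exact (ext_drop Q t k).symm

end Crest.Agent.R320.Mark28
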