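import Mathlib

/-!
Row 320, piece (2): markers (greedy rule over names, Krieger), one-sided (right-looking) local form.

`exists_mark`: for every finite alphabet, every separation `W` and every name length `n` there is a
window length `N` and a predicate `mark` on words of length `N` such that, calling `i` marked in `w`
if `i + N` is at most the length and the factor of length `N` at `i` satisfies `mark`,
* two marked positions of any word are at distance at least `W`;
* every interval `[i, i + 2 W)` with `i + 2 W + N` at most the length contains a marked position,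
  as soon as no factor of length `n` of the word has a period in `[1, W)`.
-/

set_option autoImplicit false

namespace Crest.Agent.R320.Mark407

variable {A : Type*}

/-- The factor of length `n` at `i` of a bi-infinite text. -/
def nameAt (n : ℕ) (t : ℤ → A) (i : ℤ) : Fin n → A := fun j => t (i + ((j : ℕ) : ℤ))

/-- Greedy marks: the names of the list are treated from the end of the list to its head. -/
def M (W n : ℕ) (t : ℤ → A) : List (Fin n → A) → Set ℤ
  | [] => ∅
  | (u :: l) => {i | i ∈ M W n t l ∨ (nameAt n t i = u ∧ ∀ j ∈ M W n t l, (W : ℤ) ≤ |i - j|)}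

/-- A name without period in `[1, W)`. -/
def Good (W n : ℕ) (u : Fin n → A) : Prop :=
  ∀ p : ℕ, 1 ≤ p → p < W → ∃ j j' : Fin n, (j' : ℕ) = (j : ℕ) + p ∧ u j ≠ u j'

lemma occ_far {W n : ℕ} {t : ℤ → A} {u : Fin n → A} (hu : Good W n u) {i j : ℤ}
    (hi : nameAt n t i = u) (hj : nameAt n t j = u) (hij : i < j) : (W : ℤ) ≤ j - i := by
  by_contra hlt
  push Not at hlt
  obtain ⟨a, b, hab, hne⟩ := hu (j - i).toNat (by omega) (by omega)
  apply hne
  have h1 : u a = t (j + ((a : ℕ) : ℤ)) := by rw [← hj]; rfl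
  have h2 : u b = t (i + ((b : ℕ) : ℤ)) := by rw [← hi]; rfl
  rw [h1, h2]
  congr 1
  have : ((b : ℕ) : ℤ) = ((a : ℕ) : ℤ) + (j - i) := by omega
  rw [this]; ring

lemma M_gap {W n : ℕ} {t : ℤ → A} (l : List (Fin n → A)) (hl : ∀ u ∈ l, Good W n u) :
    ∀ i ∈ M W n t l, ∀ j ∈ M W n t l, i ≠ j → (W : ℤ) ≤ |i - j| := by
  induction l with
  | nil => intro i hi; exact absurd hi (Set.notMem_empty i)
  | cons u l ih =>
    have ih' := ih (fun v hv => hl v (List.mem_cons_of_mem _ hv))
    intro i hi j hj hij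
    rcases hi with hi | ⟨hi, hi'⟩
    · rcases hj with hj | ⟨hj, hj'⟩
      · exact ih' i hi j hj hij
      · rw [abs_sub_comm]; exact hj' i hi
    · rcases hj with hj | ⟨hj, hj'⟩
      · exact hi' j hj
      · have hu := hl u List.mem_cons_self
        rcases lt_or_gt_of_ne hij with h | h
        · have := occ_far hu hi hj h
          rw [abs_sub_comm]; exact le_trans this (le_abs_self _)
        · have := occ_far hu hj hi h
          exact le_trans this (le_abs_self _)

lemma M_cover {W n : ℕ} (hW : 0 < W) {t : ℤ → A} (l : List (Fin n → A)) (i : ℤ)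
    (hi : nameAt n t i ∈ l) : ∃ j ∈ M W n t l, |i - j| < (W : ℤ) := by
  induction l with
  | nil => exact absurd hi List.not_mem_nil
  | cons u l ih =>
    rcases List.mem_cons.1 hi with h | h
    · by_cases hc : ∀ j ∈ M W n t l, (W : ℤ) ≤ |i - j|
      · exact ⟨i, Or.inr ⟨h, hc⟩, by simpa using hW⟩
      · push Not at hc
        obtain ⟨j, hj, hj'⟩ := hc
        exact ⟨j, Or.inl hj, hj'⟩
    · obtain ⟨j, hj, hj'⟩ := ih h
      exact ⟨j, Or.inl hj, hj'⟩

lemma M_local {W n : ℕ} {t t' : ℤ → A} (l : List (Fin n → A)) (i : ℤ)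
    (h : ∀ z : ℤ, i - (W : ℤ) * l.length ≤ z → z < i + (W : ℤ) * l.length + n → t z = t' z) :
    i ∈ M W n t l ↔ i ∈ M W n t' l := by
  induction l generalizing i with
  | nil => exact Iff.rfl
  | cons u l ih =>
    have hlen : ((u :: l).length : ℤ) = (l.length : ℤ) + 1 := by simp
    have hW0 : (0 : ℤ) ≤ W := by positivity
    have key : ∀ j : ℤ, |i - j| < (W : ℤ) → (j ∈ M W n t l ↔ j ∈ M W n t' l) := by
      intro j hj
      apply ih
      intro z hz1 hz2
      rw [abs_lt] at hj
      apply h z
      · rw [hlen]; linarith [mul_add (W : ℤ) l.length 1, hj.1, hj.2]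
      · rw [hlen]; linarith [mul_add (W : ℤ) l.length 1, hj.1, hj.2]
    have hself : i ∈ M W n t l ↔ i ∈ M W n t' l := by
      apply ih
      intro z hz1 hz2
      apply h z
      · rw [hlen]; linarith [mul_add (W : ℤ) l.length 1]
      · rw [hlen]; linarith [mul_add (W : ℤ) l.length 1]
    have hname : nameAt n t i = nameAt n t' i := by
      funext j
      have hj := j.2
      have hm : (0 : ℤ) ≤ (W : ℤ) * ((u :: l).length : ℤ) := by positivity
      apply h
      · have : (0 : ℤ) ≤ ((j : ℕ) : ℤ) := by positivity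
        linarith
      · have : ((j : ℕ) : ℤ) < (n : ℤ) := by exact_mod_cast hj
        linarith
    have hfar : (∀ j ∈ M W n t l, (W : ℤ) ≤ |i - j|) ↔ (∀ j ∈ M W n t' l, (W : ℤ) ≤ |i - j|) := by
      constructor
      · intro hh j hj
        by_contra hc
        push Not at hc
        exact absurd (hh j ((key j hc).2 hj)) (not_le.2 hc)
      · intro hh j hj
        by_contra hc
        push Not at hc
        exact absurd (hh j ((key j hc).1 hj)) (not_le.2 hc)
    show (i ∈ M W n t l ∨ (nameAt n t i = u ∧ ∀ j ∈ M W n t l, (W : ℤ) ≤ |i - j|)) ↔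
      (i ∈ M W n t' l ∨ (nameAt n t' i = u ∧ ∀ j ∈ M W n t' l, (W : ℤ) ≤ |i - j|))
    rw [hself, hname, hfar]

lemma M_shift {W n : ℕ} {t : ℤ → A} (l : List (Fin n → A)) (s i : ℤ) :
    i ∈ M W n (fun z => t (z + s)) l ↔ i + s ∈ M W n t l := by
  induction l generalizing i with
  | nil => exact Iff.rfl
  | cons u l ih =>
    have hname : nameAt n (fun z => t (z + s)) i = nameAt n t (i + s) := by
      funext j
      show t (i + ((j : ℕ) : ℤ) + s) = t (i + s + ((j : ℕ) : ℤ))
      congr 1; ring
    have hfar : (∀ j ∈ M W n (fun z => t (z + s)) l, (W : ℤ) ≤ |i - j|) ↔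
        (∀ j ∈ M W n t l, (W : ℤ) ≤ |i + s - j|) := by
      constructor
      · intro hh j hj
        have h1 : j - s ∈ M W n (fun z => t (z + s)) l := by
          rw [ih]; simpa using hj
        have h2 := hh _ h1
        have h3 : i - (j - s) = i + s - j := by ring
        rwa [h3] at h2
      · intro hh j hj
        have h1 := hh _ ((ih j).1 hj)
        have h3 : i + s - (j + s) = i - j := by ring
        rwa [h3] at h1
    show (i ∈ M W n (fun z => t (z + s)) l ∨
        (nameAt n (fun z => t (z + s)) i = u ∧ ∀ j ∈ M W n (fun z => t (z + s)) l, (W : ℤ) ≤ |i - j|)) ↔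
      (i + s ∈ M W n t l ∨ (nameAt n t (i + s) = u ∧ ∀ j ∈ M W n t l, (W : ℤ) ≤ |i + s - j|))
    rw [ih, hname, hfar]

/-- Extension of a word to a bi-infinite text. -/
def ext [Inhabited A] (w : List A) : ℤ → A := fun z => w.getD z.toNat default

/-- No factor of length `n` of `w` has a period in `[1, W)`. -/
def NoShort (W n : ℕ) (w : List A) : Prop :=
  ∀ k : ℕ, k + n ≤ w.length → ∀ p : ℕ, 1 ≤ p → p < W →
    ∃ j : ℕ, j + p < n ∧ w[k + j]? ≠ w[k + j + p]?

/-- `i` is marked in `w` by the right-looking rule `mark` of window `N`. -/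
def Marked (N : ℕ) (mark : List A → Prop) (w : List A) (i : ℕ) : Prop :=
  i + N ≤ w.length ∧ mark ((w.drop i).take N)

theorem exists_mark [Finite A] (W n : ℕ) (hW : 0 < W) :
    ∃ (N : ℕ) (mark : List A → Prop), n ≤ N ∧ ∀ w : List A,
      (∀ i j : ℕ, Marked N mark w i → Marked N mark w j → i < j → i + W ≤ j) ∧
      (NoShort W n w → ∀ i : ℕ, i + 2 * W + N ≤ w.length →
        ∃ j : ℕ, i ≤ j ∧ j < i + 2 * W ∧ Marked N mark w j) := by
  classical
  rcases isEmpty_or_nonempty A with hA | hA
  · refine ⟨n, fun _ => False, le_rfl, fun w => ⟨fun i j hi => absurd hi.2 id, fun _ i hi => ?_⟩⟩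
    have hw : w = [] := by
      cases w with
      | nil => rfl
      | cons a _ => exact (hA.false a).elim
    subst hw
    simp only [List.length_nil] at hi
    omega
  have : Fintype A := Fintype.ofFinite A
  have : Inhabited A := Classical.inhabited_of_nonempty hA
  set l : List (Fin n → A) := (Finset.univ.filter (fun u : Fin n → A => Good W n u)).toList with hl
  have hlgood : ∀ u ∈ l, Good W n u := by
    intro u hu
    rw [hl, Finset.mem_toList, Finset.mem_filter] at hu
    exact hu.2
  set R : ℕ := W * l.length with hR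
  have hRz : (R : ℤ) = (W : ℤ) * (l.length : ℤ) := by rw [hR]; push_cast; ring
  refine ⟨2 * R + n, fun v => (R : ℤ) ∈ M W n (ext v) l, by omega, fun w => ?_⟩
  have key : ∀ i : ℕ, i + (2 * R + n) ≤ w.length →
      ((R : ℤ) ∈ M W n (ext ((w.drop i).take (2 * R + n))) l ↔ (R : ℤ) + (i : ℤ) ∈ M W n (ext w) l) := by
    intro i hi
    rw [← M_shift (t := ext w) l (i : ℤ) (R : ℤ)]
    apply M_local
    intro z hz1 hz2
    rw [← hRz] at hz1 hz2
    have hz0 : 0 ≤ z := by linarith
    have hzN : z < 2 * (R : ℤ) + n := by linarith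
    obtain ⟨k, rfl⟩ := Int.eq_ofNat_of_zero_le hz0
    have hk : k < 2 * R + n := by exact_mod_cast hzN
    show ((w.drop i).take (2 * R + n)).getD (k : ℤ).toNat default = w.getD ((k : ℤ) + (i : ℤ)).toNat default
    have e1 : ((k : ℤ)).toNat = k := Int.toNat_natCast k
    have e2 : ((k : ℤ) + (i : ℤ)).toNat = i + k := by omega
    rw [e1, e2, List.getD_eq_getElem?_getD, List.getD_eq_getElem?_getD,
      List.getElem?_take_of_lt hk, List.getElem?_drop]
  refine ⟨?_, ?_⟩
  · intro i j hi hj hij
    have h1 := (key i hi.1).1 hi.2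
    have h2 := (key j hj.1).1 hj.2
    have h3 := M_gap l hlgood _ h1 _ h2 (by omega)
    have h4 : (R : ℤ) + (i : ℤ) - ((R : ℤ) + (j : ℤ)) = -((j : ℤ) - (i : ℤ)) := by ring
    rw [h4, abs_neg, abs_of_pos (by omega)] at h3
    omega
  · intro hns i hi
    have hc : nameAt n (ext w) ((R : ℤ) + (i : ℤ) + (W : ℤ)) ∈ l := by
      rw [hl, Finset.mem_toList, Finset.mem_filter]
      refine ⟨Finset.mem_univ _, ?_⟩
      intro p hp1 hp2
      obtain ⟨j, hj, hne⟩ := hns (R + i + W) (by omega) p hp1 hp2
      refine ⟨⟨j, by omega⟩, ⟨j + p, hj⟩, rfl, ?_⟩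
      show w.getD ((R : ℤ) + (i : ℤ) + (W : ℤ) + ((j : ℕ) : ℤ)).toNat default ≠
        w.getD ((R : ℤ) + (i : ℤ) + (W : ℤ) + (((j + p : ℕ)) : ℤ)).toNat default
      have e1 : ((R : ℤ) + (i : ℤ) + (W : ℤ) + ((j : ℕ) : ℤ)).toNat = R + i + W + j := by omega
      have e2 : ((R : ℤ) + (i : ℤ) + (W : ℤ) + (((j + p : ℕ)) : ℤ)).toNat = R + i + W + j + p := by
        omega
      rw [e1, e2]
      have b1 : R + i + W + j < w.length := by omega
      have b2 : R + i + W + j + p < w.length := by omega
      rw [List.getElem?_eq_getElem b1, List.getElem?_eq_getElem b2] at hne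
      rw [List.getD_eq_getElem _ _ b1, List.getD_eq_getElem _ _ b2]
      intro h
      exact hne (by rw [h])
    obtain ⟨j, hj, hjd⟩ := M_cover hW l _ hc
    rw [abs_lt] at hjd
    have hj0 : (0 : ℤ) ≤ j - R := by omega
    obtain ⟨k, hk⟩ := Int.eq_ofNat_of_zero_le hj0
    refine ⟨k, by omega, by omega, by omega, ?_⟩
    show (R : ℤ) ∈ M W n (ext ((w.drop k).take (2 * R + n))) l
    rw [key k (by omega)]
    have : (R : ℤ) + (k : ℤ) = j := by omega
    rw [this]; exact hj

end Crest.Agent.R320.Mark407
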