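import Mathlib

set_option autoImplicit false

/-! Row 320: the marker rule (piece (2a) of post #12647).

`marker`: for a finite alphabet `A`, `W ≥ 1` and any `N` there is a right-looking rule
(a set of words of one length `n`) such that marks are at distance at least `W` in every word,
and in every word without a factor of length `N` of period `< W` every interval of `2 W`
positions (with all windows inside the word) contains a mark. -/

namespace Crest.Agent.R320.Marker_392

universe u
variable {A : Type u}

/-- The factor of `w` of length `n` at position `x` (shorter at the end of `w`). -/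
def win (w : List A) (x n : ℕ) : List A := (w.drop x).take n

/-- `u` has period `p`. -/
def HasPeriod (u : List A) (p : ℕ) : Prop := ∀ i, i + p < u.length → u[i]? = u[i + p]?

/-- pattern version -/
def PPer {N : ℕ} (u : Fin N → A) (p : ℕ) : Prop :=
  ∀ (i : ℕ) (h : i + p < N), u ⟨i, by omega⟩ = u ⟨i + p, h⟩

/-- marks of a bi-infinite text, given a list of patterns -/
def M (W : ℕ) {N : ℕ} : List (Fin N → A) → (ℤ → A) → Set ℤ
  | [], _ => ∅
  | u :: us, f => M W us f ∪
      {x | (∀ i : Fin N, f (x + (i : ℕ)) = u i) ∧ ∀ y ∈ M W us f, (W : ℤ) ≤ |x - y|}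

theorem sep (W : ℕ) {N : ℕ} (us : List (Fin N → A))
    (hus : ∀ u ∈ us, ∀ p, 0 < p → p < W → ¬ PPer u p) (f : ℤ → A) :
    ∀ x ∈ M W us f, ∀ y ∈ M W us f, x ≠ y → (W : ℤ) ≤ |x - y| := by
  induction us with
  | nil => intro x hx; exact absurd hx (Set.notMem_empty x)
  | cons u us ih =>
    have ih' := ih fun v hv => hus v (List.mem_cons_of_mem u hv)
    have key : ∀ x y : ℤ, x < y → (∀ i : Fin N, f (x + (i : ℕ)) = u i) →
        (∀ i : Fin N, f (y + (i : ℕ)) = u i) → (W : ℤ) ≤ y - x := by
      intro x y hxy hx hy
      by_contra hlt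
      push Not at hlt
      obtain ⟨p, hp⟩ := Int.eq_ofNat_of_zero_le (by omega : 0 ≤ y - x)
      refine hus u List.mem_cons_self p (by omega) (by omega) ?_
      intro i hi
      have h1 := hy ⟨i, by omega⟩
      have h2 := hx ⟨i + p, hi⟩
      rw [← h1, ← h2]
      congr 1
      push_cast
      omega
    intro x hx y hy hne
    rcases hx with hx | ⟨hx1, hx2⟩
    · rcases hy with hy | ⟨hy1, hy2⟩
      · exact ih' x hx y hy hne
      · rw [abs_sub_comm]; exact hy2 x hx
    · rcases hy with hy | ⟨hy1, hy2⟩
      · exact hx2 y hy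
      · rcases lt_or_gt_of_ne hne with h | h
        · have := key x y h hx1 hy1
          rw [abs_sub_comm]
          exact this.trans (le_abs_self _)
        · have := key y x h hy1 hx1
          exact this.trans (le_abs_self _)

theorem dens (W : ℕ) (hW : 0 < W) {N : ℕ} (us : List (Fin N → A)) (f : ℤ → A) (x : ℤ)
    (hx : (fun i : Fin N => f (x + (i : ℕ))) ∈ us) : ∃ y ∈ M W us f, |x - y| < (W : ℤ) := by
  induction us with
  | nil => simp at hx
  | cons u us ih =>
    rcases List.mem_cons.1 hx with h | h
    · by_cases hc : ∃ y ∈ M W us f, |x - y| < (W : ℤ)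
      · obtain ⟨y, hy, hxy⟩ := hc
        exact ⟨y, Or.inl hy, hxy⟩
      · push Not at hc
        refine ⟨x, Or.inr ⟨fun i => congrFun h i, hc⟩, ?_⟩
        simpa using hW
    · obtain ⟨y, hy, hxy⟩ := ih h
      exact ⟨y, Or.inl hy, hxy⟩

theorem loc (W : ℕ) {N : ℕ} (us : List (Fin N → A)) (f g : ℤ → A) (t : ℤ) :
    ∀ c : ℤ, (∀ z, c - W * us.length ≤ z → z < c + W * us.length + N → f z = g (z + t)) →
      (c ∈ M W us f ↔ c + t ∈ M W us g) := by
  induction us with
  | nil => intro c _; exact Iff.rfl
  | cons u us ih =>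
    intro c hc
    have hlen : ((u :: us).length : ℤ) = us.length + 1 := by simp
    have hW0 : (0 : ℤ) ≤ W := Int.natCast_nonneg W
    have hL0 : (0 : ℤ) ≤ (W : ℤ) * us.length := by positivity
    have hexp : (W : ℤ) * ((u :: us).length : ℤ) = W * us.length + W := by
      rw [hlen]; ring
    rw [hexp] at hc
    have ihy : ∀ y : ℤ, |c - y| < (W : ℤ) ∨ y = c → (y ∈ M W us f ↔ y + t ∈ M W us g) := by
      intro y hy
      apply ih y
      intro z hz1 hz2
      have : |c - y| ≤ (W : ℤ) := by
        rcases hy with hy | hy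
        · exact hy.le
        · subst hy; simp
      rw [abs_le] at this
      exact hc z (by linarith [this.1, this.2]) (by linarith [this.1, this.2])
    have h1 := ihy c (Or.inr rfl)
    have h2 : (∀ i : Fin N, f (c + (i : ℕ)) = u i) ↔
        (∀ i : Fin N, g (c + t + (i : ℕ)) = u i) := by
      refine forall_congr' fun i => ?_
      have hi : ((i : ℕ) : ℤ) < N := by exact_mod_cast i.2
      have := hc (c + (i : ℕ)) (by linarith [Int.natCast_nonneg (i : ℕ)]) (by linarith)
      rw [this]
      have e : c + (i : ℕ) + t = c + t + (i : ℕ) := by ring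
      rw [e]
    have h3 : (∀ y ∈ M W us f, (W : ℤ) ≤ |c - y|) ↔
        (∀ y ∈ M W us g, (W : ℤ) ≤ |c + t - y|) := by
      constructor
      · intro h y hy
        by_contra hlt
        push Not at hlt
        have e : c + t - y = c - (y - t) := by ring
        rw [e] at hlt
        have := (ihy (y - t) (Or.inl hlt)).2 (by rwa [sub_add_cancel])
        exact absurd hlt (not_lt.2 (h _ this))
      · intro h y hy
        by_contra hlt
        push Not at hlt
        have := (ihy y (Or.inl hlt)).1 hy
        have h5 := h _ this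
        have e : c + t - (y + t) = c - y := by ring
        rw [e] at h5
        exact absurd hlt (not_lt.2 h5)
    show (c ∈ M W us f ∨ _) ↔ (c + t ∈ M W us g ∨ _)
    exact or_congr h1 (and_congr h2 h3)

/-- extension of a word to a bi-infinite text -/
def ext (a : A) (w : List A) (z : ℤ) : A := (w[z.toNat]?).getD a

theorem ext_win (a : A) (w : List A) (x n : ℕ) (h : x + n ≤ w.length) (z : ℤ) (h0 : 0 ≤ z)
    (h1 : z < n) : ext a (win w x n) z = ext a w (z + x) := by
  obtain ⟨k, rfl⟩ := Int.eq_ofNat_of_zero_le h0
  unfold ext win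
  have e : ((k : ℤ) + (x : ℤ)).toNat = x + k := by omega
  rw [e]
  have hk : k < n := by exact_mod_cast h1
  simp only [Int.toNat_natCast]
  rw [List.getElem?_take, if_pos hk, List.getElem?_drop]

open Classical in
/-- **Marker rule.** -/
theorem marker [Finite A] (W : ℕ) (hW : 0 < W) (N : ℕ) :
    ∃ (n : ℕ) (rule : Set (List A)),
      (∀ (w : List A) (x y : ℕ), x < y → y + n ≤ w.length → win w x n ∈ rule →
        win w y n ∈ rule → x + W ≤ y) ∧
      (∀ w : List A, (∀ x, x + N ≤ w.length → ∀ p, 0 < p → p < W → ¬ HasPeriod (win w x N) p) →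
        ∀ x, x + 2 * W + n ≤ w.length → ∃ y, x < y ∧ y < x + 2 * W ∧ win w y n ∈ rule) := by
  rcases isEmpty_or_nonempty A with hA | ⟨⟨a⟩⟩
  · refine ⟨1, ∅, fun w x y _ _ h => absurd h (Set.notMem_empty _), ?_⟩
    intro w _ x hx
    have : w = [] := List.eq_nil_iff_forall_not_mem.2 fun b => (hA.false b).elim
    subst this
    simp at hx
  haveI := Fintype.ofFinite A
  let us : List (Fin N → A) :=
    (Finset.univ.filter fun u : Fin N → A => ∀ p, 0 < p → p < W → ¬ PPer u p).toList
  have hus : ∀ u ∈ us, ∀ p, 0 < p → p < W → ¬ PPer u p := by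
    intro u hu
    have := Finset.mem_toList.1 hu
    exact (Finset.mem_filter.1 this).2
  let R : ℕ := W * us.length
  let n : ℕ := 2 * R + N
  let rule : Set (List A) := {v | (R : ℤ) ∈ M W us (ext a v)}
  have hrule : ∀ (w : List A) (x : ℕ), x + n ≤ w.length →
      (win w x n ∈ rule ↔ ((R : ℤ) + x) ∈ M W us (ext a w)) := by
    intro w x hx
    have := loc W us (ext a (win w x n)) (ext a w) (x : ℤ) (R : ℤ) (by
      intro z hz1 hz2
      have hR : (R : ℤ) = W * us.length := by simp [R]
      refine ext_win a w x n hx z (by linarith) ?_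
      have : (n : ℤ) = 2 * R + N := by simp [n]
      linarith)
    exact this
  refine ⟨n, rule, ?_, ?_⟩
  · intro w x y hxy hy h1 h2
    rw [hrule w x (by omega)] at h1
    rw [hrule w y hy] at h2
    have := sep W us hus (ext a w) _ h1 _ h2 (by omega)
    have e : |((R : ℤ) + x) - ((R : ℤ) + y)| = (y : ℤ) - x := by
      rw [abs_sub_comm, abs_of_nonneg] <;> omega
    rw [e] at this
    omega
  · intro w hw x hx
    have hc : x + W + R + N ≤ w.length := by
      have : n = 2 * R + N := rfl
      omega
    have hmem : (fun i : Fin N => ext a w (((x + W + R : ℕ) : ℤ) + (i : ℕ))) ∈ us := by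
      refine Finset.mem_toList.2 (Finset.mem_filter.2 ⟨Finset.mem_univ _, ?_⟩)
      intro p hp0 hpW hper
      refine hw (x + W + R) hc p hp0 hpW ?_
      intro i hi
      have hlen : (win w (x + W + R) N).length = N := by
        unfold win
        rw [List.length_take, List.length_drop]
        omega
      rw [hlen] at hi
      have := hper i hi
      have get : ∀ j, j < N → (win w (x + W + R) N)[j]? =
          some (ext a w (((x + W + R : ℕ) : ℤ) + (j : ℕ))) := by
        intro j hj
        unfold win ext
        rw [List.getElem?_take, if_pos hj, List.getElem?_drop]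
        have e : ((((x + W + R : ℕ) : ℤ) + (j : ℕ))).toNat = x + W + R + j := by omega
        rw [e]
        have hlt : x + W + R + j < w.length := by omega
        rw [List.getElem?_eq_getElem hlt]
        rfl
      rw [get i (by omega), get (i + p) hi]
      exact congrArg some this
    obtain ⟨y, hy, hxy⟩ := dens W hW us (ext a w) _ hmem
    rw [abs_lt] at hxy
    obtain ⟨hy1, hy2⟩ := hxy
    push_cast at hy1 hy2
    obtain ⟨k, hk⟩ := Int.eq_ofNat_of_zero_le (by omega : 0 ≤ y - R)
    refine ⟨k, by omega, by omega, ?_⟩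
    rw [hrule w k (by omega)]
    have e : (R : ℤ) + k = y := by omega
    rw [e]
    exact hy

end Crest.Agent.R320.Marker_392
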