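import Mathlib

set_option autoImplicit false

/-!
Row 320: the mask + right-frame gadget (helper823), abstract block form.

* `card_bad`: number of functions which miss one prescribed pattern in each of `m` disjoint blocks.
* `exists_generic`: generic weights in `ZMod P`.
* `core`: the random function.
* `sound`, `complete`: the gadget on lists of blocks.
-/

namespace Crest.Agent.R320.Mask836

open Finset

lemma card_bad {P V J : Type} [Fintype P] [DecidableEq P] [Fintype V] [DecidableEq V]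
    [Fintype J] [DecidableEq J] (m : ℕ)
    (pt : Fin m × J → P) (hpt : Function.Injective pt) (tgt : Fin m → J → V) :
    (Finset.univ.filter (fun F : P → V => ∀ i, (fun j => F (pt (i, j))) ≠ tgt i)).card *
        (Fintype.card V ^ Fintype.card J) ^ m ≤
      Fintype.card V ^ Fintype.card P * (Fintype.card V ^ Fintype.card J - 1) ^ m := by
  classical
  set R : Finset P := Finset.univ.image pt with hRdef
  have hR : R.card = m * Fintype.card J := by
    rw [hRdef, Finset.card_image_of_injective _ hpt]; simp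
  have hRle : m * Fintype.card J ≤ Fintype.card P := by
    rw [← hR]; exact Finset.card_le_univ R
  let A : Finset (Fin m → (J → V)) := Fintype.piFinset (fun i => Finset.univ.erase (tgt i))
  have hA : A.card = (Fintype.card V ^ Fintype.card J - 1) ^ m := by
    simp [A, Fintype.card_piFinset, Finset.card_erase_of_mem]
  let B : Finset ({p : P // p ∉ R} → V) := Finset.univ
  have hB : B.card = Fintype.card V ^ (Fintype.card P - m * Fintype.card J) := by
    have h1 : Fintype.card {p : P // p ∉ R} = Fintype.card P - m * Fintype.card J := by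
      rw [Fintype.card_subtype_compl, ← hR]
      simp
    simp only [B, Finset.card_univ, Fintype.card_fun, h1]
  have hle : (Finset.univ.filter
      (fun F : P → V => ∀ i, (fun j => F (pt (i, j))) ≠ tgt i)).card ≤ (A ×ˢ B).card := by
    apply Finset.card_le_card_of_injOn
      (fun F : P → V => ((fun i j => F (pt (i, j))), fun p : {p : P // p ∉ R} => F p.1))
    · intro F hF
      have hF' : ∀ i, (fun j => F (pt (i, j))) ≠ tgt i := by simpa using hF
      simp only [Finset.coe_product, Set.mem_prod, Finset.mem_coe]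
      refine ⟨?_, Finset.mem_univ _⟩
      simp only [A, Fintype.mem_piFinset, Finset.mem_erase, Finset.mem_univ, and_true]
      exact hF'
    · intro F _ F' _ h
      funext p
      by_cases hp : p ∈ R
      · obtain ⟨⟨i, j⟩, _, rfl⟩ := Finset.mem_image.1 hp
        exact congrFun (congrFun (congrArg Prod.fst h) i) j
      · exact congrFun (congrArg Prod.snd h) ⟨p, hp⟩
  rw [Finset.card_product, hA, hB] at hle
  calc _ ≤ ((Fintype.card V ^ Fintype.card J - 1) ^ m *
        Fintype.card V ^ (Fintype.card P - m * Fintype.card J)) *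
        (Fintype.card V ^ Fintype.card J) ^ m := Nat.mul_le_mul_right _ hle
    _ = (Fintype.card V ^ (Fintype.card P - m * Fintype.card J) *
        (Fintype.card V ^ Fintype.card J) ^ m) * (Fintype.card V ^ Fintype.card J - 1) ^ m := by
        ring
    _ = Fintype.card V ^ Fintype.card P * (Fintype.card V ^ Fintype.card J - 1) ^ m := by
        congr 1
        rw [← pow_mul, ← pow_add]
        congr 1
        rw [Nat.mul_comm (Fintype.card J) m]
        omega

open Polynomial in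
lemma exists_generic (K m P : ℕ) [hP : Fact P.Prime] (τ : (ZMod P)ˣ)
    (h1 : ∀ δ : ℕ, 0 < δ → δ < m → (τ ^ δ : (ZMod P)ˣ) ≠ 1)
    (h2 : ∀ δ : ℕ, 0 < δ → δ < m → (τ ^ δ : (ZMod P)ˣ) ≠ -1) (hP2 : P ≠ 2)
    (hPm : m * K ^ 4 * K < P) :
    ∃ e : Fin K → ZMod P, ∀ δ : ℕ, δ < m → ∀ a b c d : Fin K, a ≠ b → c ≠ d →
      ((τ : ZMod P) ^ δ) * (e b - e a) = e d - e c → δ = 0 ∧ a = c ∧ b = d := by
  classical
  let I := (Fin m) × (Fin K × Fin K × Fin K × Fin K)
  let good : I → Prop := fun t => t.2.1 ≠ t.2.2.1 ∧ t.2.2.2.1 ≠ t.2.2.2.2 ∧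
    ¬ ((t.1 : ℕ) = 0 ∧ t.2.1 = t.2.2.2.1 ∧ t.2.2.1 = t.2.2.2.2)
  let L : I → (ZMod P)[X] := fun t =>
    C ((τ : ZMod P) ^ (t.1 : ℕ)) * (X ^ (t.2.2.1 : ℕ) - X ^ (t.2.1 : ℕ)) -
      (X ^ (t.2.2.2.2 : ℕ) - X ^ (t.2.2.2.1 : ℕ))
  have hL : ∀ t, good t → L t ≠ 0 := by
    rintro ⟨δ, a, b, c, d⟩ ⟨hab, hcd, hne⟩ h0
    simp only at hab hcd hne
    have hab' : (a : ℕ) ≠ b := fun h => hab (Fin.ext h)
    have hcd' : (c : ℕ) ≠ d := fun h => hcd (Fin.ext h)
    have hb := congrArg (fun p => coeff p (b : ℕ)) h0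
    have ha := congrArg (fun p => coeff p (a : ℕ)) h0
    simp only [L, coeff_sub, coeff_C_mul, coeff_X_pow, coeff_zero] at hb ha
    rw [if_pos trivial, if_neg hab'.symm] at hb
    rw [if_pos trivial, if_neg hab'] at ha
    have hu : ((τ : ZMod P) ^ (δ : ℕ)) ≠ 0 := by
      rw [← Units.val_pow_eq_pow_val]; exact Units.ne_zero _
    by_cases hbd : (b : ℕ) = d
    · have hbc : (b : ℕ) ≠ c := fun h => hcd' (h.symm.trans hbd)
      rw [if_pos hbd, if_neg hbc] at hb
      have e1 : ((τ : ZMod P) ^ (δ : ℕ)) = 1 := by linear_combination hb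
      have hδ : (δ : ℕ) = 0 := by
        by_contra hδ
        apply h1 δ (Nat.pos_of_ne_zero hδ) δ.2
        apply Units.ext
        rw [Units.val_pow_eq_pow_val, Units.val_one]; exact e1
      have had : (a : ℕ) ≠ d := fun h => hab' (h.trans hbd.symm)
      rw [if_neg had, e1] at ha
      by_cases hac : (a : ℕ) = c
      · exact hne ⟨hδ, Fin.ext hac, Fin.ext hbd⟩
      · rw [if_neg hac] at ha
        have : (1 : ZMod P) = 0 := by linear_combination -ha
        exact one_ne_zero this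
    · rw [if_neg hbd] at hb
      by_cases hbc : (b : ℕ) = c
      · rw [if_pos hbc] at hb
        have e1 : ((τ : ZMod P) ^ (δ : ℕ)) = -1 := by linear_combination hb
        by_cases hδ : (δ : ℕ) = 0
        · rw [hδ, pow_zero] at e1
          haveI : Fact (2 < P) := ⟨lt_of_le_of_ne hP.out.two_le (Ne.symm hP2)⟩
          exact ZMod.neg_one_ne_one e1.symm
        · apply h2 δ (Nat.pos_of_ne_zero hδ) δ.2
          apply Units.ext
          rw [Units.val_pow_eq_pow_val, Units.val_neg, Units.val_one]; exact e1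
      · rw [if_neg hbc] at hb
        exact hu (by linear_combination hb)
  let Q : (ZMod P)[X] := ∏ t ∈ Finset.univ.filter good, L t
  have hQ : Q ≠ 0 := by
    rw [Finset.prod_ne_zero_iff]
    intro t ht
    exact hL t (Finset.mem_filter.1 ht).2
  have hdeg : Q.natDegree < Cardinal.mk (ZMod P) := by
    have h3 : Q.natDegree < P := by
      refine lt_of_le_of_lt (natDegree_prod_le _ _) ?_
      refine lt_of_le_of_lt (Finset.sum_le_card_nsmul _ _ K ?_) ?_
      · rintro ⟨δ, a, b, c, d⟩ _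
        simp only [L]
        refine (natDegree_sub_le _ _).trans (max_le ?_ ?_)
        · refine (natDegree_C_mul_le _ _).trans ((natDegree_sub_le _ _).trans (max_le ?_ ?_))
          · rw [natDegree_X_pow]; exact b.2.le
          · rw [natDegree_X_pow]; exact a.2.le
        · refine (natDegree_sub_le _ _).trans (max_le ?_ ?_)
          · rw [natDegree_X_pow]; exact d.2.le
          · rw [natDegree_X_pow]; exact c.2.le
      · rw [smul_eq_mul]
        refine lt_of_le_of_lt (Nat.mul_le_mul_right K ?_) hPm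
        refine (Finset.card_le_univ _).trans ?_
        simp only [I, Fintype.card_prod, Fintype.card_fin]
        apply le_of_eq; ring
    have h4 : Cardinal.mk (ZMod P) = (P : Cardinal) := by
      rw [Cardinal.mk_fintype, ZMod.card]
    rw [h4]; exact_mod_cast h3
  obtain ⟨x, hx⟩ := exists_eval_ne_zero_of_natDegree_lt_card Q hQ hdeg
  refine ⟨fun k => x ^ (k : ℕ), ?_⟩
  intro δ hδ a b c d hab hcd heq
  by_contra hne
  apply hx
  have hmem : ((⟨δ, hδ⟩, a, b, c, d) : I) ∈ Finset.univ.filter good :=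
    Finset.mem_filter.2 ⟨Finset.mem_univ _, hab, hcd, hne⟩
  rw [eval_prod]
  apply Finset.prod_eq_zero hmem
  simp only [L, eval_sub, eval_mul, eval_C, eval_pow, eval_X]
  rw [heq, sub_self]

lemma exists_tau (P m : ℕ) [hP : Fact P.Prime] (hm : 2 * m + 1 ≤ P) :
    ∃ τ : (ZMod P)ˣ, (∀ δ : ℕ, 0 < δ → δ < m → (τ ^ δ : (ZMod P)ˣ) ≠ 1) ∧
      (∀ δ : ℕ, 0 < δ → δ < m → (τ ^ δ : (ZMod P)ˣ) ≠ -1) := by
  classical
  obtain ⟨g, hg⟩ := IsCyclic.exists_generator (α := (ZMod P)ˣ)
  have ho : orderOf g = P - 1 := by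
    rw [orderOf_eq_card_of_forall_mem_zpowers hg, Nat.card_eq_fintype_card,
      ZMod.card_units_eq_totient, Nat.totient_prime hP.out]
  refine ⟨g, ?_, ?_⟩
  · intro δ h0 hδ h
    have := Nat.le_of_dvd h0 (orderOf_dvd_of_pow_eq_one h)
    omega
  · intro δ h0 hδ h
    have h2 : g ^ (2 * δ) = 1 := by
      rw [mul_comm, pow_mul, h]; simp
    have := Nat.le_of_dvd (by omega) (orderOf_dvd_of_pow_eq_one h2)
    omega

lemma exists_m (c al be q : ℕ) (hq : 0 < q) :
    ∃ m : ℕ, c * (m * al + be) ^ 2 * (q - 1) ^ m < q ^ m := by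
  have hr : |(((q - 1 : ℕ) : ℝ) / (q : ℝ))| < 1 := by
    have hq' : (0 : ℝ) < q := by exact_mod_cast hq
    rw [abs_of_nonneg (by positivity), div_lt_one hq']
    exact_mod_cast Nat.sub_lt hq one_pos
  have ht := tendsto_pow_const_mul_const_pow_of_abs_lt_one 2 hr
  have ht2 := ht.const_mul ((c : ℝ) * ((al : ℝ) + be) ^ 2)
  rw [mul_zero] at ht2
  have hev := ht2.eventually (gt_mem_nhds (show (0 : ℝ) < 1 by norm_num))
  obtain ⟨m, hm1, hm⟩ := (hev.and (Filter.eventually_ge_atTop 1)).exists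
  refine ⟨m, ?_⟩
  have hq' : (0 : ℝ) < (q : ℝ) ^ m := by positivity
  have hm' : (1 : ℝ) ≤ m := by exact_mod_cast hm
  have key : (c : ℝ) * ((m : ℝ) * al + be) ^ 2 * ((q - 1 : ℕ) : ℝ) ^ m < (q : ℝ) ^ m := by
    have h1 : (c : ℝ) * ((m : ℝ) * al + be) ^ 2 * ((q - 1 : ℕ) : ℝ) ^ m ≤
        (c : ℝ) * ((al : ℝ) + be) ^ 2 * (m : ℝ) ^ 2 * ((q - 1 : ℕ) : ℝ) ^ m := by
      have h2 : ((m : ℝ) * al + be) ^ 2 ≤ ((al : ℝ) + be) ^ 2 * (m : ℝ) ^ 2 := by
        rw [← mul_pow]
        apply pow_le_pow_left₀ (by positivity)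
        have : (be : ℝ) ≤ be * m := by
          have h0 : (0 : ℝ) ≤ be := by positivity
          nlinarith
        nlinarith
      have h3 : (0 : ℝ) ≤ ((q - 1 : ℕ) : ℝ) ^ m := by positivity
      have h4 : (0 : ℝ) ≤ c := by positivity
      calc (c : ℝ) * ((m : ℝ) * al + be) ^ 2 * ((q - 1 : ℕ) : ℝ) ^ m
          ≤ (c : ℝ) * (((al : ℝ) + be) ^ 2 * (m : ℝ) ^ 2) * ((q - 1 : ℕ) : ℝ) ^ m :=
            mul_le_mul_of_nonneg_right (mul_le_mul_of_nonneg_left h2 h4) h3
        _ = _ := by ring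
    refine lt_of_le_of_lt h1 ?_
    have h5 : (c : ℝ) * ((al : ℝ) + be) ^ 2 * ((m : ℝ) ^ 2 *
        (((q - 1 : ℕ) : ℝ) / (q : ℝ)) ^ m) < 1 := hm1
    rw [div_pow, mul_div_assoc', mul_div_assoc', div_lt_one hq'] at h5
    calc _ = (c : ℝ) * ((al : ℝ) + be) ^ 2 * ((m : ℝ) ^ 2 * ((q - 1 : ℕ) : ℝ) ^ m) := by ring
      _ < _ := h5
  exact_mod_cast key

/-- index set of the demands -/
abbrev J (S Z : Type) : Type := S × {p : Z × Z // p.1 ≠ p.2}

/-- the random function: for every target `T` there are `m`, a prime `P`, weights `e`, a unit `τ`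
and a function `F` such that every starting unit `a` has a phase `δ < m` where all demands hold. -/
theorem core (S V Z : Type) [Fintype S] [DecidableEq S] [Fintype V] [DecidableEq V] [Nonempty V]
    [Fintype Z] [DecidableEq Z] (B : ℕ) (T : S → V → V → S → Z → Z → V) :
    ∃ (m P : ℕ) (_ : Fact P.Prime) (τ : (ZMod P)ˣ) (e : Z → ZMod P) (F : S → ZMod P → V),
      B < P ∧ ∀ (s : S) (w : ZMod P) (v : V) (a : (ZMod P)ˣ), ∃ δ : ℕ, δ < m ∧
        ∀ (s1 : S) (ζ ζ1 : Z), ζ ≠ ζ1 →
          F s1 (w + (a : ZMod P) * (τ : ZMod P) ^ δ * (e ζ1 - e ζ)) = T s v (F s w) s1 ζ ζ1 := by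
  classical
  set K := Fintype.card Z with hK
  set q := Fintype.card V ^ Fintype.card (J S Z) with hqdef
  have hq : 0 < q := by rw [hqdef]; positivity
  set c := Fintype.card S * Fintype.card V * Fintype.card V with hc
  obtain ⟨m, hm⟩ := exists_m c (2 * (K ^ 4 * K + 2)) (2 * (B + 3)) q hq
  set N := m * (K ^ 4 * K + 2) + (B + 3) with hN
  obtain ⟨P, hPp, hNP, hP2N⟩ := Nat.exists_prime_lt_and_le_two_mul N (by omega)
  haveI : Fact P.Prime := ⟨hPp⟩
  have hmN : m * (K ^ 4 * K + 2) = m * K ^ 4 * K + 2 * m := by ring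
  obtain ⟨τ, hτ1, hτ2⟩ := exists_tau P m (by
    have : 0 ≤ m * K ^ 4 * K := Nat.zero_le _
    omega)
  obtain ⟨e0, he0⟩ := exists_generic K m P τ hτ1 hτ2 (by omega) (by omega)
  let en : Z ≃ Fin K := Fintype.equivFin Z
  let e : Z → ZMod P := fun ζ => e0 (en ζ)
  have he : ∀ δ : ℕ, δ < m → ∀ a b c d : Z, a ≠ b → c ≠ d →
      ((τ : ZMod P) ^ δ) * (e b - e a) = e d - e c → δ = 0 ∧ a = c ∧ b = d := by
    intro δ hδ a b c d hab hcd h
    obtain ⟨h1, h2, h3⟩ := he0 δ hδ (en a) (en b) (en c) (en d)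
      (fun h => hab (en.injective h)) (fun h => hcd (en.injective h)) h
    exact ⟨h1, en.injective h2, en.injective h3⟩
  -- the points
  let pt : (ZMod P) → (ZMod P)ˣ → Fin m × J S Z → S × ZMod P := fun w a x =>
    (x.2.1, w + (a : ZMod P) * (τ : ZMod P) ^ (x.1 : ℕ) * (e x.2.2.1.2 - e x.2.2.1.1))
  have hpt : ∀ w a, Function.Injective (pt w a) := by
    intro w a
    -- the key step for `i ≤ i'`
    have key : ∀ (i i' : Fin m) (j j' : J S Z), (i : ℕ) ≤ i' →
        pt w a (i, j) = pt w a (i', j') → (i, j) = (i', j') := by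
      rintro ⟨i, hi⟩ ⟨i', hi'⟩ ⟨s, ⟨⟨ζ, ζ1⟩, hζ⟩⟩ ⟨s', ⟨⟨ζ', ζ1'⟩, hζ'⟩⟩ hle h
      simp only [pt, Prod.mk.injEq, add_right_inj] at h hle
      obtain ⟨hs, h⟩ := h
      obtain ⟨d, rfl⟩ := Nat.exists_eq_add_of_le hle
      have ha : (a : ZMod P) ≠ 0 := Units.ne_zero a
      have ht : ((τ : ZMod P) ^ i) ≠ 0 := pow_ne_zero _ (Units.ne_zero τ)
      have h2 : (τ : ZMod P) ^ d * (e ζ1' - e ζ') = e ζ1 - e ζ := by
        have h3 : ((a : ZMod P) * (τ : ZMod P) ^ i) * ((τ : ZMod P) ^ d * (e ζ1' - e ζ')) =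
            ((a : ZMod P) * (τ : ZMod P) ^ i) * (e ζ1 - e ζ) := by
          rw [h, pow_add]; ring
        exact mul_left_cancel₀ (mul_ne_zero ha ht) h3
      obtain ⟨h4, h5, h6⟩ := he d (by omega) ζ' ζ1' ζ ζ1 hζ' hζ h2
      subst h4 h5 h6 hs
      simp
    rintro ⟨i, j⟩ ⟨i', j'⟩ h
    rcases le_total (i : ℕ) i' with hl | hl
    · exact key i i' j j' hl h
    · exact (key i' i j' j hl h.symm).symm
  -- bad sets
  let Idx := S × ZMod P × V × (ZMod P)ˣ × V
  let tgt : Idx → Fin m → J S Z → V := fun t _ j =>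
    T t.1 t.2.2.1 t.2.2.2.2 j.1 j.2.1.1 j.2.1.2
  let bad : Idx → Finset (S × ZMod P → V) := fun t =>
    Finset.univ.filter (fun F => ∀ i, (fun j => F (pt t.2.1 t.2.2.2.1 (i, j))) ≠ tgt t i)
  have hbad : ∀ t, (bad t).card * q ^ m ≤
      Fintype.card V ^ Fintype.card (S × ZMod P) * (q - 1) ^ m := by
    intro t
    exact card_bad m (pt t.2.1 t.2.2.2.1) (hpt _ _) (tgt t)
  have hIdx : Fintype.card Idx ≤ c * (2 * N) ^ 2 := by
    have hu : Fintype.card (ZMod P)ˣ ≤ P := by
      rw [ZMod.card_units_eq_totient]; exact Nat.totient_le P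
    have hz : Fintype.card (ZMod P) = P := ZMod.card P
    simp only [Idx, Fintype.card_prod, hz]
    calc Fintype.card S * (P * (Fintype.card V * (Fintype.card (ZMod P)ˣ * Fintype.card V)))
        = c * (P * Fintype.card (ZMod P)ˣ) := by rw [hc]; ring
      _ ≤ c * ((2 * N) * (2 * N)) :=
        Nat.mul_le_mul_left _ (Nat.mul_le_mul hP2N (hu.trans hP2N))
      _ = c * (2 * N) ^ 2 := by ring
  have hex : ∃ F : S × ZMod P → V, ∀ t, F ∉ bad t := by
    by_contra hcon
    push Not at hcon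
    have h1 : (Finset.univ : Finset (S × ZMod P → V)) ⊆ Finset.univ.biUnion bad := by
      intro F _
      obtain ⟨t, ht⟩ := hcon F
      exact Finset.mem_biUnion.2 ⟨t, Finset.mem_univ _, ht⟩
    have h2 := (Finset.card_le_card h1).trans Finset.card_biUnion_le
    rw [Finset.card_univ, Fintype.card_fun] at h2
    have h3 : Fintype.card V ^ Fintype.card (S × ZMod P) * q ^ m ≤
        Fintype.card V ^ Fintype.card (S × ZMod P) * (c * (2 * N) ^ 2 * (q - 1) ^ m) := by
      calc _ ≤ (∑ t, (bad t).card) * q ^ m := Nat.mul_le_mul_right _ h2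
        _ = ∑ t, (bad t).card * q ^ m := Finset.sum_mul _ _ _
        _ ≤ ∑ _t : Idx, Fintype.card V ^ Fintype.card (S × ZMod P) * (q - 1) ^ m :=
          Finset.sum_le_sum fun t _ => hbad t
        _ = Fintype.card Idx * (Fintype.card V ^ Fintype.card (S × ZMod P) * (q - 1) ^ m) := by
          simp
        _ ≤ (c * (2 * N) ^ 2) * (Fintype.card V ^ Fintype.card (S × ZMod P) * (q - 1) ^ m) :=
          Nat.mul_le_mul_right _ hIdx
        _ = _ := by ring
    have h4 : q ^ m ≤ c * (2 * N) ^ 2 * (q - 1) ^ m :=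
      Nat.le_of_mul_le_mul_left h3 (by positivity)
    have h5 : 2 * N = m * (2 * (K ^ 4 * K + 2)) + 2 * (B + 3) := by rw [hN]; ring
    rw [h5] at h4
    omega
  obtain ⟨F, hF⟩ := hex
  refine ⟨m, P, inferInstance, τ, e, fun s w => F (s, w), by omega, ?_⟩
  intro s w v a
  have h1 := hF (s, w, v, a, F (s, w))
  simp only [bad, Finset.mem_filter, Finset.mem_univ, true_and, not_forall, not_not] at h1
  obtain ⟨i, hi⟩ := h1
  refine ⟨i, i.2, ?_⟩
  intro s1 ζ ζ1 hζ
  exact congrFun hi (s1, ⟨(ζ, ζ1), hζ⟩)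

end Crest.Agent.R320.Mask836
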