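import Mathlib
import Crest.Agent.R320.Mask_836

set_option autoImplicit false

/-!
Row 320: the mask + right-frame gadget (helper823 #12619 with 771's clean-block counting), on lists
of blocks.

A unit is a list of items `(product, long clock class fW, short clock class f0, clean?)`.
Only clean blocks carry weight. At a junction inside a clean block `x` with `p` the items before and
`q` the items after, the left word knows `p` and `(alW, al0)`, the right word knows `q` and
`(beW, be0)`, where `alW + beW = x.fW`, `al0 + be0 = x.f0`.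
-/

namespace Crest.Agent.R320.Mask836

/-- a block of a unit -/
structure Item (S X : Type) (P : ℕ) where
  pr : S
  fW : ZMod P
  f0 : X
  clean : Bool

variable {S V X : Type} {P : ℕ}

/-- number of clean blocks -/
def cl : List (Item S X P) → ℕ
  | [] => 0
  | x :: u => (if x.clean then 1 else 0) + cl u

/-- product of the blocks -/
def prod [Monoid S] : List (Item S X P) → S
  | [] => 1
  | x :: u => x.pr * prod u

/-- weight, counted from the right end -/
def wt (τ : (ZMod P)ˣ) (e : S × X → ZMod P) : List (Item S X P) → ZMod P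
  | [] => 0
  | x :: u => (if x.clean then (τ : ZMod P) ^ cl u * (e (x.pr, x.f0) - x.fW) else 0) + wt τ e u

lemma cl_append (p q : List (Item S X P)) : cl (p ++ q) = cl p + cl q := by
  induction p with
  | nil => simp [cl]
  | cons x p ih => simp only [List.cons_append, cl, ih]; ring

lemma prod_append [Monoid S] (p q : List (Item S X P)) : prod (p ++ q) = prod p * prod q := by
  induction p with
  | nil => simp [prod]
  | cons x p ih => simp only [List.cons_append, prod, ih, mul_assoc]

lemma wt_append (τ : (ZMod P)ˣ) (e : S × X → ZMod P) (p q : List (Item S X P)) :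
    wt τ e (p ++ q) = (τ : ZMod P) ^ cl q * wt τ e p + wt τ e q := by
  induction p with
  | nil => simp [wt]
  | cons x p ih =>
    simp only [List.cons_append, wt, ih, cl_append]
    by_cases hx : x.clean
    · simp only [hx, if_true, pow_add]; ring
    · simp [hx]

/-- left legality of a junction: the long clock shows the left weight, the short clock the code -/
def LeftLegal [Monoid S] (τ : (ZMod P)ˣ) (e : S × X → ZMod P) (code : S → V → X)
    (p : List (Item S X P)) (alW : ZMod P) (al0 : X) (v : V) : Prop :=
  alW = (τ : ZMod P) * wt τ e p ∧ al0 = code (prod p) v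

/-- right legality of a junction with label `R` -/
def RightLegal [Monoid S] [Add V] [Add X] (τ : (ZMod P)ˣ) (e : S × X → ZMod P)
    (F : S → ZMod P → V) (act : V → S → V) (code : S → V → X)
    (q : List (Item S X P)) (beW : ZMod P) (be0 : X) (R : V) : Prop :=
  ∀ (g : S) (v : V) (z : S),
    F (g * z * prod q) (wt τ e q - (τ : ZMod P) ^ cl q * beW +
      (τ : ZMod P) ^ cl q * e (z, code g v + be0)) + act v (g * z * prod q) = R

/-- noise of a unit -/
def noise [Monoid S] (τ : (ZMod P)ˣ) (e : S × X → ZMod P) (F : S → ZMod P → V)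
    (u : List (Item S X P)) : V :=
  F (prod u) (wt τ e u)

/-- SOUND: every legal junction of every unit is exact. -/
theorem sound [Monoid S] [Add V] [Add X] (τ : (ZMod P)ˣ) (e : S × X → ZMod P)
    (F : S → ZMod P → V) (act : V → S → V) (code : S → V → X)
    (p q : List (Item S X P)) (x : Item S X P) (hx : x.clean = true)
    (alW beW : ZMod P) (al0 be0 : X) (hW : alW + beW = x.fW) (h0 : al0 + be0 = x.f0)
    (v R : V) (hl : LeftLegal τ e code p alW al0 v)
    (hr : RightLegal τ e F act code q beW be0 R) :
    noise τ e F (p ++ x :: q) + act v (prod (p ++ x :: q)) = R := by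
  obtain ⟨h1, h2⟩ := hl
  have h3 := hr (prod p) v x.pr
  rw [← h2, h0] at h3
  have hp : prod (p ++ x :: q) = prod p * x.pr * prod q := by
    rw [prod_append, prod, mul_assoc]
  have hw : wt τ e (p ++ x :: q) = wt τ e q - (τ : ZMod P) ^ cl q * beW +
      (τ : ZMod P) ^ cl q * e (x.pr, x.f0) := by
    rw [wt_append]
    simp only [wt, cl, hx, if_true, pow_add, pow_one]
    rw [← hW, h1]; ring
  rw [noise, hw, hp]
  exact h3

/-- the block with a given number of clean blocks behind it -/
lemma exists_split (u : List (Item S X P)) (n : ℕ) (h : n < cl u) :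
    ∃ (p : List (Item S X P)) (x : Item S X P) (q : List (Item S X P)),
      u = p ++ x :: q ∧ x.clean = true ∧ cl q = n := by
  induction u with
  | nil => simp [cl] at h
  | cons y u ih =>
    by_cases h1 : n < cl u
    · obtain ⟨p, x, q, h2, h3, h4⟩ := ih h1
      exact ⟨y :: p, x, q, by rw [h2]; rfl, h3, h4⟩
    · by_cases hy : y.clean = true
      · refine ⟨[], y, u, rfl, hy, ?_⟩
        simp only [cl, hy, if_true] at h
        omega
      · simp only [cl, hy] at h
        simp at h
        omega

/-- **The gadget.** For every finite monoid `S`, finite token group `V` with any action map, finite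
clock group `X` and code: there are `m`, a prime `P > B`, `τ`, `e`, `F` such that (with `sound`) in
every unit, for every token `v` and every interval `[i0, i0 + m)` of numbers of clean blocks behind,
there is a clean block `x` where `v` is cut, when the clocks are the ones prescribed by the left
legality. -/
theorem complete (S V X : Type) [Fintype S] [Fintype V] [Fintype X] [Monoid S]
    [AddCommGroup V] [AddCommGroup X] (act : V → S → V) (code : S → V → X)
    (hinj : ∀ g v g' v', code g v = code g' v' → g = g' ∧ v = v')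
    (hdec : ∀ g g1 g' g1' v v1 v1', code g1 v1 - code g v = code g1' v1' - code g' v → v1 = v1')
    (B : ℕ) :
    ∃ (m P : ℕ) (_ : Fact P.Prime) (τ : (ZMod P)ˣ) (e : S × X → ZMod P)
      (F : S → ZMod P → V), B < P ∧
      ∀ (u : List (Item S X P)) (v : V) (i0 : ℕ), i0 + m ≤ cl u →
        ∃ (p : List (Item S X P)) (x : Item S X P) (q : List (Item S X P)) (R : V),
          u = p ++ x :: q ∧ x.clean = true ∧ i0 ≤ cl q ∧ cl q < i0 + m ∧
          LeftLegal τ e code p ((τ : ZMod P) * wt τ e p) (code (prod p) v) v ∧
          RightLegal τ e F act code q (x.fW - (τ : ZMod P) * wt τ e p)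
            (x.f0 - code (prod p) v) R ∧
          noise τ e F u + act v (prod u) = R := by
  classical
  -- decoding of the second token
  let dec : V → X → V := fun v d =>
    if h : ∃ v1 : V, ∃ g g1 : S, code g1 v1 - code g v = d then h.choose else v
  have hdec' : ∀ g g1 v v1, dec v (code g1 v1 - code g v) = v1 := by
    intro g g1 v v1
    have hex : ∃ v1' : V, ∃ g' g1' : S, code g1' v1' - code g' v = code g1 v1 - code g v :=
      ⟨v1, g, g1, rfl⟩
    simp only [dec]
    rw [dif_pos hex]
    obtain ⟨g', g1', h⟩ := hex.choose_spec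
    exact hdec g' g1' g g1 v _ v1 h
  obtain ⟨m, P, hP, τ, e, F, hB, hF⟩ := core S V (S × X) B
    (fun s v x s1 ζ ζ1 => x + act v s - act (dec v (ζ1.2 - ζ.2)) s1)
  refine ⟨m, P, hP, τ, e, F, hB, ?_⟩
  intro u v i0 hi0
  obtain ⟨δ, hδ, hF⟩ := hF (prod u) (wt τ e u) v (τ ^ i0)
  obtain ⟨p, x, q, hu, hx, hq⟩ := exists_split u (i0 + δ) (by omega)
  refine ⟨p, x, q, noise τ e F u + act v (prod u), hu, hx, by omega, by omega, ⟨rfl, rfl⟩, ?_,
    rfl⟩
  have hp : prod u = prod p * x.pr * prod q := by
    rw [hu, prod_append, prod, mul_assoc]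
  have hw : wt τ e u = wt τ e q - (τ : ZMod P) ^ cl q * (x.fW - (τ : ZMod P) * wt τ e p) +
      (τ : ZMod P) ^ cl q * e (x.pr, x.f0) := by
    rw [hu, wt_append]
    simp only [wt, cl, hx, if_true, pow_add, pow_one]
    ring
  intro g1 v1 z1
  by_cases hz : ((x.pr, x.f0) : S × X) = (z1, code g1 v1 + (x.f0 - code (prod p) v))
  · -- the trivial demand
    have h1 : x.pr = z1 := congrArg Prod.fst hz
    have h2 : x.f0 = code g1 v1 + (x.f0 - code (prod p) v) := congrArg Prod.snd hz
    have h3 : code g1 v1 = code (prod p) v := by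
      have h4 : code g1 v1 - code (prod p) v = 0 := by
        have h5 : x.f0 + (code g1 v1 - code (prod p) v) = x.f0 := by
          rw [show x.f0 + (code g1 v1 - code (prod p) v) =
            code g1 v1 + (x.f0 - code (prod p) v) by abel]
          exact h2.symm
        simpa using h5
      exact sub_eq_zero.1 h4
    obtain ⟨h6, h7⟩ := hinj _ _ _ _ h3
    subst h6 h7 h1
    rw [noise, ← hp, show code (prod p) v1 + (x.f0 - code (prod p) v1) = x.f0 by abel, ← hw]
  · have h1 := hF (g1 * z1 * prod q) (x.pr, x.f0)
      (z1, code g1 v1 + (x.f0 - code (prod p) v)) hz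
    have h2 : ((z1, code g1 v1 + (x.f0 - code (prod p) v)) : S × X).2 -
        ((x.pr, x.f0) : S × X).2 = code g1 v1 - code (prod p) v := by
      show code g1 v1 + (x.f0 - code (prod p) v) - x.f0 = _
      abel
    simp only [] at h1
    rw [h2] at h1
    rw [hdec'] at h1
    have h3 : wt τ e u + ((τ ^ i0 : (ZMod P)ˣ) : ZMod P) * (τ : ZMod P) ^ δ *
        (e (z1, code g1 v1 + (x.f0 - code (prod p) v)) - e (x.pr, x.f0)) =
        wt τ e q - (τ : ZMod P) ^ cl q * (x.fW - (τ : ZMod P) * wt τ e p) +
        (τ : ZMod P) ^ cl q * e (z1, code g1 v1 + (x.f0 - code (prod p) v)) := by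
      rw [hw, hq, Units.val_pow_eq_pow_val, ← pow_add]
      ring
    rw [h3] at h1
    rw [h1, noise]
    abel

/-- a code as needed in `complete`: two cyclic groups -/
theorem exists_code (S V : Type) [Fintype S] [Fintype V] (n1 n2 : ℕ)
    (h1 : Fintype.card S ≤ n1) (h2 : Fintype.card V ≤ n2) (h1' : 0 < n1) (h2' : 0 < n2) :
    ∃ code : S → V → ZMod n1 × ZMod n2,
      (∀ g v g' v', code g v = code g' v' → g = g' ∧ v = v') ∧
      (∀ g g1 g' g1' v v1 v1',
        code g1 v1 - code g v = code g1' v1' - code g' v → v1 = v1') := by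
  classical
  have : NeZero n1 := ⟨h1'.ne'⟩
  have : NeZero n2 := ⟨h2'.ne'⟩
  obtain ⟨c1⟩ : Nonempty (S ↪ ZMod n1) := Function.Embedding.nonempty_of_card_le (by
    rw [ZMod.card]; exact h1)
  obtain ⟨c2⟩ : Nonempty (V ↪ ZMod n2) := Function.Embedding.nonempty_of_card_le (by
    rw [ZMod.card]; exact h2)
  refine ⟨fun g v => (c1 g, c2 v), ?_, ?_⟩
  · intro g v g' v' h
    exact ⟨c1.injective (congrArg Prod.fst h), c2.injective (congrArg Prod.snd h)⟩
  · intro g g1 g' g1' v v1 v1' h
    have h3 : c2 v1 - c2 v = c2 v1' - c2 v := congrArg Prod.snd h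
    exact c2.injective (sub_left_injective h3)

end Crest.Agent.R320.Mask836
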