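import Crest.Agent.R320.Top5_467

/-!
# Row 320: the middle part (helper73)

From walls on all words (left-looking, natural chain rule "first wall `≥ z`"), one gadget for
unknown lengths (693 / 638 / 618), the exact gadget in ruler form (808 / 237 / 412), a thin ruler and
height one of the block fibres: height three of all fibres.  All right labels are semantic
(max-legal), the set `Bad` is semantic too.
-/

set_option autoImplicit false

namespace Crest.Agent.R320.Mid_73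

open Crest.RegLang Crest.Agent.R320.Hk_851 Crest.Agent.R320.Blk467 Crest.Agent.R320.Top5_467

universe u

/-- the data -/
structure Dat (α S V : Type u) where
  φ : α → S
  act : V → S → V
  Wo : List α → Prop
  n : ℕ
  z : ℕ
  p0 : ℕ
  N1 : ℕ
  N : ℕ
  BadT : ℕ → Prop
  A1 : V → List α → Prop
  nu1 : List α → V
  K : ℕ
  c : ℕ → ℕ
  C1 : ℕ
  A2 : V → List α → Prop
  nu2 : List α → V

variable {α S V : Type u} [Monoid S] [AddCommGroup V]

/-- product of a word -/
def Dat.fm (D : Dat α S V) (w : List α) : S := (w.map D.φ).prod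

theorem Dat.fm_append (D : Dat α S V) (u v : List α) : D.fm (u ++ v) = D.fm u * D.fm v := by
  simp [Dat.fm]

/-- blocks: end at the first wall at distance `≥ z` -/
def Dat.ZZ (D : Dat α S V) : Set (List α) :=
  {X | D.Wo X ∧ D.z ≤ X.length ∧ ∀ t, D.z ≤ t → t < X.length → ¬ D.Wo (X.take t)}

/-- noise of both schemes -/
def Dat.nu (D : Dat α S V) (X : List α) : V :=
  D.act (D.nu2 (X.take D.p0)) (D.fm (X.drop D.p0)) + D.nu1 (X.drop D.p0)

/-- zone map -/
def Dat.T (D : Dat α S V) (v : V) (X : List α) : V := D.act v ((X.map D.φ).prod) + D.nu X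

/-- value at `p0` -/
def Dat.mid (D : Dat α S V) (v : V) (X : List α) : V :=
  D.act v (D.fm (X.take D.p0)) + D.nu2 (X.take D.p0)

def Dat.LP1 (D : Dat α S V) (v : V) : Language α :=
  {P | D.p0 ≤ P.length ∧ D.A1 (D.mid v P) (P.drop D.p0)}

def Dat.RQ1 (D : Dat α S V) (b : V) : Language α :=
  {Q | ∀ v, ∀ P ∈ {P | P ∈ D.LP1 v}, P ++ Q ∈ D.ZZ ∧ D.T v (P ++ Q) = b}

def Dat.Bad (D : Dat α S V) : Set (List α) :=
  {X | X ∈ D.ZZ ∧ ¬ ∀ v, ∃ P Q, P ++ Q = X ∧ P ∈ D.LP1 v ∧ Q ∈ D.RQ1 (D.T v X)}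

def Dat.EE (D : Dat α S V) (v b : V) : Language α :=
  {w | ∃ X ∈ D.Bad, ∃ X' ∈ D.Bad, w = X ++ X' ∧ D.T (D.T v X) X' = b}

def Dat.LP2 (D : Dat α S V) (v : V) : Language α := {P | D.A2 v P}

def Dat.RQ2 (D : Dat α S V) (b : V) : Language α :=
  {Q | ∀ v, ∀ P ∈ {P | D.A2 v P}, (∃ X ∈ D.ZZ, X <+: P ++ Q) ∧
    ((∃ X ∈ D.Bad, X <+: P ++ Q) → P ++ Q ∈ D.EE v b)}

/-- the hypotheses -/
structure Dat.Ok (D : Dat α S V) : Prop where
  hadd : ∀ a b s, D.act (a + b) s = D.act a s + D.act b s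
  hone : ∀ v, D.act v 1 = v
  hmul : ∀ v s t, D.act v (s * t) = D.act (D.act v s) t
  hfaith : ∀ s t, (∀ v, D.act v s = D.act v t) → s = t
  /-- walls are left-looking with window `n` -/
  loc : ∀ P Q, D.n ≤ Q.length → (D.Wo (P ++ Q) ↔ D.Wo Q)
  gap : ∀ P Q, D.Wo P → Q ≠ [] → Q.length ≤ 2 * (D.p0 + D.N1) → ¬ D.Wo (P ++ Q)
  hz : D.n + 4 * D.p0 + 2 * D.N1 + D.N + 1 ≤ D.z
  /-- gadget 1, unknown length -/
  hA1 : ∀ v P, D.A1 v P → P.length ≤ D.N1
  hc1 : ∀ Y : List α, D.N ≤ Y.length → ¬ D.BadT Y.length → ∀ v, ∃ P Q, P ++ Q = Y ∧ D.A1 v P ∧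
    ∀ v' P', D.A1 v' P' → D.act v' (D.fm (P' ++ Q)) + D.nu1 (P' ++ Q) =
      D.act v (D.fm Y) + D.nu1 Y
  /-- gadget 2, exact clocks, ruler form -/
  hc : ∀ k < D.K, D.c k ≤ D.p0
  hA2 : ∀ v P, D.A2 v P → ∃ k < D.K, P.length = D.c k
  hc2 : ∀ X : List α, X.length = D.p0 → ∀ v, ∀ Sp : Finset ℕ, Sp.card ≤ 1 + 2 * D.C1 →
    ∃ k < D.K, k ∉ Sp ∧ D.A2 v (X.take (D.c k)) ∧ ∀ v' P', P'.length = D.c k → D.A2 v' P' →
      D.act v' (D.fm (P' ++ X.drop (D.c k))) + D.nu2 (P' ++ X.drop (D.c k)) =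
        D.act v (D.fm X) + D.nu2 X
  /-- ruler -/
  hsp : ∀ a < D.K, ∀ b < D.K, ∀ a' < D.K, ∀ b' < D.K, b ≠ a → b' ≠ a' →
    |((D.c a : ℤ) - D.c b) - (D.c a' - D.c b')| ≤ 2 * D.N1 → a = a'
  hthin : ∀ T, D.p0 ≤ T → ({a | a < D.K ∧ ∃ b < D.K, b ≠ a ∧
    D.BadT (T + D.c b - D.c a)} : Set ℕ).ncard ≤ D.C1

variable {D : Dat α S V}

theorem Dat.Ok.T_eq (h : D.Ok) (v : V) (X : List α) :
    D.T v X = D.act (D.mid v X) (D.fm (X.drop D.p0)) + D.nu1 (X.drop D.p0) := by
  unfold Dat.T Dat.mid Dat.nu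
  have e : (X.map D.φ).prod = D.fm (X.take D.p0) * D.fm (X.drop D.p0) := by
    rw [← D.fm_append, List.take_append_drop]; rfl
  rw [e, h.hmul, h.hadd, add_assoc]

theorem Dat.Ok.pcode (h : D.Ok) : PCode D.ZZ := by
  refine ⟨fun h0 => ?_, fun X hX Y hY hXY => ?_⟩
  · have := h0.2.1
    have hz := h.hz
    simp at this
    omega
  · by_contra hne
    obtain ⟨r, rfl⟩ := hXY
    have hr : r ≠ [] := fun e => hne (by rw [e, List.append_nil])
    have hr' : 0 < r.length := List.length_pos_iff.2 hr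
    have := hY.2.2 X.length hX.2.1 (by rw [List.length_append]; omega)
    rw [List.take_left' rfl] at this
    exact this hX.1

theorem take_app (P Q : List α) (t : ℕ) (h : P.length ≤ t) :
    (P ++ Q).take t = P ++ Q.take (t - P.length) := by
  rw [List.take_append, List.take_of_length_le h]

/-- moving a wall -/
theorem Dat.Ok.shift (h : D.Ok) (P P' Q : List α) (s : ℕ) (hs : D.n ≤ s) (hs' : s ≤ Q.length) :
    D.Wo ((P ++ Q).take (P.length + s)) ↔ D.Wo ((P' ++ Q).take (P'.length + s)) := by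
  rw [take_app _ _ _ (by omega), take_app _ _ _ (by omega), Nat.add_sub_cancel_left,
    Nat.add_sub_cancel_left]
  have hl : D.n ≤ (Q.take s).length := by rw [List.length_take]; omega
  rw [h.loc P _ hl, h.loc P' _ hl]

theorem Dat.Ok.good (h : D.Ok) {X : List α} (hX : X ∈ D.ZZ)
    (hE : ∀ t, t ≤ X.length → D.z ≤ t + D.N1 → t ≤ D.z + D.N1 → ¬ D.Wo (X.take t))
    (hB : ¬ D.BadT (X.length - D.p0)) : X ∉ D.Bad := by
  rintro ⟨_, hbad⟩
  apply hbad
  intro v
  have hz := h.hz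
  have hlen : D.z + D.N1 < X.length := by
    by_contra hcon
    have := hE X.length le_rfl (by have := hX.2.1; omega) (by omega)
    rw [List.take_length] at this
    exact this hX.1
  obtain ⟨P, Q, hPQ, hA, hall⟩ := h.hc1 (X.drop D.p0) (by rw [List.length_drop]; omega)
    (by rw [List.length_drop]; exact hB) (D.mid v X)
  have hX1 : (X.take D.p0).length = D.p0 := by rw [List.length_take]; omega
  have hXe : (X.take D.p0 ++ P) ++ Q = X := by
    rw [List.append_assoc, hPQ, List.take_append_drop]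
  have hPl := h.hA1 _ _ hA
  have hQl : P.length + Q.length = X.length - D.p0 := by
    rw [← List.length_append, hPQ, List.length_drop]
  refine ⟨X.take D.p0 ++ P, Q, hXe, ⟨?_, ?_⟩, ?_⟩
  · rw [List.length_append]; omega
  · have e1 : (X.take D.p0 ++ P).drop D.p0 = P := List.drop_left' hX1
    have e2 : (X.take D.p0 ++ P).take D.p0 = X.take D.p0 := List.take_left' hX1
    have e3 : D.mid v (X.take D.p0 ++ P) = D.mid v X := by
      unfold Dat.mid; rw [e2]
    rw [e1, e3]; exact hA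
  · intro v'' P'' hP''
    obtain ⟨hP0, hPA⟩ := hP''
    have hl2 := h.hA1 _ _ hPA
    rw [List.length_drop] at hl2
    have hlX : (X.take D.p0 ++ P).length = D.p0 + P.length := by
      rw [List.length_append, hX1]
    refine ⟨⟨?_, ?_, ?_⟩, ?_⟩
    · rw [h.loc P'' Q (by omega), ← h.loc (X.take D.p0 ++ P) Q (by omega), hXe]
      exact hX.1
    · rw [List.length_append]; omega
    · intro t ht1 ht2 hW
      rw [List.length_append] at ht2
      obtain ⟨s, rfl⟩ := Nat.exists_eq_add_of_le (show P''.length ≤ t by omega)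
      have hW' := (h.shift P'' (X.take D.p0 ++ P) Q s (by omega) (by omega)).1 hW
      rw [hXe, hlX] at hW'
      by_cases hc : D.p0 + P.length + s ≤ D.z + D.N1
      · exact hE _ (by omega) (by omega) hc hW'
      · exact hX.2.2 _ (by omega) (by omega) hW'
    · rw [h.T_eq v'', h.T_eq v]
      have hX2 : (P''.take D.p0).length = D.p0 := by rw [List.length_take]; omega
      have e0 : P'' ++ Q = P''.take D.p0 ++ (P''.drop D.p0 ++ Q) := by
        rw [← List.append_assoc, List.take_append_drop]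
      have e1 : (P'' ++ Q).drop D.p0 = P''.drop D.p0 ++ Q := by
        rw [e0]; exact List.drop_left' hX2
      have e2 : (P'' ++ Q).take D.p0 = P''.take D.p0 := by
        rw [e0]; exact List.take_left' hX2
      have e3 : D.mid v'' (P'' ++ Q) = D.mid v'' P'' := by
        unfold Dat.mid; rw [e2]
      rw [e1, e3]
      exact hall _ _ hPA

/-- the first block of a word with a wall at distance `≥ z` -/
theorem Dat.Ok.first_block (u : List α) (hu : D.Wo u) (hl : D.z ≤ u.length) :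
    ∃ t, t ≤ u.length ∧ u.take t ∈ D.ZZ ∧ D.z ≤ t ∧ D.Wo (u.take t) ∧
      ∀ s, D.z ≤ s → s < t → ¬ D.Wo (u.take s) := by
  classical
  have hex : ∃ t, D.z ≤ t ∧ t ≤ u.length ∧ D.Wo (u.take t) :=
    ⟨u.length, hl, le_rfl, by rw [List.take_length]; exact hu⟩
  obtain ⟨h1, h2, h3⟩ := Nat.find_spec hex
  have h4 : ∀ s, D.z ≤ s → s < Nat.find hex → ¬ D.Wo (u.take s) := fun s hs hlt hW =>
    Nat.find_min hex hlt ⟨hs, by omega, hW⟩
  refine ⟨Nat.find hex, h2, ⟨h3, ?_, ?_⟩, h1, h3, h4⟩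
  · rw [List.length_take]; omega
  · intro t ht1 ht2
    rw [List.length_take] at ht2
    rw [List.take_take, min_eq_left (by omega)]
    exact h4 t ht1 (by omega)

/-- two walls are far apart -/
theorem Dat.Ok.far (h : D.Ok) {w : List α} {s s' : ℕ} (hs : s ≤ w.length) (hs' : s' ≤ w.length)
    (h1 : D.Wo (w.take s)) (h2 : D.Wo (w.take s')) (hle : s ≤ s') 
    (hd : s' ≤ s + 2 * (D.p0 + D.N1)) : s = s' := by
  by_contra hne
  have e : w.take s' = w.take s ++ (w.take s').drop s := by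
    conv_lhs => rw [← List.take_append_drop s (w.take s')]
    rw [List.take_take, min_eq_left hle]
  rw [e] at h2
  refine h.gap _ _ h1 ?_ ?_ h2
  · intro h0
    have := congrArg List.length h0
    rw [List.length_drop, List.length_take] at this
    simp at this
    omega
  · rw [List.length_drop, List.length_take]; omega

/-- walls of `w` -/
def Dat.F (D : Dat α S V) (w : List α) (s : ℕ) : Prop := s ≤ w.length ∧ D.Wo (w.take s)

theorem Dat.Ok.s2 (h : D.Ok) (v b : V) (P Q r : List α) (hP : P ∈ D.LP2 v) (hQ : Q ∈ D.RQ2 b)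
    (hr : P ++ Q ++ r ∈ Str D.Bad) : P ++ Q ∈ Lg D.Bad D.T v b := by
  obtain ⟨⟨X, hX, hXp⟩, h2⟩ := hQ v P hP
  obtain ⟨l, hl, hle⟩ := hr
  obtain ⟨r', hr'⟩ := hXp
  have hsub : D.Bad ⊆ D.ZZ := fun Y hY => hY.1
  obtain ⟨l', rfl, _⟩ := PCode.first h.pcode hX l (fun Y hY => hsub (hl Y hY))
    (show X ++ (r' ++ r) = l.flatten by rw [hle, ← hr', List.append_assoc])
  have hXB : X ∈ D.Bad := hl X (by simp)
  obtain ⟨Y, hY, Y', hY', he, hT⟩ := h2 ⟨X, hXB, r', hr'⟩
  exact ⟨[Y, Y'], by simp [hY, hY'], by simp [he], by simpa using hT⟩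

/-- spoiled places of a word -/
def Dat.SpE (D : Dat α S V) (w : List α) : Set ℕ :=
  {a | a < D.K ∧ ∃ b < D.K, b ≠ a ∧ ∃ s, D.F w s ∧ D.z + D.c a ≤ s + D.N1 + D.c b ∧
    s + D.c b ≤ D.z + D.c a + D.N1}

def Dat.SpB (D : Dat α S V) (T : ℕ) : Set ℕ :=
  {a | a < D.K ∧ ∃ b < D.K, b ≠ a ∧ D.BadT (T + D.c b - D.c a)}

theorem Dat.Ok.c2 (h : D.Ok) (X : List α) (hX : X ∈ D.Bad) (X' : List α) (hX' : X' ∈ D.Bad)
    (v : V) : ∃ P Q, P ++ Q = X ++ X' ∧ P ∈ D.LP2 v ∧ Q ∈ D.RQ2 (D.T (D.T v X) X') := by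
  classical
  have hz := h.hz
  have hXl := hX.1.2.1
  have hXl' := hX'.1.2.1
  obtain ⟨w, hw⟩ : ∃ w, w = X ++ X' := ⟨_, rfl⟩
  have hwl : w.length = X.length + X'.length := by rw [hw, List.length_append]
  have hwW : D.Wo w := by rw [hw, h.loc X X' (by omega)]; exact hX'.1.1
  -- uniqueness of walls near z
  have huniq : ∀ s s', D.F w s → D.F w s' → D.z ≤ s + D.p0 + D.N1 → s ≤ D.z + D.p0 + D.N1 →
      D.z ≤ s' + D.p0 + D.N1 → s' ≤ D.z + D.p0 + D.N1 → s = s' := by
    intro s s' hs hs' a1 a2 a3 a4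
    rcases le_total s s' with hle | hle
    · exact h.far hs.1 hs'.1 hs.2 hs'.2 hle (by omega)
    · exact (h.far hs'.1 hs.1 hs'.2 hs.2 hle (by omega)).symm
  -- the two candidates
  have hex2 : ∃ s, D.z + D.p0 < s ∧ D.F w s :=
    ⟨w.length, by omega, le_rfl, by rw [List.take_length]; exact hwW⟩
  obtain ⟨σ2, hσ2, hσ2min⟩ : ∃ σ2, (D.z + D.p0 < σ2 ∧ D.F w σ2) ∧
      ∀ s, D.z + D.p0 < s → s < σ2 → ¬ D.F w s :=
    ⟨Nat.find hex2, Nat.find_spec hex2, fun s h1 h2 h3 => Nat.find_min hex2 h2 ⟨h1, h3⟩⟩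
  obtain ⟨σ1, hσ1, hσ1u⟩ : ∃ σ1, D.z ≤ σ1 + D.p0 ∧
      ∀ s, D.F w s → D.z ≤ s + D.p0 → s ≤ D.z + D.p0 → s = σ1 := by
    by_cases hex : ∃ s, D.F w s ∧ D.z ≤ s + D.p0 ∧ s ≤ D.z + D.p0
    · obtain ⟨s, hs, h1, h2⟩ := hex
      exact ⟨s, h1, fun s' hs' h1' h2' => huniq s' s hs' hs (by omega) (by omega) (by omega)
        (by omega)⟩
    · exact ⟨D.z, by omega, fun s hs h1 h2 => (hex ⟨s, hs, h1, h2⟩).elim⟩
  have hfin : ∀ s : Set ℕ, s ⊆ {a | a < D.K} → s.Finite := fun s hs =>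
    (Set.finite_lt_nat D.K).subset hs
  have f1 : (D.SpE w).Finite := hfin _ fun a ha => ha.1
  have f2 : (D.SpB (σ1 - D.p0)).Finite := hfin _ fun a ha => ha.1
  have f3 : (D.SpB (σ2 - D.p0)).Finite := hfin _ fun a ha => ha.1
  have cE : (D.SpE w).ncard ≤ 1 := by
    rw [Set.ncard_le_one f1]
    rintro a ⟨ha, b, hb, hba, s, hs, e1, e2⟩ a' ⟨ha', b', hb', hba', s', hs', e1', e2'⟩
    have ca := h.hc a ha
    have cb := h.hc b hb
    have ca' := h.hc a' ha'
    have cb' := h.hc b' hb'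
    have hss : s = s' := huniq s s' hs hs' (by omega) (by omega) (by omega) (by omega)
    subst hss
    refine h.hsp a ha b hb a' ha' b' hb' hba hba' ?_
    rw [abs_le]
    constructor <;> omega
  have cB1 : (D.SpB (σ1 - D.p0)).ncard ≤ D.C1 := h.hthin _ (by omega)
  have cB2 : (D.SpB (σ2 - D.p0)).ncard ≤ D.C1 := h.hthin _ (by omega)
  let Sp : Finset ℕ := f1.toFinset ∪ (f2.toFinset ∪ f3.toFinset)
  have hSp : Sp.card ≤ 1 + 2 * D.C1 := by
    have g1 : f1.toFinset.card ≤ 1 := by rwa [← Set.ncard_eq_toFinset_card _ f1]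
    have g2 : f2.toFinset.card ≤ D.C1 := by rwa [← Set.ncard_eq_toFinset_card _ f2]
    have g3 : f3.toFinset.card ≤ D.C1 := by rwa [← Set.ncard_eq_toFinset_card _ f3]
    have g4 := Finset.card_union_le f1.toFinset (f2.toFinset ∪ f3.toFinset)
    have g5 := Finset.card_union_le f2.toFinset f3.toFinset
    show (f1.toFinset ∪ (f2.toFinset ∪ f3.toFinset)).card ≤ _
    omega
  have hX1 : (X.take D.p0).length = D.p0 := by rw [List.length_take]; omega
  obtain ⟨k, hk, hkS, hAk, hall⟩ := h.hc2 (X.take D.p0) hX1 v Sp hSp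
  have hkE : k ∉ D.SpE w := fun hh => hkS (by
    show k ∈ f1.toFinset ∪ (f2.toFinset ∪ f3.toFinset)
    simp [hh])
  have hkB1 : k ∉ D.SpB (σ1 - D.p0) := fun hh => hkS (by
    show k ∈ f1.toFinset ∪ (f2.toFinset ∪ f3.toFinset)
    simp [hh])
  have hkB2 : k ∉ D.SpB (σ2 - D.p0) := fun hh => hkS (by
    show k ∈ f1.toFinset ∪ (f2.toFinset ∪ f3.toFinset)
    simp [hh])
  have hck := h.hc k hk
  rw [List.take_take, min_eq_left hck] at hAk
  have hPl : (X.take (D.c k)).length = D.c k := by rw [List.length_take]; omega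
  refine ⟨X.take (D.c k), X.drop (D.c k) ++ X', by
    rw [← List.append_assoc, List.take_append_drop], hAk, ?_⟩
  intro v'' P'' hP''
  obtain ⟨k', hk', hl'⟩ := h.hA2 _ _ hP''
  have hck' := h.hc k' hk'
  have hwe : w = X.take (D.c k) ++ (X.drop (D.c k) ++ X') := by
    rw [← List.append_assoc, List.take_append_drop, hw]
  obtain ⟨Q, hQ⟩ : ∃ Q, Q = X.drop (D.c k) ++ X' := ⟨_, rfl⟩
  rw [← hQ] at hwe ⊢
  have hQl : D.c k + Q.length = w.length := by
    rw [hwe, List.length_append, hPl]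
  have hul : (P'' ++ Q).length = D.c k' + Q.length := by rw [List.length_append, hl']
  have huW : D.Wo (P'' ++ Q) := by
    rw [h.loc P'' Q (by omega), ← h.loc (X.take (D.c k)) Q (by omega), ← hwe]; exact hwW
  obtain ⟨t1, ht1, hB1, hzt, hWt, hmin⟩ := Dat.Ok.first_block (D := D) (P'' ++ Q) huW (by omega)
  refine ⟨⟨_, hB1, List.take_prefix _ _⟩, ?_⟩
  rintro ⟨X3, hX3, hpre⟩
  have hX3e : X3 = (P'' ++ Q).take t1 := by
    rcases List.prefix_or_prefix_of_prefix hpre (List.take_prefix t1 (P'' ++ Q)) with h1 | h1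
    · exact h.pcode.2 _ hX3.1 _ hB1 h1
    · exact (h.pcode.2 _ hB1 _ hX3.1 h1).symm
  by_cases hkk : k' = k
  · subst hkk
    -- the true clock
    have hZ : P'' ++ X.drop (D.c k') ∈ D.ZZ := by
      have hXe : X.take (D.c k') ++ X.drop (D.c k') = X := List.take_append_drop _ _
      have hdl : (X.drop (D.c k')).length = X.length - D.c k' := List.length_drop
      refine ⟨?_, ?_, ?_⟩
      · rw [h.loc P'' _ (by omega), ← h.loc (X.take (D.c k')) _ (by omega), hXe]
        exact hX.1.1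
      · rw [List.length_append, hl', hdl]; omega
      · intro t a1 a2 hW
        rw [List.length_append, hl', hdl] at a2
        obtain ⟨s, rfl⟩ := Nat.exists_eq_add_of_le (show P''.length ≤ t by omega)
        have hW' := (h.shift P'' (X.take (D.c k')) (X.drop (D.c k')) s (by omega)
          (by omega)).1 hW
        rw [hXe, hPl] at hW'
        exact hX.1.2.2 _ (by omega) (by omega) hW'
    have hX3' : X3 = P'' ++ X.drop (D.c k') := by
      have hp : P'' ++ X.drop (D.c k') <+: P'' ++ Q := ⟨X', by rw [hQ, List.append_assoc]⟩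
      rcases List.prefix_or_prefix_of_prefix hpre hp with h1 | h1
      · exact h.pcode.2 _ hX3.1 _ hZ h1
      · exact (h.pcode.2 _ hZ _ hX3.1 h1).symm
    subst hX3'
    refine ⟨_, hX3, X', hX', by rw [hQ, List.append_assoc], ?_⟩
    congr 1
    rw [h.T_eq, h.T_eq v]
    have e1 : (P'' ++ X.drop (D.c k')) = (P'' ++ (X.take D.p0).drop (D.c k')) ++ X.drop D.p0 := by
      rw [List.append_assoc]
      congr 1
      conv_lhs => rw [← List.take_append_drop D.p0 X]
      rw [List.drop_append_of_le_length (by omega)]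
    have l1 : (P'' ++ (X.take D.p0).drop (D.c k')).length = D.p0 := by
      rw [List.length_append, List.length_drop, hX1, hl']; omega
    have e2 : (P'' ++ X.drop (D.c k')).take D.p0 = P'' ++ (X.take D.p0).drop (D.c k') := by
      rw [e1]; exact List.take_left' l1
    have e3 : (P'' ++ X.drop (D.c k')).drop D.p0 = X.drop D.p0 := by
      rw [e1]; exact List.drop_left' l1
    have e4 : D.mid v'' (P'' ++ X.drop (D.c k')) = D.mid v X := by
      unfold Dat.mid
      rw [e2]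
      exact hall v'' P'' hl' hP''
    rw [e3, e4]
  · -- a wrong clock
    exfalso
    have hl3 : X3.length = t1 := by rw [hX3e, List.length_take]; omega
    -- walls of the candidate are walls of w
    have hF : ∀ t, D.c k' + D.n ≤ t → t ≤ (P'' ++ Q).length → D.Wo ((P'' ++ Q).take t) →
        D.F w (t + D.c k - D.c k') := by
      intro t a1 a2 hW
      obtain ⟨s, rfl⟩ := Nat.exists_eq_add_of_le (show P''.length ≤ t by omega)
      have hW' := (h.shift P'' (X.take (D.c k)) Q s (by omega) (by omega)).1 hW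
      rw [← hwe, hPl] at hW'
      have e : P''.length + s + D.c k - D.c k' = D.c k + s := by omega
      rw [e]
      exact ⟨by omega, hW'⟩
    have hF' : ∀ s, D.c k + D.n ≤ s → D.F w s → D.Wo ((P'' ++ Q).take (s + D.c k' - D.c k)) := by
      rintro s a1 ⟨a2, hW⟩
      obtain ⟨r, rfl⟩ := Nat.exists_eq_add_of_le (show D.c k ≤ s by omega)
      rw [hwe] at hW
      have hW' := (h.shift (X.take (D.c k)) P'' Q r (by omega) (by omega)).1 (by
        rw [hPl]; exact hW)
      have e : D.c k + r + D.c k' - D.c k = P''.length + r := by omega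
      rw [e]; exact hW'
    have hs1 : D.F w (t1 + D.c k - D.c k') := hF t1 (by omega) ht1 hWt
    have hcand : t1 + D.c k - D.c k' = σ1 ∨ t1 + D.c k - D.c k' = σ2 := by
      by_cases hc : t1 + D.c k - D.c k' ≤ D.z + D.p0
      · exact Or.inl (hσ1u _ hs1 (by omega) hc)
      · right
        by_contra hne
        rcases lt_or_gt_of_ne hne with hlt | hgt
        · exact hσ2min _ (by omega) hlt hs1
        · have hW := hF' σ2 (by omega) hσ2.2
          refine hmin _ ?_ ?_ hW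
          · omega
          · omega
    refine h.good hX3.1 ?_ ?_ hX3
    · intro t a1 a2 a3 hW
      rw [hX3e, List.take_take, min_eq_left (by omega)] at hW
      have := hF t (by omega) (by omega) hW
      exact hkE ⟨hk, k', hk', hkk, _, this, by omega, by omega⟩
    · rw [hl3]
      intro hB
      rcases hcand with e | e
      · refine hkB1 ⟨hk, k', hk', hkk, ?_⟩
        have : σ1 - D.p0 + D.c k' - D.c k = t1 - D.p0 := by omega
        rw [this]; exact hB
      · refine hkB2 ⟨hk, k', hk', hkk, ?_⟩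
        have : σ2 - D.p0 + D.c k' - D.c k = t1 - D.p0 := by omega
        rw [this]; exact hB

/-- **The middle theorem.** -/
theorem Dat.Ok.main [Finite α] [Finite S] [Finite V] (h : D.Ok)
    (hE : ∀ v b, HL 1 ({X | X ∈ D.ZZ ∧ D.T v X = b} : Language α))
    (htail : ∀ s, HL 1 ({w | (∀ X ∈ D.ZZ, ¬ X <+: w) ∧ (w.map D.φ).prod = s} : Language α))
    (s : S) : HL 3 ({w | (w.map D.φ).prod = s} : Language α) := by
  classical
  have hZ : HL 1 (D.ZZ : Language α) := by
    refine (HL.iUnion (k := 1) (fun b : V => hE 0 b)).congr fun w => Iff.symm ?_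
    exact ⟨fun ⟨b, hb⟩ => hb.1, fun hw => ⟨_, hw, rfl⟩⟩
  have finL1 : ∀ v, {P | P ∈ D.LP1 v}.Finite := fun v =>
    (List.finite_length_le α (D.p0 + D.N1)).subset fun P hP => by
      have := h.hA1 _ _ hP.2
      rw [List.length_drop] at this
      show P.length ≤ _
      omega
  have finL2 : ∀ v, {P | D.A2 v P}.Finite := fun v =>
    (List.finite_length_le α D.p0).subset fun P hP => by
      obtain ⟨k, hk, hl⟩ := h.hA2 _ _ hP
      have := h.hc k hk
      show P.length ≤ _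
      omega
  have hL1 : ∀ v k, HL k (D.LP1 v) := fun v k => HL.finite (finL1 v)
  have hL2 : ∀ v k, HL k (D.LP2 v) := fun v k => HL.finite (finL2 v)
  have hR1 : ∀ b, HL 1 (D.RQ1 b) := fun b =>
    HL.iInter (k := 1) (fun v : V => HL.biInter (k := 1) (finL1 v)
      (L := fun P => {Q | P ++ Q ∈ ({X | X ∈ D.ZZ ∧ D.T v X = b} : Language α)})
      (fun P _ => (hE v b).lquot P))
  have hBad : HL 1 (D.Bad : Language α) := by
    have h1 : HL 1 ({X | ∀ v : V, X ∈ ({X | ∃ b : V, X ∈ (({X | X ∈ D.ZZ ∧ D.T v X = b} :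
        Language α) ⊓ (D.LP1 v * D.RQ1 b) : Language α)} : Language α)} : Language α) :=
      HL.iInter (k := 1) fun v => HL.iUnion (k := 1) fun b =>
        (hE v b).inf ((hL1 v 1).mul (hR1 b))
    refine (hZ.inf h1.compl).congr fun X => Iff.symm ?_
    constructor
    · rintro ⟨hX, hn⟩
      refine ⟨hX, fun hall => hn fun v => ?_⟩
      obtain ⟨P, Q, e, hP, hQ⟩ := hall v
      exact ⟨D.T v X, ⟨hX, rfl⟩, Language.mem_mul.2 ⟨P, hP, Q, hQ, e⟩⟩
    · rintro ⟨hX, hn⟩
      refine ⟨hX, fun hall => hn fun v => ?_⟩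
      obtain ⟨b, ⟨_, hb⟩, hm⟩ := hall v
      obtain ⟨P, hP, Q, hQ, e⟩ := Language.mem_mul.1 hm
      exact ⟨P, Q, e, hP, by rw [hb]; exact hQ⟩
  have hD : ∀ v b, HL 1 ({X | X ∈ D.Bad ∧ D.T v X = b} : Language α) := fun v b =>
    (hBad.inf (hE v b)).congr fun X =>
      ⟨fun ⟨h1, h2⟩ => ⟨h1, h1.1, h2⟩, fun ⟨h1, h2⟩ => ⟨h1, h2.2⟩⟩
  have hEE : ∀ v b, HL 1 (D.EE v b) := by
    intro v b
    refine (HL.iUnion (k := 1) (fun a : V => (hD v a).mul (hD a b))).congr fun w => Iff.symm ?_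
    constructor
    · rintro ⟨a, hw⟩
      obtain ⟨X, ⟨hX, hXa⟩, X', ⟨hX', hXb⟩, e⟩ := Language.mem_mul.1 hw
      exact ⟨X, hX, X', hX', e.symm, by rw [hXa, hXb]⟩
    · rintro ⟨X, hX, X', hX', e, hb⟩
      exact ⟨D.T v X, Language.mem_mul.2 ⟨X, ⟨hX, rfl⟩, X', ⟨hX', hb⟩, e.symm⟩⟩
  have hR2 : ∀ b, HL 1 (D.RQ2 b) := fun b =>
    HL.iInter (k := 1) (fun v : V => HL.biInter (k := 1) (finL2 v)
      (L := fun P => {Q | P ++ Q ∈ ({w | (∃ X ∈ (D.ZZ : Language α), X <+: w) ∧
        ((∃ X ∈ (D.Bad : Language α), X <+: w) → w ∈ D.EE v b)} : Language α)})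
      (fun P _ => (hZ.prefix.setOf_and (hBad.prefix.setOf_imp (hEE v b))).lquot P))
  exact top5 D.φ D.act h.hadd h.hone h.hmul h.hfaith D.nu D.ZZ D.Bad h.pcode (fun X hX => hX.1)
    D.LP1 D.RQ1 D.LP2 D.RQ2 (fun v b P Q hP hQ => hQ v P hP)
    (fun X hX hb v => by
      by_contra hcon
      exact hb ⟨hX, fun hall => hcon (hall v)⟩)
    h.s2 h.c2 hBad (fun v => hL2 v 1) hR2 (fun v => hL1 v 2) (fun b => (hR1 b).mono (by omega))
    (fun v b => (hD v b).mono (by omega)) (fun s => (htail s).mono (by omega)) s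

end Crest.Agent.R320.Mid_73
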