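import Mathlib

/-!
Row 320.  NAME AGREEMENT FOR AN UNKNOWN TOTAL (942 #12598 (1), 755 #12640 (A), the extra odd
modulus of 942 #12725 (A) / 125 #12670 (5)).

A left clock `o` and a right clock `o'` with an unknown total `T = o + o'`.  Names are pairs
`(c, t)` with `c` in a finite type of contexts and `t` in `ZMod D` (`D` odd), `f` a colour of the
contexts (the label pair).  Outside the thin periodic set of totals divisible by one of finitely
many large coprime moduli both sides always show the same name, and every context is shown by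
both sides in every interval of length `M`.  For the totals of the thin set all legal pairs carry
the same colours on the left and the same colours on the right, so that one value of the noise
serves all junctions of the zone.
-/

namespace Crest.R320.Names_251

variable {I : Type*} {D : ℕ}

/-- left legality of the clock value `o` with the name `n` -/
def LN (q : (I × ZMod D) × Bool → ℕ) (f : I → ZMod D) (n : I × ZMod D) (o : ℤ) : Prop :=
  ((q (n, false) : ℤ) ∣ o ∧ ¬ (q (n, true) : ℤ) ∣ o) ∧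
  (∀ l, l ≠ n → ¬ (q (l, false) : ℤ) ∣ o ∧ (q (l, true) : ℤ) ∣ o) ∧
  2 * (o : ZMod D) - f n.1 = n.2

/-- right legality of the clock value `o` with the name `n` -/
def RN (q : (I × ZMod D) × Bool → ℕ) (f : I → ZMod D) (n : I × ZMod D) (o : ℤ) : Prop :=
  (¬ (q (n, false) : ℤ) ∣ o ∧ (q (n, true) : ℤ) ∣ o) ∧
  (∀ l, l ≠ n → (q (l, false) : ℤ) ∣ o ∧ ¬ (q (l, true) : ℤ) ∣ o) ∧
  2 * (o : ZMod D) + f n.1 = n.2

/-- the thin set of bad totals -/
def Bad (q : (I × ZMod D) × Bool → ℕ) (T : ℤ) : Prop := ∃ x, (q x : ℤ) ∣ T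

variable {q : (I × ZMod D) × Bool → ℕ} {f : I → ZMod D}

private lemma ndvd_add_right {a b c : ℤ} (h : a ∣ b) (h' : ¬ a ∣ c) : ¬ a ∣ b + c := by
  intro h3; exact h' ((Int.dvd_add_right h).1 h3)

private lemma ndvd_add_left {a b c : ℤ} (h : a ∣ c) (h' : ¬ a ∣ b) : ¬ a ∣ b + c := by
  intro h3; exact h' ((Int.dvd_add_left h).1 h3)

/-- names which are not in the pair do not divide the total -/
lemma other {n n' : I × ZMod D} {o o' : ℤ} (hL : LN q f n o) (hR : RN q f n' o')
    {l : I × ZMod D} (h1 : l ≠ n) (h2 : l ≠ n') (b : Bool) : ¬ (q (l, b) : ℤ) ∣ o + o' := by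
  obtain ⟨a1, a2⟩ := hL.2.1 l h1
  obtain ⟨b1, b2⟩ := hR.2.1 l h2
  cases b
  · exact ndvd_add_left b1 a1
  · exact ndvd_add_right a2 b2

lemma same {n : I × ZMod D} {o o' : ℤ} (hL : LN q f n o) (hR : RN q f n o')
    (b : Bool) : ¬ (q (n, b) : ℤ) ∣ o + o' := by
  obtain ⟨a1, a2⟩ := hL.1
  obtain ⟨b1, b2⟩ := hR.1
  cases b
  · exact ndvd_add_right a1 b1
  · exact ndvd_add_left b2 a2

lemma cross {n n' : I × ZMod D} {o o' : ℤ} (hL : LN q f n o) (hR : RN q f n' o')
    (h : n ≠ n') : (q (n, false) : ℤ) ∣ o + o' ∧ (q (n', true) : ℤ) ∣ o + o' := by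
  refine ⟨dvd_add hL.1.1 (hR.2.1 n h).1, dvd_add (hL.2.1 n' (Ne.symm h)).2 hR.1.2⟩

/-- **(N1)** for a good total both sides show the same name -/
theorem eq_of_good {n n' : I × ZMod D} {o o' : ℤ} (hL : LN q f n o) (hR : RN q f n' o')
    (hT : ¬ Bad q (o + o')) : n = n' := by
  by_contra h
  exact hT ⟨_, (cross hL hR h).1⟩

/-- for a bad total the two sides show different names -/
theorem ne_of_bad {n n' : I × ZMod D} {o o' : ℤ} (hL : LN q f n o) (hR : RN q f n' o')
    (hT : Bad q (o + o')) : n ≠ n' := by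
  rintro rfl
  obtain ⟨⟨l, b⟩, hx⟩ := hT
  by_cases hl : l = n
  · subst hl; exact same hL hR b hx
  · exact other hL hR hl hl b hx

/-- **(N3)** for a bad total all legal pairs have the same colours -/
theorem colour_of_bad (hD : Odd D) {n₁ n₁' n₂ n₂' : I × ZMod D} {o₁ o₁' o₂ o₂' : ℤ}
    (hL₁ : LN q f n₁ o₁) (hR₁ : RN q f n₁' o₁') (hL₂ : LN q f n₂ o₂) (hR₂ : RN q f n₂' o₂')
    (hT : o₁ + o₁' = o₂ + o₂') (hB : Bad q (o₁ + o₁')) :
    f n₁.1 = f n₂.1 ∧ f n₁'.1 = f n₂'.1 := by
  have hne1 := ne_of_bad hL₁ hR₁ hB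
  have hB2 : Bad q (o₂ + o₂') := hT ▸ hB
  have hne2 := ne_of_bad hL₂ hR₂ hB2
  have hc2 := cross hL₂ hR₂ hne2
  -- the names of the second pair divide the total, so they are in the first pair
  have m1 : n₂ = n₁ ∨ n₂ = n₁' := by
    by_contra h
    push Not at h
    exact other hL₁ hR₁ h.1 h.2 false (hT ▸ hc2.1)
  have m2 : n₂' = n₁ ∨ n₂' = n₁' := by
    by_contra h
    push Not at h
    exact other hL₁ hR₁ h.1 h.2 true (hT ▸ hc2.2)
  rcases m1 with rfl | rfl
  · rcases m2 with h | rfl
    · exact absurd h.symm hne2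
    · exact ⟨rfl, rfl⟩
  · rcases m2 with rfl | h
    · -- swapped pair
      have e1 := hL₁.2.2
      have e2 := hR₁.2.2
      have e3 := hL₂.2.2
      have e4 := hR₂.2.2
      have eT : (o₁ : ZMod D) + (o₁' : ZMod D) = (o₂ : ZMod D) + (o₂' : ZMod D) := by
        have := congrArg (fun z : ℤ => (z : ZMod D)) hT
        push_cast at this
        exact this
      have h2 : (2 : ZMod D) * (f n₂.1 - f n₂'.1) = 0 := by
        have h5 : 2 * (o₁ : ZMod D) - f n₂'.1 + (2 * (o₁' : ZMod D) + f n₂.1)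
            = (2 * (o₂ : ZMod D) - f n₂.1) + (2 * (o₂' : ZMod D) + f n₂'.1) := by
          rw [e1, e2, e3, e4]; ring
        linear_combination h5 - 2 * eT
      have hu : IsUnit (2 : ZMod D) := by
        have := (ZMod.isUnit_iff_coprime 2 D).2 (Nat.coprime_two_left.2 hD)
        simpa using this
      have h3 : f n₂.1 - f n₂'.1 = 0 := by
        rcases hu with ⟨u, hu⟩
        have : (u : ZMod D) * (f n₂.1 - f n₂'.1) = 0 := by rw [hu]; exact h2
        exact (Units.mul_right_eq_zero u).1 this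
      have h4 : f n₂.1 = f n₂'.1 := sub_eq_zero.1 h3
      exact ⟨h4.symm, h4⟩
    · exact absurd h.symm hne2


/-! ### every context is shown in every interval of length `M` -/

section complete

variable [Fintype I] [NeZero D]

/-- all moduli -/
def sm (q : (I × ZMod D) × Bool → ℕ) : Option ((I × ZMod D) × Bool) → ℕ
  | none => D
  | some x => q x

/-- the period of the names -/
def per (q : (I × ZMod D) × Bool → ℕ) : ℕ := ∏ x, sm q x

lemma sm_dvd_per (q : (I × ZMod D) × Bool → ℕ) (x : Option ((I × ZMod D) × Bool)) :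
    sm q x ∣ per q := Finset.dvd_prod_of_mem _ (Finset.mem_univ x)

lemma per_pos (hq : ∀ x, 0 < q x) : 0 < per q := by
  refine Finset.prod_pos fun x _ => ?_
  cases x with
  | none => exact Nat.pos_of_ne_zero (NeZero.ne D)
  | some x => exact hq x

/-- **(N2)** for a good total every context has, in every interval of length `per q`, a place
which is legal on both sides with the same name -/
theorem exists_common (hD : Odd D) (hq : ∀ x, 1 < q x)
    (hc : Pairwise (Function.onFun Nat.Coprime (sm q))) (c : I) (T : ℤ) (hT : ¬ Bad q T) (x : ℤ) :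
    ∃ o, x ≤ o ∧ o < x + per q ∧ LN q f (c, (T : ZMod D)) o ∧ RN q f (c, (T : ZMod D)) (T - o) := by
  classical
  have hu : IsUnit (2 : ZMod D) := by
    have := (ZMod.isUnit_iff_coprime 2 D).2 (Nat.coprime_two_left.2 hD)
    simpa using this
  obtain ⟨u, hu⟩ := hu
  set n : I × ZMod D := (c, (T : ZMod D)) with hn
  let e := ZMod.prodEquivPi (sm q) hc
  let tgt : ∀ i, ZMod (sm q i) := fun i => match i with
    | none => (↑u⁻¹ : ZMod D) * ((T : ZMod D) + f c)
    | some (l, b) => if (l = n ↔ b = false) then 0 else (T : ZMod (q (l, b)))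
  obtain ⟨o0, ho0⟩ := ZMod.intCast_surjective (e.symm tgt)
  have h0 : ∀ i, (o0 : ZMod (sm q i)) = tgt i := by
    intro i
    have h1 : e (o0 : ZMod (∏ i, sm q i)) = tgt := by rw [ho0]; exact e.apply_symm_apply tgt
    rw [map_intCast] at h1
    have := congrFun h1 i
    simpa using this
  have hM : (0 : ℤ) < (per q : ℤ) := by exact_mod_cast per_pos (fun x => lt_trans one_pos (hq x))
  let o : ℤ := x + (o0 - x) % (per q : ℤ)
  have hlo : x ≤ o := by
    have := Int.emod_nonneg (o0 - x) hM.ne'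
    show x ≤ x + _
    linarith
  have hhi : o < x + per q := by
    have := Int.emod_lt_of_pos (o0 - x) hM
    show x + _ < _
    linarith
  have hcong : (per q : ℤ) ∣ o - o0 := by
    have h2 : o - o0 = (o0 - x) % (per q : ℤ) - (o0 - x) := by
      show x + _ - o0 = _
      ring
    rw [h2]
    have := Int.emod_add_mul_ediv (o0 - x) (per q : ℤ)
    exact ⟨-((o0 - x) / (per q : ℤ)), by linarith⟩
  have h1 : ∀ i, (o : ZMod (sm q i)) = tgt i := by
    intro i
    have h3 : ((sm q i : ℕ) : ℤ) ∣ o - o0 :=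
      dvd_trans (by exact_mod_cast sm_dvd_per q i) hcong
    have h4 : ((o - o0 : ℤ) : ZMod (sm q i)) = 0 :=
      (ZMod.intCast_zmod_eq_zero_iff_dvd (o - o0) (sm q i)).2 h3
    push_cast at h4
    rw [← h0 i]
    exact sub_eq_zero.1 h4
  have hnone : (o : ZMod D) = (↑u⁻¹ : ZMod D) * ((T : ZMod D) + f c) := h1 none
  have h2o : 2 * (o : ZMod D) = (T : ZMod D) + f c := by
    rw [hnone, ← hu, ← mul_assoc, Units.mul_inv, one_mul]
  have hsome : ∀ l b, (o : ZMod (q (l, b))) = if (l = n ↔ b = false) then 0 else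
      (T : ZMod (q (l, b))) := fun l b => h1 (some (l, b))
  have hz : ∀ l b, (l = n ↔ b = false) → (q (l, b) : ℤ) ∣ o ∧ ¬ (q (l, b) : ℤ) ∣ T - o := by
    intro l b hlb
    have h5 : (q (l, b) : ℤ) ∣ o := by
      have h6 := hsome l b
      rw [if_pos hlb] at h6
      exact (ZMod.intCast_zmod_eq_zero_iff_dvd o (q (l, b))).1 h6
    refine ⟨h5, fun h7 => hT ⟨(l, b), ?_⟩⟩
    have := dvd_add h5 h7
    simpa using this
  have ht : ∀ l b, ¬ (l = n ↔ b = false) → ¬ (q (l, b) : ℤ) ∣ o ∧ (q (l, b) : ℤ) ∣ T - o := by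
    intro l b hlb
    have h6 := hsome l b
    rw [if_neg hlb] at h6
    have h5 : (q (l, b) : ℤ) ∣ T - o := by
      refine (ZMod.intCast_zmod_eq_zero_iff_dvd (T - o) (q (l, b))).1 ?_
      push_cast
      rw [h6, sub_self]
    refine ⟨fun h7 => hT ⟨(l, b), ?_⟩, h5⟩
    have := dvd_add h7 h5
    simpa using this
  refine ⟨o, hlo, hhi, ⟨⟨?_, ?_⟩, ?_, ?_⟩, ⟨?_, ?_⟩, ?_, ?_⟩
  · exact (hz n false (by simp)).1
  · exact (ht n true (by simp)).1
  · intro l hl
    exact ⟨(ht l false (by simp [hl])).1, (hz l true (by simp [hl])).1⟩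
  · show 2 * (o : ZMod D) - f c = (T : ZMod D)
    rw [h2o]; ring
  · exact (hz n false (by simp)).2
  · exact (ht n true (by simp)).2
  · intro l hl
    exact ⟨(ht l false (by simp [hl])).2, (hz l true (by simp [hl])).2⟩
  · show 2 * ((T - o : ℤ) : ZMod D) + f c = (T : ZMod D)
    push_cast
    linear_combination -h2o

/-- moduli above any bound, coprime to each other and to `D` -/
theorem exists_moduli (B : ℕ) : ∃ q : (I × ZMod D) × Bool → ℕ, (∀ x, B < q x) ∧ (∀ x, 1 < q x) ∧
    Pairwise (Function.onFun Nat.Coprime (sm q)) := by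
  classical
  let X := (I × ZMod D) × Bool
  let e := Fintype.equivFin X
  have hinf : _ := Nat.infinite_setOfPred_prime
  let q : X → ℕ := fun x => Nat.nth Nat.Prime (max B D + 1 + (e x : ℕ))
  have hp : ∀ x, (q x).Prime := fun x => Nat.nth_mem_of_infinite hinf _
  have hgt : ∀ x, max B D + 1 ≤ q x := by
    intro x
    have h1 : max B D + 1 + (e x : ℕ) ≤ q x := (Nat.nth_strictMono hinf).le_apply
    omega
  have hinj : ∀ x y, x ≠ y → q x ≠ q y := by
    intro x y hxy h
    have h1 := (Nat.nth_strictMono hinf).injective h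
    have h2 : (e x : ℕ) = (e y : ℕ) := by omega
    exact hxy (e.injective (Fin.ext h2))
  have hDpos : 0 < D := Nat.pos_of_ne_zero (NeZero.ne D)
  have hcop : ∀ x, Nat.Coprime (q x) D := by
    intro x
    refine (Nat.Prime.coprime_iff_not_dvd (hp x)).2 fun hd => ?_
    have h1 := Nat.le_of_dvd hDpos hd
    have h2 := hgt x
    have h3 := le_max_right B D
    omega
  refine ⟨q, fun x => ?_, fun x => (hp x).one_lt, ?_⟩
  · have h2 := hgt x
    have h3 := le_max_left B D
    omega
  · rintro (_ | x) (_ | y) hxy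
    · exact absurd rfl hxy
    · exact (hcop y).symm
    · exact hcop x
    · refine (Nat.coprime_primes (hp x) (hp y)).2 (hinj x y ?_)
      rintro rfl
      exact hxy rfl

/-- legality of the left name depends on the clock modulo `per q` only -/
theorem LN_periodic (n : I × ZMod D) (o : ℤ) : LN q f n (o + per q) ↔ LN q f n o := by
  have h1 : ∀ x, (q x : ℤ) ∣ o + per q ↔ (q x : ℤ) ∣ o := fun x =>
    Int.dvd_add_left (by exact_mod_cast sm_dvd_per q (some x))
  have h2 : ((o + per q : ℤ) : ZMod D) = (o : ZMod D) := by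
    have h3 : ((per q : ℤ) : ZMod D) = 0 :=
      (ZMod.intCast_zmod_eq_zero_iff_dvd _ D).2 (by exact_mod_cast sm_dvd_per q none)
    push_cast at h3 ⊢
    rw [h3, add_zero]
  unfold LN
  simp only [h1, h2]

/-- legality of the right name depends on the clock modulo `per q` only -/
theorem RN_periodic (n : I × ZMod D) (o : ℤ) : RN q f n (o + per q) ↔ RN q f n o := by
  have h1 : ∀ x, (q x : ℤ) ∣ o + per q ↔ (q x : ℤ) ∣ o := fun x =>
    Int.dvd_add_left (by exact_mod_cast sm_dvd_per q (some x))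
  have h2 : ((o + per q : ℤ) : ZMod D) = (o : ZMod D) := by
    have h3 : ((per q : ℤ) : ZMod D) = 0 :=
      (ZMod.intCast_zmod_eq_zero_iff_dvd _ D).2 (by exact_mod_cast sm_dvd_per q none)
    push_cast at h3 ⊢
    rw [h3, add_zero]
  unfold RN
  simp only [h1, h2]

end complete

end Crest.R320.Names_251
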