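import Mathlib

/-!
# Row 320: names (755 #12640 (A)+(B), 942, 811)

`K` names are carried by a left clock `t` and a right clock `t'` (`t + t' = T` unknown): two moduli
`q c`, `q' c` per name and one odd modulus `m j` per colour coordinate. `LOK` / `ROK` = the clock
shows the name. If no modulus divides `T`, names agree and every name of the right family occurs in
every block; if some modulus divides `T`, at most one unordered pair of names meets, and not in both
orders unless the colours agree.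
-/

set_option autoImplicit false

namespace Crest.Agent.R320.Names_274

/-- sign classes of nonzero residues mod an odd modulus. -/
def Sgn (m : ℕ) (s : Bool) (t : ℕ) : Prop :=
  if s then 0 < t % m ∧ 2 * (t % m) < m else m < 2 * (t % m)

theorem Sgn.not_dvd {m : ℕ} {s : Bool} {t : ℕ} (h : Sgn m s t) : ¬ m ∣ t := by
  intro hd
  have h0 : t % m = 0 := Nat.mod_eq_zero_of_dvd hd
  unfold Sgn at h
  cases s <;> simp [h0] at h

theorem Sgn.unique {m : ℕ} {s s' : Bool} {t : ℕ} (h : Sgn m s t) (h' : Sgn m s' t) : s = s' := by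
  unfold Sgn at h h'
  cases s <;> cases s' <;> simp at h h' ⊢ <;> omega

theorem Sgn.congr {m : ℕ} {s : Bool} {t t' : ℕ} (h : Sgn m s t) (he : t % m = t' % m) :
    Sgn m s t' := by
  unfold Sgn at *
  rw [← he]; exact h

theorem Sgn.exists_of {m : ℕ} (hm : m % 2 = 1) {t : ℕ} (h : ¬ m ∣ t) : ∃ s, Sgn m s t := by
  have h0 : t % m ≠ 0 := fun h' => h (Nat.dvd_of_mod_eq_zero h')
  by_cases h2 : 2 * (t % m) < m
  · exact ⟨true, by unfold Sgn; simp; omega⟩
  · exact ⟨false, by unfold Sgn; simp; omega⟩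

/-- the sum of two numbers of the same sign class is not divisible. -/
theorem Sgn.add_not_dvd {m : ℕ} {s : Bool} {t t' : ℕ} (h : Sgn m s t) (h' : Sgn m s t') :
    ¬ m ∣ t + t' := by
  intro hd
  have hm : 0 < m := by
    rcases Nat.eq_zero_or_pos m with h0 | h0
    · subst h0
      unfold Sgn at h
      cases s <;> simp at h
      · exact absurd hd (by unfold Sgn at h'; simp at h'; omega)
    · exact h0
  have h1 : (t % m + t' % m) % m = 0 := by
    rw [← Nat.add_mod]; exact Nat.mod_eq_zero_of_dvd hd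
  have a1 := Nat.mod_lt t hm
  have a2 := Nat.mod_lt t' hm
  obtain ⟨k, hk⟩ := Nat.dvd_of_mod_eq_zero h1
  unfold Sgn at h h'
  cases s
  · simp at h h'
    have : k = 0 ∨ k = 1 ∨ 2 ≤ k := by omega
    rcases this with rfl | rfl | h3
    · omega
    · omega
    · have : m * 2 ≤ m * k := Nat.mul_le_mul_left _ h3
      omega
  · simp at h h'
    have : k = 0 ∨ 1 ≤ k := by omega
    rcases this with rfl | h3
    · omega
    · have : m * 1 ≤ m * k := Nat.mul_le_mul_left _ h3
      omega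

variable {Nm J : Type*}

/-- data of a name system. -/
structure NS (Nm J : Type*) where
  q : Nm → ℕ
  q' : Nm → ℕ
  m : J → ℕ
  col : Nm → J → Bool
  sg : Nm → J → Bool

variable (D : NS Nm J)

/-- the left clock `t` shows the name `c`. -/
def LOK (c : Nm) (t : ℕ) : Prop :=
  (D.q c ∣ t ∧ ¬ D.q' c ∣ t) ∧ (∀ l, l ≠ c → ¬ D.q l ∣ t ∧ D.q' l ∣ t) ∧
    ∀ j, if D.col c j = D.sg c j then D.m j ∣ t else Sgn (D.m j) (D.sg c j) t

/-- the right clock `t` shows the name `c`. -/
def ROK (c : Nm) (t : ℕ) : Prop :=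
  (¬ D.q c ∣ t ∧ D.q' c ∣ t) ∧ (∀ l, l ≠ c → D.q l ∣ t ∧ ¬ D.q' l ∣ t) ∧
    ∀ j, if D.col c j = D.sg c j then Sgn (D.m j) (D.sg c j) t else D.m j ∣ t

variable {D}

theorem LOK.unique {c c' : Nm} {t : ℕ} (h : LOK D c t) (h' : LOK D c' t) : c = c' := by
  by_contra hne
  exact (h'.2.1 c hne).1 h.1.1

theorem ROK.unique {c c' : Nm} {t : ℕ} (h : ROK D c t) (h' : ROK D c' t) : c = c' := by
  by_contra hne
  exact (h'.2.1 c hne).2 h.1.2

/-- equal names: no modulus divides `T`. -/
theorem same_not_dvd {c : Nm} {t t' : ℕ} (h : LOK D c t) (h' : ROK D c t') (l : Nm) :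
    ¬ D.q l ∣ t + t' ∧ ¬ D.q' l ∣ t + t' := by
  by_cases hl : l = c
  · subst hl
    exact ⟨fun hd => h'.1.1 ((Nat.dvd_add_right h.1.1).1 hd),
      fun hd => h.1.2 ((Nat.dvd_add_left h'.1.2).1 hd)⟩
  · exact ⟨fun hd => (h.2.1 l hl).1 ((Nat.dvd_add_left (h'.2.1 l hl).1).1 hd),
      fun hd => (h'.2.1 l hl).2 ((Nat.dvd_add_right (h.2.1 l hl).2).1 hd)⟩

theorem diff_dvd {c c' : Nm} {t t' : ℕ} (hne : c ≠ c') (h : LOK D c t) (h' : ROK D c' t') :
    D.q c ∣ t + t' ∧ D.q' c' ∣ t + t' :=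
  ⟨dvd_add h.1.1 (h'.2.1 c hne).1, dvd_add (h.2.1 c' (Ne.symm hne)).2 h'.1.2⟩

theorem diff_not_dvd {c c' : Nm} {t t' : ℕ} (h : LOK D c t) (h' : ROK D c' t') (l : Nm)
    (hl : l ≠ c) (hl' : l ≠ c') : ¬ D.q l ∣ t + t' ∧ ¬ D.q' l ∣ t + t' :=
  ⟨fun hd => (h.2.1 l hl).1 ((Nat.dvd_add_left (h'.2.1 l hl').1).1 hd),
      fun hd => (h'.2.1 l hl').2 ((Nat.dvd_add_right (h.2.1 l hl).2).1 hd)⟩

/-- if no `q` divides `T`, names agree. -/
theorem agree {c c' : Nm} {t t' : ℕ} (h : LOK D c t) (h' : ROK D c' t')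
    (hT : ∀ l, ¬ D.q l ∣ t + t') : c = c' := by
  by_contra hne
  exact hT c (diff_dvd hne h h').1

/-- if two names differ at a junction of `T`, every junction of `T` has the same unordered pair. -/
theorem pair {c c' d d' : Nm} {t t' s s' : ℕ} (hne : c ≠ c') (h : LOK D c t) (h' : ROK D c' t')
    (k : LOK D d s) (k' : ROK D d' s') (hT : t + t' = s + s') :
    (d = c ∧ d' = c') ∨ (d = c' ∧ d' = c) := by
  have hd := diff_dvd hne h h'
  rw [hT] at hd
  have hdd : d ≠ d' := by
    rintro rfl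
    exact (same_not_dvd k k' c).1 hd.1
  have e1 : c = d ∨ c = d' := by
    by_contra hcon
    push Not at hcon
    exact (diff_not_dvd k k' c hcon.1 hcon.2).1 hd.1
  have e2 : c' = d ∨ c' = d' := by
    by_contra hcon
    push Not at hcon
    exact (diff_not_dvd k k' c' hcon.1 hcon.2).2 hd.2
  rcases e1 with rfl | rfl
  · rcases e2 with rfl | rfl
    · exact absurd rfl hne
    · exact Or.inl ⟨rfl, rfl⟩
  · rcases e2 with rfl | rfl
    · exact Or.inr ⟨rfl, rfl⟩
    · exact absurd rfl hne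

/-- both orders occur only if the colours agree. -/
theorem swap {c c' : Nm} {t t' s s' : ℕ} (h : LOK D c t) (h' : ROK D c' t')
    (k : LOK D c' s) (k' : ROK D c s') (hT : t + t' = s + s') : D.col c = D.col c' := by
  funext j
  have h3 := h.2.2 j
  have h3' := h'.2.2 j
  have k3 := k.2.2 j
  have k3' := k'.2.2 j
  by_contra hcol
  by_cases hs : D.sg c j = D.sg c' j
  · -- types differ
    by_cases hty : D.col c j = D.sg c j
    · have hty' : ¬ D.col c' j = D.sg c' j := fun e => hcol (by rw [hty, e, hs])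
      rw [if_pos hty] at h3 k3'
      rw [if_neg hty'] at h3' k3
      have a : D.m j ∣ t + t' := dvd_add h3 h3'
      rw [hT] at a
      rw [hs] at k3'
      exact Sgn.add_not_dvd k3 k3' a
    · have hty' : D.col c' j = D.sg c' j := by
        cases h1 : D.col c j <;> cases h2 : D.col c' j <;> cases h4 : D.sg c j <;>
          cases h5 : D.sg c' j <;> simp_all
      rw [if_neg hty] at h3 k3'
      rw [if_pos hty'] at h3' k3
      have a : D.m j ∣ s + s' := dvd_add k3 k3'
      rw [← hT] at a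
      rw [hs] at h3
      exact Sgn.add_not_dvd h3 h3' a
  · by_cases hty : D.col c j = D.sg c j
    · have hty' : D.col c' j = D.sg c' j := by
        cases h1 : D.col c j <;> cases h2 : D.col c' j <;> cases h4 : D.sg c j <;>
          cases h5 : D.sg c' j <;> simp_all
      rw [if_pos hty] at h3 k3'
      rw [if_pos hty'] at h3' k3
      -- `t ≡ 0`, `t' ∈ S'`, `s ≡ 0`, `s' ∈ S`
      have a : (t + t') % D.m j = t' % D.m j := by
        rw [Nat.add_mod, Nat.mod_eq_zero_of_dvd h3]; simp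
      have b : (s + s') % D.m j = s' % D.m j := by
        rw [Nat.add_mod, Nat.mod_eq_zero_of_dvd k3]; simp
      have e1 : Sgn (D.m j) (D.sg c' j) (t + t') := h3'.congr a.symm
      have e2 : Sgn (D.m j) (D.sg c j) (t + t') := by
        rw [hT]; exact k3'.congr b.symm
      exact hs (e2.unique e1)
    · have hty' : ¬ D.col c' j = D.sg c' j := by
        intro e
        cases h1 : D.col c j <;> cases h2 : D.col c' j <;> cases h4 : D.sg c j <;>
          cases h5 : D.sg c' j <;> simp_all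
      rw [if_neg hty] at h3 k3'
      rw [if_neg hty'] at h3' k3
      have a : (t + t') % D.m j = t % D.m j := by
        rw [Nat.add_mod, Nat.mod_eq_zero_of_dvd h3']; simp
      have b : (s + s') % D.m j = s % D.m j := by
        rw [Nat.add_mod, Nat.mod_eq_zero_of_dvd k3']; simp
      have e1 : Sgn (D.m j) (D.sg c j) (t + t') := h3.congr a.symm
      have e2 : Sgn (D.m j) (D.sg c' j) (t + t') := by
        rw [hT]; exact k3.congr b.symm
      exact hs (e1.unique e2)

section Complete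

variable [Fintype Nm] [Fintype J] [DecidableEq Nm]

/-- all moduli. -/
def NS.mod (D : NS Nm J) : Nm ⊕ Nm ⊕ J → ℕ
  | Sum.inl l => D.q l
  | Sum.inr (Sum.inl l) => D.q' l
  | Sum.inr (Sum.inr j) => D.m j

/-- the product of all moduli. -/
def NS.M (D : NS Nm J) : ℕ := ∏ i, D.mod i

omit [Fintype Nm] [Fintype J] [DecidableEq Nm] in
theorem dvd_sub_iff' {μ t T : ℕ} (h : t ≤ T) (ht : μ ∣ t) : μ ∣ T - t ↔ μ ∣ T := by
  constructor
  · intro h1
    have := dvd_add h1 ht
    rwa [Nat.sub_add_cancel h] at this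
  · intro h1
    exact Nat.dvd_sub h1 ht

omit [Fintype Nm] [Fintype J] [DecidableEq Nm] in
theorem sgn_sub {m : ℕ} {s : Bool} {t T : ℕ} (h : t ≤ T) (ht : m ∣ t) (hT : Sgn m s T) :
    Sgn m s (T - t) := by
  refine hT.congr ?_
  obtain ⟨k, rfl⟩ := ht
  conv_lhs => rw [← Nat.sub_add_cancel h]
  rw [Nat.add_mod, Nat.mul_mod_right]
  simp

/-- **completeness of names**: if no modulus divides `T` and `c` has the right signs, the name `c`
occurs at a junction in every block of length `M`. -/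
theorem complete (hpos : ∀ i, D.mod i ≠ 0)
    (hco : Pairwise (Function.onFun Nat.Coprime D.mod)) {T : ℕ} {c : Nm}
    (hq : ∀ l, ¬ D.q l ∣ T) (hq' : ∀ l, ¬ D.q' l ∣ T) (hsg : ∀ j, Sgn (D.m j) (D.sg c j) T)
    (x0 : ℕ) (hx : x0 + D.M ≤ T + 1) :
    ∃ t, x0 ≤ t ∧ t < x0 + D.M ∧ t ≤ T ∧ LOK D c t ∧ ROK D c (T - t) := by
  classical
  let a : Nm ⊕ Nm ⊕ J → ℕ := fun i => match i with
    | Sum.inl l => if l = c then 0 else T
    | Sum.inr (Sum.inl l) => if l = c then T else 0
    | Sum.inr (Sum.inr j) => if D.col c j = D.sg c j then 0 else T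
  obtain ⟨k, hk⟩ := Nat.chineseRemainderOfFinset a D.mod Finset.univ (fun i _ => hpos i)
    (fun i _ j _ hij => hco hij)
  have hM0 : 0 < D.M := Finset.prod_pos (fun i _ => Nat.pos_of_ne_zero (hpos i))
  set r := (k + (D.M * x0 - x0)) % D.M with hr
  have hrM : r < D.M := Nat.mod_lt _ hM0
  have hle : x0 ≤ D.M * x0 := Nat.le_mul_of_pos_left _ hM0
  have hmodM : (x0 + r) % D.M = k % D.M := by
    have : (x0 + (k + (D.M * x0 - x0))) = k + D.M * x0 := by omega
    rw [hr, Nat.add_mod, Nat.mod_mod, ← Nat.add_mod, this, Nat.add_mul_mod_self_left]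
  have hcong : ∀ i, (x0 + r) % D.mod i = a i % D.mod i := by
    intro i
    have hd : D.mod i ∣ D.M := Finset.dvd_prod_of_mem _ (Finset.mem_univ i)
    have h1 : (x0 + r) % D.mod i = k % D.mod i := by
      have := congrArg (· % D.mod i) hmodM
      simpa [Nat.mod_mod_of_dvd _ hd] using this
    rw [h1]
    exact hk i (Finset.mem_univ i)
  have htT : x0 + r ≤ T := by omega
  have zero : ∀ i, a i = 0 → D.mod i ∣ x0 + r := by
    intro i hi
    apply Nat.dvd_of_mod_eq_zero
    rw [hcong i, hi, Nat.zero_mod]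
  have tee : ∀ i, a i = T → D.mod i ∣ T - (x0 + r) := by
    intro i hi
    have := hcong i
    rw [hi] at this
    exact (Nat.modEq_iff_dvd' htT).1 this
  have nd : ∀ i, ¬ D.mod i ∣ T → a i = 0 → D.mod i ∣ x0 + r ∧ ¬ D.mod i ∣ T - (x0 + r) := by
    intro i hT hi
    refine ⟨zero i hi, fun h => hT ?_⟩
    exact (dvd_sub_iff' htT (zero i hi)).1 h
  have nd' : ∀ i, ¬ D.mod i ∣ T → a i = T → ¬ D.mod i ∣ x0 + r ∧ D.mod i ∣ T - (x0 + r) := by
    intro i hT hi
    refine ⟨fun h => hT ?_, tee i hi⟩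
    have := dvd_add (tee i hi) h
    rwa [Nat.sub_add_cancel htT] at this
  refine ⟨x0 + r, Nat.le_add_right _ _, by omega, htT, ⟨?_, ?_, ?_⟩, ⟨?_, ?_, ?_⟩⟩
  · exact ⟨(nd (Sum.inl c) (hq c) (by simp [a])).1, (nd' (Sum.inr (Sum.inl c)) (hq' c) (by simp [a])).1⟩
  · intro l hl
    exact ⟨(nd' (Sum.inl l) (hq l) (by simp [a, hl])).1,
      (nd (Sum.inr (Sum.inl l)) (hq' l) (by simp [a, hl])).1⟩
  · intro j
    split_ifs with h
    · exact zero (Sum.inr (Sum.inr j)) (by simp [a, h])
    · refine (hsg j).congr ?_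
      have := hcong (Sum.inr (Sum.inr j))
      simp only [a, h, if_false] at this
      exact this.symm
  · exact ⟨(nd (Sum.inl c) (hq c) (by simp [a])).2, (nd' (Sum.inr (Sum.inl c)) (hq' c) (by simp [a])).2⟩
  · intro l hl
    exact ⟨(nd' (Sum.inl l) (hq l) (by simp [a, hl])).2,
      (nd (Sum.inr (Sum.inl l)) (hq' l) (by simp [a, hl])).2⟩
  · intro j
    split_ifs with h
    · exact sgn_sub htT (zero (Sum.inr (Sum.inr j)) (by simp [a, h])) (hsg j)
    · exact tee (Sum.inr (Sum.inr j)) (by simp [a, h])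

omit [DecidableEq Nm] in
/-- moduli exist: pairwise coprime odd numbers larger than any bound. -/
theorem exists_moduli (I : Type*) [Fintype I] (B : ℕ) :
    ∃ μ : I → ℕ, Pairwise (Function.onFun Nat.Coprime μ) ∧ ∀ i, B < μ i ∧ μ i % 2 = 1 ∧ 3 ≤ μ i := by
  classical
  have hinf : ({p : ℕ | p.Prime ∧ B + 3 < p}).Infinite := by
    have h1 := Nat.infinite_setOf_prime
    have h2 : ({p : ℕ | p.Prime} \ Set.Iic (B + 3)).Infinite := h1.diff (Set.finite_Iic _)
    refine h2.mono ?_
    intro p hp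
    exact ⟨hp.1, by simpa using hp.2⟩
  let e : ℕ ↪ {p : ℕ | p.Prime ∧ B + 3 < p} := hinf.natEmbedding
  let f : I → ℕ := fun i => (e (Fintype.equivFin I i : ℕ)).1
  refine ⟨f, ?_, ?_⟩
  · intro i j hij
    have hp := (e (Fintype.equivFin I i : ℕ)).2
    have hq := (e (Fintype.equivFin I j : ℕ)).2
    refine (Nat.coprime_primes hp.1 hq.1).2 ?_
    intro h
    have h1 : e (Fintype.equivFin I i : ℕ) = e (Fintype.equivFin I j : ℕ) := Subtype.ext h
    have h2 := e.injective h1
    exact hij ((Fintype.equivFin I).injective (Fin.ext h2))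
  · intro i
    have hp := (e (Fintype.equivFin I i : ℕ)).2
    have h2 : f i ≠ 2 := by
      have := hp.2
      simp only [f]
      omega
    have hgt : B + 3 < f i := hp.2
    exact ⟨by omega, (Nat.Prime.eq_two_or_odd hp.1).resolve_left h2, by omega⟩

end Complete

end Crest.Agent.R320.Names_274
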