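import Mathlib

/-!
ROW 320, names by divisibility (942 (1), 755 (A)) with a COLOUR KEY instead of half sets.

Clocks `t` (left) and `t'` (right), `T = t + t'` unknown.  A name `c` is shown by the left side
through divisibility patterns (`PL`) and by the residue `2 t = tau c + kap c` modulo an odd `m`,
by the right side through `PR` and `2 t' = tau c - kap c`.  Here `tau c` is the claimed value of
`T` modulo `m` and `kap c` is the colour of `c` (for instance a code of its pair of labels).

* `T` good (no modulus divides `T`): a legal pair of names is diagonal, and every name with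
  `tau c = T` modulo `m` is shown by both sides somewhere in every interval of length `M`.
* `T` bad: all legal pairs of names have the same pair (colour left, colour right).
-/

set_option autoImplicit false

namespace Crest.Agent.R320.Names_592

variable {K : Type*}

/-- left pattern of the name `c` -/
def PL (q q' : K → ℤ) (t : ℤ) (c : K) : Prop :=
  ∀ l, (l = c → q l ∣ t ∧ ¬ q' l ∣ t) ∧ (l ≠ c → q' l ∣ t ∧ ¬ q l ∣ t)

/-- right pattern of the name `c` -/
def PR (q q' : K → ℤ) (t : ℤ) (c : K) : Prop :=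
  ∀ l, (l = c → q' l ∣ t ∧ ¬ q l ∣ t) ∧ (l ≠ c → q l ∣ t ∧ ¬ q' l ∣ t)

/-- the left side may use the name `c` at clock `t` -/
def LL (q q' : K → ℤ) (m : ℤ) (tau kap : K → ℤ) (t : ℤ) (c : K) : Prop :=
  PL q q' t c ∧ m ∣ 2 * t - (tau c + kap c)

/-- the right side may use the name `c` at clock `t` -/
def RL (q q' : K → ℤ) (m : ℤ) (tau kap : K → ℤ) (t : ℤ) (c : K) : Prop :=
  PR q q' t c ∧ m ∣ 2 * t - (tau c - kap c)

/-- no pattern modulus divides `T` -/
def Good (q q' : K → ℤ) (T : ℤ) : Prop := ∀ l, ¬ q l ∣ T ∧ ¬ q' l ∣ T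

theorem PL.unique {q q' : K → ℤ} {t : ℤ} {c d : K} (h : PL q q' t c) (h' : PL q q' t d) :
    c = d := by
  by_contra hne
  exact ((h' c).2 hne).2 ((h c).1 rfl).1

theorem PR.unique {q q' : K → ℤ} {t : ℤ} {c d : K} (h : PR q q' t c) (h' : PR q q' t d) :
    c = d := by
  by_contra hne
  exact ((h' c).2 hne).2 ((h c).1 rfl).1

theorem LL.unique {q q' : K → ℤ} {m : ℤ} {tau kap : K → ℤ} {t : ℤ} {c d : K}
    (h : LL q q' m tau kap t c) (h' : LL q q' m tau kap t d) : c = d := h.1.unique h'.1

theorem RL.unique {q q' : K → ℤ} {m : ℤ} {tau kap : K → ℤ} {t : ℤ} {c d : K}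
    (h : RL q q' m tau kap t c) (h' : RL q q' m tau kap t d) : c = d := h.1.unique h'.1

theorem not_dvd_add_of_left {a x y : ℤ} (h1 : a ∣ x) (h2 : ¬ a ∣ y) : ¬ a ∣ x + y :=
  fun h => h2 ((Int.dvd_add_right h1).1 h)

theorem not_dvd_add_of_right {a x y : ℤ} (h1 : ¬ a ∣ x) (h2 : a ∣ y) : ¬ a ∣ x + y :=
  fun h => h1 ((Int.dvd_add_left h2).1 h)

/-- both sides show the same name: `T` is good -/
theorem good_of_same {q q' : K → ℤ} {t t' : ℤ} {c : K} (h : PL q q' t c) (h' : PR q q' t' c) :
    Good q q' (t + t') := by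
  intro l
  by_cases hl : l = c
  · exact ⟨not_dvd_add_of_left ((h l).1 hl).1 ((h' l).1 hl).2,
      not_dvd_add_of_right ((h l).1 hl).2 ((h' l).1 hl).1⟩
  · exact ⟨not_dvd_add_of_right ((h l).2 hl).2 ((h' l).2 hl).1,
      not_dvd_add_of_left ((h l).2 hl).1 ((h' l).2 hl).2⟩

/-- different names: `q c` and `q' c'` divide `T` -/
theorem dvd_of_diff {q q' : K → ℤ} {t t' : ℤ} {c c' : K} (h : PL q q' t c)
    (h' : PR q q' t' c') (hne : c ≠ c') : q c ∣ t + t' ∧ q' c' ∣ t + t' :=
  ⟨dvd_add ((h c).1 rfl).1 ((h' c).2 hne).1,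
    dvd_add ((h c').2 (Ne.symm hne)).1 ((h' c').1 rfl).1⟩

/-- different names: nothing else divides `T` -/
theorem not_dvd_of_diff {q q' : K → ℤ} {t t' : ℤ} {c c' : K} (h : PL q q' t c)
    (h' : PR q q' t' c') (l : K) (h1 : l ≠ c) (h2 : l ≠ c') :
    ¬ q l ∣ t + t' ∧ ¬ q' l ∣ t + t' :=
  ⟨not_dvd_add_of_right ((h l).2 h1).2 ((h' l).2 h2).1,
    not_dvd_add_of_left ((h l).2 h1).1 ((h' l).2 h2).2⟩

/-- AGREEMENT: at a good `T` both sides use the same name -/
theorem agree {q q' : K → ℤ} {m : ℤ} {tau kap : K → ℤ} {t t' : ℤ} {c c' : K}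
    (h : LL q q' m tau kap t c) (h' : RL q q' m tau kap t' c') (hT : Good q q' (t + t')) :
    c = c' := by
  by_contra hne
  exact (hT c).1 (dvd_of_diff h.1 h'.1 hne).1

theorem two_mul_dvd {m x : ℤ} (hm : IsCoprime m 2) (h : m ∣ 2 * x) : m ∣ x :=
  hm.dvd_of_dvd_mul_left h

/-- ... and this name claims the true value of `T` modulo `m` -/
theorem agree_key {q q' : K → ℤ} {m : ℤ} {tau kap : K → ℤ} {t t' : ℤ} {c : K}
    (hm : IsCoprime m 2)
    (h : LL q q' m tau kap t c) (h' : RL q q' m tau kap t' c) : m ∣ (t + t') - tau c := by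
  apply two_mul_dvd hm
  have := dvd_add h.2 h'.2
  have e : 2 * ((t + t') - tau c)
      = (2 * t - (tau c + kap c)) + (2 * t' - (tau c - kap c)) := by ring
  rw [e]; exact this

/-- the two orders of one pair at the same `T` have the same colour -/
theorem swap_colour {q q' : K → ℤ} {m : ℤ} {tau kap : K → ℤ} {t t' u u' : ℤ} {c c' : K}
    (hm : IsCoprime m 2) (h : LL q q' m tau kap t c) (h' : RL q q' m tau kap t' c')
    (k : LL q q' m tau kap u c') (k' : RL q q' m tau kap u' c) (hT : t + t' = u + u') :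
    m ∣ kap c - kap c' := by
  apply two_mul_dvd hm
  have a := dvd_add h.2 h'.2
  have b := dvd_add k.2 k'.2
  have e : 2 * (kap c - kap c')
      = ((2 * u - (tau c' + kap c')) + (2 * u' - (tau c - kap c)))
        - ((2 * t - (tau c + kap c)) + (2 * t' - (tau c' - kap c'))) := by
    linear_combination 2 * hT
  rw [e]; exact dvd_sub b a

theorem eq_of_dvd_sub {m a b : ℤ} (ha : 0 ≤ a) (ha' : a < m) (hb : 0 ≤ b) (hb' : b < m)
    (h : m ∣ a - b) : a = b := by
  have : a - b = 0 := by
    apply Int.eq_zero_of_abs_lt_dvd h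
    rw [abs_lt]; constructor <;> linarith
  linarith

/-- BAD `T`: any two legal pairs of names carry the same pair of colours -/
theorem bad_colour {q q' : K → ℤ} {m : ℤ} {tau kap : K → ℤ} {t t' u u' : ℤ} {c c' d d' : K}
    (hm : IsCoprime m 2) (hk : ∀ x, 0 ≤ kap x ∧ kap x < m)
    (h : LL q q' m tau kap t c) (h' : RL q q' m tau kap t' c')
    (k : LL q q' m tau kap u d) (k' : RL q q' m tau kap u' d')
    (hT : t + t' = u + u') (hbad : ¬ Good q q' (t + t')) :
    kap c = kap d ∧ kap c' = kap d' := by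
  have hcc : c ≠ c' := by
    rintro rfl; exact hbad (good_of_same h.1 h'.1)
  have hdd : d ≠ d' := by
    rintro rfl; exact hbad (by rw [hT]; exact good_of_same k.1 k'.1)
  -- the set of bad indices is `{c, c'}` and `{d, d'}`
  have hc := dvd_of_diff h.1 h'.1 hcc
  have hd := dvd_of_diff k.1 k'.1 hdd
  have key : ∀ x, (q x ∣ t + t' ∨ q' x ∣ t + t') → (x = c ∨ x = c') ∧ (x = d ∨ x = d') := by
    intro x hx
    constructor
    · by_contra hno
      push Not at hno
      have := not_dvd_of_diff h.1 h'.1 x hno.1 hno.2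
      rcases hx with hx | hx
      · exact this.1 hx
      · exact this.2 hx
    · by_contra hno
      push Not at hno
      have := not_dvd_of_diff k.1 k'.1 x hno.1 hno.2
      rw [hT] at hx
      rcases hx with hx | hx
      · exact this.1 hx
      · exact this.2 hx
  have k1 := (key c (Or.inl hc.1)).2
  have k2 := (key c' (Or.inr hc.2)).2
  rcases k1 with k1 | k1
  · rcases k2 with k2 | k2
    · exact absurd (k1.trans k2.symm) hcc
    · subst k1; subst k2; exact ⟨rfl, rfl⟩
  · rcases k2 with k2 | k2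
    · -- swapped
      subst k1; subst k2
      have := swap_colour hm h h' k k' hT
      have e := eq_of_dvd_sub (hk c).1 (hk c).2 (hk c').1 (hk c').2 this
      exact ⟨e, e.symm⟩
    · exact absurd (k1.trans k2.symm) hcc

/-- simultaneous congruences over the integers -/
theorem crt {ι : Type*} [Finite ι] (a : ι → ℤ) (hco : Pairwise fun i j => IsCoprime (a i) (a j))
    (g : ι → ℤ) : ∃ t : ℤ, ∀ i, a i ∣ t - g i := by
  classical
  have := Fintype.ofFinite ι
  have := Ideal.exists_forall_sub_mem_ideal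
    (I := fun i => Ideal.span {a i}) (by
      intro i j hij
      exact (Ideal.isCoprime_span_singleton_iff _ _).2 (hco hij)) g
  obtain ⟨t, ht⟩ := this
  exact ⟨t, fun i => Ideal.mem_span_singleton.1 (ht i)⟩

/-- COMPLETENESS: at a good `T` every name claiming the true residue of `T` is shown by both
sides at a clock of every interval of length `M` (any common multiple of all moduli). -/
theorem complete [Finite K] {q q' : K → ℤ} {m : ℤ} {tau kap : K → ℤ}
    (hqq : Pairwise fun i j => IsCoprime (q i) (q j))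
    (hqq' : Pairwise fun i j => IsCoprime (q' i) (q' j))
    (hx : ∀ i j, IsCoprime (q i) (q' j))
    (hqm : ∀ i, IsCoprime (q i) m) (hqm' : ∀ i, IsCoprime (q' i) m)
    (hm : IsCoprime m 2) (M : ℤ) (hM : 0 < M) (h1 : ∀ i, q i ∣ M) (h2 : ∀ i, q' i ∣ M)
    (h3 : m ∣ M) (T : ℤ) (hT : Good q q' T) (c : K) (hc : m ∣ T - tau c) (x : ℤ) :
    ∃ t, x ≤ t ∧ t < x + M ∧ LL q q' m tau kap t c ∧ RL q q' m tau kap (T - t) c := by
  classical
  -- a half modulo m
  obtain ⟨α, β, hαβ⟩ := hm
  -- α m + β 2 = 1, so β is a half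
  let a : Option (K ⊕ K) → ℤ := fun i => match i with
    | none => m
    | some (Sum.inl l) => q l
    | some (Sum.inr l) => q' l
  let g : Option (K ⊕ K) → ℤ := fun i => match i with
    | none => β * (T + kap c)
    | some (Sum.inl l) => if l = c then 0 else T
    | some (Sum.inr l) => if l = c then T else 0
  have hco : Pairwise fun i j => IsCoprime (a i) (a j) := by
    intro i j hij
    rcases i with _ | (i | i) <;> rcases j with _ | (j | j)
    · exact absurd rfl hij
    · exact (hqm j).symm
    · exact (hqm' j).symm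
    · exact hqm i
    · exact hqq (fun e => hij (by rw [e]))
    · exact hx i j
    · exact hqm' i
    · exact (hx j i).symm
    · exact hqq' (fun e => hij (by rw [e]))
  obtain ⟨t0, ht0⟩ := crt a hco g
  -- move into the interval
  let t : ℤ := x + (t0 - x) % M
  have htM : M ∣ t - t0 := by
    have := Int.emod_add_mul_ediv (t0 - x) M
    refine ⟨-((t0 - x) / M), ?_⟩
    simp only [t]
    linear_combination this
  have hq : ∀ l, q l ∣ t - (if l = c then 0 else T) := by
    intro l
    have e1 : q l ∣ t - t0 := (h1 l).trans htM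
    have e2 : q l ∣ t0 - (if l = c then 0 else T) := ht0 (some (Sum.inl l))
    have := dvd_add e1 e2
    simpa using this
  have hq' : ∀ l, q' l ∣ t - (if l = c then T else 0) := by
    intro l
    have e1 : q' l ∣ t - t0 := (h2 l).trans htM
    have e2 : q' l ∣ t0 - (if l = c then T else 0) := ht0 (some (Sum.inr l))
    have := dvd_add e1 e2
    simpa using this
  have hmm : m ∣ t - β * (T + kap c) := by
    have e1 : m ∣ t - t0 := h3.trans htM
    have e2 : m ∣ t0 - β * (T + kap c) := ht0 none
    have := dvd_add e1 e2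
    simpa using this
  have hmt : m ∣ 2 * t - (T + kap c) := by
    have : 2 * t - (T + kap c) = 2 * (t - β * (T + kap c)) + m * (-α * (T + kap c)) := by
      linear_combination (T + kap c) * hαβ
    rw [this]
    exact dvd_add (Dvd.dvd.mul_left hmm 2) (Dvd.intro _ rfl)
  refine ⟨t, ?_, ?_, ⟨?_, ?_⟩, ⟨?_, ?_⟩⟩
  · have := Int.emod_nonneg (t0 - x) hM.ne'
    simp only [t]; linarith
  · have := Int.emod_lt_of_pos (t0 - x) hM
    simp only [t]; linarith
  · intro l
    constructor
    · intro hl
      have a1 := hq l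
      have a2 := hq' l
      rw [if_pos hl] at a1 a2
      refine ⟨by simpa using a1, fun h => (hT l).2 ?_⟩
      have := dvd_sub h a2
      simpa using this
    · intro hl
      have a1 := hq l
      have a2 := hq' l
      rw [if_neg hl] at a1 a2
      refine ⟨by simpa using a2, fun h => (hT l).1 ?_⟩
      have := dvd_sub h a1
      simpa using this
  · have e : 2 * t - (tau c + kap c) = (2 * t - (T + kap c)) + (T - tau c) := by ring
    rw [e]; exact dvd_add hmt hc
  · intro l
    constructor
    · intro hl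
      have a1 := hq l
      have a2 := hq' l
      rw [if_pos hl] at a1 a2
      refine ⟨by rw [← dvd_neg]; simpa using a2, fun h => (hT l).1 ?_⟩
      have := dvd_add h a1
      simpa using this
    · intro hl
      have a1 := hq l
      have a2 := hq' l
      rw [if_neg hl] at a1 a2
      refine ⟨by rw [← dvd_neg]; simpa using a1, fun h => (hT l).2 ?_⟩
      have := dvd_add h a2
      simpa using this
  · have e : 2 * (T - t) - (tau c - kap c) = (T - tau c) - (2 * t - (T + kap c)) := by ring
    rw [e]; exact dvd_sub hc hmt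

/-- moduli exist: pairwise coprime, all larger than any given bound -/
theorem exists_moduli (K : Type*) [Finite K] (B : ℕ) :
    ∃ (q q' : K → ℤ) (m : ℤ), (Pairwise fun i j => IsCoprime (q i) (q j)) ∧
      (Pairwise fun i j => IsCoprime (q' i) (q' j)) ∧ (∀ i j, IsCoprime (q i) (q' j)) ∧
      (∀ i, IsCoprime (q i) m) ∧ (∀ i, IsCoprime (q' i) m) ∧ IsCoprime m 2 ∧
      (∀ i, (B : ℤ) < q i) ∧ (∀ i, (B : ℤ) < q' i) ∧ (B : ℤ) < m := by
  classical
  obtain ⟨n, ⟨e⟩⟩ := Finite.exists_equiv_fin K
  let P : ℕ → ℕ := fun k => Nat.nth Nat.Prime (B + 2 + k)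
  have hinf : (setOf Nat.Prime).Infinite := Nat.infinite_setOf_prime
  have hP : ∀ k, (P k).Prime := fun k => Nat.nth_mem_of_infinite hinf _
  have hinj : ∀ a b, a ≠ b → IsCoprime (P a : ℤ) (P b : ℤ) := by
    intro a b hab
    rw [Nat.isCoprime_iff_coprime]
    apply (Nat.coprime_primes (hP a) (hP b)).2
    intro h
    have := Nat.nth_injective hinf h
    omega
  have hlarge : ∀ k, (B : ℤ) < (P k : ℤ) ∧ (2 : ℤ) < (P k : ℤ) := by
    intro k
    have h1 : B + 2 + k ≤ P k :=
      (Nat.nth_strictMono hinf).le_apply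
    have h2 : Nat.nth Nat.Prime 0 < P k := Nat.nth_strictMono hinf (by omega)
    have h3 : (hP 0).two_le = (hP 0).two_le := rfl
    have h4 : 2 ≤ Nat.nth Nat.Prime 0 := (Nat.nth_mem_of_infinite hinf 0 : Nat.Prime _).two_le
    constructor
    · have : B < P k := by omega
      exact_mod_cast this
    · have : 2 < P k := by omega
      exact_mod_cast this
  refine ⟨fun i => P (2 * (e i).val), fun i => P (2 * (e i).val + 1), P (2 * n), ?_, ?_, ?_, ?_,
    ?_, ?_, fun i => (hlarge _).1, fun i => (hlarge _).1, (hlarge _).1⟩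
  · intro i j hij
    apply hinj
    intro h
    apply hij
    apply e.injective
    apply Fin.ext
    omega
  · intro i j hij
    apply hinj
    intro h
    apply hij
    apply e.injective
    apply Fin.ext
    omega
  · intro i j
    apply hinj
    omega
  · intro i
    apply hinj
    have := (e i).isLt
    omega
  · intro i
    apply hinj
    have := (e i).isLt
    omega
  · have : IsCoprime ((P (2 * n) : ℕ) : ℤ) ((2 : ℕ) : ℤ) := by
      rw [Nat.isCoprime_iff_coprime]
      apply (Nat.coprime_primes (hP _) Nat.prime_two).2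
      intro h
      have := (hlarge (2 * n)).2
      rw [h] at this
      norm_num at this
    simpa using this

/-- the common multiple `M` -/
theorem exists_modulus_M {K : Type*} [Finite K] {q q' : K → ℤ} {m : ℤ} (hq : ∀ i, 0 < q i)
    (hq' : ∀ i, 0 < q' i) (hm : 0 < m) :
    ∃ M : ℤ, 0 < M ∧ (∀ i, q i ∣ M) ∧ (∀ i, q' i ∣ M) ∧ m ∣ M := by
  classical
  have := Fintype.ofFinite K
  refine ⟨(∏ i, q i) * (∏ i, q' i) * m, ?_, ?_, ?_, ?_⟩
  · have h1 : 0 < ∏ i, q i := Finset.prod_pos fun i _ => hq i
    have h2 : 0 < ∏ i, q' i := Finset.prod_pos fun i _ => hq' i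
    positivity
  · intro i
    exact Dvd.dvd.mul_right (Dvd.dvd.mul_right (Finset.dvd_prod_of_mem _ (Finset.mem_univ i)) _) _
  · intro i
    exact Dvd.dvd.mul_right (Dvd.dvd.mul_left (Finset.dvd_prod_of_mem _ (Finset.mem_univ i)) _) _
  · exact Dvd.intro_left _ rfl

end Crest.Agent.R320.Names_592
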