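import Mathlib.Data.Nat.ChineseRemainder
import Mathlib.Data.Fintype.Prod
import Mathlib.Data.Fintype.Sum
import Mathlib.Data.Fintype.BigOperators
import Mathlib.Algebra.Order.BigOperators.Ring.Finset
import Mathlib.Tactic.Ring
import Mathlib.Tactic.Linarith

/-! # Row 320 (S0495), two-scheme chain: the deterministic NAME CODE (755 #12640 (A), (B); 942; 811).

`md : ι × Bool → ℕ` : two moduli per name, all pairwise coprime.
A left clock `t` shows the name `c`, a right clock `t'` shows the name `c'`; `T = t + t'`.
* `names_same`  : names agree  => no modulus divides `T`;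
* `names_diff`  : names differ => `md (c, false)` and `md (c', true)` divide `T`, and no modulus of
                  a third name does;
* `names_pair`  : all junctions with the same `T` show the same unordered pair of names;
* `full_complete` : if no modulus divides `T`, every name occurs in every interval of length
                  `∏ md` at a junction with total `T` (CRT);
* `swap_bit`, `full_sound` : with the half-set coordinates, `(c | c')` and `(c' | c)` with the same `T`
                  force equal colours.
-/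

namespace Crest.Agent.R320.Names72

variable {ι : Type*} [DecidableEq ι]

/-- the left clock `t` shows the name `c` -/
def LName (md : ι × Bool → ℕ) (c : ι) (t : ℕ) : Prop :=
  ∀ l, if l = c then (md (l, false) ∣ t ∧ ¬ md (l, true) ∣ t)
    else (¬ md (l, false) ∣ t ∧ md (l, true) ∣ t)

/-- the right clock `t` shows the name `c` -/
def RName (md : ι × Bool → ℕ) (c : ι) (t : ℕ) : Prop :=
  ∀ l, if l = c then (¬ md (l, false) ∣ t ∧ md (l, true) ∣ t)
    else (md (l, false) ∣ t ∧ ¬ md (l, true) ∣ t)

theorem names_same {md : ι × Bool → ℕ} {c : ι} {t t' : ℕ}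
    (hL : LName md c t) (hR : RName md c t') (i : ι × Bool) : ¬ md i ∣ t + t' := by
  obtain ⟨l, b⟩ := i
  have h1 := hL l
  have h2 := hR l
  by_cases hlc : l = c
  · rw [if_pos hlc] at h1 h2
    cases b
    · exact fun h => h2.1 ((Nat.dvd_add_right h1.1).1 h)
    · exact fun h => h1.2 ((Nat.dvd_add_left h2.2).1 h)
  · rw [if_neg hlc] at h1 h2
    cases b
    · exact fun h => h1.1 ((Nat.dvd_add_left h2.1).1 h)
    · exact fun h => h2.2 ((Nat.dvd_add_right h1.2).1 h)

theorem names_diff {md : ι × Bool → ℕ} {c c' : ι} {t t' : ℕ} (hcc : c ≠ c')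
    (hL : LName md c t) (hR : RName md c' t') :
    md (c, false) ∣ t + t' ∧ md (c', true) ∣ t + t' ∧
      ∀ l, l ≠ c → l ≠ c' → ∀ b, ¬ md (l, b) ∣ t + t' := by
  refine ⟨?_, ?_, ?_⟩
  · have h1 := hL c
    have h2 := hR c
    rw [if_pos rfl] at h1
    rw [if_neg hcc] at h2
    exact dvd_add h1.1 h2.1
  · have h1 := hL c'
    have h2 := hR c'
    rw [if_neg (Ne.symm hcc)] at h1
    rw [if_pos rfl] at h2
    exact dvd_add h1.2 h2.2
  · intro l hl hl' b
    have h1 := hL l
    have h2 := hR l
    rw [if_neg hl] at h1
    rw [if_neg hl'] at h2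
    cases b
    · exact fun h => h1.1 ((Nat.dvd_add_left h2.1).1 h)
    · exact fun h => h2.2 ((Nat.dvd_add_right h1.2).1 h)

/-- All junctions of one zone show the same unordered pair of names. -/
theorem names_pair {md : ι × Bool → ℕ} {c c' d d' : ι} {t t' u u' : ℕ}
    (hT : t + t' = u + u') (hL : LName md c t) (hR : RName md c' t')
    (kL : LName md d u) (kR : RName md d' u') :
    (c = c' ∧ d = d') ∨ (c ≠ c' ∧ ((d = c ∧ d' = c') ∨ (d = c' ∧ d' = c))) := by
  by_cases hcc : c = c'
  · left
    refine ⟨hcc, ?_⟩
    by_contra hdd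
    subst hcc
    exact names_same hL hR (d, false) (hT ▸ (names_diff hdd kL kR).1)
  · right
    refine ⟨hcc, ?_⟩
    have h := names_diff hcc hL hR
    have hdd : d ≠ d' := by
      rintro rfl
      exact names_same kL kR (c, false) (hT ▸ h.1)
    have k := names_diff hdd kL kR
    have hc : c = d ∨ c = d' := by
      by_contra hne
      push Not at hne
      exact k.2.2 c hne.1 hne.2 false (hT ▸ h.1)
    have hc' : c' = d ∨ c' = d' := by
      by_contra hne
      push Not at hne
      exact k.2.2 c' hne.1 hne.2 true (hT ▸ h.2.1)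
    rcases hc with rfl | rfl
    · rcases hc' with rfl | rfl
      · exact absurd rfl hcc
      · exact Or.inl ⟨rfl, rfl⟩
    · rcases hc' with rfl | rfl
      · exact Or.inr ⟨rfl, rfl⟩
      · exact absurd rfl hcc

/-- Simultaneous congruences in a given interval. -/
theorem crt_interval {κ : Type*} [Fintype κ] [DecidableEq κ] (m : κ → ℕ) (hm : ∀ i, 0 < m i)
    (hco : Pairwise (Function.onFun Nat.Coprime m)) (x : κ → ℕ) (s : ℕ) :
    ∃ t, s ≤ t ∧ t < s + ∏ i, m i ∧ ∀ i, t ≡ x i [MOD m i] := by
  classical
  have hpos : 0 < ∏ i, m i := Finset.prod_pos fun i _ => hm i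
  obtain ⟨t0, ht0⟩ : ∃ t0, ∀ i, t0 ≡ x i [MOD m i] := by
    have := Nat.chineseRemainderOfFinset x m Finset.univ (fun i _ => (hm i).ne')
      (fun i _ j _ hij => hco hij)
    exact ⟨this.1, fun i => this.2 i (Finset.mem_univ i)⟩
  set M := ∏ i, m i with hM
  refine ⟨s + (t0 + (M - 1) * s) % M, Nat.le_add_right _ _,
    Nat.add_lt_add_left (Nat.mod_lt _ hpos) _, fun i => ?_⟩
  have hdvd : m i ∣ M := Finset.dvd_prod_of_mem m (Finset.mem_univ i)
  have h1 : s + (t0 + (M - 1) * s) % M ≡ t0 [MOD M] := by
    have h2 : s + (t0 + (M - 1) * s) % M ≡ s + (t0 + (M - 1) * s) [MOD M] :=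
      Nat.ModEq.add_left _ (Nat.mod_modEq _ _)
    have h3 : s + (t0 + (M - 1) * s) = t0 + M * s := by
      obtain ⟨k, hk⟩ := Nat.exists_eq_succ_of_ne_zero hpos.ne'
      rw [hk]
      simp only [Nat.succ_sub_one]
      rw [Nat.succ_eq_add_one]
      ring
    rw [h3] at h2
    exact h2.trans (by
      have : t0 + M * s ≡ t0 + 0 [MOD M] :=
        Nat.ModEq.add_left _ ((Nat.modEq_zero_iff_dvd).2 (Nat.dvd_mul_right M s))
      simp at this ⊢)
  exact (h1.of_dvd hdvd).trans (ht0 i)

/-- half sets: `true` = `{1, .., (m-1)/2}`, `false` = the other nonzero residues -/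
def Half (m : ℕ) (e : Bool) (t : ℕ) : Prop :=
  if e then (1 ≤ t % m ∧ 2 * (t % m) < m) else (m < 2 * (t % m))

theorem half_ne_zero {m : ℕ} {e : Bool} {t : ℕ} (h : Half m e t) : t % m ≠ 0 := by
  intro h0
  cases e
  · simp only [Half, h0] at h
    simp at h
  · simp only [Half, h0] at h
    simp at h

theorem half_excl {m : ℕ} {t : ℕ} (h : Half m true t) (h' : Half m false t) : False := by
  simp only [Half, if_true] at h
  simp only [Half] at h'
  simp at h'
  omega

theorem half_add_ne {m : ℕ} {e : Bool} {t t' : ℕ} (hm : 0 < m) (h : Half m e t)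
    (h' : Half m e t') : (t + t') % m ≠ 0 := by
  have h1 : t % m < m := Nat.mod_lt _ hm
  have h2 : t' % m < m := Nat.mod_lt _ hm
  rw [Nat.add_mod]
  cases e
  · simp [Half] at h h'
    intro h0
    have h3 : (t % m + t' % m) = (t % m + t' % m - m) + m := by omega
    rw [h3, Nat.add_mod_right, Nat.mod_eq_of_lt (by omega)] at h0
    omega
  · simp [Half] at h h'
    rw [Nat.mod_eq_of_lt (by omega)]
    omega

theorem half_add_zero {m : ℕ} {e : Bool} {t t' : ℕ} (h0 : t % m = 0) (h' : Half m e t') :
    Half m e (t + t') := by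
  have : (t + t') % m = t' % m := by
    rw [Nat.add_mod, h0, Nat.zero_add, Nat.mod_mod]
  unfold Half at h' ⊢
  rw [this]
  exact h'

/-- every total which is not `0` mod an odd `m` has a sign -/
theorem half_sign {m : ℕ} (hodd : m % 2 = 1) (t : ℕ) (h : t % m ≠ 0) :
    ∃ e, Half m e t := by
  by_cases h2 : 2 * (t % m) < m
  · exact ⟨true, by simp [Half]; omega⟩
  · exact ⟨false, by simp [Half]; omega⟩

/-- left half-set coordinate of a name with colour bit `k` and family bit `e` -/
def LHalf (m : ℕ) (k e : Bool) (t : ℕ) : Prop :=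
  if xor k e then Half m e t else t % m = 0

/-- right half-set coordinate -/
def RHalf (m : ℕ) (k e : Bool) (t : ℕ) : Prop :=
  if xor k e then t % m = 0 else Half m e t

/-- SWAP: `(c | c')` and `(c' | c)` at the same total force the same colour bit. -/
theorem swap_bit {m : ℕ} (hm : 0 < m) {k e k' e' : Bool} {t t' u u' : ℕ}
    (hT : t + t' = u + u') (h1 : LHalf m k e t) (h2 : RHalf m k' e' t')
    (h3 : LHalf m k' e' u) (h4 : RHalf m k e u') : k = k' := by
  by_contra hk
  have key0 : ∀ {a b : ℕ}, a % m = 0 → b % m = 0 → (a + b) % m = 0 := by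
    intro a b ha hb
    rw [Nat.add_mod, ha, hb]; simp
  have hk' : k' = !k := by
    cases k <;> cases k' <;> first | rfl | exact absurd rfl hk
  subst hk'
  unfold LHalf at h1 h3
  unfold RHalf at h2 h4
  by_cases he : e = e'
  · subst he
    cases hx : xor k e with
    | false =>
      have hx' : xor (!k) e = true := by cases k <;> cases e <;> simp_all
      rw [hx] at h1 h4
      rw [hx'] at h2 h3
      simp only [if_true] at h2 h3
      simp only [Bool.false_eq_true, if_false] at h1 h4
      have h0 : (t + t') % m = 0 := key0 h1 h2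
      rw [hT] at h0
      exact half_add_ne hm h3 h4 h0
    | true =>
      have hx' : xor (!k) e = false := by cases k <;> cases e <;> simp_all
      rw [hx] at h1 h4
      rw [hx'] at h2 h3
      simp only [if_true] at h1 h4
      simp only [Bool.false_eq_true, if_false] at h2 h3
      have h0 : (u + u') % m = 0 := key0 h3 h4
      rw [← hT] at h0
      exact half_add_ne hm h1 h2 h0
  · have he' : e' = !e := by
      cases e <;> cases e' <;> first | rfl | exact absurd rfl he
    subst he'
    have hxx : xor (!k) (!e) = xor k e := by cases k <;> cases e <;> rfl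
    rw [hxx] at h2 h3
    have excl : ∀ {T : ℕ}, Half m e T → Half m (!e) T → False := by
      intro T ha hb
      cases e
      · exact half_excl (by simpa using hb) ha
      · exact half_excl ha (by simpa using hb)
    cases hx : xor k e with
    | false =>
      rw [hx] at h1 h2 h3 h4
      simp only [Bool.false_eq_true, if_false] at h1 h2 h3 h4
      have a1 : Half m (!e) (t + t') := half_add_zero h1 h2
      have a2 : Half m e (u + u') := half_add_zero h3 h4
      rw [← hT] at a2
      exact excl a2 a1
    | true =>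
      rw [hx] at h1 h2 h3 h4
      simp only [if_true] at h1 h2 h3 h4
      have a1 : Half m e (t' + t) := half_add_zero h2 h1
      have a2 : Half m (!e) (u' + u) := half_add_zero h4 h3
      rw [Nat.add_comm] at a1 a2
      rw [← hT] at a2
      exact excl a1 a2

section full

variable {J : Type*}

/-- the full left / right readings of a name `c` with colour `col c` and family `eps c` -/
def LFull (md : ι × Bool → ℕ) (mh : J → ℕ) (col eps : ι → J → Bool) (c : ι) (t : ℕ) : Prop :=
  LName md c t ∧ ∀ j, LHalf (mh j) (col c j) (eps c j) t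

def RFull (md : ι × Bool → ℕ) (mh : J → ℕ) (col eps : ι → J → Bool) (c : ι) (t : ℕ) : Prop :=
  RName md c t ∧ ∀ j, RHalf (mh j) (col c j) (eps c j) t

/-- SOUNDNESS OF THE NAMES FOR EVERY TOTAL: the labels `(colour of the left name, colour of the
right name)` are the same at all junctions of one zone, and the names agree unless the zone is
bad.  Here `κ` is the datum (token, end label) coded by the colour. -/
theorem full_sound {md : ι × Bool → ℕ} {mh : J → ℕ} (hmh : ∀ j, 0 < mh j)
    {col eps : ι → J → Bool} {c c' d d' : ι} {t t' u u' : ℕ} (hT : t + t' = u + u')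
    (hL : LFull md mh col eps c t) (hR : RFull md mh col eps c' t')
    (kL : LFull md mh col eps d u) (kR : RFull md mh col eps d' u') :
    (c = c' ∧ d = d') ∨ (c ≠ c' ∧ col d = col c ∧ col d' = col c') := by
  rcases names_pair hT hL.1 hR.1 kL.1 kR.1 with h | ⟨hcc, h | h⟩
  · exact Or.inl h
  · obtain ⟨rfl, rfl⟩ := h
    exact Or.inr ⟨hcc, rfl, rfl⟩
  · obtain ⟨rfl, rfl⟩ := h
    have hcol : col d' = col d :=
      funext fun j => swap_bit (hmh j) hT (hL.2 j) (hR.2 j) (kL.2 j) (kR.2 j)
    exact Or.inr ⟨hcc, hcol.symm, hcol⟩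

/-- COMPLETENESS: if no modulus divides `T` and the family of the name is the sign vector of `T`,
the name occurs at a junction with total `T` in every interval of length `∏ md * ∏ mh`. -/
theorem full_complete [Fintype ι] [Fintype J] [DecidableEq J] {md : ι × Bool → ℕ} {mh : J → ℕ}
    (hmd : ∀ i, 0 < md i) (hmh : ∀ j, 0 < mh j)
    (hco : Pairwise (Function.onFun Nat.Coprime (Sum.elim md mh)))
    {col eps : ι → J → Bool} {T : ℕ} (hT : ∀ i, ¬ md i ∣ T) (c : ι)
    (hs : ∀ j, Half (mh j) (eps c j) T) (s : ℕ)
    (hsT : s + (∏ i, Sum.elim md mh i) ≤ T + 1) :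
    ∃ t t', s ≤ t ∧ t < s + (∏ i, Sum.elim md mh i) ∧ t + t' = T ∧
      LFull md mh col eps c t ∧ RFull md mh col eps c t' := by
  classical
  let x : (ι × Bool) ⊕ J → ℕ := Sum.elim
    (fun i => if i.1 = c then (if i.2 then T else 0) else (if i.2 then 0 else T))
    (fun j => if xor (col c j) (eps c j) then T else 0)
  obtain ⟨t, h1, h2, h3⟩ := crt_interval (Sum.elim md mh)
    (by rintro (i | j); exacts [hmd i, hmh j]) hco x s
  have htT : t ≤ T := by omega
  have hx1 : ∀ i : ι × Bool, t ≡ x (Sum.inl i) [MOD md i] := fun i => h3 (Sum.inl i)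
  have hx2 : ∀ j : J, t ≡ x (Sum.inr j) [MOD mh j] := fun j => h3 (Sum.inr j)
  have dvd_t : ∀ i, t ≡ 0 [MOD md i] → md i ∣ t ∧ ¬ md i ∣ T - t := by
    intro i hi
    have hd : md i ∣ t := (Nat.modEq_zero_iff_dvd).1 hi
    refine ⟨hd, fun h => hT i ?_⟩
    have := dvd_add h hd
    rwa [Nat.sub_add_cancel htT] at this
  have dvd_Tt : ∀ i, t ≡ T [MOD md i] → md i ∣ T - t ∧ ¬ md i ∣ t := by
    intro i hi
    have hd : md i ∣ T - t := (Nat.modEq_iff_dvd' htT).1 hi
    refine ⟨hd, fun h => hT i ?_⟩
    have := dvd_add hd h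
    rwa [Nat.sub_add_cancel htT] at this
  refine ⟨t, T - t, h1, h2, by omega, ⟨fun l => ?_, fun j => ?_⟩, ⟨fun l => ?_, fun j => ?_⟩⟩
  · by_cases hl : l = c
    · rw [if_pos hl]
      have a := hx1 (l, false)
      have b := hx1 (l, true)
      simp only [x, Sum.elim_inl, hl, if_true] at a b
      simp at a
      subst hl
      exact ⟨(dvd_t _ a).1, (dvd_Tt _ b).2⟩
    · rw [if_neg hl]
      have a := hx1 (l, false)
      have b := hx1 (l, true)
      simp only [x, Sum.elim_inl, hl, if_false] at a b
      simp at a b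
      exact ⟨(dvd_Tt _ a).2, (dvd_t _ b).1⟩
  · have a := hx2 j
    unfold LHalf
    cases hx : xor (col c j) (eps c j) with
    | false =>
      simp only [x, Sum.elim_inr, hx] at a
      simp at a
      simp
      exact a
    | true =>
      simp only [x, Sum.elim_inr, hx, if_true] at a
      simp only [if_true]
      have : t % mh j = T % mh j := a
      unfold Half
      rw [this]
      exact hs j
  · by_cases hl : l = c
    · rw [if_pos hl]
      have a := hx1 (l, false)
      have b := hx1 (l, true)
      simp only [x, Sum.elim_inl, hl, if_true] at a b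
      simp at a
      subst hl
      exact ⟨(dvd_t _ a).2, (dvd_Tt _ b).1⟩
    · rw [if_neg hl]
      have a := hx1 (l, false)
      have b := hx1 (l, true)
      simp only [x, Sum.elim_inl, hl, if_false] at a b
      simp at a b
      exact ⟨(dvd_Tt _ a).1, (dvd_t _ b).2⟩
  · have a := hx2 j
    unfold RHalf
    cases hx : xor (col c j) (eps c j) with
    | false =>
      simp only [x, Sum.elim_inr, hx] at a
      simp at a
      simp
      have h0 : t % mh j = 0 := a
      have : (T - t) % mh j = T % mh j := by
        have hd : mh j ∣ t := Nat.dvd_of_mod_eq_zero h0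
        conv_rhs => rw [← Nat.sub_add_cancel htT]
        rw [Nat.add_mod, h0, Nat.add_zero, Nat.mod_mod]
      unfold Half
      rw [this]
      exact hs j
    | true =>
      simp only [x, Sum.elim_inr, hx, if_true] at a
      simp only [if_true]
      exact Nat.mod_eq_zero_of_dvd ((Nat.modEq_iff_dvd' htT).1 a)

end full

end Crest.Agent.R320.Names72
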