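import Mathlib

/-!
# Row 320: the names lemma (755 #12640 (A)(B), 811 #12631 (2)), pure arithmetic

Left clock `o`, right clock `o'`, `T = o + o'` unknown to both.  Full names `n = (c, eps)`, with
`c : K` and `eps : Γ → Bool`; moduli `mu` indexed by `(K × (Γ → Bool)) × Bool ⊕ Γ`, pairwise
coprime and odd.
* `good_eq`   : no modulus divides `T` => left name = right name at every junction;
* `bad_colour`: some modulus divides `T` => any two junctions carry the same left colour and the
                same right colour;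
* `complete`  : no modulus divides `T` => every `c` occurs in every `M` consecutive clocks.
-/

set_option autoImplicit false
set_option linter.unusedSectionVars false

namespace Crest.Agent.R320.Names_781

variable {K Γ : Type} [DecidableEq K] [DecidableEq Γ] [Fintype K] [Fintype Γ]

/-- full names -/
abbrev Nm (K Γ : Type) := K × (Γ → Bool)

/-- indices of the moduli -/
abbrev Ix (K Γ : Type) := (Nm K Γ × Bool) ⊕ Γ

/-- half sets: `S true m` = small nonzero residues, `S false m` = big residues -/
def S (b : Bool) (m o : ℕ) : Prop :=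
  if b then 0 < o % m ∧ 2 * (o % m) < m else m < 2 * (o % m)

/-- the type bit of the full name `n` at colour `g` -/
def ty (col : K → Γ) (n : Nm K Γ) (g : Γ) : Bool := xor (decide (col n.1 = g)) (n.2 g)

/-- left part of the clock at the colour modulus -/
def LX (t e : Bool) (m o : ℕ) : Prop := if t then S e m o else m ∣ o

/-- right part -/
def RX (t e : Bool) (m o : ℕ) : Prop := if t then m ∣ o else S e m o

/-- the left clock `o` shows the full name `n` -/
def LN (col : K → Γ) (mu : Ix K Γ → ℕ) (n : Nm K Γ) (o : ℕ) : Prop :=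
  (∀ l : Nm K Γ, (mu (.inl (l, true)) ∣ o ↔ n = l) ∧ (mu (.inl (l, false)) ∣ o ↔ n ≠ l)) ∧
    ∀ g : Γ, LX (ty col n g) (n.2 g) (mu (.inr g)) o

/-- the right clock `o'` shows the full name `n` -/
def RN (col : K → Γ) (mu : Ix K Γ → ℕ) (n : Nm K Γ) (o : ℕ) : Prop :=
  (∀ l : Nm K Γ, (mu (.inl (l, true)) ∣ o ↔ n ≠ l) ∧ (mu (.inl (l, false)) ∣ o ↔ n = l)) ∧
    ∀ g : Γ, RX (ty col n g) (n.2 g) (mu (.inr g)) o

theorem S_not_dvd {b : Bool} {m o : ℕ} (h : S b m o) : ¬ m ∣ o := by
  intro hd
  have h0 : o % m = 0 := Nat.mod_eq_zero_of_dvd hd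
  cases b <;> simp [S, h0] at h

theorem S_disj {b : Bool} {m o : ℕ} (h : S b m o) (h' : S (!b) m o) : False := by
  cases b <;> simp [S] at h h' <;> omega

theorem S_congr {b : Bool} {m o o' : ℕ} (e : o % m = o' % m) (h : S b m o) : S b m o' := by
  simpa [S, e] using h

/-- `o + o'` is not divisible by `m` when both are in the same half set -/
theorem S_add {b : Bool} {m o o' : ℕ} (h : S b m o) (h' : S b m o') : ¬ m ∣ o + o' := by
  intro hd
  have h1 : (o % m + o' % m) % m = 0 := by
    rw [← Nat.add_mod]; exact Nat.mod_eq_zero_of_dvd hd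
  have hm : 0 < m := by
    rcases Nat.eq_zero_or_pos m with rfl | hm
    · cases b
      · exact absurd h' (by
          intro _
          have h2 := hd
          simp at h2
          simp [S] at h
          omega)
      · simp [S] at h
    · exact hm
  have h2 := Nat.mod_lt o hm
  have h3 := Nat.mod_lt o' hm
  obtain ⟨k, hk⟩ := Nat.dvd_of_mod_eq_zero h1
  cases b
  · simp [S] at h h'
    have hk1 : 1 < k := by
      by_contra hc
      have : m * k ≤ m * 1 := Nat.mul_le_mul_left _ (by omega)
      omega
    have : m * 2 ≤ m * k := Nat.mul_le_mul_left _ hk1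
    omega
  · simp [S] at h h'
    have hk0 : k ≠ 0 := by rintro rfl; omega
    have : m * 1 ≤ m * k := Nat.mul_le_mul_left _ (by omega)
    omega

theorem mod_add_left {m o o' T : ℕ} (hT : o + o' = T) (h : m ∣ o) : o' % m = T % m := by
  obtain ⟨k, rfl⟩ := h
  rw [← hT, Nat.add_comm, Nat.add_mul_mod_self_left]

theorem mod_add_right {m o o' T : ℕ} (hT : o + o' = T) (h : m ∣ o') : o % m = T % m := by
  obtain ⟨k, rfl⟩ := h
  rw [← hT, Nat.add_mul_mod_self_left]

variable {col : K → Γ} {mu : Ix K Γ → ℕ}

/-- (1) no modulus divides `T`: the names agree -/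
theorem good_eq {n n' : Nm K Γ} {o o' T : ℕ} (hT : o + o' = T) (hg : ∀ i, ¬ mu i ∣ T)
    (hL : LN col mu n o) (hR : RN col mu n' o') : n = n' := by
  by_contra hne
  have h1 : mu (.inl (n, true)) ∣ o := (hL.1 n).1.2 rfl
  have h2 : mu (.inl (n, true)) ∣ o' := (hR.1 n).1.2 (fun h => hne h.symm)
  exact hg (.inl (n, true)) (hT ▸ Nat.dvd_add h1 h2)

/-- equal names: no modulus divides `T` -/
theorem eq_good {n : Nm K Γ} {o o' T : ℕ} (hT : o + o' = T)
    (hL : LN col mu n o) (hR : RN col mu n o') : ∀ i, ¬ mu i ∣ T := by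
  rintro (⟨l, b⟩ | g) hd
  · rw [← hT] at hd
    cases b
    · by_cases h : n = l
      · have h1 := ((hR.1 l).2).2 h
        have h2 : mu (.inl (l, false)) ∣ o := (Nat.dvd_add_left h1).1 hd
        exact ((hL.1 l).2.1 h2) h
      · have h1 := ((hL.1 l).2).2 h
        have h2 : mu (.inl (l, false)) ∣ o' := (Nat.dvd_add_right h1).1 hd
        exact h ((hR.1 l).2.1 h2)
    · by_cases h : n = l
      · have h1 := ((hL.1 l).1).2 h
        have h2 : mu (.inl (l, true)) ∣ o' := (Nat.dvd_add_right h1).1 hd
        exact ((hR.1 l).1.1 h2) h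
      · have h1 := ((hR.1 l).1).2 h
        have h2 : mu (.inl (l, true)) ∣ o := (Nat.dvd_add_left h1).1 hd
        exact h ((hL.1 l).1.1 h2)
  · rw [← hT] at hd
    have hl := hL.2 g
    have hr := hR.2 g
    cases ht : ty col n g
    · simp [LX, RX, ht] at hl hr
      exact S_not_dvd hr ((Nat.dvd_add_right hl).1 hd)
    · simp [LX, RX, ht] at hl hr
      exact S_not_dvd hl ((Nat.dvd_add_left hr).1 hd)

/-- all junctions over a bad `T` lie in one unordered pair -/
theorem pair_mem {n n' d d' : Nm K Γ} {o o' p p' T : ℕ} (hT : o + o' = T) (hT' : p + p' = T)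
    (hne : n ≠ n') (hL : LN col mu n o) (hR : RN col mu n' o') (hL' : LN col mu d p)
    (hR' : RN col mu d' p') : (n = d ∨ n = d') ∧ (n' = d ∨ n' = d') := by
  constructor
  · by_contra hc
    push Not at hc
    have h1 : mu (.inl (n, true)) ∣ o := (hL.1 n).1.2 rfl
    have h2 : mu (.inl (n, true)) ∣ o' := (hR.1 n).1.2 (fun h => hne h.symm)
    have h3 : mu (.inl (n, true)) ∣ p + p' := hT' ▸ hT ▸ Nat.dvd_add h1 h2
    have h4 : mu (.inl (n, true)) ∣ p' := (hR'.1 n).1.2 (fun h => hc.2 h.symm)
    have h5 : mu (.inl (n, true)) ∣ p := (Nat.dvd_add_left h4).1 h3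
    exact hc.1 ((hL'.1 n).1.1 h5).symm
  · by_contra hc
    push Not at hc
    have h1 : mu (.inl (n', false)) ∣ o := (hL.1 n').2.2 hne
    have h2 : mu (.inl (n', false)) ∣ o' := (hR.1 n').2.2 rfl
    have h3 : mu (.inl (n', false)) ∣ p + p' := hT' ▸ hT ▸ Nat.dvd_add h1 h2
    have h4 : mu (.inl (n', false)) ∣ p := (hL'.1 n').2.2 (fun h => hc.1 h.symm)
    have h5 : mu (.inl (n', false)) ∣ p' := (Nat.dvd_add_right h4).1 h3
    exact hc.2 ((hR'.1 n').2.1 h5).symm

/-- the two orders of a pair with different colours never meet over the same `T` -/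
theorem no_swap {n n' : Nm K Γ} {o o' p p' T : ℕ} (hT : o + o' = T) (hT' : p + p' = T)
    (hL : LN col mu n o) (hR : RN col mu n' o') (hL' : LN col mu n' p)
    (hR' : RN col mu n p') : col n.1 = col n'.1 := by
  by_contra hc
  set g : Γ := col n.1 with hg
  have hl := hL.2 g
  have hr := hR.2 g
  have hl' := hL'.2 g
  have hr' := hR'.2 g
  have t1 : ty col n g = !(n.2 g) := by simp [ty, hg]
  have t2 : ty col n' g = n'.2 g := by
    have : decide (col n'.1 = g) = false := by simpa using fun h => hc h.symm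
    simp [ty, this]
  rw [t1] at hl hr'
  rw [t2] at hr hl'
  cases e1 : n.2 g <;> cases e2 : n'.2 g <;> simp [LX, RX, e1, e2] at hl hr hl' hr'
  · -- n.2 = false, n'.2 = false: left S false o ; right S false o' ; left m | p ; right m | p'
    exact S_add hl hr (hT ▸ hT' ▸ Nat.dvd_add hl' hr')
  · -- n.2 = false, n'.2 = true : types equal (true)
    have h1 := S_congr (mod_add_right hT hr) hl
    have h2 := S_congr (mod_add_right hT' hr') hl'
    exact S_disj h1 h2
  · have h1 := S_congr (mod_add_left hT hl) hr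
    have h2 := S_congr (mod_add_left hT' hl') hr'
    exact S_disj h1 h2
  · exact S_add hl' hr' (hT' ▸ hT ▸ Nat.dvd_add hl hr)

/-- (3) some modulus divides `T`: the colours of all junctions over `T` agree -/
theorem bad_colour {n n' d d' : Nm K Γ} {o o' p p' T : ℕ} (hT : o + o' = T) (hT' : p + p' = T)
    (hb : ∃ i, mu i ∣ T) (hL : LN col mu n o) (hR : RN col mu n' o') (hL' : LN col mu d p)
    (hR' : RN col mu d' p') : col n.1 = col d.1 ∧ col n'.1 = col d'.1 := by
  have hne : n ≠ n' := by
    rintro rfl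
    obtain ⟨i, hi⟩ := hb
    exact eq_good hT hL hR i hi
  have hne' : d ≠ d' := by
    rintro rfl
    obtain ⟨i, hi⟩ := hb
    exact eq_good hT' hL' hR' i hi
  obtain ⟨h1, h2⟩ := pair_mem hT hT' hne hL hR hL' hR'
  rcases h1 with rfl | rfl
  · rcases h2 with h2 | rfl
    · exact absurd h2.symm hne
    · exact ⟨rfl, rfl⟩
  · rcases h2 with rfl | h2
    · have := no_swap hT hT' hL hR hL' hR'
      exact ⟨this, this.symm⟩
    · exact absurd h2.symm hne

/-- (2) completeness -/
theorem complete (hco : Pairwise (fun i j => (mu i).Coprime (mu j))) (hpos : ∀ i, 0 < mu i)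
    (hodd : ∀ g, mu (.inr g) % 2 = 1)
    {T : ℕ} (hg : ∀ i, ¬ mu i ∣ T) (c : K) (o0 : ℕ) :
    ∃ n : Nm K Γ, n.1 = c ∧ ∃ o, o0 ≤ o ∧ o < o0 + ∏ i, mu i ∧ LN col mu n o ∧
      ∀ o', o + o' = T → RN col mu n o' := by
  classical
  let n : Nm K Γ := (c, fun g => decide (2 * (T % mu (.inr g)) < mu (.inr g)))
  have hS : ∀ g, S (n.2 g) (mu (.inr g)) T := by
    intro g
    have h0 : T % mu (.inr g) ≠ 0 := fun h => hg (.inr g) (Nat.dvd_of_mod_eq_zero h)
    by_cases h : 2 * (T % mu (.inr g)) < mu (.inr g)
    · simp [S, n, h]; omega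
    · have h2 : 2 * (T % mu (.inr g)) ≠ mu (.inr g) := by
        intro he; have := hodd g; omega
      simp [S, n, h]; omega
  -- bit `b i`: true = left divisible, false = right divisible
  let b : Ix K Γ → Bool := fun i => match i with
    | .inl (l, true) => decide (n = l)
    | .inl (l, false) => decide (n ≠ l)
    | .inr g => !(ty col n g)
  obtain ⟨k, hk⟩ := Nat.chineseRemainderOfFinset (fun i => if b i then 0 else T) mu
    (Finset.univ : Finset (Ix K Γ)) (fun i _ => (hpos i).ne')
    (fun i _ j _ hij => hco hij)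
  set M := ∏ i, mu i with hM
  have hMpos : 0 < M := Finset.prod_pos fun i _ => hpos i
  let o := o0 + (k + (M - o0 % M)) % M
  have hoM : o ≡ k [MOD M] := by
    have h1 : o ≡ o0 + (k + (M - o0 % M)) [MOD M] := (Nat.mod_modEq _ _).add_left o0
    have h2 : o0 + (k + (M - o0 % M)) ≡ k [MOD M] := by
      have h3 : o0 + (k + (M - o0 % M)) = k + M * (o0 / M + 1) := by
        have h4 := Nat.div_add_mod o0 M
        have h5 := Nat.mod_lt o0 hMpos
        have h6 : M * (o0 / M + 1) = M * (o0 / M) + M := by ring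
        omega
      rw [h3]
      exact Nat.add_mul_mod_self_left _ _ _
    exact h1.trans h2
  have ho : ∀ i, o ≡ (if b i then 0 else T) [MOD mu i] := by
    intro i
    have h1 : mu i ∣ M := Finset.dvd_prod_of_mem mu (Finset.mem_univ i)
    exact (hoM.of_dvd h1).trans (hk i (Finset.mem_univ i))
  have ho1 : ∀ i, b i = true → mu i ∣ o := by
    intro i hi
    have := ho i
    rw [if_pos hi] at this
    exact (Nat.modEq_zero_iff_dvd).1 this
  have ho2 : ∀ i, b i = false → o % mu i = T % mu i := by
    intro i hi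
    have := ho i
    rw [if_neg (by simp [hi])] at this
    exact this
  have ho3 : ∀ i, b i = false → ¬ mu i ∣ o := by
    intro i hi hd
    refine hg i (Nat.dvd_of_mod_eq_zero ?_)
    rw [← ho2 i hi]
    exact Nat.mod_eq_zero_of_dvd hd
  refine ⟨n, rfl, o, Nat.le_add_right _ _, ?_, ⟨?_, ?_⟩, ?_⟩
  · exact Nat.add_lt_add_left (Nat.mod_lt _ hMpos) _
  · intro l
    constructor
    · constructor
      · intro hd
        by_contra hn
        exact ho3 (.inl (l, true)) (by simpa [b] using hn) hd
      · intro hn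
        exact ho1 (.inl (l, true)) (by simpa [b] using hn)
    · constructor
      · intro hd hn
        exact ho3 (.inl (l, false)) (by simpa [b] using hn) hd
      · intro hn
        exact ho1 (.inl (l, false)) (by simpa [b] using hn)
  · intro g
    cases ht : ty col n g
    · simp only [LX]
      exact ho1 (.inr g) (by simp [b, ht])
    · simp only [LX]
      exact S_congr (ho2 (.inr g) (by simp [b, ht])).symm (hS g)
  · intro o' hT
    have hr1 : ∀ i, b i = true → ¬ mu i ∣ o' := by
      intro i hi hd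
      exact hg i (hT ▸ Nat.dvd_add (ho1 i hi) hd)
    have hr2 : ∀ i, b i = false → mu i ∣ o' := by
      intro i hi
      have h1 : o ≡ T [MOD mu i] := ho2 i hi
      have h2 : o + 0 ≡ o + o' [MOD mu i] := by rw [hT]; exact h1
      have h3 : 0 ≡ o' [MOD mu i] := Nat.ModEq.add_left_cancel' o h2
      exact (Nat.modEq_zero_iff_dvd).1 h3.symm
    have hr3 : ∀ i, b i = true → o' % mu i = T % mu i := fun i hi => mod_add_left hT (ho1 i hi)
    constructor
    · intro l
      constructor
      · constructor
        · intro hd hn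
          exact hr1 (.inl (l, true)) (by simpa [b] using hn) hd
        · intro hn
          exact hr2 (.inl (l, true)) (by simpa [b] using hn)
      · constructor
        · intro hd
          by_contra hn
          exact hr1 (.inl (l, false)) (by simpa [b] using hn) hd
        · intro hn
          exact hr2 (.inl (l, false)) (by simpa [b] using hn)
    · intro g
      cases ht : ty col n g
      · simp only [RX]
        exact S_congr (hr3 (.inr g) (by simp [b, ht])).symm (hS g)
      · simp only [RX]
        exact hr2 (.inr g) (by simp [b, ht])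

/-- existence of the moduli: pairwise coprime, odd, larger than any bound -/
theorem exists_moduli (ι : Type) [Finite ι] (B : ℕ) :
    ∃ mu : ι → ℕ, Pairwise (fun i j => (mu i).Coprime (mu j)) ∧ (∀ i, B < mu i) ∧
      (∀ i, mu i % 2 = 1) ∧ ∀ i, (mu i).Prime := by
  classical
  have hinf : Set.Infinite {p : ℕ | p.Prime ∧ B + 2 < p} := by
    rw [Set.infinite_iff_exists_gt]
    intro a
    obtain ⟨p, hp, hpp⟩ := Nat.exists_infinite_primes (a + B + 3)
    exact ⟨p, ⟨hpp, by omega⟩, by omega⟩
  have : Infinite {p : ℕ | p.Prime ∧ B + 2 < p} := hinf.to_subtype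
  obtain ⟨k, ⟨e⟩⟩ := Finite.exists_equiv_fin ι
  let f := Infinite.natEmbedding {p : ℕ | p.Prime ∧ B + 2 < p}
  refine ⟨fun i => (f (e i : ℕ)).1, ?_, ?_, ?_, ?_⟩
  · intro i j hij
    refine (Nat.coprime_primes (f (e i : ℕ)).2.1 (f (e j : ℕ)).2.1).2 ?_
    intro h
    have h1 : f (e i : ℕ) = f (e j : ℕ) := Subtype.ext h
    have h2 := f.injective h1
    exact hij (e.injective (Fin.ext h2))
  · intro i
    have h := (f (e i : ℕ)).2.2
    exact lt_of_le_of_lt (Nat.le_add_right B 2) h
  · intro i
    have h1 := (f (e i : ℕ)).2.1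
    have h2 := (f (e i : ℕ)).2.2
    rcases h1.eq_two_or_odd with h | h
    · omega
    · exact h
  · intro i
    exact (f (e i : ℕ)).2.1

end Crest.Agent.R320.Names_781
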