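import Mathlib

/-!
# Names for junctions (row 320, two wall schemes)

Pure arithmetic leaf: 755 (A)(B) + 811 (2).  A left clock value `o` and a right clock value `o'`
(with `T = o + o'` unknown to both sides) show a name `n`; both sides show the same name as soon as no
modulus `q l`, `q' l` divides `T`; if some modulus divides `T` only one unordered pair of names can
meet, and in both orders only if the colours agree.
-/

namespace Crest.Agent.R320.Names_840

/-- The half sets `S_+ = {1, .., (m-1)/2}` (`e = true`) and `S_- = - S_+` (`e = false`) of residues. -/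
def Half (m : ℕ) (e : Bool) (t : ℕ) : Prop :=
  if e = true then 0 < t % m ∧ 2 * (t % m) < m else m < 2 * (t % m)

theorem half_iff {m : ℕ} {e : Bool} {t : ℕ} :
    Half m e t ↔ ((e = true ∧ 0 < t % m ∧ 2 * (t % m) < m) ∨ (e = false ∧ m < 2 * (t % m))) := by
  unfold Half
  cases e <;> simp

theorem half_disjoint {m : ℕ} {t : ℕ} (h1 : Half m true t) (h2 : Half m false t) : False := by
  simp only [Half] at h1 h2
  simp at h1 h2
  omega

theorem half_unique {m : ℕ} {e e' : Bool} {t : ℕ} (h1 : Half m e t) (h2 : Half m e' t) : e = e' := by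
  cases e <;> cases e' <;> first | rfl | exact absurd (half_disjoint h1 h2) id |
    exact absurd (half_disjoint h2 h1) id

theorem not_dvd_of_half {m : ℕ} {e : Bool} {t : ℕ} (h : Half m e t) : ¬ m ∣ t := by
  intro hd
  have h0 : t % m = 0 := Nat.mod_eq_zero_of_dvd hd
  cases e <;> simp [Half, h0] at h

theorem half_add_dvd {m : ℕ} {e : Bool} {s t : ℕ} (h : Half m e t) (hs : m ∣ s) :
    Half m e (s + t) := by
  obtain ⟨c, rfl⟩ := hs
  unfold Half at h ⊢
  rwa [Nat.mul_add_mod]

theorem half_add_dvd' {m : ℕ} {e : Bool} {s t : ℕ} (h : Half m e t) (hs : m ∣ s) :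
    Half m e (t + s) := by
  rw [Nat.add_comm]; exact half_add_dvd h hs

/-- two residues in the same half never add up to `0`. -/
theorem not_dvd_add_half {m : ℕ} {e : Bool} {s t : ℕ} (hs : Half m e s)
    (ht : Half m e t) : ¬ m ∣ s + t := by
  intro hd
  have h0 : (s + t) % m = 0 := Nat.mod_eq_zero_of_dvd hd
  rw [Nat.add_mod] at h0
  rw [half_iff] at hs ht
  rcases Nat.eq_zero_or_pos m with hm | hm
  · subst hm
    rcases hs with ⟨_, hs⟩ | ⟨he, hs⟩
    · simp at hs
    · rcases ht with ⟨he', _⟩ | ⟨_, ht⟩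
      · rw [he] at he'; exact absurd he' (by decide)
      · simp at hs ht h0
        omega
  · have h1 : s % m < m := Nat.mod_lt _ hm
    have h2 : t % m < m := Nat.mod_lt _ hm
    have hd' : m ∣ (s % m + t % m) := Nat.dvd_of_mod_eq_zero h0
    obtain ⟨c, hc⟩ := hd'
    rcases hs with ⟨he, hs, hs'⟩ | ⟨he, hs⟩
    · rcases ht with ⟨_, ht, ht'⟩ | ⟨he', _⟩
      · rcases c with _ | c
        · omega
        · have : m ≤ m * (c + 1) := Nat.le_mul_of_pos_right _ (Nat.succ_pos _)
          omega
      · rw [he] at he'; exact absurd he' (by decide)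
    · rcases ht with ⟨he', _⟩ | ⟨_, ht⟩
      · rw [he] at he'; exact absurd he' (by decide)
      · rcases c with _ | _ | c
        · omega
        · omega
        · have : m * 2 ≤ m * (c + 1 + 1) := Nat.mul_le_mul_left _ (by omega)
          omega

variable {ι κ : Type*}

/-- left side shows the name `n` at clock value `o`. -/
def LLegal (q q' : ι → ℕ) (m : κ → ℕ) (eps tau : ι → κ → Bool) (n : ι) (o : ℕ) : Prop :=
  (q n ∣ o ∧ ¬ q' n ∣ o) ∧ (∀ l, l ≠ n → ¬ q l ∣ o ∧ q' l ∣ o) ∧
  ∀ j, (tau n j = eps n j → m j ∣ o) ∧ (tau n j ≠ eps n j → Half (m j) (eps n j) o)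

/-- right side shows the name `n` at clock value `o'`. -/
def RLegal (q q' : ι → ℕ) (m : κ → ℕ) (eps tau : ι → κ → Bool) (n : ι) (o' : ℕ) : Prop :=
  (¬ q n ∣ o' ∧ q' n ∣ o') ∧ (∀ l, l ≠ n → q l ∣ o' ∧ ¬ q' l ∣ o') ∧
  ∀ j, (tau n j = eps n j → Half (m j) (eps n j) o') ∧ (tau n j ≠ eps n j → m j ∣ o')

variable {q q' : ι → ℕ} {m : κ → ℕ} {eps tau : ι → κ → Bool}

theorem not_dvd_add_of {a s t : ℕ} (h1 : a ∣ s) (h2 : ¬ a ∣ t) : ¬ a ∣ s + t := by
  intro h; exact h2 ((Nat.dvd_add_right h1).mp h)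

theorem not_dvd_add_of' {a s t : ℕ} (h1 : ¬ a ∣ s) (h2 : a ∣ t) : ¬ a ∣ s + t := by
  intro h; exact h1 ((Nat.dvd_add_left h2).mp h)

/-- matched names: no modulus divides `T`. -/
theorem matched {n : ι} {o o' : ℕ} (hl : LLegal q q' m eps tau n o)
    (hr : RLegal q q' m eps tau n o') (l : ι) : ¬ q l ∣ o + o' ∧ ¬ q' l ∣ o + o' := by
  obtain ⟨⟨h1, h2⟩, h3, _⟩ := hl
  obtain ⟨⟨k1, k2⟩, k3, _⟩ := hr
  by_cases h : l = n
  · subst h
    exact ⟨not_dvd_add_of h1 k1, not_dvd_add_of' h2 k2⟩
  · exact ⟨not_dvd_add_of' (h3 l h).1 (k3 l h).1, not_dvd_add_of (h3 l h).2 (k3 l h).2⟩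

/-- different names `(n | n')`: exactly the indices `n`, `n'` have a modulus dividing `T`. -/
theorem unmatched {n n' : ι} {o o' : ℕ} (hne : n ≠ n') (hl : LLegal q q' m eps tau n o)
    (hr : RLegal q q' m eps tau n' o') :
    q n ∣ o + o' ∧ q' n' ∣ o + o' ∧
      ∀ l, l ≠ n → l ≠ n' → ¬ q l ∣ o + o' ∧ ¬ q' l ∣ o + o' := by
  obtain ⟨⟨h1, h2⟩, h3, _⟩ := hl
  obtain ⟨⟨k1, k2⟩, k3, _⟩ := hr
  refine ⟨dvd_add h1 (k3 n hne).1, dvd_add (h3 n' (Ne.symm hne)).2 k2, ?_⟩
  intro l hn hn'
  exact ⟨not_dvd_add_of' (h3 l hn).1 (k3 l hn').1, not_dvd_add_of (h3 l hn).2 (k3 l hn').2⟩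

/-- (1) agreement of the names outside `B`. -/
theorem agree {n n' : ι} {o o' : ℕ} (hl : LLegal q q' m eps tau n o)
    (hr : RLegal q q' m eps tau n' o') (hT : ∀ l, ¬ q l ∣ o + o') : n = n' := by
  by_contra hne
  exact hT n (unmatched hne hl hr).1

/-- (3) matched names: the sign vector of `T` is the family of the name. -/
theorem sign {n : ι} {o o' : ℕ} (hl : LLegal q q' m eps tau n o)
    (hr : RLegal q q' m eps tau n o') (j : κ) : Half (m j) (eps n j) (o + o') := by
  by_cases h : tau n j = eps n j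
  · exact half_add_dvd ((hr.2.2 j).1 h) ((hl.2.2 j).1 h)
  · exact half_add_dvd' ((hl.2.2 j).2 h) ((hr.2.2 j).2 h)

/-- both orders of a pair of different names for the same `T`: the colours agree. -/
theorem swap_colour {n n' : ι} {o o' p p' : ℕ} (hT : o + o' = p + p')
    (hl : LLegal q q' m eps tau n o) (hr : RLegal q q' m eps tau n' o')
    (hl' : LLegal q q' m eps tau n' p) (hr' : RLegal q q' m eps tau n p') :
    tau n = tau n' := by
  funext j
  by_contra hne
  have hl := hl.2.2 j
  have hr := hr.2.2 j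
  have hl' := hl'.2.2 j
  have hr' := hr'.2.2 j
  by_cases he : eps n j = eps n' j
  · -- equal families, different types
    by_cases ht : tau n j = eps n j
    · have ht' : tau n' j ≠ eps n' j := by
        intro h; exact hne (by rw [ht, he, h])
      -- (n | n') : T = 0, (n' | n) : T in S + S
      have h0 : m j ∣ o + o' := dvd_add (hl.1 ht) (hr.2 ht')
      have h1 : ¬ m j ∣ p + p' := by
        apply not_dvd_add_half (e := eps n j)
        · rw [he]; exact hl'.2 ht'
        · exact hr'.1 ht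
      rw [hT] at h0
      exact h1 h0
    · have ht' : tau n' j = eps n' j := by
        revert hne ht he
        cases tau n j <;> cases tau n' j <;> cases eps n j <;> cases eps n' j <;> simp
      have h0 : m j ∣ p + p' := dvd_add (hl'.1 ht') (hr'.2 ht)
      have h1 : ¬ m j ∣ o + o' := by
        apply not_dvd_add_half (e := eps n j)
        · exact hl.2 ht
        · rw [he]; exact hr.1 ht'
      rw [← hT] at h0
      exact h1 h0
  · -- different families, equal types
    by_cases ht : tau n j = eps n j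
    · have ht' : tau n' j = eps n' j := by
        revert hne ht he
        cases tau n j <;> cases tau n' j <;> cases eps n j <;> cases eps n' j <;> simp
      have h1 : Half (m j) (eps n' j) (o + o') := half_add_dvd (hr.1 ht') (hl.1 ht)
      have h2 : Half (m j) (eps n j) (p + p') := half_add_dvd (hr'.1 ht) (hl'.1 ht')
      rw [← hT] at h2
      exact he (half_unique h2 h1)
    · have ht' : tau n' j ≠ eps n' j := by
        revert hne ht he
        cases tau n j <;> cases tau n' j <;> cases eps n j <;> cases eps n' j <;> simp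
      have h1 : Half (m j) (eps n j) (o + o') := half_add_dvd' (hl.2 ht) (hr.2 ht')
      have h2 : Half (m j) (eps n' j) (p + p') := half_add_dvd' (hl'.2 ht') (hr'.2 ht)
      rw [← hT] at h2
      exact he (half_unique h1 h2)

/-- (2) two legal pairs for the same `T`. -/
theorem pairs {n n' r r' : ι} {o o' p p' : ℕ} (hT : o + o' = p + p')
    (hl : LLegal q q' m eps tau n o) (hr : RLegal q q' m eps tau n' o')
    (hl' : LLegal q q' m eps tau r p) (hr' : RLegal q q' m eps tau r' p') :
    (n = n' ∧ r = r') ∨ (n = r ∧ n' = r') ∨ (n = r' ∧ n' = r ∧ tau n = tau n') := by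
  by_cases h : n = n'
  · subst h
    left
    refine ⟨rfl, ?_⟩
    by_contra hne
    have h1 := (unmatched hne hl' hr').1
    rw [← hT] at h1
    exact (matched hl hr r).1 h1
  · by_cases h' : r = r'
    · subst h'
      exfalso
      have h1 := (unmatched h hl hr).1
      rw [hT] at h1
      exact (matched hl' hr' n).1 h1
    · obtain ⟨a1, a2, a3⟩ := unmatched h hl hr
      obtain ⟨b1, b2, b3⟩ := unmatched h' hl' hr'
      rw [hT] at a1 a2 a3
      have hn : n = r ∨ n = r' := by
        by_contra hc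
        push Not at hc
        exact (b3 n hc.1 hc.2).1 a1
      have hn' : n' = r ∨ n' = r' := by
        by_contra hc
        push Not at hc
        exact (b3 n' hc.1 hc.2).2 a2
      rcases hn with rfl | rfl
      · rcases hn' with rfl | rfl
        · exact absurd rfl h
        · right; left; exact ⟨rfl, rfl⟩
      · rcases hn' with rfl | rfl
        · right; right
          exact ⟨rfl, rfl, swap_colour hT hl hr hl' hr'⟩
        · exact absurd rfl h

/-- Chinese remainder theorem on an interval, for a finite family of pairwise coprime moduli. -/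
theorem crt_interval {γ : Type*} [Fintype γ] [DecidableEq γ] (M : γ → ℕ) (hpos : ∀ c, 0 < M c)
    (hcop : Pairwise fun c d => Nat.Coprime (M c) (M d)) (a : γ → ℕ) (x0 : ℕ) :
    ∃ o, x0 ≤ o ∧ o < x0 + ∏ c, M c ∧ ∀ c, o ≡ a c [MOD M c] := by
  classical
  have h1 : ∃ k : ℕ, ∀ c, k ≡ a c [MOD M c] := by
    obtain ⟨k, hk⟩ := Nat.chineseRemainderOfFinset a M (Finset.univ : Finset γ)
      (fun c _ => (hpos c).ne') (fun c _ d _ hcd => hcop hcd)
    exact ⟨k, fun c => hk c (Finset.mem_univ c)⟩
  obtain ⟨k, hk⟩ := h1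
  set P : ℕ := ∏ c, M c with hP
  have hPpos : 0 < P := Finset.prod_pos fun c _ => hpos c
  have hdvd : ∀ c, M c ∣ P := fun c => Finset.dvd_prod_of_mem M (Finset.mem_univ c)
  -- o := x0 + ((k + (P - x0 % P)) % P)
  refine ⟨x0 + ((k + (P - x0 % P)) % P), Nat.le_add_right _ _, ?_, ?_⟩
  · have := Nat.mod_lt (k + (P - x0 % P)) hPpos
    omega
  · intro c
    have hc : x0 + ((k + (P - x0 % P)) % P) ≡ k [MOD P] := by
      have e1 : (k + (P - x0 % P)) % P ≡ k + (P - x0 % P) [MOD P] := Nat.mod_modEq _ _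
      have e2 : x0 + (k + (P - x0 % P)) ≡ k [MOD P] := by
        have e3 : x0 + (k + (P - x0 % P)) = k + (x0 + (P - x0 % P)) := by ring
        have e4 : x0 + (P - x0 % P) = P * (x0 / P) + P := by
          have := Nat.div_add_mod x0 P
          have h5 : x0 % P < P := Nat.mod_lt _ hPpos
          omega
        rw [e3, e4]
        have : k + (P * (x0 / P) + P) = k + P * (x0 / P + 1) := by ring
        rw [this]
        exact (Nat.modEq_iff_dvd' (Nat.le_add_right _ _)).mpr (by simp) |>.symm
      exact (Nat.ModEq.add_left x0 e1).trans e2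
    exact (hc.of_dvd (hdvd c)).trans (hk c)

/-- (4) completeness: outside `B` every name of the right family occurs in every interval. -/
theorem exists_place [Fintype ι] [DecidableEq ι] [Fintype κ] [DecidableEq κ]
    (hpos : (∀ l, 0 < q l) ∧ (∀ l, 0 < q' l) ∧ ∀ j, 0 < m j)
    (hcop : Pairwise fun c d : ι ⊕ (ι ⊕ κ) =>
      Nat.Coprime (Sum.elim q (Sum.elim q' m) c) (Sum.elim q (Sum.elim q' m) d))
    (T : ℕ) (hT : ∀ l, ¬ q l ∣ T ∧ ¬ q' l ∣ T) (n : ι) (hn : ∀ j, Half (m j) (eps n j) T)
    (x0 : ℕ) :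
    ∃ o, x0 ≤ o ∧ o < x0 + ((∏ l, q l) * ((∏ l, q' l) * ∏ j, m j)) ∧
      ∀ o', o + o' = T → LLegal q q' m eps tau n o ∧ RLegal q q' m eps tau n o' := by
  classical
  obtain ⟨o, ho1, ho2, ho3⟩ := crt_interval (Sum.elim q (Sum.elim q' m))
    (by rintro (l | l | j); exacts [hpos.1 l, hpos.2.1 l, hpos.2.2 j]) hcop
    (Sum.elim (fun l => if l = n then 0 else T)
      (Sum.elim (fun l => if l = n then T else 0)
        (fun j => if tau n j = eps n j then 0 else T))) x0
  refine ⟨o, ho1, ?_, ?_⟩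
  · simpa [Fintype.prod_sum_type] using ho2
  · intro o' hoo
    have hq : ∀ l, o ≡ (if l = n then 0 else T) [MOD q l] := fun l => ho3 (Sum.inl l)
    have hq' : ∀ l, o ≡ (if l = n then T else 0) [MOD q' l] := fun l => ho3 (Sum.inr (Sum.inl l))
    have hm : ∀ j, o ≡ (if tau n j = eps n j then 0 else T) [MOD m j] :=
      fun j => ho3 (Sum.inr (Sum.inr j))
    have key0 : ∀ {a : ℕ}, o ≡ 0 [MOD a] → a ∣ o := fun h => (Nat.modEq_zero_iff_dvd).mp h
    have key1 : ∀ {a : ℕ}, o ≡ T [MOD a] → a ∣ o' := by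
      intro a h
      rw [← hoo] at h
      have h2 : o + 0 ≡ o + o' [MOD a] := by simpa using h
      have h3 : 0 ≡ o' [MOD a] := Nat.ModEq.add_left_cancel' o h2
      exact (Nat.modEq_zero_iff_dvd).mp h3.symm
    have nd1 : ∀ {a : ℕ}, a ∣ o → ¬ a ∣ T → ¬ a ∣ o' := by
      intro a h1 h2 h3; exact h2 (hoo ▸ dvd_add h1 h3)
    have nd2 : ∀ {a : ℕ}, a ∣ o' → ¬ a ∣ T → ¬ a ∣ o := by
      intro a h1 h2 h3; exact h2 (hoo ▸ dvd_add h3 h1)
    have hm0 : ∀ j, tau n j = eps n j → m j ∣ o := by
      intro j h; have := hm j; rw [if_pos h] at this; exact key0 this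
    have hm1 : ∀ j, tau n j ≠ eps n j → m j ∣ o' := by
      intro j h; have := hm j; rw [if_neg h] at this; exact key1 this
    constructor
    · refine ⟨?_, ?_, ?_⟩
      · have h1 := hq n; rw [if_pos rfl] at h1
        have h2 := hq' n; rw [if_pos rfl] at h2
        exact ⟨key0 h1, nd2 (key1 h2) (hT n).2⟩
      · intro l hl
        have h1 := hq l; rw [if_neg hl] at h1
        have h2 := hq' l; rw [if_neg hl] at h2
        exact ⟨nd2 (key1 h1) (hT l).1, key0 h2⟩
      · intro j
        refine ⟨hm0 j, fun h => ?_⟩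
        have h1 := hm1 j h
        have h2 := hn j
        obtain ⟨c, hc⟩ := h1
        have h3 : (o + m j * c) % m j = o % m j := by simp
        unfold Half at h2 ⊢
        rw [← hoo, hc, h3] at h2
        exact h2
    · refine ⟨?_, ?_, ?_⟩
      · have h1 := hq n; rw [if_pos rfl] at h1
        have h2 := hq' n; rw [if_pos rfl] at h2
        exact ⟨nd1 (key0 h1) (hT n).1, key1 h2⟩
      · intro l hl
        have h1 := hq l; rw [if_neg hl] at h1
        have h2 := hq' l; rw [if_neg hl] at h2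
        exact ⟨key1 h1, nd1 (key0 h2) (hT l).2⟩
      · intro j
        refine ⟨fun h => ?_, hm1 j⟩
        have h1 := hm0 j h
        have h2 := hn j
        obtain ⟨c, hc⟩ := h1
        have h3 : (m j * c + o') % m j = o' % m j := by
          rw [Nat.mul_add_mod]
        unfold Half at h2 ⊢
        rw [← hoo, hc, h3] at h2
        exact h2

/-- every `T` which is divisible by no (odd) `m j` has a sign vector. -/
theorem exists_sign (T : ℕ) (hodd : ∀ j, Odd (m j)) (h : ∀ j, ¬ m j ∣ T) :
    ∃ e : κ → Bool, ∀ j, Half (m j) (e j) T := by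
  classical
  refine ⟨fun j => decide (2 * (T % m j) < m j), fun j => ?_⟩
  have h0 : T % m j ≠ 0 := fun hc => h j (Nat.dvd_of_mod_eq_zero hc)
  have h1 : 2 * (T % m j) ≠ m j := by
    intro hc
    obtain ⟨c, hcc⟩ := hodd j
    omega
  by_cases h2 : 2 * (T % m j) < m j
  · simp only [Half, h2, decide_true, if_true]
    exact ⟨Nat.pos_of_ne_zero h0, trivial⟩
  · simp only [Half, h2, decide_false]
    simp
    omega

/-- (5) pairwise coprime odd moduli, all larger than `R`. -/
theorem exists_moduli (γ : Type*) [Finite γ] (R : ℕ) :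
    ∃ M : γ → ℕ, (∀ c, R < M c ∧ (M c).Prime ∧ Odd (M c)) ∧
      Pairwise fun c d => Nat.Coprime (M c) (M d) := by
  classical
  obtain ⟨k, ⟨f⟩⟩ := Finite.exists_equiv_fin γ
  have hinf := Nat.infinite_setOfPred_prime
  refine ⟨fun c => Nat.nth Nat.Prime ((f c : ℕ) + R + 2), ?_, ?_⟩
  · intro c
    have hp : (Nat.nth Nat.Prime ((f c : ℕ) + R + 2)).Prime := Nat.prime_nth_prime _
    have hlt : (f c : ℕ) + R + 2 ≤ Nat.nth Nat.Prime ((f c : ℕ) + R + 2) :=
      (Nat.nth_strictMono hinf).le_apply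
    have h1 : R < Nat.nth Nat.Prime ((f c : ℕ) + R + 2) := by omega
    have h2 : Nat.nth Nat.Prime ((f c : ℕ) + R + 2) ≠ 2 ∨ (f c : ℕ) + R + 2 = 2 := by omega
    refine ⟨h1, hp, hp.odd_of_ne_two ?_⟩
    intro h3
    have h4 : Nat.nth Nat.Prime 0 = 2 := Nat.nth_prime_zero_eq_two
    have h5 := (Nat.nth_strictMono hinf).injective (h3.trans h4.symm)
    omega
  · intro c d hcd
    have hp : (Nat.nth Nat.Prime ((f c : ℕ) + R + 2)).Prime := Nat.prime_nth_prime _
    have hp' : (Nat.nth Nat.Prime ((f d : ℕ) + R + 2)).Prime := Nat.prime_nth_prime _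
    refine (Nat.coprime_primes hp hp').mpr ?_
    intro he
    have := (Nat.nth_strictMono hinf).injective he
    apply hcd
    apply f.injective
    apply Fin.ext
    omega

end Crest.Agent.R320.Names_840
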