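import Crest.Agent.R320.FewVal_228

/-!
# Row 320: natural chain rule; scheme 1 in block form (helper766)

`Wo n S0 U` : a wall window ends at the end of `U`.
`XX n S0 z` : blocks = up to the first wall end at a place `≥ z`.
-/

set_option autoImplicit false

namespace Crest.Agent.R320.Nat1_766

open Crest.RegLang Crest.Agent.R320.Hk_851 Crest.Agent.R320.FewWalls_228
  Crest.Agent.R320.FewVal_228

universe u

variable {α : Type u}

/-! ## regularity tools -/

theorem reg_of_snoc {Q : Type*} [Finite Q] (f : List α → Q) (step : Q → α → Q)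
    (hf : ∀ w a, f (w ++ [a]) = step (f w) a) (P : Q → Prop) :
    Language.IsRegular ({w | P (f w)} : Language α) := by
  classical
  haveI : Fintype Q := Fintype.ofFinite Q
  let D : DFA α Q := ⟨step, f [], {q | P q}⟩
  have key : ∀ w : List α, D.eval w = f w := by
    intro w
    induction w using List.reverseRecOn with
    | nil => rfl
    | append_singleton w a ih =>
      rw [DFA.eval_append_singleton, ih, hf]
  refine Language.isRegular_iff.mpr ⟨Q, inferInstance, D, ?_⟩
  ext w
  rw [DFA.mem_accepts]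
  show P (D.eval w) ↔ P (f w)
  rw [key]

theorem reg_take_class [Finite α] {C : Type*} [Finite C] (cl : List α → C)
    (hcl : ∀ c, Language.IsRegular ({Y | cl Y = c} : Language α)) (k : ℕ)
    (Ψ : List α → C → Prop) :
    Language.IsRegular ({X | Ψ (X.take k) (cl (X.drop k))} : Language α) := by
  apply Language.IsRegular.of_finite_range_leftQuotient
  let Lc : C → Language α := fun c => ({Y | cl Y = c} : Language α)
  let G : List α × (C → Language α) → Language α := fun p =>
    {v | ∃ c, v ∈ p.2 c ∧ Ψ p.1 c}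
  have hfin1 : ({l : List α | l.length ≤ k}).Finite := List.finite_length_le α k
  have hfin2 : (Set.pi Set.univ (fun c : C => Set.range (Lc c).leftQuotient)).Finite :=
    Set.Finite.pi (fun c => (hcl c).finite_range_leftQuotient)
  refine (((hfin1.image (fun u => Language.leftQuotient
    ({X | Ψ (X.take k) (cl (X.drop k))} : Language α) u))).union
    ((hfin1.prod hfin2).image G)).subset ?_
  rintro _ ⟨x, rfl⟩
  by_cases hx : x.length ≤ k
  · exact Or.inl ⟨x, hx, rfl⟩
  · right
    refine ⟨(x.take k, fun c => (Lc c).leftQuotient (x.drop k)), ⟨?_, ?_⟩, ?_⟩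
    · show (x.take k).length ≤ k
      rw [List.length_take]; omega
    · intro c _
      exact ⟨_, rfl⟩
    · ext v
      show (∃ c, v ∈ (Lc c).leftQuotient (x.drop k) ∧ Ψ (x.take k) c) ↔
        Ψ ((x ++ v).take k) (cl ((x ++ v).drop k))
      rw [List.take_append_of_le_length (by omega), List.drop_append_of_le_length (by omega)]
      constructor
      · rintro ⟨c, h1, h2⟩
        have h3 : cl (x.drop k ++ v) = c := h1
        rw [h3]; exact h2
      · intro h
        exact ⟨_, (rfl : cl (x.drop k ++ v) = cl (x.drop k ++ v)), h⟩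

/-! ## walls -/

/-- a wall window ends at the end of `U` -/
def Wo (n : ℕ) (S0 : Set (List α)) (U : List α) : Prop :=
  n ≤ U.length ∧ U.drop (U.length - n) ∈ S0

theorem Wo_take {n : ℕ} {S0 : Set (List α)} {U : List α} {t : ℕ} (ht : t ≤ U.length) :
    Wo n S0 (U.take t) ↔ n ≤ t ∧ Wl n S0 U (t - n) := by
  unfold Wo Wl
  rw [List.length_take, Nat.min_eq_left ht]
  constructor
  · rintro ⟨h1, h2⟩
    refine ⟨h1, by omega, ?_⟩
    rw [List.drop_take] at h2
    rwa [show t - (t - n) = n by omega] at h2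
  · rintro ⟨h1, h2, h3⟩
    refine ⟨h1, ?_⟩
    rw [List.drop_take, show t - (t - n) = n by omega]
    exact h3

theorem Wo_append {n : ℕ} {S0 : Set (List α)} (P Q : List α) (h : n ≤ Q.length) :
    Wo n S0 (P ++ Q) ↔ Wo n S0 Q := by
  unfold Wo
  rw [List.length_append, show P.length + Q.length - n = P.length + (Q.length - n) by omega,
    List.drop_append, List.drop_eq_nil_of_le (by omega), List.nil_append,
    show P.length + (Q.length - n) - P.length = Q.length - n by omega]
  constructor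
  · rintro ⟨_, h2⟩; exact ⟨h, h2⟩
  · rintro ⟨_, h2⟩; exact ⟨by omega, h2⟩

/-- blocks -/
def XX (n : ℕ) (S0 : Set (List α)) (z : ℕ) : Set (List α) :=
  {X | z ≤ X.length ∧ Wo n S0 X ∧ ∀ t, z ≤ t → t < X.length → ¬ Wo n S0 (X.take t)}

/-- right words which see the end of the block from every place of the window -/
def RW (n : ℕ) (S0 : Set (List α)) (z p0 N1 : ℕ) (Q : List α) : Prop :=
  z ≤ Q.length + p0 ∧ n ≤ Q.length ∧ Wo n S0 Q ∧
    ∀ t, n ≤ t → t < Q.length → Wo n S0 (Q.take t) → t + p0 + N1 < z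

theorem hnil {n : ℕ} {S0 : Set (List α)} {z : ℕ} (hz : 0 < z) : [] ∉ XX n S0 z := by
  rintro ⟨h, _⟩
  simp only [List.length_nil] at h
  omega

theorem hPC {n : ℕ} {S0 : Set (List α)} {z : ℕ} :
    ∀ X ∈ XX n S0 z, ∀ Y, X ++ Y ∈ XX n S0 z → Y = [] := by
  rintro X ⟨h1, h2, _⟩ Y ⟨_, _, h3⟩
  by_contra hne
  have hY : 0 < Y.length := List.length_pos_of_ne_nil hne
  apply h3 X.length h1 (by rw [List.length_append]; omega)
  rw [List.take_left]
  exact h2

theorem block_of_RW {n : ℕ} {S0 : Set (List α)} {z p0 N1 : ℕ} (hz : p0 + N1 + n ≤ z)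
    {P Q : List α} (hP1 : p0 ≤ P.length) (hP2 : P.length ≤ p0 + N1) (hQ : RW n S0 z p0 N1 Q) :
    P ++ Q ∈ XX n S0 z := by
  obtain ⟨h1, h2, h3, h4⟩ := hQ
  refine ⟨by rw [List.length_append]; omega, (Wo_append P Q h2).2 h3, ?_⟩
  intro t ht1 ht2 hw
  rw [List.length_append] at ht2
  have e : (P ++ Q).take t = P ++ Q.take (t - P.length) := by
    rw [List.take_append, List.take_of_length_le (by omega)]
  rw [e, Wo_append _ _ (by rw [List.length_take]; omega)] at hw
  have := h4 (t - P.length) (by omega) (by omega) hw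
  omega

theorem RW_of_block {n : ℕ} {S0 : Set (List α)} {z p0 N1 : ℕ} (hz : p0 + N1 + n ≤ z)
    {X : List α} (hX : X ∈ XX n S0 z) (hlen : z + N1 ≤ X.length)
    (hband : ∀ t, t < z → z ≤ t + N1 → ¬ Wo n S0 (X.take t)) {x : ℕ} (hx1 : p0 ≤ x)
    (hx2 : x ≤ p0 + N1) : RW n S0 z p0 N1 (X.drop x) := by
  obtain ⟨h1, h2, h3⟩ := hX
  have hl : (X.drop x).length = X.length - x := List.length_drop
  refine ⟨by omega, by omega, ?_, ?_⟩
  · have := (Wo_append (n := n) (S0 := S0) (X.take x) (X.drop x) (by omega)).1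
    rw [List.take_append_drop] at this
    exact this h2
  · intro t ht1 ht2 hw
    have e : X.take (x + t) = X.take x ++ (X.drop x).take t := by
      rw [List.take_add]
    have hw2 : Wo n S0 (X.take (x + t)) := by
      rw [e]
      exact (Wo_append _ _ (by rw [List.length_take]; omega)).2 hw
    by_contra hcon
    by_cases hc : x + t < z
    · exact hband (x + t) hc (by omega) hw2
    · exact h3 (x + t) (by omega) (by omega) hw2

/-! ## number of walls -/

open Classical in
theorem nw_le_of {n : ℕ} {S0 : Set (List α)} {z : ℕ} {w : List α}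
    (h : ∀ t, t < w.length → Wo n S0 (w.take t) → t < z) : nw n S0 w ≤ z + 1 := by
  unfold nw
  have : (Finset.range (w.length + 1)).filter (fun x => Wl n S0 w x) ⊆
      Finset.range z ∪ {w.length - n} := by
    intro x hx
    rw [Finset.mem_filter] at hx
    obtain ⟨_, hx⟩ := hx
    have hxn := hx.1
    rw [Finset.mem_union, Finset.mem_range, Finset.mem_singleton]
    by_cases hc : x + n < w.length
    · left
      have := h (x + n) hc ((Wo_take hc.le).2 ⟨by omega, by
        rw [show x + n - n = x by omega]; exact hx⟩)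
      omega
    · right; omega
  calc _ ≤ (Finset.range z ∪ {w.length - n}).card := Finset.card_le_card this
    _ ≤ (Finset.range z).card + ({w.length - n} : Finset ℕ).card := Finset.card_union_le _ _
    _ = z + 1 := by rw [Finset.card_range, Finset.card_singleton]

/-! ## regularity of the wall conditions -/

/-- state : (min |w| z, last n letters, a wall end in `[z, |w|)`) -/
theorem reg_walls [Finite α] (n : ℕ) (S0 : Set (List α)) (z : ℕ)
    (P : ℕ → List α → Prop → Prop) :
    Language.IsRegular ({w | P (min w.length (z + n)) (lastn n w)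
      (∃ t, z ≤ t ∧ t < w.length ∧ Wo n S0 (w.take t))} : Language α) := by
  classical
  let B := {b : List α // b.length ≤ n}
  haveI : Finite B := (List.finite_length_le α n).to_subtype
  let f : List α → Fin (z + n + 1) × B × Prop := fun w =>
    (⟨min w.length (z + n), by omega⟩, ⟨lastn n w, lastn_length _ _⟩,
      ∃ t, z ≤ t ∧ t < w.length ∧ Wo n S0 (w.take t))
  let step : Fin (z + n + 1) × B × Prop → α → Fin (z + n + 1) × B × Prop := fun q a =>
    (⟨min (q.1.1 + 1) (z + n), by omega⟩, ⟨lastn n (q.2.1.1 ++ [a]), lastn_length _ _⟩,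
      q.2.2 ∨ (z ≤ q.1.1 ∧ n ≤ q.1.1 ∧ q.2.1.1 ∈ S0))
  refine reg_of_snoc f step ?_ (fun q => P q.1.1 q.2.1.1 q.2.2)
  intro w a
  refine Prod.ext ?_ (Prod.ext ?_ ?_)
  · apply Fin.ext
    show min (w ++ [a]).length (z + n) = min (min w.length (z + n) + 1) (z + n)
    rw [List.length_append, List.length_singleton]; omega
  · apply Subtype.ext
    show lastn n (w ++ [a]) = lastn n (lastn n w ++ [a])
    exact lastn_snoc n w a
  · show (∃ t, z ≤ t ∧ t < (w ++ [a]).length ∧ Wo n S0 ((w ++ [a]).take t)) =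
      ((∃ t, z ≤ t ∧ t < w.length ∧ Wo n S0 (w.take t)) ∨
        (z ≤ min w.length (z + n) ∧ n ≤ min w.length (z + n) ∧ lastn n w ∈ S0))
    apply propext
    rw [List.length_append, List.length_singleton]
    constructor
    · rintro ⟨t, h1, h2, h3⟩
      rw [List.take_append_of_le_length (by omega)] at h3
      by_cases hc : t < w.length
      · exact Or.inl ⟨t, h1, hc, h3⟩
      · right
        have ht : t = w.length := by omega
        subst ht
        rw [List.take_of_length_le le_rfl] at h3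
        exact ⟨by omega, by have := h3.1; omega, h3.2⟩
    · rintro (⟨t, h1, h2, h3⟩ | ⟨h1, h2, h3⟩)
      · exact ⟨t, h1, by omega, by rw [List.take_append_of_le_length (by omega)]; exact h3⟩
      · refine ⟨w.length, by omega, by omega, ?_⟩
        rw [List.take_append_of_le_length le_rfl, List.take_of_length_le le_rfl]
        exact ⟨by omega, h3⟩

theorem Wo_iff {n : ℕ} {S0 : Set (List α)} {z : ℕ} {w : List α} :
    Wo n S0 w ↔ n ≤ min w.length (z + n) ∧ lastn n w ∈ S0 := by
  unfold Wo lastn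
  constructor
  · rintro ⟨h1, h2⟩; exact ⟨by omega, h2⟩
  · rintro ⟨h1, h2⟩; exact ⟨by omega, h2⟩

theorem reg_XX [Finite α] (n : ℕ) (S0 : Set (List α)) (z : ℕ) :
    Language.IsRegular ({X | X ∈ XX n S0 z} : Language α) := by
  have := reg_walls n S0 z (fun ℓ b s => z ≤ ℓ ∧ (n ≤ ℓ ∧ b ∈ S0) ∧ ¬ s)
  refine (congrArg Language.IsRegular ?_).mp this
  ext w
  show (z ≤ min w.length (z + n) ∧ (n ≤ min w.length (z + n) ∧ lastn n w ∈ S0) ∧
    ¬ ∃ t, z ≤ t ∧ t < w.length ∧ Wo n S0 (w.take t)) ↔ _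
  rw [← Wo_iff]
  constructor
  · rintro ⟨h1, h2, h3⟩
    exact ⟨by omega, h2, fun t ht1 ht2 h => h3 ⟨t, ht1, ht2, h⟩⟩
  · rintro ⟨h1, h2, h3⟩
    exact ⟨by omega, h2, fun ⟨t, ht1, ht2, h⟩ => h3 t ht1 ht2 h⟩

/-- no wall end at a place `≥ z` -/
def NW (n : ℕ) (S0 : Set (List α)) (z : ℕ) (w : List α) : Prop :=
  ∀ t, z ≤ t → t ≤ w.length → ¬ Wo n S0 (w.take t)

theorem reg_NW [Finite α] (n : ℕ) (S0 : Set (List α)) (z : ℕ) :
    Language.IsRegular ({X | NW n S0 z X} : Language α) := by
  have := reg_walls n S0 z (fun ℓ b s => ¬ s ∧ ¬ (z ≤ ℓ ∧ (n ≤ ℓ ∧ b ∈ S0)))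
  refine (congrArg Language.IsRegular ?_).mp this
  ext w
  show (¬ (∃ t, z ≤ t ∧ t < w.length ∧ Wo n S0 (w.take t)) ∧
    ¬ (z ≤ min w.length (z + n) ∧ (n ≤ min w.length (z + n) ∧ lastn n w ∈ S0))) ↔ NW n S0 z w
  rw [← Wo_iff]
  constructor
  · rintro ⟨h1, h2⟩ t ht1 ht2 h
    by_cases hc : t < w.length
    · exact h1 ⟨t, ht1, hc, h⟩
    · have : t = w.length := by omega
      subst this
      rw [List.take_of_length_le le_rfl] at h
      exact h2 ⟨by omega, h⟩
  · intro h
    refine ⟨fun ⟨t, ht1, ht2, h'⟩ => h t ht1 ht2.le h', fun ⟨h1, h2⟩ => ?_⟩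
    exact h w.length (by omega) le_rfl (by rw [List.take_of_length_le le_rfl]; exact h2)

theorem NW_iff_noXX {n : ℕ} {S0 : Set (List α)} {z : ℕ} (r : List α) :
    (∀ X ∈ XX n S0 z, ¬ X <+: r) ↔ NW n S0 z r := by
  classical
  constructor
  · intro h
    by_contra hcon
    unfold NW at hcon
    push Not at hcon
    have hex : ∃ t, z ≤ t ∧ t ≤ r.length ∧ Wo n S0 (r.take t) := hcon
    let t0 := Nat.find hex
    obtain ⟨h1, h2, h3⟩ := Nat.find_spec hex
    refine h (r.take t0) ⟨?_, h3, ?_⟩ (List.take_prefix _ _)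
    · rw [List.length_take]; exact le_min h1 (h1.trans h2)
    · intro t ht1 ht2 hw
      rw [List.length_take] at ht2
      have ht3 : t < t0 := lt_of_lt_of_le ht2 (min_le_left _ _)
      rw [List.take_take, Nat.min_eq_left ht3.le] at hw
      exact Nat.find_min hex ht3 ⟨ht1, by omega, hw⟩
  · rintro h X ⟨h1, h2, _⟩ ⟨Y, rfl⟩
    exact h X.length h1 (by rw [List.length_append]; omega) (by rw [List.take_left]; exact h2)

/-- `RW` in terms of `reg_walls` with threshold `z' = z - p0 - N1` -/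
theorem reg_RW [Finite α] (n : ℕ) (S0 : Set (List α)) (z p0 N1 : ℕ) (hz : p0 + N1 + n ≤ z) :
    Language.IsRegular ({Q | RW n S0 z p0 N1 Q} : Language α) := by
  have hA := reg_walls n S0 (z - p0 - N1) (fun ℓ b s => (n ≤ ℓ ∧ b ∈ S0) ∧ ¬ s)
  have hB := reg_walls (α := α) n S0 z (fun ℓ _ _ => z - p0 ≤ ℓ)
  refine (congrArg Language.IsRegular ?_).mp (hA.inf hB)
  ext w
  show (((n ≤ min w.length (z - p0 - N1 + n) ∧ lastn n w ∈ S0) ∧
    ¬ ∃ t, z - p0 - N1 ≤ t ∧ t < w.length ∧ Wo n S0 (w.take t)) ∧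
    z - p0 ≤ min w.length (z + n)) ↔ RW n S0 z p0 N1 w
  rw [← Wo_iff]
  unfold RW
  constructor
  · rintro ⟨⟨h1, h2⟩, h3⟩
    refine ⟨by omega, h1.1, h1, fun t ht1 ht2 h => ?_⟩
    by_contra hcon
    exact h2 ⟨t, by omega, ht2, h⟩
  · rintro ⟨h1, h2, h3, h4⟩
    refine ⟨⟨h3, ?_⟩, by omega⟩
    rintro ⟨t, ht1, ht2, h⟩
    have := h4 t (by have := h.1; rw [List.length_take] at this; omega) ht2 h
    omega

/-! ## scheme 1 in block form (the hypotheses of `Top5_163.top`) -/

section scheme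

variable {V S : Type*} [AddCommGroup V] [Monoid S]

/-- the zone map -/
def T (φ : List α → S) (act : V → S → V) (p0 : ℕ) (nu1 nu2 : List α → V) (v : V)
    (X : List α) : V :=
  act (act v (φ (X.take p0)) + nu2 (X.take p0)) (φ (X.drop p0)) + nu1 (X.drop p0)

/-- its translation part -/
def nuT (φ : List α → S) (act : V → S → V) (p0 : ℕ) (nu1 nu2 : List α → V) (X : List α) : V :=
  act (nu2 (X.take p0)) (φ (X.drop p0)) + nu1 (X.drop p0)

theorem hT (φ : List α → S) (hφ : ∀ u v, φ (u ++ v) = φ u * φ v) (act : V → S → V)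
    (act_mul : ∀ v s s', act (act v s) s' = act v (s * s'))
    (act_add : ∀ v w s, act (v + w) s = act v s + act w s) (p0 : ℕ) (nu1 nu2 : List α → V)
    (v : V) (X : List α) :
    T φ act p0 nu1 nu2 v X = act v (φ X) + nuT φ act p0 nu1 nu2 X := by
  unfold T nuT
  rw [act_add, act_mul, ← hφ, List.take_append_drop, add_assoc]

/-- left words of scheme 1 -/
def LP1 (φ : List α → S) (act : V → S → V) (p0 : ℕ) (nu2 : List α → V)
    (lam : List α → Option V) (P : List α) (v : V) : Prop :=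
  p0 ≤ P.length ∧ lam (P.drop p0) = some (act v (φ (P.take p0)) + nu2 (P.take p0))

open Classical in
/-- right words of scheme 1 -/
noncomputable def R1 (n : ℕ) (S0 : Set (List α)) (z p0 N1 : ℕ) (rho : List α → Option V)
    (Q : List α) : Option V :=
  if RW n S0 z p0 N1 Q then rho Q else none

open Classical in
theorem R1_some {n : ℕ} {S0 : Set (List α)} {z p0 N1 : ℕ} {rho : List α → Option V}
    {Q : List α} {b : V} : R1 n S0 z p0 N1 rho Q = some b ↔ RW n S0 z p0 N1 Q ∧ rho Q = some b := by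
  unfold R1
  split_ifs with h
  · exact ⟨fun h' => ⟨h, h'⟩, fun h' => h'.2⟩
  · exact ⟨fun h' => by simp at h', fun h' => absurd h'.1 h⟩

theorem hR1 {n : ℕ} {S0 : Set (List α)} {z p0 N1 : ℕ} (hz : p0 < z) {rho : List α → Option V} :
    ∀ Q b, R1 n S0 z p0 N1 rho Q = some b → Q ≠ [] := by
  rintro Q b h rfl
  have := (R1_some.1 h).1.1
  simp only [List.length_nil] at this
  omega

theorem s1 {n : ℕ} {S0 : Set (List α)} {z p0 N1 : ℕ} (hz : p0 + N1 + n ≤ z)
    (φ : List α → S) (act : V → S → V) (nu1 nu2 : List α → V) (lam rho : List α → Option V)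
    (g1 : ∀ P v, lam P = some v → P.length ≤ N1)
    (g2 : ∀ P Q v b, lam P = some v → rho Q = some b → act v (φ (P ++ Q)) + nu1 (P ++ Q) = b) :
    ∀ P v Q b, LP1 φ act p0 nu2 lam P v → R1 n S0 z p0 N1 rho Q = some b →
      P ++ Q ∈ XX n S0 z ∧ T φ act p0 nu1 nu2 v (P ++ Q) = b := by
  rintro P v Q b ⟨h1, h2⟩ hQ
  obtain ⟨h3, h4⟩ := R1_some.1 hQ
  have hl := g1 _ _ h2
  rw [List.length_drop] at hl
  refine ⟨block_of_RW hz h1 (by omega) h3, ?_⟩
  unfold T
  rw [List.take_append_of_le_length h1, List.drop_append_of_le_length h1]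
  exact g2 _ _ _ _ h2 h4

/-- completeness of scheme 1 on a block outside the band on which the gadget is complete -/
theorem c1 {n : ℕ} {S0 : Set (List α)} {z p0 N1 : ℕ} (hz : p0 + N1 + n ≤ z)
    (φ : List α → S) (act : V → S → V) (nu2 : List α → V) (lam rho : List α → Option V)
    (g1 : ∀ P v, lam P = some v → P.length ≤ N1)
    {X : List α} (hX : X ∈ XX n S0 z) (hlen : z + N1 ≤ X.length)
    (hband : ∀ t, t < z → z ≤ t + N1 → ¬ Wo n S0 (X.take t))
    (hcomp : ∀ v, ∃ o, o ≤ (X.drop p0).length ∧ lam ((X.drop p0).take o) = some v ∧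
      (rho ((X.drop p0).drop o)).isSome) (v : V) :
    ∃ P Q, X = P ++ Q ∧ LP1 φ act p0 nu2 lam P v ∧ (R1 n S0 z p0 N1 rho Q).isSome := by
  obtain ⟨o, ho, h1, h2⟩ := hcomp (act v (φ (X.take p0)) + nu2 (X.take p0))
  have hl := g1 _ _ h1
  have hlX : (X.drop p0).length = X.length - p0 := List.length_drop
  rw [List.length_take, Nat.min_eq_left ho] at hl
  refine ⟨X.take (p0 + o), X.drop (p0 + o), (List.take_append_drop _ _).symm, ⟨?_, ?_⟩, ?_⟩
  · rw [List.length_take]; omega
  · rw [List.drop_take, List.take_take, Nat.min_eq_left (by omega),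
      show p0 + o - p0 = o by omega]
    exact h1
  · obtain ⟨b, hb⟩ := Option.isSome_iff_exists.1 h2
    rw [List.drop_drop] at hb
    exact Option.isSome_iff_exists.2 ⟨b, R1_some.2
      ⟨RW_of_block hz hX hlen hband (by omega) (by omega), hb⟩⟩

end scheme

/-! ## height one -/

section heights

variable {V S : Type} [AddCommGroup V] [Monoid S] [Finite V] [Finite S] [Finite α]

theorem reg_phi (φ : List α → S) (hφ : ∀ u v, φ (u ++ v) = φ u * φ v) (s : S) :
    Language.IsRegular ({Y | φ Y = s} : Language α) :=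
  reg_of_snoc φ (fun q a => q * φ [a]) (fun w a => hφ w [a]) (fun q => q = s)

theorem reg_T (φ : List α → S) (hφ : ∀ u v, φ (u ++ v) = φ u * φ v) (act : V → S → V) (p0 : ℕ)
    (nu1 nu2 : List α → V) (hnu : ∀ x, Language.IsRegular ({Y | nu1 Y = x} : Language α))
    (v v' : V) : Language.IsRegular ({X | T φ act p0 nu1 nu2 v X = v'} : Language α) :=
  reg_take_class (C := S × V) (fun Y => (φ Y, nu1 Y))
    (fun c => by
      refine (congrArg Language.IsRegular ?_).mp ((reg_phi φ hφ c.1).inf (hnu c.2))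
      ext Y
      show (φ Y = c.1 ∧ nu1 Y = c.2) ↔ (φ Y, nu1 Y) = c
      exact (Prod.ext_iff (x := (φ Y, nu1 Y)) (y := c)).symm) p0
    (fun P c => act (act v (φ P) + nu2 P) c.1 + c.2 = v')

variable {n c P : ℕ} {S0 : Set (List α)}

theorem hXT (hn : 0 < n) (hP : 0 < P) (hper : PerOff n c P S0) (z : ℕ)
    (φ : List α → S) (hφ : ∀ u v, φ (u ++ v) = φ u * φ v) (act : V → S → V) (p0 : ℕ)
    (nu1 nu2 : List α → V) (hnu : ∀ x, Language.IsRegular ({Y | nu1 Y = x} : Language α))
    (v v' : V) :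
    HL 1 ({X | X ∈ XX n S0 z ∧ T φ act p0 nu1 nu2 v X = v'} : Language α) := by
  refine (HL_few hn hP hper (z + 1) ((reg_XX n S0 z).inf (reg_T φ hφ act p0 nu1 nu2 hnu v v'))).congr
    fun w => ⟨fun h => ⟨h, ?_⟩, fun h => h.1⟩
  have hX : w ∈ XX n S0 z := h.1
  refine nw_le_of fun t ht hw => ?_
  by_contra hcon
  exact hX.2.2 t (by omega) ht hw

theorem hNP (hn : 0 < n) (hP : 0 < P) (hper : PerOff n c P S0) (z : ℕ)
    (φ : List α → S) (hφ : ∀ u v, φ (u ++ v) = φ u * φ v) (s : S) :
    HL 1 ({r | (∀ X ∈ XX n S0 z, ¬ X <+: r) ∧ φ r = s} : Language α) := by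
  refine (HL_few hn hP hper (z + 1) ((reg_NW n S0 z).inf (reg_phi φ hφ s))).congr
    fun w => ⟨fun h => ?_, fun h => ⟨(NW_iff_noXX w).2 h.1.1, h.1.2⟩⟩
  have hNW := (NW_iff_noXX w).1 h.1
  refine ⟨⟨hNW, h.2⟩, nw_le_of fun t ht hw => ?_⟩
  by_contra hcon
  exact hNW t (by omega) ht.le hw

theorem hL1 (φ : List α → S) (act : V → S → V) (p0 N1 : ℕ) (nu2 : List α → V)
    (lam : List α → Option V) (g1 : ∀ P v, lam P = some v → P.length ≤ N1) (v : V) :
    HL 1 ({Q | LP1 φ act p0 nu2 lam Q v} : Language α) := by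
  refine HL.finite ((List.finite_length_le α (p0 + N1)).subset ?_)
  rintro Q ⟨_, h2⟩
  have := g1 _ _ h2
  rw [List.length_drop] at this
  show Q.length ≤ p0 + N1
  omega

theorem hQ1 (hn : 0 < n) (hP : 0 < P) (hper : PerOff n c P S0) (z p0 N1 : ℕ)
    (hz : p0 + N1 + n ≤ z) (rho : List α → Option V)
    (hrho : ∀ b, Language.IsRegular ({Q | rho Q = some b} : Language α)) (b : V) :
    HL 1 ({Q | R1 n S0 z p0 N1 rho Q = some b} : Language α) := by
  refine (HL_few hn hP hper (z + 1) ((reg_RW n S0 z p0 N1 hz).inf (hrho b))).congr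
    fun w => ⟨fun h => ?_, fun h => R1_some.2 h.1⟩
  have h' := R1_some.1 h
  refine ⟨h', nw_le_of fun t ht hw => ?_⟩
  have := h'.1.2.2.2 t (by have := hw.1; rw [List.length_take] at this; omega) ht hw
  omega

end heights

end Crest.Agent.R320.Nat1_766
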