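import Crest.Agent.R320.Top_722

/-!
# Row 320: the natural chain (zone = first left-looking wall at distance `≥ z`) with a clock gadget
(`lam1 rho1 nu1`, sound for every text) and an exact gadget on words of length `p0`
(`lam2 rho2 nu2`): the hypotheses `CutL`, `CutP` of `Top_722.top` (helper887)
-/

set_option autoImplicit false

namespace Crest.Agent.R320.Nat1_887

open Crest.Agent.R320.CoreHalf_722 Crest.Agent.R320.Top_722

/-- all data -/
structure Pr (α S V : Type) where
  act : V → S → V
  ph : List α → S
  n : ℕ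
  Wo : List α → Prop
  N1 : ℕ
  La : ℕ
  lam1 : List α → Option V
  rho1 : List α → Option V
  nu1 : List α → V
  BadT : ℕ → Prop
  K : ℕ
  c : ℕ → ℕ
  lam2 : ℕ → List α → Option V
  rho2 : ℕ → List α → Option V
  nu2 : List α → V
  p0 : ℕ
  z : ℕ

variable {α S V : Type} [Monoid S] [AddCommGroup V]

structure Ok (p : Pr α S V) : Prop where
  ph_app : ∀ u v, p.ph (u ++ v) = p.ph u * p.ph v
  act_mul : ∀ x s t, p.act x (s * t) = p.act (p.act x s) t
  act_add : ∀ x y s, p.act (x + y) s = p.act x s + p.act y s
  loc : ∀ P Q : List α, p.n ≤ Q.length → (p.Wo (P ++ Q) ↔ p.Wo Q)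
  len : ∀ P : List α, p.Wo P → p.n ≤ P.length
  g1len : ∀ u v, p.lam1 u = some v → u.length ≤ p.N1
  g1s : ∀ u w v r, p.lam1 u = some v → p.rho1 w = some r → p.La ≤ w.length →
    r = p.act v (p.ph (u ++ w)) + p.nu1 (u ++ w)
  g1c : ∀ u : List α, p.La ≤ u.length → ¬ p.BadT u.length → ∀ v, ∃ a b, a ++ b = u ∧
    p.lam1 a = some v ∧ (p.rho1 b).isSome
  hp0 : ∀ k < p.K, p.c k ≤ p.p0
  g2s : ∀ k < p.K, ∀ P Q v b, P.length = p.c k → p.lam2 k P = some v → p.rho2 k Q = some b →
    b = p.act v (p.ph (P ++ Q)) + p.nu2 (P ++ Q)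
  hz : 2 * p.p0 + p.N1 + p.n + p.La + 1 ≤ p.z

/-- zones -/
def XX (p : Pr α S V) : Set (List α) :=
  {X | p.z ≤ X.length ∧ p.Wo X ∧ ∀ t, p.z ≤ t → t < X.length → ¬ p.Wo (X.take t)}

/-- thin modes -/
def Bz (p : Pr α S V) (X : List α) : Prop :=
  (∃ t, t ≤ X.length ∧ p.Wo (X.take t) ∧ p.z ≤ t + p.N1 ∧ t < p.z + p.N1) ∨
    p.BadT (X.length - p.p0)

def Bad (p : Pr α S V) : Set (List α) := {X | X ∈ XX p ∧ Bz p X}

def nu (p : Pr α S V) (X : List α) : V :=
  p.act (p.nu2 (X.take p.p0)) (p.ph (X.drop p.p0)) + p.nu1 (X.drop p.p0)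

def TT (p : Pr α S V) : List α → V → V := aff p.act p.ph (nu p)

def LP1 (p : Pr α S V) (x : V) : Language α :=
  {P | p.p0 ≤ P.length ∧
    p.lam1 (P.drop p.p0) = some (p.act x (p.ph (P.take p.p0)) + p.nu2 (P.take p.p0))}

def RQ1 (p : Pr α S V) (y : V) : Language α :=
  {Q | p.rho1 Q = some y ∧ p.Wo Q ∧ p.z ≤ p.p0 + Q.length ∧
    ∀ t, t < Q.length → p.Wo (Q.take t) → t + p.p0 + p.N1 < p.z}

/-- hypothesis number `j` sees a critical zone `Q` -/
def Cand (p : Pr α S V) (j : ℕ) (Q : List α) : Prop :=
  p.z ≤ p.c j + Q.length ∧ p.Wo Q ∧ (∀ t, t < Q.length → p.z ≤ p.c j + t → ¬ p.Wo (Q.take t)) ∧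
    ((∃ t, t ≤ Q.length ∧ p.Wo (Q.take t) ∧ p.z ≤ p.c j + t + p.N1 ∧ p.c j + t < p.z + p.N1) ∨
      p.BadT (p.c j + Q.length - p.p0))

def LP2 (p : Pr α S V) (x : V) : Language α :=
  {P | ∃ k, k < p.K ∧ P.length = p.c k ∧ p.lam2 k P = some x}

def val (p : Pr α S V) (k : ℕ) (Q : List α) : Option V :=
  (p.rho2 k (Q.take (p.p0 - p.c k))).map fun b =>
    p.act b (p.ph (Q.drop (p.p0 - p.c k))) + p.nu1 (Q.drop (p.p0 - p.c k))

def RQ2 (p : Pr α S V) (y : V) : Language α :=
  {Q | ∃ k, k < p.K ∧ (∃ Q1 X2, Q1 ++ X2 = Q ∧ Cand p k Q1 ∧ X2 ∈ XX p ∧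
      ∃ v, val p k Q1 = some v ∧ TT p X2 v = y) ∧
    ∀ j, j < p.K → j ≠ k → ∀ t, t ≤ Q.length → ¬ Cand p j (Q.take t)}

variable {p : Pr α S V}

theorem take_app (P Q : List α) (t : ℕ) :
    (P ++ Q).take (P.length + t) = P ++ Q.take t := by
  rw [List.take_append, List.take_of_length_le (by omega), Nat.add_sub_cancel_left]

theorem take_app' (P Q : List α) {t : ℕ} (h : P.length ≤ t) :
    (P ++ Q).take t = P ++ Q.take (t - P.length) := by
  rw [List.take_append, List.take_of_length_le h]

theorem code (h : Ok p) : PC (XX p) := by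
  refine ⟨?_, ?_⟩
  · intro h0
    have h1 := h0.1
    have h2 := h.hz
    simp only [List.length_nil] at h1
    omega
  · rintro X ⟨hX1, hX2, -⟩ Y ⟨-, -, hY⟩ ⟨r, rfl⟩
    by_cases hr : r = []
    · rw [hr, List.append_nil]
    · have := List.length_pos_iff.2 hr
      refine absurd ?_ (hY X.length hX1 (by rw [List.length_append]; omega))
      rw [List.take_left]
      exact hX2

theorem TT_eq (h : Ok p) (X : List α) (x : V) :
    TT p X x = p.act (p.act x (p.ph (X.take p.p0)) + p.nu2 (X.take p.p0)) (p.ph (X.drop p.p0)) +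
      p.nu1 (X.drop p.p0) := by
  have e : p.ph X = p.ph (X.take p.p0) * p.ph (X.drop p.p0) := by
    rw [← h.ph_app, List.take_append_drop]
  unfold TT aff nu
  rw [h.act_add, ← h.act_mul, e, add_assoc]

theorem cutL (h : Ok p) : CutL (XX p) (Bad p) (TT p) (LP1 p) (RQ1 p) := by
  refine ⟨code h, fun X hX => hX.1, ?_, ?_⟩
  · rintro P Q x y ⟨hP, hl⟩ ⟨hr, hW, hz, hno⟩
    have hz0 := h.hz
    have hn := h.len Q hW
    have hN := h.g1len _ _ hl
    rw [List.length_drop] at hN
    refine ⟨⟨by rw [List.length_append]; omega, (h.loc P Q hn).2 hW, ?_⟩, ?_⟩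
    · intro t ht1 ht2 hWt
      rw [List.length_append] at ht2
      rw [take_app' P Q (by omega)] at hWt
      have h1 : (Q.take (t - P.length)).length = t - P.length := by
        rw [List.length_take]; omega
      have h2 := (h.loc P _ (by omega)).1 hWt
      have h3 := hno (t - P.length) (by omega) h2
      omega
    · rw [TT_eq h, List.take_append_of_le_length hP, List.drop_append_of_le_length hP]
      exact (h.g1s _ _ _ _ hl hr (by omega)).symm
  · rintro X hX hb x
    have hz0 := h.hz
    obtain ⟨hX1, hX2, hX3⟩ := hX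
    have hb' : ¬ Bz p X := fun hB => hb ⟨⟨hX1, hX2, hX3⟩, hB⟩
    unfold Bz at hb'
    push Not at hb'
    obtain ⟨hE, hT⟩ := hb'
    have hlen := hE X.length le_rfl (by rwa [List.take_length]) (by omega)
    obtain ⟨a, b, hab, ha, hb⟩ := h.g1c (X.drop p.p0) (by rw [List.length_drop]; omega)
      (by rw [List.length_drop]; exact hT)
      (p.act x (p.ph (X.take p.p0)) + p.nu2 (X.take p.p0))
    obtain ⟨r, hr⟩ := Option.isSome_iff_exists.1 hb
    have ha1 := h.g1len _ _ ha
    have hl1 : (X.take p.p0).length = p.p0 := by rw [List.length_take]; omega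
    have hl2 : a.length + b.length = X.length - p.p0 := by
      rw [← List.length_append, hab, List.length_drop]
    have hXe : X = (X.take p.p0 ++ a) ++ b := by
      rw [List.append_assoc, hab, List.take_append_drop]
    have hPl : (X.take p.p0 ++ a).length = p.p0 + a.length := by
      rw [List.length_append, hl1]
    refine ⟨X.take p.p0 ++ a, b, hXe, ⟨by omega, ?_⟩, ?_, ?_, by omega, ?_⟩
    · have e1 : (X.take p.p0 ++ a).take p.p0 = X.take p.p0 := by
        rw [List.take_append_of_le_length (le_of_eq hl1.symm), List.take_take, min_self]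
      have e2 : (X.take p.p0 ++ a).drop p.p0 = a := by
        rw [List.drop_append_of_le_length (le_of_eq hl1.symm),
          List.drop_of_length_le (le_of_eq hl1), List.nil_append]
      rw [e1, e2]
      exact ha
    · rw [hr, TT_eq h, ← hab]
      exact congrArg some (h.g1s _ _ _ _ ha hr (by omega))
    · have : p.Wo ((X.take p.p0 ++ a) ++ b) := hXe ▸ hX2
      exact (h.loc _ _ (by omega)).1 this
    · intro t ht hWt
      by_contra hcon
      have h1 := h.len _ hWt
      rw [List.length_take] at h1
      have h2 : p.Wo (X.take (p.p0 + a.length + t)) := by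
        have h3 := (h.loc (X.take p.p0 ++ a) (b.take t) (by rw [List.length_take]; omega)).2 hWt
        rw [← take_app, ← hXe, hPl] at h3
        exact h3
      have h4 : p.p0 + a.length + t < p.z := by
        by_contra hge
        exact hX3 _ (by omega) (by omega) h2
      have h5 := hE _ (by omega) h2 (by omega)
      omega

theorem wt (h : Ok p) {P Q : List α} {t : ℕ} (hP : P.length ≤ p.p0)
    (ht : p.z ≤ P.length + t + p.N1) (htQ : t ≤ Q.length) :
    p.Wo ((P ++ Q).take (P.length + t)) ↔ p.Wo (Q.take t) := by
  have hz0 := h.hz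
  rw [take_app]
  exact h.loc P _ (by rw [List.length_take]; omega)

theorem cand_iff (h : Ok p) {j : ℕ} (hj : j < p.K) {P Q : List α} (hP : P.length = p.c j) :
    P ++ Q ∈ Bad p ↔ Cand p j Q := by
  have hz0 := h.hz
  have hp := h.hp0 j hj
  have hpl : P.length ≤ p.p0 := by omega
  have full : ∀ R : List α, p.Wo (R.take R.length) ↔ p.Wo R := fun R => by rw [List.take_length]
  constructor
  · rintro ⟨⟨h1, h2, h3⟩, h4⟩
    rw [List.length_append] at h1
    have hW : p.Wo Q := (h.loc P Q (by omega)).1 h2
    refine ⟨by omega, hW, ?_, ?_⟩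
    · intro t ht hzt hWt
      refine h3 (P.length + t) (by omega) (by rw [List.length_append]; omega) ?_
      exact (wt h hpl (by omega) (by omega)).2 hWt
    · rcases h4 with ⟨t, ht1, ht2, ht3, ht4⟩ | h4
      · left
        rw [List.length_append] at ht1
        have e : P.length + (t - P.length) = t := by omega
        refine ⟨t - P.length, by omega, ?_, by omega, by omega⟩
        rw [← e] at ht2
        exact (wt h hpl (by omega) (by omega)).1 ht2
      · right
        rw [List.length_append, hP] at h4
        exact h4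
  · rintro ⟨h1, h2, h3, h4⟩
    refine ⟨⟨by rw [List.length_append]; omega, (h.loc P Q (by omega)).2 h2, ?_⟩, ?_⟩
    · intro t ht1 ht2 hWt
      rw [List.length_append] at ht2
      have e : P.length + (t - P.length) = t := by omega
      rw [← e] at hWt
      exact h3 (t - P.length) (by omega) (by omega) ((wt h hpl (by omega) (by omega)).1 hWt)
    · rcases h4 with ⟨t, ht1, ht2, ht3, ht4⟩ | h4
      · left
        exact ⟨P.length + t, by rw [List.length_append]; omega,
          (wt h hpl (by omega) (by omega)).2 ht2, by omega, by omega⟩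
      · right
        rw [List.length_append, hP]
        exact h4

/-- everything scheme 2 needs for completeness -/
def Spoil (p : Pr α S V) : Prop :=
  ∀ X ∈ Bad p, ∀ X' ∈ Bad p, ∀ x : V, ∃ k, k < p.K ∧ p.lam2 k (X.take (p.c k)) = some x ∧
    (p.rho2 k ((X.take p.p0).drop (p.c k))).isSome ∧
    ∀ j, j < p.K → j ≠ k → ∀ t, t ≤ ((X ++ X').drop (p.c k)).length →
      ¬ Cand p j (((X ++ X').drop (p.c k)).take t)

theorem cutP (h : Ok p) (hs : Spoil p) : CutP (XX p) (Bad p) (TT p) (LP2 p) (RQ2 p) := by
  have hz0 := h.hz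
  have hcode := code h
  refine ⟨hcode, fun X hX => hX.1, ?_, ?_⟩
  · rintro P Q x y ⟨k0, hk0, hPl, hlam⟩ ⟨k, hk, ⟨Q1, X2, rfl, hC, hX2, v, hv, hy⟩, huniq⟩ D hD hpre
    have hpk := h.hp0 k0 hk0
    -- the first block
    cases D with
    | nil =>
      have : P ++ (Q1 ++ X2) = [] := List.prefix_nil.1 hpre
      have h1 := congrArg List.length this
      simp only [List.length_append, List.length_nil] at h1
      have := hX2.1
      omega
    | cons X D =>
      have hXB := hD X (by simp)
      rw [List.flatten_cons] at hpre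
      have hXle : X <+: P ++ (Q1 ++ X2) := by
        rcases List.prefix_or_prefix_of_prefix hpre (List.prefix_append X D.flatten) with h1 | h1
        · obtain ⟨r, hr⟩ := h1
          by_cases hr0 : r = []
          · rw [hr0, List.append_nil] at hr
            rw [hr]
          · exfalso
            have hrl := List.length_pos_iff.2 hr0
            have h2 := hXB.1.2.2 (P ++ (Q1 ++ X2)).length
              (by rw [List.length_append, List.length_append]; have := hX2.1; omega)
              (by rw [← hr]; simp only [List.length_append]; omega)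
            apply h2
            rw [← hr, List.take_left]
            rw [← List.append_assoc]
            have := hX2.1
            exact (h.loc _ _ (by omega)).2 hX2.2.1
        · exact h1
      have hXP : ∃ Q', X = P ++ Q' := by
        have h1 : P <+: X := by
          refine List.prefix_of_prefix_length_le (List.prefix_append P (Q1 ++ X2)) hXle ?_
          have := hXB.1.1
          omega
        obtain ⟨r, hr⟩ := h1
        exact ⟨r, hr.symm⟩
      obtain ⟨Q', rfl⟩ := hXP
      have hC0 : Cand p k0 Q' := (cand_iff h hk0 hPl).1 hXB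
      have hQ' : Q' <+: Q1 ++ X2 := (List.prefix_append_right_inj P).1 hXle
      have hQt : Q' = (Q1 ++ X2).take Q'.length := by
        obtain ⟨r, hr⟩ := hQ'
        rw [← hr, List.take_left]
      have hkk : k0 = k := by
        by_contra hne
        refine huniq k0 hk0 hne Q'.length hQ'.length_le ?_
        rw [← hQt]; exact hC0
      subst hkk
      have hQQ : Q' = Q1 := by
        rcases lt_trichotomy Q'.length Q1.length with hlt | heq | hgt
        · exfalso
          refine hC.2.2.1 Q'.length hlt hC0.1 ?_
          have : Q' = Q1.take Q'.length := by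
            conv_lhs => rw [hQt]
            rw [List.take_append_of_le_length (by omega)]
          rw [← this]; exact hC0.2.1
        · have : Q' = Q1.take Q'.length := by
            conv_lhs => rw [hQt]
            rw [List.take_append_of_le_length (by omega)]
          rw [this, heq, List.take_length]
        · exfalso
          refine hC0.2.2.1 Q1.length hgt hC.1 ?_
          have : Q'.take Q1.length = Q1 := by
            rw [hQt, List.take_take, Nat.min_eq_left (by omega), List.take_left]
          rw [this]; exact hC.2.1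
      subst hQQ
      have hX2pre : X2 <+: D.flatten := by
        rw [← List.append_assoc] at hpre
        exact (List.prefix_append_right_inj (P ++ Q')).1 hpre
      have hX2B : X2 ∈ Bad p := by
        cases D with
        | nil =>
          have := List.prefix_nil.1 hX2pre
          subst this
          exact absurd hX2 hcode.nil
        | cons X' D =>
          have hX'B := hD X' (by simp)
          rw [List.flatten_cons] at hX2pre
          have : X2 = X' := by
            rcases List.prefix_or_prefix_of_prefix hX2pre (List.prefix_append X' D.flatten)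
              with h1 | h1
            · exact hcode.pre _ hX2 _ hX'B.1 h1
            · exact (hcode.pre _ hX'B.1 _ hX2 h1).symm
          rw [this]; exact hX'B
      refine ⟨[P ++ Q', X2], ?_, by simp, ?_⟩
      · intro Y hY
        rcases List.mem_cons.1 hY with rfl | hY
        · exact hXB
        · rw [List.mem_singleton.1 hY]; exact hX2B
      · show TT p X2 (TT p (P ++ Q') x) = y
        rw [← hy]
        congr 1
        have e1 : p.p0 = P.length + (p.p0 - p.c k0) := by omega
        have e2 : (P ++ Q').take p.p0 = P ++ Q'.take (p.p0 - p.c k0) := by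
          rw [e1, take_app, ← e1]
        have e3 : (P ++ Q').drop p.p0 = Q'.drop (p.p0 - p.c k0) := by
          rw [List.drop_append, List.drop_of_length_le (by omega), List.nil_append, hPl]
        rw [TT_eq h, e2, e3]
        unfold val at hv
        obtain ⟨b, hb, hbv⟩ := Option.map_eq_some_iff.1 hv
        rw [← h.g2s k0 hk0 P _ x b hPl hlam hb, hbv]
  · rintro X hX X' hX' x
    obtain ⟨k, hk, hlam, hrho, hno⟩ := hs X hX X' hX' x
    have hpk := h.hp0 k hk
    have hXl := hX.1.1
    have hl : (X.take (p.c k)).length = p.c k := by rw [List.length_take]; omega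
    have hd : (X ++ X').drop (p.c k) = X.drop (p.c k) ++ X' :=
      List.drop_append_of_le_length (by omega)
    refine ⟨X.take (p.c k), X.drop (p.c k) ++ X', ?_, ⟨k, hk, hl, hlam⟩, k, hk,
      ⟨X.drop (p.c k), X', rfl, ?_, hX'.1, TT p X x, ?_, rfl⟩, ?_⟩
    · rw [← List.append_assoc, List.take_append_drop]
    · refine (cand_iff h hk hl).1 ?_
      rw [List.take_append_drop]; exact hX
    · obtain ⟨b, hb⟩ := Option.isSome_iff_exists.1 hrho
      have e1 : (X.drop (p.c k)).take (p.p0 - p.c k) = (X.take p.p0).drop (p.c k) := by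
        rw [List.drop_take]
      have e2 : (X.drop (p.c k)).drop (p.p0 - p.c k) = X.drop p.p0 := by
        rw [List.drop_drop]; congr 1; omega
      have e3 : X.take (p.c k) ++ (X.take p.p0).drop (p.c k) = X.take p.p0 := by
        conv_rhs => rw [← List.take_append_drop (p.c k) (X.take p.p0)]
        rw [List.take_take, Nat.min_eq_left hpk]
      unfold val
      rw [e1, e2, hb, Option.map_some, TT_eq h]
      have := h.g2s k hk _ _ x b hl hlam hb
      rw [e3] at this
      rw [this]
    · intro j hj hne t ht
      rw [← hd] at ht ⊢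
      exact hno j hj hne t ht

end Crest.Agent.R320.Nat1_887
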