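import Crest.Agent.R320.Nat_603
import Crest.Agent.R320.ExactR_237

/-!
# Row 320: the two schemes on natural blocks (helper603)
-/

set_option autoImplicit false

namespace Crest.Agent.R320.Nat_603

open Crest.RegLang Crest.Agent.R320.Hk_851 Crest.Agent.R320.Core_603 Computability

universe u

variable {α : Type u} {Wo : List α → Prop} {n W : ℕ} {V S : Type} [AddCommGroup V] [Monoid S]

/-- noise of a block -/
noncomputable def nu1 (Wo : List α → Prop) (p0 z : ℕ) (act : V → S → V) (phi : List α → S)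
    (nu : List α → V) (X : List α) : V :=
  act (nu ((X.take (tz Wo z X)).drop p0)) (phi (X.drop (tz Wo z X)))

theorem nu1_eq {p0 z : ℕ} {act : V → S → V} {phi : List α → S} {nu : List α → V}
    {X1 Y Z : List α} (h1 : X1.length = p0) (h2 : X1 ++ Y ∈ FW Wo z) :
    nu1 Wo p0 z act phi nu (X1 ++ Y ++ Z) = act (nu Y) (phi Z) := by
  unfold nu1
  rw [tz_eq h2, List.take_left, List.drop_left, List.drop_left' h1]

/-- left words of scheme 1 -/
def L1 (p0 : ℕ) (act : V → S → V) (phi : List α → S) (Lam : V → Language α) (v : V) :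
    Language α :=
  {P | ∃ X1 P', P = X1 ++ P' ∧ X1.length = p0 ∧ P' ∈ Lam (act v (phi X1))}

/-- right words of scheme 1 -/
def R1 (Wo : List α → Prop) (N p0 z : ℕ) (act : V → S → V) (phi : List α → S)
    (Rho : V → Language α) (u : V) : Language α :=
  {Q | ∃ r Q1 Z, Q = Q1 ++ Z ∧ Q1 ∈ Rho r ∧ Q1 ∈ FW Wo (z - p0 - N) ∧ z - p0 ≤ Q1.length ∧
    Z ∈ FW Wo 0 ∧ act r (phi Z) = u}

theorem sound1 (H : Walls Wo n W) {N p0 z : ℕ} (hz : p0 + N + n ≤ z) (act : V → S → V)
    (hadd : ∀ x y s, act (x + y) s = act x s + act y s)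
    (hmul : ∀ x s t, act x (s * t) = act (act x s) t)
    (phi : List α → S) (hphim : ∀ u v, phi (u ++ v) = phi u * phi v)
    (Lam Rho : V → Language α) (nu : List α → V)
    (hlen : ∀ v, ∀ p ∈ Lam v, p.length ≤ N)
    (hs : ∀ v r, ∀ p ∈ Lam v, ∀ q ∈ Rho r, r = act v (phi (p ++ q)) + nu (p ++ q))
    (v u : V) (P : List α) (hP : P ∈ L1 p0 act phi Lam v) (Q : List α)
    (hQ : Q ∈ R1 Wo N p0 z act phi Rho u) :
    P ++ Q ∈ XX Wo z ∧ u = act v (phi (P ++ Q)) + nu1 Wo p0 z act phi nu (P ++ Q) := by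
  obtain ⟨X1, P', rfl, hX1, hP'⟩ := hP
  obtain ⟨r, Q1, Z, rfl, hQ1, hF, hQl, hZ, rfl⟩ := hQ
  have hPl := hlen _ _ hP'
  have hpl : (X1 ++ P').length = p0 + P'.length := by rw [List.length_append, hX1]
  have hF1 : (X1 ++ P') ++ Q1 ∈ FW Wo z := by
    rw [fw_append H (by rw [hpl]; omega), hpl]
    exact ⟨by omega, hF.2.1, fun t h1 h2 => hF.2.2 t (by omega) h2⟩
  have hF2 : X1 ++ (P' ++ Q1) ∈ FW Wo z := by rw [← List.append_assoc]; exact hF1
  have e : X1 ++ P' ++ (Q1 ++ Z) = X1 ++ (P' ++ Q1) ++ Z := by simp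
  constructor
  · rw [e]
    exact Language.mem_mul.2 ⟨_, hF2, Z, hZ, rfl⟩
  · rw [e, nu1_eq hX1 hF2, hs _ _ _ hP' _ hQ1, hadd, hphim (X1 ++ (P' ++ Q1)) Z, hphim X1, hmul, hmul]

theorem complete1 (H : Walls Wo n W) {N p0 z T0 : ℕ} {BadT : ℕ → Prop}
    (hz : 2 * p0 + 2 * N + n + T0 ≤ z) (act : V → S → V)
    (hadd : ∀ x y s, act (x + y) s = act x s + act y s)
    (hmul : ∀ x s t, act x (s * t) = act (act x s) t)
    (phi : List α → S) (hphim : ∀ u v, phi (u ++ v) = phi u * phi v)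
    (Lam Rho : V → Language α) (nu : List α → V)
    (hlen : ∀ v, ∀ p ∈ Lam v, p.length ≤ N)
    (hs : ∀ v r, ∀ p ∈ Lam v, ∀ q ∈ Rho r, r = act v (phi (p ++ q)) + nu (p ++ q))
    (hc : ∀ u : List α, T0 ≤ u.length → ¬ BadT u.length → ∀ v, ∃ p q r, p ++ q = u ∧
      p ∈ Lam v ∧ q ∈ Rho r)
    (X : List α) (hX : X ∈ XX Wo z) :
    X ∈ (Bd Wo N BadT p0 z 0 * FW Wo 0 : Language α) ∨ ∀ v, ∃ P Q, X = P ++ Q ∧
      P ∈ L1 p0 act phi Lam v ∧ Q ∈ R1 Wo N p0 z act phi Rho (act v (phi X) +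
        nu1 Wo p0 z act phi nu X) := by
  obtain ⟨A, hA, Z, hZ, rfl⟩ := Language.mem_mul.1 hX
  by_cases hbad : A ∈ Bd Wo N BadT p0 z 0
  · left
    exact Language.mem_mul.2 ⟨A, hbad, Z, hZ, rfl⟩
  right
  intro v
  have hAl := hA.1
  have h1 : ∀ t, t ≤ A.length → z ≤ t + N → t ≤ z + N → ¬ Wo (A.take t) := by
    intro t a b c d
    exact hbad ⟨hA, Or.inl ⟨t, a, by omega, by omega, d⟩⟩
  have h2 : ¬ BadT (A.length - p0) := fun h => hbad ⟨hA, Or.inr (by simpa using h)⟩
  have h3 : z + N < A.length := by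
    by_contra hlt
    push Not at hlt
    exact h1 A.length le_rfl (by omega) hlt (by rw [List.take_length]; exact hA.2.1)
  have hdl : (A.drop p0).length = A.length - p0 := List.length_drop
  obtain ⟨p, q, r, hpq, hp, hq⟩ := hc (A.drop p0) (by omega) (by rw [hdl]; exact h2)
    (act v (phi (A.take p0)))
  have hpl := hlen _ _ hp
  have htl : (A.take p0).length = p0 := by rw [List.length_take]; omega
  have hA' : A = (A.take p0 ++ p) ++ q := by
    rw [List.append_assoc, hpq, List.take_append_drop]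
  have hpql : p.length + q.length = A.length - p0 := by
    have := congrArg List.length hpq
    rw [List.length_append, hdl] at this
    exact this
  have hl2 : (A.take p0 ++ p).length = p0 + p.length := by rw [List.length_append, htl]
  have hP : A.take p0 ++ p ∈ L1 p0 act phi Lam v := ⟨_, _, rfl, htl, hp⟩
  have hq1 : Wo q := by
    rw [hA'] at hA
    exact (H.loc _ _ (by omega)).1 hA.2.1
  have hqF : q ∈ FW Wo (z - p0 - N) := by
    refine ⟨by omega, hq1, fun t a b c => ?_⟩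
    have c' : Wo (A.take ((A.take p0 ++ p).length + t)) := by
      have := (H.take (A.take p0 ++ p) q (t := t) (by omega) b.le).2 c
      rwa [← hA'] at this
    rw [hl2] at c'
    by_cases hz' : p0 + p.length + t ≤ z + N
    · exact h1 _ (by omega) (by omega) hz' c'
    · exact hA.2.2 _ (by omega) (by omega) c'
  have hR : q ++ Z ∈ R1 Wo N p0 z act phi Rho (act r (phi Z)) :=
    ⟨r, q, Z, rfl, hq, hqF, by omega, hZ, rfl⟩
  have hsound := (sound1 H (z := z) (by omega) act hadd hmul phi hphim Lam Rho nu hlen hs v _ _ hP _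
    hR).2
  have hcat : (A.take p0 ++ p) ++ (q ++ Z) = A ++ Z := by
    rw [← List.append_assoc, ← hA']
  rw [hcat] at hsound
  refine ⟨A.take p0 ++ p, q ++ Z, hcat.symm, hP, ?_⟩
  rw [← hsound]
  exact hR

end Crest.Agent.R320.Nat_603
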