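import Crest.Agent.R320.Nat1_887

/-!
# Row 320: the spoiling count for the natural chain (helper887)
-/

set_option autoImplicit false

namespace Crest.Agent.R320.Nat2_887

open Crest.Agent.R320.CoreHalf_722 Crest.Agent.R320.Top_722 Crest.Agent.R320.Nat1_887

variable {α S V : Type} [Monoid S] [AddCommGroup V] {p : Pr α S V}

theorem wall_shift (h : Ok p) (U : List α) (a t : ℕ) (hn : p.n ≤ t) (hl : a + t ≤ U.length) :
    p.Wo (U.take (a + t)) ↔ p.Wo ((U.drop a).take t) := by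
  rw [List.take_add]
  exact h.loc _ _ (by rw [List.length_take, List.length_drop]; omega)

theorem spoil (h : Ok p) (W C0 R : ℕ)
    (hgap : ∀ (P : List α) (d : ℕ), p.Wo P → 0 < d → d ≤ W → ¬ p.Wo (P.take (P.length - d)))
    (hW : 2 * (p.p0 + p.N1) ≤ W)
    (hsep : ∀ i j k l, i < p.K → j < p.K → k < p.K → l < p.K → i ≠ j → k ≠ l → (i, j) ≠ (k, l) →
      p.c i + p.c l + 4 * p.N1 < p.c k + p.c j ∨ p.c k + p.c j + 4 * p.N1 < p.c i + p.c l)
    (hcnt : ∀ T, p.La ≤ T → {ij : ℕ × ℕ | ij.1 < p.K ∧ ij.2 < p.K ∧ ij.1 ≠ ij.2 ∧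
      p.BadT (T + p.c ij.2 - p.c ij.1)}.ncard ≤ C0)
    (hg2c : ∀ (u : List α) (v : V), (∀ k < p.K, p.c k ≤ u.length) → ∃ I : Finset ℕ, R ≤ I.card ∧
      ∀ k ∈ I, k < p.K ∧ p.lam2 k (u.take (p.c k)) = some v ∧
        (p.rho2 k (u.drop (p.c k))).isSome)
    (hR : 1 + 2 * C0 < R) : Spoil p := by
  classical
  intro X hX X' hX' x
  have hz0 := h.hz
  have hXl := hX.1.1
  have hX'l := hX'.1.1
  set U := X ++ X' with hU
  have hUl : U.length = X.length + X'.length := by rw [hU, List.length_append]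
  have gapU : ∀ s t, t ≤ U.length → p.Wo (U.take s) → p.Wo (U.take t) → s < t → s + W < t := by
    intro s t ht hs hWt hst
    by_contra hcon
    have hl : (U.take t).length = t := by rw [List.length_take]; omega
    refine hgap (U.take t) (t - s) hWt (by omega) (by omega) ?_
    rw [hl, List.take_take, Nat.min_eq_left (by omega)]
    have : t - (t - s) = s := by omega
    rw [this]; exact hs
  have hWU : p.Wo U := (h.loc X X' (by omega)).2 hX'.1.2.1
  have hex : ∃ t, p.z + p.p0 ≤ t ∧ p.Wo (U.take t) :=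
    ⟨U.length, by omega, by rwa [List.take_length]⟩
  set t1 := Nat.find hex with ht1
  have ht1s := Nat.find_spec hex
  have ht1m : ∀ t, p.z + p.p0 ≤ t → p.Wo (U.take t) → t1 ≤ t := fun t h1 h2 =>
    Nat.find_min' hex ⟨h1, h2⟩
  -- the wall in the band
  obtain ⟨t0, ht0l, ht0⟩ : ∃ t0, p.z ≤ t0 + p.p0 ∧ ∀ t, t ≤ U.length → p.Wo (U.take t) →
      p.z ≤ t + p.p0 → t < p.z + p.p0 → t = t0 := by
    by_cases hb : ∃ t, t ≤ U.length ∧ p.Wo (U.take t) ∧ p.z ≤ t + p.p0 ∧ t < p.z + p.p0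
    · obtain ⟨t0, h1, h2, h3, h4⟩ := hb
      refine ⟨t0, h3, fun t g1 g2 g3 g4 => ?_⟩
      rcases lt_trichotomy t t0 with hlt | heq | hgt
      · have := gapU t t0 h1 g2 h2 hlt; omega
      · exact heq
      · have := gapU t0 t g1 h2 g2 hgt; omega
    · exact ⟨p.z, by omega, fun t g1 g2 g3 g4 => absurd ⟨t, g1, g2, g3, g4⟩ hb⟩
  let AE : Set (ℕ × ℕ) := {ij | ij.1 < p.K ∧ ij.2 < p.K ∧ ij.1 ≠ ij.2 ∧ ∃ t, t ≤ U.length ∧
    p.Wo (U.take t) ∧ p.z + p.c ij.1 ≤ t + p.c ij.2 + p.N1 ∧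
      t + p.c ij.2 < p.z + p.N1 + p.c ij.1}
  let A (T : ℕ) : Set (ℕ × ℕ) := {ij | ij.1 < p.K ∧ ij.2 < p.K ∧ ij.1 ≠ ij.2 ∧
      p.BadT (T + p.c ij.2 - p.c ij.1)}
  have finK : Set.Finite {ij : ℕ × ℕ | ij.1 < p.K ∧ ij.2 < p.K} := by
    refine Set.Finite.subset (Finset.finite_toSet (Finset.range p.K ×ˢ Finset.range p.K)) ?_
    rintro ⟨a, b⟩ ⟨h1, h2⟩
    exact Finset.mem_coe.2 (Finset.mem_product.2 ⟨Finset.mem_range.2 h1, Finset.mem_range.2 h2⟩)
  have hAE : AE.ncard ≤ 1 := by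
    rw [Set.ncard_le_one (finK.subset fun ij hij => ⟨hij.1, hij.2.1⟩)]
    rintro ⟨a, b⟩ ⟨ha, hb, hab, t, h1, h2, h3, h4⟩ ⟨a', b'⟩ ⟨ha', hb', hab', t', h1', h2', h3', h4'⟩
    by_contra hne
    simp only at *
    have q1 := h.hp0 a ha
    have q2 := h.hp0 b hb
    have q3 := h.hp0 a' ha'
    have q4 := h.hp0 b' hb'
    have htt : t = t' := by
      rcases lt_trichotomy t t' with hlt | heq | hgt
      · have := gapU t t' h1' h2 h2' hlt; omega
      · exact heq
      · have := gapU t' t h1 h2' h2 hgt; omega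
    subst htt
    rcases hsep a b a' b' ha hb ha' hb' hab hab' hne with hh | hh <;> omega
  have hsub : {k | k < p.K ∧ ∃ j, j < p.K ∧ j ≠ k ∧ ∃ t, t ≤ (U.drop (p.c k)).length ∧
      Cand p j ((U.drop (p.c k)).take t)} ⊆
      Prod.fst '' (AE ∪ (A (t0 - p.p0) ∪ A (t1 - p.p0))) := by
    rintro k ⟨hk, j, hj, hjk, t, ht, h1, h2, h3, h4⟩
    have qk := h.hp0 k hk
    have qj := h.hp0 j hj
    rw [List.length_drop] at ht
    have hQl : ((U.drop (p.c k)).take t).length = t := by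
      rw [List.length_take, List.length_drop]; omega
    rw [hQl] at h1 h3 h4
    have hwt : p.Wo (U.take (p.c k + t)) := (wall_shift h U (p.c k) t (by omega) (by omega)).2 h2
    refine ⟨(k, j), ?_, rfl⟩
    rcases h4 with ⟨t', g1, g2, g3, g4⟩ | h4
    · left
      rw [List.take_take, Nat.min_eq_left g1] at g2
      exact ⟨hk, hj, fun e => hjk e.symm, p.c k + t', by omega,
        (wall_shift h U (p.c k) t' (by omega) (by omega)).2 g2, by simp only; omega,
        by simp only; omega⟩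
    · right
      by_cases hlt : p.c k + t < p.z + p.p0
      · left
        have e0 := ht0 (p.c k + t) (by omega) hwt (by omega) hlt
        refine ⟨hk, hj, fun e => hjk e.symm, ?_⟩
        simp only
        have e : t0 - p.p0 + p.c j - p.c k = p.c j + t - p.p0 := by omega
        rw [e]; exact h4
      · right
        have e1 : t1 = p.c k + t := by
          refine le_antisymm (ht1m _ (by omega) hwt) ?_
          by_contra hcon
          push Not at hcon
          have hz1 := ht1s.1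
          have hw1 := ht1s.2
          rw [← ht1] at hz1 hw1
          have e : p.c k + (t1 - p.c k) = t1 := by omega
          rw [← e] at hw1
          have g := (wall_shift h U (p.c k) (t1 - p.c k) (by omega) (by omega)).1 hw1
          refine h3 (t1 - p.c k) (by omega) (by omega) ?_
          rw [List.take_take, Nat.min_eq_left (by omega)]
          exact g
        refine ⟨hk, hj, fun e => hjk e.symm, ?_⟩
        simp only
        have e : t1 - p.p0 + p.c j - p.c k = p.c j + t - p.p0 := by omega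
        rw [e]; exact h4
  have hA : ∀ T, (A T).Finite := fun T => finK.subset fun ij hij => ⟨hij.1, hij.2.1⟩
  have hfin : (AE ∪ (A (t0 - p.p0) ∪ A (t1 - p.p0))).Finite :=
    (finK.subset fun ij hij => ⟨hij.1, hij.2.1⟩ : AE.Finite).union ((hA _).union (hA _))
  have hcard : {k | k < p.K ∧ ∃ j, j < p.K ∧ j ≠ k ∧ ∃ t, t ≤ (U.drop (p.c k)).length ∧
      Cand p j ((U.drop (p.c k)).take t)}.ncard < R := by
    have g1 := Set.ncard_le_ncard hsub (hfin.image _)
    have g2 := Set.ncard_image_le (f := Prod.fst) hfin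
    have g3 := Set.ncard_union_le AE (A (t0 - p.p0) ∪ A (t1 - p.p0))
    have g4 := Set.ncard_union_le (A (t0 - p.p0)) (A (t1 - p.p0))
    have g5 := hcnt (t0 - p.p0) (by omega)
    have g6 := hcnt (t1 - p.p0) (by have := ht1s.1; rw [← ht1] at this; omega)
    change (A (t0 - p.p0)).ncard ≤ C0 at g5
    change (A (t1 - p.p0)).ncard ≤ C0 at g6
    omega
  have hu : ∀ k < p.K, p.c k ≤ (X.take p.p0).length := by
    intro k hk
    have := h.hp0 k hk
    rw [List.length_take]; omega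
  obtain ⟨I, hI, hIk⟩ := hg2c (X.take p.p0) x hu
  obtain ⟨k, hkI, hkS⟩ : ∃ k ∈ I, k ∉ {k | k < p.K ∧ ∃ j, j < p.K ∧ j ≠ k ∧
      ∃ t, t ≤ (U.drop (p.c k)).length ∧ Cand p j ((U.drop (p.c k)).take t)} := by
    by_contra hcon
    push Not at hcon
    have hsubI : (↑I : Set ℕ) ⊆ {k | k < p.K ∧ ∃ j, j < p.K ∧ j ≠ k ∧
      ∃ t, t ≤ (U.drop (p.c k)).length ∧ Cand p j ((U.drop (p.c k)).take t)} := fun k hk =>
        hcon k hk
    have := Set.ncard_le_ncard hsubI ((hfin.image _).subset hsub)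
    rw [Set.ncard_coe_finset] at this
    omega
  obtain ⟨hkK, hlam, hrho⟩ := hIk k hkI
  have qk := h.hp0 k hkK
  refine ⟨k, hkK, ?_, hrho, ?_⟩
  · rw [List.take_take, Nat.min_eq_left qk] at hlam
    exact hlam
  · intro j hj hne t ht hC
    exact hkS ⟨hkK, j, hj, hne, t, ht, hC⟩

end Crest.Agent.R320.Nat2_887
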