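import Crest.Agent.R320.Nat2_603

/-!
# Row 320: scheme 2 on natural blocks (helper603)
-/

set_option autoImplicit false

namespace Crest.Agent.R320.Nat_603

open Crest.RegLang Crest.Agent.R320.Hk_851 Crest.Agent.R320.Core_603 Computability
  Crest.Agent.R320.ExactR_237

universe u

variable {α : Type} {Wo : List α → Prop} {n W : ℕ} {V S V2 : Type} [AddCommGroup V]
  [Monoid S] [AddCommGroup V2]

/-- action of a letter -/
def f2 (act : V → S → V) (phi : List α → S) (a : α) : Mp V :=
  MulOpposite.op (fun x => act x (phi [a]))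

theorem pr_f2 (act : V → S → V) (hone : ∀ x, act x 1 = x)
    (hmul : ∀ x s t, act x (s * t) = act (act x s) t)
    (phi : List α → S) (hphi1 : phi [] = 1) (hphim : ∀ u v, phi (u ++ v) = phi u * phi v)
    (X : List α) : pr (f2 act phi) X = MulOpposite.op (fun x => act x (phi X)) := by
  induction X with
  | nil =>
    have : (fun x => act x (phi ([] : List α))) = (1 : Function.End V) := by
      funext x
      rw [hphi1, hone]
      rfl
    rw [this]
    rfl
  | cons a X ih =>
    have h1 : pr (f2 act phi) (a :: X) = f2 act phi a * pr (f2 act phi) X := by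
      simp [pr]
    rw [h1, ih]
    apply MulOpposite.unop_injective
    funext x
    change act (act x (phi [a])) (phi X) = act x (phi (a :: X))
    rw [← hmul, ← hphim]
    rfl

/-- value of the rest of a block -/
def yv (act : V → S → V) (phi : List α → S) (nu : List α → V) (Y Z : List α) : Mp V :=
  MulOpposite.op (fun x => act (act x (phi Y) + nu Y) (phi Z))

theorem psi_eq {p0 z : ℕ} {act : V → S → V}
    (hadd : ∀ x y s, act (x + y) s = act x s + act y s) (hone : ∀ x, act x 1 = x)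
    (hmul : ∀ x s t, act x (s * t) = act (act x s) t)
    {phi : List α → S} (hphi1 : phi [] = 1) (hphim : ∀ u v, phi (u ++ v) = phi u * phi v)
    {nu : List α → V} {X1 Y Z : List α} (h1 : X1.length = p0) (h2 : X1 ++ Y ∈ FW Wo z) :
    (MulOpposite.op (fun x => act x (phi (X1 ++ Y ++ Z)) +
      nu1 Wo p0 z act phi nu (X1 ++ Y ++ Z)) : Mp V) =
      pr (f2 act phi) X1 * yv act phi nu Y Z := by
  rw [pr_f2 act hone hmul phi hphi1 hphim, nu1_eq h1 h2]
  apply MulOpposite.unop_injective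
  funext x
  change act x (phi (X1 ++ Y ++ Z)) + act (nu Y) (phi Z) =
    act (act (act x (phi X1)) (phi Y) + nu Y) (phi Z)
  rw [hadd, ← hmul, ← hmul, ← hphim, ← hphim, List.append_assoc]

/-- left words of scheme 2 -/
def L2 (K : ℕ) (x : ℕ → ℕ) (lam : ℕ → List α → Option V2) (v : V2) : Language α :=
  {P | ∃ k < K, P.length = x k ∧ lam k P = some v}

/-- right words of scheme 2 -/
def R2 (Wo : List α → Prop) (N : ℕ) (BadT : ℕ → Prop) (p0 z K : ℕ) (x : ℕ → ℕ)
    (act : V → S → V) (phi : List α → S) (nu : List α → V)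
    (rho : ℕ → List α → Mp V → Option V2) (u : V2) : Language α :=
  {Q | ∃ k < K, ∃ X2 Y Z, Q = X2 ++ Y ++ Z ∧ X2.length = p0 - x k ∧
    X2 ++ Y ∈ Bd Wo N BadT p0 z (x k) ∧ Z ∈ FW Wo 0 ∧ rho k X2 (yv act phi nu Y Z) = some u ∧
    ∀ k' < K, k' ≠ k → ¬ Vis Wo N BadT p0 z x k' Q}

/-- noise of scheme 2 -/
noncomputable def nu2 (Wo : List α → Prop) (p0 z : ℕ) (act : V → S → V) (phi : List α → S)
    (nu : List α → V) (nx : List α → Mp V → V2) (X : List α) : V2 :=
  nx (X.take p0) (yv act phi nu ((X.take (tz Wo z X)).drop p0) (X.drop (tz Wo z X)))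

theorem nu2_eq {p0 z : ℕ} {act : V → S → V} {phi : List α → S} {nu : List α → V}
    {nx : List α → Mp V → V2}
    {X1 Y Z : List α} (h1 : X1.length = p0) (h2 : X1 ++ Y ∈ FW Wo z) :
    nu2 Wo p0 z act phi nu nx (X1 ++ Y ++ Z) = nx X1 (yv act phi nu Y Z) := by
  unfold nu2
  rw [tz_eq h2, List.take_left, List.drop_left, List.drop_left' h1, List.append_assoc,
    List.take_left' h1]

theorem sound2 (H : Walls Wo n W) {N p0 z K T0 : ℕ} {BadT : ℕ → Prop} {x : ℕ → ℕ}
    (hx : ∀ k < K, x k ≤ p0) (hW : 2 * (p0 + N) ≤ W)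
    (hz : 2 * p0 + 2 * N + n + T0 ≤ z) (act : V → S → V)
    (hadd : ∀ x y s, act (x + y) s = act x s + act y s) (hone : ∀ x, act x 1 = x)
    (hmul : ∀ x s t, act x (s * t) = act (act x s) t)
    (phi : List α → S) (hphi1 : phi [] = 1) (hphim : ∀ u v, phi (u ++ v) = phi u * phi v)
    (nu : List α → V) (act2 : V2 → Mp V → V2)
    (lam : ℕ → List α → Option V2) (rho : ℕ → List α → Mp V → Option V2)
    (nx : List α → Mp V → V2)
    (hs : ∀ k < K, ∀ (P Q : List α) (y : Mp V) (v b : V2), P.length = x k →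
      lam k P = some v → rho k Q y = some b →
      b = act2 v (pr (f2 act phi) (P ++ Q) * y) + nx (P ++ Q) y)
    (v u : V2) (P : List α) (hP : P ∈ L2 K x lam v) (R : List α)
    (hR : P ++ R ∈ (Bd Wo N BadT p0 z 0 * FW Wo 0 : Language α)) (Q : List α)
    (hQ : Q ∈ R2 Wo N BadT p0 z K x act phi nu rho u) (w : List α) (hQw : Q <+: R ++ w) :
    Q = R ∧ u = act2 v (MulOpposite.op (fun x => act x (phi (P ++ R)) +
      nu1 Wo p0 z act phi nu (P ++ R))) + nu2 Wo p0 z act phi nu nx (P ++ R) := by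
  obtain ⟨k, hk, hPl, hlam⟩ := hP
  obtain ⟨k1, hk1, X2, Y, Z1, rfl, hX2, hA1, hZ1, hrho, hno⟩ := hQ
  obtain ⟨A0, hA0, Z, hZ, he⟩ := Language.mem_mul.1 hR
  have hxk := hx k hk
  have hxk1 := hx k1 hk1
  have hA0l := hA0.1.1
  -- A0 = P ++ A
  obtain ⟨A, rfl⟩ : ∃ A, A0 = P ++ A := by
    have hp : P <+: A0 := by
      refine List.prefix_of_prefix_length_le (l₃ := P ++ R) (List.prefix_append _ _) ?_ (by omega)
      rw [← he]; exact List.prefix_append _ _
    obtain ⟨A, hA⟩ := hp
    exact ⟨A, hA.symm⟩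
  have hRe : R = A ++ Z := by
    rw [List.append_assoc] at he
    exact (List.append_cancel_left he).symm
  have hA : A ∈ Bd Wo N BadT p0 z (x k) := (bd_append H (by omega) hPl).1 hA0
  have hAw : A <+: R ++ w := by
    rw [hRe, List.append_assoc]; exact List.prefix_append _ _
  have hA1w : X2 ++ Y <+: R ++ w := (List.prefix_append _ _).trans hQw
  by_cases hkk : k1 = k
  · subst hkk
    have e : X2 ++ Y = A := fw_pc' hA1.1 hA.1 hA1w hAw
    have e2 : Z1 = Z := by
      have h1 : Z1 <+: Z ++ w := by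
        rw [hRe, e, List.append_assoc] at hQw
        exact (List.prefix_append_right_inj A).1 hQw
      exact fw_pc' hZ1 hZ h1 (List.prefix_append _ _)
    have hQR : X2 ++ Y ++ Z1 = R := by rw [e, e2, hRe]
    refine ⟨hQR, ?_⟩
    have hX1l : (P ++ X2).length = p0 := by rw [List.length_append, hPl, hX2]; omega
    have hFW : (P ++ X2) ++ Y ∈ FW Wo z := by
      rw [List.append_assoc, e]
      exact hA0.1
    have hcat : P ++ R = (P ++ X2) ++ Y ++ Z1 := by rw [← hQR]; simp
    rw [hcat, psi_eq hadd hone hmul hphi1 hphim hX1l hFW, nu2_eq hX1l hFW]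
    exact hs k1 hk1 P X2 _ v u hPl hlam hrho
  · exfalso
    refine hno k hk (fun h => hkk h.symm) ⟨A, ?_, hA⟩
    refine List.prefix_of_prefix_length_le hAw hQw ?_
    by_contra hlt
    push Not at hlt
    have hZl := H.len _ hZ1.2.1
    have hZne : Z1 ≠ [] := by
      rintro rfl
      have := H.n_pos
      simp at hZl
      omega
    have hw2 : Wo (X2 ++ Y ++ Z1) := (H.loc _ _ hZl).2 hZ1.2.1
    have hgap := H.gap _ _ hA1.1.2.1 hw2 hZne
    have hpre : X2 ++ Y ++ Z1 <+: A := List.prefix_of_prefix_length_le hQw hAw hlt.le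
    obtain ⟨B, rfl⟩ := hpre
    have h1 := hA1.1.1
    have h2 : ¬ (z - x k ≤ (X2 ++ Y ++ Z1).length) := fun hge => by
      refine hA.1.2.2 _ hge hlt ?_
      rw [List.take_left]
      exact hw2
    rw [List.length_append] at h2
    omega

theorem complete2 (H : Walls Wo n W) {N p0 z K T0 C0 : ℕ} {BadT : ℕ → Prop} {x : ℕ → ℕ}
    (hx : ∀ k < K, x k ≤ p0) (hW : 2 * (p0 + N) ≤ W)
    (hz : 2 * p0 + 2 * N + n + T0 ≤ z)
    (hsp : ∀ X : List α, p0 ≤ X.length → (Sp Wo N BadT p0 z K x X).card ≤ C0)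
    (act : V → S → V)
    (hadd : ∀ x y s, act (x + y) s = act x s + act y s) (hone : ∀ x, act x 1 = x)
    (hmul : ∀ x s t, act x (s * t) = act (act x s) t)
    (phi : List α → S) (hphi1 : phi [] = 1) (hphim : ∀ u v, phi (u ++ v) = phi u * phi v)
    (nu : List α → V) (act2 : V2 → Mp V → V2)
    (lam : ℕ → List α → Option V2) (rho : ℕ → List α → Mp V → Option V2)
    (nx : List α → Mp V → V2)
    (hs : ∀ k < K, ∀ (P Q : List α) (y : Mp V) (v b : V2), P.length = x k →
      lam k P = some v → rho k Q y = some b →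
      b = act2 v (pr (f2 act phi) (P ++ Q) * y) + nx (P ++ Q) y)
    (hc : ∀ (u : List α) (y : Mp V) (v : V2), (∀ k < K, x k ≤ u.length) →
      ∃ I : Finset ℕ, C0 + 1 ≤ I.card ∧ ∀ k ∈ I, k < K ∧ lam k (u.take (x k)) = some v ∧
        (rho k (u.drop (x k)) y).isSome)
    (X : List α) (hX : X ∈ (Bd Wo N BadT p0 z 0 * FW Wo 0 : Language α)) (v : V2) :
    ∃ P Q, X = P ++ Q ∧ P ∈ L2 K x lam v ∧
      Q ∈ R2 Wo N BadT p0 z K x act phi nu rho
        (act2 v (MulOpposite.op (fun x => act x (phi X) +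
          nu1 Wo p0 z act phi nu X)) + nu2 Wo p0 z act phi nu nx X) := by
  classical
  obtain ⟨A, hA, Z, hZ, rfl⟩ := Language.mem_mul.1 hX
  have hAl := hA.1.1
  have htl : (A.take p0).length = p0 := by rw [List.length_take]; omega
  obtain ⟨I, hI, hI2⟩ := hc (A.take p0) (yv act phi nu (A.drop p0) Z) v (by
    intro k hk; rw [htl]; exact hx k hk)
  obtain ⟨k, hkI, hkS⟩ : ∃ k ∈ I, k ∉ Sp Wo N BadT p0 z K x (A ++ Z) := by
    by_contra hcon
    push Not at hcon
    have h1 := Finset.card_le_card (show I ⊆ Sp Wo N BadT p0 z K x (A ++ Z) from hcon)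
    have h2 := hsp (A ++ Z) (by rw [List.length_append]; omega)
    omega
  obtain ⟨hk, hlam, hrho⟩ := hI2 k hkI
  have hxk := hx k hk
  rw [List.take_take, min_eq_left hxk] at hlam
  obtain ⟨b, hb⟩ := Option.isSome_iff_exists.1 hrho
  have hPl : (A.take (x k)).length = x k := by rw [List.length_take]; omega
  have hP : A.take (x k) ∈ L2 K x lam v := ⟨k, hk, hPl, hlam⟩
  have hsplit : (A.take p0).drop (x k) ++ A.drop p0 = A.drop (x k) := by
    have h1 : (A.take p0).drop (x k) ++ A.drop p0 = (A.take p0 ++ A.drop p0).drop (x k) := by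
      rw [List.drop_append_of_le_length (by rw [htl]; exact hxk)]
    rw [h1, List.take_append_drop]
  have hAd : A.drop (x k) ∈ Bd Wo N BadT p0 z (x k) := by
    refine (bd_append H (P := A.take (x k)) (by omega) hPl).1 ?_
    rw [List.take_append_drop]
    exact hA
  have hdrop : (A ++ Z).drop (x k) = A.drop (x k) ++ Z := by
    rw [List.drop_append_of_le_length (by omega)]
  have hQ : A.drop (x k) ++ Z ∈ R2 Wo N BadT p0 z K x act phi nu rho b := by
    refine ⟨k, hk, (A.take p0).drop (x k), A.drop p0, Z, by rw [hsplit], ?_, ?_, hZ, hb, ?_⟩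
    · rw [List.length_drop, htl]
    · rw [hsplit]; exact hAd
    · intro k' hk' hne hvis
      apply hkS
      unfold Sp
      rw [Finset.mem_filter, Finset.mem_range]
      refine ⟨hk, k', hk', hne, ?_⟩
      rw [hdrop]
      exact hvis
  have hcat : A.take (x k) ++ (A.drop (x k) ++ Z) = A ++ Z := by
    rw [← List.append_assoc, List.take_append_drop]
  have hsound := (sound2 H hx hW hz act hadd hone hmul phi hphi1 hphim nu act2 lam rho nx hs v b
    _ hP (A.drop (x k) ++ Z) (by rw [hcat]; exact hX) _ hQ [] (by simp)).2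
  rw [hcat] at hsound
  refine ⟨A.take (x k), A.drop (x k) ++ Z, hcat.symm, hP, ?_⟩
  rw [← hsound]
  exact hQ

end Crest.Agent.R320.Nat_603
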