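import Crest.Agent.R320.Nat1_887
import Crest.Agent.R320.WallU_228
import Crest.Agent.R320.Reg_143

/-!
# Row 320: regularity and star height one of all languages of the natural chain (helper887)
-/

set_option autoImplicit false

namespace Crest.Agent.R320.Nat3_887

open Crest.RegLang Crest.Agent.R320.Hk_851 Crest.Agent.R320.FewWalls_228
  Crest.Agent.R320.WallU_228 Crest.Agent.R320.Nat1_887 Crest.R320.Reg_143

section toolkit

variable {α : Type}

/-- regular predicate -/
def Rg (P : List α → Prop) : Prop := (Crest.R320.Reg_143.lg P).IsRegular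

theorem Rg.congr {P Q : List α → Prop} (h : Rg P) (e : ∀ w, Q w ↔ P w) : Rg Q :=
  isRegular_congr h fun w => (e w).symm

theorem Rg.tru : Rg (fun _ : List α => True) := isRegular_true

theorem Rg.not {P : List α → Prop} (h : Rg P) : Rg (fun w => ¬ P w) :=
  isRegular_congr (Language.IsRegular.compl h) fun _ => Iff.rfl

theorem Rg.or {P Q : List α → Prop} (h : Rg P) (h' : Rg Q) : Rg (fun w => P w ∨ Q w) :=
  isRegular_congr (Language.IsRegular.add h h') fun _ => Iff.rfl

theorem Rg.and {P Q : List α → Prop} (h : Rg P) (h' : Rg Q) : Rg (fun w => P w ∧ Q w) :=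
  ((h.not.or h'.not).not).congr fun w => by tauto

theorem Rg.exf {ι : Type} [Finite ι] {P : ι → List α → Prop} (h : ∀ i, Rg (P i)) :
    Rg (fun w => ∃ i, P i w) :=
  (RegP.exists_finite (k := 0) (fun i => RegP.mem (h i))).close

theorem Rg.allf {ι : Type} [Finite ι] {P : ι → List α → Prop} (h : ∀ i, Rg (P i)) :
    Rg (fun w => ∀ i, P i w) :=
  (RegP.forall_finite (k := 0) (fun i => RegP.mem (h i))).close

theorem Rg.const (q : Prop) : Rg (fun _ : List α => q) := by
  by_cases hq : q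
  · exact Rg.tru.congr fun _ => by simp [hq]
  · exact Rg.tru.not.congr fun _ => by simp [hq]

/-- bounded existential over numbers -/
theorem Rg.exlt {K : ℕ} {P : ℕ → List α → Prop} (h : ∀ i, i < K → Rg (P i)) :
    Rg (fun w => ∃ i, i < K ∧ P i w) := by
  refine (Rg.exf (ι := Fin K) (P := fun i w => P i.1 w) fun i => h i.1 i.2).congr fun w => ?_
  constructor
  · rintro ⟨i, hi, h⟩; exact ⟨⟨i, hi⟩, h⟩
  · rintro ⟨i, h⟩; exact ⟨i.1, i.2, h⟩

theorem Rg.alllt {K : ℕ} {P : ℕ → List α → Prop} (h : ∀ i, i < K → Rg (P i)) :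
    Rg (fun w => ∀ i, i < K → P i w) := by
  refine (Rg.allf (ι := Fin K) (P := fun i w => P i.1 w) fun i => h i.1 i.2).congr fun w => ?_
  constructor
  · intro h i; exact h i.1 i.2
  · intro h i hi; exact h ⟨i, hi⟩

theorem Rg.cat {P Q : List α → Prop} (h : Rg P) (h' : Rg Q) :
    Rg (fun w => ∃ u v, u ++ v = w ∧ P u ∧ Q v) := isRegular_cat h h'

theorem Rg.len (P : ℕ → Prop) (N m : ℕ) (hm : 0 < m) (hP : ∀ n, N ≤ n → (P (n + m) ↔ P n)) :
    Rg (fun w : List α => P w.length) := isRegular_length P N m hm hP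

theorem Rg.ge (c d : ℕ) : Rg (fun w : List α => c ≤ d + w.length) :=
  Rg.len (fun n => c ≤ d + n) c 1 Nat.one_pos fun n hn => by omega

theorem Rg.ltlen (c d : ℕ) : Rg (fun w : List α => d + w.length < c) :=
  (Rg.ge c d).not.congr fun w => by omega

theorem Rg.take [Finite α] (n : ℕ) (R : List α → Prop) : Rg (fun w => R (w.take n)) :=
  isRegular_take n R

theorem Rg.tail {P : List α → Prop} (h : Rg P) : Rg (fun w => P w.tail) := by
  have h0 : Rg (fun w : List α => w.length = 0) := Rg.len (fun n => n = 0) 1 1 Nat.one_pos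
    fun n hn => by omega
  have h1 : Rg (fun w : List α => w.length = 1) := Rg.len (fun n => n = 1) 2 1 Nat.one_pos
    fun n hn => by omega
  refine ((h0.and (Rg.const (P []))).or (h1.cat h)).congr fun w => ?_
  cases w with
  | nil =>
    constructor
    · intro hw; exact Or.inl ⟨rfl, hw⟩
    · rintro (⟨-, hw⟩ | ⟨u, v, h1, h2, h3⟩)
      · exact hw
      · have := congrArg List.length h1
        simp only [List.length_append, List.length_nil] at this
        omega
  | cons a w =>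
    constructor
    · intro hw; exact Or.inr ⟨[a], w, rfl, rfl, hw⟩
    · rintro (⟨h1, -⟩ | ⟨u, v, h1, h2, h3⟩)
      · exact absurd h1 (by simp)
      · obtain ⟨b, rfl⟩ := List.length_eq_one_iff.1 h2
        rw [List.singleton_append, List.cons.injEq] at h1
        rw [List.tail_cons, ← h1.2]; exact h3

theorem Rg.drop {P : List α → Prop} (h : Rg P) (k : ℕ) : Rg (fun w => P (w.drop k)) := by
  induction k with
  | zero => exact h.congr fun w => by simp
  | succ k ih =>
    refine ih.tail.congr fun w => ?_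
    cases w <;> simp

/-- membership determined by a bounded word -/
theorem Rg.bdd [Finite α] (B : ℕ) {P : List α → Prop} (h : ∀ w, P w → w.length ≤ B) : Rg P := by
  refine (Rg.take (B + 1) fun l => l.length ≤ B ∧ P l).congr fun w => ?_
  constructor
  · intro hw
    have := h w hw
    rw [List.take_of_length_le (by omega)]
    exact ⟨this, hw⟩
  · rintro ⟨h1, h2⟩
    rw [List.length_take] at h1
    rwa [List.take_of_length_le (by omega)] at h2

theorem Rg.monoid {M : Type} [Monoid M] [Finite M] (f : α → M) (P : M → Prop) :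
    Rg (fun w : List α => P (w.map f).prod) := isRegular_monoid f P

end toolkit

/-- regularity data -/
structure RO {α S V : Type} [Monoid S] [AddCommGroup V] (p : Pr α S V) (S0 : Set (List α))
    (f : α → S) (Pm : ℕ) : Prop where
  n0 : 0 < p.n
  wo : p.Wo = Wo p.n S0
  phf : ∀ w, p.ph w = (w.map f).prod
  hL : ∀ (L : Language α), L.IsRegular → ∀ r,
    HL 1 ({w | w ∈ L ∧ nw p.n S0 w ≤ r} : Language α)
  nu1 : ∀ b, Rg (fun q => p.nu1 q = b)
  rho1 : ∀ b, Rg (fun q => p.rho1 q = some b)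
  Pm0 : 0 < Pm
  per : ∀ T, p.BadT (T + Pm) ↔ p.BadT T

variable {α S V : Type} [Finite α] [Monoid S] [Finite S] [AddCommGroup V] [Finite V]
  {p : Pr α S V} {S0 : Set (List α)} {f : α → S} {Pm : ℕ}

theorem rWo (h : Ok p) (hr : RO p S0 f Pm) : Rg p.Wo := by
  have h1 : Rg (fun u : List α => u.length = p.n ∧ p.Wo u) :=
    Rg.bdd p.n fun w hw => le_of_eq hw.1
  refine (Rg.tru.cat h1).congr fun w => ?_
  constructor
  · intro hw
    have hl := h.len w hw
    refine ⟨w.take (w.length - p.n), w.drop (w.length - p.n), List.take_append_drop _ _, trivial,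
      by rw [List.length_drop]; omega, ?_⟩
    rw [← List.take_append_drop (w.length - p.n) w] at hw
    exact (h.loc _ _ (by rw [List.length_drop]; omega)).1 hw
  · rintro ⟨u, v, rfl, -, h2, h3⟩
    exact (h.loc u v (by omega)).2 h3

theorem rph (hr : RO p S0 f Pm) (P : S → Prop) : Rg (fun w => P (p.ph w)) :=
  (Rg.monoid f P).congr fun w => by rw [hr.phf]

/-- a condition on prefixes -/
theorem rpre {P : List α → Prop} (h : Rg P) : Rg (fun w => ∃ t, t ≤ w.length ∧ P (w.take t)) := by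
  refine (h.cat Rg.tru).congr fun w => ?_
  constructor
  · rintro ⟨t, _, ht⟩
    exact ⟨w.take t, w.drop t, List.take_append_drop _ _, ht, trivial⟩
  · rintro ⟨u, v, rfl, hu, -⟩
    exact ⟨u.length, by simp, by rwa [List.take_left]⟩

/-- a condition on proper prefixes -/
theorem rpre' {P : List α → Prop} (h : Rg P) : Rg (fun w => ∃ t, t < w.length ∧ P (w.take t)) := by
  refine (h.cat (Rg.ge 1 0)).congr fun w => ?_
  constructor
  · rintro ⟨t, h1, ht⟩
    exact ⟨w.take t, w.drop t, List.take_append_drop _ _, ht, by rw [List.length_drop]; omega⟩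
  · rintro ⟨u, v, rfl, hu, hv⟩
    exact ⟨u.length, by rw [List.length_append]; omega, by rwa [List.take_left]⟩

theorem rCand (h : Ok p) (hr : RO p S0 f Pm) (j : ℕ) : Rg (Cand p j) := by
  have hW := rWo h hr
  have a1 : Rg (fun Q : List α => p.z ≤ p.c j + Q.length) := Rg.ge _ _
  have a3 : Rg (fun Q : List α => ∃ t, t < Q.length ∧
      (p.z ≤ p.c j + (Q.take t).length ∧ p.Wo (Q.take t))) :=
    rpre' (P := fun u => p.z ≤ p.c j + u.length ∧ p.Wo u) ((Rg.ge _ _).and hW)
  have a4 : Rg (fun Q : List α => ∃ t, t ≤ Q.length ∧ (p.Wo (Q.take t) ∧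
      p.z ≤ (p.c j + p.N1) + (Q.take t).length ∧ p.c j + (Q.take t).length < p.z + p.N1)) :=
    rpre (P := fun u => p.Wo u ∧ p.z ≤ (p.c j + p.N1) + u.length ∧
      p.c j + u.length < p.z + p.N1) (hW.and ((Rg.ge _ _).and (Rg.ltlen _ _)))
  have a5 : Rg (fun Q : List α => p.BadT (p.c j + Q.length - p.p0)) :=
    Rg.len (fun n => p.BadT (p.c j + n - p.p0)) p.p0 Pm hr.Pm0 fun n hn => by
      have e : p.c j + (n + Pm) - p.p0 = (p.c j + n - p.p0) + Pm := by omega
      rw [e, hr.per]
  refine (a1.and (hW.and (a3.not.and (a4.or a5)))).congr fun Q => ?_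
  unfold Cand
  refine and_congr Iff.rfl (and_congr Iff.rfl (and_congr ?_ (or_congr ?_ Iff.rfl)))
  · constructor
    · rintro hh ⟨t, ht, h1, h2⟩
      rw [List.length_take, Nat.min_eq_left ht.le] at h1
      exact hh t ht h1 h2
    · intro hh t ht h1 h2
      exact hh ⟨t, ht, by rwa [List.length_take, Nat.min_eq_left ht.le], h2⟩
  · constructor
    · rintro ⟨t, ht, h1, h2, h3⟩
      refine ⟨t, ht, h1, ?_, ?_⟩ <;> rw [List.length_take, Nat.min_eq_left ht] <;> omega
    · rintro ⟨t, ht, h1, h2, h3⟩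
      rw [List.length_take, Nat.min_eq_left ht] at h2 h3
      exact ⟨t, ht, h1, by omega, by omega⟩

theorem rXX (h : Ok p) (hr : RO p S0 f Pm) : Rg (fun X => X ∈ XX p) := by
  have hW := rWo h hr
  have a3 : Rg (fun Q : List α => ∃ t, t < Q.length ∧
      (p.z ≤ 0 + (Q.take t).length ∧ p.Wo (Q.take t))) :=
    rpre' (P := fun u => p.z ≤ 0 + u.length ∧ p.Wo u) ((Rg.ge _ _).and hW)
  refine ((Rg.ge p.z 0).and (hW.and a3.not)).congr fun Q => ?_
  unfold XX
  refine and_congr (by rw [Nat.zero_add]) (and_congr Iff.rfl ?_)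
  constructor
  · rintro hh ⟨t, ht, h1, h2⟩
    rw [List.length_take, Nat.min_eq_left ht.le, Nat.zero_add] at h1
    exact hh t h1 ht h2
  · intro hh t h1 ht h2
    exact hh ⟨t, ht, by rwa [List.length_take, Nat.min_eq_left ht.le, Nat.zero_add], h2⟩

theorem rBad (h : Ok p) (hr : RO p S0 f Pm) : Rg (fun X => X ∈ Bad p) := by
  have hW := rWo h hr
  have a4 : Rg (fun Q : List α => ∃ t, t ≤ Q.length ∧ (p.Wo (Q.take t) ∧
      p.z ≤ p.N1 + (Q.take t).length ∧ 0 + (Q.take t).length < p.z + p.N1)) :=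
    rpre (P := fun u => p.Wo u ∧ p.z ≤ p.N1 + u.length ∧
      0 + u.length < p.z + p.N1) (hW.and ((Rg.ge _ _).and (Rg.ltlen _ _)))
  have a5 : Rg (fun Q : List α => p.BadT (Q.length - p.p0)) :=
    Rg.len (fun n => p.BadT (n - p.p0)) p.p0 Pm hr.Pm0 fun n hn => by
      have e : (n + Pm) - p.p0 = (n - p.p0) + Pm := by omega
      rw [e, hr.per]
  refine ((rXX h hr).and (a4.or a5)).congr fun Q => ?_
  refine and_congr Iff.rfl (or_congr ?_ Iff.rfl)
  constructor
  · rintro ⟨t, ht, h1, h2, h3⟩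
    refine ⟨t, ht, h1, ?_, ?_⟩ <;> rw [List.length_take, Nat.min_eq_left ht] <;> omega
  · rintro ⟨t, ht, h1, h2, h3⟩
    rw [List.length_take, Nat.min_eq_left ht] at h2 h3
    exact ⟨t, ht, h1, by omega, by omega⟩

theorem rTT (h : Ok p) (hr : RO p S0 f Pm) (x y : V) : Rg (fun X => TT p X x = y) := by
  have a : Rg (fun X : List α => ∃ s : S, ∃ b : V, p.ph (X.drop p.p0) = s ∧
      (p.nu1 (X.drop p.p0) = b ∧
        p.act (p.act x (p.ph (X.take p.p0)) + p.nu2 (X.take p.p0)) s + b = y)) :=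
    Rg.exf fun s => Rg.exf fun b => ((rph hr fun t => t = s).drop p.p0).and
      (((hr.nu1 b).drop p.p0).and (Rg.take p.p0 fun u =>
        p.act (p.act x (p.ph u) + p.nu2 u) s + b = y))
  refine a.congr fun X => ?_
  rw [TT_eq h]
  constructor
  · intro hh; exact ⟨_, _, rfl, rfl, hh⟩
  · rintro ⟨s, b, rfl, rfl, hh⟩; exact hh

theorem rval (hr : RO p S0 f Pm) (k : ℕ) (v : V) : Rg (fun X => val p k X = some v) := by
  have a : Rg (fun X : List α => ∃ s : S, ∃ b : V, p.ph (X.drop (p.p0 - p.c k)) = s ∧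
      (p.nu1 (X.drop (p.p0 - p.c k)) = b ∧
        (p.rho2 k (X.take (p.p0 - p.c k))).map (fun r => p.act r s + b) = some v)) :=
    Rg.exf fun s => Rg.exf fun b => ((rph hr fun t => t = s).drop (p.p0 - p.c k)).and
      (((hr.nu1 b).drop (p.p0 - p.c k)).and (Rg.take (p.p0 - p.c k) fun u =>
        (p.rho2 k u).map (fun r => p.act r s + b) = some v))
  refine a.congr fun X => ?_
  unfold val
  constructor
  · intro hh; exact ⟨_, _, rfl, rfl, hh⟩
  · rintro ⟨s, b, rfl, rfl, hh⟩; exact hh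

theorem rRQ1 (h : Ok p) (hr : RO p S0 f Pm) (y : V) : Rg (fun Q => Q ∈ RQ1 p y) := by
  have hW := rWo h hr
  have a3 : Rg (fun Q : List α => ∃ t, t < Q.length ∧
      (p.z ≤ (p.p0 + p.N1) + (Q.take t).length ∧ p.Wo (Q.take t))) :=
    rpre' (P := fun u => p.z ≤ (p.p0 + p.N1) + u.length ∧ p.Wo u) ((Rg.ge _ _).and hW)
  refine ((hr.rho1 y).and (hW.and ((Rg.ge p.z p.p0).and a3.not))).congr fun Q => ?_
  refine and_congr Iff.rfl (and_congr Iff.rfl (and_congr Iff.rfl ?_))
  constructor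
  · rintro hh ⟨t, ht, h1, h2⟩
    rw [List.length_take, Nat.min_eq_left ht.le] at h1
    have := hh t ht h2
    omega
  · intro hh t ht h2
    by_contra hcon
    exact hh ⟨t, ht, by rw [List.length_take, Nat.min_eq_left ht.le]; omega, h2⟩

theorem rRQ2 (h : Ok p) (hr : RO p S0 f Pm) (y : V) : Rg (fun Q => Q ∈ RQ2 p y) := by
  have a : Rg (fun Q : List α => ∃ k, k < p.K ∧ ((∃ v : V, ∃ Q1 X2, Q1 ++ X2 = Q ∧
      (Cand p k Q1 ∧ val p k Q1 = some v) ∧ (X2 ∈ XX p ∧ TT p X2 v = y)) ∧
      ∀ j, j < p.K → (j ≠ k → ¬ ∃ t, t ≤ Q.length ∧ Cand p j (Q.take t)))) :=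
    Rg.exlt fun k _ => (Rg.exf fun v => ((rCand h hr k).and (rval hr k v)).cat
      ((rXX h hr).and (rTT h hr v y))).and (Rg.alllt fun j _ =>
        ((Rg.const (j ≠ k)).not.or (rpre (rCand h hr j)).not).congr fun w => by tauto)
  refine a.congr fun Q => ?_
  constructor
  · rintro ⟨k, hk, ⟨Q1, X2, e, h1, h2, v, h3, h4⟩, h5⟩
    exact ⟨k, hk, ⟨v, Q1, X2, e, ⟨h1, h3⟩, h2, h4⟩, fun j hj hne ⟨t, ht, hc⟩ => h5 j hj hne t ht hc⟩
  · rintro ⟨k, hk, ⟨v, Q1, X2, e, ⟨h1, h3⟩, h2, h4⟩, h5⟩
    exact ⟨k, hk, ⟨Q1, X2, e, h1, h2, v, h3, h4⟩, fun j hj hne t ht hc => h5 j hj hne ⟨t, ht, hc⟩⟩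

/-! ### few walls -/

theorem nw_le (hr : RO p S0 f Pm) {w : List α} {F : Finset ℕ}
    (hF : ∀ t, t ≤ w.length → p.Wo (w.take t) → t ∈ F) : nw p.n S0 w ≤ F.card := by
  classical
  unfold nw
  refine Finset.card_le_card_of_injOn (fun x => x + p.n) ?_ (fun a _ b _ hab => by
    simpa using hab)
  intro x hx
  have hx' := (Finset.mem_filter.1 (Finset.mem_coe.1 hx)).2
  obtain ⟨h1, h2⟩ := wo_take.1 hx'
  refine Finset.mem_coe.2 (hF (x + p.n) h1 ?_)
  rw [hr.wo]; exact h2

theorem few (hr : RO p S0 f Pm) {P : List α → Prop} (hP : Rg P) (r : ℕ)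
    (hF : ∀ w, P w → ∃ F : Finset ℕ, F.card ≤ r ∧ ∀ t, t ≤ w.length → p.Wo (w.take t) → t ∈ F) :
    HL 1 ({w | P w} : Language α) := by
  refine (hr.hL _ hP r).congr fun w => ?_
  constructor
  · intro hw
    obtain ⟨F, h1, h2⟩ := hF w hw
    exact ⟨hw, (nw_le hr h2).trans h1⟩
  · intro hw; exact hw.1

theorem walls_XX (h : Ok p) {X : List α} (hX : X ∈ XX p) : ∃ F : Finset ℕ, F.card ≤ p.z + 1 ∧
    ∀ t, t ≤ X.length → p.Wo (X.take t) → t ∈ F := by
  refine ⟨insert X.length (Finset.range p.z), (Finset.card_insert_le _ _).trans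
    (by rw [Finset.card_range]), ?_⟩
  intro t ht hW
  rw [Finset.mem_insert, Finset.mem_range]
  by_contra hcon
  push Not at hcon
  exact hX.2.2 t hcon.2 (by omega) hW

theorem hBad (h : Ok p) (hr : RO p S0 f Pm) : HL 1 ({w | w ∈ Bad p} : Language α) :=
  few hr (rBad h hr) (p.z + 1) fun _ hX => walls_XX h hX.1

theorem hB (h : Ok p) (hr : RO p S0 f Pm) (x y : V) :
    HL 1 ({w | w ∈ Bad p ∧ TT p w x = y} : Language α) :=
  few hr ((rBad h hr).and (rTT h hr x y)) (p.z + 1) fun _ hX => walls_XX h hX.1.1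

theorem hRQ1 (h : Ok p) (hr : RO p S0 f Pm) (y : V) : HL 1 (RQ1 p y) := by
  refine few hr (rRQ1 h hr y) (p.z + 1) fun Q hQ => ?_
  refine ⟨insert Q.length (Finset.range p.z), (Finset.card_insert_le _ _).trans
    (by rw [Finset.card_range]), ?_⟩
  intro t ht hW
  rw [Finset.mem_insert, Finset.mem_range]
  by_contra hcon
  push Not at hcon
  have := hQ.2.2.2 t (by omega) hW
  omega

theorem hRQ2 (h : Ok p) (hr : RO p S0 f Pm) (y : V) : HL 1 (RQ2 p y) := by
  have hz0 := h.hz
  refine few hr (rRQ2 h hr y) (2 * p.z + 2) fun Q hQ => ?_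
  obtain ⟨k, hk, ⟨Q1, X2, rfl, h1, h2, v, h3, h4⟩, h5⟩ := hQ
  refine ⟨(insert Q1.length (Finset.range p.z)) ∪
    (insert (Q1.length + X2.length) ((Finset.range p.z).image fun i => Q1.length + i)), ?_, ?_⟩
  · refine (Finset.card_union_le _ _).trans ?_
    have g1 := Finset.card_insert_le Q1.length (Finset.range p.z)
    have g2 := Finset.card_insert_le (Q1.length + X2.length)
      ((Finset.range p.z).image fun i => Q1.length + i)
    have g3 := Finset.card_image_le (s := Finset.range p.z) (f := fun i => Q1.length + i)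
    rw [Finset.card_range] at g1 g3
    omega
  · intro t ht hW
    rw [List.length_append] at ht
    rw [Finset.mem_union, Finset.mem_insert, Finset.mem_range, Finset.mem_insert,
      Finset.mem_image]
    by_cases hle : t ≤ Q1.length
    · left
      by_contra hcon
      push Not at hcon
      rw [List.take_append_of_le_length hle] at hW
      exact h1.2.2.1 t (by omega) (by omega) hW
    · right
      by_contra hcon
      push Not at hcon
      obtain ⟨c1, c2⟩ := hcon
      rw [take_app' Q1 X2 (by omega)] at hW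
      by_cases hs : t - Q1.length < p.z
      · exact c2 (t - Q1.length) (Finset.mem_range.2 hs) (by omega)
      · have := (h.loc Q1 (X2.take (t - Q1.length))
          (by rw [List.length_take]; omega)).1 hW
        exact h2.2.2 (t - Q1.length) (by omega) (by omega) this

theorem hLP1 (h : Ok p) (x : V) : HL 1 (LP1 p x) := by
  refine HL.finite (s := {P : List α | P ∈ LP1 p x}) ?_
  refine (List.finite_length_le α (p.p0 + p.N1)).subset ?_
  rintro P ⟨h1, h2⟩
  have := h.g1len _ _ h2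
  rw [List.length_drop] at this
  show P.length ≤ p.p0 + p.N1
  omega

theorem hLP2 (h : Ok p) (x : V) : HL 1 (LP2 p x) := by
  refine HL.finite (s := {P : List α | P ∈ LP2 p x}) ?_
  refine (List.finite_length_le α p.p0).subset ?_
  rintro P ⟨k, hk, h1, h2⟩
  have := h.hp0 k hk
  show P.length ≤ p.p0
  omega

theorem hTail (h : Ok p) (hr : RO p S0 f Pm) (t : S) :
    HL 1 ({E | (∀ q, q <+: E → q ∉ XX p) ∧ p.ph E = t} : Language α) := by
  have a : Rg (fun E : List α => (∀ q, q <+: E → q ∉ XX p) ∧ p.ph E = t) := by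
    refine ((rpre (rXX h hr)).not.and (rph hr fun s => s = t)).congr fun E => ?_
    refine and_congr ?_ Iff.rfl
    constructor
    · rintro hh ⟨s, -, hs⟩
      exact hh _ (List.take_prefix _ _) hs
    · rintro hh q ⟨r, rfl⟩ hq
      exact hh ⟨q.length, by simp, by rwa [List.take_left]⟩
  refine few hr a p.z fun E hE => ⟨Finset.range p.z, by rw [Finset.card_range], ?_⟩
  intro s hs hW
  rw [Finset.mem_range]
  by_contra hcon
  push Not at hcon
  classical
  have hex : ∃ s, p.z ≤ s ∧ s ≤ E.length ∧ p.Wo (E.take s) := ⟨s, hcon, hs, hW⟩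
  have hsp := Nat.find_spec hex
  have hmin : ∀ m, m < Nat.find hex → ¬ (p.z ≤ m ∧ m ≤ E.length ∧ p.Wo (E.take m)) :=
    fun m hm => Nat.find_min hex hm
  set s1 := Nat.find hex
  refine hE.1 (E.take s1) (List.take_prefix _ _) ⟨?_, hsp.2.2, ?_⟩
  · rw [List.length_take, Nat.min_eq_left hsp.2.1]; exact hsp.1
  · intro m hm1 hm2 hWm
    rw [List.length_take, Nat.min_eq_left hsp.2.1] at hm2
    rw [List.take_take, Nat.min_eq_left hm2.le] at hWm
    exact hmin m hm2 ⟨hm1, by omega, hWm⟩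

end Crest.Agent.R320.Nat3_887
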