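import Crest.Agent.R320.Nat3_603
import Crest.Agent.R320.WallU_228

/-!
# Row 320: heights of the languages of the natural blocks (helper603)
-/

set_option autoImplicit false

namespace Crest.Agent.R320.Nat_603

open Crest.RegLang Crest.Agent.R320.Hk_851 Crest.Agent.R320.Core_603 Computability

universe u

variable {α : Type u}

theorem reg_inf {L M : Language α} (hL : L.IsRegular) (hM : M.IsRegular) :
    (L ⊓ M).IsRegular := hL.inf hM

theorem walls_exist [Finite α] (W : ℕ) :
    ∃ (n : ℕ) (Wo : List α → Prop), Walls Wo n W ∧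
      (∀ (L : Language α), L.IsRegular → ∀ m, HL 1 ({w | w ∈ L ∧ w ∈ FW Wo m} : Language α)) ∧
      (∀ (L : Language α), L.IsRegular → ∀ m, HL 1 ({w | w ∈ L ∧ w ∈ NoW Wo m} : Language α)) := by
  classical
  obtain ⟨n, c, P, S, hn, -, hloc, hgap, -, -, hHL⟩ := WallU_228.walls_full (α := α) W
  have hWo : ∀ k, HL k ({w | WallU_228.Wo n S w} : Language α) := by
    intro k
    have hS : HL k ({w | w.length = n ∧ w ∈ S} : Language α) :=
      HL.finite (s := {w | w.length = n ∧ w ∈ S})
        ((List.finite_length_eq α n).subset fun w h => h.1)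
    refine (HL.top.mul hS).congr fun w => ?_
    constructor
    · rintro ⟨h1, h2⟩
      refine Language.mem_mul.2 ⟨w.take (w.length - n), trivial, w.drop (w.length - n),
        ⟨?_, h2⟩, List.take_append_drop _ w⟩
      rw [List.length_drop]; omega
    · intro h
      obtain ⟨a, -, b, ⟨h1, h2⟩, rfl⟩ := Language.mem_mul.1 h
      refine ⟨by rw [List.length_append]; omega, ?_⟩
      have e : (a ++ b).length - n = a.length := by rw [List.length_append]; omega
      rw [e, List.drop_left]
      exact h2
  have hcard : ∀ (m : ℕ) (w : List α), (∀ t, m ≤ t → t < w.length →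
      ¬ WallU_228.Wo n S (w.take t)) → FewWalls_228.nw n S w ≤ m + 1 := by
    intro m w hw
    unfold FewWalls_228.nw
    have hsub : (Finset.range (w.length + 1)).filter (fun x => FewWalls_228.Wl n S w x) ⊆
        Finset.range m ∪ {w.length - n} := by
      intro x hx
      rw [Finset.mem_filter] at hx
      obtain ⟨h1, h2⟩ := WallU_228.wo_take.1 hx.2
      rw [Finset.mem_union, Finset.mem_range, Finset.mem_singleton]
      by_contra hcon
      push Not at hcon
      exact hw (x + n) (by omega) (by omega) h2
    have h1 := (Finset.card_le_card hsub).trans (Finset.card_union_le _ _)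
    rw [Finset.card_range, Finset.card_singleton] at h1
    exact h1
  refine ⟨n, WallU_228.Wo n S, ⟨hn, hloc, fun P h => h.1, ?_⟩, ?_, ?_⟩
  · intro P Q hP hPQ hQ
    by_contra hlt
    push Not at hlt
    refine hgap (P ++ Q) Q.length hPQ (List.length_pos_iff.2 hQ) hlt ?_
    have e : (P ++ Q).length - Q.length = P.length := by rw [List.length_append]; omega
    rw [e, List.take_left]
    exact hP
  · intro L hL m
    refine (HL.setOf_and (hHL L hL (m + 1)) (hl_fw (hWo 1) m)).congr fun w => ?_
    constructor
    · rintro ⟨h1, h2⟩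
      exact ⟨⟨h1, hcard m w h2.2.2⟩, h2⟩
    · rintro ⟨⟨h1, -⟩, h2⟩
      exact ⟨h1, h2⟩
  · intro L hL m
    refine (HL.setOf_and (hHL L hL (m + 1)) (hl_now (hWo 1) m)).congr fun w => ?_
    constructor
    · rintro ⟨h1, h2⟩
      exact ⟨⟨h1, hcard m w fun t a b => h2 t a b.le⟩, h2⟩
    · rintro ⟨⟨h1, -⟩, h2⟩
      exact ⟨h1, h2⟩

/-- regularity from a finite monoid -/
theorem reg_phi [Finite α] {S : Type} [Monoid S] [Finite S] (phi : List α → S)
    (hphi1 : phi [] = 1) (hphim : ∀ u v, phi (u ++ v) = phi u * phi v) (p : S → Prop) :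
    Language.IsRegular (({w | p (phi w)} : Language α)) := by
  refine Language.isRegular_iff.2 ⟨S, Fintype.ofFinite S, ⟨fun s a => s * phi [a], 1, {s | p s}⟩, ?_⟩
  have key : ∀ (w : List α) (s : S), (DFA.mk (fun s a => s * phi [a]) 1 {s | p s} :
      DFA α S).evalFrom s w = s * phi w := by
    intro w
    induction w with
    | nil => intro s; rw [hphi1, mul_one]; rfl
    | cons a w ih =>
      intro s
      have e : phi (a :: w) = phi [a] * phi w := by rw [← hphim]; rfl
      rw [e, ← mul_assoc]
      exact ih _
  ext w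
  change (DFA.mk (fun s a => s * phi [a]) 1 {s | p s} : DFA α S).evalFrom 1 w ∈ {s | p s} ↔ _
  rw [key, one_mul]
  rfl

/-- regularity of length conditions -/
theorem reg_len [Finite α] (m : ℕ) (hm : 0 < m) (p : ℕ → Prop) :
    Language.IsRegular (({w | p (w.length % m)} : Language α)) := by
  haveI : NeZero m := ⟨hm.ne'⟩
  haveI : Finite (Multiplicative (ZMod m)) := inferInstanceAs (Finite (ZMod m))
  have h := reg_phi (α := α) (S := Multiplicative (ZMod m))
    (fun w => Multiplicative.ofAdd ((w.length : ℕ) : ZMod m)) (by simp) (by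
      intro u v
      rw [← ofAdd_add, List.length_append, Nat.cast_add])
    (fun s => p (ZMod.val (Multiplicative.toAdd s)))
  have e : ({w | p (w.length % m)} : Language α) = {w | (fun s => p (ZMod.val
      (Multiplicative.toAdd s))) (Multiplicative.ofAdd ((w.length : ℕ) : ZMod m))} := by
    ext w
    change p (w.length % m) ↔ p (ZMod.val (Multiplicative.toAdd
      (Multiplicative.ofAdd ((w.length : ℕ) : ZMod m))))
    rw [toAdd_ofAdd, ZMod.val_natCast]
  rw [e]
  exact h

end Crest.Agent.R320.Nat_603
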