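import Crest.Agent.R320.Nat4_603

/-!
# Row 320: heights of all languages of the two schemes on natural blocks (helper603)
-/

set_option autoImplicit false

namespace Crest.Agent.R320.Nat_603

open Crest.RegLang Crest.Agent.R320.Hk_851 Crest.Agent.R320.Core_603 Computability

variable {α : Type}

/-- the language of a predicate -/
def Lg (p : List α → Prop) : Language α := {w | p w}

theorem reg_iUnion {ι : Type*} [Finite ι] {L : ι → Language α} (h : ∀ i, (L i).IsRegular) :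
    (Lg fun w => ∃ i, w ∈ L i).IsRegular := by
  classical
  have := Fintype.ofFinite ι
  have key : ∀ s : Finset ι, (Lg fun w => ∃ i ∈ s, w ∈ L i).IsRegular := by
    intro s
    induction s using Finset.induction_on with
    | empty =>
      have e : (Lg fun w => ∃ i ∈ (∅ : Finset ι), w ∈ L i) = (0 : Language α) := by
        ext w
        constructor
        · rintro ⟨i, hi, -⟩; simp at hi
        · intro hw; exact False.elim hw
      rw [e]
      exact Reg_236.isRegular_zero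
    | insert a s ha ih =>
      have e : (Lg fun w => ∃ i ∈ insert a s, w ∈ L i) =
          L a + (Lg fun w => ∃ i ∈ s, w ∈ L i) := by
        ext w
        rw [Language.mem_add]
        constructor
        · rintro ⟨i, hi, hw⟩
          rcases Finset.mem_insert.1 hi with rfl | hi
          · exact Or.inl hw
          · exact Or.inr ⟨i, hi, hw⟩
        · rintro (hw | ⟨i, hi, hw⟩)
          · exact ⟨a, Finset.mem_insert_self _ _, hw⟩
          · exact ⟨i, Finset.mem_insert_of_mem hi, hw⟩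
      rw [e]
      exact (h a).add ih
  have e : (Lg fun w => ∃ i, w ∈ L i) = (Lg fun w => ∃ i ∈ (Finset.univ : Finset ι), w ∈ L i) := by
    ext w
    constructor
    · rintro ⟨i, hi⟩; exact ⟨i, Finset.mem_univ _, hi⟩
    · rintro ⟨i, -, hi⟩; exact ⟨i, hi⟩
  rw [e]
  exact key _

theorem ex_fw {Wo : List α → Prop} {m : ℕ} {e : List α} (h : e ∉ NoW Wo m) :
    ∃ A ∈ FW Wo m, ∃ e', e = A ++ e' := by
  have h' : ∃ t, m ≤ t ∧ t ≤ e.length ∧ Wo (e.take t) := by
    by_contra hcon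
    push Not at hcon
    exact h fun t a b => hcon t a b
  obtain ⟨t, h1, h2, h3⟩ := h'
  obtain ⟨a1, a2, a3⟩ := tz_spec h1 h2 h3
  refine ⟨e.take (tz Wo m e), ⟨?_, a3, ?_⟩, e.drop (tz Wo m e), (List.take_append_drop _ _).symm⟩
  · rw [List.length_take]; omega
  · intro s b1 b2 b3
    rw [List.length_take] at b2
    rw [List.take_take, min_eq_left (by omega)] at b3
    have : tz Wo m e ≤ s := Nat.sInf_le ⟨b1, by omega, b3⟩
    omega

section

variable [Finite α] {Wo : List α → Prop} {n W : ℕ} {V S V2 : Type} [AddCommGroup V] [Finite V]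
  [Monoid S] [Finite S] [AddCommGroup V2] [Finite V2]

theorem hl_take (Wo : List α → Prop) (t : ℕ) (k : ℕ) :
    HL k ({w | t ≤ w.length ∧ Wo (w.take t)} : Language α) := by
  have h1 : HL k ({w | w.length = t ∧ Wo w} : Language α) :=
    HL.finite (s := {w | w.length = t ∧ Wo w}) ((List.finite_length_eq α t).subset fun w h => h.1)
  refine (h1.mul HL.top).congr fun w => ?_
  constructor
  · rintro ⟨a, b⟩
    refine Language.mem_mul.2 ⟨w.take t, ⟨?_, b⟩, w.drop t, trivial, List.take_append_drop _ _⟩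
    rw [List.length_take]; omega
  · intro h
    obtain ⟨a, ⟨h1, h2⟩, b, -, rfl⟩ := Language.mem_mul.1 h
    subst h1
    refine ⟨by rw [List.length_append]; omega, ?_⟩
    rw [List.take_left]; exact h2

theorem hl_bd (hF : ∀ (L : Language α), L.IsRegular → ∀ m, HL 1 ({w | w ∈ L ∧ w ∈ FW Wo m} :
      Language α))
    {N p0 z c Mb : ℕ} {BadT : ℕ → Prop} (hMb : 0 < Mb) (hper : ∀ T, BadT (T + Mb) ↔ BadT T)
    (hz : p0 + c ≤ z) : HL 1 (Bd Wo N BadT p0 z c) := by
  have hper' : ∀ j T, BadT (T + Mb * j) ↔ BadT T := by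
    intro j
    induction j with
    | zero => intro T; simp
    | succ j ih => intro T; rw [Nat.mul_succ, ← add_assoc, hper, ih]
  have hA := hF ⊤ (by
    have := (HL.top (α := α) (k := 1))
    exact Reg_236.HL.isRegular this) (z - c)
  have hB := hF _ (reg_len (α := α) Mb hMb (fun i => BadT (i + (c + (Mb * p0 - p0))))) (z - c)
  have hE : HL 1 ({w | ∃ t : Fin (z + N + 1), z ≤ c + t + N ∧ c + t ≤ z + N ∧
      ((t : ℕ) ≤ w.length ∧ Wo (w.take t))} : Language α) := by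
    refine HL.iUnion (L := fun t : Fin (z + N + 1) => ({w | z ≤ c + t + N ∧ c + t ≤ z + N ∧
      ((t : ℕ) ≤ w.length ∧ Wo (w.take t))} : Language α)) fun t => ?_
    exact HL.setOf_and (HL.const _) (HL.setOf_and (HL.const _) (hl_take Wo t 1))
  refine (HL.setOf_or (HL.setOf_and hA hE) hB).congr fun w => ?_
  have hb : z - c ≤ w.length → (BadT (w.length + c - p0) ↔
      BadT (w.length % Mb + (c + (Mb * p0 - p0)))) := by
    intro hw
    have h1 : p0 ≤ Mb * p0 := Nat.le_mul_of_pos_left p0 hMb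
    rw [← hper' p0 (w.length + c - p0), ← hper' (w.length / Mb)
      (w.length % Mb + (c + (Mb * p0 - p0)))]
    have h2 := Nat.mod_add_div w.length Mb
    have e : w.length + c - p0 + Mb * p0 =
        w.length % Mb + (c + (Mb * p0 - p0)) + Mb * (w.length / Mb) := by omega
    rw [e]
  constructor
  · rintro ⟨h1, h2⟩
    rcases h2 with ⟨t, ht, hta, htb, hw⟩ | h2
    · left
      exact ⟨⟨trivial, h1⟩, ⟨⟨t, by omega⟩, hta, htb, ht, hw⟩⟩
    · right
      exact ⟨(hb h1.1).1 h2, h1⟩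
  · rintro (⟨⟨-, h1⟩, ⟨t, hta, htb, ht, hw⟩⟩ | ⟨h2, h1⟩)
    · exact ⟨h1, Or.inl ⟨t, ht, hta, htb, hw⟩⟩
    · exact ⟨h1, Or.inr ((hb h1.1).2 h2)⟩

theorem hl_fw0 (hF : ∀ (L : Language α), L.IsRegular → ∀ m, HL 1 ({w | w ∈ L ∧ w ∈ FW Wo m} :
      Language α)) (m : ℕ) : HL 1 (FW Wo m) := by
  refine (hF ⊤ (Reg_236.HL.isRegular (HL.top (α := α) (k := 1))) m).congr fun w => ?_
  exact ⟨fun h => ⟨trivial, h⟩, fun h => h.2⟩

theorem hl_R1 (hF : ∀ (L : Language α), L.IsRegular → ∀ m, HL 1 ({w | w ∈ L ∧ w ∈ FW Wo m} :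
      Language α))
    (N p0 z : ℕ) (act : V → S → V) (phi : List α → S) (hphi1 : phi [] = 1)
    (hphim : ∀ u v, phi (u ++ v) = phi u * phi v)
    (Rho : V → Language α) (hR : ∀ r, (Rho r).IsRegular) (u : V) :
    HL 1 (R1 Wo N p0 z act phi Rho u) := by
  have h1 : ∀ r : V, ∀ s : S, HL 1 ({w | act r s = u ∧ w ∈ ((Lg fun w => (w ∈ Rho r ∧
      w ∈ FW Wo (z - p0 - N)) ∧ z - p0 ≤ w.length) *
      (Lg fun w => w ∈ ({w | phi w = s} : Language α) ∧ w ∈ FW Wo 0))} :
      Language α) := by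
    intro r s
    refine HL.setOf_and (HL.const _) (HL.mul ?_ ?_)
    · exact HL.setOf_and (hF _ (hR r) _) (HL.length_ge _)
    · exact hF _ (reg_phi phi hphi1 hphim (fun t => t = s)) 0
  refine (HL.iUnion fun r : V => HL.iUnion fun s : S => h1 r s).congr fun w => ?_
  constructor
  · rintro ⟨r, Q1, Z, rfl, a1, a2, a3, a4, a5⟩
    exact ⟨r, phi Z, a5, Language.mem_mul.2 ⟨Q1, ⟨⟨a1, a2⟩, a3⟩, Z, ⟨rfl, a4⟩, rfl⟩⟩
  · rintro ⟨r, s, h5, hm⟩
    obtain ⟨Q1, ⟨⟨a1, a2⟩, a3⟩, Z, ⟨a5, a4⟩, rfl⟩ := Language.mem_mul.1 hm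
    have a5' : phi Z = s := a5
    exact ⟨r, Q1, Z, rfl, a1, a2, a3, a4, by rw [a5']; exact h5⟩

theorem hl_L1 (p0 N : ℕ) (act : V → S → V) (phi : List α → S) (Lam : V → Language α)
    (hlen : ∀ v, ∀ p ∈ Lam v, p.length ≤ N) (v : V) (k : ℕ) : HL k (L1 p0 act phi Lam v) := by
  refine HL.finite (s := L1 p0 act phi Lam v)
    ((List.finite_length_le α (p0 + N)).subset fun w hw => ?_)
  obtain ⟨X1, P', rfl, h1, h2⟩ := hw
  have := hlen _ _ h2
  show (X1 ++ P').length ≤ p0 + N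
  rw [List.length_append]; omega

theorem hl_L2 (K p0 : ℕ) (x : ℕ → ℕ) (hx : ∀ k < K, x k ≤ p0)
    (lam : ℕ → List α → Option V2) (v : V2) (k : ℕ) : HL k (L2 K x lam v) := by
  refine HL.finite (s := L2 K x lam v)
    ((List.finite_length_le α p0).subset fun w hw => ?_)
  obtain ⟨k, hk, h1, -⟩ := hw
  have := hx k hk
  show w.length ≤ p0
  omega

theorem hl_R2 (hF : ∀ (L : Language α), L.IsRegular → ∀ m, HL 1 ({w | w ∈ L ∧ w ∈ FW Wo m} :
      Language α))
    {N p0 z K Mb : ℕ} {BadT : ℕ → Prop} {x : ℕ → ℕ} (hMb : 0 < Mb)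
    (hper : ∀ T, BadT (T + Mb) ↔ BadT T) (hx : ∀ k < K, x k ≤ p0) (hz : 2 * p0 ≤ z)
    (act : V → S → V) (phi : List α → S) (hphi1 : phi [] = 1)
    (hphim : ∀ u v, phi (u ++ v) = phi u * phi v)
    (nu : List α → V)
    (hnu : ∀ a s, (Lg fun w => nu w = a ∧ phi w = s).IsRegular)
    (rho : ℕ → List α → Mp V → Option V2) (u : V2) :
    HL 1 (R2 Wo N BadT p0 z K x act phi nu rho u) := by
  classical
  have hvis : ∀ k < K, HL 1 ({w | Vis Wo N BadT p0 z x k w} : Language α) := by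
    intro k hk
    have hxk := hx k hk
    refine (HL.prefix (hl_bd (c := x k) hF hMb hper (N := N) (p0 := p0) (z := z)
      (by omega))).congr fun w => ?_
    constructor
    · rintro ⟨A, h1, h2⟩; exact ⟨A, h2, h1⟩
    · rintro ⟨A, h1, h2⟩; exact ⟨A, h2, h1⟩
  have h1 : ∀ (k : Fin K) (X2 : {w : List α // w.length = p0 - x k}) (a : V) (s t : S),
      HL 1 ({w | rho k X2.1 (MulOpposite.op (fun x => act (act x s + a) t)) = some u ∧
        (w ∈ ((Lg fun w => w ∈ Bd Wo N BadT p0 z (x k) ∧ (w ∈ (({X2.1} : Language α) *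
          (Lg fun w => nu w = a ∧ phi w = s)) ∧ w ∈ FW Wo (z - x k))) *
            (Lg fun w => w ∈ ({w | phi w = t} : Language α) ∧ w ∈ FW Wo 0)) ∧
        ∀ k' : Fin K, (k'.1 ≠ k.1 → ¬ Vis Wo N BadT p0 z x k' w))} : Language α) := by
    intro k X2 a s t
    have hxk := hx k k.2
    refine HL.setOf_and (HL.const _) (HL.setOf_and (HL.mul (HL.setOf_and ?_ ?_) ?_) ?_)
    · exact hl_bd hF hMb hper (by omega)
    · exact hF _ (Reg_236.isRegular_mul (Reg_236.HL.isRegular (HL.word (k := 1) X2.1)) (hnu a s)) _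
    · exact hF _ (reg_phi phi hphi1 hphim (fun t' => t' = t)) 0
    · exact HL.iInter fun k' : Fin K => HL.setOf_imp (HL.const _) (HL.setOf_not (hvis k' k'.2))
  have hfin : ∀ k : Fin K, Finite {w : List α // w.length = p0 - x k} := fun k =>
    (List.finite_length_eq α _).to_subtype
  refine (HL.iUnion fun k : Fin K => @HL.iUnion _ _ _ (hfin k) _ fun X2 => HL.iUnion fun a : V =>
    HL.iUnion fun s : S => HL.iUnion fun t : S => h1 k X2 a s t).congr fun w => ?_
  constructor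
  · rintro ⟨k, hk, X2, Y, Z, rfl, a1, a2, a3, a4, a5⟩
    refine ⟨⟨k, hk⟩, ⟨X2, a1⟩, nu Y, phi Y, phi Z, a4, ?_, fun k' hne => a5 k' k'.2 hne⟩
    refine Language.mem_mul.2 ⟨X2 ++ Y, ⟨a2, ?_, a2.1⟩, Z, ⟨rfl, a3⟩, rfl⟩
    exact Language.mem_mul.2 ⟨X2, rfl, Y, ⟨rfl, rfl⟩, rfl⟩
  · rintro ⟨k, X2, a, s, t, a4, hm, a5⟩
    obtain ⟨A, ⟨b1, b2, b3⟩, Z, ⟨b4, b5⟩, rfl⟩ := Language.mem_mul.1 hm
    obtain ⟨X2', hX2', Y, ⟨b6, b7⟩, rfl⟩ := Language.mem_mul.1 b2
    have hX2'' : X2' = X2.1 := hX2'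
    subst hX2''
    have b4' : phi Z = t := b4
    refine ⟨k, k.2, X2.1, Y, Z, rfl, X2.2, b1, b5, ?_, fun k' hk' hne => a5 ⟨k', hk'⟩ hne⟩
    unfold yv
    rw [b6, b7, b4']
    exact a4

end

end Crest.Agent.R320.Nat_603
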