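import Crest.Agent.R320.Nat5_603
import Crest.Agent.R320.Univ_582

/-!
# Row 320: final assembly over natural blocks, from a gadget hypothesis (helper603)
-/

set_option autoImplicit false

namespace Crest.Agent.R320.Nat_603

open Crest.RegLang Crest.Agent.R320.Hk_851 Crest.Agent.R320.Core_603 Computability Crest.Agent.R320.CoreAll_603
  Crest.Agent.R320.ExactR_237

open Classical in
/-- the pure word gadget of scheme 1 -/
def Gad (S V : Type) [Monoid S] [AddCommGroup V] (act : V → S → V) : Prop :=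
  ∃ C0 : ℕ, ∀ K : ℕ, ∃ (N T0 Mb : ℕ) (x : ℕ → ℕ) (BadT : ℕ → Prop), 0 < Mb ∧
    (∀ i j, i < j → j < K → x i < x j) ∧
    (∀ T, BadT (T + Mb) ↔ BadT T) ∧
    (∀ T, T0 ≤ T → (((Finset.range K ×ˢ Finset.range K).filter
      (fun ab => ab.1 ≠ ab.2 ∧ BadT (T + x ab.1 - x ab.2))).card ≤ C0)) ∧
    (∀ w z : ℕ, (((Finset.range K ×ˢ Finset.range K).filter
      (fun ab => ab.1 ≠ ab.2 ∧ z + x ab.1 ≤ w + x ab.2 + N ∧ w + x ab.2 ≤ z + x ab.1 + N)).card
        ≤ C0)) ∧
    ∀ (α : Type) [Finite α] (phi : List α → S), phi [] = 1 →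
      (∀ u v, phi (u ++ v) = phi u * phi v) →
      ∃ (Lam Rho : V → Language α) (nu : List α → V),
        (∀ v, ∀ p ∈ Lam v, p.length ≤ N) ∧
        (∀ v r, ∀ p ∈ Lam v, ∀ q ∈ Rho r, r = act v (phi (p ++ q)) + nu (p ++ q)) ∧
        (∀ r, (Rho r).IsRegular) ∧
        (∀ u : List α, T0 ≤ u.length → ¬ BadT u.length → ∀ v, ∃ p q r, p ++ q = u ∧
          p ∈ Lam v ∧ q ∈ Rho r)

/-- decomposition into blocks and a tail -/
theorem dec {α : Type} {Wo : List α → Prop} {n W z : ℕ} (H : Walls Wo n W) :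
    ∀ w : List α, ∃ M ∈ (XX Wo z)∗, ∃ e ∈ Lg (fun e => ∀ X ∈ XX Wo z, ¬ X <+: e), w = M ++ e := by
  intro w
  induction hl : w.length using Nat.strong_induction_on generalizing w with
  | _ m ih =>
    by_cases h : ∃ X ∈ XX Wo z, X <+: w
    · obtain ⟨X, hX, y, rfl⟩ := h
      have hne : 0 < X.length := by
        obtain ⟨A, hA, Z, hZ, rfl⟩ := Language.mem_mul.1 hX
        have h1 := H.len _ hZ.2.1
        have h2 := H.n_pos
        rw [List.length_append]; omega
      obtain ⟨M, hM, e, he, h1⟩ := ih y.length (by rw [← hl, List.length_append]; omega) y rfl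
      refine ⟨X ++ M, ?_, e, he, by rw [h1, List.append_assoc]⟩
      obtain ⟨L, rfl, hL⟩ := Language.mem_kstar.1 hM
      refine Language.mem_kstar.2 ⟨X :: L, by simp, ?_⟩
      intro Y hY
      rcases List.mem_cons.1 hY with rfl | hY
      · exact hX
      · exact hL Y hY
    · push Not at h
      exact ⟨[], Language.mem_kstar.2 ⟨[], rfl, by simp⟩, w, h, rfl⟩

theorem main (hG : ∀ (S V : Type) [Monoid S] [Finite S] [AddCommGroup V] [Finite V]
      (act : V → S → V), Gad S V act)
    (α : Type) [Finite α] (S : Type) [Monoid S] [Finite S] (φ : α → S) (s : S) :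
    HL 3 ({w | (w.map φ).prod = s} : Language α) := by
  classical
  -- tokens
  let V : Type := S → ZMod 2
  let act : V → S → V := fun v s t => v (s * t)
  have hadd : ∀ x y s, act (x + y) s = act x s + act y s := fun x y s => rfl
  have hone : ∀ x, act x 1 = x := fun x => by funext t; simp [act]
  have hmul : ∀ x s t, act x (s * t) = act (act x s) t := fun x s t => by
    funext r; simp [act, mul_assoc]
  have hfaith : ∀ s t, (∀ x, act x s = act x t) → s = t := by
    intro s t h
    by_contra hne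
    have h1 := congrFun (h (Pi.single s 1)) 1
    simp only [act, mul_one] at h1
    rw [Pi.single_eq_same, Pi.single_eq_of_ne (fun h => hne h.symm)] at h1
    exact one_ne_zero h1
  have hVfin : Finite V := inferInstanceAs (Finite (S → ZMod 2))
  have hMfin : Finite (Mp V) := by
    have : Finite (Function.End V) := inferInstanceAs (Finite (V → V))
    exact Finite.of_injective MulOpposite.unop MulOpposite.unop_injective
  let V2 : Type := Mp V → ZMod 2
  let act2 : V2 → Mp V → V2 := fun v s t => v (s * t)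
  have hadd2 : ∀ x y s, act2 (x + y) s = act2 x s + act2 y s := fun x y s => rfl
  have hone2 : ∀ x, act2 x 1 = x := fun x => by funext t; simp [act2]
  have hmul2 : ∀ x s t, act2 x (s * t) = act2 (act2 x s) t := fun x s t => by
    funext r; simp [act2, mul_assoc]
  have hfaith2 : ∀ s t, (∀ x, act2 x s = act2 x t) → s = t := by
    intro s t h
    by_contra hne
    have h1 := congrFun (h (Pi.single s 1)) 1
    simp only [act2, mul_one] at h1
    rw [Pi.single_eq_same, Pi.single_eq_of_ne (fun h => hne h.symm)] at h1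
    exact one_ne_zero h1
  have hV2fin : Finite V2 := inferInstanceAs (Finite (Mp V → ZMod 2))
  let phi : List α → S := fun w => (w.map φ).prod
  have hphi1 : phi [] = 1 := rfl
  have hphim : ∀ u v, phi (u ++ v) = phi u * phi v := fun u v => by simp [phi]
  -- gadgets
  obtain ⟨C0, hC0⟩ := hG S V act
  haveI : Fintype V2 := Fintype.ofFinite V2
  haveI : Fintype (Mp V) := Fintype.ofFinite (Mp V)
  obtain ⟨K, hK⟩ := exact_gadget α (Mp V) V2 (f2 act phi) act2 (3 * C0 + 1)
  obtain ⟨N, T0, Mb, x, BadT, hMb, hxm, hper, hB, hE, hgad⟩ := hC0 K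
  obtain ⟨Lam, Rho, nu0, hlen, hs0, hRho, hc⟩ := hgad α phi hphi1 hphim
  obtain ⟨lam, rho, nx, hs2, hc2⟩ := hK x hxm
  -- regular noise
  let Dm : Language α := Lg fun w => ∃ p : V × V, w ∈ Lam p.1 * Rho p.2
  let nu : List α → V := fun w => if w ∈ Dm then nu0 w else 0
  have hLamReg : ∀ v, (Lam v).IsRegular := fun v =>
    Reg_236.HL.isRegular (HL.finite (k := 1) (s := Lam v)
      ((List.finite_length_le α N).subset fun w hw => hlen v w hw))
  have hs : ∀ v r, ∀ p ∈ Lam v, ∀ q ∈ Rho r, r = act v (phi (p ++ q)) + nu (p ++ q) := by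
    intro v r p hp q hq
    have hd : p ++ q ∈ Dm := ⟨(v, r), Language.mem_mul.2 ⟨p, hp, q, hq, rfl⟩⟩
    simp only [nu]
    rw [if_pos hd]
    exact hs0 v r p hp q hq
  have hDreg : Dm.IsRegular := reg_iUnion (L := fun p : V × V => Lam p.1 * Rho p.2)
    fun p => Reg_236.isRegular_mul (hLamReg _) (hRho _)
  have hnu : ∀ a s, (Lg fun w => nu w = a ∧ phi w = s).IsRegular := by
    intro a s
    have h1 : (Lg fun w => ∃ p : {p : V × V // p.2 - act p.1 s = a},
        w ∈ (Lam p.1.1 * Rho p.1.2)).IsRegular :=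
      reg_iUnion (L := fun p : {p : V × V // p.2 - act p.1 s = a} => Lam p.1.1 * Rho p.1.2)
        fun p => Reg_236.isRegular_mul (hLamReg _) (hRho _)
    have h2 : (Lg fun w => phi w = s).IsRegular := reg_phi phi hphi1 hphim (fun t => t = s)
    have h3 : (Lg fun _ : List α => a = 0).IsRegular :=
      Reg_236.HL.isRegular (HL.const (k := 1) (a = 0))
    have e : (Lg fun w => nu w = a ∧ phi w = s) =
        ((Lg fun w => ∃ p : {p : V × V // p.2 - act p.1 s = a},
          w ∈ (Lam p.1.1 * Rho p.1.2)) + (Dmᶜ ⊓ (Lg fun _ : List α => a = 0))) ⊓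
            (Lg fun w => phi w = s) := by
      ext w
      constructor
      · rintro ⟨h4, h5⟩
        refine ⟨?_, h5⟩
        by_cases hd : w ∈ Dm
        · refine (Language.mem_add _ _ _).2 (Or.inl ?_)
          obtain ⟨p, hp⟩ := hd
          refine ⟨⟨p, ?_⟩, hp⟩
          obtain ⟨P, hP, Q, hQ, rfl⟩ := Language.mem_mul.1 hp
          have h6 := hs _ _ P hP Q hQ
          rw [h4, h5] at h6
          rw [h6]; abel
        · refine (Language.mem_add _ _ _).2 (Or.inr ⟨hd, ?_⟩)
          simp only [nu] at h4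
          rw [if_neg hd] at h4
          exact h4.symm
      · rintro ⟨h4, h5⟩
        have h5' : phi w = s := h5
        refine ⟨?_, h5⟩
        rcases (Language.mem_add _ _ _).1 h4 with ⟨⟨p, hp0⟩, hp⟩ | ⟨hd, ha⟩
        · obtain ⟨P, hP, Q, hQ, rfl⟩ := Language.mem_mul.1 hp
          have h6 := hs _ _ P hP Q hQ
          rw [h5'] at h6
          rw [← hp0, h6]; abel
        · have ha' : a = 0 := ha
          have hd' : w ∉ Dm := hd
          simp only [nu]
          rw [if_neg hd', ha']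
    rw [e]
    exact (((h1.add (hDreg.compl.inf h3))).inf h2)
  -- parameters
  let p0 : ℕ := (Finset.range K).sup x
  have hx : ∀ k < K, x k ≤ p0 := fun k hk => Finset.le_sup (f := x) (Finset.mem_range.2 hk)
  obtain ⟨n, Wo, H, hF, hN⟩ := walls_exist (α := α) (2 * (p0 + N))
  let z : ℕ := 2 * p0 + 2 * N + n + T0
  have hz : 2 * p0 + 2 * N + n + T0 ≤ z := le_rfl
  have hsp : ∀ X : List α, p0 ≤ X.length → (Sp Wo N BadT p0 z K x X).card ≤ 3 * C0 :=
    fun X hX => spoil H hx le_rfl hz hB hE X hX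
  refine core_all act hadd hone hmul hfaith phi hphi1 hphim (nu1 Wo p0 z act phi nu)
    (XX Wo z) (Bd Wo N BadT p0 z 0 * FW Wo 0) (L1 p0 act phi Lam) (R1 Wo N p0 z act phi Rho)
    ?_ (fun X hX Y hY => xx_pc hX hY) ?_ ?_ ?_ ?_ ?_ ?_ act2 hadd2 hone2 hmul2 hfaith2
    (nu2 Wo p0 z act phi nu nx) (L2 K x lam) (R2 Wo N BadT p0 z K x act phi nu rho)
    ?_ ?_ ?_ ?_ ?_ ?_ (Lg fun e => ∀ X ∈ XX Wo z, ¬ X <+: e) ?_ (dec H) s
  · intro h
    obtain ⟨A, hA, Z, hZ, he⟩ := Language.mem_mul.1 h
    have h1 := H.len _ hZ.2.1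
    have h2 := H.n_pos
    have h3 := congrArg List.length he
    rw [List.length_append, List.length_nil] at h3
    omega
  · intro X hX
    obtain ⟨A, hA, Z, hZ, rfl⟩ := Language.mem_mul.1 hX
    exact Language.mem_mul.2 ⟨A, hA.1, Z, hZ, rfl⟩
  · exact (hl_bd hF hMb hper (by omega)).mul (hl_fw0 hF 0)
  · intro v; exact hl_L1 p0 N act phi Lam hlen v 2
  · intro v; exact (hl_R1 hF N p0 z act phi hphi1 hphim Rho hRho v).mono (by omega)
  · intro v u P hP Q hQ
    exact sound1 H (by omega) act hadd hmul phi hphim Lam Rho nu hlen hs v u P hP Q hQ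
  · intro X hX
    exact complete1 H hz act hadd hmul phi hphim Lam Rho nu hlen hs hc X hX
  · intro v; exact hl_L2 K p0 x hx lam v 1
  · intro v; exact hl_R2 hF hMb hper hx (by omega) act phi hphi1 hphim nu hnu rho v
  · intro v P hP X hX
    obtain ⟨k, hk, h1, -⟩ := hP
    obtain ⟨A, hA, Z, hZ, rfl⟩ := Language.mem_mul.1 hX
    have h2 := hx k hk
    have h3 := hA.1.1
    rw [List.length_append]
    omega
  · intro u h
    obtain ⟨k, hk, X2, Y, Z, he, -, -, hZ, -⟩ := h
    have h1 := H.len _ hZ.2.1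
    have h2 := H.n_pos
    have h3 := congrArg List.length he
    rw [List.length_append, List.length_nil] at h3
    omega
  · intro X hX v
    exact complete2 H hx le_rfl hz hsp act hadd hone hmul phi hphi1 hphim nu act2 lam rho nx
      hs2 hc2 X hX v
  · intro v u P hP R hR Q hQ L _ hQL
    exact sound2 H hx le_rfl hz act hadd hone hmul phi hphi1 hphim nu act2 lam rho nx
      hs2 v u P hP R hR Q hQ L.flatten hQL
  · -- tails
    intro t
    have hT : HL 1 ((Lg fun e => ∀ X ∈ XX Wo z, ¬ X <+: e)) := by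
      refine (HL.prefix ((hl_fw0 hF z).mul (hl_fw0 hF 0))).compl.congr fun w => ?_
      constructor
      · rintro h ⟨X, hX, hXw⟩; exact h X hX hXw
      · intro h X hX hXw; exact h ⟨X, hX, hXw⟩
    have hphiR : ∀ s : S, (Lg fun w => phi w = s).IsRegular := fun s =>
      reg_phi phi hphi1 hphim (fun t => t = s)
    have hC : HL 1 ({e | (e ∈ (Lg fun w => phi w = t) ∧ e ∈ NoW Wo z) ∨
        ∃ p : {p : S × S // p.1 * p.2 = t}, e ∈ (Lg fun w => w ∈ (Lg fun w => phi w = p.1.1) ∧
          w ∈ FW Wo z) * (Lg fun w => w ∈ (Lg fun w => phi w = p.1.2) ∧ w ∈ NoW Wo 0)} :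
        Language α) := by
      refine HL.setOf_or (hN _ (hphiR t) z) (HL.iUnion fun p => HL.mul ?_ ?_)
      · exact hF _ (hphiR _) z
      · exact hN _ (hphiR _) 0
    refine ((HL.setOf_and hT hC).mono (by omega)).congr fun w => ?_
    constructor
    · rintro ⟨h1, h2⟩
      refine ⟨h1, ?_⟩
      by_cases hw : w ∈ NoW Wo z
      · exact Or.inl ⟨h2, hw⟩
      · right
        obtain ⟨A, hA, e', rfl⟩ := ex_fw hw
        refine ⟨⟨(phi A, phi e'), by rw [← hphim]; exact h2⟩, ?_⟩
        refine Language.mem_mul.2 ⟨A, ⟨rfl, hA⟩, e', ⟨rfl, ?_⟩, rfl⟩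
        by_contra hne
        obtain ⟨Z, hZ, e'', rfl⟩ := ex_fw hne
        refine h1 (A ++ Z) (Language.mem_mul.2 ⟨A, hA, Z, hZ, rfl⟩) ?_
        rw [← List.append_assoc]
        exact List.prefix_append _ _
    · rintro ⟨h1, h2⟩
      refine ⟨h1, ?_⟩
      rcases h2 with ⟨h2, -⟩ | ⟨⟨p, hp⟩, hm⟩
      · exact h2
      · obtain ⟨A, ⟨hA, -⟩, e', ⟨he', -⟩, rfl⟩ := Language.mem_mul.1 hm
        have hA' : phi A = p.1 := hA
        have he'' : phi e' = p.2 := he'
        change phi (A ++ e') = t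
        rw [hphim, hA', he'', hp]

/-- the row from the gadget -/
theorem row (hG : ∀ (S V : Type) [Monoid S] [Finite S] [AddCommGroup V] [Finite V]
      (act : V → S → V), Gad S V act)
    (α : Type*) [Finite α] (L : Language α) (hL : L.IsRegular) :
    ∃ e : Crest.RegLang.GRegExp α, e.height ≤ 3 ∧ e.lang = L :=
  Univ_582.final (k := 3) (fun β _ S _ _ φ s => main hG β S φ s) α L hL

end Crest.Agent.R320.Nat_603
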