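import Mathlib

/-!
Row 320 (helper32): the glue of the two schemes in block form, natural chain rule.

Blocks = words that end at the first (left looking) wall at distance `>= z`.  From a first gadget
(exact on every word, complete if the length is not in `BadT`), an exact gadget on the first `p0`
letters and the count of spoiled places we get the hypotheses `s1`, `s2`, `cc` of the top theorem.
-/

set_option autoImplicit false

namespace Crest.Agent.R320.NatBlk_32

variable {α V S : Type*}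

/-- first wall at distance `>= z` for the text `Q` that starts `c` letters behind the anchor -/
def Fst (Wo : List α → Prop) (z c : ℕ) (Q : List α) (t : ℕ) : Prop :=
  t ≤ Q.length ∧ Wo (Q.take t) ∧ z ≤ t + c ∧ ∀ t', t' < t → z ≤ t' + c → ¬ Wo (Q.take t')

/-- blocks -/
def XX (Wo : List α → Prop) (z : ℕ) : Set (List α) := {X : List α | Fst Wo z 0 X X.length}

/-- `(E)` or `(B)` seen from the text `Q` that starts `c` letters behind the anchor -/
def BadQ (Wo : List α → Prop) (z p0 N1 : ℕ) (BadT : ℕ → Prop) (c : ℕ) (Q : List α) : Prop :=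
  (∃ t, t ≤ Q.length ∧ Wo (Q.take t) ∧ z ≤ t + c + N1 ∧ t + c ≤ z + N1) ∨
    ∃ t, Fst Wo z c Q t ∧ BadT (t + c - p0)

/-- left looking wall rule -/
structure Wall (Wo : List α → Prop) (n W : ℕ) : Prop where
  len : ∀ Q, Wo Q → n ≤ Q.length
  app : ∀ P Q, n ≤ Q.length → (Wo (P ++ Q) ↔ Wo Q)
  gap : ∀ (X : List α) (s t : ℕ), s < t → t ≤ X.length → Wo (X.take s) → Wo (X.take t) →
    s + W < t

theorem Fst.unique {Wo : List α → Prop} {z c : ℕ} {Q : List α} {t t' : ℕ}
    (h : Fst Wo z c Q t) (h' : Fst Wo z c Q t') : t = t' := by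
  rcases lt_trichotomy t t' with h1 | h1 | h1
  · exact absurd h.2.1 (h'.2.2.2 t h1 h.2.2.1)
  · exact h1
  · exact absurd h'.2.1 (h.2.2.2 t' h1 h'.2.2.1)

theorem exists_Fst {Wo : List α → Prop} {z c : ℕ} {Q : List α}
    (h : ∃ t, t ≤ Q.length ∧ Wo (Q.take t) ∧ z ≤ t + c) : ∃ t, Fst Wo z c Q t := by
  classical
  have hs := Nat.find_spec h
  refine ⟨Nat.find h, hs.1, hs.2.1, hs.2.2, fun t' ht' hz hw => ?_⟩
  exact Nat.find_min h ht' ⟨by omega, hw, hz⟩

section
variable {Wo : List α → Prop} {n W : ℕ} (hW : Wall Wo n W)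
include hW

theorem wo_take {P Q : List α} (t : ℕ) (ht : n ≤ t) (htQ : t ≤ Q.length) :
    Wo ((P ++ Q).take (P.length + t)) ↔ Wo (Q.take t) := by
  have e : (P ++ Q).take (P.length + t) = P ++ Q.take t := by
    rw [List.take_append, List.take_of_length_le (by omega)]
    congr 2
    omega
  rw [e]
  exact hW.app _ _ (by rw [List.length_take]; omega)

theorem Fst_shift {z c : ℕ} {P Q : List α} {t : ℕ} (hc : P.length + c + n < z)
    : Fst Wo z c (P ++ Q) (P.length + t) ↔ Fst Wo z (P.length + c) Q t := by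
  unfold Fst
  rw [List.length_append]
  constructor
  · rintro ⟨h1, h2, h3, h4⟩
    have ht : n ≤ t := by omega
    refine ⟨by omega, (wo_take hW t ht (by omega)).1 h2, by omega, fun t' ht' hz hw => ?_⟩
    have hn : n ≤ t' := by omega
    exact h4 (P.length + t') (by omega) (by omega) ((wo_take hW t' hn (by omega)).2 hw)
  · rintro ⟨h1, h2, h3, h4⟩
    have ht : n ≤ t := by omega
    refine ⟨by omega, (wo_take hW t ht (by omega)).2 h2, by omega, fun t' ht' hz hw => ?_⟩
    obtain ⟨t'', rfl⟩ : ∃ t'', t' = P.length + t'' := ⟨t' - P.length, by omega⟩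
    exact h4 t'' (by omega) (by omega) ((wo_take hW t'' (by omega) (by omega)).1 hw)

theorem BadQ_shift {z p0 N1 : ℕ} {BadT : ℕ → Prop} {P Q : List α} (hc : P.length + N1 + n < z) :
    BadQ Wo z p0 N1 BadT 0 (P ++ Q) ↔ BadQ Wo z p0 N1 BadT P.length Q := by
  unfold BadQ
  have key : ∀ t, Fst Wo z 0 (P ++ Q) (P.length + t) ↔ Fst Wo z P.length Q t := by
    intro t
    have := Fst_shift (c := 0) (t := t) hW (P := P) (Q := Q) (z := z) (by omega)
    simpa using this
  constructor
  · rintro (⟨t, h1, h2, h3, h4⟩ | ⟨t, h1, h2⟩)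
    · rw [List.length_append] at h1
      obtain ⟨t', rfl⟩ : ∃ t', t = P.length + t' := ⟨t - P.length, by omega⟩
      exact Or.inl ⟨t', by omega, (wo_take hW t' (by omega) (by omega)).1 h2, by omega, by omega⟩
    · obtain ⟨t', rfl⟩ : ∃ t', t = P.length + t' := ⟨t - P.length, by have := h1.2.2.1; omega⟩
      exact Or.inr ⟨t', (key t').1 h1, by
        rw [show t' + P.length - p0 = P.length + t' + 0 - p0 by omega]; exact h2⟩
  · rintro (⟨t, h1, h2, h3, h4⟩ | ⟨t, h1, h2⟩)
    · exact Or.inl ⟨P.length + t, by rw [List.length_append]; omega,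
        (wo_take hW t (by omega) (by omega)).2 h2, by omega, by omega⟩
    · exact Or.inr ⟨P.length + t, (key t).2 h1, by
        rw [show P.length + t + 0 - p0 = t + P.length - p0 by omega]; exact h2⟩

end

/-- all data -/
structure Data (α V S : Type*) [AddCommGroup V] [Monoid S] where
  φ : List α → S
  act : V → S → V
  Wo : List α → Prop
  n : ℕ
  W : ℕ
  z : ℕ
  p0 : ℕ
  N1 : ℕ
  T0 : ℕ
  BadT : ℕ → Prop
  lam1 : List α → Option V
  rho1 : List α → Option V
  nu1 : List α → V
  K : ℕ
  c : ℕ → ℕ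
  lam2 : ℕ → List α → Option V
  rho2 : ℕ → List α → Option V
  nu2 : List α → V
  RE : ℕ
  RB : ℕ

namespace Data
variable [AddCommGroup V] [Monoid S] (D : Data α V S)

def T (v : V) (X : List α) : V :=
  D.act (D.act v (D.φ (X.take D.p0)) + D.nu2 (X.take D.p0)) (D.φ (X.drop D.p0)) +
    D.nu1 (X.drop D.p0)

def LP1 (P : List α) (v : V) : Prop :=
  D.p0 ≤ P.length ∧ D.lam1 (P.drop D.p0) = some (D.act v (D.φ (P.take D.p0)) + D.nu2 (P.take D.p0))

def Leg1 (Q : List α) : Prop :=
  D.Wo Q ∧ D.z ≤ Q.length + D.p0 ∧ ∀ t, t < Q.length → D.Wo (Q.take t) → t + D.p0 + D.N1 < D.z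

open Classical in
noncomputable def R1 (Q : List α) : Option V := if D.Leg1 Q then D.rho1 Q else none

def LP2 (P : List α) (v : V) : Prop := ∃ k, k < D.K ∧ P.length = D.c k ∧ D.lam2 k P = some v

def Rel2 (Q : List α) (b : V) : Prop :=
  ∃ k, k < D.K ∧ BadQ D.Wo D.z D.p0 D.N1 D.BadT (D.c k) Q ∧
    (∀ k', k' < D.K → BadQ D.Wo D.z D.p0 D.N1 D.BadT (D.c k') Q → k' = k) ∧
    ∃ e, Fst D.Wo D.z (D.c k) Q e ∧ Q.drop e ∈ XX D.Wo D.z ∧
      ∃ y, D.rho2 k (Q.take (D.p0 - D.c k)) = some y ∧
        b = D.T (D.act y (D.φ ((Q.take e).drop (D.p0 - D.c k))) +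
          D.nu1 ((Q.take e).drop (D.p0 - D.c k))) (Q.drop e)

open Classical in
noncomputable def R2 (Q : List α) : Option V :=
  if h : ∃ b, D.Rel2 Q b then some h.choose else none

theorem Rel2.of_R2 {D : Data α V S} {Q : List α} {b : V} (h : D.R2 Q = some b) : D.Rel2 Q b := by
  unfold R2 at h
  split_ifs at h with hb
  · have := hb.choose_spec
    rw [Option.some.injEq] at h
    rwa [h] at this

theorem R2_isSome {Q : List α} (h : ∃ b, D.Rel2 Q b) : (D.R2 Q).isSome := by
  unfold R2
  rw [dif_pos h]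
  rfl

structure Ok : Prop where
  wall : Wall D.Wo D.n D.W
  hz : D.p0 + D.N1 + D.n < D.z
  hT0 : D.T0 + D.p0 ≤ D.z
  hWp : 2 * D.p0 + 2 * D.N1 ≤ D.W
  φ_app : ∀ u v, D.φ (u ++ v) = D.φ u * D.φ v
  sound1 : ∀ P Q v b, D.lam1 P = some v → D.rho1 Q = some b →
    b = D.act v (D.φ (P ++ Q)) + D.nu1 (P ++ Q)
  len1 : ∀ P v, D.lam1 P = some v → P.length ≤ D.N1
  compl1 : ∀ X v, D.T0 ≤ X.length → ¬ D.BadT X.length →
    ∃ P Q, X = P ++ Q ∧ D.lam1 P = some v ∧ (D.rho1 Q).isSome
  hc : ∀ k, k < D.K → D.c k ≤ D.p0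
  sound2 : ∀ k, k < D.K → ∀ P Q v b, P.length = D.c k → (P ++ Q).length = D.p0 →
    D.lam2 k P = some v → D.rho2 k Q = some b → b = D.act v (D.φ (P ++ Q)) + D.nu2 (P ++ Q)
  compl2 : ∀ u : List α, u.length = D.p0 → ∀ v, ∃ I : Finset ℕ, D.RE + 2 * D.RB < I.card ∧
    ∀ k ∈ I, k < D.K ∧ D.lam2 k (u.take (D.c k)) = some v ∧ (D.rho2 k (u.drop (D.c k))).isSome
  spoilE : ∀ w : ℕ, ∃ J : Finset ℕ, J.card ≤ D.RE ∧ ∀ k, k < D.K → ∀ k', k' < D.K → k' ≠ k →
    D.z + D.c k ≤ w + D.c k' + D.N1 → w + D.c k' ≤ D.z + D.c k + D.N1 → k ∈ J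
  spoilB : ∀ w : ℕ, ∃ J : Finset ℕ, J.card ≤ D.RB ∧ ∀ k, k < D.K → ∀ k', k' < D.K → k' ≠ k →
    D.z + D.c k ≤ w + D.c k' → D.BadT (w + D.c k' - (D.c k + D.p0)) → k ∈ J

variable {D}

theorem Ok.s1 (h : D.Ok) (P : List α) (v : V) (Q : List α) (b : V) (hP : D.LP1 P v)
    (hQ : D.R1 Q = some b) : P ++ Q ∈ XX D.Wo D.z ∧ D.T v (P ++ Q) = b := by
  obtain ⟨hp, hl⟩ := hP
  have hL : D.Leg1 Q := by
    by_contra hn
    rw [R1, if_neg hn] at hQ
    exact absurd hQ (by simp)
  rw [R1, if_pos hL] at hQ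
  obtain ⟨h1, h2, h3⟩ := hL
  have hlen := h.len1 _ _ hl
  rw [List.length_drop] at hlen
  have hz := h.hz
  constructor
  · show Fst _ _ _ _ _
    refine ⟨le_rfl, ?_, by rw [List.length_append]; omega, fun t' ht' hzt hw => ?_⟩
    · rw [List.take_length]
      exact (h.wall.app _ _ (by omega)).2 h1
    · rw [List.length_append] at ht'
      obtain ⟨t, rfl⟩ : ∃ t, t' = P.length + t := ⟨t' - P.length, by omega⟩
      have := h3 t (by omega) ((wo_take h.wall t (by omega) (by omega)).1 hw)
      omega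
  · have hs := h.sound1 _ _ _ _ hl hQ
    unfold T
    rw [List.take_append_of_le_length hp, List.drop_append_of_le_length hp]
    exact hs.symm

/-- completeness of scheme 1 -/
theorem Ok.cut1 (h : D.Ok) (X : List α) (hX : X ∈ XX D.Wo D.z) (v : V)
    (hE : ∀ s, s ≤ X.length → D.Wo (X.take s) → D.z ≤ s + D.N1 → D.z + D.N1 < s)
    (hB : ¬ D.BadT (X.length - D.p0)) :
    ∃ P Q, X = P ++ Q ∧ D.p0 ≤ P.length ∧ D.LP1 P v ∧ (D.R1 Q).isSome := by
  have hz := h.hz
  have hT0 := h.hT0
  have hX1 : D.z ≤ X.length := by have := hX.2.2.1; omega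
  have hXw : D.Wo X := by have := hX.2.1; rwa [List.take_length] at this
  obtain ⟨P1, Q, e, hl, hr⟩ := h.compl1 (X.drop D.p0)
    (D.act v (D.φ (X.take D.p0)) + D.nu2 (X.take D.p0)) (by rw [List.length_drop]; omega)
    (by rw [List.length_drop]; exact hB)
  have hlen := h.len1 _ _ hl
  have e1 : X = (X.take D.p0 ++ P1) ++ Q := by
    rw [List.append_assoc, ← e, List.take_append_drop]
  have hl0 : (X.take D.p0).length = D.p0 := by rw [List.length_take]; omega
  have hl1 : (X.take D.p0 ++ P1).length = D.p0 + P1.length := by rw [List.length_append, hl0]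
  have hl2 : X.length = D.p0 + P1.length + Q.length := by
    conv_lhs => rw [e1]
    rw [List.length_append, hl1]
  have hXE := hE X.length le_rfl (by rwa [List.take_length]) (by omega)
  refine ⟨X.take D.p0 ++ P1, Q, e1, by omega, ⟨by omega, ?_⟩, ?_⟩
  · rw [List.drop_append_of_le_length (by omega), List.drop_of_length_le (by omega),
      List.nil_append, List.take_append_of_le_length (by omega), List.take_take, min_self]
    exact hl
  · have hL : D.Leg1 Q := by
      refine ⟨?_, by omega, fun t ht hw => ?_⟩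
      · rw [e1] at hXw
        exact (h.wall.app _ _ (by omega)).1 hXw
      · have hn : D.n ≤ t := by
          have := h.wall.len _ hw
          rw [List.length_take] at this
          omega
        have hw' : D.Wo (X.take ((X.take D.p0 ++ P1).length + t)) := by
          have h5 := (wo_take h.wall (P := X.take D.p0 ++ P1) (Q := Q) t hn (by omega)).2 hw
          rwa [← e1] at h5
        by_contra hcon
        have h3 := hE ((X.take D.p0 ++ P1).length + t) (by omega) hw' (by omega)
        exact hX.2.2.2 ((X.take D.p0 ++ P1).length + t) (by omega) (by omega) hw'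
    rw [R1, if_pos hL]
    exact hr

theorem Ok.s2 (h : D.Ok) (P : List α) (v : V) (Q : List α) (b : V) (hP : D.LP2 P v)
    (hQ : D.R2 Q = some b)
    (hpr : ∀ X ∈ XX D.Wo D.z, X <+: P ++ Q → ∀ P' Q', X = P' ++ Q' → P.length ≤ P'.length →
      D.LP1 P' v → (D.R1 Q').isSome → False) :
    ∃ Q1 X2, Q = Q1 ++ X2 ∧ Q1 ≠ [] ∧ P ++ Q1 ∈ XX D.Wo D.z ∧ X2 ∈ XX D.Wo D.z ∧
      D.T (D.T v (P ++ Q1)) X2 = b := by
  obtain ⟨k0, hk0, hPk, hlam⟩ := hP
  obtain ⟨k, hk, hbad, huniq, e, he, hX2, y, hy, hb⟩ := Rel2.of_R2 hQ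
  have hz := h.hz
  have hc0 := h.hc k0 hk0
  have hck := h.hc k hk
  have hX2l : D.z ≤ (Q.drop e).length := by have := hX2.2.2.1; omega
  have hX2w : D.Wo (Q.drop e) := by have := hX2.2.1; rwa [List.take_length] at this
  rw [List.length_drop] at hX2l
  have hQw : D.Wo Q := by
    rw [← List.take_append_drop e Q]
    exact (h.wall.app _ _ (by rw [List.length_drop]; omega)).2 hX2w
  obtain ⟨e0, he0⟩ := exists_Fst (Wo := D.Wo) (z := D.z) (c := D.c k0) (Q := Q)
    ⟨Q.length, le_rfl, by rwa [List.take_length], by omega⟩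
  -- the true block
  have hX0 : Fst D.Wo D.z 0 (P ++ Q) (P.length + e0) := by
    have := (Fst_shift (c := 0) (t := e0) h.wall (P := P) (Q := Q) (z := D.z) (by omega))
    rw [this]
    rw [Nat.add_zero, hPk]
    exact he0
  have he0Q := he0.1
  have htk : (P ++ Q).take (P.length + e0) = P ++ Q.take e0 := by
    rw [List.take_append, List.take_of_length_le (by omega)]
    congr 2
    omega
  have hXl : (P ++ Q.take e0).length = P.length + e0 := by
    rw [List.length_append, List.length_take]; omega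
  have hXX0 : P ++ Q.take e0 ∈ XX D.Wo D.z := by
    show Fst _ _ _ _ _
    obtain ⟨g1, g2, g3, g4⟩ := hX0
    refine ⟨le_rfl, ?_, by omega, fun t' ht' hz' hw => ?_⟩
    · rw [List.take_length, ← htk]; exact g2
    · refine g4 t' (by omega) hz' ?_
      rw [← htk, List.take_take, min_eq_left (by omega)] at hw
      exact hw
  have hpre : P ++ Q.take e0 <+: P ++ Q := by
    rw [← htk]; exact List.take_prefix _ _
  have hkk : k0 = k := by
    refine huniq k0 hk0 ?_
    by_contra hnb
    have hnb' : ¬ BadQ D.Wo D.z D.p0 D.N1 D.BadT 0 (P ++ Q) := by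
      rw [BadQ_shift h.wall (by omega), hPk]; exact hnb
    obtain ⟨P', Q', e', hp', hl', hr'⟩ := h.cut1 (P ++ Q.take e0) hXX0 v
      (fun s hs hw hzs => by
        by_contra hcon
        refine hnb' (Or.inl ⟨s, by rw [List.length_append]; omega, ?_, by omega, by omega⟩)
        rw [← htk, List.take_take, min_eq_left (by omega)] at hw
        exact hw)
      (fun hB => hnb' (Or.inr ⟨P.length + e0, hX0, by
        rw [hXl] at hB; rw [Nat.add_zero]; exact hB⟩))
    exact hpr _ hXX0 hpre P' Q' e' (by omega) hl' hr'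
  subst hkk
  have hee : e0 = e := he0.unique he
  subst hee
  have he0z := he0.2.2.1
  have hPQ : P ++ Q = P ++ Q.take e0 ++ Q.drop e0 := by
    rw [List.append_assoc, List.take_append_drop]
  refine ⟨Q.take e0, Q.drop e0, (List.take_append_drop _ _).symm, ?_, hXX0, hX2, ?_⟩
  · intro hnil
    have := congrArg List.length hnil
    rw [List.length_take, List.length_nil] at this
    omega
  · have et : (P ++ Q.take e0).take D.p0 = P ++ Q.take (D.p0 - D.c k0) := by
      rw [List.take_append, List.take_of_length_le (by omega), List.take_take, hPk,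
        min_eq_left (by omega)]
    have ed : (P ++ Q.take e0).drop D.p0 = (Q.take e0).drop (D.p0 - D.c k0) := by
      rw [List.drop_append, List.drop_of_length_le (by omega), List.nil_append, hPk]
    have hs := h.sound2 k0 hk0 P (Q.take (D.p0 - D.c k0)) v y hPk
      (by rw [List.length_append, List.length_take]; omega) hlam hy
    rw [hb]
    congr 1
    conv_lhs => unfold T
    rw [et, ed, ← hs]

theorem Ok.cc (h : D.Ok) (X : List α) (hX : X ∈ XX D.Wo D.z) (X2 : List α)
    (hX2 : X2 ∈ XX D.Wo D.z) (v : V) :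
    (∃ P Q, X = P ++ Q ∧ D.LP1 P v ∧ (D.R1 Q).isSome) ∨
      ∃ P Q, X ++ X2 = P ++ Q ∧ P.length < X.length ∧ D.LP2 P v ∧ (D.R2 Q).isSome := by
  classical
  have hz := h.hz
  have hWp := h.hWp
  have hX1 : D.z ≤ X.length := by have := hX.2.2.1; omega
  have hXw : D.Wo X := by have := hX.2.1; rwa [List.take_length] at this
  have hX21 : D.z ≤ X2.length := by have := hX2.2.2.1; omega
  have hX2w : D.Wo X2 := by have := hX2.2.1; rwa [List.take_length] at this
  set U := X ++ X2 with hU
  have hUl : U.length = X.length + X2.length := by rw [hU, List.length_append]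
  have hUX : U.take X.length = X := by rw [hU, List.take_left']; rfl
  have hFU : Fst D.Wo D.z 0 U X.length := by
    obtain ⟨g1, g2, g3, g4⟩ := hX
    refine ⟨by omega, by rwa [hUX], by omega, fun t' ht' hz' hw => g4 t' ht' hz' ?_⟩
    rw [← hUX, List.take_take, min_eq_left (by omega)]
    exact hw
  by_cases hbad : BadQ D.Wo D.z D.p0 D.N1 D.BadT 0 U
  · right
    -- the two relevant walls
    have hex : ∃ s, s ≤ U.length ∧ D.Wo (U.take s) ∧ D.z ≤ s + D.p0 + D.N1 :=
      ⟨X.length, by omega, by rwa [hUX], by omega⟩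
    set w1 := Nat.find hex with hw1
    have hw1s := Nat.find_spec hex
    rw [← hw1] at hw1s
    have hw1m : ∀ s, s ≤ U.length → D.Wo (U.take s) → D.z ≤ s + D.p0 + D.N1 → w1 ≤ s :=
      fun s a1 a2 a3 => Nat.find_min' hex ⟨a1, a2, a3⟩
    obtain ⟨w2, hw2⟩ : ∃ w2, ∀ s, w1 < s → s ≤ U.length → D.Wo (U.take s) →
        w2 ≤ s ∧ w1 < w2 ∧ w2 ≤ U.length ∧ D.Wo (U.take w2) := by
      by_cases hx : ∃ s, w1 < s ∧ s ≤ U.length ∧ D.Wo (U.take s)
      · refine ⟨Nat.find hx, fun s a1 a2 a3 => ⟨Nat.find_min' hx ⟨a1, a2, a3⟩, Nat.find_spec hx⟩⟩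
      · exact ⟨0, fun s a1 a2 a3 => absurd ⟨s, a1, a2, a3⟩ hx⟩
    obtain ⟨J0, hJ0, hJ0'⟩ := h.spoilE w1
    obtain ⟨J1, hJ1, hJ1'⟩ := h.spoilB w1
    obtain ⟨J2, hJ2, hJ2'⟩ := h.spoilB w2
    obtain ⟨I, hI, hI'⟩ := h.compl2 (U.take D.p0) (by rw [List.length_take]; omega) v
    obtain ⟨k, hkI, hkJ⟩ : ∃ k ∈ I, k ∉ J0 ∪ (J1 ∪ J2) := by
      by_contra hcon
      push Not at hcon
      have h1 := Finset.card_le_card (show I ⊆ J0 ∪ (J1 ∪ J2) from fun k hk => hcon k hk)
      have h2 := Finset.card_union_le J0 (J1 ∪ J2)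
      have h3 := Finset.card_union_le J1 J2
      omega
    rw [Finset.mem_union, Finset.mem_union, not_or, not_or] at hkJ
    obtain ⟨hkK, hkl, hkr⟩ := hI' k hkI
    have hck := h.hc k hkK
    rw [List.take_take, min_eq_left hck] at hkl
    have hPl : (U.take (D.c k)).length = D.c k := by rw [List.length_take]; omega
    have hUeq : U = U.take (D.c k) ++ U.drop (D.c k) := (List.take_append_drop _ _).symm
    have hFk : Fst D.Wo D.z (D.c k) (U.drop (D.c k)) (X.length - D.c k) := by
      have := (Fst_shift (c := 0) (t := X.length - D.c k) h.wall (P := U.take (D.c k))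
        (Q := U.drop (D.c k)) (z := D.z) (by omega)).1 (by
          rw [← hUeq, hPl, show D.c k + (X.length - D.c k) = X.length by omega]; exact hFU)
      rwa [hPl, Nat.add_zero] at this
    have hdd : (U.drop (D.c k)).drop (X.length - D.c k) = X2 := by
      rw [List.drop_drop, show D.c k + (X.length - D.c k) = X.length by omega, hU,
        List.drop_left']
      rfl
    refine ⟨U.take (D.c k), U.drop (D.c k), hUeq, by omega, ⟨k, hkK, hPl, hkl⟩, D.R2_isSome ?_⟩
    obtain ⟨y, hy⟩ := Option.isSome_iff_exists.1 hkr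
    rw [List.drop_take] at hy
    refine ⟨_, k, hkK, ?_, ?_, X.length - D.c k, hFk, by rw [hdd]; exact hX2, y, hy, rfl⟩
    · have := (BadQ_shift (p0 := D.p0) (N1 := D.N1) (BadT := D.BadT) h.wall
        (P := U.take (D.c k)) (Q := U.drop (D.c k)) (z := D.z) (by omega)).1 (by
          rw [← hUeq]; exact hbad)
      rwa [hPl] at this
    · intro k' hk' hb'
      by_contra hne
      have hck' := h.hc k' hk'
      -- walls of the right word are walls of `U`
      have hwU : ∀ t, D.n ≤ t → t ≤ (U.drop (D.c k)).length → D.Wo ((U.drop (D.c k)).take t) →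
          D.Wo (U.take (D.c k + t)) := by
        intro t h1 h2 h3
        have := (wo_take h.wall (P := U.take (D.c k)) (Q := U.drop (D.c k)) t h1 h2).2 h3
        rwa [← hUeq, hPl] at this
      have hwU' : ∀ t, D.n ≤ t → t ≤ (U.drop (D.c k)).length → D.Wo (U.take (D.c k + t)) →
          D.Wo ((U.drop (D.c k)).take t) := by
        intro t h1 h2 h3
        refine (wo_take h.wall (P := U.take (D.c k)) (Q := U.drop (D.c k)) t h1 h2).1 ?_
        rwa [← hUeq, hPl]
      rw [List.length_drop] at hwU hwU'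
      rcases hb' with ⟨t, h1, h2, h3, h4⟩ | ⟨t, h1, h2⟩
      · rw [List.length_drop] at h1
        have hwt := hwU t (by omega) (by omega) h2
        have hle := hw1m _ (by omega) hwt (by omega)
        have heq : w1 = D.c k + t := by
          by_contra hx
          have := h.wall.gap U w1 (D.c k + t) (by omega) (by omega) hw1s.2.1 hwt
          omega
        exact hkJ.1 (hJ0' k hkK k' hk' hne (by omega) (by omega))
      · have h11 := h1.1
        have h13 := h1.2.2.1
        rw [List.length_drop] at h11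
        have hwt := hwU t (by omega) (by omega) h1.2.1
        have hle := hw1m _ (by omega) hwt (by omega)
        rcases hle.eq_or_lt with heq | hlt
        · refine hkJ.2.1 (hJ1' k hkK k' hk' hne (by omega) ?_)
          rw [show w1 + D.c k' - (D.c k + D.p0) = t + D.c k' - D.p0 by omega]
          exact h2
        · obtain ⟨a1, a2, a3, a4⟩ := hw2 _ hlt (by omega) hwt
          have hgap := h.wall.gap U w1 w2 a2 a3 hw1s.2.1 a4
          have heq : w2 = D.c k + t := by
            by_contra hx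
            have hlt2 : w2 - D.c k < t := by omega
            refine h1.2.2.2 (w2 - D.c k) hlt2 (by omega) (hwU' _ (by omega) (by omega) ?_)
            rw [show D.c k + (w2 - D.c k) = w2 by omega]
            exact a4
          refine hkJ.2.2 (hJ2' k hkK k' hk' hne (by omega) ?_)
          rw [show w2 + D.c k' - (D.c k + D.p0) = t + D.c k' - D.p0 by omega]
          exact h2
  · left
    obtain ⟨P, Q, e, -, hl, hr⟩ := h.cut1 X hX v
      (fun s hs hw hzs => by
        by_contra hcon
        refine hbad (Or.inl ⟨s, by omega, ?_, by omega, by omega⟩)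
        rw [← hUX, List.take_take, min_eq_left (by omega)] at hw
        exact hw)
      (fun hB => hbad (Or.inr ⟨X.length, hFU, by rw [Nat.add_zero]; exact hB⟩))
    exact ⟨P, Q, e, hl, hr⟩

end Data

theorem nil_notMem (Wo : List α → Prop) (z : ℕ) (hz : 0 < z) : ([] : List α) ∉ XX Wo z := by
  intro h
  have := h.2.2.1
  simp at this
  omega

theorem prefix_code (Wo : List α → Prop) (z : ℕ) (X : List α) (hX : X ∈ XX Wo z) (Y : List α)
    (hXY : X ++ Y ∈ XX Wo z) : Y = [] := by
  by_contra hY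
  have hl : 0 < Y.length := List.length_pos_iff.2 hY
  have h1 := hX.2.1
  have h2 := hX.2.2.1
  rw [List.take_length] at h1
  refine hXY.2.2.2 X.length (by rw [List.length_append]; omega) h2 ?_
  rw [List.take_left']
  · exact h1
  · rfl

end Crest.Agent.R320.NatBlk_32
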