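import Crest.Agent.R320.NatC_178

/-!
# Row 320: scheme 2 of the natural chain rule (helper178)
-/

set_option autoImplicit false

namespace Crest.Agent.R320.Nat178

open Crest.Agent.R320.Hk_851 Crest.Agent.R320.Code110

variable {α S V : Type*}

/-- two candidates for the first wall at or behind `z + d`, for all small `d` -/
theorem two_walls {n W : ℕ} {Wo : List α → Prop} (hW : Walls n W Wo) {w : List α} {z Lam : ℕ}
    (hWL : 2 * Lam ≤ W) (hw : Wo w) (hlw : z ≤ w.length) :
    ∃ τ1 τ2 : ℕ, z ≤ τ1 + Lam ∧ z ≤ τ2 + Lam ∧ ∀ a b s : ℕ, a ≤ Lam → b ≤ Lam →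
      s ≤ w.length → Wo (w.take s) → z + a ≤ s + b →
      (∀ s', z + a ≤ s' + b → s' < s → ¬ Wo (w.take s')) → s = τ1 ∨ s = τ2 := by
  classical
  have h1 : ∃ s, s ≤ w.length ∧ z ≤ s + Lam ∧ Wo (w.take s) :=
    ⟨w.length, le_rfl, by omega, by rw [List.take_length]; exact hw⟩
  obtain ⟨h1a, h1b, h1c⟩ := Nat.find_spec h1
  have h1m : ∀ s, s ≤ w.length → z ≤ s + Lam → Wo (w.take s) → Nat.find h1 ≤ s :=
    fun s a b c => Nat.find_min' h1 ⟨a, b, c⟩
  generalize Nat.find h1 = τ1 at h1a h1b h1c h1m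
  by_cases h2 : ∃ s, s ≤ w.length ∧ τ1 < s ∧ Wo (w.take s)
  · obtain ⟨h2a, h2b, h2c⟩ := Nat.find_spec h2
    have h2m : ∀ s, s ≤ w.length → τ1 < s → Wo (w.take s) → Nat.find h2 ≤ s :=
      fun s a b c => Nat.find_min' h2 ⟨a, b, c⟩
    generalize Nat.find h2 = τ2 at h2a h2b h2c h2m
    refine ⟨τ1, τ2, h1b, by omega, ?_⟩
    intro a b s ha hb hs hws hza hmin
    have e1 := h1m s hs (by omega) hws
    by_cases hc : z + a ≤ τ1 + b
    · left
      by_contra hne
      exact hmin τ1 hc (by omega) h1c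
    · right
      have e2 := h2m s hs (by omega) hws
      by_contra hne
      have e3 := hW.sep h2b h2a h1c h2c
      exact hmin τ2 (by omega) (by omega) h2c
  · refine ⟨τ1, τ1, h1b, h1b, ?_⟩
    intro a b s ha hb hs hws hza hmin
    left
    have e1 := h1m s hs (by omega) hws
    by_contra hne
    exact h2 ⟨s, hs, by omega, hws⟩

section C2

variable [Add V] {n W z N1 p0 La K C0 : ℕ} {Wo : List α → Prop} {B : ℕ → Prop}
  {φ : List α → S} {act : V → S → V} {nu1 nu2 : List α → V} {c : ℕ → ℕ}
  {lam2 rho2 : ℕ → List α → Option V}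

/-- the block shape does not depend on the first `c ≤ p0` letters -/
theorem shape (hW : Walls n W Wo) (hz : p0 + N1 + n ≤ z) {u p' : List α} {k : ℕ} (hk : k ≤ p0)
    (hu : u ∈ XX Wo z) (hp : p'.length = k) : p' ++ u.drop k ∈ XX Wo z := by
  obtain ⟨hu1, hu2, hu3⟩ := hu
  have hlt : (u.take k).length = k := by rw [List.length_take]; omega
  have hd : (u.drop k).length = u.length - k := List.length_drop
  have hn : n ≤ (u.drop k).length := by omega
  refine ⟨by rw [List.length_append]; omega, ?_, ?_⟩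
  · rw [hW.app _ _ hn]
    rw [← List.take_append_drop k u] at hu2
    exact (hW.app _ _ hn).1 hu2
  · intro s hs1 hs2 hs3
    rw [List.length_append] at hs2
    have e : s = p'.length + (s - k) := by omega
    rw [e, hW.tk p' (u.drop k) (by omega) (by omega)] at hs3
    have h4 := (hW.tk (u.take k) (u.drop k) (j := s - k) (by omega) (by omega)).2 hs3
    rw [List.take_append_drop, hlt] at h4
    exact hu3 _ (by omega) (by omega) h4

theorem shapeB (hW : Walls n W Wo) (hz : p0 + N1 + n ≤ z) {u p' : List α} {k : ℕ} (hk : k ≤ p0)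
    (hu : u ∈ Bd Wo z N1 p0 B) (hp : p'.length = k) : p' ++ u.drop k ∈ Bd Wo z N1 p0 B := by
  obtain ⟨hx, hb⟩ := hu
  refine ⟨shape hW hz hk hx hp, ?_⟩
  obtain ⟨hu1, hu2, hu3⟩ := hx
  have hlt : (u.take k).length = k := by rw [List.length_take]; omega
  have hd : (u.drop k).length = u.length - k := List.length_drop
  have hll : (p' ++ u.drop k).length = u.length := by rw [List.length_append]; omega
  rcases hb with ⟨t, h1, h2, h3, h4⟩ | h
  · left
    refine ⟨t, by omega, h2, h3, ?_⟩
    have e : t = p'.length + (t - k) := by omega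
    have e' : t = (u.take k).length + (t - k) := by omega
    rw [e, hW.tk p' (u.drop k) (by omega) (by omega)]
    rw [← List.take_append_drop k u, e', hW.tk _ _ (by omega) (by omega)] at h4
    exact h4
  · right
    rw [hll]; exact h

/-- first block of a word that ends in a wall -/
theorem first_block {w : List α} (hw : Wo w) (hl : z ≤ w.length) :
    ∃ s, z ≤ s ∧ s ≤ w.length ∧ Wo (w.take s) ∧ (∀ s', z ≤ s' → s' < s → ¬ Wo (w.take s')) ∧
      w.take s ∈ XX Wo z := by
  classical
  have h1 : ∃ s, z ≤ s ∧ s ≤ w.length ∧ Wo (w.take s) :=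
    ⟨w.length, hl, le_rfl, by rw [List.take_length]; exact hw⟩
  obtain ⟨h1a, h1b, h1c⟩ := Nat.find_spec h1
  have h1m : ∀ s, z ≤ s → s < Nat.find h1 → ¬ Wo (w.take s) := fun s a b c => by
    have := Nat.find_min' h1 ⟨a, by omega, c⟩
    omega
  generalize Nat.find h1 = s at h1a h1b h1c h1m
  refine ⟨s, h1a, h1b, h1c, h1m, ?_, h1c, ?_⟩
  · rw [List.length_take]; omega
  · intro t ht1 ht2
    rw [List.length_take] at ht2
    rw [List.take_take]
    have : min t s = t := by omega
    rw [this]
    exact h1m t ht1 (by omega)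

theorem C2 (hW : Walls n W Wo)
    (hcm : ∀ i j, i < j → j < K → c i < c j) (hcp : ∀ k < K, c k ≤ p0)
    (hrul : ∀ i j k l, i < K → j < K → k < K → l < K → i ≠ j → k ≠ l → (i, j) ≠ (k, l) →
      c i + c l + 4 * N1 < c k + c j ∨ c k + c j + 4 * N1 < c i + c l)
    (hcount : ∀ T, La ≤ T → ∀ F : Finset (ℕ × ℕ), (∀ q ∈ F, q.1 < K ∧ q.2 < K ∧ q.1 ≠ q.2 ∧
      B (T + c q.2 - c q.1)) → F.card ≤ C0)
    (e1 : ∀ k < K, ∀ (P Q : List α) (v b : V), P.length = c k → lam2 k P = some v →
      rho2 k Q = some b → b = act v (φ (P ++ Q)) + nu2 (P ++ Q))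
    (e2 : ∀ (u : List α) (v : V), (∀ k < K, c k ≤ u.length) →
      ∃ I : Finset ℕ, 2 * C0 + 2 ≤ I.card ∧ ∀ k ∈ I, k < K ∧ lam2 k (u.take (c k)) = some v ∧
        (rho2 k (u.drop (c k))).isSome)
    (hWW : 2 * p0 + 2 * N1 ≤ W) (hz : 3 * p0 + 2 * N1 + n + La + 1 ≤ z) :
    ∀ u ∈ Bd Wo z N1 p0 B, ∀ x, ∀ t ∈ (Bd Wo z N1 p0 B) ^ 1, ∃ p q y,
      u ++ t = p ++ q ∧ p ∈ L2 K c lam2 x ∧
      q ∈ Rsem (XX Wo z) (Bd Wo z N1 p0 B) (TT φ act p0 nu1 nu2) 1 (L2 K c lam2) y := by
  classical
  intro u hu x t ht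
  rw [pow_one] at ht
  obtain ⟨hux, hub⟩ := id hu
  obtain ⟨htx, htb⟩ := id ht
  obtain ⟨hu1, hu2, hu3⟩ := id hux
  obtain ⟨ht1, ht2, ht3⟩ := id htx
  have hww : Wo (u ++ t) := (hW.app _ _ (by omega)).2 ht2
  obtain ⟨τ1, τ2, hτ1, hτ2, hτ⟩ := two_walls hW (w := u ++ t) (z := z) (Lam := p0) (by omega)
    hww (by rw [List.length_append]; omega)
  obtain ⟨I, hI1, hI2⟩ := e2 (u.take p0) x (fun k hk => by
    rw [List.length_take]; have := hcp k hk; omega)
  -- pairs
  let PE : Finset (ℕ × ℕ) := (Finset.range K ×ˢ Finset.range K).filter (fun q => q.1 ≠ q.2 ∧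
    ∃ s, s ≤ (u ++ t).length ∧ Wo ((u ++ t).take s) ∧ z + c q.1 ≤ s + c q.2 + N1 ∧
      s + c q.2 ≤ z + c q.1 + N1)
  let P1 : Finset (ℕ × ℕ) := (Finset.range K ×ˢ Finset.range K).filter (fun q => q.1 ≠ q.2 ∧
    B (τ1 - p0 + c q.2 - c q.1))
  let P2 : Finset (ℕ × ℕ) := (Finset.range K ×ˢ Finset.range K).filter (fun q => q.1 ≠ q.2 ∧
    B (τ2 - p0 + c q.2 - c q.1))
  have hPE : PE.card ≤ 1 := by
    rw [Finset.card_le_one]
    rintro ⟨i, j⟩ hij ⟨k, l⟩ hkl
    simp only [PE, Finset.mem_filter, Finset.mem_product, Finset.mem_range] at hij hkl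
    obtain ⟨⟨hi, hj⟩, hne, s, hs1, hs2, hs3, hs4⟩ := hij
    obtain ⟨⟨hk, hl⟩, hne', s', hs1', hs2', hs3', hs4'⟩ := hkl
    by_contra hc
    have hr := hrul i j k l hi hj hk hl hne hne' hc
    have b1 := hcp i hi
    have b2 := hcp j hj
    have b3 := hcp k hk
    have b4 := hcp l hl
    have hss : s = s' := by
      rcases Nat.lt_trichotomy s s' with h | h | h
      · have := hW.sep h hs1' hs2 hs2'; omega
      · exact h
      · have := hW.sep h hs1 hs2' hs2; omega
    subst hss
    omega
  have hP1 : P1.card ≤ C0 := hcount (τ1 - p0) (by omega) P1 (fun q hq => by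
    simp only [P1, Finset.mem_filter, Finset.mem_product, Finset.mem_range] at hq
    exact ⟨hq.1.1, hq.1.2, hq.2.1, hq.2.2⟩)
  have hP2 : P2.card ≤ C0 := hcount (τ2 - p0) (by omega) P2 (fun q hq => by
    simp only [P2, Finset.mem_filter, Finset.mem_product, Finset.mem_range] at hq
    exact ⟨hq.1.1, hq.1.2, hq.2.1, hq.2.2⟩)
  have hcard : ((PE ∪ (P1 ∪ P2)).image Prod.fst).card < I.card := by
    have h1 : ((PE ∪ (P1 ∪ P2)).image Prod.fst).card ≤ (PE ∪ (P1 ∪ P2)).card :=
      Finset.card_image_le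
    have h2 := Finset.card_union_le PE (P1 ∪ P2)
    have h3 := Finset.card_union_le P1 P2
    omega
  obtain ⟨k, hkI, hkS⟩ := Finset.exists_mem_notMem_of_card_lt_card hcard
  obtain ⟨hkK, hlam, hrho⟩ := hI2 k hkI
  obtain ⟨b0, hb0⟩ := Option.isSome_iff_exists.1 hrho
  have hck := hcp k hkK
  have hclean : ∀ k' < K, k' ≠ k → (k, k') ∉ PE ∧ (k, k') ∉ P1 ∧ (k, k') ∉ P2 := by
    intro k' _ _
    refine ⟨fun h => hkS ?_, fun h => hkS ?_, fun h => hkS ?_⟩
    · exact Finset.mem_image.2 ⟨(k, k'), Finset.mem_union.2 (Or.inl h), rfl⟩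
    · exact Finset.mem_image.2 ⟨(k, k'), Finset.mem_union.2 (Or.inr (Finset.mem_union.2
        (Or.inl h))), rfl⟩
    · exact Finset.mem_image.2 ⟨(k, k'), Finset.mem_union.2 (Or.inr (Finset.mem_union.2
        (Or.inr h))), rfl⟩
  have hlk : (u.take (c k)).length = c k := by rw [List.length_take]; omega
  have htt : (u.take p0).take (c k) = u.take (c k) := by
    rw [List.take_take]; congr 1; omega
  rw [htt] at hlam
  refine ⟨u.take (c k), u.drop (c k) ++ t,
    TT φ act p0 nu1 nu2 t (act b0 (φ (u.drop p0)) + nu1 (u.drop p0)), ?_, ⟨k, hkK, hlk, hlam⟩, ?_⟩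
  · rw [← List.append_assoc, List.take_append_drop]
  · rintro x' p' ⟨k', hk', hp', hl'⟩
    by_cases hkk : k' = k
    · left
      subst hkk
      have hbad := shapeB hW (z := z) (N1 := N1) (p0 := p0) (B := B) (by omega) hck hu hp'
      have hd : (u.drop (c k')).take (p0 - c k') = (u.take p0).drop (c k') := by
        rw [List.drop_take]
      have htk : (p' ++ u.drop (c k')).take p0 = p' ++ (u.take p0).drop (c k') := by
        rw [List.take_append, ← hd, List.take_of_length_le (by omega), hp']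
      have hdr : (p' ++ u.drop (c k')).drop p0 = u.drop p0 := by
        rw [List.drop_append, List.drop_eq_nil_of_le (by omega), List.nil_append, hp',
          List.drop_drop]
        congr 1; omega
      have hval : TT φ act p0 nu1 nu2 (p' ++ u.drop (c k')) x' =
          act b0 (φ (u.drop p0)) + nu1 (u.drop p0) := by
        unfold TT
        rw [htk, hdr, ← e1 k' hkK p' _ x' b0 hp' hl' hb0]
      refine ⟨TT φ act p0 nu1 nu2 (p' ++ u.drop (c k')) x',
        Language.mem_mul.2 ⟨p' ++ u.drop (c k'), ⟨hbad, rfl⟩, t, ?_, by simp⟩⟩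
      refine ⟨TT φ act p0 nu1 nu2 t (act b0 (φ (u.drop p0)) + nu1 (u.drop p0)),
        Language.mem_mul.2 ⟨t, ⟨ht, by rw [hval]⟩, [], ⟨rfl, rfl⟩, by simp⟩⟩
    · right
      left
      obtain ⟨n1, n2, n3⟩ := hclean k' hk' hkk
      have hck' := hcp k' hk'
      have hdl : (u.drop (c k)).length = u.length - c k := List.length_drop
      have hGl : (p' ++ (u.drop (c k) ++ t)).length = c k' + (u.length - c k + t.length) := by
        rw [List.length_append, List.length_append, hdl, hp']
      have hGw : Wo (p' ++ (u.drop (c k) ++ t)) := by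
        rw [← List.append_assoc]
        exact (hW.app _ _ (by omega)).2 ht2
      obtain ⟨s, hs1, hs2, hs3, hs4, hs5⟩ := first_block (z := z) hGw (by omega)
      have hql : (u.drop (c k) ++ t).length = u.length - c k + t.length := by
        rw [List.length_append, hdl]
      have hut : u ++ t = u.take (c k) ++ (u.drop (c k) ++ t) := by
        rw [← List.append_assoc, List.take_append_drop]
      -- transfer of walls
      have tr : ∀ j, n ≤ j → j ≤ (u.drop (c k) ++ t).length →
          (Wo ((p' ++ (u.drop (c k) ++ t)).take (c k' + j)) ↔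
            Wo ((u ++ t).take (c k + j))) := by
        intro j hj1 hj2
        have a1 := hW.tk p' (u.drop (c k) ++ t) hj1 hj2
        have a2 := hW.tk (u.take (c k)) (u.drop (c k) ++ t) hj1 hj2
        rw [hp'] at a1
        rw [hlk, ← hut] at a2
        exact a1.trans a2.symm
      refine ⟨_, hs5, ?_, List.take_prefix _ _⟩
      rintro ⟨-, hbb⟩
      have hsl : ((p' ++ (u.drop (c k) ++ t)).take s).length = s := by
        rw [List.length_take]; omega
      rw [hsl] at hbb
      rcases hbb with ⟨t1, h1, h2, h3, h4⟩ | h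
      · apply n1
        rw [List.take_take] at h4
        have : min t1 s = t1 := by omega
        rw [this] at h4
        have e : t1 = c k' + (t1 - c k') := by omega
        rw [e, tr _ (by omega) (by omega)] at h4
        simp only [PE, Finset.mem_filter, Finset.mem_product, Finset.mem_range]
        refine ⟨⟨hkK, hk'⟩, fun h => hkk h.symm, c k + (t1 - c k'), ?_, h4, by omega, by omega⟩
        rw [List.length_append]; omega
      · have e : s = c k' + (s - c k') := by omega
        have hs3' := hs3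
        rw [e, tr _ (by omega) (by omega)] at hs3'
        have hcand := hτ (c k) (c k') (c k + (s - c k')) hck hck'
          (by rw [List.length_append]; omega) hs3' (by omega) (by
            intro s' h1 h2 h3
            have e' : s' = c k + (s' - c k) := by omega
            rw [e', ← tr (s' - c k) (by omega) (by omega)] at h3
            exact hs4 _ (by omega) (by omega) h3)
        rcases hcand with hc | hc
        · apply n2
          simp only [P1, Finset.mem_filter, Finset.mem_product, Finset.mem_range]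
          refine ⟨⟨hkK, hk'⟩, fun h => hkk h.symm, ?_⟩
          have : τ1 - p0 + c k' - c k = s - p0 := by omega
          rw [this]; exact h
        · apply n3
          simp only [P2, Finset.mem_filter, Finset.mem_product, Finset.mem_range]
          refine ⟨⟨hkK, hk'⟩, fun h => hkk h.symm, ?_⟩
          have : τ2 - p0 + c k' - c k = s - p0 := by omega
          rw [this]; exact h

end C2

end Crest.Agent.R320.Nat178
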