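import Crest.Agent.R320.Top5_110

/-!
# Row 320: the natural chain rule over `Top5_110.top_sem` (helper178)

Blocks `XX` = words of length at least `z` ending in a wall, no wall at a place in `[z, |X|)`;
`Bd` = blocks with a wall within `N1` of `z`, or with `B (|X| - p0)`.
`C1` : completeness of scheme 1 (grid gadget as a hypothesis), `C2` : completeness of scheme 2
(exact gadget on the first `p0` letters, at most `1 + 2 C0` spoiled places of the ruler).
-/

set_option autoImplicit false

namespace Crest.Agent.R320.Nat178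

open Crest.Agent.R320.Hk_851 Crest.Agent.R320.Code110

variable {α S V : Type*}

/-- left-looking wall rule -/
structure Walls (n W : ℕ) (Wo : List α → Prop) : Prop where
  app : ∀ P Q : List α, n ≤ Q.length → (Wo (P ++ Q) ↔ Wo Q)
  len : ∀ P : List α, Wo P → n ≤ P.length
  gap : ∀ (P : List α) (d : ℕ), Wo P → 0 < d → d ≤ W → ¬ Wo (P.take (P.length - d))

/-- blocks -/
def XX (Wo : List α → Prop) (z : ℕ) : Language α :=
  {X | z ≤ X.length ∧ Wo X ∧ ∀ t, z ≤ t → t < X.length → ¬ Wo (X.take t)}

/-- bad blocks -/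
def Bd (Wo : List α → Prop) (z N1 p0 : ℕ) (B : ℕ → Prop) : Language α :=
  {X | X ∈ XX Wo z ∧
    ((∃ t, t ≤ X.length ∧ z ≤ t + N1 ∧ t ≤ z + N1 ∧ Wo (X.take t)) ∨ B (X.length - p0))}

/-- zone maps -/
def TT [Add V] (φ : List α → S) (act : V → S → V) (p0 : ℕ) (nu1 nu2 : List α → V)
    (X : List α) (x : V) : V :=
  act (act x (φ (X.take p0)) + nu2 (X.take p0)) (φ (X.drop p0)) + nu1 (X.drop p0)

/-- left words of scheme 1 -/
def L1 [Add V] (φ : List α → S) (act : V → S → V) (p0 : ℕ) (nu2 : List α → V)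
    (lam : List α → Option V) (x : V) : Language α :=
  {p | p0 ≤ p.length ∧ lam (p.drop p0) = some (act x (φ (p.take p0)) + nu2 (p.take p0))}

/-- left words of scheme 2 -/
def L2 (K : ℕ) (c : ℕ → ℕ) (lam2 : ℕ → List α → Option V) (x : V) : Language α :=
  {p | ∃ k, k < K ∧ p.length = c k ∧ lam2 k p = some x}

theorem Walls.tk {n W : ℕ} {Wo : List α → Prop} (hW : Walls n W Wo) (p q : List α) {j : ℕ}
    (h1 : n ≤ j) (h2 : j ≤ q.length) : Wo ((p ++ q).take (p.length + j)) ↔ Wo (q.take j) := by
  rw [List.take_length_add_append]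
  exact hW.app _ _ (by rw [List.length_take]; omega)

theorem Walls.sep {n W : ℕ} {Wo : List α → Prop} (hW : Walls n W Wo) {w : List α} {s s' : ℕ}
    (h : s < s') (h' : s' ≤ w.length) (h1 : Wo (w.take s)) (h2 : Wo (w.take s')) :
    s + W < s' := by
  by_contra hc
  have hl : (w.take s').length = s' := by rw [List.length_take]; omega
  refine hW.gap (w.take s') (s' - s) h2 (by omega) (by omega) ?_
  rw [hl, List.take_take]
  have : min (s' - (s' - s)) s' = s := by omega
  rw [this]; exact h1

theorem pc {n W : ℕ} {Wo : List α → Prop} (hW : Walls n W Wo) {z : ℕ} (hz : 0 < z) :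
    PC (XX Wo z) := by
  refine ⟨fun h => ?_, ?_⟩
  · have h1 := h.1
    simp at h1
    omega
  · rintro u ⟨hu1, hu2, hu3⟩ v ⟨hv1, hv2, hv3⟩ huv
    have hle := huv.length_le
    rcases Nat.lt_or_ge u.length v.length with hlt | hge
    · exfalso
      have := hv3 u.length hu1 hlt
      rw [List.prefix_iff_eq_take.1 huv] at hu2
      exact this hu2
    · exact huv.eq_of_length (by omega)

section C1

variable [Add V] {n W z N1 p0 La : ℕ} {Wo : List α → Prop} {B : ℕ → Prop}
  {φ : List α → S} {act : V → S → V} {nu1 nu2 : List α → V} {lam rho : List α → Option V}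

theorem C1 (hW : Walls n W Wo)
    (g1 : ∀ p v, lam p = some v → p.length ≤ N1)
    (g2 : ∀ p q v r, lam p = some v → rho q = some r → La ≤ q.length →
      r = act v (φ (p ++ q)) + nu1 (p ++ q))
    (g3 : ∀ u : List α, La ≤ u.length → ¬ B u.length → ∀ v, ∃ p q, p ++ q = u ∧
      lam p = some v ∧ (rho q).isSome)
    (hz : p0 + 2 * N1 + n + La + 1 ≤ z) :
    ∀ u ∈ XX Wo z, u ∉ Bd Wo z N1 p0 B → ∀ x, ∀ t ∈ (XX Wo z) ^ 0, ∃ p q y,
      u ++ t = p ++ q ∧ p ∈ L1 φ act p0 nu2 lam x ∧
      q ∈ Rsem (XX Wo z) (XX Wo z) (TT φ act p0 nu1 nu2) 0 (L1 φ act p0 nu2 lam) y := by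
  intro u hu hb x t ht
  have ht' : t = [] := by rw [pow_zero] at ht; exact (Language.mem_one _).1 ht
  subst ht'
  obtain ⟨hu1, hu2, hu3⟩ := id hu
  have hE : ∀ t, t ≤ u.length → z ≤ t + N1 → Wo (u.take t) → z + N1 < t := by
    intro t h1 h2 h3
    by_contra hc
    exact hb ⟨hu, Or.inl ⟨t, h1, h2, by omega, h3⟩⟩
  have hB : ¬ B (u.length - p0) := fun h => hb ⟨hu, Or.inr h⟩
  have hlen : z + N1 < u.length := hE u.length le_rfl (by omega) (by rw [List.take_length]; exact hu2)
  obtain ⟨P, Q, hPQ, hlam, hrho⟩ := g3 (u.drop p0) (by rw [List.length_drop]; omega)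
    (by rw [List.length_drop]; exact hB) (act x (φ (u.take p0)) + nu2 (u.take p0))
  obtain ⟨r, hr⟩ := Option.isSome_iff_exists.1 hrho
  have hPl := g1 _ _ hlam
  have hlt : (u.take p0).length = p0 := by rw [List.length_take]; omega
  have hu' : u = (u.take p0 ++ P) ++ Q := by
    rw [List.append_assoc, hPQ, List.take_append_drop]
  have hQl : u.length = p0 + P.length + Q.length := by
    have := congrArg List.length hu'
    rw [List.length_append, List.length_append, hlt] at this
    exact this
  refine ⟨u.take p0 ++ P, Q, r, by rw [List.append_nil]; exact hu', ⟨?_, ?_⟩, ?_⟩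
  · rw [List.length_append, hlt]; omega
  · have e1 : (u.take p0 ++ P).drop p0 = P := by
      conv_lhs => rw [← hlt]
      rw [hlt]
      exact List.drop_left' hlt
    have e2 : (u.take p0 ++ P).take p0 = u.take p0 := List.take_left' hlt
    rw [e1, e2]; exact hlam
  · intro x' p' hp'
    obtain ⟨hp1, hp2⟩ := hp'
    have hp3 := g1 _ _ hp2
    rw [List.length_drop] at hp3
    left
    have hdrop : (p' ++ Q).drop p0 = p'.drop p0 ++ Q := by
      rw [List.drop_append_of_le_length hp1]
    have htake : (p' ++ Q).take p0 = p'.take p0 := by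
      rw [List.take_append_of_le_length hp1]
    have hnQ : n ≤ Q.length := by omega
    refine ⟨r, Language.mem_mul.2 ⟨p' ++ Q, ⟨⟨?_, ?_, ?_⟩, ?_⟩, [], ⟨rfl, rfl⟩, by simp⟩⟩
    · rw [List.length_append]; omega
    · rw [hW.app _ _ hnQ]
      rw [hu'] at hu2
      exact (hW.app _ _ hnQ).1 hu2
    · intro s hs1 hs2 hs3
      rw [List.length_append] at hs2
      have e : s = p'.length + (s - p'.length) := by omega
      rw [e, hW.tk p' Q (by omega) (by omega)] at hs3
      have h4 : Wo (u.take (p0 + P.length + (s - p'.length))) := by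
        rw [hu']
        have := (hW.tk (u.take p0 ++ P) Q (j := s - p'.length) (by omega) (by omega)).2 hs3
        rw [List.length_append, hlt] at this
        exact this
      have h5 := hE _ (by omega) (by omega) h4
      exact hu3 _ (by omega) (by omega) h4
    · show TT φ act p0 nu1 nu2 (p' ++ Q) x' = r
      unfold TT
      rw [hdrop, htake]
      exact (g2 _ _ _ _ hp2 hr (by omega)).symm

end C1

end Crest.Agent.R320.Nat178
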