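import Crest.Agent.R320.Sc2n_937
import Crest.Agent.R320.FewVal_228
import Crest.Agent.R320.RegKey_186

/-!
# Row 320: heights and regularity for the natural block code (helper380)

`Geo` of helper937 over the walls of helper228: the block code `XX`, the fibres `{X ∈ XX | T x X = y}`
and the tails (no block prefix) have height one.
-/

set_option autoImplicit false

namespace Crest.Agent.R320.NatReg_380

open Crest.RegLang Crest.Agent.R320.Hk_851 Crest.Agent.R320.FewWalls_228
  Crest.Agent.R320.FewVal_228 Crest.Agent.R320.Sc2n_937 Crest.Agent.R320.RegKey_186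

universe u

variable {α : Type u}

/-- left-looking wall at the end of a word -/
def Wo (n : ℕ) (S : Set (List α)) (Q : List α) : Prop := n ≤ Q.length ∧ lastn n Q ∈ S

theorem wo_loc (n : ℕ) (S : Set (List α)) (P Q : List α) (h : n ≤ Q.length) :
    Wo n S (P ++ Q) ↔ Wo n S Q := by
  unfold Wo lastn
  have e : (P ++ Q).drop ((P ++ Q).length - n) = Q.drop (Q.length - n) := by
    rw [List.length_append, List.drop_append]
    rw [List.drop_of_length_le (by omega)]
    rw [List.nil_append]
    congr 1
    omega
  rw [e, List.length_append]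
  constructor
  · rintro ⟨_, h2⟩; exact ⟨h, h2⟩
  · rintro ⟨_, h2⟩; exact ⟨by omega, h2⟩

theorem wo_take {n : ℕ} {S : Set (List α)} {w : List α} {t : ℕ} (ht : t ≤ w.length) :
    Wo n S (w.take t) ↔ n ≤ t ∧ Wl n S w (t - n) := by
  unfold Wo lastn Wl
  rw [List.length_take, Nat.min_eq_left ht]
  have e : n ≤ t → (w.take t).drop (t - n) = (w.drop (t - n)).take n := by
    intro h
    rw [List.drop_take]
    congr 1
    omega
  constructor
  · rintro ⟨h1, h2⟩
    refine ⟨h1, by omega, ?_⟩
    rw [← e h1]; exact h2
  · rintro ⟨h1, h2, h3⟩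
    refine ⟨h1, ?_⟩
    rw [e h1]; exact h3

theorem wl_wo {n : ℕ} {S : Set (List α)} {w : List α} {x : ℕ} (h : Wl n S w x) :
    Wo n S (w.take (x + n)) := by
  have h1 := h.1
  rw [wo_take h1]
  refine ⟨by omega, ?_⟩
  rw [Nat.add_sub_cancel]; exact h

/-- number of walls of a word without walls at places in `[z, |w|)` -/
theorem nw_le {n : ℕ} {S : Set (List α)} {w : List α} {z : ℕ}
    (h : ∀ t, z ≤ t → t < w.length → ¬ Wo n S (w.take t)) : nw n S w ≤ z + 1 := by
  classical
  unfold nw
  have hsub : (Finset.range (w.length + 1)).filter (fun x => Wl n S w x) ⊆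
      Finset.range z ∪ {w.length - n} := by
    intro x hx
    rw [Finset.mem_filter] at hx
    have h1 := hx.2.1
    rw [Finset.mem_union, Finset.mem_range, Finset.mem_singleton]
    by_contra hc
    push Not at hc
    exact h (x + n) (by omega) (by omega) (wl_wo hx.2)
  refine (Finset.card_le_card hsub).trans ?_
  refine (Finset.card_union_le _ _).trans ?_
  simp

section reg

variable (g : Geo α)

/-- the key of a word: first `B` letters, last `n` letters, wall seen -/
theorem wo_app (x y : List α) (hx : g.n ≤ x.length) :
    g.Wo (x ++ y) ↔ g.Wo (x.drop (x.length - g.n) ++ y) := by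
  conv_lhs => rw [← List.take_append_drop (x.length - g.n) x, List.append_assoc]
  rw [g.loc _ _ (by rw [List.length_append, List.length_drop]; omega)]

theorem seen_app (x y : List α) (hx : g.n ≤ x.length) (hz : g.z ≤ x.length) (b : ℕ) (hb : b ≤ 1) :
    (∀ t, g.z ≤ t → t < (x ++ y).length + b → ¬ g.Wo ((x ++ y).take t)) ↔
      (∀ t, g.z ≤ t → t < x.length → ¬ g.Wo (x.take t)) ∧
        ∀ i, i < y.length + b → ¬ g.Wo (x.drop (x.length - g.n) ++ y.take i) := by
  constructor
  · intro h
    refine ⟨fun t h1 h2 h3 => ?_, fun i hi h3 => ?_⟩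
    · refine h t h1 (by rw [List.length_append]; omega) ?_
      rw [List.take_append_of_le_length h2.le]; exact h3
    · refine h (x.length + i) (by omega) (by rw [List.length_append]; omega) ?_
      rw [List.take_length_add_append, wo_app g x _ hx]; exact h3
  · rintro ⟨h1, h2⟩ t h3 h4 h5
    rcases Nat.lt_or_ge t x.length with h6 | h6
    · rw [List.take_append_of_le_length h6.le] at h5
      exact h1 t h3 h6 h5
    · obtain ⟨i, rfl⟩ := Nat.exists_eq_add_of_le h6
      rw [List.take_length_add_append, wo_app g x _ hx] at h5
      exact h2 i (by rw [List.length_append] at h4; omega) h5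

open Classical in
/-- key -/
noncomputable def key (x : List α) :
    {l : List α // l.length ≤ g.z + g.n} × {l : List α // l.length ≤ g.n} × Bool :=
  (⟨x.take (g.z + g.n), by simp⟩, ⟨x.drop (x.length - g.n), by rw [List.length_drop]; omega⟩,
    decide (∀ t, g.z ≤ t → t < x.length → ¬ g.Wo (x.take t)))

theorem key_cases {x x' : List α} (h : key g x = key g x') :
    x = x' ∨ (g.z + g.n ≤ x.length ∧ g.z + g.n ≤ x'.length ∧
      x.drop (x.length - g.n) = x'.drop (x'.length - g.n) ∧
      ((∀ t, g.z ≤ t → t < x.length → ¬ g.Wo (x.take t)) ↔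
        (∀ t, g.z ≤ t → t < x'.length → ¬ g.Wo (x'.take t)))) := by
  unfold key at h
  simp only [Prod.mk.injEq, Subtype.mk.injEq, decide_eq_decide] at h
  obtain ⟨h1, h2, h3⟩ := h
  have hl := congrArg List.length h1
  rw [List.length_take, List.length_take] at hl
  rcases Nat.lt_or_ge x.length (g.z + g.n) with hx | hx
  · left
    have hx' : x'.length < g.z + g.n := by omega
    rw [List.take_of_length_le hx.le, List.take_of_length_le hx'.le] at h1
    exact h1
  · right
    exact ⟨hx, by omega, h2, h3⟩

theorem finite_key [Finite α] : Finite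
    ({l : List α // l.length ≤ g.z + g.n} × {l : List α // l.length ≤ g.n} × Bool) := by
  have h1 : Finite {l : List α // l.length ≤ g.z + g.n} :=
    (List.finite_length_le α (g.z + g.n)).to_subtype
  have h2 : Finite {l : List α // l.length ≤ g.n} := (List.finite_length_le α g.n).to_subtype
  infer_instance

theorem reg_XX [Finite α] : Language.IsRegular ({X | g.XX X} : Language α) := by
  have := finite_key g
  refine isRegular_of_key _ (key g) ?_
  intro x x' h y
  rcases key_cases g h with rfl | ⟨h1, h2, h3, h4⟩
  · exact Iff.rfl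
  · show g.XX (x ++ y) ↔ g.XX (x' ++ y)
    unfold Geo.XX
    have e1 := seen_app g x y (by omega) (by omega) 0 (by omega)
    have e2 := seen_app g x' y (by omega) (by omega) 0 (by omega)
    rw [Nat.add_zero] at e1 e2
    rw [e1, e2, wo_app g x y (by omega), wo_app g x' y (by omega), h3, h4]
    have a1 : g.z ≤ (x ++ y).length := by rw [List.length_append]; omega
    have a2 : g.z ≤ (x' ++ y).length := by rw [List.length_append]; omega
    simp only [a1, a2, true_and]

theorem tail_iff (w : List α) : (∀ X, g.XX X → ¬ X <+: w) ↔
    ∀ t, g.z ≤ t → t < w.length + 1 → ¬ g.Wo (w.take t) := by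
  classical
  constructor
  · intro h t h1 h2 h3
    have hex : ∃ t, g.z ≤ t ∧ t < w.length + 1 ∧ g.Wo (w.take t) := ⟨t, h1, h2, h3⟩
    have hs := Nat.find_spec hex
    have hm : ∀ m, m < Nat.find hex → _ := fun m hm => Nat.find_min hex hm
    refine h (w.take (Nat.find hex)) ⟨?_, hs.2.2, ?_⟩ (List.take_prefix _ _)
    · rw [List.length_take]; omega
    · intro t ht htl hW
      rw [List.length_take] at htl
      rw [List.take_take, Nat.min_eq_left (by omega)] at hW
      exact hm t (by omega) ⟨ht, by omega, hW⟩
  · intro h X hX hp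
    have e := List.prefix_iff_eq_take.1 hp
    refine h X.length hX.1 (by have := hp.length_le; omega) ?_
    rw [← e]; exact hX.2.1

theorem reg_tail [Finite α] : Language.IsRegular ({w | ∀ X, g.XX X → ¬ X <+: w} : Language α) := by
  have := finite_key g
  refine isRegular_of_key _ (key g) ?_
  intro x x' h y
  rcases key_cases g h with rfl | ⟨h1, h2, h3, h4⟩
  · exact Iff.rfl
  · show (∀ X, g.XX X → ¬ X <+: x ++ y) ↔ (∀ X, g.XX X → ¬ X <+: x' ++ y)
    rw [tail_iff, tail_iff, seen_app g x y (by omega) (by omega) 1 le_rfl,
      seen_app g x' y (by omega) (by omega) 1 le_rfl, h3, h4]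

end reg

/-- regularity of the zone map -/
theorem reg_T [Finite α] {V S : Type*} [Monoid S] [Finite S] (f : α → S) (p0 La Pm : ℕ)
    (hP : 0 < Pm) (T : V → List α → V) (pre : List α → V → V) (act : V → S → V)
    [Add V] (nu : List α → V)
    (hT : ∀ v X, T v X = act (pre (X.take p0) v) ((X.drop p0).map f).prod + nu (X.drop p0))
    (hnu : ∀ q q' : List α, La ≤ q.length → La ≤ q'.length → q.take La = q'.take La →
      q.length % Pm = q'.length % Pm → (q.map f).prod = (q'.map f).prod → nu q = nu q') (x y : V) :
    Language.IsRegular ({X | T x X = y} : Language α) := by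
  refine isRegular_of_state f (p0 + La) Pm hP _ ?_
  intro q q' h1 h2 h3 h4 h5
  have e1 : q.take p0 = q'.take p0 := by
    have := congrArg (fun l => l.take p0) h3
    simpa [List.take_take] using this
  have e2 : (q.drop p0).take La = (q'.drop p0).take La := by
    have := congrArg (fun l => l.drop p0) h3
    simp only [List.drop_take, Nat.add_sub_cancel_left] at this
    exact this
  have e3 : ((q.drop p0).map f).prod = ((q'.drop p0).map f).prod := by
    have a : ∀ q : List α, ((q.drop p0).map f).prod =
        (((q.drop p0).take La).map f).prod * ((q.drop (p0 + La)).map f).prod := by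
      intro q
      rw [← List.prod_append, ← List.map_append, ← List.drop_drop, List.take_append_drop]
    rw [a q, a q', e2, h4]
  have e4 : (q.drop p0).length % Pm = (q'.drop p0).length % Pm := by
    rw [List.length_drop, List.length_drop]
    have : (q.length - p0 + p0) % Pm = (q'.length - p0 + p0) % Pm := by
      rw [Nat.sub_add_cancel (by omega), Nat.sub_add_cancel (by omega)]; exact h5
    exact Nat.ModEq.add_right_cancel' p0 this
  show T x q = y ↔ T x q' = y
  rw [hT, hT, e1, e3, hnu (q.drop p0) (q'.drop p0) (by rw [List.length_drop]; omega)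
    (by rw [List.length_drop]; omega) e2 e4 e3]

theorem reg_prod [Finite α] {S : Type*} [Monoid S] [Finite S] (f : α → S) (s : S) :
    Language.IsRegular ({w | (w.map f).prod = s} : Language α) := by
  refine isRegular_of_key _ (fun w => (w.map f).prod) ?_
  intro x x' h y
  show ((x ++ y).map f).prod = s ↔ ((x' ++ y).map f).prod = s
  have h' : (x.map f).prod = (x'.map f).prod := h
  rw [List.map_append, List.map_append, List.prod_append, List.prod_append, h']

end Crest.Agent.R320.NatReg_380
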