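import Crest.Agent.R320.CompR_11
import Crest.Agent.R320.RegBd_11
import Crest.Agent.R320.Reg_461

/-!
# Row 320: the natural block code of left-looking walls (helper105)

`XX Wo z` = words of length `≥ z` which end in a wall and have no wall at a place in `[z, |X|)`.
`XX` is a star-free prefix code; `XX ∩ L` and `{no prefix in XX} ∩ L` have height one for every
regular `L`, when wall-free words are bounded products of pieces `f ++ x ^ k`.
-/

set_option autoImplicit false

namespace Crest.Agent.R320.Nat_105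

open Crest.RegLang Crest.Agent.R320.Hk_851 Crest.Agent.R320.Pump_360 Crest.Agent.R320.RegBd_11
  Crest.Agent.R320.CompR_11

universe u

variable {α : Type u}

/-- left-looking walls on all words -/
structure Walls (Wo : List α → Prop) (n W R B : ℕ) : Prop where
  loc : ∀ P Q : List α, n ≤ Q.length → (Wo (P ++ Q) ↔ Wo Q)
  len : ∀ P : List α, Wo P → n ≤ P.length
  gap : ∀ (P : List α) (d : ℕ), Wo P → 0 < d → d ≤ W → ¬ Wo (P.take (P.length - d))
  free : ∀ u : List α, (∀ t < u.length, ¬ Wo (u.take t)) → Pieces R B u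

/-- natural block code -/
def XX (Wo : List α → Prop) (z : ℕ) : Language α :=
  {X | z ≤ X.length ∧ Wo X ∧ ∀ t, z ≤ t → t < X.length → ¬ Wo (X.take t)}

variable {Wo : List α → Prop} {n W R B z : ℕ}

theorem mem_XX {X : List α} : X ∈ XX Wo z ↔
    z ≤ X.length ∧ Wo X ∧ ∀ t, z ≤ t → t < X.length → ¬ Wo (X.take t) := Iff.rfl

/-- first block -/
theorem first_block {U : List α} {t0 : ℕ} (h1 : z ≤ t0) (h2 : t0 ≤ U.length)
    (h3 : Wo (U.take t0)) : ∃ t, z ≤ t ∧ t ≤ t0 ∧ U.take t ∈ XX Wo z := by
  classical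
  have hex : ∃ t, z ≤ t ∧ t ≤ t0 ∧ Wo (U.take t) := ⟨t0, h1, le_rfl, h3⟩
  refine ⟨Nat.find hex, (Nat.find_spec hex).1, (Nat.find_spec hex).2.1, ?_⟩
  have hs := Nat.find_spec hex
  have hl : (U.take (Nat.find hex)).length = Nat.find hex := by
    rw [List.length_take]; omega
  refine ⟨by rw [hl]; exact hs.1, hs.2.2, fun t ht1 ht2 ht3 => ?_⟩
  rw [hl] at ht2
  rw [List.take_take, Nat.min_eq_left ht2.le] at ht3
  exact Nat.find_min hex ht2 ⟨ht1, by omega, ht3⟩

theorem prefix_eq {X Y : List α} (hX : X ∈ XX Wo z) (hY : Y ∈ XX Wo z) (h : X <+: Y) :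
    X = Y := by
  by_contra hne
  have hlt : X.length < Y.length := by
    rcases lt_or_eq_of_le h.length_le with h1 | h1
    · exact h1
    · exact absurd (h.eq_of_length h1) hne
  have h1 : Y.take X.length = X := (List.prefix_iff_eq_take.1 h).symm
  exact hY.2.2 X.length hX.1 hlt (by rw [h1]; exact hX.2.1)

section hl
variable [Finite α]

theorem hl_Wo (hW : Walls Wo n W R B) : HL 0 ({X | Wo X} : Language α) := by
  have h1 : HL 0 ({w | w.length = n ∧ Wo w} : Language α) :=
    HL.finite ((List.finite_length_eq α n).subset fun w hw => hw.1)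
  refine ((HL.top (α := α) (k := 0)).mul h1).congr fun w => ?_
  constructor
  · intro hw
    change Wo w at hw
    have hn := hW.len w hw
    refine Language.mem_mul.2 ⟨w.take (w.length - n), trivial, w.drop (w.length - n), ⟨?_, ?_⟩,
      List.take_append_drop _ _⟩
    · rw [List.length_drop]; omega
    · have := hW.loc (w.take (w.length - n)) (w.drop (w.length - n))
        (by rw [List.length_drop]; omega)
      rw [List.take_append_drop] at this
      exact this.1 hw
  · intro hw
    obtain ⟨P, -, Q, ⟨hQ1, hQ2⟩, rfl⟩ := Language.mem_mul.1 hw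
    exact (hW.loc P Q hQ1.ge).2 hQ2

theorem hl_A (hW : Walls Wo n W R B) (z : ℕ) :
    HL 0 ({X | z ≤ X.length ∧ Wo X} : Language α) :=
  (HL.length_ge z).setOf_and (hl_Wo hW)

theorem hl_noXX (hW : Walls Wo n W R B) (z : ℕ) :
    HL 0 ({w | ∀ X ∈ XX Wo z, ¬ X <+: w} : Language α) := by
  refine ((hl_A hW z).prefix.compl).congr fun w => ?_
  constructor
  · rintro h ⟨v, ⟨hv1, hv2⟩, hv⟩
    have h1 : w.take v.length = v := (List.prefix_iff_eq_take.1 hv).symm
    obtain ⟨t, _, _, ht⟩ := first_block (Wo := Wo) hv1 hv.length_le (by rw [h1]; exact hv2)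
    exact h _ ht (List.take_prefix _ _)
  · intro h X hX hp
    exact h ⟨X, ⟨hX.1, hX.2.1⟩, hp⟩

theorem hl_XX (hW : Walls Wo n W R B) (z : ℕ) : HL 0 (XX Wo z) := by
  have h1 := (hl_A hW z).mul (HL.length_ge (α := α) (k := 0) 1)
  refine ((hl_A hW z).sdiff h1).congr fun w => ?_
  constructor
  · rintro ⟨h2, h3, h4⟩
    refine ⟨⟨h2, h3⟩, fun hm => ?_⟩
    obtain ⟨P, ⟨hP1, hP2⟩, Q, hQ, rfl⟩ := Language.mem_mul.1 hm
    change 1 ≤ Q.length at hQ
    refine h4 P.length hP1 (by rw [List.length_append]; omega) ?_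
    rw [List.take_left']
    · exact hP2
    · rfl
  · rintro ⟨⟨h2, h3⟩, h4⟩
    refine ⟨h2, h3, fun t ht1 ht2 ht3 => h4 ?_⟩
    refine Language.mem_mul.2 ⟨w.take t, ⟨?_, ht3⟩, w.drop t, ?_, List.take_append_drop _ _⟩
    · rw [List.length_take]; omega
    · change 1 ≤ (w.drop t).length
      rw [List.length_drop]; omega

omit [Finite α] in
theorem pieces_of_drop (hW : Walls Wo n W R B) {w : List α}
    (h : ∀ t < (w.drop z).length, ¬ Wo ((w.drop z).take t)) : Pieces (R + 1) (max B z) w := by
  obtain ⟨l, h1, h2, h3⟩ := hW.free _ h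
  refine ⟨(w.take z, [], 0) :: l, by rw [List.length_cons]; omega, ?_, ?_⟩
  · intro t ht
    rcases List.mem_cons.1 ht with rfl | ht
    · refine ⟨?_, by simp⟩
      change (w.take z).length ≤ _
      rw [List.length_take]; omega
    · have := h2 t ht
      omega
  · rw [val_cons, ← h3]
    simp [pw]

omit [Finite α] in
theorem drop_take_wall (hW : Walls Wo n W R B) {w : List α} {t : ℕ} (ht : t < (w.drop z).length)
    (h : Wo ((w.drop z).take t)) : Wo (w.take (z + t)) := by
  have e : w.take (z + t) = w.take z ++ (w.drop z).take t := List.take_add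
  rw [e]
  exact (hW.loc _ _ (hW.len _ h)).2 h

/-- **blocks in a regular language have height one** -/
theorem hl_block (hW : Walls Wo n W R B) {L : Language α} (hL : L.IsRegular) :
    HL 1 ({X | X ∈ XX Wo z ∧ X ∈ L} : Language α) := by
  have hr : Language.IsRegular (XX Wo z ⊓ L) := (FO_461.HL.isRegular (hl_XX hW z)).inf hL
  refine (reg_pieces hr (R + 1) (max B z) ?_).congr fun w => Iff.rfl
  rintro w ⟨hw, -⟩
  refine pieces_of_drop hW (z := z) fun t ht h => ?_
  have h1 := drop_take_wall hW ht h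
  rw [List.length_drop] at ht
  exact hw.2.2 (z + t) (by omega) (by omega) h1

/-- **tails in a regular language have height one** -/
theorem hl_tail (hW : Walls Wo n W R B) {L : Language α} (hL : L.IsRegular) :
    HL 1 ({X | (∀ Y ∈ XX Wo z, ¬ Y <+: X) ∧ X ∈ L} : Language α) := by
  have hr : Language.IsRegular (({w | ∀ Y ∈ XX Wo z, ¬ Y <+: w} : Language α) ⊓ L) :=
    (FO_461.HL.isRegular (hl_noXX hW z)).inf hL
  refine (reg_pieces hr (R + 1) (max B z) ?_).congr fun w => Iff.rfl
  rintro w ⟨hw, -⟩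
  refine pieces_of_drop hW (z := z) fun t ht h => ?_
  have h1 := drop_take_wall hW ht h
  rw [List.length_drop] at ht
  obtain ⟨t', _, _, ht'⟩ := first_block (Wo := Wo) (z := z) (U := w) (t0 := z + t) (by omega)
    (by omega) h1
  exact hw _ ht' (List.take_prefix _ _)

end hl

theorem reg_iUnion {ι : Type*} [Finite ι] {L : ι → Language α} (h : ∀ i, (L i).IsRegular) :
    Language.IsRegular ({w | ∃ i, w ∈ L i} : Language α) := by
  apply Language.IsRegular.of_finite_range_leftQuotient
  have hfin : (Set.univ.pi fun i => Set.range (L i).leftQuotient).Finite :=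
    Set.Finite.pi fun i => (h i).finite_range_leftQuotient
  let F : (ι → Language α) → Language α := fun f => {y | ∃ i, y ∈ f i}
  refine (hfin.image F).subset ?_
  rintro _ ⟨x, rfl⟩
  refine ⟨fun i => (L i).leftQuotient x, fun i _ => ⟨x, rfl⟩, ?_⟩
  ext y
  constructor
  · rintro ⟨i, hi⟩; exact ⟨i, hi⟩
  · rintro ⟨i, hi⟩; exact ⟨i, hi⟩

theorem reg_phi [Finite α] {S : Type*} [Monoid S] [Finite S] (φ : List α → S) (hφ0 : φ [] = 1)
    (hφ : ∀ u v, φ (u ++ v) = φ u * φ v) (s : S) :
    Language.IsRegular ({w | φ w = s} : Language α) := by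
  apply Language.IsRegular.of_finite_range_leftQuotient
  let f : S → Language α := fun g => {y | g * φ y = s}
  refine ((Set.finite_univ (α := S)).image f).subset ?_
  rintro _ ⟨x, rfl⟩
  refine ⟨φ x, trivial, ?_⟩
  ext y
  change φ x * φ y = s ↔ φ (x ++ y) = s
  rw [hφ]

end Crest.Agent.R320.Nat_105
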