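import Crest.Agent.R320.Block_467

/-!
Row 320 (helper42): NATURAL CHAIN GLUE.  Left-looking walls, blocks = first wall at a place `≥ z`
(818 in the block form of 467), scheme 1 = any gadget with unknown total (693), exact and complete
off a thin set of lengths, scheme 2 = promise ruler (exact gadget of 237 on words of length `p0`).
Output: `s1`, `c1`, `s2`, `c2` in the form of 467's `top5` / 163's `top`.
-/

set_option autoImplicit false
set_option linter.unusedSectionVars false

namespace Crest.Agent.R320.Nat_42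

open Crest.Agent.R320.Blk467

variable {α S V : Type*}

/-- the data -/
structure Dat (α S V : Type*) where
  φ : List α → S
  act : V → S → V
  W : List α → Prop
  n : ℕ
  z : ℕ
  p0 : ℕ
  N1 : ℕ
  T0 : ℕ
  lam1 : List α → Option V
  rho1 : List α → Option V
  nu1 : List α → V
  BadT : ℕ → Prop
  K : ℕ
  c : ℕ → ℕ
  L : ℕ
  gap : ℕ
  lam2 : ℕ → List α → Option V
  rho2 : ℕ → List α → Option V
  nu2 : List α → V

namespace Dat

variable [AddCommGroup V] (D : Dat α S V)

/-- blocks -/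
def XX : Set (List α) :=
  {X | D.z ≤ X.length ∧ D.W X ∧ ∀ t < X.length, D.z ≤ t → ¬ D.W (X.take t)}

/-- the part of the block map which belongs to `Y` -/
def TY (v : V) (Y : List α) : V := D.act v (D.φ Y) + D.nu1 Y

/-- the block map -/
def T (v : V) (X : List α) : V :=
  D.TY (D.act v (D.φ (X.take D.p0)) + D.nu2 (X.take D.p0)) (X.drop D.p0)

/-- a wall near the end band -/
def E (X : List α) : Prop :=
  ∃ t ≤ X.length, D.W (X.take t) ∧ D.z ≤ t + D.N1 ∧ t < D.z + D.N1

/-- blocks which scheme 1 may leave uncut -/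
def Bad : Set (List α) := {X | X ∈ D.XX ∧ (D.E X ∨ D.BadT (X.length - D.p0))}

def LP1 (v : V) : Language α :=
  {P | D.p0 ≤ P.length ∧ P.length ≤ D.p0 + D.N1 ∧
    D.lam1 (P.drop D.p0) = some (D.act v (D.φ (P.take D.p0)) + D.nu2 (P.take D.p0))}

def RQ1 (b : V) : Language α :=
  {Q | D.z ≤ Q.length + D.p0 ∧ D.W Q ∧
    (∀ y < Q.length, D.z ≤ y + D.p0 + D.N1 → ¬ D.W (Q.take y)) ∧ D.rho1 Q = some b}

/-- first wall for the candidate `k` -/
def Fst (k : ℕ) (Q : List α) (y : ℕ) : Prop :=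
  D.z ≤ y + D.c k ∧ y ≤ Q.length ∧ D.W (Q.take y) ∧
    ∀ y' < y, D.z ≤ y' + D.c k → ¬ D.W (Q.take y')

/-- the candidate `k` sees a bad block -/
def BadK (k : ℕ) (Q : List α) : Prop :=
  ∃ y, D.Fst k Q y ∧ ((∃ t ≤ Q.length, D.W (Q.take t) ∧ D.z ≤ t + D.c k + D.N1 ∧
    t + D.c k < D.z + D.N1) ∨ D.BadT (y + D.c k - D.p0))

def LP2 (v : V) : Language α := {P | ∃ k < D.K, P.length = D.c k ∧ D.lam2 k P = some v}

def RQ2 (b : V) : Language α :=
  {Q | ∃ k < D.K, (∀ k' < D.K, k' ≠ k → ¬ D.BadK k' Q) ∧ ∃ Q1 X2, Q = Q1 ++ X2 ∧ X2 ∈ D.XX ∧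
    D.Fst k Q Q1.length ∧ ∃ r, D.rho2 k (Q1.take (D.p0 - D.c k)) = some r ∧
      D.T (D.TY r (Q1.drop (D.p0 - D.c k))) X2 = b}

end Dat

/-- the hypotheses -/
structure Ok [Monoid S] [AddCommGroup V] (D : Dat α S V) (K0 : ℕ) : Prop where
  Wloc : ∀ P Q, D.n ≤ Q.length → (D.W (P ++ Q) ↔ D.W Q)
  Wgap : ∀ P Q, D.W P → D.W (P ++ Q) → Q ≠ [] → D.gap < Q.length
  hgap : 2 * (D.L + D.N1) ≤ D.gap
  hz : D.p0 + D.N1 + D.n + 2 * D.L + D.T0 + 1 ≤ D.z
  hc : ∀ k < D.K, D.c k ≤ D.L
  hL : D.L < D.p0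
  ex1 : ∀ P Q v b, D.lam1 P = some v → D.rho1 Q = some b →
    b = D.act v (D.φ (P ++ Q)) + D.nu1 (P ++ Q)
  cp1 : ∀ Y, D.T0 ≤ Y.length → ¬ D.BadT Y.length → ∀ v, ∃ P Q, P ++ Q = Y ∧ P.length ≤ D.N1 ∧
    D.lam1 P = some v ∧ ∃ b, D.rho1 Q = some b
  ex2 : ∀ k < D.K, ∀ P Q v b, P.length = D.c k → (P ++ Q).length = D.p0 → D.lam2 k P = some v →
    D.rho2 k Q = some b → b = D.act v (D.φ (P ++ Q)) + D.nu2 (P ++ Q)
  cp2 : ∀ X : List α, X.length = D.p0 → ∀ v, ∃ I : Finset ℕ, 1 + 3 * K0 < I.card ∧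
    ∀ k ∈ I, k < D.K ∧ D.lam2 k (X.take (D.c k)) = some v ∧
      (D.rho2 k (X.drop (D.c k))).isSome
  golomb : ∀ k < D.K, ∀ k' < D.K, ∀ j < D.K, ∀ j' < D.K, k ≠ k' → j ≠ j' →
    D.c k + D.c j' < D.c k' + D.c j + 2 * D.N1 + 1 →
    D.c k' + D.c j < D.c k + D.c j' + 2 * D.N1 + 1 → k = j
  thin : ∀ T, ∃ B : Finset ℕ, B.card ≤ K0 ∧ ∀ k < D.K, ∀ k' < D.K, k' ≠ k → D.L ≤ T →
    D.BadT (T + D.c k' - D.c k) → k ∈ B

variable [Monoid S] [AddCommGroup V] {D : Dat α S V} {K0 : ℕ}

theorem take_app {P Q : List α} {t : ℕ} (h : P.length ≤ t) :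
    (P ++ Q).take t = P ++ Q.take (t - P.length) := by
  rw [List.take_append, List.take_of_length_le h]

theorem wall_app (h : Ok D K0) {P Q : List α} {t : ℕ} (h1 : P.length + D.n ≤ t)
    (h2 : t ≤ P.length + Q.length) :
    D.W ((P ++ Q).take t) ↔ D.W (Q.take (t - P.length)) := by
  rw [take_app (by omega)]
  exact h.Wloc _ _ (by rw [List.length_take]; omega)

theorem pcode (h : Ok D K0) : PCode D.XX := by
  refine ⟨fun h0 => ?_, fun X hX Y hY hp => ?_⟩
  · have h1 := h0.1
    have h2 := h.hz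
    simp only [List.length_nil] at h1
    omega
  · obtain ⟨R, rfl⟩ := hp
    by_contra hne
    have hR : R ≠ [] := fun h0 => hne (by simp [h0])
    have hR' := List.length_pos_iff.2 hR
    have := hY.2.2 X.length (by rw [List.length_append]; omega) hX.1
    rw [List.take_left] at this
    exact this hX.2.1

theorem comparable {C : Set (List α)} (hC : PCode C) {X Y w : List α} (hX : X ∈ C) (hY : Y ∈ C)
    (h1 : X <+: w) (h2 : Y <+: w) : X = Y := by
  rcases List.prefix_or_prefix_of_prefix h1 h2 with h | h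
  · exact hC.2 X hX Y hY h
  · exact (hC.2 Y hY X hX h).symm

/-- **scheme 1 is sound on every text** -/
theorem s1 (h : Ok D K0) {v b : V} {P Q : List α} (hP : P ∈ D.LP1 v) (hQ : Q ∈ D.RQ1 b) :
    P ++ Q ∈ D.XX ∧ D.T v (P ++ Q) = b := by
  obtain ⟨p1, p2, p3⟩ := hP
  obtain ⟨q1, q2, q3, q4⟩ := hQ
  have hz := h.hz
  refine ⟨⟨by rw [List.length_append]; omega, (h.Wloc _ _ (by omega)).2 q2, ?_⟩, ?_⟩
  · intro t ht hzt hW
    rw [List.length_append] at ht
    rw [wall_app h (by omega) (by omega)] at hW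
    exact q3 (t - P.length) (by omega) (by omega) hW
  · unfold Dat.T Dat.TY
    rw [List.take_append_of_le_length p1, List.drop_append_of_le_length p1]
    exact (h.ex1 _ _ _ _ p3 q4).symm

/-- **scheme 1 is complete outside the bad blocks** -/
theorem c1 (h : Ok D K0) {X : List α} (hX : X ∈ D.XX) (hb : X ∉ D.Bad) (v : V) :
    ∃ P Q, P ++ Q = X ∧ P ∈ D.LP1 v ∧ Q ∈ D.RQ1 (D.T v X) := by
  have hz := h.hz
  have hE : ¬ D.E X := fun hE => hb ⟨hX, Or.inl hE⟩
  have hB : ¬ D.BadT (X.length - D.p0) := fun hB => hb ⟨hX, Or.inr hB⟩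
  have hlen : D.z + D.N1 ≤ X.length := by
    by_contra hlt
    exact hE ⟨X.length, le_rfl, by rw [List.take_length]; exact hX.2.1, by have := hX.1; omega,
      by omega⟩
  have hYl : (X.drop D.p0).length = X.length - D.p0 := List.length_drop
  obtain ⟨P', Q, hPQ, hPl, hl, b, hr⟩ := h.cp1 (X.drop D.p0) (by rw [hYl]; omega)
    (by rw [hYl]; exact hB) (D.act v (D.φ (X.take D.p0)) + D.nu2 (X.take D.p0))
  have hX0 : (X.take D.p0).length = D.p0 := by rw [List.length_take]; omega
  have hcat : (X.take D.p0 ++ P') ++ Q = X := by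
    rw [List.append_assoc, hPQ, List.take_append_drop]
  have hXl : D.p0 + P'.length + Q.length = X.length := by
    rw [← hcat]; simp only [List.length_append, hX0]
  have hP : X.take D.p0 ++ P' ∈ D.LP1 v := by
    refine ⟨by rw [List.length_append, hX0]; omega, by rw [List.length_append, hX0]; omega, ?_⟩
    rw [List.take_append_of_le_length hX0.ge, List.drop_append_of_le_length hX0.ge,
      List.take_take, min_self, List.drop_eq_nil_of_le hX0.le, List.nil_append]
    exact hl
  have hQ : Q ∈ D.RQ1 b := by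
    refine ⟨by omega, ?_, ?_, hr⟩
    · have := hX.2.1
      rw [← hcat] at this
      exact (h.Wloc _ _ (by omega)).1 this
    · intro y hy hzy hW
      have h1 : D.W (X.take (D.p0 + P'.length + y)) := by
        rw [← hcat, wall_app h (by rw [List.length_append, hX0]; omega)
          (by rw [List.length_append, hX0]; omega)]
        have : D.p0 + P'.length + y - (X.take D.p0 ++ P').length = y := by
          rw [List.length_append, hX0]; omega
        rw [this]; exact hW
      rcases le_or_gt D.z (D.p0 + P'.length + y) with h2 | h2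
      · exact hX.2.2 _ (by omega) h2 h1
      · exact hE ⟨_, by omega, h1, by omega, by omega⟩
  have := (s1 h hP hQ).2
  rw [hcat] at this
  exact ⟨_, Q, hcat, hP, by rw [this]; exact hQ⟩


theorem fst_unique {k : ℕ} {Q : List α} {y y' : ℕ} (h1 : D.Fst k Q y) (h2 : D.Fst k Q y') :
    y = y' := by
  rcases lt_trichotomy y y' with h | h | h
  · exact absurd h1.2.2.1 (h2.2.2.2 y h h1.1)
  · exact h
  · exact absurd h2.2.2.1 (h1.2.2.2 y' h h2.1)

theorem fst_of_block (h : Ok D K0) {k : ℕ} (hk : k < D.K) {X P Q : List α} (hX : X ∈ D.XX)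
    (hP : P.length = D.c k) (hp : X <+: P ++ Q) :
    D.Fst k Q (X.length - D.c k) ∧ X = P ++ Q.take (X.length - D.c k) := by
  have hz := h.hz
  have hc := h.hc k hk
  have hX1 := hX.1
  have hl := hp.length_le
  rw [List.length_append] at hl
  have hXe : X = (P ++ Q).take X.length := List.prefix_iff_eq_take.1 hp
  refine ⟨⟨by omega, by omega, ?_, ?_⟩, ?_⟩
  · have h1 := hX.2.1
    rw [hXe, wall_app h (by omega) (by omega), hP] at h1
    exact h1
  · intro y' hy' hzy hW
    have h1 : D.W ((P ++ Q).take (P.length + y')) := by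
      rw [wall_app h (by omega) (by omega), Nat.add_sub_cancel_left]; exact hW
    have h2 : X.take (P.length + y') = (P ++ Q).take (P.length + y') := by
      conv_lhs => rw [hXe]
      rw [List.take_take, min_eq_left (by omega)]
    exact hX.2.2 (P.length + y') (by omega) (by omega) (by rw [h2]; exact h1)
  · conv_lhs => rw [hXe]
    rw [take_app (by omega), hP]

/-- the block at the beginning of a text with an end wall -/
theorem exists_block {U : List α} (h1 : D.z ≤ U.length) (h2 : D.W U) :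
    ∃ X, X ∈ D.XX ∧ X <+: U := by
  classical
  have hex : ∃ t, D.z ≤ t ∧ t ≤ U.length ∧ D.W (U.take t) :=
    ⟨U.length, h1, le_rfl, by rw [List.take_length]; exact h2⟩
  obtain ⟨a, b, c⟩ := Nat.find_spec hex
  have hl : (U.take (Nat.find hex)).length = Nat.find hex := by rw [List.length_take]; omega
  refine ⟨U.take (Nat.find hex), ⟨by rw [hl]; exact a, c, ?_⟩, List.take_prefix _ _⟩
  intro t ht hzt hW
  rw [hl] at ht
  rw [List.take_take, min_eq_left ht.le] at hW
  exact Nat.find_min hex ht ⟨hzt, by omega, hW⟩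

/-- **scheme 2 is sound on the promise** -/
theorem s2core (h : Ok D K0) {v b : V} {P Q : List α} (hP : P ∈ D.LP2 v) (hQ : Q ∈ D.RQ2 b)
    (hbad : ∀ X ∈ D.XX, X <+: P ++ Q → X ∈ D.Bad) :
    ∃ Q1 X2, Q = Q1 ++ X2 ∧ Q1 ≠ [] ∧ P ++ Q1 ∈ D.Bad ∧ X2 ∈ D.XX ∧
      D.T (D.T v (P ++ Q1)) X2 = b := by
  obtain ⟨j, hj, hPl, hl⟩ := hP
  obtain ⟨k, hk, huniq, Q1, X2, rfl, hX2, hF, r, hr, hb⟩ := hQ
  have hz := h.hz
  have hcj := h.hc j hj
  have hL := h.hL
  have hU1 : D.z ≤ (P ++ (Q1 ++ X2)).length := by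
    have := hX2.1; simp only [List.length_append]; omega
  have hU2 : D.W (P ++ (Q1 ++ X2)) := by
    rw [← List.append_assoc]
    exact (h.Wloc _ _ (by have := hX2.1; omega)).2 hX2.2.1
  obtain ⟨X, hX, hXp⟩ := exists_block hU1 hU2
  have hXb := hbad X hX hXp
  obtain ⟨hFj, hXe⟩ := fst_of_block h hj hX hPl hXp
  have hXt : ∀ t, t ≤ X.length → X.take t = (P ++ (Q1 ++ X2)).take t := by
    intro t ht
    conv_lhs => rw [List.prefix_iff_eq_take.1 hXp]
    rw [List.take_take, min_eq_left ht]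
  have hlen := hXp.length_le
  rw [List.length_append] at hlen
  have hBK : D.BadK j (Q1 ++ X2) := by
    refine ⟨_, hFj, ?_⟩
    rcases hXb.2 with ⟨t, ht, hW, ha, hb'⟩ | hB
    · left
      refine ⟨t - D.c j, by omega, ?_, by omega, by omega⟩
      rw [hXt t ht, wall_app h (by omega) (by omega), hPl] at hW
      exact hW
    · right
      have : X.length - D.c j + D.c j = X.length := by have := hX.1; omega
      rw [this]; exact hB
  have hjk : j = k := by
    by_contra hne
    exact huniq j hj hne hBK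
  subst hjk
  have hy := fst_unique hF hFj
  have hXQ : X = P ++ Q1 := by
    rw [hXe, ← hy, List.take_left]
  have hQ1l : D.z ≤ Q1.length + D.c j := hF.1
  refine ⟨Q1, X2, rfl, ?_, hXQ ▸ hXb, hX2, ?_⟩
  · intro h0; rw [h0] at hQ1l; simp only [List.length_nil] at hQ1l; omega
  · rw [← hb]
    congr 1
    have e1 : (P ++ Q1).take D.p0 = P ++ Q1.take (D.p0 - D.c j) := by
      rw [take_app (by omega), hPl]
    have e2 : (P ++ Q1).drop D.p0 = Q1.drop (D.p0 - D.c j) := by
      rw [List.drop_append, List.drop_eq_nil_of_le (by omega), List.nil_append, hPl]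
    have e3 := h.ex2 j hj P (Q1.take (D.p0 - D.c j)) v r hPl
      (by rw [List.length_append, List.length_take]; omega) hl hr
    show D.TY (D.act v (D.φ ((P ++ Q1).take D.p0)) + D.nu2 ((P ++ Q1).take D.p0))
      ((P ++ Q1).drop D.p0) = _
    rw [e1, e2, ← e3]

/-- the form of 467's `top5` -/
theorem s2 (h : Ok D K0) (v b : V) (P Q r : List α) (hP : P ∈ D.LP2 v) (hQ : Q ∈ D.RQ2 b)
    (hS : P ++ Q ++ r ∈ Str D.Bad) : P ++ Q ∈ Lg D.Bad D.T v b := by
  have hC := pcode h
  have hBX : ∀ X ∈ D.Bad, X ∈ D.XX := fun X hX => hX.1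
  obtain ⟨l, hl, hfl⟩ := hS
  have hbad : ∀ X ∈ D.XX, X <+: P ++ Q → X ∈ D.Bad := by
    intro X hX hp
    cases l with
    | nil =>
      exfalso
      have h1 : P ++ Q ++ r = [] := by rw [← hfl]; rfl
      have h2 := (List.append_eq_nil_iff.1 h1).1
      rw [h2, List.prefix_nil] at hp
      exact hC.1 (hp ▸ hX)
    | cons X0 l' =>
      have h0 : X0 ∈ D.Bad := hl X0 (by simp)
      have : X = X0 := comparable hC hX (hBX _ h0) (hp.trans ⟨r, rfl⟩)
        ⟨l'.flatten, by rw [← hfl]; rfl⟩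
      rw [this]; exact h0
  obtain ⟨Q1, X2, rfl, -, hb1, hX2, hT⟩ := s2core h hP hQ hbad
  -- the second block is bad
  have hX2b : X2 ∈ D.Bad := by
    cases l with
    | nil =>
      exfalso
      have h1 : P ++ (Q1 ++ X2) ++ r = [] := by rw [← hfl]; rfl
      have h2 := (List.append_eq_nil_iff.1 (List.append_eq_nil_iff.1
        (List.append_eq_nil_iff.1 h1).1).2).2
      exact hC.1 (h2 ▸ hX2)
    | cons X0 l' =>
      have h0 : X0 ∈ D.Bad := hl X0 (by simp)
      have e : P ++ Q1 = X0 := comparable (w := P ++ (Q1 ++ X2) ++ r) hC (hBX _ hb1) (hBX _ h0)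
        ⟨X2 ++ r, by simp [List.append_assoc]⟩ ⟨l'.flatten, by rw [← hfl]; rfl⟩
      have e2 : X2 ++ r = l'.flatten := by
        have h1 : X0 ++ l'.flatten = X0 ++ (X2 ++ r) := by
          rw [← e]
          have h3 : (X0 :: l').flatten = P ++ (Q1 ++ X2) ++ r := hfl
          rw [List.flatten_cons, ← e] at h3
          rw [h3]; simp [List.append_assoc]
        exact (List.append_cancel_left h1).symm
      cases l' with
      | nil =>
        exfalso
        have h2 := (List.append_eq_nil_iff.1 (show X2 ++ r = [] by rw [e2]; rfl)).1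
        exact hC.1 (h2 ▸ hX2)
      | cons X1 l'' =>
        have h1 : X1 ∈ D.Bad := hl X1 (by simp)
        have : X2 = X1 := comparable hC hX2 (hBX _ h1) ⟨r, rfl⟩
          ⟨l''.flatten, by rw [e2]; rfl⟩
        rw [this]; exact h1
  refine ⟨[P ++ Q1, X2], ?_, by simp [List.append_assoc], hT⟩
  intro X hX
  rcases List.mem_cons.1 hX with rfl | hX
  · exact hb1
  · rw [List.mem_singleton] at hX; rw [hX]; exact hX2b


theorem wall_gap (h : Ok D K0) {U : List α} {t s : ℕ} (ht : D.W (U.take t)) (hs : D.W (U.take s))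
    (hts : t < s) (hsU : s ≤ U.length) : D.gap < s - t := by
  have e : U.take s = U.take t ++ (U.drop t).take (s - t) := by
    obtain ⟨d, rfl⟩ := Nat.exists_eq_add_of_le hts.le
    rw [List.take_add, Nat.add_sub_cancel_left]
  have hl : ((U.drop t).take (s - t)).length = s - t := by
    rw [List.length_take, List.length_drop]; omega
  rw [e] at hs
  have := h.Wgap _ _ ht hs (by intro h0; rw [h0] at hl; simp only [List.length_nil] at hl; omega)
  omega


/-- two walls near the end band are equal -/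
theorem wall_near (h : Ok D K0) {U : List α} {t s : ℕ} (ht : D.W (U.take t))
    (hs : D.W (U.take s)) (htU : t ≤ U.length) (hsU : s ≤ U.length)
    (h1 : t < s + 2 * (D.L + D.N1) + 1) (h2 : s < t + 2 * (D.L + D.N1) + 1) : t = s := by
  have hg := h.hgap
  rcases lt_trichotomy t s with h3 | h3 | h3
  · have := wall_gap h ht hs h3 hsU; omega
  · exact h3
  · have := wall_gap h hs ht h3 htU; omega

/-- few spoiled candidates -/
theorem spoiled (h : Ok D K0) {X X' : List α} (hX : X ∈ D.XX) (hX' : X' ∈ D.XX) :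
    ∃ B : Finset ℕ, B.card ≤ 1 + 3 * K0 ∧ ∀ k < D.K, k ∉ B → ∀ k' < D.K, k' ≠ k →
      ¬ D.BadK k' (X.drop (D.c k) ++ X') := by
  classical
  have hz := h.hz
  have hL := h.hL
  set U := X ++ X' with hU
  have hUl : U.length = X.length + X'.length := List.length_append
  have hXz := hX.1
  have hX'z := hX'.1
  -- walls of the right words
  have key : ∀ k < D.K, ∀ y, D.n ≤ y → y ≤ (X.drop (D.c k) ++ X').length →
      (D.W ((X.drop (D.c k) ++ X').take y) ↔ D.W (U.take (D.c k + y))) := by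
    intro k hk y hy hyl
    have hc := h.hc k hk
    have e : U = X.take (D.c k) ++ (X.drop (D.c k) ++ X') := by
      rw [hU, ← List.append_assoc, List.take_append_drop]
    have hl : (X.take (D.c k)).length = D.c k := by rw [List.length_take]; omega
    have h1 := wall_app h (P := X.take (D.c k)) (Q := X.drop (D.c k) ++ X') (t := D.c k + y)
      (by omega) (by omega)
    rw [hl, Nat.add_sub_cancel_left] at h1
    rw [e]; exact h1.symm
  have hlen : ∀ k < D.K, (X.drop (D.c k) ++ X').length + D.c k = U.length := by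
    intro k hk
    have hc := h.hc k hk
    rw [List.length_append, List.length_drop]; omega
  -- no wall of `U` in `[z, |X|)`
  have hno : ∀ t, D.z ≤ t → t < X.length → ¬ D.W (U.take t) := by
    intro t h1 h2 h3
    rw [hU, List.take_append_of_le_length h2.le] at h3
    exact hX.2.2 t h2 h1 h3
  have hWX : D.W (U.take X.length) := by rw [hU, List.take_left]; exact hX.2.1
  -- the E part
  let PE : ℕ → Prop := fun k => k < D.K ∧ ∃ k' < D.K, k' ≠ k ∧ ∃ t ≤ U.length, D.W (U.take t) ∧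
    D.z + D.c k ≤ t + D.c k' + D.N1 ∧ t + D.c k' < D.z + D.N1 + D.c k
  have hPE : ∀ k j, PE k → PE j → k = j := by
    rintro k j ⟨hk, k', hk', hne, t, ht, hW, a1, a2⟩ ⟨hj, j', hj', hne', s, hs, hWs, b1, b2⟩
    have c1 := h.hc k hk
    have c2 := h.hc k' hk'
    have c3 := h.hc j hj
    have c4 := h.hc j' hj'
    have hts : t = s := wall_near h hW hWs ht hs (by omega) (by omega)
    subst hts
    exact h.golomb k hk k' hk' j hj j' hj' hne.symm hne'.symm (by omega) (by omega)
  have hBE : ∃ BE : Finset ℕ, BE.card ≤ 1 ∧ ∀ k, PE k → k ∈ BE := by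
    by_cases hex : ∃ k, PE k
    · obtain ⟨k, hk⟩ := hex
      exact ⟨{k}, by simp, fun j hj => by simp [hPE j k hj hk]⟩
    · exact ⟨∅, by simp, fun k hk => absurd ⟨k, hk⟩ hex⟩
  obtain ⟨BE, hBEc, hBE⟩ := hBE
  -- the three possible ends
  have hB1 : ∃ B1 : Finset ℕ, B1.card ≤ K0 ∧ ∀ t, t ≤ U.length → D.W (U.take t) → t < D.z →
      D.z ≤ t + D.L → ∀ k < D.K, ∀ k' < D.K, k' ≠ k →
      D.BadT (t - D.p0 + D.c k' - D.c k) → k ∈ B1 := by
    by_cases hex : ∃ t, t ≤ U.length ∧ D.W (U.take t) ∧ t < D.z ∧ D.z ≤ t + D.L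
    · obtain ⟨t, h1, h2, h3, h4⟩ := hex
      obtain ⟨B, hB, hB'⟩ := h.thin (t - D.p0)
      refine ⟨B, hB, ?_⟩
      intro s g1 g2 g3 g4 k hk k' hk' hne hbad
      have : s = t := wall_near h g2 h2 g1 h1 (by omega) (by omega)
      subst this
      exact hB' k hk k' hk' hne (by omega) hbad
    · exact ⟨∅, by simp, fun t h1 h2 h3 h4 => absurd ⟨t, h1, h2, h3, h4⟩ hex⟩
  obtain ⟨B1, hB1c, hB1⟩ := hB1
  obtain ⟨B2, hB2c, hB2⟩ := h.thin (X.length - D.p0)
  have hex : ∃ t, X.length < t ∧ t ≤ U.length ∧ D.W (U.take t) := by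
    refine ⟨U.length, by omega, le_rfl, ?_⟩
    rw [List.take_length, hU]
    exact (h.Wloc _ _ (by omega)).2 hX'.2.1
  obtain ⟨hf1, hf2, hf3⟩ := Nat.find_spec hex
  set τ := Nat.find hex with hτ
  obtain ⟨B3, hB3c, hB3⟩ := h.thin (τ - D.p0)
  refine ⟨BE ∪ (B1 ∪ (B2 ∪ B3)), ?_, ?_⟩
  · have e1 := Finset.card_union_le BE (B1 ∪ (B2 ∪ B3))
    have e2 := Finset.card_union_le B1 (B2 ∪ B3)
    have e3 := Finset.card_union_le B2 B3
    omega
  · intro k hk hkB k' hk' hne hbad
    simp only [Finset.mem_union, not_or] at hkB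
    obtain ⟨n1, n2, n3, n4⟩ := hkB
    have ck := h.hc k hk
    have ck' := h.hc k' hk'
    have hlk := hlen k hk
    obtain ⟨y, ⟨f1, f2, f3, f4⟩, hb⟩ := hbad
    rcases hb with ⟨t, ht, hW, a1, a2⟩ | hb
    · refine n1 (hBE k ⟨hk, k', hk', hne, D.c k + t, by omega, ?_, by omega, by omega⟩)
      exact (key k hk t (by omega) ht).1 hW
    · have hWy : D.W (U.take (D.c k + y)) := (key k hk y (by omega) f2).1 f3
      have hmin : ∀ t, t < D.c k + y → D.z + D.c k ≤ t + D.c k' → ¬ D.W (U.take t) := by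
        intro t h1 h2 h3
        have e : t = D.c k + (t - D.c k) := by omega
        rw [e, ← key k hk (t - D.c k) (by omega) (by omega)] at h3
        exact f4 (t - D.c k) (by omega) (by omega) h3
      have eb : ∀ t, t = D.c k + y → t - D.p0 + D.c k' - D.c k = y + D.c k' - D.p0 := by
        intro t ht; omega
      rcases lt_or_ge (D.c k + y) D.z with h1 | h1
      · exact n2 (hB1 (D.c k + y) (by omega) hWy h1 (by omega) k hk k' hk' hne
          (by rw [eb _ rfl]; exact hb))
      · have h2 : X.length ≤ D.c k + y := by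
          by_contra hlt
          exact hno _ h1 (by omega) hWy
        rcases h2.eq_or_lt with h3 | h3
        · exact n3 (hB2 k hk k' hk' hne (by omega) (by rw [eb _ h3]; exact hb))
        · -- then it is the next wall
          have h4 : X.length + D.c k' < D.z + D.c k := by
            by_contra hge
            exact hmin X.length h3 (by omega) hWX
          have h5 : τ = D.c k + y := by
            have g1 : τ ≤ D.c k + y := Nat.find_min' hex ⟨h3, by omega, hWy⟩
            rcases g1.eq_or_lt with g2 | g2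
            · exact g2
            · exfalso
              have g3 := wall_gap h hWX hf3 hf1 hf2
              have g4 := h.hgap
              exact hmin τ g2 (by omega) hf3
          exact n4 (hB3 k hk k' hk' hne (by omega) (by rw [eb _ h5]; exact hb))

/-- **scheme 2 is complete on bad blocks** (one more block behind it) -/
theorem c2core (h : Ok D K0) {X X' : List α} (hX : X ∈ D.Bad) (hX' : X' ∈ D.XX) (v : V) :
    ∃ P Q, P ++ Q = X ++ X' ∧ P.length < X.length ∧ P ∈ D.LP2 v ∧
      Q ∈ D.RQ2 (D.T (D.T v X) X') := by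
  classical
  have hz := h.hz
  have hL := h.hL
  have hXz := hX.1.1
  have hX0 : (X.take D.p0).length = D.p0 := by rw [List.length_take]; omega
  obtain ⟨I, hI, hI'⟩ := h.cp2 (X.take D.p0) hX0 v
  obtain ⟨B, hB, hB'⟩ := spoiled h hX.1 hX'
  obtain ⟨k, hkI, hkB⟩ := Finset.exists_mem_notMem_of_card_lt_card (lt_of_le_of_lt hB hI)
  obtain ⟨hk, hl, hr⟩ := hI' k hkI
  have hc := h.hc k hk
  obtain ⟨r, hr⟩ := Option.isSome_iff_exists.1 hr
  have hPl : (X.take (D.c k)).length = D.c k := by rw [List.length_take]; omega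
  have hcat : X.take (D.c k) ++ (X.drop (D.c k) ++ X') = X ++ X' := by
    rw [← List.append_assoc, List.take_append_drop]
  have hl' : D.lam2 k (X.take (D.c k)) = some v := by
    rw [List.take_take, min_eq_left (by omega)] at hl; exact hl
  have hr' : D.rho2 k ((X.drop (D.c k)).take (D.p0 - D.c k)) = some r := by
    rw [List.drop_take] at hr; exact hr
  refine ⟨X.take (D.c k), X.drop (D.c k) ++ X', hcat, by rw [hPl]; omega, ⟨k, hk, hPl, hl'⟩, ?_⟩
  refine ⟨k, hk, hB' k hk hkB, X.drop (D.c k), X', rfl, hX', ?_, r, hr', ?_⟩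
  · have h1 := (fst_of_block h hk hX.1 hPl (Q := X.drop (D.c k) ++ X')
      (by rw [hcat]; exact ⟨X', rfl⟩)).1
    rw [List.length_drop]; exact h1
  · have e1 : X.take (D.c k) ++ (X.drop (D.c k)).take (D.p0 - D.c k) = X.take D.p0 := by
      have : D.p0 = D.c k + (D.p0 - D.c k) := by omega
      conv_rhs => rw [this, List.take_add]
    have e2 : (X.drop (D.c k)).drop (D.p0 - D.c k) = X.drop D.p0 := by
      rw [List.drop_drop]; congr 1; omega
    have e3 := h.ex2 k hk (X.take (D.c k)) ((X.drop (D.c k)).take (D.p0 - D.c k)) v r hPl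
      (by rw [e1, hX0]) hl' hr'
    rw [e1] at e3
    rw [e2, e3]
    rfl

theorem c2 (h : Ok D K0) (X : List α) (hX : X ∈ D.Bad) (X' : List α) (hX' : X' ∈ D.Bad) (v : V) :
    ∃ P Q, P ++ Q = X ++ X' ∧ P ∈ D.LP2 v ∧ Q ∈ D.RQ2 (D.T (D.T v X) X') := by
  obtain ⟨P, Q, h1, -, h2, h3⟩ := c2core h hX hX'.1 v
  exact ⟨P, Q, h1, h2, h3⟩

end Crest.Agent.R320.Nat_42
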