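import Crest.Agent.R320.Asm_505

/-!
# Row 320: the natural chain (helper523)

Left-looking walls `Wo` (window `n`, gap `> W`), block code `Blk`: a block ends at the wall AFTER the
first wall at a place `>= z0`.  All clocks are measured to the first wall (the mark), so every
candidate anchor of scheme 2 is decided inside the block.  Both schemes are `Level`s of `Asm_505`
over the same token map.
-/

set_option autoImplicit false

namespace Crest.Agent.R320.Nat_523

open Crest.Agent.R320.Asm_505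

universe u

variable {α : Type u}

/-- `t` is the first wall of `w` at a place `≥ y` -/
structure First (Wo : List α → Prop) (w : List α) (y t : ℕ) : Prop where
  ge : y ≤ t
  le : t ≤ w.length
  wall : Wo (w.take t)
  no : ∀ s, y ≤ s → s < t → ¬ Wo (w.take s)

structure WallRule (Wo : List α → Prop) (n W : ℕ) : Prop where
  loc : ∀ P Q : List α, n ≤ Q.length → (Wo (P ++ Q) ↔ Wo Q)
  gap : ∀ (w : List α) (s t : ℕ), s < t → t ≤ w.length → Wo (w.take s) → Wo (w.take t) → s + W < t

section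
variable {Wo : List α → Prop}

theorem First.uniq {w : List α} {y t t' : ℕ} (h : First Wo w y t) (h' : First Wo w y t') :
    t = t' := by
  rcases lt_trichotomy t t' with h1 | h1 | h1
  · exact absurd h.wall (h'.no t h.ge h1)
  · exact h1
  · exact absurd h'.wall (h.no t' h'.ge h1)

theorem take_pref {w w' : List α} (h : w <+: w') {s : ℕ} (hs : s ≤ w.length) :
    w'.take s = w.take s := by
  obtain ⟨r, rfl⟩ := h
  rw [List.take_append_of_le_length hs]

theorem First.pref {w w' : List α} (h : w <+: w') {y t : ℕ} (hf : First Wo w y t) :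
    First Wo w' y t where
  ge := hf.ge
  le := hf.le.trans h.length_le
  wall := by rw [take_pref h hf.le]; exact hf.wall
  no := fun s h1 h2 => by
    rw [take_pref h (h2.le.trans hf.le)]; exact hf.no s h1 h2

theorem First.of_pref {w w' : List α} (h : w <+: w') {y t : ℕ} (hf : First Wo w' y t)
    (ht : t ≤ w.length) : First Wo w y t where
  ge := hf.ge
  le := ht
  wall := by rw [← take_pref h ht]; exact hf.wall
  no := fun s h1 h2 => by
    rw [← take_pref h (h2.le.trans ht)]; exact hf.no s h1 h2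

theorem wall_shift {n W : ℕ} (hW : WallRule Wo n W) (P Q : List α) {s : ℕ} (hs : n ≤ s)
    (hs' : s ≤ Q.length) : Wo ((P ++ Q).take (P.length + s)) ↔ Wo (Q.take s) := by
  have : (P ++ Q).take (P.length + s) = P ++ Q.take s := by
    rw [List.take_append]; simp
  rw [this]
  exact hW.loc _ _ (by simp; omega)

theorem First.shift {n W : ℕ} (hW : WallRule Wo n W) {P Q : List α} {y t : ℕ} (hy : n ≤ y)
    (hf : First Wo Q y t) : First Wo (P ++ Q) (P.length + y) (P.length + t) where
  ge := by have := hf.ge; omega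
  le := by have := hf.le; simp; omega
  wall := (wall_shift hW P Q (hy.trans hf.ge) hf.le).2 hf.wall
  no := fun s h1 h2 => by
    obtain ⟨s', rfl⟩ : ∃ s', s = P.length + s' := ⟨s - P.length, by omega⟩
    rw [wall_shift hW P Q (by omega) (by have := hf.le; omega)]
    exact hf.no s' (by omega) (by omega)

theorem First.unshift {n W : ℕ} (hW : WallRule Wo n W) {P Q : List α} {y t : ℕ} (hy : n ≤ y)
    (hf : First Wo (P ++ Q) (P.length + y) (P.length + t)) : First Wo Q y t where
  ge := by have := hf.ge; omega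
  le := by have := hf.le; simp at this; omega
  wall := (wall_shift hW P Q (by have := hf.ge; omega)
    (by have := hf.le; simp at this; omega)).1 hf.wall
  no := fun s h1 h2 => by
    have := hf.le
    simp at this
    rw [← wall_shift hW P Q (by omega) (by omega)]
    exact hf.no _ (by omega) (by omega)

/-- blocks -/
def Blk (Wo : List α → Prop) (z0 : ℕ) (X : List α) : Prop :=
  ∃ t, First Wo X z0 t ∧ First Wo X (t + 1) X.length

theorem Blk.pc {z0 : ℕ} {X X' : List α} (h : Blk Wo z0 X) (h' : Blk Wo z0 X') (hp : X <+: X') :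
    X = X' := by
  obtain ⟨t, h1, h2⟩ := h
  obtain ⟨t', h1', h2'⟩ := h'
  have e1 : t = t' := (h1.pref hp).uniq h1'
  subst e1
  have e2 := (h2.pref hp).uniq h2'
  exact hp.eq_of_length e2

theorem Blk.comp {z0 : ℕ} {X X' : List α} (h : Blk Wo z0 X) (h' : Blk Wo z0 X')
    (hp : X <+: X' ∨ X' <+: X) : X = X' := by
  rcases hp with hp | hp
  · exact h.pc h' hp
  · exact (h'.pc h hp).symm

/-- the mark of a block -/
noncomputable def mark (Wo : List α → Prop) (z0 : ℕ) (X : List α) : ℕ :=
  sInf {t | First Wo X z0 t}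

theorem mark_eq {z0 : ℕ} {X : List α} {t : ℕ} (h : First Wo X z0 t) : mark Wo z0 X = t := by
  have : {t | First Wo X z0 t} = {t} := by
    ext s; constructor
    · intro hs; exact hs.uniq h
    · rintro rfl; exact h
  unfold mark
  rw [this, csInf_singleton]

end

/-- all data -/
structure Dat (α : Type u) (S V : Type u) [Monoid S] [AddCommGroup V] where
  Wo : List α → Prop
  n : ℕ
  W : ℕ
  hW : WallRule Wo n W
  ph : List α → S
  act : V → S → V
  p0 : ℕ
  N1 : ℕ
  z0 : ℕ
  BadT : ℕ → Prop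
  -- gadget 1
  L1 : List α → Option V
  R1 : List α → Option V
  nu1 : List α → V
  g1s : ∀ P Q v r, L1 P = some v → R1 Q = some r → r = act v (ph (P ++ Q)) + nu1 (P ++ Q)
  g1c : ∀ X : List α, N1 ≤ X.length → ¬ BadT X.length → ∀ v, ∃ P Q, X = P ++ Q ∧
    P.length ≤ N1 ∧ L1 P = some v ∧ ∃ r, R1 Q = some r
  -- gadget 2
  K : ℕ
  pl : Fin K → ℕ
  hpl : ∀ j, 0 < pl j ∧ pl j ≤ p0
  L2 : Fin K → List α → Option V
  R2 : Fin K → List α → Option V
  nu2 : List α → V
  g2s : ∀ j P Q v r, P.length = pl j → P.length + Q.length = p0 → L2 j P = some v →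
    R2 j Q = some r → r = act v (ph (P ++ Q)) + nu2 (P ++ Q)
  K1 : ℕ
  g2c : ∀ X : List α, X.length = p0 → ∀ v, ∃ J : Finset (Fin K), 4 * K1 < J.card ∧
    ∀ j ∈ J, L2 j (X.take (pl j)) = some v ∧ ∃ r, R2 j (X.drop (pl j)) = some r
  -- ruler
  hrT : ∀ τ, 2 * p0 ≤ τ → ∀ J : Finset (Fin K),
    (∀ j ∈ J, ∃ k, k ≠ j ∧ BadT (τ + pl k - pl j - p0)) → J.card ≤ K1
  hrE : ∀ z σ : ℕ, ∀ J : Finset (Fin K),
    (∀ j ∈ J, ∃ k, k ≠ j ∧ z + pl j ≤ σ + pl k + N1 ∧ σ + pl k < z + pl j + N1) → J.card ≤ K1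
  -- sizes
  hp0 : 0 < p0
  hz : n + 2 * p0 + 2 * N1 + 1 ≤ z0
  hz2 : 4 * p0 + 2 * N1 ≤ z0
  hW2 : 2 * p0 + 2 * N1 ≤ W

variable {S V : Type u} [Monoid S] [AddCommGroup V]

namespace Dat
variable (D : Dat α S V)

/-- token map of a block with mark `t` -/
def T (t : ℕ) (X : List α) (v : V) : V :=
  D.act (D.act (D.act v (D.ph (X.take D.p0)) + D.nu2 (X.take D.p0)) (D.ph ((X.take t).drop D.p0))
    + D.nu1 ((X.take t).drop D.p0)) (D.ph (X.drop t))

noncomputable def eps (X : List α) (v : V) : V := D.T (mark D.Wo D.z0 X) X v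

def U : Language α := {X | Blk D.Wo D.z0 X}

/-- wall in the band -/
def E (X : List α) (z : ℕ) : Prop :=
  ∃ s, z ≤ s + D.N1 ∧ s < z + D.N1 ∧ s ≤ X.length ∧ D.Wo (X.take s)

def B : Language α :=
  {X | Blk D.Wo D.z0 X ∧ (D.E X D.z0 ∨ D.BadT (mark D.Wo D.z0 X - D.p0))}

def LP1 (v : V) : Language α :=
  {P | D.p0 ≤ P.length ∧ P.length ≤ D.p0 + D.N1 ∧
    D.L1 (P.drop D.p0) = some (D.act v (D.ph (P.take D.p0)) + D.nu2 (P.take D.p0))}

def RQ1 (y : V) : Language α :=
  {Q | ∃ t r, First D.Wo Q (D.z0 - D.p0 - D.N1) t ∧ D.z0 - D.p0 ≤ t ∧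
    First D.Wo Q (t + 1) Q.length ∧ D.R1 (Q.take t) = some r ∧ y = D.act r (D.ph (Q.drop t))}

/-- candidate `k` is bad on `Q` -/
def Cand (k : Fin D.K) (Q : List α) : Prop :=
  ∃ t, First D.Wo Q (D.z0 - D.pl k) t ∧ (D.E Q (D.z0 - D.pl k) ∨ D.BadT (t + D.pl k - D.p0))

def LP2 (v : V) : Language α := {P | ∃ j, P.length = D.pl j ∧ D.L2 j P = some v}

def RQ2 (y : V) : Language α :=
  {Q | ∃ k, D.Cand k Q ∧ (∀ j, D.Cand j Q → j = k) ∧ ∃ t r, First D.Wo Q (D.z0 - D.pl k) t ∧
    First D.Wo Q (t + 1) Q.length ∧ D.R2 k (Q.take (D.p0 - D.pl k)) = some r ∧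
    y = D.act (D.act r (D.ph ((Q.take t).drop (D.p0 - D.pl k)))
      + D.nu1 ((Q.take t).drop (D.p0 - D.pl k))) (D.ph (Q.drop t))}

theorem pcU : PC D.U where
  ne := by
    rintro ⟨t, h, _⟩
    have h1 := h.ge
    have h2 := h.le
    have := D.hz
    simp at h2
    omega
  pc := fun z hz z' hz' h => Blk.pc hz hz' h

theorem BU : ∀ z ∈ D.B, z ∈ D.U := fun _ h => h.1

theorem eps_eq {X : List α} {t : ℕ} (h : First D.Wo X D.z0 t) (v : V) :
    D.eps X v = D.T t X v := by
  unfold eps
  rw [mark_eq h]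

/-- **Level 1** -/
theorem level1 : Level D.U D.B D.eps D.LP1 D.RQ1 where
  pne := by
    rintro x ⟨h1, _, _⟩
    have h2 := D.g1s
    have := D.hpl
    by_contra _
    simp at h1
    have := D.hp0
    omega
  sound := by
    rintro z hz x y P ⟨hP1, hP2, hP3⟩ Q ⟨t, r, hQ1, hQ2, hQ3, hQ4, rfl⟩ hc
    have hzz := D.hz
    have f1 : First D.Wo (P ++ Q) (P.length + (D.z0 - D.p0 - D.N1)) (P.length + t) :=
      hQ1.shift D.hW (by omega)
    have f2 : First D.Wo (P ++ Q) D.z0 (P.length + t) :=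
      ⟨by omega, f1.le, f1.wall, fun s h1 h2 => f1.no s (by omega) h2⟩
    have f3 : First D.Wo (P ++ Q) (P.length + t + 1) (P ++ Q).length := by
      have := hQ3.shift D.hW (P := P) (by omega)
      simpa [add_assoc] using this
    have hB : Blk D.Wo D.z0 (P ++ Q) := ⟨_, f2, f3⟩
    have e := Blk.comp hz hB hc
    refine ⟨e, ?_⟩
    rw [e, D.eps_eq f2]
    unfold T
    have e1 : (P ++ Q).take D.p0 = P.take D.p0 := by
      rw [List.take_append_of_le_length hP1]
    have e2 : ((P ++ Q).take (P.length + t)).drop D.p0 = P.drop D.p0 ++ Q.take t := by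
      rw [List.take_append]
      simp only [Nat.add_sub_cancel_left]
      rw [List.take_of_length_le (by omega), List.drop_append_of_le_length hP1]
    have e3 : (P ++ Q).drop (P.length + t) = Q.drop t := by
      rw [List.drop_append]; simp
    rw [e1, e2, e3, ← D.g1s _ _ _ _ hP3 hQ4]
  compl := by
    rintro z ⟨t, h1, h2⟩ hB x
    have hzz := D.hz
    have hE : ¬ D.E z D.z0 := fun h => hB ⟨⟨t, h1, h2⟩, Or.inl h⟩
    have hT : ¬ D.BadT (t - D.p0) := fun h => hB ⟨⟨t, h1, h2⟩, Or.inr (by rwa [mark_eq h1])⟩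
    have ht : D.z0 + D.N1 ≤ t := by
      by_contra hlt
      exact hE ⟨t, by have := h1.ge; omega, by omega, h1.le, h1.wall⟩
    have htl := h1.le
    have hl : ((z.take t).drop D.p0).length = t - D.p0 := by simp; omega
    obtain ⟨P', Q', e, hP', hL, r, hR⟩ := D.g1c ((z.take t).drop D.p0) (by omega)
      (by rwa [hl]) (D.act x (D.ph (z.take D.p0)) + D.nu2 (z.take D.p0))
    have hl2 : P'.length + Q'.length = t - D.p0 := by
      rw [← hl, e]; simp
    have hz1 : z = (z.take D.p0 ++ P') ++ (Q' ++ z.drop t) := by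
      have a1 : z = z.take D.p0 ++ ((z.take t).drop D.p0 ++ z.drop t) := by
        have a2 : z.take D.p0 ++ (z.take t).drop D.p0 = z.take t := by
          have : (z.take t).take D.p0 = z.take D.p0 := by
            rw [List.take_take, min_eq_left (by omega)]
          rw [← this, List.take_append_drop]
        rw [← List.append_assoc, a2, List.take_append_drop]
      rw [e] at a1
      simpa [List.append_assoc] using a1
    have hPl : (z.take D.p0 ++ P').length = D.p0 + P'.length := by simp; omega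
    have hlen : z.length = D.p0 + P'.length + (Q' ++ z.drop t).length := by
      conv_lhs => rw [hz1]
      rw [List.length_append, hPl]
    have hdl : (Q' ++ z.drop t).length = Q'.length + (z.length - t) := by simp
    have hq1 : (Q' ++ z.drop t).take Q'.length = Q' := by simp
    have hq2 : (Q' ++ z.drop t).drop Q'.length = z.drop t := by simp
    have g1 : First D.Wo ((z.take D.p0 ++ P') ++ (Q' ++ z.drop t))
        ((z.take D.p0 ++ P').length + (D.z0 - D.p0 - D.N1))
        ((z.take D.p0 ++ P').length + Q'.length) := by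
      rw [← hz1, hPl]
      refine ⟨by omega, by omega, ?_, ?_⟩
      · have : D.p0 + P'.length + Q'.length = t := by omega
        rw [this]; exact h1.wall
      · intro s a1 a2 a3
        by_cases hs : D.z0 ≤ s
        · exact h1.no s hs (by omega) a3
        · exact hE ⟨s, by omega, by omega, by omega, a3⟩
    have g2 : First D.Wo ((z.take D.p0 ++ P') ++ (Q' ++ z.drop t))
        ((z.take D.p0 ++ P').length + (Q'.length + 1))
        ((z.take D.p0 ++ P').length + (Q' ++ z.drop t).length) := by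
      rw [← hz1, hPl]
      have a1 : D.p0 + P'.length + (Q'.length + 1) = t + 1 := by omega
      have a2 : D.p0 + P'.length + (Q' ++ z.drop t).length = z.length := hlen.symm
      rw [a1, a2]; exact h2
    refine ⟨z.take D.p0 ++ P', ⟨by omega, by omega, ?_⟩, Q' ++ z.drop t,
      ⟨Q'.length, r, g1.unshift D.hW (by omega), by omega, g2.unshift D.hW (by omega), ?_, ?_⟩, hz1⟩
    · have a1 : (z.take D.p0 ++ P').drop D.p0 = P' := by
        rw [List.drop_append]
        simp only [List.length_take]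
        rw [List.drop_eq_nil_of_le (by simp)]
        have : D.p0 - min D.p0 z.length = 0 := by omega
        rw [this, List.nil_append, List.drop_zero]
      have a2 : (z.take D.p0 ++ P').take D.p0 = z.take D.p0 := by
        rw [List.take_append_of_le_length (by simp; omega), List.take_take, min_self]
      rw [a1, a2]; exact hL
    · rw [hq1]; exact hR
    · rw [hq2, D.eps_eq h1]
      unfold T
      rw [e, D.g1s _ _ _ _ hL hR]

theorem E_shift {P Q : List α} {z c : ℕ} (hc : P.length = c) (hz : D.n + c + D.N1 ≤ z)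
    (h : D.E (P ++ Q) z) : D.E Q (z - c) := by
  obtain ⟨s, h1, h2, h3, h4⟩ := h
  simp only [List.length_append] at h3
  obtain ⟨s', rfl⟩ : ∃ s', s = P.length + s' := ⟨s - P.length, by omega⟩
  rw [wall_shift D.hW P Q (by omega) (by omega)] at h4
  exact ⟨s', by omega, by omega, by omega, h4⟩

theorem E_unshift {P Q : List α} {z c : ℕ} (hc : P.length = c) (hz : D.n + c + D.N1 ≤ z)
    (h : D.E Q (z - c)) : D.E (P ++ Q) z := by
  obtain ⟨s, h1, h2, h3, h4⟩ := h
  refine ⟨P.length + s, by omega, by omega, by simp; omega, ?_⟩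
  rw [wall_shift D.hW P Q (by omega) (by omega)]
  exact h4

theorem First.shift' {P Q : List α} {z c t : ℕ} (hc : P.length = c) (hz : D.n + c ≤ z)
    (h : First D.Wo Q (z - c) t) : First D.Wo (P ++ Q) z (c + t) := by
  have := h.shift D.hW (P := P) (by omega)
  rw [hc] at this
  have e : c + (z - c) = z := by omega
  rwa [e] at this

theorem First.unshift' {P Q : List α} {z c t : ℕ} (hc : P.length = c) (hz : D.n + c ≤ z)
    (h : First D.Wo (P ++ Q) z t) : First D.Wo Q (z - c) (t - c) := by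
  have e1 : z = P.length + (z - c) := by omega
  have e2 : t = P.length + (t - c) := by have := h.ge; omega
  rw [e1, e2] at h
  exact h.unshift D.hW (by omega)

/-- a bad block makes its own candidate bad -/
theorem cand_of {z P Q : List α} {j k : Fin D.K} {tk : ℕ} (hz : z ∈ D.B)
    (hP : P.length = D.pl j) (hQ1 : First D.Wo Q (D.z0 - D.pl k) tk)
    (hQ2 : First D.Wo Q (tk + 1) Q.length) (hc : z <+: P ++ Q ∨ P ++ Q <+: z) :
    D.Cand j Q := by
  obtain ⟨⟨t, h1, h2⟩, hb⟩ := hz
  rw [mark_eq h1] at hb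
  have hzz := D.hz
  have hWW := D.hW2
  have hj := D.hpl j
  have hk := D.hpl k
  have hgap : tk + D.W < Q.length := by
    refine D.hW.gap Q tk Q.length ?_ le_rfl hQ1.wall ?_
    · have := hQ2.ge; omega
    · exact hQ2.wall
  have hge := hQ1.ge
  -- the mark of `z` is seen in `P ++ Q`
  have hfirst : First D.Wo (P ++ Q) D.z0 t ∧
      (D.E z D.z0 → D.E (P ++ Q) D.z0) := by
    rcases hc with hc | hc
    · refine ⟨h1.pref hc, ?_⟩
      rintro ⟨s, a1, a2, a3, a4⟩
      exact ⟨s, a1, a2, a3.trans hc.length_le, by rw [take_pref hc a3]; exact a4⟩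
    · have hw : D.Wo (z.take (P ++ Q).length) := by
        rw [take_pref hc le_rfl, List.take_length]
        have : D.Wo (Q.take Q.length) := hQ2.wall
        rw [List.take_length] at this
        exact (D.hW.loc P Q (by omega)).2 this
      have ht : t ≤ (P ++ Q).length := by
        by_contra hlt
        refine h1.no (P ++ Q).length ?_ (by omega) hw
        simp only [List.length_append]; omega
      refine ⟨First.of_pref hc h1 ht, ?_⟩
      rintro ⟨s, a1, a2, a3, a4⟩
      have hs : s ≤ (P ++ Q).length := by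
        simp only [List.length_append]; omega
      exact ⟨s, a1, a2, hs, by rw [← take_pref hc hs]; exact a4⟩
  refine ⟨t - D.pl j, First.unshift' D hP (by omega) hfirst.1, ?_⟩
  rcases hb with hb | hb
  · left
    exact D.E_shift hP (by omega) (hfirst.2 hb)
  · right
    have := h1.ge
    have e : t - D.pl j + D.pl j - D.p0 = t - D.p0 := by omega
    rwa [e]

theorem sound2 : ∀ z ∈ D.B, ∀ x y, ∀ p ∈ D.LP2 x, ∀ q ∈ D.RQ2 y,
    (z <+: p ++ q ∨ p ++ q <+: z) → z = p ++ q ∧ D.eps z x = y := by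
  rintro z hz x y P ⟨j, hP, hL⟩ Q ⟨k, hk, huniq, t, r, hQ1, hQ2, hR, rfl⟩ hc
  have hjk := huniq j (D.cand_of hz hP hQ1 hQ2 hc)
  subst hjk
  have hzz := D.hz
  have hj := D.hpl j
  have f2 : First D.Wo (P ++ Q) D.z0 (D.pl j + t) := First.shift' D hP (by omega) hQ1
  have hge := hQ1.ge
  have hle := hQ1.le
  have f3 : First D.Wo (P ++ Q) (D.pl j + t + 1) (P ++ Q).length := by
    have := hQ2.shift D.hW (P := P) (by omega)
    simpa [add_assoc, hP] using this
  have hB : Blk D.Wo D.z0 (P ++ Q) := ⟨_, f2, f3⟩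
  have e := Blk.comp hz.1 hB hc
  refine ⟨e, ?_⟩
  rw [e, D.eps_eq f2]
  unfold T
  have e1 : (P ++ Q).take D.p0 = P ++ Q.take (D.p0 - D.pl j) := by
    rw [List.take_append, hP, List.take_of_length_le (by omega)]
  have e2 : ((P ++ Q).take (D.pl j + t)).drop D.p0 = (Q.take t).drop (D.p0 - D.pl j) := by
    rw [List.take_append, hP, List.take_of_length_le (by omega), Nat.add_sub_cancel_left,
      List.drop_append, hP, List.drop_eq_nil_of_le (by omega), List.nil_append]
  have e3 : (P ++ Q).drop (D.pl j + t) = Q.drop t := by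
    rw [List.drop_append, hP, List.drop_eq_nil_of_le (by omega), List.nil_append,
      Nat.add_sub_cancel_left]
  have hl : P.length + (Q.take (D.p0 - D.pl j)).length = D.p0 := by
    simp only [List.length_take]; omega
  rw [e1, e2, e3, ← D.g2s j P _ x r hP hl hL hR]

/-- places spoiled by the mark `τ` (absolute) -/
def SpT (τ : ℕ) (j : Fin D.K) : Prop := ∃ k, k ≠ j ∧ D.BadT (τ + D.pl k - D.pl j - D.p0)

def SpE (σ : ℕ) (j : Fin D.K) : Prop :=
  ∃ k, k ≠ j ∧ D.z0 + D.pl j ≤ σ + D.pl k + D.N1 ∧ σ + D.pl k < D.z0 + D.pl j + D.N1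

/-- where can another candidate see its mark -/
theorem mark_cases {z : List α} {t : ℕ} (h1 : First D.Wo z D.z0 t)
    (h2 : First D.Wo z (t + 1) z.length) {y τ : ℕ} (hy1 : D.z0 ≤ y + D.p0) (hy2 : y ≤ D.z0 + D.p0)
    (h : First D.Wo z y τ) : τ = t ∨ τ = z.length ∨
      (D.z0 ≤ τ + D.p0 ∧ τ < D.z0 ∧ D.Wo (z.take τ) ∧ τ ≤ z.length) := by
  by_cases h0 : τ < D.z0
  · right; right
    exact ⟨by have := h.ge; omega, h0, h.wall, h.le⟩
  · by_cases h3 : τ ≤ t
    · left
      by_contra hne
      exact h1.no τ (by omega) (by omega) h.wall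
    · right; left
      by_contra hne
      exact h2.no τ (by omega) (by have := h.le; omega) h.wall

theorem spoil {z : List α} {t : ℕ} (h1 : First D.Wo z D.z0 t)
    (h2 : First D.Wo z (t + 1) z.length) (J : Finset (Fin D.K))
    (hJ : ∀ j ∈ J, ∃ k, k ≠ j ∧ D.Cand k (z.drop (D.pl j))) : J.card ≤ 4 * D.K1 := by
  classical
  have hzz := D.hz
  have hWW := D.hW2
  have hle := h1.le
  have hge := h1.ge
  -- the possible low wall
  have low : ∃ τ0, ∀ τ, D.z0 ≤ τ + D.p0 → τ < D.z0 → D.Wo (z.take τ) → τ = τ0 := by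
    by_cases hex : ∃ τ, D.z0 ≤ τ + D.p0 ∧ τ < D.z0 ∧ D.Wo (z.take τ)
    · obtain ⟨τ0, a1, a2, a3⟩ := hex
      refine ⟨τ0, fun τ b1 b2 b3 => ?_⟩
      rcases lt_trichotomy τ τ0 with h | h | h
      · have := D.hW.gap z τ τ0 h (by omega) b3 a3; omega
      · exact h
      · have := D.hW.gap z τ0 τ h (by omega) a3 b3; omega
    · exact ⟨0, fun τ b1 b2 b3 => absurd ⟨τ, b1, b2, b3⟩ hex⟩
  have ew : ∃ σ0, ∀ σ, D.z0 ≤ σ + D.p0 + D.N1 → σ < D.z0 + D.p0 + D.N1 → σ ≤ z.length →
      D.Wo (z.take σ) → σ = σ0 := by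
    by_cases hex : ∃ σ, D.z0 ≤ σ + D.p0 + D.N1 ∧ σ < D.z0 + D.p0 + D.N1 ∧ σ ≤ z.length ∧
      D.Wo (z.take σ)
    · obtain ⟨τ0, a1, a2, a3, a4⟩ := hex
      refine ⟨τ0, fun τ b1 b2 b3 b4 => ?_⟩
      rcases lt_trichotomy τ τ0 with h | h | h
      · have := D.hW.gap z τ τ0 h (by omega) b4 a4; omega
      · exact h
      · have := D.hW.gap z τ0 τ h (by omega) a4 b4; omega
    · exact ⟨0, fun τ b1 b2 b3 b4 => absurd ⟨τ, b1, b2, b3, b4⟩ hex⟩
  obtain ⟨τ0, hτ0⟩ := low
  obtain ⟨σ0, hσ0⟩ := ew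
  have key : ∀ j ∈ J, D.SpT t j ∨ D.SpT z.length j ∨ (D.z0 ≤ τ0 + D.p0 ∧ D.SpT τ0 j) ∨
      D.SpE σ0 j := by
    intro j hj
    obtain ⟨k, hkj, t', hf, hb⟩ := hJ j hj
    have a1 := D.hpl j
    have a2 := D.hpl k
    have hlen : (z.take (D.pl j)).length = D.pl j := by simp; omega
    have hsplit : z.take (D.pl j) ++ z.drop (D.pl j) = z := List.take_append_drop _ _
    have e1 : D.z0 - D.pl k = (D.z0 + D.pl j - D.pl k) - D.pl j := by omega
    have hf' : First D.Wo z (D.z0 + D.pl j - D.pl k) (D.pl j + t') := by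
      rw [e1] at hf
      have := First.shift' D (P := z.take (D.pl j)) hlen (by omega) hf
      rwa [hsplit] at this
    rcases hb with hb | hb
    · -- wall in the band
      right; right; right
      rw [e1] at hb
      have := D.E_unshift (P := z.take (D.pl j)) hlen (by omega) hb
      rw [hsplit] at this
      obtain ⟨s, b1, b2, b3, b4⟩ := this
      have hs := hσ0 s (by omega) (by omega) b3 b4
      subst hs
      exact ⟨k, hkj, by omega, by omega⟩
    · have e2 : t' + D.pl k - D.p0 = (D.pl j + t') + D.pl k - D.pl j - D.p0 := by omega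
      rw [e2] at hb
      rcases D.mark_cases h1 h2 (y := D.z0 + D.pl j - D.pl k) (by omega) (by omega) hf' with
        h | h | ⟨ha, hb', hc', _⟩
      · left; exact ⟨k, hkj, by rwa [h] at hb⟩
      · right; left; exact ⟨k, hkj, by rwa [h] at hb⟩
      · right; right; left
        have hs := hτ0 _ ha hb' hc'
        rw [hs] at hb ha
        exact ⟨ha, k, hkj, hb⟩
  have hz2 := D.hz2
  have c1 : (J.filter fun j => D.SpT t j).card ≤ D.K1 :=
    D.hrT t (by omega) _ fun j hj => (Finset.mem_filter.1 hj).2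
  have c2 : (J.filter fun j => D.SpT z.length j).card ≤ D.K1 :=
    D.hrT z.length (by omega) _ fun j hj => (Finset.mem_filter.1 hj).2
  have c3 : (J.filter fun j => D.z0 ≤ τ0 + D.p0 ∧ D.SpT τ0 j).card ≤ D.K1 := by
    by_cases h : D.z0 ≤ τ0 + D.p0
    · exact D.hrT τ0 (by omega) _ fun j hj => (Finset.mem_filter.1 hj).2.2
    · have : (J.filter fun j => D.z0 ≤ τ0 + D.p0 ∧ D.SpT τ0 j) = ∅ := by
        ext j; simp [h]
      rw [this]; simp
  have c4 : (J.filter fun j => D.SpE σ0 j).card ≤ D.K1 :=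
    D.hrE D.z0 σ0 _ fun j hj => (Finset.mem_filter.1 hj).2
  have hsub : J ⊆ (((J.filter fun j => D.SpT t j) ∪ (J.filter fun j => D.SpT z.length j)) ∪
      (J.filter fun j => D.z0 ≤ τ0 + D.p0 ∧ D.SpT τ0 j)) ∪ (J.filter fun j => D.SpE σ0 j) := by
    intro j hj
    simp only [Finset.mem_union, Finset.mem_filter]
    rcases key j hj with h | h | h | h
    · exact Or.inl (Or.inl (Or.inl ⟨hj, h⟩))
    · exact Or.inl (Or.inl (Or.inr ⟨hj, h⟩))
    · exact Or.inl (Or.inr ⟨hj, h⟩)
    · exact Or.inr ⟨hj, h⟩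
  have d0 := Finset.card_le_card hsub
  have d1 := Finset.card_union_le (((J.filter fun j => D.SpT t j) ∪
    (J.filter fun j => D.SpT z.length j)) ∪
      (J.filter fun j => D.z0 ≤ τ0 + D.p0 ∧ D.SpT τ0 j)) (J.filter fun j => D.SpE σ0 j)
  have d2 := Finset.card_union_le ((J.filter fun j => D.SpT t j) ∪
    (J.filter fun j => D.SpT z.length j)) (J.filter fun j => D.z0 ≤ τ0 + D.p0 ∧ D.SpT τ0 j)
  have d3 := Finset.card_union_le (J.filter fun j => D.SpT t j)
    (J.filter fun j => D.SpT z.length j)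
  omega

/-- **Level 2** -/
theorem level2 : Level D.B 0 D.eps D.LP2 D.RQ2 where
  pne := by
    rintro x ⟨j, h1, _⟩
    have := D.hpl j
    simp at h1
    omega
  sound := D.sound2
  compl := by
    classical
    rintro z hz _ x
    obtain ⟨⟨t, h1, h2⟩, hb⟩ := hz
    have hzz := D.hz
    have hle := h1.le
    have hge := h1.ge
    obtain ⟨J, hJc, hJ⟩ := D.g2c (z.take D.p0) (by simp; omega) x
    have : ∃ j ∈ J, ∀ k, D.Cand k (z.drop (D.pl j)) → k = j := by
      by_contra hno
      push Not at hno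
      have := D.spoil h1 h2 J fun j hj => by
        obtain ⟨k, hk1, hk2⟩ := hno j hj
        exact ⟨k, hk2, hk1⟩
      omega
    obtain ⟨j, hj, hu⟩ := this
    obtain ⟨hL, r, hR⟩ := hJ j hj
    have hpj := D.hpl j
    have hlen : (z.take (D.pl j)).length = D.pl j := by simp; omega
    have hsplit : z.take (D.pl j) ++ z.drop (D.pl j) = z := List.take_append_drop _ _
    have e1 : (z.take D.p0).take (D.pl j) = z.take (D.pl j) := by
      rw [List.take_take, min_eq_left (by omega)]
    have e2 : (z.take D.p0).drop (D.pl j) = (z.drop (D.pl j)).take (D.p0 - D.pl j) := by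
      rw [List.drop_take]
    rw [e1] at hL
    rw [e2] at hR
    have hQ1 : First D.Wo (z.drop (D.pl j)) (D.z0 - D.pl j) (t - D.pl j) := by
      refine First.unshift' D (P := z.take (D.pl j)) hlen (by omega) ?_
      rw [hsplit]; exact h1
    have hQ2 : First D.Wo (z.drop (D.pl j)) (t - D.pl j + 1) (z.drop (D.pl j)).length := by
      have : First D.Wo (z.drop (D.pl j)) (t + 1 - D.pl j) (z.length - D.pl j) := by
        refine First.unshift' D (P := z.take (D.pl j)) hlen (by omega) ?_
        rw [hsplit]; exact h2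
      rw [List.length_drop]
      have e : t - D.pl j + 1 = t + 1 - D.pl j := by omega
      rwa [e]
    have hcand : D.Cand j (z.drop (D.pl j)) :=
      D.cand_of (z := z) (P := z.take (D.pl j)) ⟨⟨t, h1, h2⟩, hb⟩ hlen hQ1 hQ2
        (by rw [hsplit]; exact Or.inl (List.prefix_refl _))
    have hmem : z.drop (D.pl j) ∈ D.RQ2 (D.act (D.act r (D.ph (((z.drop (D.pl j)).take
        (t - D.pl j)).drop (D.p0 - D.pl j))) + D.nu1 (((z.drop (D.pl j)).take
        (t - D.pl j)).drop (D.p0 - D.pl j))) (D.ph ((z.drop (D.pl j)).drop (t - D.pl j)))) :=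
      ⟨j, hcand, fun i hi => hu i hi, t - D.pl j, r, hQ1, hQ2, hR, rfl⟩
    have hP : z.take (D.pl j) ∈ D.LP2 x := ⟨j, hlen, hL⟩
    obtain ⟨_, he⟩ := D.sound2 z ⟨⟨t, h1, h2⟩, hb⟩ x _ _ hP _ hmem
      (by rw [hsplit]; exact Or.inl (List.prefix_refl _))
    refine ⟨z.take (D.pl j), hP, z.drop (D.pl j), ?_, hsplit.symm⟩
    rw [he]
    exact hmem

end Dat
end Crest.Agent.R320.Nat_523
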