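import Crest.Agent.R320.CoreAll_603
import Crest.Agent.R320.Reg_236

/-!
# Row 320: blocks of the natural chain rule, left-looking walls, all words (helper603)
-/

set_option autoImplicit false

namespace Crest.Agent.R320.Nat_603

open Crest.RegLang Crest.Agent.R320.Hk_851 Computability

universe u

variable {α : Type u}

/-- left-looking walls -/
structure Walls (Wo : List α → Prop) (n W : ℕ) : Prop where
  n_pos : 0 < n
  loc : ∀ P Q : List α, n ≤ Q.length → (Wo (P ++ Q) ↔ Wo Q)
  len : ∀ P : List α, Wo P → n ≤ P.length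
  gap : ∀ P Q : List α, Wo P → Wo (P ++ Q) → Q ≠ [] → W < Q.length

/-- words ending at their first wall at a place `≥ z` -/
def FW (Wo : List α → Prop) (z : ℕ) : Language α :=
  {X | z ≤ X.length ∧ Wo X ∧ ∀ t, z ≤ t → t < X.length → ¬ Wo (X.take t)}

/-- words without wall at places `≥ z` -/
def NoW (Wo : List α → Prop) (z : ℕ) : Language α :=
  {X | ∀ t, z ≤ t → t ≤ X.length → ¬ Wo (X.take t)}

theorem fw_pc {Wo : List α → Prop} {z : ℕ} {X Y : List α} (hX : X ∈ FW Wo z) (hY : Y ∈ FW Wo z)
    (h : X <+: Y) : X = Y := by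
  obtain ⟨R, rfl⟩ := h
  by_contra hne
  have hR : R ≠ [] := fun h => hne (by rw [h]; simp)
  have hl : 0 < R.length := List.length_pos_iff.2 hR
  refine hY.2.2 X.length hX.1 (by rw [List.length_append]; omega) ?_
  rw [List.take_left]
  exact hX.2.1

theorem fw_pc' {Wo : List α → Prop} {z : ℕ} {X Y w : List α} (hX : X ∈ FW Wo z)
    (hY : Y ∈ FW Wo z) (h : X <+: w) (h' : Y <+: w) : X = Y := by
  rcases List.prefix_or_prefix_of_prefix h h' with h | h
  · exact fw_pc hX hY h
  · exact (fw_pc hY hX h).symm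

variable {Wo : List α → Prop} {n W : ℕ}

theorem Walls.nil (H : Walls Wo n W) : ¬ Wo [] := fun h => by
  have := H.len _ h
  have := H.n_pos
  simp at *
  omega

theorem Walls.take (H : Walls Wo n W) (P A : List α) {t : ℕ} (ht : n ≤ t) (hA : t ≤ A.length) :
    Wo ((P ++ A).take (P.length + t)) ↔ Wo (A.take t) := by
  rw [List.take_length_add_append]
  exact H.loc _ _ (by rw [List.length_take]; omega)

theorem fw_append (H : Walls Wo n W) {z : ℕ} {P A : List α} (hz : P.length + n ≤ z) :
    P ++ A ∈ FW Wo z ↔ A ∈ FW Wo (z - P.length) := by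
  constructor
  · rintro ⟨h1, h2, h3⟩
    rw [List.length_append] at h1
    refine ⟨by omega, (H.loc _ _ (by omega)).1 h2, fun t ht htl hw => ?_⟩
    exact h3 (P.length + t) (by omega) (by rw [List.length_append]; omega)
      ((H.take P A (by omega) htl.le).2 hw)
  · rintro ⟨h1, h2, h3⟩
    refine ⟨by rw [List.length_append]; omega, (H.loc _ _ (by omega)).2 h2, fun t ht htl hw => ?_⟩
    rw [List.length_append] at htl
    obtain ⟨s, rfl⟩ := Nat.exists_eq_add_of_le (show P.length ≤ t by omega)
    exact h3 s (by omega) (by omega) ((H.take P A (by omega) (by omega)).1 hw)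

/-- blocks -/
def XX (Wo : List α → Prop) (z : ℕ) : Language α := FW Wo z * FW Wo 0

theorem xx_pc {z : ℕ} {X Y : List α} (hX : X ∈ XX Wo z) (hY : Y ∈ XX Wo z) (h : X <+: Y) :
    X = Y := by
  obtain ⟨A, hA, B, hB, rfl⟩ := Language.mem_mul.1 hX
  obtain ⟨A', hA', B', hB', rfl⟩ := Language.mem_mul.1 hY
  have e : A = A' := fw_pc' hA hA' ((List.prefix_append A B).trans h) (List.prefix_append _ _)
  subst e
  have := fw_pc hB hB' ((List.prefix_append_right_inj A).1 h)
  rw [this]

/-- bad words: a wall within `N` of `z`, or bad length -/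
def Bd (Wo : List α → Prop) (N : ℕ) (BadT : ℕ → Prop) (p0 z c : ℕ) : Language α :=
  {A | A ∈ FW Wo (z - c) ∧ ((∃ t, t ≤ A.length ∧ z ≤ c + t + N ∧ c + t ≤ z + N ∧ Wo (A.take t)) ∨
    BadT (A.length + c - p0))}

theorem bd_append (H : Walls Wo n W) {N p0 z c : ℕ} {BadT : ℕ → Prop} {P A : List α}
    (hz : P.length + N + n ≤ z) (hc : P.length = c) :
    P ++ A ∈ Bd Wo N BadT p0 z 0 ↔ A ∈ Bd Wo N BadT p0 z c := by
  subst hc
  have h0 : P ++ A ∈ FW Wo (z - 0) ↔ A ∈ FW Wo (z - P.length) := fw_append H (by omega)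
  constructor
  · rintro ⟨h1, h2⟩
    refine ⟨h0.1 h1, ?_⟩
    rcases h2 with ⟨t, ht, hta, htb, hw⟩ | h2
    · left
      rw [List.length_append] at ht
      obtain ⟨s, rfl⟩ := Nat.exists_eq_add_of_le (show P.length ≤ t by omega)
      exact ⟨s, by omega, by omega, by omega, (H.take P A (by omega) (by omega)).1 hw⟩
    · right
      rw [List.length_append] at h2
      have e : A.length + P.length - p0 = P.length + A.length + 0 - p0 := by omega
      rwa [e]
  · rintro ⟨h1, h2⟩
    refine ⟨h0.2 h1, ?_⟩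
    rcases h2 with ⟨t, ht, hta, htb, hw⟩ | h2
    · left
      exact ⟨P.length + t, by rw [List.length_append]; omega, by omega, by omega,
        (H.take P A (by omega) (by omega)).2 hw⟩
    · right
      rw [List.length_append]
      have e : P.length + A.length + 0 - p0 = A.length + P.length - p0 := by omega
      rwa [e]

/-- the place of the first wall `≥ z` -/
noncomputable def tz (Wo : List α → Prop) (z : ℕ) (X : List α) : ℕ :=
  sInf {t | z ≤ t ∧ t ≤ X.length ∧ Wo (X.take t)}

theorem tz_eq {z : ℕ} {A B : List α} (hA : A ∈ FW Wo z) : tz Wo z (A ++ B) = A.length := by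
  unfold tz
  apply le_antisymm
  · refine Nat.sInf_le ⟨hA.1, by rw [List.length_append]; omega, ?_⟩
    rw [List.take_left]
    exact hA.2.1
  · refine le_csInf ⟨A.length, hA.1, by rw [List.length_append]; omega, ?_⟩ ?_
    · rw [List.take_left]
      exact hA.2.1
    · rintro t ⟨h1, h2, h3⟩
      by_contra hlt
      push Not at hlt
      refine hA.2.2 t h1 hlt ?_
      rwa [List.take_append_of_le_length hlt.le] at h3

/-! ### languages -/

section lang

variable [Finite α] {k : ℕ}

theorem hl_wo (hWo : HL k ({w | Wo w} : Language α)) (m : ℕ) :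
    HL k ({w | ∃ t, m ≤ t ∧ t ≤ w.length ∧ Wo (w.take t)} : Language α) := by
  refine ((HL.setOf_and (HL.length_ge m) hWo).mul HL.top).congr fun w => ?_
  constructor
  · rintro ⟨t, h1, h2, h3⟩
    refine Language.mem_mul.2 ⟨w.take t, ⟨?_, h3⟩, w.drop t, trivial, List.take_append_drop t w⟩
    rw [List.length_take]; omega
  · intro h
    obtain ⟨a, ⟨h1, h2⟩, b, -, rfl⟩ := Language.mem_mul.1 h
    refine ⟨a.length, h1, by rw [List.length_append]; omega, ?_⟩
    rw [List.take_left]; exact h2

theorem hl_now (hWo : HL k ({w | Wo w} : Language α)) (m : ℕ) : HL k (NoW Wo m) := by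
  refine (hl_wo hWo m).compl.congr fun w => ?_
  constructor
  · rintro h ⟨t, h1, h2, h3⟩
    exact h t h1 h2 h3
  · intro h t h1 h2 h3
    exact h ⟨t, h1, h2, h3⟩

theorem hl_wo' (hWo : HL k ({w | Wo w} : Language α)) (m : ℕ) :
    HL k ({w | ∃ t, m ≤ t ∧ t < w.length ∧ Wo (w.take t)} : Language α) := by
  refine ((HL.setOf_and (HL.length_ge m) hWo).mul (HL.length_ge 1)).congr fun w => ?_
  constructor
  · rintro ⟨t, h1, h2, h3⟩
    refine Language.mem_mul.2 ⟨w.take t, ⟨?_, h3⟩, w.drop t, ?_, List.take_append_drop t w⟩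
    · rw [List.length_take]; omega
    · show 1 ≤ (w.drop t).length
      rw [List.length_drop]; omega
  · intro h
    obtain ⟨a, ⟨h1, h2⟩, b, hb, rfl⟩ := Language.mem_mul.1 h
    have hb' : 1 ≤ b.length := hb
    refine ⟨a.length, h1, by rw [List.length_append]; omega, ?_⟩
    rw [List.take_left]; exact h2

theorem hl_fw (hWo : HL k ({w | Wo w} : Language α)) (m : ℕ) : HL k (FW Wo m) := by
  refine (HL.setOf_and (HL.length_ge m) (HL.setOf_and hWo (hl_wo' hWo m).compl)).congr
    fun w => ?_
  constructor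
  · rintro ⟨h1, h2, h3⟩
    exact ⟨h1, h2, fun ⟨t, a, b, c⟩ => h3 t a b c⟩
  · rintro ⟨h1, h2, h3⟩
    exact ⟨h1, h2, fun t a b c => h3 ⟨t, a, b, c⟩⟩

end lang

theorem tz_eq' {z w : ℕ} {X : List α} (h1 : z ≤ w) (h2 : w ≤ X.length) (h3 : Wo (X.take w))
    (h4 : ∀ t, z ≤ t → t < w → ¬ Wo (X.take t)) : tz Wo z X = w := by
  unfold tz
  apply le_antisymm
  · exact Nat.sInf_le ⟨h1, h2, h3⟩
  · refine le_csInf ⟨w, h1, h2, h3⟩ ?_
    rintro t ⟨a1, a2, a3⟩
    by_contra hlt
    push Not at hlt
    exact h4 t a1 hlt a3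

theorem tz_spec {z w : ℕ} {X : List α} (h1 : z ≤ w) (h2 : w ≤ X.length) (h3 : Wo (X.take w)) :
    z ≤ tz Wo z X ∧ tz Wo z X ≤ w ∧ Wo (X.take (tz Wo z X)) := by
  have h := Nat.sInf_mem (s := {t | z ≤ t ∧ t ≤ X.length ∧ Wo (X.take t)}) ⟨w, h1, h2, h3⟩
  exact ⟨h.1, Nat.sInf_le ⟨h1, h2, h3⟩, h.2.2⟩

theorem Walls.gap' (H : Walls Wo n W) {X : List α} {s t : ℕ} (hst : s < t) (ht : t ≤ X.length)
    (h1 : Wo (X.take s)) (h2 : Wo (X.take t)) : s + W < t := by
  have e : X.take t = X.take s ++ (X.drop s).take (t - s) := by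
    rw [← List.take_append_drop s (X.take t), List.take_take, min_eq_left hst.le, List.drop_take]
  rw [e] at h2
  have := H.gap _ _ h1 h2 (by
    intro h0
    have := congrArg List.length h0
    simp at this
    omega)
  rw [List.length_take, List.length_drop] at this
  omega

section main

variable {N p0 z K C0 T0 : ℕ} {x : ℕ → ℕ} {BadT : ℕ → Prop}

/-- candidate `k'` is visible and bad in `Q` -/
def Vis (Wo : List α → Prop) (N : ℕ) (BadT : ℕ → Prop) (p0 z : ℕ) (x : ℕ → ℕ) (k : ℕ)
    (Q : List α) : Prop :=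
  ∃ A, A <+: Q ∧ A ∈ Bd Wo N BadT p0 z (x k)

open Classical in
/-- spoiled candidates -/
noncomputable def Sp (Wo : List α → Prop) (N : ℕ) (BadT : ℕ → Prop) (p0 z K : ℕ) (x : ℕ → ℕ)
    (X : List α) : Finset ℕ :=
  (Finset.range K).filter fun k => ∃ k' < K, k' ≠ k ∧ Vis Wo N BadT p0 z x k' (X.drop (x k))

open Classical in
theorem spoil (H : Walls Wo n W) (hx : ∀ k < K, x k ≤ p0) (hW : 2 * (p0 + N) ≤ W)
    (hz : 2 * p0 + 2 * N + n + T0 ≤ z)
    (hB : ∀ T, T0 ≤ T → (((Finset.range K ×ˢ Finset.range K).filter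
      (fun ab => ab.1 ≠ ab.2 ∧ BadT (T + x ab.1 - x ab.2))).card ≤ C0))
    (hE : ∀ w z : ℕ, (((Finset.range K ×ˢ Finset.range K).filter
      (fun ab => ab.1 ≠ ab.2 ∧ z + x ab.1 ≤ w + x ab.2 + N ∧ w + x ab.2 ≤ z + x ab.1 + N)).card
        ≤ C0))
    (X : List α) (hXl : p0 ≤ X.length) : (Sp Wo N BadT p0 z K x X).card ≤ 3 * C0 := by
  set wA := tz Wo (z - p0) X with hwA
  set wB := tz Wo (z + p0) X with hwB
  set wE := tz Wo (z - p0 - N) X with hwE
  set SB : ℕ → Finset (ℕ × ℕ) := fun T => (Finset.range K ×ˢ Finset.range K).filter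
      (fun ab => ab.1 ≠ ab.2 ∧ T0 ≤ T ∧ BadT (T + x ab.1 - x ab.2)) with hSB
  set SE : Finset (ℕ × ℕ) := (Finset.range K ×ˢ Finset.range K).filter
      (fun ab => ab.1 ≠ ab.2 ∧ z + x ab.1 ≤ wE + x ab.2 + N ∧ wE + x ab.2 ≤ z + x ab.1 + N)
    with hSE
  have hSBc : ∀ T, (SB T).card ≤ C0 := by
    intro T
    by_cases hT : T0 ≤ T
    · refine le_trans (Finset.card_le_card ?_) (hB T hT)
      intro ab h
      rw [hSB, Finset.mem_filter] at h
      rw [Finset.mem_filter]
      exact ⟨h.1, h.2.1, h.2.2.2⟩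
    · have : SB T = ∅ := by
        rw [hSB, Finset.filter_eq_empty_iff]
        intro ab _ h
        exact hT h.2.1
      rw [this]; simp
  have hsub : Sp Wo N BadT p0 z K x X ⊆
      ((SB (wA - p0)).image Prod.snd ∪ (SB (wB - p0)).image Prod.snd) ∪ SE.image Prod.fst := by
    intro k hk
    unfold Sp at hk
    rw [Finset.mem_filter, Finset.mem_range] at hk
    obtain ⟨hkK, k', hk'K, hne, A, ⟨B, hAB⟩, hA1, hA2⟩ := hk
    have hxk := hx k hkK
    have hxk' := hx k' hk'K
    have hX : X = X.take (x k) ++ (A ++ B) := by rw [hAB, List.take_append_drop]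
    have hl : (X.take (x k)).length = x k := by rw [List.length_take]; omega
    have hXl' : X.length = x k + A.length + B.length := by
      have := congrArg List.length hX
      rw [List.length_append, hl, List.length_append] at this
      omega
    have hwall : ∀ t, n ≤ t → t ≤ A.length → (Wo (X.take (x k + t)) ↔ Wo (A.take t)) := by
      intro t h1 h2
      have e := H.take (X.take (x k)) (A ++ B) h1 (by rw [List.length_append]; omega)
      rw [hl, ← hX, List.take_append_of_le_length h2] at e
      exact e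
    have hAl := hA1.1
    rcases hA2 with ⟨t, ht, hta, htb, hwt⟩ | hbad
    · -- E
      rw [Finset.mem_union]; right
      rw [Finset.mem_image]
      have hwt' : Wo (X.take (x k + t)) := (hwall t (by omega) ht).2 hwt
      have hs := tz_spec (z := z - p0 - N) (w := x k + t) (X := X) (by omega) (by omega) hwt'
      have he : wE = x k + t := by
        by_contra hneq
        have hlt : tz Wo (z - p0 - N) X < x k + t := lt_of_le_of_ne hs.2.1 hneq
        have := H.gap' hlt (by omega) hs.2.2 hwt'
        omega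
      refine ⟨(k, k'), ?_, rfl⟩
      rw [hSE, Finset.mem_filter, Finset.mem_product, Finset.mem_range, Finset.mem_range]
      refine ⟨⟨hkK, hk'K⟩, fun h => hne h.symm, ?_, ?_⟩
      · simp only; omega
      · simp only; omega
    · -- B
      rw [Finset.mem_union]; left
      rw [Finset.mem_union]
      have hw : Wo (X.take (x k + A.length)) := (hwall A.length (by omega) le_rfl).2 (by
        rw [List.take_length]; exact hA1.2.1)
      have hno : ∀ t, z + x k ≤ t + x k' → t < x k + A.length → ¬ Wo (X.take t) := by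
        intro t h1 h2 h3
        obtain ⟨s, rfl⟩ := Nat.exists_eq_add_of_le (show x k ≤ t by omega)
        exact hA1.2.2 s (by omega) (by omega) ((hwall s (by omega) (by omega)).1 h3)
      have hbad' : BadT ((x k + A.length - p0) + x k' - x k) := by
        have e : (x k + A.length - p0) + x k' - x k = A.length + x k' - p0 := by omega
        rw [e]; exact hbad
      by_cases hlt : x k + A.length < z + p0
      · left
        have hs := tz_spec (z := z - p0) (w := x k + A.length) (X := X) (by omega) (by omega) hw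
        have he : wA = x k + A.length := by
          by_contra hneq
          have hlt' : tz Wo (z - p0) X < x k + A.length := lt_of_le_of_ne hs.2.1 hneq
          have := H.gap' hlt' (by omega) hs.2.2 hw
          omega
        rw [Finset.mem_image]
        refine ⟨(k', k), ?_, rfl⟩
        rw [he, hSB, Finset.mem_filter, Finset.mem_product, Finset.mem_range, Finset.mem_range]
        exact ⟨⟨hk'K, hkK⟩, hne, by omega, hbad'⟩
      · right
        have he : wB = x k + A.length := tz_eq' (by omega) (by omega) hw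
          (fun t h1 h2 => hno t (by omega) h2)
        rw [Finset.mem_image]
        refine ⟨(k', k), ?_, rfl⟩
        rw [he, hSB, Finset.mem_filter, Finset.mem_product, Finset.mem_range, Finset.mem_range]
        exact ⟨⟨hk'K, hkK⟩, hne, by omega, hbad'⟩
  have h1 := (Finset.card_le_card hsub).trans (Finset.card_union_le _ _)
  have h2 := Finset.card_union_le ((SB (wA - p0)).image Prod.snd) ((SB (wB - p0)).image Prod.snd)
  have h3 := (Finset.card_image_le (s := SB (wA - p0)) (f := Prod.snd)).trans (hSBc _)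
  have h4 := (Finset.card_image_le (s := SB (wB - p0)) (f := Prod.snd)).trans (hSBc _)
  have h5 : (SE.image Prod.fst).card ≤ C0 :=
    (Finset.card_image_le (s := SE) (f := Prod.fst)).trans (hE wE z)
  omega

end main

end Crest.Agent.R320.Nat_603
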