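import Mathlib
import Crest.Agent.R320.Blk2_606

/-!
Row 320: the two schemes on the natural chain (block end = first left-looking wall at a place `≥ z`),
from a black box gadget of scheme 1 and a ruler; output = (s1), (s2), (cc) of the top #13363.
-/

set_option autoImplicit false
set_option linter.unusedSectionVars false

namespace Crest.Agent.R320.Nat_606

open Finset Crest.Agent.R320.ExactR_237 Crest.Agent.R320.Sch2_606 Crest.Agent.R320.Sc2_606
  Crest.Agent.R320.Blk2_606

section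

variable {A S V : Type} [Monoid S] [AddCommGroup V]

/-- left-looking rule with window `n` and gaps `> g`. -/
structure Rule (Wo : List A → Prop) (n g : ℕ) : Prop where
  loc : ∀ P Q : List A, n ≤ Q.length → (Wo (P ++ Q) ↔ Wo Q)
  gap : ∀ (U : List A) (s t : ℕ), n ≤ s → s < t → t ≤ U.length → Wo (U.take s) → Wo (U.take t) →
    g < t - s

/-- blocks. -/
def XX (Wo : List A → Prop) (z : ℕ) : Set (List A) :=
  {X | z ≤ X.length ∧ Wo X ∧ ∀ s, z ≤ s → s < X.length → ¬ Wo (X.take s)}

/-- block rests. -/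
def YB (Wo : List A → Prop) (z p0 : ℕ) (Y : List A) : Prop :=
  z - p0 ≤ Y.length ∧ Wo Y ∧ ∀ s, z - p0 ≤ s → s < Y.length → ¬ Wo (Y.take s)

/-- bad block rests. -/
def BadY (Wo : List A → Prop) (z p0 N : ℕ) (BadT : ℕ → Prop) (Y : List A) : Prop :=
  (Y.length < z - p0 + N ∨ ∃ s, z - p0 - N ≤ s ∧ s < z - p0 ∧ Wo (Y.take s)) ∨ BadT Y.length

variable {Wo : List A → Prop} {n g z p0 N : ℕ}

theorem take_shift (U : List A) {F s : ℕ} :
    U.take (F + s) = U.take F ++ (U.drop F).take s := by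
  rw [List.take_add]

/-- walls seen from a later frame. -/
theorem wall_shift (hR : Rule Wo n g) (U : List A) {F s : ℕ} (hs : n ≤ s)
    (hl : F + s ≤ U.length) : Wo (U.take (F + s)) ↔ Wo ((U.drop F).take s) := by
  rw [take_shift]
  apply hR.loc
  rw [List.length_take, List.length_drop]
  omega

theorem xx_pref (X : List A) (hX : X ∈ XX Wo z) (Y : List A) (h : X ++ Y ∈ XX Wo z) : Y = [] := by
  by_contra hne
  have hpos : 0 < Y.length := List.length_pos_iff.2 hne
  apply h.2.2 X.length hX.1 (by rw [List.length_append]; omega)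
  rw [List.take_left]
  exact hX.2.1

theorem xx_yb (hR : Rule Wo n g) (hz : p0 + n ≤ z) (X1 Y : List A) (hX1 : X1.length = p0) :
    X1 ++ Y ∈ XX Wo z ↔ YB Wo z p0 Y := by
  have hlen : (X1 ++ Y).length = p0 + Y.length := by rw [List.length_append, hX1]
  have htk : ∀ s, (X1 ++ Y).take (p0 + s) = X1 ++ Y.take s := by
    intro s
    rw [← hX1, List.take_length_add_append]
  constructor
  · rintro ⟨h1, h2, h3⟩
    rw [hlen] at h1 h3
    refine ⟨by omega, (hR.loc X1 Y (by omega)).1 h2, fun s hs1 hs2 hw => ?_⟩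
    apply h3 (p0 + s) (by omega) (by omega)
    rw [htk]
    exact (hR.loc X1 (Y.take s) (by rw [List.length_take]; omega)).2 hw
  · rintro ⟨h1, h2, h3⟩
    refine ⟨by rw [hlen]; omega, (hR.loc X1 Y (by omega)).2 h2, fun s hs1 hs2 hw => ?_⟩
    rw [hlen] at hs2
    obtain ⟨u, rfl⟩ := Nat.exists_eq_add_of_le (show p0 ≤ s by omega)
    apply h3 u (by omega) (by omega)
    rw [htk] at hw
    exact (hR.loc X1 (Y.take u) (by rw [List.length_take]; omega)).1 hw

/-- The black box of scheme 1. -/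
structure Box (φ : List A → S) (act : V → S → V) (N : ℕ) (BadT : ℕ → Prop)
    (lam rho : List A → Option V) (nu : List A → V) : Prop where
  len : ∀ p v, lam p = some v → p.length ≤ N
  sound : ∀ p q v b, lam p = some v → rho q = some b → b = act v (φ (p ++ q)) + nu (p ++ q)
  complete : ∀ u : List A, 2 * N ≤ u.length → ¬ BadT u.length → ∀ v, ∃ p q, p ++ q = u ∧
    lam p = some v ∧ (rho q).isSome

/-- left legality of scheme 1. -/
def LP1 (φ : List A → S) (act : V → S → V) (p0 : ℕ) (nu2 : List A → V)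
    (lam : List A → Option V) (P : List A) (v : V) : Prop :=
  p0 ≤ P.length ∧ lam (P.drop p0) = some (act v (φ (P.take p0)) + nu2 (P.take p0))

open Classical in
/-- right reading of scheme 1. -/
noncomputable def R1 (Wo : List A → Prop) (z p0 N : ℕ) (rho : List A → Option V) (Q : List A) :
    Option V :=
  if z - p0 ≤ Q.length ∧ Wo Q ∧ ∀ s, z - p0 - N ≤ s → s < Q.length → ¬ Wo (Q.take s) then rho Q
  else none

/-- zone map. -/
def T (φ : List A → S) (act : V → S → V) (p0 : ℕ) (nu2 nu : List A → V) (v : V) (X : List A) : V :=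
  act (act v (φ (X.take p0)) + nu2 (X.take p0)) (φ (X.drop p0)) + nu (X.drop p0)

variable {φ : List A → S} {act : V → S → V} {BadT : ℕ → Prop}
  {lam rho : List A → Option V} {nu nu2 : List A → V}

/-- **(s1)** -/
theorem s1 (hR : Rule Wo n g) (hz : p0 + N + n ≤ z) (hB : Box φ act N BadT lam rho nu)
    (P : List A) (v : V) (Q : List A) (b : V) (hP : LP1 φ act p0 nu2 lam P v)
    (hQ : R1 Wo z p0 N rho Q = some b) :
    P ++ Q ∈ XX Wo z ∧ T φ act p0 nu2 nu v (P ++ Q) = b := by
  unfold R1 at hQ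
  split_ifs at hQ with hc
  obtain ⟨h1, h2, h3⟩ := hc
  obtain ⟨hp, hl⟩ := hP
  have hlenP := hB.len _ _ hl
  rw [List.length_drop] at hlenP
  refine ⟨⟨by rw [List.length_append]; omega, (hR.loc P Q (by omega)).2 h2, ?_⟩, ?_⟩
  · intro s hs1 hs2 hw
    rw [List.length_append] at hs2
    obtain ⟨u, rfl⟩ := Nat.exists_eq_add_of_le (show P.length ≤ s by omega)
    rw [List.take_length_add_append] at hw
    exact h3 u (by omega) (by omega)
      ((hR.loc P (Q.take u) (by rw [List.length_take]; omega)).1 hw)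
  · unfold T
    rw [List.take_append_of_le_length hp, List.drop_append_of_le_length hp]
    exact (hB.sound _ _ _ _ hl hQ).symm

/-- completeness of scheme 1 at blocks which are not bad. -/
theorem c1 (hR : Rule Wo n g) (hz : p0 + 2 * N + n ≤ z) (hB : Box φ act N BadT lam rho nu)
    (X : List A) (hX : X ∈ XX Wo z) (hb : ¬ BadY Wo z p0 N BadT (X.drop p0)) (v : V) :
    ∃ P Q, X = P ++ Q ∧ p0 ≤ P.length ∧ LP1 φ act p0 nu2 lam P v ∧
      (R1 Wo z p0 N rho Q).isSome := by
  unfold BadY at hb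
  push Not at hb
  obtain ⟨⟨hb1, hb2⟩, hb3⟩ := hb
  have hXl := hX.1
  have hlt : (X.take p0).length = p0 := by rw [List.length_take]; omega
  have hYX : YB Wo z p0 (X.drop p0) := by
    rw [← xx_yb hR (by omega) (X.take p0) (X.drop p0) hlt, List.take_append_drop]
    exact hX
  obtain ⟨p, q, hpq, hl, hr⟩ := hB.complete (X.drop p0) (by omega) hb3
    (act v (φ (X.take p0)) + nu2 (X.take p0))
  have hpl := hB.len _ _ hl
  have hlen : p.length + q.length = (X.drop p0).length := by rw [← hpq, List.length_append]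
  refine ⟨X.take p0 ++ p, q, ?_, ?_, ⟨?_, ?_⟩, ?_⟩
  · rw [List.append_assoc, hpq, List.take_append_drop]
  · rw [List.length_append]; omega
  · rw [List.length_append]; omega
  · have h1 : (X.take p0 ++ p).take p0 = X.take p0 := by
      rw [List.take_append_of_le_length (by omega), List.take_take, min_self]
    have h2 : (X.take p0 ++ p).drop p0 = p := List.drop_left' hlt
    rw [h1, h2]
    exact hl
  · have hc : z - p0 ≤ q.length ∧ Wo q ∧
        ∀ s, z - p0 - N ≤ s → s < q.length → ¬ Wo (q.take s) := by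
      refine ⟨by omega, ?_, ?_⟩
      · have := hYX.2.1
        rw [← hpq] at this
        exact (hR.loc p q (by omega)).1 this
      · intro s hs1 hs2 hw
        have hw' : Wo ((X.drop p0).take (p.length + s)) := by
          rw [← hpq, List.take_length_add_append]
          exact (hR.loc p (q.take s) (by rw [List.length_take]; omega)).2 hw
        rcases lt_or_ge (p.length + s) (z - p0) with h | h
        · exact hb2 _ (by omega) h hw'
        · exact hYX.2.2 _ h (by omega) hw'
    unfold R1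
    rw [if_pos hc]
    exact hr

/-- first wall at or after `a` in `U` (whose end is a wall). -/
theorem first_wall (U : List A) {a : ℕ} (ha : a ≤ U.length) (hU : Wo U) :
    ∃ t, a ≤ t ∧ t ≤ U.length ∧ Wo (U.take t) ∧ ∀ s, a ≤ s → s < t → ¬ Wo (U.take s) := by
  classical
  have hex : ∃ t, a ≤ t ∧ Wo (U.take t) := ⟨U.length, ha, by rw [List.take_length]; exact hU⟩
  refine ⟨Nat.find hex, (Nat.find_spec hex).1, Nat.find_min' hex ⟨ha, by
    rw [List.take_length]; exact hU⟩, (Nat.find_spec hex).2, fun s h1 h2 h3 =>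
    Nat.find_min hex h2 ⟨h1, h3⟩⟩

/-- the block rest at a frame point `F` of `U`. -/
theorem yb_at (hR : Rule Wo n g) (hz : p0 + n ≤ z) (U : List A) {F t : ℕ}
    (h1 : F + (z - p0) ≤ t) (h2 : t ≤ U.length) (h3 : Wo (U.take t))
    (h4 : ∀ s, F + (z - p0) ≤ s → s < t → ¬ Wo (U.take s)) :
    YB Wo z p0 ((U.drop F).take (t - F)) := by
  have hl : ((U.drop F).take (t - F)).length = t - F := by
    rw [List.length_take, List.length_drop]; omega
  refine ⟨by rw [hl]; omega, ?_, ?_⟩
  · rw [← wall_shift hR U (by omega) (by omega)]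
    have : F + (t - F) = t := by omega
    rw [this]; exact h3
  · intro s hs1 hs2 hw
    rw [hl] at hs2
    rw [List.take_take, min_eq_left (by omega)] at hw
    rw [← wall_shift hR U (by omega) (by omega)] at hw
    exact h4 (F + s) (by omega) (by omega) hw

variable {K R C1 : ℕ} {c : ℕ → ℕ}

theorem hV (hR : Rule Wo n g) (hz : p0 + n ≤ z) (hp0 : ∀ k < K, c k ≤ p0)
    (X : List A) (hX : X ∈ XX Wo z) (X2 : List A) (hX2 : X2 ∈ XX Wo z) (j : ℕ) (_hj : j < K)
    (k : ℕ) (hk : k < K) :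
    ∃ Y1, YB Wo z p0 Y1 ∧ Y1 <+: (X ++ X2).drop (c k + (p0 - c j)) := by
  have h1 := hX.1
  have h2 := hX2.1
  have h3 := hp0 k hk
  have hlen : (X ++ X2).length = X.length + X2.length := List.length_append
  have hU : Wo (X ++ X2) := (hR.loc X X2 (by omega)).2 hX2.2.1
  obtain ⟨t, ht1, ht2, ht3, ht4⟩ := first_wall (X ++ X2)
    (a := c k + (p0 - c j) + (z - p0)) (by omega) hU
  exact ⟨_, yb_at hR hz (X ++ X2) ht1 ht2 ht3 ht4, List.take_prefix _ _⟩

/-- **spoiled candidates**. -/
theorem hSP (hR : Rule Wo n g) (hz : 2 * p0 + 2 * N + n ≤ z) (hg : 2 * p0 + 2 * N ≤ g)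
    (hp0 : ∀ k < K, c k ≤ p0)
    (r1 : ∀ k < K, ∀ j < K, ∀ k' < K, ∀ j' < K, j ≠ k → j' ≠ k' →
      |((c k : ℤ) - c j) - ((c k' : ℤ) - c j')| ≤ 2 * N → k = k')
    (r2 : ∀ t, ∃ J : Finset ℕ, J.card ≤ C1 ∧ ∀ k < K,
      (∃ j < K, j ≠ k ∧ BadT (t - (c k + (p0 - c j)))) → k ∈ J)
    (X : List A) (hX : X ∈ XX Wo z) (X2 : List A) (hX2 : X2 ∈ XX Wo z) :
    ∃ J : Finset ℕ, J.card < 2 + 2 * C1 ∧
      ∀ k < K, (∃ j < K, j ≠ k ∧ ∃ Y1, YB Wo z p0 Y1 ∧ BadY Wo z p0 N BadT Y1 ∧
        Y1 <+: (X ++ X2).drop (c k + (p0 - c j))) → k ∈ J := by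
  classical
  set U := X ++ X2 with hUdef
  have h1 := hX.1
  have h2 := hX2.1
  have hlen : U.length = X.length + X2.length := List.length_append
  have hU : Wo U := (hR.loc X X2 (by omega)).2 hX2.2.1
  obtain ⟨t0, ht1, ht2, ht3, ht4⟩ := first_wall U (a := z - p0) (by omega) hU
  obtain ⟨t1, hs1, hs2, hs3, hs4⟩ := first_wall U (a := z + p0) (by omega) hU
  obtain ⟨J0, hJ0, hJ0k⟩ := r2 t0
  obtain ⟨J1, hJ1, hJ1k⟩ := r2 t1
  let JE : Finset ℕ := (Finset.range K).filter (fun k => ∃ j < K, j ≠ k ∧ ∃ e : ℕ,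
    n ≤ e ∧ e ≤ U.length ∧ Wo (U.take e) ∧ |(e : ℤ) - z - ((c k : ℤ) - c j)| ≤ N)
  have hJE : JE.card ≤ 1 := by
    rw [Finset.card_le_one]
    intro k hk k' hk'
    simp only [JE, Finset.mem_filter, Finset.mem_range] at hk hk'
    obtain ⟨hkK, j, hj, hjk, e, he1, he2, he3, he4⟩ := hk
    obtain ⟨hkK', j', hj', hjk', e', he1', he2', he3', he4'⟩ := hk'
    have a1 := hp0 k hkK
    have a2 := hp0 j hj
    have a3 := hp0 k' hkK'
    have a4 := hp0 j' hj'
    rw [abs_le] at he4 he4'
    have hee : e = e' := by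
      rcases lt_trichotomy e e' with h | h | h
      · have := hR.gap U e e' he1 h he2' he3 he3'
        omega
      · exact h
      · have := hR.gap U e' e he1' h he2 he3' he3
        omega
    subst hee
    apply r1 k hkK j hj k' hkK' j' hj' hjk hjk'
    rw [abs_le]
    constructor <;> omega
  refine ⟨JE ∪ (J0 ∪ J1), ?_, ?_⟩
  · have e1 := Finset.card_union_le JE (J0 ∪ J1)
    have e2 := Finset.card_union_le J0 J1
    omega
  · rintro k hk ⟨j, hj, hjk, Y1, ⟨y1, y2, y3⟩, hbad, hpre⟩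
    have a1 := hp0 k hk
    have a2 := hp0 j hj
    set F := c k + (p0 - c j) with hF
    have hY1len : Y1.length ≤ U.length - F := by
      have := hpre.length_le
      rwa [List.length_drop] at this
    have hY1 : Y1 = (U.drop F).take Y1.length := List.prefix_iff_eq_take.1 hpre
    have hFU : F + Y1.length ≤ U.length := by omega
    have hY1s : ∀ s, s ≤ Y1.length → Y1.take s = (U.drop F).take s := by
      intro s hs
      conv_lhs => rw [hY1]
      rw [List.take_take, min_eq_left hs]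
    simp only [Finset.mem_union]
    rcases hbad with (hE | ⟨s, hsa, hsb, hsw⟩) | hT
    · left
      simp only [JE, Finset.mem_filter, Finset.mem_range]
      refine ⟨hk, j, hj, hjk, F + Y1.length, by omega, hFU, ?_, ?_⟩
      · rw [wall_shift hR U (by omega) hFU, ← hY1]
        exact y2
      · rw [abs_le]; constructor <;> push_cast <;> omega
    · left
      simp only [JE, Finset.mem_filter, Finset.mem_range]
      refine ⟨hk, j, hj, hjk, F + s, by omega, by omega, ?_, ?_⟩
      · rw [wall_shift hR U (by omega) (by omega), ← hY1s s (by omega)]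
        exact hsw
      · rw [abs_le]; constructor <;> push_cast <;> omega
    · right
      -- the wall at the end of `Y1`
      have hw : Wo (U.take (F + Y1.length)) := by
        rw [wall_shift hR U (by omega) hFU, ← hY1]
        exact y2
      have hnw : ∀ s, F + (z - p0) ≤ s → s < F + Y1.length → ¬ Wo (U.take s) := by
        intro s hsa hsb hws
        obtain ⟨u, rfl⟩ := Nat.exists_eq_add_of_le (show F ≤ s by omega)
        rw [wall_shift hR U (by omega) (by omega), ← hY1s u (by omega)] at hws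
        exact y3 u (by omega) (by omega) hws
      have hsub : F + Y1.length - (c k + (p0 - c j)) = Y1.length := by omega
      rcases lt_or_ge (F + Y1.length) (z + p0) with h | h
      · left
        have : t0 = F + Y1.length := by
          rcases lt_trichotomy t0 (F + Y1.length) with h' | h' | h'
          · have := hR.gap U t0 (F + Y1.length) (by omega) h' hFU ht3 hw
            omega
          · exact h'
          · exact absurd hw (ht4 _ (by omega) h')
        apply hJ0k k hk
        refine ⟨j, hj, hjk, ?_⟩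
        rw [this, hsub]
        exact hT
      · right
        have : t1 = F + Y1.length := by
          rcases lt_trichotomy t1 (F + Y1.length) with h' | h' | h'
          · exact absurd hs3 (hnw _ (by omega) h')
          · exact h'
          · exact absurd hw (hs4 _ h h')
        apply hJ1k k hk
        refine ⟨j, hj, hjk, ?_⟩
        rw [this, hsub]
        exact hT

/-- **(s2) and (cc)** of #13363 on the natural chain. -/
theorem s2_cc {f : A → S} {act : V → S → V} {BadT : ℕ → Prop}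
    {lam1 rho1 : List A → Option V} {nu1 : List A → V}
    {lam : ℕ → List A → Option V} {rho : ℕ → List A → S → Option V} {nu : List A → S → V}
    (hR : Rule Wo n g) (hz : 2 * p0 + 2 * N + n ≤ z) (hz0 : p0 < z) (hg : 2 * p0 + 2 * N ≤ g)
    (hp0 : ∀ k < K, c k ≤ p0)
    (r1 : ∀ k < K, ∀ j < K, ∀ k' < K, ∀ j' < K, j ≠ k → j' ≠ k' →
      |((c k : ℤ) - c j) - ((c k' : ℤ) - c j')| ≤ 2 * N → k = k')
    (r2 : ∀ t, ∃ J : Finset ℕ, J.card ≤ C1 ∧ ∀ k < K,
      (∃ j < K, j ≠ k ∧ BadT (t - (c k + (p0 - c j)))) → k ∈ J)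
    (hG : Gad f act K (2 + 2 * C1) c lam rho nu)
    (hB : Box (pr f) act N BadT lam1 rho1 nu1) :
    ∃ R2 : List A → Option V,
      (∀ (P : List A) (v : V) (Q : List A) (b : V), L2 K c lam P v → R2 Q = some b →
        (∀ X ∈ XX Wo z, X <+: P ++ Q → ∀ P' Q', X = P' ++ Q' → P.length ≤ P'.length →
          LP1 (pr f) act p0 (fun X1 => nu X1 1) lam1 P' v → (R1 Wo z p0 N rho1 Q').isSome →
          False) →
        ∃ Q1 X2, Q = Q1 ++ X2 ∧ Q1 ≠ [] ∧ P ++ Q1 ∈ XX Wo z ∧ X2 ∈ XX Wo z ∧
          T (pr f) act p0 (fun X1 => nu X1 1) nu1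
            (T (pr f) act p0 (fun X1 => nu X1 1) nu1 v (P ++ Q1)) X2 = b) ∧
      (∀ X ∈ XX Wo z, ∀ X2 ∈ XX Wo z, ∀ v : V,
        (∃ P Q, X = P ++ Q ∧ LP1 (pr f) act p0 (fun X1 => nu X1 1) lam1 P v ∧
          (R1 Wo z p0 N rho1 Q).isSome) ∨
        (∃ P Q, X ++ X2 = P ++ Q ∧ P.length < X.length ∧ L2 K c lam P v ∧ (R2 Q).isSome)) := by
  have hPC : ∀ X ∈ XX Wo z, ∀ Y, X ++ Y ∈ XX Wo z → Y = [] := fun X hX Y h => xx_pref X hX Y h
  have hlen : ∀ X ∈ XX Wo z, p0 < X.length := fun X hX => lt_of_lt_of_le hz0 hX.1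
  have hYB : ∀ X1 Y : List A, X1.length = p0 → (X1 ++ Y ∈ XX Wo z ↔ YB Wo z p0 Y) :=
    fun X1 Y h => xx_yb hR (by omega) X1 Y h
  have hC1 : ∀ X ∈ XX Wo z, ¬ BadY Wo z p0 N BadT (X.drop p0) → ∀ v, ∃ P Q, X = P ++ Q ∧
      p0 ≤ P.length ∧ LP1 (pr f) act p0 (fun X1 => nu X1 1) lam1 P v ∧
      (R1 Wo z p0 N rho1 Q).isSome := fun X hX hb v => c1 hR (by omega) hB X hX hb v
  refine ⟨R2B K c p0 (XX Wo z) (YB Wo z p0) (BadY Wo z p0 N BadT)
    (T (pr f) act p0 (fun X1 => nu X1 1) nu1) (fun Y w => act w (pr f Y) + nu1 Y) rho, ?_, ?_⟩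
  · intro P v Q b hl hr hun
    exact Blk2_606.s2 (T := T (pr f) act p0 (fun X1 => nu X1 1) nu1)
      (mapY := fun Y w => act w (pr f Y) + nu1 Y) hPC hlen hYB (fun X _ v => rfl) hp0 hG
      (LP1 (pr f) act p0 (fun X1 => nu X1 1) lam1) (R1 Wo z p0 N rho1) hC1 P v Q b hl hr hun
  · intro X hX X2 hX2 v
    exact Blk2_606.cc (T := T (pr f) act p0 (fun X1 => nu X1 1) nu1)
      (mapY := fun Y w => act w (pr f Y) + nu1 Y) hlen hYB hp0 hG (LP1 (pr f) act p0 (fun X1 => nu X1 1) lam1) (R1 Wo z p0 N rho1)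
      hC1 (fun X hX X2 hX2 j hj k hk => hV hR (by omega) hp0 X hX X2 hX2 j hj k hk)
      (fun X hX X2 hX2 _ => hSP hR hz hg hp0 r1 r2 X hX X2 hX2) X hX X2 hX2 v

end

end Crest.Agent.R320.Nat_606
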