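import Crest.Agent.R320.Nest_151

/-!
# Row 320, item (9): the nest step theorem, completeness and heights (helper151)
-/

set_option autoImplicit false

namespace Crest.Agent.R320.Nest_151

open Crest.RegLang Crest.Agent.R320.Hk_851

universe u

variable {α : Type u} {σ : Type} {V : Type}

section step2

variable {nxt : List α → Option (ℕ × σ)} {n B : ℕ} {X : Set (List α)}
  {T : σ → V → V} {l : List α → Option V} {r : List α → Option (ℕ × V)} {D E G : Set σ} {B2 : ℕ}

/-- the cut data given by a visible step of type in `E \ D` -/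
theorem cut (hc : ChainOK nxt n B X) (hs : SchemeOK nxt n B X T l r E G B2)
    (hEG : ∀ t ∈ E, t ∉ D → t ∈ G)
    {Q Q' : List α} {ts1 : List σ} {c : ℕ} {t : σ} (hQ : Q ∈ X) (hp : Path nxt Q ts1 Q')
    (h1 : ∀ t ∈ ts1, t ∈ D) (h : nxt Q' = some (c, t)) (htE : t ∈ E) (htD : t ∉ D)
    (hB2 : B2 ≤ Q'.length) (v : V) :
    ∃ Q1 P w b, Q = Q1 ++ (P ++ w) ∧ Q' = P ++ w ∧ l P = some (act T ts1 v) ∧
      B ≤ w.length ∧ r w = some (b, T t (act T ts1 v)) ∧ c = P.length + b ∧
      Q1 ++ P ∈ MM nxt X T D E B2 v (act T ts1 v) P := by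
  obtain ⟨Q1, hQ1⟩ := hp.suffix
  have hQ' : Q' ∈ X := by
    apply hc.fac (u := Q1) (w := [])
    rw [List.append_nil, ← hQ1]
    exact hQ
  obtain ⟨P, w, e1, e2, e3, e4⟩ := hs.comp hQ' hB2 h (hEG t htE htD) (act T ts1 v)
  obtain ⟨⟨b, v'⟩, hr⟩ := Option.isSome_iff_exists.1 e3
  subst e1
  obtain ⟨e5, e6⟩ := hs.ex e2 hr hQ' h htE
  refine ⟨Q1, P, w, b, hQ1, rfl, e2, e4, by rw [e6]; exact hr, e5, ?_⟩
  subst hQ1
  have hn := hs.llen e2
  refine ⟨?_, ts1, P, [], hp.trunc hc hn, h1, Walk.nil (hs.lnone e2), Or.inl rfl, by simp, ?_⟩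
  · apply hc.fac (u := []) (w := w)
    rw [List.nil_append, List.append_assoc]
    exact hQ
  · rw [List.append_nil]

/-- completeness from a junction -/
theorem complete (hc : ChainOK nxt n B X) (hs : SchemeOK nxt n B X T l r E G B2)
    (hEG : ∀ t ∈ E, t ∉ D → t ∈ G) :
    ∀ (m : ℕ) (w : List α), w.length = m → w ∈ X → B ≤ w.length → ∀ b v0, r w = some (b, v0) →
      ∀ ts R, Walk nxt (w.drop b) ts R → (∀ t ∈ ts, t ∈ E) →
      ∃ ks : List (List α), (∀ k ∈ ks, k ∈ K0 nxt X T l r D E B2) ∧
        ∃ w', w' ∈ Kend nxt X T r D E B B2 (act T ts v0) R ∧ w = ks.flatten ++ w' := by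
  intro m
  induction m using Nat.strong_induction_on with
  | _ m ih =>
    intro w hm hwX hwB b v0 hr ts R hW hE
    have hbl := hs.rlen hr
    have hdX : w.drop b ∈ X := by
      apply hc.fac (u := w.take b) (w := [])
      rw [List.append_nil, List.take_append_drop]
      exact hwX
    rcases split (T := T) (D := D) (E := E) (B2 := B2) hW hc hdX hE v0 with h1 | h1
    · exact ⟨[], by simp, w, ⟨hwX, hwB, b, v0, hr, h1⟩, by simp⟩
    · obtain ⟨ts1, Q', c, t, ts3, h2, h3, h4, h5, h6, h7, h8⟩ := h1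
      have htE : t ∈ E := hE t (by rw [h8]; simp)
      obtain ⟨Q1, P, w', b', e1, e2, e3, e4, e5, e6, e7⟩ :=
        cut hc hs hEG hdX h2 h3 h4 htE h5 h6 v0
      have hw : w = (w.take b ++ (Q1 ++ P)) ++ w' := by
        conv_lhs => rw [← List.take_append_drop b w, e1]
        simp only [List.append_assoc]
      set k := w.take b ++ (Q1 ++ P) with hk
      have hkb : (w.take b).length = b := by rw [List.length_take]; omega
      have hkl : b + n ≤ k.length := by
        rw [hk]
        simp only [List.length_append, hkb]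
        have := hs.llen e3
        omega
      have hkX : k ∈ X := by
        apply hc.fac (u := []) (w := w')
        rw [List.nil_append, ← hw]
        exact hwX
      have hkr : r k = some (b, v0) := by
        have h9 := hs.rtake hr
        have h10 : w.take (b + n) = k.take (b + n) := by
          rw [hw, List.take_append_of_le_length hkl]
        rw [h10] at h9
        have h11 := hs.rext (k.drop (b + n)) h9
        rwa [List.take_append_drop] at h11
      have hkd : k.drop b = Q1 ++ P := by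
        have h13 : (w.take b ++ (Q1 ++ P)).drop (w.take b).length = Q1 ++ P := List.drop_left
        rw [hkb] at h13
        exact h13
      have hkK : k ∈ K0 nxt X T l r D E B2 :=
        ⟨hkX, b, v0, hkr, P, act T ts1 v0, e3, by rw [hkd]; exact e7⟩
      have hw'X : w' ∈ X := by
        apply hc.fac (u := k) (w := [])
        rw [List.append_nil, ← hw]
        exact hwX
      have hlt : w'.length < m := by
        have h12 := congrArg List.length hw
        rw [List.length_append] at h12
        have := hs.rpos hr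
        omega
      have hW' : Walk nxt (w'.drop b') ts3 R := by
        rw [e2, e6, List.drop_length_add_append] at h7
        exact h7
      obtain ⟨ks, g1, w'', g2, g3⟩ := ih w'.length hlt w' rfl hw'X e4 b' _ e5 ts3 R hW'
        (fun t' ht' => hE t' (by rw [h8]; simp [ht']))
      refine ⟨k :: ks, ?_, w'', ?_, ?_⟩
      · intro k' hk'
        rcases List.mem_cons.1 hk' with rfl | hk'
        · exact hkK
        · exact g1 k' hk'
      · rw [h8, act_append, act_cons]
        exact g2
      · rw [List.flatten_cons, List.append_assoc, ← g3]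
        exact hw

/-- the language computed by the star -/
def LL (nxt : List α → Option (ℕ × σ)) (X : Set (List α)) (T : σ → V → V)
    (l : List α → Option V) (r : List α → Option (ℕ × V)) (D E : Set σ) (B B2 : ℕ)
    (v v' : V) (R : List α) : Language α :=
  Kst nxt X T l D E B2 v * KStar.kstar (K0 nxt X T l r D E B2) * Kend nxt X T r D E B B2 v' R
    + MM nxt X T D E B2 v v' R

theorem LL_sound (hc : ChainOK nxt n B X) (hs : SchemeOK nxt n B X T l r E G B2) (hDE : D ⊆ E)
    {v v' : V} {R Q : List α} (hQ : Q ∈ X) {ts : List σ} {RQ : List α}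
    (hW : Walk nxt Q ts RQ) (hE : ∀ t ∈ ts, t ∈ E)
    (h : Q ∈ LL nxt X T l r D E B B2 v v' R) : RQ = R ∧ act T ts v = v' := by
  rcases h with h | h
  · obtain ⟨qk, hqk, w, hw, rfl⟩ := Language.mem_mul.1 h
    obtain ⟨q, hq, kk, hkk, rfl⟩ := Language.mem_mul.1 hqk
    obtain ⟨ks, rfl, hks⟩ := Language.mem_kstar.1 hkk
    obtain ⟨P, v1, hP, hM⟩ := hq
    obtain ⟨tsM, hM1, -, hM3⟩ := MM.walk hDE hM
    obtain ⟨ts2, R2, hW2⟩ := Walk.total hc (P ++ (ks.flatten ++ w))
    have hW3 := hM1.append hc hW2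
    rw [← List.append_assoc] at hW3
    obtain ⟨e1, e2⟩ := hW.det hW3
    have hPX : P ++ (ks.flatten ++ w) ∈ X := by
      obtain ⟨Z, hZ⟩ := hM1.path.suffix
      have h5 : q ++ ks.flatten ++ w = Z ++ (P ++ (ks.flatten ++ w)) ++ [] := by
        rw [List.append_nil]
        conv_lhs => rw [hZ]
        simp only [List.append_assoc]
      rw [h5] at hQ
      exact hc.fac hQ
    have h6 := sound hc hs hDE hw ks hks P v1 hP hPX ts2 R2 hW2
      (fun t ht => hE t (by rw [e1]; simp [ht]))
    refine ⟨e2.trans h6.1, ?_⟩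
    rw [e1, act_append, hM3]
    exact h6.2
  · obtain ⟨tsM, hM1, -, hM3⟩ := MM.walk hDE h
    obtain ⟨e1, e2⟩ := hW.det hM1
    exact ⟨e2, by rw [e1]; exact hM3⟩

theorem LL_complete (hc : ChainOK nxt n B X) (hs : SchemeOK nxt n B X T l r E G B2)
    (hEG : ∀ t ∈ E, t ∉ D → t ∈ G)
    {v : V} {R Q : List α} (hQ : Q ∈ X) {ts : List σ}
    (hW : Walk nxt Q ts R) (hE : ∀ t ∈ ts, t ∈ E) :
    Q ∈ LL nxt X T l r D E B B2 v (act T ts v) R := by
  rcases split (T := T) (D := D) (E := E) (B2 := B2) hW hc hQ hE v with h1 | h1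
  · exact Or.inr h1
  · obtain ⟨ts1, Q', c, t, ts3, h2, h3, h4, h5, h6, h7, h8⟩ := h1
    have htE : t ∈ E := hE t (by rw [h8]; simp)
    obtain ⟨Q1, P, w', b', e1, e2, e3, e4, e5, e6, e7⟩ :=
      cut hc hs hEG hQ h2 h3 h4 htE h5 h6 v
    have hw'X : w' ∈ X := by
      apply hc.fac (u := Q1 ++ P) (w := [])
      rw [List.append_nil, List.append_assoc, ← e1]
      exact hQ
    have hW' : Walk nxt (w'.drop b') ts3 R := by
      rw [e2, e6, List.drop_length_add_append] at h7
      exact h7
    obtain ⟨ks, g1, w'', g2, g3⟩ := complete hc hs hEG w'.length w' rfl hw'X e4 b' _ e5 ts3 R hW'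
      (fun t' ht' => hE t' (by rw [h8]; simp [ht']))
    left
    refine Language.mem_mul.2 ⟨(Q1 ++ P) ++ ks.flatten, ?_, w'', ?_, ?_⟩
    · exact Language.mem_mul.2 ⟨Q1 ++ P, ⟨P, _, e3, e7⟩, ks.flatten,
        Language.mem_kstar.2 ⟨ks, rfl, g1⟩, rfl⟩
    · rw [h8, act_append, act_cons]
      exact g2
    · rw [e1, g3]
      simp only [List.append_assoc]

end step2

end Crest.Agent.R320.Nest_151
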