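import Crest.Agent.R320.Nest_660

/-!
# Row 320: the promise step (first failure) for chains with lookahead (helper660)
-/

set_option autoImplicit false

namespace Crest.Agent.R320.Nest_660

open Crest.Agent.R320.Hk_851

universe u v

variable {α : Type u} {C : Chn α}

/-- soundness on zones of the class `G` only -/
def Gad.PSound {V : Type v} (g : Gad C V) (F : List α → V → V) (G : List α → Prop) : Prop :=
  ∀ P Q v d v' T, g.L P = some v → g.Rr Q = some (d, v') → C.nxt (P ++ Q) = some T →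
    G ((P ++ Q).take (T + C.l)) →
    T = P.length + d ∧ F ((P ++ Q).take (P.length + d + C.l)) v = v'

theorem Gad.Sound.psound {V : Type v} {g : Gad C V} {F : List α → V → V} (h : g.Sound F)
    (G : List α → Prop) : g.PSound F G := by
  intro P Q v d v' T h1 h2 h3 _
  obtain ⟨h4, h5⟩ := h _ _ _ _ _ h1 h2
  exact ⟨Option.some.inj (h3.symm.trans h4), h5⟩

section pstep

variable {V : Type v} {g : Gad C V} {F : List α → V → V} {T : V → V → Language α}

theorem pfirstcut {cl G : List α → Prop} (hs : g.PSound F G) (hg : g.Compl G)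
    {t c : List α} {Zs : List (List α)} {v : V}
    (hp : Path C (t ++ c) Zs c) (hz : ∀ Z ∈ Zs, cl Z ∨ G Z)
    (hnot : ¬ ∀ Z ∈ Zs, cl Z) :
    ∃ t1 c1 l1 Q' Zs1, t ++ c = t1 ++ c1 ++ l1 ++ Q' ∧ c1.length = C.l ∧
      Path C (t1 ++ c1) Zs1 c1 ∧ (∀ Z ∈ Zs1, cl Z) ∧ g.L (c1 ++ l1) = some (run F v Zs1) ∧
      ∃ r' t' v3 Zs2, Q' = r' ++ t' ++ c ∧ g.Rr Q' = some (r'.length, v3) ∧
        Path C (t' ++ c) Zs2 c ∧ (∀ Z ∈ Zs2, Z ∈ Zs) ∧ Zs2.length < Zs.length ∧
        run F v3 Zs2 = run F v Zs := by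
  obtain ⟨Zs1, Z, Zs2, rfl, h1, h2⟩ := first_bad hnot
  obtain ⟨Qm, hp1, hp2⟩ := hp.split
  cases hp2 with
  | @cons _ T _ _ hn hp3 =>
  have hG : G (Qm.take (T + C.l)) := (hz _ (by simp)).resolve_left h2
  obtain ⟨P, Q', rfl, hL, hR⟩ := hg _ _ hn hG (run F v Zs1)
  obtain ⟨⟨d, v3⟩, hR⟩ := Option.isSome_iff_exists.1 hR
  obtain ⟨hT, h4⟩ := hs _ _ _ _ _ _ hL hR hn hG
  obtain ⟨t1, ht1⟩ := hp1.suffix
  have hPl := g.Llen hL
  have hRl := g.Rlen hR
  obtain ⟨t', ht'⟩ := hp3.suffix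
  have hd : (P ++ Q').drop T = Q'.drop d := by
    rw [hT, ← List.drop_drop, List.drop_left]
  rw [hd] at ht' hp3
  have hc1 : (P.take C.l).length = C.l := by rw [List.length_take]; omega
  refine ⟨t1, P.take C.l, P.drop C.l, Q', Zs1, ?_, hc1, ?_, h1, ?_, Q'.take d, t', v3, Zs2, ?_, ?_,
    ?_, ?_, ?_, ?_⟩
  · rw [ht1]
    simp only [List.append_assoc]
    rw [← List.append_assoc (P.take C.l), List.take_append_drop]
  · refine hp1.restrict (R := P.drop C.l ++ Q') ?_ ?_ (by omega)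
    · rw [ht1]
      simp only [List.append_assoc]
      rw [← List.append_assoc (P.take C.l), List.take_append_drop]
    · rw [← List.append_assoc, List.take_append_drop]
  · rw [List.take_append_drop]; exact hL
  · rw [List.append_assoc, ← ht', List.take_append_drop]
  · rw [List.length_take, hR]
    congr 2
    omega
  · rw [← ht']; exact hp3
  · intro Z' hZ'; simp [hZ']
  · simp only [List.length_append, List.length_cons]; omega
  · rw [run_append]
    show _ = run F (F _ (run F v Zs1)) Zs2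
    rw [hT, h4]

theorem pTT_compl_aux {cl G : List α → Prop} (hs : g.PSound F G) (hg : g.Compl G)
    (hTc : ∀ x x' t c Zs, c.length = C.l → Path C (t ++ c) Zs c → (∀ Z ∈ Zs, cl Z) →
      run F x Zs = x' → t ++ c ∈ T x x') :
    ∀ (n : ℕ) (t c r : List α) (Zs : List (List α)) (v : V), Zs.length ≤ n → c.length = C.l →
      Path C (t ++ c) Zs c → (∀ Z ∈ Zs, cl Z ∨ G Z) →
      g.Rr (r ++ t ++ c) = some (r.length, v) →
      r ++ t ++ c ∈ KStar.kstar (Kk g T) * En g T (run F v Zs) := by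
  intro n
  induction n with
  | zero =>
    intro t c r Zs v hn hc hp hz hr
    have hZ : ∀ Z ∈ Zs, cl Z := by
      intro Z h
      rw [List.length_eq_zero_iff.1 (Nat.le_zero.1 hn)] at h
      simp at h
    refine Language.mem_mul.2 ⟨[], Language.nil_mem_kstar _, _, ?_, rfl⟩
    exact ⟨r, t, c, v, rfl, hc, hr, hTc _ _ _ _ _ hc hp hZ rfl⟩
  | succ n ih =>
    intro t c r Zs v hn hc hp hz hr
    by_cases hZ : ∀ Z ∈ Zs, cl Z
    · refine Language.mem_mul.2 ⟨[], Language.nil_mem_kstar _, _, ?_, rfl⟩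
      exact ⟨r, t, c, v, rfl, hc, hr, hTc _ _ _ _ _ hc hp hZ rfl⟩
    · obtain ⟨t1, c1, l1, Q', Zs1, e, hc1, hp1, hz1, hL, r', t', v3, Zs2, rfl, hr', hp2, hz2, hl2,
        hrun⟩ := pfirstcut (v := v) hs hg hp hz hZ
      have h1 := ih t' c r' Zs2 v3 (by omega) hc hp2 (fun Z h => hz Z (hz2 Z h)) hr'
      obtain ⟨m, hm, q, hq, e2⟩ := Language.mem_mul.1 h1
      obtain ⟨S, rfl, hS⟩ := Language.mem_kstar.1 hm
      have hk : r ++ t1 ++ c1 ++ l1 ∈ Kk g T := by
        refine ⟨r, t1, c1, l1, v, run F v Zs1, rfl, hc1, ?_, hTc _ _ _ _ _ hc1 hp1 hz1 rfl, hL⟩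
        refine g.Rloc (r' ++ t' ++ c) ?_ ?_
        · have e3 : r ++ t1 ++ c1 ++ l1 ++ (r' ++ t' ++ c) = r ++ t ++ c := by
            rw [List.append_assoc r t c, e]
            simp only [List.append_assoc]
          rw [e3]; exact hr
        · have h9 := hc1
          simp only [List.length_append]; omega
      rw [hrun] at hq
      refine Language.mem_mul.2 ⟨((r ++ t1 ++ c1 ++ l1) :: S).flatten, ?_, q, hq, ?_⟩
      · refine Language.mem_kstar.2 ⟨_, rfl, ?_⟩
        intro y hy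
        rcases List.mem_cons.1 hy with rfl | hy
        · exact hk
        · exact hS y hy
      · rw [List.flatten_cons, List.append_assoc, e2, List.append_assoc r t c, e]
        simp only [List.append_assoc]

theorem pTT_compl {cl G : List α → Prop} (hs : g.PSound F G) (hg : g.Compl G)
    (hTc : ∀ x x' t c Zs, c.length = C.l → Path C (t ++ c) Zs c → (∀ Z ∈ Zs, cl Z) →
      run F x Zs = x' → t ++ c ∈ T x x') :
    ∀ x x' t c Zs, c.length = C.l → Path C (t ++ c) Zs c → (∀ Z ∈ Zs, cl Z ∨ G Z) →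
      run F x Zs = x' → t ++ c ∈ TT g T x x' := by
  intro v v1 t c Zs hc hp hz hrun
  by_cases hZ : ∀ Z ∈ Zs, cl Z
  · exact Or.inl (hTc _ _ _ _ _ hc hp hZ hrun)
  · obtain ⟨t1, c1, l1, Q', Zs1, e, hc1, hp1, hz1, hL, r', t', v3, Zs2, rfl, hr', hp2, hz2, hl2,
      hrun'⟩ := pfirstcut (v := v) hs hg hp hz hZ
    have h1 := pTT_compl_aux hs hg hTc Zs2.length t' c r' Zs2 v3 le_rfl hc hp2
      (fun Z h => hz Z (hz2 Z h)) hr'
    obtain ⟨m, hm, q, hq, e2⟩ := Language.mem_mul.1 h1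
    refine Or.inr (Language.mem_mul.2 ⟨t1 ++ c1 ++ l1 ++ m, Language.mem_mul.2
      ⟨t1 ++ c1 ++ l1, ?_, m, hm, rfl⟩, q, ?_, ?_⟩)
    · exact ⟨t1, c1, l1, _, rfl, hc1, hTc _ _ _ _ _ hc1 hp1 hz1 rfl, hL⟩
    · rw [hrun', hrun] at hq; exact hq
    · rw [List.append_assoc, e2, e]


/-- all anchors of `w` before the last `l` letters start a zone of class `G` -/
def Along (C : Chn α) (G : List α → Prop) (w : List α) : Prop :=
  ∀ Zs Qa, Path C w Zs Qa → C.l < Qa.length → ∃ T, C.nxt Qa = some T ∧ G (Qa.take (T + C.l))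

theorem pjoin {G : List α → Prop} (hs : g.PSound F G) {v0 : V} {P Q r t c R' : List α} {v : V}
    {Zs : List (List α)} (hl0 : 0 < C.l) (hA : Along C G (P ++ Q ++ R'))
    (hP : P ∈ StS g F v0) (hQ : ∃ l', Q = r ++ t ++ c ++ l')
    (hr : g.Rr Q = some (r.length, v)) (hc : c.length = C.l) (hZ : Path C (t ++ c) Zs c) :
    ∃ Zs', Path C (P ++ r ++ t ++ c) Zs' c ∧ run F v0 Zs' = run F v Zs := by
  obtain ⟨t0, c0, l0, Zs0, rfl, hc0, hp0, hL⟩ := hP
  have hRl := g.Rlen hr
  have hpa : Path C (t0 ++ c0 ++ l0 ++ Q ++ R') Zs0 (c0 ++ l0 ++ Q ++ R') := by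
    have := hp0.ext (l0 ++ Q ++ R')
    simpa only [List.append_assoc] using this
  obtain ⟨T1, hn1, hG1⟩ := hA _ _ hpa (by
    have h9 := hc0
    simp only [List.length_append]; omega)
  have hr' : g.Rr (Q ++ R') = some (r.length, v) := g.Rext R' hr
  have e0 : c0 ++ l0 ++ Q ++ R' = (c0 ++ l0) ++ (Q ++ R') := by simp only [List.append_assoc]
  rw [e0] at hn1 hG1
  obtain ⟨hT1, hF1⟩ := hs _ _ _ _ _ _ hL hr' hn1 hG1
  obtain ⟨l', rfl⟩ := hQ
  have hn : C.nxt (c0 ++ l0 ++ (r ++ t ++ c)) = some ((c0 ++ l0).length + r.length) := by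
    refine C.loc (l' ++ R') ?_ ?_
    · have e : c0 ++ l0 ++ (r ++ t ++ c) ++ (l' ++ R') = c0 ++ l0 ++ (r ++ t ++ c ++ l' ++ R') := by
        simp only [List.append_assoc]
      rw [e, hn1, hT1]
    · have h9 := hc
      simp only [List.length_append]; omega
  have htk : (c0 ++ l0 ++ (r ++ t ++ c)).take ((c0 ++ l0).length + r.length + C.l) =
      (c0 ++ l0 ++ (r ++ t ++ c ++ l' ++ R')).take ((c0 ++ l0).length + r.length + C.l) := by
    have e : c0 ++ l0 ++ (r ++ t ++ c ++ l' ++ R') =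
        (c0 ++ l0 ++ (r ++ t ++ c)) ++ (l' ++ R') := by
      simp only [List.append_assoc]
    rw [e]
    refine (List.take_append_of_le_length ?_).symm
    have h9 := hc
    simp only [List.length_append]; omega
  have hdr : (c0 ++ l0 ++ (r ++ t ++ c)).drop ((c0 ++ l0).length + r.length) = t ++ c := by
    have e : c0 ++ l0 ++ (r ++ t ++ c) = (c0 ++ l0 ++ r) ++ (t ++ c) := by
      simp only [List.append_assoc]
    rw [e, List.drop_left']
    simp only [List.length_append]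
  have hp1 : Path C (c0 ++ l0 ++ (r ++ t ++ c)) (_ :: Zs) c := Path.cons hn (by rw [hdr]; exact hZ)
  have hp2 := (hp0.ext (l0 ++ (r ++ t ++ c)))
  have e3 : c0 ++ (l0 ++ (r ++ t ++ c)) = c0 ++ l0 ++ (r ++ t ++ c) := by
    simp only [List.append_assoc]
  rw [e3] at hp2
  have hp3 := hp2.append hp1
  have e4 : t0 ++ c0 ++ (l0 ++ (r ++ t ++ c)) = t0 ++ c0 ++ l0 ++ r ++ t ++ c := by
    simp only [List.append_assoc]
  rw [e4] at hp3
  refine ⟨_, hp3, ?_⟩
  rw [run_append]
  show run F (F _ (run F v0 Zs0)) Zs = _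
  rw [htk, hF1]

theorem pst_mul {G : List α → Prop} (hs : g.PSound F G) (hl0 : 0 < C.l)
    (hT : ∀ x x' w, w ∈ T x x' → ∃ t c Zs, w = t ++ c ∧
      c.length = C.l ∧ Path C w Zs c ∧ run F x Zs = x') {v0 : V} {P Q R' : List α}
    (hA : Along C G (P ++ Q ++ R'))
    (hP : P ∈ StS g F v0) (hQ : Q ∈ Kk g T) : P ++ Q ∈ StS g F v0 := by
  obtain ⟨r, t, c, l', v, v', rfl, hc, hr, ht, hL⟩ := hQ
  obtain ⟨t1, c1, Zs, e1, hc1, hp, hrun⟩ := hT _ _ _ ht
  obtain ⟨rfl, rfl⟩ : t = t1 ∧ c = c1 := List.append_inj' e1 (by rw [hc, hc1])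
  obtain ⟨Zs', h1, h2⟩ := pjoin hs hl0 hA hP ⟨l', rfl⟩ hr hc hp
  refine ⟨P ++ r ++ t, c, l', Zs', by simp only [List.append_assoc], hc, h1, ?_⟩
  rw [h2, hrun]; exact hL

theorem pst_star {G : List α → Prop} (hs : g.PSound F G) (hl0 : 0 < C.l)
    (hT : ∀ x x' w, w ∈ T x x' → ∃ t c Zs, w = t ++ c ∧
      c.length = C.l ∧ Path C w Zs c ∧ run F x Zs = x') {v0 : V} (R' : List α) :
    ∀ (S : List (List α)) (P : List α), Along C G (P ++ S.flatten ++ R') → P ∈ StS g F v0 →
      (∀ y ∈ S, y ∈ Kk g T) → P ++ S.flatten ∈ StS g F v0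
  | [], P, _, hP, _ => by simpa using hP
  | y :: S, P, hA, hP, h => by
    have e : P ++ (y :: S).flatten = P ++ y ++ S.flatten := by simp
    rw [e] at hA ⊢
    have hA1 : Along C G (P ++ y ++ (S.flatten ++ R')) := by
      simpa only [List.append_assoc] using hA
    have h1 := pst_mul hs hl0 hT hA1 hP (h y (by simp))
    exact pst_star hs hl0 hT R' S (P ++ y) hA h1 (fun z hz => h z (by simp [hz]))

theorem pTT_sound {G : List α → Prop} (hs : g.PSound F G) (hl0 : 0 < C.l)
    (hT : ∀ x x' w, w ∈ T x x' → ∃ t c Zs, w = t ++ c ∧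
      c.length = C.l ∧ Path C w Zs c ∧ run F x Zs = x') :
    ∀ x x' w R', w ∈ TT g T x x' → Along C G (w ++ R') → ∃ t c Zs, w = t ++ c ∧
      c.length = C.l ∧ Path C w Zs c ∧ run F x Zs = x' := by
  intro v0 v1 w R' hw hA
  rcases hw with hw | hw
  · exact hT _ _ _ hw
  · obtain ⟨Pm, hPm, q, hq, rfl⟩ := Language.mem_mul.1 hw
    obtain ⟨P, hP, m, hm, rfl⟩ := Language.mem_mul.1 hPm
    obtain ⟨S, rfl, hS⟩ := Language.mem_kstar.1 hm
    have h1 := pst_star hs hl0 hT (q ++ R') S P (by simpa only [List.append_assoc] using hA)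
      (st_sub hT hP) hS
    obtain ⟨r, t, c, v, rfl, hc, hr, ht⟩ := hq
    obtain ⟨t1, c1, Zs, e1, hc1, hp, hrun⟩ := hT _ _ _ ht
    obtain ⟨rfl, rfl⟩ : t = t1 ∧ c = c1 := List.append_inj' e1 (by rw [hc, hc1])
    obtain ⟨Zs', h2, h3⟩ := pjoin hs hl0 hA h1 ⟨[], by simp⟩ hr hc hp
    refine ⟨P ++ S.flatten ++ r ++ t, c, Zs', by simp only [List.append_assoc], hc, ?_, ?_⟩
    · have e : P ++ S.flatten ++ (r ++ t ++ c) = P ++ S.flatten ++ r ++ t ++ c := by
        simp only [List.append_assoc]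
      rw [e]; exact h2
    · rw [h3, hrun]

end pstep

/-- right words from an anchor which are not the start of a zone of class `G` -/
def Fail (C : Chn α) (G : List α → Prop) : Language α :=
  {Q | C.l < Q.length ∧ ¬ ∃ T, C.nxt Q = some T ∧ G (Q.take (T + C.l))}

/-- **promise step** -/
theorem PP.promise [Finite α] {V : Type v} [Finite V] [Nonempty V] {F : List α → V → V} {k : ℕ}
    {G : List α → Prop} (hl0 : 0 < C.l)
    (g : Gad C V) (hlev : g.Lev k) (hs : g.PSound F G) (hg : g.Compl G)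
    (hfail : HL (k + 1) (Fail C G)) : PP C (k + 1) G F := by
  obtain ⟨T, h1, h2, h3⟩ := PP.base (C := C) (X := V) k F
  have hfin := finite_len (α := α) C.l
  have hl : ∀ x x' w, w ∈ T x x' → C.l ≤ w.length := by
    intro x x' w hw
    obtain ⟨t, c, Zs, rfl, hc, -, -⟩ := h2 _ _ _ hw
    rw [List.length_append]; omega
  obtain ⟨v0⟩ := ‹Nonempty V›
  have hTT : ∀ x x', HL (k + 1) (TT g T x x') := fun x x' =>
    ((h1 x x').mono (Nat.le_succ k)).add ((((HL_St hlev h1 x).mono (Nat.le_succ k)).mul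
      (HL_Kk hlev h1 hl).star).mul ((HL_En hlev h1 hl x').mono (Nat.le_succ k)))
  have hcomp := pTT_compl (cl := fun _ => False) (G := G) hs hg h3
  -- the bad words
  have hbad : HL (k + 1) ({w | ∃ x : {c : List α // c.length = C.l} × V,
      w ∈ rq x.1.1 (TT g T v0 x.2) * pr x.1.1 (Fail C G)} : Language α) :=
    HL.iUnion (L := fun x : {c : List α // c.length = C.l} × V =>
      rq x.1.1 (TT g T v0 x.2) * pr x.1.1 (Fail C G))
      (fun x => (HL_rq _ (hTT _ _)).mul (HL_pr _ hfail))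
  have key1 : ∀ w, C.l ≤ w.length → ¬ (∃ x : {c : List α // c.length = C.l} × V,
      w ∈ rq x.1.1 (TT g T v0 x.2) * pr x.1.1 (Fail C G)) → Along C G w := by
    intro w hwl hw
    -- first show: every path reaches only through `G`
    have hall : ∀ (Zs : List (List α)) (Q Qa : List α) (Zs0 : List (List α)),
        Path C w Zs0 Q → (∀ Z ∈ Zs0, G Z) → Path C Q Zs Qa → ∀ Z ∈ Zs, G Z := by
      intro Zs
      induction Zs with
      | nil => intro Q Qa Zs0 _ _ _ Z hZ; simp at hZ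
      | cons Z Zs ih =>
        intro Q Qa Zs0 hp0 hz0 hp
        cases hp with
        | @cons _ T1 _ _ hn hp' =>
          have hlen := C.len hn
          have hpos := C.pos hn
          have hG : G (Q.take (T1 + C.l)) := by
            by_contra hG
            apply hw
            obtain ⟨t, rfl⟩ := hp0.suffix
            have hc : (Q.take C.l).length = C.l := by rw [List.length_take]; omega
            refine ⟨(⟨Q.take C.l, hc⟩, run F v0 Zs0), Language.mem_mul.2 ⟨t, ?_, Q,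
              ⟨⟨Q.drop C.l, (List.take_append_drop _ _).symm⟩, ?_, ?_⟩, rfl⟩⟩
            · refine hcomp _ _ _ _ Zs0 hc ?_ (fun Z hZ => Or.inr (hz0 Z hZ)) rfl
              refine hp0.restrict (R := Q.drop C.l) ?_ ?_ hc.ge
              · rw [List.append_assoc, List.take_append_drop]
              · rw [List.take_append_drop]
            · omega
            · rintro ⟨T2, h5, h6⟩
              obtain rfl : T1 = T2 := Option.some.inj (hn.symm.trans h5)
              exact hG h6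
          intro Z' hZ'
          rcases List.mem_cons.1 hZ' with rfl | hZ'
          · exact hG
          · have hp1 : Path C w (Zs0 ++ [Q.take (T1 + C.l)]) (Q.drop T1) :=
              hp0.append (Path.cons hn (Path.nil _))
            exact ih _ _ _ hp1 (by
              intro Z'' h7
              rcases List.mem_append.1 h7 with h7 | h7
              · exact hz0 _ h7
              · rw [List.mem_singleton.1 h7]; exact hG) hp' _ hZ'
    intro Zs Qa hp hlt
    have hz := hall Zs w Qa [] (Path.nil _) (by simp) hp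
    by_contra hcon
    apply hw
    obtain ⟨t, rfl⟩ := hp.suffix
    have hc : (Qa.take C.l).length = C.l := by rw [List.length_take]; omega
    refine ⟨(⟨Qa.take C.l, hc⟩, run F v0 Zs), Language.mem_mul.2 ⟨t, ?_, Qa,
      ⟨⟨Qa.drop C.l, (List.take_append_drop _ _).symm⟩, hlt, hcon⟩, rfl⟩⟩
    refine hcomp _ _ _ _ Zs hc ?_ (fun Z hZ => Or.inr (hz Z hZ)) rfl
    refine hp.restrict (R := Qa.drop C.l) ?_ ?_ hc.ge
    · rw [List.append_assoc, List.take_append_drop]
    · rw [List.take_append_drop]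
  have key2 : ∀ w, Along C G w → ¬ (∃ x : {c : List α // c.length = C.l} × V,
      w ∈ rq x.1.1 (TT g T v0 x.2) * pr x.1.1 (Fail C G)) := by
    rintro w hA ⟨⟨⟨c, hc⟩, v⟩, hw⟩
    obtain ⟨t, ht, m, ⟨⟨R, hR⟩, hm⟩, rfl⟩ := Language.mem_mul.1 hw
    simp only at hc ht hR hm
    subst hR
    obtain ⟨t', c', Zs, e, hc', hp, -⟩ := pTT_sound hs hl0 h2 _ _ _ R ht
      (by simpa only [List.append_assoc] using hA)
    obtain ⟨rfl, rfl⟩ : t = t' ∧ c = c' := List.append_inj' e (by rw [hc, hc'])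
    have hp' := hp.ext R
    rw [List.append_assoc] at hp'
    exact hm.2 (hA _ _ hp' hm.1)
  refine ⟨fun x x' => {w | w ∈ TT g T x x' ∧ ¬ (w ∈ ({w | ∃ x : {c : List α // c.length = C.l} × V,
      w ∈ rq x.1.1 (TT g T v0 x.2) * pr x.1.1 (Fail C G)} : Language α))}, fun x x' => ?_, ?_, ?_⟩
  · exact (hTT x x').setOf_and hbad.setOf_not
  · rintro x x' w ⟨hw, hnb⟩
    have hwl : C.l ≤ w.length := by
      rcases hw with hw | hw
      · exact hl _ _ _ hw
      · obtain ⟨Pm, -, q, hq, rfl⟩ := Language.mem_mul.1 hw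
        obtain ⟨r, t, c, v, rfl, hc, -, -⟩ := hq
        simp only [List.length_append]; omega
    have hA := key1 w hwl hnb
    exact pTT_sound hs hl0 h2 _ _ _ [] hw (by simpa using hA)
  · intro x x' t c Zs hc hp hz hrun
    refine ⟨hcomp _ _ _ _ _ hc hp (fun Z hZ => Or.inr (hz Z hZ)) hrun, ?_⟩
    refine key2 _ ?_
    -- the true chain reaches the last `l` letters through `G` zones
    intro Zs1 Qa hp1 hlt
    -- compare the two paths
    have hcmp : ∀ (Zs : List (List α)) (Q Qe : List α), Path C Q Zs Qe → Qe.length = C.l →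
        (∀ Z ∈ Zs, G Z) → ∀ Zs1 Qa, Path C Q Zs1 Qa → C.l < Qa.length →
        ∃ T, C.nxt Qa = some T ∧ G (Qa.take (T + C.l)) := by
      intro Zs Q Qe hp
      induction hp with
      | nil Q =>
        intro hQ _ Zs1 Qa hp1 hlt
        have := hp1.le_length
        omega
      | @cons Q T1 Zs Qe hn hp ih =>
        intro hQ hz Zs1 Qa hp1 hlt
        cases hp1 with
        | nil => exact ⟨T1, hn, hz _ (by simp)⟩
        | @cons _ T2 _ _ hn2 hp2 =>
          obtain rfl : T1 = T2 := Option.some.inj (hn.symm.trans hn2)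
          exact ih hQ (fun Z hZ => hz Z (by simp [hZ])) _ _ hp2 hlt
    exact hcmp Zs _ c hp hc hz Zs1 Qa hp1 hlt

end Crest.Agent.R320.Nest_660
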