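import Crest.Agent.R320.Nest2_151

/-!
# Row 320, item (9): the nest step theorem, heights (helper151)
-/

set_option autoImplicit false

namespace Crest.Agent.R320.Nest_151

open Crest.RegLang Crest.Agent.R320.Hk_851

universe u

variable {α : Type u} {σ : Type} {V : Type}

/-- `μ` for the transformation monoid of the tokens -/
def muT (T : σ → V → V) (t : σ) : (Function.End V)ᵐᵒᵖ := MulOpposite.op (T t : Function.End V)

theorem muT_prod (T : σ → V → V) (ts : List σ) (v : V) :
    (MulOpposite.unop ((ts.map (muT T)).prod) : Function.End V) v = act T ts v := by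
  induction ts generalizing v with
  | nil => rfl
  | cons t ts ih =>
    rw [List.map_cons, List.prod_cons, MulOpposite.unop_mul, act_cons, ← ih]
    rfl

theorem HL.dropL [Finite α] {k : ℕ} {L : Language α} (hL : HL k L) (b : ℕ) :
    HL k {w | b ≤ w.length ∧ w.drop b ∈ L} := by
  have h := (HL.length_eq (α := α) (k := k) b).mul hL
  refine h.congr fun w => ?_
  constructor
  · rintro ⟨h1, h2⟩
    exact Language.mem_mul.2 ⟨w.take b, by
      show (w.take b).length = b
      rw [List.length_take]; omega, w.drop b, h2, List.take_append_drop _ _⟩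
  · intro hw
    obtain ⟨x, hx, y, hy, rfl⟩ := Language.mem_mul.1 hw
    have hx' : x.length = b := hx
    refine ⟨by rw [List.length_append]; omega, ?_⟩
    rw [← hx', List.drop_left]
    exact hy

section heights

variable {nxt : List α → Option (ℕ × σ)} {n B : ℕ} {X : Set (List α)}
  {T : σ → V → V} {l : List α → Option V} {r : List α → Option (ℕ × V)} {D E G : Set σ} {B2 k : ℕ}

theorem ChainOK.short_none (hc : ChainOK nxt n B X) {R : List α} (h : R.length ≤ n) :
    nxt R = none := by
  cases h1 : nxt R with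
  | none => rfl
  | some x =>
    obtain ⟨c, t⟩ := x
    have h2 := hc.len h1
    have h3 := hc.pos h1
    omega

theorem ChainOK.suf (hc : ChainOK nxt n B X) {u v : List α} (h : u ++ v ∈ X) : v ∈ X := by
  apply hc.fac (u := u) (w := [])
  rw [List.append_nil]
  exact h

theorem ChainOK.pre (hc : ChainOK nxt n B X) {u v : List α} (h : u ++ v ∈ X) : u ∈ X := by
  apply hc.fac (u := []) (w := v)
  exact h

theorem ChainOK.cle (hc : ChainOK nxt n B X) {Q : List α} {c : ℕ} {t : σ} (hQ : Q ∈ X)
    (h : nxt Q = some (c, t)) : c ≤ B := by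
  by_cases hB : B ≤ Q.length
  · have h1 : Q.take B ∈ X := by
      apply hc.pre (v := Q.drop B)
      rw [List.take_append_drop]
      exact hQ
    have h2 := hc.bd h1 (by rw [List.length_take]; omega)
    cases h3 : nxt (Q.take B) with
    | none => exact absurd h3 h2
    | some x =>
      obtain ⟨c', t'⟩ := x
      have h4 := hc.ext (Q.drop B) h3
      rw [List.take_append_drop, h] at h4
      cases h4
      have h5 := hc.len h3
      rw [List.length_take] at h5
      omega
  · have := hc.len h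
    omega

/-- `nxt R = none`, `R ∈ X` gives `|R| < B` -/
theorem ChainOK.none_lt (hc : ChainOK nxt n B X) {R : List α} (hR : R ∈ X) (h : nxt R = none) :
    R.length < B := by
  by_contra h1
  exact hc.bd hR (by omega) h

theorem MM_HL [Finite α] [Finite V] (hc : ChainOK nxt n B X) (hX : HL k (X : Language α))
    (hL : ∀ (s : (Function.End V)ᵐᵒᵖ) (R : List α), HL k (Lng nxt X D (muT T) s R))
    (v v' : V) (R : List α) : HL k (MM nxt X T D E B2 v v' R) := by
  have hf1 : Finite (Function.End V) := inferInstanceAs (Finite (V → V))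
  have hf2 : Finite (Function.End V)ᵐᵒᵖ := Finite.of_equiv _ MulOpposite.opEquiv
  have h := hX.setOf_and (HL.biUnion (k := k) (List.finite_length_le α n)
    (L := fun R' => {Q | ∃ u ∈ {u : List α | u.length ≤ B + B2}, ∃ s' : (Function.End V)ᵐᵒᵖ,
      (∃ ts2, Walk nxt (R' ++ u) ts2 R ∧ (ts2 = [] ∨ (R' ++ u).length < B2) ∧ (∀ t ∈ ts2, t ∈ E) ∧
        act T ts2 ((MulOpposite.unop s' : Function.End V) v) = v') ∧
      Q ∈ Lng nxt X D (muT T) s' R' * ({u} : Language α)})
    (fun R' _ => HL.biUnion (k := k) (List.finite_length_le α (B + B2)) (fun u _ =>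
      HL.iUnion fun s' => (HL.const _).setOf_and ((hL s' R').mul (HL.word u)))))
  refine h.congr fun Q => ?_
  constructor
  · rintro ⟨hQ, ts1, Q', ts2, h1, h2, h3, h4, h5, h6⟩
    refine ⟨hQ, Q'.take n, by
      show (Q'.take n).length ≤ n
      rw [List.length_take]; omega, Q'.drop n, ?_, MulOpposite.op (act T ts1 : Function.End V), ?_, ?_⟩
    · show (Q'.drop n).length ≤ B + B2
      rw [List.length_drop]
      rcases h4 with rfl | h4
      · obtain ⟨Z, hZ⟩ := h1.suffix
        have h7 : Q' ∈ X := hc.suf (u := Z) (by rw [← hZ]; exact hQ)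
        cases h3 with
        | nil h8 =>
          have := hc.none_lt h7 h8
          omega
      · omega
    · refine ⟨ts2, by rw [List.take_append_drop]; exact h3, by
        rw [List.take_append_drop]; exact h4, h5, ?_⟩
      rw [act_append] at h6
      exact h6
    · obtain ⟨Z, hZ⟩ := h1.suffix
      refine Language.mem_mul.2 ⟨Z ++ Q'.take n, ?_, Q'.drop n, rfl, by
        rw [List.append_assoc, List.take_append_drop, ← hZ]⟩
      refine ⟨hc.pre (v := Q'.drop n) (by
        rw [List.append_assoc, List.take_append_drop, ← hZ]; exact hQ), ts1, ?_, h2, ?_⟩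
      · rcases h1.len hc with ⟨e1, e2⟩ | hn
        · have hZ0 : Z = [] := by
            have h8 := congrArg List.length hZ
            rw [List.length_append, e2] at h8
            exact List.eq_nil_of_length_eq_zero (by omega)
          rw [hZ0, e1]
          exact Walk.nil (hc.short_none (by rw [List.nil_append, List.length_take]; omega))
        · have h9 : Path nxt (Z ++ (Q'.take n ++ Q'.drop n)) ts1 (Q'.take n ++ Q'.drop n) := by
            rw [List.take_append_drop, ← hZ]; exact h1
          have h10 := h9.trunc hc (by rw [List.length_take]; omega)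
          have h11 := h10.walk (Walk.nil (hc.short_none (R := Q'.take n)
            (by rw [List.length_take]; omega)))
          rwa [List.append_nil] at h11
      · apply MulOpposite.unop_injective
        funext x
        exact muT_prod T ts1 x
  · rintro ⟨hQ, R', -, u, -, s', ⟨ts2, h1, h2, h3, h4⟩, h5⟩
    obtain ⟨Q2, ⟨hQ2, ts1, h6, h7, h8⟩, u', hu', rfl⟩ := Language.mem_mul.1 h5
    have hu'' : u' = u := hu'
    subst hu''
    refine ⟨hQ, ts1, R' ++ u', ts2, h6.path.ext hc u', h7, h1, h2, h3, ?_⟩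
    rw [act_append, ← h4, ← h8, muT_prod]

theorem r_HL [Finite α] (hs : SchemeOK nxt n B X T l r E G B2) (b : ℕ) (v0 : V) :
    HL k ({w | r w = some (b, v0)} : Language α) := by
  have h1 : HL k ({p : List α | p.length = b + n ∧ r p = some (b, v0)} : Language α) :=
    HL.finite ((List.finite_length_eq α (b + n)).subset fun v hv => hv.1)
  refine h1.prefix.congr fun w => ?_
  constructor
  · intro hw
    have hw' : r w = some (b, v0) := hw
    have h2 := hs.rlen hw'
    exact ⟨w.take (b + n), ⟨by rw [List.length_take]; omega, hs.rtake hw'⟩, List.take_prefix _ _⟩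
  · rintro ⟨p, ⟨-, h2⟩, u, rfl⟩
    exact hs.rext u h2

theorem K0_HL [Finite α] [Finite V] (hc : ChainOK nxt n B X) (hX : HL k (X : Language α))
    (hs : SchemeOK nxt n B X T l r E G B2)
    (hL : ∀ (s : (Function.End V)ᵐᵒᵖ) (R : List α), HL k (Lng nxt X D (muT T) s R)) :
    HL k (K0 nxt X T l r D E B2) := by
  have h := hX.setOf_and (HL.biUnion (k := k) (Set.finite_le_nat B)
    (L := fun b => {w | ∃ v0 : V, ∃ R ∈ {R : List α | R.length ≤ B}, ∃ v' : V,
      (l R = some v') ∧ (r w = some (b, v0) ∧ (b ≤ w.length ∧ w.drop b ∈ MM nxt X T D E B2 v0 v' R))})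
    (fun b _ => HL.iUnion fun v0 => HL.biUnion (k := k) (List.finite_length_le α B) (fun R _ =>
      HL.iUnion fun v' => (HL.const _).setOf_and ((r_HL hs b v0).setOf_and
        (HL.dropL (MM_HL hc hX hL v0 v' R) b)))))
  refine h.congr fun w => ?_
  constructor
  · rintro ⟨hw, b, v0, h1, R, v', h2, h3⟩
    refine ⟨hw, b, hs.rbd h1, v0, R, ?_, v', h2, h1, by have := hs.rlen h1; omega, h3⟩
    obtain ⟨hdX, ts1, Q', ts2, h4, -, h5, -⟩ := h3
    have h6 := h4.walk h5
    obtain ⟨Z, hZ⟩ := h6.path.suffix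
    have h7 : R ∈ X := hc.suf (u := Z) (by rw [← hZ]; exact hdX)
    exact (hc.none_lt h7 h6.end_none).le
  · rintro ⟨hw, b, -, v0, R, -, v', h2, h1, -, h3⟩
    exact ⟨hw, b, v0, h1, R, v', h2, h3⟩

theorem Kend_HL [Finite α] [Finite V] (hc : ChainOK nxt n B X) (hX : HL k (X : Language α))
    (hs : SchemeOK nxt n B X T l r E G B2)
    (hL : ∀ (s : (Function.End V)ᵐᵒᵖ) (R : List α), HL k (Lng nxt X D (muT T) s R))
    (v' : V) (R : List α) : HL k (Kend nxt X T r D E B B2 v' R) := by
  have h := hX.setOf_and ((HL.length_ge (α := α) (k := k) B).setOf_and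
    (HL.biUnion (k := k) (Set.finite_le_nat B)
    (L := fun b => {w | ∃ v0 : V,
      (r w = some (b, v0) ∧ (b ≤ w.length ∧ w.drop b ∈ MM nxt X T D E B2 v0 v' R))})
    (fun b _ => HL.iUnion fun v0 => ((r_HL hs b v0).setOf_and
        (HL.dropL (MM_HL hc hX hL v0 v' R) b)))))
  refine h.congr fun w => ?_
  constructor
  · rintro ⟨hw, hB, b, v0, h1, h3⟩
    exact ⟨hw, hB, b, hs.rbd h1, v0, h1, by have := hs.rlen h1; omega, h3⟩
  · rintro ⟨hw, hB, b, -, v0, h1, -, h3⟩
    exact ⟨hw, hB, b, v0, h1, h3⟩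

theorem Kst_HL [Finite α] [Finite V] (hc : ChainOK nxt n B X) (hX : HL k (X : Language α))
    (hL : ∀ (s : (Function.End V)ᵐᵒᵖ) (R : List α), HL k (Lng nxt X D (muT T) s R)) (v : V) :
    HL k (Kst nxt X T l D E B2 v) := by
  have h := HL.biUnion (k := k) (List.finite_length_le α B)
    (L := fun R => {Q | ∃ v' : V, (l R = some v') ∧ Q ∈ MM nxt X T D E B2 v v' R})
    (fun R _ => HL.iUnion fun v' => (HL.const _).setOf_and (MM_HL hc hX hL v v' R))
  refine h.congr fun w => ?_
  constructor
  · rintro ⟨R, v', h2, h3⟩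
    refine ⟨R, ?_, v', h2, h3⟩
    obtain ⟨hdX, ts1, Q', ts2, h4, -, h5, -⟩ := h3
    have h6 := h4.walk h5
    obtain ⟨Z, hZ⟩ := h6.path.suffix
    have h7 : R ∈ X := hc.suf (u := Z) (by rw [← hZ]; exact hdX)
    exact (hc.none_lt h7 h6.end_none).le
  · rintro ⟨R, -, v', h2, h3⟩
    exact ⟨R, v', h2, h3⟩

theorem LL_HL [Finite α] [Finite V] (hc : ChainOK nxt n B X) (hX : HL k (X : Language α))
    (hs : SchemeOK nxt n B X T l r E G B2)
    (hL : ∀ (s : (Function.End V)ᵐᵒᵖ) (R : List α), HL k (Lng nxt X D (muT T) s R))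
    (v v' : V) (R : List α) : HL (k + 1) (LL nxt X T l r D E B B2 v v' R) :=
  ((((Kst_HL hc hX hL v).mono (Nat.le_succ k)).mul (K0_HL hc hX hs hL).star).mul
    ((Kend_HL hc hX hs hL v' R).mono (Nat.le_succ k))).add
    ((MM_HL hc hX hL v v' R).mono (Nat.le_succ k))

/-- first failing step -/
theorem first_fail {Q : List α} {ts : List σ} {R : List α} (hW : Walk nxt Q ts R)
    (h : ∃ t ∈ ts, t ∉ E) : ∃ ts1 Q' c t, Path nxt Q ts1 Q' ∧ (∀ t ∈ ts1, t ∈ E) ∧
      nxt Q' = some (c, t) ∧ t ∉ E := by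
  induction hW with
  | nil _ => obtain ⟨t, ht, -⟩ := h; simp at ht
  | @cons Q c t ts R h1 hW ih =>
    by_cases hE : t ∈ E
    · obtain ⟨t', ht', h2⟩ := h
      rcases List.mem_cons.1 ht' with rfl | ht'
      · exact absurd hE h2
      · obtain ⟨ts1, Q', c', t'', h3, h4, h5, h6⟩ := ih ⟨t', ht', h2⟩
        refine ⟨t :: ts1, Q', c', t'', Path.cons h1 h3, ?_, h5, h6⟩
        intro x hx
        rcases List.mem_cons.1 hx with rfl | hx
        · exact hE
        · exact h4 x hx
    · exact ⟨[], Q, c, t, Path.nil, by simp, h1, hE⟩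

theorem fail_HL [Finite α] [Finite V] (v0 : V) (hc : ChainOK nxt n B X)
    (hX : HL k (X : Language α)) (hs : SchemeOK nxt n B X T l r E G B2) (hDE : D ⊆ E)
    (hEG : ∀ t ∈ E, t ∉ D → t ∈ G)
    (hL : ∀ (s : (Function.End V)ᵐᵒᵖ) (R : List α), HL k (Lng nxt X D (muT T) s R)) :
    HL (k + 1) ({Q | Q ∈ X ∧ ∃ ts R, Walk nxt Q ts R ∧ ∀ t ∈ ts, t ∈ E} : Language α) := by
  have hX' : HL (k + 1) (X : Language α) := hX.mono (Nat.le_succ k)
  have h := hX'.setOf_and (HL.biUnion (k := k + 1) (List.finite_length_le α n)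
    (L := fun R' => {Q | ∃ u ∈ {u : List α | u.length ≤ B}, ∃ v' : V,
      (∃ c t, nxt (R' ++ u) = some (c, t) ∧ t ∉ E) ∧
      Q ∈ LL nxt X T l r D E B B2 v0 v' R' * ({u} : Language α) * (⊤ : Language α)})
    (fun R' _ => HL.biUnion (k := k + 1) (List.finite_length_le α B) (fun u _ =>
      HL.iUnion fun v' => (HL.const _).setOf_and
        (((LL_HL hc hX hs hL v0 v' R').mul (HL.word u)).mul HL.top)))).setOf_not
  refine h.congr fun Q => ?_
  constructor
  · rintro ⟨hQ, ts, R, hW, hE⟩
    refine ⟨hQ, ?_⟩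
    rintro ⟨R', -, u, -, v', ⟨c, t, h1, h2⟩, h3⟩
    obtain ⟨qu, hqu, z, -, rfl⟩ := Language.mem_mul.1 h3
    obtain ⟨q, hq, u', hu', rfl⟩ := Language.mem_mul.1 hqu
    have hu'' : u' = u := hu'
    subst hu''
    rw [List.append_assoc] at hW hQ
    obtain ⟨tq, Rq, hWq⟩ := Walk.total hc q
    obtain ⟨t2, R2, hW2⟩ := Walk.total hc (Rq ++ (u' ++ z))
    obtain ⟨e1, e2⟩ := hW.det (hWq.append hc hW2)
    obtain ⟨e3, -⟩ := LL_sound hc hs hDE (hc.pre hQ) hWq
      (fun t ht => hE t (by rw [e1]; simp [ht])) hq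
    subst e3
    have h4 := hc.ext z h1
    rw [List.append_assoc] at h4
    cases hW2 with
    | nil h5 => rw [h5] at h4; cases h4
    | @cons _ c' t' ts' _ h5 h6 =>
      rw [h5] at h4
      cases h4
      exact h2 (hE t (by rw [e1]; simp))
  · rintro ⟨hQ, hno⟩
    refine ⟨hQ, ?_⟩
    obtain ⟨ts, R, hW⟩ := Walk.total hc Q
    refine ⟨ts, R, hW, ?_⟩
    by_contra hcon
    push_neg at hcon
    obtain ⟨ts1, Q', c, t, h1, h2, h3, h4⟩ := first_fail hW hcon
    obtain ⟨Z, hZ⟩ := h1.suffix
    have hQ' : Q' ∈ X := hc.suf (u := Z) (by rw [← hZ]; exact hQ)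
    have h5 := hc.len h3
    have h6 := hc.cle hQ' h3
    have h9 : Path nxt (Z ++ (Q'.take n ++ Q'.drop n)) ts1 (Q'.take n ++ Q'.drop n) := by
      rw [List.take_append_drop, ← hZ]; exact h1
    have h10 := h9.trunc hc (by rw [List.length_take]; omega)
    have h11 := h10.walk (Walk.nil (hc.short_none (R := Q'.take n)
      (by rw [List.length_take]; omega)))
    rw [List.append_nil] at h11
    have hq : Z ++ Q'.take n ∈ X := hc.pre (v := Q'.drop n) (by
        rw [List.append_assoc, List.take_append_drop, ← hZ]; exact hQ)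
    have h12 := LL_complete (v := v0) hc hs hEG hq h11 h2
    apply hno
    refine ⟨Q'.take n, by
      show (Q'.take n).length ≤ n
      rw [List.length_take]; omega, (Q'.drop n).take c, by
      show ((Q'.drop n).take c).length ≤ B
      rw [List.length_take]; omega, act T ts1 v0, ⟨c, t, ?_, h4⟩, ?_⟩
    · have h13 : Q'.take n ++ (Q'.drop n).take c = Q'.take (c + n) := by
        rw [Nat.add_comm c n, List.take_add]
      rw [h13]
      exact hc.take h3
    · refine Language.mem_mul.2 ⟨(Z ++ Q'.take n) ++ (Q'.drop n).take c,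
        Language.mem_mul.2 ⟨_, h12, _, rfl, rfl⟩, (Q'.drop n).drop c, trivial, ?_⟩
      rw [List.append_assoc, List.append_assoc, List.take_append_drop, List.take_append_drop, ← hZ]

/-- **NEST STEP THEOREM.** -/
theorem nest_step [Finite α] [Finite V] [Nonempty V] {S : Type} [Monoid S] (μ : σ → S)
    (hc : ChainOK nxt n B X) (hX : HL k (X : Language α))
    (hs : SchemeOK nxt n B X T l r E G B2) (hDE : D ⊆ E) (hEG : ∀ t ∈ E, t ∉ D → t ∈ G)
    (hL : ∀ (s : (Function.End V)ᵐᵒᵖ) (R : List α), HL k (Lng nxt X D (muT T) s R))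
    (dec : (V → V) → S)
    (hdec : ∀ ts : List σ, (∀ t ∈ ts, t ∈ E) → dec (act T ts) = (ts.map μ).prod)
    (s : S) (R : List α) : HL (k + 1) (Lng nxt X E μ s R) := by
  obtain ⟨v0⟩ := ‹Nonempty V›
  have hX' : HL (k + 1) (X : Language α) := hX.mono (Nat.le_succ k)
  have h := (fail_HL v0 hc hX hs hDE hEG hL).setOf_and
    (HL.iUnion (k := k + 1) (ι := V → V) fun f => (HL.const (dec f = s)).setOf_and
      (HL.iInter fun v => LL_HL hc hX hs hL v (f v) R))
  refine h.congr fun Q => ?_
  constructor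
  · rintro ⟨hQ, ts, hW, hE, hp⟩
    exact ⟨⟨hQ, ts, R, hW, hE⟩, act T ts, by rw [hdec ts hE]; exact hp,
      fun v => LL_complete hc hs hEG hQ hW hE⟩
  · rintro ⟨⟨hQ, ts, R', hW, hE⟩, f, hf, hall⟩
    have h1 : ∀ v, R' = R ∧ act T ts v = f v := fun v => LL_sound hc hs hDE hQ hW hE (hall v)
    have h2 : R' = R := (h1 v0).1
    subst h2
    have h3 : act T ts = f := funext fun v => (h1 v).2
    exact ⟨hQ, ts, hW, hE, by rw [← hdec ts hE, h3, hf]⟩

end heights

end Crest.Agent.R320.Nest_151
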