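import Crest.Agent.R320.Three_427

/-!
# Row 320: nested cut systems on an INFINITE deterministic system (helper163)

The state space `Ω` is arbitrary (e.g. `List α × V` = text since the last anchor and token), no finiteness:
only finitely many junction states `c Q`, and the languages
`{w | fully live from q, run w q ∈ F}` (`q` = start state or junction state, `F` = the cut sets and the final
set) and `{Q | R Q, c Q = ω}` have to be of height `≤ b`.  Conclusion: height `≤ N + b`.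
-/

set_option autoImplicit false

namespace Crest.Agent.R320.NestInf_163

open Crest.RegLang Crest.Agent.R320.Hgt1_903 Crest.Agent.R320.Three_427

variable {α Ω : Type*} {step : Ω → α → Ω} {L : ℕ → Lvl Ω α}

/-- live words of level `i` from `p` that end in `F` -/
def XF (step : Ω → α → Ω) (L : ℕ → Lvl Ω α) (i : ℕ) (p : Ω) (F : Set Ω) : Language α :=
  {w | Live step L i p w ∧ run step w p ∈ F}

/-- the right-legal words of level `j` with end state `ω` -/
def RW (L : ℕ → Lvl Ω α) (j : ℕ) (ω : Ω) : Language α := {Q | (L j).R Q ∧ (L j).c Q = ω}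

/-- one level -/
theorem level {n i : ℕ} (St : Set Ω) (Fam : Set (Set Ω)) (hne : ∀ j ≤ i, ∀ Q, (L j).R Q → Q ≠ [])
    (hfin : ∀ j ≤ i, {ω | ∃ Q, (L j).R Q ∧ (L j).c Q = ω}.Finite)
    (hst : ∀ j ≤ i, ∀ Q, (L j).R Q → (L j).c Q ∈ St)
    (hC : ∀ j ≤ i, {p | (L j).C p} ∈ Fam)
    (hR : ∀ j ≤ i, ∀ ω, H n (RW L j ω))
    (hs : ∀ p Q, (L i).C p → (L i).R Q → Live step L i p Q → run step Q p = (L i).c Q)
    (hX : ∀ p ∈ St, ∀ F ∈ Fam, H n (XF step L (i + 1) p F)) :
    ∀ p ∈ St, ∀ F ∈ Fam, H (n + 1) (XF step L i p F) := by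
  -- words from a cut of level `i` to a state in `F`
  have hcut : ∀ F ∈ Fam, H n ({w | ∃ p', p' ∈ F ∧ w ∈ S step L i p'} : Language α) := by
    intro F hF
    refine H.congr (H.exists_finset (hfin i le_rfl).toFinset (fun ω : Ω =>
      ({w | ∃ u v, u ++ v = w ∧ u ∈ RW L i ω ∧ v ∈ XF step L (i + 1) ω F} : Language α))
        fun ω hω => ?_) fun w => ?_
    · obtain ⟨Q, hQ, rfl⟩ := (hfin i le_rfl).mem_toFinset.1 hω
      exact H.cat (hR i le_rfl _) (hX _ (hst i le_rfl Q hQ) F hF)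
    · constructor
      · rintro ⟨ω, -, u, v, e, ⟨hu, rfl⟩, hv⟩
        exact ⟨_, hv.2, u, hu, v, e, hv.1, rfl⟩
      · rintro ⟨p', hp', Q, hQ, r, e, hr⟩
        refine ⟨(L i).c Q, (hfin i le_rfl).mem_toFinset.2 ⟨Q, hQ, rfl⟩, Q, r, e, ⟨hQ, rfl⟩, hr.1, ?_⟩
        rw [hr.2]; exact hp'
  have hK : H n (K step L i) := by
    refine H.congr (hcut _ (hC i le_rfl)) fun w => ?_
    constructor
    · rintro ⟨p', hp', Q, hQ, r, e, hr⟩
      exact ⟨Q, hQ, p', hp', r, e, hr⟩
    · rintro ⟨Q, hQ, p', hp', r, e, hr⟩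
      exact ⟨p', hp', Q, hQ, r, e, hr⟩
  have hP : ∀ q ∈ St, H n (P step L i q) := by
    intro q hq
    refine H.congr (hX q hq _ (hC i le_rfl)) fun w => ?_
    constructor
    · rintro ⟨h1, h2⟩
      exact ⟨_, h2, h1, rfl⟩
    · rintro ⟨p', hp', h1, rfl⟩
      exact ⟨h1, hp'⟩
  have hE : ∀ q ∈ St, ∀ F ∈ Fam,
      H (n + 1) ({w | ∃ p', p' ∈ F ∧ w ∈ E step L i q p'} : Language α) := by
    intro q hq F hF
    refine H.congr (H.union ((hX q hq F hF).mono (Nat.le_succ n))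
      (H.cat ((hP q hq).mono (Nat.le_succ n))
        (H.cat hK.star ((hcut F hF).mono (Nat.le_succ n))))) fun w => ?_
    constructor
    · rintro (⟨h1, h2⟩ | ⟨u, v, e, hu, k, s, e', hk, p', hp', hs'⟩)
      · exact ⟨_, h2, Or.inl ⟨h1, rfl⟩⟩
      · exact ⟨p', hp', Or.inr ⟨u, v, e, hu, k, s, e', hk, hs'⟩⟩
    · rintro ⟨p', hp', ⟨h1, rfl⟩ | ⟨u, v, e, hu, k, s, e', hk, hs'⟩⟩
      · exact Or.inl ⟨h1, hp'⟩
      · exact Or.inr ⟨u, v, e, hu, k, s, e', hk, p', hp', hs'⟩
  have hD : ∀ q ∈ St, H (n + 1) (Dd step L i q) := by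
    intro q hq
    refine H.exists_finset _ _ fun j hj => ?_
    have hj' : j ≤ i := le_of_lt (Finset.mem_range.1 hj)
    have hRj : H n ({Q | (L j).R Q} : Language α) := by
      refine H.congr (H.exists_finset (hfin j hj').toFinset (fun ω : Ω => RW L j ω)
        fun ω _ => hR j hj' ω) fun w => ?_
      constructor
      · rintro ⟨ω, -, hw, -⟩; exact hw
      · intro hw
        exact ⟨(L j).c w, (hfin j hj').mem_toFinset.2 ⟨w, hw, rfl⟩, hw, rfl⟩
    refine H.congr (H.cat (hE q hq _ (hC j hj'))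
      (H.cat (hRj.mono (Nat.le_succ n)) (H.univ _))) fun w => ?_
    constructor
    · rintro ⟨x, t, e, ⟨p', hp', hx⟩, u, v, e', hu, hv⟩
      exact ⟨u, hu, p', hp', x, t, e, hx, u, v, e', rfl, hv⟩
    · rintro ⟨Q, hQ, p', hp', x, t, e, hx, u, v, e', hu, hv⟩
      have hu' : u = Q := hu
      subst hu'
      exact ⟨x, t, e, ⟨p', hp', hx⟩, u, v, e', hQ, hv⟩
  intro p hp F hF
  refine H.congr (H.inter (H.not (hD p hp)) (hE p hp F hF)) fun w => ?_
  change (¬ w ∈ Dd step L i p ∧ ∃ p', p' ∈ F ∧ w ∈ E step L i p p') ↔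
    (Live step L i p w ∧ run step w p ∈ F)
  rw [← live_iff hne hs p w]
  constructor
  · rintro ⟨h1, p', hp', h2⟩
    refine ⟨h1, ?_⟩
    rw [E_sound hs h1 h2]; exact hp'
  · rintro ⟨h1, h2⟩
    exact ⟨h1, _, h2, E_complete (hne i le_rfl) hs h1⟩

/-- **Nested cut systems on an infinite deterministic system.** -/
theorem nested_infinite (step : Ω → α → Ω) (L : ℕ → Lvl Ω α) (N b : ℕ) (p₀ : Ω) (F₀ : Set Ω)
    (hne : ∀ j < N, ∀ Q, (L j).R Q → Q ≠ [])
    (hfin : ∀ j < N, {ω | ∃ Q, (L j).R Q ∧ (L j).c Q = ω}.Finite)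
    (hR : ∀ j < N, ∀ ω, H b ({Q | (L j).R Q ∧ (L j).c Q = ω} : Language α))
    (hs : ∀ i < N, ∀ p Q, (L i).C p → (L i).R Q → Live step L i p Q →
      run step Q p = (L i).c Q)
    (hbase : ∀ p, (p = p₀ ∨ ∃ j < N, ∃ Q, (L j).R Q ∧ (L j).c Q = p) →
      ∀ F : Set Ω, (F = F₀ ∨ ∃ j < N, F = {p | (L j).C p}) →
      H b ({w | Live step L N p w ∧ run step w p ∈ F} : Language α)) :
    H (N + b) ({w | run step w p₀ ∈ F₀} : Language α) := by
  set St : Set Ω := {p | p = p₀ ∨ ∃ j < N, ∃ Q, (L j).R Q ∧ (L j).c Q = p} with hSt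
  set Fam : Set (Set Ω) := {F | F = F₀ ∨ ∃ j < N, F = {p | (L j).C p}} with hFam
  have key : ∀ k i, i + k = N → ∀ p ∈ St, ∀ F ∈ Fam, H (k + b) (XF step L i p F) := by
    intro k
    induction k with
    | zero =>
      intro i hi p hp F hF
      have hi' : i = N := by omega
      subst hi'
      rw [Nat.zero_add]; exact hbase p hp F hF
    | succ k ih =>
      intro i hi p hp F hF
      have h := level (n := k + b) St Fam (fun j hj => hne j (by omega))
        (fun j hj => hfin j (by omega))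
        (fun j hj Q hQ => Or.inr ⟨j, by omega, Q, hQ, rfl⟩)
        (fun j hj => Or.inr ⟨j, by omega, rfl⟩)
        (fun j hj ω => (hR j (by omega) ω).mono (Nat.le_add_left _ _))
        (hs i (by omega)) (ih (i + 1) (by omega)) p hp F hF
      rwa [show k + 1 + b = k + b + 1 by omega]
  refine H.congr (key N 0 (by omega) p₀ (Or.inl rfl) F₀ (Or.inl rfl)) fun w => ?_
  constructor
  · rintro ⟨_, h⟩; exact h
  · intro h
    exact ⟨fun j hj => absurd hj (Nat.not_lt_zero j), h⟩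

end Crest.Agent.R320.NestInf_163
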