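import Crest.Agent.R320.Nest_528

/-!
# Row 320: nesting lemma, promise form (helper528)

A scheme may be sound only under a promise.  The promise is coded by an absorbing state `dead` of the
thread automaton (`dead` = the promise was violated).  `RelSound`: a legal junction has to be correct
only if the true thread is alive behind the `D` letters of the right reading.  FIRST VIOLATION TRICK:
the words on which a thread stays alive are then themselves of level `n + 1` (relative to `GG`), so
the conclusion is unconditional: `X ∩ GG = {w ∈ GG | run ω0 w = ω1}` for every `ω1 ≠ dead`.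
-/

set_option autoImplicit false

namespace Crest.Agent.R320.Nest_528

open Crest.RegLang Crest.Agent.R320.Hk_851

universe u

variable {α : Type u} {Ω : Type u}

/-- soundness under the promise -/
def Scheme.RelSound (S : Scheme α Ω) (GG : Set (List α)) (dead : Ω) : Prop :=
  ∀ P Q : List α, P.length = S.D → Q.length = S.D → P ++ Q ∈ GG → ∀ ω ω' : Ω,
    S.lam P = some ω → S.rho Q = some ω' → run S.step ω Q ≠ dead → run S.step ω Q = ω'

theorem run_dead {step : Ω → α → Ω} {dead : Ω} (h : ∀ a, step dead a = dead) (w : List α) :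
    run step dead w = dead := by
  induction w with
  | nil => rfl
  | cons a w ih =>
    change run step (step dead a) w = dead
    rw [h, ih]

theorem alive_left {step : Ω → α → Ω} {dead : Ω} (h : ∀ a, step dead a = dead) {ω : Ω}
    {x y : List α} (hw : run step ω (x ++ y) ≠ dead) : run step ω x ≠ dead := by
  intro hx
  apply hw
  rw [run_append, hx, run_dead h]

/-- **First violation trick.** -/
theorem first_violation [Finite Ω] [Finite α] {k : ℕ} {GG : Set (List α)} (hfac : FacClosed GG)
    {step : Ω → α → Ω} {dead : Ω} (hd : ∀ a, step dead a = dead) (ω0 : Ω)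
    (X : Ω → Language α) (hX : ∀ ω1, ω1 ≠ dead → HL k (X ω1))
    (hX2 : ∀ ω1, ω1 ≠ dead → ∀ w ∈ GG, run step ω0 w ≠ dead → (w ∈ X ω1 ↔ run step ω0 w = ω1))
    (ω1 : Ω) (h1 : ω1 ≠ dead) :
    ∃ Z : Language α, HL k Z ∧ ∀ w ∈ GG, (w ∈ Z ↔ run step ω0 w = ω1) := by
  classical
  by_cases h0 : ω0 = dead
  · refine ⟨0, HL.zero, fun w _ => ⟨fun h => h.elim, fun h => ?_⟩⟩
    rw [h0, run_dead hd] at h
    exact (h1 h.symm).elim
  have hpreG : ∀ x y : List α, x ++ y ∈ GG → x ∈ GG := fun x y h =>
    hfac [] x y (by simpa using h)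
  let Viol : Language α := {w | ∃ i : {p : Ω × α // p.1 ≠ dead ∧ step p.1 p.2 = dead},
    w ∈ X i.1.1 * {[i.1.2]} * (⊤ : Language α)}
  have hV : HL k Viol := HL.iUnion fun i => ((hX _ i.2.1).mul (HL.char _)).mul HL.top
  have hViol : ∀ w ∈ GG, (w ∈ Viol ↔ run step ω0 w = dead) := by
    intro w hw
    constructor
    · rintro ⟨⟨⟨ω, a⟩, h2, h3⟩, hw2⟩
      obtain ⟨pa, hpa, r, -, rfl⟩ := Language.mem_mul.1 hw2
      obtain ⟨p, hp, a', ha', rfl⟩ := Language.mem_mul.1 hpa
      rw [Set.mem_singleton_iff.1 ha'] at *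
      by_contra hal
      have h4 : run step ω0 p ≠ dead := by
        rw [List.append_assoc] at hal
        exact alive_left hd hal
      have h5 : p ∈ GG := hpreG p ([a] ++ r) (by simpa using hw)
      have h6 := (hX2 ω h2 p h5 h4).1 hp
      apply hal
      rw [run_append, run_append, h6]
      change run step (step ω a) r = dead
      rw [h3, run_dead hd]
    · -- first death
      intro hdw
      have hex : ∃ j, j ≤ w.length ∧ run step ω0 (w.take j) = dead :=
        ⟨w.length, le_rfl, by rw [List.take_length]; exact hdw⟩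
      have hj := Nat.find_spec hex
      set j := Nat.find hex with hjdef
      have hj0 : j ≠ 0 := by
        intro h
        rw [h] at hj
        exact h0 (by simpa using hj.2)
      obtain ⟨i, hi⟩ := Nat.exists_eq_succ_of_ne_zero hj0
      have hal : run step ω0 (w.take i) ≠ dead := by
        intro h
        exact Nat.find_min hex (m := i) (by omega) ⟨by omega, h⟩
      have hil : i < w.length := by omega
      have htk : w.take (i + 1) = w.take i ++ [w[i]] := by simp
      have hdj : step (run step ω0 (w.take i)) w[i] = dead := by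
        have := hj.2
        rw [hi, Nat.succ_eq_add_one, htk, run_append] at this
        exact this
      have hiG : w.take i ∈ GG := hpreG _ (w.drop i) (by rw [List.take_append_drop]; exact hw)
      refine ⟨⟨(run step ω0 (w.take i), w[i]), hal, hdj⟩, ?_⟩
      have he : w = (w.take i ++ [w[i]]) ++ w.drop (i + 1) := by
        rw [← htk, List.take_append_drop]
      exact Language.mem_mul.2 ⟨w.take i ++ [w[i]], Language.mem_mul.2
        ⟨w.take i, (hX2 _ hal _ hiG hal).2 rfl, [w[i]], rfl, rfl⟩, w.drop (i + 1), trivial, he.symm⟩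
  refine ⟨X ω1 \ Viol, (hX ω1 h1).sdiff hV, fun w hw => ?_⟩
  constructor
  · rintro ⟨ha, hb⟩
    have hal : run step ω0 w ≠ dead := fun h => hb ((hViol w hw).2 h)
    exact (hX2 ω1 h1 w hw hal).1 ha
  · intro h
    have hal : run step ω0 w ≠ dead := by rw [h]; exact h1
    exact ⟨(hX2 ω1 h1 w hw hal).2 h, fun hv => hal ((hViol w hw).1 hv)⟩

/-- **Nesting lemma, promise form.** -/
theorem nestP [Finite Ω] [Finite α] {S : Scheme α Ω} {GG : Set (List α)} {n : ℕ} {dead : Ω}
    (hd : ∀ a, S.step dead a = dead) (hfac : FacClosed GG) (hs : S.RelSound GG dead)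
    (hin : ∀ Q ω, Ctx S Q ω → ω ≠ dead → ∀ ω1, ω1 ≠ dead → ∃ Y : Language α, HL n Y ∧
      (∀ y, Q ++ y ∈ GG → y ∈ Y → run S.step ω y = ω1) ∧
      (∀ y, Q ++ y ∈ GG → S.Uc Q ω y → run S.step ω y = ω1 → y ∈ Y))
    (ω0 ω1 : Ω) (h1 : ω1 ≠ dead) :
    ∃ X : Language α, HL (n + 1) X ∧ ∀ w ∈ GG, (w ∈ X ↔ run S.step ω0 w = ω1) := by
  classical
  by_cases h0 : ω0 = dead
  · refine ⟨0, HL.zero, fun w _ => ⟨fun h => h.elim, fun h => ?_⟩⟩
    rw [h0, run_dead hd] at h
    exact (h1 h.symm).elim
  -- the modified scheme: an auxiliary level-n family, junk if a state is dead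
  have hin' : ∀ Q ω, Ctx S Q ω → ∀ ω1, ∃ Y : Language α, HL n Y ∧
      (ω ≠ dead → ω1 ≠ dead → (∀ y, Q ++ y ∈ GG → y ∈ Y → run S.step ω y = ω1) ∧
      (∀ y, Q ++ y ∈ GG → S.Uc Q ω y → run S.step ω y = ω1 → y ∈ Y)) := by
    intro Q ω hQ ω1
    by_cases ha : ω ≠ dead ∧ ω1 ≠ dead
    · obtain ⟨Y, h1, h2, h3⟩ := hin Q ω hQ ha.1 ω1 ha.2
      exact ⟨Y, h1, fun _ _ => ⟨h2, h3⟩⟩
    · exact ⟨0, HL.zero, fun h2 h3 => (ha ⟨h2, h3⟩).elim⟩
  choose Y hY1 hY2 using hin'
  have hpreG : ∀ x y : List α, x ++ y ∈ GG → x ∈ GG := fun x y h =>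
    hfac [] x y (by simpa using h)
  have hsufG : ∀ x y : List α, x ++ y ∈ GG → y ∈ GG := fun x y h =>
    hfac x y [] (by simpa using h)
  let W : Ω → Language α := fun ω' => {u | ∃ P ∈ ({P | P.length = S.D ∧ S.lam P = some ω'} :
    Language α), P <:+ u}
  have hW : ∀ ω', HL n (W ω') := fun ω' =>
    (HL.finite ((List.finite_length_eq α S.D).subset fun v hv => hv.1)).suffix
  have hWiff : ∀ ω' u, u ∈ W ω' ↔ S.D ≤ u.length ∧ S.lam (suf S.D u) = some ω' := by
    intro ω' u
    constructor
    · rintro ⟨P, ⟨hP1, hP2⟩, x, rfl⟩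
      refine ⟨by rw [List.length_append]; omega, ?_⟩
      rw [suf_append x P (by omega)]
      have : suf S.D P = P := by simp [suf, hP1]
      rw [this]; exact hP2
    · rintro ⟨h1, h2⟩
      exact ⟨suf S.D u, ⟨suf_length h1, h2⟩, u.take (u.length - S.D), suf_split u⟩
  let B : Ω → Language α := fun ω' => {u | ∃ i : {p : List α × Ω // (p.1.length = S.D ∧
    S.rho p.1 = some p.2) ∧ p.2 ≠ dead}, u ∈ ({i.1.1} : Language α) * Y i.1.1 i.1.2 (Or.inr i.2.1) ω'}
  haveI : Finite {p : List α × Ω // (p.1.length = S.D ∧ S.rho p.1 = some p.2) ∧ p.2 ≠ dead} := by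
    have : Set.Finite {p : List α × Ω | (p.1.length = S.D ∧ S.rho p.1 = some p.2) ∧ p.2 ≠ dead} :=
      ((List.finite_length_eq α S.D).prod (Set.finite_univ (α := Ω))).subset
        fun p hp => ⟨hp.1.1, trivial⟩
    exact this.to_subtype
  have hB : ∀ ω', HL n (B ω') := fun ω' =>
    HL.iUnion fun i => (HL.word _).mul (hY1 _ _ _ _)
  have hBiff : ∀ ω' u, u ∈ B ω' ↔ ∃ Q y ω, ∃ h : Q.length = S.D ∧ S.rho Q = some ω,
      ω ≠ dead ∧ u = Q ++ y ∧ y ∈ Y Q ω (Or.inr h) ω' := by
    intro ω' u
    constructor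
    · rintro ⟨⟨⟨Q, ω⟩, h⟩, hu⟩
      obtain ⟨Q', hQ', y, hy, rfl⟩ := Language.mem_mul.1 hu
      rw [Set.mem_singleton_iff.1 hQ']
      exact ⟨Q, y, ω, h.1, h.2, rfl, hy⟩
    · rintro ⟨Q, y, ω, h, h', rfl, hy⟩
      exact ⟨⟨⟨Q, ω⟩, h, h'⟩, Language.mem_mul.2 ⟨Q, rfl, y, hy, rfl⟩⟩
  let Mid : Language α := {u | ∃ ω' : {ω // ω ≠ dead}, u ∈ B ω'.1 ∧ u ∈ W ω'.1}
  have hMid : HL n Mid :=
    HL.iUnion (L := fun ω' : {ω // ω ≠ dead} => B ω'.1 ⊓ W ω'.1) fun ω' => (hB ω').inf (hW ω')
  let Y0 : Ω → Language α := fun ω' => Y [] ω0 (Or.inl rfl) ω'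
  let Pre : Language α := {u | ∃ ω' : {ω // ω ≠ dead}, u ∈ Y0 ω'.1 ∧ u ∈ W ω'.1}
  have hPre : HL n Pre :=
    HL.iUnion (L := fun ω' : {ω // ω ≠ dead} => Y0 ω'.1 ⊓ W ω'.1)
      fun ω' => (hY1 _ _ _ _).inf (hW ω')
  refine first_violation hfac hd ω0 (fun ω1 => Y0 ω1 + Pre * KStar.kstar Mid * B ω1)
    (fun ω1 _ => ((hY1 _ _ _ _).mono (Nat.le_succ n)).add
      (((hPre.mono (Nat.le_succ n)).mul hMid.star).mul ((hB ω1).mono (Nat.le_succ n))))
    ?_ ω1 h1
  clear h1 ω1
  intro ω1 h1 w hw halive
  constructor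
  · -- soundness
    intro hX
    rcases hX with hX | hX
    · exact (hY2 [] ω0 _ ω1 h0 h1).1 w (by simpa using hw) hX
    · obtain ⟨pm, hpm, s, hsB, rfl⟩ := Language.mem_mul.1 hX
      obtain ⟨p, hp, m, hm, rfl⟩ := Language.mem_mul.1 hpm
      obtain ⟨L, rfl, hL⟩ := Language.mem_kstar.1 hm
      obtain ⟨⟨ω', hω'⟩, hp1, hp2⟩ := hp
      rw [hWiff] at hp2
      have hpG : p ∈ GG := hpreG p (L.flatten ++ s) (by simpa using hw)
      have hpr : run S.step ω0 p = ω' := (hY2 [] ω0 _ ω' h0 hω').1 p (by simpa using hpG) hp1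
      have stepP : ∀ q u : List α, S.D ≤ q.length → S.lam (suf S.D q) = some (run S.step ω0 q) →
          q ++ u ∈ GG → run S.step ω0 (q ++ u) ≠ dead → ∀ ω'', ω'' ≠ dead → u ∈ B ω'' →
          run S.step ω0 (q ++ u) = ω'' := by
        intro q u hq1 hq2 hqu hal ω'' hω'' hu
        obtain ⟨Q, y, ω, h, hωd, rfl, hy⟩ := (hBiff ω'' u).1 hu
        have h1 : suf S.D q ++ Q ∈ GG := by
          have e : q ++ (Q ++ y) = q.take (q.length - S.D) ++ (suf S.D q ++ Q) ++ y := by
            conv_lhs => rw [← suf_split (D := S.D) q]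
            simp
          rw [e] at hqu
          exact hfac _ _ _ hqu
        have hal2 : run S.step (run S.step ω0 q) Q ≠ dead := by
          rw [← run_append]
          rw [← List.append_assoc] at hal
          exact alive_left hd hal
        have h2 := hs _ _ (suf_length hq1) h.1 h1 _ _ hq2 h.2 hal2
        rw [← List.append_assoc, run_append, run_append, h2]
        exact (hY2 Q ω (Or.inr h) ω'' hωd hω'').1 y (hsufG _ _ hqu) hy
      have main : ∀ (L : List (List α)) (q : List α), (∀ u ∈ L, u ∈ Mid) → S.D ≤ q.length →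
          S.lam (suf S.D q) = some (run S.step ω0 q) → q ++ L.flatten ∈ GG →
          run S.step ω0 (q ++ L.flatten) ≠ dead →
          S.D ≤ (q ++ L.flatten).length ∧
            S.lam (suf S.D (q ++ L.flatten)) = some (run S.step ω0 (q ++ L.flatten)) := by
        intro L
        induction L with
        | nil => intro q _ h1 h2 _ _; simpa using ⟨h1, h2⟩
        | cons u L ih =>
          intro q hL h1 h2 h3 hal
          obtain ⟨⟨ω'', hω''⟩, hu1, hu2⟩ := hL u (by simp)
          rw [hWiff] at hu2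
          have h4 : (q ++ u) ++ L.flatten ∈ GG := by simpa using h3
          have hal4 : run S.step ω0 ((q ++ u) ++ L.flatten) ≠ dead := by simpa using hal
          have h5 := stepP q u h1 h2 (hpreG _ _ h4) (alive_left hd hal4) ω'' hω'' hu1
          have h6 := ih (q ++ u) (fun v hv => hL v (by simp [hv]))
            (by rw [List.length_append]; omega)
            (by rw [suf_append q u hu2.1, h5]; exact hu2.2) h4 hal4
          simpa using h6
      have h7 : p ++ L.flatten ∈ GG := hpreG _ s (by simpa using hw)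
      have hal7 : run S.step ω0 (p ++ L.flatten) ≠ dead := alive_left hd halive
      have h8 := main L p hL hp2.1 (by rw [hpr]; exact hp2.2) h7 hal7
      exact stepP (p ++ L.flatten) s h8.1 h8.2 hw halive ω1 h1 hsB
  · -- completeness
    intro hrun
    have key : ∀ (k : ℕ) (Q : List α) (ω : Ω) (y : List α), y.length ≤ k → Q.length = S.D →
        S.rho Q = some ω → ω ≠ dead → Q ++ y ∈ GG → run S.step ω y = ω1 →
        ∃ L : List (List α), (∀ u ∈ L, u ∈ Mid) ∧ ∃ s ∈ B ω1, Q ++ y = L.flatten ++ s := by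
      intro k
      induction k with
      | zero =>
        intro Q ω y hk hQ hrho hωd hG hr
        by_cases hu : S.Uc Q ω y
        · refine ⟨[], by simp, Q ++ y, (hBiff ω1 _).2 ⟨Q, y, ω, ⟨hQ, hrho⟩, hωd, rfl, ?_⟩, by simp⟩
          exact (hY2 Q ω _ ω1 hωd h1).2 y hG hu hr
        · exfalso
          obtain ⟨y1, y2, h1, h2, -⟩ := first_cut S hu
          have := h2.2.1; have hD := S.hD
          rw [← h1, List.length_append] at hk; omega
      | succ k ih =>
        intro Q ω y hk hQ hrho hωd hG hr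
        by_cases hu : S.Uc Q ω y
        · refine ⟨[], by simp, Q ++ y, (hBiff ω1 _).2 ⟨Q, y, ω, ⟨hQ, hrho⟩, hωd, rfl, ?_⟩, by simp⟩
          exact (hY2 Q ω _ ω1 hωd h1).2 y hG hu hr
        · obtain ⟨y1, y2, h1', h2, h3⟩ := first_cut S hu
          obtain ⟨ω2, hω2⟩ := Option.isSome_iff_exists.1 h2.2.2.2
          have hD := S.hD
          have hlen := h2.2.1
          set Q' := y2.take S.D with hQ'
          set y' := y2.drop S.D with hy'
          have hy2 : Q' ++ y' = y2 := List.take_append_drop _ _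
          have hQ'l : Q'.length = S.D := by simp [hQ', hlen]
          have hyy : y = y1 ++ Q' ++ y' := by rw [← h1', ← hy2]; simp
          have haly : run S.step ω y ≠ dead := by rw [hr]; exact h1
          have hfG : suf S.D (Q ++ y1) ++ Q' ∈ GG := by
            have e : Q ++ y = (Q ++ y1).take ((Q ++ y1).length - S.D) ++
                (suf S.D (Q ++ y1) ++ Q') ++ y' := by
              rw [hyy, ← List.append_assoc, ← List.append_assoc]
              conv_lhs => rw [← suf_split (D := S.D) (Q ++ y1)]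
              simp
            rw [e] at hG
            exact hfac _ _ _ hG
          have hal2 : run S.step (run S.step ω y1) Q' ≠ dead := by
            rw [← run_append]; rw [hyy] at haly; exact alive_left hd haly
          have hsound := hs _ _ (suf_length h2.1) hQ'l hfG _ _ h2.2.2.1 hω2 hal2
          have hω2' : run S.step ω (y1 ++ Q') = ω2 := by rw [run_append]; exact hsound
          have hω2d : ω2 ≠ dead := by rw [← hsound]; exact hal2
          have hG' : Q' ++ y' ∈ GG := by
            apply hsufG (Q ++ y1)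
            have : Q ++ y1 ++ (Q' ++ y') = Q ++ y := by rw [hyy]; simp
            rw [this]; exact hG
          have hr' : run S.step ω2 y' = ω1 := by
            rw [← hω2', ← run_append, ← hyy]; exact hr
          have hk' : y'.length ≤ k := by
            have := congrArg List.length hyy
            simp only [List.length_append] at this
            omega
          obtain ⟨L, hL, s, hsB, he⟩ := ih Q' ω2 y' hk' hQ'l hω2 hω2d hG' hr'
          have hal1 : run S.step ω y1 ≠ dead := by
            rw [hyy, List.append_assoc] at haly; exact alive_left hd haly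
          have hm : Q ++ y1 ∈ Mid := by
            refine ⟨⟨run S.step ω y1, hal1⟩, (hBiff _ _).2 ⟨Q, y1, ω, ⟨hQ, hrho⟩, hωd, rfl, ?_⟩,
              (hWiff _ _).2 ⟨h2.1, h2.2.2.1⟩⟩
            refine (hY2 Q ω _ _ hωd hal1).2 y1 ?_ h3 rfl
            apply hpreG _ y2; rw [List.append_assoc, h1']; exact hG
          refine ⟨(Q ++ y1) :: L, ?_, s, hsB, ?_⟩
          · intro u hu'
            rcases List.mem_cons.1 hu' with rfl | hu'
            · exact hm
            · exact hL u hu'
          · rw [List.flatten_cons, List.append_assoc, ← he, hyy]; simp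
    by_cases hu : S.Uc [] ω0 w
    · left
      exact (hY2 [] ω0 _ ω1 h0 h1).2 w (by simpa using hw) hu hrun
    · right
      obtain ⟨y1, y2, h1', h2, h3⟩ := first_cut S hu
      obtain ⟨ω2, hω2⟩ := Option.isSome_iff_exists.1 h2.2.2.2
      have hD := S.hD
      have hlen := h2.2.1
      set Q' := y2.take S.D with hQ'
      set y' := y2.drop S.D with hy'
      have hy2 : Q' ++ y' = y2 := List.take_append_drop _ _
      have hQ'l : Q'.length = S.D := by simp [hQ', hlen]
      have hyy : w = y1 ++ Q' ++ y' := by rw [← h1', ← hy2]; simp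
      have h21 : S.D ≤ y1.length := by simpa using h2.1
      have h22 : S.lam (suf S.D y1) = some (run S.step ω0 y1) := by simpa using h2.2.2.1
      have hfG : suf S.D y1 ++ Q' ∈ GG := by
        have e : w = y1.take (y1.length - S.D) ++ (suf S.D y1 ++ Q') ++ y' := by
          rw [hyy]
          conv_lhs => rw [← suf_split (D := S.D) y1]
          simp
        rw [e] at hw
        exact hfac _ _ _ hw
      have hal2 : run S.step (run S.step ω0 y1) Q' ≠ dead := by
        rw [← run_append]; rw [hyy] at halive; exact alive_left hd halive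
      have hal1 : run S.step ω0 y1 ≠ dead := by
        rw [hyy, List.append_assoc] at halive; exact alive_left hd halive
      have hsound := hs _ _ (suf_length h21) hQ'l hfG _ _ h22 hω2 hal2
      have hω2' : run S.step ω0 (y1 ++ Q') = ω2 := by rw [run_append]; exact hsound
      have hω2d : ω2 ≠ dead := by rw [← hsound]; exact hal2
      have hG' : Q' ++ y' ∈ GG := by
        apply hsufG y1
        have : y1 ++ (Q' ++ y') = w := by rw [hyy]; simp
        rw [this]; exact hw
      have hr' : run S.step ω2 y' = ω1 := by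
        rw [← hω2', ← run_append, ← hyy]; exact hrun
      obtain ⟨L, hL, s, hsB, he⟩ := key _ Q' ω2 y' le_rfl hQ'l hω2 hω2d hG' hr'
      have hp : y1 ∈ Pre := by
        refine ⟨⟨run S.step ω0 y1, hal1⟩, ?_, (hWiff _ _).2 ⟨h21, h22⟩⟩
        refine (hY2 [] ω0 _ _ h0 hal1).2 y1 ?_ h3 rfl
        apply hpreG _ y2; rw [List.append_assoc, h1']; simpa using hw
      have : w = (y1 ++ L.flatten) ++ s := by
        rw [List.append_assoc, ← he, hyy]; simp
      rw [this]
      exact Language.mem_mul.2 ⟨_, Language.mem_mul.2 ⟨y1, hp, _,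
        Language.mem_kstar.2 ⟨L, rfl, hL⟩, rfl⟩, s, hsB, rfl⟩

end Crest.Agent.R320.Nest_528
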