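import Crest.Agent.R320.Three_427

/-!
# Row 320: nested cut systems with UNBOUNDED right-legal words (helper163)

`Three_427.nested_base` with the hypothesis "right-legal words are bounded" replaced by
"for every state `ω` the right-legal words `Q` with `c Q = ω` form a language of height `≤ b`"
(`b` = height of the base).  Needed for 813 #12712 (3) / 132 #12664 on all words: the right-legal word of a
junction runs up to the next anchor, which may lie behind an unboundedly long run.
-/

set_option autoImplicit false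

namespace Crest.Agent.R320.NestR_163

open Crest.RegLang Crest.Agent.R320.Hgt1_903 Crest.Agent.R320.Three_427

variable {α Ω : Type*} {step : Ω → α → Ω} {L : ℕ → Lvl Ω α}

/-- the right-legal words of level `j` with end state `ω` -/
def RW (L : ℕ → Lvl Ω α) (j : ℕ) (ω : Ω) : Language α := {Q | (L j).R Q ∧ (L j).c Q = ω}

/-- one level -/
theorem level {n i : ℕ} [Finite Ω] (hne : ∀ j ≤ i, ∀ Q, (L j).R Q → Q ≠ [])
    (hR : ∀ j ≤ i, ∀ ω, H n (RW L j ω))
    (hs : ∀ p Q, (L i).C p → (L i).R Q → Live step L i p Q → run step Q p = (L i).c Q)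
    (hX : ∀ p p', H n (X step L (i + 1) p p')) (p p' : Ω) : H (n + 1) (X step L i p p') := by
  have hK : H n (K step L i) := by
    refine H.congr (H.exists_fintype (fun ω : Ω => ({w | ∃ q : Ω, (L i).C q ∧
      w ∈ ({w | ∃ u v, u ++ v = w ∧ u ∈ RW L i ω ∧ v ∈ X step L (i + 1) ω q} : Language α)}
        : Language α)) fun ω => ?_) fun w => ?_
    · refine H.exists_cond _ _ fun q _ => ?_
      exact H.cat (hR i le_rfl ω) (hX ω q)
    · constructor
      · rintro ⟨ω, q, hq, u, v, e, ⟨hu, rfl⟩, hv⟩
        exact ⟨u, hu, q, hq, v, e, hv⟩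
      · rintro ⟨Q, hQ, q, hq, r, e, hr⟩
        exact ⟨_, q, hq, Q, r, e, ⟨hQ, rfl⟩, hr⟩
  have hS : ∀ q, H n (S step L i q) := by
    intro q
    refine H.congr (H.exists_fintype (fun ω : Ω =>
      ({w | ∃ u v, u ++ v = w ∧ u ∈ RW L i ω ∧ v ∈ X step L (i + 1) ω q} : Language α))
        fun ω => H.cat (hR i le_rfl ω) (hX ω q)) fun w => ?_
    constructor
    · rintro ⟨ω, u, v, e, ⟨hu, rfl⟩, hv⟩
      exact ⟨u, hu, v, e, hv⟩
    · rintro ⟨Q, hQ, r, e, hr⟩
      exact ⟨_, Q, r, e, ⟨hQ, rfl⟩, hr⟩
  have hP : ∀ q, H n (P step L i q) := fun q => H.exists_cond _ _ fun q' _ => hX q q'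
  have hE : ∀ q q', H (n + 1) (E step L i q q') := fun q q' =>
    H.union ((hX q q').mono (Nat.le_succ n))
      (H.cat ((hP q).mono (Nat.le_succ n)) (H.cat hK.star ((hS q').mono (Nat.le_succ n))))
  have hD : ∀ q, H (n + 1) (Dd step L i q) := by
    intro q
    refine H.exists_finset _ _ fun j hj => ?_
    have hj' : j ≤ i := le_of_lt (Finset.mem_range.1 hj)
    refine H.congr (H.exists_fintype (fun ω : Ω => ({w | ∃ q' : Ω, (L j).C q' ∧
      w ∈ ({w | ∃ x t, x ++ t = w ∧ x ∈ E step L i q q' ∧
        t ∈ ({t | ∃ u v, u ++ v = t ∧ u ∈ RW L j ω ∧ v ∈ (⊤ : Language α)} : Language α)}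
          : Language α)} : Language α)) fun ω => ?_) fun w => ?_
    · refine H.exists_cond _ _ fun q' _ => ?_
      exact H.cat (hE q q') (H.cat ((hR j hj' ω).mono (Nat.le_succ n)) (H.univ _))
    · constructor
      · rintro ⟨ω, q', hq', x, t, e, hx, u, v, e', ⟨hu, _⟩, hv⟩
        exact ⟨u, hu, q', hq', x, t, e, hx, u, v, e', rfl, hv⟩
      · rintro ⟨Q, hQ, q', hq', x, t, e, hx, u, v, e', hu, hv⟩
        have hu' : u = Q := hu
        subst hu'
        exact ⟨_, q', hq', x, t, e, hx, u, v, e', ⟨hQ, rfl⟩, hv⟩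
  refine H.congr (H.inter (H.not (hD p)) (hE p p')) fun w => ?_
  change (¬ w ∈ Dd step L i p ∧ w ∈ E step L i p p') ↔ (Live step L i p w ∧ run step w p = p')
  rw [← live_iff hne hs p w]
  constructor
  · rintro ⟨h1, h2⟩; exact ⟨h1, E_sound hs h1 h2⟩
  · rintro ⟨h1, rfl⟩; exact ⟨h1, E_complete (hne i le_rfl) hs h1⟩

/-- **Nested cut systems with unbounded right-legal words.**  `N` levels, right-legal words (by end state)
and fully live words (by start and end state) of height `≤ b`: everything has height `≤ N + b`. -/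
theorem nested_unbounded [Finite Ω] (step : Ω → α → Ω) (L : ℕ → Lvl Ω α) (N b : ℕ)
    (hne : ∀ j < N, ∀ Q, (L j).R Q → Q ≠ [])
    (hR : ∀ j < N, ∀ ω, H b ({Q | (L j).R Q ∧ (L j).c Q = ω} : Language α))
    (hs : ∀ i < N, ∀ p Q, (L i).C p → (L i).R Q → Live step L i p Q →
      run step Q p = (L i).c Q)
    (hbase : ∀ p p', H b ({w | Live step L N p w ∧ run step w p = p'} : Language α)) (p p' : Ω) :
    H (N + b) ({w | run step w p = p'} : Language α) := by
  have key : ∀ k i, i + k = N → ∀ p p', H (k + b) (X step L i p p') := by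
    intro k
    induction k with
    | zero =>
      intro i hi p p'
      have hi' : i = N := by omega
      subst hi'
      rw [Nat.zero_add]; exact hbase p p'
    | succ k ih =>
      intro i hi p p'
      have h := level (n := k + b) (fun j hj => hne j (by omega))
        (fun j hj ω => (hR j (by omega) ω).mono (Nat.le_add_left _ _))
        (hs i (by omega)) (ih (i + 1) (by omega)) p p'
      rwa [show k + 1 + b = k + b + 1 by omega]
  refine H.congr (key N 0 (by omega) p p') fun w => ?_
  constructor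
  · rintro ⟨_, h⟩; exact h
  · intro h
    exact ⟨fun j hj => absurd hj (Nat.not_lt_zero j), h⟩

end Crest.Agent.R320.NestR_163
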