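import Crest.Agent.R320.Hk1_851

/-!
# Row 320, item (9): the nest step theorem (helper151)

A chain is a local partial map `nxt : List α → Option (ℕ × σ)` (text right of a node, offset of
the next node, type of the step).  `Walk nxt Q ts R` : the chain from `Q` has types `ts` and ends in
the remainder `R`.  `Lng D μ s R` : all step types lie in `D`, the product of the `μ` is `s`.

MAIN THEOREM `nest_step`: if the languages `Lng D μ s R` have height `≤ k` for all finite monoids,
and a junction scheme is exact on the steps with type in `E = G ∪ D` and complete on those with type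
in `G`, then the languages `Lng E μ s R` have height `≤ k + 1`.
-/

set_option autoImplicit false

namespace Crest.Agent.R320.Nest_151

open Crest.RegLang Crest.Agent.R320.Hk_851

universe u

variable {α : Type u} {σ : Type} {V : Type}

/-- the chain from `Q`: types `ts`, remainder `R` -/
inductive Walk (nxt : List α → Option (ℕ × σ)) : List α → List σ → List α → Prop
  | nil {R : List α} : nxt R = none → Walk nxt R [] R
  | cons {Q : List α} {c : ℕ} {t : σ} {ts : List σ} {R : List α} :
      nxt Q = some (c, t) → Walk nxt (Q.drop c) ts R → Walk nxt Q (t :: ts) R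

/-- partial chain from `Q` to `Q'` -/
inductive Path (nxt : List α → Option (ℕ × σ)) : List α → List σ → List α → Prop
  | nil {Q : List α} : Path nxt Q [] Q
  | cons {Q : List α} {c : ℕ} {t : σ} {ts : List σ} {R : List α} :
      nxt Q = some (c, t) → Path nxt (Q.drop c) ts R → Path nxt Q (t :: ts) R

/-- hypotheses on the chain -/
structure ChainOK (nxt : List α → Option (ℕ × σ)) (n B : ℕ) (X : Set (List α)) : Prop where
  pos : ∀ {Q c t}, nxt Q = some (c, t) → 0 < c
  len : ∀ {Q c t}, nxt Q = some (c, t) → c + n ≤ Q.length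
  take : ∀ {Q c t}, nxt Q = some (c, t) → nxt (Q.take (c + n)) = some (c, t)
  ext : ∀ {Q x} (u : List α), nxt Q = some x → nxt (Q ++ u) = some x
  fac : ∀ {u v w : List α}, u ++ v ++ w ∈ X → v ∈ X
  bd : ∀ {Q}, Q ∈ X → B ≤ Q.length → nxt Q ≠ none

section walk

variable {nxt : List α → Option (ℕ × σ)} {n B : ℕ} {X : Set (List α)}

theorem Walk.end_none {Q : List α} {ts : List σ} {R : List α} (h : Walk nxt Q ts R) :
    nxt R = none := by
  induction h with
  | nil h => exact h
  | cons _ _ ih => exact ih

theorem Walk.det {Q : List α} {ts : List σ} {R : List α} (h : Walk nxt Q ts R)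
    {ts' : List σ} {R' : List α} (h' : Walk nxt Q ts' R') : ts = ts' ∧ R = R' := by
  induction h generalizing ts' R' with
  | nil h =>
    cases h' with
    | nil _ => exact ⟨rfl, rfl⟩
    | cons h2 _ => rw [h] at h2; cases h2
  | cons h _ ih =>
    cases h' with
    | nil h2 => rw [h] at h2; cases h2
    | cons h2 h3 =>
      rw [h] at h2
      cases h2
      obtain ⟨e1, e2⟩ := ih h3
      exact ⟨by rw [e1], e2⟩

theorem Walk.total (hc : ChainOK nxt n B X) (Q : List α) : ∃ ts R, Walk nxt Q ts R := by
  induction hl : Q.length using Nat.strong_induction_on generalizing Q with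
  | _ m ih =>
    cases h : nxt Q with
    | none => exact ⟨[], Q, Walk.nil h⟩
    | some x =>
      obtain ⟨c, t⟩ := x
      have h1 := hc.pos h
      have h2 := hc.len h
      obtain ⟨ts, R, hw⟩ := ih (Q.drop c).length (by rw [List.length_drop]; omega) (Q.drop c) rfl
      exact ⟨t :: ts, R, Walk.cons h hw⟩

theorem Walk.path {Q : List α} {ts : List σ} {R : List α} (h : Walk nxt Q ts R) :
    Path nxt Q ts R := by
  induction h with
  | nil _ => exact Path.nil
  | cons h _ ih => exact Path.cons h ih

theorem Path.walk {Q : List α} {ts : List σ} {Q' : List α} (h : Path nxt Q ts Q')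
    {ts' : List σ} {R : List α} (h' : Walk nxt Q' ts' R) : Walk nxt Q (ts ++ ts') R := by
  induction h with
  | nil => exact h'
  | cons h _ ih => exact Walk.cons h (ih h')

theorem Path.trans {Q : List α} {ts : List σ} {Q' : List α} (h : Path nxt Q ts Q')
    {ts' : List σ} {R : List α} (h' : Path nxt Q' ts' R) : Path nxt Q (ts ++ ts') R := by
  induction h with
  | nil => exact h'
  | cons h _ ih => exact Path.cons h (ih h')

theorem Path.suffix {Q : List α} {ts : List σ} {Q' : List α} (h : Path nxt Q ts Q') :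
    ∃ Q1, Q = Q1 ++ Q' := by
  induction h with
  | nil => exact ⟨[], rfl⟩
  | @cons Q c t ts R h _ ih =>
    obtain ⟨Q1, h1⟩ := ih
    refine ⟨Q.take c ++ Q1, ?_⟩
    rw [List.append_assoc, ← h1, List.take_append_drop]

theorem Path.ext (hc : ChainOK nxt n B X) {Q : List α} {ts : List σ} {Q' : List α}
    (h : Path nxt Q ts Q') (u : List α) : Path nxt (Q ++ u) ts (Q' ++ u) := by
  induction h with
  | nil => exact Path.nil
  | @cons Q c t ts R h _ ih =>
    refine Path.cons (hc.ext u h) ?_
    rw [List.drop_append_of_le_length (by have := hc.len h; omega)]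
    exact ih

/-- walks of an extended text -/
theorem Walk.append (hc : ChainOK nxt n B X) {Q : List α} {ts : List σ} {R : List α}
    (h : Walk nxt Q ts R) {u : List α} {ts' : List σ} {R' : List α}
    (h' : Walk nxt (R ++ u) ts' R') : Walk nxt (Q ++ u) (ts ++ ts') R' :=
  (h.path.ext hc u).walk h'

/-- the node remainder of a nonempty path has length `≥ n` -/
theorem Path.len (hc : ChainOK nxt n B X) {Q : List α} {ts : List σ} {Q' : List α}
    (h : Path nxt Q ts Q') : ts = [] ∧ Q = Q' ∨ n ≤ Q'.length := by
  induction h with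
  | nil => exact Or.inl ⟨rfl, rfl⟩
  | @cons Q c t ts R h _ ih =>
    rcases ih with ⟨rfl, h1⟩ | h1
    · right
      rw [← h1, List.length_drop]
      have := hc.len h
      omega
    · exact Or.inr h1

/-- truncation of a path -/
theorem Path.trunc (hc : ChainOK nxt n B X) {Q1 : List α} {ts : List σ} {P w : List α}
    (h : Path nxt (Q1 ++ (P ++ w)) ts (P ++ w)) (hP : n ≤ P.length) :
    Path nxt (Q1 ++ P) ts P := by
  generalize hQ : Q1 ++ (P ++ w) = Q at h
  generalize hR : P ++ w = R at h
  induction h generalizing Q1 with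
  | nil =>
    have h1 : Q1 = [] := by
      have h2 := congrArg List.length (hQ.trans hR.symm)
      simp only [List.length_append] at h2
      exact List.eq_nil_of_length_eq_zero (by omega)
    rw [h1]
    exact Path.nil
  | @cons Q c t ts R h hp ih =>
    subst hQ
    have hle : c ≤ Q1.length := by
      obtain ⟨Z, hZ⟩ := hp.suffix
      have h2 := congrArg List.length hZ
      rw [List.length_drop, ← hR] at h2
      simp only [List.length_append] at h2
      have h3 := hc.len h
      simp only [List.length_append] at h3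
      omega
    have h4 : nxt (Q1 ++ P) = some (c, t) := by
      have h5 := hc.take h
      have h6 : (Q1 ++ (P ++ w)).take (c + n) = (Q1 ++ P).take (c + n) := by
        rw [← List.append_assoc, List.take_append_of_le_length]
        rw [List.length_append]; omega
      rw [h6] at h5
      have h7 := hc.ext ((Q1 ++ P).drop (c + n)) h5
      rwa [List.take_append_drop] at h7
    refine Path.cons h4 ?_
    rw [List.drop_append_of_le_length hle]
    refine ih ?_ hR
    rw [List.drop_append_of_le_length hle]

end walk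

/-- composite action -/
def act (T : σ → V → V) (ts : List σ) (v : V) : V := ts.foldl (fun v t => T t v) v

@[simp] theorem act_nil (T : σ → V → V) (v : V) : act T [] v = v := rfl

@[simp] theorem act_cons (T : σ → V → V) (t : σ) (ts : List σ) (v : V) :
    act T (t :: ts) v = act T ts (T t v) := rfl

theorem act_append (T : σ → V → V) (ts ts' : List σ) (v : V) :
    act T (ts ++ ts') v = act T ts' (act T ts v) := by
  unfold act
  rw [List.foldl_append]

/-- chain languages -/
def Lng {S : Type} [Monoid S] (nxt : List α → Option (ℕ × σ)) (X : Set (List α)) (D : Set σ)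
    (μ : σ → S) (s : S) (R : List α) : Language α :=
  {Q | Q ∈ X ∧ ∃ ts, Walk nxt Q ts R ∧ (∀ t ∈ ts, t ∈ D) ∧ (ts.map μ).prod = s}

/-- hypotheses on a junction scheme: `l` = left label, `r` = right label -/
structure SchemeOK (nxt : List α → Option (ℕ × σ)) (n B : ℕ) (X : Set (List α))
    (T : σ → V → V) (l : List α → Option V) (r : List α → Option (ℕ × V)) (E G : Set σ)
    (B2 : ℕ) : Prop where
  lnone : ∀ {P v}, l P = some v → nxt P = none
  llen : ∀ {P v}, l P = some v → n ≤ P.length
  rext : ∀ {w x} (u : List α), r w = some x → r (w ++ u) = some x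
  rlen : ∀ {w b v}, r w = some (b, v) → b + n ≤ w.length
  rtake : ∀ {w b v}, r w = some (b, v) → r (w.take (b + n)) = some (b, v)
  rpos : ∀ {w b v}, r w = some (b, v) → 0 < b
  rbd : ∀ {w b v}, r w = some (b, v) → b ≤ B
  ex : ∀ {P w v b v' c t}, l P = some v → r w = some (b, v') → P ++ w ∈ X →
    nxt (P ++ w) = some (c, t) → t ∈ E → c = P.length + b ∧ T t v = v'
  comp : ∀ {Q c t}, Q ∈ X → B2 ≤ Q.length → nxt Q = some (c, t) → t ∈ G →
    ∀ v, ∃ P w, Q = P ++ w ∧ l P = some v ∧ (r w).isSome ∧ B ≤ w.length

section step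

variable {nxt : List α → Option (ℕ × σ)} {n B : ℕ} {X : Set (List α)}
  {T : σ → V → V} {l : List α → Option V} {r : List α → Option (ℕ × V)} {D E G : Set σ} {B2 : ℕ}

/-- thread words from a node whose steps outside `D` are visible only near the end -/
def MM (nxt : List α → Option (ℕ × σ)) (X : Set (List α)) (T : σ → V → V) (D E : Set σ) (B2 : ℕ)
    (v v' : V) (R : List α) : Language α :=
  {Q | Q ∈ X ∧ ∃ ts1 Q' ts2, Path nxt Q ts1 Q' ∧ (∀ t ∈ ts1, t ∈ D) ∧ Walk nxt Q' ts2 R ∧
    (ts2 = [] ∨ Q'.length < B2) ∧ (∀ t ∈ ts2, t ∈ E) ∧ act T (ts1 ++ ts2) v = v'}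

/-- thread words between two junctions -/
def K0 (nxt : List α → Option (ℕ × σ)) (X : Set (List α)) (T : σ → V → V)
    (l : List α → Option V) (r : List α → Option (ℕ × V)) (D E : Set σ) (B2 : ℕ) : Language α :=
  {w | w ∈ X ∧ ∃ b v0, r w = some (b, v0) ∧ ∃ R v', l R = some v' ∧
    w.drop b ∈ MM nxt X T D E B2 v0 v' R}

def Kend (nxt : List α → Option (ℕ × σ)) (X : Set (List α)) (T : σ → V → V)
    (r : List α → Option (ℕ × V)) (D E : Set σ) (B B2 : ℕ) (v' : V) (R : List α) : Language α :=
  {w | w ∈ X ∧ B ≤ w.length ∧ ∃ b v0, r w = some (b, v0) ∧ w.drop b ∈ MM nxt X T D E B2 v0 v' R}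

def Kst (nxt : List α → Option (ℕ × σ)) (X : Set (List α)) (T : σ → V → V)
    (l : List α → Option V) (D E : Set σ) (B2 : ℕ) (v : V) : Language α :=
  {Q | ∃ R v', l R = some v' ∧ Q ∈ MM nxt X T D E B2 v v' R}

theorem MM.walk (hDE : D ⊆ E) {v v' : V} {R Q : List α} (h : Q ∈ MM nxt X T D E B2 v v' R) :
    ∃ ts, Walk nxt Q ts R ∧ (∀ t ∈ ts, t ∈ E) ∧ act T ts v = v' := by
  obtain ⟨-, ts1, Q', ts2, h1, h2, h3, -, h5, h6⟩ := h
  refine ⟨ts1 ++ ts2, h1.walk h3, ?_, h6⟩
  intro t ht
  rcases List.mem_append.1 ht with ht | ht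
  · exact hDE (h2 t ht)
  · exact h5 t ht

/-- soundness along a product of junction words -/
theorem sound (hc : ChainOK nxt n B X) (hs : SchemeOK nxt n B X T l r E G B2) (hDE : D ⊆ E)
    {v' : V} {R w : List α} (hw : w ∈ Kend nxt X T r D E B B2 v' R) :
    ∀ (ks : List (List α)), (∀ k ∈ ks, k ∈ K0 nxt X T l r D E B2) →
    ∀ (P : List α) (v1 : V), l P = some v1 → P ++ (ks.flatten ++ w) ∈ X →
    ∀ ts RY, Walk nxt (P ++ (ks.flatten ++ w)) ts RY → (∀ t ∈ ts, t ∈ E) →
      RY = R ∧ act T ts v1 = v' := by
  intro ks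
  induction ks with
  | nil =>
    intro _ P v1 hP hX ts RY hW hE
    obtain ⟨-, hB, b, v0, hr, hM⟩ := hw
    simp only [List.flatten_nil, List.nil_append] at hX hW
    obtain ⟨tsM, hM1, -, hM3⟩ := MM.walk hDE hM
    cases hW with
    | nil h =>
      exact absurd h (hc.bd hX (by rw [List.length_append]; omega))
    | @cons _ c t ts' _ h h' =>
      obtain ⟨e1, e2⟩ := hs.ex hP hr hX h (hE t (by simp))
      rw [e1, List.drop_length_add_append] at h'
      obtain ⟨e3, e4⟩ := h'.det hM1
      refine ⟨e4, ?_⟩
      rw [act_cons, e2, e3, hM3]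
  | cons k ks ih =>
    intro hk P v1 hP hX ts RY hW hE
    have hwB : B ≤ w.length := hw.2.1
    have hkK := hk k (by simp)
    obtain ⟨-, b, v0, hr, R1, v2, hl, hM⟩ := hkK
    have hr' : r (k ++ (ks.flatten ++ w)) = some (b, v0) := hs.rext _ hr
    have hfl : (k :: ks).flatten ++ w = k ++ (ks.flatten ++ w) := by
      rw [List.flatten_cons, List.append_assoc]
    rw [hfl] at hX hW
    obtain ⟨tsM, hM1, -, hM3⟩ := MM.walk hDE hM
    cases hW with
    | nil h =>
      exact absurd h (hc.bd hX (by simp only [List.length_append]; omega))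
    | @cons _ c t ts' _ h h' =>
      obtain ⟨e1, e2⟩ := hs.ex hP hr' hX h (hE t (by simp))
      rw [e1, List.drop_length_add_append,
        List.drop_append_of_le_length (by have := hs.rlen hr; omega)] at h'
      obtain ⟨ts2, R2, hW2⟩ := Walk.total hc (R1 ++ (ks.flatten ++ w))
      obtain ⟨e3, e4⟩ := h'.det (hM1.append hc hW2)
      have hX2 : R1 ++ (ks.flatten ++ w) ∈ X := by
        obtain ⟨Z, hZ⟩ := hM1.path.suffix
        have h5 : P ++ (k ++ (ks.flatten ++ w)) =
            (P ++ k.take b ++ Z) ++ (R1 ++ (ks.flatten ++ w)) ++ [] := by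
          rw [List.append_nil]
          conv_lhs => rw [← List.take_append_drop b k, hZ]
          simp only [List.append_assoc]
        rw [h5] at hX
        exact hc.fac hX
      have h6 := ih (fun k hk' => hk k (by simp [hk'])) R1 v2 hl hX2 ts2 R2 hW2
        (fun t' ht' => hE t' (by rw [e3]; simp [ht']))
      refine ⟨e4.trans h6.1, ?_⟩
      rw [act_cons, e2, e3, act_append, hM3]
      exact h6.2

/-- first visible step outside `D` -/
theorem split {Q : List α} {ts : List σ} {R : List α} (hW : Walk nxt Q ts R)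
    (hc : ChainOK nxt n B X) (hQ : Q ∈ X) (hE : ∀ t ∈ ts, t ∈ E) (v : V) :
    Q ∈ MM nxt X T D E B2 v (act T ts v) R ∨
    ∃ ts1 Q' c t ts3, Path nxt Q ts1 Q' ∧ (∀ t ∈ ts1, t ∈ D) ∧ nxt Q' = some (c, t) ∧ t ∉ D ∧
      B2 ≤ Q'.length ∧ Walk nxt (Q'.drop c) ts3 R ∧ ts = ts1 ++ t :: ts3 := by
  induction hW generalizing v with
  | @nil R h =>
    left
    exact ⟨hQ, [], R, [], Path.nil, by simp, Walk.nil h, Or.inl rfl, by simp, rfl⟩
  | @cons Q c t ts R h hW ih =>
    by_cases hD : t ∈ D
    · have hQ' : Q.drop c ∈ X := by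
        apply hc.fac (u := Q.take c) (w := [])
        rw [List.append_nil, List.take_append_drop]
        exact hQ
      rcases ih hQ' (fun t' ht' => hE t' (by simp [ht'])) (T t v) with h1 | h1
      · left
        obtain ⟨-, ts1, Q', ts2, h2, h3, h4, h5, h6, h7⟩ := h1
        exact ⟨hQ, t :: ts1, Q', ts2, Path.cons h h2, by
          intro t' ht'
          rcases List.mem_cons.1 ht' with rfl | ht'
          · exact hD
          · exact h3 t' ht', h4, h5, h6, by simpa using h7⟩
      · right
        obtain ⟨ts1, Q', c', t', ts3, h2, h3, h4, h5, h6, h7, h8⟩ := h1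
        exact ⟨t :: ts1, Q', c', t', ts3, Path.cons h h2, by
          intro t' ht'
          rcases List.mem_cons.1 ht' with rfl | ht'
          · exact hD
          · exact h3 t' ht', h4, h5, h6, h7, by rw [h8]; rfl⟩
    · by_cases hB : Q.length < B2
      · left
        exact ⟨hQ, [], Q, t :: ts, Path.nil, by simp, Walk.cons h hW, Or.inr hB, hE, by simp⟩
      · right
        exact ⟨[], Q, c, t, ts, Path.nil, by simp, h, hD, by omega, hW, rfl⟩

end step

end Crest.Agent.R320.Nest_151
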