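import Crest.Agent.R320.Hgt1_903

/-!
Row 320 (S0495), item (9): the nesting calculus.

`Solv n Bad` : every regular language, cut down to `Bad`, has generalized height at most `n`.
`nest` : a thread language `C` (with its junction languages `T`, `A`, `B`) all of whose
members in the factor closed class `G` are `Bad` or can be cut at a junction, is of height `n + 1`
on `G`.
-/

set_option autoImplicit false

namespace Crest.Agent.R320.Nest_413

open Crest.Agent.R320.Hgt1_903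

variable {α : Type*}

/-- Every regular language, restricted to `B`, has height at most `n`. -/
def Solv (n : ℕ) (B : Language α) : Prop :=
  ∀ L : Language α, L.IsRegular → H n (L ⊓ B)

theorem Solv.mono {m n : ℕ} (h : m ≤ n) {B : Language α} (hB : Solv m B) : Solv n B :=
  fun L hL => (hB L hL).mono h

theorem isRegular_univ : (⊤ : Language α).IsRegular := by
  refine ⟨Unit, inferInstance, ⟨fun _ _ => (), (), Set.univ⟩, ?_⟩
  ext x
  simp [DFA.mem_accepts]
  trivial

theorem Solv.self {n : ℕ} {B : Language α} (hB : Solv n B) : H n B :=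
  (hB ⊤ isRegular_univ).congr fun w => by
    constructor
    · exact fun h => h.2
    · exact fun h => ⟨trivial, h⟩

/-- Restriction to a smaller class which is itself of height at most `n`. -/
theorem Solv.inter {n : ℕ} {B D : Language α} (hB : Solv n B) (hD : H n D) :
    Solv n (B ⊓ D) := fun L hL =>
  ((hB L hL).inter hD).congr fun w => by
    constructor
    · exact fun h => ⟨h.1.1, h.1.2, h.2⟩
    · exact fun h => ⟨⟨h.1, h.2.1⟩, h.2.2⟩

/-- Union of two solved classes. -/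
theorem Solv.union {n : ℕ} {B D : Language α} (hB : Solv n B) (hD : Solv n D) :
    Solv n (B ⊔ D) := fun L hL =>
  ((hB L hL).add (hD L hL)).congr fun w => by
    constructor
    · rintro (h | h)
      · exact ⟨h.1, Or.inl h.2⟩
      · exact ⟨h.1, Or.inr h.2⟩
    · rintro ⟨h, h' | h'⟩
      · exact Or.inl ⟨h, h'⟩
      · exact Or.inr ⟨h, h'⟩

/-- Finite classes are solved at height `0`. -/
theorem Solv.finite {B : Language α} (hB : Set.Finite (B : Set (List α))) : Solv 0 B :=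
  fun _ _ => H.finite 0 (hB.subset fun _ h => h.2)

/-- Words of bounded length are solved at height `0`. -/
theorem Solv.bounded [Finite α] {B : Language α} {k : ℕ} (hB : ∀ w ∈ B, w.length ≤ k) :
    Solv 0 B := fun _ _ => H.bounded 0 k fun w hw => hB w hw.2

section nest

variable {T A B C Bad G : Language α}

theorem starT_sub (hTT : ∀ y y', y ∈ T → y' ∈ T → y ++ y' ∈ T) {K : Language α}
    (hK : ∀ y ∈ K, y ∈ T) : ∀ y ∈ KStar.kstar K, y = [] ∨ y ∈ T := by
  intro y hy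
  rw [Language.mem_kstar] at hy
  obtain ⟨S, rfl, hS⟩ := hy
  induction S with
  | nil => exact Or.inl rfl
  | cons a S ih =>
    right
    have ha : a ∈ T := hK a (hS a (by simp))
    rcases ih fun z hz => hS z (by simp [hz]) with h | h
    · simp only [List.flatten_cons, h, List.append_nil]
      exact ha
    · simp only [List.flatten_cons]
      exact hTT _ _ ha h

theorem T_sub_star (hG : ∀ u v, u ++ v ∈ G → u ∈ G ∧ v ∈ G)
    (dT : ∀ y ∈ T, y ∈ G → y ∈ Bad ∨
      ∃ u v, u ≠ [] ∧ v ≠ [] ∧ u ∈ T ∧ v ∈ T ∧ y = u ++ v) :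
    ∀ (k : ℕ) (y : List α), y.length ≤ k → y ∈ T → y ∈ G → y ∈ KStar.kstar (T ⊓ Bad) := by
  intro k
  induction k with
  | zero =>
    intro y hk hy hyG
    have : y = [] := List.length_eq_zero_iff.1 (by omega)
    subst this
    exact Language.nil_mem_kstar _
  | succ k ih =>
    intro y hk hy hyG
    rcases dT y hy hyG with h | ⟨u, v, hu, hv, huT, hvT, rfl⟩
    · rw [Language.mem_kstar]
      exact ⟨[y], by simp, by simpa using ⟨hy, h⟩⟩
    · have h1 := List.length_pos_iff.2 hu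
      have h2 := List.length_pos_iff.2 hv
      rw [List.length_append] at hk
      have e1 := ih u (by omega) huT (hG _ _ hyG).1
      have e2 := ih v (by omega) hvT (hG _ _ hyG).2
      rw [Language.mem_kstar] at e1 e2 ⊢
      obtain ⟨S, rfl, hS⟩ := e1
      obtain ⟨S', rfl, hS'⟩ := e2
      refine ⟨S ++ S', by simp, fun z hz => ?_⟩
      rcases List.mem_append.1 hz with h | h
      · exact hS z h
      · exact hS' z h

theorem A_sub (hG : ∀ u v, u ++ v ∈ G → u ∈ G ∧ v ∈ G)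
    (dT : ∀ y ∈ T, y ∈ G → y ∈ Bad ∨
      ∃ u v, u ≠ [] ∧ v ≠ [] ∧ u ∈ T ∧ v ∈ T ∧ y = u ++ v)
    (dA : ∀ y ∈ A, y ∈ G → y ∈ Bad ∨ ∃ u v, v ≠ [] ∧ u ∈ A ∧ v ∈ T ∧ y = u ++ v) :
    ∀ (k : ℕ) (y : List α), y.length ≤ k → y ∈ A → y ∈ G →
      ∃ u v, u ∈ A ⊓ Bad ∧ v ∈ KStar.kstar (T ⊓ Bad) ∧ y = u ++ v := by
  intro k
  induction k with
  | zero =>
    intro y hk hy hyG
    rcases dA y hy hyG with h | ⟨u, v, hv, _, _, rfl⟩
    · exact ⟨y, [], ⟨hy, h⟩, Language.nil_mem_kstar _, by simp⟩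
    · have h2 := List.length_pos_iff.2 hv
      rw [List.length_append] at hk
      omega
  | succ k ih =>
    intro y hk hy hyG
    rcases dA y hy hyG with h | ⟨u, v, hv, huA, hvT, rfl⟩
    · exact ⟨y, [], ⟨hy, h⟩, Language.nil_mem_kstar _, by simp⟩
    · have h2 := List.length_pos_iff.2 hv
      rw [List.length_append] at hk
      obtain ⟨a, b, ha, hb, rfl⟩ := ih u (by omega) huA (hG _ _ hyG).1
      have e2 := T_sub_star hG dT _ v le_rfl hvT (hG _ _ hyG).2
      refine ⟨a, b ++ v, ha, ?_, by simp⟩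
      rw [Language.mem_kstar] at hb e2 ⊢
      obtain ⟨S, rfl, hS⟩ := hb
      obtain ⟨S', rfl, hS'⟩ := e2
      refine ⟨S ++ S', by simp, fun z hz => ?_⟩
      rcases List.mem_append.1 hz with h | h
      · exact hS z h
      · exact hS' z h

theorem B_sub (hG : ∀ u v, u ++ v ∈ G → u ∈ G ∧ v ∈ G)
    (dT : ∀ y ∈ T, y ∈ G → y ∈ Bad ∨
      ∃ u v, u ≠ [] ∧ v ≠ [] ∧ u ∈ T ∧ v ∈ T ∧ y = u ++ v)
    (dB : ∀ y ∈ B, y ∈ G → y ∈ Bad ∨ ∃ u v, u ≠ [] ∧ u ∈ T ∧ v ∈ B ∧ y = u ++ v) :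
    ∀ (k : ℕ) (y : List α), y.length ≤ k → y ∈ B → y ∈ G →
      ∃ u v, u ∈ KStar.kstar (T ⊓ Bad) ∧ v ∈ B ⊓ Bad ∧ y = u ++ v := by
  intro k
  induction k with
  | zero =>
    intro y hk hy hyG
    rcases dB y hy hyG with h | ⟨u, v, hu, _, _, rfl⟩
    · exact ⟨[], y, Language.nil_mem_kstar _, ⟨hy, h⟩, by simp⟩
    · have h2 := List.length_pos_iff.2 hu
      rw [List.length_append] at hk
      omega
  | succ k ih =>
    intro y hk hy hyG
    rcases dB y hy hyG with h | ⟨u, v, hu, huT, hvB, rfl⟩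
    · exact ⟨[], y, Language.nil_mem_kstar _, ⟨hy, h⟩, by simp⟩
    · have h2 := List.length_pos_iff.2 hu
      rw [List.length_append] at hk
      obtain ⟨a, b, ha, hb, rfl⟩ := ih v (by omega) hvB (hG _ _ hyG).2
      have e2 := T_sub_star hG dT _ u le_rfl huT (hG _ _ hyG).1
      refine ⟨u ++ a, b, ?_, hb, by simp⟩
      rw [Language.mem_kstar] at ha e2 ⊢
      obtain ⟨S, rfl, hS⟩ := ha
      obtain ⟨S', rfl, hS'⟩ := e2
      refine ⟨S' ++ S, by simp, fun z hz => ?_⟩
      rcases List.mem_append.1 hz with h | h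
      · exact hS' z h
      · exact hS z h

/-- NESTING THEOREM.  `T` : junction to junction words of true threads; `A`, `B`, `C` : the same
with a fixed start, a fixed end, both.  On the factor closed class `G` every such word is `Bad`
(uncut) or is cut at a junction.  If `Bad` is solved at height `n`, then `C` is of height `n + 1`
on `G`. -/
theorem nest {n : ℕ}
    (hG : ∀ u v, u ++ v ∈ G → u ∈ G ∧ v ∈ G)
    (hTT : ∀ y y', y ∈ T → y' ∈ T → y ++ y' ∈ T)
    (hAT : ∀ y y', y ∈ A → y' ∈ T → y ++ y' ∈ A)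
    (hAB : ∀ y y', y ∈ A → y' ∈ B → y ++ y' ∈ C)
    (dT : ∀ y ∈ T, y ∈ G → y ∈ Bad ∨
      ∃ u v, u ≠ [] ∧ v ≠ [] ∧ u ∈ T ∧ v ∈ T ∧ y = u ++ v)
    (dA : ∀ y ∈ A, y ∈ G → y ∈ Bad ∨ ∃ u v, v ≠ [] ∧ u ∈ A ∧ v ∈ T ∧ y = u ++ v)
    (dB : ∀ y ∈ B, y ∈ G → y ∈ Bad ∨ ∃ u v, u ≠ [] ∧ u ∈ T ∧ v ∈ B ∧ y = u ++ v)
    (dC : ∀ y ∈ C, y ∈ G → y ∈ Bad ∨ ∃ u v, u ∈ A ∧ v ∈ B ∧ y = u ++ v)
    (rT : T.IsRegular) (rA : A.IsRegular) (rB : B.IsRegular) (rC : C.IsRegular)
    (hBad : Solv n Bad) (hGH : H (n + 1) G) : H (n + 1) (C ⊓ G) := by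
  have hT := (hBad T rT).star
  have hA := (hBad A rA).mono (Nat.le_succ n)
  have hB := (hBad B rB).mono (Nat.le_succ n)
  have hC := (hBad C rC).mono (Nat.le_succ n)
  refine ((hC.add (hA.mul (hT.mul hB))).inter hGH).congr fun w => ?_
  constructor
  · rintro ⟨h | h, hwG⟩
    · exact ⟨h.1, hwG⟩
    · refine ⟨?_, hwG⟩
      obtain ⟨a, ha, r, hr, rfl⟩ := Language.mem_mul.1 h
      obtain ⟨t, ht, b, hb, rfl⟩ := Language.mem_mul.1 hr
      rcases starT_sub hTT (fun y hy => hy.1) t ht with h0 | h0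
      · subst h0
        have h1 : a ++ ([] ++ b) ∈ C := by simpa using hAB _ _ ha.1 hb.1
        exact h1
      · have h1 := hAB _ _ (hAT _ _ ha.1 h0) hb.1
        have h2 : a ++ (t ++ b) ∈ C := by simpa using h1
        exact h2
  · rintro ⟨hw, hwG⟩
    refine ⟨?_, hwG⟩
    rcases dC w hw hwG with h | ⟨u, v, hu, hv, rfl⟩
    · exact Or.inl ⟨hw, h⟩
    · right
      obtain ⟨a, t, ha, ht, rfl⟩ := A_sub hG dT dA _ u le_rfl hu (hG _ _ hwG).1
      obtain ⟨t', b, ht', hb, rfl⟩ := B_sub hG dT dB _ v le_rfl hv (hG _ _ hwG).2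
      have htt : t ++ t' ∈ KStar.kstar (T ⊓ Bad) := by
        rw [Language.mem_kstar] at ht ht' ⊢
        obtain ⟨S, rfl, hS⟩ := ht
        obtain ⟨S', rfl, hS'⟩ := ht'
        refine ⟨S ++ S', by simp, fun z hz => ?_⟩
        rcases List.mem_append.1 hz with h | h
        · exact hS z h
        · exact hS' z h
      exact Language.mem_mul.2 ⟨a, ha, (t ++ t') ++ b,
        Language.mem_mul.2 ⟨t ++ t', htt, b, hb, rfl⟩, by simp⟩

end nest

end Crest.Agent.R320.Nest_413
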