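import Crest.Agent.R320.Hk1_851

/-!
# Row 320, nesting / thread calculus in automaton form (helper442)

A deterministic automaton `d : Q → α → Q` (a state holds the bounded memory, the active wall and
the token, i.e. a *thread*), `run d q w` its run.  `Sand j d X` (sandwich): there are languages
`P q q'` of generalized star height at most `j` with
`{w | X q w, run d q w = q'} ⊆ P q q' ⊆ {w | run d q w = q'}`.

* `CutSys d`: a legality rectangle `L × R` (states reached by the left word, right words of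
  length `M`) on which the state behind the right word is known from the right word alone;
  this is exactly "sound at every junction of every text".
* `nest` : `Sand j d (X and uncut) → Sand (j+1) d X` (one more star).
* `transfer` : change of the automaton along a faithful relation (thread computed by the tokens
  of another scheme on the same chain).
* `bounded`, `complete`, `union`, `concat`, `toHL` : the usual glue.
-/

set_option autoImplicit false

namespace Crest.Agent.R320.Nest_442

open Crest.Agent.R320.Hk_851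

universe u

variable {α : Type u} {Q Q₁ Q₂ : Type*} {j : ℕ}

/-- the run of the automaton -/
def run (d : Q → α → Q) (q : Q) (w : List α) : Q := w.foldl d q

@[simp] theorem run_nil (d : Q → α → Q) (q : Q) : run d q [] = q := rfl

@[simp] theorem run_append (d : Q → α → Q) (q : Q) (u v : List α) :
    run d q (u ++ v) = run d (run d q u) v := by simp [run]

/-- sandwich family of height `j` for the automaton `d` on the trajectories in `X` -/
def Sand (j : ℕ) (d : Q → α → Q) (X : Q → List α → Prop) : Prop :=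
  ∃ P : Q → Q → Language α, (∀ q q', HL j (P q q')) ∧
    (∀ q w, X q w → w ∈ P q (run d q w)) ∧ (∀ q q' w, w ∈ P q q' → run d q w = q')

theorem Sand.mono {i j : ℕ} (hij : i ≤ j) {d : Q → α → Q} {X Y : Q → List α → Prop}
    (hXY : ∀ q w, Y q w → X q w) (h : Sand i d X) : Sand j d Y := by
  obtain ⟨P, h1, h2, h3⟩ := h
  exact ⟨P, fun q q' => (h1 q q').mono hij, fun q w hw => h2 q w (hXY q w hw), h3⟩

/-- union of two sets of trajectories -/
theorem Sand.union {d : Q → α → Q} {X Y : Q → List α → Prop} (hX : Sand j d X)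
    (hY : Sand j d Y) : Sand j d (fun q w => X q w ∨ Y q w) := by
  obtain ⟨P, h1, h2, h3⟩ := hX
  obtain ⟨P', h1', h2', h3'⟩ := hY
  refine ⟨fun q q' => P q q' + P' q q', fun q q' => (h1 q q').add (h1' q q'), ?_, ?_⟩
  · rintro q w (hw | hw)
    · exact Or.inl (h2 q w hw)
    · exact Or.inr (h2' q w hw)
  · rintro q q' w (hw | hw)
    · exact h3 q q' w hw
    · exact h3' q q' w hw

/-- concatenation of two sets of trajectories -/
theorem Sand.concat [Finite Q] {d : Q → α → Q} {X Y : Q → List α → Prop} (hX : Sand j d X)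
    (hY : Sand j d Y) :
    Sand j d (fun q w => ∃ u v, u ++ v = w ∧ X q u ∧ Y (run d q u) v) := by
  obtain ⟨P, h1, h2, h3⟩ := hX
  obtain ⟨P', h1', h2', h3'⟩ := hY
  refine ⟨fun q q' => {w | ∃ q₁, w ∈ P q q₁ * P' q₁ q'},
    fun q q' => HL.iUnion fun q₁ => (h1 q q₁).mul (h1' q₁ q'), ?_, ?_⟩
  · rintro q _ ⟨u, v, rfl, hu, hv⟩
    refine ⟨run d q u, Language.mem_mul.2 ⟨u, h2 q u hu, v, ?_, rfl⟩⟩
    rw [run_append]
    exact h2' _ v hv
  · rintro q q' w ⟨q₁, hw⟩
    obtain ⟨u, hu, v, hv, rfl⟩ := Language.mem_mul.1 hw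
    rw [run_append, h3 q q₁ u hu, h3' q₁ q' v hv]

/-- trajectories of bounded length cost nothing -/
theorem Sand.bounded [Finite α] {d : Q → α → Q} {X : Q → List α → Prop} (N : ℕ)
    (hX : ∀ q w, X q w → w.length ≤ N) : Sand j d X := by
  refine ⟨fun q q' => {w | w.length ≤ N ∧ run d q w = q'}, fun q q' => ?_,
    fun q w hw => ⟨hX q w hw, rfl⟩, fun q q' w hw => hw.2⟩
  refine HL.finite (s := {w | w.length ≤ N ∧ run d q w = q'}) ?_
  exact (List.finite_length_le α N).subset fun w hw => hw.1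

/-- soundness rectangle -/
structure CutSys (d : Q → α → Q) where
  /-- length of the right views -/
  M : ℕ
  /-- positive -/
  pos : 0 < M
  /-- left legal states -/
  L : Set Q
  /-- right legal words -/
  R : Set (List α)
  /-- length -/
  len : ∀ r ∈ R, r.length = M
  /-- the state claimed by a right word -/
  tau : List α → Q
  /-- exact at every legal junction -/
  sound : ∀ q ∈ L, ∀ r ∈ R, run d q r = tau r

variable {d : Q → α → Q}

/-- no cut of the thread `q` inside `w` -/
def CutSys.Uncut (C : CutSys d) (q : Q) (w : List α) : Prop :=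
  ∀ p r s, p ++ r ++ s = w → run d q p ∈ C.L → r ∉ C.R

theorem CutSys.Uncut.left (C : CutSys d) {q : Q} {u v : List α} (h : C.Uncut q (u ++ v)) :
    C.Uncut q u := by
  rintro p r s rfl hp
  exact h p r (s ++ v) (by simp) hp

theorem CutSys.Uncut.right (C : CutSys d) {q : Q} {u v : List α} (h : C.Uncut q (u ++ v)) :
    C.Uncut (run d q u) v := by
  rintro p r s rfl hp
  exact h (u ++ p) r s (by simp) (by rw [run_append]; exact hp)

/-- the first cut -/
theorem CutSys.exists_first (C : CutSys d) {q : Q} {w : List α} (h : ¬ C.Uncut q w) :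
    ∃ p r s, p ++ r ++ s = w ∧ run d q p ∈ C.L ∧ r ∈ C.R ∧ C.Uncut q p := by
  classical
  have h' : ∃ n p r s, p ++ r ++ s = w ∧ run d q p ∈ C.L ∧ r ∈ C.R ∧ p.length = n := by
    unfold CutSys.Uncut at h
    push Not at h
    obtain ⟨p, r, s, h1, h2, h3⟩ := h
    exact ⟨_, p, r, s, h1, h2, h3, rfl⟩
  obtain ⟨p, r, s, h1, h2, h3, h4⟩ := Nat.find_spec h'
  refine ⟨p, r, s, h1, h2, h3, ?_⟩
  rintro p' r' s' rfl hp' hr'
  have hlt : p'.length < Nat.find h' := by
    rw [← h4]
    have := C.len r' hr'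
    have := C.pos
    simp only [List.length_append]
    omega
  exact Nat.find_min h' hlt ⟨p', r', s' ++ r ++ s, by rw [← h1]; simp, hp', hr', rfl⟩

/-- **NESTING**: one more star on top of the uncut trajectories -/
theorem Sand.nest [Finite Q] [Finite α] (C : CutSys d) {X : Q → List α → Prop}
    (hpre : ∀ q u v, X q (u ++ v) → X q u)
    (hsuf : ∀ q u v, X q (u ++ v) → X (run d q u) v)
    (h : Sand j d (fun q w => X q w ∧ C.Uncut q w)) : Sand (j + 1) d X := by
  obtain ⟨U, h1, h2, h3⟩ := h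
  have hRfin : C.R.Finite :=
    (List.finite_length_eq α C.M).subset fun r hr => C.len r hr
  -- cut to cut words
  let K : Language α := {w | ∃ r ∈ C.R, ∃ q ∈ C.L, w ∈ ({r} : Language α) * U (C.tau r) q}
  have hK : HL j K :=
    HL.biUnion hRfin fun r _ => HL.biUnion (Set.toFinite C.L) fun q _ =>
      (HL.word r).mul (h1 _ _)
  -- a thread which starts with a right legal word and ends in a left legal state
  let T : Q → Language α := fun q' =>
    {w | ∃ r ∈ C.R, w ∈ KStar.kstar K * (({r} : Language α) * U (C.tau r) q')}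
  have hT : ∀ q', HL (j + 1) (T q') := fun q' =>
    HL.biUnion hRfin fun r _ => hK.star.mul
      (((HL.word r).mul (h1 _ _)).mono (Nat.le_succ j))
  let P : Q → Q → Language α := fun q q' =>
    {w | w ∈ U q q' ∨ w ∈ {w | ∃ q₁ ∈ C.L, w ∈ U q q₁ * T q'}}
  have hstar : ∀ w ∈ KStar.kstar K, ∀ q ∈ C.L, run d q w ∈ C.L := by
    intro w hw
    obtain ⟨l, rfl, hl⟩ := Language.mem_kstar.1 hw
    clear hw
    induction l with
    | nil => intro q hq; simpa using hq
    | cons x l ih =>
      intro q hq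
      rw [List.flatten_cons, run_append]
      refine ih (fun y hy => hl y (List.mem_cons_of_mem _ hy)) _ ?_
      obtain ⟨r, hr, q', hq', hx⟩ := hl x List.mem_cons_self
      obtain ⟨r', hr', u, hu, rfl⟩ := Language.mem_mul.1 hx
      rw [Set.mem_singleton_iff.1 hr', run_append, C.sound q hq r hr, h3 _ _ u hu]
      exact hq'
  have hTsound : ∀ q', ∀ w ∈ T q', ∀ q ∈ C.L, run d q w = q' := by
    rintro q' w ⟨r, hr, hw⟩ q hq
    obtain ⟨k, hk, x, hx, rfl⟩ := Language.mem_mul.1 hw
    obtain ⟨r', hr', u, hu, rfl⟩ := Language.mem_mul.1 hx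
    rw [Set.mem_singleton_iff.1 hr', run_append, run_append,
      C.sound _ (hstar k hk q hq) r hr, h3 _ _ u hu]
  have hTcompl : ∀ n : ℕ, ∀ w : List α, w.length ≤ n → ∀ r ∈ C.R, X (C.tau r) w →
      r ++ w ∈ T (run d (C.tau r) w) := by
    intro n
    induction n using Nat.strong_induction_on with
    | _ n ih =>
      intro w hwn r hr hX
      by_cases hu : C.Uncut (C.tau r) w
      · exact ⟨r, hr, Language.mem_mul.2 ⟨[], Language.nil_mem_kstar _, r ++ w,
          Language.mem_mul.2 ⟨r, rfl, w, h2 _ w ⟨hX, hu⟩, rfl⟩, rfl⟩⟩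
      · obtain ⟨p, r₁, s, rfl, hp, hr₁, hup⟩ := C.exists_first hu
        have hlen := C.len r₁ hr₁
        have hpos := C.pos
        have hXp : X (C.tau r) p := hpre _ p (r₁ ++ s) (by simpa using hX)
        have hXs : X (C.tau r₁) s := by
          have := hsuf _ (p ++ r₁) s hX
          rwa [run_append, C.sound _ hp r₁ hr₁] at this
        have hs : s.length < n := by
          simp only [List.length_append] at hwn
          omega
        obtain ⟨r₂, hr₂, hw₂⟩ := ih s.length hs s le_rfl r₁ hr₁ hXs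
        obtain ⟨k, hk, x, hx, hkx⟩ := Language.mem_mul.1 hw₂
        have hgoal : run d (C.tau r) (p ++ r₁ ++ s) = run d (C.tau r₁) s := by
          rw [run_append, run_append, C.sound _ hp r₁ hr₁]
        rw [hgoal]
        refine ⟨r₂, hr₂, Language.mem_mul.2 ⟨(r ++ p) ++ k, ?_, x, hx, ?_⟩⟩
        · have h0 : r ++ p ∈ K :=
            ⟨r, hr, _, hp, Language.mem_mul.2 ⟨r, rfl, p, h2 _ p ⟨hXp, hup⟩, rfl⟩⟩
          obtain ⟨l, rfl, hl⟩ := Language.mem_kstar.1 hk
          refine Language.mem_kstar.2 ⟨(r ++ p) :: l, by simp, ?_⟩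
          intro y hy
          rcases List.mem_cons.1 hy with rfl | hy
          · exact h0
          · exact hl y hy
        · rw [List.append_assoc, hkx]
          simp
  refine ⟨P, fun q q' => ?_, fun q w hX => ?_, fun q q' w hw => ?_⟩
  · exact HL.setOf_or ((h1 q q').mono (Nat.le_succ j))
      (HL.biUnion (Set.toFinite C.L) fun q₁ _ => ((h1 q q₁).mono (Nat.le_succ j)).mul (hT q'))
  · by_cases hu : C.Uncut q w
    · exact Or.inl (h2 q w ⟨hX, hu⟩)
    · obtain ⟨p, r, s, rfl, hp, hr, hup⟩ := C.exists_first hu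
      have hXp : X q p := hpre _ p (r ++ s) (by simpa using hX)
      have hXs : X (C.tau r) s := by
        have := hsuf _ (p ++ r) s hX
        rwa [run_append, C.sound _ hp r hr] at this
      refine Or.inr ⟨run d q p, hp, Language.mem_mul.2 ⟨p, h2 _ p ⟨hXp, hup⟩, r ++ s, ?_,
        by simp⟩⟩
      have := hTcompl s.length s le_rfl r hr hXs
      rwa [run_append, run_append, C.sound _ hp r hr]
  · rcases hw with hw | ⟨q₁, hq₁, hw⟩
    · exact h3 _ _ _ hw
    · obtain ⟨u, hu, v, hv, rfl⟩ := Language.mem_mul.1 hw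
      rw [run_append, h3 _ _ u hu]
      exact hTsound q' v hv q₁ hq₁

/-- a scheme in which every long trajectory of `X` has a cut costs one star -/
theorem Sand.complete [Finite Q] [Finite α] (C : CutSys d) {X : Q → List α → Prop}
    (hpre : ∀ q u v, X q (u ++ v) → X q u)
    (hsuf : ∀ q u v, X q (u ++ v) → X (run d q u) v) (N : ℕ)
    (hN : ∀ q w, X q w → C.Uncut q w → w.length ≤ N) : Sand 1 d X :=
  Sand.nest (j := 0) C hpre hsuf (Sand.bounded N fun q w hw => hN q w hw.1 hw.2)

/-- **TRANSFER**: the threads of `d₁` are computed by the threads of `d₂` related to them -/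
theorem Sand.transfer [Finite Q₂] {d₁ : Q₁ → α → Q₁} {d₂ : Q₂ → α → Q₂}
    (Rel : Q₁ → Q₂ → Prop)
    (faithful : ∀ q₁ w w', (∀ q₂, Rel q₁ q₂ → run d₂ q₂ w = run d₂ q₂ w') →
      run d₁ q₁ w = run d₁ q₁ w')
    {X₁ : Q₁ → List α → Prop} {X₂ : Q₂ → List α → Prop}
    (hX : ∀ q₁ q₂ w, Rel q₁ q₂ → X₁ q₁ w → X₂ q₂ w) (h : Sand j d₂ X₂) : Sand j d₁ X₁ := by
  classical
  obtain ⟨P, h1, h2, h3⟩ := h
  have : Finite (Q₂ → Q₂) := Pi.finite
  let P₁ : Q₁ → Q₁ → Language α := fun q₁ q₁' =>
    {w | ∃ f : Q₂ → Q₂, w ∈ {w | (∀ w', (∀ q₂, Rel q₁ q₂ → run d₂ q₂ w' = f q₂) →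
      run d₁ q₁ w' = q₁') ∧ w ∈ {w | ∀ q₂, w ∈ {w | Rel q₁ q₂ → w ∈ P q₂ (f q₂)}}}}
  refine ⟨P₁, fun q₁ q₁' => ?_, fun q₁ w hw => ?_, fun q₁ q₁' w hw => ?_⟩
  · exact HL.iUnion fun f => HL.setOf_and (HL.const _)
      (HL.iInter fun q₂ => HL.setOf_imp (HL.const _) (h1 _ _))
  · refine ⟨fun q₂ => run d₂ q₂ w, ?_, fun q₂ hr => h2 q₂ w (hX q₁ q₂ w hr hw)⟩
    intro w' hw'
    exact faithful q₁ w' w fun q₂ hr => hw' q₂ hr
  · obtain ⟨f, hf, hP⟩ := hw
    exact hf w fun q₂ hr => h3 _ _ _ (hP q₂ hr)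

/-- from sandwiches on everything to exact languages -/
theorem Sand.toHL {d : Q → α → Q} (h : Sand j d (fun _ _ => True)) (q q' : Q) :
    HL j {w | run d q w = q'} := by
  obtain ⟨P, h1, h2, h3⟩ := h
  exact (h1 q q').congr fun w => ⟨fun hw => by rw [← show run d q w = q' from hw]; exact h2 q w trivial,
    fun hw => h3 q q' w hw⟩

end Crest.Agent.R320.Nest_442
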