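import Crest.Agent.R320.Hk2_851

/-!
# Row 320: thread calculus and nesting lemma (helper528)

A *thread* is a deterministic automaton run (state = chain state together with a token).  A scheme
has a left reading `lam` (last `D` letters) and a right reading `rho` (next `D` letters, value =
state AFTER these letters).  `Sound`: at every place where both readings are defined, the state read
on the right is the state read on the left, run through the `D` letters.

`nest`: if the words on which a thread is never cut can be handled at level `n` (one-sided form: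
a level-`n` language which is sound on the class `GG` and complete on the uncut words with
property `Pr`), then the threads can be handled at level `n + 1` (sound on `GG`, complete on the
words with property `Pr`).
-/

set_option autoImplicit false

namespace Crest.Agent.R320.Nest_528

open Crest.RegLang Crest.Agent.R320.Hk_851

universe u

variable {α : Type u}

/-- state after reading `w` -/
def run {Ω : Type u} (step : Ω → α → Ω) (ω : Ω) (w : List α) : Ω := w.foldl step ω

@[simp] theorem run_nil {Ω : Type u} (step : Ω → α → Ω) (ω : Ω) : run step ω [] = ω := rfl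

theorem run_append {Ω : Type u} (step : Ω → α → Ω) (ω : Ω) (w z : List α) :
    run step ω (w ++ z) = run step (run step ω w) z := by
  simp [run, List.foldl_append]

/-- the last `D` letters -/
def suf (D : ℕ) (p : List α) : List α := p.drop (p.length - D)

theorem suf_length {D : ℕ} {p : List α} (h : D ≤ p.length) : (suf D p).length = D := by
  simp [suf]; omega

theorem suf_append {D : ℕ} (p q : List α) (h : D ≤ q.length) : suf D (p ++ q) = suf D q := by
  unfold suf
  rw [List.length_append, List.drop_append, List.drop_eq_nil_of_le (by omega), List.nil_append]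
  congr 1; omega

theorem suf_split {D : ℕ} (p : List α) : p.take (p.length - D) ++ suf D p = p := by
  simp [suf]

structure Scheme (α : Type u) (Ω : Type u) where
  D : ℕ
  hD : 0 < D
  step : Ω → α → Ω
  lam : List α → Option Ω
  rho : List α → Option Ω

namespace Scheme

variable {Ω : Type u} (S : Scheme α Ω)

/-- the place between `y1` and `y2` is a legal junction of the thread which has state `ω` behind the
context word `Q` -/
def Jn (Q : List α) (ω : Ω) (y1 y2 : List α) : Prop :=
  S.D ≤ (Q ++ y1).length ∧ S.D ≤ y2.length ∧ S.lam (suf S.D (Q ++ y1)) = some (run S.step ω y1) ∧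
    (S.rho (y2.take S.D)).isSome

/-- the thread is uncut in `y` -/
def Uc (Q : List α) (ω : Ω) (y : List α) : Prop := ∀ y1 y2, y1 ++ y2 = y → ¬ S.Jn Q ω y1 y2

/-- unconditional soundness on the class `GG` -/
def Sound (GG : Set (List α)) : Prop :=
  ∀ P Q : List α, P.length = S.D → Q.length = S.D → P ++ Q ∈ GG → ∀ ω ω' : Ω,
    S.lam P = some ω → S.rho Q = some ω' → run S.step ω Q = ω'

end Scheme

/-- closed under factors -/
def FacClosed (GG : Set (List α)) : Prop := ∀ x y z : List α, x ++ y ++ z ∈ GG → y ∈ GG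

/-- level `n` computability, one sided: sound on `GG`, complete on the words of `GG` with `Pr` -/
def Comp (n : ℕ) (GG : Set (List α)) (Pr : List α → Prop) : Prop :=
  ∀ (M : Type u) [Monoid M] [Finite M] (φ : α → M) (m : M),
    ∃ Y : Language α, HL n Y ∧ (∀ y ∈ GG, y ∈ Y → (y.map φ).prod = m) ∧
      (∀ y ∈ GG, Pr y → (y.map φ).prod = m → y ∈ Y)

/-- the same for automata runs -/
theorem Comp.run {n : ℕ} {GG : Set (List α)} {Pr : List α → Prop} (h : Comp n GG Pr)
    {Ω : Type u} [Finite Ω] (step : Ω → α → Ω) (ω ω1 : Ω) :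
    ∃ Y : Language α, HL n Y ∧ (∀ y ∈ GG, y ∈ Y → run step ω y = ω1) ∧
      (∀ y ∈ GG, Pr y → Nest_528.run step ω y = ω1 → y ∈ Y) := by
  classical
  let φ : α → (Function.End Ω)ᵐᵒᵖ := fun a => MulOpposite.op (fun s => step s a)
  have key : ∀ (w : List α) (s : Ω), Nest_528.run step s w = ((w.map φ).prod).unop s := by
    intro w
    induction w with
    | nil => intro s; rfl
    | cons a w ih =>
      intro s
      rw [List.map_cons, List.prod_cons, MulOpposite.unop_mul]
      change Nest_528.run step (step s a) w = ((w.map φ).prod).unop (step s a)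
      exact ih _
  haveI : Finite (Function.End Ω)ᵐᵒᵖ := by
    haveI : Finite (Function.End Ω) := inferInstanceAs (Finite (Ω → Ω))
    exact Finite.of_injective MulOpposite.unop MulOpposite.unop_injective
  choose Y hY1 hY2 hY3 using fun m => h (Function.End Ω)ᵐᵒᵖ φ m
  refine ⟨{w | ∃ m ∈ {m : (Function.End Ω)ᵐᵒᵖ | m.unop ω = ω1}, w ∈ Y m},
    HL.biUnion (Set.toFinite _) (fun m _ => hY1 m), ?_, ?_⟩
  · rintro y hy ⟨m, hm, hym⟩
    rw [key, hY2 m y hy hym]; exact hm
  · intro y hy hp hr
    exact ⟨(y.map φ).prod, by rw [Set.mem_setOf_eq, ← key]; exact hr, hY3 _ y hy hp rfl⟩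

section nest

variable {Ω : Type u} [Finite Ω] [Finite α] (S : Scheme α Ω) (GG : Set (List α))
  (Pr : Ω → List α → Prop) (n : ℕ)

/-- contexts: the start of the word, or behind a right reading -/
def Ctx (Q : List α) (ω : Ω) : Prop := Q = [] ∨ (Q.length = S.D ∧ S.rho Q = some ω)

theorem first_cut {Q : List α} {ω : Ω} {y : List α} (h : ¬ S.Uc Q ω y) :
    ∃ y1 y2, y1 ++ y2 = y ∧ S.Jn Q ω y1 y2 ∧ S.Uc Q ω y1 := by
  classical
  have hex : ∃ k, ∃ y1 y2, y1 ++ y2 = y ∧ S.Jn Q ω y1 y2 ∧ y1.length = k := by
    unfold Scheme.Uc at h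
    push Not at h
    obtain ⟨y1, y2, h1, h2⟩ := h
    exact ⟨_, y1, y2, h1, h2, rfl⟩
  obtain ⟨y1, y2, h1, h2, h3⟩ := Nat.find_spec hex
  refine ⟨y1, y2, h1, h2, ?_⟩
  intro z1 z2 hz hJ
  have hlt : z1.length < Nat.find hex := by
    have := hJ.2.1
    have hD := S.hD
    rw [← h3, ← hz, List.length_append]; omega
  refine Nat.find_min hex hlt ⟨z1, z2 ++ y2, by rw [← List.append_assoc, hz, h1], ?_, rfl⟩
  refine ⟨hJ.1, ?_, hJ.2.2.1, ?_⟩
  · have := hJ.2.1; rw [List.length_append]; omega
  · rw [List.take_append_of_le_length hJ.2.1]; exact hJ.2.2.2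

variable {S GG Pr n}

/-- **Nesting lemma.** -/
theorem nest (hfac : FacClosed GG) (hs : S.Sound GG)
    (hsuf : ∀ ω p y, Pr ω (p ++ y) → Pr (run S.step ω p) y)
    (hpre : ∀ ω p y, Pr ω (p ++ y) → Pr ω p)
    (hin : ∀ Q ω, Ctx S Q ω → ∀ ω1, ∃ Y : Language α, HL n Y ∧
      (∀ y, Q ++ y ∈ GG → y ∈ Y → run S.step ω y = ω1) ∧
      (∀ y, Q ++ y ∈ GG → Pr ω y → S.Uc Q ω y → run S.step ω y = ω1 → y ∈ Y))
    (ω0 ω1 : Ω) :
    ∃ X : Language α, HL (n + 1) X ∧ (∀ w ∈ GG, w ∈ X → run S.step ω0 w = ω1) ∧
      (∀ w ∈ GG, Pr ω0 w → run S.step ω0 w = ω1 → w ∈ X) := by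
  classical
  choose Y hY1 hY2 hY3 using hin
  have hpreG : ∀ x y : List α, x ++ y ∈ GG → x ∈ GG := fun x y h =>
    hfac [] x y (by simpa using h)
  have hsufG : ∀ x y : List α, x ++ y ∈ GG → y ∈ GG := fun x y h =>
    hfac x y [] (by simpa using h)
  -- words whose last `D` letters read `ω'`
  let W : Ω → Language α := fun ω' => {u | ∃ P ∈ ({P | P.length = S.D ∧ S.lam P = some ω'} :
    Language α), P <:+ u}
  have hW : ∀ ω', HL n (W ω') := fun ω' =>
    (HL.finite ((List.finite_length_eq α S.D).subset fun v hv => hv.1)).suffix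
  have hWiff : ∀ ω' u, u ∈ W ω' ↔ S.D ≤ u.length ∧ S.lam (suf S.D u) = some ω' := by
    intro ω' u
    constructor
    · rintro ⟨P, ⟨hP1, hP2⟩, x, rfl⟩
      refine ⟨by rw [List.length_append]; omega, ?_⟩
      rw [suf_append x P (by omega)]
      have : suf S.D P = P := by simp [suf, hP1]
      rw [this]; exact hP2
    · rintro ⟨h1, h2⟩
      exact ⟨suf S.D u, ⟨suf_length h1, h2⟩, u.take (u.length - S.D), suf_split u⟩
  -- words `Q ++ y` behind a right reading, ending in state `ω'`
  let B : Ω → Language α := fun ω' => {u | ∃ i : {p : List α × Ω // p.1.length = S.D ∧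
    S.rho p.1 = some p.2}, u ∈ ({i.1.1} : Language α) * Y i.1.1 i.1.2 (Or.inr i.2) ω'}
  haveI : Finite {p : List α × Ω // p.1.length = S.D ∧ S.rho p.1 = some p.2} := by
    have : Set.Finite {p : List α × Ω | p.1.length = S.D ∧ S.rho p.1 = some p.2} :=
      ((List.finite_length_eq α S.D).prod (Set.finite_univ (α := Ω))).subset
        fun p hp => ⟨hp.1, trivial⟩
    exact this.to_subtype
  have hB : ∀ ω', HL n (B ω') := fun ω' =>
    HL.iUnion fun i => (HL.word _).mul (hY1 _ _ _ _)
  have hBiff : ∀ ω' u, u ∈ B ω' ↔ ∃ Q y ω, ∃ h : Q.length = S.D ∧ S.rho Q = some ω,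
      u = Q ++ y ∧ y ∈ Y Q ω (Or.inr h) ω' := by
    intro ω' u
    constructor
    · rintro ⟨⟨⟨Q, ω⟩, h⟩, hu⟩
      obtain ⟨Q', hQ', y, hy, rfl⟩ := Language.mem_mul.1 hu
      rw [Set.mem_singleton_iff.1 hQ']
      exact ⟨Q, y, ω, h, rfl, hy⟩
    · rintro ⟨Q, y, ω, h, rfl, hy⟩
      exact ⟨⟨⟨Q, ω⟩, h⟩, Language.mem_mul.2 ⟨Q, rfl, y, hy, rfl⟩⟩
  -- inner pieces
  let Mid : Language α := {u | ∃ ω', u ∈ B ω' ∧ u ∈ W ω'}
  have hMid : HL n Mid := HL.iUnion (L := fun ω' => B ω' ⊓ W ω') fun ω' => (hB ω').inf (hW ω')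
  -- first pieces
  let Y0 : Ω → Language α := fun ω' => Y [] ω0 (Or.inl rfl) ω'
  let Pre : Language α := {u | ∃ ω', u ∈ Y0 ω' ∧ u ∈ W ω'}
  have hPre : HL n Pre :=
    HL.iUnion (L := fun ω' => Y0 ω' ⊓ W ω') fun ω' => (hY1 _ _ _ _).inf (hW ω')
  refine ⟨Y0 ω1 + Pre * KStar.kstar Mid * B ω1,
    ((hY1 _ _ _ _).mono (Nat.le_succ n)).add
      (((hPre.mono (Nat.le_succ n)).mul hMid.star).mul ((hB ω1).mono (Nat.le_succ n))), ?_, ?_⟩
  · -- soundness
    intro w hw hX
    rcases hX with hX | hX
    · exact hY2 [] ω0 _ ω1 w (by simpa using hw) hX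
    · obtain ⟨pm, hpm, s, hsB, rfl⟩ := Language.mem_mul.1 hX
      obtain ⟨p, hp, m, hm, rfl⟩ := Language.mem_mul.1 hpm
      obtain ⟨L, rfl, hL⟩ := Language.mem_kstar.1 hm
      obtain ⟨ω', hp1, hp2⟩ := hp
      rw [hWiff] at hp2
      have hpG : p ∈ GG := hpreG p (L.flatten ++ s) (by simpa using hw)
      have hpr : run S.step ω0 p = ω' := hY2 [] ω0 _ ω' p (by simpa using hpG) hp1
      -- one more piece
      have stepP : ∀ q u : List α, S.D ≤ q.length → S.lam (suf S.D q) = some (run S.step ω0 q) →
          q ++ u ∈ GG → ∀ ω'', u ∈ B ω'' → run S.step ω0 (q ++ u) = ω'' := by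
        intro q u hq1 hq2 hqu ω'' hu
        obtain ⟨Q, y, ω, h, rfl, hy⟩ := (hBiff ω'' u).1 hu
        have h1 : suf S.D q ++ Q ∈ GG := by
          have e : q ++ (Q ++ y) = q.take (q.length - S.D) ++ (suf S.D q ++ Q) ++ y := by
            conv_lhs => rw [← suf_split (D := S.D) q]
            simp
          rw [e] at hqu
          exact hfac _ _ _ hqu
        have h2 := hs _ _ (suf_length hq1) h.1 h1 _ _ hq2 h.2
        rw [← List.append_assoc, run_append, run_append, h2]
        exact hY2 Q ω (Or.inr h) ω'' y (hsufG _ _ hqu) hy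
      have main : ∀ (L : List (List α)) (q : List α), (∀ u ∈ L, u ∈ Mid) → S.D ≤ q.length →
          S.lam (suf S.D q) = some (run S.step ω0 q) → q ++ L.flatten ∈ GG →
          S.D ≤ (q ++ L.flatten).length ∧
            S.lam (suf S.D (q ++ L.flatten)) = some (run S.step ω0 (q ++ L.flatten)) := by
        intro L
        induction L with
        | nil => intro q _ h1 h2 _; simpa using ⟨h1, h2⟩
        | cons u L ih =>
          intro q hL h1 h2 h3
          obtain ⟨ω'', hu1, hu2⟩ := hL u (by simp)
          rw [hWiff] at hu2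
          have h4 : (q ++ u) ++ L.flatten ∈ GG := by simpa using h3
          have h5 := stepP q u h1 h2 (hpreG _ _ h4) ω'' hu1
          have h6 := ih (q ++ u) (fun v hv => hL v (by simp [hv]))
            (by rw [List.length_append]; omega)
            (by rw [suf_append q u hu2.1, h5]; exact hu2.2) h4
          simpa using h6
      have h7 : p ++ L.flatten ∈ GG := hpreG _ s (by simpa using hw)
      have h8 := main L p hL hp2.1 (by rw [hpr]; exact hp2.2) h7
      exact stepP (p ++ L.flatten) s h8.1 h8.2 hw ω1 hsB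
  · -- completeness
    intro w hw hPr hrun
    have key : ∀ (k : ℕ) (Q : List α) (ω : Ω) (y : List α), y.length ≤ k → Q.length = S.D →
        S.rho Q = some ω → Q ++ y ∈ GG → Pr ω y → run S.step ω y = ω1 →
        ∃ L : List (List α), (∀ u ∈ L, u ∈ Mid) ∧ ∃ s ∈ B ω1, Q ++ y = L.flatten ++ s := by
      intro k
      induction k with
      | zero =>
        intro Q ω y hk hQ hrho hG hP hr
        by_cases hu : S.Uc Q ω y
        · refine ⟨[], by simp, Q ++ y, (hBiff ω1 _).2 ⟨Q, y, ω, ⟨hQ, hrho⟩, rfl, ?_⟩, by simp⟩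
          exact hY3 Q ω _ ω1 y hG hP hu hr
        · exfalso
          obtain ⟨y1, y2, h1, h2, -⟩ := first_cut S hu
          have := h2.2.1; have hD := S.hD
          rw [← h1, List.length_append] at hk; omega
      | succ k ih =>
        intro Q ω y hk hQ hrho hG hP hr
        by_cases hu : S.Uc Q ω y
        · refine ⟨[], by simp, Q ++ y, (hBiff ω1 _).2 ⟨Q, y, ω, ⟨hQ, hrho⟩, rfl, ?_⟩, by simp⟩
          exact hY3 Q ω _ ω1 y hG hP hu hr
        · obtain ⟨y1, y2, h1, h2, h3⟩ := first_cut S hu
          obtain ⟨ω2, hω2⟩ := Option.isSome_iff_exists.1 h2.2.2.2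
          have hD := S.hD
          have hlen := h2.2.1
          set Q' := y2.take S.D with hQ'
          set y' := y2.drop S.D with hy'
          have hy2 : Q' ++ y' = y2 := List.take_append_drop _ _
          have hQ'l : Q'.length = S.D := by simp [hQ', hlen]
          have hyy : y = y1 ++ Q' ++ y' := by rw [← h1, ← hy2]; simp
          have hfG : suf S.D (Q ++ y1) ++ Q' ∈ GG := by
            have e : Q ++ y = (Q ++ y1).take ((Q ++ y1).length - S.D) ++
                (suf S.D (Q ++ y1) ++ Q') ++ y' := by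
              rw [hyy, ← List.append_assoc, ← List.append_assoc]
              conv_lhs => rw [← suf_split (D := S.D) (Q ++ y1)]
              simp
            rw [e] at hG
            exact hfac _ _ _ hG
          have hsound := hs _ _ (suf_length h2.1) hQ'l hfG _ _ h2.2.2.1 hω2
          have hω2' : run S.step ω (y1 ++ Q') = ω2 := by rw [run_append]; exact hsound
          have hG' : Q' ++ y' ∈ GG := by
            apply hsufG (Q ++ y1)
            have : Q ++ y1 ++ (Q' ++ y') = Q ++ y := by rw [hyy]; simp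
            rw [this]; exact hG
          have hP' : Pr ω2 y' := by
            rw [← hω2']; apply hsuf; rw [← hyy]; exact hP
          have hr' : run S.step ω2 y' = ω1 := by
            rw [← hω2', ← run_append, ← hyy]; exact hr
          have hk' : y'.length ≤ k := by
            have := congrArg List.length hyy
            simp only [List.length_append] at this
            omega
          obtain ⟨L, hL, s, hsB, he⟩ := ih Q' ω2 y' hk' hQ'l hω2 hG' hP' hr'
          have hm : Q ++ y1 ∈ Mid := by
            refine ⟨run S.step ω y1, (hBiff _ _).2 ⟨Q, y1, ω, ⟨hQ, hrho⟩, rfl, ?_⟩,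
              (hWiff _ _).2 ⟨h2.1, h2.2.2.1⟩⟩
            refine hY3 Q ω _ _ y1 ?_ ?_ h3 rfl
            · apply hpreG _ y2; rw [List.append_assoc, h1]; exact hG
            · apply hpre ω y1 y2; rw [h1]; exact hP
          refine ⟨(Q ++ y1) :: L, ?_, s, hsB, ?_⟩
          · intro u hu'
            rcases List.mem_cons.1 hu' with rfl | hu'
            · exact hm
            · exact hL u hu'
          · rw [List.flatten_cons, List.append_assoc, ← he, hyy]; simp
    by_cases hu : S.Uc [] ω0 w
    · left
      exact hY3 [] ω0 _ ω1 w (by simpa using hw) hPr hu hrun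
    · right
      obtain ⟨y1, y2, h1, h2, h3⟩ := first_cut S hu
      obtain ⟨ω2, hω2⟩ := Option.isSome_iff_exists.1 h2.2.2.2
      have hD := S.hD
      have hlen := h2.2.1
      set Q' := y2.take S.D with hQ'
      set y' := y2.drop S.D with hy'
      have hy2 : Q' ++ y' = y2 := List.take_append_drop _ _
      have hQ'l : Q'.length = S.D := by simp [hQ', hlen]
      have hyy : w = y1 ++ Q' ++ y' := by rw [← h1, ← hy2]; simp
      have h21 : S.D ≤ y1.length := by simpa using h2.1
      have h22 : S.lam (suf S.D y1) = some (run S.step ω0 y1) := by simpa using h2.2.2.1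
      have hfG : suf S.D y1 ++ Q' ∈ GG := by
        have e : w = y1.take (y1.length - S.D) ++ (suf S.D y1 ++ Q') ++ y' := by
          rw [hyy]
          conv_lhs => rw [← suf_split (D := S.D) y1]
          simp
        rw [e] at hw
        exact hfac _ _ _ hw
      have hsound := hs _ _ (suf_length h21) hQ'l hfG _ _ h22 hω2
      have hω2' : run S.step ω0 (y1 ++ Q') = ω2 := by rw [run_append]; exact hsound
      have hG' : Q' ++ y' ∈ GG := by
        apply hsufG y1
        have : y1 ++ (Q' ++ y') = w := by rw [hyy]; simp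
        rw [this]; exact hw
      have hP' : Pr ω2 y' := by
        rw [← hω2']; apply hsuf; rw [← hyy]; exact hPr
      have hr' : run S.step ω2 y' = ω1 := by
        rw [← hω2', ← run_append, ← hyy]; exact hrun
      obtain ⟨L, hL, s, hsB, he⟩ := key _ Q' ω2 y' le_rfl hQ'l hω2 hG' hP' hr'
      have hp : y1 ∈ Pre := by
        refine ⟨run S.step ω0 y1, ?_, (hWiff _ _).2 ⟨h21, h22⟩⟩
        refine hY3 [] ω0 _ _ y1 ?_ ?_ h3 rfl
        · apply hpreG _ y2; rw [List.append_assoc, h1]; simpa using hw
        · apply hpre ω0 y1 y2; rw [h1]; exact hPr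
      have : w = (y1 ++ L.flatten) ++ s := by
        rw [List.append_assoc, ← he, hyy]; simp
      rw [this]
      exact Language.mem_mul.2 ⟨_, Language.mem_mul.2 ⟨y1, hp, _,
        Language.mem_kstar.2 ⟨L, rfl, hL⟩, rfl⟩, s, hsB, rfl⟩

end nest

end Crest.Agent.R320.Nest_528
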