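import Crest.Agent.R320.FF1_903

/-!
Nesting theorem in automaton form.

`Comp n A`: for every start state `q` and every state `q'` the language of all words `w` which keep `A`
alive on all proper prefixes and lead from `q` to `q'` has height at most `n`.

A scheme on `A` is a window length `D`, a left reading `lam` (last `D` letters -> current state) and a
right reading `rho` (next `D` letters -> state after these `D` letters).  It is relatively sound if on
live words a left reading which is true is compatible with every right reading.  `Cut A D lam rho` is the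
automaton which follows a thread of `A` and fails as soon as the thread is cut.  Then
`Comp n (Cut ..) -> Comp (n + 1) A`.
-/

set_option autoImplicit false

namespace Crest.Agent.R320.Nest_566

open Crest.RegLang Crest.Agent.R320.Hgt1_903 Crest.Agent.R320.FF1_903

universe u v

variable {α : Type u} {Q : Type v}

/-! ### the last `D` letters -/

def lastN (D : ℕ) (w : List α) : List α := w.drop (w.length - D)

theorem lastN_length (D : ℕ) (w : List α) : (lastN D w).length = min D w.length := by
  unfold lastN; rw [List.length_drop]; omega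

theorem lastN_length_le (D : ℕ) (w : List α) : (lastN D w).length ≤ D := by
  rw [lastN_length]; exact min_le_left _ _

theorem lastN_of_le {D : ℕ} {w : List α} (h : w.length ≤ D) : lastN D w = w := by
  unfold lastN; rw [Nat.sub_eq_zero_of_le h, List.drop_zero]

theorem lastN_append {D : ℕ} (x : List α) {y : List α} (h : D ≤ y.length) :
    lastN D (x ++ y) = lastN D y := by
  unfold lastN
  rw [List.length_append, List.drop_append]
  rw [List.drop_eq_nil_of_le (by omega), List.nil_append]
  congr 1
  omega

theorem take_append_lastN (D : ℕ) (w : List α) : w.take (w.length - D) ++ lastN D w = w :=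
  List.take_append_drop _ _

theorem lastN_lastN_append (D : ℕ) (x y : List α) : lastN D (lastN D x ++ y) = lastN D (x ++ y) := by
  by_cases h : x.length ≤ D
  · rw [lastN_of_le h]
  · have h1 : D ≤ (lastN D x ++ y).length := by
      rw [List.length_append, lastN_length]; omega
    conv_rhs => rw [← take_append_lastN D x, List.append_assoc]
    rw [lastN_append _ h1]

/-! ### automata -/

structure Aut (α : Type u) (Q : Type v) where
  δ : Q → α → Q
  dead : Q → Prop

namespace Aut

def run (A : Aut α Q) (q : Q) (w : List α) : Q := w.foldl A.δ q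

@[simp] theorem run_nil (A : Aut α Q) (q : Q) : A.run q [] = q := rfl

theorem run_append (A : Aut α Q) (q : Q) (x y : List α) : A.run q (x ++ y) = A.run (A.run q x) y := by
  unfold run; rw [List.foldl_append]

theorem run_snoc (A : Aut α Q) (q : Q) (x : List α) (a : α) :
    A.run q (x ++ [a]) = A.δ (A.run q x) a := by
  rw [run_append]; rfl

/-- no proper prefix fails. -/
def LiveQ (A : Aut α Q) (q : Q) (w : List α) : Prop := LiveP (A.run q) A.dead w

theorem LiveQ.prefix {A : Aut α Q} {q : Q} {x y : List α} (h : A.LiveQ q (x ++ y)) : A.LiveQ q x := by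
  intro a b e hb
  exact h a (b ++ y) (by rw [← List.append_assoc, e]) (by
    intro h0; exact hb (List.append_eq_nil_iff.1 h0).1)

theorem LiveQ.suffix {A : Aut α Q} {q : Q} {x y : List α} (h : A.LiveQ q (x ++ y)) :
    A.LiveQ (A.run q x) y := by
  intro a b e hb
  have := h (x ++ a) b (by rw [List.append_assoc, e]) hb
  rw [run_append] at this
  exact this

end Aut

/-- All live languages of `A` have height at most `n`. -/
def Comp (n : ℕ) (A : Aut α Q) : Prop :=
  ∀ q q', H n ({w | A.LiveQ q w ∧ A.run q w = q'} : Language α)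

theorem Comp.mono {n m : ℕ} (h : n ≤ m) {A : Aut α Q} (hA : Comp n A) : Comp m A :=
  fun q q' => (hA q q').mono h

/-! ### the cut automaton -/

/-- words of length at most `D`. -/
abbrev Wd (α : Type u) (D : ℕ) := {l : List α // l.length ≤ D}

instance [Finite α] (D : ℕ) : Finite (Wd α D) :=
  (List.finite_length_le α D).to_subtype

/-- states of the cut automaton: state `q` of the thread at the place `t`, the last (at most) `D`
letters before `t`, the (at most `D`) letters after `t` read so far. -/
abbrev CQ (α : Type u) (Q : Type v) (D : ℕ) := Q × Wd α D × Wd α D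

section cut

variable (A : Aut α Q) (D : ℕ) (lam rho : List α → Option Q)

def cδ (b : CQ α Q D) (a : α) : CQ α Q D :=
  if h : (b.2.2.1 ++ [a]).length ≤ D then (b.1, b.2.1, ⟨b.2.2.1 ++ [a], h⟩)
  else (A.run b.1 ((b.2.2.1 ++ [a]).take 1),
    ⟨lastN D (b.2.1.1 ++ (b.2.2.1 ++ [a]).take 1), lastN_length_le _ _⟩,
    ⟨(b.2.2.1 ++ [a]).drop 1, by
      have := b.2.2.2
      simp only [List.length_drop, List.length_append, List.length_cons, List.length_nil]; omega⟩)

def cdead (b : CQ α Q D) : Prop :=
  A.dead (A.run b.1 b.2.2.1) ∨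
    (b.2.2.1.length = D ∧ b.2.1.1.length = D ∧ lam b.2.1.1 = some b.1 ∧ (rho b.2.2.1).isSome)

/-- The cut automaton. -/
def Cut : Aut α (CQ α Q D) := ⟨cδ A D, cdead A D lam rho⟩

/-- closed form of the runs of the cut automaton. -/
def cst (q : Q) (p : Wd α D) (y : List α) : CQ α Q D :=
  (A.run q (y.take (y.length - D)),
    ⟨lastN D (p.1 ++ y.take (y.length - D)), lastN_length_le _ _⟩,
    ⟨lastN D y, lastN_length_le _ _⟩)

theorem cut_run (q : Q) (p : Wd α D) (y : List α) :
    (Cut A D lam rho).run (q, p, ⟨[], Nat.zero_le _⟩) y = cst A D q p y := by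
  induction y using List.reverseRecOn with
  | nil =>
    unfold cst
    simp only [Aut.run_nil, List.length_nil, Nat.zero_sub, List.take_nil, List.append_nil]
    refine Prod.ext rfl (Prod.ext (Subtype.ext ?_) (Subtype.ext ?_))
    · exact (lastN_of_le p.2).symm
    · exact (lastN_of_le (Nat.zero_le _)).symm
  | append_singleton y a ih =>
    rw [Aut.run_snoc, ih]
    change cδ A D (cst A D q p y) a = cst A D q p (y ++ [a])
    have hlen : (lastN D y).length = min D y.length := lastN_length D y
    unfold cδ
    split_ifs with h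
    · -- still short
      have hl : (lastN D y ++ [a]).length ≤ D := h
      rw [List.length_append, List.length_singleton, hlen] at hl
      have hy : y.length < D := by omega
      have e1 : y.length - D = 0 := by omega
      have e2 : (y ++ [a]).length - D = 0 := by
        rw [List.length_append, List.length_singleton]; omega
      unfold cst
      simp only [e1, e2, List.take_zero, List.append_nil]
      refine Prod.ext rfl (Prod.ext rfl (Subtype.ext ?_))
      change lastN D y ++ [a] = lastN D (y ++ [a])
      rw [lastN_of_le (by omega : y.length ≤ D),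
        lastN_of_le (by rw [List.length_append, List.length_singleton]; omega)]
    · have hl : ¬ (lastN D y ++ [a]).length ≤ D := h
      rw [List.length_append, List.length_singleton, hlen] at hl
      have hy : D ≤ y.length := by omega
      -- `y ++ [a] = y.take t ++ (lastN D y ++ [a])`
      have key : y ++ [a] = y.take (y.length - D) ++ (lastN D y ++ [a]) := by
        rw [← List.append_assoc, take_append_lastN]
      have hlt : (y.take (y.length - D)).length = y.length - D := by
        rw [List.length_take]; omega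
      have hlast : (lastN D y ++ [a]).length = D + 1 := by
        rw [List.length_append, List.length_singleton, hlen]; omega
      have e2 : (y ++ [a]).length - D = (y.length - D) + 1 := by
        rw [List.length_append, List.length_singleton]; omega
      have etake : (y ++ [a]).take ((y ++ [a]).length - D)
          = y.take (y.length - D) ++ (lastN D y ++ [a]).take 1 := by
        rw [e2]
        conv_lhs => rw [key]
        rw [List.take_append, hlt]
        congr 1
        · rw [List.take_of_length_le]; omega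
        · congr 1; omega
      have edrop : lastN D (y ++ [a]) = (lastN D y ++ [a]).drop 1 := by
        unfold lastN at *
        rw [e2]
        conv_lhs => rw [key]
        rw [List.drop_append, hlt, List.drop_eq_nil_of_le (by omega), List.nil_append]
        congr 1; omega
      unfold cst
      refine Prod.ext ?_ (Prod.ext (Subtype.ext ?_) (Subtype.ext ?_))
      · change A.run (A.run q (y.take (y.length - D))) ((lastN D y ++ [a]).take 1)
          = A.run q ((y ++ [a]).take ((y ++ [a]).length - D))
        rw [etake, Aut.run_append]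
      · change lastN D (lastN D (p.1 ++ y.take (y.length - D)) ++ (lastN D y ++ [a]).take 1)
          = lastN D (p.1 ++ (y ++ [a]).take ((y ++ [a]).length - D))
        rw [etake, lastN_lastN_append, List.append_assoc]
      · change (lastN D y ++ [a]).drop 1 = lastN D (y ++ [a])
        rw [edrop]

/-- the current state of the thread. -/
theorem cst_cur (q : Q) (p : Wd α D) (y : List α) :
    A.run (cst A D q p y).1 (cst A D q p y).2.2.1 = A.run q y := by
  change A.run (A.run q (y.take (y.length - D))) (lastN D y) = A.run q y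
  rw [← Aut.run_append, take_append_lastN]

theorem cst_last (q : Q) (p : Wd α D) (y : List α) :
    lastN D ((cst A D q p y).2.1.1 ++ (cst A D q p y).2.2.1) = lastN D (p.1 ++ y) := by
  change lastN D (lastN D (p.1 ++ y.take (y.length - D)) ++ lastN D y) = _
  rw [lastN_lastN_append, List.append_assoc, take_append_lastN]

/-- Failure of the cut automaton on a live word = a cut. -/
theorem cut_of_dead {q : Q} {p : Wd α D} {y : List α} (hA : ¬ A.dead (A.run q y))
    (h : (Cut A D lam rho).dead ((Cut A D lam rho).run (q, p, ⟨[], Nat.zero_le _⟩) y)) :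
    ∃ y' s, y = y' ++ s ∧ s.length = D ∧ (lastN D (p.1 ++ y')).length = D ∧
      lam (lastN D (p.1 ++ y')) = some (A.run q y') ∧ (rho s).isSome := by
  rw [cut_run] at h
  rcases h with h | ⟨h1, h2, h3, h4⟩
  · rw [cst_cur] at h; exact absurd h hA
  · exact ⟨y.take (y.length - D), lastN D y, (take_append_lastN D y).symm, h1, h2, h3, h4⟩

end cut

/-! ### the nesting theorem -/

section nest

variable (A : Aut α Q) (D : ℕ) (lam rho : List α → Option Q)

/-- relative soundness of a scheme. -/
def Sound : Prop :=
  ∀ (q : Q) (x z y : List α), A.LiveQ q (x ++ z ++ y) → D ≤ x.length → z.length = D →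
    lam (lastN D x) = some (A.run q x) → ∀ q', rho z = some q' → A.run q (x ++ z) = q'

/-- live words of the cut automaton from `q`, with known last letters `p`, ending in `b`. -/
def LB (q : Q) (p : Wd α D) (b : CQ α Q D) : Language α :=
  {y | (Cut A D lam rho).LiveQ (q, p, ⟨[], Nat.zero_le _⟩) y ∧
    (Cut A D lam rho).run (q, p, ⟨[], Nat.zero_le _⟩) y = b}

def nilW : Wd α D := ⟨[], Nat.zero_le _⟩

/-- words of a cut-to-cut piece or of the tail: first `D` letters `z` with right reading `q`,
then a live word which ends in a state with property `E`. -/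
def Piece (E : CQ α Q D → Prop) : Language α :=
  {w | ∃ c : (Q × Wd α D) × CQ α Q D, w ∈ ({w | (c.1.2.1.length = D ∧ rho c.1.2.1 = some c.1.1 ∧ E c.2) ∧
    w ∈ ({w | ∃ a b, a ++ b = w ∧ a ∈ ({c.1.2.1} : Language α) ∧ b ∈ LB A D lam rho c.1.1 c.1.2 c.2} :
      Language α)} : Language α)}

theorem mem_Piece {E : CQ α Q D → Prop} {w : List α} :
    w ∈ Piece A D lam rho E ↔ ∃ (q : Q) (z y : List α) (hz : z.length = D), rho z = some q ∧
      z ++ y = w ∧ (Cut A D lam rho).LiveQ (q, ⟨z, hz.le⟩, ⟨[], Nat.zero_le _⟩) y ∧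
      E (cst A D q ⟨z, hz.le⟩ y) := by
  constructor
  · rintro ⟨⟨⟨q, z⟩, b⟩, ⟨hz, hr, hE⟩, a, y, rfl, ha, hy, hb⟩
    have ha' : a = z.1 := ha
    subst ha'
    refine ⟨q, z.1, y, hz, hr, rfl, hy, ?_⟩
    rw [cut_run] at hb
    rw [← hb] at hE
    exact hE
  · rintro ⟨q, z, y, hz, hr, rfl, hy, hE⟩
    refine ⟨⟨⟨q, ⟨z, hz.le⟩⟩, cst A D q ⟨z, hz.le⟩ y⟩, ⟨hz, hr, hE⟩, z, y, rfl, rfl, hy, ?_⟩
    rw [cut_run]

theorem Piece_H [Finite α] [Finite Q] {n : ℕ} (hC : Comp n (Cut A D lam rho)) (E : CQ α Q D → Prop) :
    H n (Piece A D lam rho E) := by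
  refine H.exists_fintype _ fun c => H.inter (H.const n _) (H.cat (H.word n _) ?_)
  exact hC _ _

/-- words from the start. -/
def Ini (q : Q) (E : CQ α Q D → Prop) : Language α :=
  {w | ∃ b : CQ α Q D, w ∈ ({w | E b ∧ w ∈ LB A D lam rho q (nilW D) b} : Language α)}

theorem mem_Ini {q : Q} {E : CQ α Q D → Prop} {w : List α} :
    w ∈ Ini A D lam rho q E ↔ (Cut A D lam rho).LiveQ (q, nilW D, ⟨[], Nat.zero_le _⟩) w ∧
      E (cst A D q (nilW D) w) := by
  constructor
  · rintro ⟨b, hE, hy, hb⟩
    rw [cut_run] at hb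
    rw [← hb] at hE
    exact ⟨hy, hE⟩
  · rintro ⟨hy, hE⟩
    exact ⟨_, hE, hy, cut_run A D lam rho _ _ _⟩

theorem Ini_H [Finite α] [Finite Q] {n : ℕ} (hC : Comp n (Cut A D lam rho)) (q : Q)
    (E : CQ α Q D → Prop) : H n (Ini A D lam rho q E) :=
  H.exists_fintype _ fun _ => H.inter (H.const n _) (hC _ _)

/-- end condition of cut-to-cut pieces. -/
def EndK (b : CQ α Q D) : Prop :=
  lam (lastN D (b.2.1.1 ++ b.2.2.1)) = some (A.run b.1 b.2.2.1)

/-- end condition of first pieces. -/
def EndP (b : CQ α Q D) : Prop :=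
  b.2.2.1.length = D ∧ lam b.2.2.1 = some (A.run b.1 b.2.2.1)

/-- end condition of tails. -/
def EndS (q : Q) (b : CQ α Q D) : Prop := A.run b.1 b.2.2.1 = q

variable {A D lam rho}

/-- soundness of the star. -/
theorem star_sound (hS : Sound A D lam rho) (q : Q) (q₁ : Q) (L : List (List α)) :
    (∀ m ∈ L, m ∈ Piece A D lam rho (EndK A D lam)) → ∀ (x s : List α), D ≤ x.length →
      lam (lastN D x) = some (A.run q x) → s ∈ Piece A D lam rho (EndS A D q₁) →
      A.LiveQ q (x ++ (L.flatten ++ s)) → A.run q (x ++ (L.flatten ++ s)) = q₁ := by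
  induction L with
  | nil =>
    intro _ x s hx hlam hs hlive
    obtain ⟨q', z, y, hz, hr, rfl, hy, hE⟩ := (mem_Piece A D lam rho).1 hs
    rw [List.flatten_nil, List.nil_append] at hlive ⊢
    have h1 : A.run q (x ++ z) = q' :=
      hS q x z y (by rw [List.append_assoc]; exact hlive) hx hz hlam q' hr
    rw [← List.append_assoc, Aut.run_append, h1]
    unfold EndS at hE
    rw [cst_cur] at hE
    exact hE
  | cons m L ih =>
    intro hL x s hx hlam hs hlive
    obtain ⟨q', z, y, hz, hr, rfl, hy, hE⟩ := (mem_Piece A D lam rho).1 (hL m List.mem_cons_self)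
    rw [List.flatten_cons] at hlive ⊢
    have h1 : A.run q (x ++ z) = q' := by
      refine hS q x z (y ++ (L.flatten ++ s)) ?_ hx hz hlam q' hr
      simpa [List.append_assoc] using hlive
    have h2 : A.run q (x ++ (z ++ y)) = A.run q' y := by
      rw [← List.append_assoc, Aut.run_append, h1]
    have hlen : D ≤ (z ++ y).length := by rw [List.length_append]; omega
    have h3 : lam (lastN D (x ++ (z ++ y))) = some (A.run q (x ++ (z ++ y))) := by
      rw [lastN_append _ hlen, h2]
      unfold EndK at hE
      rw [cst_last, cst_cur] at hE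
      exact hE
    have := ih (fun m hm => hL m (List.mem_cons_of_mem _ hm)) (x ++ (z ++ y)) s
      (by rw [List.length_append]; omega) h3 hs (by simpa [List.append_assoc] using hlive)
    simpa [List.append_assoc] using this

/-- a dead proper prefix gives the first cut. -/
theorem first_cut {q : Q} {p : Wd α D} {y : List α} (hA : A.LiveQ q y)
    (h : ¬ (Cut A D lam rho).LiveQ (q, p, ⟨[], Nat.zero_le _⟩) y) :
    ∃ y₁ s y₂, y = y₁ ++ s ++ y₂ ∧ y₂ ≠ [] ∧ s.length = D ∧ (lastN D (p.1 ++ y₁)).length = D ∧
      lam (lastN D (p.1 ++ y₁)) = some (A.run q y₁) ∧ (rho s).isSome ∧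
      (Cut A D lam rho).LiveQ (q, p, ⟨[], Nat.zero_le _⟩) y₁ := by
  classical
  -- some proper prefix is dead
  unfold Aut.LiveQ LiveP at h
  push Not at h
  obtain ⟨u, v, e, hv, hd⟩ := h
  have hnl : ¬ Live ((Cut A D lam rho).run (q, p, ⟨[], Nat.zero_le _⟩)) (Cut A D lam rho).dead u :=
    fun hl => hl u [] (List.append_nil u) hd
  obtain ⟨x, x', exy, hdx, hpx⟩ := exists_first hnl
  have hAx : ¬ A.dead (A.run q x) := hA x (x' ++ v) (by rw [← List.append_assoc, exy, e])
    (fun h0 => hv (List.append_eq_nil_iff.1 h0).2)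
  obtain ⟨y₁, s, rfl, h1, h2, h3, h4⟩ := cut_of_dead A D lam rho hAx hdx
  refine ⟨y₁, s, x' ++ v, ?_, fun h0 => hv (List.append_eq_nil_iff.1 h0).2, h1, h2, h3, h4, ?_⟩
  · rw [← e, ← exy]; simp [List.append_assoc]
  · exact Aut.LiveQ.prefix (A := Cut A D lam rho) (y := s) hpx

/-- completeness: greedy parsing. -/
theorem star_complete (hD : 0 < D) (hS : Sound A D lam rho) (q : Q) :
    ∀ (l : ℕ) (x z y : List α) (q' : Q), y.length = l → z.length = D → rho z = some q' →
      A.LiveQ q (x ++ z ++ y) → A.run q (x ++ z) = q' →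
      ∃ k s, k ++ s = z ++ y ∧ k ∈ KStar.kstar (Piece A D lam rho (EndK A D lam)) ∧
        s ∈ Piece A D lam rho (EndS A D (A.run q' y)) := by
  intro l
  induction l using Nat.strong_induction_on with
  | _ l ih =>
    intro x z y q' hl hz hr hlive hrun
    have hAy : A.LiveQ q' y := by
      have := Aut.LiveQ.suffix hlive
      rwa [hrun] at this
    by_cases hB : (Cut A D lam rho).LiveQ (q', ⟨z, hz.le⟩, ⟨[], Nat.zero_le _⟩) y
    · refine ⟨[], z ++ y, rfl, Language.nil_mem_kstar _, ?_⟩
      refine (mem_Piece A D lam rho).2 ⟨q', z, y, hz, hr, rfl, hB, ?_⟩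
      unfold EndS
      rw [cst_cur]
    · obtain ⟨y₁, s, y₂, rfl, hy₂, hs, hp, hlam, hrs, hlB⟩ := first_cut hAy hB
      obtain ⟨q'', hq''⟩ := Option.isSome_iff_exists.1 hrs
      have e0 : x ++ z ++ (y₁ ++ s ++ y₂) = (x ++ z ++ y₁) ++ s ++ y₂ := by
        simp [List.append_assoc]
      have hrun1 : A.run q (x ++ z ++ y₁) = A.run q' y₁ := by rw [Aut.run_append, hrun]
      have hlast : lastN D (x ++ z ++ y₁) = lastN D (z ++ y₁) := by
        rw [List.append_assoc, lastN_append]; rw [List.length_append]; omega
      have hrun2 : A.run q (x ++ z ++ y₁ ++ s) = q'' := by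
        refine hS q (x ++ z ++ y₁) s y₂ (by rw [← e0]; exact hlive) ?_ hs ?_ q'' hq''
        · rw [List.length_append, List.length_append]; omega
        · rw [hlast, hrun1]; exact hlam
      obtain ⟨k, t, hkt, hk, ht⟩ := ih y₂.length (by
          rw [← hl]; simp only [List.length_append]; omega) (x ++ z ++ y₁) s y₂ q'' rfl hs hq''
          (by rw [← e0]; exact hlive) hrun2
      refine ⟨(z ++ y₁) ++ k, t, ?_, ?_, ?_⟩
      · rw [List.append_assoc, hkt]; simp [List.append_assoc]
      · obtain ⟨L, rfl, hL⟩ := Language.mem_kstar.1 hk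
        refine Language.mem_kstar.2 ⟨(z ++ y₁) :: L, by rw [List.flatten_cons], ?_⟩
        intro m hm
        rcases List.mem_cons.1 hm with rfl | hm
        · refine (mem_Piece A D lam rho).2 ⟨q', z, y₁, hz, hr, rfl, hlB, ?_⟩
          unfold EndK
          rw [cst_last, cst_cur]
          exact hlam
        · exact hL m hm
      · have e1 : A.run q' (y₁ ++ s ++ y₂) = A.run q'' y₂ := by
          rw [← hrun, ← hrun2]
          simp only [Aut.run_append]
        rw [e1]; exact ht

/-- NESTING THEOREM. -/
theorem nest [Finite α] [Finite Q] {n : ℕ} (hD : 0 < D) (hS : Sound A D lam rho)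
    (hC : Comp n (Cut A D lam rho)) : Comp (n + 1) A := by
  intro q q'
  refine liveP_state_H (A.run q) A.dead
    (fun q₁ => {w | w ∈ Ini A D lam rho q (EndS A D q₁) ∨
      w ∈ ({w | ∃ a b, a ++ b = w ∧ a ∈ Ini A D lam rho q (EndP A D lam) ∧
        b ∈ ({w | ∃ a b, a ++ b = w ∧ a ∈ KStar.kstar (Piece A D lam rho (EndK A D lam)) ∧
          b ∈ Piece A D lam rho (EndS A D q₁)} : Language α)} : Language α)}) ?_ ?_ q'
  · intro q₁
    exact H.union ((Ini_H A D lam rho hC q _).mono (Nat.le_succ n))
      (H.cat ((Ini_H A D lam rho hC q _).mono (Nat.le_succ n))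
        (H.cat (Piece_H A D lam rho hC _).star ((Piece_H A D lam rho hC _).mono (Nat.le_succ n))))
  · intro w hw q₁
    have hw' : A.LiveQ q w := hw
    change (w ∈ Ini A D lam rho q (EndS A D q₁) ∨ ∃ a b, a ++ b = w ∧
      a ∈ Ini A D lam rho q (EndP A D lam) ∧ ∃ c d, c ++ d = b ∧
      c ∈ KStar.kstar (Piece A D lam rho (EndK A D lam)) ∧ d ∈ Piece A D lam rho (EndS A D q₁)) ↔ _
    constructor
    · rintro (h | ⟨x, _, rfl, hx, k, s, rfl, hk, hs⟩)
      · have := ((mem_Ini A D lam rho).1 h).2
        unfold EndS at this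
        rw [cst_cur] at this
        exact this
      · obtain ⟨L, rfl, hL⟩ := Language.mem_kstar.1 hk
        have h1 := ((mem_Ini A D lam rho).1 hx).2
        unfold EndP at h1
        rw [cst_cur] at h1
        have h2 : (cst A D q (nilW D) x).2.2.1 = lastN D x := rfl
        rw [h2] at h1
        refine star_sound hS q q₁ L hL x s ?_ h1.2 hs hw'
        have := h1.1
        rw [lastN_length] at this
        omega
    · rintro rfl
      by_cases hB : (Cut A D lam rho).LiveQ (q, nilW D, ⟨[], Nat.zero_le _⟩) w
      · left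
        refine (mem_Ini A D lam rho).2 ⟨hB, ?_⟩
        unfold EndS
        rw [cst_cur]
      · right
        obtain ⟨y₁, s, y₂, rfl, hy₂, hs, hp, hlam, hrs, hlB⟩ := first_cut hw' hB
        have hnil : (nilW D : Wd α D).1 ++ y₁ = y₁ := rfl
        rw [hnil] at hp hlam
        obtain ⟨q'', hq''⟩ := Option.isSome_iff_exists.1 hrs
        have hlen : D ≤ y₁.length := by rw [lastN_length] at hp; omega
        have hrun2 : A.run q (y₁ ++ s) = q'' := hS q y₁ s y₂ hw' hlen hs hlam q'' hq''
        obtain ⟨k, t, hkt, hk, ht⟩ :=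
          star_complete hD hS q y₂.length y₁ s y₂ q'' rfl hs hq'' hw' hrun2
        refine ⟨y₁, k ++ t, ?_, ?_, k, t, rfl, hk, ?_⟩
        · rw [hkt]; simp [List.append_assoc]
        · refine (mem_Ini A D lam rho).2 ⟨hlB, ?_⟩
          unfold EndP
          rw [cst_cur]
          exact ⟨hp, hlam⟩
        · rw [Aut.run_append, hrun2]; exact ht

end nest

/-! ### extensions, bounded case, top -/

/-- adding components to the state. -/
theorem Comp.ext {Q' : Type*} [Finite Q'] {n : ℕ} {A : Aut α Q} {A' : Aut α Q'} (π : Q' → Q)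
    (hδ : ∀ q a, π (A'.δ q a) = A.δ (π q) a) (hdead : ∀ q, A'.dead q ↔ A.dead (π q))
    (hsurj : Function.Surjective π) (h : Comp n A') : Comp n A := by
  have hrun : ∀ (w : List α) (q : Q'), π (A'.run q w) = A.run (π q) w := by
    intro w
    induction w with
    | nil => intro q; rfl
    | cons a w ih => intro q; change π (A'.run (A'.δ q a) w) = A.run (A.δ (π q) a) w; rw [ih, hδ]
  intro q q'
  obtain ⟨p, rfl⟩ := hsurj q
  refine H.congr (H.exists_fintype (fun p' : Q' => ({w | π p' = q' ∧
    w ∈ ({w | A'.LiveQ p w ∧ A'.run p w = p'} : Language α)} : Language α))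
    fun p' => H.inter (H.const n _) (h p p')) fun w => ?_
  have hl : A'.LiveQ p w ↔ A.LiveQ (π p) w := by
    unfold Aut.LiveQ LiveP
    simp only [hdead, hrun]
  change (∃ p', π p' = q' ∧ A'.LiveQ p w ∧ A'.run p w = p') ↔ _
  constructor
  · rintro ⟨p', rfl, h1, rfl⟩
    exact ⟨hl.1 h1, (hrun w p).symm⟩
  · rintro ⟨h1, h2⟩
    exact ⟨_, by rw [hrun]; exact h2, hl.2 h1, rfl⟩

/-- bounded live words. -/
theorem Comp.bounded [Finite α] (n : ℕ) {A : Aut α Q} (N : ℕ)
    (h : ∀ q w, A.LiveQ q w → w.length ≤ N) : Comp n A := by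
  intro q q'
  haveI : Finite {l : List α // l.length ≤ N} := (List.finite_length_le α N).to_subtype
  refine H.congr (H.exists_fintype (fun l : {l : List α // l.length ≤ N} =>
    ({w | (A.LiveQ q l.1 ∧ A.run q l.1 = q') ∧ w ∈ ({l.1} : Language α)} : Language α))
    fun l => H.inter (H.const n _) (H.word n _)) fun w => ?_
  change (∃ l : {l : List α // l.length ≤ N}, (A.LiveQ q l.1 ∧ A.run q l.1 = q') ∧ w = l.1) ↔
    (A.LiveQ q w ∧ A.run q w = q')
  constructor
  · rintro ⟨l, h1, rfl⟩; exact h1
  · intro h1; exact ⟨⟨w, h q w h1.1⟩, h1, rfl⟩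

/-- TOP: if every failure-free automaton is computed at level `3`, the row follows. -/
theorem top {α : Type u} [Finite α] {n : ℕ}
    (h : ∀ (Q : Type) [Finite Q] (A : Aut α Q), (∀ q, ¬ A.dead q) → Comp n A)
    (L : Language α) (hL : L.IsRegular) : H n L := by
  obtain ⟨σ, hσ, M, rfl⟩ := hL
  have hc := h σ ⟨M.step, fun _ => False⟩ (fun _ h => h)
  refine H.congr (H.exists_fintype (fun s : σ => ({w | s ∈ M.accept ∧ w ∈
    ({w | (⟨M.step, fun _ => False⟩ : Aut α σ).LiveQ M.start w ∧
      (⟨M.step, fun _ => False⟩ : Aut α σ).run M.start w = s} : Language α)} : Language α))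
    fun s => H.inter (H.const n _) (hc _ _)) fun w => ?_
  change (∃ s, s ∈ M.accept ∧ (⟨M.step, fun _ => False⟩ : Aut α σ).LiveQ M.start w ∧
      M.evalFrom M.start w = s) ↔ M.evalFrom M.start w ∈ M.accept
  constructor
  · rintro ⟨s, h1, _, rfl⟩; exact h1
  · intro h1; exact ⟨_, h1, fun _ _ _ _ h => h, rfl⟩

end Crest.Agent.R320.Nest_566
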