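import Crest.Agent.R320.Hk2_851

/-!
# Row 320, piece (9): thread calculus in semigroup form (helper598)

No token system is needed: for a language `C` closed under concatenation the star of any
language `K` with `Irr C ≤ K ≤ C` is `C ∪ {ε}`, where `Irr C` is the set of nonempty words of
`C` without a cut into two nonempty words of `C`.

* `star_of_irr`, `HL.of_irr` : `HL h K → HL (h+1) C`;
* `HL.of_bdd` : irreducible words of bounded length, finite alphabet: `HL 1 C`;
* `HL.step` : a class `G` holding the irreducible words, on which a language `X` decides `C`;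
* `nest2`, `nest3` : nested schemes, `HL 2` / `HL 3`;
* `reading` : a finite table of bounded trims determines `ψ`, so the fibres of `ψ` are in `HL k`;
* `uncut_bdd` : if every long word of `C` outside `R` has a cut, the irreducible words are short
  or in `R`.
-/

set_option autoImplicit false

namespace Crest.Agent.R320.Nest_598

open Crest.RegLang Crest.Agent.R320.Hk_851

universe u

variable {α : Type u} {k h : ℕ}

/-- nonempty words of `C` that are not a product of two nonempty words of `C` -/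
def Irr (C : Language α) : Language α :=
  {w | w ∈ C ∧ w ≠ [] ∧ ∀ u v, u ∈ C → v ∈ C → u ≠ [] → v ≠ [] → w ≠ u ++ v}

/-- closed under concatenation -/
def SG (C : Language α) : Prop := ∀ u v, u ∈ C → v ∈ C → u ++ v ∈ C

theorem mem_Irr {C : Language α} {w : List α} : w ∈ Irr C ↔
    w ∈ C ∧ w ≠ [] ∧ ∀ u v, u ∈ C → v ∈ C → u ≠ [] → v ≠ [] → w ≠ u ++ v := Iff.rfl

theorem Irr_le (C : Language α) : ∀ w, w ∈ Irr C → w ∈ C := fun _ hw => hw.1

/-- a nonempty word of `C` is irreducible or has a cut -/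
theorem irr_or_cut {C : Language α} {w : List α} (hw : w ∈ C) (h0 : w ≠ []) :
    w ∈ Irr C ∨ ∃ u v, u ∈ C ∧ v ∈ C ∧ u ≠ [] ∧ v ≠ [] ∧ w = u ++ v := by
  by_cases h : ∃ u v, u ∈ C ∧ v ∈ C ∧ u ≠ [] ∧ v ≠ [] ∧ w = u ++ v
  · exact Or.inr h
  · left
    refine ⟨hw, h0, fun u v hu hv hu0 hv0 e => h ⟨u, v, hu, hv, hu0, hv0, e⟩⟩

/-- every nonempty word of `C` is a product of irreducible words -/
theorem mem_star_irr {C : Language α} :
    ∀ (n : ℕ) (w : List α), w.length ≤ n → w ∈ C → w ∈ KStar.kstar (Irr C) := by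
  intro n
  induction n with
  | zero =>
    intro w hn _
    have : w = [] := List.length_eq_zero_iff.1 (Nat.le_zero.1 hn)
    rw [this]
    exact Language.mem_kstar.2 ⟨[], rfl, by simp⟩
  | succ n ih =>
    intro w hn hw
    by_cases h0 : w = []
    · rw [h0]
      exact Language.mem_kstar.2 ⟨[], rfl, by simp⟩
    rcases irr_or_cut hw h0 with h | ⟨u, v, hu, hv, hu0, hv0, rfl⟩
    · exact Language.mem_kstar.2 ⟨[w], by simp, by simpa using h⟩
    · have hlu : 0 < u.length := List.length_pos_iff.2 hu0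
      have hlv : 0 < v.length := List.length_pos_iff.2 hv0
      rw [List.length_append] at hn
      obtain ⟨S, e1, hS⟩ := Language.mem_kstar.1 (ih u (by omega) hu)
      obtain ⟨T, e2, hT⟩ := Language.mem_kstar.1 (ih v (by omega) hv)
      refine Language.mem_kstar.2 ⟨S ++ T, by rw [e1, e2, List.flatten_append], ?_⟩
      intro y hy
      rcases List.mem_append.1 hy with hy | hy
      · exact hS y hy
      · exact hT y hy

/-- **the star of any language between the irreducible words and `C`** -/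
theorem star_of_irr {C K : Language α} (hC : SG C) (h1 : ∀ w, w ∈ Irr C → w ∈ K)
    (h2 : ∀ w, w ∈ K → w ∈ C) (w : List α) :
    w ∈ KStar.kstar K ↔ (w = [] ∨ w ∈ C) := by
  constructor
  · intro hw
    obtain ⟨S, rfl, hS⟩ := Language.mem_kstar.1 hw
    clear hw
    induction S with
    | nil => left; rfl
    | cons x S ih =>
      right
      have hx : x ∈ C := h2 x (hS x (by simp))
      rcases ih (fun y hy => hS y (by simp [hy])) with e | e
      · rw [List.flatten_cons, e, List.append_nil]; exact hx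
      · rw [List.flatten_cons]; exact hC _ _ hx e
  · rintro (rfl | hw)
    · exact Language.mem_kstar.2 ⟨[], rfl, by simp⟩
    · obtain ⟨S, e, hS⟩ := Language.mem_kstar.1 (mem_star_irr w.length w le_rfl hw)
      exact Language.mem_kstar.2 ⟨S, e, fun y hy => h1 y (hS y hy)⟩

/-- one star for a semigroup language -/
theorem HL.of_irr {C K : Language α} (hC : SG C) (h1 : ∀ w, w ∈ Irr C → w ∈ K)
    (h2 : ∀ w, w ∈ K → w ∈ C) (hK : HL h K) : HL (h + 1) C := by
  have hs := hK.star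
  by_cases h0 : ([] : List α) ∈ C
  · refine hs.congr fun w => ?_
    rw [star_of_irr hC h1 h2]
    constructor
    · intro hw; exact Or.inr hw
    · rintro (rfl | hw)
      · exact h0
      · exact hw
  · have ho : HL (h + 1) ({w | ¬ w = []} : Language α) := by
      have := (HL.one (α := α) (k := h + 1)).compl
      exact this.congr fun w => Iff.rfl
    refine (hs.setOf_and (p := fun w => w ∈ KStar.kstar K) ho).congr fun w => ?_
    constructor
    · intro hw
      exact ⟨(star_of_irr hC h1 h2 w).2 (Or.inr hw), fun e => h0 (e ▸ hw)⟩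
    · rintro ⟨hw, h3⟩
      rcases (star_of_irr hC h1 h2 w).1 hw with e | e
      · exact (h3 e).elim
      · exact e

/-- **one scheme**: the irreducible words lie in a class `G`, on which `X` decides `C` -/
theorem HL.step {C G X : Language α} (hC : SG C) (hG : HL h G) (hX : HL h X)
    (h1 : ∀ w, w ∈ Irr C → w ∈ G) (h2 : ∀ w, w ∈ G → (w ∈ X ↔ w ∈ C)) : HL (h + 1) C := by
  refine HL.of_irr (K := G ⊓ X) hC ?_ ?_ (hG.inf hX)
  · intro w hw
    exact ⟨h1 w hw, (h2 w (h1 w hw)).2 hw.1⟩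
  · rintro w ⟨hw1, hw2⟩
    exact (h2 w hw1).1 hw2

/-- irreducible words of bounded length -/
theorem HL.of_bdd [Finite α] {C : Language α} (hC : SG C) (B : ℕ)
    (hB : ∀ w, w ∈ Irr C → w.length ≤ B) : HL 1 C := by
  have hfin : Set.Finite {w : List α | w.length ≤ B ∧ w ∈ C} :=
    (List.finite_length_le α B).subset fun w hw => hw.1
  refine HL.of_irr (h := 0) (K := {w : List α | w.length ≤ B ∧ w ∈ C}) hC ?_ ?_ (HL.finite hfin)
  · intro w hw; exact ⟨hB w hw, hw.1⟩
  · intro w hw; exact hw.2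

/-- irreducible words of bounded length, up to a class `R` on which `C` is decided in `HL h` -/
theorem HL.of_bdd_or [Finite α] {C R : Language α} (hC : SG C) (B : ℕ)
    (hB : ∀ w, w ∈ Irr C → w.length ≤ B ∨ w ∈ R) (hR : HL h (R ⊓ C)) : HL (h + 1) C := by
  have hfin : Set.Finite {w : List α | w.length ≤ B ∧ w ∈ C} :=
    (List.finite_length_le α B).subset fun w hw => hw.1
  have hK : HL h (({w : List α | w.length ≤ B ∧ w ∈ C} : Language α) ⊔ (R ⊓ C)) :=
    (HL.finite hfin).sup hR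
  refine HL.of_irr hC ?_ ?_ hK
  · intro w hw
    rcases hB w hw with h | h
    · exact Or.inl ⟨h, hw.1⟩
    · exact Or.inr ⟨h, hw.1⟩
  · rintro w (hw | hw)
    · exact hw.2
    · exact hw.2

/-- **two nested schemes** -/
theorem nest2 {ι₁ ι₂ : Type*} [Finite α] {C₂ : ι₂ → Language α} {C₁ G₁ X₁ : ι₁ → Language α}
    (s₂ : ∀ i, SG (C₂ i)) (s₁ : ∀ i, SG (C₁ i)) (B : ℕ)
    (hB : ∀ i w, w ∈ Irr (C₂ i) → w.length ≤ B)
    (hG : (∀ i, HL 1 (C₂ i)) → ∀ i, HL 1 (G₁ i)) (hX : (∀ i, HL 1 (C₂ i)) → ∀ i, HL 1 (X₁ i))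
    (h1 : ∀ i w, w ∈ Irr (C₁ i) → w ∈ G₁ i)
    (h2 : ∀ i w, w ∈ G₁ i → (w ∈ X₁ i ↔ w ∈ C₁ i)) : ∀ i, HL 2 (C₁ i) := by
  have hC₂ : ∀ i, HL 1 (C₂ i) := fun i => HL.of_bdd (s₂ i) B (hB i)
  intro i
  exact HL.step (s₁ i) (hG hC₂ i) (hX hC₂ i) (h1 i) (h2 i)

/-- **three nested schemes**: the innermost has bounded pieces, the two others are decided on a
class by a language of the height of the scheme inside -/
theorem nest3 {ι₁ ι₂ ι₃ : Type*} [Finite α] {C₃ : ι₃ → Language α}
    {C₂ G₂ X₂ : ι₂ → Language α} {C₁ G₁ X₁ : ι₁ → Language α}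
    (s₃ : ∀ i, SG (C₃ i)) (s₂ : ∀ i, SG (C₂ i)) (s₁ : ∀ i, SG (C₁ i)) (B : ℕ)
    (hB : ∀ i w, w ∈ Irr (C₃ i) → w.length ≤ B)
    (hG₂ : (∀ i, HL 1 (C₃ i)) → ∀ i, HL 1 (G₂ i)) (hX₂ : (∀ i, HL 1 (C₃ i)) → ∀ i, HL 1 (X₂ i))
    (h1₂ : ∀ i w, w ∈ Irr (C₂ i) → w ∈ G₂ i)
    (h2₂ : ∀ i w, w ∈ G₂ i → (w ∈ X₂ i ↔ w ∈ C₂ i))
    (hG₁ : (∀ i, HL 2 (C₂ i)) → ∀ i, HL 2 (G₁ i)) (hX₁ : (∀ i, HL 2 (C₂ i)) → ∀ i, HL 2 (X₁ i))
    (h1₁ : ∀ i w, w ∈ Irr (C₁ i) → w ∈ G₁ i)
    (h2₁ : ∀ i w, w ∈ G₁ i → (w ∈ X₁ i ↔ w ∈ C₁ i)) : ∀ i, HL 3 (C₁ i) := by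
  have hC₂ : ∀ i, HL 2 (C₂ i) := nest2 s₃ s₂ B hB hG₂ hX₂ h1₂ h2₂
  intro i
  exact HL.step (s₁ i) (hG₁ hC₂ i) (hX₁ hC₂ i) (h1₁ i) (h2₁ i)

/-! ### the reading lemma -/

/-- the table of the bounded trims of `w` lying in the languages `C i` -/
def table {ι : Type*} (C : ι → Language α) (B : ℕ) (w : List α) :
    Set (ι × List α × List α) :=
  {p | p.2.1.length ≤ B ∧ p.2.2.length ≤ B ∧ ∃ u, u ∈ C p.1 ∧ w = p.2.1 ++ u ++ p.2.2}

theorem table_subset {ι : Type*} (C : ι → Language α) (B : ℕ) (w : List α) :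
    table C B w ⊆ {p : ι × List α × List α | p.2.1.length ≤ B ∧ p.2.2.length ≤ B} :=
  fun _ hp => ⟨hp.1, hp.2.1⟩

theorem finite_trims (ι : Type*) [Finite ι] [Finite α] (B : ℕ) :
    Set.Finite {p : ι × List α × List α | p.2.1.length ≤ B ∧ p.2.2.length ≤ B} := by
  have h1 : Set.Finite {w : List α | w.length ≤ B} := List.finite_length_le α B
  refine (((Set.finite_univ (α := ι)).prod (h1.prod h1))).subset ?_
  rintro ⟨i, u, v⟩ ⟨hu, hv⟩
  exact ⟨trivial, hu, hv⟩

theorem HL.trim {C : Language α} (hC : HL k C) (x y : List α) :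
    HL k {w | ∃ u, u ∈ C ∧ w = x ++ u ++ y} := by
  refine (((HL.word x).mul hC).mul (HL.word y)).congr fun w => ?_
  constructor
  · rintro ⟨u, hu, rfl⟩
    exact Language.mem_mul.2 ⟨x ++ u, Language.mem_mul.2 ⟨x, rfl, u, hu, rfl⟩, y, rfl, rfl⟩
  · intro hw
    obtain ⟨a, ha, b, hb, rfl⟩ := Language.mem_mul.1 hw
    obtain ⟨x', hx', u, hu, rfl⟩ := Language.mem_mul.1 ha
    have e1 : x' = x := hx'
    have e2 : b = y := hb
    exact ⟨u, hu, by rw [e1, e2]⟩

/-- the words with a given table -/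
theorem HL.table_eq {ι : Type*} [Finite ι] [Finite α] {C : ι → Language α}
    (hC : ∀ i, HL k (C i)) (B : ℕ) (τ : Set (ι × List α × List α)) :
    HL k {w | table C B w = τ} := by
  by_cases hτ : τ ⊆ {p : ι × List α × List α | p.2.1.length ≤ B ∧ p.2.2.length ≤ B}
  · have h := HL.biInter (k := k) (finite_trims (α := α) ι B)
      (L := fun p => {w | (∃ u, u ∈ C p.1 ∧ w = p.2.1 ++ u ++ p.2.2) ↔ p ∈ τ})
      (fun p _ => HL.setOf_iff (HL.trim (hC p.1) p.2.1 p.2.2) (HL.const (p ∈ τ)))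
    refine h.congr fun w => ?_
    constructor
    · rintro hw p ⟨hp1, hp2⟩
      have hw' : table C B w = τ := hw
      constructor
      · intro hu
        rw [← hw']
        exact ⟨hp1, hp2, hu⟩
      · intro hp
        rw [← hw'] at hp
        exact hp.2.2
    · intro hw
      change table C B w = τ
      ext p
      constructor
      · rintro ⟨hp1, hp2, hu⟩
        exact (hw p ⟨hp1, hp2⟩).1 hu
      · intro hp
        obtain ⟨hp1, hp2⟩ := hτ hp
        exact ⟨hp1, hp2, (hw p ⟨hp1, hp2⟩).2 hp⟩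
  · refine HL.bot.congr fun w => ⟨fun hw => ?_, fun hw => hw.elim⟩
    have hw' : table C B w = τ := hw
    exact (hτ (hw' ▸ table_subset C B w)).elim

/-- every property of the table is in `HL k` -/
theorem HL.table_prop {ι : Type*} [Finite ι] [Finite α] {C : ι → Language α}
    (hC : ∀ i, HL k (C i)) (B : ℕ) (P : Set (ι × List α × List α) → Prop) :
    HL k {w | P (table C B w)} := by
  have hfin : Set.Finite {τ : Set (ι × List α × List α) |
      τ ⊆ {p : ι × List α × List α | p.2.1.length ≤ B ∧ p.2.2.length ≤ B} ∧ P τ} :=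
    ((finite_trims (α := α) ι B).finite_subsets).subset fun τ hτ => hτ.1
  refine (HL.biUnion hfin (L := fun τ => {w | table C B w = τ})
    (fun τ _ => HL.table_eq hC B τ)).congr fun w => ?_
  constructor
  · intro hw
    exact ⟨table C B w, ⟨table_subset C B w, hw⟩, rfl⟩
  · rintro ⟨τ, ⟨_, hτ⟩, hw⟩
    have hw' : table C B w = τ := hw
    change P (table C B w)
    rw [hw']; exact hτ

/-- **READING LEMMA**: on the class `G` the table of bounded trims determines `ψ` -/
theorem reading {ι S : Type*} [Finite ι] [Finite α] {C : ι → Language α} {G : Language α}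
    (hC : ∀ i, HL k (C i)) (hG : HL k G) (B : ℕ) (ψ : List α → S)
    (hψ : ∀ w w', w ∈ G → w' ∈ G → table C B w = table C B w' → ψ w = ψ w') (s : S) :
    HL k {w | w ∈ G ∧ ψ w = s} := by
  have h := hG.setOf_and (p := fun w => w ∈ G)
    (HL.table_prop hC B (fun τ => ∃ v, v ∈ G ∧ ψ v = s ∧ table C B v = τ))
  refine h.congr fun w => ?_
  constructor
  · rintro ⟨hw, hs⟩
    exact ⟨hw, w, hw, hs, rfl⟩
  · rintro ⟨hw, v, hv, hs, e⟩
    exact ⟨hw, by rw [← hs]; exact hψ w v hw hv e.symm⟩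

/-- reading lemma, form with one witness: for every word of `G` some bounded trim lies in some
`C i`, and the index with the trims determines `ψ` -/
theorem reading_witness {ι S : Type*} [Finite ι] [Finite α] {C : ι → Language α}
    {G : Language α} (hC : ∀ i, HL k (C i)) (hG : HL k G) (B : ℕ) (ψ : List α → S)
    (val : ι → List α → List α → S)
    (hex : ∀ w, w ∈ G → ∃ i x u y, x.length ≤ B ∧ y.length ≤ B ∧ u ∈ C i ∧ w = x ++ u ++ y)
    (hval : ∀ w, w ∈ G → ∀ i x u y, x.length ≤ B → y.length ≤ B → u ∈ C i →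
      w = x ++ u ++ y → ψ w = val i x y) (s : S) :
    HL k {w | w ∈ G ∧ ψ w = s} := by
  refine reading hC hG B ψ ?_ s
  intro w w' hw hw' e
  obtain ⟨i, x, u, y, hx, hy, hu, ew⟩ := hex w hw
  have hm : (i, x, y) ∈ table C B w := ⟨hx, hy, u, hu, ew⟩
  rw [e] at hm
  obtain ⟨-, -, u', hu', ew'⟩ := hm
  rw [hval w hw i x u y hx hy hu ew, hval w' hw' i x u' y hx hy hu' ew']

/-! ### the top -/

/-- from the fibres of all finite monoids to `S0495`'s conclusion -/
theorem regular_of_fibres [Finite α]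
    (h : ∀ (S : Type u) [Monoid S] [Finite S] (φ : α → S),
      ∃ (ι : Type u) (_ : Finite ι) (C : ι → Language α) (B : ℕ)
        (val : ι → List α → List α → S) (G R : Language α),
        (∀ i, HL 3 (C i)) ∧ HL 3 G ∧ (∀ w, w ∈ G ∨ w ∈ R) ∧
        (∀ s : S, HL 3 {w | w ∈ R ∧ (w.map φ).prod = s}) ∧
        (∀ w, w ∈ G → ∃ i x u y, x.length ≤ B ∧ y.length ≤ B ∧ u ∈ C i ∧ w = x ++ u ++ y) ∧
        (∀ w, w ∈ G → ∀ i x u y, x.length ≤ B → y.length ≤ B → u ∈ C i →
          w = x ++ u ++ y → (w.map φ).prod = val i x y))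
    (L : Language α) (hL : L.IsRegular) : ∃ e : GRegExp α, e.height ≤ 3 ∧ e.lang = L := by
  refine of_monoid (k := 3) ?_ L hL
  intro S _ _ φ s
  obtain ⟨ι, _, C, B, val, G, R, hC, hG, hcov, hR, hex, hval⟩ := h S φ
  have h1 := reading_witness hC hG B (fun w => (w.map φ).prod) val hex hval s
  refine (h1.setOf_or (hR s)).congr fun w => ?_
  constructor
  · intro hw
    rcases hcov w with hg | hr
    · exact Or.inl ⟨hg, hw⟩
    · exact Or.inr ⟨hr, hw⟩
  · rintro (⟨-, hw⟩ | ⟨-, hw⟩)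
    · exact hw
    · exact hw

end Crest.Agent.R320.Nest_598
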