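import Crest.Agent.R320.Hk2_851

/-!
# Row 320: chains with lookahead, one nesting step (helper660)
-/

set_option autoImplicit false

namespace Crest.Agent.R320.Nest_660

open Crest.Agent.R320.Hk_851

universe u v

variable {α : Type u}

/-- a chain: `nxt Q` = length of the zone which starts at the beginning of `Q`; it is decided by the
zone and `l` more letters -/
structure Chn (α : Type u) where
  l : ℕ
  nxt : List α → Option ℕ
  pos : ∀ {Q T}, nxt Q = some T → 0 < T
  len : ∀ {Q T}, nxt Q = some T → T + l ≤ Q.length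
  ext : ∀ {Q T} (R : List α), nxt Q = some T → nxt (Q ++ R) = some T
  loc : ∀ {Q T} (R : List α), nxt (Q ++ R) = some T → T + l ≤ Q.length → nxt Q = some T

inductive Path (C : Chn α) : List α → List (List α) → List α → Prop
  | nil (Q : List α) : Path C Q [] Q
  | cons {Q : List α} {T : ℕ} {Zs : List (List α)} {Q' : List α} :
      C.nxt Q = some T → Path C (Q.drop T) Zs Q' → Path C Q (Q.take (T + C.l) :: Zs) Q'

variable {C : Chn α}

theorem Path.append {Q Zs Q' Zs' Q''} (h : Path C Q Zs Q') (h' : Path C Q' Zs' Q'') :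
    Path C Q (Zs ++ Zs') Q'' := by
  induction h with
  | nil Q => simpa using h'
  | cons hn _ ih => exact Path.cons hn (ih h')

theorem Path.ext {Q Zs Q'} (h : Path C Q Zs Q') (R : List α) :
    Path C (Q ++ R) Zs (Q' ++ R) := by
  induction h with
  | nil Q => exact Path.nil _
  | @cons Q T Zs Q' hn _ ih =>
    have hl := C.len hn
    have h1 : (Q ++ R).take (T + C.l) = Q.take (T + C.l) := List.take_append_of_le_length hl
    have h2 : (Q ++ R).drop T = Q.drop T ++ R := List.drop_append_of_le_length (by omega)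
    rw [← h1]
    exact Path.cons (C.ext R hn) (by rw [h2]; exact ih)

theorem Path.suffix {Q Zs Q'} (h : Path C Q Zs Q') : ∃ t, Q = t ++ Q' := by
  induction h with
  | nil Q => exact ⟨[], rfl⟩
  | @cons Q T Zs Q' hn _ ih =>
    obtain ⟨t, ht⟩ := ih
    exact ⟨Q.take T ++ t, by rw [List.append_assoc, ← ht, List.take_append_drop]⟩

theorem Path.le_length {Q Zs Q'} (h : Path C Q Zs Q') : Q'.length ≤ Q.length := by
  obtain ⟨t, rfl⟩ := h.suffix; simp

theorem Path.l_le {Q Zs Q'} (h : Path C Q Zs Q') (hQ : C.l ≤ Q.length) : C.l ≤ Q'.length := by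
  induction h with
  | nil Q => exact hQ
  | @cons Q T Zs Q' hn _ ih =>
    have := C.len hn
    exact ih (by rw [List.length_drop]; omega)

theorem Path.restrict {Q Zs Q'} (h : Path C Q Zs Q') :
    ∀ {t c R : List α}, Q = t ++ c ++ R → Q' = c ++ R → C.l ≤ c.length → Path C (t ++ c) Zs c := by
  induction h with
  | nil Q =>
    intro t c R h1 h2 h3
    have : t = [] := by
      have := congrArg List.length (h1.symm.trans h2)
      simp only [List.length_append] at this
      exact List.length_eq_zero_iff.1 (by omega)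
    subst this
    exact Path.nil _
  | @cons Q T Zs Q' hn hp ih =>
    intro t c R h1 h2 h3
    have hle := hp.le_length
    have hl := C.len hn
    have hT : T ≤ t.length := by
      rw [h2, List.length_drop, h1] at hle
      simp only [List.length_append] at hle
      rw [h1] at hl
      simp only [List.length_append] at hl
      omega
    have hn' : C.nxt (t ++ c) = some T :=
      C.loc R (by rw [← h1]; exact hn) (by simp only [List.length_append]; omega)
    have e1 : Q.take (T + C.l) = (t ++ c).take (T + C.l) := by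
      rw [h1]; exact List.take_append_of_le_length (by simp only [List.length_append]; omega)
    rw [e1]
    refine Path.cons hn' ?_
    have e2 : (t ++ c).drop T = t.drop T ++ c := List.drop_append_of_le_length hT
    rw [e2]
    refine ih (R := R) ?_ h2 h3
    rw [h1, List.append_assoc, List.drop_append_of_le_length hT, List.append_assoc]

theorem Path.det {Q Zs Q'} (h : Path C Q Zs Q') : ∀ {Zs'}, Path C Q Zs' Q' → Zs = Zs' := by
  induction h with
  | nil Q =>
    intro Zs' h'
    cases h' with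
    | nil => rfl
    | @cons _ T Zs _ hn hp =>
      have h1 := hp.le_length
      have h2 := C.len hn
      have h3 := C.pos hn
      rw [List.length_drop] at h1
      omega
  | @cons Q T Zs Q' hn hp ih =>
    intro Zs' h'
    cases h' with
    | nil =>
      have h1 := hp.le_length
      have h2 := C.len hn
      have h3 := C.pos hn
      rw [List.length_drop] at h1
      omega
    | @cons _ T' Zs' _ hn' hp' =>
      have e : T = T' := by
        have := hn.symm.trans hn'
        exact Option.some.inj this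
      subst e
      rw [ih hp']

/-- transport along a list of zones -/
def run {X : Type v} (F : List α → X → X) (x : X) (Zs : List (List α)) : X :=
  Zs.foldl (fun x Z => F Z x) x

theorem run_append {X : Type v} (F : List α → X → X) (x : X) (Zs Zs' : List (List α)) :
    run F x (Zs ++ Zs') = run F (run F x Zs) Zs' := by
  simp [run, List.foldl_append]

/-- level `k` computability of the transport `F` on chains with all zones in `cl` -/
def PP (C : Chn α) (k : ℕ) (cl : List α → Prop) {X : Type v} (F : List α → X → X) : Prop :=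
  ∃ T : X → X → Language α, (∀ x x', HL k (T x x')) ∧
    (∀ x x' w, w ∈ T x x' → ∃ t c Zs, w = t ++ c ∧ c.length = C.l ∧ Path C w Zs c ∧
      run F x Zs = x') ∧
    (∀ x x' t c Zs, c.length = C.l → Path C (t ++ c) Zs c → (∀ Z ∈ Zs, cl Z) →
      run F x Zs = x' → t ++ c ∈ T x x')

theorem PP.mono_cl {k : ℕ} {cl cl' : List α → Prop} {X : Type v} {F : List α → X → X}
    (h : PP C k cl F) (hc : ∀ Z, cl' Z → cl Z) : PP C k cl' F := by
  obtain ⟨T, h1, h2, h3⟩ := h
  exact ⟨T, h1, h2, fun x x' t c Zs a b d e => h3 x x' t c Zs a b (fun Z hZ => hc Z (d Z hZ)) e⟩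

/-- the labels of a gadget -/
structure Gad (C : Chn α) (V : Type v) where
  L : List α → Option V
  Rr : List α → Option (ℕ × V)
  Llen : ∀ {P v}, L P = some v → C.l ≤ P.length
  Rlen : ∀ {Q d v}, Rr Q = some (d, v) → d + C.l ≤ Q.length
  Rext : ∀ {Q d v} (R : List α), Rr Q = some (d, v) → Rr (Q ++ R) = some (d, v)
  Rloc : ∀ {Q d v} (R : List α), Rr (Q ++ R) = some (d, v) → d + C.l ≤ Q.length →
    Rr Q = some (d, v)

/-- soundness for a transport, everywhere -/
def Gad.Sound {V : Type v} (g : Gad C V) (F : List α → V → V) : Prop :=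
  ∀ P Q v d v', g.L P = some v → g.Rr Q = some (d, v') →
    C.nxt (P ++ Q) = some (P.length + d) ∧ F ((P ++ Q).take (P.length + d + C.l)) v = v'

def Gad.Compl {V : Type v} (g : Gad C V) (G : List α → Prop) : Prop :=
  ∀ Q T, C.nxt Q = some T → G (Q.take (T + C.l)) → ∀ v, ∃ P Q', Q = P ++ Q' ∧
    g.L P = some v ∧ (g.Rr Q').isSome

/-- levels of the label languages -/
def Gad.Lev {V : Type v} (g : Gad C V) (k : ℕ) : Prop :=
  (∀ v, HL k ({P | g.L P = some v} : Language α)) ∧
  (∀ v, HL k ({Q | g.Rr Q = some (Q.length - C.l, v)} : Language α))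

section step

variable {V : Type v} (g : Gad C V) (F : List α → V → V) (T : V → V → Language α)

/-- start: from the anchor to a cut -/
def St (v0 : V) : Language α :=
  {w | ∃ t c l' v, w = t ++ c ++ l' ∧ c.length = C.l ∧ t ++ c ∈ T v0 v ∧ g.L (c ++ l') = some v}

/-- end: from a cut to an anchor -/
def En (v1 : V) : Language α :=
  {w | ∃ r t c v, w = r ++ t ++ c ∧ c.length = C.l ∧ g.Rr w = some (r.length, v) ∧
    t ++ c ∈ T v v1}

/-- from cut to cut -/
def Kk : Language α :=
  {w | ∃ r t c l' v v', w = r ++ t ++ c ++ l' ∧ c.length = C.l ∧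
    g.Rr w = some (r.length, v) ∧ t ++ c ∈ T v v' ∧ g.L (c ++ l') = some v'}

variable {g F T}

/-- semantic start language -/
def StS (g : Gad C V) (F : List α → V → V) (v0 : V) : Language α :=
  {w | ∃ t c l' Zs, w = t ++ c ++ l' ∧ c.length = C.l ∧ Path C (t ++ c) Zs c ∧
    g.L (c ++ l') = some (run F v0 Zs)}

theorem join (hs : g.Sound F) {v0 : V} {P Q r t c : List α} {v : V} {Zs : List (List α)}
    (hP : P ∈ StS g F v0) (hQ : Q = r ++ t ++ c ∨ ∃ l', Q = r ++ t ++ c ++ l')
    (hr : g.Rr Q = some (r.length, v)) (hc : c.length = C.l) (hZ : Path C (t ++ c) Zs c) :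
    ∃ Zs', Path C (P ++ r ++ t ++ c) Zs' c ∧ run F v0 Zs' = run F v Zs := by
  obtain ⟨t0, c0, l0, Zs0, rfl, hc0, hp0, hL⟩ := hP
  obtain ⟨h1, h2⟩ := hs (c0 ++ l0) Q _ _ _ hL hr
  -- restrict `Q` to `r ++ t ++ c`
  have hQ' : ∃ l', Q = r ++ t ++ c ++ l' := by
    rcases hQ with h | h
    · exact ⟨[], by simpa using h⟩
    · exact h
  obtain ⟨l', rfl⟩ := hQ'
  have hn : C.nxt (c0 ++ l0 ++ (r ++ t ++ c)) = some ((c0 ++ l0).length + r.length) := by
    refine C.loc l' ?_ ?_
    · have e : c0 ++ l0 ++ (r ++ t ++ c) ++ l' = c0 ++ l0 ++ (r ++ t ++ c ++ l') := by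
        simp only [List.append_assoc]
      rw [e]; exact h1
    · have h9 := hc
      simp only [List.length_append]; omega
  have htk : (c0 ++ l0 ++ (r ++ t ++ c)).take ((c0 ++ l0).length + r.length + C.l) =
      (c0 ++ l0 ++ (r ++ t ++ c ++ l')).take ((c0 ++ l0).length + r.length + C.l) := by
    have e : c0 ++ l0 ++ (r ++ t ++ c ++ l') = (c0 ++ l0 ++ (r ++ t ++ c)) ++ l' := by
      simp only [List.append_assoc]
    rw [e]
    refine (List.take_append_of_le_length ?_).symm
    have h9 := hc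
    simp only [List.length_append]; omega
  have hdr : (c0 ++ l0 ++ (r ++ t ++ c)).drop ((c0 ++ l0).length + r.length) = t ++ c := by
    have e : c0 ++ l0 ++ (r ++ t ++ c) = (c0 ++ l0 ++ r) ++ (t ++ c) := by
      simp only [List.append_assoc]
    rw [e, List.drop_left']
    simp only [List.length_append]
  have hp1 : Path C (c0 ++ l0 ++ (r ++ t ++ c)) (_ :: Zs) c := Path.cons hn (by rw [hdr]; exact hZ)
  have hp2 := (hp0.ext (l0 ++ (r ++ t ++ c)))
  have e3 : c0 ++ (l0 ++ (r ++ t ++ c)) = c0 ++ l0 ++ (r ++ t ++ c) := by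
    simp only [List.append_assoc]
  rw [e3] at hp2
  have hp3 := hp2.append hp1
  have e4 : t0 ++ c0 ++ (l0 ++ (r ++ t ++ c)) = t0 ++ c0 ++ l0 ++ r ++ t ++ c := by
    simp only [List.append_assoc]
  rw [e4] at hp3
  refine ⟨_, hp3, ?_⟩
  rw [run_append]
  show run F (F _ (run F v0 Zs0)) Zs = _
  rw [htk, h2]

theorem st_mul (hs : g.Sound F) (hT : ∀ x x' w, w ∈ T x x' → ∃ t c Zs, w = t ++ c ∧
      c.length = C.l ∧ Path C w Zs c ∧ run F x Zs = x') {v0 : V} {P Q : List α}
    (hP : P ∈ StS g F v0) (hQ : Q ∈ Kk g T) : P ++ Q ∈ StS g F v0 := by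
  obtain ⟨r, t, c, l', v, v', rfl, hc, hr, ht, hL⟩ := hQ
  obtain ⟨t1, c1, Zs, e1, hc1, hp, hrun⟩ := hT _ _ _ ht
  have : t = t1 ∧ c = c1 := List.append_inj' e1 (by rw [hc, hc1])
  obtain ⟨rfl, rfl⟩ := this
  obtain ⟨Zs', h1, h2⟩ := join hs hP (Or.inr ⟨l', rfl⟩) hr hc hp
  refine ⟨P ++ r ++ t, c, l', Zs', by simp only [List.append_assoc], hc, h1, ?_⟩
  rw [h2, hrun]; exact hL

theorem st_star (hs : g.Sound F) (hT : ∀ x x' w, w ∈ T x x' → ∃ t c Zs, w = t ++ c ∧
      c.length = C.l ∧ Path C w Zs c ∧ run F x Zs = x') {v0 : V} :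
    ∀ (S : List (List α)) (P : List α), P ∈ StS g F v0 → (∀ y ∈ S, y ∈ Kk g T) →
      P ++ S.flatten ∈ StS g F v0
  | [], P, hP, _ => by simpa using hP
  | y :: S, P, hP, h => by
    have h1 := st_mul hs hT hP (h y (by simp))
    have h2 := st_star hs hT S (P ++ y) h1 (fun z hz => h z (by simp [hz]))
    have e : P ++ (y :: S).flatten = P ++ y ++ S.flatten := by simp
    rw [e]; exact h2

theorem st_sub (hT : ∀ x x' w, w ∈ T x x' → ∃ t c Zs, w = t ++ c ∧
      c.length = C.l ∧ Path C w Zs c ∧ run F x Zs = x') {v0 : V} {P : List α}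
    (hP : P ∈ St g T v0) : P ∈ StS g F v0 := by
  obtain ⟨t, c, l', v, rfl, hc, ht, hL⟩ := hP
  obtain ⟨t1, c1, Zs, e1, hc1, hp, hrun⟩ := hT _ _ _ ht
  obtain ⟨rfl, rfl⟩ : t = t1 ∧ c = c1 := List.append_inj' e1 (by rw [hc, hc1])
  exact ⟨t, c, l', Zs, rfl, hc, hp, by rw [hrun]; exact hL⟩

/-- the new languages -/
def TT (g : Gad C V) (T : V → V → Language α) (v0 v1 : V) : Language α :=
  T v0 v1 + St g T v0 * (KStar.kstar (Kk g T)) * En g T v1

theorem TT_sound (hs : g.Sound F) (hT : ∀ x x' w, w ∈ T x x' → ∃ t c Zs, w = t ++ c ∧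
      c.length = C.l ∧ Path C w Zs c ∧ run F x Zs = x') :
    ∀ x x' w, w ∈ TT g T x x' → ∃ t c Zs, w = t ++ c ∧
      c.length = C.l ∧ Path C w Zs c ∧ run F x Zs = x' := by
  intro v0 v1 w hw
  rcases hw with hw | hw
  · exact hT _ _ _ hw
  · obtain ⟨Pm, hPm, q, hq, rfl⟩ := Language.mem_mul.1 hw
    obtain ⟨P, hP, m, hm, rfl⟩ := Language.mem_mul.1 hPm
    obtain ⟨S, rfl, hS⟩ := Language.mem_kstar.1 hm
    have h1 := st_star hs hT S P (st_sub hT hP) hS
    obtain ⟨r, t, c, v, rfl, hc, hr, ht⟩ := hq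
    obtain ⟨t1, c1, Zs, e1, hc1, hp, hrun⟩ := hT _ _ _ ht
    obtain ⟨rfl, rfl⟩ : t = t1 ∧ c = c1 := List.append_inj' e1 (by rw [hc, hc1])
    obtain ⟨Zs', h2, h3⟩ := join hs h1 (Or.inl rfl) hr hc hp
    refine ⟨P ++ S.flatten ++ r ++ t, c, Zs', by simp only [List.append_assoc], hc, ?_, ?_⟩
    · have e : P ++ S.flatten ++ (r ++ t ++ c) = P ++ S.flatten ++ r ++ t ++ c := by
        simp only [List.append_assoc]
      rw [e]; exact h2
    · rw [h3, hrun]

theorem Path.split {Q Q' : List α} : ∀ {Zs1 Zs2 : List (List α)}, Path C Q (Zs1 ++ Zs2) Q' →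
    ∃ Qm, Path C Q Zs1 Qm ∧ Path C Qm Zs2 Q' := by
  intro Zs1
  induction Zs1 generalizing Q with
  | nil => intro Zs2 h; exact ⟨Q, Path.nil _, h⟩
  | cons Z Zs1 ih =>
    intro Zs2 h
    rw [List.cons_append] at h
    cases h with
    | cons hn hp =>
      obtain ⟨Qm, h1, h2⟩ := ih hp
      exact ⟨Qm, Path.cons hn h1, h2⟩

theorem first_bad {cl : List α → Prop} : ∀ {Zs : List (List α)}, ¬ (∀ Z ∈ Zs, cl Z) →
    ∃ Zs1 Z Zs2, Zs = Zs1 ++ Z :: Zs2 ∧ (∀ Z' ∈ Zs1, cl Z') ∧ ¬ cl Z := by
  intro Zs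
  induction Zs with
  | nil => intro h; exact absurd (by simp) h
  | cons Z Zs ih =>
    intro h
    by_cases hZ : cl Z
    · have h' : ¬ ∀ Z' ∈ Zs, cl Z' := fun h2 => h (by
        intro Z' hZ'
        rcases List.mem_cons.1 hZ' with rfl | h3
        · exact hZ
        · exact h2 _ h3)
      obtain ⟨Zs1, Z', Zs2, rfl, h2, h3⟩ := ih h'
      refine ⟨Z :: Zs1, Z', Zs2, rfl, ?_, h3⟩
      intro Z'' hZ''
      rcases List.mem_cons.1 hZ'' with rfl | h4
      · exact hZ
      · exact h2 _ h4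
    · exact ⟨[], Z, Zs, rfl, by simp, hZ⟩

theorem firstcut {cl G : List α → Prop} (hs : g.Sound F) (hg : g.Compl G)
    {t c : List α} {Zs : List (List α)} {v : V}
    (hp : Path C (t ++ c) Zs c) (hz : ∀ Z ∈ Zs, cl Z ∨ G Z)
    (hnot : ¬ ∀ Z ∈ Zs, cl Z) :
    ∃ t1 c1 l1 Q' Zs1, t ++ c = t1 ++ c1 ++ l1 ++ Q' ∧ c1.length = C.l ∧
      Path C (t1 ++ c1) Zs1 c1 ∧ (∀ Z ∈ Zs1, cl Z) ∧ g.L (c1 ++ l1) = some (run F v Zs1) ∧
      ∃ r' t' v3 Zs2, Q' = r' ++ t' ++ c ∧ g.Rr Q' = some (r'.length, v3) ∧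
        Path C (t' ++ c) Zs2 c ∧ (∀ Z ∈ Zs2, Z ∈ Zs) ∧ Zs2.length < Zs.length ∧
        run F v3 Zs2 = run F v Zs := by
  obtain ⟨Zs1, Z, Zs2, rfl, h1, h2⟩ := first_bad hnot
  obtain ⟨Qm, hp1, hp2⟩ := hp.split
  cases hp2 with
  | @cons _ T _ _ hn hp3 =>
  have hG : G (Qm.take (T + C.l)) := (hz _ (by simp)).resolve_left h2
  obtain ⟨P, Q', rfl, hL, hR⟩ := hg _ _ hn hG (run F v Zs1)
  obtain ⟨⟨d, v3⟩, hR⟩ := Option.isSome_iff_exists.1 hR
  obtain ⟨h3, h4⟩ := hs _ _ _ _ _ hL hR
  have hT : T = P.length + d := Option.some.inj (hn.symm.trans h3)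
  obtain ⟨t1, ht1⟩ := hp1.suffix
  have hPl := g.Llen hL
  have hRl := g.Rlen hR
  obtain ⟨t', ht'⟩ := hp3.suffix
  have hd : (P ++ Q').drop T = Q'.drop d := by
    rw [hT, ← List.drop_drop, List.drop_left]
  rw [hd] at ht' hp3
  have hc1 : (P.take C.l).length = C.l := by rw [List.length_take]; omega
  refine ⟨t1, P.take C.l, P.drop C.l, Q', Zs1, ?_, hc1, ?_, h1, ?_, Q'.take d, t', v3, Zs2, ?_, ?_,
    ?_, ?_, ?_, ?_⟩
  · rw [ht1]
    simp only [List.append_assoc]
    rw [← List.append_assoc (P.take C.l), List.take_append_drop]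
  · refine hp1.restrict (R := P.drop C.l ++ Q') ?_ ?_ (by omega)
    · rw [ht1]
      simp only [List.append_assoc]
      rw [← List.append_assoc (P.take C.l), List.take_append_drop]
    · rw [← List.append_assoc, List.take_append_drop]
  · rw [List.take_append_drop]; exact hL
  · rw [List.append_assoc, ← ht', List.take_append_drop]
  · rw [List.length_take, hR]
    congr 2
    omega
  · rw [← ht']; exact hp3
  · intro Z' hZ'; simp [hZ']
  · simp only [List.length_append, List.length_cons]; omega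
  · rw [run_append]
    show _ = run F (F _ (run F v Zs1)) Zs2
    rw [hT, h4]

theorem TT_compl_aux {cl G : List α → Prop} (hs : g.Sound F) (hg : g.Compl G)
    (hTc : ∀ x x' t c Zs, c.length = C.l → Path C (t ++ c) Zs c → (∀ Z ∈ Zs, cl Z) →
      run F x Zs = x' → t ++ c ∈ T x x') :
    ∀ (n : ℕ) (t c r : List α) (Zs : List (List α)) (v : V), Zs.length ≤ n → c.length = C.l →
      Path C (t ++ c) Zs c → (∀ Z ∈ Zs, cl Z ∨ G Z) →
      g.Rr (r ++ t ++ c) = some (r.length, v) →
      r ++ t ++ c ∈ KStar.kstar (Kk g T) * En g T (run F v Zs) := by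
  intro n
  induction n with
  | zero =>
    intro t c r Zs v hn hc hp hz hr
    have hZ : ∀ Z ∈ Zs, cl Z := by
      intro Z h
      rw [List.length_eq_zero_iff.1 (Nat.le_zero.1 hn)] at h
      simp at h
    refine Language.mem_mul.2 ⟨[], Language.nil_mem_kstar _, _, ?_, rfl⟩
    exact ⟨r, t, c, v, rfl, hc, hr, hTc _ _ _ _ _ hc hp hZ rfl⟩
  | succ n ih =>
    intro t c r Zs v hn hc hp hz hr
    by_cases hZ : ∀ Z ∈ Zs, cl Z
    · refine Language.mem_mul.2 ⟨[], Language.nil_mem_kstar _, _, ?_, rfl⟩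
      exact ⟨r, t, c, v, rfl, hc, hr, hTc _ _ _ _ _ hc hp hZ rfl⟩
    · obtain ⟨t1, c1, l1, Q', Zs1, e, hc1, hp1, hz1, hL, r', t', v3, Zs2, rfl, hr', hp2, hz2, hl2,
        hrun⟩ := firstcut (v := v) hs hg hp hz hZ
      have h1 := ih t' c r' Zs2 v3 (by omega) hc hp2 (fun Z h => hz Z (hz2 Z h)) hr'
      obtain ⟨m, hm, q, hq, e2⟩ := Language.mem_mul.1 h1
      obtain ⟨S, rfl, hS⟩ := Language.mem_kstar.1 hm
      have hk : r ++ t1 ++ c1 ++ l1 ∈ Kk g T := by
        refine ⟨r, t1, c1, l1, v, run F v Zs1, rfl, hc1, ?_, hTc _ _ _ _ _ hc1 hp1 hz1 rfl, hL⟩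
        refine g.Rloc (r' ++ t' ++ c) ?_ ?_
        · have e3 : r ++ t1 ++ c1 ++ l1 ++ (r' ++ t' ++ c) = r ++ t ++ c := by
            rw [List.append_assoc r t c, e]
            simp only [List.append_assoc]
          rw [e3]; exact hr
        · have h9 := hc1
          simp only [List.length_append]; omega
      rw [hrun] at hq
      refine Language.mem_mul.2 ⟨((r ++ t1 ++ c1 ++ l1) :: S).flatten, ?_, q, hq, ?_⟩
      · refine Language.mem_kstar.2 ⟨_, rfl, ?_⟩
        intro y hy
        rcases List.mem_cons.1 hy with rfl | hy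
        · exact hk
        · exact hS y hy
      · rw [List.flatten_cons, List.append_assoc, e2, List.append_assoc r t c, e]
        simp only [List.append_assoc]

theorem TT_compl {cl G : List α → Prop} (hs : g.Sound F) (hg : g.Compl G)
    (hTc : ∀ x x' t c Zs, c.length = C.l → Path C (t ++ c) Zs c → (∀ Z ∈ Zs, cl Z) →
      run F x Zs = x' → t ++ c ∈ T x x') :
    ∀ x x' t c Zs, c.length = C.l → Path C (t ++ c) Zs c → (∀ Z ∈ Zs, cl Z ∨ G Z) →
      run F x Zs = x' → t ++ c ∈ TT g T x x' := by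
  intro v v1 t c Zs hc hp hz hrun
  by_cases hZ : ∀ Z ∈ Zs, cl Z
  · exact Or.inl (hTc _ _ _ _ _ hc hp hZ hrun)
  · obtain ⟨t1, c1, l1, Q', Zs1, e, hc1, hp1, hz1, hL, r', t', v3, Zs2, rfl, hr', hp2, hz2, hl2,
      hrun'⟩ := firstcut (v := v) hs hg hp hz hZ
    have h1 := TT_compl_aux hs hg hTc Zs2.length t' c r' Zs2 v3 le_rfl hc hp2
      (fun Z h => hz Z (hz2 Z h)) hr'
    obtain ⟨m, hm, q, hq, e2⟩ := Language.mem_mul.1 h1
    refine Or.inr (Language.mem_mul.2 ⟨t1 ++ c1 ++ l1 ++ m, Language.mem_mul.2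
      ⟨t1 ++ c1 ++ l1, ?_, m, hm, rfl⟩, q, ?_, ?_⟩)
    · exact ⟨t1, c1, l1, _, rfl, hc1, hTc _ _ _ _ _ hc1 hp1 hz1 rfl, hL⟩
    · rw [hrun', hrun] at hq; exact hq
    · rw [List.append_assoc, e2, e]

end step

section levels

variable [Finite α] {V : Type v} [Finite V] {g : Gad C V} {T : V → V → Language α} {k : ℕ}

theorem finite_len (n : ℕ) : Finite {c : List α // c.length = n} :=
  (List.finite_length_eq α n).to_subtype

/-- left quotient -/
def lq (c : List α) (L : Language α) : Language α := {w | c ++ w ∈ L}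
/-- right quotient -/
def rq (c : List α) (L : Language α) : Language α := {w | w ++ c ∈ L}
/-- words of `L` with prefix `e` -/
def pr (e : List α) (L : Language α) : Language α := {w | (∃ R, w = e ++ R) ∧ w ∈ L}
/-- left labels -/
def LL (g : Gad C V) (v : V) : Language α := {P | g.L P = some v}
/-- right labels -/
def RL (g : Gad C V) (v : V) : Language α := {Q | g.Rr Q = some (Q.length - C.l, v)}
/-- one word -/
def sg (c : List α) : Language α := {c}

omit [Finite α] [Finite V] in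
theorem HL_lq (c : List α) {L : Language α} (h : HL k L) : HL k (lq c L) := HL.lquot c h
omit [Finite α] [Finite V] in
theorem HL_rq (c : List α) {L : Language α} (h : HL k L) : HL k (rq c L) := HL.rquot c h
omit [Finite α] [Finite V] in
theorem HL_sg (c : List α) : HL k (sg c) := HL.word c
omit [Finite α] [Finite V] in
theorem HL_pr (c : List α) {L : Language α} (h : HL k L) : HL k (pr c L) := by
  refine ((HL.word (k := k) c).prefix.setOf_and h).congr fun w => ?_
  constructor
  · rintro ⟨⟨R, hR⟩, hw⟩; exact ⟨⟨c, rfl, ⟨R, hR.symm⟩⟩, hw⟩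
  · rintro ⟨⟨c', hc', ⟨R, hR⟩⟩, hw⟩
    obtain rfl : c' = c := hc'
    exact ⟨⟨R, hR.symm⟩, hw⟩

theorem HL_St (hg : g.Lev k) (hT : ∀ x x', HL k (T x x')) (v0 : V) : HL k (St g T v0) := by
  have := finite_len (α := α) C.l
  have h := HL.iUnion (k := k) (L := fun cv : {c : List α // c.length = C.l} × V =>
    rq cv.1.1 (T v0 cv.2) * (sg cv.1.1 * lq cv.1.1 (LL g cv.2)))
    (fun cv => (HL_rq _ (hT _ _)).mul ((HL_sg _).mul (HL_lq _ (hg.1 _))))
  refine h.congr fun w => ?_
  constructor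
  · rintro ⟨t, c, l', v, rfl, hc, ht, hL⟩
    exact ⟨(⟨c, hc⟩, v), Language.mem_mul.2 ⟨t, ht, c ++ l', Language.mem_mul.2
      ⟨c, rfl, l', hL, rfl⟩, by simp only [List.append_assoc]⟩⟩
  · rintro ⟨⟨⟨c, hc⟩, v⟩, hw⟩
    obtain ⟨t, ht, m, hm, rfl⟩ := Language.mem_mul.1 hw
    obtain ⟨c', hc', l', hL, rfl⟩ := Language.mem_mul.1 hm
    obtain rfl : c' = c := hc'
    exact ⟨t, c', l', v, by simp only [List.append_assoc], hc, ht, hL⟩

theorem HL_En (hg : g.Lev k) (hT : ∀ x x', HL k (T x x'))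
    (hTl : ∀ x x' w, w ∈ T x x' → C.l ≤ w.length) (v1 : V) : HL k (En g T v1) := by
  have := finite_len (α := α) C.l
  have h := HL.iUnion (k := k) (L := fun cv : {c : List α // c.length = C.l} × V =>
    rq cv.1.1 (RL g cv.2) * pr cv.1.1 (T cv.2 v1))
    (fun cv => (HL_rq _ (hg.2 _)).mul (HL_pr _ (hT _ _)))
  refine h.congr fun w => ?_
  constructor
  · rintro ⟨r, t, c, v, rfl, hc, hr, ht⟩
    have hl := hTl _ _ _ ht
    have he : ((t ++ c).take C.l).length = C.l := by rw [List.length_take]; omega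
    refine ⟨(⟨(t ++ c).take C.l, he⟩, v), Language.mem_mul.2 ⟨r, ?_, t ++ c,
      ⟨⟨(t ++ c).drop C.l, (List.take_append_drop _ _).symm⟩, ht⟩,
      by simp only [List.append_assoc]⟩⟩
    show g.Rr _ = _
    have h5 : (r ++ (t ++ c).take C.l).length - C.l = r.length := by
      rw [List.length_append, he]; omega
    rw [h5]
    refine g.Rloc ((t ++ c).drop C.l) ?_ (by rw [List.length_append, he])
    rw [List.append_assoc, List.take_append_drop, ← List.append_assoc]; exact hr
  · rintro ⟨⟨⟨e, he⟩, v⟩, hw⟩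
    obtain ⟨r, hr, m, ⟨⟨R, rfl⟩, hm⟩, rfl⟩ := Language.mem_mul.1 hw
    have hl := hTl _ _ _ hm
    simp only at hl hm he
    refine ⟨r, (e ++ R).take ((e ++ R).length - C.l), (e ++ R).drop ((e ++ R).length - C.l), v,
      ?_, ?_, ?_, ?_⟩
    · rw [List.append_assoc, List.take_append_drop]
    · rw [List.length_drop]; omega
    · rw [← List.append_assoc]
      refine g.Rext R ?_
      have h5 : (r ++ e).length - C.l = r.length := by
        rw [List.length_append]; omega
      have hr' : g.Rr (r ++ e) = some ((r ++ e).length - C.l, v) := hr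
      rw [h5] at hr'; exact hr'
    · rw [List.take_append_drop]; exact hm

theorem HL_Kk (hg : g.Lev k) (hT : ∀ x x', HL k (T x x'))
    (hTl : ∀ x x' w, w ∈ T x x' → C.l ≤ w.length) : HL k (Kk g T) := by
  have := finite_len (α := α) C.l
  have h := HL.iUnion (k := k) (L := fun cv : ({c : List α // c.length = C.l} × V) ×
      ({c : List α // c.length = C.l} × V) =>
    rq cv.1.1.1 (RL g cv.1.2) * (rq cv.2.1.1 (pr cv.1.1.1 (T cv.1.2 cv.2.2)) *
       (sg cv.2.1.1 * lq cv.2.1.1 (LL g cv.2.2))))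
    (fun cv => (HL_rq _ (hg.2 _)).mul ((HL_rq _ (HL_pr _ (hT _ _))).mul
      ((HL_sg _).mul (HL_lq _ (hg.1 _)))))
  refine h.congr fun w => ?_
  constructor
  · rintro ⟨r, t, c, l', v, v', rfl, hc, hr, ht, hL⟩
    have hl := hTl _ _ _ ht
    have he : ((t ++ c).take C.l).length = C.l := by rw [List.length_take]; omega
    refine ⟨((⟨(t ++ c).take C.l, he⟩, v), (⟨c, hc⟩, v')), Language.mem_mul.2 ⟨r, ?_,
      t ++ (c ++ l'), Language.mem_mul.2 ⟨t, ⟨⟨(t ++ c).drop C.l,
        (List.take_append_drop _ _).symm⟩, ht⟩, c ++ l',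
        Language.mem_mul.2 ⟨c, rfl, l', hL, rfl⟩, rfl⟩, by simp only [List.append_assoc]⟩⟩
    show g.Rr _ = _
    have h5 : (r ++ (t ++ c).take C.l).length - C.l = r.length := by
      rw [List.length_append, he]; omega
    rw [h5]
    refine g.Rloc ((t ++ c).drop C.l ++ l') ?_ (by rw [List.length_append, he])
    have e : r ++ (t ++ c).take C.l ++ ((t ++ c).drop C.l ++ l') = r ++ t ++ c ++ l' := by
      rw [List.append_assoc, ← List.append_assoc ((t ++ c).take C.l), List.take_append_drop]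
      simp only [List.append_assoc]
    rw [e]; exact hr
  · rintro ⟨⟨⟨⟨e, he⟩, v⟩, ⟨⟨c, hc⟩, v'⟩⟩, hw⟩
    obtain ⟨r, hr, m, hm, rfl⟩ := Language.mem_mul.1 hw
    obtain ⟨t, ⟨⟨R, hR⟩, ht⟩, m', hm', rfl⟩ := Language.mem_mul.1 hm
    obtain ⟨c', hc', l', hL, rfl⟩ := Language.mem_mul.1 hm'
    obtain rfl : c' = c := hc'
    refine ⟨r, t, c', l', v, v', by simp only [List.append_assoc], hc, ?_, ht, hL⟩
    have hR' : t ++ c' = e ++ R := hR
    have e1 : r ++ (t ++ (c' ++ l')) = (r ++ e) ++ (R ++ l') := by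
      rw [← List.append_assoc t, hR']
      simp only [List.append_assoc]
    rw [e1]
    refine g.Rext _ ?_
    have h5 : (r ++ e).length - C.l = r.length := by
      rw [List.length_append]; omega
    have hr' : g.Rr (r ++ e) = some ((r ++ e).length - C.l, v) := hr
    rw [h5] at hr'; exact hr'

/-- **one nesting step** -/
theorem PP.step {F : List α → V → V} {cl G : List α → Prop} (h : PP C k cl F)
    (g : Gad C V) (hlev : g.Lev k) (hs : g.Sound F) (hg : g.Compl G) :
    PP C (k + 1) (fun Z => cl Z ∨ G Z) F := by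
  obtain ⟨T, h1, h2, h3⟩ := h
  have hl : ∀ x x' w, w ∈ T x x' → C.l ≤ w.length := by
    intro x x' w hw
    obtain ⟨t, c, Zs, rfl, hc, -, -⟩ := h2 _ _ _ hw
    rw [List.length_append]; omega
  refine ⟨TT g T, fun x x' => ?_, TT_sound hs h2, TT_compl hs hg h3⟩
  exact ((h1 x x').mono (Nat.le_succ k)).add ((((HL_St hlev h1 x).mono (Nat.le_succ k)).mul
    (HL_Kk hlev h1 hl).star).mul ((HL_En hlev h1 hl x').mono (Nat.le_succ k)))

end levels

/-- base: no zone at all -/
theorem PP.base [Finite α] {X : Type v} (k : ℕ) (F : List α → X → X) :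
    PP C k (fun _ => False) F := by
  refine ⟨fun x x' => {w | w.length = C.l ∧ x = x'}, fun x x' => ?_, ?_, ?_⟩
  · exact (HL.length_eq C.l).setOf_and (HL.const (x = x'))
  · rintro x x' w ⟨hw, rfl⟩
    exact ⟨[], w, [], rfl, hw, Path.nil _, rfl⟩
  · intro x x' t c Zs hc hp hz hrun
    have hZs : Zs = [] := by
      cases Zs with
      | nil => rfl
      | cons Z Zs => exact (hz Z (by simp)).elim
    subst hZs
    cases hp' : t with
    | nil =>
      subst hp'
      exact ⟨by simpa using hc, hrun⟩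
    | cons a t' =>
      exfalso
      rw [hp'] at hp
      generalize hq : (a :: t') ++ c = Q at hp
      cases hp with
      | nil =>
        have := congrArg List.length hq
        simp at this
        omega

/-- decoding: a relation between token maps and maps of `X` -/
theorem PP.decode {k : ℕ} {cl : List α → Prop} {V : Type v} {X : Type*} [Finite V] [Finite X]
    {FV : List α → V → V} {F : List α → X → X} (h : PP C k cl FV)
    (rho : (V → V) → (X → X) → Prop) (hid : rho id id)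
    (hcomp : ∀ f g f' g', rho f g → rho f' g' → rho (f' ∘ f) (g' ∘ g))
    (hF : ∀ Z, rho (FV Z) (F Z)) (huniq : ∀ f g g', rho f g → rho f g' → g = g') (v00 : V) :
    PP C k cl F := by
  obtain ⟨T, h1, h2, h3⟩ := h
  have hrho : ∀ Zs : List (List α), rho (fun v => run FV v Zs) (fun x => run F x Zs) := by
    intro Zs
    induction Zs with
    | nil => exact hid
    | cons Z Zs ih => exact hcomp _ _ _ _ (hF Z) ih
  refine ⟨fun x x' => {w | ∃ fg : (V → V) × (X → X), (rho fg.1 fg.2 ∧ fg.2 x = x') ∧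
    w ∈ ({w | ∀ v, w ∈ T v (fg.1 v)} : Language α)}, fun x x' => ?_, ?_, ?_⟩
  · refine HL.iUnion (L := fun fg : (V → V) × (X → X) =>
      ({w | (rho fg.1 fg.2 ∧ fg.2 x = x') ∧ w ∈ ({w | ∀ v, w ∈ T v (fg.1 v)} : Language α)} :
        Language α)) (fun fg => ?_)
    exact (HL.const _).setOf_and (HL.iInter fun v => h1 _ _)
  · rintro x x' w ⟨⟨f, gg⟩, ⟨hr, hx⟩, hw⟩
    obtain ⟨t, c, Zs, rfl, hc, hp, -⟩ := h2 _ _ _ (hw v00)
    refine ⟨t, c, Zs, rfl, hc, hp, ?_⟩
    have hf : (fun v => run FV v Zs) = f := by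
      funext v
      obtain ⟨t', c', Zs', e, hc', hp', hrun'⟩ := h2 _ _ _ (hw v)
      obtain ⟨rfl, rfl⟩ : t = t' ∧ c = c' := List.append_inj' e (by rw [hc, hc'])
      rw [hp.det hp']; exact hrun'
    have h4 := hrho Zs
    rw [hf] at h4
    have h5 := huniq _ _ _ h4 hr
    rw [← hx, ← h5]
  · intro x x' t c Zs hc hp hz hrun
    refine ⟨(fun v => run FV v Zs, fun x => run F x Zs), ⟨hrho Zs, hrun⟩, fun v => ?_⟩
    exact h3 _ _ _ _ _ hc hp hz rfl

/-- the chain from the beginning of a word ends somewhere -/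
theorem Path.exists_end (C : Chn α) : ∀ (n : ℕ) (Q : List α), Q.length ≤ n →
    ∃ Zs Q', Path C Q Zs Q' ∧ C.nxt Q' = none := by
  intro n
  induction n with
  | zero =>
    intro Q hQ
    refine ⟨[], Q, Path.nil _, ?_⟩
    cases h : C.nxt Q with
    | none => rfl
    | some T =>
      have h1 := C.len h
      have h2 := C.pos h
      omega
  | succ n ih =>
    intro Q hQ
    cases h : C.nxt Q with
    | none => exact ⟨[], Q, Path.nil _, h⟩
    | some T =>
      have h1 := C.len h
      have h2 := C.pos h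
      obtain ⟨Zs, Q', h3, h4⟩ := ih (Q.drop T) (by rw [List.length_drop]; omega)
      exact ⟨_, Q', Path.cons h h3, h4⟩

/-- **top**: products in a finite monoid -/
theorem top [Finite α] {S : Type v} [Monoid S] [Finite S] (phi : List α → S)
    (hphi : ∀ u w, phi (u ++ w) = phi u * phi w) (hnil : phi [] = 1)
    (C : Chn α) (k : ℕ)
    (h : PP C k (fun _ => True) (fun (Z : List α) (s : S) => s * phi (Z.take (Z.length - C.l))))
    (htail : ∀ s, HL k ({Q | C.nxt Q = none ∧ phi Q = s} : Language α)) (s : S) :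
    HL k ({w | phi w = s} : Language α) := by
  have := finite_len (α := α) C.l
  obtain ⟨T, h1, h2, h3⟩ := h
  have hrun : ∀ {Q Zs Q'}, Path C Q Zs Q' → ∀ s0 : S,
      run (fun (Z : List α) (s : S) => s * phi (Z.take (Z.length - C.l))) s0 Zs * phi Q' =
        s0 * phi Q := by
    intro Q Zs Q' hp
    induction hp with
    | nil Q => intro s0; rfl
    | @cons Q T Zs Q' hn hp ih =>
      intro s0
      have hl := C.len hn
      show run _ (s0 * phi _) Zs * phi Q' = _
      rw [ih, mul_assoc, ← hphi]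
      congr 2
      have e : (Q.take (T + C.l)).length - C.l = T := by rw [List.length_take]; omega
      rw [e, List.take_take, min_eq_left (by omega), List.take_append_drop]
  have hA : HL k ({w | ∃ x : {c : List α // c.length = C.l} × S × S,
      w ∈ rq x.1.1 (T 1 x.2.1) * (pr x.1.1 ({Q | C.nxt Q = none ∧ phi Q = x.2.2} : Language α)) ∧
      x.2.1 * x.2.2 = s} : Language α) := by
    refine HL.iUnion (L := fun x : {c : List α // c.length = C.l} × S × S =>
      ({w | w ∈ rq x.1.1 (T 1 x.2.1) * (pr x.1.1 ({Q | C.nxt Q = none ∧ phi Q = x.2.2} :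
        Language α)) ∧ x.2.1 * x.2.2 = s} : Language α)) (fun x => ?_)
    exact ((HL_rq _ (h1 _ _)).mul (HL_pr _ (htail _))).setOf_and (HL.const _)
  have hB := hA.setOf_or ((HL.length_lt (α := α) (k := k) C.l).setOf_and
    (htail s))
  refine hB.congr fun w => ?_
  constructor
  · intro hw
    by_cases hl : w.length < C.l
    · right
      refine ⟨hl, ?_, hw⟩
      cases h : C.nxt w with
      | none => rfl
      | some T' =>
        have := C.len h
        omega
    · left
      obtain ⟨Zs, Q', hp, hn⟩ := Path.exists_end C _ w le_rfl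
      have hQ' := hp.l_le (not_lt.1 hl)
      obtain ⟨t, rfl⟩ := hp.suffix
      have hc : (Q'.take C.l).length = C.l := by rw [List.length_take]; omega
      refine ⟨(⟨Q'.take C.l, hc⟩, run (fun (Z : List α) (s : S) =>
        s * phi (Z.take (Z.length - C.l))) 1 Zs, phi Q'),
        Language.mem_mul.2 ⟨t, ?_, Q', ⟨⟨Q'.drop C.l,
        (List.take_append_drop _ _).symm⟩, hn, rfl⟩, rfl⟩, ?_⟩
      · refine h3 _ _ _ _ Zs hc ?_ (fun _ _ => trivial) rfl
        refine hp.restrict (R := Q'.drop C.l) ?_ ?_ hc.ge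
        · rw [List.append_assoc, List.take_append_drop]
        · rw [List.take_append_drop]
      · have h5 := hrun hp 1
        rw [one_mul] at h5
        rw [h5]; exact hw
  · rintro (hw | hw)
    · obtain ⟨⟨⟨c, hc⟩, s1, s2⟩, hw, hs⟩ := hw
      obtain ⟨t, ht, Q', ⟨⟨R, hR⟩, hn, hQ⟩, rfl⟩ := Language.mem_mul.1 hw
      obtain ⟨t', c', Zs, e, hc', hp, hr⟩ := h2 _ _ _ ht
      simp only at hc e hp hs hQ hR
      obtain ⟨rfl, rfl⟩ : t = t' ∧ c = c' := List.append_inj' e (by rw [hc, hc'])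
      have h5 := hrun (hp.ext R) 1
      rw [hr, one_mul] at h5
      show phi (t ++ Q') = s
      rw [hR, ← List.append_assoc, ← h5, ← hR, hQ, hs]
    · exact hw.2.2

end Crest.Agent.R320.Nest_660
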