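import Crest.Agent.R320.Hk2_851

/-!
# Row 320, piece (9): word-level nesting theorem (helper86)

Texts are words; everything is read from the right-looking suffixes.  `stp w = some k` means:
the anchor at the start of the suffix `w` has its next anchor `k` letters further on, and this
is decided by the first `k + n` letters of `w`.  `Path stp f U w t m`: the chain which starts
at the beginning of `w` reaches the suffix `t`, all units lie in the class `U`, and the product
of the unit values is `m`.

`PJ n stp j U`: for every finite monoid the path languages have approximations of height `j`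
which are SOUND on every text and COMPLETE on texts all of whose units are in `U`.
A junction scheme (left-legal / right-legal words, exact at every junction) which is complete
on the class `G` gives one more star for the class `U or G`.
-/

set_option autoImplicit false

namespace Crest.Agent.R320.Nest_86

open Crest.Agent.R320.Hk_851

universe u

variable {α : Type u}

/-- the value `some k` of the step map at `w` is decided by the first `k + n` letters -/
def StepLoc (n : ℕ) (stp : List α → Option ℕ) : Prop :=
  ∀ w k, stp w = some k → 0 < k ∧ k + n ≤ w.length ∧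
    ∀ w' : List α, w'.take (k + n) = w.take (k + n) → stp w' = some k

/-- unit values are decided by the unit and `n` letters of lookahead -/
def ValLoc {M : Type*} (n : ℕ) (stp : List α → Option ℕ) (f : List α → M) : Prop :=
  ∀ w k, stp w = some k → ∀ w' : List α, w'.take (k + n) = w.take (k + n) → f w' = f w

/-- chains, with the list of the anchor suffixes -/
inductive PL (stp : List α → Option ℕ) (U : List α → Prop) :
    List α → List α → List (List α) → Prop
  | nil (t : List α) : PL stp U t t []
  | cons {w t : List α} {k : ℕ} {ws : List (List α)} (h1 : stp w = some k) (h2 : U w)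
      (h3 : PL stp U (w.drop k) t ws) : PL stp U w t (w :: ws)

/-- chains, with the product of the unit values -/
inductive Path {M : Type*} [Monoid M] (stp : List α → Option ℕ) (f : List α → M)
    (U : List α → Prop) : List α → List α → M → Prop
  | nil (t : List α) : Path stp f U t t 1
  | cons {w t : List α} {k : ℕ} {m : M} (h1 : stp w = some k) (h2 : U w)
      (h3 : Path stp f U (w.drop k) t m) : Path stp f U w t (f w * m)

section basic

variable {M : Type*} [Monoid M] {stp : List α → Option ℕ} {f : List α → M}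
  {U U' : List α → Prop} {n : ℕ}

theorem Path.toPL {w t : List α} {m : M} (h : Path stp f U w t m) :
    ∃ ws, PL stp U w t ws ∧ (ws.map f).prod = m := by
  induction h with
  | nil t => exact ⟨[], PL.nil t, rfl⟩
  | cons h1 h2 _ ih =>
    obtain ⟨ws, h4, h5⟩ := ih
    exact ⟨_, PL.cons h1 h2 h4, by rw [List.map_cons, List.prod_cons, h5]⟩

theorem PL.toPath {w t : List α} {ws : List (List α)} (h : PL stp U w t ws) :
    Path stp f U w t (ws.map f).prod := by
  induction h with
  | nil t => exact Path.nil t
  | cons h1 h2 _ ih => rw [List.map_cons, List.prod_cons]; exact Path.cons h1 h2 ih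

theorem Path.mono (hU : ∀ w, U w → U' w) {w t : List α} {m : M} (h : Path stp f U w t m) :
    Path stp f U' w t m := by
  induction h with
  | nil t => exact Path.nil t
  | cons h1 h2 _ ih => exact Path.cons h1 (hU _ h2) ih

theorem Path.trans {w a t : List α} {m m' : M} (h : Path stp f U w a m)
    (h' : Path stp f U a t m') : Path stp f U w t (m * m') := by
  induction h with
  | nil a => rw [one_mul]; exact h'
  | cons h1 h2 _ ih => rw [mul_assoc]; exact Path.cons h1 h2 (ih h')

theorem Path.suf {w t : List α} {m : M} (h : Path stp f U w t m) : ∃ y, w = y ++ t := by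
  induction h with
  | nil t => exact ⟨[], rfl⟩
  | @cons w t k m h1 h2 h3 ih =>
    obtain ⟨y, hy⟩ := ih
    exact ⟨w.take k ++ y, by rw [List.append_assoc, ← hy, List.take_append_drop]⟩

theorem PL.len {w t : List α} {ws : List (List α)} (h : PL stp U w t ws) :
    t.length ≤ w.length := by
  induction h with
  | nil t => exact le_rfl
  | cons h1 h2 _ ih => rw [List.length_drop] at ih; omega

theorem PL.det (hst : StepLoc n stp) {w t : List α} {ws ws' : List (List α)}
    (h : PL stp U w t ws) (h' : PL stp U' w t ws') : ws = ws' := by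
  induction h generalizing ws' with
  | nil t =>
    cases h' with
    | nil _ => rfl
    | cons g1 g2 g3 =>
      have a1 := (hst _ _ g1).1
      have a2 := (hst _ _ g1).2.1
      have a3 := g3.len
      rw [List.length_drop] at a3
      omega
  | cons h1 h2 h3 ih =>
    cases h' with
    | nil _ =>
      have a1 := (hst _ _ h1).1
      have a2 := (hst _ _ h1).2.1
      have a3 := h3.len
      rw [List.length_drop] at a3
      omega
    | cons g1 g2 g3 =>
      rw [h1] at g1
      obtain rfl := Option.some.inj g1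
      rw [ih g3]

/-- the part of the text behind the end of the chain may be changed, but for `n` letters -/
theorem Path.retail (hst : StepLoc n stp) (hf : ValLoc n stp f)
    (hU : ∀ w k, stp w = some k → ∀ w' : List α, w'.take (k + n) = w.take (k + n) → U w → U w')
    {w t : List α} {m : M} (h : Path stp f U w t m) {y : List α} (hw : w = y ++ t)
    (t' : List α) (ht : t'.take n = t.take n) : Path stp f U (y ++ t') t' m := by
  induction h generalizing y with
  | nil t =>
    have : y = [] := by
      have := congrArg List.length hw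
      rw [List.length_append] at this
      exact List.length_eq_zero_iff.1 (by omega)
    rw [this]; exact Path.nil t'
  | @cons w t k m h1 h2 h3 ih =>
    obtain ⟨z, hz⟩ := h3.suf
    have hk : k ≤ y.length := by
      have a1 := congrArg List.length hz
      have a2 := congrArg List.length hw
      have a3 := (hst _ _ h1).2.1
      rw [List.length_append, List.length_drop] at a1
      rw [List.length_append] at a2
      omega
    have e1 : w.drop k = y.drop k ++ t := by rw [hw, List.drop_append_of_le_length hk]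
    have e2 : (y ++ t').drop k = y.drop k ++ t' := List.drop_append_of_le_length hk
    have e3 : (y ++ t').take (k + n) = w.take (k + n) := by
      rw [hw, List.take_append, List.take_append]
      congr 1
      have h4 : k + n - y.length ≤ n := by omega
      have h5 : ∀ s : List α, s.take (k + n - y.length) = (s.take n).take (k + n - y.length) := by
        intro s; rw [List.take_take, min_eq_left h4]
      rw [h5 t', h5 t, ht]
    have h6 := ih e1 ht
    rw [← hf _ _ h1 _ e3]
    refine Path.cons ((hst _ _ h1).2.2 _ e3) (hU _ _ h1 _ e3 h2) ?_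
    rw [e2]; exact h6

/-- either all units are in `U` or there is a unit in `G` -/
theorem Path.split {G : List α → Prop} (hUG : ∀ w, U' w → U w ∨ G w) {w t : List α} {m : M}
    (h : Path stp f U' w t m) : Path stp f U w t m ∨
      ∃ a k m1 m2, Path stp f U' w a m1 ∧ stp a = some k ∧ G a ∧
        Path stp f U' (a.drop k) t m2 ∧ m = m1 * (f a * m2) := by
  induction h with
  | nil t => exact Or.inl (Path.nil t)
  | @cons w t k m h1 h2 h3 ih =>
    rcases hUG _ h2 with hu | hg
    · rcases ih with ih | ⟨a, k', m1, m2, g1, g2, g3, g4, g5⟩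
      · exact Or.inl (Path.cons h1 hu ih)
      · exact Or.inr ⟨a, k', f w * m1, m2, Path.cons h1 h2 g1, g2, g3, g4, by
          rw [g5, mul_assoc]⟩
    · exact Or.inr ⟨w, k, 1, m, Path.nil w, h1, hg, h3, by rw [one_mul]⟩

end basic

/-- token maps, composed in the order of the text -/
abbrev Tok (Ω : Type*) := (Function.End Ω)ᵐᵒᵖ

/-- **junction scheme**: `LL P v`: a word which ends with `P` may be cut there, `P` begins at
the anchor, the token `v` is cut.  `RL Q l r`: a word which begins with `Q` may start there,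
the next anchor is `l` letters ahead and the token has the value `r` at it. -/
structure Scheme (n : ℕ) (stp : List α → Option ℕ) (G : List α → Prop) {Ω : Type*}
    (τ : List α → Tok Ω) where
  LL : List α → Ω → Prop
  RL : List α → ℕ → Ω → Prop
  B : ℕ
  nB : n ≤ B
  ll_len : ∀ P v, LL P v → n ≤ P.length ∧ P.length ≤ B
  rl_loc : ∀ Q l r, RL Q l r → l ≤ B ∧ l + n ≤ Q.length ∧
    ∀ Q' : List α, Q'.take (l + n) = Q.take (l + n) → RL Q' l r
  exact : ∀ P v Q l r, LL P v → RL Q l r →
    stp (P ++ Q) = some (P.length + l) ∧ (τ (P ++ Q)).unop v = r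
  complete : ∀ w k, stp w = some k → G w → ∀ v, ∃ P Q, w = P ++ Q ∧ LL P v ∧
    P.length ≤ k ∧ RL Q (k - P.length) ((τ w).unop v)

/-- sound approximations of height `j`, complete on the class `U` -/
def PJ (n : ℕ) (stp : List α → Option ℕ) (j : ℕ) (U : List α → Prop) : Prop :=
  ∀ (M : Type u) [Monoid M] [Finite M] (f : List α → M), ValLoc n stp f →
    ∀ t : List α, t.length = n → ∀ m : M, ∃ X : Language α, HL j X ∧
      (∀ w ∈ X, Path stp f (fun _ => True) w t m) ∧ (∀ w, Path stp f U w t m → w ∈ X)

section lang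

variable {Ω : Type u} {stp : List α → Option ℕ} {τ : List α → Tok Ω} {n B : ℕ}
  {U U' G : List α → Prop}

/-- words from a start condition to an end condition -/
def LG (stp : List α → Option ℕ) (τ : List α → Tok Ω) (U : List α → Prop)
    (St : List α → ℕ → Ω → Prop) (En : List α → Ω → Prop) : Language α :=
  {w | ∃ l r P T, St w l r ∧ Path stp τ U (w.drop l) P T ∧ En P (T.unop r)}

def StLoc (n B : ℕ) (St : List α → ℕ → Ω → Prop) : Prop :=
  ∀ w l r, St w l r → l ≤ B ∧ l + n ≤ w.length ∧
    ∀ w' : List α, w'.take (l + n) = w.take (l + n) → St w' l r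

def EnB (n B : ℕ) (En : List α → Ω → Prop) : Prop :=
  ∀ P v, En P v → n ≤ P.length ∧ P.length ≤ B

theorem comp (hst : StepLoc n stp) (hτ : ValLoc n stp τ) (S : Scheme n stp G τ)
    {St : List α → ℕ → Ω → Prop} (hSt : StLoc n B St) {En : List α → Ω → Prop}
    {w1 w2 : List α} (h1 : w1 ∈ LG stp τ (fun _ => True) St S.LL)
    (h2 : w2 ∈ LG stp τ (fun _ => True) S.RL En) :
    w1 ++ w2 ∈ LG stp τ (fun _ => True) St En := by
  obtain ⟨l, r, P, T, a1, a2, a3⟩ := h1
  obtain ⟨l2, r2, P2, T2, b1, b2, b3⟩ := h2
  have hl := (hSt _ _ _ a1).2.1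
  have hn := (S.ll_len _ _ a3).1
  obtain ⟨y, hy⟩ := a2.suf
  obtain ⟨c1, c2⟩ := S.exact _ _ _ _ _ a3 b1
  refine ⟨l, r, P2, T * (τ (P ++ w2) * T2), ?_, ?_, ?_⟩
  · refine (hSt _ _ _ a1).2.2 _ ?_
    rw [List.take_append_of_le_length hl]
  · have e1 : (w1 ++ w2).drop l = y ++ (P ++ w2) := by
      rw [List.drop_append_of_le_length (by omega), hy, List.append_assoc]
    rw [e1]
    refine (a2.retail hst hτ (fun _ _ _ _ _ _ => trivial) hy (P ++ w2)
      (by rw [List.take_append_of_le_length hn])).trans ?_
    refine Path.cons c1 trivial ?_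
    have e2 : (P ++ w2).drop (P.length + l2) = w2.drop l2 := by
      rw [← List.drop_drop, List.drop_left]
    rw [e2]; exact b2
  · have e3 : (T * (τ (P ++ w2) * T2)).unop r = T2.unop r2 := by
      rw [← c2]; rfl
    rw [e3]; exact b3

theorem decomp (hn0 : 0 < n) (hst : StepLoc n stp) (hτ : ValLoc n stp τ)
    (hU' : ∀ w k, stp w = some k → ∀ w' : List α, w'.take (k + n) = w.take (k + n) →
      U' w → U' w')
    (S : Scheme n stp G τ) (hUG : ∀ w, U' w → U w ∨ G w)
    {St : List α → ℕ → Ω → Prop} (hSt : StLoc n B St) {En : List α → Ω → Prop}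
    {w : List α} (h : w ∈ LG stp τ U' St En) :
    w ∈ LG stp τ U St En ∨ ∃ w1 w2, w = w1 ++ w2 ∧ w1 ∈ LG stp τ U' St S.LL ∧
      w2 ∈ LG stp τ U' S.RL En ∧ w1.length < w.length ∧ w2.length < w.length := by
  obtain ⟨l, r, P, T, a1, a2, a3⟩ := h
  rcases a2.split hUG with b | ⟨a, k, m1, m2, b1, b2, b3, b4, b5⟩
  · exact Or.inl ⟨l, r, P, T, a1, b, a3⟩
  · right
    have hl := (hSt _ _ _ a1).2.1
    obtain ⟨y, hy⟩ := b1.suf
    obtain ⟨P1, Q, c1, c2, c3, c4⟩ := S.complete a k b2 b3 (m1.unop r)
    have hP1 := (S.ll_len _ _ c2).1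
    have hQ := (S.rl_loc _ _ _ c4).2.1
    have ew : w = (w.take l ++ (y ++ P1)) ++ Q := by
      conv_lhs => rw [← List.take_append_drop l w, hy, c1]
      simp only [List.append_assoc]
    have el : (w.take l).length = l := by rw [List.length_take]; omega
    have e1 : (w.take l ++ (y ++ P1)).drop l = y ++ P1 := by
      rw [List.drop_append_of_le_length (by omega)]
      rw [List.drop_eq_nil_of_le (by omega), List.nil_append]
    refine ⟨w.take l ++ (y ++ P1), Q, ew, ⟨l, r, P1, m1, ?_, ?_, c2⟩,
      ⟨k - P1.length, (τ a).unop (m1.unop r), P, m2, c4, ?_, ?_⟩, ?_, ?_⟩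
    · refine (hSt _ _ _ a1).2.2 _ ?_
      conv_rhs => rw [ew]
      refine (List.take_append_of_le_length ?_).symm
      rw [List.length_append, el, List.length_append]
      omega
    · rw [e1]
      exact b1.retail hst hτ hU' hy P1 (by rw [c1, List.take_append_of_le_length hP1])
    · have e2 : a.drop k = Q.drop (k - P1.length) := by
        rw [c1, List.drop_append, List.drop_eq_nil_of_le c3, List.nil_append]
      rw [← e2]; exact b4
    · have e3 : T.unop r = m2.unop ((τ a).unop (m1.unop r)) := by rw [b5]; rfl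
      rw [← e3]; exact a3
    · conv_rhs => rw [ew]
      rw [List.length_append (as := w.take l ++ (y ++ P1))]
      omega
    · conv_rhs => rw [ew]
      simp only [List.length_append]
      omega

theorem approx [Finite α] [Finite Ω] (hst : StepLoc n stp) (hτ : ValLoc n stp τ)
    (hU : ∀ w k, stp w = some k → ∀ w' : List α, w'.take (k + n) = w.take (k + n) →
      U w → U w') {j : ℕ} (hP : PJ n stp j U)
    {St : List α → ℕ → Ω → Prop} (hSt : StLoc n B St) {En : List α → Ω → Prop}
    (hEn : EnB n B En) : ∃ X : Language α, HL j X ∧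
      (∀ w ∈ X, w ∈ LG stp τ (fun _ => True) St En) ∧ (∀ w ∈ LG stp τ U St En, w ∈ X) := by
  classical
  haveI : Finite (Tok Ω) := by
    haveI : Finite (Function.End Ω) := inferInstanceAs (Finite (Ω → Ω))
    exact Finite.of_injective MulOpposite.unop MulOpposite.unop_injective
  choose! Y hY1 hY2 hY3 using fun (t : List α) (ht : t.length = n) (T : Tok Ω) =>
    hP (Tok Ω) τ hτ t ht T
  haveI : Finite {z : List α // z.length ≤ B + n} := (List.finite_length_le α (B + n)).to_subtype
  haveI : Finite {P : List α // P.length ≤ B} := (List.finite_length_le α B).to_subtype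
  let ι := Fin (B + 1) × Ω × {z : List α // z.length ≤ B + n} × {P : List α // P.length ≤ B} × Tok Ω
  let guard : ι → Prop := fun i => i.2.2.1.1.length = i.1.1 + n ∧ St i.2.2.1.1 i.1.1 i.2.1 ∧
    n ≤ i.2.2.2.1.1.length ∧ En i.2.2.2.1.1 (i.2.2.2.2.unop i.2.1)
  let Lg : ι → Language α := fun i => {w | guard i ∧ (w ∈ ({i.2.2.1.1} : Language α) * ⊤ ∧
    w ∈ ({i.2.2.1.1.take i.1.1} : Language α) *
      (Y (i.2.2.2.1.1.take n) i.2.2.2.2 * {i.2.2.2.1.1.drop n}))}
  have hLg : ∀ i, HL j (Lg i) := by
    intro i
    by_cases hg : guard i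
    · refine (HL.const (guard i)).setOf_and (((HL.word _).mul HL.top).setOf_and
        ((HL.word _).mul ((hY1 _ ?_ _).mul (HL.word _))))
      rw [List.length_take]
      exact min_eq_left hg.2.2.1
    · exact HL.bot.congr fun w => ⟨fun h => (hg h.1).elim, fun h => h.elim⟩
  refine ⟨{w | ∃ i, w ∈ Lg i}, HL.iUnion hLg, ?_, ?_⟩
  · rintro w ⟨⟨l, r, ⟨z, hz⟩, ⟨P, hPB⟩, T⟩, ⟨g1, g2, g3, g4⟩, h1, h2⟩
    simp only at g1 g2 g3 g4 h1 h2
    obtain ⟨z', hz', v, -, rfl⟩ := Language.mem_mul.1 h1
    obtain rfl : z' = z := hz'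
    obtain ⟨z2, hz2, x, hx, hw⟩ := Language.mem_mul.1 h2
    obtain rfl : z2 = z'.take l := hz2
    obtain ⟨y', hy', d, hd, rfl⟩ := Language.mem_mul.1 hx
    obtain rfl : d = P.drop n := hd
    have lz : (z'.take l).length = l := by rw [List.length_take]; omega
    have ltk : (P.take n).length = n := by rw [List.length_take]; exact min_eq_left g3
    have hp := hY2 _ ltk T _ hy'
    obtain ⟨y, hy⟩ := hp.suf
    refine ⟨l, r, P, T, ?_, ?_, g4⟩
    · refine (hSt _ _ _ g2).2.2 _ ?_
      rw [List.take_append_of_le_length (by omega)]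
    · have e1 : (z' ++ v).drop l = y ++ P := by
        rw [← hw, List.drop_append, lz, Nat.sub_self, List.drop_zero,
          List.drop_eq_nil_of_le (by omega), List.nil_append, hy, List.append_assoc,
          List.take_append_drop]
      rw [e1]
      refine hp.retail hst hτ (fun _ _ _ _ _ _ => trivial) hy P ?_
      rw [List.take_take, min_self]
  · rintro w ⟨l, r, P, T, a1, a2, a3⟩
    obtain ⟨b1, b2, b3⟩ := hSt _ _ _ a1
    obtain ⟨c1, c2⟩ := hEn _ _ a3
    obtain ⟨y, hy⟩ := a2.suf
    have lz : (w.take (l + n)).length = l + n := by rw [List.length_take]; omega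
    refine ⟨⟨⟨l, by omega⟩, r, ⟨w.take (l + n), by omega⟩, ⟨P, c2⟩, T⟩, ⟨lz, ?_, c1, a3⟩, ?_, ?_⟩
    · refine b3 _ ?_
      simp only
      rw [List.take_take, min_self]
    · exact Language.mem_mul.2 ⟨w.take (l + n), rfl, w.drop (l + n), trivial,
        List.take_append_drop _ _⟩
    · refine Language.mem_mul.2 ⟨(w.take (l + n)).take l, rfl, y ++ P, ?_, ?_⟩
      · refine Language.mem_mul.2 ⟨y ++ P.take n, ?_, P.drop n, rfl, ?_⟩
        · refine hY3 _ ?_ T _ ?_
          · rw [List.length_take]; exact min_eq_left c1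
          · refine a2.retail hst hτ hU hy (P.take n) ?_
            rw [List.take_take, min_self]
        · rw [List.append_assoc, List.take_append_drop]
      · rw [List.take_take, min_eq_left (by omega), ← hy, List.take_append_drop]

end lang

/-- words with `X`-pieces appended stay sound -/
theorem sound_star {Ω : Type u} {stp : List α → Option ℕ} {τ : List α → Tok Ω} {n B : ℕ}
    {G : List α → Prop} (hst : StepLoc n stp) (hτ : ValLoc n stp τ) (S : Scheme n stp G τ)
    {St : List α → ℕ → Ω → Prop} (hSt : StLoc n B St) (Z : List (List α))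
    (hZ : ∀ z ∈ Z, z ∈ LG stp τ (fun _ => True) S.RL S.LL) (w : List α)
    (hw : w ∈ LG stp τ (fun _ => True) St S.LL) :
    w ++ Z.flatten ∈ LG stp τ (fun _ => True) St S.LL := by
  induction Z generalizing w with
  | nil => rw [List.flatten_nil, List.append_nil]; exact hw
  | cons z Z ih =>
    rw [List.flatten_cons, ← List.append_assoc]
    exact ih (fun z' hz' => hZ z' (List.mem_cons_of_mem _ hz')) _
      (comp hst hτ S hSt hw (hZ z List.mem_cons_self))

theorem star_append {X : Language α} {u v : List α} (hu : u ∈ KStar.kstar X)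
    (hv : v ∈ KStar.kstar X) : u ++ v ∈ KStar.kstar X := by
  obtain ⟨S, rfl, hS⟩ := Language.mem_kstar.1 hu
  obtain ⟨T, rfl, hT⟩ := Language.mem_kstar.1 hv
  refine Language.mem_kstar.2 ⟨S ++ T, by rw [List.flatten_append], fun y hy => ?_⟩
  rcases List.mem_append.1 hy with h | h
  · exact hS y h
  · exact hT y h

theorem star_one {X : Language α} {u : List α} (hu : u ∈ X) : u ∈ KStar.kstar X :=
  Language.mem_kstar.2 ⟨[u], by simp, fun y hy => by rwa [List.mem_singleton.1 hy]⟩

/-- a family of schemes for all finite monoids -/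
def HasScheme (n : ℕ) (stp : List α → Option ℕ) (G : List α → Prop) : Prop :=
  ∀ (M : Type u) [Monoid M] [Finite M] (f : List α → M), ValLoc n stp f →
    ∃ (Ω : Type u) (_ : Finite Ω) (_ : Nonempty Ω) (τ : List α → Tok Ω) (dec : Tok Ω → M)
      (_ : Scheme n stp G τ), ValLoc n stp τ ∧
        ∀ ws : List (List α), dec ((ws.map τ).prod) = (ws.map f).prod

/-- **NESTING THEOREM**: a junction scheme which is complete on the class `G` adds one star. -/
theorem nest [Finite α] {n : ℕ} (hn0 : 0 < n) {stp : List α → Option ℕ} (hst : StepLoc n stp)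
    {j : ℕ} {U U' G : List α → Prop}
    (hU : ∀ w k, stp w = some k → ∀ w' : List α, w'.take (k + n) = w.take (k + n) → U w → U w')
    (hU' : ∀ w k, stp w = some k → ∀ w' : List α, w'.take (k + n) = w.take (k + n) →
      U' w → U' w')
    (hUG : ∀ w, U' w → U w ∨ G w) (hP : PJ n stp j U) (hS : HasScheme n stp G) :
    PJ n stp (j + 1) U' := by
  intro M _ _ f hf t ht m
  obtain ⟨Ω, hΩ, hΩ', τ, dec, S, hτ, hdec⟩ := hS M f hf
  haveI := hΩ
  haveI := hΩ'
  haveI : Finite (Tok Ω) := by
    haveI : Finite (Function.End Ω) := inferInstanceAs (Finite (Ω → Ω))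
    exact Finite.of_injective MulOpposite.unop MulOpposite.unop_injective
  -- start and end conditions
  let StA : Ω → List α → ℕ → Ω → Prop := fun v w l r => l = 0 ∧ r = v ∧ n ≤ w.length
  let EnT : Ω → List α → Ω → Prop := fun v' P x => P = t ∧ x = v'
  have hA : ∀ v, StLoc n S.B (StA v) := by
    rintro v w l r ⟨rfl, rfl, h⟩
    refine ⟨Nat.zero_le _, by omega, fun w' hw' => ⟨rfl, rfl, ?_⟩⟩
    have := congrArg List.length hw'
    rw [List.length_take, List.length_take] at this
    omega
  have hT : ∀ v, EnB n S.B (EnT v) := by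
    rintro v P x ⟨rfl, rfl⟩
    exact ⟨ht.ge, ht.le.trans S.nB⟩
  have hR : StLoc n S.B S.RL := S.rl_loc
  have hL : EnB n S.B S.LL := S.ll_len
  choose X00 a1 a2 a3 using fun v v' => approx hst hτ hU hP (hA v) (hT v')
  choose X01 b1 b2 b3 using fun v => approx hst hτ hU hP (hA v) hL
  choose X10 c1 c2 c3 using fun v' => approx hst hτ hU hP hR (hT v')
  obtain ⟨X11, d1, d2, d3⟩ := approx hst hτ hU hP hR hL
  let Th : Ω → Ω → Language α := fun v v' =>
    {w | w ∈ X00 v v' ∨ w ∈ X01 v * KStar.kstar X11 * X10 v'}
  have hTh : ∀ v v', HL (j + 1) (Th v v') := fun v v' =>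
    ((a1 v v').mono (Nat.le_succ j)).setOf_or
      ((((b1 v).mono (Nat.le_succ j)).mul d1.star).mul ((c1 v').mono (Nat.le_succ j)))
  -- soundness of the threads
  have snd : ∀ v v' w, w ∈ Th v v' → w ∈ LG stp τ (fun _ => True) (StA v) (EnT v') := by
    rintro v v' w (h | h)
    · exact a2 v v' w h
    · obtain ⟨x, hx, q, hq, rfl⟩ := Language.mem_mul.1 h
      obtain ⟨e, he, y, hy, rfl⟩ := Language.mem_mul.1 hx
      obtain ⟨Z, rfl, hZ⟩ := Language.mem_kstar.1 hy
      exact comp hst hτ S (hA v)
        (sound_star hst hτ S (hA v) Z (fun z hz => d2 z (hZ z hz)) e (b2 v e he)) (c2 v' q hq)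
  -- completeness of the threads
  have cA : ∀ N (w : List α), w.length ≤ N → w ∈ LG stp τ U' S.RL S.LL →
      w ∈ KStar.kstar X11 := by
    intro N
    induction N with
    | zero =>
      intro w hw h
      rcases decomp hn0 hst hτ hU' S hUG hR h with g | ⟨w1, w2, _, _, _, g1, _⟩
      · exact star_one (d3 w g)
      · omega
    | succ N ih =>
      intro w hw h
      rcases decomp hn0 hst hτ hU' S hUG hR h with g | ⟨w1, w2, rfl, g1, g2, g3, g4⟩
      · exact star_one (d3 w g)
      · exact star_append (ih w1 (by omega) g1) (ih w2 (by omega) g2)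
  have cB : ∀ v' N (w : List α), w.length ≤ N → w ∈ LG stp τ U' S.RL (EnT v') →
      w ∈ KStar.kstar X11 * X10 v' := by
    intro v' N
    induction N with
    | zero =>
      intro w hw h
      rcases decomp hn0 hst hτ hU' S hUG hR h with g | ⟨w1, w2, _, _, _, g1, _⟩
      · exact Language.mem_mul.2 ⟨[], Language.nil_mem_kstar _, w, c3 v' w g, rfl⟩
      · omega
    | succ N ih =>
      intro w hw h
      rcases decomp hn0 hst hτ hU' S hUG hR h with g | ⟨w1, w2, rfl, g1, g2, g3, g4⟩
      · exact Language.mem_mul.2 ⟨[], Language.nil_mem_kstar _, w, c3 v' w g, rfl⟩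
      · obtain ⟨x, hx, q, hq, rfl⟩ := Language.mem_mul.1 (ih w2 (by omega) g2)
        refine Language.mem_mul.2 ⟨w1 ++ x, star_append (cA _ w1 le_rfl g1) hx, q, hq, ?_⟩
        rw [List.append_assoc]
  have cD : ∀ v N (w : List α), w.length ≤ N → w ∈ LG stp τ U' (StA v) S.LL →
      w ∈ X01 v * KStar.kstar X11 := by
    intro v N
    induction N with
    | zero =>
      intro w hw h
      rcases decomp hn0 hst hτ hU' S hUG (hA v) h with g | ⟨w1, w2, _, _, _, g1, _⟩
      · exact Language.mem_mul.2 ⟨w, b3 v w g, [], Language.nil_mem_kstar _, by simp⟩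
      · omega
    | succ N ih =>
      intro w hw h
      rcases decomp hn0 hst hτ hU' S hUG (hA v) h with g | ⟨w1, w2, rfl, g1, g2, g3, g4⟩
      · exact Language.mem_mul.2 ⟨w, b3 v w g, [], Language.nil_mem_kstar _, by simp⟩
      · obtain ⟨x, hx, q, hq, rfl⟩ := Language.mem_mul.1 (ih w1 (by omega) g1)
        refine Language.mem_mul.2 ⟨x, hx, q ++ w2, star_append hq (cA _ w2 le_rfl g2), ?_⟩
        rw [List.append_assoc]
  have cmp : ∀ v v' w, w ∈ LG stp τ U' (StA v) (EnT v') → w ∈ Th v v' := by
    intro v v' w h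
    rcases decomp hn0 hst hτ hU' S hUG (hA v) h with g | ⟨w1, w2, rfl, g1, g2, g3, g4⟩
    · exact Or.inl (a3 v v' w g)
    · right
      obtain ⟨x, hx, q, hq, rfl⟩ := Language.mem_mul.1 (cD v _ w1 le_rfl g1)
      obtain ⟨x2, hx2, q2, hq2, rfl⟩ := Language.mem_mul.1 (cB v' _ w2 le_rfl g2)
      refine Language.mem_mul.2 ⟨x ++ (q ++ x2), Language.mem_mul.2 ⟨x, hx, q ++ x2,
        star_append hq hx2, rfl⟩, q2, hq2, ?_⟩
      simp only [List.append_assoc]
  refine ⟨{w | ∃ T : Tok Ω, dec T = m ∧ ∀ v, w ∈ Th v (T.unop v)}, ?_, ?_, ?_⟩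
  · exact HL.iUnion (L := fun T : Tok Ω => {w | dec T = m ∧ ∀ v, w ∈ Th v (T.unop v)}) fun T =>
      (HL.const (dec T = m)).setOf_and (HL.iInter fun v => hTh v _)
  · rintro w ⟨T, hTm, hw⟩
    have key : ∀ v, ∃ ws, PL stp (fun _ => True) w t ws ∧
        (ws.map τ).prod.unop v = T.unop v := by
      intro v
      obtain ⟨l, r, P, T', ⟨rfl, rfl, _⟩, g2, ⟨rfl, g3⟩⟩ := snd _ _ _ (hw v)
      obtain ⟨ws, g4, g5⟩ := g2.toPL
      rw [List.drop_zero] at g4
      exact ⟨ws, g4, by rw [g5]; exact g3⟩
    obtain ⟨v0⟩ := hΩ'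
    obtain ⟨ws, g1, _⟩ := key v0
    have e : (ws.map τ).prod = T := by
      apply MulOpposite.unop_injective
      funext v
      obtain ⟨ws', g2, g3⟩ := key v
      rw [g1.det hst g2]; exact g3
    have := g1.toPath (f := f)
    rw [← hdec, e, hTm] at this
    exact this
  · intro w hw
    obtain ⟨y, hy⟩ := hw.suf
    obtain ⟨ws, g1, g2⟩ := hw.toPL
    refine ⟨(ws.map τ).prod, by rw [hdec, g2], fun v => cmp _ _ _ ?_⟩
    refine ⟨0, v, t, (ws.map τ).prod, ⟨rfl, rfl, ?_⟩, ?_, rfl, rfl⟩
    · rw [hy, List.length_append, ht]; omega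
    · rw [List.drop_zero]; exact g1.toPath

/-- no unit at all: height `0` -/
theorem pj_zero (n : ℕ) (stp : List α → Option ℕ) : PJ n stp 0 (fun _ => False) := by
  intro M _ _ f _ t _ m
  by_cases hm : m = 1
  · refine ⟨{t}, HL.word t, ?_, ?_⟩
    · intro w hw
      rw [Set.mem_singleton_iff.1 hw, hm]; exact Path.nil t
    · intro w hw
      cases hw with
      | nil _ => rfl
      | cons _ h _ => exact h.elim
  · refine ⟨⊥, HL.bot, fun w hw => hw.elim, ?_⟩
    intro w hw
    cases hw with
    | nil _ => exact (hm rfl).elim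
    | cons _ h _ => exact h.elim

theorem PJ.mono {n : ℕ} {stp : List α → Option ℕ} {j : ℕ} {U U' : List α → Prop}
    (h : PJ n stp j U) (hU : ∀ w, U' w → U w) : PJ n stp j U' := by
  intro M _ _ f hf t ht m
  obtain ⟨X, h1, h2, h3⟩ := h M f hf t ht m
  exact ⟨X, h1, h2, fun w hw => h3 w (hw.mono hU)⟩

section transfer

variable {stp stp' : List α → Option ℕ} {U : List α → Prop}

theorem PL.swap (hag : ∀ w, U w → stp w = stp' w) {w t : List α} {ws : List (List α)}
    (h : PL stp (fun _ => True) w t ws) (hU : ∀ a ∈ ws, U a) : PL stp' U w t ws := by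
  induction h with
  | nil t => exact PL.nil t
  | @cons w t k ws h1 h2 h3 ih =>
    have hw : U w := hU _ List.mem_cons_self
    exact PL.cons (by rw [← hag _ hw]; exact h1) hw
      (ih fun a ha => hU a (List.mem_cons_of_mem _ ha))

theorem PL.swap2 (hag : ∀ w, U w → stp w = stp' w) {w t : List α} {ws : List (List α)}
    (h : PL stp' U w t ws) : PL stp U w t ws := by
  induction h with
  | nil t => exact PL.nil t
  | cons h1 h2 _ ih => exact PL.cons (by rw [hag _ h2]; exact h1) h2 ih

theorem PL.cls {w t : List α} {ws : List (List α)} (h : PL stp U w t ws) :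
    ∀ a ∈ ws, U a := by
  induction h with
  | nil t => intro a ha; simp at ha
  | cons h1 h2 _ ih =>
    intro a ha
    rcases List.mem_cons.1 ha with rfl | ha
    · exact h2
    · exact ih a ha

theorem PL.top {w t : List α} {ws : List (List α)} (h : PL stp U w t ws) :
    PL stp (fun _ => True) w t ws := by
  induction h with
  | nil t => exact PL.nil t
  | cons h1 _ _ ih => exact PL.cons h1 trivial ih

/-- **transfer**: two step maps which agree on the class `U`; the flag `all units in U` goes
into the monoid, so no promise is needed for soundness. -/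
theorem transfer {n j : ℕ}
    (hU : ∀ w k, stp w = some k → ∀ w' : List α, w'.take (k + n) = w.take (k + n) →
      (U w' ↔ U w))
    (hag : ∀ w, U w → stp w = stp' w) (h : PJ n stp j U) : PJ n stp' j U := by
  classical
  intro M _ _ f hf t ht m
  let g : List α → M := fun w => if U w then f w else 1
  let fl : List α → ULift.{u} (ZMod 2) := fun w => if U w then 1 else 0
  let f2 : List α → M × ULift.{u} (ZMod 2) := fun w => (g w, fl w)
  have h2 : ValLoc n stp f2 := by
    intro w k hk w' hw'
    have e := hU w k hk w' hw'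
    by_cases hw : U w
    · have hw2 : U w' := e.2 hw
      have hk' : stp' w = some k := by rw [← hag w hw]; exact hk
      change (g w', fl w') = (g w, fl w)
      simp only [g, fl, if_pos hw, if_pos hw2, hf w k hk' w' hw']
    · have hw2 : ¬ U w' := fun h => hw (e.1 h)
      change (g w', fl w') = (g w, fl w)
      simp only [g, fl, if_neg hw, if_neg hw2]
  have one : ∀ a b : ULift.{u} (ZMod 2), a * b = 1 → a = 1 ∧ b = 1 := by
    rintro ⟨a⟩ ⟨b⟩ hab
    have : a * b = 1 := congrArg ULift.down hab
    have key : ∀ a b : ZMod 2, a * b = 1 → a = 1 ∧ b = 1 := by decide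
    obtain ⟨h1, h2⟩ := key a b this
    exact ⟨by rw [h1]; rfl, by rw [h2]; rfl⟩
  have all1 : ∀ ws : List (List α), (ws.map fl).prod = 1 → ∀ a ∈ ws, U a := by
    intro ws
    induction ws with
    | nil => intro _ a ha; simp at ha
    | cons b ws ih =>
      intro hp a ha
      rw [List.map_cons, List.prod_cons] at hp
      obtain ⟨p1, p2⟩ := one _ _ hp
      rcases List.mem_cons.1 ha with rfl | ha
      · by_contra hn
        have : fl a = 0 := if_neg hn
        rw [this] at p1
        have : (0 : ZMod 2) = 1 := congrArg ULift.down p1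
        exact absurd this (by decide)
      · exact ih p2 a ha
  have fst : ∀ ws : List (List α), ((ws.map f2).prod).1 = (ws.map g).prod := by
    intro ws
    induction ws with
    | nil => rfl
    | cons a ws ih => rw [List.map_cons, List.prod_cons, List.map_cons, List.prod_cons, ← ih]; rfl
  have snd : ∀ ws : List (List α), ((ws.map f2).prod).2 = (ws.map fl).prod := by
    intro ws
    induction ws with
    | nil => rfl
    | cons a ws ih => rw [List.map_cons, List.prod_cons, List.map_cons, List.prod_cons, ← ih]; rfl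
  have gf : ∀ ws : List (List α), (∀ a ∈ ws, U a) → ws.map g = ws.map f := fun ws hws =>
    List.map_congr_left fun a ha => if_pos (hws a ha)
  have f1 : ∀ ws : List (List α), (∀ a ∈ ws, U a) → (ws.map fl).prod = 1 := by
    intro ws
    induction ws with
    | nil => intro _; rfl
    | cons a ws ih =>
      intro hws
      have : fl a = 1 := if_pos (hws a List.mem_cons_self)
      rw [List.map_cons, List.prod_cons, this, one_mul]
      exact ih fun b hb => hws b (List.mem_cons_of_mem _ hb)
  obtain ⟨X, x1, x2, x3⟩ := h (M × ULift.{u} (ZMod 2)) f2 h2 t ht (m, 1)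
  refine ⟨X, x1, ?_, ?_⟩
  · intro w hw
    obtain ⟨ws, p1, p2⟩ := (x2 w hw).toPL
    have q1 : (ws.map fl).prod = 1 := by rw [← snd, p2]
    have q2 := all1 ws q1
    have q3 : (ws.map f).prod = m := by rw [← gf ws q2, ← fst, p2]
    have q4 := (p1.swap hag q2).toPath (f := f)
    rw [q3] at q4
    exact q4.mono fun _ _ => trivial
  · intro w hw
    obtain ⟨ws, p1, p2⟩ := hw.toPL
    have q2 := p1.cls
    have q1 : PL stp U w t ws := p1.swap2 hag
    refine x3 w ?_
    have q3 := q1.toPath (f := f2)
    have e : (ws.map f2).prod = (m, 1) := by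
      refine Prod.ext ?_ ?_
      · rw [fst, gf ws q2, p2]
      · rw [snd, f1 ws q2]
    rwa [e] at q3

end transfer

/-- **three nested schemes**: classes `G1, G2, G3` cover all units. -/
theorem three [Finite α] {n : ℕ} (hn0 : 0 < n) {stp : List α → Option ℕ} (hst : StepLoc n stp)
    {G1 G2 G3 : List α → Prop}
    (h1 : PJ n stp 1 G1)
    (l1 : ∀ w k, stp w = some k → ∀ w' : List α, w'.take (k + n) = w.take (k + n) → G1 w → G1 w')
    (l2 : ∀ w k, stp w = some k → ∀ w' : List α, w'.take (k + n) = w.take (k + n) → G2 w → G2 w')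
    (hG : ∀ w, G1 w ∨ G2 w ∨ G3 w)
    (s2 : HasScheme n stp G2) (s3 : HasScheme n stp G3) :
    PJ n stp 3 (fun _ => True) := by
  have p2 : PJ n stp 2 (fun w => G1 w ∨ G2 w) :=
    nest hn0 hst l1 (fun w k hk w' hw' h => h.imp (l1 w k hk w' hw') (l2 w k hk w' hw'))
      (fun _ h => h) h1 s2
  have hc : ∀ w : List α, True → (G1 w ∨ G2 w) ∨ G3 w := fun w _ => or_assoc.2 (hG w)
  exact nest hn0 hst (fun w k hk w' hw' h => h.imp (l1 w k hk w' hw') (l2 w k hk w' hw'))
    (fun _ _ _ _ _ _ => trivial) hc p2 s3

end Crest.Agent.R320.Nest_86
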