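import Crest.Agent.R320.Hk1_851

/-!
# Row 320: the one-star lemma (helper826)

A deterministic automaton `step : Ω → β → Ω` with a CUT SYSTEM: left legality of a state,
right reading of the next `D` letters giving the state after these letters.  If all languages
of uncut runs have height `≤ k` then all run languages have height `≤ k + 1`.
-/

set_option autoImplicit false

namespace Crest.Agent.R320.OneStar_826

open Crest.RegLang Crest.Agent.R320.Hk_851

universe u

/-- a cut system for the automaton `step` -/
structure Cut {α : Type u} {Ω : Type*} (step : Ω → α → Ω) where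
  /-- look ahead of the right side -/
  D : ℕ
  posD : 0 < D
  /-- the left side is legal in this state -/
  left : Ω → Prop
  /-- the right side reads the next `D` letters and (if legal) names the state after them -/
  right : List α → Option Ω
  sound : ∀ s q s', left s → q.length = D → right q = some s' → q.foldl step s = s'

variable {α : Type u} {Ω : Type*} {step : Ω → α → Ω} {k : ℕ}

/-- the split `p | q` is legal for the run started in `s` -/
def Cut.Legal (C : Cut step) (s : Ω) (p q : List α) : Prop :=
  C.left (p.foldl step s) ∧ C.D ≤ q.length ∧ ∃ s', C.right (q.take C.D) = some s'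

/-- words whose run from `s` ends in `s'` and which have no legal split -/
def Cut.Un (C : Cut step) (s s' : Ω) : Language α :=
  {w | w.foldl step s = s' ∧ ∀ p q, p ++ q = w → ¬ C.Legal s p q}

/-- all words whose run from `s` ends in `s'` -/
def Full (step : Ω → α → Ω) (s s' : Ω) : Language α := {w | w.foldl step s = s'}

/-- pieces between two cuts -/
def Cut.K (C : Cut step) : Language α :=
  {y | ∃ v s1 c, v.length = C.D ∧ C.right v = some s1 ∧ C.left c ∧
    ∃ r ∈ C.Un s1 c, y = v ++ r}

/-- last pieces -/
def Cut.Last (C : Cut step) (s' : Ω) : Language α :=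
  {y | ∃ v s1, v.length = C.D ∧ C.right v = some s1 ∧ ∃ r ∈ C.Un s1 s', y = v ++ r}

theorem Cut.K_sound (C : Cut step) {y : List α} (hy : y ∈ C.K) {s : Ω} (hs : C.left s) :
    C.left (y.foldl step s) := by
  obtain ⟨v, s1, c, hv, hr, hc, r, hru, rfl⟩ := hy
  rw [List.foldl_append, C.sound s v s1 hs hv hr, hru.1]
  exact hc

theorem Cut.K_star_sound (C : Cut step) {y : List α} (hy : y ∈ KStar.kstar C.K) {s : Ω}
    (hs : C.left s) : C.left (y.foldl step s) := by
  obtain ⟨L, rfl, hL⟩ := Language.mem_kstar.1 hy
  clear hy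
  induction L generalizing s with
  | nil => exact hs
  | cons a L ih =>
    rw [List.flatten_cons, List.foldl_append]
    exact ih (C.K_sound (hL a List.mem_cons_self) hs) (fun y hy => hL y (List.mem_cons_of_mem _ hy))

theorem Cut.Last_sound (C : Cut step) {y : List α} {s' : Ω} (hy : y ∈ C.Last s') {s : Ω}
    (hs : C.left s) : y.foldl step s = s' := by
  obtain ⟨v, s1, hv, hr, r, hru, rfl⟩ := hy
  rw [List.foldl_append, C.sound s v s1 hs hv hr, hru.1]

/-- decomposition of every run -/
theorem Cut.decomp (C : Cut step) (s' : Ω) : ∀ (N : ℕ) (s : Ω) (w : List α), w.length ≤ N →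
    w.foldl step s = s' →
    w ∈ C.Un s s' ∨ ∃ c, C.left c ∧ ∃ p ∈ C.Un s c, ∃ m ∈ KStar.kstar C.K,
      ∃ l ∈ C.Last s', w = p ++ (m ++ l) := by
  classical
  intro N
  induction N with
  | zero =>
    intro s w hw hws
    left
    refine ⟨hws, fun p q hpq hL => ?_⟩
    have h1 := hL.2.1
    have h2 : p.length + q.length = w.length := by rw [← hpq, List.length_append]
    have := C.posD
    omega
  | succ N ih =>
    intro s w hw hws
    by_cases hleg : ∃ i, ∃ p q, p ++ q = w ∧ C.Legal s p q ∧ p.length = i
    · right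
      obtain ⟨p, q, hpq, hL, hi⟩ := Nat.find_spec hleg
      have hmin : ∀ p' q', p' ++ q' = w → C.Legal s p' q' → p.length ≤ p'.length := by
        intro p' q' h1 h2
        rw [hi]
        exact Nat.find_min' hleg ⟨p', q', h1, h2, rfl⟩
      have hpU : p ∈ C.Un s (p.foldl step s) := by
        refine ⟨rfl, fun p1 p2 h12 hL1 => ?_⟩
        obtain ⟨hl, hD, s'', hs''⟩ := hL1
        have h3 : C.Legal s p1 (p2 ++ q) := by
          refine ⟨hl, by rw [List.length_append]; omega, s'', ?_⟩
          rw [List.take_append_of_le_length hD]; exact hs''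
        have h4 := hmin p1 (p2 ++ q) (by rw [← List.append_assoc, h12, hpq]) h3
        have h5 : p1.length + p2.length = p.length := by rw [← h12, List.length_append]
        have := C.posD
        omega
      obtain ⟨hl, hD, s1, hs1⟩ := hL
      have hlen : p.length + q.length = w.length := by rw [← hpq, List.length_append]
      have hrun : (q.drop C.D).foldl step s1 = s' := by
        have h6 := C.sound _ (q.take C.D) s1 hl (by rw [List.length_take]; omega) hs1
        rw [← h6, ← List.foldl_append, List.take_append_drop, ← List.foldl_append, hpq, hws]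
      have hlt : (q.drop C.D).length ≤ N := by
        rw [List.length_drop]
        have := C.posD
        omega
      refine ⟨p.foldl step s, hl, p, hpU, ?_⟩
      rcases ih s1 (q.drop C.D) hlt hrun with h7 | ⟨c, hc, p2, hp2, m, hm, l, hl2, h7⟩
      · refine ⟨[], Language.nil_mem_kstar _, q, ⟨q.take C.D, s1, ?_, hs1, _, h7, ?_⟩, ?_⟩
        · rw [List.length_take]; omega
        · rw [List.take_append_drop]
        · rw [List.nil_append, hpq]
      · refine ⟨(q.take C.D ++ p2) ++ m, ?_, l, hl2, ?_⟩
        · obtain ⟨L, hL1, hL2⟩ := Language.mem_kstar.1 hm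
          refine Language.mem_kstar.2 ⟨(q.take C.D ++ p2) :: L, by rw [List.flatten_cons, hL1], ?_⟩
          intro y hy
          rcases List.mem_cons.1 hy with rfl | hy
          · exact ⟨q.take C.D, s1, c, by rw [List.length_take]; omega, hs1, hc, p2, hp2, rfl⟩
          · exact hL2 y hy
        · rw [← hpq]
          conv_lhs => rw [← List.take_append_drop C.D q, h7]
          simp only [List.append_assoc]
    · left
      refine ⟨hws, fun p q hpq hL => hleg ⟨_, p, q, hpq, hL, rfl⟩⟩

/-- **ONE-STAR LEMMA** -/
theorem Cut.oneStar [Finite α] [Finite Ω] (C : Cut step) (hU : ∀ s s', HL k (C.Un s s'))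
    (s s' : Ω) : HL (k + 1) (Full step s s') := by
  have hK : HL k C.K := by
    have h := HL.biUnion (k := k)
      (s := {x : List α × (Ω × Ω) | x.1.length = C.D ∧ C.right x.1 = some x.2.1 ∧ C.left x.2.2})
      (((List.finite_length_eq α C.D).prod (Set.finite_univ (α := Ω × Ω))).subset
        (fun x hx => ⟨hx.1, trivial⟩))
      (L := fun x => ({x.1} : Language α) * C.Un x.2.1 x.2.2)
      (fun x _ => (HL.word x.1).mul (hU _ _))
    refine h.congr fun w => ?_
    constructor
    · rintro ⟨v, s1, c, hv, hr, hc, r, hru, rfl⟩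
      exact ⟨(v, (s1, c)), ⟨hv, hr, hc⟩, Language.mem_mul.2 ⟨v, rfl, r, hru, rfl⟩⟩
    · rintro ⟨⟨v, s1, c⟩, ⟨hv, hr, hc⟩, hw⟩
      obtain ⟨v', hv', r, hru, rfl⟩ := Language.mem_mul.1 hw
      obtain rfl : v' = v := hv'
      exact ⟨v', s1, c, hv, hr, hc, r, hru, rfl⟩
  have hLast : HL k (C.Last s') := by
    have h := HL.biUnion (k := k)
      (s := {x : List α × Ω | x.1.length = C.D ∧ C.right x.1 = some x.2})
      (((List.finite_length_eq α C.D).prod (Set.finite_univ (α := Ω))).subset
        (fun x hx => ⟨hx.1, trivial⟩))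
      (L := fun x => ({x.1} : Language α) * C.Un x.2 s')
      (fun x _ => (HL.word x.1).mul (hU _ _))
    refine h.congr fun w => ?_
    constructor
    · rintro ⟨v, s1, hv, hr, r, hru, rfl⟩
      exact ⟨(v, s1), ⟨hv, hr⟩, Language.mem_mul.2 ⟨v, rfl, r, hru, rfl⟩⟩
    · rintro ⟨⟨v, s1⟩, ⟨hv, hr⟩, hw⟩
      obtain ⟨v', hv', r, hru, rfl⟩ := Language.mem_mul.1 hw
      obtain rfl : v' = v := hv'
      exact ⟨v', s1, hv, hr, r, hru, rfl⟩
  have hmid : HL (k + 1) {w : List α | ∃ c ∈ {c | C.left c}, w ∈ C.Un s c *
      (KStar.kstar C.K * C.Last s')} :=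
    HL.biUnion (Set.toFinite _) fun c _ =>
      ((hU s c).mono (Nat.le_succ k)).mul (hK.star.mul (hLast.mono (Nat.le_succ k)))
  have h := ((hU s s').mono (Nat.le_succ k)).sup hmid
  refine h.congr fun w => ?_
  constructor
  · intro hw
    rcases C.decomp s' w.length s w le_rfl hw with h1 | ⟨c, hc, p, hp, m, hm, l, hl, rfl⟩
    · exact Or.inl h1
    · right
      exact ⟨c, hc, Language.mem_mul.2 ⟨p, hp, m ++ l, Language.mem_mul.2 ⟨m, hm, l, hl, rfl⟩, rfl⟩⟩
  · rintro (h1 | ⟨c, hc, hw⟩)
    · exact h1.1
    · obtain ⟨p, hp, x, hx, rfl⟩ := Language.mem_mul.1 hw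
      obtain ⟨m, hm, l, hl, rfl⟩ := Language.mem_mul.1 hx
      change (p ++ (m ++ l)).foldl step s = s'
      rw [List.foldl_append, List.foldl_append, hp.1]
      exact C.Last_sound hl (C.K_star_sound hm hc)

end Crest.Agent.R320.OneStar_826
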