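import Crest.Agent.R320.Scheme_457

/-!
# Row 320, one token system, two cut levels, all words (helper457)

`OT` : chain `nx`, zone map `ze`, scheme 1 (`lf1`, `rt1`) exact at every junction, scheme 2
(`lf2`, `rt2`) exact when scheme 1 does not cut the token in this zone; every token is cut by
scheme 1 or by scheme 2 in every completed zone.
`two` : the run languages are two stars above the one-zone languages.
-/

set_option autoImplicit false

namespace Crest.Agent.R320.OneTok_457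

open Crest.Agent.R320.Hk_851
open Crest.Agent.R320.Scheme_457.Sch (drop_app drop_app' take_pre)

universe u v

/-- some place of the zone cuts the token `v` -/
def CutOf {α : Type u} {V : Type v} (lf : List α → V → Prop) (rt : List α → V → ℕ → Prop)
    (F : List α) (v : V) : Prop := ∃ P Y r b, P ++ Y = F ∧ lf P v ∧ rt Y r b

structure OT (α : Type u) (V : Type v) where
  n : ℕ
  nx : List α → Option ℕ
  ze : List α → V → V
  lf1 : List α → V → Prop
  rt1 : List α → V → ℕ → Prop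
  lf2 : List α → V → Prop
  rt2 : List α → V → ℕ → Prop
  nx_pos : ∀ {F m}, nx F = some m → 0 < m
  nx_len : ∀ {F m}, nx F = some m → m + n ≤ F.length
  nx_take : ∀ {F m}, nx F = some m → nx (F.take (m + n)) = some m
  nx_app : ∀ {F m} (G), nx F = some m → nx (F ++ G) = some m
  ze_take : ∀ {F m} (v), nx F = some m → ze (F.take (m + n)) v = ze F v
  ze_app : ∀ {F m} (G v), nx F = some m → ze (F ++ G) v = ze F v
  rt1_pos : ∀ {Y r b}, rt1 Y r b → 0 < b
  rt1_len : ∀ {Y r b}, rt1 Y r b → b + n ≤ Y.length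
  rt1_take : ∀ {Y r b}, rt1 Y r b → rt1 (Y.take (b + n)) r b
  rt1_app : ∀ {Y r b} (G), rt1 Y r b → rt1 (Y ++ G) r b
  rt2_pos : ∀ {Y r b}, rt2 Y r b → 0 < b
  rt2_len : ∀ {Y r b}, rt2 Y r b → b + n ≤ Y.length
  rt2_take : ∀ {Y r b}, rt2 Y r b → rt2 (Y.take (b + n)) r b
  rt2_app : ∀ {Y r b} (G), rt2 Y r b → rt2 (Y ++ G) r b
  lf1_len : ∀ {P v}, lf1 P v → n ≤ P.length
  lf2_len : ∀ {P v}, lf2 P v → n ≤ P.length
  lf1_nx : ∀ {P v}, lf1 P v → nx P = none
  s1_nx : ∀ {P Y v r b}, lf1 P v → rt1 Y r b → nx (P ++ Y) = some (P.length + b)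
  s1_ze : ∀ {P Y v r b}, lf1 P v → rt1 Y r b → ze (P ++ Y) v = r
  see : ∀ {P Y v r b}, lf2 P v → rt2 Y r b → ∃ m, nx (P ++ Y) = some m
  s2_nx : ∀ {P Y v r b}, lf2 P v → rt2 Y r b → ¬ CutOf lf1 rt1 (P ++ Y) v →
    nx (P ++ Y) = some (P.length + b)
  s2_ze : ∀ {P Y v r b}, lf2 P v → rt2 Y r b → ¬ CutOf lf1 rt1 (P ++ Y) v →
    ze (P ++ Y) v = r
  cc : ∀ {F m} (v), nx F = some m → ¬ CutOf lf1 rt1 F v → CutOf lf2 rt2 F v

namespace OT

variable {α : Type u} {V : Type v} (S : OT α V)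

def Cut1 (F : List α) (v : V) : Prop := CutOf S.lf1 S.rt1 F v

inductive Run (En : List α → V → Prop) : List α → V → Prop
  | fin {F v} : En F v → Run En F v
  | step {F v m} : S.nx F = some m → Run En (F.drop m) (S.ze F v) → Run En F v

/-- the run meets a completed zone where scheme 1 cuts it -/
inductive NAB : List α → V → Prop
  | here {F v m} : S.nx F = some m → S.Cut1 F v → NAB F v
  | next {F v m} : S.nx F = some m → NAB (F.drop m) (S.ze F v) → NAB F v

def Nb (F : List α) (v : V) : Prop := ∃ m, S.nx F = some m ∧ S.Cut1 F v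

/-- level 2 -/
def KE2 (En : List α → V → Prop) : Language α :=
  {u | ∃ r b, S.rt2 u r b ∧ (¬ S.NAB (u.drop b) r → S.Run En (u.drop b) r)}

def XE2 (En : List α → V → Prop) : Language α := {u | ∃ r b, S.rt2 u r b ∧ En (u.drop b) r}

def NB0 : Language α := {u | ∃ r b, S.rt2 u r b ∧ S.Nb (u.drop b) r}

variable {S} {En : List α → V → Prop}

theorem Cut1.app {F : List α} {v : V} (h : S.Cut1 F v) (G : List α) : S.Cut1 (F ++ G) v := by
  obtain ⟨P, Y, r, b, rfl, h1, h2⟩ := h
  exact ⟨P, Y ++ G, r, b, by simp, h1, S.rt1_app G h2⟩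

theorem NAB.app {F : List α} {v : V} (h : S.NAB F v) (G : List α) : S.NAB (F ++ G) v := by
  induction h with
  | here h1 h2 => exact .here (S.nx_app G h1) (h2.app G)
  | @next F v m h1 _ ih =>
    have hl := S.nx_len h1
    refine .next (S.nx_app G h1) ?_
    rw [drop_app (by omega), S.ze_app G v h1]
    exact ih

theorem cut_of {F : List α} {v : V} {m : ℕ} (h : ¬ S.NAB F v) (hm : S.nx F = some m) :
    ¬ S.Cut1 F v := fun hb => h (.here hm hb)

theorem nab_drop {F : List α} {v : V} {m : ℕ} (h : ¬ S.NAB F v) (hm : S.nx F = some m) :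
    ¬ S.NAB (F.drop m) (S.ze F v) := fun h' => h (.next hm h')

theorem Run.glue2 {F Y : List α} {v : V} (h : S.Run S.lf2 F v) (hN : ¬ S.NAB (F ++ Y) v)
    (hY : Y ∈ S.KE2 En) : S.Run En (F ++ Y) v := by
  induction h with
  | @fin F v h =>
    obtain ⟨r, b, h1, h2⟩ := hY
    obtain ⟨m, hm⟩ := S.see h h1
    have hb := cut_of hN hm
    have h3 := S.s2_nx h h1 hb
    have h4 := nab_drop hN h3
    have h5 := S.s2_ze h h1 hb
    rw [drop_app', h5] at h4
    refine .step h3 ?_
    rw [h5, drop_app']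
    exact h2 h4
  | @step F v m h1 _ ih =>
    have hl := S.nx_len h1
    have h2 := nab_drop hN (S.nx_app Y h1)
    rw [drop_app (by omega), S.ze_app Y v h1] at h2
    refine .step (S.nx_app Y h1) ?_
    rw [S.ze_app Y v h1, drop_app (by omega)]
    exact ih h2

theorem KK2 {u w : List α} (hu : u ∈ S.KE2 S.lf2) (hw : w ∈ S.KE2 En) : u ++ w ∈ S.KE2 En := by
  obtain ⟨r, b, h1, h2⟩ := hu
  have hl := S.rt2_len h1
  refine ⟨r, b, S.rt2_app w h1, fun hN => ?_⟩
  rw [drop_app (by omega)] at hN ⊢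
  exact (h2 fun h => hN (h.app w)).glue2 hN hw

theorem XE2_le : S.XE2 En ≤ S.KE2 En := by
  rintro u ⟨r, b, h1, h2⟩
  exact ⟨r, b, h1, fun _ => .fin h2⟩

theorem NB0_le : S.NB0 ≤ S.KE2 En := by
  rintro u ⟨r, b, h1, m, h2, h3⟩
  exact ⟨r, b, h1, fun h => (h (.here h2 h3)).elim⟩

theorem Run.len2 {P : List α} {v : V} (h : S.Run S.lf2 P v) : S.n ≤ P.length := by
  induction h with
  | fin h => exact S.lf2_len h
  | step h1 _ ih => rw [List.length_drop] at ih; omega

/-- scheme-2 cut of a first zone not cut by scheme 1 -/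
theorem cut0 {F : List α} {m : ℕ} {v : V} (hm : S.nx F = some m) (hb : ¬ S.Cut1 F v) :
    ∃ P Y r b, P ++ Y = F ∧ S.lf2 P v ∧ S.rt2 Y r b ∧ Y.drop b = F.drop m ∧
      S.ze F v = r := by
  obtain ⟨P, Y, r, b, rfl, h1, h2⟩ := S.cc v hm hb
  have h3 := S.s2_nx h1 h2 hb
  have h4 := S.s2_ze h1 h2 hb
  rw [hm] at h3
  have h5 : m = P.length + b := by simpa using h3
  subst h5
  exact ⟨P, Y, r, b, rfl, h1, h2, (drop_app' P Y b).symm, h4⟩

theorem pre_rt2 {u P Y : List α} {r : V} {b : ℕ} (h1 : S.rt2 u r b)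
    (h3 : P ++ Y = u.drop b) (hn : S.n ≤ P.length) :
    S.rt2 (u.take b ++ P) r b ∧ (u.take b ++ P).drop b = P ∧ (u.take b ++ P) ++ Y = u := by
  have hl := S.rt2_len h1
  obtain ⟨G, hG⟩ := take_pre h3 hn
  refine ⟨by rw [hG]; exact S.rt2_app G (S.rt2_take h1), ?_, ?_⟩
  · have : (u.take b).length = b := by rw [List.length_take]; omega
    rw [List.drop_append, this]; simp
  · rw [List.append_assoc, h3, List.take_append_drop]

theorem pre_rt1 {u P Y : List α} {r : V} {b : ℕ} (h1 : S.rt1 u r b)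
    (h3 : P ++ Y = u.drop b) (hn : S.n ≤ P.length) :
    S.rt1 (u.take b ++ P) r b ∧ (u.take b ++ P).drop b = P ∧ (u.take b ++ P) ++ Y = u := by
  have hl := S.rt1_len h1
  obtain ⟨G, hG⟩ := take_pre h3 hn
  refine ⟨by rw [hG]; exact S.rt1_app G (S.rt1_take h1), ?_, ?_⟩
  · have : (u.take b).length = b := by rw [List.length_take]; omega
    rw [List.drop_append, this]; simp
  · rw [List.append_assoc, h3, List.take_append_drop]

theorem pre_nx {F P Y : List α} {m : ℕ} (h1 : S.nx F = some m)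
    (h3 : P ++ Y = F.drop m) (hn : S.n ≤ P.length) :
    S.nx (F.take m ++ P) = some m ∧ (∀ v, S.ze (F.take m ++ P) v = S.ze F v) ∧
      (F.take m ++ P).drop m = P ∧ (F.take m ++ P) ++ Y = F := by
  have hl := S.nx_len h1
  obtain ⟨G, hG⟩ := take_pre h3 hn
  refine ⟨by rw [hG]; exact S.nx_app G (S.nx_take h1), fun v => ?_, ?_, ?_⟩
  · rw [hG, S.ze_app G v (S.nx_take h1), S.ze_take v h1]
  · have : (F.take m).length = m := by rw [List.length_take]; omega
    rw [List.drop_append, this]; simp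
  · rw [List.append_assoc, h3, List.take_append_drop]

theorem KE2_split {u : List α} (hu : u ∈ S.KE2 En) :
    (u ∈ S.XE2 En ∨ u ∈ S.NB0) ∨ ∃ p q, p ++ q = u ∧ p ∈ S.XE2 S.lf2 ∧ q ∈ S.KE2 En := by
  obtain ⟨r, b, h1, h2⟩ := hu
  by_cases hnb : S.Nb (u.drop b) r
  · exact .inl (.inr ⟨r, b, h1, hnb⟩)
  by_cases hN : S.NAB (u.drop b) r
  · cases hN with
    | here h3 h4 => exact (hnb ⟨_, h3, h4⟩).elim
    | @next _ _ m h3 h4 =>
      have hb : ¬ S.Cut1 (u.drop b) r := fun hb => hnb ⟨m, h3, hb⟩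
      obtain ⟨P, Y, r', b', h5, h6, h7, h8, h9⟩ := cut0 h3 hb
      obtain ⟨h10, h11, h12⟩ := pre_rt2 h1 h5 (S.lf2_len h6)
      refine .inr ⟨_, Y, h12, ⟨r, b, h10, by rw [h11]; exact h6⟩, r', b', h7, fun h => ?_⟩
      rw [h8, ← h9] at h
      exact (h h4).elim
  · have hR := h2 hN
    cases hR with
    | fin h => exact .inl (.inl ⟨r, b, h1, h⟩)
    | @step _ _ m h3 h4 =>
      obtain ⟨P, Y, r', b', h5, h6, h7, h8, h12⟩ := cut0 h3 (cut_of hN h3)
      obtain ⟨h9, h10, h11⟩ := pre_rt2 h1 h5 (S.lf2_len h6)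
      refine .inr ⟨_, Y, h11, ⟨r, b, h9, by rw [h10]; exact h6⟩, r', b', h7, fun _ => ?_⟩
      rw [h8, ← h12]; exact h4

def X2 (S : OT α V) : Language α := S.XE2 S.lf2 + S.NB0

theorem X2_le : S.X2 ≤ S.KE2 S.lf2 := by
  rintro u (h | h)
  · exact XE2_le h
  · exact NB0_le h

theorem KE2_eq (u : List α) :
    u ∈ KStar.kstar S.X2 * (S.XE2 En + S.NB0) ↔ u ∈ S.KE2 En := by
  constructor
  · rintro ⟨a, ha, b, hb, rfl⟩
    obtain ⟨L, rfl, hL⟩ := ha
    have hb' : b ∈ S.KE2 En := by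
      rcases hb with h | h
      · exact XE2_le h
      · exact NB0_le h
    clear hb
    induction L with
    | nil => simpa using hb'
    | cons x L ih =>
      have h1 : L.flatten ++ b ∈ S.KE2 En := ih (fun y hy => hL y (List.mem_cons_of_mem _ hy))
      have h2 := KK2 (X2_le (hL x List.mem_cons_self)) h1
      simpa using h2
  · intro hu
    induction hn : u.length using Nat.strong_induction_on generalizing u with
    | _ k ih =>
      subst hn
      rcases KE2_split hu with h | ⟨p, q, rfl, hp, hq⟩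
      · exact ⟨[], ⟨[], rfl, by simp⟩, u, h, rfl⟩
      · have hpos : 0 < p.length := by
          obtain ⟨r, b, h1, -⟩ := hp
          have := S.rt2_len h1
          have := S.rt2_pos h1
          omega
        obtain ⟨a, ⟨L, rfl, hL⟩, b, hb, hab⟩ := ih q.length (by simp; omega) q hq rfl
        refine ⟨(p :: L).flatten, ⟨p :: L, rfl, ?_⟩, b, hb, ?_⟩
        · intro y hy
          rcases List.mem_cons.1 hy with rfl | hy
          · exact .inl hp
          · exact hL y hy
        · simp only at hab ⊢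
          rw [← hab]; simp

theorem hl_KE2 {j : ℕ} (h1 : HL j (S.XE2 S.lf2)) (h2 : HL j S.NB0) (h3 : HL j (S.XE2 En)) :
    HL (j + 1) (S.KE2 En) :=
  ((HL.star (h1.add h2)).mul ((h3.add h2).mono (Nat.le_succ j))).congr fun u => (KE2_eq u).symm

def I (S : OT α V) (En : List α → V → Prop) (v : V) : Language α :=
  {F | ¬ S.NAB F v → S.Run En F v}

theorem I_iff (v : V) (F : List α) : F ∈ S.I En v ↔
    (En F v ∨ S.Nb F v) ∨ ∃ P Y, P ++ Y = F ∧ S.lf2 P v ∧ Y ∈ S.KE2 En := by
  constructor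
  · intro h
    by_cases hnb : S.Nb F v
    · exact .inl (.inr hnb)
    by_cases hN : S.NAB F v
    · cases hN with
      | here h3 h4 => exact (hnb ⟨_, h3, h4⟩).elim
      | @next _ _ m h3 h4 =>
        have hb : ¬ S.Cut1 F v := fun hb => hnb ⟨m, h3, hb⟩
        obtain ⟨P, Y, r', b', h5, h6, h7, h8, h9⟩ := cut0 h3 hb
        refine .inr ⟨P, Y, h5, h6, r', b', h7, fun h => ?_⟩
        rw [h8, ← h9] at h
        exact (h h4).elim
    · have hR := h hN
      cases hR with
      | fin h => exact .inl (.inl h)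
      | @step _ _ m h3 h4 =>
        obtain ⟨P, Y, r', b', h5, h6, h7, h8, h12⟩ := cut0 h3 (cut_of hN h3)
        refine .inr ⟨P, Y, h5, h6, r', b', h7, fun _ => ?_⟩
        rw [h8, ← h12]; exact h4
  · rintro ((h | ⟨m, h, h'⟩) | ⟨P, Y, rfl, h1, h2⟩)
    · exact fun _ => .fin h
    · exact fun hN => (hN (.here h h')).elim
    · exact fun hN => Run.glue2 (.fin h1) hN h2

theorem hl_I {j : ℕ} (v : V) (h1 : HL j (S.XE2 S.lf2)) (h2 : HL j S.NB0)
    (h3 : HL j (S.XE2 En)) (h4 : HL j {F | En F v}) (h5 : HL j {F | S.Nb F v})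
    (h6 : HL j {P | S.lf2 P v}) : HL (j + 1) (S.I En v) := by
  refine (((h4.add h5).mono (Nat.le_succ j)).add
    ((h6.mono (Nat.le_succ j)).mul (hl_KE2 h1 h2 h3))).congr fun F => ?_
  rw [I_iff]
  constructor
  · rintro ((h | h) | ⟨P, Y, h, h7, h8⟩)
    · exact .inl (.inl h)
    · exact .inl (.inr h)
    · exact .inr ⟨P, h7, Y, h8, h⟩
  · rintro ((h | h) | ⟨P, h7, Y, h8, h⟩)
    · exact .inl (.inl h)
    · exact .inl (.inr h)
    · exact .inr ⟨P, Y, h, h7, h8⟩

theorem NAB.split {F : List α} {v : V} (h : S.NAB F v) : S.Nb F v ∨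
    ∃ P Y, P ++ Y = F ∧ S.Run S.lf2 P v ∧ Y ∈ S.NB0 := by
  induction h with
  | here h1 h2 => exact .inl ⟨_, h1, h2⟩
  | @next F v m h1 _ ih =>
    by_cases hb : S.Cut1 F v
    · exact .inl ⟨m, h1, hb⟩
    · right
      rcases ih with h3 | ⟨P, Y, h3, h4, h5⟩
      · obtain ⟨P, Y, r', b', h5, h6, h7, h8, h9⟩ := cut0 h1 hb
        exact ⟨P, Y, h5, .fin h6, r', b', h7, by rw [h8, ← h9]; exact h3⟩
      · obtain ⟨h6, h7, h8, h9⟩ := pre_nx h1 h3 h4.len2
        refine ⟨_, Y, h9, .step h6 ?_, h5⟩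
        rw [h8, h7]; exact h4

theorem Run.false {F : List α} {v : V} (h : S.Run (fun _ _ => False) F v) : False := by
  induction h with
  | fin h => exact h
  | step _ _ ih => exact ih

theorem nab_iff (v : V) (F : List α) : S.NAB F v ↔ S.Nb F v ∨
    ∃ P Y, P ++ Y = F ∧ P ∈ S.I S.lf2 v ∧ Y ∈ S.NB0 := by
  constructor
  · intro h
    rcases h.split with h | ⟨P, Y, h1, h2, h3⟩
    · exact .inl h
    · exact .inr ⟨P, Y, h1, fun _ => h2, h3⟩
  · rintro (⟨m, h, h'⟩ | ⟨P, Y, rfl, h2, h3⟩)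
    · exact .here h h'
    · by_contra hN
      have h4 : S.Run S.lf2 P v := h2 fun h => hN (h.app Y)
      exact (Run.glue2 (En := fun _ _ => False) h4 hN (NB0_le h3)).false

/-- the uncut outer runs are one star above the one-zone languages -/
theorem hl_unc {j : ℕ} (v : V) (h1 : HL j (S.XE2 S.lf2)) (h2 : HL j S.NB0)
    (h3 : HL j (S.XE2 En)) (h4 : HL j {F | En F v}) (h5 : HL j {F | S.Nb F v})
    (h6 : HL j {P | S.lf2 P v}) : HL (j + 1) {F | ¬ S.NAB F v ∧ S.Run En F v} := by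
  have hI := hl_I (En := S.lf2) v h1 h2 h1 h6 h5 h6
  have hN : HL (j + 1) {F | S.NAB F v} := by
    refine ((h5.mono (Nat.le_succ j)).add (hI.mul (h2.mono (Nat.le_succ j)))).congr fun F => ?_
    show S.NAB F v ↔ _
    rw [nab_iff v]
    constructor
    · rintro (h | ⟨P, Y, h, h7, h8⟩)
      · exact .inl h
      · exact .inr ⟨P, h7, Y, h8, h⟩
    · rintro (h | ⟨P, h7, Y, h8, h⟩)
      · exact .inl h
      · exact .inr ⟨P, Y, h, h7, h8⟩
  have hI' := hl_I v h1 h2 h3 h4 h5 h6
  refine (hN.setOf_not.inf hI').congr fun F => ?_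
  constructor
  · rintro ⟨h, h'⟩; exact ⟨h, fun _ => h'⟩
  · rintro ⟨h, h'⟩; exact ⟨h, h' h⟩

/-! ### the outer level -/

/-- outer words -/
def K1 (S : OT α V) (En : List α → V → Prop) : Language α :=
  {u | ∃ r b, S.rt1 u r b ∧ S.Run En (u.drop b) r}

def U1 (S : OT α V) (En : List α → V → Prop) : Language α :=
  {u | ∃ r b, S.rt1 u r b ∧ (¬ S.NAB (u.drop b) r ∧ S.Run En (u.drop b) r)}

theorem Run.glue1 {F Y : List α} {v : V} (h : S.Run S.lf1 F v) (hY : Y ∈ S.K1 En) :
    S.Run En (F ++ Y) v := by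
  induction h with
  | fin h =>
    obtain ⟨r, b, h1, h2⟩ := hY
    refine .step (S.s1_nx h h1) ?_
    rw [S.s1_ze h h1, drop_app']
    exact h2
  | @step F v m h1 _ ih =>
    have hl := S.nx_len h1
    refine .step (S.nx_app Y h1) ?_
    rw [S.ze_app Y v h1, drop_app (by omega)]
    exact ih

theorem KK1 {u w : List α} (hu : u ∈ S.K1 S.lf1) (hw : w ∈ S.K1 En) : u ++ w ∈ S.K1 En := by
  obtain ⟨r, b, h1, h2⟩ := hu
  have hl := S.rt1_len h1
  refine ⟨r, b, S.rt1_app w h1, ?_⟩
  rw [drop_app (by omega)]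
  exact h2.glue1 hw

theorem Run.len1 {P : List α} {v : V} (h : S.Run S.lf1 P v) : S.n ≤ P.length := by
  induction h with
  | fin h => exact S.lf1_len h
  | step h1 _ ih => rw [List.length_drop] at ih; omega

theorem nab_none {F : List α} {v : V} (h : S.nx F = none) : ¬ S.NAB F v := by
  intro hN
  cases hN with
  | here h1 _ => rw [h] at h1; cases h1
  | next h1 _ => rw [h] at h1; cases h1

/-- first cut of a run -/
theorem Run.split (hEn : ∀ F v, En F v → S.nx F = none) {F : List α} {v : V}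
    (h : S.Run En F v) :
    (¬ S.NAB F v ∧ S.Run En F v) ∨
      ∃ P Y, P ++ Y = F ∧ (¬ S.NAB P v ∧ S.Run S.lf1 P v) ∧ Y ∈ S.K1 En := by
  induction h with
  | fin h => exact .inl ⟨nab_none (hEn _ _ h), .fin h⟩
  | @step F v m h1 h2 ih =>
    by_cases hc : S.Cut1 F v
    · obtain ⟨P, Y, r, b, rfl, h3, h5⟩ := hc
      refine .inr ⟨P, Y, rfl, ⟨nab_none (S.lf1_nx h3), .fin h3⟩, r, b, h5, ?_⟩
      have h6 := S.s1_nx h3 h5
      have h7 := S.s1_ze h3 h5
      rw [h1] at h6
      have h8 : m = P.length + b := by simpa using h6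
      subst h8
      rw [h7, drop_app'] at h2
      exact h2
    · rcases ih with ⟨h3, -⟩ | ⟨P, Y, h3, ⟨h4, h4'⟩, h5⟩
      · refine .inl ⟨fun hN => ?_, .step h1 h2⟩
        cases hN with
        | here _ h7 => exact hc h7
        | @next _ _ m' h7 h8 =>
          rw [h1] at h7; cases h7
          exact h3 h8
      · right
        obtain ⟨h6, h7, h8, h9⟩ := pre_nx h1 h3 h4'.len1
        refine ⟨_, Y, h9, ⟨fun hN => ?_, .step h6 ?_⟩, h5⟩
        · cases hN with
          | here _ h11 =>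
            have := h11.app Y
            rw [h9] at this
            exact hc this
          | @next _ _ m' h10 h11 =>
            rw [h6] at h10; cases h10
            rw [h8, h7] at h11
            exact h4 h11
        · rw [h8, h7]; exact h4'

theorem K1_split (hEn : ∀ F v, En F v → S.nx F = none) {u : List α} (hu : u ∈ S.K1 En) :
    u ∈ S.U1 En ∨ ∃ p q, p ++ q = u ∧ p ∈ S.U1 S.lf1 ∧ q ∈ S.K1 En := by
  obtain ⟨r, b, h1, h2⟩ := hu
  rcases h2.split hEn with h3 | ⟨P, Y, h3, h4, h5⟩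
  · exact .inl ⟨r, b, h1, h3⟩
  · right
    obtain ⟨h6, h7, h8⟩ := pre_rt1 h1 h3 h4.2.len1
    exact ⟨_, Y, h8, ⟨r, b, h6, by rw [h7]; exact h4⟩, h5⟩

theorem U1_le : S.U1 En ≤ S.K1 En := by
  rintro u ⟨r, b, h1, h2⟩
  exact ⟨r, b, h1, h2.2⟩

theorem K1_eq (hEn : ∀ F v, En F v → S.nx F = none) (u : List α) :
    u ∈ KStar.kstar (S.U1 S.lf1) * S.U1 En ↔ u ∈ S.K1 En := by
  constructor
  · rintro ⟨a, ha, b, hb, rfl⟩
    obtain ⟨L, rfl, hL⟩ := ha
    have hb' : b ∈ S.K1 En := U1_le hb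
    clear hb
    induction L with
    | nil => simpa using hb'
    | cons x L ih =>
      have h1 : L.flatten ++ b ∈ S.K1 En := ih (fun y hy => hL y (List.mem_cons_of_mem _ hy))
      have h2 := KK1 (U1_le (hL x List.mem_cons_self)) h1
      simpa using h2
  · intro hu
    induction hn : u.length using Nat.strong_induction_on generalizing u with
    | _ k ih =>
      subst hn
      rcases K1_split hEn hu with h | ⟨p, q, rfl, hp, hq⟩
      · exact ⟨[], ⟨[], rfl, by simp⟩, u, h, rfl⟩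
      · have hpos : 0 < p.length := by
          obtain ⟨r, b, h1, -⟩ := hp
          have := S.rt1_len h1
          have := S.rt1_pos h1
          omega
        obtain ⟨a, ⟨L, rfl, hL⟩, b, hb, hab⟩ := ih q.length (by simp; omega) q hq rfl
        refine ⟨(p :: L).flatten, ⟨p :: L, rfl, ?_⟩, b, hb, ?_⟩
        · intro y hy
          rcases List.mem_cons.1 hy with rfl | hy
          · exact hp
          · exact hL y hy
        · simp only at hab ⊢
          rw [← hab]; simp

def RtL (S : OT α V) (r : V) (t : List α) : Language α := {w | S.rt1 (w ++ t) r w.length}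

def PreL (t : List α) : Language α := {F | ∃ x ∈ ({t} : Language α), x <+: F}

def RU (S : OT α V) (En : List α → V → Prop) (r : V) : Language α :=
  {F | ¬ S.NAB F r ∧ S.Run En F r}

theorem hl_U1 [Finite α] [Finite V] {j : ℕ} (S : OT α V) (En : List α → V → Prop)
    (a1 : ∀ r t, t.length = S.n → HL j {w | S.rt1 (w ++ t) r w.length})
    (h : ∀ v, HL j (RU S En v)) : HL j (S.U1 En) := by
  have hfin : Finite {t : List α // t.length = S.n} := by
    have := (List.finite_length_eq α S.n)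
    exact this
  have key : HL j {u | ∃ r : V, u ∈ ({u | ∃ t : {t : List α // t.length = S.n}, u ∈
      RtL S r t.1 * (PreL t.1 ⊓ RU S En r)} : Language α)} := by
    refine HL.iUnion fun r => HL.iUnion fun t => ?_
    have e1 : HL j (RtL S r t.1) := a1 r t.1 t.2
    have e2 : HL j (PreL t.1) := (HL.word t.1).prefix
    exact e1.mul (e2.inf (h r))
  refine key.congr fun u => ?_
  constructor
  · rintro ⟨r, b, h1, h2⟩
    have hl := S.rt1_len h1
    refine ⟨r, ⟨(u.drop b).take S.n, ?_⟩, u.take b, ?_, u.drop b, ⟨?_, h2⟩, ?_⟩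
    · rw [List.length_take, List.length_drop]; omega
    · show S.rt1 (u.take b ++ (u.drop b).take S.n) r (u.take b).length
      have h3 : u.take b ++ (u.drop b).take S.n = u.take (b + S.n) := by rw [List.take_add]
      have h4 : (u.take b).length = b := by rw [List.length_take]; omega
      rw [h3, h4]; exact S.rt1_take h1
    · exact ⟨_, rfl, List.take_prefix _ _⟩
    · simp
  · rintro ⟨r, t, w, h1, F, ⟨⟨x, hx, y, hy⟩, h2⟩, h3⟩
    have hx' : x = t.1 := hx
    subst hx'
    have h1' : S.rt1 (w ++ t.1) r w.length := h1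
    have hu : u = w ++ F := h3.symm
    refine ⟨r, w.length, ?_, ?_⟩
    · rw [hu, ← hy, ← List.append_assoc]; exact S.rt1_app y h1'
    · have : u.drop w.length = F := by rw [hu]; simp
      rw [this]; exact h2

/-- one-zone languages of an end condition -/
def Pieces (j : ℕ) (S : OT α V) (E : List α → V → Prop) : Prop :=
  HL j (S.XE2 E) ∧ ∀ v, HL j {F | E F v}

/-- TWO STARS above the one-zone languages -/
theorem two [Finite α] [Finite V] {j : ℕ} (hEn : ∀ F v, En F v → S.nx F = none)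
    (a1 : ∀ r t, t.length = S.n → HL j {w | S.rt1 (w ++ t) r w.length})
    (b2 : HL j S.NB0) (b5 : ∀ v, HL j {F | S.Nb F v})
    (c : Pieces j S En) (c1 : Pieces j S S.lf1) (c2 : Pieces j S S.lf2) (v : V) :
    HL (j + 2) {F | S.Run En F v} := by
  have hLf : ∀ F v, S.lf1 F v → S.nx F = none := fun _ _ h => S.lf1_nx h
  have h1 : ∀ v, HL (j + 1) (RU S S.lf1 v) := fun v => hl_unc v c2.1 b2 c1.1 (c1.2 v) (b5 v) (c2.2 v)
  have h2 : ∀ v, HL (j + 1) (RU S En v) := fun v => hl_unc v c2.1 b2 c.1 (c.2 v) (b5 v) (c2.2 v)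
  have a1' : ∀ r t, t.length = S.n → HL (j + 1) {w | S.rt1 (w ++ t) r w.length} :=
    fun r t ht => (a1 r t ht).mono (Nat.le_succ j)
  have e1 : HL (j + 2) (KStar.kstar (S.U1 S.lf1) * S.U1 En) :=
    (HL.star (hl_U1 S _ a1' h1)).mul ((hl_U1 S _ a1' h2).mono (Nat.le_succ _))
  have e2 : HL (j + 2) (RU S En v + RU S S.lf1 v * (KStar.kstar (S.U1 S.lf1) * S.U1 En)) :=
    ((h2 v).mono (Nat.le_succ _)).add (((h1 v).mono (Nat.le_succ _)).mul e1)
  refine e2.congr fun F => ?_
  constructor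
  · intro h
    rcases Run.split hEn h with h | ⟨P, Y, h5, h6, h7⟩
    · exact .inl h
    · exact .inr ⟨P, h6, Y, (K1_eq hEn Y).2 h7, h5⟩
  · rintro (h | ⟨P, h6, Y, h7, h5⟩)
    · exact h.2
    · have := h6.2.glue1 ((K1_eq hEn Y).1 h7)
      rw [← h5]; exact this

end OT

end Crest.Agent.R320.OneTok_457
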