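import Crest.Agent.R320.Sch2_423

/-!
# Row 320: one token system for both schemes, on single zones (helper423)

Zones `z = X ++ Y`, `|X| = p0`, `Y ∈ UT`; zone map
`eps z v = act (act v (φ X) + nu2 X) (φ Y) + nu1 Y` (118's form).
`scheme2_one` : scheme 2 cuts in `X` (808's exact gadget, promise `Y ∈ BT`),
`scheme1_one` : scheme 1 cuts in `Y`,
`top_one` : both together with 505's `two_levels`.
-/

set_option autoImplicit false

namespace Crest.Agent.R320.One_423

open Crest.Agent.R320.Hk_851 Crest.Agent.R320.Asm_505 Crest.Agent.R320.Sch2_423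

universe u v w

variable {α : Type u}

/-- left words of scheme 2 -/
def P2 {V : Type w} {k : ℕ} (ctx : ℕ → Option (ℕ × Fin k)) (lam : List α → Option V) (v : V) :
    Language α := {p | ∃ x, ctx x ≠ none ∧ p.length = x ∧ lam p = some v}

/-- right words of scheme 2 -/
def R2 {V : Type w} {k : ℕ} (p0 : ℕ) (ctx : ℕ → Option (ℕ × Fin k)) (rho : List α → Option V)
    (BT : Set (List α)) (tl : List α → V → V) (Cnd : ℕ → List α → Prop) (y : V) : Language α :=
  {q | ∃ x, ctx x ≠ none ∧ Cnd x q ∧ (∀ x', ctx x' ≠ none → Cnd x' q → x' = x) ∧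
    q.drop (p0 - x) ∈ BT ∧ ∃ r, rho (q.take (p0 - x)) = some r ∧ tl (q.drop (p0 - x)) r = y}

/-- **Scheme 2, one token system.** -/
theorem scheme2_one (S : Type v) (V : Type w) [Monoid S] [Finite S] [AddCommGroup V] [Finite V] :
    ∃ m k : ℕ, ∀ (α : Type u) (φ : List α → S), (∀ u v, φ (u ++ v) = φ u * φ v) →
      ∀ (Bd : ℕ → ℕ) (ctx : ℕ → Option (ℕ × Fin k)), Monotone Bd → Bd 0 = 0 →
      (∀ x i c, ctx x = some (i, c) → i < m ∧ Bd i ≤ x ∧ x ≤ Bd (i + 1)) → ctx 0 = none →
      ∃ lam : List α → Option V, ∀ act : V → S → V,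
      ∃ (rho : List α → Option V) (nu2 : List α → V),
      ∀ (UT BT : Set (List α)), TCode UT → BT ⊆ UT →
      ∀ (tl : List α → V → V) (Cnd : ℕ → List α → Prop),
      (∀ z ∈ Zn (Bd m) BT, ∀ x, ctx x ≠ none → ∀ q,
        (∃ x', ctx x' ≠ none ∧ q.drop (Bd m - x') ∈ BT) →
        (z.drop x <+: q ∨ q <+: z.drop x) → Cnd x q) →
      (∀ z ∈ Zn (Bd m) BT, ∀ i < m, ∀ c : Fin k, ∃ x, ctx x = some (i, c) ∧
        ∀ x', ctx x' ≠ none → Cnd x' (z.drop x) → x' = x) →
      Level (Zn (Bd m) BT) 0
        (fun z v => tl (z.drop (Bd m)) (act v (φ (z.take (Bd m))) + nu2 (z.take (Bd m))))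
        (P2 ctx lam) (R2 (Bd m) ctx rho BT tl Cnd) := by
  obtain ⟨m, k, hg⟩ := Crest.Agent.R320.Exact808.exact_gadget.{v, w, u} S V
  refine ⟨m, k, ?_⟩
  intro α φ hφ Bd ctx hBd hB0 hctx hctx0
  obtain ⟨lam, hlam⟩ := hg α φ hφ Bd ctx hBd hB0 hctx
  refine ⟨lam, fun act => ?_⟩
  obtain ⟨rho, nu2, hs, hc⟩ := hlam act
  refine ⟨rho, nu2, ?_⟩
  intro UT BT hUT hBU tl Cnd hC spoil
  have hle : ∀ x, ctx x ≠ none → x ≤ Bd m := by
    intro x hx
    obtain ⟨⟨i, c⟩, hic⟩ := Option.ne_none_iff_exists'.1 hx
    obtain ⟨h1, _, h3⟩ := hctx x i c hic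
    exact h3.trans (hBd h1)
  refine ⟨?_, ?_, ?_⟩
  · rintro v ⟨x, hx, hx0, _⟩
    have : x = 0 := by simpa using hx0.symm
    exact hx (this ▸ hctx0)
  · rintro z ⟨hz1, hz2⟩ v y p ⟨x, hx, hpx, hp⟩ q ⟨x', hx', hC', huniq, hqB, r, hq, hqy⟩ hcmp
    have hxm := hle x hx
    have hxm' := hle x' hx'
    have hqlen : Bd m - x' < q.length := by
      by_contra hcon
      rw [List.drop_eq_nil_of_le (by omega)] at hqB
      exact hUT.ne (hBU hqB)
    have hpz : z = p ++ z.drop x := by
      have h1 : p = z.take x := by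
        rcases hcmp with h | h
        · obtain ⟨t, ht⟩ := h
          have h2 : (z ++ t).take x = (p ++ q).take x := by rw [ht]
          rw [List.take_append_of_le_length (by omega), List.take_append_of_le_length (by omega),
            List.take_of_length_le (l := p) (by omega)] at h2
          exact h2.symm
        · obtain ⟨t, ht⟩ := h
          rw [← ht, List.append_assoc, List.take_append_of_le_length (by omega),
            List.take_of_length_le (l := p) (by omega)]
      rw [h1, List.take_append_drop]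
    set q0 := z.drop x with hq0
    have hcmp' : q0 <+: q ∨ q <+: q0 := by
      rcases hcmp with h | h
      · left
        rw [hpz] at h
        exact (List.prefix_append_right_inj p).1 h
      · right
        rw [hpz] at h
        exact (List.prefix_append_right_inj p).1 h
    have hq0d : q0.drop (Bd m - x) = z.drop (Bd m) := by
      rw [hq0, List.drop_drop]
      congr 1
      omega
    have hcomp : ∀ n, q0.drop n <+: q.drop n ∨ q.drop n <+: q0.drop n := by
      intro n
      rcases hcmp' with h | h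
      · left; exact h.drop n
      · right; exact h.drop n
    have hcand : Cnd x q := hC z ⟨hz1, hz2⟩ x hx q ⟨x', hx', hqB⟩ hcmp'
    have hxx : x = x' := huniq x hx hcand
    subst hxx
    have hdd : q.drop (Bd m - x) = z.drop (Bd m) := by
      rcases hcomp (Bd m - x) with h | h
      · rw [hq0d] at h
        exact (hUT.pc _ (hBU hz2) _ (hBU hqB) h).symm
      · rw [hq0d] at h
        exact hUT.pc _ (hBU hqB) _ (hBU hz2) h
    have hq0len : q0.length = z.length - x := by rw [hq0, List.length_drop]
    have htt : q.take (Bd m - x) = q0.take (Bd m - x) := by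
      rcases hcmp' with h | h
      · obtain ⟨t, ht⟩ := h
        rw [← ht, List.take_append_of_le_length (by omega)]
      · obtain ⟨t, ht⟩ := h
        rw [← ht, List.take_append_of_le_length (by omega)]
    have hqq : q = q0 := by
      rw [← List.take_append_drop (Bd m - x) q, ← List.take_append_drop (Bd m - x) q0, htt, hdd,
        hq0d]
    refine ⟨by rw [hqq]; exact hpz, ?_⟩
    have hpt : z.take (Bd m) = p ++ q.take (Bd m - x) := by
      conv_lhs => rw [hpz]
      rw [List.take_append, hqq, List.take_of_length_le (l := p) (by omega), hpx]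
    change tl (z.drop (Bd m)) (act v (φ (z.take (Bd m))) + nu2 (z.take (Bd m))) = y
    rw [hpt, ← hdd, ← hs p (q.take (Bd m - x)) v r (by rw [List.length_take]; omega) hp hq]
    exact hqy
  · rintro z hz - v
    have hz' := hz
    obtain ⟨hz1, hz2⟩ := hz'
    obtain ⟨i, him, c, hall⟩ := hc (z.take (Bd m)) v (by rw [List.length_take]; omega)
    obtain ⟨x, hxc, hun⟩ := spoil z hz i him c
    obtain ⟨h1, h2⟩ := hall x hxc
    obtain ⟨b, hb⟩ := Option.isSome_iff_exists.1 h2
    have hxne : ctx x ≠ none := by rw [hxc]; simp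
    have hxm := hle x hxne
    have hp : (z.take (Bd m)).take x = z.take x := by
      rw [List.take_take, Nat.min_eq_left hxm]
    have hq : (z.drop x).take (Bd m - x) = (z.take (Bd m)).drop x := by
      rw [List.drop_take]
    have hd : (z.drop x).drop (Bd m - x) = z.drop (Bd m) := by
      rw [List.drop_drop]; congr 1; omega
    have hsd : b = act v (φ (z.take (Bd m))) + nu2 (z.take (Bd m)) := by
      have h3 := hs ((z.take (Bd m)).take x) ((z.take (Bd m)).drop x) v b
        (by rw [List.length_take, List.length_drop, List.length_take]; omega) h1 hb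
      rwa [List.take_append_drop] at h3
    refine ⟨z.take x, ⟨x, hxne, by rw [List.length_take]; omega, by rw [← hp]; exact h1⟩,
      z.drop x, ⟨x, hxne, ?_, fun x' hx' hC' => hun x' hx' hC', by rw [hd]; exact hz2, b, ?_, ?_⟩,
      (List.take_append_drop x z).symm⟩
    · exact hC z hz x hxne _ ⟨x, hxne, by rw [hd]; exact hz2⟩ (Or.inl List.prefix_rfl)
    · rw [hq]; exact hb
    · rw [hd, hsd]

/-- left words of scheme 1 -/
def P1 {V : Type w} (p0 : ℕ) (hd : List α → V → V) (LL : List α → V → Prop) (v : V) :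
    Language α := {p | p0 ≤ p.length ∧ LL (p.drop p0) (hd (p.take p0) v)}

/-- **Scheme 1, one token system.** `hd X v` = token at the head end, `tl Y` = tail map. -/
theorem scheme1_one {V : Type w} {p0 : ℕ} (hp0 : 0 < p0) {UT BT : Set (List α)} (hUT : TCode UT)
    {hd tl : List α → V → V} {LL : List α → V → Prop} {RR : V → Language α}
    (hs : ∀ P Q v b, LL P v → Q ∈ RR b → P ++ Q ∈ UT ∧ tl (P ++ Q) v = b)
    (hc : ∀ Y ∈ UT, Y ∉ BT → ∀ v, ∃ P Q, Y = P ++ Q ∧ LL P v ∧ Q ∈ RR (tl Y v)) :
    Level (Zn p0 UT) (Zn p0 BT) (fun z v => tl (z.drop p0) (hd (z.take p0) v))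
      (P1 p0 hd LL) RR := by
  refine ⟨?_, ?_, ?_⟩
  · rintro v ⟨h, _⟩
    simp at h
    omega
  · rintro z ⟨hz1, hz2⟩ v y p ⟨hp1, hp2⟩ q hq hcmp
    obtain ⟨h1, h2⟩ := hs _ _ _ _ hp2 hq
    have hd1 : (p ++ q).drop p0 = p.drop p0 ++ q := List.drop_append_of_le_length hp1
    have hzpq : z = p ++ q := by
      have h3 : z.drop p0 = (p ++ q).drop p0 := by
        rcases hcmp with h | h
        · refine hUT.pc _ hz2 _ (by rw [hd1]; exact h1) (h.drop p0)
        · exact (hUT.pc _ (by rw [hd1]; exact h1) _ hz2 (h.drop p0)).symm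
      have h4 : z.take p0 = (p ++ q).take p0 := by
        rcases hcmp with h | h
        · obtain ⟨t, ht⟩ := h
          rw [← ht, List.take_append_of_le_length hz1]
        · obtain ⟨t, ht⟩ := h
          rw [← ht, List.take_append_of_le_length (by rw [List.length_append]; omega)]
      rw [← List.take_append_drop p0 z, h3, h4, List.take_append_drop]
    refine ⟨hzpq, ?_⟩
    change tl (z.drop p0) (hd (z.take p0) v) = y
    rw [hzpq, hd1, List.take_append_of_le_length hp1]
    exact h2
  · rintro z ⟨hz1, hz2⟩ hzB v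
    obtain ⟨P, Q, h1, h2, h3⟩ := hc _ hz2 (fun h => hzB ⟨hz1, h⟩) (hd (z.take p0) v)
    have hlen : (z.take p0).length = p0 := by rw [List.length_take]; omega
    refine ⟨z.take p0 ++ P, ⟨by rw [List.length_append]; omega, ?_⟩, Q, h3, ?_⟩
    · rw [List.drop_left' hlen, List.take_left' hlen]
      exact h2
    · rw [List.append_assoc, ← h1, List.take_append_drop]

/-- affine zone maps decode the product -/
theorem dec_one {M V : Type*} [Monoid M] [AddCommGroup V] (φ : α → M) (act : V → M → V)
    (act_one : ∀ v, act v 1 = v) (act_mul : ∀ v s t, act (act v s) t = act v (s * t))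
    (act_add : ∀ v w s, act (v + w) s = act v s + act w s)
    (faith : ∀ s t, (∀ v, act v s = act v t) → s = t)
    {p0 : ℕ} {nu1 nu2 : List α → V}
    (l l' : List (List α))
    (h : ∀ v, Run (fun z v => act (act v ((z.take p0).map φ).prod + nu2 (z.take p0))
        ((z.drop p0).map φ).prod + nu1 (z.drop p0)) v l =
      Run (fun z v => act (act v ((z.take p0).map φ).prod + nu2 (z.take p0))
        ((z.drop p0).map φ).prod + nu1 (z.drop p0)) v l') :
    (l.flatten.map φ).prod = (l'.flatten.map φ).prod := by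
  have act_zero : ∀ s, act 0 s = 0 := by
    intro s
    have := act_add 0 0 s
    rw [add_zero] at this
    simpa using this
  have key : ∀ (l : List (List α)) (v w : V),
      Run (fun z v => act (act v ((z.take p0).map φ).prod + nu2 (z.take p0))
        ((z.drop p0).map φ).prod + nu1 (z.drop p0)) (v + w) l =
      act v (l.flatten.map φ).prod + Run (fun z v => act (act v ((z.take p0).map φ).prod
        + nu2 (z.take p0)) ((z.drop p0).map φ).prod + nu1 (z.drop p0)) w l := by
    intro l
    induction l with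
    | nil =>
      intro v w
      simp [Run, act_one]
    | cons z l ih =>
      intro v w
      rw [Run_cons, Run_cons]
      have h1 : act (act (v + w) ((z.take p0).map φ).prod + nu2 (z.take p0))
          ((z.drop p0).map φ).prod + nu1 (z.drop p0) =
          act v (z.map φ).prod + (act (act w ((z.take p0).map φ).prod + nu2 (z.take p0))
            ((z.drop p0).map φ).prod + nu1 (z.drop p0)) := by
        have h2 : (z.map φ).prod = ((z.take p0).map φ).prod * ((z.drop p0).map φ).prod := by
          conv_lhs => rw [← List.take_append_drop p0 z]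
          rw [List.map_append, List.prod_append]
        rw [h2, ← act_mul, act_add v w, act_add, act_add, act_add]
        abel
      change Run _ (act (act (v + w) ((z.take p0).map φ).prod + nu2 (z.take p0))
          ((z.drop p0).map φ).prod + nu1 (z.drop p0)) l = _
      rw [h1, ih, act_mul]
      simp
  refine faith _ _ fun v => ?_
  have h1 := h v
  have h0 := h 0
  have e1 := key l v 0
  have e2 := key l' v 0
  rw [add_zero] at e1 e2
  rw [e1, e2, h0] at h1
  exact add_right_cancel h1

/-- **Top, one token system.** Everything is about single tails `Y ∈ UT`. -/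
theorem top_one {k : ℕ} {M V : Type*} [Monoid M] [Finite M] [AddCommGroup V] [Finite V]
    (φ : α → M) (act : V → M → V)
    (act_one : ∀ v, act v 1 = v) (act_mul : ∀ v s t, act (act v s) t = act v (s * t))
    (act_add : ∀ v w s, act (v + w) s = act v s + act w s)
    (faith : ∀ s t, (∀ v, act v s = act v t) → s = t)
    {p0 : ℕ} (hp0 : 0 < p0) {UT BT : Set (List α)} (hUT : TCode UT) (hBU : BT ⊆ UT)
    {nu1 nu2 : List α → V} {LL : List α → V → Prop} {RR : V → Language α}
    {P₂ R₂ : V → Language α}
    -- scheme 1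
    (hs : ∀ P Q v b, LL P v → Q ∈ RR b →
      P ++ Q ∈ UT ∧ act v ((P ++ Q).map φ).prod + nu1 (P ++ Q) = b)
    (hc : ∀ Y ∈ UT, Y ∉ BT → ∀ v, ∃ P Q, Y = P ++ Q ∧ LL P v ∧
      Q ∈ RR (act v (Y.map φ).prod + nu1 Y))
    -- scheme 2
    (L2 : Level (Zn p0 BT) 0 (fun z v => act (act v ((z.take p0).map φ).prod + nu2 (z.take p0))
        ((z.drop p0).map φ).prod + nu1 (z.drop p0)) P₂ R₂)
    -- languages
    (hHU : HL k (Zn p0 UT)) (hHB : HL k (Zn p0 BT))
    (hP₁ : ∀ v, HL k (P1 p0 (fun X v => act v (X.map φ).prod + nu2 X) LL v))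
    (hR₁ : ∀ b, HL k (RR b)) (hP₂ : ∀ v, HL k (P₂ v)) (hR₂ : ∀ v, HL k (R₂ v))
    (hrest : ∀ s, HL k (Rest φ (Zn p0 UT) s)) (s : M) :
    HL (k + 2) ({w | (w.map φ).prod = s} : Language α) := by
  refine two_levels φ (Zn_pc hUT) (Zn_mono hBU)
    (eps₁ := fun z v => act (act v ((z.take p0).map φ).prod + nu2 (z.take p0))
        ((z.drop p0).map φ).prod + nu1 (z.drop p0))
    (scheme1_one hp0 hUT (hd := fun X v => act v (X.map φ).prod + nu2 X)
      (tl := fun Y v => act v (Y.map φ).prod + nu1 Y) hs hc) L2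
    (fun l l' _ _ h => dec_one φ act act_one act_mul act_add faith l l' h)
    (fun l l' _ _ h => h) hHU hHB hP₁ hR₁ hP₂ hR₂ hrest s

end Crest.Agent.R320.One_423
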