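import Crest.Agent.R320.ExactR_237

/-!
Row 320, P3 of #13253 (scheme 2 = promise ruler) in block form, generic in the block code `XX` and in
the class `Bad` of bad blocks.  A block is `X = X1 ++ Y`, `|X1| = p0`; the cut places `c k` lie in `X1`;
`XX` and `Bad` do not look at the first `p0` letters.  The right word is the rest of the block followed
by one more full block.
-/

set_option autoImplicit false

namespace Crest.Agent.R320.P3_416

open Finset ExactR_237

variable {A : Type}

/-- the anchor at distance `ck` before the text `Q` starts a bad block. -/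
def BadAt (XX Bad : Set (List A)) (ck : ℕ) (Q : List A) : Prop :=
  ∃ P Q1 : List A, P.length = ck ∧ Q1 <+: Q ∧ P ++ Q1 ∈ XX ∧ P ++ Q1 ∈ Bad

open Classical in
/-- spoiled places of the text `t` (read from an anchor). -/
noncomputable def spoiled (XX Bad : Set (List A)) (K : ℕ) (c : ℕ → ℕ) (t : List A) : Finset ℕ :=
  (range K).filter (fun k => ∃ k' < K, k' ≠ k ∧ BadAt XX Bad (c k') (t.drop (c k)))

/-- the zone map. -/
def T {S V : Type} [Monoid S] [AddCommGroup V] (f : A → S) (act : V → S → V) (p0 : ℕ)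
    (nu2 nu1 : List A → V) (v : V) (X : List A) : V :=
  act (act v (pr f (X.take p0)) + nu2 (X.take p0)) (pr f (X.drop p0)) + nu1 (X.drop p0)

/-- right words of scheme 2: the place `k` is the only candidate, rest of the block ++ one block. -/
def RQ {S V : Type} [Monoid S] [AddCommGroup V] (f : A → S) (act : V → S → V) (K : ℕ) (c : ℕ → ℕ)
    (p0 : ℕ) (nu2 nu1 : List A → V) (rho : ℕ → List A → Option V) (XX Bad : Set (List A)) (b : V) :
    Set (List A) :=
  {Q | ∃ k < K, BadAt XX Bad (c k) Q ∧ (∀ k' < K, BadAt XX Bad (c k') Q → k' = k) ∧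
    ∃ (P Q1 X2 : List A) (v1 : V), P.length = c k ∧ Q = Q1 ++ X2 ∧ P ++ Q1 ∈ XX ∧ X2 ∈ XX ∧
      rho k (Q1.take (p0 - c k)) = some v1 ∧
      T f act p0 nu2 nu1
        (act v1 (pr f (Q1.drop (p0 - c k))) + nu1 (Q1.drop (p0 - c k))) X2 = b}

theorem block (A S V : Type) [Monoid S] [Fintype S] [Fintype V] [AddCommGroup V]
    (f : A → S) (act : V → S → V) (C0 : ℕ) :
    ∃ K : ℕ, ∀ (c : ℕ → ℕ) (p0 : ℕ), (∀ i j, i < j → j < K → c i < c j) →
      (∀ k < K, c k ≤ p0) →
      ∃ (nu2 : List A → V) (LP2 : V → Set (List A)) (rho : ℕ → List A → Option V),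
        (∀ v P, P ∈ LP2 v → ∃ k < K, P.length = c k) ∧
        ∀ (XX Bad : Set (List A)) (nu1 : List A → V),
          (∀ P P' Q : List A, P.length ≤ p0 → P'.length = P.length →
            P ++ Q ∈ XX → P' ++ Q ∈ XX) →
          (∀ P P' Q : List A, P.length ≤ p0 → P'.length = P.length →
            P ++ Q ∈ Bad → P' ++ Q ∈ Bad) →
          (∀ X ∈ XX, ∀ Y ∈ XX, X <+: Y → X = Y) →
          (∀ X ∈ XX, p0 ≤ X.length) →
            (∀ (X P Q1 Q : List A) (v b : V), X ∈ XX → X ∈ Bad → X = P ++ Q1 → Q1 <+: Q →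
              P ∈ LP2 v → Q ∈ RQ f act K c p0 nu2 nu1 rho XX Bad b → ∃ X2 ∈ XX, Q = Q1 ++ X2 ∧
                T f act p0 nu2 nu1 (T f act p0 nu2 nu1 v X) X2 = b) ∧
            (∀ X X' : List A, X ∈ XX → X' ∈ XX → X ∈ Bad →
              (spoiled XX Bad K c (X ++ X')).card ≤ C0 → ∀ v : V, ∃ k < K,
                X.take (c k) ∈ LP2 v ∧ X.drop (c k) ++ X' ∈
                  RQ f act K c p0 nu2 nu1 rho XX Bad (T f act p0 nu2 nu1 (T f act p0 nu2 nu1 v X) X')) := by
  classical
  obtain ⟨K, hK⟩ := exact_gadget A S V f act (C0 + 1)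
  refine ⟨K, fun c p0 hc hcp => ?_⟩
  obtain ⟨lam, rho, nu, hex, hco⟩ := hK c hc
  refine ⟨fun X => nu X 1, fun v => {P | ∃ k < K, P.length = c k ∧ lam k P = some v},
    fun k Q => rho k Q 1, fun v P ⟨k, hk, h1, _⟩ => ⟨k, hk, h1⟩, ?_⟩
  intro XX Bad nu1 h1 h2 hpc hlen
  have hinj : ∀ i j, i < K → j < K → c i = c j → i = j := by
    intro i j hi hj h
    rcases lt_trichotomy i j with h1 | h1 | h1
    · exact absurd h (ne_of_lt (hc i j h1 hj))
    · exact h1
    · exact absurd h (ne_of_gt (hc j i h1 hi))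
  refine ⟨?_, ?_⟩
  · rintro X P Q1 Q v b hX hB rfl hQ ⟨k, hk, hPk, hl⟩ ⟨k0, hk0, -, huni, P0, Q0, X2, v1, hP0, hQ0,
      hX0, hX2, hr, hT⟩
    -- the true place is a candidate
    have hkk : k = k0 := huni k hk ⟨P, Q1, hPk, hQ, hX, hB⟩
    subst hkk
    have hck := hcp k hk
    -- the block read by the right side is the true one
    have hX0' : P ++ Q0 ∈ XX := h1 P0 P Q0 (by omega) (by omega) hX0
    have hQ10 : Q1 = Q0 := by
      have hpre : Q1 <+: Q0 ∨ Q0 <+: Q1 := by
        have h3 : Q0 <+: Q := ⟨X2, hQ0.symm⟩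
        exact List.prefix_or_prefix_of_prefix hQ h3
      rcases hpre with h3 | h3
      · have := hpc _ hX _ hX0' ((List.prefix_append_right_inj P).2 h3)
        exact List.append_cancel_left this
      · have := hpc _ hX0' _ hX ((List.prefix_append_right_inj P).2 h3)
        exact (List.append_cancel_left this).symm
    subst hQ10
    refine ⟨X2, hX2, hQ0, ?_⟩
    rw [← hT]
    congr 1
    have hlQ : p0 - c k ≤ Q1.length := by
      have := hlen _ hX
      rw [List.length_append] at this
      omega
    have e1 : (P ++ Q1).take p0 = P ++ Q1.take (p0 - c k) := by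
      rw [List.take_append, List.take_of_length_le (by omega), hPk]
    have e2 : (P ++ Q1).drop p0 = Q1.drop (p0 - c k) := by
      rw [List.drop_append, List.drop_eq_nil_of_le (by omega), List.nil_append, hPk]
    have h3 := hex k hk P (Q1.take (p0 - c k)) 1 v v1 hPk hl hr
    rw [mul_one] at h3
    unfold T
    rw [e1, e2, ← h3]
  · intro X X' hX hX' hB hsp v
    obtain ⟨I, hI, hIk⟩ := hco (X.take p0) 1 v (fun k hk => by
      rw [List.length_take]
      have := hcp k hk
      have := hlen X hX
      omega)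
    obtain ⟨k, hkI, hks⟩ : ∃ k ∈ I, k ∉ spoiled XX Bad K c (X ++ X') := by
      by_contra hcon
      push Not at hcon
      have : I ⊆ spoiled XX Bad K c (X ++ X') := fun k hk => hcon k hk
      have := Finset.card_le_card this
      omega
    obtain ⟨hk, hl, hr⟩ := hIk k hkI
    have hck := hcp k hk
    have hXl := hlen X hX
    have hPl : (X.take (c k)).length = c k := by rw [List.length_take]; omega
    rw [List.take_take, min_eq_left hck] at hl
    have hdrop : (X ++ X').drop (c k) = X.drop (c k) ++ X' := by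
      rw [List.drop_append_of_le_length (by omega)]
    refine ⟨k, hk, ⟨k, hk, hPl, hl⟩, k, hk, ⟨X.take (c k), X.drop (c k), hPl,
      List.prefix_append _ _, ?_, ?_⟩, ?_, ?_⟩
    · rw [List.take_append_drop]; exact hX
    · rw [List.take_append_drop]; exact hB
    · intro k' hk' hb
      by_contra hne
      apply hks
      refine Finset.mem_filter.2 ⟨Finset.mem_range.2 hk, k', hk', hne, ?_⟩
      rw [hdrop]
      exact hb
    · have h4 : (X.drop (c k)).take (p0 - c k) = (X.take p0).drop (c k) := by
        rw [List.drop_take]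
      obtain ⟨v1, hv1⟩ := Option.isSome_iff_exists.1 hr
      have h3 := hex k hk (X.take (c k)) ((X.take p0).drop (c k)) 1 v v1 hPl hl hv1
      have h5 : X.take (c k) ++ (X.take p0).drop (c k) = X.take p0 := by
        have := List.take_append_drop (c k) (X.take p0)
        rwa [List.take_take, min_eq_left hck] at this
      rw [mul_one, h5] at h3
      refine ⟨X.take (c k), X.drop (c k), X', v1, hPl, rfl, ?_, hX', ?_, ?_⟩
      · rw [List.take_append_drop]; exact hX
      · rw [h4]; exact hv1
      · have h6 : (X.drop (c k)).drop (p0 - c k) = X.drop p0 := by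
          rw [List.drop_drop]; congr 1; omega
        rw [h6, h3]
        rfl

end Crest.Agent.R320.P3_416
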