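import Crest.Agent.R320.Ruler2_537
import Crest.Agent.R320.Zone2_594

/-!
Row 320, P3: scheme 2 (132's promise ruler) on LEFT-LOOKING blocks, every word.
-/

set_option autoImplicit false

namespace Crest.Agent.R320.P3_916

open Crest.Agent.R320.ThrChain260 Crest.Agent.R320.Ruler2_537

/-- left looking rule with minimal gap `g` -/
structure LR {α : Type*} (W : List α → Prop) (n g : ℕ) : Prop where
  len : ∀ X, W X → n ≤ X.length
  loc : ∀ P Q, n ≤ Q.length → (W (P ++ Q) ↔ W Q)
  gap : ∀ X t, W X → t < X.length → W (X.take t) → g < X.length - t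

section

variable {α : Type*} (Wo Ws : List α → Prop) (M : ℕ) (thr : ℕ → ℕ) (p0 N1 J : ℕ) (A : ℕ → ℕ)
  (Dd r : ℕ) (m : ℕ → ℕ)

/-- tails of blocks, read from `anchor + p0` -/
def YY : Set (List α) :=
  {Y | Wo Y ∧ thr ((p0 + Y.length) % M) ≤ p0 + Y.length ∧
    ∀ t < Y.length, Wo (Y.take t) → ¬ thr ((p0 + t) % M) ≤ p0 + t}

/-- mode (E) -/
def EE (Y : List α) : Prop :=
  ∃ t ≤ Y.length, Wo (Y.take t) ∧ thr ((p0 + t) % M) ≤ p0 + t + N1 ∧
    p0 + t ≤ thr ((p0 + t) % M) + N1

/-- mode (D) -/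
def DD (Y : List α) : Prop :=
  ∃ j < J, ∃ t ≤ Y.length, Ws (Y.take t) ∧ t ≤ A j + Dd ∧ A j ≤ t + Dd

/-- mode (B) -/
def BB (Y : List α) : Prop := ∃ i < r, m i ∣ Y.length / M

/-- bad tails -/
def bd (Y : List α) : Prop := EE Wo M thr p0 N1 Y ∨ DD Ws J A Dd Y ∨ BB M r m Y

/-- a text whose first tail is bad -/
def BdT (Y : List α) : Prop :=
  ∃ b ≤ Y.length, Y.take b ∈ YY Wo M thr p0 ∧ bd Wo Ws M thr p0 N1 J A Dd r m (Y.take b)

variable {Wo Ws M thr p0 N1 J A Dd r m} {no go ns gs : ℕ}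

theorem wall_shift (hW : LR Wo no go) {U : List α} {x t : ℕ} (ht : t ≤ (U.drop x).length)
    (h : no ≤ t) : Wo ((U.drop x).take t) ↔ Wo (U.take (x + t)) := by
  have h1 : U.take (x + t) = U.take x ++ (U.drop x).take t := List.take_add ..
  rw [h1, hW.loc]
  rw [List.length_take]
  omega

/-- word walls as a set of integers -/
def WL (W : List α → Prop) (U : List α) (t : ℤ) : Prop :=
  ∃ y : ℕ, (y : ℤ) = t ∧ y ≤ U.length ∧ W (U.take y)

theorem WL_gap {W : List α → Prop} {n g : ℕ} (hW : LR W n g) (U : List α) (t t' : ℤ)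
    (h : WL W U t) (h' : WL W U t') (hlt : t < t') : (g : ℤ) < t' - t := by
  obtain ⟨y, rfl, hy, hy'⟩ := h
  obtain ⟨z, rfl, hz, hz'⟩ := h'
  have h1 : y < z := by exact_mod_cast hlt
  have h2 := hW.gap (U.take z) y hz' (by rw [List.length_take]; omega)
    (by rw [List.take_take, min_eq_left h1.le]; exact hy')
  rw [List.length_take, min_eq_left hz] at h2
  omega

theorem qual_iff' {P : Par} (hM : P.M = (M : ℤ))
    (hthr : ∀ y : ℕ, (thr (y % M) : ℤ) = P.z + P.s (((y : ℤ) - P.z) % P.M))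
    {U : List α} {a' t : ℤ} {y : ℕ} (hy : (y : ℤ) = t - a') :
    Qual P (WL Wo U) a' t ↔ WL Wo U t ∧ thr (y % M) ≤ y := by
  unfold Qual
  have h1 := hthr y
  rw [hy] at h1
  constructor
  · rintro ⟨h2, h3⟩
    refine ⟨h2, ?_⟩
    zify
    rw [h1, hy]
    linarith
  · rintro ⟨h2, h3⟩
    refine ⟨h2, ?_⟩
    zify at h3
    rw [h1, hy] at h3
    linarith

theorem bad_of_BdT {P : Par} (hM : P.M = (M : ℤ)) (hp : P.p0 = (p0 : ℤ)) (hN : P.N1 = (N1 : ℤ))
    (hthr : ∀ y : ℕ, (thr (y % M) : ℤ) = P.z + P.s (((y : ℤ) - P.z) % P.M))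
    (hlow : ∀ y, p0 + no < thr y)
    (hWo : LR Wo no go) (hWs : LR Ws ns gs) {U : List α} {x : ℕ} {a' : ℤ}
    (hx : (x : ℤ) = a' + p0)
    (h : BdT Wo Ws M thr p0 N1 J A Dd r m (U.drop x)) :
    Bad P (WL Wo U) (WL Ws U) (fun j => (p0 : ℤ) + A j) Dd J (fun i => (m i : ℤ)) r a' := by
  obtain ⟨b, hb, ⟨hY1, hY2, hY3⟩, hbd⟩ := h
  have hbl : ((U.drop x).take b).length = b := by rw [List.length_take]; omega
  rw [hbl] at hY2 hY3
  have hdl : (U.drop x).length = U.length - x := List.length_drop ..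
  have hb0 : 0 < b := by have := hlow ((p0 + b) % M); omega
  have hxU : x ≤ U.length := by omega
  -- walls of the tail are walls of the text
  have key : ∀ {W : List α → Prop} {n g : ℕ}, LR W n g → ∀ t ≤ b, W (((U.drop x).take b).take t) →
      WL W U ((x + t : ℕ) : ℤ) := by
    intro W n g hW t ht hw
    rw [List.take_take, min_eq_left ht] at hw
    have h1 := hW.len _ hw
    rw [List.length_take, min_eq_left (by omega)] at h1
    exact ⟨x + t, rfl, by omega, (wall_shift hW (by omega) h1).1 hw⟩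
  have hIsN : IsN P (WL Wo U) a' ((x + b : ℕ) : ℤ) := by
    constructor
    · rw [qual_iff' hM hthr (y := p0 + b) (by push_cast; linarith)]
      refine ⟨key hWo b le_rfl (by rw [List.take_take, min_self]; exact hY1), hY2⟩
    · intro t' ht' hq
      obtain ⟨y, hy, hyU, hyW⟩ := hq.1
      -- t' - a' ≥ 0
      have hge : (0 : ℤ) ≤ t' - a' ∨ t' - a' < 0 := le_or_gt _ _
      rcases hge with hge | hge
      · obtain ⟨w, hw⟩ := Int.eq_ofNat_of_zero_le hge
        rw [qual_iff' hM hthr (y := w) hw.symm] at hq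
        have h3 := hlow (w % M)
        have h4 := hq.2
        have h5 : ∃ t : ℕ, w = p0 + t ∧ no ≤ t := ⟨w - p0, by omega, by omega⟩
        obtain ⟨t, rfl, hnt⟩ := h5
        have h6 : y = x + t := by
          have : (y : ℤ) = x + t := by push_cast at hw; linarith
          exact_mod_cast this
        have h7 : t < b := by
          have : ((x + t : ℕ) : ℤ) < ((x + b : ℕ) : ℤ) := by rw [← h6, hy]; exact ht'
          have := Int.ofNat_lt.1 this
          omega
        refine hY3 t h7 ?_ h4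
        rw [List.take_take, min_eq_left h7.le, wall_shift hWo (by omega) hnt, ← h6]
        exact hyW
      · -- negative distance: threshold is positive
        have h3 := hq.2
        have h4 : ∃ w : ℕ, ((w : ℤ) - P.z) % P.M = (t' - a' - P.z) % P.M := by
          have hMp : (0 : ℤ) < P.M := P.hM
          refine ⟨((t' - a') % P.M).toNat, ?_⟩
          rw [Int.toNat_of_nonneg (Int.emod_nonneg _ hMp.ne'), Int.sub_emod, Int.emod_emod,
            ← Int.sub_emod]
        obtain ⟨w, hw⟩ := h4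
        have h5 := hthr w
        rw [hw] at h5
        have h6 := hlow (w % M)
        have h7 : (0 : ℤ) < thr (w % M) := by
          have : 0 < thr (w % M) := by omega
          exact_mod_cast this
        linarith
  rcases hbd with hE | hD | hB
  · left
    obtain ⟨t, ht, hw, h1, h2⟩ := hE
    rw [hbl] at ht
    refine ⟨((x + t : ℕ) : ℤ), key hWo t ht hw, ?_⟩
    have h3 := hthr (p0 + t)
    have h4 : (((p0 + t : ℕ) : ℤ) - P.z) = (((x + t : ℕ) : ℤ) - a' - P.z) := by
      push_cast; linarith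
    rw [h4] at h3
    have h5 : P.s ((((x + t : ℕ) : ℤ) - a' - P.z) % P.M) = thr ((p0 + t) % M) - P.z := by linarith
    rw [h5, hN, abs_le]
    zify at h1 h2
    push_cast
    constructor <;> linarith
  · right; left
    obtain ⟨j, hj, t, ht, hw, h1, h2⟩ := hD
    rw [hbl] at ht
    refine ⟨j, hj, ((x + t : ℕ) : ℤ), key hWs t ht hw, ?_⟩
    zify at h1 h2
    rw [abs_le]
    push_cast
    constructor <;> linarith
  · right; right
    obtain ⟨i, hi, hdv⟩ := hB
    rw [hbl] at hdv
    refine ⟨i, hi, ((x + b : ℕ) : ℤ), hIsN, ?_⟩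
    have h4 : (((x + b : ℕ) : ℤ) - a' - P.p0) = (b : ℤ) := by rw [hp]; push_cast; linarith
    rw [h4, hM]
    change (m i : ℤ) ∣ (b : ℤ) / (M : ℤ)
    exact_mod_cast hdv

open Finset in
/-- **(1)** at most `1 + J + 2 r` places of the ruler are spoiled, every word. -/
theorem spoil {P : Par} (hM : P.M = (M : ℤ)) (hp : P.p0 = (p0 : ℤ)) (hN : P.N1 = (N1 : ℤ))
    (hthr : ∀ y : ℕ, (thr (y % M) : ℤ) = P.z + P.s (((y : ℤ) - P.z) % P.M))
    (hlow : ∀ y, p0 + no < thr y)
    (hWo : LR Wo no go) (hWs : LR Ws ns gs)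
    (hgo : 2 * (P.S + P.L) ≤ go) (hgs : 2 * ((Dd : ℤ) + P.L) ≤ gs)
    {K : ℕ} {c : ℕ → ℕ} (hc : ∀ i j, i < j → j < K → c i < c j) (hcp : ∀ k < K, c k ≤ p0)
    (hR : Ruler2 P (Dd : ℤ) (fun i => (m i : ℤ)) r ((range K).image fun k => (c k : ℤ)))
    (U : List α)
    [DecidablePred fun k => ∃ k' < K, k' ≠ k ∧
      BdT Wo Ws M thr p0 N1 J A Dd r m (U.drop (p0 + c k - c k'))] :
    ((range K).filter fun k => ∃ k' < K, k' ≠ k ∧
      BdT Wo Ws M thr p0 N1 J A Dd r m (U.drop (p0 + c k - c k'))).card ≤ 1 + J + 2 * r := by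
  classical
  have hinj : ∀ i j, i < K → j < K → c i = c j → i = j := by
    intro i j hi hj h
    rcases lt_trichotomy i j with h1 | h1 | h1
    · exact absurd h (ne_of_lt (hc i j h1 hj))
    · exact h1
    · exact absurd h (ne_of_gt (hc j i h1 hi))
  have h1 := card_spoiled (P := P) (Wl := WL Wo U) (Ws := WL Ws U)
    (A := fun j => (p0 : ℤ) + A j) (D := (Dd : ℤ)) (K := J) (m := fun i => (m i : ℤ)) (r := r)
    (C := (range K).image fun k => (c k : ℤ)) hR
    (fun t t' h h' hlt => lt_of_le_of_lt hgo (WL_gap hWo U t t' h h' hlt))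
    (fun t t' h h' hlt => lt_of_le_of_lt hgs (WL_gap hWs U t t' h h' hlt)) 0
  refine le_trans ?_ h1
  refine Finset.card_le_card_of_injOn (fun k => (c k : ℤ)) ?_ ?_
  · intro k hk
    simp only [coe_filter, mem_range, Set.mem_setOf_eq] at hk
    obtain ⟨hkK, k', hk', hne, hb⟩ := hk
    simp only [coe_filter, Set.mem_setOf_eq, mem_image, mem_range]
    refine ⟨⟨k, hkK, rfl⟩, (c k' : ℤ), ⟨k', hk', rfl⟩, ?_, ?_⟩
    · intro h
      exact hne (hinj _ _ hk' hkK (by exact_mod_cast h))
    · refine bad_of_BdT hM hp hN hthr hlow hWo hWs (x := p0 + c k - c k') ?_ hb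
      have := hcp k' hk'
      rw [Nat.cast_sub (by omega)]
      push_cast
      ring
  · intro k hk k' hk' h
    simp only [coe_filter, mem_range, Set.mem_setOf_eq] at hk hk'
    change (c k : ℤ) = (c k' : ℤ) at h
    exact hinj _ _ hk.1 hk'.1 (by exact_mod_cast h)

end

section scheme

open Finset Crest.Agent.R320.ExactR_237 Crest.Agent.R320.Zone2_594

/-- **(2)** scheme 2, abstract in the badness of tails. -/
theorem scheme2 (α S V : Type) [Monoid S] [Fintype S] [Fintype V] [AddCommGroup V]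
    (f : α → S) (act : V → S → V) (C0 : ℕ) :
    ∃ K : ℕ, ∀ (c : ℕ → ℕ) (p0 : ℕ), (∀ i j, i < j → j < K → c i < c j) →
      (∀ k < K, c k ≤ p0) → ∀ (Bt : List α → Prop),
      (∀ U : List α, ∀ F : Finset ℕ, (∀ k ∈ F, k < K ∧ ∃ k' < K, k' ≠ k ∧
        Bt (U.drop (p0 + c k - c k'))) → F.card ≤ C0) →
      ∃ (L2 : List α → Option V) (R2 : List α → Option (ℕ × V)) (nu2 : List α → V),
        (∀ (P Q : List α) (v : V) (d : ℕ) (w : V), L2 P = some v → R2 Q = some (d, w) →
          Bt ((P ++ Q).drop p0) → P.length + d = p0 ∧ p0 ≤ (P ++ Q).length ∧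
            w = act v (pr f ((P ++ Q).take p0)) + nu2 ((P ++ Q).take p0)) ∧
        (∀ (P : List α) (v : V), L2 P = some v → ∃ k < K, P.length = c k) ∧
        (∀ (U : List α) (v : V), p0 ≤ U.length → Bt (U.drop p0) →
          ∃ k < K, L2 (U.take (c k)) = some v ∧ (R2 (U.drop (c k))).isSome) ∧
        (∀ Q Q' : List α, p0 ≤ Q.length → p0 ≤ Q'.length → Q.take p0 = Q'.take p0 →
          (∀ k < K, (Bt (Q.drop (p0 - c k)) ↔ Bt (Q'.drop (p0 - c k)))) → R2 Q = R2 Q') := by
  classical
  obtain ⟨K, hK⟩ := Zone2_594.scheme2 α S V f act C0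
  refine ⟨K, fun c p0 hc hcp Bt hsp => ?_⟩
  obtain ⟨LL, RR, nu, h1, h2, h3, h4⟩ := hK c p0 hc hcp (fun U => Bt (U.drop p0))
    (fun k Q => Bt (Q.drop (p0 - k))) (fun U => if p0 ≤ U.length then some p0 else none)
    (fun k Q => if p0 ≤ k + Q.length then some (p0 - k) else none) (fun _ => 1)
    (by
      intro P Q hP
      have : (P ++ Q).drop p0 = Q.drop (p0 - P.length) := by
        rw [List.drop_append, List.drop_of_length_le hP, List.nil_append]
      simp only [this])
    (by
      intro P Q hP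
      simp only [List.length_append]
      by_cases h : p0 ≤ P.length + Q.length
      · simp only [h, if_true, Option.map_some]
        congr 1
        omega
      · simp only [h, if_false, Option.map_none])
    (by
      intro U _ _ _
      apply hsp U
      intro k hk
      unfold spoiled at hk
      rw [mem_filter, mem_range] at hk
      obtain ⟨hk1, k', hk', hne, hb⟩ := hk
      refine ⟨hk1, k', hk', hne, ?_⟩
      rw [List.drop_drop] at hb
      have := hcp k' hk'
      rw [show p0 + c k - c k' = c k + (p0 - c k') by omega]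
      exact hb)
  refine ⟨LL, RR, fun X => nu X 1, ?_, h2, ?_, ?_⟩
  · intro P Q v d w hP hQ hB
    obtain ⟨h5, h6⟩ := h1 P Q v d w hP hQ hB
    by_cases h : p0 ≤ (P ++ Q).length
    · simp only [h, if_true, Option.some.injEq] at h5
      refine ⟨h5.symm, h, ?_⟩
      rw [h6, mul_one]
    · simp only [h, if_false] at h5
      exact absurd h5 (by simp)
  · intro U v hU hB
    exact h3 U v hU hB (by simp [hU])
  · intro Q Q' hQ hQ' ht hk
    refine h4 Q Q' hk ?_ ht (fun _ _ => rfl)
    intro k _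
    have e1 : p0 ≤ c k + Q.length := by omega
    have e2 : p0 ≤ c k + Q'.length := by omega
    simp only [e1, e2, if_true]

end scheme

section blocks

variable {α : Type*} (Wo : List α → Prop) (M : ℕ) (thr : ℕ → ℕ)

/-- the block code -/
def XX : Set (List α) :=
  {X | Wo X ∧ thr (X.length % M) ≤ X.length ∧
    ∀ t < X.length, Wo (X.take t) → ¬ thr (t % M) ≤ t}

variable {Wo M thr} {no go p0 : ℕ}

theorem XX_prefix {X Y : List α} (hX : X ∈ XX Wo M thr) (hY : Y ∈ XX Wo M thr) (h : X <+: Y) :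
    X = Y := by
  obtain ⟨Z, rfl⟩ := h
  by_contra hne
  have hlt : X.length < (X ++ Z).length := by
    rw [List.length_append]
    have : Z ≠ [] := by
      rintro rfl
      exact hne (by simp)
    have := List.length_pos_iff.2 this
    omega
  refine hY.2.2 X.length hlt ?_ hX.2.1
  rw [List.take_left]
  exact hX.1

theorem mem_XX_iff (hW : LR Wo no go) (hlow : ∀ y, p0 + no < thr y) {X1 Y : List α}
    (h1 : X1.length = p0) : X1 ++ Y ∈ XX Wo M thr ↔ Y ∈ YY Wo M thr p0 := by
  have hl : (X1 ++ Y).length = p0 + Y.length := by rw [List.length_append, h1]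
  constructor
  · rintro ⟨h2, h3, h4⟩
    rw [hl] at h3 h4
    have h5 := hlow ((p0 + Y.length) % M)
    refine ⟨(hW.loc _ _ (by omega)).1 h2, h3, ?_⟩
    intro t ht hw hq
    have h6 := hlow ((p0 + t) % M)
    refine h4 (p0 + t) (by omega) ?_ hq
    rw [← h1, List.take_length_add_append, hW.loc _ _ (by rw [List.length_take]; omega)]
    exact hw
  · rintro ⟨h2, h3, h4⟩
    have h5 := hlow ((p0 + Y.length) % M)
    refine ⟨(hW.loc _ _ (by omega)).2 h2, by rw [hl]; exact h3, ?_⟩
    intro t ht hw hq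
    rw [hl] at ht
    have h6 := hlow (t % M)
    obtain ⟨s, rfl⟩ : ∃ s, t = p0 + s := ⟨t - p0, by omega⟩
    refine h4 s (by omega) ?_ hq
    rw [← h1, List.take_length_add_append, hW.loc _ _ (by rw [List.length_take]; omega)] at hw
    exact hw

theorem XX_split (hW : LR Wo no go) (hlow : ∀ y, p0 + no < thr y) {X : List α}
    (hX : X ∈ XX Wo M thr) : (X.take p0).length = p0 ∧ X.drop p0 ∈ YY Wo M thr p0 := by
  have h1 : (X.take p0).length = p0 := by
    rw [List.length_take]
    have := hlow (X.length % M)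
    have := hX.2.1
    omega
  refine ⟨h1, ?_⟩
  rw [← mem_XX_iff hW hlow h1, List.take_append_drop]
  exact hX

theorem YY_unique {Y : List α} {a b : ℕ} (ha : a ≤ Y.length) (hb : b ≤ Y.length)
    (h1 : Y.take a ∈ YY Wo M thr p0) (h2 : Y.take b ∈ YY Wo M thr p0) : a = b := by
  have key : ∀ {a b : ℕ}, a ≤ Y.length → b ≤ Y.length → Y.take a ∈ YY Wo M thr p0 →
      Y.take b ∈ YY Wo M thr p0 → ¬ a < b := by
    intro a b ha hb h1 h2 hlt
    have e1 : (Y.take a).length = a := by rw [List.length_take]; omega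
    have e2 : (Y.take b).length = b := by rw [List.length_take]; omega
    have h3 := h1.2.1
    rw [e1] at h3
    refine h2.2.2 a (by rw [e2]; exact hlt) ?_ h3
    rw [List.take_take, min_eq_left hlt.le]
    exact h1.1
  rcases lt_trichotomy a b with h | h | h
  · exact absurd h (key ha hb h1 h2)
  · exact h
  · exact absurd h (key hb ha h2 h1)

/-- a text which ends in a wall far away contains a tail -/
theorem exists_tail {Y : List α} (hw : Wo Y) (hq : thr ((p0 + Y.length) % M) ≤ p0 + Y.length) :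
    ∃ b ≤ Y.length, Y.take b ∈ YY Wo M thr p0 := by
  classical
  have hex : ∃ b, b ≤ Y.length ∧ Wo (Y.take b) ∧ thr ((p0 + b) % M) ≤ p0 + b :=
    ⟨Y.length, le_rfl, by rw [List.take_length]; exact hw, hq⟩
  obtain ⟨h1, h2, h3⟩ := Nat.find_spec hex
  refine ⟨Nat.find hex, h1, h2, ?_, ?_⟩
  · rw [List.length_take, min_eq_left h1]; exact h3
  · intro t ht hw' hq'
    rw [List.length_take, min_eq_left h1] at ht
    refine Nat.find_min hex ht ⟨by omega, ?_, hq'⟩
    rw [List.take_take, min_eq_left ht.le] at hw'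
    exact hw'

/-- **(3)** visibility: inside two blocks every candidate anchor has its tail. -/
theorem visible (hW : LR Wo no go) (hlow : ∀ y, p0 + no < thr y) {lo : ℕ}
    (hlo : ∀ y, lo ≤ thr y) (hhi : ∀ y, thr y + p0 ≤ 2 * lo)
    {X X2 : List α} (hX : X ∈ XX Wo M thr) (hX2 : X2 ∈ XX Wo M thr) {x : ℕ} (hx : x ≤ 2 * p0) :
    ∃ b ≤ ((X ++ X2).drop x).length, ((X ++ X2).drop x).take b ∈ YY Wo M thr p0 := by
  have h1 := hX.2.1
  have h2 := hX2.2.1
  have h3 := hlo (X.length % M)
  have h4 := hlo (X2.length % M)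
  have h5 := hlow (X.length % M)
  have h6 := hlow (X2.length % M)
  have hl : ((X ++ X2).drop x).length = X.length + X2.length - x := by
    rw [List.length_drop, List.length_append]
  apply exists_tail
  · have h7 : Wo (X ++ X2) := (hW.loc _ _ (by omega)).2 hX2.1
    have h8 : X ++ X2 = (X ++ X2).take x ++ (X ++ X2).drop x := (List.take_append_drop _ _).symm
    rw [h8, hW.loc] at h7
    · exact h7
    · rw [hl]; omega
  · have h9 := hhi ((p0 + ((X ++ X2).drop x).length) % M)
    rw [hl] at h9 ⊢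
    omega

end blocks

end Crest.Agent.R320.P3_916
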