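import Crest.Agent.R320.Top5_163
import Crest.Agent.R320.Joint_487
import Crest.Agent.R320.P4N_211

/-!
# Row 320: the six height-1 statements of `Top5_163.top` for the definitions of `Joint_487` (helper163)
-/

set_option autoImplicit false
set_option linter.unusedVariables false

namespace Crest.Agent.R320.P4J_163

open Crest.RegLang Crest.Agent.R320.Hgt1_903
open Crest.Agent.R320.CompR_11 (Pieces)

variable {α S V : Type}

/-- finite-state function: depends on the first `A` letters, the length mod `M`, the value of the rest -/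
def FS {β : Type*} (φ : List α → S) (A M : ℕ) (g : List α → β) : Prop :=
  ∀ u u' : List α, A ≤ u.length → A ≤ u'.length → u.take A = u'.take A →
    u.length % M = u'.length % M → φ (u.drop A) = φ (u'.drop A) → g u = g u'

theorem take_red {K : ℕ} {X X' : List α} (h : X.take K = X'.take K) :
    X = X' ∨ (K ≤ X.length ∧ K ≤ X'.length) := by
  have hl := congrArg List.length h
  rw [List.length_take, List.length_take] at hl
  rcases le_or_gt K X.length with h1 | h1
  · rcases le_or_gt K X'.length with h2 | h2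
    · exact Or.inr ⟨h1, h2⟩
    · omega
  · left
    rw [List.take_of_length_le h1.le, List.take_of_length_le (by omega)] at h
    exact h

theorem take_le {K a : ℕ} (ha : a ≤ K) {X X' : List α} (h : X.take K = X'.take K) :
    X.take a = X'.take a := by
  have := congrArg (List.take a) h
  rwa [List.take_take, List.take_take, min_eq_left ha] at this

theorem drop_take_eq {K a : ℕ} {X X' : List α} (h : X.take K = X'.take K) (b : ℕ) (hb : a + b ≤ K) :
    (X.drop a).take b = (X'.drop a).take b := by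
  have h1 := take_le hb h
  have := congrArg (List.drop a) h1
  rwa [List.drop_take, List.drop_take, Nat.add_sub_cancel_left] at this

theorem mod_sub {M a x y : ℕ} (hx : a ≤ x) (hy : a ≤ y) (h : x % M = y % M) :
    (x - a) % M = (y - a) % M := by
  have h1 : x ≡ y [MOD M] := h
  have h2 : (x - a) + a ≡ (y - a) + a [MOD M] := by
    rwa [Nat.sub_add_cancel hx, Nat.sub_add_cancel hy]
  exact Nat.ModEq.add_right_cancel' a h2

section FSlemmas

variable [Monoid S] {φ : List α → S} (hφ : ∀ u v, φ (u ++ v) = φ u * φ v)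

include hφ in
/-- the value of a drop -/
theorem FS_drop (a : ℕ) {A K M : ℕ} (haA : a + A ≤ K) {β : Type*} {g : List α → β}
    (hg : FS φ A M g) : FS φ K M (fun X => g (X.drop a)) := by
  intro X X' h1 h2 h3 h4 h5
  refine hg _ _ (by rw [List.length_drop]; omega) (by rw [List.length_drop]; omega)
    (drop_take_eq h3 A haA) ?_ ?_
  · rw [List.length_drop, List.length_drop]
    exact mod_sub (by omega) (by omega) h4
  · have e : ∀ Y : List α, (Y.drop a).drop A = ((Y.drop (a + A)).take (K - (a + A))) ++ Y.drop K := by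
      intro Y
      rw [List.drop_drop]
      conv_lhs => rw [← List.take_append_drop (K - (a + A)) (Y.drop (a + A))]
      rw [List.drop_drop, Nat.add_sub_cancel' haA]
    rw [e, e, hφ, hφ, h5, drop_take_eq h3 (K - (a + A)) (by omega)]

include hφ in
theorem FS_mono {A K M : ℕ} (hA : A ≤ K) {β : Type*} {g : List α → β}
    (hg : FS φ A M g) : FS φ K M g := by
  have := FS_drop hφ 0 (by omega : 0 + A ≤ K) hg
  simpa using this

theorem FS_take {a K M : ℕ} (ha : a ≤ K) {β : Type*} (g : List α → β) :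
    FS φ K M (fun X => g (X.take a)) := by
  intro X X' h1 h2 h3 h4 h5
  show g _ = g _
  rw [take_le ha h3]

theorem FS_val (M : ℕ) {β : Type*} (g : S → β) : FS φ 0 M (fun X => g (φ X)) := by
  intro X X' h1 h2 h3 h4 h5
  show g _ = g _
  simpa using congrArg g h5

theorem FS_len {K M : ℕ} {g : ℕ → Prop} (hg : ∀ a b, K ≤ a → K ≤ b → a % M = b % M → (g a ↔ g b)) :
    FS φ K M (fun X => g X.length) := by
  intro X X' h1 h2 h3 h4 h5
  exact propext (hg _ _ h1 h2 h4)

theorem FS_map2 {K M : ℕ} {β γ δ : Type*} {g : List α → β} {h : List α → γ} (f : β → γ → δ)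
    (hg : FS φ K M g) (hh : FS φ K M h) : FS φ K M (fun X => f (g X) (h X)) := by
  intro X X' h1 h2 h3 h4 h5
  show f _ _ = f _ _
  rw [hg X X' h1 h2 h3 h4 h5, hh X X' h1 h2 h3 h4 h5]

end FSlemmas

section HXX

variable [Finite α] [Monoid S] [Finite S] {φ : List α → S} (hφ : ∀ u v, φ (u ++ v) = φ u * φ v)
  {Wo : List α → Prop} {n z R B : ℕ}
  (loc : ∀ P Q : List α, n ≤ Q.length → (Wo (P ++ Q) ↔ Wo Q))
  (len : ∀ P : List α, Wo P → n ≤ P.length)
  (pcs : ∀ u : List α, (∀ t < u.length, ¬ Wo (u.take t)) → Pieces R B u)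

include hφ loc len pcs in
/-- blocks with a finite-state value -/
theorem hXF {β : Type} {K M : ℕ} (hM : 0 < M) (g : List α → β) (hg : FS φ K M g) (v' : β) (z : ℕ) :
    H 1 ({X | X ∈ Joint_487.XX Wo z ∧ g X = v'} : Language α) := by
  have key : ∀ X X' : List α, X.take K = X'.take K → X.length % M = X'.length % M →
      φ (X.drop K) = φ (X'.drop K) → g X = g X' := by
    intro X X' h1 h2 h3
    rcases take_red h1 with rfl | ⟨h4, h5⟩
    · rfl
    · exact hg X X' h4 h5 h1 h2 h3
  have h : Crest.Agent.R320.Hk_851.HL 1 ({X | X ∈ P4N_211.XX Wo z ∧ g X = v'} : Language α) :=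
    P4N_211.hXT' hφ loc len pcs g K M K hM key v'
  refine H.congr (L := ({X | X ∈ P4N_211.XX Wo z ∧ g X = v'} : Language α)) h fun w => ?_
  constructor
  · rintro ⟨⟨a, b, c⟩, d⟩
    exact ⟨⟨b, a, c⟩, d⟩
  · rintro ⟨⟨a, b, c⟩, d⟩
    exact ⟨⟨b, a, c⟩, d⟩

end HXX

theorem hall {n : ℕ} (m : ℕ) (f : ℕ → Language α) (h : ∀ k < m, H n (f k)) :
    H n ({w | ∀ k < m, w ∈ f k} : Language α) := by
  refine H.congr (H.not (H.exists_finset (Finset.range m) (fun k => ({w | ¬ w ∈ f k} : Language α))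
    fun k hk => (h k (Finset.mem_range.1 hk)).not)) fun w => ?_
  constructor
  · intro h1 k hk
    by_contra h2
    exact h1 ⟨k, Finset.mem_range.2 hk, h2⟩
  · rintro h1 ⟨k, hk, h2⟩
    exact h2 (h1 k (Finset.mem_range.1 hk))

theorem hex {n : ℕ} (m : ℕ) (f : ℕ → Language α) (h : ∀ k < m, H n (f k)) :
    H n ({w | ∃ k < m, w ∈ f k} : Language α) := by
  refine H.congr (H.exists_finset (Finset.range m) f
    fun k hk => h k (Finset.mem_range.1 hk)) fun w => ?_
  constructor
  · rintro ⟨k, hk, h1⟩; exact ⟨k, Finset.mem_range.1 hk, h1⟩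
  · rintro ⟨k, hk, h1⟩; exact ⟨k, Finset.mem_range.2 hk, h1⟩

section Six

variable [Finite α] [Monoid S] [Finite S] [AddCommGroup V] [Finite V] {φ : List α → S}
  (hφ : ∀ u v, φ (u ++ v) = φ u * φ v)
  {Wo : List α → Prop} {n z R B : ℕ}
  (loc : ∀ P Q : List α, n ≤ Q.length → (Wo (P ++ Q) ↔ Wo Q))
  (len : ∀ P : List α, Wo P → n ≤ P.length)
  (pcs : ∀ u : List α, (∀ t < u.length, ¬ Wo (u.take t)) → Pieces R B u)
  {act : V → S → V} {N p0 K0 A M : ℕ} {c : ℕ → ℕ} {Bad : ℕ → Prop}
  {lam rho : List α → Option V} {nu1 nu2 : List α → V} {lam2 rho2 : ℕ → List α → Option V}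
  (hM : 0 < M) (hnu : FS φ A M nu1) (hrho : FS φ A M rho)
  (hBad : ∀ a b, A ≤ a → A ≤ b → a % M = b % M → (Bad a ↔ Bad b))
  (hz : p0 ≤ z) (hc : ∀ k < K0, c k ≤ p0)

include hφ hnu in
theorem FS_pair : FS φ A M (fun Y => ((φ Y, nu1 Y) : S × V)) :=
  FS_map2 (fun a b => (a, b)) (FS_mono hφ (Nat.zero_le A) (FS_val M (fun x => x))) hnu

include hφ loc len pcs hM hnu in
theorem six_XT (v v' : V) :
    H 1 ({X | X ∈ Joint_487.XX Wo z ∧ Joint_487.T act φ p0 nu2 nu1 v X = v'} : Language α) := by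
  refine hXF hφ loc len pcs hM (K := p0 + A) (fun X => Joint_487.T act φ p0 nu2 nu1 v X) ?_ v' z
  exact FS_map2 (fun (m : V) (p : S × V) => act m p.1 + p.2)
    (FS_take (Nat.le_add_right p0 A) (fun y => act v (φ y) + nu2 y))
    (FS_drop hφ p0 (le_refl (p0 + A)) (FS_pair hφ hnu))

include hφ loc len pcs in
theorem six_NP (s : S) :
    H 1 ({r | (∀ X ∈ Joint_487.XX Wo z, ¬ X <+: r) ∧ φ r = s} : Language α) := by
  have h : Crest.Agent.R320.Hk_851.HL 1
      ({r | (∀ X ∈ P4N_211.XX Wo z, ¬ X <+: r) ∧ φ r = s} : Language α) :=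
    P4N_211.hNP hφ loc len pcs s
  refine H.congr (L := ({r | (∀ X ∈ P4N_211.XX Wo z, ¬ X <+: r) ∧ φ r = s} : Language α)) h
    fun w => ?_
  constructor
  · rintro ⟨h1, h2⟩
    exact ⟨fun X hX => h1 X ⟨hX.2.1, hX.1, hX.2.2⟩, h2⟩
  · rintro ⟨h1, h2⟩
    exact ⟨fun X hX => h1 X ⟨hX.2.1, hX.1, hX.2.2⟩, h2⟩

omit [Finite S] [Finite V] [Monoid S] in
theorem six_L1 (hlam : ∀ p v, lam p = some v → p.length ≤ N) (v : V) :
    H 1 ({P | Joint_487.LP1 act φ lam nu2 p0 v P} : Language α) := by
  refine H.bounded 1 (p0 + N) fun w hw => ?_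
  have := hlam _ _ hw.2
  rw [List.length_drop] at this
  omega

omit [Finite S] [Finite V] [Monoid S] [AddCommGroup V] in
theorem six_L2 (hc : ∀ k < K0, c k ≤ p0) (v : V) :
    H 1 ({P | Joint_487.LP2 K0 c lam2 v P} : Language α) := by
  refine H.bounded 1 p0 fun w hw => ?_
  obtain ⟨k, hk, h1, -⟩ := hw
  have := hc k hk
  omega

include hφ loc len pcs hM hrho in
theorem six_Q1 (b : V) :
    H 1 ({Q | Joint_487.RQ1 Wo rho N z p0 b Q} : Language α) := by
  classical
  have h1 := hXF (β := Option V) hφ loc len pcs hM (K := max A z)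
    (fun Q => if z ≤ p0 + Q.length then rho Q else none) (by
      intro X X' h1 h2 h3 h4 h5
      have e1 : z ≤ p0 + X.length := by have := le_max_right A z; omega
      have e2 : z ≤ p0 + X'.length := by have := le_max_right A z; omega
      show (if _ then _ else _) = (if _ then _ else _)
      rw [if_pos e1, if_pos e2]
      exact FS_mono hφ (le_max_left A z) hrho X X' h1 h2 h3 h4 h5) (some b) (z - p0 - N)
  refine H.congr h1 fun Q => ?_
  constructor
  · rintro ⟨⟨a1, a2, a3⟩, a4⟩
    change (if z ≤ p0 + Q.length then rho Q else none) = some b at a4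
    split_ifs at a4 with h
    exact ⟨a1, h, fun t ht => a3 t (by omega), a4⟩
  · rintro ⟨a1, a2, a3, a4⟩
    refine ⟨⟨a1, by omega, fun t ht => a3 t (by omega)⟩, ?_⟩
    show (if z ≤ p0 + Q.length then rho Q else none) = some b
    rw [if_pos a2, a4]

/-- badness of a candidate block as seen from the place `c` -/
def gk (Wo : List α → Prop) (Bad : ℕ → Prop) (N z p0 c : ℕ) (Q1 : List α) : Prop :=
  (∃ s, s ≤ Q1.length ∧ z ≤ c + s + N ∧ c + s < z ∧ Wo (Q1.take s)) ∨ c + Q1.length < z + N ∨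
    Bad (c + Q1.length - p0)

omit [Finite α] [Finite S] [Finite V] [AddCommGroup V] [Monoid S] in
include hBad in
theorem FS_gk (ck : ℕ) :
    FS φ (z + N + A + p0) M (gk Wo Bad N z p0 ck) := by
  intro X X' h1 h2 h3 h4 h5
  apply propext
  unfold gk
  have e1 : ∀ s, ck + s < z → X.take s = X'.take s := fun s hs => take_le (by omega) h3
  have e2 : Bad (ck + X.length - p0) ↔ Bad (ck + X'.length - p0) := by
    refine hBad _ _ (by omega) (by omega) ?_
    refine mod_sub (by omega) (by omega) ?_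
    exact Nat.ModEq.add_left ck h4
  rw [e2]
  constructor
  · rintro (⟨s, a1, a2, a3, a4⟩ | h | h)
    · exact Or.inl ⟨s, by omega, a2, a3, by rwa [← e1 s a3]⟩
    · omega
    · exact Or.inr (Or.inr h)
  · rintro (⟨s, a1, a2, a3, a4⟩ | h | h)
    · exact Or.inl ⟨s, by omega, a2, a3, by rwa [e1 s a3]⟩
    · omega
    · exact Or.inr (Or.inr h)

omit [Finite α] [Finite S] [Finite V] [AddCommGroup V] [Monoid S] in
theorem end_iff {Q : List α} {k t : ℕ} (ht : t ≤ Q.length) :
    Joint_487.IsEnd Wo z c Q k t ↔ Q.take t ∈ Joint_487.XX Wo (z - c k) := by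
  have hl : (Q.take t).length = t := by rw [List.length_take]; omega
  constructor
  · rintro ⟨a1, a2, a3, a4⟩
    refine ⟨a3, by rw [hl]; omega, fun s hs hst => ?_⟩
    rw [hl] at hst
    rw [List.take_take, min_eq_left hst.le]
    exact a4 s (by omega) hst
  · rintro ⟨a1, a2, a3⟩
    rw [hl] at a2
    refine ⟨ht, by omega, a1, fun s hs hst => ?_⟩
    have := a3 s (by omega) (by rw [hl]; exact hst)
    rwa [List.take_take, min_eq_left hst.le] at this

include hφ loc len pcs hM hBad in
theorem h_CB (k : ℕ) : H 1 ({Q | Joint_487.CB Wo Bad N z p0 c Q k} : Language α) := by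
  have h1 := hXF (β := Prop) hφ loc len pcs hM (gk Wo Bad N z p0 (c k))
    (FS_gk (φ := φ) (Wo := Wo) (z := z) (N := N) (p0 := p0) hBad (c k)) True (z - c k)
  refine H.congr (H.cat h1 (H.univ 1)) fun Q => ?_
  constructor
  · rintro ⟨Q1, Q2, rfl, ⟨hX, hg⟩, -⟩
    have hg' : gk Wo Bad N z p0 (c k) Q1 := of_eq_true hg
    have hE : Joint_487.IsEnd Wo z c (Q1 ++ Q2) k Q1.length := by
      rw [end_iff (by simp), List.take_left]
      exact hX
    refine ⟨Q1.length, hE, ?_⟩
    rcases hg' with ⟨s, a1, a2, a3, a4⟩ | h | h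
    · refine Or.inl ⟨s, by rw [List.length_append]; omega, a2, a3, ?_⟩
      rwa [List.take_append_of_le_length a1]
    · exact Or.inr (Or.inl h)
    · exact Or.inr (Or.inr h)
  · rintro ⟨t, hE, hb⟩
    have ht := hE.1
    have hl : (Q.take t).length = t := by rw [List.length_take]; omega
    refine ⟨Q.take t, Q.drop t, List.take_append_drop _ _, ⟨(end_iff ht).1 hE, ?_⟩, trivial⟩
    show gk Wo Bad N z p0 (c k) (Q.take t) = True
    apply eq_true
    rcases hb with ⟨s, a1, a2, a3, a4⟩ | h | h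
    · have hst : s < t := by have := hE.2.1; omega
      refine Or.inl ⟨s, by rw [hl]; exact hst.le, a2, a3, ?_⟩
      rwa [List.take_take, min_eq_left hst.le]
    · exact Or.inr (Or.inl (by rw [hl]; exact h))
    · exact Or.inr (Or.inr (by rw [hl]; exact h))

include hφ loc len pcs hM in
theorem h_end (k : ℕ) :
    H 1 ({Q | ∃ t, Joint_487.IsEnd Wo z c Q k t} : Language α) := by
  have h1 := hXF (β := Prop) hφ loc len pcs hM (K := 0) (fun _ => True)
    (fun _ _ _ _ _ _ _ => rfl) True (z - c k)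
  refine H.congr (H.cat h1 (H.univ 1)) fun Q => ?_
  constructor
  · rintro ⟨Q1, Q2, rfl, ⟨hX, -⟩, -⟩
    refine ⟨Q1.length, ?_⟩
    rw [end_iff (by simp), List.take_left]
    exact hX
  · rintro ⟨t, hE⟩
    exact ⟨Q.take t, Q.drop t, List.take_append_drop _ _, ⟨(end_iff hE.1).1 hE, rfl⟩, trivial⟩

/-- middle value as seen from place `k` -/
def hk (act : V → S → V) (φ : List α → S) (p0 : ℕ) (c : ℕ → ℕ) (rho2 : ℕ → List α → Option V)
    (nu1 : List α → V) (k : ℕ) (Q1 : List α) : Option V :=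
  (rho2 k (Q1.take (p0 - c k))).map fun y => act y (φ (Q1.drop (p0 - c k))) + nu1 (Q1.drop (p0 - c k))

include hφ hnu in
theorem FS_hk (k : ℕ) : FS φ (p0 + A) M (hk act φ p0 c rho2 nu1 k) :=
  FS_map2 (fun (o : Option V) (p : S × V) => o.map fun y => act y p.1 + p.2)
    (FS_take (a := p0 - c k) (by omega) (fun y => rho2 k y))
    (FS_drop hφ (p0 - c k) (by omega) (FS_pair hφ hnu))

include hφ loc len pcs hM hnu hBad hz hc in
theorem six_Q2 (b : V) :
    H 1 ({Q | Joint_487.RQ2 act φ Wo Bad N z p0 K0 c rho2 nu2 nu1 b Q} : Language α) := by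
  have hmain : ∀ k < K0, H 1 ({Q | ∃ t y, Joint_487.IsEnd Wo z c Q k t ∧
      rho2 k (Q.take (p0 - c k)) = some y ∧ Q.drop t ∈ Joint_487.XX Wo z ∧
      b = Joint_487.T act φ p0 nu2 nu1 (act y (φ ((Q.take t).drop (p0 - c k))) +
        nu1 ((Q.take t).drop (p0 - c k))) (Q.drop t)} : Language α) := by
    intro k hk'
    have h1 : ∀ b1 : V, H 1 ({X | X ∈ Joint_487.XX Wo (z - c k) ∧
        hk act φ p0 c rho2 nu1 k X = some b1} : Language α) := fun b1 =>
      hXF hφ loc len pcs hM _ (FS_hk (p0 := p0) (c := c) (act := act) (rho2 := rho2) hφ hnu k)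
        (some b1) (z - c k)
    refine H.congr (H.exists_fintype _ fun b1 : V =>
      H.cat (h1 b1) (six_XT (z := z) (p0 := p0) (nu2 := nu2) (act := act) hφ loc len pcs hM hnu b1 b))
        fun Q => ?_
    have hck := hc k hk'
    constructor
    · rintro ⟨b1, Q1, X2, rfl, ⟨hX, hv⟩, hX2, hT⟩
      have hX' := hX
      obtain ⟨-, hlen, -⟩ := hX'
      have hle : p0 - c k ≤ Q1.length := by omega
      unfold hk at hv
      rw [Option.map_eq_some_iff] at hv
      obtain ⟨y, hy, hv⟩ := hv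
      refine ⟨Q1.length, y, ?_, ?_, ?_, ?_⟩
      · rw [end_iff (by simp), List.take_left]; exact hX
      · rwa [List.take_append_of_le_length hle]
      · rwa [List.drop_left]
      · rw [List.drop_left, List.take_left, hv]; exact hT.symm
    · rintro ⟨t, y, hE, hy, hX2, hb⟩
      have ht := hE.1
      have hl : (Q.take t).length = t := by rw [List.length_take]; omega
      have hle : p0 - c k ≤ t := by have := hE.2.1; omega
      refine ⟨_, Q.take t, Q.drop t, List.take_append_drop _ _, ⟨(end_iff ht).1 hE, ?_⟩, hX2, hb.symm⟩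
      show hk act φ p0 c rho2 nu1 k (Q.take t) = _
      unfold hk
      rw [List.take_take, min_eq_left hle, hy]
      rfl
  have hCB := h_CB (z := z) (N := N) (p0 := p0) (c := c) hφ loc len pcs hM hBad
  have hE := h_end (z := z) (c := c) hφ loc len pcs hM
  have htot := hex K0 (fun k => ({Q | Q ∈ ({Q | Joint_487.CB Wo Bad N z p0 c Q k} : Language α) ∧
    Q ∈ ({Q | Q ∈ ({Q | ∀ k' < K0, Q ∈ ({Q | Q ∈ ({_w | k' ≠ k} : Language α) →
        Q ∈ ({Q | ¬ Q ∈ ({Q | Joint_487.CB Wo Bad N z p0 c Q k'} : Language α)} : Language α)}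
          : Language α)} : Language α) ∧
      Q ∈ ({Q | Q ∈ ({Q | ∀ k' < K0, Q ∈ ({Q | ∃ t, Joint_487.IsEnd Wo z c Q k' t} : Language α)}
          : Language α) ∧
        Q ∈ ({Q | ∃ t y, Joint_487.IsEnd Wo z c Q k t ∧
      rho2 k (Q.take (p0 - c k)) = some y ∧ Q.drop t ∈ Joint_487.XX Wo z ∧
      b = Joint_487.T act φ p0 nu2 nu1 (act y (φ ((Q.take t).drop (p0 - c k))) +
        nu1 ((Q.take t).drop (p0 - c k))) (Q.drop t)} : Language α)} : Language α)}
          : Language α)} : Language α)) fun k hk' =>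
    H.inter (hCB k) (H.inter (hall K0 _ fun k' _ => H.imp (H.const 1 (k' ≠ k)) (hCB k').not)
      (H.inter (hall K0 _ fun k' _ => hE k') (hmain k hk')))
  exact H.congr htot fun Q => Iff.rfl

end Six

end Crest.Agent.R320.P4J_163
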