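import Crest.Agent.R320.WallU_228
import Crest.Agent.R320.Reg_852
import Crest.Agent.R320.RegBd_11

/-!
# Row 320: the height one families of the natural chain (helper418)
-/

set_option autoImplicit false

namespace Crest.Agent.R320.P4_418

open Crest.RegLang Crest.Agent.R320.Hk_851 Crest.Agent.R320.CompR_11

universe u

variable {α : Type u}

/-! ### pieces and walls -/

theorem pieces_mono {R B R' B' : ℕ} (hR : R ≤ R') (hB : B ≤ B') {w : List α}
    (h : Pieces R B w) : Pieces R' B' w := by
  obtain ⟨l, h1, h2, h3⟩ := h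
  exact ⟨l, h1.trans hR, fun t ht => ⟨(h2 t ht).1.trans hB, (h2 t ht).2.trans hB⟩, h3⟩

theorem pieces_append {R B R' : ℕ} {w w' : List α} (h : Pieces R B w) (h' : Pieces R' B w') :
    Pieces (R + R') B (w ++ w') := by
  obtain ⟨l, h1, h2, h3⟩ := h
  obtain ⟨l', h1', h2', h3'⟩ := h'
  refine ⟨l ++ l', by rw [List.length_append]; omega, ?_, ?_⟩
  · intro t ht
    rcases List.mem_append.1 ht with ht | ht
    · exact h2 t ht
    · exact h2' t ht
  · subst h3 h3'
    simp [Crest.Agent.R320.Pump_360.val]

/-- the walls strictly inside are in a set of at most `r` places -/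
def NW (Wo : List α → Prop) (r : ℕ) (u : List α) : Prop :=
  ∃ T : Finset ℕ, T.card ≤ r ∧ ∀ t < u.length, Wo (u.take t) → t ∈ T

/-- a left-looking wall rule on all words -/
structure Wl (n : ℕ) (Wo : List α → Prop) (R B : ℕ) : Prop where
  loc : ∀ P Q : List α, n ≤ Q.length → (Wo (P ++ Q) ↔ Wo Q)
  len : ∀ P : List α, Wo P → n ≤ P.length
  nil : ¬ Wo []
  free : ∀ u : List α, (∀ t < u.length, ¬ Wo (u.take t)) → Pieces R B u

theorem pieces_of_NW {n R B : ℕ} {Wo : List α → Prop} (h : Wl n Wo R B) :
    ∀ (r : ℕ) (u : List α), NW Wo r u → Pieces ((r + 1) * R) B u := by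
  classical
  intro r
  induction r with
  | zero =>
    rintro u ⟨T, hT, hw⟩
    refine pieces_mono (by simp) le_rfl (h.free u fun t ht hW => ?_)
    have h1 := hw t ht hW
    have hT0 : T = ∅ := Finset.card_eq_zero.1 (Nat.le_zero.1 hT)
    rw [hT0] at h1
    exact absurd h1 (Finset.notMem_empty _)
  | succ r ih =>
    rintro u ⟨T, hT, hw⟩
    by_cases hf : ∃ t, t < u.length ∧ Wo (u.take t)
    · have h0 := (Nat.find_spec hf).1
      have hW0 := (Nat.find_spec hf).2
      have hmin : ∀ t < Nat.find hf, ¬ (t < u.length ∧ Wo (u.take t)) :=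
        fun t ht => Nat.find_min hf ht
      generalize Nat.find hf = t0 at h0 hW0 hmin
      have h1 : Pieces R B (u.take t0) := h.free _ fun t ht hW => by
        have ht' : t < t0 := lt_of_lt_of_le ht (by rw [List.length_take]; omega)
        rw [List.take_take, min_eq_left (by omega)] at hW
        exact hmin t ht' ⟨by omega, hW⟩
      have h2 : Pieces ((r + 1) * R) B (u.drop t0) := by
        refine ih _ ⟨(T.erase t0).image (· - t0), ?_, ?_⟩
        · have ht0 : t0 ∈ T := hw t0 h0 hW0
          have := Finset.card_erase_of_mem ht0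
          have := Finset.card_image_le (s := T.erase t0) (f := fun x => x - t0)
          omega
        · intro t ht hW
          rw [List.length_drop] at ht
          have hn := h.len _ hW
          have hWt : Wo (u.take (t0 + t)) := by
            rw [List.take_add]
            exact (h.loc _ _ hn).2 hW
          have hmem := hw (t0 + t) (by omega) hWt
          have hne : t ≠ 0 := by
            rintro rfl
            rw [List.take_zero] at hW
            exact h.nil hW
          exact Finset.mem_image.2 ⟨t0 + t, Finset.mem_erase.2 ⟨by omega, hmem⟩, by omega⟩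
      have h3 := pieces_append h1 h2
      rw [List.take_append_drop] at h3
      exact pieces_mono (by nlinarith) le_rfl h3
    · push Not at hf
      exact pieces_mono (by nlinarith) le_rfl (h.free u hf)

theorem HL_few [Finite α] {n R B r : ℕ} {Wo : List α → Prop} (h : Wl n Wo R B)
    {L : Language α} (hL : L.IsRegular) (hr : ∀ w ∈ L, NW Wo r w) : HL 1 L :=
  Crest.Agent.R320.RegBd_11.reg_pieces hL ((r + 1) * R) B fun w hw =>
    pieces_of_NW h r w (hr w hw)

/-! ### regular languages -/

theorem reg_finite {s : Set (List α)} (hs : s.Finite) :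
    Language.IsRegular (s : Language α) :=
  Crest.Agent.R320.Reg_852.HL.isRegular (HL.finite (k := 0) hs)

theorem reg_congr {L M : Language α} (h : L.IsRegular) (e : ∀ w, w ∈ L ↔ w ∈ M) :
    M.IsRegular := by
  have : L = M := Set.ext e
  exact this ▸ h

theorem reg_biUnion {ι : Type*} {s : Set ι} (hs : s.Finite) {L : ι → Language α}
    (h : ∀ i ∈ s, (L i).IsRegular) :
    Language.IsRegular ({w | ∃ i ∈ s, w ∈ L i} : Language α) := by
  induction s, hs using Set.Finite.induction_on with
  | empty =>
    refine reg_congr Crest.Agent.R320.Reg_852.isRegular_zero fun w => ?_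
    constructor
    · intro hw; exact absurd hw (Language.notMem_zero w)
    · rintro ⟨i, hi, -⟩; exact absurd hi (Set.notMem_empty i)
  | @insert a s _ _ ih =>
    refine reg_congr (Language.IsRegular.add (h a (Set.mem_insert a s))
      (ih fun i hi => h i (Set.mem_insert_of_mem a hi))) fun w =>
        (Language.mem_add _ _ w).trans ?_
    constructor
    · rintro (hw | ⟨i, hi, hw⟩)
      · exact ⟨a, Set.mem_insert a s, hw⟩
      · exact ⟨i, Set.mem_insert_of_mem a hi, hw⟩
    · rintro ⟨i, hi, hw⟩
      rcases Set.mem_insert_iff.1 hi with rfl | hi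
      · exact Or.inl hw
      · exact Or.inr ⟨i, hi, hw⟩

/-- a predicate as a language -/
def mk (p : List α → Prop) : Language α := {w | p w}

theorem reg_split [Finite α] (p0 : ℕ) (Rl : List α → List α → Prop)
    (h : ∀ X0 : List α, X0.length = p0 → Language.IsRegular ({Y | Rl X0 Y} : Language α)) :
    Language.IsRegular ({X | Rl (X.take p0) (X.drop p0)} : Language α) := by
  have h1 : Language.IsRegular
      ({X | X.length < p0 ∧ Rl (X.take p0) (X.drop p0)} : Language α) :=
    reg_finite ((List.finite_length_lt α p0).subset fun X hX => hX.1)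
  have h2 : Language.IsRegular ({w | ∃ X0 ∈ {X0 : List α | X0.length = p0},
      w ∈ mk (· = X0) * mk (Rl X0)} : Language α) :=
    reg_biUnion (List.finite_length_eq α p0) fun X0 hX0 =>
      Crest.Agent.R320.Reg_852.IsRegular.mul (reg_finite (Set.finite_singleton X0)) (h X0 hX0)
  refine reg_congr (h1.add h2) fun X => (Language.mem_add _ _ X).trans ?_
  constructor
  · rintro (⟨-, hX⟩ | ⟨X0, hX0, hX⟩)
    · exact hX
    · obtain ⟨A, hA, Y, hY, rfl⟩ := Language.mem_mul.1 hX
      have hA' : A = X0 := hA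
      subst hA'
      have hl : A.length = p0 := hX0
      show Rl ((A ++ Y).take p0) ((A ++ Y).drop p0)
      rw [← hl, List.take_left, List.drop_left]
      exact hY
  · intro hX
    by_cases hl : X.length < p0
    · exact Or.inl ⟨hl, hX⟩
    · refine Or.inr ⟨X.take p0, ?_, Language.mem_mul.2 ⟨X.take p0, rfl, X.drop p0, hX,
        List.take_append_drop p0 X⟩⟩
      show (X.take p0).length = p0
      rw [List.length_take]; omega

theorem prod_pair {S : Type*} [Monoid S] (f : α → S) (Pm : ℕ) (Y : List α) :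
    (Y.map fun a => ((Multiplicative.ofAdd (1 : ZMod Pm), f a) :
      Multiplicative (ZMod Pm) × S)).prod =
      (Multiplicative.ofAdd ((Y.length : ℕ) : ZMod Pm), (Y.map f).prod) := by
  induction Y with
  | nil => simp; rfl
  | cons a Y ih =>
    rw [List.map_cons, List.prod_cons, ih, List.map_cons, List.prod_cons, List.length_cons,
      Prod.mk_mul_mk, ← ofAdd_add]
    push_cast
    rw [add_comm]

/-- finite-state functions have regular fibres -/
theorem reg_loc [Finite α] {D : Type*} {S : Type*} [Monoid S] [Finite S] (f : α → S)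
    (La Pm : ℕ) (hPm : 0 < Pm) (g : List α → D)
    (hg : ∀ q q2 : List α, La ≤ q.length → La ≤ q2.length → q.take La = q2.take La →
      q.length % Pm = q2.length % Pm → ((q.drop La).map f).prod = ((q2.drop La).map f).prod →
      g q = g q2) (d : D) : Language.IsRegular ({q | g q = d} : Language α) := by
  have : NeZero Pm := ⟨hPm.ne'⟩
  have key := reg_split (α := α) La (fun X0 Y => g (X0 ++ Y) = d) ?_
  · refine reg_congr key fun X => ?_
    show g (X.take La ++ X.drop La) = d ↔ g X = d
    rw [List.take_append_drop]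
  · intro X0 hX0
    let ψ : α → Multiplicative (ZMod Pm) × S := fun a => (Multiplicative.ofAdd 1, f a)
    have : Finite (Multiplicative (ZMod Pm) × S) := inferInstance
    have h2 := reg_biUnion (α := α)
      (Set.toFinite {m : Multiplicative (ZMod Pm) × S | ∃ Y : List α,
        (Y.map ψ).prod = m ∧ g (X0 ++ Y) = d})
      (L := fun m => ({w | (w.map ψ).prod = m} : Language α))
      (fun m _ => Crest.Agent.R320.Reg_852.isRegular_prod ψ m)
    refine reg_congr h2 fun Y => ?_
    constructor
    · rintro ⟨m, ⟨Y', hY', hg'⟩, hm⟩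
      have hm' : (Y.map ψ).prod = m := hm
      rw [← hm', prod_pair, prod_pair, Prod.mk.injEq] at hY'
      have hlen : (Y'.length : ZMod Pm) = (Y.length : ZMod Pm) :=
        Multiplicative.ofAdd.injective hY'.1
      have hmod : Y'.length % Pm = Y.length % Pm := (ZMod.natCast_eq_natCast_iff' _ _ _).1 hlen
      show g (X0 ++ Y) = d
      rw [← hg']
      refine hg _ _ (by rw [List.length_append]; omega) (by rw [List.length_append]; omega)
        ?_ ?_ ?_
      · rw [← hX0, List.take_left, List.take_left]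
      · rw [List.length_append, List.length_append]
        exact (Nat.ModEq.add_left X0.length hmod).symm
      · rw [← hX0, List.drop_left, List.drop_left]
        exact hY'.2.symm
    · intro hY
      exact ⟨(Y.map ψ).prod, ⟨Y, rfl, hY⟩, rfl⟩

section T

variable {S V : Type*} [Monoid S] [AddCommGroup V]

/-- the zone map: both noises -/
def Tf (f : α → S) (act : V → S → V) (p0 : ℕ) (nu2 nu1 : List α → V) (v : V) (X : List α) : V :=
  act (act v ((X.take p0).map f).prod + nu2 (X.take p0)) ((X.drop p0).map f).prod +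
    nu1 (X.drop p0)

theorem reg_T [Finite α] [Finite S] (f : α → S) (act : V → S → V) (p0 : ℕ)
    (nu2 nu1 : List α → V)
    (h1 : ∀ d, Language.IsRegular ({Y | nu1 Y = d} : Language α)) (v v' : V) :
    Language.IsRegular ({X | Tf f act p0 nu2 nu1 v X = v'} : Language α) := by
  refine reg_split p0 (fun X0 Y => act (act v (X0.map f).prod + nu2 X0) (Y.map f).prod +
    nu1 Y = v') fun X0 _ => ?_
  refine reg_congr (reg_biUnion (Set.toFinite (Set.univ : Set S))
    (L := fun s => ({Y | (Y.map f).prod = s} : Language α) ⊓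
      ({Y | nu1 Y = v' - act (act v (X0.map f).prod + nu2 X0) s} : Language α))
    fun s _ => (Crest.Agent.R320.Reg_852.isRegular_prod f s).inf (h1 _)) fun Y => ?_
  constructor
  · rintro ⟨s, -, hs, hY⟩
    have hs' : (Y.map f).prod = s := hs
    have hY' : nu1 Y = v' - act (act v (X0.map f).prod + nu2 X0) s := hY
    show act (act v (X0.map f).prod + nu2 X0) (Y.map f).prod + nu1 Y = v'
    rw [hY', hs']; abel
  · intro hY
    have hY' : act (act v (X0.map f).prod + nu2 X0) (Y.map f).prod + nu1 Y = v' := hY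
    refine ⟨(Y.map f).prod, Set.mem_univ _, rfl, ?_⟩
    show nu1 Y = v' - act (act v (X0.map f).prod + nu2 X0) (Y.map f).prod
    rw [← hY']; abel

end T

/-! ### first prefixes -/

/-- words of `L` without a proper prefix in `M` -/
def fst (L M : Language α) : Language α := {X | X ∈ L ∧ ∀ t < X.length, X.take t ∉ M}

theorem reg_top : Language.IsRegular (⊤ : Language α) :=
  Crest.Agent.R320.Reg_852.HL.isRegular (HL.top (k := 0))

/-- nonempty words -/
def Cne : Language α := {X | X ≠ []}

theorem reg_Cne : Language.IsRegular (Cne : Language α) :=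
  reg_congr (reg_finite (Set.finite_singleton ([] : List α))).compl fun _ => Iff.rfl

theorem mem_mul_Cne {M : Language α} {X : List α} :
    X ∈ M * Cne ↔ ∃ t < X.length, X.take t ∈ M := by
  constructor
  · intro h
    obtain ⟨A, hA, D, hD, rfl⟩ := Language.mem_mul.1 h
    refine ⟨A.length, ?_, by rw [List.take_left]; exact hA⟩
    have : 0 < D.length := List.length_pos_iff.2 hD
    rw [List.length_append]; omega
  · rintro ⟨t, ht, hX⟩
    refine Language.mem_mul.2 ⟨X.take t, hX, X.drop t, ?_, List.take_append_drop t X⟩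
    show X.drop t ≠ []
    intro h0
    have := congrArg List.length h0
    rw [List.length_drop, List.length_nil] at this
    omega

theorem reg_fst {L M : Language α} (hL : L.IsRegular) (hM : M.IsRegular) :
    (fst L M).IsRegular := by
  refine reg_congr (hL.inf (Crest.Agent.R320.Reg_852.IsRegular.mul hM reg_Cne).compl)
    fun X => ?_
  constructor
  · rintro ⟨h1, h2⟩
    exact ⟨h1, fun t ht hX => h2 (mem_mul_Cne.2 ⟨t, ht, hX⟩)⟩
  · rintro ⟨h1, h2⟩
    refine ⟨h1, fun h3 => ?_⟩
    obtain ⟨t, ht, hX⟩ := mem_mul_Cne.1 h3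
    exact h2 t ht hX

theorem reg_noprefix {L : Language α} (hL : L.IsRegular) :
    Language.IsRegular ({r | ∀ X ∈ L, ¬ X <+: r} : Language α) := by
  refine reg_congr (Crest.Agent.R320.Reg_852.IsRegular.mul hL reg_top).compl fun r => ?_
  constructor
  · intro h X hX hp
    obtain ⟨D, rfl⟩ := hp
    exact h (Language.mem_mul.2 ⟨X, hX, D, Set.mem_univ _, rfl⟩)
  · intro h h2
    obtain ⟨X, hX, D, -, rfl⟩ := Language.mem_mul.1 h2
    exact h X hX (List.prefix_append X D)

/-! ### the natural chain -/

section Chain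

variable {n R B : ℕ} {Wo : List α → Prop}

theorem reg_Wo [Finite α] (h : Wl n Wo R B) : Language.IsRegular ({X | Wo X} : Language α) := by
  refine reg_congr (Crest.Agent.R320.Reg_852.IsRegular.mul reg_top
    (reg_finite (s := {Q : List α | Q.length = n ∧ Wo Q})
      ((List.finite_length_eq α n).subset fun Q hQ => hQ.1))) fun X => ?_
  constructor
  · intro hX
    obtain ⟨A, -, Q, ⟨hl, hQ⟩, rfl⟩ := Language.mem_mul.1 hX
    exact (h.loc A Q hl.ge).2 hQ
  · intro hX
    have hn := h.len X hX
    have hl : (X.drop (X.length - n)).length = n := by rw [List.length_drop]; omega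
    refine Language.mem_mul.2 ⟨X.take (X.length - n), Set.mem_univ _, X.drop (X.length - n),
      ⟨hl, ?_⟩, List.take_append_drop _ X⟩
    refine (h.loc (X.take (X.length - n)) _ hl.ge).1 ?_
    rw [List.take_append_drop]
    exact hX

/-- walls at places at least `z` -/
def Wz (Wo : List α → Prop) (z : ℕ) : Language α := {X | Wo X ∧ z ≤ X.length}

theorem reg_Wz [Finite α] (h : Wl n Wo R B) (z : ℕ) : (Wz Wo z).IsRegular :=
  reg_congr ((reg_Wo h).inf (Crest.Agent.R320.Reg_852.HL.isRegular (HL.length_ge (k := 0) z)))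
    fun _ => Iff.rfl

/-- the first wall at a place `≥ z1` is the end, and the length is at least `z2` -/
def Fst (Wo : List α → Prop) (z1 z2 : ℕ) : Language α :=
  {X | Wo X ∧ z2 ≤ X.length ∧ ∀ t < X.length, z1 ≤ t → ¬ Wo (X.take t)}

theorem reg_Fst [Finite α] (h : Wl n Wo R B) (z1 z2 : ℕ) : (Fst Wo z1 z2).IsRegular := by
  refine reg_congr (reg_fst (reg_Wz h z2) (reg_Wz h z1)) fun X => ?_
  constructor
  · rintro ⟨⟨h1, h2⟩, h3⟩
    exact ⟨h1, h2, fun t ht hz hW => h3 t ht ⟨hW, by rw [List.length_take]; omega⟩⟩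
  · rintro ⟨h1, h2, h3⟩
    refine ⟨⟨h1, h2⟩, fun t ht hW => h3 t ht ?_ hW.1⟩
    have := hW.2
    rw [List.length_take] at this
    omega

theorem NW_Fst {z1 z2 : ℕ} {X : List α} (hX : X ∈ Fst Wo z1 z2) : NW Wo z1 X :=
  ⟨Finset.range z1, (Finset.card_range z1).le, fun t ht hW => by
    rw [Finset.mem_range]
    by_contra hc
    exact hX.2.2 t ht (by omega) hW⟩

/-- height one for the blocks and for the right-legal words -/
theorem HL_Fst [Finite α] (h : Wl n Wo R B) (z1 z2 : ℕ) {L : Language α} (hL : L.IsRegular) :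
    HL 1 ({X | X ∈ Fst Wo z1 z2 ∧ X ∈ L} : Language α) :=
  HL_few (r := z1) h (reg_congr ((reg_Fst h z1 z2).inf hL) fun _ => Iff.rfl)
    fun _ hw => NW_Fst hw.1

theorem hXT [Finite α] (h : Wl n Wo R B) (z : ℕ) {S V : Type*} [Monoid S] [Finite S]
    [AddCommGroup V] (f : α → S) (act : V → S → V) (p0 : ℕ) (nu2 nu1 : List α → V)
    (h1 : ∀ d, Language.IsRegular ({Y | nu1 Y = d} : Language α)) (v v' : V) :
    HL 1 ({X | X ∈ Fst Wo z z ∧ Tf f act p0 nu2 nu1 v X = v'} : Language α) :=
  HL_Fst h z z (reg_T f act p0 nu2 nu1 h1 v v')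

/-- no prefix in the block code: no wall at a place `≥ z` -/
theorem no_wall {z : ℕ} {r : List α} (hr : ∀ X ∈ Fst Wo z z, ¬ X <+: r) (t : ℕ)
    (ht : t ≤ r.length) (hz : z ≤ t) : ¬ Wo (r.take t) := by
  intro hW
  induction t using Nat.strong_induction_on with
  | _ t ih =>
    refine hr (r.take t) ⟨hW, by rw [List.length_take]; omega, ?_⟩ (List.take_prefix t r)
    intro s hs hzs hWs
    have hst : s < t := lt_of_lt_of_le hs (by rw [List.length_take]; omega)
    rw [List.take_take, min_eq_left hst.le] at hWs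
    exact ih s hst (by omega) hzs hWs

theorem HL_noprefix [Finite α] (h : Wl n Wo R B) (z : ℕ) {L : Language α}
    (hL : L.IsRegular) :
    HL 1 ({r | (∀ X ∈ Fst Wo z z, ¬ X <+: r) ∧ r ∈ L} : Language α) := by
  refine HL_few (r := z) h (reg_congr ((reg_noprefix (reg_Fst h z z)).inf hL)
    fun _ => Iff.rfl) fun w hw => ?_
  refine ⟨Finset.range z, (Finset.card_range z).le, fun t ht hW => ?_⟩
  rw [Finset.mem_range]
  by_contra hc
  exact no_wall hw.1 t ht.le (by omega) hW

theorem hNP [Finite α] (h : Wl n Wo R B) (z : ℕ) {S : Type*} [Monoid S] [Finite S]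
    (f : α → S) (s : S) :
    HL 1 ({r | (∀ X ∈ Fst Wo z z, ¬ X <+: r) ∧ (r.map f).prod = s} : Language α) :=
  HL_noprefix h z (Crest.Agent.R320.Reg_852.isRegular_prod f s)

/-! ### the block that ends at the next wall -/

/-- blocks which end at the wall after the first wall `≥ z` -/
def Nxt (Wo : List α → Prop) (z : ℕ) : Language α :=
  {X | Wo X ∧ ∃ t0 < X.length, z ≤ t0 ∧ Wo (X.take t0) ∧
    ∀ t < X.length, z ≤ t → Wo (X.take t) → t = t0}

theorem reg_Nxt [Finite α] (h : Wl n Wo R B) (z : ℕ) : (Nxt Wo z).IsRegular := by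
  have hE : Language.IsRegular (({X | Wo X} : Language α) ⊓ (Wz Wo z * Cne)) :=
    (reg_Wo h).inf (Crest.Agent.R320.Reg_852.IsRegular.mul (reg_Wz h z) reg_Cne)
  refine reg_congr (reg_fst hE hE) fun X => ?_
  have hWz : ∀ Y : List α, ∀ t < Y.length, (Y.take t ∈ Wz Wo z ↔ Wo (Y.take t) ∧ z ≤ t) := by
    intro Y t ht
    show (Wo (Y.take t) ∧ z ≤ (Y.take t).length) ↔ _
    rw [List.length_take, min_eq_left ht.le]
  constructor
  · rintro ⟨⟨h1, h2⟩, h3⟩
    obtain ⟨t0, ht0, hX0⟩ := mem_mul_Cne.1 h2
    obtain ⟨hW0, hz0⟩ := (hWz X t0 ht0).1 hX0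
    refine ⟨h1, t0, ht0, hz0, hW0, fun t ht hz hW => ?_⟩
    by_contra hne
    have main : ∀ s1 s2 : ℕ, s1 < s2 → s2 < X.length → z ≤ s1 → Wo (X.take s1) →
        Wo (X.take s2) → False := by
      intro s1 s2 h12 h2l hz1 hW1 hW2
      refine h3 s2 h2l ⟨hW2, mem_mul_Cne.2 ⟨s1, ?_, ?_⟩⟩
      · rw [List.length_take]; omega
      · rw [List.take_take, min_eq_left h12.le]
        exact (hWz X s1 (by omega)).2 ⟨hW1, hz1⟩
    rcases Nat.lt_or_gt_of_ne hne with hlt | hlt
    · exact main t t0 hlt ht0 hz hW hW0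
    · exact main t0 t hlt ht hz0 hW0 hW
  · rintro ⟨h1, t0, ht0, hz0, hW0, huniq⟩
    refine ⟨⟨h1, mem_mul_Cne.2 ⟨t0, ht0, (hWz X t0 ht0).2 ⟨hW0, hz0⟩⟩⟩, ?_⟩
    rintro t ht ⟨hW, hP⟩
    obtain ⟨s, hs, hXs⟩ := mem_mul_Cne.1 hP
    have hst : s < t := lt_of_lt_of_le hs (by rw [List.length_take]; omega)
    rw [List.take_take, min_eq_left hst.le] at hXs
    obtain ⟨hWs, hzs⟩ := (hWz X s (by omega)).1 hXs
    have e1 := huniq s (by omega) hzs hWs
    have e2 := huniq t ht (by omega) hW
    omega

theorem HL_Nxt [Finite α] (h : Wl n Wo R B) (z : ℕ) {L : Language α} (hL : L.IsRegular) :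
    HL 1 ({X | X ∈ Nxt Wo z ∧ X ∈ L} : Language α) := by
  refine HL_few (r := z + 1) h (reg_congr ((reg_Nxt h z).inf hL) fun _ => Iff.rfl)
    fun X hX => ?_
  obtain ⟨-, t0, -, -, -, huniq⟩ := hX.1
  refine ⟨insert t0 (Finset.range z), ?_, fun t ht hW => ?_⟩
  · have := Finset.card_insert_le t0 (Finset.range z)
    rw [Finset.card_range] at this
    exact this
  · by_cases hz : z ≤ t
    · rw [huniq t ht hz hW]; exact Finset.mem_insert_self _ _
    · exact Finset.mem_insert_of_mem (Finset.mem_range.2 (by omega))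

theorem HL_noprefix_Nxt [Finite α] (h : Wl n Wo R B) (z : ℕ) {L : Language α}
    (hL : L.IsRegular) :
    HL 1 ({r | (∀ X ∈ Nxt Wo z, ¬ X <+: r) ∧ r ∈ L} : Language α) := by
  classical
  refine HL_few (r := z + 1) h (reg_congr ((reg_noprefix (reg_Nxt h z)).inf hL)
    fun _ => Iff.rfl) fun r hr => ?_
  by_cases hex : ∃ t, t < r.length ∧ z ≤ t ∧ Wo (r.take t)
  · have h0 := Nat.find_spec hex
    have hmin : ∀ t < Nat.find hex, ¬ (t < r.length ∧ z ≤ t ∧ Wo (r.take t)) :=
      fun t ht => Nat.find_min hex ht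
    generalize Nat.find hex = t0 at h0 hmin
    obtain ⟨hl0, hz0, hW0⟩ := h0
    refine ⟨insert t0 (Finset.range z), ?_, fun t ht hW => ?_⟩
    · have := Finset.card_insert_le t0 (Finset.range z)
      rw [Finset.card_range] at this
      exact this
    · by_contra hc
      rw [Finset.mem_insert, Finset.mem_range] at hc
      push Not at hc
      -- the least wall after `t0`
      have hex2 : ∃ s, t0 < s ∧ s ≤ t ∧ Wo (r.take s) := by
        refine ⟨t, ?_, le_rfl, hW⟩
        rcases Nat.lt_or_ge t0 t with hlt | hge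
        · exact hlt
        · exact absurd ⟨ht, hc.2, hW⟩ (hmin t (lt_of_le_of_ne hge hc.1))
      have h1 := Nat.find_spec hex2
      have hmin2 : ∀ s < Nat.find hex2, ¬ (t0 < s ∧ s ≤ t ∧ Wo (r.take s)) :=
        fun s hs => Nat.find_min hex2 hs
      generalize Nat.find hex2 = s at h1 hmin2
      obtain ⟨h01, hst, hWs⟩ := h1
      refine hr.1 (r.take s) ⟨hWs, t0, ?_, hz0, ?_, ?_⟩ (List.take_prefix s r)
      · rw [List.length_take]; omega
      · rw [List.take_take, min_eq_left h01.le]; exact hW0
      · intro t' ht' hz' hW'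
        have ht's : t' < s := lt_of_lt_of_le ht' (by rw [List.length_take]; omega)
        rw [List.take_take, min_eq_left ht's.le] at hW'
        by_contra hne
        rcases Nat.lt_or_gt_of_ne hne with hlt | hgt
        · exact hmin t' hlt ⟨by omega, hz', hW'⟩
        · exact hmin2 t' ht's ⟨hgt, by omega, hW'⟩
  · refine ⟨Finset.range z, by rw [Finset.card_range]; omega, fun t ht hW => ?_⟩
    rw [Finset.mem_range]
    by_contra hc
    exact hex ⟨t, ht, by omega, hW⟩

end Chain

/-- a left-looking wall rule on all words with gaps `> W` -/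
theorem exists_rule [Finite α] (W : ℕ) :
    ∃ (n : ℕ) (Wo : List α → Prop) (R B : ℕ), 0 < n ∧ Wl n Wo R B ∧
      ∀ (X : List α) (s t : ℕ), s < t → t ≤ X.length → Wo (X.take s) → Wo (X.take t) →
        W < t - s := by
  obtain ⟨n, c, P, S, hn, -, hloc, hsp, hfree, -, -⟩ :=
    Crest.Agent.R320.WallU_228.walls_full (α := α) W
  refine ⟨n, Crest.Agent.R320.WallU_228.Wo n S, 5, 2 * c + P, hn,
    ⟨hloc, fun P h => h.1, ?_, hfree⟩, ?_⟩
  · intro h
    have := h.1
    rw [List.length_nil] at this
    omega
  · intro X s t hst ht hs hW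
    by_contra hc
    have hl : (X.take t).length = t := by rw [List.length_take]; omega
    refine hsp (X.take t) (t - s) hW (by omega) (by omega) ?_
    rw [hl, List.take_take, show min (t - (t - s)) t = s by omega]
    exact hs

end Crest.Agent.R320.P4_418
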