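import Crest.Agent.R320.Blk163_539
import Crest.Agent.R320.WallU_228
import Crest.Agent.R320.Loc_645
import Crest.Agent.R320.Hk2_851

/-!
# Row 320: P4 = the height one statements of `Top5_163.top` for the definitions of `Blk163_539`
(helper475)
-/

set_option autoImplicit false
set_option linter.unusedSectionVars false

namespace Crest.Agent.R320.P4_475

open Crest.RegLang Crest.Agent.R320.Hk_851 Crest.Agent.R320.FewWalls_228
  Crest.Agent.R320.FewVal_228 Crest.Agent.R320.WallU_228 Crest.Agent.R320.Blk163539

variable {α : Type}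

/-- walls at the end of the word form a local language -/
theorem HL_Wo [Finite α] (n : ℕ) (S : Set (List α)) (k : ℕ) :
    HL k ({w | Wo n S w} : Language α) := by
  have hfin : Set.Finite {v : List α | v.length = n ∧ v ∈ S} :=
    (List.finite_length_eq α n).subset fun v h => h.1
  refine ((HL.top (k := k) (α := α)).mul (HL.finite hfin)).congr fun w => ?_
  constructor
  · rintro ⟨h1, h2⟩
    refine Language.mem_mul.2 ⟨w.take (w.length - n), trivial, w.drop (w.length - n),
      ⟨by rw [List.length_drop]; omega, h2⟩, List.take_append_drop _ _⟩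
  · intro h
    obtain ⟨a, -, b, ⟨hb1, hb2⟩, rfl⟩ := Language.mem_mul.1 h
    refine ⟨by rw [List.length_append]; omega, ?_⟩
    have e : (a ++ b).length - n = a.length := by rw [List.length_append]; omega
    rw [e, List.drop_left]
    exact hb2

/-- the rule of 539 from a wall set -/
def LR (n : ℕ) (S : Set (List α)) : LRule α := ⟨n, Wo n S, fun P Q h => wo_append P Q h⟩

/-- few walls: all walls at lengths `≥ z` are among a given finite set -/
theorem nw_le {n : ℕ} {S : Set (List α)} (z : ℕ) (T : Finset ℕ) (w : List α)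
    (h : ∀ t, z ≤ t → t ≤ w.length → Wo n S (w.take t) → t ∈ T) : nw n S w ≤ z + T.card := by
  classical
  unfold nw
  have h1 : ((Finset.range (w.length + 1)).filter (fun x => Wl n S w x)).image (fun x => x + n) ⊆
      Finset.range z ∪ T := by
    intro y hy
    rw [Finset.mem_image] at hy
    obtain ⟨x, hx, rfl⟩ := hy
    rw [Finset.mem_filter] at hx
    obtain ⟨h2, h3⟩ := wo_take.1 hx.2
    rw [Finset.mem_union, Finset.mem_range]
    by_cases hz : x + n < z
    · exact Or.inl hz
    · exact Or.inr (h _ (by omega) h2 h3)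
  have h2 := Finset.card_le_card h1
  rw [Finset.card_image_of_injective _ (fun a b hab => by simpa using hab)] at h2
  have h3 := Finset.card_union_le (Finset.range z) T
  rw [Finset.card_range] at h3
  refine le_trans ?_ (h2.trans h3)
  convert le_refl _

theorem HL_XX [Finite α] (n : ℕ) (S : Set (List α)) (z k : ℕ) :
    HL k (XX (LR n S) z : Language α) := by
  have hA : HL k ({w | z ≤ w.length ∧ Wo n S w} : Language α) :=
    (HL.length_ge z).setOf_and (HL_Wo n S k)
  have hne : HL k ({w | w ≠ []} : Language α) := by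
    refine ((HL.one (k := k) (α := α)).compl).congr fun w => ?_
    rfl
  refine (hA.inf (hA.mul hne).compl).congr fun w => ?_
  constructor
  · rintro ⟨h1, h2, h3⟩
    refine ⟨⟨h1, h2⟩, fun hm => ?_⟩
    obtain ⟨a, ⟨ha1, ha2⟩, b, hb, rfl⟩ := Language.mem_mul.1 hm
    have hl : 0 < b.length := List.length_pos_iff.2 hb
    have h4 := h3 a.length ha1 (by rw [List.length_append]; omega)
    rw [List.take_left] at h4
    exact h4 ha2
  · rintro ⟨⟨h1, h2⟩, h3⟩
    refine ⟨h1, h2, fun t ht1 ht2 hW => h3 ?_⟩
    refine Language.mem_mul.2 ⟨w.take t, ⟨by rw [List.length_take]; omega, hW⟩, w.drop t, ?_,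
      List.take_append_drop _ _⟩
    intro h0
    have := congrArg List.length h0
    rw [List.length_drop] at this
    simp at this
    omega

theorem nw_XX {n : ℕ} {S : Set (List α)} {z : ℕ} {w : List α} (h : w ∈ XX (LR n S) z) :
    nw n S w ≤ z + 1 := by
  have := nw_le z {w.length} w (n := n) (S := S) (fun t h1 h2 h3 => by
    rw [Finset.mem_singleton]
    by_contra hne
    exact h.2.2 t h1 (by omega) h3)
  simpa using this

/-- a property read from (prefix of length `A`, product of the rest, length mod `M`) -/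
def Read {S : Type} [Monoid S] (f : α → S) (A M : ℕ) (P : List α → Prop) : Prop :=
  ∀ q q' : List α, A ≤ q.length → A ≤ q'.length → q.take A = q'.take A →
      ((q.drop A).map f).prod = ((q'.drop A).map f).prod →
      q.length % M = q'.length % M → P q → P q'

section
variable [Finite α] {M0 : Type} [Monoid M0] [Finite M0] (f : α → M0)
variable {n c P : ℕ} {S : Set (List α)}

theorem HL_XX_read (hn : 0 < n) (hP : 0 < P) (hper : PerOff n c P S) (z A M : ℕ) (hM : 0 < M)
    (Pr : List α → Prop) (hPr : Read f A M Pr) :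
    HL 1 ({w | w ∈ XX (LR n S) z ∧ Pr w} : Language α) := by
  have hreg : Language.IsRegular ({q | Pr q} : Language α) :=
    Loc_645.isRegular_of_read' f A M hM Pr hPr
  refine ((HL_XX n S z 1).inf (HL_few hn hP hper (z + 1) hreg)).congr fun w => ?_
  constructor
  · rintro ⟨h1, h2⟩
    exact ⟨h1, h2, nw_XX h1⟩
  · rintro ⟨h1, h2, -⟩
    exact ⟨h1, h2⟩

theorem HL_NP (hn : 0 < n) (hP : 0 < P) (hper : PerOff n c P S) (z : ℕ) (s : M0) :
    HL 1 ({r | (∀ X ∈ XX (LR n S) z, ¬ X <+: r) ∧ (r.map f).prod = s} : Language α) := by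
  have hNP : HL 1 ({r | ∀ X ∈ XX (LR n S) z, ¬ X <+: r} : Language α) := by
    refine ((HL_XX n S z 1).prefix).compl.congr fun w => ?_
    constructor
    · rintro h ⟨v, hv, hp⟩
      exact h v hv hp
    · intro h X hX hp
      exact h ⟨X, hX, hp⟩
  refine (hNP.inf (HL_few_value hn hP hper (z + 0) f s)).congr fun w => ?_
  constructor
  · rintro ⟨h1, h2⟩
    refine ⟨h1, ?_, h2⟩
    have := nw_le z ∅ w (n := n) (S := S) (fun t h3 h4 h5 => by
      exfalso
      have hex : ∃ t, z ≤ t ∧ t ≤ w.length ∧ Wo n S (w.take t) := ⟨t, h3, h4, h5⟩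
      classical
      obtain ⟨a1, a2, a3⟩ := Nat.find_spec hex
      refine h1 (w.take (Nat.find hex)) ⟨by rw [List.length_take]; omega, a3, ?_⟩
        (List.take_prefix _ _)
      intro t' ht1 ht2 hW
      rw [List.length_take, min_eq_left a2] at ht2
      rw [List.take_take, min_eq_left (by omega)] at hW
      exact Nat.find_min hex ht2 ⟨ht1, by omega, hW⟩)
    simpa using this
  · rintro ⟨h1, -, h2⟩
    exact ⟨h1, h2⟩

end

end Crest.Agent.R320.P4_475
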