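import Crest.Agent.R320.P5_841
import Crest.Agent.R320.WallU_228
import Crest.Agent.R320.Fib_298

/-!
# Row 320: the height one facts for the languages of `P5_841` (helper720)
-/

set_option autoImplicit false
set_option linter.unusedSectionVars false

namespace Crest.Agent.R320.P4_720

open Crest.Agent.R320.Hk_851 Crest.Agent.R320.P5_841

section cl
variable {α : Type*}

theorem r_and {p q : List α → Prop} (hp : Language.IsRegular ({w | p w} : Language α))
    (hq : Language.IsRegular ({w | q w} : Language α)) :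
    Language.IsRegular ({w | p w ∧ q w} : Language α) := hp.inf hq

theorem r_not {p : List α → Prop} (hp : Language.IsRegular ({w | p w} : Language α)) :
    Language.IsRegular ({w | ¬ p w} : Language α) := hp.compl

theorem r_congr {p q : List α → Prop} (hp : Language.IsRegular ({w | p w} : Language α))
    (h : ∀ w, q w ↔ p w) : Language.IsRegular ({w | q w} : Language α) := by
  have : ({w | q w} : Language α) = {w | p w} := by
    ext w; exact h w
  rwa [this]

theorem r_or {p q : List α → Prop} (hp : Language.IsRegular ({w | p w} : Language α))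
    (hq : Language.IsRegular ({w | q w} : Language α)) :
    Language.IsRegular ({w | p w ∨ q w} : Language α) :=
  r_congr (r_not (r_and (r_not hp) (r_not hq))) fun w => by tauto

theorem r_HL {k : ℕ} {p : List α → Prop} (h : HL k ({w | p w} : Language α)) :
    Language.IsRegular ({w | p w} : Language α) := Reg_236.HL.isRegular h

theorem r_const (c : Prop) : Language.IsRegular ({_w | c} : Language α) :=
  r_HL (k := 0) (HL.const c)

theorem r_ex {ι : Type*} [Finite ι] {p : ι → List α → Prop}
    (h : ∀ i, Language.IsRegular ({w | p i w} : Language α)) :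
    Language.IsRegular ({w | ∃ i, p i w} : Language α) := by
  have := Fib_298.isRegular_biUnion (Set.finite_univ (α := ι)) (L := fun i => {w | p i w})
    (fun i _ => h i)
  refine r_congr (p := fun w => ∃ i ∈ (Set.univ : Set ι), w ∈ ({w | p i w} : Language α)) this ?_
  intro w
  constructor
  · rintro ⟨i, hi⟩; exact ⟨i, trivial, hi⟩
  · rintro ⟨i, -, hi⟩; exact ⟨i, hi⟩

theorem r_all {ι : Type*} [Finite ι] {p : ι → List α → Prop}
    (h : ∀ i, Language.IsRegular ({w | p i w} : Language α)) :
    Language.IsRegular ({w | ∀ i, p i w} : Language α) :=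
  r_congr (r_not (r_ex fun i => r_not (h i))) fun w => by
    constructor
    · rintro h ⟨i, hi⟩; exact hi (h i)
    · intro h i
      by_contra hc
      exact h ⟨i, hc⟩

theorem r_bex (K : ℕ) {p : ℕ → List α → Prop}
    (h : ∀ i < K, Language.IsRegular ({w | p i w} : Language α)) :
    Language.IsRegular ({w | ∃ i < K, p i w} : Language α) :=
  r_congr (r_ex (ι := Fin K) (p := fun i w => p i.1 w) fun i => h i.1 i.2) fun w => by
    constructor
    · rintro ⟨i, hi, h⟩; exact ⟨⟨i, hi⟩, h⟩
    · rintro ⟨⟨i, hi⟩, h⟩; exact ⟨i, hi, h⟩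

theorem r_ball (K : ℕ) {p : ℕ → List α → Prop}
    (h : ∀ i < K, Language.IsRegular ({w | p i w} : Language α)) :
    Language.IsRegular ({w | ∀ i < K, p i w} : Language α) :=
  r_congr (r_all (ι := Fin K) (p := fun i w => p i.1 w) fun i => h i.1 i.2) fun w => by
    constructor
    · intro h i; exact h i.1 i.2
    · intro h i hi; exact h ⟨i, hi⟩

theorem r_cat {p q : List α → Prop} (hp : Language.IsRegular ({w | p w} : Language α))
    (hq : Language.IsRegular ({w | q w} : Language α)) :
    Language.IsRegular ({w | ∃ u v, w = u ++ v ∧ p u ∧ q v} : Language α) := by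
  let P : Language α := {w | p w}
  let Q : Language α := {w | q w}
  have h : (P * Q).IsRegular := Reg_236.isRegular_mul hp hq
  refine r_congr (p := fun w => w ∈ P * Q) h ?_
  intro w
  constructor
  · rintro ⟨u, v, rfl, hu, hv⟩
    exact Language.mem_mul.2 ⟨u, hu, v, hv, rfl⟩
  · intro hw
    obtain ⟨u, hu, v, hv, rfl⟩ := Language.mem_mul.1 hw
    exact ⟨u, v, rfl, hu, hv⟩

theorem r_len (k : ℕ) [Finite α] : Language.IsRegular ({w | k ≤ w.length} : Language α) :=
  r_HL (k := 0) (HL.length_ge k)

theorem r_short [Finite α] (k : ℕ) (p : List α → Prop) (hp : ∀ w, p w → w.length ≤ k) :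
    Language.IsRegular ({w | p w} : Language α) :=
  r_HL (k := 0) (HL.finite ((List.finite_length_le α k).subset fun w hw => hp w hw))

/-- bounded prefix, regular rest -/
theorem r_pre [Finite α] (j : ℕ) (R : List α → List α → Prop)
    (h : ∀ u, Language.IsRegular ({w | R u w} : Language α)) :
    Language.IsRegular ({w | j ≤ w.length ∧ R (w.take j) (w.drop j)} : Language α) := by
  have : Finite {u : List α // u.length = j} := (List.finite_length_eq α j).to_subtype
  refine r_congr (r_ex (ι := {u : List α // u.length = j})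
    (p := fun u w => ∃ x y, w = x ++ y ∧ x = u.1 ∧ R u.1 y) fun u =>
      r_cat (r_short j (fun x => x = u.1) (fun w hw => by rw [hw, u.2])) (h u.1)) fun w => ?_
  constructor
  · rintro ⟨hj, hR⟩
    exact ⟨⟨w.take j, by rw [List.length_take]; omega⟩, w.take j, w.drop j,
      (List.take_append_drop _ _).symm, rfl, hR⟩
  · rintro ⟨⟨u, hu⟩, x, y, rfl, rfl, hR⟩
    refine ⟨by rw [List.length_append]; omega, ?_⟩
    rw [List.take_left' hu, List.drop_left' hu]
    exact hR

theorem r_lmod [Finite α] (N : ℕ) (hN : 0 < N) (c : ZMod N) :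
    Language.IsRegular ({w | (w.length : ZMod N) = c} : Language α) := by
  have : NeZero N := ⟨hN.ne'⟩
  have h := Fib_298.isRegular_fib (α := α) (S := Multiplicative (ZMod N))
    (fun _ => Multiplicative.ofAdd 1) (Multiplicative.ofAdd c)
  refine r_congr h fun w => ?_
  have e : (w.map (fun _ : α => (Multiplicative.ofAdd (1 : ZMod N)))).prod =
      Multiplicative.ofAdd ((w.length : ℕ) : ZMod N) := by
    rw [List.map_const', List.prod_replicate, ← ofAdd_nsmul, nsmul_one]
  rw [e]
  exact Multiplicative.ofAdd.injective.eq_iff.symm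

theorem r_per [Finite α] (N : ℕ) (hN : 0 < N) (k : ℕ) (B : ℕ → Prop)
    (hB : ∀ n n', k ≤ n → k ≤ n' → n % N = n' % N → (B n ↔ B n')) :
    Language.IsRegular ({w | k ≤ w.length ∧ B w.length} : Language α) := by
  have : NeZero N := ⟨hN.ne'⟩
  refine r_congr (r_and (r_len k) (r_ex (ι := ZMod N)
    (p := fun c (w : List α) => (∃ n, k ≤ n ∧ (n : ZMod N) = c ∧ B n) ∧ (w.length : ZMod N) = c)
    fun c => r_and (r_const _) (r_lmod N hN c))) fun w => ?_
  constructor
  · rintro ⟨h1, h2⟩
    exact ⟨h1, _, ⟨_, h1, rfl, h2⟩, rfl⟩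
  · rintro ⟨h1, c, ⟨n, hn, rfl, hB'⟩, h2⟩
    refine ⟨h1, (hB _ _ h1 hn ?_).2 hB'⟩
    exact (ZMod.natCast_eq_natCast_iff' _ _ _).1 h2

end cl

section main

variable {α S V : Type*} [Monoid S] [AddCommGroup V] {D : Dt α S V}

/-- ends at the first wall at distance at least `z` for the candidate offset `c` -/
def FW (D : Dt α S V) (c : ℕ) (U : List α) : Prop :=
  (D.z ≤ c + U.length ∧ D.Wo U) ∧ ∀ t < U.length, D.z ≤ c + t → ¬ D.Wo (U.take t)

structure Rg (D : Dt α S V) : Prop where
  wo : Language.IsRegular ({w | D.Wo w} : Language α)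
  rho : ∀ b, Language.IsRegular ({w | D.rho w = some b} : Language α)
  nu : ∀ b, Language.IsRegular ({w | D.nu1 w = b} : Language α)
  ph : ∀ s, Language.IsRegular ({w | D.φ w = s} : Language α)
  bad : ∃ N, 0 < N ∧ ∀ n n', n % N = n' % N → (D.BadT n ↔ D.BadT n')

variable [Finite α]

theorem r_wl (h : Rg D) (k : ℕ) (g : ℕ → ℕ) (hg : ∃ m, ∀ n, k ≤ g n ↔ m ≤ n) :
    Language.IsRegular ({w | k ≤ g w.length ∧ D.Wo w} : Language α) := by
  obtain ⟨m, hm⟩ := hg
  exact r_congr (r_and (r_len m) h.wo) fun w => by rw [hm]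

theorem r_nowall {p : List α → Prop} (hp : Language.IsRegular ({w | p w ∧ D.Wo w} : Language α)) :
    Language.IsRegular ({w | ∀ t < w.length, p (w.take t) → ¬ D.Wo (w.take t)} : Language α) := by
  refine r_congr (r_not (r_cat hp (r_len 1))) fun w => ?_
  constructor
  · rintro h ⟨u, v, rfl, ⟨h1, h2⟩, h3⟩
    have := h u.length (by rw [List.length_append]; omega)
    rw [List.take_left' rfl] at this
    exact this h1 h2
  · intro h t ht h1 h2
    exact h ⟨w.take t, w.drop t, (List.take_append_drop _ _).symm, ⟨h1, h2⟩, by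
      rw [List.length_drop]; omega⟩

theorem r_nowall' (h : Rg D) (k c : ℕ) :
    Language.IsRegular ({w | ∀ t < w.length, k ≤ c + t → ¬ D.Wo (w.take t)} : Language α) := by
  have h1 := r_nowall (D := D) (p := fun w => k ≤ c + w.length)
    (r_wl h k (fun n => c + n) ⟨k - c, fun n => by omega⟩)
  refine r_congr h1 fun w => ?_
  constructor
  · intro h t ht h2
    rw [List.length_take] at h2
    exact h t ht (by omega)
  · intro h t ht h2
    exact h t ht (by rw [List.length_take]; omega)

theorem r_FW (h : Rg D) (c : ℕ) : Language.IsRegular ({w | FW D c w} : Language α) :=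
  r_and (r_wl h D.z (fun n => c + n) ⟨D.z - c, fun n => by omega⟩) (r_nowall' h D.z c)

theorem r_XX (h : Rg D) : Language.IsRegular ({w | w ∈ XX D} : Language α) := by
  refine r_congr (r_FW h 0) fun w => ?_
  unfold XX FW
  simp only [Set.mem_ofPred_eq, zero_add]
  tauto

theorem r_Ex (h : Rg D) (k : ℕ) : Language.IsRegular ({w | Ex D k w} : Language α) := by
  refine r_congr (r_cat (r_wl h D.z (fun n => D.c k + n) ⟨D.z - D.c k, fun n => by omega⟩)
    (r_const (α := α) True)) fun w => ?_
  constructor
  · rintro ⟨y, h1, h2, h3⟩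
    exact ⟨w.take y, w.drop y, (List.take_append_drop _ _).symm,
      ⟨by rw [List.length_take]; omega, h3⟩, trivial⟩
  · rintro ⟨u, v, rfl, ⟨h1, h2⟩, -⟩
    refine ⟨u.length, h1, by rw [List.length_append]; omega, ?_⟩
    rw [List.take_left' rfl]; exact h2

theorem split_iff (k : ℕ) (p q : List α → Prop) (Q : List α) :
    (Ex D k Q ∧ p (Q.take (NN D k Q)) ∧ q (Q.drop (NN D k Q))) ↔
      ∃ U W, Q = U ++ W ∧ (FW D (D.c k) U ∧ p U) ∧ q W := by
  constructor
  · rintro ⟨hex, hp, hq⟩
    obtain ⟨a1, a2, a3⟩ := NN_spec hex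
    have hl : (Q.take (NN D k Q)).length = NN D k Q := by rw [List.length_take]; omega
    refine ⟨_, _, (List.take_append_drop (NN D k Q) Q).symm, ⟨⟨⟨by omega, a3⟩, ?_⟩, hp⟩, hq⟩
    intro t ht hz hw
    rw [List.take_take, min_eq_left (by omega)] at hw
    have := NN_le (D := D) (k := k) hz (by omega) hw
    omega
  · rintro ⟨U, W, rfl, ⟨⟨⟨h1, h2⟩, h3⟩, hp⟩, hq⟩
    have hw : D.Wo ((U ++ W).take U.length) := by rw [List.take_left' rfl]; exact h2
    have hex : Ex D k (U ++ W) := ⟨U.length, h1, by rw [List.length_append]; omega, hw⟩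
    have hle := NN_le (D := D) (k := k) h1 (by rw [List.length_append]; omega) hw
    obtain ⟨a1, a2, a3⟩ := NN_spec hex
    have e : NN D k (U ++ W) = U.length := by
      by_contra hne
      have hlt : NN D k (U ++ W) < U.length := by omega
      rw [List.take_append_of_le_length hlt.le] at a3
      exact h3 _ hlt a1 a3
    rw [e, List.take_left' rfl, List.drop_left' rfl]
    exact ⟨hex, hp, hq⟩

theorem r_split (k : ℕ) (p q : List α → Prop)
    (hp : Language.IsRegular ({w | FW D (D.c k) w ∧ p w} : Language α))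
    (hq : Language.IsRegular ({w | q w} : Language α)) :
    Language.IsRegular ({Q | Ex D k Q ∧ p (Q.take (NN D k Q)) ∧ q (Q.drop (NN D k Q))} :
      Language α) :=
  r_congr (r_cat hp hq) fun Q => split_iff k p q Q

theorem r_cand (h : Rg D) (ho : Ok D) {k : ℕ} (hk : k < D.K) :
    Language.IsRegular ({w | cand D k w} : Language α) := by
  have hz := ho.hz
  have hc := ho.cp0 k hk
  obtain ⟨N, hN, hper⟩ := h.bad
  have h1 : Language.IsRegular ({w | ∃ y ≤ w.length, D.z ≤ D.c k + y + D.N1 ∧
      D.c k + y < D.z + D.N1 ∧ D.Wo (w.take y)} : Language α) := by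
    refine r_congr (r_cat (r_short (D.z + D.N1) (fun u : List α => (D.z ≤ D.c k + u.length + D.N1 ∧
      D.c k + u.length < D.z + D.N1) ∧ D.Wo u) (fun u hu => by omega))
      (r_const (α := α) True)) fun w => ?_
    constructor
    · rintro ⟨y, h1, h2, h3, h4⟩
      exact ⟨w.take y, w.drop y, (List.take_append_drop _ _).symm,
        ⟨by rw [List.length_take, min_eq_left h1]; exact ⟨h2, h3⟩, h4⟩, trivial⟩
    · rintro ⟨u, v, rfl, ⟨⟨h1, h2⟩, h3⟩, -⟩
      refine ⟨u.length, by rw [List.length_append]; omega, h1, h2, ?_⟩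
      rw [List.take_left' rfl]; exact h3
  have h2 : Language.IsRegular ({w | Ex D k w ∧ (D.BadT (D.c k + (w.take (NN D k w)).length - D.p0))
      ∧ True} : Language α) := by
    refine r_split k (fun u => D.BadT (D.c k + u.length - D.p0)) (fun _ => True) ?_
      (r_const True)
    have h3 := r_per (α := α) N hN D.p0 (fun n => D.BadT (D.c k + n - D.p0)) (by
      intro n n' hn hn' he
      refine hper _ _ ?_
      have e1 : D.c k + n - D.p0 = D.c k + (n - D.p0) := by omega
      have e2 : D.c k + n' - D.p0 = D.c k + (n' - D.p0) := by omega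
      rw [e1, e2]
      have : n - D.p0 ≡ n' - D.p0 [MOD N] :=
        (Nat.ModEq.add_right_cancel' D.p0 (by
          rw [Nat.sub_add_cancel hn, Nat.sub_add_cancel hn']; exact he))
      exact Nat.ModEq.add_left _ this)
    refine r_congr (r_and (r_FW h (D.c k)) h3) fun w => ?_
    constructor
    · rintro ⟨a, b⟩
      exact ⟨a, by have := a.1.1; omega, b⟩
    · rintro ⟨a, -, b⟩
      exact ⟨a, b⟩
  refine r_congr (r_or h1 (r_or h2 (r_and (r_not (r_Ex h k))
    (r_const (α := α) (D.BadT (D.c k + 0 - D.p0)))))) fun w => ?_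
  unfold cand
  refine or_congr Iff.rfl ?_
  by_cases hex : Ex D k w
  · have hl : (w.take (NN D k w)).length = NN D k w := by
      rw [List.length_take, min_eq_left (NN_spec hex).2.1]
    simp only [hex, hl, true_and, not_true_eq_false, false_and, or_false, and_true]
  · have e : NN D k w = 0 := by
      unfold NN
      have : {y | D.z ≤ D.c k + y ∧ y ≤ w.length ∧ D.Wo (w.take y)} = ∅ := by
        rw [Set.eq_empty_iff_forall_notMem]
        intro y hy
        exact hex ⟨y, hy⟩
      rw [this]
      exact Nat.sInf_empty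
    simp only [hex, e, false_and, not_false_eq_true, true_and, false_or]

variable [Finite S] [Finite V]

theorem r_phnu (h : Rg D) (g : S → V → Prop) :
    Language.IsRegular ({w | g (D.φ w) (D.nu1 w)} : Language α) := by
  refine r_congr (r_ex (ι := S × V) (p := fun i w => g i.1 i.2 ∧ D.φ w = i.1 ∧ D.nu1 w = i.2)
    fun i => r_and (r_const _) (r_and (h.ph _) (h.nu _))) fun w => ?_
  constructor
  · intro hg; exact ⟨(D.φ w, D.nu1 w), hg, rfl, rfl⟩
  · rintro ⟨i, hg, h1, h2⟩
    rw [h1, h2]; exact hg

theorem r_T (h : Rg D) (ho : Ok D) (v b : V) :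
    Language.IsRegular ({w | w ∈ XX D ∧ T D v w = b} : Language α) := by
  have h1 := r_pre (α := α) D.p0 (fun u w => D.act v (D.φ u * D.φ w) +
    (D.act (D.nu2 u) (D.φ w) + D.nu1 w) = b) (fun u => r_phnu h (fun s c =>
      D.act v (D.φ u * s) + (D.act (D.nu2 u) s + c) = b))
  refine r_congr (r_and (r_XX h) h1) fun w => ?_
  have hz := ho.hz
  constructor
  · rintro ⟨hX, hT⟩
    refine ⟨hX, by have := hX.2.1; omega, ?_⟩
    rw [← ho.φ_app, List.take_append_drop]
    exact hT
  · rintro ⟨hX, -, hT⟩
    refine ⟨hX, ?_⟩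
    rw [← ho.φ_app, List.take_append_drop] at hT
    exact hT

theorem r_R1 (h : Rg D) (b : V) : Language.IsRegular ({w | R1 D w = some b} : Language α) := by
  have h1 : Language.IsRegular ({w | RB D w} : Language α) := by
    unfold RB
    refine r_congr (r_and (r_wl h D.z (fun n => n + D.p0) ⟨D.z - D.p0, fun n => by omega⟩)
      (r_nowall' h D.z (D.p0 + D.N1))) fun w => ?_
    constructor
    · rintro ⟨a, b, c⟩
      exact ⟨⟨b, a⟩, fun t ht hz => c t ht (by omega)⟩
    · rintro ⟨⟨b, a⟩, c⟩
      exact ⟨a, b, fun t ht hz => c t ht (by omega)⟩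
  refine r_congr (r_and h1 (h.rho b)) fun w => ?_
  unfold R1
  split_ifs with hc
  · exact ⟨fun e => ⟨hc, e⟩, fun e => e.2⟩
  · exact ⟨fun e => by simp at e, fun e => absurd e.1 hc⟩

theorem r_R2r (h : Rg D) (ho : Ok D) (b : V) :
    Language.IsRegular ({w | R2r D w b} : Language α) := by
  unfold R2r
  refine r_bex D.K fun k hk => ?_
  have hz := ho.hz
  have hc := ho.cp0 k hk
  have h1 : Language.IsRegular ({w | ∀ k' < D.K, cand D k' w → k' = k} : Language α) :=
    r_ball D.K fun k' hk' => by
      by_cases he : k' = k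
      · exact r_congr (r_const (α := α) True) fun w => ⟨fun _ => trivial, fun _ _ => he⟩
      · exact r_congr (r_not (r_cand h ho hk')) fun w => ⟨fun a b => he (a b), fun a b => absurd b a⟩
  have h2 : Language.IsRegular ({w | ∃ i : V × V, Ex D k w ∧
      ((D.p0 - D.c k ≤ (w.take (NN D k w)).length ∧
        (D.rho2 k ((w.take (NN D k w)).take (D.p0 - D.c k)) = some i.1 ∧
        D.act i.1 (D.φ ((w.take (NN D k w)).drop (D.p0 - D.c k))) +
          D.nu1 ((w.take (NN D k w)).drop (D.p0 - D.c k)) = i.2)) ∧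
      (w.drop (NN D k w) ∈ XX D ∧ T D i.2 (w.drop (NN D k w)) = b))} : Language α) := by
    refine r_ex fun i => ?_
    refine r_split k (fun u => D.p0 - D.c k ≤ u.length ∧
        (D.rho2 k (u.take (D.p0 - D.c k)) = some i.1 ∧
        D.act i.1 (D.φ (u.drop (D.p0 - D.c k))) + D.nu1 (u.drop (D.p0 - D.c k)) = i.2))
      (fun u => u ∈ XX D ∧ T D i.2 u = b) ?_ (r_T h ho _ _)
    refine r_and (r_FW h _) ?_
    exact r_pre (α := α) (D.p0 - D.c k) (fun u w => D.rho2 k u = some i.1 ∧
      D.act i.1 (D.φ w) + D.nu1 w = i.2) (fun u => r_and (r_const _)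
        (r_phnu h (fun s c => D.act i.1 s + c = i.2)))
  refine r_congr (r_and (r_cand h ho hk) (r_and h1 h2)) fun w => ?_
  constructor
  · rintro ⟨a1, a2, a3, a4, r, a5, a6⟩
    have hN := NN_spec a3
    have hl : (w.take (NN D k w)).length = NN D k w := by
      rw [List.length_take, min_eq_left hN.2.1]
    refine ⟨a1, a2, (r, _), a3, ⟨by omega, ?_, rfl⟩, a4, a6.symm⟩
    rw [List.take_take, min_eq_left (by omega)]
    exact a5
  · rintro ⟨a1, a2, ⟨r, v⟩, a3, ⟨-, a4, a5⟩, a6, a7⟩
    have hN := NN_spec a3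
    refine ⟨a1, a2, a3, a6, r, ?_, ?_⟩
    · rw [List.take_take, min_eq_left (by omega)] at a4
      exact a4
    · simp only at a5 a7
      rw [a5, a7]

theorem r_R2 (h : Rg D) (ho : Ok D) (b : V) :
    Language.IsRegular ({w | R2 D w = some b} : Language α) := by
  classical
  let g : (V → Prop) → Option V := fun p => if h : ∃ b, p b then some h.choose else none
  refine r_congr (r_ex (ι := V → Prop) (p := fun p w => g p = some b ∧ ∀ c, (R2r D w c ↔ p c))
    fun p => r_and (r_const _) (r_all fun c => ?_)) fun w => ?_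
  · by_cases hpc : p c
    · exact r_congr (r_R2r h ho c) fun w => by tauto
    · exact r_congr (r_not (r_R2r h ho c)) fun w => by tauto
  · constructor
    · intro hw
      refine ⟨fun c => R2r D w c, ?_, fun c => Iff.rfl⟩
      exact hw
    · rintro ⟨p, hp, hc⟩
      have e : (fun c => R2r D w c) = p := funext fun c => propext (hc c)
      have : R2 D w = g (fun c => R2r D w c) := rfl
      rw [this, e]
      exact hp

end main

end Crest.Agent.R320.P4_720
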