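import Crest.Agent.R320.Blk2_780
import Crest.Agent.R320.RegDep_10
import Crest.Agent.R320.Reg_852
import Crest.Agent.R320.CompR_11

/-!
# Row 320: `HL 1` of the language families of `Blk2_780` (P4 of 163's `top`) (helper780)
-/

set_option autoImplicit false

namespace Crest.Agent.R320.P4_780

open Crest.Agent.R320.Blk2_780 Crest.Agent.R320.Hk_851

universe u

variable {α : Type u}

/-- regular property -/
def Rg (p : List α → Prop) : Prop := Language.IsRegular ({w | p w} : Language α)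

theorem Rg.congr {p q : List α → Prop} (h : Rg p) (e : ∀ w, q w ↔ p w) : Rg q := by
  have h1 : ({w | q w} : Set (List α)) = {w | p w} := Set.ext e
  unfold Rg at *
  have h2 : ({w | q w} : Language α) = ({w | p w} : Language α) := h1
  rw [h2]; exact h

theorem Rg.and {p q : List α → Prop} (hp : Rg p) (hq : Rg q) : Rg (fun w => p w ∧ q w) :=
  Language.IsRegular.inf hp hq

theorem Rg.not {p : List α → Prop} (hp : Rg p) : Rg (fun w => ¬ p w) :=
  Language.IsRegular.compl hp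

theorem Rg.or {p q : List α → Prop} (hp : Rg p) (hq : Rg q) : Rg (fun w => p w ∨ q w) :=
  Language.IsRegular.add hp hq

theorem Rg.const [Finite α] (p : Prop) : Rg (fun _ : List α => p) :=
  Crest.Agent.R320.RegDep_10.regular_of_dep' (S := PUnit.{1}) (fun _ => 1) rfl (fun _ _ => rfl) 0 1
    one_pos _ (fun _ _ _ _ _ _ _ h => h)

theorem Rg.exFin [Finite α] {ι : Type*} (s : Set ι) (hs : s.Finite) {p : ι → List α → Prop}
    (h : ∀ i ∈ s, Rg (p i)) : Rg (fun w => ∃ i ∈ s, p i w) := by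
  induction s, hs using Set.Finite.induction_on with
  | empty => exact (Rg.const False).congr fun w => by simp
  | @insert a s ha hs ih =>
    refine ((h a (Set.mem_insert _ _)).or (ih fun i hi => h i (Set.mem_insert_of_mem _ hi))).congr
      fun w => ?_
    constructor
    · rintro ⟨i, hi, hw⟩
      rcases Set.mem_insert_iff.1 hi with rfl | hi
      · exact Or.inl hw
      · exact Or.inr ⟨i, hi, hw⟩
    · rintro (hw | ⟨i, hi, hw⟩)
      · exact ⟨a, Set.mem_insert _ _, hw⟩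
      · exact ⟨i, Set.mem_insert_of_mem _ hi, hw⟩

theorem Rg.allFin [Finite α] {ι : Type*} (s : Set ι) (hs : s.Finite) {p : ι → List α → Prop}
    (h : ∀ i ∈ s, Rg (p i)) : Rg (fun w => ∀ i ∈ s, p i w) := by
  refine (Rg.exFin s hs (p := fun i w => ¬ p i w) fun i hi => (h i hi).not).not.congr fun w => ?_
  push Not
  rfl

theorem Rg.cat {p q : List α → Prop} (hp : Rg p) (hq : Rg q) :
    Rg (fun w => ∃ x y, w = x ++ y ∧ p x ∧ q y) := by
  let Lp : Language α := {w | p w}
  let Lq : Language α := {w | q w}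
  have h : Rg (fun w => w ∈ Lp * Lq) := Crest.Agent.R320.Reg_852.IsRegular.mul (L := Lp) (M := Lq) hp hq
  refine h.congr fun w => ?_
  rw [Language.mem_mul]
  constructor
  · rintro ⟨x, y, rfl, hx, hy⟩
    exact ⟨x, hx, y, hy, rfl⟩
  · rintro ⟨x, hx, y, hy, rfl⟩
    exact ⟨x, y, rfl, hx, hy⟩

/-- eventually determined by bounded prefix, value of the rest, length modulo `M` -/
theorem Rg.dep [Finite α] {S : Type*} [Monoid S] [Finite S] (φ : List α → S) (h1 : φ [] = 1)
    (hm : ∀ u v, φ (u ++ v) = φ u * φ v) (A M : ℕ) (hM : 0 < M) {p : List α → Prop}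
    (h : ∀ u u' : List α, A ≤ u.length → A ≤ u'.length → u.take A = u'.take A →
      φ (u.drop A) = φ (u'.drop A) → u.length % M = u'.length % M → p u → p u') : Rg p :=
  Crest.Agent.R320.RegDep_10.regular_of_dep' φ h1 hm A M hM _ h

/-- determined by a bounded prefix -/
theorem Rg.pre [Finite α] (A : ℕ) {p : List α → Prop}
    (h : ∀ u u' : List α, A ≤ u.length → A ≤ u'.length → u.take A = u'.take A → p u → p u') :
    Rg p :=
  Rg.dep (S := PUnit.{1}) (fun _ => 1) rfl (fun _ _ => rfl) A 1 one_pos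
    (fun u u' h1 h2 h3 _ _ h4 => h u u' h1 h2 h3 h4)

section

variable [Finite α] {V : Type*} {S : Type*} {Wo : List α → Prop} {n W z p0 : ℕ}

theorem rg_wo (hw : Wall Wo n W) : Rg Wo := by
  refine (Rg.cat (Rg.const (α := α) True) (Rg.pre (n + 1) (p := fun y => y.length = n ∧ Wo y)
    (fun u u' h1 _ _ h4 => by omega))).congr fun w => ?_
  constructor
  · intro h
    have hl := hw.len w h
    refine ⟨w.take (w.length - n), w.drop (w.length - n), (List.take_append_drop _ _).symm,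
      trivial, by rw [List.length_drop]; omega, ?_⟩
    refine (hw.loc (w.take (w.length - n)) _ (by rw [List.length_drop]; omega)).1 ?_
    rw [List.take_append_drop]; exact h
  · rintro ⟨x, y, rfl, -, hy, h⟩
    exact (hw.loc x y hy.ge).2 h

theorem rg_len (k : ℕ) : Rg (fun w : List α => k ≤ w.length) :=
  Rg.pre k fun _ _ _ h2 _ _ => h2

theorem rg_nw (hw : Wall Wo n W) (z c : ℕ) :
    Rg (fun Q => ∀ t, z ≤ c + t → t < Q.length → ¬ Wo (Q.take t)) := by
  refine (Rg.cat (((rg_len (α := α) (z - c))).and (rg_wo hw)) (rg_len (α := α) 1)).not.congr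
    fun w => ?_
  constructor
  · rintro h ⟨x, y, rfl, ⟨h1, h2⟩, h3⟩
    refine h x.length (by omega) (by rw [List.length_append]; omega) ?_
    rwa [List.take_left]
  · intro h t h1 h2 h3
    refine h ⟨w.take t, w.drop t, (List.take_append_drop _ _).symm, ⟨?_, h3⟩, ?_⟩
    · rw [List.length_take]; omega
    · rw [List.length_drop]; omega

theorem rg_blk (hw : Wall Wo n W) (c : ℕ) : Rg (Blk Wo z c) := by
  refine ((rg_len (α := α) (z - c)).and ((rg_wo hw).and (rg_nw hw z c))).congr fun w => ?_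
  unfold Blk
  constructor
  · rintro ⟨h1, h2, h3⟩; exact ⟨by omega, h2, h3⟩
  · rintro ⟨h1, h2, h3⟩; exact ⟨by omega, h2, h3⟩

theorem rg_XX (hw : Wall Wo n W) : Rg (fun X => X ∈ XX Wo z) := by
  refine ((rg_len (α := α) z).and ((rg_wo hw).and (rg_nw hw z 0))).congr fun w => ?_
  unfold XX
  constructor
  · rintro ⟨h1, h2, h3⟩; exact ⟨h1, h2, fun t h4 => h3 t (by omega)⟩
  · rintro ⟨h1, h2, h3⟩; exact ⟨h1, h2, fun t h4 => h3 t (by omega)⟩

/-! ### pieces -/

theorem pieces_mono {R R' B B' : ℕ} (hR : R ≤ R') (hB : B ≤ B') {w : List α}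
    (h : CompR_11.Pieces R B w) : CompR_11.Pieces R' B' w := by
  obtain ⟨l, h1, h2, h3⟩ := h
  exact ⟨l, h1.trans hR, fun t ht => ⟨(h2 t ht).1.trans hB, (h2 t ht).2.trans hB⟩, h3⟩

theorem pieces_cons {R B K : ℕ} {p u : List α} (hp : p.length ≤ K)
    (h : CompR_11.Pieces R B u) : CompR_11.Pieces (R + 1) (max B K) (p ++ u) := by
  obtain ⟨l, h1, h2, h3⟩ := h
  refine ⟨(p, [], 0) :: l, by simp; omega, ?_, ?_⟩
  · intro t ht
    rcases List.mem_cons.1 ht with rfl | ht
    · exact ⟨hp.trans (le_max_right _ _), by simp⟩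
    · exact ⟨(h2 t ht).1.trans (le_max_left _ _), (h2 t ht).2.trans (le_max_left _ _)⟩
  · rw [Pump_360.val_cons, ← h3]
    simp [Pump_360.pw]

theorem pieces_append {R B R' B' : ℕ} {u u' : List α} (h : CompR_11.Pieces R B u)
    (h' : CompR_11.Pieces R' B' u') : CompR_11.Pieces (R + R') (max B B') (u ++ u') := by
  obtain ⟨l, h1, h2, h3⟩ := h
  obtain ⟨l', h1', h2', h3'⟩ := h'
  refine ⟨l ++ l', by rw [List.length_append]; omega, ?_, ?_⟩
  · intro t ht
    rcases List.mem_append.1 ht with ht | ht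
    · exact ⟨(h2 t ht).1.trans (le_max_left _ _), (h2 t ht).2.trans (le_max_left _ _)⟩
    · exact ⟨(h2' t ht).1.trans (le_max_right _ _), (h2' t ht).2.trans (le_max_right _ _)⟩
  · rw [h3, h3']
    unfold Pump_360.val
    rw [List.map_append, List.flatten_append]

theorem pieces_nw (hw : Wall Wo n W) {R B : ℕ}
    (hpc : ∀ u : List α, (∀ t < u.length, ¬ Wo (u.take t)) → CompR_11.Pieces R B u) {c : ℕ}
    {Q : List α} (h : ∀ t, z ≤ c + t → t < Q.length → ¬ Wo (Q.take t)) :
    CompR_11.Pieces (R + 1) (max B z) Q := by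
  have h1 : CompR_11.Pieces R B (Q.drop z) := by
    refine hpc _ fun t ht hwt => ?_
    rw [List.length_drop] at ht
    have hn := hw.len _ hwt
    rw [List.length_take] at hn
    refine h (z + t) (by omega) (by omega) ?_
    rw [List.take_add]
    exact (hw.loc _ _ (by rw [List.length_take]; omega)).2 hwt
  have h2 := pieces_cons (p := Q.take z) (K := z) (by rw [List.length_take]; omega) h1
  rwa [List.take_append_drop] at h2

theorem hl1 {p : List α → Prop} (hp : Rg p) {R B : ℕ}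
    (h : ∀ w, p w → CompR_11.Pieces R B w) : HL 1 ({w | p w} : Language α) :=
  Crest.Agent.R320.RegBd_11.reg_pieces hp R B fun w hw => h w hw

/-! ### the families -/

variable [AddCommGroup V] [Finite V] [Monoid S] [Finite S] {φ : List α → S}
  {act : V → S → V} {g1 : G1 φ act} {C : Finset ℕ} {K : ℕ} {g2 : G2 φ act p0 C K}

/-- finite state clause -/
structure FS (g1 : G1 φ act) (B0 M0 : ℕ) : Prop where
  hM : 0 < M0
  rho : ∀ Q Q' : List α, B0 ≤ Q.length → B0 ≤ Q'.length → Q.take B0 = Q'.take B0 →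
    φ (Q.drop B0) = φ (Q'.drop B0) → Q.length % M0 = Q'.length % M0 → g1.rho Q = g1.rho Q'
  nu : ∀ Q Q' : List α, B0 ≤ Q.length → B0 ≤ Q'.length → Q.take B0 = Q'.take B0 →
    φ (Q.drop B0) = φ (Q'.drop B0) → Q.length % M0 = Q'.length % M0 → g1.nu Q = g1.nu Q'
  bad : ∀ T T' : ℕ, B0 ≤ T → B0 ≤ T' → T % M0 = T' % M0 → (g1.BadT T ↔ g1.BadT T')

/-- the data of the rest behind `k` letters -/
theorem drop_data (hm : ∀ u v, φ (u ++ v) = φ u * φ v) {k B0 M0 : ℕ} {u u' : List α}
    (h1 : k + B0 ≤ u.length) (h2 : k + B0 ≤ u'.length) (h3 : u.take (k + B0) = u'.take (k + B0))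
    (h4 : φ (u.drop (k + B0)) = φ (u'.drop (k + B0))) (h5 : u.length % M0 = u'.length % M0) :
    u.take k = u'.take k ∧ (u.drop k).take B0 = (u'.drop k).take B0 ∧
      φ ((u.drop k).drop B0) = φ ((u'.drop k).drop B0) ∧
      (u.drop k).length % M0 = (u'.drop k).length % M0 ∧ φ (u.drop k) = φ (u'.drop k) := by
  have e1 : u.take k = u'.take k := by
    have := congrArg (List.take k) h3
    rwa [List.take_take, List.take_take, min_eq_left (by omega)] at this
  have e2 : (u.drop k).take B0 = (u'.drop k).take B0 := by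
    have := congrArg (List.drop k) h3
    rwa [List.drop_take, List.drop_take, show k + B0 - k = B0 by omega] at this
  have e3 : φ ((u.drop k).drop B0) = φ ((u'.drop k).drop B0) := by
    rw [List.drop_drop, List.drop_drop]; exact h4
  refine ⟨e1, e2, e3, ?_, ?_⟩
  · rw [List.length_drop, List.length_drop]
    have h6 : (u.length - k) ≡ (u'.length - k) [MOD M0] := by
      have h7 : (u.length - k) + k ≡ (u'.length - k) + k [MOD M0] := by
        rw [show u.length - k + k = u.length by omega,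
          show u'.length - k + k = u'.length by omega]
        exact h5
      exact Nat.ModEq.add_right_cancel' k h7
    exact h6
  · rw [← List.take_append_drop B0 (u.drop k), ← List.take_append_drop B0 (u'.drop k), hm, hm,
      e2, e3]

theorem rg_post (h1 : φ [] = 1) (hm : ∀ u v, φ (u ++ v) = φ u * φ v) {B0 M0 : ℕ}
    (hf : FS g1 B0 M0) (k : ℕ) (g : List α → Option V) (w : V) :
    Rg (fun x => ∃ y, g (x.take k) = some y ∧ act y (φ (x.drop k)) + g1.nu (x.drop k) = w) := by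
  refine Rg.dep φ h1 hm (k + B0) M0 hf.hM ?_
  rintro u u' a1 a2 a3 a4 a5 ⟨y, hy, he⟩
  obtain ⟨e1, e2, e3, e4, e5⟩ := drop_data hm a1 a2 a3 a4 a5
  refine ⟨y, by rw [← e1]; exact hy, ?_⟩
  rw [← e5, ← hf.nu (u.drop k) (u'.drop k) (by rw [List.length_drop]; omega)
    (by rw [List.length_drop]; omega) e2 e3 e4]
  exact he

theorem rg_T (h1 : φ [] = 1) (hm : ∀ u v, φ (u ++ v) = φ u * φ v) {B0 M0 : ℕ}
    (hf : FS g1 B0 M0) (v w : V) : Rg (fun X => T p0 φ act g1 g2 v X = w) := by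
  refine (rg_post (g1 := g1) h1 hm hf p0 (fun X => some (act v (φ X) + g2.nu X)) w).congr
    fun X => ?_
  unfold T pre
  simp

theorem rg_bd (hw : Wall Wo n W) (h1 : φ [] = 1) (hm : ∀ u v, φ (u ++ v) = φ u * φ v)
    {B0 M0 : ℕ} (hf : FS g1 B0 M0) (c : ℕ) : Rg (Bd Wo z p0 φ act g1 c) := by
  refine Rg.or (p := fun Q : List α => ∃ t, t ≤ Q.length ∧ Wo (Q.take t) ∧ z ≤ c + t + g1.N1 ∧
    c + t < z + g1.N1) (q := fun Q : List α => g1.BadT (c + Q.length - p0)) ?_ ?_
  · refine Rg.pre (z + g1.N1) ?_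
    rintro u u' a1 a2 a3 ⟨t, h2, h3, h4, h5⟩
    refine ⟨t, by omega, ?_, h4, h5⟩
    have := congrArg (List.take t) a3
    rw [List.take_take, List.take_take, min_eq_left (by omega)] at this
    rwa [← this]
  · refine Rg.dep φ h1 hm (p0 + B0) M0 hf.hM ?_
    intro u u' a1 a2 a3 a4 a5 h
    refine (hf.bad _ _ (by omega) (by omega) ?_).1 h
    have h6 : (c + u.length - p0) ≡ (c + u'.length - p0) [MOD M0] := by
      have h7 : (c + u.length - p0) + p0 ≡ (c + u'.length - p0) + p0 [MOD M0] := by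
        rw [show c + u.length - p0 + p0 = c + u.length by omega,
          show c + u'.length - p0 + p0 = c + u'.length by omega]
        exact Nat.ModEq.add_left c a5
      exact Nat.ModEq.add_right_cancel' p0 h7
    exact h6

theorem rg_R1 (hw : Wall Wo n W) (h1 : φ [] = 1) (hm : ∀ u v, φ (u ++ v) = φ u * φ v)
    {B0 M0 : ℕ} (hf : FS g1 B0 M0) (b : V) :
    Rg (fun Q => R1 Wo z p0 φ act g1 Q = some b) := by
  have h2 : Rg (fun Q => g1.rho Q = some b) := by
    refine Rg.dep φ h1 hm B0 M0 hf.hM ?_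
    intro u u' a1 a2 a3 a4 a5 h
    rw [← hf.rho u u' a1 a2 a3 a4 a5]; exact h
  refine (h2.and ((rg_wo hw).and ((rg_len (α := α) (z - p0)).and
    (rg_nw hw z (p0 + g1.N1))))).congr fun Q => ?_
  rw [R1_iff]
  unfold RR1
  constructor
  · rintro ⟨a, b, c, d⟩; exact ⟨a, b, by omega, d⟩
  · rintro ⟨a, b, c, d⟩; exact ⟨a, b, by omega, d⟩

theorem rg_R2 (hw : Wall Wo n W) (h1 : φ [] = 1) (hm : ∀ u v, φ (u ++ v) = φ u * φ v)
    {B0 M0 : ℕ} (hf : FS g1 B0 M0) (b : V) :
    Rg (fun Q => R2 Wo z p0 φ act g1 g2 Q = some b) := by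
  have hCf : (↑C : Set ℕ).Finite := C.finite_toSet
  have hmain : Rg (fun Q => ∃ c ∈ (↑C : Set ℕ), ((∃ w ∈ (Set.univ : Set V), ∃ x y, Q = x ++ y ∧
      ((Blk Wo z c x ∧ Bd Wo z p0 φ act g1 c x) ∧ ∃ y', g2.rho c (x.take (p0 - c)) = some y' ∧
        act y' (φ (x.drop (p0 - c))) + g1.nu (x.drop (p0 - c)) = w) ∧
      (y ∈ XX Wo z ∧ T p0 φ act g1 g2 w y = b)) ∧
      (∀ c' ∈ (↑C : Set ℕ), ∃ x y, Q = x ++ y ∧ Blk Wo z c' x ∧ True)) ∧
      (∀ c' ∈ (↑C : Set ℕ), c' = c ∨ ¬ ∃ x y, Q = x ++ y ∧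
        (Blk Wo z c' x ∧ Bd Wo z p0 φ act g1 c' x) ∧ True)) := by
    refine Rg.exFin _ hCf fun c _ => Rg.and (Rg.and (Rg.exFin _ Set.finite_univ fun w _ => ?_) ?_) ?_
    · exact Rg.cat (((rg_blk hw c).and (rg_bd hw h1 hm hf c)).and (rg_post h1 hm hf _ _ w))
        ((rg_XX hw).and (rg_T h1 hm hf w b))
    · exact Rg.allFin _ hCf fun c' _ => Rg.cat (rg_blk hw c') (Rg.const True)
    · exact Rg.allFin _ hCf fun c' _ => Rg.or (Rg.const _)
        (Rg.cat ((rg_blk hw c').and (rg_bd hw h1 hm hf c')) (Rg.const True)).not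
  refine hmain.congr fun Q => ?_
  rw [R2_iff]
  unfold RR2
  constructor
  · rintro ⟨c, hc, Q1, X2, y, e, hB, hX2, hvis, hun, hrho, hb⟩
    refine ⟨c, hc, ⟨⟨_, Set.mem_univ _, Q1, X2, e, ⟨hB, y, hrho, rfl⟩, hX2, hb.symm⟩, ?_⟩, ?_⟩
    · intro c' hc'
      obtain ⟨e', h2, h3⟩ := hvis c' hc'
      exact ⟨_, Q.drop e', (List.take_append_drop e' Q).symm, h3, trivial⟩
    · intro c' hc'
      by_cases hcc : c' = c
      · exact Or.inl hcc
      · right
        rintro ⟨x, y', e', ⟨h2, h3⟩, -⟩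
        refine hcc (hun c' hc' x.length (by rw [e', List.length_append]; omega) ?_ ?_)
        · rw [e', List.take_left]; exact h2
        · rw [e', List.take_left]; exact h3
  · rintro ⟨c, hc, ⟨⟨w, -, Q1, X2, e, ⟨hB, y, hrho, hw'⟩, hX2, hb⟩, hvis⟩, hun⟩
    refine ⟨c, hc, Q1, X2, y, e, hB, hX2, ?_, ?_, hrho, by rw [hw', hb]⟩
    · intro c' hc'
      obtain ⟨x, y', e', h2, -⟩ := hvis c' hc'
      exact ⟨x.length, by rw [e', List.length_append]; omega, by rw [e', List.take_left]; exact h2⟩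
    · intro c' hc' e' he' h2 h3
      rcases hun c' hc' with h4 | h4
      · exact h4
      · exact (h4 ⟨Q.take e', Q.drop e', (List.take_append_drop _ _).symm, ⟨h2, h3⟩, trivial⟩).elim

variable {R B : ℕ}

theorem hXT (hw : Wall Wo n W)
    (hpc : ∀ u : List α, (∀ t < u.length, ¬ Wo (u.take t)) → CompR_11.Pieces R B u)
    (h1 : φ [] = 1) (hm : ∀ u v, φ (u ++ v) = φ u * φ v) {B0 M0 : ℕ} (hf : FS g1 B0 M0)
    (v v' : V) : HL 1 ({X | X ∈ XX Wo z ∧ T p0 φ act g1 g2 v X = v'} : Language α) :=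
  hl1 ((rg_XX hw).and (rg_T h1 hm hf v v')) fun X hX =>
    pieces_nw (z := z) (c := 0) hw hpc fun t h2 => hX.1.2.2 t (by omega)

theorem hNP (hw : Wall Wo n W)
    (hpc : ∀ u : List α, (∀ t < u.length, ¬ Wo (u.take t)) → CompR_11.Pieces R B u)
    (h1 : φ [] = 1) (hm : ∀ u v, φ (u ++ v) = φ u * φ v) (s : S) :
    HL 1 ({r | (∀ X ∈ XX Wo z, ¬ X <+: r) ∧ φ r = s} : Language α) := by
  refine hl1 (p := fun r => (∀ X ∈ XX Wo z, ¬ X <+: r) ∧ φ r = s) (Rg.and ?_ ?_) (R := R + 1)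
    (B := max B z) fun r hr => ?_
  · refine (Rg.cat (rg_XX (z := z) hw) (Rg.const True)).not.congr fun w => ?_
    constructor
    · rintro h ⟨x, y, rfl, hx, -⟩
      exact h x hx (List.prefix_append _ _)
    · rintro h X hX ⟨y, rfl⟩
      exact h ⟨X, y, rfl, hX, trivial⟩
  · refine Rg.dep φ h1 hm 0 1 one_pos ?_
    intro u u' _ _ _ a4 _ h
    rw [List.drop_zero, List.drop_zero] at a4
    rw [← a4]; exact h
  · refine pieces_nw (z := z) (c := 0) hw hpc fun t h2 h3 h4 => ?_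
    classical
    have hex : ∃ t, z ≤ t ∧ t < r.length ∧ Wo (r.take t) := ⟨t, by omega, h3, h4⟩
    obtain ⟨h5, h6, h7⟩ := Nat.find_spec hex
    refine hr.1 (r.take (Nat.find hex)) ⟨?_, h7, ?_⟩ (List.take_prefix _ _)
    · rw [List.length_take]; omega
    · intro t' h8 h9 h10
      rw [List.length_take] at h9
      have h11 : t' < Nat.find hex := by omega
      rw [List.take_take, min_eq_left h11.le] at h10
      exact Nat.find_min hex h11 ⟨h8, by omega, h10⟩

theorem hL1 (v : V) : HL 1 ({P | LP1 p0 φ act g1 g2 P v} : Language α) := by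
  refine HL.finite ((List.finite_length_lt α (p0 + g1.N1)).subset ?_)
  rintro P ⟨h1, h2⟩
  have := g1.short _ _ h2
  rw [List.length_drop] at this
  show P.length < _
  omega

theorem hL2 (v : V) : HL 1 ({P | g2.lam P v} : Language α) := by
  refine HL.finite ((List.finite_length_lt α (C.sup id + 1)).subset ?_)
  intro P hP
  have := Finset.le_sup (f := id) (g2.mem P v hP)
  show P.length < _
  simp only [id] at this
  omega

theorem hQ1 (hw : Wall Wo n W)
    (hpc : ∀ u : List α, (∀ t < u.length, ¬ Wo (u.take t)) → CompR_11.Pieces R B u)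
    (h1 : φ [] = 1) (hm : ∀ u v, φ (u ++ v) = φ u * φ v) {B0 M0 : ℕ} (hf : FS g1 B0 M0)
    (b : V) : HL 1 ({Q | R1 Wo z p0 φ act g1 Q = some b} : Language α) :=
  hl1 (rg_R1 hw h1 hm hf b) fun Q hQ =>
    pieces_nw (z := z) (c := p0 + g1.N1) hw hpc (R1_iff.1 hQ).2.2.2

theorem hQ2 (hw : Wall Wo n W)
    (hpc : ∀ u : List α, (∀ t < u.length, ¬ Wo (u.take t)) → CompR_11.Pieces R B u)
    (h1 : φ [] = 1) (hm : ∀ u v, φ (u ++ v) = φ u * φ v) {B0 M0 : ℕ} (hf : FS g1 B0 M0)
    (b : V) : HL 1 ({Q | R2 Wo z p0 φ act g1 g2 Q = some b} : Language α) :=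
  hl1 (rg_R2 hw h1 hm hf b) fun Q hQ => by
    obtain ⟨c, hc, Q1, X2, y, rfl, ⟨hB, -⟩, hX2, -⟩ := R2_iff.1 hQ
    exact pieces_append (pieces_nw (z := z) (c := c) hw hpc hB.2.2)
      (pieces_nw (z := z) (c := 0) hw hpc fun t h2 => hX2.2.2 t (by omega))

end

end Crest.Agent.R320.P4_780
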