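import Crest.Agent.R320.P4_167

/-!
# Row 320, P4: heights of two-wall blocks (621's zones)

`ZZ n S z` = blocks which end at the wall after the first wall at a place `≥ z`.  Every property of
a block which only depends on the first `z` letters, the value of the part up to the first wall,
the place of the first wall modulo `N`, and the value of the rest has height one.
-/

set_option autoImplicit false

namespace Crest.Agent.R320.P4_167

open Crest.RegLang Crest.Agent.R320.Hk_851 Crest.Agent.R320.FewWalls_228
  Crest.Agent.R320.FewVal_228 Crest.Agent.R320.WallU_228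

universe u

variable {α : Type u}

/-- `t1` is the first wall of `X` at a place `≥ z` -/
def Fst (n : ℕ) (S : Set (List α)) (z : ℕ) (X : List α) (t1 : ℕ) : Prop :=
  z ≤ t1 ∧ t1 ≤ X.length ∧ Wo n S (X.take t1) ∧ ∀ t, z ≤ t → t < t1 → ¬ Wo n S (X.take t)

theorem Fst.unique {n : ℕ} {S : Set (List α)} {z : ℕ} {X : List α} {t t' : ℕ}
    (h : Fst n S z X t) (h' : Fst n S z X t') : t = t' := by
  rcases lt_trichotomy t t' with h1 | h1 | h1
  · exact absurd h.2.2.1 (h'.2.2.2 t h.1 h1)
  · exact h1
  · exact absurd h'.2.2.1 (h.2.2.2 t' h'.1 h1)

theorem fst_append {n : ℕ} {S : Set (List α)} {z : ℕ} {X y : List α} {t : ℕ} (ht : t ≤ X.length) :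
    Fst n S z (X ++ y) t ↔ Fst n S z X t := by
  unfold Fst
  rw [List.take_append_of_le_length ht, List.length_append]
  constructor
  · rintro ⟨h1, _, h3, h4⟩
    refine ⟨h1, ht, h3, fun s hs1 hs2 hw => h4 s hs1 hs2 ?_⟩
    rwa [List.take_append_of_le_length (by omega)]
  · rintro ⟨h1, _, h3, h4⟩
    refine ⟨h1, by omega, h3, fun s hs1 hs2 hw => h4 s hs1 hs2 ?_⟩
    rwa [List.take_append_of_le_length (by omega)] at hw

/-- two-wall blocks -/
def ZZ (n : ℕ) (S : Set (List α)) (z : ℕ) : Language α :=
  {X | ∃ t1, Fst n S z X t1 ∧ t1 < X.length ∧ Wo n S X ∧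
    ∀ t, t1 < t → t < X.length → ¬ Wo n S (X.take t)}

theorem isRegular_ZZ [Finite α] {n : ℕ} (S : Set (List α)) (z N : ℕ) (hN : 0 < N)
    {M : Type*} [Monoid M] [Finite M] (f : α → M) (F : List α → M → ℕ → M → Prop) :
    Language.IsRegular ({X | ∃ t1, Fst n S z X t1 ∧ t1 < X.length ∧ Wo n S X ∧
      (∀ t, t1 < t → t < X.length → ¬ Wo n S (X.take t)) ∧
      F (X.take z) ((((X.take t1).drop z).map f).prod) (t1 % N) (((X.drop t1).map f).prod)} :
      Language α) := by
  classical
  have : Finite {l : List α // l.length ≤ z} := (List.finite_length_le α z).to_subtype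
  have : Finite {l : List α // l.length ≤ n} := (List.finite_length_le α n).to_subtype
  let Dd : List α → Prop := fun u => ∃ t, z ≤ t ∧ t < u.length ∧ Wo n S (u.take t)
  let Aa : List α → Set (M × Fin N × M) := fun u => {p | ∃ t1, Fst n S z u t1 ∧ t1 < u.length ∧
    (∀ t, t1 < t → t < u.length → ¬ Wo n S (u.take t)) ∧
    p.1 = (((u.take t1).drop z).map f).prod ∧ p.2.1.1 = t1 % N ∧
    p.2.2 = ((u.drop t1).map f).prod}
  let κ : List α → {l : List α // l.length ≤ z} × {l : List α // l.length ≤ n} × M × Fin N ×
      Prop × Set (M × Fin N × M) :=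
    fun u => (⟨u.take z, by rw [List.length_take]; omega⟩, ⟨lastn n u, lastn_length n u⟩,
      ((u.drop z).map f).prod, ⟨u.length % N, Nat.mod_lt _ hN⟩, Dd u, Aa u)
  refine isRegular_of_code κ fun u v y huv => ?_
  have h1 : u.take z = v.take z := by
    have := congrArg (fun p => p.1.1) huv
    exact this
  have h2 : lastn n u = lastn n v := by
    have := congrArg (fun p => p.2.1.1) huv
    exact this
  have h3 : ((u.drop z).map f).prod = ((v.drop z).map f).prod := congrArg (fun p => p.2.2.1) huv
  have h4 : u.length % N = v.length % N := by
    have := congrArg (fun p => p.2.2.2.1.1) huv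
    exact this
  have h5 : Dd u = Dd v := congrArg (fun p => p.2.2.2.2.1) huv
  have h6 : Aa u = Aa v := congrArg (fun p => p.2.2.2.2.2) huv
  by_cases hu : u.length < z
  · have hl := congrArg List.length h1
    rw [List.length_take, List.length_take] at hl
    have hv : v.length < z := by omega
    have : u = v := by
      rw [List.take_of_length_le (by omega), List.take_of_length_le (by omega)] at h1
      exact h1
    rw [this]
    exact id
  · push Not at hu
    have hl := congrArg List.length h1
    rw [List.length_take, List.length_take] at hl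
    have hv : z ≤ v.length := by omega
    have etake : (u ++ y).take z = (v ++ y).take z := by
      rw [List.take_append_of_le_length hu, List.take_append_of_le_length hv, h1]
    -- walls at the places in `y`
    have hwall : ∀ j, Wo n S ((u ++ y).take (u.length + j)) ↔
        Wo n S ((v ++ y).take (v.length + j)) := by
      intro j
      have e1 : (u ++ y).take (u.length + j) = u ++ y.take j := by
        rw [List.take_append, List.take_of_length_le (by omega)]
        congr 2
        omega
      have e2 : (v ++ y).take (v.length + j) = v ++ y.take j := by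
        rw [List.take_append, List.take_of_length_le (by omega)]
        congr 2
        omega
      rw [e1, e2]
      exact wo_congr h2 _
    rintro ⟨t1, b1, b2, b3, b4, b5⟩
    rw [List.length_append] at b2
    by_cases ht : t1 < u.length
    · -- the first wall lies in `u`
      have hmem : ((((u.take t1).drop z).map f).prod, ((⟨t1 % N, Nat.mod_lt _ hN⟩ : Fin N),
          ((u.drop t1).map f).prod)) ∈ Aa u := by
        refine ⟨t1, (fst_append ht.le).1 b1, ht, ?_, rfl, rfl, rfl⟩
        intro t ht1 ht2 hw
        refine b4 t ht1 (by rw [List.length_append]; omega) ?_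
        rwa [List.take_append_of_le_length ht2.le]
      rw [h6] at hmem
      obtain ⟨t2, c1, c2, c3, c4, c5, c6⟩ := hmem
      have c4' : (((u.take t1).drop z).map f).prod = (((v.take t2).drop z).map f).prod := c4
      have c5' : t1 % N = t2 % N := c5
      have c6' : ((u.drop t1).map f).prod = ((v.drop t2).map f).prod := c6
      refine ⟨t2, (fst_append c2.le).2 c1, by rw [List.length_append]; omega,
        (wo_congr h2 y).1 b3, ?_, ?_⟩
      · intro t ht1 ht2 hw
        rw [List.length_append] at ht2
        by_cases htv : t < v.length
        · refine c3 t ht1 htv ?_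
          rwa [List.take_append_of_le_length htv.le] at hw
        · push Not at htv
          have e : t = v.length + (t - v.length) := by omega
          rw [e, ← hwall] at hw
          exact b4 (u.length + (t - v.length)) (by omega) (by rw [List.length_append]; omega) hw
      · rw [List.take_append_of_le_length ht.le, List.drop_append_of_le_length ht.le,
          List.map_append, List.prod_append, c4', c5', c6', ← List.prod_append, ← List.map_append,
          ← List.drop_append_of_le_length c2.le, etake] at b5
        rwa [List.take_append_of_le_length c2.le]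
    · push Not at ht
      obtain ⟨j, rfl⟩ : ∃ j, t1 = u.length + j := ⟨t1 - u.length, by omega⟩
      have hnD : ¬ Dd v := by
        rw [← h5]
        rintro ⟨t, d1, d2, d3⟩
        refine b1.2.2.2 t d1 (by omega) ?_
        rwa [List.take_append_of_le_length d2.le]
      refine ⟨v.length + j, ⟨by omega, by rw [List.length_append]; omega, (hwall j).1 b1.2.2.1, ?_⟩,
        by rw [List.length_append]; omega, (wo_congr h2 y).1 b3, ?_, ?_⟩
      · intro t ht1 ht2 hw
        by_cases htv : t < v.length
        · refine hnD ⟨t, ht1, htv, ?_⟩
          rwa [List.take_append_of_le_length htv.le] at hw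
        · push Not at htv
          have e : t = v.length + (t - v.length) := by omega
          rw [e, ← hwall] at hw
          exact b1.2.2.2 (u.length + (t - v.length)) (by omega) (by omega) hw
      · intro t ht1 ht2 hw
        rw [List.length_append] at ht2
        have e : t = v.length + (t - v.length) := by omega
        rw [e, ← hwall] at hw
        exact b4 (u.length + (t - v.length)) (by omega) (by rw [List.length_append]; omega) hw
      · have e1 : (u ++ y).take (u.length + j) = u ++ y.take j := by
          rw [List.take_append, List.take_of_length_le (by omega)]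
          congr 2
          omega
        have e2 : (v ++ y).take (v.length + j) = v ++ y.take j := by
          rw [List.take_append, List.take_of_length_le (by omega)]
          congr 2
          omega
        have e3 : (u ++ y).drop (u.length + j) = y.drop j := by
          rw [← List.drop_drop, List.drop_left]
        have e4 : (v ++ y).drop (v.length + j) = y.drop j := by
          rw [← List.drop_drop, List.drop_left]
        rw [e1, e3, List.drop_append_of_le_length hu, List.map_append, List.prod_append, h3,
          ← List.prod_append, ← List.map_append, ← List.drop_append_of_le_length hv,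
          Nat.add_mod, h4, ← Nat.add_mod, etake] at b5
        rwa [e2, e4]

theorem nw_ZZ {n : ℕ} {S : Set (List α)} {z : ℕ} {X : List α} (hX : X ∈ ZZ n S z) :
    nw n S X ≤ z + 2 := by
  classical
  obtain ⟨t1, h1, h2, h3, h4⟩ := hX
  have hsub : (Finset.range (X.length + 1)).filter (fun x => Wl n S X x) ⊆
      insert (X.length - n) (insert (t1 - n) (Finset.range z)) := by
    intro x hx
    rw [Finset.mem_filter, wo_take] at hx
    obtain ⟨-, hx1, hx2⟩ := hx
    rw [Finset.mem_insert, Finset.mem_insert, Finset.mem_range]
    by_cases hz : z ≤ x + n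
    · rcases lt_trichotomy (x + n) t1 with h | h | h
      · exact absurd hx2 (h1.2.2.2 _ hz h)
      · right; left; omega
      · left
        by_contra hne
        exact h4 (x + n) h (by omega) hx2
    · right; right; omega
  unfold nw
  refine (Finset.card_le_card hsub).trans ((Finset.card_insert_le _ _).trans ?_)
  have := Finset.card_insert_le (t1 - n) (Finset.range z)
  rw [Finset.card_range] at this
  omega

/-- **heights of two-wall block families** -/
theorem HL1_ZZ' [Finite α] {n : ℕ} {S : Set (List α)}
    (hfew : ∀ (L : Language α), L.IsRegular → ∀ r, HL 1 ({w | w ∈ L ∧ nw n S w ≤ r} : Language α))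
    (z N : ℕ) (hN : 0 < N) {M : Type*} [Monoid M] [Finite M] (f : α → M)
    (F : List α → M → ℕ → M → Prop) :
    HL 1 ({X | ∃ t1, Fst n S z X t1 ∧ t1 < X.length ∧ Wo n S X ∧
      (∀ t, t1 < t → t < X.length → ¬ Wo n S (X.take t)) ∧
      F (X.take z) ((((X.take t1).drop z).map f).prod) (t1 % N) (((X.drop t1).map f).prod)} :
      Language α) :=
  (hfew _ (isRegular_ZZ S z N hN f F) (z + 2)).congr fun _ => by
    constructor
    · intro h
      obtain ⟨t1, a, b, c, d, e⟩ := h
      exact ⟨⟨t1, a, b, c, d, e⟩, nw_ZZ ⟨t1, a, b, c, d⟩⟩
    · exact fun h => h.1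

/-- words without a two-wall block as prefix -/
theorem isRegular_rest2 [Finite α] {n : ℕ} (S : Set (List α)) (z : ℕ)
    {M : Type*} [Monoid M] [Finite M] (f : α → M) (F : M → Prop) :
    Language.IsRegular ({w | (∀ X ∈ ZZ n S z, ¬ X <+: w) ∧ F ((w.map f).prod)} :
      Language α) := by
  classical
  have : Finite {l : List α // l.length ≤ z} := (List.finite_length_le α z).to_subtype
  have : Finite {l : List α // l.length ≤ n} := (List.finite_length_le α n).to_subtype
  -- `D1`: a wall at a place `≥ z`; `D2`: two of them
  let D1 : List α → Prop := fun u => ∃ t, z ≤ t ∧ t ≤ u.length ∧ Wo n S (u.take t)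
  let D2 : List α → Prop := fun u => ∃ t t', z ≤ t ∧ t < t' ∧ t' ≤ u.length ∧
    Wo n S (u.take t) ∧ Wo n S (u.take t')
  have hD : ∀ w : List α, (∀ X ∈ ZZ n S z, ¬ X <+: w) ↔ ¬ D2 w := by
    intro w
    constructor
    · rintro h ⟨s, s', h1, h2, h3, h4, h5⟩
      have hex : ∃ t, z ≤ t ∧ t ≤ w.length ∧ Wo n S (w.take t) := ⟨s, h1, by omega, h4⟩
      obtain ⟨b1, b2, b3⟩ := Nat.find_spec hex
      have hle : Nat.find hex ≤ s := Nat.find_min' hex ⟨h1, by omega, h4⟩
      have hex2 : ∃ t, Nat.find hex < t ∧ t ≤ w.length ∧ Wo n S (w.take t) :=
        ⟨s', by omega, h3, h5⟩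
      obtain ⟨c1, c2, c3⟩ := Nat.find_spec hex2
      set t1 := Nat.find hex with ht1
      set t2 := Nat.find hex2 with ht2
      have hlen : (w.take t2).length = t2 := by rw [List.length_take]; omega
      refine h (w.take t2) ⟨t1, ⟨b1, by rw [hlen]; omega, ?_, ?_⟩, by rw [hlen]; exact c1, c3, ?_⟩
        (List.take_prefix _ _)
      · rwa [List.take_take, min_eq_left (by omega)]
      · intro t' h1' h2' h3'
        rw [List.take_take, min_eq_left (by omega)] at h3'
        exact Nat.find_min hex h2' ⟨h1', by omega, h3'⟩
      · intro t' h1' h2' h3'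
        rw [hlen] at h2'
        rw [List.take_take, min_eq_left (by omega)] at h3'
        exact Nat.find_min hex2 h2' ⟨h1', by omega, h3'⟩
    · rintro h X ⟨t1, h1, h2, h3, h4⟩ ⟨y, rfl⟩
      refine h ⟨t1, X.length, h1.1, h2, by rw [List.length_append]; omega, ?_, by rwa [List.take_left]⟩
      rw [List.take_append_of_le_length h2.le]
      exact h1.2.2.1
  let κ : List α → {l : List α // l.length ≤ z} × {l : List α // l.length ≤ n} × M × Prop × Prop :=
    fun u => (⟨u.take z, by rw [List.length_take]; omega⟩, ⟨lastn n u, lastn_length n u⟩,
      (u.map f).prod, D1 u, D2 u)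
  refine isRegular_of_code κ fun u v y huv => ?_
  have h1 : u.take z = v.take z := by
    have := congrArg (fun p => p.1.1) huv
    exact this
  have h2 : lastn n u = lastn n v := by
    have := congrArg (fun p => p.2.1.1) huv
    exact this
  have h3 : (u.map f).prod = (v.map f).prod := congrArg (fun p => p.2.2.1) huv
  have h5 : D1 u = D1 v := congrArg (fun p => p.2.2.2.1) huv
  have h6 : D2 u = D2 v := congrArg (fun p => p.2.2.2.2) huv
  by_cases hu : u.length < z
  · have hl := congrArg List.length h1
    rw [List.length_take, List.length_take] at hl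
    have hv : v.length < z := by omega
    have : u = v := by
      rw [List.take_of_length_le (by omega), List.take_of_length_le (by omega)] at h1
      exact h1
    rw [this]
    exact id
  · push Not at hu
    have hl := congrArg List.length h1
    rw [List.length_take, List.length_take] at hl
    have hv : z ≤ v.length := by omega
    have hwall : ∀ j, Wo n S ((u ++ y).take (u.length + j)) ↔
        Wo n S ((v ++ y).take (v.length + j)) := by
      intro j
      have e1 : (u ++ y).take (u.length + j) = u ++ y.take j := by
        rw [List.take_append, List.take_of_length_le (by omega)]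
        congr 2
        omega
      have e2 : (v ++ y).take (v.length + j) = v ++ y.take j := by
        rw [List.take_append, List.take_of_length_le (by omega)]
        congr 2
        omega
      rw [e1, e2]
      exact wo_congr h2 _
    have hback : ∀ t, v.length ≤ t → Wo n S ((v ++ y).take t) →
        Wo n S ((u ++ y).take (u.length + (t - v.length))) := by
      intro t ht hw
      have e : t = v.length + (t - v.length) := by omega
      rw [e, ← hwall] at hw
      exact hw
    rintro ⟨a1, a2⟩
    rw [hD] at a1
    refine ⟨(hD _).2 ?_, ?_⟩
    · rintro ⟨t, t', ht1, ht2, ht3, hw, hw'⟩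
      rw [List.length_append] at ht3
      apply a1
      by_cases ht' : t' ≤ v.length
      · have hex : D2 v := by
          refine ⟨t, t', ht1, ht2, ht', ?_, ?_⟩
          · rwa [List.take_append_of_le_length (by omega)] at hw
          · rwa [List.take_append_of_le_length ht'] at hw'
        rw [← h6] at hex
        obtain ⟨s, s', b1, b2, b3, b4, b5⟩ := hex
        refine ⟨s, s', b1, b2, by rw [List.length_append]; omega, ?_, ?_⟩
        · rwa [List.take_append_of_le_length (by omega)]
        · rwa [List.take_append_of_le_length b3]
      · push Not at ht'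
        by_cases ht : t ≤ v.length
        · have hex : D1 v := by
            refine ⟨t, ht1, ht, ?_⟩
            rwa [List.take_append_of_le_length ht] at hw
          rw [← h5] at hex
          obtain ⟨s, b1, b2, b3⟩ := hex
          refine ⟨s, u.length + (t' - v.length), b1, by omega, by rw [List.length_append]; omega,
            ?_, hback t' ht'.le hw'⟩
          rwa [List.take_append_of_le_length b2]
        · push Not at ht
          exact ⟨u.length + (t - v.length), u.length + (t' - v.length), by omega, by omega,
            by rw [List.length_append]; omega, hback t ht.le hw, hback t' ht'.le hw'⟩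
    · rw [List.map_append, List.prod_append, h3, ← List.prod_append, ← List.map_append] at a2
      exact a2

theorem nw_rest2 {n : ℕ} {S : Set (List α)} {z : ℕ} {w : List α}
    (hw : ∀ X ∈ ZZ n S z, ¬ X <+: w) : nw n S w ≤ z + 1 := by
  classical
  by_cases hex : ∃ t, z ≤ t ∧ t ≤ w.length ∧ Wo n S (w.take t)
  · obtain ⟨b1, b2, b3⟩ := Nat.find_spec hex
    set t1 := Nat.find hex with ht1
    have hno : ∀ t, t1 < t → t ≤ w.length → ¬ Wo n S (w.take t) := by
      intro s hs1 hs2 hs3
      have hex2 : ∃ t, t1 < t ∧ t ≤ w.length ∧ Wo n S (w.take t) := ⟨s, hs1, hs2, hs3⟩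
      obtain ⟨c1, c2, c3⟩ := Nat.find_spec hex2
      set t2 := Nat.find hex2 with ht2
      have hlen : (w.take t2).length = t2 := by rw [List.length_take]; omega
      refine hw (w.take t2) ⟨t1, ⟨b1, by rw [hlen]; omega, ?_, ?_⟩, by rw [hlen]; exact c1, c3, ?_⟩
        (List.take_prefix _ _)
      · rwa [List.take_take, min_eq_left (by omega)]
      · intro t' h1' h2' h3'
        rw [List.take_take, min_eq_left (by omega)] at h3'
        exact Nat.find_min hex h2' ⟨h1', by omega, h3'⟩
      · intro t' h1' h2' h3'
        rw [hlen] at h2'
        rw [List.take_take, min_eq_left (by omega)] at h3'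
        exact Nat.find_min hex2 h2' ⟨h1', by omega, h3'⟩
    have hsub : (Finset.range (w.length + 1)).filter (fun x => Wl n S w x) ⊆
        insert (t1 - n) (Finset.range z) := by
      intro x hx
      rw [Finset.mem_filter, wo_take] at hx
      obtain ⟨-, hx1, hx2⟩ := hx
      rw [Finset.mem_insert, Finset.mem_range]
      by_cases hz : z ≤ x + n
      · rcases lt_trichotomy (x + n) t1 with h | h | h
        · exact absurd ⟨hz, hx1, hx2⟩ (Nat.find_min hex h)
        · left; omega
        · exact absurd hx2 (hno _ h hx1)
      · right; omega
    unfold nw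
    refine (Finset.card_le_card hsub).trans ((Finset.card_insert_le _ _).trans ?_)
    rw [Finset.card_range]
  · have hsub : (Finset.range (w.length + 1)).filter (fun x => Wl n S w x) ⊆ Finset.range z := by
      intro x hx
      rw [Finset.mem_filter, wo_take] at hx
      obtain ⟨-, hx1, hx2⟩ := hx
      rw [Finset.mem_range]
      by_contra hz
      exact hex ⟨x + n, by omega, hx1, hx2⟩
    unfold nw
    refine (Finset.card_le_card hsub).trans ?_
    rw [Finset.card_range]
    omega

/-- the rest: words without two-wall block prefix and with a given value have height one -/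
theorem HL1_rest2 [Finite α] {n : ℕ} {S : Set (List α)}
    (hfew : ∀ (L : Language α), L.IsRegular → ∀ r, HL 1 ({w | w ∈ L ∧ nw n S w ≤ r} : Language α))
    (z : ℕ) {M : Type*} [Monoid M] [Finite M] (f : α → M) (F : M → Prop) :
    HL 1 ({w | (∀ X ∈ ZZ n S z, ¬ X <+: w) ∧ F ((w.map f).prod)} : Language α) :=
  (hfew _ (isRegular_rest2 S z f F) (z + 1)).congr fun _ =>
    ⟨fun h => ⟨h, nw_rest2 h.1⟩, fun h => h.1⟩

end Crest.Agent.R320.P4_167
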