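import Crest.Agent.R320.P4_475

/-!
# Row 320: P4 for the definitions of `Blk163_539`, second part (helper475)
-/

set_option autoImplicit false
set_option linter.unusedSectionVars false

namespace Crest.Agent.R320.P4b_475

open Crest.RegLang Crest.Agent.R320.Hk_851 Crest.Agent.R320.FewWalls_228
  Crest.Agent.R320.FewVal_228 Crest.Agent.R320.WallU_228 Crest.Agent.R320.Blk163539
  Crest.Agent.R320.P4_475

variable {α : Type}

theorem Read.mono {M0 : Type} [Monoid M0] {f : α → M0} {A A' M : ℕ} (h : A ≤ A')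
    {P : List α → Prop} (hP : Read f A M P) : Read f A' M P := by
  intro q q' h1 h2 h3 h4 h5 h6
  refine hP q q' (by omega) (by omega) ?_ ?_ h5 h6
  · have := congrArg (List.take A) h3
    rwa [List.take_take, List.take_take, min_eq_left h] at this
  · have e : ∀ w : List α, A' ≤ w.length →
        w.drop A = (w.take A').drop A ++ w.drop A' := by
      intro w hw
      conv_lhs => rw [← List.take_append_drop A' w]
      rw [List.drop_append_of_le_length (by rw [List.length_take]; omega)]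
    rw [e q h1, e q' h2, List.map_append, List.map_append, List.prod_append, List.prod_append,
      h3, h4]

theorem read_prod {M0 : Type} [Monoid M0] (f : α → M0) (A : ℕ) {q q' : List α}
    (h3 : q.take A = q'.take A) (h4 : ((q.drop A).map f).prod = ((q'.drop A).map f).prod)
    (j : ℕ) (hj : j ≤ A) (h1 : A ≤ q.length) (h2 : A ≤ q'.length) :
    ((q.drop j).map f).prod = ((q'.drop j).map f).prod := by
  have e : ∀ w : List α, A ≤ w.length → w.drop j = (w.take A).drop j ++ w.drop A := by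
    intro w hw
    conv_lhs => rw [← List.take_append_drop A w]
    rw [List.drop_append_of_le_length (by rw [List.length_take]; omega)]
  rw [e q h1, e q' h2, List.map_append, List.map_append, List.prod_append, List.prod_append,
    h3, h4]

theorem read_take {A : ℕ} {q q' : List α} (h3 : q.take A = q'.take A) (j : ℕ) (hj : j ≤ A) :
    q.take j = q'.take j := by
  have := congrArg (List.take j) h3
  rwa [List.take_take, List.take_take, min_eq_left hj] at this

theorem Read.drop {M0 : Type} [Monoid M0] {f : α → M0} {A M j : ℕ}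
    {P : List α → Prop} (hP : Read f A M P) : Read f (A + j) M (fun w => P (w.drop j)) := by
  intro q q' h1 h2 h3 h4 h5 h6
  refine hP _ _ (by rw [List.length_drop]; omega) (by rw [List.length_drop]; omega) ?_ ?_ ?_ h6
  · have := congrArg (List.drop j) h3
    rw [List.drop_take, List.drop_take] at this
    have e : A + j - j = A := by omega
    rwa [e] at this
  · rw [List.drop_drop, List.drop_drop, Nat.add_comm j A]
    exact h4
  · rw [List.length_drop, List.length_drop]
    have e1 : q.length = (q.length - j) + j := by omega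
    have e2 : q'.length = (q'.length - j) + j := by omega
    have h7 : (q.length - j) + j ≡ (q'.length - j) + j [MOD M] := by
      rw [← e1, ← e2]; exact h5
    exact Nat.ModEq.add_right_cancel' j h7

section
variable [Finite α] {M0 V : Type} [Monoid M0] [Finite M0] [AddCommGroup V] [Finite V]
  (f : α → M0) (act : V → M0 → V)
variable {n c0 P0 : ℕ} {S : Set (List α)}

/-- the product -/
abbrev ph (f : α → M0) : List α → M0 := fun w => (w.map f).prod

variable (g : G1 (ph f) act) (nu2 : List α → V) (z p0 A M : ℕ)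

theorem read_TT (hν : ∀ x, Read f A M (fun u => g.nu u = x)) (v b : V) :
    Read f (A + p0) M (fun X => TT p0 (ph f) act g nu2 v X = b) := by
  intro q q' h1 h2 h3 h4 h5 h6
  have h7 := (Read.drop (j := p0) (hν (g.nu (q.drop p0)))) q q' h1 h2 h3 h4 h5 rfl
  unfold TT nuX ph at h6 ⊢
  have e0 := read_prod f (A + p0) h3 h4 0 (by omega) h1 h2
  rw [List.drop_zero, List.drop_zero] at e0
  have e1 := read_prod f (A + p0) h3 h4 p0 (by omega) h1 h2
  have e2 := read_take h3 p0 (by omega)
  rw [← h6, ← e0, ← e1, ← e2]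
  have h8 : g.nu (q'.drop p0) = g.nu (q.drop p0) := h7
  rw [h8]

theorem hXT (hn : 0 < n) (hP : 0 < P0) (hper : PerOff n c0 P0 S) (hM : 0 < M)
    (hν : ∀ x, Read f A M (fun u => g.nu u = x)) (v v' : V) :
    HL 1 ({X | X ∈ XX (LR n S) z ∧ TT p0 (ph f) act g nu2 v X = v'} : Language α) :=
  HL_XX_read f hn hP hper z (A + p0) M hM _ (read_TT f act g nu2 p0 A M hν v v')

theorem hNP (hn : 0 < n) (hP : 0 < P0) (hper : PerOff n c0 P0 S) (s : M0) :
    HL 1 ({r | (∀ X ∈ XX (LR n S) z, ¬ X <+: r) ∧ ph f r = s} : Language α) :=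
  HL_NP f hn hP hper z s

theorem hL1 (v : V) : HL 1 ({P | LP1 p0 (ph f) act g nu2 P v} : Language α) := by
  refine HL.finite ((List.finite_length_le α (p0 + g.N1)).subset ?_)
  rintro P ⟨h1, h2⟩
  have := g.len _ _ h2
  rw [List.length_drop] at this
  show P.length ≤ p0 + g.N1
  omega

theorem hL2 (K : ℕ) (c : ℕ → ℕ) (lam2 : ℕ → List α → Option V) (hc : ∀ k < K, c k ≤ p0) (v : V) :
    HL 1 ({P | LP2 K c lam2 P v} : Language α) := by
  refine HL.finite ((List.finite_length_le α p0).subset ?_)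
  rintro P ⟨k, hk, h1, h2⟩
  show P.length ≤ p0
  rw [h1]; exact hc k hk

theorem R1_iff {Q : List α} {b : V} :
    R1 (LR n S) z p0 (ph f) act g Q = some b ↔
      Leg1 (LR n S) z p0 (ph f) act g Q ∧ g.rho Q = some b := by
  unfold R1
  constructor
  · intro h
    split_ifs at h with hQ
    exact ⟨hQ, h⟩
  · rintro ⟨h1, h2⟩
    rw [if_pos h1]; exact h2

theorem hQ1 (hn : 0 < n) (hP : 0 < P0) (hper : PerOff n c0 P0 S) (hM : 0 < M)
    (hρ : ∀ b, Read f A M (fun u => g.rho u = some b)) (b : V) :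
    HL 1 ({Q | R1 (LR n S) z p0 (ph f) act g Q = some b} : Language α) := by
  have h := HL_XX_read f hn hP hper (z - p0 - g.N1) A M hM _ (hρ b)
  refine (h.inf (HL.length_ge (z - p0))).congr fun w => ?_
  constructor
  · intro hw
    obtain ⟨⟨q1, q2, q3⟩, hw'⟩ := (R1_iff f act g z p0).1 hw
    exact ⟨⟨⟨by omega, q2, q3⟩, hw'⟩, q1⟩
  · rintro ⟨⟨⟨h1, h2, h3⟩, h4⟩, h5⟩
    exact (R1_iff f act g z p0).2 ⟨⟨h5, h2, h3⟩, h4⟩

variable (K : ℕ) (c : ℕ → ℕ) (lam2 rho2 : ℕ → List α → Option V)

/-- badness of the first piece -/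
def Bd (k : ℕ) (R : List α) : Prop :=
  R.length + c k < z + g.N1 ∨
    (∃ t', z ≤ t' + c k + g.N1 ∧ t' + c k < z ∧ t' ≤ R.length ∧ (LR n S).W (R.take t')) ∨
    g.BadT (R.length + c k - p0)

theorem read_Bd (hB : ∀ t t', A ≤ t → A ≤ t' → t % M = t' % M → (g.BadT t → g.BadT t')) (k : ℕ) :
    Read f (A + p0 + z + g.N1) M (Bd (n := n) (S := S) f act g z p0 c k) := by
  intro q q' h1 h2 h3 h4 h5 h6
  rcases h6 with h | ⟨t', a1, a2, a3, a4⟩ | h
  · omega
  · right; left
    refine ⟨t', a1, a2, by omega, ?_⟩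
    rw [← read_take h3 t' (by omega)]
    exact a4
  · right; right
    refine hB _ _ (by omega) (by omega) ?_ h
    have e1 : q.length + c k - p0 + p0 = q.length + c k := by omega
    have e2 : q'.length + c k - p0 + p0 = q'.length + c k := by omega
    have h7 : q.length + c k - p0 + p0 ≡ q'.length + c k - p0 + p0 [MOD M] := by
      rw [e1, e2]
      exact Nat.ModEq.add_right (c k) h5
    exact Nat.ModEq.add_right_cancel' p0 h7

theorem HL_Bad (hn : 0 < n) (hP : 0 < P0) (hper : PerOff n c0 P0 S) (hM : 0 < M)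
    (hB : ∀ t t', A ≤ t → A ≤ t' → t % M = t' % M → (g.BadT t → g.BadT t')) (k : ℕ)
    :
    HL 1 ({Q | BadQ (LR n S) z p0 (ph f) act g c Q k} : Language α) := by
  have h := HL_XX_read f hn hP hper (z - c k) _ M hM _
    (read_Bd (n := n) (S := S) f act g z p0 A M c hB k)
  refine (h.mul (HL.top (k := 1) (α := α))).congr fun w => ?_
  constructor
  · rintro ⟨t, ⟨a1, a2, a3, a4⟩, hb⟩
    have hl : (w.take t).length = t := by rw [List.length_take]; omega
    refine Language.mem_mul.2 ⟨w.take t, ⟨⟨by omega, a3, ?_⟩, ?_⟩, w.drop t, trivial,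
      List.take_append_drop _ _⟩
    · intro s hs1 hs2
      rw [hl] at hs2
      rw [List.take_take, min_eq_left (by omega)]
      exact a4 s hs1 hs2
    · unfold Bd
      rw [hl]
      rcases hb with h | ⟨t', b1, b2, b3, b4⟩ | h
      · exact Or.inl h
      · right; left
        have htt : t' ≤ t := by omega
        refine ⟨t', b1, b2, htt, ?_⟩
        rw [List.take_take, min_eq_left htt]
        exact b4
      · exact Or.inr (Or.inr h)
  · intro hw
    obtain ⟨R, ⟨⟨a1, a2, a3⟩, hb⟩, X, -, rfl⟩ := Language.mem_mul.1 hw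
    refine ⟨R.length, ⟨a1, by rw [List.length_append]; omega, ?_, ?_⟩, ?_⟩
    · rw [List.take_left]; exact a2
    · intro s hs1 hs2
      rw [List.take_append_of_le_length (by omega)]
      exact a3 s hs1 hs2
    · rcases hb with h | ⟨t', b1, b2, b3, b4⟩ | h
      · exact Or.inl h
      · right; left
        refine ⟨t', b1, b2, by rw [List.length_append]; omega, ?_⟩
        rw [List.take_append_of_le_length b3]
        exact b4
      · exact Or.inr (Or.inr h)

/-- the first piece with value -/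
theorem HL_fst (hn : 0 < n) (hP : 0 < P0) (hper : PerOff n c0 P0 S) (hM : 0 < M)
    (hν : ∀ x, Read f A M (fun u => g.nu u = x)) (k : ℕ) (β u : V) :
    HL 1 ({R | R ∈ XX (LR n S) (z - c k) ∧ (rho2 k (R.take (p0 - c k)) = some β ∧
      act β (ph f (R.drop (p0 - c k))) + g.nu (R.drop (p0 - c k)) = u)} : Language α) := by
  refine HL_XX_read f hn hP hper (z - c k) (A + (p0 - c k)) M hM _ ?_
  intro q q' h1 h2 h3 h4 h5 h6
  have h7 := (Read.drop (j := p0 - c k) (hν (g.nu (q.drop (p0 - c k))))) q q' h1 h2 h3 h4 h5 rfl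
  have e1 := read_prod f (A + (p0 - c k)) h3 h4 (p0 - c k) (by omega) h1 h2
  have e2 := read_take h3 (p0 - c k) (by omega)
  obtain ⟨h8, h9⟩ := h6
  have h10 : g.nu (q'.drop (p0 - c k)) = g.nu (q.drop (p0 - c k)) := h7
  refine ⟨by rw [← e2]; exact h8, ?_⟩
  unfold ph at h9 ⊢
  rw [← e1, h10]
  exact h9

theorem Rel2.unique {Q : List α} {b b' : V}
    (h : Rel2 (LR n S) z p0 (ph f) act g nu2 K c rho2 Q b)
    (h' : Rel2 (LR n S) z p0 (ph f) act g nu2 K c rho2 Q b') : b = b' := by
  obtain ⟨k, hk, hb, hu, t, β, h1, h2, h3, rfl⟩ := h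
  obtain ⟨k', hk', hb', hu', t', β', h1', h2', h3', rfl⟩ := h'
  obtain rfl : k' = k := hu k' hk' hb'
  obtain rfl : t = t' := h1.unique h1'
  rw [h2] at h2'
  obtain rfl := Option.some.inj h2'
  rfl

theorem R2_iff {Q : List α} {b : V} :
    R2 (LR n S) z p0 (ph f) act g nu2 K c rho2 Q = some b ↔
      Rel2 (LR n S) z p0 (ph f) act g nu2 K c rho2 Q b := by
  constructor
  · exact R2_rel
  · intro h
    unfold R2
    rw [dif_pos ⟨b, h⟩]
    congr 1
    exact Rel2.unique f act g nu2 z p0 K c rho2 (Exists.choose_spec (⟨b, h⟩ :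
      ∃ b, Rel2 (LR n S) z p0 (ph f) act g nu2 K c rho2 Q b)) h

theorem hQ2 (hn : 0 < n) (hP : 0 < P0) (hper : PerOff n c0 P0 S) (hM : 0 < M)
    (hc : ∀ k < K, c k ≤ p0) (hpz : p0 ≤ z)
    (hν : ∀ x, Read f A M (fun u => g.nu u = x))
    (hB : ∀ t t', A ≤ t → A ≤ t' → t % M = t' % M → (g.BadT t → g.BadT t')) (b : V) :
    HL 1 ({Q | R2 (LR n S) z p0 (ph f) act g nu2 K c rho2 Q = some b} : Language α) := by
  let F : Fin K → V → V → Language α := fun k β u =>
    {R | R ∈ XX (LR n S) (z - c k) ∧ (rho2 k (R.take (p0 - c k)) = some β ∧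
      act β (ph f (R.drop (p0 - c k))) + g.nu (R.drop (p0 - c k)) = u)}
  let G : V → Language α := fun u => {X | X ∈ XX (LR n S) z ∧ TT p0 (ph f) act g nu2 u X = b}
  let B : Fin K → Language α := fun k => {Q | BadQ (LR n S) z p0 (ph f) act g c Q k}
  have hFG : ∀ k β u, HL 1 (F k β u * G u) := fun k β u =>
    HL.mul (HL_fst f act g z p0 A M c rho2 hn hP hper hM hν k β u)
      (hXT f act g nu2 z p0 A M hn hP hper hM hν u b)
  have hBk : ∀ k, HL 1 (B k) := fun k => HL_Bad f act g z p0 A M c hn hP hper hM hB k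
  have hU : ∀ k : Fin K, HL 1 ({Q | ∀ k' : {k' : Fin K // k' ≠ k}, Q ∈ (B k'.1)ᶜ} : Language α) :=
    fun k => HL.iInter fun k' => (hBk k'.1).compl
  have hall : HL 1 ({Q | ∃ x : Fin K × V × V, Q ∈ (B x.1 ⊓
      ({Q | ∀ k' : {k' : Fin K // k' ≠ x.1}, Q ∈ (B k'.1)ᶜ} : Language α)) ⊓
      (F x.1 x.2.1 x.2.2 * G x.2.2)} : Language α) :=
    HL.iUnion fun x => ((hBk x.1).inf (hU x.1)).inf (hFG x.1 x.2.1 x.2.2)
  refine hall.congr fun Q => ?_
  constructor
  · intro hQ
    obtain ⟨k, hk, hb, hu, t, β, h1, h2, h3, h4⟩ :=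
      (R2_iff f act g nu2 z p0 K c rho2).1 hQ
    have hck := hc k hk
    refine ⟨(⟨k, hk⟩, β, act β (ph f ((Q.take t).drop (p0 - c k))) +
      g.nu ((Q.take t).drop (p0 - c k))), ⟨hb, ?_⟩, ?_⟩
    · rintro ⟨⟨k', hk'⟩, hne⟩ hb'
      exact hne (Fin.ext (hu k' hk' hb'))
    · obtain ⟨a1, a2, a3, a4⟩ := h1
      have hl : (Q.take t).length = t := by rw [List.length_take]; omega
      refine Language.mem_mul.2 ⟨Q.take t, ⟨⟨by rw [hl]; exact a1, a3, ?_⟩, ?_, rfl⟩, Q.drop t,
        ⟨h3, h4.symm⟩, List.take_append_drop _ _⟩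
      · intro s hs1 hs2
        rw [hl] at hs2
        rw [List.take_take, min_eq_left (by omega)]
        exact a4 s hs1 hs2
      · show rho2 k ((Q.take t).take (p0 - c k)) = some β
        rw [List.take_take, min_eq_left (by omega)]
        exact h2
  · rintro ⟨⟨⟨k, hk⟩, β, u⟩, ⟨hb, hu⟩, hm⟩
    obtain ⟨R, ⟨⟨a1, a2, a3⟩, a4, a5⟩, X, ⟨b1, b2⟩, rfl⟩ := Language.mem_mul.1 hm
    have hck := hc k hk
    have a1' : z - c k ≤ R.length := a1
    refine (R2_iff f act g nu2 z p0 K c rho2).2 ⟨k, hk, hb, ?_, R.length, β, ⟨a1, by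
      rw [List.length_append]; omega, ?_, ?_⟩, ?_, ?_, ?_⟩
    · intro k' hk' hb'
      by_contra hne
      exact hu ⟨⟨k', hk'⟩, fun h => hne (congrArg Fin.val h)⟩ hb'
    · rw [List.take_left]; exact a2
    · intro s hs1 hs2
      rw [List.take_append_of_le_length (by omega)]
      exact a3 s hs1 hs2
    · rw [List.take_append_of_le_length (by omega)]
      exact a4
    · rw [List.drop_left]; exact b1
    · rw [List.drop_left, List.take_left]
      have a5' : act β (ph f (R.drop (p0 - c k))) + g.nu (R.drop (p0 - c k)) = u := a5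
      rw [a5']
      exact b2.symm

end

end Crest.Agent.R320.P4b_475
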