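import Crest.Agent.R320.Inst_946
import Crest.Agent.R320.FewVal_228
import Crest.Agent.R320.Loc_645
import Crest.Agent.R320.Hk2_851

/-!
# Row 320, P4: the six H 1 families of 163's top for `Inst_946.Par` (helper181)
-/

set_option autoImplicit false

namespace Crest.Agent.R320.P4i_181

open Crest.RegLang Crest.Agent.R320.Hk_851 Crest.R320.Inst946
open Crest.Agent.R320.FewWalls_228 (Wl nw PerOff)

universe u v

variable {α : Type u} {V S : Type v} {k : ℕ}

/-- left-looking wall rule -/
def WoOf (n : ℕ) (S0 : Set (List α)) (X : List α) : Prop :=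
  n ≤ X.length ∧ X.drop (X.length - n) ∈ S0

theorem wo_loc {n : ℕ} {S0 : Set (List α)} (P Q : List α) (h : n ≤ Q.length) :
    WoOf n S0 (P ++ Q) ↔ WoOf n S0 Q := by
  unfold WoOf
  have e : (P ++ Q).drop ((P ++ Q).length - n) = Q.drop (Q.length - n) := by
    rw [List.length_append, show P.length + Q.length - n = P.length + (Q.length - n) by omega,
      List.drop_append]
    simp
  rw [e, List.length_append]
  constructor
  · rintro ⟨_, h2⟩; exact ⟨h, h2⟩
  · rintro ⟨_, h2⟩; exact ⟨by omega, h2⟩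

theorem wl_iff {n : ℕ} {S0 : Set (List α)} {w : List α} {x : ℕ} :
    Wl n S0 w x ↔ x + n ≤ w.length ∧ WoOf n S0 (w.take (x + n)) := by
  unfold Wl WoOf
  constructor
  · rintro ⟨h1, h2⟩
    refine ⟨h1, by rw [List.length_take]; omega, ?_⟩
    rw [List.length_take, Nat.min_eq_left h1, Nat.add_sub_cancel, List.drop_take,
      Nat.add_sub_cancel_left]
    exact h2
  · rintro ⟨h1, -, h2⟩
    rw [List.length_take, Nat.min_eq_left h1, Nat.add_sub_cancel, List.drop_take,
      Nat.add_sub_cancel_left] at h2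
    exact ⟨h1, h2⟩

/-- two left-looking walls are far apart -/
theorem wo_sep {n W : ℕ} {S0 : Set (List α)}
    (hs : ∀ (w : List α) (x y : ℕ), x < y → Wl n S0 w x → Wl n S0 w y → x + W ≤ y)
    (X : List α) {s t : ℕ} (hst : s < t) (ht : t ≤ X.length) (h1 : WoOf n S0 (X.take s))
    (h2 : WoOf n S0 (X.take t)) : s + W ≤ t := by
  have a1 := h1.1
  have a2 := h2.1
  rw [List.length_take] at a1 a2
  have b1 : Wl n S0 X (s - n) := wl_iff.2 ⟨by omega, by
    rw [show s - n + n = s by omega]; exact h1⟩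
  have b2 : Wl n S0 X (t - n) := wl_iff.2 ⟨by omega, by
    rw [show t - n + n = t by omega]; exact h2⟩
  have := hs X (s - n) (t - n) (by omega) b1 b2
  omega

/-- few walls if there is no wall at the places of `[z, |w|)` -/
theorem nw_le {n z : ℕ} {S0 : Set (List α)} {w : List α}
    (h : ∀ t, z ≤ t → t < w.length → ¬ WoOf n S0 (w.take t)) : nw n S0 w ≤ z + 1 := by
  classical
  unfold nw
  have hsub : (Finset.range (w.length + 1)).filter (fun x => Wl n S0 w x) ⊆
      insert (w.length - n) (Finset.range z) := by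
    intro x hx
    rw [Finset.mem_filter] at hx
    obtain ⟨-, hx⟩ := hx
    obtain ⟨h1, h2⟩ := wl_iff.1 hx
    rw [Finset.mem_insert, Finset.mem_range]
    by_cases hz : x + n < z
    · right; omega
    · by_cases hl : x + n < w.length
      · exact absurd h2 (h _ (by omega) hl)
      · left; omega
  refine (Finset.card_le_card hsub).trans ((Finset.card_insert_le _ _).trans ?_)
  rw [Finset.card_range]

/-- words ending at the first wall of `[z, ∞)` -/
def FWd (Wo : List α → Prop) (z : ℕ) (X : List α) : Prop :=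
  Wo X ∧ z ≤ X.length ∧ ∀ t, z ≤ t → t < X.length → ¬ Wo (X.take t)

section HLs
variable [Finite α] {n : ℕ} {S0 : Set (List α)}

theorem HL_wo : HL k ({w | WoOf n S0 w} : Language α) := by
  have hf : ({v : List α | v ∈ S0 ∧ v.length = n} : Set (List α)).Finite :=
    (List.finite_length_eq α n).subset fun v hv => hv.2
  refine (HL.suffix (HL.finite hf)).congr fun w => ?_
  constructor
  · rintro ⟨h1, h2⟩
    exact ⟨w.drop (w.length - n), ⟨h2, by rw [List.length_drop]; omega⟩, List.drop_suffix _ _⟩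
  · rintro ⟨v, ⟨h1, h2⟩, ⟨u, rfl⟩⟩
    have : (u ++ v).drop ((u ++ v).length - n) = v := by
      rw [List.length_append, h2, Nat.add_sub_cancel]
      simp
    exact ⟨by rw [List.length_append]; omega, by rw [this]; exact h1⟩

theorem HL_exW (z : ℕ) :
    HL k ({w | ∃ t, z ≤ t ∧ t < w.length ∧ WoOf n S0 (w.take t)} : Language α) := by
  have h1 : HL k ({w | WoOf n S0 w ∧ z ≤ w.length} : Language α) :=
    HL_wo.setOf_and (HL.length_ge z)
  refine (h1.mul (HL.length_ge (α := α) (k := k) 1)).congr fun w =>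
    Iff.trans ?_ Language.mem_mul.symm
  constructor
  · rintro ⟨t, h2, h3, h4⟩
    refine ⟨w.take t, ⟨h4, by rw [List.length_take]; omega⟩, w.drop t, ?_,
      List.take_append_drop _ _⟩
    show 1 ≤ (w.drop t).length
    rw [List.length_drop]; omega
  · rintro ⟨a, ⟨ha, hz⟩, b, hb, rfl⟩
    have hb' : 1 ≤ b.length := hb
    exact ⟨a.length, hz, by rw [List.length_append]; omega, by rw [List.take_left' rfl]; exact ha⟩

theorem HL_fw (z : ℕ) : HL k ({w | FWd (WoOf n S0) z w} : Language α) := by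
  have h0 : HL k ({w | WoOf n S0 w ∧ z ≤ w.length} : Language α) :=
    HL_wo.setOf_and (HL.length_ge z)
  refine (h0.setOf_and (HL_exW (n := n) (S0 := S0) z).setOf_not).congr fun w => ?_
  constructor
  · rintro ⟨h1, h2, h3⟩
    exact ⟨⟨h1, h2⟩, fun ⟨t, a, b, c⟩ => h3 t a b c⟩
  · rintro ⟨⟨h1, h2⟩, h3⟩
    exact ⟨h1, h2, fun t a b c => h3 ⟨t, a, b, c⟩⟩

/-- few walls and regular -/
def Few (n : ℕ) (S0 : Set (List α)) : Prop :=
  ∀ (L : Language α), L.IsRegular → ∀ r, HL 1 ({w | w ∈ L ∧ nw n S0 w ≤ r} : Language α)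

theorem HL_fwp (hF : Few n S0) (z : ℕ) {p : List α → Prop}
    (hp : Language.IsRegular ({w | p w} : Language α)) :
    HL 1 ({w | FWd (WoOf n S0) z w ∧ p w} : Language α) := by
  have h0 : HL 1 ({w | FWd (WoOf n S0) z w} : Language α) := HL_fw z
  refine (h0.setOf_and (hF _ hp (z + 1))).congr fun w => ?_
  constructor
  · rintro ⟨h1, h2⟩
    exact ⟨h1, h2, nw_le h1.2.2⟩
  · rintro ⟨h1, h2, -⟩
    exact ⟨h1, h2⟩

end HLs

/-! ### local functions -/

/-- `F` depends on a prefix of length `A`, the length mod `M` and the value of the rest. -/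
def LocF {γ : Type*} [Monoid S] (f : α → S) (M A : ℕ) (F : List α → γ) : Prop :=
  ∀ q q' : List α, A ≤ q.length → A ≤ q'.length → q.take A = q'.take A →
    ((q.drop A).map f).prod = ((q'.drop A).map f).prod →
    q.length % M = q'.length % M → F q = F q'

section Loc
variable [Monoid S] {f : α → S} {M : ℕ} {γ δ ε : Type*}

theorem LocF.mono {A B : ℕ} (h : A ≤ B) {F : List α → γ} (hF : LocF f M A F) :
    LocF f M B F := by
  intro q q' h1 h2 h3 h4 h5
  refine hF q q' (by omega) (by omega) ?_ ?_ h5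
  · have := congrArg (List.take A) h3
    rwa [List.take_take, List.take_take, Nat.min_eq_left h] at this
  · have e : ∀ w : List α, w.drop A = (w.take B).drop A ++ w.drop B := by
      intro w
      conv_lhs => rw [← List.take_append_drop B w]
      rw [List.drop_append]
      congr 1
      by_cases hl : B ≤ w.length
      · rw [List.length_take, Nat.min_eq_left hl, Nat.sub_eq_zero_of_le h]; simp
      · rw [List.drop_eq_nil_of_le (by omega : w.length ≤ B)]; simp
    rw [e q, e q', h3, List.map_append, List.map_append, List.prod_append, List.prod_append, h4]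

theorem LocF.drop {A : ℕ} (d : ℕ) {F : List α → γ} (hF : LocF f M A F) :
    LocF f M (d + A) (fun q => F (q.drop d)) := by
  intro q q' h1 h2 h3 h4 h5
  refine hF _ _ (by rw [List.length_drop]; omega) (by rw [List.length_drop]; omega) ?_ ?_ ?_
  · have := congrArg (List.drop d) h3
    rwa [List.drop_take, List.drop_take, Nat.add_sub_cancel_left] at this
  · rw [List.drop_drop, List.drop_drop]; exact h4
  · rw [List.length_drop, List.length_drop]
    have a : q.length - d + d ≡ q'.length - d + d [MOD M] := by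
      rw [Nat.sub_add_cancel (by omega), Nat.sub_add_cancel (by omega)]; exact h5
    exact Nat.ModEq.add_right_cancel' d a

theorem LocF.take {A : ℕ} (G : List α → γ) : LocF f M A (fun q => G (q.take A)) := by
  intro q q' _ _ h3 _ _
  show G _ = G _
  rw [h3]

theorem LocF.val : LocF f M 0 (fun q => (q.map f).prod) := by
  intro q q' _ _ _ h4 _
  simpa using h4

theorem LocF.comp {A : ℕ} {F : List α → γ} (hF : LocF f M A F) (g : γ → δ) :
    LocF f M A (fun q => g (F q)) := by
  intro q q' h1 h2 h3 h4 h5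
  show g _ = g _
  rw [hF q q' h1 h2 h3 h4 h5]

theorem LocF.comp2 {A B : ℕ} {F : List α → γ} {G : List α → δ} (hF : LocF f M A F)
    (hG : LocF f M B G) (g : γ → δ → ε) : LocF f M (max A B) (fun q => g (F q) (G q)) := by
  intro q q' h1 h2 h3 h4 h5
  show g _ _ = g _ _
  rw [(hF.mono (le_max_left A B)) q q' h1 h2 h3 h4 h5,
    (hG.mono (le_max_right A B)) q q' h1 h2 h3 h4 h5]

theorem LocF.regular [Finite α] [Finite S] (hM : 0 < M) {A : ℕ} {F : List α → γ}
    (hF : LocF f M A F) (p : γ → Prop) : Language.IsRegular ({q | p (F q)} : Language α) :=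
  Crest.Agent.R320.Loc_645.isRegular_of_read' f A M hM (fun q => p (F q))
    fun q q' h1 h2 h3 h4 h5 h6 => by rw [← hF q q' h1 h2 h3 h4 h5]; exact h6

end Loc

/-! ### the families -/

section Fam
variable [AddCommGroup V] [Monoid S]

/-- locality hypotheses for the data -/
structure LocD (D : Par α V S) (n : ℕ) (S0 : Set (List α)) (f : α → S) (A M : ℕ) : Prop where
  hM : 0 < M
  wo : D.Wo = WoOf n S0
  val : ∀ w, D.φ w = (w.map f).prod
  rho : LocF f M A D.rho
  nu : LocF f M A D.nu1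
  per : ∀ T, D.BadT (T + M) ↔ D.BadT T
  clt : ∀ k, k < D.K → D.c k < D.p0
  few : Few n S0

variable {D : Par α V S} {n : ℕ} {S0 : Set (List α)} {f : α → S} {A M : ℕ}

theorem bad_mod (h : LocD D n S0 f A M) (T : ℕ) : D.BadT T ↔ D.BadT (T % M) := by
  have key : ∀ j r, D.BadT (r + j * M) ↔ D.BadT r := by
    intro j
    induction j with
    | zero => intro r; simp
    | succ j ih =>
      intro r
      rw [Nat.succ_mul, ← add_assoc, h.per, ih]
  conv_lhs => rw [← Nat.mod_add_div T M, Nat.mul_comm]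
  exact key _ _

theorem val_eq (h : LocD D n S0 f A M) : D.φ = fun w => (w.map f).prod := funext h.val

theorem loc_val (h : LocD D n S0 f A M) : LocF f M 0 D.φ := by
  rw [val_eq h]; exact LocF.val

theorem loc_T (h : LocD D n S0 f A M) (v : V) : ∃ B, LocF f M B (fun X => D.T v X) := by
  have h1 : LocF f M D.p0 (fun X : List α => D.act v (D.φ (X.take D.p0)) + D.nu2 (X.take D.p0)) :=
    LocF.take (A := D.p0) (fun X => D.act v (D.φ X) + D.nu2 X)
  have h2 := (loc_val h).drop D.p0
  have h3 := h.nu.drop D.p0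
  exact ⟨_, (h1.comp2 (h2.comp2 h3 Prod.mk) fun a b => D.act a b.1 + b.2)⟩

theorem mem_XX (h : LocD D n S0 f A M) (X : List α) :
    X ∈ D.XX ↔ FWd (WoOf n S0) D.z X := by
  rw [← h.wo]; exact Iff.rfl

variable [Finite α] [Finite S] [Finite V]

theorem hXT (h : LocD D n S0 f A M) (v v' : V) :
    HL 1 ({X | X ∈ D.XX ∧ D.T v X = v'} : Language α) := by
  obtain ⟨B, hB⟩ := loc_T h v
  refine (HL_fwp h.few D.z (hB.regular h.hM (fun x => x = v'))).congr fun w => ?_
  show (w ∈ D.XX ∧ D.T v w = v') ↔ (FWd (WoOf n S0) D.z w ∧ D.T v w = v')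
  rw [mem_XX h]

theorem hNP (h : LocD D n S0 f A M) (s : S) :
    HL 1 ({r | (∀ X ∈ D.XX, ¬ X <+: r) ∧ D.φ r = s} : Language α) := by
  have h1 : HL 1 ({r | ¬ ∃ X ∈ ({X | FWd (WoOf n S0) D.z X} : Language α), X <+: r} :
      Language α) := (HL.prefix (HL_fw D.z)).setOf_not
  have h2 := h.few _ ((loc_val h).regular h.hM (fun x => x = s)) (D.z + 1)
  refine (h1.setOf_and h2).congr fun w => ?_
  constructor
  · rintro ⟨a, b⟩
    refine ⟨fun ⟨X, hX, hp⟩ => a X ((mem_XX h X).2 hX) hp, b, nw_le ?_⟩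
    intro t ht htl hW
    classical
    have hex : ∃ t, D.z ≤ t ∧ t < w.length ∧ WoOf n S0 (w.take t) := ⟨t, ht, htl, hW⟩
    obtain ⟨g1, g2, g3⟩ := Nat.find_spec hex
    refine a (w.take (Nat.find hex)) ((mem_XX h _).2 ⟨g3, by rw [List.length_take]; omega, ?_⟩)
      (List.take_prefix _ _)
    intro t' h1' h2' h3'
    rw [List.length_take, Nat.min_eq_left g2.le] at h2'
    rw [List.take_take, Nat.min_eq_left h2'.le] at h3'
    exact Nat.find_min hex h2' ⟨h1', by omega, h3'⟩
  · rintro ⟨a, b, -⟩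
    exact ⟨fun X hX hp => a ⟨X, (mem_XX h X).1 hX, hp⟩, b⟩

omit [Finite S] [Finite V] in
theorem hL1 (_h : LocD D n S0 f A M) (v : V) : HL 1 ({P | D.LP1 P v} : Language α) :=
  HL.finite ((List.finite_length_le α (D.p0 + D.N1)).subset fun _ hP => hP.2.1)

omit [Finite S] [Finite V] in
theorem hL2 (h : LocD D n S0 f A M) (v : V) : HL 1 ({P | D.LP2 P v} : Language α) :=
  HL.finite ((List.finite_length_le α D.p0).subset fun P hP => by
    obtain ⟨k, hk, hl, -⟩ := hP
    have := h.clt k hk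
    show P.length ≤ D.p0
    omega)

omit [Finite V] in
theorem hQ1 (h : LocD D n S0 f A M) (b : V) : HL 1 ({Q | D.R1 Q = some b} : Language α) := by
  have h1 := HL_fwp h.few D.q (h.rho.regular h.hM (fun x => x = some b))
  refine (h1.setOf_and (HL.length_ge (D.q + D.N1))).congr fun w => ?_
  show D.R1 w = some b ↔ (FWd (WoOf n S0) D.q w ∧ D.rho w = some b) ∧ D.q + D.N1 ≤ w.length
  rw [Par.R1, h.wo]
  constructor
  · intro hr
    split_ifs at hr with hc
    exact ⟨⟨⟨hc.1, by omega, hc.2.2⟩, hr⟩, hc.2.1⟩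
  · rintro ⟨⟨⟨a1, a2, a3⟩, hr⟩, hl⟩
    rw [if_pos ⟨a1, hl, a3⟩]
    exact hr

omit [Finite V] in
theorem hcand' (h : LocD D n S0 f A M) (k : ℕ) :
    HL 1 ({Q | D.cand k Q} : Language α) := by
  have h1 : HL 1 ({Q | ∃ v ∈ ({v | v.length < D.z + D.N1 - D.c k ∧ D.z - D.N1 - D.c k ≤ v.length ∧
      D.Wo v} : Set (List α)), v <+: Q} : Language α) :=
    HL.prefix (HL.finite ((List.finite_length_lt α _).subset fun _ hv => hv.1))
  have hreg : Language.IsRegular ({Y : List α | D.BadT ((Y.length + D.c k - D.p0) % M)} :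
      Language α) := by
    have hl : LocF f M (D.p0) (fun Y : List α => (Y.length + D.c k - D.p0) % M) := by
      intro q q' a1 a2 a3 a4 a5
      show (q.length + D.c k - D.p0) % M = (q'.length + D.c k - D.p0) % M
      have e1 : q.length + D.c k - D.p0 + D.p0 = q.length + D.c k := by omega
      have e2 : q'.length + D.c k - D.p0 + D.p0 = q'.length + D.c k := by omega
      have : q.length + D.c k - D.p0 + D.p0 ≡ q'.length + D.c k - D.p0 + D.p0 [MOD M] := by
        rw [e1, e2]
        exact Nat.ModEq.add_right _ a5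
      exact Nat.ModEq.add_right_cancel' _ this
    exact hl.regular h.hM (fun x => D.BadT x)
  have h2 : HL 1 ({Q | ∃ v ∈ ({Y | FWd (WoOf n S0) (D.z - D.c k) Y ∧
      D.BadT ((Y.length + D.c k - D.p0) % M)} : Language α), v <+: Q} : Language α) :=
    HL.prefix (HL_fwp h.few _ hreg)
  refine (h1.setOf_or h2).congr fun w => ?_
  constructor
  · rintro (⟨t, a1, a2, a3, a4⟩ | ⟨e, ⟨a1, a2, a3, a4⟩, a5⟩)
    · exact Or.inl ⟨w.take t, ⟨by rw [List.length_take]; omega, by rw [List.length_take]; omega,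
        a4⟩, List.take_prefix _ _⟩
    · refine Or.inr ⟨w.take e, ⟨⟨by rw [← h.wo]; exact a3, by rw [List.length_take]; omega, ?_⟩,
        ?_⟩, List.take_prefix _ _⟩
      · intro t b1 b2
        rw [List.length_take, Nat.min_eq_left a1] at b2
        rw [List.take_take, Nat.min_eq_left b2.le, ← h.wo]
        exact a4 t b1 b2
      · rw [List.length_take, Nat.min_eq_left a1]
        exact (bad_mod h _).1 a5
  · rintro (⟨v, ⟨a1, a2, a3⟩, y, rfl⟩ | ⟨v, ⟨⟨a1, a2, a3⟩, a4⟩, y, rfl⟩)
    · exact Or.inl ⟨v.length, a2, a1, by rw [List.length_append]; omega,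
        by rw [List.take_left' rfl]; exact a3⟩
    · refine Or.inr ⟨v.length, ⟨by rw [List.length_append]; omega, a2, ?_, ?_⟩,
        (bad_mod h _).2 a4⟩
      · rw [List.take_left' rfl, h.wo]; exact a1
      · intro t b1 b2
        rw [List.take_append_of_le_length b2.le, h.wo]
        exact a3 t b1 b2

theorem hW (h : LocD D n S0 f A M) (k : ℕ) (hk : D.c k < D.p0)
    (hz : D.p0 ≤ D.z) (b : V) :
    HL 1 ({Q | ∃ e y, D.FE (D.z - D.c k) Q e ∧ Q.drop e ∈ D.XX ∧
      D.rho2 k (Q.take (D.p0 - D.c k)) = some y ∧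
      b = D.T (D.act y (D.φ ((Q.take e).drop (D.p0 - D.c k))) +
        D.nu1 ((Q.take e).drop (D.p0 - D.c k))) (Q.drop e)} : Language α) := by
  set d := D.p0 - D.c k with hd
  have hdz : d ≤ D.z - D.c k := by omega
  have hA : ∀ v1 : V, HL 1 ({Y | FWd (WoOf n S0) (D.z - D.c k) Y ∧
      ∃ y, D.rho2 k (Y.take d) = some y ∧
        D.act y (D.φ (Y.drop d)) + D.nu1 (Y.drop d) = v1} : Language α) := by
    intro v1
    have l1 : LocF f M d (fun Y : List α => D.rho2 k (Y.take d)) :=
      LocF.take (A := d) (fun Y => D.rho2 k Y)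
    have l2 := (loc_val h).drop d
    have l3 := h.nu.drop d
    exact HL_fwp h.few _ ((l1.comp2 (l2.comp2 l3 Prod.mk) Prod.mk).regular h.hM
      (fun x => ∃ y, x.1 = some y ∧ D.act y x.2.1 + x.2.2 = v1))
  refine (HL.iUnion fun v1 : V => (hA v1).mul (hXT h v1 b)).congr fun w => ?_
  constructor
  · rintro ⟨e, y, ⟨e1, e2, e3, e4⟩, h2, h3, h4⟩
    refine ⟨_, Language.mem_mul.2 ⟨w.take e, ⟨⟨?_, ?_, ?_⟩, y, ?_, rfl⟩, w.drop e, ⟨h2, h4.symm⟩,
      List.take_append_drop _ _⟩⟩
    · rw [← h.wo]; exact e3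
    · rw [List.length_take]; omega
    · intro t b1 b2
      rw [List.length_take, Nat.min_eq_left e1] at b2
      rw [List.take_take, Nat.min_eq_left b2.le, ← h.wo]
      exact e4 t b1 b2
    · rw [List.take_take, Nat.min_eq_left (by omega)]; exact h3
  · rintro ⟨v1, hv⟩
    obtain ⟨Y, ⟨⟨a1, a2, a3⟩, y, hy, hv1⟩, X2, ⟨hX, hT⟩, rfl⟩ := Language.mem_mul.1 hv
    refine ⟨Y.length, y, ⟨by rw [List.length_append]; omega, a2, ?_, ?_⟩, ?_, ?_, ?_⟩
    · rw [List.take_left' rfl, h.wo]; exact a1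
    · intro t b1 b2
      rw [List.take_append_of_le_length b2.le, h.wo]
      exact a3 t b1 b2
    · rw [List.drop_left' rfl]; exact hX
    · rw [List.take_append_of_le_length (by omega)]; exact hy
    · rw [List.take_left' rfl, List.drop_left' rfl, hv1]; exact hT.symm

theorem hQ2 (h : LocD D n S0 f A M) (hz : D.p0 ≤ D.z) (b : V) :
    HL 1 ({Q | D.R2 Q = some b} : Language α) := by
  have hc : ∀ k, HL 1 ({Q | D.cand k Q} : Language α) := fun k => hcand' h k
  refine (HL.iUnion fun k : Fin D.K =>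
    ((hc k).setOf_and (HL.iInter fun k' : Fin D.K =>
      (hc k').setOf_imp (HL.const ((k' : ℕ) = k)))).setOf_and
      (hW h k (h.clt k k.2) hz b)).congr fun w => ?_
  refine Iff.trans (show w ∈ ({Q | D.R2 Q = some b} : Language α) ↔ D.R2rel w b from
    Crest.R320.Inst946.Ok.R2_iff) ?_
  constructor
  · rintro ⟨k, e, y, h1, h2, h3, h4, h5, h6, h7⟩
    exact ⟨⟨k, h1⟩, ⟨h2, fun k' hk' => h3 k' k'.2 hk'⟩, e, y, h4, h5, h6, h7⟩
  · rintro ⟨k, ⟨h2, h3⟩, e, y, h4, h5, h6, h7⟩
    exact ⟨k, e, y, k.2, h2, fun k' hk' hc' => h3 ⟨k', hk'⟩ hc', h4, h5, h6, h7⟩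

end Fam

end Crest.Agent.R320.P4i_181
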