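import Crest.Agent.R320.WallU_228
import Crest.Agent.R320.Reg_143

/-!
# Row 320: P4 for the natural chain rule (helper135)

Left-looking walls `Wo n S` of helper228 on all words; blocks `XX n S z` = words which end in the
first wall at a place `≥ z`; block map `T v X = act (act v (φ X₁) + ν₂ X₁) (φ Y) + ν₁ Y`,
`X₁ = X.take p0`, `Y = X.drop p0`.  All level sets on `XX` and on the words without a block prefix
are of height one.
-/

set_option autoImplicit false

namespace Crest.Agent.R320.P4n_135

open Crest.RegLang Crest.Agent.R320.Hk_851 Crest.Agent.R320.FewWalls_228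
  Crest.Agent.R320.FewVal_228 Crest.Agent.R320.WallU_228

universe u

variable {α : Type u}

/-! ### regularity tools -/

theorem reg_congr {P : List α → Prop} {L : Language α} (h : L.IsRegular)
    (hP : ∀ w, w ∈ L ↔ P w) : Language.IsRegular ({w | P w} : Language α) := by
  have : L = ({w | P w} : Language α) := by ext w; exact hP w
  exact this ▸ h

theorem reg_and {P Q : List α → Prop} (h : Language.IsRegular ({w | P w} : Language α))
    (h' : Language.IsRegular ({w | Q w} : Language α)) :
    Language.IsRegular ({w | P w ∧ Q w} : Language α) :=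
  reg_congr (h.inf h') fun _ => Iff.rfl

theorem reg_not {P : List α → Prop} (h : Language.IsRegular ({w | P w} : Language α)) :
    Language.IsRegular ({w | ¬ P w} : Language α) :=
  reg_congr h.compl fun _ => Iff.rfl

theorem reg_or {P Q : List α → Prop} (h : Language.IsRegular ({w | P w} : Language α))
    (h' : Language.IsRegular ({w | Q w} : Language α)) :
    Language.IsRegular ({w | P w ∨ Q w} : Language α) :=
  reg_congr (h.add h') fun _ => Iff.rfl

theorem reg_false : Language.IsRegular ({w | False} : Language α) :=
  reg_congr (Crest.R320.Reg_143.isRegular_fold (fun (m : Unit) _ => m) () fun _ => False)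
    fun _ => Iff.rfl

theorem reg_ex {ι : Type*} [Finite ι] {P : ι → List α → Prop}
    (h : ∀ i, Language.IsRegular ({w | P i w} : Language α)) :
    Language.IsRegular ({w | ∃ i, P i w} : Language α) := by
  classical
  have := Fintype.ofFinite ι
  have key : ∀ s : Finset ι, Language.IsRegular ({w | ∃ i ∈ s, P i w} : Language α) := by
    intro s
    induction s using Finset.induction_on with
    | empty =>
      refine reg_congr reg_false fun w => ⟨fun h => h.elim, ?_⟩
      rintro ⟨i, hi, _⟩
      exact absurd hi (Finset.notMem_empty i)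
    | insert i s _ ih =>
      refine reg_congr (reg_or (h i) ih) fun w => ⟨?_, ?_⟩
      · rintro (h | ⟨j, hj, h⟩)
        · exact ⟨i, Finset.mem_insert_self _ _, h⟩
        · exact ⟨j, Finset.mem_insert_of_mem hj, h⟩
      · rintro ⟨j, hj, h⟩
        rcases Finset.mem_insert.1 hj with rfl | hj
        · exact Or.inl h
        · exact Or.inr ⟨j, hj, h⟩
  exact reg_congr (key Finset.univ) fun w =>
    ⟨fun ⟨i, _, h⟩ => ⟨i, h⟩, fun ⟨i, h⟩ => ⟨i, Finset.mem_univ i, h⟩⟩

/-- preimage of a regular language under `drop` -/
theorem reg_drop (p : ℕ) {L : Language α} (hL : L.IsRegular) :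
    Language.IsRegular ({w | w.drop p ∈ L} : Language α) := by
  classical
  obtain ⟨σ, hσ, D, hD⟩ := hL
  let step : Fin (p + 1) × σ → α → Fin (p + 1) × σ := fun q a =>
    if h : q.1.1 < p then (⟨q.1.1 + 1, by omega⟩, q.2) else (q.1, D.step q.2 a)
  have key : ∀ w : List α, (w.foldl step (⟨0, by omega⟩, D.start)).1.1 = min w.length p ∧
      (w.foldl step (⟨0, by omega⟩, D.start)).2 = D.eval (w.drop p) := by
    intro w
    induction w using List.reverseRecOn with
    | nil => simp [DFA.eval, DFA.evalFrom]
    | append_singleton w a ih =>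
      obtain ⟨h1, h2⟩ := ih
      rw [List.foldl_append, List.foldl_cons, List.foldl_nil]
      by_cases h : w.length < p
      · have hc : (w.foldl step (⟨0, by omega⟩, D.start)).1.1 < p := by rw [h1]; omega
        have e : step (w.foldl step (⟨0, by omega⟩, D.start)) a =
            (⟨(w.foldl step (⟨0, by omega⟩, D.start)).1.1 + 1, by omega⟩,
              (w.foldl step (⟨0, by omega⟩, D.start)).2) := dif_pos hc
        rw [e]
        refine ⟨?_, ?_⟩
        · show (w.foldl step (⟨0, by omega⟩, D.start)).1.1 + 1 = _
          rw [h1, List.length_append, List.length_singleton]; omega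
        · show (w.foldl step (⟨0, by omega⟩, D.start)).2 = _
          rw [h2, List.drop_eq_nil_of_le (by omega), List.drop_eq_nil_of_le
            (by rw [List.length_append, List.length_singleton]; omega)]
      · have hc : ¬ (w.foldl step (⟨0, by omega⟩, D.start)).1.1 < p := by rw [h1]; omega
        have e : step (w.foldl step (⟨0, by omega⟩, D.start)) a =
            ((w.foldl step (⟨0, by omega⟩, D.start)).1,
              D.step (w.foldl step (⟨0, by omega⟩, D.start)).2 a) := dif_neg hc
        rw [e]
        refine ⟨?_, ?_⟩
        · show (w.foldl step (⟨0, by omega⟩, D.start)).1.1 = _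
          rw [h1, List.length_append, List.length_singleton]; omega
        · show D.step (w.foldl step (⟨0, by omega⟩, D.start)).2 a = _
          rw [h2, List.drop_append_of_le_length (by omega), DFA.eval_append_singleton]
  refine reg_congr (Crest.R320.Reg_143.isRegular_fold step (⟨0, by omega⟩, D.start)
    fun q => q.2 ∈ D.accept) fun w => ?_
  show (w.foldl step (⟨0, by omega⟩, D.start)).2 ∈ D.accept ↔ w.drop p ∈ L
  rw [(key w).2, ← hD, DFA.mem_accepts]

theorem reg_take [Finite α] (p : ℕ) (R : List α → Prop) :
    Language.IsRegular ({w | R (w.take p)} : Language α) :=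
  Crest.R320.Reg_143.isRegular_take p R

/-- values of a multiplicative map into a finite monoid -/
theorem reg_phi {M : Type*} [Monoid M] [Finite M] (φ : List α → M) (h1 : φ [] = 1)
    (hm : ∀ u v, φ (u ++ v) = φ u * φ v) (s : M) :
    Language.IsRegular ({w | φ w = s} : Language α) := by
  refine reg_congr (Crest.R320.Reg_143.isRegular_monoid (fun a => φ [a]) fun m => m = s)
    fun w => ?_
  show (w.map fun a => φ [a]).prod = s ↔ φ w = s
  have : ∀ w : List α, (w.map fun a => φ [a]).prod = φ w := by
    intro w
    induction w with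
    | nil => simp [h1]
    | cons a w ih =>
      have : a :: w = [a] ++ w := rfl
      rw [this, hm, ← ih]
      simp
  rw [this]

/-! ### the natural rule -/

/-- no wall of `w` at a place in `[z, |w|)` -/
def Fr (n : ℕ) (S : Set (List α)) (z : ℕ) (w : List α) : Prop :=
  ∀ t < w.length, z ≤ t → ¬ Wo n S (w.take t)

/-- blocks -/
def XX (n : ℕ) (S : Set (List α)) (z : ℕ) : Set (List α) :=
  {X | z ≤ X.length ∧ Wo n S X ∧ Fr n S z X}

theorem XX_prefix {n : ℕ} {S : Set (List α)} {z : ℕ} {X Y : List α} (h : X ∈ XX n S z)
    (h' : X ++ Y ∈ XX n S z) : Y = [] := by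
  by_contra hne
  have hpos : 0 < Y.length := List.length_pos_iff.2 hne
  refine h'.2.2 X.length (by rw [List.length_append]; omega) h.1 ?_
  rw [List.take_left]
  exact h.2.1

theorem nil_notMem {n : ℕ} {S : Set (List α)} {z : ℕ} (hz : 0 < z) : [] ∉ XX n S z := by
  intro h
  have := h.1
  simp only [List.length_nil] at this
  omega

/-- words without a block prefix -/
theorem np_iff {n : ℕ} {S : Set (List α)} {z : ℕ} (r : List α) :
    (∀ X ∈ XX n S z, ¬ X <+: r) ↔ ∀ t ≤ r.length, z ≤ t → ¬ Wo n S (r.take t) := by
  classical
  constructor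
  · intro h t ht hzt hW
    have hex : ∃ t, t ≤ r.length ∧ z ≤ t ∧ Wo n S (r.take t) := ⟨t, ht, hzt, hW⟩
    obtain ⟨h1, h2, h3⟩ := Nat.find_spec hex
    refine h (r.take (Nat.find hex)) ⟨by rw [List.length_take]; omega, h3, ?_⟩
      (List.take_prefix _ _)
    intro s hs hzs hWs
    rw [List.length_take] at hs
    rw [List.take_take, Nat.min_eq_left (by omega)] at hWs
    exact Nat.find_min hex (m := s) (by omega) ⟨by omega, hzs, hWs⟩
  · rintro h X hX ⟨Y, rfl⟩
    refine h X.length (by rw [List.length_append]; omega) hX.1 ?_
    rw [List.take_left]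
    exact hX.2.1

/-- walls before the word end, seen by a fold -/
theorem reg_free [Finite α] (n : ℕ) (S : Set (List α)) (z : ℕ) :
    Language.IsRegular ({w | ∀ t ≤ w.length, z ≤ t → ¬ Wo n S (w.take t)} : Language α) := by
  classical
  let B := {b : List α // b.length ≤ n}
  haveI : Finite B := (List.finite_length_le α n).to_subtype
  let C := Fin (z + n + 1)
  -- is there a wall at the end of a word with last letters `b` and capped length `c`?
  let now : B → C → Prop := fun b c => z ≤ c.1 ∧ n ≤ c.1 ∧ b.1 ∈ S
  let step : (B × C) × Bool → α → (B × C) × Bool := fun q a =>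
    let b' : B := ⟨lastn n (q.1.1.1 ++ [a]), lastn_length _ _⟩
    let c' : C := ⟨min (q.1.2.1 + 1) (z + n), by omega⟩
    ((b', c'), q.2 && !(decide (now b' c')))
  let s0 : (B × C) × Bool := ((⟨[], by simp⟩, ⟨0, by omega⟩), !(decide (now ⟨[], by simp⟩ ⟨0, by omega⟩)))
  have hnow : ∀ (w : List α) (b : B) (c : C), b.1 = lastn n w → c.1 = min w.length (z + n) →
      (now b c ↔ z ≤ w.length ∧ Wo n S w) := by
    intro w b c hb hc
    show (z ≤ c.1 ∧ n ≤ c.1 ∧ b.1 ∈ S) ↔ _
    rw [hb, hc]
    unfold Wo lastn
    constructor
    · rintro ⟨h1, h2, h3⟩; exact ⟨by omega, by omega, h3⟩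
    · rintro ⟨h1, h2, h3⟩; exact ⟨by omega, by omega, h3⟩
  have key : ∀ w : List α, (w.foldl step s0).1.1.1 = lastn n w ∧
      (w.foldl step s0).1.2.1 = min w.length (z + n) ∧
      ((w.foldl step s0).2 = true ↔ ∀ t ≤ w.length, z ≤ t → ¬ Wo n S (w.take t)) := by
    intro w
    induction w using List.reverseRecOn with
    | nil =>
      refine ⟨by simp [s0, lastn], by simp [s0], ?_⟩
      rw [List.foldl_nil]
      show (!(decide (now ⟨[], by simp⟩ ⟨0, by omega⟩))) = true ↔ _
      rw [Bool.not_eq_true', decide_eq_false_iff_not, hnow [] _ _ (by simp [lastn]) (by simp)]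
      constructor
      · intro h t ht hzt hW
        have : t = 0 := by simpa using ht
        subst this
        exact h ⟨by simpa using hzt, by simpa using hW⟩
      · rintro h ⟨h1, h2⟩
        exact h 0 (by simp) (by simpa using h1) (by simpa using h2)
    | append_singleton w a ih =>
      obtain ⟨h1, h2, h3⟩ := ih
      rw [List.foldl_append, List.foldl_cons, List.foldl_nil]
      have e1 : (step (w.foldl step s0) a).1.1.1 = lastn n (w ++ [a]) := by
        show lastn n ((w.foldl step s0).1.1.1 ++ [a]) = _
        rw [h1, ← lastn_snoc]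
      have e2 : (step (w.foldl step s0) a).1.2.1 = min (w ++ [a]).length (z + n) := by
        show min ((w.foldl step s0).1.2.1 + 1) (z + n) = _
        rw [h2, List.length_append, List.length_singleton]; omega
      refine ⟨e1, e2, ?_⟩
      have e3 : (step (w.foldl step s0) a).2 = ((w.foldl step s0).2 &&
          !(decide (now (step (w.foldl step s0) a).1.1 (step (w.foldl step s0) a).1.2))) := rfl
      rw [e3, Bool.and_eq_true, h3, Bool.not_eq_true', decide_eq_false_iff_not,
        hnow (w ++ [a]) _ _ e1 e2]
      constructor
      · rintro ⟨h4, h5⟩ t ht hzt hW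
        rw [List.length_append, List.length_singleton] at ht
        by_cases hl : t ≤ w.length
        · rw [List.take_append_of_le_length hl] at hW
          exact h4 t hl hzt hW
        · have : t = (w ++ [a]).length := by
            rw [List.length_append, List.length_singleton]; omega
          subst this
          rw [List.take_length] at hW
          exact h5 ⟨hzt, hW⟩
      · intro h
        refine ⟨fun t ht hzt hW => h t ?_ hzt ?_, fun h5 => h (w ++ [a]).length le_rfl h5.1 ?_⟩
        · rw [List.length_append]; omega
        · rw [List.take_append_of_le_length ht]; exact hW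
        · rw [List.take_length]; exact h5.2
  refine reg_congr (Crest.R320.Reg_143.isRegular_fold step s0 fun q => q.2 = true)
    fun w => ?_
  exact (key w).2.2

/-- `XX` is regular -/
theorem reg_XX [Finite α] (n : ℕ) (S : Set (List α)) (z : ℕ) :
    Language.IsRegular ({w | w ∈ XX n S z} : Language α) := by
  classical
  let B := {b : List α // b.length ≤ n}
  haveI : Finite B := (List.finite_length_le α n).to_subtype
  obtain ⟨σ, hσ, D, hD⟩ := reg_free n S z
  -- state: (value of D before the last letter, value of D now)
  let step : σ × σ → α → σ × σ := fun q a => (q.2, D.step q.2 a)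
  have key : ∀ (w : List α) (a : α), (w ++ [a]).foldl step (D.start, D.start) =
      (D.eval w, D.eval (w ++ [a])) := by
    have h2 : ∀ w : List α, (w.foldl step (D.start, D.start)).2 = D.eval w := by
      intro w
      induction w using List.reverseRecOn with
      | nil => rfl
      | append_singleton w a ih =>
        rw [List.foldl_append, List.foldl_cons, List.foldl_nil, DFA.eval_append_singleton, ← ih]
    intro w a
    rw [List.foldl_append, List.foldl_cons, List.foldl_nil, DFA.eval_append_singleton, ← h2]
  have hmem : ∀ w : List α, D.eval w ∈ D.accept ↔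
      ∀ t ≤ w.length, z ≤ t → ¬ Wo n S (w.take t) := by
    intro w
    rw [← DFA.mem_accepts, hD]
    exact Iff.rfl
  have hcore : ∀ (w : List α) (a : α), (w ++ [a] ∈ XX n S z ↔
      (D.eval w ∈ D.accept ∧ D.eval (w ++ [a]) ∉ D.accept)) := by
    intro w a
    rw [hmem, hmem]
    constructor
    · rintro ⟨h1, h2, h3⟩
      refine ⟨fun t ht hzt hW => h3 t (by rw [List.length_append, List.length_singleton]; omega) hzt
        (by rw [List.take_append_of_le_length ht]; exact hW), fun h => h _ le_rfl h1 ?_⟩
      rw [List.take_length]; exact h2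
    · rintro ⟨h1, h2⟩
      push Not at h2
      obtain ⟨t, ht, hzt, hW⟩ := h2
      have hl : ¬ t ≤ w.length := by
        intro hl
        rw [List.take_append_of_le_length hl] at hW
        exact h1 t hl hzt hW
      have hl2 : t = (w ++ [a]).length := by
        rw [List.length_append, List.length_singleton] at ht ⊢; omega
      subst hl2
      rw [List.take_length] at hW
      refine ⟨hzt, hW, ?_⟩
      intro s hs hzs hWs
      rw [List.length_append, List.length_singleton] at hs
      rw [List.take_append_of_le_length (by omega)] at hWs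
      exact h1 s (by omega) hzs hWs
  have hne : Language.IsRegular ({w | w ≠ []} : Language α) :=
    reg_congr (Crest.R320.Reg_143.isRegular_fold (fun (_ : Bool) (_ : α) => true) false
      fun q => q = true) fun w => by
        show w.foldl (fun (_ : Bool) (_ : α) => true) false = true ↔ w ≠ []
        induction w using List.reverseRecOn with
        | nil => simp
        | append_singleton w a _ => simp
  have hnil : Language.IsRegular ({w | w = [] ∧ ([] : List α) ∈ XX n S z} : Language α) := by
    by_cases hc : ([] : List α) ∈ XX n S z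
    · exact reg_congr (reg_not hne) fun w => by
        show (¬ (w ≠ [])) ↔ _
        constructor
        · intro h; exact ⟨not_not.1 h, hc⟩
        · rintro ⟨h, _⟩; exact not_not.2 h
    · exact reg_congr reg_false fun w => ⟨fun h => h.elim, fun h => hc h.2⟩
  refine reg_congr (reg_or (reg_and hne (Crest.R320.Reg_143.isRegular_fold step
    (D.start, D.start) fun q => q.1 ∈ D.accept ∧ q.2 ∉ D.accept)) hnil) fun w => ?_
  rcases List.eq_nil_or_concat' w with rfl | ⟨w', a, rfl⟩
  · constructor
    · rintro (⟨h, _⟩ | ⟨_, h⟩)
      · exact absurd rfl h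
      · exact h
    · intro h; exact Or.inr ⟨rfl, h⟩
  · constructor
    · rintro (⟨_, h⟩ | ⟨h, _⟩)
      · change ((w' ++ [a]).foldl step (D.start, D.start)).1 ∈ D.accept ∧
          ((w' ++ [a]).foldl step (D.start, D.start)).2 ∉ D.accept at h
        rw [key] at h
        exact (hcore w' a).2 h
      · simp at h
    · intro h
      refine Or.inl ⟨by simp, ?_⟩
      show ((w' ++ [a]).foldl step (D.start, D.start)).1 ∈ D.accept ∧
          ((w' ++ [a]).foldl step (D.start, D.start)).2 ∉ D.accept
      rw [key]
      exact (hcore w' a).1 h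

/-! ### few walls -/

theorem nw_le {n : ℕ} {S : Set (List α)} {z : ℕ} {w : List α} (h : Fr n S z w) :
    nw n S w ≤ z + 1 := by
  classical
  unfold nw
  have hsub : (Finset.range (w.length + 1)).filter (fun x => Wl n S w x) ⊆
      Finset.range z ∪ {w.length - n} := by
    intro x hx
    rw [Finset.mem_filter] at hx
    obtain ⟨h1, h2⟩ := wo_take.1 hx.2
    rw [Finset.mem_union, Finset.mem_range, Finset.mem_singleton]
    by_contra hc
    push Not at hc
    exact h (x + n) (by omega) (by omega) h2
  have := Finset.card_le_card hsub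
  have h2 := Finset.card_union_le (Finset.range z) {w.length - n}
  rw [Finset.card_range, Finset.card_singleton] at h2
  refine le_trans ?_ (le_trans this h2)
  apply le_of_eq
  congr

/-- number of walls of a product -/
theorem nw_append (n : ℕ) (S : Set (List α)) (u v : List α) :
    nw n S (u ++ v) ≤ nw n S u + nw n S v + n := by
  classical
  have hsub : (Finset.range ((u ++ v).length + 1)).filter (fun x => Wl n S (u ++ v) x) ⊆
      ((Finset.range (u.length + 1)).filter (fun x => Wl n S u x)) ∪
        (((Finset.range (v.length + 1)).filter (fun x => Wl n S v x)).image (fun x => u.length + x))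
        ∪ (Finset.Ico (u.length - n) u.length).filter (fun x => u.length < x + n) := by
    intro x hx
    rw [Finset.mem_filter, Finset.mem_range] at hx
    obtain ⟨hx1, hx2, hx3⟩ := hx
    rw [List.length_append] at hx1 hx2
    rw [Finset.mem_union, Finset.mem_union, Finset.mem_filter, Finset.mem_image, Finset.mem_filter,
      Finset.mem_Ico, Finset.mem_range]
    by_cases h1 : x + n ≤ u.length
    · left; left
      refine ⟨by omega, h1, ?_⟩
      rwa [List.drop_append_of_le_length (by omega),
        List.take_append_of_le_length (by rw [List.length_drop]; omega)] at hx3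
    · by_cases h2 : u.length ≤ x
      · left; right
        refine ⟨x - u.length, ?_, by omega⟩
        rw [Finset.mem_filter, Finset.mem_range]
        refine ⟨by omega, by omega, ?_⟩
        have e : x = u.length + (x - u.length) := by omega
        rw [e, ← List.drop_drop, List.drop_left] at hx3
        exact hx3
      · right
        exact ⟨⟨by omega, by omega⟩, by omega⟩
  have h1 := Finset.card_le_card hsub
  have h2 := Finset.card_union_le (((Finset.range (u.length + 1)).filter (fun x => Wl n S u x)) ∪
        (((Finset.range (v.length + 1)).filter (fun x => Wl n S v x)).image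
          (fun x => u.length + x)))
        ((Finset.Ico (u.length - n) u.length).filter (fun x => u.length < x + n))
  have h3 := Finset.card_union_le ((Finset.range (u.length + 1)).filter (fun x => Wl n S u x))
        (((Finset.range (v.length + 1)).filter (fun x => Wl n S v x)).image
          (fun x => u.length + x))
  have h4 : (((Finset.range (v.length + 1)).filter (fun x => Wl n S v x)).image
          (fun x => u.length + x)).card ≤
        ((Finset.range (v.length + 1)).filter (fun x => Wl n S v x)).card := Finset.card_image_le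
  have h5 : ((Finset.Ico (u.length - n) u.length).filter (fun x => u.length < x + n)).card ≤ n := by
    refine le_trans (Finset.card_filter_le _ _) ?_
    rw [Nat.card_Ico]; omega
  have e1 : nw n S u = ((Finset.range (u.length + 1)).filter (fun x => Wl n S u x)).card := by
    unfold nw; congr
  have e2 : nw n S v = ((Finset.range (v.length + 1)).filter (fun x => Wl n S v x)).card := by
    unfold nw; congr
  have e3 : nw n S (u ++ v) = ((Finset.range ((u ++ v).length + 1)).filter
      (fun x => Wl n S (u ++ v) x)).card := by
    unfold nw; congr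
  omega

/-- **tool**: regular languages of words without walls in `[z, |w|)` have height one -/
theorem HL_of_free [Finite α] {n c P : ℕ} {S : Set (List α)} (hn : 0 < n) (hP : 0 < P)
    (hper : PerOff n c P S) (z : ℕ) {L : Language α} (hL : L.IsRegular)
    (h : ∀ w ∈ L, Fr n S z w) : HL 1 L :=
  HL_of_few hn hP hper (z + 1) hL fun w hw => nw_le (h w hw)

variable {M : Type*} [Monoid M] [Finite M] {V : Type*} [AddCommGroup V] [Finite V]

/-- block map -/
def T (φ : List α → M) (act : V → M → V) (nu1 nu2 : List α → V) (p0 : ℕ) (v : V)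
    (X : List α) : V :=
  act (act v (φ (X.take p0)) + nu2 (X.take p0)) (φ (X.drop p0)) + nu1 (X.drop p0)

theorem reg_T [Finite α] (φ : List α → M) (h1 : φ [] = 1)
    (hm : ∀ u v, φ (u ++ v) = φ u * φ v) (act : V → M → V) (nu1 nu2 : List α → V) (p0 : ℕ)
    (hnu : ∀ x, Language.IsRegular ({Y | nu1 Y = x} : Language α)) (v v' : V) :
    Language.IsRegular ({X | T φ act nu1 nu2 p0 v X = v'} : Language α) := by
  have hall : Language.IsRegular ({X | ∃ q : V × M × V,
      (act v (φ (X.take p0)) + nu2 (X.take p0) = q.1 ∧ φ (X.drop p0) = q.2.1) ∧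
      (nu1 (X.drop p0) = q.2.2 ∧ act q.1 q.2.1 + q.2.2 = v')} : Language α) := by
    refine reg_ex fun q => reg_and (reg_and ?_ ?_) (reg_and ?_ ?_)
    · exact reg_take p0 fun U => act v (φ U) + nu2 U = q.1
    · exact reg_drop p0 (reg_phi φ h1 hm q.2.1)
    · exact reg_drop p0 (hnu q.2.2)
    · by_cases hc : act q.1 q.2.1 + q.2.2 = v'
      · exact reg_congr (reg_not reg_false) fun w => ⟨fun _ => hc, fun _ h => h⟩
      · exact reg_congr reg_false fun w => ⟨fun h => h.elim, fun h => hc h⟩
  refine reg_congr hall fun X => ?_
  constructor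
  · rintro ⟨q, ⟨h2, h3⟩, h4, h5⟩
    show T φ act nu1 nu2 p0 v X = v'
    unfold T
    rw [h2, h3, h4, h5]
  · intro h
    exact ⟨(act v (φ (X.take p0)) + nu2 (X.take p0), φ (X.drop p0), nu1 (X.drop p0)),
      ⟨rfl, rfl⟩, rfl, h⟩

/-- **hXT** -/
theorem hXT [Finite α] {n c P : ℕ} {S : Set (List α)} (hn : 0 < n) (hP : 0 < P)
    (hper : PerOff n c P S) (z : ℕ) (φ : List α → M) (h1 : φ [] = 1)
    (hm : ∀ u v, φ (u ++ v) = φ u * φ v) (act : V → M → V) (nu1 nu2 : List α → V) (p0 : ℕ)
    (hnu : ∀ x, Language.IsRegular ({Y | nu1 Y = x} : Language α)) (v v' : V) :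
    HL 1 ({X | X ∈ XX n S z ∧ T φ act nu1 nu2 p0 v X = v'} : Language α) :=
  HL_of_free hn hP hper z (reg_and (reg_XX n S z) (reg_T φ h1 hm act nu1 nu2 p0 hnu v v'))
    fun _ hw => hw.1.2.2

/-- **hNP** -/
theorem hNP [Finite α] {n c P : ℕ} {S : Set (List α)} (hn : 0 < n) (hP : 0 < P)
    (hper : PerOff n c P S) (z : ℕ) (φ : List α → M) (h1 : φ [] = 1)
    (hm : ∀ u v, φ (u ++ v) = φ u * φ v) (s : M) :
    HL 1 ({r | (∀ X ∈ XX n S z, ¬ X <+: r) ∧ φ r = s} : Language α) := by
  have hreg : Language.IsRegular ({r | (∀ X ∈ XX n S z, ¬ X <+: r) ∧ φ r = s} : Language α) :=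
    reg_and (reg_congr (reg_free n S z) fun r => (np_iff r).symm) (reg_phi φ h1 hm s)
  refine HL_of_free hn hP hper z hreg fun w hw t ht hzt => ?_
  exact (np_iff w).1 hw.1 t (by omega) hzt

end Crest.Agent.R320.P4n_135
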