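import Mathlib

/-!
Row 320, P5 in the form of helper163's `top` (#13363): concrete block code with thresholds
(132 #12664), scheme 1 = abstract gadget for all contents and all totals, scheme 2 = exact gadget with
a promise ruler.  Left-looking walls.
-/

set_option autoImplicit false
set_option linter.unusedSectionVars false

namespace Crest.Agent.R320.P5_33

open Classical

structure Dat (α S V : Type*) where
  φ : List α → S
  act : V → S → V
  n : ℕ
  Wl : List α → Prop
  Mq : ℕ
  N : ℕ
  p0 : ℕ
  Z : ℕ → ℕ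
  lam1 : List α → Option V
  rho1 : List α → Option V
  nu1 : List α → V
  N0 : ℕ
  BadT : ℕ → Prop
  K : ℕ
  pl : ℕ → ℕ
  lam2 : ℕ → List α → Option V
  rho2 : ℕ → List α → Option V
  nu2 : List α → V
  C : ℕ

variable {α S V : Type*} [Monoid S] [AddCommGroup V]

namespace Dat

variable (D : Dat α S V)

/-- admissible end of a block -/
def Adm (X : List α) : Prop := D.Wl X ∧ D.Z (X.length % D.Mq) ≤ X.length

/-- the block code -/
def XX : Set (List α) := {X | D.Adm X ∧ ∀ Y, Y <+: X → Y ≠ X → ¬ D.Adm Y}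

def pre (v : V) (P : List α) : V := D.act v (D.φ P) + D.nu2 P

/-- zone map -/
def T (v : V) (X : List α) : V :=
  D.act (D.pre v (X.take D.p0)) (D.φ (X.drop D.p0)) + D.nu1 (X.drop D.p0)

def LP1 (P : List α) (v : V) : Prop :=
  D.p0 ≤ P.length ∧ D.lam1 (P.drop D.p0) = some (D.pre v (P.take D.p0))

def OK1 (Q : List α) : Prop :=
  D.n ≤ Q.length ∧ D.Wl Q ∧ D.Z ((D.p0 + Q.length) % D.Mq) ≤ D.p0 + Q.length ∧
    ∀ t, D.n ≤ t → t < Q.length → D.Wl (Q.take t) → D.p0 + D.N + t < D.Z ((D.p0 + t) % D.Mq)

noncomputable def R1 (Q : List α) : Option V := if D.OK1 Q then D.rho1 Q else none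

/-- `e` = end of the block of the candidate `k` inside `Q` -/
def IsEnd (k : ℕ) (Q : List α) (e : ℕ) : Prop :=
  D.n ≤ e ∧ e ≤ Q.length ∧ D.Wl (Q.take e) ∧ D.Z ((D.pl k + e) % D.Mq) ≤ D.pl k + e ∧
    ∀ t, D.n ≤ t → t < e → D.Wl (Q.take t) → D.pl k + t < D.Z ((D.pl k + t) % D.Mq)

/-- `t` = a wall in the band of the thresholds -/
def Band (t : ℕ) : Prop := D.Z (t % D.Mq) ≤ t + D.N ∧ t < D.Z (t % D.Mq) + D.N

def BadC (k : ℕ) (Q : List α) : Prop :=
  ∃ e, D.IsEnd k Q e ∧ ((∃ t, D.n ≤ t ∧ t ≤ e ∧ D.Wl (Q.take t) ∧ D.Band (D.pl k + t)) ∨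
    D.BadT (D.pl k + e - D.p0))

def LP2 (P : List α) (v : V) : Prop := ∃ k < D.K, P.length = D.pl k ∧ D.lam2 k P = some v

/-- `Val Q b` : the right word `Q` of scheme 2 is legal with value `b` behind both blocks -/
def Val (Q : List α) (b : V) : Prop :=
  ∃ k < D.K, D.BadC k Q ∧ (∀ k' < D.K, D.BadC k' Q → k' = k) ∧ ∃ e b0, D.IsEnd k Q e ∧
    Q.drop e ∈ D.XX ∧ D.rho2 k ((Q.take e).take (D.p0 - D.pl k)) = some b0 ∧
    b = D.T (D.act b0 (D.φ ((Q.take e).drop (D.p0 - D.pl k))) +
      D.nu1 ((Q.take e).drop (D.p0 - D.pl k))) (Q.drop e)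

noncomputable def R2 (Q : List α) : Option V := if h : ∃ b, D.Val Q b then some h.choose else none

theorem IsEnd.unique {k : ℕ} {Q : List α} {e e' : ℕ} (h : D.IsEnd k Q e) (h' : D.IsEnd k Q e') :
    e = e' := by
  rcases lt_trichotomy e e' with hl | hl | hl
  · exact absurd (h'.2.2.2.2 e h.1 hl h.2.2.1) (by have := h.2.2.2.1; omega)
  · exact hl
  · exact absurd (h.2.2.2.2 e' h'.1 hl h'.2.2.1) (by have := h'.2.2.2.1; omega)

theorem Val.unique {Q : List α} {b b' : V} (h : D.Val Q b) (h' : D.Val Q b') : b = b' := by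
  obtain ⟨k, hk, hB, hu, e, b0, he, hX, hr, hb⟩ := h
  obtain ⟨k', hk', hB', hu', e', b0', he', hX', hr', hb'⟩ := h'
  obtain rfl := hu k' hk' hB'
  obtain rfl := IsEnd.unique D he he'
  rw [hr] at hr'
  cases hr'
  rw [hb, hb']

theorem R2_eq {Q : List α} {b : V} : D.R2 Q = some b ↔ D.Val Q b := by
  unfold R2
  split_ifs with h
  · constructor
    · intro he
      have := h.choose_spec
      rw [Option.some.injEq] at he
      rwa [he] at this
    · intro hb
      rw [Val.unique D hb h.choose_spec]
  · constructor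
    · intro he; cases he
    · intro hb; exact absurd ⟨b, hb⟩ h

structure Ok : Prop where
  φ_app : ∀ u v, D.φ (u ++ v) = D.φ u * D.φ v
  act_add : ∀ v w s, D.act (v + w) s = D.act v s + D.act w s
  act_mul : ∀ v s s', D.act (D.act v s) s' = D.act v (s * s')
  wl_loc : ∀ U U' : List α, D.n ≤ U'.length → (D.Wl (U ++ U') ↔ D.Wl U')
  Mq_pos : 0 < D.Mq
  lam1_len : ∀ (p : List α) (v : V), D.lam1 p = some v → D.Mq ∣ p.length ∧ p.length ≤ D.N
  ex1 : ∀ p q v r, D.lam1 p = some v → D.rho1 q = some r → D.act v (D.φ (p ++ q)) + D.nu1 (p ++ q) = r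
  cp1 : ∀ u : List α, D.N0 ≤ u.length → ¬ D.BadT u.length → ∀ v, ∃ p q, p ++ q = u ∧ D.lam1 p = some v ∧
    (D.rho1 q).isSome
  Zlow : ∀ r, D.p0 + D.N + D.n + D.N0 < D.Z r
  Zhigh : ∀ r r', D.Z r ≤ D.Z r' + D.N0 + D.N + D.n
  pl_le : ∀ k, k < D.K → D.pl k ≤ D.p0
  ex2 : ∀ k < D.K, ∀ (P q : List α) (v b : V), P.length = D.pl k → D.lam2 k P = some v → D.rho2 k q = some b →
    b = D.act v (D.φ (P ++ q)) + D.nu2 (P ++ q)
  cp2 : ∀ u : List α, u.length = D.p0 → ∀ v, ∃ I : Finset ℕ, D.C + 1 ≤ I.card ∧ ∀ k ∈ I, k < D.K ∧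
    D.lam2 k (u.take (D.pl k)) = some v ∧ (D.rho2 k (u.drop (D.pl k))).isSome

variable {D}

theorem XX_nil (h : D.Ok) : [] ∉ D.XX := by
  rintro ⟨⟨_, h2⟩, _⟩
  have := h.Zlow (([] : List α).length % D.Mq)
  simp only [List.length_nil] at h2 this
  omega

theorem XX_pc : ∀ X ∈ D.XX, ∀ Y, X ++ Y ∈ D.XX → Y = [] := by
  intro X hX Y hY
  by_contra hne
  refine hY.2 X ⟨Y, rfl⟩ ?_ hX.1
  intro e
  apply hne
  have := congrArg List.length e
  rw [List.length_append] at this
  exact List.length_eq_zero_iff.1 (by omega)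

theorem XX_len (h : D.Ok) {X : List α} (hX : X ∈ D.XX) : D.p0 + D.N + D.n + D.N0 < X.length :=
  lt_of_lt_of_le (h.Zlow _) hX.1.2

/-- the block of a candidate -/
theorem mem_XX_of_isEnd (h : D.Ok) {k : ℕ} (hk : k < D.K) {P Q : List α} {e : ℕ}
    (hP : P.length = D.pl k) (he : D.IsEnd k Q e) : P ++ Q.take e ∈ D.XX := by
  obtain ⟨h1, h2, h3, h4, h5⟩ := he
  have hlen : (P ++ Q.take e).length = D.pl k + e := by
    rw [List.length_append, List.length_take, hP, min_eq_left h2]
  refine ⟨⟨?_, ?_⟩, ?_⟩
  · rw [h.wl_loc _ _ (by rw [List.length_take, min_eq_left h2]; exact h1)]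
    exact h3
  · rw [hlen]; exact h4
  · rintro Y hY hne ⟨hw, hz⟩
    have hYl : Y.length < (P ++ Q.take e).length := by
      obtain ⟨z, hz'⟩ := hY
      have := congrArg List.length hz'
      rw [List.length_append] at this
      have hz0 : z.length ≠ 0 := by
        intro h0
        rw [List.length_eq_zero_iff] at h0
        subst h0
        rw [List.append_nil] at hz'
        exact hne hz'
      omega
    have hpl := h.pl_le k hk
    have hZ := h.Zlow (Y.length % D.Mq)
    have hge : D.pl k + D.n ≤ Y.length := by omega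
    obtain ⟨t, ht⟩ : ∃ t, Y.length = D.pl k + t := ⟨Y.length - D.pl k, by omega⟩
    have hYe : Y = P ++ Q.take t := by
      have e1 : Y = (P ++ Q.take e).take Y.length := (List.prefix_iff_eq_take.1 hY)
      rw [e1, ht, ← hP, List.take_append, List.take_of_length_le (by omega)]
      congr 1
      rw [Nat.add_sub_cancel_left, List.take_take, min_eq_left (by omega)]
    have ht1 : D.n ≤ t := by omega
    have ht2 : t < e := by omega
    have htQ : (Q.take t).length = t := by rw [List.length_take, min_eq_left (by omega)]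
    rw [hYe, h.wl_loc _ _ (by rw [htQ]; exact ht1)] at hw
    have := h5 t ht1 ht2 hw
    rw [ht] at hz
    omega

/-- converse -/
theorem isEnd_of_mem_XX (h : D.Ok) {k : ℕ} (hk : k < D.K) {X Y : List α} (hX : X ∈ D.XX) :
    D.IsEnd k ((X ++ Y).drop (D.pl k)) (X.length - D.pl k) := by
  have hpl := h.pl_le k hk
  have hlen := XX_len h hX
  have hdrop : (X ++ Y).drop (D.pl k) = X.drop (D.pl k) ++ Y := by
    rw [List.drop_append_of_le_length (by omega)]
  have htk : ∀ t, t ≤ X.length - D.pl k →
      X.take (D.pl k) ++ ((X ++ Y).drop (D.pl k)).take t = X.take (D.pl k + t) := by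
    intro t ht
    rw [hdrop, List.take_append_of_le_length (by rw [List.length_drop]; exact ht),
      ← List.take_append_drop (D.pl k) (X.take (D.pl k + t)), List.take_take,
      min_eq_left (by omega), List.drop_take]
    congr 2
    omega
  have hl : ∀ t, t ≤ X.length - D.pl k → (((X ++ Y).drop (D.pl k)).take t).length = t := by
    intro t ht
    rw [List.length_take, List.length_drop, List.length_append, min_eq_left (by omega)]
  have hwl : ∀ t, D.n ≤ t → t ≤ X.length - D.pl k →
      (D.Wl (((X ++ Y).drop (D.pl k)).take t) ↔ D.Wl (X.take (D.pl k + t))) := by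
    intro t h1 h2
    rw [← htk t h2, h.wl_loc _ _ (by rw [hl t h2]; exact h1)]
  refine ⟨by omega, ?_, ?_, ?_, ?_⟩
  · rw [List.length_drop, List.length_append]; omega
  · rw [hwl _ (by omega) le_rfl, show D.pl k + (X.length - D.pl k) = X.length by omega,
      List.take_length]
    exact hX.1.1
  · rw [show D.pl k + (X.length - D.pl k) = X.length by omega]
    exact hX.1.2
  · intro t h1 h2 h3
    rw [hwl t h1 h2.le] at h3
    by_contra hc
    have hx : (X.take (D.pl k + t)).length = D.pl k + t := by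
      rw [List.length_take, min_eq_left (by omega)]
    refine hX.2 (X.take (D.pl k + t)) (List.take_prefix _ _) ?_ ⟨h3, ?_⟩
    · intro e
      have := congrArg List.length e
      rw [hx] at this
      omega
    · rw [hx]; omega

theorem R1_ne (h : D.Ok) (Q : List α) (b : V) (hb : D.R1 Q = some b) : Q ≠ [] := by
  unfold R1 at hb
  split_ifs at hb with hok
  rintro rfl
  have := hok.2.2.1
  have h2 := h.Zlow ((D.p0 + ([] : List α).length) % D.Mq)
  simp only [List.length_nil] at this h2
  omega

theorem T_append (v : V) (P Q : List α) (hP : D.p0 ≤ P.length) :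
    D.T v (P ++ Q) = D.act (D.pre v (P.take D.p0)) (D.φ (P.drop D.p0 ++ Q)) +
      D.nu1 (P.drop D.p0 ++ Q) := by
  unfold T
  rw [List.take_append_of_le_length hP, List.drop_append_of_le_length hP]

/-- (s1) -/
theorem s1 (h : D.Ok) (P : List α) (v : V) (Q : List α) (b : V) (hP : D.LP1 P v)
    (hQ : D.R1 Q = some b) : P ++ Q ∈ D.XX ∧ D.T v (P ++ Q) = b := by
  unfold R1 at hQ
  split_ifs at hQ with hok
  obtain ⟨hp0, hlam⟩ := hP
  obtain ⟨hdv, hN⟩ := h.lam1_len _ _ hlam
  rw [List.length_drop] at hdv hN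
  obtain ⟨k1, k2, k3, k4⟩ := hok
  have hmod : ∀ t, (P.length + t) % D.Mq = (D.p0 + t) % D.Mq := by
    intro t
    obtain ⟨c, hc⟩ := hdv
    have : P.length + t = D.p0 + t + D.Mq * c := by omega
    rw [this, Nat.add_mul_mod_self_left]
  refine ⟨⟨⟨?_, ?_⟩, ?_⟩, ?_⟩
  · rw [h.wl_loc _ _ k1]; exact k2
  · rw [List.length_append, hmod]; omega
  · rintro Y hY hne ⟨hw, hz⟩
    have hYl : Y.length < (P ++ Q).length := by
      obtain ⟨z, hz'⟩ := hY
      have := congrArg List.length hz'
      rw [List.length_append] at this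
      have hz0 : z.length ≠ 0 := by
        intro h0
        rw [List.length_eq_zero_iff] at h0
        subst h0
        rw [List.append_nil] at hz'
        exact hne hz'
      omega
    rw [List.length_append] at hYl
    have hZ := h.Zlow (Y.length % D.Mq)
    obtain ⟨t, ht⟩ : ∃ t, Y.length = P.length + t := ⟨Y.length - P.length, by omega⟩
    have hYe : Y = P ++ Q.take t := by
      have e1 : Y = (P ++ Q).take Y.length := (List.prefix_iff_eq_take.1 hY)
      rw [e1, ht, List.take_append, List.take_of_length_le (by omega), Nat.add_sub_cancel_left]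
    have ht1 : D.n ≤ t := by omega
    have ht2 : t < Q.length := by omega
    have htQ : (Q.take t).length = t := by rw [List.length_take, min_eq_left (by omega)]
    rw [hYe, h.wl_loc _ _ (by rw [htQ]; exact ht1)] at hw
    have := k4 t ht1 ht2 hw
    rw [ht, hmod] at hz
    omega
  · rw [T_append v P Q hp0]
    exact h.ex1 _ _ _ _ hlam hQ

/-- badness of a block -/
def BadX (D : Dat α S V) (X : List α) : Prop :=
  (∃ t, t ≤ X.length ∧ D.Wl (X.take t) ∧ D.Band t) ∨ D.BadT (X.length - D.p0)

/-- scheme 1 is complete on blocks which are not bad -/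
theorem comp1 (h : D.Ok) {X : List α} (hX : X ∈ D.XX) (hb : ¬ D.BadX X) (v : V) :
    ∃ P Q, X = P ++ Q ∧ D.p0 ≤ P.length ∧ D.LP1 P v ∧ (D.R1 Q).isSome := by
  have hlen := XX_len h hX
  unfold BadX at hb
  push Not at hb
  obtain ⟨hE, hB⟩ := hb
  obtain ⟨p, q, hpq, hl, hr⟩ := h.cp1 (X.drop D.p0) (by rw [List.length_drop]; omega)
    (by rw [List.length_drop]; exact hB) (D.pre v (X.take D.p0))
  have hX' : X = (X.take D.p0 ++ p) ++ q := by
    rw [List.append_assoc, hpq, List.take_append_drop]
  have hPl : (X.take D.p0).length = D.p0 := by rw [List.length_take, min_eq_left (by omega)]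
  obtain ⟨hdv, hN⟩ := h.lam1_len _ _ hl
  have hXl : X.length = D.p0 + p.length + q.length := by
    have := congrArg List.length hX'
    rw [List.length_append, List.length_append, hPl] at this
    exact this
  have hmod : ∀ t, (D.p0 + p.length + t) % D.Mq = (D.p0 + t) % D.Mq := by
    intro t
    obtain ⟨c, hc⟩ := hdv
    have : D.p0 + p.length + t = D.p0 + t + D.Mq * c := by omega
    rw [this, Nat.add_mul_mod_self_left]
  refine ⟨X.take D.p0 ++ p, q, hX', ?_, ⟨?_, ?_⟩, ?_⟩
  · rw [List.length_append, hPl]; omega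
  · rw [List.length_append, hPl]; omega
  · rw [List.drop_left' hPl, List.take_left' hPl]; exact hl
  · have hok : D.OK1 q := by
      have hAdm := hX.1
      have hqn : D.n ≤ q.length := by
        omega
      refine ⟨hqn, ?_, ?_, ?_⟩
      · have := hAdm.1
        rw [hX', h.wl_loc _ _ hqn] at this
        exact this
      · have h1 := hE X.length le_rfl (by rw [List.take_length]; exact hAdm.1)
        unfold Band at h1
        have h2 := hAdm.2
        rw [hXl, hmod] at h1 h2
        by_contra hc
        apply h1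
        constructor <;> omega
      · intro t ht1 ht2 hw
        have hx : X.take (D.p0 + p.length + t) = (X.take D.p0 ++ p) ++ q.take t := by
          conv_lhs => rw [hX']
          rw [List.take_append, List.take_of_length_le (by rw [List.length_append, hPl]; omega),
            List.length_append, hPl]
          congr 2
          omega
        have hq : (q.take t).length = t := by rw [List.length_take, min_eq_left (by omega)]
        have hw' : D.Wl (X.take (D.p0 + p.length + t)) := by
          rw [hx, h.wl_loc _ _ (by rw [hq]; exact ht1)]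
          exact hw
        have h1 := hE (D.p0 + p.length + t) (by omega) hw'
        have hxl : (X.take (D.p0 + p.length + t)).length = D.p0 + p.length + t := by
          rw [List.length_take, min_eq_left (by omega)]
        have h2 : D.p0 + p.length + t < D.Z ((D.p0 + p.length + t) % D.Mq) := by
          by_contra hc
          refine hX.2 (X.take (D.p0 + p.length + t)) (List.take_prefix _ _) ?_ ⟨hw', ?_⟩
          · intro e
            have := congrArg List.length e
            rw [hxl] at this
            omega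
          · rw [hxl]; omega
        unfold Band at h1
        rw [hmod] at h1 h2
        by_contra hc
        apply h1
        constructor <;> omega
    unfold R1
    rw [if_pos hok]
    exact hr

/-- the candidate `k` is bad when the true block is bad -/
theorem badC_of_badX (h : D.Ok) {k : ℕ} (hk : k < D.K) {X Y : List α} (hX : X ∈ D.XX)
    (hb : D.BadX X) : D.BadC k ((X ++ Y).drop (D.pl k)) := by
  have hpl := h.pl_le k hk
  have hlen := XX_len h hX
  have hend := isEnd_of_mem_XX h hk (Y := Y) hX
  refine ⟨X.length - D.pl k, hend, ?_⟩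
  have hdrop : (X ++ Y).drop (D.pl k) = X.drop (D.pl k) ++ Y := by
    rw [List.drop_append_of_le_length (by omega)]
  rcases hb with ⟨t, ht1, ht2, ht3⟩ | hb
  · left
    have hZ := h.Zlow (t % D.Mq)
    have ht3' := ht3
    unfold Band at ht3'
    have hge : D.pl k + D.n ≤ t := by omega
    refine ⟨t - D.pl k, by omega, by omega, ?_, ?_⟩
    · have hx : X.take (D.pl k) ++ ((X ++ Y).drop (D.pl k)).take (t - D.pl k) = X.take t := by
        rw [hdrop, List.take_append_of_le_length (by rw [List.length_drop]; omega),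
          ← List.take_append_drop (D.pl k) (X.take t), List.take_take,
          min_eq_left (by omega), List.drop_take]
      have hl : (((X ++ Y).drop (D.pl k)).take (t - D.pl k)).length = t - D.pl k := by
        rw [List.length_take, List.length_drop, List.length_append, min_eq_left (by omega)]
      rw [← h.wl_loc (X.take (D.pl k)) _ (by rw [hl]; omega), hx]
      exact ht2
    · rw [show D.pl k + (t - D.pl k) = t by omega]
      exact ht3
  · right
    rw [show D.pl k + (X.length - D.pl k) - D.p0 = X.length - D.p0 by omega]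
    exact hb

/-- (s2) -/
theorem s2 (h : D.Ok) (P : List α) (v : V) (Q : List α) (b : V) (hP : D.LP2 P v)
    (hQ : D.R2 Q = some b)
    (hun : ∀ X ∈ D.XX, X <+: P ++ Q → ∀ P' Q', X = P' ++ Q' → P.length ≤ P'.length →
      D.LP1 P' v → (D.R1 Q').isSome → False) :
    ∃ Q1 X2, Q = Q1 ++ X2 ∧ Q1 ≠ [] ∧ P ++ Q1 ∈ D.XX ∧ X2 ∈ D.XX ∧
      D.T (D.T v (P ++ Q1)) X2 = b := by
  obtain ⟨k, hk, hPk, hlam⟩ := hP
  rw [R2_eq] at hQ
  obtain ⟨k0, hk0, hB0, hu0, e, b0, he, hX2, hr, hb⟩ := hQ
  have hplk := h.pl_le k hk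
  have hplk0 := h.pl_le k0 hk0
  have heQ := he.2.1
  -- the end of the true candidate exists
  have hX2l := XX_len h hX2
  rw [List.length_drop] at hX2l
  have hwQ : D.Wl Q := by
    have h1 := hX2.1.1
    rw [← h.wl_loc (Q.take e) (Q.drop e) (by rw [List.length_drop]; omega),
      List.take_append_drop] at h1
    exact h1
  have hex : ∃ t, D.n ≤ t ∧ t ≤ Q.length ∧ D.Wl (Q.take t) ∧
      D.Z ((D.pl k + t) % D.Mq) ≤ D.pl k + t := by
    refine ⟨Q.length, by omega, le_rfl, by rw [List.take_length]; exact hwQ, ?_⟩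
    have h1 := he.2.2.2.1
    have h2 := h.Zhigh ((D.pl k + Q.length) % D.Mq) ((D.pl k0 + e) % D.Mq)
    omega
  obtain ⟨e', hend⟩ : ∃ e', D.IsEnd k Q e' := by
    refine ⟨Nat.find hex, ?_⟩
    obtain ⟨q1, q2, q3, q4⟩ := Nat.find_spec hex
    refine ⟨q1, q2, q3, q4, fun t ht1 ht2 ht3 => ?_⟩
    by_contra hc
    push Not at hc
    exact Nat.find_min hex ht2 ⟨ht1, by omega, ht3, hc⟩
  have hXX := mem_XX_of_isEnd h hk hPk hend
  have hbad : D.BadX (P ++ Q.take e') := by
    by_contra hc
    obtain ⟨P', Q', hPQ, hp0, hL, hR⟩ := comp1 h hXX hc v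
    refine hun _ hXX ?_ P' Q' hPQ (by omega) hL hR
    exact (List.prefix_append_right_inj P).2 (List.take_prefix _ _)
  have hBk : D.BadC k Q := by
    have h1 := badC_of_badX h hk (Y := Q.drop e') hXX hbad
    rw [List.append_assoc, List.take_append_drop, List.drop_left' hPk] at h1
    exact h1
  obtain rfl := hu0 k hk hBk
  obtain rfl := IsEnd.unique D he hend
  refine ⟨Q.take e, Q.drop e, (List.take_append_drop _ _).symm, ?_, hXX, hX2, ?_⟩
  · intro h0
    have h1 := congrArg List.length h0
    rw [List.length_take, min_eq_left heQ, List.length_nil] at h1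
    have h2 := he.2.2.2.1
    have h3 := h.Zlow ((D.pl k + e) % D.Mq)
    omega
  · rw [hb]
    congr 1
    have hel : (Q.take e).length = e := by rw [List.length_take, min_eq_left heQ]
    have h2 := he.2.2.2.1
    have h3 := h.Zlow ((D.pl k + e) % D.Mq)
    have hx := h.ex2 k hk P _ v b0 hPk hlam hr
    unfold T pre
    have e1 : (P ++ Q.take e).take D.p0 = P ++ (Q.take e).take (D.p0 - D.pl k) := by
      rw [List.take_append, List.take_of_length_le (by omega), hPk]
    have e2 : (P ++ Q.take e).drop D.p0 = (Q.take e).drop (D.p0 - D.pl k) := by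
      rw [List.drop_append, List.drop_of_length_le (by omega), List.nil_append, hPk]
    rw [e1, e2, ← hx]

/-- (cc) -/
theorem cc (h : D.Ok)
    (spoil : ∀ X ∈ D.XX, ∀ X2 ∈ D.XX, ((Finset.range D.K).filter (fun k => ∃ k' < D.K, k' ≠ k ∧
      D.BadC k' ((X ++ X2).drop (D.pl k)))).card ≤ D.C)
    (X : List α) (hX : X ∈ D.XX) (X2 : List α) (hX2 : X2 ∈ D.XX) (v : V) :
    (∃ P Q, X = P ++ Q ∧ D.LP1 P v ∧ (D.R1 Q).isSome) ∨
      (∃ P Q, X ++ X2 = P ++ Q ∧ P.length < X.length ∧ D.LP2 P v ∧ (D.R2 Q).isSome) := by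
  by_cases hb : D.BadX X
  · right
    have hlen := XX_len h hX
    have hPl : (X.take D.p0).length = D.p0 := by rw [List.length_take, min_eq_left (by omega)]
    obtain ⟨I, hI, hI2⟩ := h.cp2 (X.take D.p0) hPl v
    have hsp := spoil X hX X2 hX2
    obtain ⟨k, hkI, hk⟩ : ∃ k ∈ I, k ∉ ((Finset.range D.K).filter (fun k => ∃ k' < D.K, k' ≠ k ∧
        D.BadC k' ((X ++ X2).drop (D.pl k)))) := by
      by_contra hc
      push Not at hc
      have := Finset.card_le_card (show I ⊆ _ from hc)
      omega
    obtain ⟨hkK, hl2, hr2⟩ := hI2 k hkI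
    have hpl := h.pl_le k hkK
    have hun : ∀ k' < D.K, D.BadC k' ((X ++ X2).drop (D.pl k)) → k' = k := by
      intro k' hk' hB
      by_contra hne
      exact hk (Finset.mem_filter.2 ⟨Finset.mem_range.2 hkK, k', hk', hne, hB⟩)
    have hend := isEnd_of_mem_XX h hkK (Y := X2) hX
    refine ⟨X.take (D.pl k), (X ++ X2).drop (D.pl k), ?_, ?_, ?_, ?_⟩
    · rw [← List.take_append_of_le_length (l₂ := X2) (show D.pl k ≤ X.length by omega),
        List.take_append_drop]
    · rw [List.length_take]
      omega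
    · refine ⟨k, hkK, by rw [List.length_take, min_eq_left (by omega)], ?_⟩
      rw [List.take_take, min_eq_left hpl] at hl2
      exact hl2
    · obtain ⟨b0, hb0⟩ := Option.isSome_iff_exists.1 hr2
      rw [Option.isSome_iff_exists]
      refine ⟨_, (R2_eq D).2 ⟨k, hkK, badC_of_badX h hkK hX hb, hun, X.length - D.pl k, b0, hend,
        ?_, ?_, rfl⟩⟩
      · rw [List.drop_drop, show D.pl k + (X.length - D.pl k) = X.length by omega, List.drop_left]
        exact hX2
      · have e1 : (((X ++ X2).drop (D.pl k)).take (X.length - D.pl k)).take (D.p0 - D.pl k) =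
            (X.take D.p0).drop (D.pl k) := by
          rw [List.take_take, min_eq_left (by omega),
            List.drop_append_of_le_length (by omega),
            List.take_append_of_le_length (by rw [List.length_drop]; omega), List.drop_take]
        rw [e1]
        exact hb0
  · left
    obtain ⟨P, Q, h1, -, h2, h3⟩ := comp1 h hX hb v
    exact ⟨P, Q, h1, h2, h3⟩

end Dat

end Crest.Agent.R320.P5_33
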