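import Mathlib

/-!
Row 320, helper841: the joint of 163's `top` (post 13363): `s1`, `s2`, `cc` from a zone gadget with
unknown length (693), an exact gadget with known length (237), a ruler and left-looking outer walls.
Chain rule: next anchor = first wall at distance at least `z`.
-/

set_option autoImplicit false
set_option linter.unusedSectionVars false

namespace Crest.Agent.R320.P5_841

/-- the data -/
structure Dt (α S V : Type*) where
  φ : List α → S
  act : V → S → V
  Wo : List α → Prop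
  n : ℕ
  W : ℕ
  lam : List α → Option V
  rho : List α → Option V
  nu1 : List α → V
  N1 : ℕ
  T0 : ℕ
  BadT : ℕ → Prop
  K : ℕ
  c : ℕ → ℕ
  lam2 : ℕ → List α → Option V
  rho2 : ℕ → List α → Option V
  nu2 : List α → V
  p0 : ℕ
  z : ℕ
  R0 : ℕ

variable {α S V : Type*} [Monoid S] [AddCommGroup V]

open Classical in
/-- the hypotheses -/
structure Ok (D : Dt α S V) : Prop where
  φ_app : ∀ u v, D.φ (u ++ v) = D.φ u * D.φ v
  act_mul : ∀ v s s', D.act (D.act v s) s' = D.act v (s * s')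
  act_add : ∀ v w s, D.act (v + w) s = D.act v s + D.act w s
  loc : ∀ P Q : List α, D.n ≤ Q.length → (D.Wo (P ++ Q) ↔ D.Wo Q)
  len : ∀ U, D.Wo U → D.n ≤ U.length
  gap : ∀ (U : List α) (t t' : ℕ), D.Wo (U.take t) → D.Wo (U.take t') → t < t' → t' ≤ U.length →
    D.W < t' - t
  g1s : ∀ P Q v b, D.lam P = some v → D.rho Q = some b →
    D.act v (D.φ (P ++ Q)) + D.nu1 (P ++ Q) = b
  g1l : ∀ P v, D.lam P = some v → P.length ≤ D.N1
  g1c : ∀ Y : List α, D.T0 ≤ Y.length → ¬ D.BadT Y.length → ∀ v, ∃ P Q, Y = P ++ Q ∧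
    D.lam P = some v ∧ (D.rho Q).isSome
  g2s : ∀ k < D.K, ∀ P Q v b, P.length = D.c k → (P ++ Q).length = D.p0 → D.lam2 k P = some v →
    D.rho2 k Q = some b → D.act v (D.φ (P ++ Q)) + D.nu2 (P ++ Q) = b
  g2c : ∀ X : List α, X.length = D.p0 → ∀ v, ∃ I : Finset ℕ, 1 + 2 * D.R0 < I.card ∧
    ∀ k ∈ I, k < D.K ∧ D.lam2 k (X.take (D.c k)) = some v ∧ (D.rho2 k (X.drop (D.c k))).isSome
  cp0 : ∀ k < D.K, D.c k ≤ D.p0
  cinj : ∀ i < D.K, ∀ j < D.K, D.c i = D.c j → i = j
  res : ∀ a < D.K, ∀ b < D.K, ∀ c' < D.K, ∀ d < D.K, a ≠ b → c' ≠ d →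
    (D.c a : ℤ) - D.c b - (D.c c' - D.c d) ≤ 2 * D.N1 →
    (D.c c' : ℤ) - D.c d - (D.c a - D.c b) ≤ 2 * D.N1 → b = d
  spoil : ∀ T, D.p0 ≤ T → ((Finset.range D.K).filter
    (fun k => ∃ k' < D.K, k' ≠ k ∧ D.BadT (T + D.c k' - D.c k))).card ≤ D.R0
  hz : 3 * D.p0 + D.N1 + D.n + D.T0 + 1 ≤ D.z
  hW : 2 * D.p0 + 2 * D.N1 < D.W

variable (D : Dt α S V)

/-- the blocks -/
def XX : Set (List α) :=
  {X | D.Wo X ∧ D.z ≤ X.length ∧ ∀ t < X.length, D.z ≤ t → ¬ D.Wo (X.take t)}

/-- the noise -/
def nu (X : List α) : V := D.act (D.nu2 (X.take D.p0)) (D.φ (X.drop D.p0)) + D.nu1 (X.drop D.p0)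

/-- the zone map -/
def T (v : V) (X : List α) : V := D.act v (D.φ X) + nu D X

def LP1 (P : List α) (v : V) : Prop :=
  D.p0 ≤ P.length ∧ D.lam (P.drop D.p0) = some (D.act v (D.φ (P.take D.p0)) + D.nu2 (P.take D.p0))

/-- right-legality with respect to the walls -/
def RB (Q : List α) : Prop :=
  D.Wo Q ∧ D.z ≤ Q.length + D.p0 ∧
    ∀ t < Q.length, D.z ≤ t + D.p0 + D.N1 → ¬ D.Wo (Q.take t)

open Classical in
noncomputable def R1 (Q : List α) : Option V := if RB D Q then D.rho Q else none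

def LP2 (P : List α) (v : V) : Prop := ∃ k < D.K, P.length = D.c k ∧ D.lam2 k P = some v

/-- there is a block end for the candidate `k` -/
def Ex (k : ℕ) (Q : List α) : Prop := ∃ y, D.z ≤ D.c k + y ∧ y ≤ Q.length ∧ D.Wo (Q.take y)

noncomputable def NN (k : ℕ) (Q : List α) : ℕ :=
  sInf {y | D.z ≤ D.c k + y ∧ y ≤ Q.length ∧ D.Wo (Q.take y)}

def cand (k : ℕ) (Q : List α) : Prop :=
  (∃ y ≤ Q.length, D.z ≤ D.c k + y + D.N1 ∧ D.c k + y < D.z + D.N1 ∧ D.Wo (Q.take y)) ∨
    D.BadT (D.c k + NN D k Q - D.p0)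

def R2r (Q : List α) (b : V) : Prop :=
  ∃ k < D.K, cand D k Q ∧ (∀ k' < D.K, cand D k' Q → k' = k) ∧ Ex D k Q ∧
    Q.drop (NN D k Q) ∈ XX D ∧ ∃ r, D.rho2 k (Q.take (D.p0 - D.c k)) = some r ∧
      b = T D (D.act r (D.φ ((Q.take (NN D k Q)).drop (D.p0 - D.c k))) +
        D.nu1 ((Q.take (NN D k Q)).drop (D.p0 - D.c k))) (Q.drop (NN D k Q))

open Classical in
noncomputable def R2 (Q : List α) : Option V := if h : ∃ b, R2r D Q b then some h.choose else none

variable {D}

theorem R2_rel {Q : List α} {b : V} (h : R2 D Q = some b) : R2r D Q b := by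
  unfold R2 at h
  split_ifs at h with h1
  rw [Option.some.injEq] at h
  rw [← h]
  exact h1.choose_spec

theorem R2_isSome {Q : List α} {b : V} (h : R2r D Q b) : (R2 D Q).isSome := by
  unfold R2
  rw [dif_pos ⟨b, h⟩]
  rfl

theorem nil_XX (h : Ok D) : ([] : List α) ∉ XX D := by
  rintro ⟨_, h2, _⟩
  have := h.hz
  simp at h2
  omega

theorem PC (X : List α) (hX : X ∈ XX D) (Y : List α) (hXY : X ++ Y ∈ XX D) : Y = [] := by
  by_contra hne
  have hl : 0 < Y.length := List.length_pos_of_ne_nil hne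
  have := hXY.2.2 X.length (by rw [List.length_append]; omega) hX.2.1
  rw [List.take_left'  rfl] at this
  exact this hX.1

theorem take_app {P Q : List α} {y : ℕ} : (P ++ Q).take (P.length + y) = P ++ Q.take y := by
  rw [List.take_append, List.take_of_length_le (by omega), Nat.add_sub_cancel_left]

/-- a wall of the text seen from the right -/
theorem Ok.wall (h : Ok D) {P Q : List α} {y : ℕ} (hy : D.n ≤ y) (hyl : y ≤ Q.length) :
    D.Wo ((P ++ Q).take (P.length + y)) ↔ D.Wo (Q.take y) := by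
  rw [take_app]
  exact h.loc _ _ (by rw [List.length_take]; omega)

theorem s1_block (h : Ok D) {P Q : List α} (hP : D.p0 ≤ P.length) (hP' : P.length ≤ D.p0 + D.N1)
    (hQ : RB D Q) : P ++ Q ∈ XX D := by
  obtain ⟨a1, a2, a3⟩ := hQ
  have hz := h.hz
  refine ⟨(h.loc P Q (by omega)).2 a1, by rw [List.length_append]; omega, ?_⟩
  intro t ht hzt
  rw [List.length_append] at ht
  obtain ⟨y, rfl⟩ := Nat.exists_eq_add_of_le (show P.length ≤ t by omega)
  rw [h.wall (by omega) (by omega)]
  exact a3 y (by omega) (by omega)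

theorem T_eq (h : Ok D) (v : V) {X : List α} (X0 Y : List α) (hX : X = X0 ++ Y)
    (h0 : X0.length = D.p0) :
    T D v X = D.act (D.act v (D.φ X0) + D.nu2 X0) (D.φ Y) + D.nu1 Y := by
  subst hX
  unfold T nu
  rw [← h0, List.take_left' rfl, List.drop_left' rfl, h.φ_app, h.act_add, h.act_mul, add_assoc]

/-- **s1** -/
theorem s1 (h : Ok D) (P : List α) (v : V) (Q : List α) (b : V) (hP : LP1 D P v)
    (hQ : R1 D Q = some b) : P ++ Q ∈ XX D ∧ T D v (P ++ Q) = b := by
  obtain ⟨hP0, hP1⟩ := hP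
  have hQ' : RB D Q ∧ D.rho Q = some b := by
    unfold R1 at hQ
    split_ifs at hQ with h1
    exact ⟨h1, hQ⟩
  have hl := h.g1l _ _ hP1
  rw [List.length_drop] at hl
  refine ⟨s1_block h hP0 (by omega) hQ'.1, ?_⟩
  have e : P ++ Q = P.take D.p0 ++ (P.drop D.p0 ++ Q) := by
    rw [← List.append_assoc, List.take_append_drop]
  rw [T_eq h v _ _ e (by rw [List.length_take]; omega)]
  exact h.g1s _ _ _ _ hP1 hQ'.2

/-- the wall band -/
def EB (D : Dt α S V) (X : List α) : Prop :=
  ∃ t ≤ X.length, D.z ≤ t + D.N1 ∧ t < D.z + D.N1 ∧ D.Wo (X.take t)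

/-- completeness of scheme 1 -/
theorem comp1 (h : Ok D) {X : List α} (hX : X ∈ XX D) (hE : ¬ EB D X)
    (hB : ¬ D.BadT (X.length - D.p0)) (v : V) :
    ∃ P Q, X = P ++ Q ∧ D.p0 ≤ P.length ∧ LP1 D P v ∧ (R1 D Q).isSome := by
  obtain ⟨a1, a2, a3⟩ := hX
  have hz := h.hz
  obtain ⟨P', Q, hY, hP', hQ⟩ := h.g1c (X.drop D.p0) (by rw [List.length_drop]; omega)
    (by rwa [List.length_drop]) (D.act v (D.φ (X.take D.p0)) + D.nu2 (X.take D.p0))
  have hl := h.g1l _ _ hP'
  have h0 : (X.take D.p0).length = D.p0 := by rw [List.length_take]; omega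
  have hX' : X = (X.take D.p0 ++ P') ++ Q := by
    rw [List.append_assoc, ← hY, List.take_append_drop]
  have hlen : X.length = D.p0 + P'.length + Q.length := by
    have := congrArg List.length hX'
    rw [List.length_append, List.length_append, h0] at this
    exact this
  have hEl : D.z + D.N1 ≤ X.length := by
    by_contra hc
    exact hE ⟨X.length, le_rfl, by omega, by omega, by rwa [List.take_length]⟩
  have hPl : (X.take D.p0 ++ P').length = D.p0 + P'.length := by rw [List.length_append, h0]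
  have hRB : RB D Q := by
    refine ⟨?_, by omega, ?_⟩
    · rw [hX'] at a1
      exact (h.loc _ _ (by omega)).1 a1
    · intro y hy hzy hw
      have hw' : D.Wo (X.take ((X.take D.p0 ++ P').length + y)) := by
        have hw1 := (h.wall (P := X.take D.p0 ++ P') (Q := Q) (y := y) (by omega) (by omega)).2 hw
        rwa [← hX'] at hw1
      rw [hPl] at hw'
      by_cases hc : D.z ≤ D.p0 + P'.length + y
      · exact a3 _ (by omega) hc hw'
      · exact hE ⟨_, by omega, by omega, by omega, hw'⟩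
  refine ⟨X.take D.p0 ++ P', Q, hX', by omega, ⟨by omega, ?_⟩, ?_⟩
  · rw [List.drop_left' h0, List.take_left' h0]
    exact hP'
  · unfold R1
    rw [if_pos hRB]
    exact hQ

theorem NN_spec {k : ℕ} {Q : List α} (hex : Ex D k Q) :
    D.z ≤ D.c k + NN D k Q ∧ NN D k Q ≤ Q.length ∧ D.Wo (Q.take (NN D k Q)) :=
  Nat.sInf_mem (s := {y | D.z ≤ D.c k + y ∧ y ≤ Q.length ∧ D.Wo (Q.take y)}) hex

theorem NN_le {k : ℕ} {Q : List α} {y : ℕ} (h1 : D.z ≤ D.c k + y) (h2 : y ≤ Q.length)
    (h3 : D.Wo (Q.take y)) : NN D k Q ≤ y :=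
  Nat.sInf_le (s := {y | D.z ≤ D.c k + y ∧ y ≤ Q.length ∧ D.Wo (Q.take y)}) ⟨h1, h2, h3⟩

/-- the block of the true candidate -/
theorem block_of (h : Ok D) {k : ℕ} (hk : k < D.K) {P Q : List α} (hP : P.length = D.c k)
    (hex : Ex D k Q) : P ++ Q.take (NN D k Q) ∈ XX D := by
  obtain ⟨a1, a2, a3⟩ := NN_spec hex
  have hz := h.hz
  have hc := h.cp0 k hk
  have hl : (Q.take (NN D k Q)).length = NN D k Q := by rw [List.length_take]; omega
  refine ⟨(h.loc _ _ (by omega)).2 a3, by rw [List.length_append]; omega, ?_⟩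
  intro t ht hzt hw
  rw [List.length_append] at ht
  obtain ⟨y, rfl⟩ := Nat.exists_eq_add_of_le (show P.length ≤ t by omega)
  rw [h.wall (by omega) (by omega), List.take_take, min_eq_left (by omega)] at hw
  have := NN_le (k := k) (by omega) (by omega) hw
  omega

/-- **s2** -/
theorem s2 (h : Ok D) (P : List α) (v : V) (Q : List α) (b : V) (hP : LP2 D P v)
    (hQ : R2 D Q = some b)
    (hun : ∀ X ∈ XX D, X <+: P ++ Q → ∀ P' Q', X = P' ++ Q' → P.length ≤ P'.length →
      LP1 D P' v → (R1 D Q').isSome → False) :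
    ∃ Q1 X2, Q = Q1 ++ X2 ∧ Q1 ≠ [] ∧ P ++ Q1 ∈ XX D ∧ X2 ∈ XX D ∧
      T D (T D v (P ++ Q1)) X2 = b := by
  obtain ⟨k0, hk0, hPl, hlam⟩ := hP
  obtain ⟨k, hk, hc, huniq, hex, hX2, r, hr, hb⟩ := R2_rel hQ
  have hz := h.hz
  have hc0 := h.cp0 k0 hk0
  have hQw : D.Wo (Q.take Q.length) := by
    rw [List.take_length]
    have := (h.loc (Q.take (NN D k Q)) (Q.drop (NN D k Q)) (by have := hX2.2.1; omega)).2 hX2.1
    rwa [List.take_append_drop] at this
  have hQl : D.z ≤ Q.length := by
    have := hX2.2.1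
    rw [List.length_drop] at this
    omega
  have hex0 : Ex D k0 Q := ⟨Q.length, by omega, le_rfl, hQw⟩
  have hX := block_of h hk0 hPl hex0
  obtain ⟨b1, b2, b3⟩ := NN_spec hex0
  have hl : (Q.take (NN D k0 Q)).length = NN D k0 Q := by rw [List.length_take]; omega
  have hcand : cand D k0 Q := by
    by_contra hcon
    unfold cand at hcon
    push Not at hcon
    obtain ⟨d1, d2⟩ := hcon
    have hE : ¬ EB D (P ++ Q.take (NN D k0 Q)) := by
      rintro ⟨t, e1, e2, e3, e4⟩
      rw [List.length_append, hl] at e1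
      obtain ⟨y, rfl⟩ := Nat.exists_eq_add_of_le (show P.length ≤ t by omega)
      rw [h.wall (by omega) (by omega), List.take_take, min_eq_left (by omega)] at e4
      exact d1 y (by omega) (by omega) (by omega) e4
    have hB : ¬ D.BadT ((P ++ Q.take (NN D k0 Q)).length - D.p0) := by
      rw [List.length_append, hl, hPl]
      exact d2
    obtain ⟨P', Q', e, hp, hL, hR⟩ := comp1 h hX hE hB v
    refine hun _ hX ?_ P' Q' e (by omega) hL hR
    exact List.prefix_append_right_inj P |>.2 (List.take_prefix _ _)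
  have hkk : k0 = k := huniq k0 hk0 hcand
  subst hkk
  refine ⟨Q.take (NN D k0 Q), Q.drop (NN D k0 Q), (List.take_append_drop _ _).symm, ?_, hX, hX2,
    ?_⟩
  · intro hnil
    rw [hnil] at hl
    simp at hl
    omega
  · rw [hb]
    congr 1
    have e : P ++ Q.take (NN D k0 Q) = (P ++ Q.take (D.p0 - D.c k0)) ++
        (Q.take (NN D k0 Q)).drop (D.p0 - D.c k0) := by
      have e1 : Q.take (D.p0 - D.c k0) = (Q.take (NN D k0 Q)).take (D.p0 - D.c k0) := by
        rw [List.take_take, min_eq_left (by omega)]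
      rw [e1, List.append_assoc, List.take_append_drop]
    have h0 : (P ++ Q.take (D.p0 - D.c k0)).length = D.p0 := by
      rw [List.length_append, List.length_take]
      omega
    rw [T_eq h v _ _ e h0, h.g2s k0 hk0 _ _ _ _ hPl h0 hlam hr]

open Classical in
/-- the spoiled places are few -/
theorem spoiled (h : Ok D) {U : List α} (hU : 2 * D.z ≤ U.length) (hUw : D.Wo U) :
    ((Finset.range D.K).filter (fun k => ∃ k' < D.K, k' ≠ k ∧
      cand D k' (U.drop (D.c k)))).card ≤ 1 + 2 * D.R0 := by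
  have hz := h.hz
  have hW := h.hW
  -- walls of `U`
  have hwall : ∀ k < D.K, ∀ y, D.n ≤ y → y ≤ (U.drop (D.c k)).length →
      (D.Wo ((U.drop (D.c k)).take y) ↔ D.Wo (U.take (D.c k + y))) := by
    intro k hk y h1 h2
    have hc := h.cp0 k hk
    have hl : (U.take (D.c k)).length = D.c k := by rw [List.length_take]; omega
    have := h.wall (P := U.take (D.c k)) (Q := U.drop (D.c k)) h1 h2
    rw [List.take_append_drop, hl] at this
    exact this.symm
  -- the first set
  let A0 := (Finset.range D.K).filter (fun k => ∃ k' < D.K, k' ≠ k ∧ ∃ t ≤ U.length,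
    D.z + D.c k ≤ t + D.c k' + D.N1 ∧ t + D.c k' < D.z + D.c k + D.N1 ∧ D.Wo (U.take t))
  have hA0 : A0.card ≤ 1 := by
    rw [Finset.card_le_one]
    intro k hk j hj
    simp only [A0, Finset.mem_filter, Finset.mem_range] at hk hj
    obtain ⟨hk, k', hk', hkk, t, t1, t2, t3, t4⟩ := hk
    obtain ⟨hj, j', hj', hjj, s, q1, q2, q3, q4⟩ := hj
    have c1 := h.cp0 k hk
    have c2 := h.cp0 k' hk'
    have c3 := h.cp0 j hj
    have c4 := h.cp0 j' hj'
    have hts : t = s := by
      rcases lt_trichotomy t s with hlt | heq | hgt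
      · have := h.gap U t s t4 q4 hlt q1
        omega
      · exact heq
      · have := h.gap U s t q4 t4 hgt t1
        omega
    subst hts
    exact h.res k' hk' k hk j' hj' j hj hkk hjj (by omega) (by omega)
  -- the other sets
  let A (T : ℕ) := (Finset.range D.K).filter
    (fun k => ∃ k' < D.K, k' ≠ k ∧ D.BadT (T + D.c k' - D.c k))
  have hA : ∀ T, D.p0 ≤ T → (A T).card ≤ D.R0 := fun T hT => h.spoil T hT
  -- the two possible ends
  let t1 := sInf {t | D.z + D.p0 ≤ t ∧ t ≤ U.length ∧ D.Wo (U.take t)}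
  have ht1 : D.z + D.p0 ≤ t1 ∧ t1 ≤ U.length ∧ D.Wo (U.take t1) :=
    Nat.sInf_mem (s := {t | D.z + D.p0 ≤ t ∧ t ≤ U.length ∧ D.Wo (U.take t)})
      ⟨U.length, by omega, le_rfl, by rwa [List.take_length]⟩
  have ht1' : ∀ t, D.z + D.p0 ≤ t → t ≤ U.length → D.Wo (U.take t) → t1 ≤ t :=
    fun t a b c => Nat.sInf_le
      (s := {t | D.z + D.p0 ≤ t ∧ t ≤ U.length ∧ D.Wo (U.take t)}) ⟨a, b, c⟩
  obtain ⟨t0, ht0z, ht0⟩ : ∃ t0, D.z - D.p0 ≤ t0 ∧ ∀ t, D.z ≤ t + D.p0 → t < D.z + D.p0 →
      t ≤ U.length → D.Wo (U.take t) → t = t0 := by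
    by_cases hex : ∃ t, D.z ≤ t + D.p0 ∧ t < D.z + D.p0 ∧ t ≤ U.length ∧ D.Wo (U.take t)
    · obtain ⟨t, e1, e2, e3, e4⟩ := hex
      refine ⟨t, by omega, fun s f1 f2 f3 f4 => ?_⟩
      rcases lt_trichotomy t s with hlt | heq | hgt
      · have := h.gap U t s e4 f4 hlt f3
        omega
      · exact heq.symm
      · have := h.gap U s t f4 e4 hgt e3
        omega
    · exact ⟨D.z, by omega, fun s f1 f2 f3 f4 => absurd ⟨s, f1, f2, f3, f4⟩ hex⟩
  have hsub : ((Finset.range D.K).filter (fun k => ∃ k' < D.K, k' ≠ k ∧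
      cand D k' (U.drop (D.c k)))) ⊆ A0 ∪ (A (t0 - D.p0) ∪ A (t1 - D.p0)) := by
    intro k hk
    simp only [Finset.mem_filter, Finset.mem_range] at hk
    obtain ⟨hk, k', hk', hkk, hc⟩ := hk
    have c1 := h.cp0 k hk
    have c2 := h.cp0 k' hk'
    have hdl : (U.drop (D.c k)).length = U.length - D.c k := List.length_drop
    rcases hc with ⟨y, y1, y2, y3, y4⟩ | hB
    · apply Finset.mem_union_left
      simp only [A0, Finset.mem_filter, Finset.mem_range]
      refine ⟨hk, k', hk', hkk, D.c k + y, by omega, by omega, by omega, ?_⟩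
      exact (hwall k hk y (by omega) y1).1 y4
    · apply Finset.mem_union_right
      have hex : Ex D k' (U.drop (D.c k)) := by
        refine ⟨(U.drop (D.c k)).length, by omega, le_rfl, ?_⟩
        rw [hwall k hk _ (by omega) le_rfl]
        have e : D.c k + (U.drop (D.c k)).length = U.length := by omega
        rw [e, List.take_length]
        exact hUw
      obtain ⟨n1, n2, n3⟩ := NN_spec hex
      set y := NN D k' (U.drop (D.c k)) with hy
      have n4 := (hwall k hk y (by omega) n2).1 n3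
      by_cases hlt : D.c k + y < D.z + D.p0
      · apply Finset.mem_union_left
        have e0 := ht0 (D.c k + y) (by omega) hlt (by omega) n4
        simp only [A, Finset.mem_filter, Finset.mem_range]
        refine ⟨hk, k', hk', hkk, ?_⟩
        have e1 : t0 - D.p0 + D.c k' - D.c k = D.c k' + y - D.p0 := by omega
        rw [e1]
        exact hB
      · apply Finset.mem_union_right
        have e0 : t1 = D.c k + y := by
          apply le_antisymm
          · exact ht1' _ (by omega) (by omega) n4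
          · have hw1 : D.Wo ((U.drop (D.c k)).take (t1 - D.c k)) := by
              rw [hwall k hk _ (by omega) (by omega)]
              have e : D.c k + (t1 - D.c k) = t1 := by omega
              rw [e]
              exact ht1.2.2
            have := NN_le (k := k') (by omega) (by omega) hw1
            omega
        simp only [A, Finset.mem_filter, Finset.mem_range]
        refine ⟨hk, k', hk', hkk, ?_⟩
        have e1 : t1 - D.p0 + D.c k' - D.c k = D.c k' + y - D.p0 := by omega
        rw [e1]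
        exact hB
  have u1 := Finset.card_le_card hsub
  have u2 := Finset.card_union_le A0 (A (t0 - D.p0) ∪ A (t1 - D.p0))
  have u3 := Finset.card_union_le (A (t0 - D.p0)) (A (t1 - D.p0))
  have u4 := hA (t0 - D.p0) (by omega)
  have u5 := hA (t1 - D.p0) (by omega)
  omega

/-- **cc** -/
theorem cc (h : Ok D) (X : List α) (hX : X ∈ XX D) (X2 : List α) (hX2 : X2 ∈ XX D) (v : V) :
    (∃ P Q, X = P ++ Q ∧ LP1 D P v ∧ (R1 D Q).isSome) ∨
    (∃ P Q, X ++ X2 = P ++ Q ∧ P.length < X.length ∧ LP2 D P v ∧ (R2 D Q).isSome) := by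
  classical
  have hz := h.hz
  by_cases hbad : EB D X ∨ D.BadT (X.length - D.p0)
  swap
  · push Not at hbad
    obtain ⟨P, Q, e, _, h1, h2⟩ := comp1 h hX hbad.1 hbad.2 v
    exact Or.inl ⟨P, Q, e, h1, h2⟩
  right
  have hXl := hX.2.1
  have hX2l := hX2.2.1
  have hUw : D.Wo (X ++ X2) := (h.loc _ _ (by omega)).2 hX2.1
  obtain ⟨I, hI, hIk⟩ := h.g2c (X.take D.p0) (by rw [List.length_take]; omega) v
  have hsp := spoiled h (U := X ++ X2) (by rw [List.length_append]; omega) hUw
  obtain ⟨k, hkI, hks⟩ : ∃ k ∈ I, k ∉ (Finset.range D.K).filter (fun k => ∃ k' < D.K, k' ≠ k ∧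
      cand D k' ((X ++ X2).drop (D.c k))) := by
    by_contra hcon
    push Not at hcon
    have := Finset.card_le_card (show I ⊆ _ from fun k hk => hcon k hk)
    omega
  obtain ⟨hk, hl, hr⟩ := hIk k hkI
  have hck := h.cp0 k hk
  have hd : (X ++ X2).drop (D.c k) = X.drop (D.c k) ++ X2 :=
    List.drop_append_of_le_length (by omega)
  have hks' : ¬ ∃ k' < D.K, k' ≠ k ∧ cand D k' ((X ++ X2).drop (D.c k)) := fun hex =>
    hks (Finset.mem_filter.2 ⟨Finset.mem_range.2 hk, hex⟩)
  rw [hd] at hks'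
  have hPl : (X.take (D.c k)).length = D.c k := by rw [List.length_take]; omega
  have hdl : (X.drop (D.c k)).length = X.length - D.c k := List.length_drop
  have hXe : X.take (D.c k) ++ X.drop (D.c k) = X := List.take_append_drop _ _
  -- walls
  have hwX : ∀ y, D.n ≤ y → y ≤ (X.drop (D.c k)).length →
      (D.Wo (X.take (D.c k + y)) ↔ D.Wo ((X.drop (D.c k) ++ X2).take y)) := by
    intro y h1 h2
    have := h.wall (P := X.take (D.c k)) (Q := X.drop (D.c k)) h1 h2
    rw [hXe, hPl] at this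
    rw [this, List.take_append_of_le_length h2]
  have hN : NN D k (X.drop (D.c k) ++ X2) = X.length - D.c k := by
    apply le_antisymm
    · apply NN_le (by omega) (by rw [List.length_append]; omega)
      rw [← hwX _ (by omega) (by omega)]
      have e : D.c k + (X.length - D.c k) = X.length := by omega
      rw [e, List.take_length]
      exact hX.1
    · have hex : Ex D k (X.drop (D.c k) ++ X2) := by
        refine ⟨X.length - D.c k, by omega, by rw [List.length_append]; omega, ?_⟩
        rw [← hwX _ (by omega) (by omega)]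
        have e : D.c k + (X.length - D.c k) = X.length := by omega
        rw [e, List.take_length]
        exact hX.1
      obtain ⟨n1, n2, n3⟩ := NN_spec hex
      by_contra hlt
      rw [← hwX _ (by omega) (by omega)] at n3
      exact hX.2.2 _ (by omega) n1 n3
  have hex : Ex D k (X.drop (D.c k) ++ X2) := by
    refine ⟨X.length - D.c k, by omega, by rw [List.length_append]; omega, ?_⟩
    rw [← hwX _ (by omega) (by omega)]
    have e : D.c k + (X.length - D.c k) = X.length := by omega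
    rw [e, List.take_length]
    exact hX.1
  have hcand : cand D k (X.drop (D.c k) ++ X2) := by
    rcases hbad with ⟨t, t1, t2, t3, t4⟩ | hB
    · left
      obtain ⟨y, rfl⟩ := Nat.exists_eq_add_of_le (show D.c k ≤ t by omega)
      refine ⟨y, by rw [List.length_append]; omega, by omega, by omega, ?_⟩
      rwa [← hwX _ (by omega) (by omega)]
    · right
      rw [hN]
      have e : D.c k + (X.length - D.c k) = X.length := by omega
      rwa [e]
  have hr' : ∃ r, D.rho2 k ((X.take D.p0).drop (D.c k)) = some r := Option.isSome_iff_exists.1 hr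
  obtain ⟨r, hr'⟩ := hr'
  have e5 : (X.drop (D.c k) ++ X2).take (D.p0 - D.c k) = (X.take D.p0).drop (D.c k) := by
    rw [List.take_append_of_le_length (by omega), List.drop_take]
  refine ⟨X.take (D.c k), X.drop (D.c k) ++ X2, by rw [← List.append_assoc, hXe], by omega,
    ⟨k, hk, hPl, ?_⟩, ?_⟩
  · rwa [List.take_take, min_eq_left hck] at hl
  · refine R2_isSome (b := _) ⟨k, hk, hcand, ?_, hex, ?_, r, ?_, rfl⟩
    · intro k' hk' hc'
      by_contra hne
      exact hks' ⟨k', hk', hne, hc'⟩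
    · rw [hN, List.drop_left' hdl]
      exact hX2
    · rw [e5]
      exact hr'

end Crest.Agent.R320.P5_841
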