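import Mathlib

/-!
# Row 320, P5a (helper225): abstract gadgets -> (s1), (s2), (cc) of 163 #13363
left-looking walls, one zone map for both schemes, no comb.
-/

set_option autoImplicit false

namespace Crest.Agent.R320.P5a_225

universe u v w

structure Par (α : Type u) (V : Type v) (S : Type w) where
  φ : List α → S
  act : V → S → V
  Wo : List α → Prop
  n : ℕ
  W : ℕ
  z : ℕ
  p0 : ℕ
  N1 : ℕ
  lam : List α → Option V
  rho : List α → Option V
  nu1 : List α → V
  Bad1 : ℕ → Prop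
  K : ℕ
  c : ℕ → ℕ
  lam2 : List α → Option V
  rho2 : List α → Option V
  nu2 : List α → V
  RB : ℕ

variable {α : Type u} {V : Type v} {S : Type w} [AddCommGroup V] [Monoid S]

open Classical in
/-- the hypotheses -/
structure Par.Ok (p : Par α V S) : Prop where
  φ_app : ∀ u v, p.φ (u ++ v) = p.φ u * p.φ v
  act_mul : ∀ v s s', p.act (p.act v s) s' = p.act v (s * s')
  act_add : ∀ v w s, p.act (v + w) s = p.act v s + p.act w s
  n_pos : 0 < p.n
  loc : ∀ A P, p.n ≤ P.length → (p.Wo (A ++ P) ↔ p.Wo P)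
  wlen : ∀ P, p.Wo P → p.n ≤ P.length
  gap : ∀ P D, p.Wo P → D ≠ [] → D.length ≤ p.W → ¬ p.Wo (P ++ D)
  hz : p.n + 3 * p.p0 + 2 * p.N1 ≤ p.z
  hW : 2 * p.p0 + 2 * p.N1 ≤ p.W
  hc : ∀ k < p.K, p.c k ≤ p.p0
  g1s : ∀ P Q v b, p.lam P = some v → p.rho Q = some b →
    b = p.act v (p.φ (P ++ Q)) + p.nu1 (P ++ Q)
  g1l : ∀ P v, p.lam P = some v → P.length ≤ p.N1
  g1c : ∀ (X : List α) (v : V), p.N1 ≤ X.length → ¬ p.Bad1 X.length →
    ∃ P Q, X = P ++ Q ∧ p.lam P = some v ∧ (p.rho Q).isSome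
  g2l : ∀ P v, p.lam2 P = some v → ∃ k < p.K, P.length = p.c k
  g2s : ∀ P Q v y, P.length + Q.length = p.p0 → p.lam2 P = some v → p.rho2 Q = some y →
    y = p.act v (p.φ (P ++ Q)) + p.nu2 (P ++ Q)
  g2c : ∀ (X : List α) (v : V), X.length = p.p0 → ∃ J : Finset ℕ, 1 + 2 * p.RB < J.card ∧ ∀ k ∈ J, k < p.K ∧
    p.lam2 (X.take (p.c k)) = some v ∧ (p.rho2 (X.drop (p.c k))).isSome
  ruler : ∀ k l k' l', k < p.K → l < p.K → k' < p.K → l' < p.K → k ≠ l → k' ≠ l' →
    p.c k + p.c l' < p.c k' + p.c l + 2 * p.N1 → p.c k' + p.c l < p.c k + p.c l' + 2 * p.N1 →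
    k = k'
  spoil : ∀ T, (((Finset.range p.K ×ˢ Finset.range p.K).filter fun kl =>
    kl.1 ≠ kl.2 ∧ p.Bad1 (T + p.c kl.2 - p.c kl.1)).card) ≤ p.RB

namespace Par

variable (p : Par α V S)

def XX : Set (List α) :=
  {X | p.z ≤ X.length ∧ p.Wo X ∧ ∀ t, t < X.length → p.z ≤ t → ¬ p.Wo (X.take t)}

def T (v : V) (X : List α) : V :=
  p.act (p.act v (p.φ (X.take p.p0)) + p.nu2 (X.take p.p0)) (p.φ (X.drop p.p0)) +
    p.nu1 (X.drop p.p0)

def nu (X : List α) : V :=
  p.act (p.nu2 (X.take p.p0)) (p.φ (X.drop p.p0)) + p.nu1 (X.drop p.p0)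

def LP1 (P : List α) (v : V) : Prop :=
  p.p0 ≤ P.length ∧
    p.lam (P.drop p.p0) = some (p.act v (p.φ (P.take p.p0)) + p.nu2 (P.take p.p0))

open Classical in
noncomputable def R1 (Q : List α) : Option V :=
  if p.Wo Q ∧ p.z ≤ Q.length + p.p0 ∧
    (∀ t, t < Q.length → p.z ≤ t + p.p0 + p.N1 → ¬ p.Wo (Q.take t)) then p.rho Q else none

def Bad (X : List α) : Prop :=
  (∃ t, t ≤ X.length ∧ p.Wo (X.take t) ∧ p.z ≤ t + p.N1 ∧ t < p.z + p.N1) ∨
    p.Bad1 (X.length - p.p0)

def LP2 (P : List α) (v : V) : Prop := p.lam2 P = some v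

def IsE (k : ℕ) (Q : List α) (e : ℕ) : Prop :=
  e ≤ Q.length ∧ p.Wo (Q.take e) ∧ p.z ≤ e + p.c k ∧
    ∀ t, t < e → p.z ≤ t + p.c k → ¬ p.Wo (Q.take t)

def BadC (k : ℕ) (Q : List α) : Prop :=
  ∃ e, p.IsE k Q e ∧ ((∃ t, t ≤ e ∧ p.Wo (Q.take t) ∧ p.z ≤ t + p.c k + p.N1 ∧
    t + p.c k < p.z + p.N1) ∨ p.Bad1 (e + p.c k - p.p0))

def R2rel (Q : List α) (b : V) : Prop :=
  ∃ k e y, k < p.K ∧ p.IsE k Q e ∧ (∀ l < p.K, p.BadC l Q → l = k) ∧
    (∀ l < p.K, ∃ e', p.IsE l Q e') ∧ Q.drop e ∈ p.XX ∧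
    p.rho2 (Q.take (p.p0 - p.c k)) = some y ∧
    b = p.T (p.act y (p.φ ((Q.take e).drop (p.p0 - p.c k))) +
      p.nu1 ((Q.take e).drop (p.p0 - p.c k))) (Q.drop e)

open Classical in
noncomputable def R2 (Q : List α) : Option V :=
  if h : ∃ b, p.R2rel Q b then some (Classical.choose h) else none

theorem R2_some {Q : List α} {b : V} (h : p.R2 Q = some b) : p.R2rel Q b := by
  unfold R2 at h
  split at h
  · rename_i h'
    have := Classical.choose_spec h'
    simp only [Option.some.injEq] at h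
    rwa [h] at this
  · simp at h

theorem R2_isSome {Q : List α} {b : V} (h : p.R2rel Q b) : (p.R2 Q).isSome := by
  unfold R2
  rw [dif_pos ⟨b, h⟩]
  rfl

theorem take_app (P Q : List α) (t : ℕ) : (P ++ Q).take (P.length + t) = P ++ Q.take t := by
  rw [List.take_append, List.take_of_length_le (by omega)]
  congr 2
  omega

theorem drop_app (P Q : List α) (t : ℕ) : (P ++ Q).drop (P.length + t) = Q.drop t := by
  rw [List.drop_append, List.drop_of_length_le (by omega)]
  simp

theorem take_app' {P Q : List α} {t : ℕ} (h : P.length ≤ t) :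
    (P ++ Q).take t = P ++ Q.take (t - P.length) := by
  have := take_app P Q (t - P.length)
  rwa [Nat.add_sub_cancel' h] at this

theorem drop_app' {P Q : List α} {t : ℕ} (h : P.length ≤ t) :
    (P ++ Q).drop t = Q.drop (t - P.length) := by
  have := drop_app P Q (t - P.length)
  rwa [Nat.add_sub_cancel' h] at this

variable {p} (h : p.Ok)
include h

theorem nil_notMem : ([] : List α) ∉ p.XX := by
  rintro ⟨h1, -, -⟩
  have := h.hz
  have := h.n_pos
  simp at h1
  omega

theorem prefix_code (X : List α) (hX : X ∈ p.XX) (Y : List α) (hXY : X ++ Y ∈ p.XX) : Y = [] := by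
  by_contra hY
  have hl : 0 < Y.length := List.length_pos_of_ne_nil hY
  refine hXY.2.2 X.length (by rw [List.length_append]; omega) hX.1 ?_
  rw [List.take_left']
  · exact hX.2.1
  · rfl

theorem hT (v : V) (X : List α) (hX : X ∈ p.XX) : p.T v X = p.act v (p.φ X) + p.nu X := by
  unfold T nu
  rw [h.act_add, h.act_mul, ← h.φ_app, List.take_append_drop, add_assoc]

/-- wall at place `t` of `P ++ Q`, seen from `Q` -/
theorem wall_app {P Q : List α} {t : ℕ} (ht : P.length + p.n ≤ t) (ht' : t ≤ P.length + Q.length) :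
    p.Wo ((P ++ Q).take t) ↔ p.Wo (Q.take (t - P.length)) := by
  rw [take_app' (by omega)]
  apply h.loc
  rw [List.length_take]
  omega

theorem R1_some {Q : List α} {b : V} (hQ : p.R1 Q = some b) :
    p.Wo Q ∧ p.z ≤ Q.length + p.p0 ∧
    (∀ t, t < Q.length → p.z ≤ t + p.p0 + p.N1 → ¬ p.Wo (Q.take t)) ∧ p.rho Q = some b := by
  unfold R1 at hQ
  split at hQ
  · rename_i h'
    exact ⟨h'.1, h'.2.1, h'.2.2, hQ⟩
  · simp at hQ

theorem hR1 (Q : List α) (b : V) (hQ : p.R1 Q = some b) : Q ≠ [] := by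
  rintro rfl
  have := h.wlen _ (R1_some h hQ).1
  have := h.n_pos
  simp at *
  omega

theorem hR2 (Q : List α) (b : V) (hQ : p.R2 Q = some b) : Q ≠ [] := by
  rintro rfl
  obtain ⟨k, e, y, -, -, -, -, hX, -, -⟩ := p.R2_some hQ
  simp only [List.drop_nil] at hX
  exact nil_notMem h hX

theorem s1 (P : List α) (v : V) (Q : List α) (b : V) (hP : p.LP1 P v) (hQ : p.R1 Q = some b) :
    P ++ Q ∈ p.XX ∧ p.T v (P ++ Q) = b := by
  obtain ⟨q1, q2, q3, q4⟩ := R1_some h hQ
  obtain ⟨hp, hl⟩ := hP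
  have hlen := h.g1l _ _ hl
  rw [List.length_drop] at hlen
  have hz := h.hz
  have hn := h.wlen _ q1
  refine ⟨⟨?_, (h.loc _ _ hn).2 q1, ?_⟩, ?_⟩
  · rw [List.length_append]; omega
  · intro t ht hzt
    rw [List.length_append] at ht
    rw [wall_app h (by omega) (by omega)]
    exact q3 _ (by omega) (by omega)
  · unfold T
    have e1 : (P ++ Q).take p.p0 = P.take p.p0 := List.take_append_of_le_length hp
    have e2 : (P ++ Q).drop p.p0 = P.drop p.p0 ++ Q := List.drop_append_of_le_length hp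
    rw [e1, e2]
    exact (h.g1s _ _ _ _ hl q4).symm

theorem compl1 (X : List α) (hX : X ∈ p.XX) (hB : ¬ p.Bad X) (v : V) :
    ∃ P Q, X = P ++ Q ∧ p.LP1 P v ∧ (p.R1 Q).isSome := by
  have hz := h.hz
  have hXl := hX.1
  have hB1 : ¬ p.Bad1 (X.length - p.p0) := fun h' => hB (Or.inr h')
  have hB2 : ∀ t, t ≤ X.length → p.Wo (X.take t) → p.z ≤ t + p.N1 → p.z + p.N1 ≤ t := by
    intro t h1 h2 h3
    by_contra h4
    exact hB (Or.inl ⟨t, h1, h2, h3, by omega⟩)
  obtain ⟨P', Q, hPQ, hl, hr⟩ := h.g1c (X.drop p.p0)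
    (p.act v (p.φ (X.take p.p0)) + p.nu2 (X.take p.p0))
    (by rw [List.length_drop]; omega) (by rw [List.length_drop]; exact hB1)
  have hPl := h.g1l _ _ hl
  have htl : (X.take p.p0).length = p.p0 := by rw [List.length_take]; omega
  have hXe : X = (X.take p.p0 ++ P') ++ Q := by
    rw [List.append_assoc, ← hPQ, List.take_append_drop]
  have hlen : X.length = p.p0 + P'.length + Q.length := by
    have := congrArg List.length hXe
    rw [List.length_append, List.length_append, htl] at this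
    exact this
  refine ⟨X.take p.p0 ++ P', Q, hXe, ⟨by rw [List.length_append]; omega, ?_⟩, ?_⟩
  · rw [List.drop_left' htl, List.take_left' htl]
    exact hl
  · have hbig : p.z + p.N1 ≤ X.length := by
      apply hB2 _ le_rfl
      · rw [List.take_length]; exact hX.2.1
      · omega
    have hW : p.Wo Q := by
      have := hX.2.1
      rw [hXe] at this
      exact (h.loc _ _ (by omega)).1 this
    unfold R1
    rw [if_pos]
    · exact hr
    · refine ⟨hW, by omega, fun t ht hzt hwt => ?_⟩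
      have hw : p.Wo (X.take (p.p0 + P'.length + t)) := by
        rw [hXe, wall_app h]
        · rw [List.length_append, htl]
          convert hwt using 2
          omega
        · rw [List.length_append, htl]; omega
        · rw [List.length_append, htl]; omega
      by_cases h1 : p.z ≤ p.p0 + P'.length + t
      · exact hX.2.2 _ (by omega) h1 hw
      · have := hB2 _ (by omega) hw (by omega)
        omega

theorem isE_unique {k : ℕ} {Q : List α} {e e' : ℕ} (h1 : p.IsE k Q e) (h2 : p.IsE k Q e') :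
    e = e' := by
  rcases lt_trichotomy e e' with hlt | heq | hgt
  · exact absurd h1.2.1 (h2.2.2.2 e hlt h1.2.2.1)
  · exact heq
  · exact absurd h2.2.1 (h1.2.2.2 e' hgt h2.2.2.1)

/-- the block seen by the candidate `j` is the true block -/
theorem block_of_isE {P Q : List α} {j e : ℕ} (hj : j < p.K) (hP : P.length = p.c j)
    (hE : p.IsE j Q e) : P ++ Q.take e ∈ p.XX := by
  have hz := h.hz
  have hc := h.hc j hj
  obtain ⟨h1, h2, h3, h4⟩ := hE
  have hle : (Q.take e).length = e := by rw [List.length_take]; omega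
  have hn := h.wlen _ h2
  refine ⟨by rw [List.length_append, hle]; omega, (h.loc _ _ hn).2 h2, ?_⟩
  intro t ht hzt
  rw [List.length_append, hle] at ht
  rw [wall_app h (by omega) (by omega), List.take_take, min_eq_left (by omega)]
  exact h4 _ (by omega) (by omega)

theorem badC_of_bad {P Q : List α} {j e : ℕ} (hj : j < p.K) (hP : P.length = p.c j)
    (hE : p.IsE j Q e) (hB : p.Bad (P ++ Q.take e)) : p.BadC j Q := by
  have hz := h.hz
  have hc := h.hc j hj
  refine ⟨e, hE, ?_⟩
  obtain ⟨h1, h2, h3, h4⟩ := hE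
  have hle : (Q.take e).length = e := by rw [List.length_take]; omega
  rcases hB with ⟨t, t1, t2, t3, t4⟩ | hB
  · left
    rw [List.length_append, hle] at t1
    rw [wall_app h (by omega) (by omega), List.take_take, min_eq_left (by omega)] at t2
    exact ⟨t - P.length, by omega, t2, by omega, by omega⟩
  · right
    rw [List.length_append, hle, hP] at hB
    rwa [add_comm e]

theorem s2 (P : List α) (v : V) (Q : List α) (b : V) (hP : p.LP2 P v) (hQ : p.R2 Q = some b)
    (hlive : ∀ X ∈ p.XX, X <+: P ++ Q → ∀ P' Q', X = P' ++ Q' → P.length ≤ P'.length →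
      p.LP1 P' v → (p.R1 Q').isSome → False) :
    ∃ Q1 X2, Q = Q1 ++ X2 ∧ Q1 ≠ [] ∧ P ++ Q1 ∈ p.XX ∧ X2 ∈ p.XX ∧
      p.T (p.T v (P ++ Q1)) X2 = b := by
  have hz := h.hz
  obtain ⟨k, e, y, hk, hE, huni, hex, hX2, hrho, hb⟩ := p.R2_some hQ
  obtain ⟨j, hj, hPj⟩ := h.g2l _ _ hP
  obtain ⟨e', hE'⟩ := hex j hj
  have hX := block_of_isE h hj hPj hE'
  have hcj := h.hc j hj
  have hBad : p.Bad (P ++ Q.take e') := by
    by_contra hB
    obtain ⟨P', Q', h1, h2, h3⟩ := compl1 h _ hX hB v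
    refine hlive _ hX ?_ P' Q' h1 ?_ h2 h3
    · exact (List.prefix_append_right_inj P).2 (List.take_prefix _ _)
    · have := h2.1; omega
  have hjk : j = k := huni j hj (badC_of_bad h hj hPj hE' hBad)
  subst hjk
  have hee : e' = e := isE_unique h hE' hE
  subst hee
  refine ⟨Q.take e', Q.drop e', (List.take_append_drop _ _).symm, ?_, hX, hX2, ?_⟩
  · intro h0
    have h1 := h.wlen _ hE.2.1
    have := h.n_pos
    rw [h0] at h1
    simp at h1
    omega
  · rw [hb]
    congr 1
    unfold T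
    have h1 := hE.1
    have h2 := hE.2.2.1
    have e1 : (P ++ Q.take e').take p.p0 = P ++ Q.take (p.p0 - p.c j) := by
      rw [take_app' (by omega), List.take_take, min_eq_left (by omega), hPj]
    have e2 : (P ++ Q.take e').drop p.p0 = (Q.take e').drop (p.p0 - p.c j) := by
      rw [drop_app' (by omega), hPj]
    rw [e1, e2]
    have := h.g2s P (Q.take (p.p0 - p.c j)) v y (by rw [List.length_take]; omega) hP hrho
    rw [← this]

omit [AddCommGroup V] [Monoid S] h in
theorem exists_isE {l : ℕ} {Q : List α} (hw : p.Wo Q) (hl : p.z ≤ Q.length + p.c l) :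
    ∃ e, p.IsE l Q e := by
  classical
  have hex : ∃ e, e ≤ Q.length ∧ p.Wo (Q.take e) ∧ p.z ≤ e + p.c l :=
    ⟨Q.length, le_rfl, by rwa [List.take_length], hl⟩
  have hs := Nat.find_spec hex
  refine ⟨Nat.find hex, hs.1, hs.2.1, hs.2.2, fun t ht hzt hwt => ?_⟩
  exact Nat.find_min hex ht ⟨by omega, hwt, hzt⟩

theorem wgap {Z : List α} {s t : ℕ} (ht : t ≤ Z.length) (hs : p.Wo (Z.take s))
    (ht' : p.Wo (Z.take t)) (hst : s < t) : s + p.W < t := by
  by_contra hcon
  have e1 : Z.take t = Z.take s ++ (Z.drop s).take (t - s) := by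
    rw [← List.take_add, Nat.add_sub_cancel' hst.le]
  have hl : ((Z.drop s).take (t - s)).length = t - s := by
    rw [List.length_take, List.length_drop]; omega
  rw [e1] at ht'
  refine h.gap _ _ hs ?_ (by omega) ht'
  intro h0
  rw [h0] at hl
  simp at hl
  omega

theorem wall_drop {Z : List α} {k t : ℕ} (hk : p.c k ≤ Z.length) (hn : p.n ≤ t)
    (ht : t + p.c k ≤ Z.length) :
    p.Wo ((Z.drop (p.c k)).take t) ↔ p.Wo (Z.take (t + p.c k)) := by
  rw [add_comm t, List.take_add]
  refine (h.loc _ _ ?_).symm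
  rw [List.length_take, List.length_drop]
  omega

theorem abs {Z : List α} {k l : ℕ} (hk : k < p.K) (hl : l < p.K) (hZ : p.p0 ≤ Z.length)
    (hB : p.BadC l (Z.drop (p.c k))) :
    ∃ m, m ≤ Z.length ∧ p.Wo (Z.take m) ∧ p.z + p.c k ≤ m + p.c l ∧
      (∀ t, t ≤ Z.length → p.Wo (Z.take t) → p.z + p.c k ≤ t + p.c l → m ≤ t) ∧
      ((∃ t, t ≤ Z.length ∧ p.Wo (Z.take t) ∧ p.z + p.c k ≤ t + p.c l + p.N1 ∧
        t + p.c l < p.z + p.c k + p.N1) ∨ p.Bad1 ((m - p.p0) + p.c l - p.c k)) := by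
  have hz := h.hz
  have hck := h.hc k hk
  have hcl := h.hc l hl
  obtain ⟨e, ⟨h1, h2, h3, h4⟩, h5⟩ := hB
  rw [List.length_drop] at h1
  have hn := h.wlen _ h2
  rw [List.length_take, List.length_drop] at hn
  refine ⟨e + p.c k, by omega, (wall_drop h (by omega) (by omega) (by omega)).1 h2, by omega,
    ?_, ?_⟩
  · intro t ht hwt hzt
    by_contra hcon
    refine h4 (t - p.c k) (by omega) (by omega) ?_
    rw [wall_drop h (by omega) (by omega) (by omega), Nat.sub_add_cancel (by omega)]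
    exact hwt
  · rcases h5 with ⟨t, t1, t2, t3, t4⟩ | h5
    · left
      exact ⟨t + p.c k, by omega, (wall_drop h (by omega) (by omega) (by omega)).1 t2, by omega,
        by omega⟩
    · right
      convert h5 using 1
      omega

open Classical in
theorem spoiled_card {Z : List α} (hZ : 2 * p.z ≤ Z.length) (hw : p.Wo Z) :
    ((Finset.range p.K).filter fun k => ∃ l < p.K, l ≠ k ∧ p.BadC l (Z.drop (p.c k))).card
      ≤ 1 + 2 * p.RB := by
  have hz := h.hz
  have hW := h.hW
  have hex : ∃ t, t ≤ Z.length ∧ p.Wo (Z.take t) ∧ p.z + p.p0 ≤ t :=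
    ⟨Z.length, le_rfl, by rwa [List.take_length], by omega⟩
  set w1 := Nat.find hex with hw1
  have hs1 := Nat.find_spec hex
  rw [← hw1] at hs1
  obtain ⟨w0, hw0⟩ : ∃ w0, ∀ m, m ≤ Z.length → p.Wo (Z.take m) → p.z ≤ m + p.p0 →
      m < p.z + p.p0 → m = w0 := by
    by_cases h0 : ∃ t, t ≤ Z.length ∧ p.Wo (Z.take t) ∧ p.z ≤ t + p.p0 ∧ t < p.z + p.p0
    · obtain ⟨t, t1, t2, t3, t4⟩ := h0
      refine ⟨t, fun m m1 m2 m3 m4 => ?_⟩
      rcases lt_trichotomy m t with hlt | heq | hgt
      · have := wgap h t1 m2 t2 hlt; omega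
      · exact heq
      · have := wgap h m1 t2 m2 hgt; omega
    · exact ⟨0, fun m m1 m2 m3 m4 => (h0 ⟨m, m1, m2, m3, m4⟩).elim⟩
  let EV : ℕ → Prop := fun k => ∃ l < p.K, l ≠ k ∧ ∃ t, t ≤ Z.length ∧ p.Wo (Z.take t) ∧
    p.z + p.c k ≤ t + p.c l + p.N1 ∧ t + p.c l < p.z + p.c k + p.N1
  let A : ℕ → Finset (ℕ × ℕ) := fun T =>
    (Finset.range p.K ×ˢ Finset.range p.K).filter fun kl =>
      kl.1 ≠ kl.2 ∧ p.Bad1 (T + p.c kl.2 - p.c kl.1)
  have hsub : ((Finset.range p.K).filter fun k => ∃ l < p.K, l ≠ k ∧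
      p.BadC l (Z.drop (p.c k))) ⊆ ((Finset.range p.K).filter EV) ∪
        ((A (w0 - p.p0)).image Prod.fst ∪ (A (w1 - p.p0)).image Prod.fst) := by
    intro k hk
    rw [Finset.mem_filter, Finset.mem_range] at hk
    obtain ⟨hk, l, hl, hlk, hB⟩ := hk
    have hck := h.hc k hk
    have hcl := h.hc l hl
    obtain ⟨m, m1, m2, m3, m4, m5⟩ := abs h hk hl (by omega) hB
    rw [Finset.mem_union, Finset.mem_union]
    rcases m5 with m5 | m5
    · left
      rw [Finset.mem_filter, Finset.mem_range]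
      exact ⟨hk, l, hl, hlk, m5⟩
    · right
      have hm : m = w0 ∨ m = w1 := by
        by_cases hlt : m < p.z + p.p0
        · left; exact hw0 m m1 m2 (by omega) hlt
        · right
          apply le_antisymm
          · exact m4 w1 hs1.1 hs1.2.1 (by omega)
          · exact Nat.find_min' hex ⟨m1, m2, by omega⟩
      rcases hm with rfl | rfl
      · left
        rw [Finset.mem_image]
        refine ⟨(k, l), ?_, rfl⟩
        rw [Finset.mem_filter, Finset.mem_product, Finset.mem_range, Finset.mem_range]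
        exact ⟨⟨hk, hl⟩, hlk.symm, m5⟩
      · right
        rw [Finset.mem_image]
        refine ⟨(k, l), ?_, rfl⟩
        rw [Finset.mem_filter, Finset.mem_product, Finset.mem_range, Finset.mem_range]
        exact ⟨⟨hk, hl⟩, hlk.symm, m5⟩
  have hE1 : ((Finset.range p.K).filter EV).card ≤ 1 := by
    rw [Finset.card_le_one]
    intro k hk k' hk'
    rw [Finset.mem_filter, Finset.mem_range] at hk hk'
    obtain ⟨hk, l, hl, hlk, t, t1, t2, t3, t4⟩ := hk
    obtain ⟨hk', l', hl', hlk', t', t1', t2', t3', t4'⟩ := hk'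
    have c1 := h.hc k hk
    have c2 := h.hc l hl
    have c3 := h.hc k' hk'
    have c4 := h.hc l' hl'
    have htt : t = t' := by
      rcases lt_trichotomy t t' with hlt | heq | hgt
      · have := wgap h t1' t2 t2' hlt; omega
      · exact heq
      · have := wgap h t1 t2' t2 hgt; omega
    subst htt
    exact h.ruler k l k' l' hk hl hk' hl' hlk.symm hlk'.symm (by omega) (by omega)
  have hA : ∀ T, ((A T).image Prod.fst).card ≤ p.RB := fun T =>
    (Finset.card_image_le).trans (h.spoil T)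
  calc _ ≤ _ := Finset.card_le_card hsub
    _ ≤ _ := Finset.card_union_le _ _
    _ ≤ 1 + (p.RB + p.RB) := by
        refine Nat.add_le_add hE1 ((Finset.card_union_le _ _).trans ?_)
        exact Nat.add_le_add (hA _) (hA _)
    _ = _ := by ring

theorem cc (X : List α) (hX : X ∈ p.XX) (X2 : List α) (hX2 : X2 ∈ p.XX) (v : V) :
    (∃ P Q, X = P ++ Q ∧ p.LP1 P v ∧ (p.R1 Q).isSome) ∨
    (∃ P Q, X ++ X2 = P ++ Q ∧ P.length < X.length ∧ p.LP2 P v ∧ (p.R2 Q).isSome) := by
  classical
  by_cases hB : p.Bad X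
  swap
  · exact Or.inl (compl1 h X hX hB v)
  right
  have hz := h.hz
  have hn0 := h.n_pos
  have hXl := hX.1
  have hXl2 := hX2.1
  have hwZ : p.Wo (X ++ X2) := (h.loc _ _ (by omega)).2 hX2.2.1
  obtain ⟨J, hJ, hJ2⟩ := h.g2c (X.take p.p0) v (by rw [List.length_take]; omega)
  have hsp := spoiled_card h (Z := X ++ X2) (by rw [List.length_append]; omega) hwZ
  obtain ⟨k, hkJ, hks⟩ := Finset.exists_mem_notMem_of_card_lt_card (lt_of_le_of_lt hsp hJ)
  obtain ⟨hk, hlam, hrho⟩ := hJ2 k hkJ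
  rw [Finset.mem_filter, Finset.mem_range] at hks
  have huni : ∀ l < p.K, p.BadC l ((X ++ X2).drop (p.c k)) → l = k := by
    intro l hl hb
    by_contra hlk
    exact hks ⟨hk, l, hl, hlk, hb⟩
  have hck := h.hc k hk
  have hPl : (X.take (p.c k)).length = p.c k := by rw [List.length_take]; omega
  have hQ : (X ++ X2).drop (p.c k) = X.drop (p.c k) ++ X2 := by
    rw [List.drop_append_of_le_length (by omega)]
  rw [hQ] at huni
  have hdl : (X.drop (p.c k)).length = X.length - p.c k := List.length_drop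
  have hspl : X = X.take (p.c k) ++ X.drop (p.c k) := (List.take_append_drop _ _).symm
  refine ⟨X.take (p.c k), X.drop (p.c k) ++ X2, ?_, by omega, ?_, ?_⟩
  · rw [← List.append_assoc, List.take_append_drop]
  · unfold LP2
    rw [← hlam, List.take_take, min_eq_left hck]
  · obtain ⟨y, hy⟩ := Option.isSome_iff_exists.1 hrho
    have hte : (X.drop (p.c k) ++ X2).take (X.length - p.c k) = X.drop (p.c k) :=
      List.take_left' hdl
    have hde : (X.drop (p.c k) ++ X2).drop (X.length - p.c k) = X2 :=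
      List.drop_left' hdl
    refine p.R2_isSome (b := _) ⟨k, X.length - p.c k, y, hk, ⟨?_, ?_, ?_, ?_⟩, huni, ?_, ?_, ?_,
      rfl⟩
    · rw [List.length_append, hdl]; omega
    · rw [hte]
      have := hX.2.1
      rw [hspl] at this
      exact (h.loc _ _ (by omega)).1 this
    · omega
    · intro t ht hzt hwt
      rw [List.take_append_of_le_length (by omega)] at hwt
      rw [wall_drop h (by omega) (by omega) (by omega)] at hwt
      exact hX.2.2 _ (by omega) (by omega) hwt
    · intro l hl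
      have hcl := h.hc l hl
      refine exists_isE ((h.loc _ _ (by omega)).2 hX2.2.1) ?_
      rw [List.length_append, hdl]; omega
    · rw [hde]; exact hX2
    · rw [List.take_append_of_le_length (by omega), ← hy]
      congr 1
      rw [List.drop_take]

end Par

end Crest.Agent.R320.P5a_225
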