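import Crest.Agent.R320.P3_416
import Crest.Agent.R320.WallU_228

/-!
Row 320, P5 (helper699), part a: the natural block code `XX`, scheme 1 with semantic right labels,
completeness of scheme 1 off the bad blocks.
-/

set_option autoImplicit false

namespace Crest.Agent.R320.P5_699

open Crest.Agent.R320.ExactR_237 Crest.Agent.R320.WallU_228

variable {A S V : Type}

/-- the block code: first wall at distance at least `z` -/
def XX (n : ℕ) (Sw : Set (List A)) (z : ℕ) : Set (List A) :=
  {X | z ≤ X.length ∧ Wo n Sw X ∧ ∀ t, z ≤ t → t < X.length → ¬ Wo n Sw (X.take t)}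

/-- the bad blocks -/
def BadX (n : ℕ) (Sw : Set (List A)) (z N p0 : ℕ) (BadT : ℕ → Prop) : Set (List A) :=
  {X | (∃ t, t ≤ X.length ∧ z ≤ t + N ∧ t < z + N ∧ Wo n Sw (X.take t)) ∨ BadT (X.length - p0)}

/-- change of a prefix -/
theorem wo_shift {n : ℕ} {Sw : Set (List A)} (P P' Q : List A) (t : ℕ) (ht : P.length + n ≤ t)
    (htQ : t ≤ P.length + Q.length) :
    Wo n Sw ((P ++ Q).take t) ↔ Wo n Sw ((P' ++ Q).take (P'.length + (t - P.length))) := by
  have e1 : (P ++ Q).take t = P ++ Q.take (t - P.length) := by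
    rw [List.take_append, List.take_of_length_le (by omega)]
  have e2 : (P' ++ Q).take (P'.length + (t - P.length)) = P' ++ Q.take (t - P.length) := by
    rw [List.take_append, List.take_of_length_le (by omega)]
    congr 2
    omega
  have hl : n ≤ (Q.take (t - P.length)).length := by rw [List.length_take]; omega
  rw [e1, e2, wo_append _ _ hl, wo_append _ _ hl]

theorem XX_prefix {n z p0 : ℕ} {Sw : Set (List A)} (hz : p0 + n ≤ z) (P P' Q : List A)
    (hP : P.length ≤ p0) (hP' : P'.length = P.length) (h : P ++ Q ∈ XX n Sw z) :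
    P' ++ Q ∈ XX n Sw z := by
  obtain ⟨h1, h2, h3⟩ := h
  rw [List.length_append] at h1
  have key : ∀ t, z ≤ t → t ≤ P.length + Q.length →
      (Wo n Sw ((P ++ Q).take t) ↔ Wo n Sw ((P' ++ Q).take t)) := by
    intro t ht ht2
    have := wo_shift (n := n) (Sw := Sw) P P' Q t (by omega) ht2
    rwa [show P'.length + (t - P.length) = t by omega] at this
  refine ⟨by rw [List.length_append]; omega, ?_, ?_⟩
  · have := (key (P.length + Q.length) (by omega) le_rfl)
    rw [List.take_of_length_le (by rw [List.length_append]),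
      List.take_of_length_le (by rw [List.length_append]; omega)] at this
    exact this.1 h2
  · intro t ht ht2 hw
    rw [List.length_append] at ht2
    exact h3 t ht (by rw [List.length_append]; omega) ((key t ht (by omega)).2 hw)

theorem Bad_prefix {n z p0 N : ℕ} {Sw : Set (List A)} {BadT : ℕ → Prop} (hz : p0 + n + N ≤ z)
    (P P' Q : List A)
    (hP : P.length ≤ p0) (hP' : P'.length = P.length) (h : P ++ Q ∈ BadX n Sw z N p0 BadT) :
    P' ++ Q ∈ BadX n Sw z N p0 BadT := by
  rcases h with ⟨t, h1, h2, h3, h4⟩ | h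
  · left
    rw [List.length_append] at h1
    refine ⟨t, by rw [List.length_append]; omega, h2, h3, ?_⟩
    have := wo_shift (n := n) (Sw := Sw) P P' Q t (by omega) h1
    rw [show P'.length + (t - P.length) = t by omega] at this
    exact this.1 h4
  · right
    rw [List.length_append] at h ⊢
    rwa [hP']

/-- XX is a prefix code -/
theorem XX_code {n z : ℕ} {Sw : Set (List A)} (X : List A) (hX : X ∈ XX n Sw z) (Y : List A)
    (hY : Y ∈ XX n Sw z) (h : X <+: Y) : X = Y := by
  obtain ⟨R, rfl⟩ := h
  by_contra hne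
  have hR : R ≠ [] := by rintro rfl; simp at hne
  have hR' : 0 < R.length := List.length_pos_of_ne_nil hR
  refine hY.2.2 X.length hX.1 (by rw [List.length_append]; omega) ?_
  rw [List.take_left]
  exact hX.2.1

section scheme1

variable [Monoid S] [AddCommGroup V]
variable (f : A → S) (act : V → S → V) (n : ℕ) (Sw : Set (List A)) (z N p0 : ℕ)
  (nu2 nu1 : List A → V) (lam : List A → Option V)

/-- left-legal words of scheme 1 -/
def LP1 (P : List A) (v : V) : Prop :=
  p0 ≤ P.length ∧ lam (P.drop p0) = some (act v (pr f (P.take p0)) + nu2 (P.take p0))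

/-- semantic right labels of scheme 1 -/
def Good1 (Q : List A) (b : V) : Prop :=
  Q ≠ [] ∧ (∃ P v, LP1 f act p0 nu2 lam P v) ∧ ∀ P v, LP1 f act p0 nu2 lam P v →
    P ++ Q ∈ XX n Sw z ∧ P3_416.T f act p0 nu2 nu1 v (P ++ Q) = b

theorem Good1.uniq {Q : List A} {b b' : V} (h : Good1 f act n Sw z p0 nu2 nu1 lam Q b)
    (h' : Good1 f act n Sw z p0 nu2 nu1 lam Q b') : b = b' := by
  obtain ⟨_, ⟨P, v, hP⟩, h1⟩ := h
  rw [← (h1 P v hP).2, (h'.2.2 P v hP).2]

theorem cut1 (rho : List A → Option V) (BadT : ℕ → Prop) (hz : p0 + 2 * N + n + 1 ≤ z)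
    (hlam : ∀ P v, lam P = some v → P.length ≤ N)
    (hsound : ∀ P Q v b, lam P = some v → rho Q = some b →
      b = act v (pr f (P ++ Q)) + nu1 (P ++ Q))
    (hcompl : ∀ u : List A, 2 * N ≤ u.length → ¬ BadT u.length → ∀ v, ∃ P Q, P ++ Q = u ∧
      lam P = some v ∧ (rho Q).isSome)
    (X : List A) (hX : X ∈ XX n Sw z) (hB : X ∉ BadX n Sw z N p0 BadT) (v : V) :
    ∃ P Q b, X = P ++ Q ∧ LP1 f act p0 nu2 lam P v ∧ Good1 f act n Sw z p0 nu2 nu1 lam Q b := by
  obtain ⟨h1, h2, h3⟩ := hX
  have hBT : ¬ BadT (X.length - p0) := fun h => hB (Or.inr h)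
  have hBE : ∀ t, t ≤ X.length → z ≤ t + N → t < z + N → ¬ Wo n Sw (X.take t) :=
    fun t ht1 ht2 ht3 ht4 => hB (Or.inl ⟨t, ht1, ht2, ht3, ht4⟩)
  have hlen : z + N ≤ X.length := by
    by_contra hcon
    refine hBE X.length le_rfl (by omega) (by omega) ?_
    rw [List.take_length]; exact h2
  obtain ⟨P', Q', hPQ, hl, hr⟩ := hcompl (X.drop p0) (by rw [List.length_drop]; omega)
    (by rw [List.length_drop]; exact hBT) (act v (pr f (X.take p0)) + nu2 (X.take p0))
  have hX0 : (X.take p0).length = p0 := by rw [List.length_take]; omega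
  have hP'N := hlam _ _ hl
  have hXe : X = (X.take p0 ++ P') ++ Q' := by
    rw [List.append_assoc, hPQ, List.take_append_drop]
  obtain ⟨b, hb⟩ := Option.isSome_iff_exists.1 hr
  have hlenX : X.length = p0 + P'.length + Q'.length := by
    have := congrArg List.length hXe
    rw [List.length_append, List.length_append, hX0] at this
    exact this
  have hLP : LP1 f act p0 nu2 lam (X.take p0 ++ P') v := by
    refine ⟨by rw [List.length_append]; omega, ?_⟩
    rw [List.drop_append_of_le_length (by omega), List.drop_of_length_le (by omega),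
      List.nil_append, List.take_append_of_le_length (by omega), List.take_of_length_le (by omega)]
    exact hl
  refine ⟨X.take p0 ++ P', Q', b, hXe, hLP, ?_, ⟨_, _, hLP⟩, ?_⟩
  · rintro rfl
    simp only [List.length_nil] at hlenX
    omega
  · intro P'' v'' hP''
    obtain ⟨hp1, hp2⟩ := hP''
    have hp3 := hlam _ _ hp2
    rw [List.length_drop] at hp3
    have key : ∀ t, z ≤ t → t ≤ P''.length + Q'.length →
        (Wo n Sw ((P'' ++ Q').take t) ↔ Wo n Sw (X.take (p0 + P'.length + (t - P''.length)))) := by
      intro t ht1 ht2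
      have := wo_shift (n := n) (Sw := Sw) P'' (X.take p0 ++ P') Q' t (by omega) ht2
      rw [this, ← hXe, List.length_append, hX0]
    refine ⟨⟨?_, ?_, ?_⟩, ?_⟩
    · rw [List.length_append]; omega
    · have := key (P''.length + Q'.length) (by omega) le_rfl
      rw [List.take_of_length_le (by rw [List.length_append]),
        List.take_of_length_le (by omega)] at this
      exact this.2 h2
    · intro t ht1 ht2 hw
      rw [List.length_append] at ht2
      have hw' := (key t ht1 (by omega)).1 hw
      by_cases hc : z ≤ p0 + P'.length + (t - P''.length)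
      · exact h3 _ hc (by omega) hw'
      · exact hBE _ (by omega) (by omega) (by omega) hw'
    · have e1 : (P'' ++ Q').take p0 = P''.take p0 := by
        rw [List.take_append_of_le_length (by omega)]
      have e2 : (P'' ++ Q').drop p0 = P''.drop p0 ++ Q' := by
        rw [List.drop_append_of_le_length (by omega)]
      unfold P3_416.T
      rw [e1, e2]
      exact (hsound _ _ _ _ hp2 hb).symm

end scheme1

end Crest.Agent.R320.P5_699
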