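import Crest.Agent.R320.Exact_808

/-!
# Row 320, P5b (helper225): the exact gadget on a ruler (fields g2l, g2s, g2c of P5a_225.Par.Ok)
-/

set_option autoImplicit false

namespace Crest.Agent.R320.P5b_225

open Crest.Agent.R320

theorem exact_inst (S V : Type*) [Monoid S] [Finite S] [AddCommGroup V] [Finite V] :
    ∃ q : ℕ, 0 < q ∧ ∀ (R : ℕ) (c : ℕ → ℕ), StrictMono c →
      ∀ (α : Type*) (φ : List α → S), (∀ u v, φ (u ++ v) = φ u * φ v) → ∀ act : V → S → V,
      ∃ (lam2 rho2 : List α → Option V) (nu2 : List α → V),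
        (∀ P v, lam2 P = some v → ∃ k < q * (R + 1), P.length = c k) ∧
        (∀ P Q v y, P.length + Q.length = c (q * (R + 1)) → lam2 P = some v → rho2 Q = some y →
          y = act v (φ (P ++ Q)) + nu2 (P ++ Q)) ∧
        ∀ (X : List α) (v : V), X.length = c (q * (R + 1)) → ∃ J : Finset ℕ, R < J.card ∧
          ∀ k ∈ J, k < q * (R + 1) ∧ lam2 (X.take (c k)) = some v ∧
            (rho2 (X.drop (c k))).isSome := by
  classical
  obtain ⟨m, kk, H⟩ := Crest.Agent.R320.Exact808.exact_gadget S V
  have hpos : 0 < m ∧ 0 < kk := by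
    obtain ⟨lam, hl⟩ := H PUnit (fun _ => 1) (by simp) (fun _ => 0) (fun _ => none)
      (fun _ _ _ => le_rfl) rfl (by simp)
    obtain ⟨rho, nu, -, h2⟩ := hl (fun v _ => v)
    obtain ⟨i, hi, c, -⟩ := h2 [] 0 rfl
    exact ⟨by omega, by have := c.2; omega⟩
  obtain ⟨hm, hkk⟩ := hpos
  refine ⟨m * kk, Nat.mul_pos hm hkk, ?_⟩
  intro R c hc α φ hφ act
  let ctx : ℕ → Option (ℕ × Fin kk) := fun x =>
    if h : ∃ k, k < m * kk * (R + 1) ∧ c k = x then
      some (Classical.choose h / (R + 1) / kk,
        ⟨(Classical.choose h / (R + 1)) % kk, Nat.mod_lt _ hkk⟩)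
    else none
  let B : ℕ → ℕ := fun i => if i = 0 then 0 else c (i * kk * (R + 1))
  have hctx : ∀ k, k < m * kk * (R + 1) →
      ctx (c k) = some (k / (R + 1) / kk, ⟨(k / (R + 1)) % kk, Nat.mod_lt _ hkk⟩) := by
    intro k hk
    have h : ∃ k', k' < m * kk * (R + 1) ∧ c k' = c k := ⟨k, hk, rfl⟩
    have he : Classical.choose h = k := hc.injective (Classical.choose_spec h).2
    simp only [ctx]
    rw [dif_pos h, Option.some.injEq, Prod.mk.injEq]
    exact ⟨by rw [he], by apply Fin.ext; simp only [he]⟩
  have hB : Monotone B := by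
    intro i j hij
    simp only [B]
    split_ifs with h1 h2
    · exact le_rfl
    · exact Nat.zero_le _
    · omega
    · apply hc.monotone
      exact Nat.mul_le_mul_right _ (Nat.mul_le_mul_right _ hij)
  have hBm : B m = c (m * kk * (R + 1)) := by
    simp only [B]
    rw [if_neg (by omega)]
  obtain ⟨lam, hl⟩ := H α φ hφ B ctx hB (by simp [B]) (by
    intro x i d hx
    simp only [ctx] at hx
    split at hx
    · rename_i h
      have hs := Classical.choose_spec h
      set k := Classical.choose h with hk
      rw [Option.some.injEq, Prod.mk.injEq] at hx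
      obtain ⟨rfl, -⟩ := hx
      rw [← hs.2]
      have e1 : k / (R + 1) / kk = k / ((R + 1) * kk) := Nat.div_div_eq_div_mul _ _ _
      have hd : 0 < (R + 1) * kk := Nat.mul_pos (Nat.succ_pos _) hkk
      have e2 := Nat.div_mul_le_self k ((R + 1) * kk)
      have e3 : k < ((R + 1) * kk) * (k / ((R + 1) * kk) + 1) := Nat.lt_mul_div_succ k hd
      refine ⟨?_, ?_, ?_⟩
      · rw [e1]
        apply Nat.div_lt_of_lt_mul
        calc k < m * kk * (R + 1) := hs.1
          _ = (R + 1) * kk * m := by ring
      · simp only [B]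
        split_ifs
        · exact Nat.zero_le _
        · apply hc.monotone
          rw [e1]
          calc _ = k / ((R + 1) * kk) * ((R + 1) * kk) := by ring
            _ ≤ k := e2
      · simp only [B]
        rw [if_neg (Nat.succ_ne_zero _)]
        apply hc.monotone
        rw [e1]
        calc k ≤ ((R + 1) * kk) * (k / ((R + 1) * kk) + 1) := e3.le
          _ = _ := by ring
    · simp at hx)
  obtain ⟨rho, nu, h1, h2⟩ := hl act
  refine ⟨fun P => if (∃ k < m * kk * (R + 1), P.length = c k) then lam P else none, rho, nu,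
    ?_, ?_, ?_⟩
  · intro P v hP
    by_contra hcon
    simp only [if_neg hcon] at hP
    simp at hP
  · intro P Q v y hPQ hP hQ
    by_cases hcon : ∃ k < m * kk * (R + 1), P.length = c k
    · simp only [if_pos hcon] at hP
      exact h1 P Q v y (by rw [hBm]; exact hPQ) hP hQ
    · simp only [if_neg hcon] at hP
      simp at hP
  · intro X v hX
    obtain ⟨i, hi, d, h3⟩ := h2 X v (by rw [hBm]; exact hX)
    have hinj : Function.Injective (fun t : ℕ => (i * kk + d.1) * (R + 1) + t) :=
      fun a b hab => by simpa using hab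
    refine ⟨(Finset.range (R + 1)).image (fun t => (i * kk + d.1) * (R + 1) + t), ?_, ?_⟩
    · rw [Finset.card_image_of_injective _ hinj, Finset.card_range]
      exact Nat.lt_succ_self R
    · intro k hk
      rw [Finset.mem_image] at hk
      obtain ⟨t, ht, rfl⟩ := hk
      rw [Finset.mem_range] at ht
      have hlt : (i * kk + d.1) * (R + 1) + t < m * kk * (R + 1) := by
        have a1 : i * kk + d.1 + 1 ≤ m * kk := by
          have := d.2
          have : (i + 1) * kk ≤ m * kk := Nat.mul_le_mul_right _ hi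
          rw [add_mul, one_mul] at this
          omega
        have a2 : (i * kk + d.1 + 1) * (R + 1) ≤ m * kk * (R + 1) := Nat.mul_le_mul_right _ a1
        rw [add_mul, one_mul] at a2
        omega
      have hdiv : ((i * kk + d.1) * (R + 1) + t) / (R + 1) = i * kk + d.1 := by
        rw [mul_comm, Nat.mul_add_div (Nat.succ_pos R), Nat.div_eq_of_lt ht, add_zero]
      have hc1 := hctx _ hlt
      rw [hdiv] at hc1
      have e1 : (i * kk + d.1) / kk = i := by
        rw [mul_comm, Nat.mul_add_div hkk, Nat.div_eq_of_lt d.2, add_zero]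
      have e2 : (i * kk + d.1) % kk = d.1 := by
        rw [mul_comm, Nat.mul_add_mod, Nat.mod_eq_of_lt d.2]
      have hc2 : ctx (c ((i * kk + d.1) * (R + 1) + t)) = some (i, d) := by
        rw [hc1, Option.some.injEq, Prod.mk.injEq]
        exact ⟨e1, Fin.ext e2⟩
      obtain ⟨h4, h5⟩ := h3 _ hc2
      refine ⟨hlt, ?_, h5⟩
      have hXl : (X.take (c ((i * kk + d.1) * (R + 1) + t))).length =
          c ((i * kk + d.1) * (R + 1) + t) := by
        rw [List.length_take, hX]
        exact min_eq_left (hc.monotone hlt.le)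
      simp only
      rw [if_pos ⟨_, hlt, hXl⟩]
      exact h4

end Crest.Agent.R320.P5b_225
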