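import Crest.Agent.R320.P5a_699

/-!
Row 320, P5 (helper699), part b: at most `1 + 2 * C0` ruler places are spoiled.
-/

set_option autoImplicit false

namespace Crest.Agent.R320.P5_699

open Finset Crest.Agent.R320.ExactR_237 Crest.Agent.R320.WallU_228 Crest.Agent.R320.P3_416

variable {A : Type}

theorem badat {n : ℕ} {Sw : Set (List A)} {z N p0 : ℕ} {BadT : ℕ → Prop} {t : List A} {c c' : ℕ}
    (hc : c ≤ p0) (hc' : c' ≤ p0) (hct : c ≤ t.length) (hz : 2 * p0 + n + N ≤ z)
    (h : BadAt (XX n Sw z) (BadX n Sw z N p0 BadT) c' (t.drop c)) :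
    (∃ u, u ≤ t.length ∧ Wo n Sw (t.take u) ∧ z + c ≤ u + c' + N ∧ u + c' < z + N + c) ∨
    (∃ u, u ≤ t.length ∧ Wo n Sw (t.take u) ∧ z + c ≤ u + c' ∧
      (∀ x, z + c ≤ x + c' → x < u → ¬ Wo n Sw (t.take x)) ∧ BadT (u + c' - c - p0)) := by
  obtain ⟨P, Q1, hP, ⟨R, hR⟩, hX, hB⟩ := h
  have ht : t = t.take c ++ (Q1 ++ R) := by rw [hR, List.take_append_drop]
  have hlc : (t.take c).length = c := by rw [List.length_take]; omega
  have hlt : t.length = c + (Q1.length + R.length) := by
    have := congrArg List.length ht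
    rw [List.length_append, List.length_append, hlc] at this
    exact this
  have key : ∀ t', c' + n ≤ t' → t' ≤ c' + Q1.length →
      (Wo n Sw ((P ++ Q1).take t') ↔ Wo n Sw (t.take (c + (t' - c')))) := by
    intro t' h1 h2
    have h3 := wo_shift (n := n) (Sw := Sw) P (t.take c) Q1 t' (by omega) (by omega)
    rw [h3, hlc, hP]
    have h5 : (t.take c ++ Q1) ++ R = t := by rw [List.append_assoc]; exact ht.symm
    have h4 : (t.take c ++ Q1).take (c + (t' - c')) = t.take (c + (t' - c')) := by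
      have h6 := List.take_append_of_le_length (l₁ := t.take c ++ Q1) (l₂ := R)
        (i := c + (t' - c')) (by rw [List.length_append]; omega)
      rw [h5] at h6
      exact h6.symm
    rw [h4]
  obtain ⟨h1, h2, h3⟩ := hX
  rw [List.length_append, hP] at h1
  rcases hB with ⟨x, hx1, hx2, hx3, hx4⟩ | hB
  · left
    rw [List.length_append, hP] at hx1
    refine ⟨c + (x - c'), by omega, (key x (by omega) (by omega)).1 hx4, by omega, by omega⟩
  · right
    rw [List.length_append, hP] at hB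
    refine ⟨c + Q1.length, by omega, ?_, by omega, ?_, ?_⟩
    · have := key (c' + Q1.length) (by omega) le_rfl
      rw [List.take_of_length_le (by rw [List.length_append]; omega),
        show c + (c' + Q1.length - c') = c + Q1.length by omega] at this
      exact this.1 h2
    · intro x hx1 hx2 hw
      have := key (x + c' - c) (by omega) (by omega)
      rw [show c + (x + c' - c - c') = x by omega] at this
      exact h3 (x + c' - c) (by omega) (by rw [List.length_append]; omega) (this.2 hw)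
    · rw [show c + Q1.length + c' - c - p0 = c' + Q1.length - p0 by omega]
      exact hB

/-- two walls are more than `W` apart -/
theorem gap_eq {n W : ℕ} {Sw : Set (List A)}
    (hgap : ∀ (P : List A) (d : ℕ), Wo n Sw P → 0 < d → d ≤ W → ¬ Wo n Sw (P.take (P.length - d)))
    (t : List A) (u u' : ℕ) (hu : u ≤ t.length) (hu' : u' ≤ t.length)
    (h : Wo n Sw (t.take u)) (h' : Wo n Sw (t.take u')) (h1 : u ≤ u' + W) (h2 : u' ≤ u + W) :
    u = u' := by
  have main : ∀ a b : ℕ, a < b → b ≤ t.length → b ≤ a + W → Wo n Sw (t.take a) →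
      Wo n Sw (t.take b) → False := by
    intro a b hab hb hbw ha hb'
    refine hgap (t.take b) (b - a) hb' (by omega) (by omega) ?_
    rw [List.length_take, min_eq_left hb, List.take_take]
    rwa [show min (b - (b - a)) b = a by omega]
  rcases lt_trichotomy u u' with h3 | h3 | h3
  · exact (main u u' h3 hu' h2 h h').elim
  · exact h3
  · exact (main u' u h3 hu h1 h' h).elim

open Classical in
theorem spoiled_card {n W : ℕ} {Sw : Set (List A)} {z N p0 K C0 T0 : ℕ} {BadT : ℕ → Prop}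
    {c : ℕ → ℕ}
    (hgap : ∀ (P : List A) (d : ℕ), Wo n Sw P → 0 < d → d ≤ W → ¬ Wo n Sw (P.take (P.length - d)))
    (hW : 2 * (p0 + N) ≤ W) (hz : 3 * p0 + n + N + T0 ≤ z) (hc : ∀ k < K, c k ≤ p0)
    (hrul : ∀ a b a' b', a < K → b < K → a' < K → b' < K → a ≠ b → a' ≠ b' →
      (c a : ℤ) - c b < (c a' : ℤ) - c b' + 2 * N → (c a' : ℤ) - c b' < (c a : ℤ) - c b + 2 * N →
      a = a' ∧ b = b')
    (hBT : ∀ T : ℕ, T0 ≤ T → ((range K ×ˢ range K).filter
      (fun ab => ab.1 ≠ ab.2 ∧ BadT (T + c ab.1 - c ab.2))).card ≤ C0)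
    (X X2 : List A) (hX : X ∈ XX n Sw z) :
    (spoiled (XX n Sw z) (BadX n Sw z N p0 BadT) K c (X ++ X2)).card ≤ 1 + 2 * C0 := by
  set t := X ++ X2 with ht
  have htl : z ≤ t.length := by rw [ht, List.length_append]; have := hX.1; omega
  -- pairs (k', k)
  let E : ℕ × ℕ → Prop := fun ab => ∃ u, u ≤ t.length ∧ Wo n Sw (t.take u) ∧
    z + c ab.2 ≤ u + c ab.1 + N ∧ u + c ab.1 < z + N + c ab.2
  let Bu : ℕ × ℕ → ℕ → Prop := fun ab u => u ≤ t.length ∧ Wo n Sw (t.take u) ∧
    z + c ab.2 ≤ u + c ab.1 ∧ (∀ x, z + c ab.2 ≤ x + c ab.1 → x < u → ¬ Wo n Sw (t.take x)) ∧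
    BadT (u + c ab.1 - c ab.2 - p0)
  let PE := (range K ×ˢ range K).filter (fun ab => ab.1 ≠ ab.2 ∧ E ab)
  let PL := (range K ×ˢ range K).filter (fun ab => ab.1 ≠ ab.2 ∧ ∃ u, Bu ab u ∧ u < z + p0)
  let PH := (range K ×ˢ range K).filter (fun ab => ab.1 ≠ ab.2 ∧ ∃ u, Bu ab u ∧ z + p0 ≤ u)
  have hsub : spoiled (XX n Sw z) (BadX n Sw z N p0 BadT) K c t ⊆
      (PE ∪ (PL ∪ PH)).image Prod.snd := by
    intro k hk
    obtain ⟨hk1, k', hk', hne, hb⟩ := Finset.mem_filter.1 hk
    have hk2 := Finset.mem_range.1 hk1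
    have hck := hc k hk2
    have hck' := hc k' hk'
    refine Finset.mem_image.2 ⟨(k', k), ?_, rfl⟩
    have hmem : (k', k) ∈ range K ×ˢ range K :=
      Finset.mem_product.2 ⟨Finset.mem_range.2 hk', Finset.mem_range.2 hk2⟩
    rcases badat hck hck' (by omega) (by omega) hb with h | ⟨u, hu⟩
    · exact Finset.mem_union_left _ (Finset.mem_filter.2 ⟨hmem, hne, h⟩)
    · refine Finset.mem_union_right _ ?_
      rcases Nat.lt_or_ge u (z + p0) with h1 | h1
      · exact Finset.mem_union_left _ (Finset.mem_filter.2 ⟨hmem, hne, u, hu, h1⟩)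
      · exact Finset.mem_union_right _ (Finset.mem_filter.2 ⟨hmem, hne, u, hu, h1⟩)
  have hE : PE.card ≤ 1 := by
    rw [Finset.card_le_one]
    rintro ⟨a, b⟩ hab ⟨a', b'⟩ hab'
    obtain ⟨hm, hne, u, hu1, hu2, hu3, hu4⟩ := Finset.mem_filter.1 hab
    obtain ⟨hm', hne', u', hu1', hu2', hu3', hu4'⟩ := Finset.mem_filter.1 hab'
    simp only at hne hu3 hu4 hne' hu3' hu4'
    obtain ⟨ha, hb⟩ := Finset.mem_product.1 hm
    obtain ⟨ha', hb'⟩ := Finset.mem_product.1 hm'
    have ha := Finset.mem_range.1 ha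
    have hb := Finset.mem_range.1 hb
    have ha' := Finset.mem_range.1 ha'
    have hb' := Finset.mem_range.1 hb'
    simp only at ha hb ha' hb'
    have h1 := hc a ha
    have h2 := hc b hb
    have h3 := hc a' ha'
    have h4 := hc b' hb'
    have huu : u = u' := gap_eq hgap t u u' hu1 hu1' hu2 hu2' (by omega) (by omega)
    subst huu
    obtain ⟨e1, e2⟩ := hrul a b a' b' ha hb ha' hb' hne hne' (by omega) (by omega)
    rw [e1, e2]
  have same : ∀ (P : Finset (ℕ × ℕ)), P ⊆ range K ×ˢ range K →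
      (∀ ab ∈ P, ab.1 ≠ ab.2 ∧ ∃ u, Bu ab u) →
      (∀ ab ∈ P, ∀ ab' ∈ P, ∀ u u', Bu ab u → Bu ab' u' → (u < z + p0 ↔ u' < z + p0) → True) →
      (∃ u0, ∀ ab ∈ P, Bu ab u0) → P.card ≤ C0 := by
    intro P hP h1 _ ⟨u0, hu0⟩
    rcases P.eq_empty_or_nonempty with h | ⟨ab0, hab0⟩
    · rw [h]; simp
    · have hT0 : T0 ≤ u0 - p0 := by
        have h2 := hu0 ab0 hab0
        have h3 := Finset.mem_product.1 (hP hab0)
        have h4 := hc ab0.1 (Finset.mem_range.1 h3.1)
        have h5 := h2.2.2.1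
        omega
      refine le_trans (Finset.card_le_card ?_) (hBT (u0 - p0) hT0)
      intro ab hab
      have h2 := hu0 ab hab
      have h3 := Finset.mem_product.1 (hP hab)
      have h4 := hc ab.1 (Finset.mem_range.1 h3.1)
      have h6 := hc ab.2 (Finset.mem_range.1 h3.2)
      refine Finset.mem_filter.2 ⟨hP hab, (h1 ab hab).1, ?_⟩
      have h5 := h2.2.2.2.2
      have h7 := h2.2.2.1
      rwa [show u0 - p0 + c ab.1 - c ab.2 = u0 + c ab.1 - c ab.2 - p0 by omega]
  have hL : PL.card ≤ C0 := by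
    refine same PL (Finset.filter_subset _ _) ?_ (fun _ _ _ _ _ _ _ _ _ => trivial) ?_
    · intro ab hab
      obtain ⟨_, hne, u, hu, _⟩ := Finset.mem_filter.1 hab
      exact ⟨hne, u, hu⟩
    · rcases PL.eq_empty_or_nonempty with h | ⟨ab0, hab0⟩
      · exact ⟨0, fun ab hab => by rw [h] at hab; simp at hab⟩
      · obtain ⟨hm0, _, u0, hu0, hlt0⟩ := Finset.mem_filter.1 hab0
        refine ⟨u0, fun ab hab => ?_⟩
        obtain ⟨hm, _, u, hu, hlt⟩ := Finset.mem_filter.1 hab
        have h3 := Finset.mem_product.1 hm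
        have h30 := Finset.mem_product.1 hm0
        have h4 := hc ab.1 (Finset.mem_range.1 h3.1)
        have h40 := hc ab0.1 (Finset.mem_range.1 h30.1)
        have h5 := hu.2.2.1
        have h50 := hu0.2.2.1
        have : u = u0 := gap_eq hgap t u u0 hu.1 hu0.1 hu.2.1 hu0.2.1 (by omega) (by omega)
        rw [← this]; exact hu
  have hH : PH.card ≤ C0 := by
    refine same PH (Finset.filter_subset _ _) ?_ (fun _ _ _ _ _ _ _ _ _ => trivial) ?_
    · intro ab hab
      obtain ⟨_, hne, u, hu, _⟩ := Finset.mem_filter.1 hab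
      exact ⟨hne, u, hu⟩
    · rcases PH.eq_empty_or_nonempty with h | ⟨ab0, hab0⟩
      · exact ⟨0, fun ab hab => by rw [h] at hab; simp at hab⟩
      · obtain ⟨hm0, _, u0, hu0, hlt0⟩ := Finset.mem_filter.1 hab0
        refine ⟨u0, fun ab hab => ?_⟩
        obtain ⟨hm, _, u, hu, hlt⟩ := Finset.mem_filter.1 hab
        have h3 := Finset.mem_product.1 hm
        have h30 := Finset.mem_product.1 hm0
        have h4 := hc ab.2 (Finset.mem_range.1 h3.2)
        have h40 := hc ab0.2 (Finset.mem_range.1 h30.2)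
        have : u = u0 := by
          rcases lt_trichotomy u u0 with h | h | h
          · exact (hu0.2.2.2.1 u (by omega) h hu.2.1).elim
          · exact h
          · exact (hu.2.2.2.1 u0 (by omega) h hu0.2.1).elim
        rw [← this]; exact hu
  calc (spoiled (XX n Sw z) (BadX n Sw z N p0 BadT) K c t).card
      ≤ ((PE ∪ (PL ∪ PH)).image Prod.snd).card := by
        refine Finset.card_le_card ?_
        exact hsub
    _ ≤ (PE ∪ (PL ∪ PH)).card := Finset.card_image_le
    _ ≤ PE.card + (PL ∪ PH).card := Finset.card_union_le _ _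
    _ ≤ PE.card + (PL.card + PH.card) := by
        have := Finset.card_union_le PL PH
        omega
    _ ≤ 1 + 2 * C0 := by omega

end Crest.Agent.R320.P5_699
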