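import Crest.Agent.R320.P5_841
import Crest.Agent.R320.Hk2_851

/-!
Row 320, helper841: semantic right languages (finite intersections of left quotients, helper50's
remark) for the joint `P5_841`: all right languages have height one as soon as
`{X ∈ XX | T v X = v'}` and the bad blocks have height one.
-/

set_option autoImplicit false
set_option linter.unusedSectionVars false

namespace Crest.Agent.R320.P6_841

open Crest.RegLang Crest.Agent.R320.Hk_851 Crest.Agent.R320.P5_841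

universe u

variable {α : Type u} {S V : Type} [Monoid S] [AddCommGroup V] {D : Dt α S V}

/-- bad blocks -/
def Bd (D : Dt α S V) (X : List α) : Prop := EB D X ∨ D.BadT (X.length - D.p0)

def LPk (D : Dt α S V) (k : ℕ) (P : List α) (v : V) : Prop :=
  P.length = D.c k ∧ D.lam2 k P = some v

def S1 (D : Dt α S V) (Q : List α) (b : V) : Prop :=
  (∃ P v, LP1 D P v) ∧ ∀ P v, LP1 D P v → P ++ Q ∈ XX D ∧ T D v (P ++ Q) = b

def S2 (D : Dt α S V) (Q : List α) (b : V) : Prop :=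
  ∃ k < D.K, (∃ P v, LPk D k P v) ∧
    (∀ P v, LPk D k P v → ∃ v1 X1 X2, P ++ Q = X1 ++ X2 ∧ X1 ∈ XX D ∧ Bd D X1 ∧ T D v X1 = v1 ∧
      X2 ∈ XX D ∧ T D v1 X2 = b) ∧
    (∀ k' < D.K, k' ≠ k → ∀ P v, LPk D k' P v → ∃ X r, P ++ Q = X ++ r ∧ X ∈ XX D ∧ ¬ Bd D X)

open Classical in
noncomputable def R1s (D : Dt α S V) (Q : List α) : Option V :=
  if h : ∃ b, S1 D Q b then some h.choose else none

open Classical in
noncomputable def R2s (D : Dt α S V) (Q : List α) : Option V :=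
  if h : ∃ b, S2 D Q b then some h.choose else none

theorem S1_unique {Q : List α} {b b' : V} (h : S1 D Q b) (h' : S1 D Q b') : b = b' := by
  obtain ⟨⟨P, v, hP⟩, h1⟩ := h
  rw [← (h1 P v hP).2, (h'.2 P v hP).2]

theorem XX_unique {X X' r r' : List α} (hX : X ∈ XX D) (hX' : X' ∈ XX D)
    (e : X ++ r = X' ++ r') : X = X' ∧ r = r' := by
  rcases List.append_eq_append_iff.1 e with ⟨a, h1, h2⟩ | ⟨a, h1, h2⟩
  · subst h1
    have := PC X hX a hX'
    subst this
    simpa using h2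
  · subst h1
    have := PC X' hX' a hX
    subst this
    simpa using h2.symm

theorem S2_unique {Q : List α} {b b' : V} (h : S2 D Q b) (h' : S2 D Q b') : b = b' := by
  obtain ⟨k, hk, ⟨P, v, hP⟩, h1, h2⟩ := h
  obtain ⟨k', hk', ⟨P', v', hP'⟩, h1', h2'⟩ := h'
  by_cases hkk : k = k'
  · subst hkk
    obtain ⟨v1, X1, X2, e, a1, a2, a3, a4, a5⟩ := h1 P v hP
    obtain ⟨w1, Y1, Y2, e', b1, b2, b3, b4, b5⟩ := h1' P v hP
    obtain ⟨c1, c2⟩ := XX_unique a1 b1 (e.symm.trans e')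
    subst c1 c2
    rw [← a5, ← b5, ← a3, ← b3]
  · exfalso
    obtain ⟨v1, X1, X2, e, a1, a2, -⟩ := h1' P' v' hP'
    obtain ⟨X, r, e', b1, b2⟩ := h2 k' hk' (fun h => hkk h.symm) P' v' hP'
    obtain ⟨c1, -⟩ := XX_unique a1 b1 (e.symm.trans e')
    subst c1
    exact b2 a2

theorem R1s_iff {Q : List α} {b : V} : R1s D Q = some b ↔ S1 D Q b := by
  unfold R1s
  constructor
  · intro h
    split_ifs at h with h1
    rw [Option.some.injEq] at h
    rw [← h]
    exact h1.choose_spec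
  · intro h
    have h1 : ∃ b, S1 D Q b := ⟨b, h⟩
    rw [dif_pos h1, Option.some.injEq]
    exact S1_unique h1.choose_spec h

theorem R2s_iff {Q : List α} {b : V} : R2s D Q = some b ↔ S2 D Q b := by
  unfold R2s
  constructor
  · intro h
    split_ifs at h with h1
    rw [Option.some.injEq] at h
    rw [← h]
    exact h1.choose_spec
  · intro h
    have h1 : ∃ b, S2 D Q b := ⟨b, h⟩
    rw [dif_pos h1, Option.some.injEq]
    exact S2_unique h1.choose_spec h

theorem LP1_len (h : Ok D) {P : List α} {v : V} (hP : LP1 D P v) :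
    D.p0 ≤ P.length ∧ P.length ≤ D.p0 + D.N1 := by
  have := h.g1l _ _ hP.2
  rw [List.length_drop] at this
  exact ⟨hP.1, by have := hP.1; omega⟩

theorem hR1 (h : Ok D) (Q : List α) (b : V) (hQ : R1s D Q = some b) : Q ≠ [] := by
  obtain ⟨⟨P, v, hP⟩, h1⟩ := R1s_iff.1 hQ
  rintro rfl
  have h2 := (h1 P v hP).1.2.1
  have h3 := LP1_len h hP
  have := h.hz
  rw [List.append_nil] at h2
  omega

theorem hR2 (h : Ok D) (Q : List α) (b : V) (hQ : R2s D Q = some b) : Q ≠ [] := by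
  obtain ⟨k, hk, ⟨P, v, hP⟩, h1, -⟩ := R2s_iff.1 hQ
  rintro rfl
  obtain ⟨v1, X1, X2, e, a1, -⟩ := h1 P v hP
  have h2 := a1.2.1
  have h3 := h.cp0 k hk
  have h4 := hP.1
  have := h.hz
  have e' := congrArg List.length e
  rw [List.append_nil, List.length_append] at e'
  omega

theorem s1' (P : List α) (v : V) (Q : List α) (b : V) (hP : LP1 D P v)
    (hQ : R1s D Q = some b) : P ++ Q ∈ XX D ∧ T D v (P ++ Q) = b :=
  (R1s_iff.1 hQ).2 P v hP

/-- completeness of scheme 1 with the semantic right language -/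
theorem comp1' (h : Ok D) {X : List α} (hX : X ∈ XX D) (hB : ¬ Bd D X) (v : V) :
    ∃ P Q, X = P ++ Q ∧ D.p0 ≤ P.length ∧ LP1 D P v ∧ (R1s D Q).isSome := by
  unfold Bd at hB
  push Not at hB
  obtain ⟨P, Q, e, hp, hL, hR⟩ := comp1 h hX hB.1 hB.2 v
  obtain ⟨b, hb⟩ := Option.isSome_iff_exists.1 hR
  have : R1s D Q = some b := R1s_iff.2 ⟨⟨P, v, hL⟩, fun P' v' hP' => s1 h P' v' Q b hP' hb⟩
  exact ⟨P, Q, e, hp, hL, by rw [this]; rfl⟩

theorem s2' (h : Ok D) (P : List α) (v : V) (Q : List α) (b : V) (hP : LP2 D P v)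
    (hQ : R2s D Q = some b)
    (hun : ∀ X ∈ XX D, X <+: P ++ Q → ∀ P' Q', X = P' ++ Q' → P.length ≤ P'.length →
      LP1 D P' v → (R1s D Q').isSome → False) :
    ∃ Q1 X2, Q = Q1 ++ X2 ∧ Q1 ≠ [] ∧ P ++ Q1 ∈ XX D ∧ X2 ∈ XX D ∧
      T D (T D v (P ++ Q1)) X2 = b := by
  obtain ⟨k0, hk0, hPl, hlam⟩ := hP
  obtain ⟨k, hk, -, h1, h2⟩ := R2s_iff.1 hQ
  have hz := h.hz
  have hc0 := h.cp0 k0 hk0
  have hkk : k0 = k := by
    by_contra hne
    obtain ⟨X, r, e, b1, b2⟩ := h2 k0 hk0 hne P v ⟨hPl, hlam⟩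
    obtain ⟨P', Q', e', hp, hL, hR⟩ := comp1' h b1 b2 v
    exact hun X b1 ⟨r, e.symm⟩ P' Q' e' (by omega) hL hR
  subst hkk
  obtain ⟨v1, X1, X2, e, a1, a2, a3, a4, a5⟩ := h1 P v ⟨hPl, hlam⟩
  have hl1 := a1.2.1
  obtain ⟨Q1, hQ1⟩ : ∃ Q1, X1 = P ++ Q1 := by
    have hp : P <+: X1 := List.prefix_of_prefix_length_le ⟨Q, rfl⟩ ⟨X2, e.symm⟩ (by omega)
    obtain ⟨t, ht⟩ := hp
    exact ⟨t, ht.symm⟩
  subst hQ1
  rw [List.append_assoc] at e
  have e2 := List.append_cancel_left e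
  refine ⟨Q1, X2, e2, ?_, a1, a4, by rw [a3]; exact a5⟩
  rintro rfl
  rw [List.append_nil] at hl1
  omega

/-- the block of a candidate is bad iff the candidate is -/
theorem Bd_iff (h : Ok D) {k : ℕ} (hk : k < D.K) {P Q : List α} (hP : P.length = D.c k)
    (hex : Ex D k Q) : Bd D (P ++ Q.take (NN D k Q)) ↔ cand D k Q := by
  obtain ⟨b1, b2, b3⟩ := NN_spec hex
  have hz := h.hz
  have hc0 := h.cp0 k hk
  have hl : (Q.take (NN D k Q)).length = NN D k Q := by rw [List.length_take]; omega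
  unfold Bd cand
  rw [List.length_append, hl, hP]
  apply or_congr ?_ Iff.rfl
  constructor
  · rintro ⟨t, e1, e2, e3, e4⟩
    rw [List.length_append, hl] at e1
    obtain ⟨y, rfl⟩ := Nat.exists_eq_add_of_le (show P.length ≤ t by omega)
    rw [h.wall (by omega) (by omega), List.take_take, min_eq_left (by omega)] at e4
    exact ⟨y, by omega, by omega, by omega, e4⟩
  · rintro ⟨y, e1, e2, e3, e4⟩
    by_cases hy : y ≤ NN D k Q
    · refine ⟨P.length + y, by rw [List.length_append, hl]; omega, by omega, by omega, ?_⟩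
      rw [h.wall (by omega) (by omega), List.take_take, min_eq_left (by omega)]
      exact e4
    · refine ⟨P.length + NN D k Q, by rw [List.length_append, hl], by omega, by omega, ?_⟩
      rw [h.wall (by omega) (by omega), List.take_take, min_eq_left (by omega)]
      exact b3

theorem cc' (h : Ok D) (X : List α) (hX : X ∈ XX D) (X2 : List α) (hX2 : X2 ∈ XX D) (v : V) :
    (∃ P Q, X = P ++ Q ∧ LP1 D P v ∧ (R1s D Q).isSome) ∨
    (∃ P Q, X ++ X2 = P ++ Q ∧ P.length < X.length ∧ LP2 D P v ∧ (R2s D Q).isSome) := by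
  classical
  have hz := h.hz
  by_cases hbad : Bd D X
  swap
  · obtain ⟨P, Q, e, _, h1, h2⟩ := comp1' h hX hbad v
    exact Or.inl ⟨P, Q, e, h1, h2⟩
  right
  have hXl := hX.2.1
  have hX2l := hX2.2.1
  have hUw : D.Wo (X ++ X2) := (h.loc _ _ (by omega)).2 hX2.1
  obtain ⟨I, hI, hIk⟩ := h.g2c (X.take D.p0) (by rw [List.length_take]; omega) v
  have hsp := spoiled h (U := X ++ X2) (by rw [List.length_append]; omega) hUw
  obtain ⟨k, hkI, hks⟩ : ∃ k ∈ I, k ∉ (Finset.range D.K).filter (fun k => ∃ k' < D.K, k' ≠ k ∧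
      cand D k' ((X ++ X2).drop (D.c k))) := by
    by_contra hcon
    push Not at hcon
    have := Finset.card_le_card (show I ⊆ _ from fun k hk => hcon k hk)
    omega
  obtain ⟨hk, hl, hr⟩ := hIk k hkI
  have hck := h.cp0 k hk
  have hd : (X ++ X2).drop (D.c k) = X.drop (D.c k) ++ X2 :=
    List.drop_append_of_le_length (by omega)
  have hks' : ¬ ∃ k' < D.K, k' ≠ k ∧ cand D k' ((X ++ X2).drop (D.c k)) := fun hex =>
    hks (Finset.mem_filter.2 ⟨Finset.mem_range.2 hk, hex⟩)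
  rw [hd] at hks'
  have hPl : (X.take (D.c k)).length = D.c k := by rw [List.length_take]; omega
  have hdl : (X.drop (D.c k)).length = X.length - D.c k := List.length_drop
  have hXe : X.take (D.c k) ++ X.drop (D.c k) = X := List.take_append_drop _ _
  have hwX : ∀ y, D.n ≤ y → y ≤ (X.drop (D.c k)).length →
      (D.Wo (X.take (D.c k + y)) ↔ D.Wo ((X.drop (D.c k) ++ X2).take y)) := by
    intro y h1 h2
    have := h.wall (P := X.take (D.c k)) (Q := X.drop (D.c k)) h1 h2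
    rw [hXe, hPl] at this
    rw [this, List.take_append_of_le_length h2]
  have hex : Ex D k (X.drop (D.c k) ++ X2) := by
    refine ⟨X.length - D.c k, by omega, by rw [List.length_append]; omega, ?_⟩
    rw [← hwX _ (by omega) (by omega)]
    have e : D.c k + (X.length - D.c k) = X.length := by omega
    rw [e, List.take_length]
    exact hX.1
  have hN : NN D k (X.drop (D.c k) ++ X2) = X.length - D.c k := by
    apply le_antisymm
    · apply NN_le (by omega) (by rw [List.length_append]; omega)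
      rw [← hwX _ (by omega) (by omega)]
      have e : D.c k + (X.length - D.c k) = X.length := by omega
      rw [e, List.take_length]
      exact hX.1
    · obtain ⟨n1, n2, n3⟩ := NN_spec hex
      by_contra hlt
      rw [← hwX _ (by omega) (by omega)] at n3
      exact hX.2.2 _ (by omega) n1 n3
  have htk : (X.drop (D.c k) ++ X2).take (NN D k (X.drop (D.c k) ++ X2)) = X.drop (D.c k) := by
    rw [hN, List.take_left' hdl]
  have hcand : cand D k (X.drop (D.c k) ++ X2) := by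
    have := Bd_iff h hk hPl hex
    rw [htk, hXe] at this
    exact this.1 hbad
  obtain ⟨r, hr'⟩ := Option.isSome_iff_exists.1 hr
  have hQw : D.Wo (X.drop (D.c k) ++ X2) := (h.loc _ _ (by omega)).2 hX2.1
  refine ⟨X.take (D.c k), X.drop (D.c k) ++ X2, by rw [← List.append_assoc, hXe], by omega,
    ⟨k, hk, hPl, ?_⟩, ?_⟩
  · rwa [List.take_take, min_eq_left hck] at hl
  · have hS : S2 D (X.drop (D.c k) ++ X2)
        (T D (D.act r (D.φ ((X.drop (D.c k)).drop (D.p0 - D.c k))) +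
          D.nu1 ((X.drop (D.c k)).drop (D.p0 - D.c k))) X2) := by
      refine ⟨k, hk, ⟨X.take (D.c k), v, hPl, by rwa [List.take_take, min_eq_left hck] at hl⟩,
        ?_, ?_⟩
      · rintro P' v' ⟨hP', hlam'⟩
        have hb := block_of h hk hP' hex
        have hb2 := (Bd_iff h hk hP' hex).2 hcand
        rw [htk] at hb hb2
        refine ⟨_, P' ++ X.drop (D.c k), X2, by rw [List.append_assoc], hb, hb2, rfl, hX2, ?_⟩
        congr 1
        have e : P' ++ X.drop (D.c k) = (P' ++ (X.take D.p0).drop (D.c k)) ++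
            (X.drop (D.c k)).drop (D.p0 - D.c k) := by
          rw [List.append_assoc, List.drop_take, List.take_append_drop]
        have h0 : (P' ++ (X.take D.p0).drop (D.c k)).length = D.p0 := by
          rw [List.length_append, List.length_drop, List.length_take]
          omega
        rw [T_eq h v' _ _ e h0, h.g2s k hk _ _ _ _ hP' h0 hlam' hr']
      · rintro k' hk' hne P' v' ⟨hP', hlam'⟩
        have hex' : Ex D k' (X.drop (D.c k) ++ X2) := by
          have := h.cp0 k' hk'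
          refine ⟨(X.drop (D.c k) ++ X2).length, by rw [List.length_append]; omega, le_rfl, ?_⟩
          rwa [List.take_length]
        refine ⟨P' ++ (X.drop (D.c k) ++ X2).take (NN D k' (X.drop (D.c k) ++ X2)),
          (X.drop (D.c k) ++ X2).drop (NN D k' (X.drop (D.c k) ++ X2)), ?_,
          block_of h hk' hP' hex', ?_⟩
        · rw [List.append_assoc, List.take_append_drop]
        · rw [Bd_iff h hk' hP' hex']
          exact fun hc => hks' ⟨k', hk', hne, hc⟩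
    rw [R2s_iff.2 hS]
    rfl

/-! ### heights -/

section heights

variable [Finite α] [Finite V]

theorem LP1_finite (h : Ok D) : {x : List α × V | LP1 D x.1 x.2}.Finite := by
  refine ((List.finite_length_le α (D.p0 + D.N1)).prod (Set.finite_univ (α := V))).subset ?_
  rintro ⟨P, v⟩ hP
  exact ⟨(LP1_len h hP).2, Set.mem_univ _⟩

theorem LPk_finite (k : ℕ) : {x : List α × V | LPk D k x.1 x.2}.Finite := by
  refine ((List.finite_length_le α (D.c k)).prod (Set.finite_univ (α := V))).subset ?_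
  rintro ⟨P, v⟩ hP
  exact ⟨hP.1.le, Set.mem_univ _⟩

theorem hL1 (h : Ok D) (v : V) : HL 1 ({P | LP1 D P v} : Language α) :=
  HL.finite (s := {P | LP1 D P v}) ((List.finite_length_le α (D.p0 + D.N1)).subset
    fun P hP => (LP1_len h hP).2)

theorem hL2 (h : Ok D) (v : V) : HL 1 ({P | LP2 D P v} : Language α) :=
  HL.finite (s := {P | LP2 D P v}) ((List.finite_length_le α D.p0).subset
    fun P hP => by
      obtain ⟨k, hk, h1, -⟩ := hP
      exact h1.le.trans (h.cp0 k hk))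

theorem hQ1 (h : Ok D) (hXT : ∀ v v', HL 1 ({X | X ∈ XX D ∧ T D v X = v'} : Language α)) (b : V) :
    HL 1 ({Q | R1s D Q = some b} : Language α) := by
  by_cases hex : ∃ P v, LP1 D P v
  · refine (HL.biInter (LP1_finite h) (L := fun x =>
      ({Q | x.1 ++ Q ∈ ({X | X ∈ XX D ∧ T D x.2 X = b} : Language α)} : Language α))
      (fun x _ => (hXT x.2 b).lquot x.1)).congr ?_
    intro Q
    constructor
    · intro hQ x hx
      exact (R1s_iff.1 hQ).2 x.1 x.2 hx
    · intro hQ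
      exact R1s_iff.2 ⟨hex, fun P v hP => hQ (P, v) hP⟩
  · refine HL.bot.congr fun Q => ⟨fun hQ => ?_, fun hQ => hQ.elim⟩
    exact absurd (R1s_iff.1 hQ).1 hex

def XTl (D : Dt α S V) (v v1 : V) : Language α := {X | X ∈ XX D ∧ T D v X = v1}

def XTb (D : Dt α S V) (v v1 : V) : Language α :=
  {X | (X ∈ XX D ∧ T D v X = v1) ∧ (X ∈ XX D ∧ Bd D X)}

def XG (D : Dt α S V) : Language α := {X | (X ∈ XX D) ∧ ¬ (X ∈ XX D ∧ Bd D X)}

/-- first block bad and value, second block value -/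
def LA (D : Dt α S V) (v b : V) : Language α :=
  {w | ∃ v1, w ∈ XTb D v v1 * XTl D v1 b}

def LB (D : Dt α S V) : Language α := XG D * (⊤ : Language α)

theorem hLA (hXT : ∀ v v', HL 1 ({X | X ∈ XX D ∧ T D v X = v'} : Language α))
    (hBX : HL 1 ({X | X ∈ XX D ∧ Bd D X} : Language α)) (v b : V) : HL 1 (LA D v b) := by
  refine (HL.iUnion (L := fun v1 => XTb D v v1 * XTl D v1 b) fun v1 => ?_).congr fun w => Iff.rfl
  have h1 : HL 1 (XTb D v v1) := HL.setOf_and (hXT v v1) hBX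
  have h2 : HL 1 (XTl D v1 b) := hXT v1 b
  exact h1.mul h2

theorem hXX (hXT : ∀ v v', HL 1 ({X | X ∈ XX D ∧ T D v X = v'} : Language α)) :
    HL 1 ({X | X ∈ XX D} : Language α) := by
  refine (HL.iUnion (L := fun v1 => XTl D 0 v1) fun v1 => hXT 0 v1).congr fun w =>
    ⟨fun h => ⟨_, h, rfl⟩, fun ⟨v1, h, _⟩ => h⟩

theorem hLB (hXT : ∀ v v', HL 1 ({X | X ∈ XX D ∧ T D v X = v'} : Language α))
    (hBX : HL 1 ({X | X ∈ XX D ∧ Bd D X} : Language α)) : HL 1 (LB D) := by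
  have h1 : HL 1 (XG D) := HL.setOf_and (hXX hXT) (HL.setOf_not hBX)
  exact h1.mul HL.top

theorem mem_LA {v b : V} {w : List α} : w ∈ LA D v b ↔ ∃ v1 X1 X2, w = X1 ++ X2 ∧ X1 ∈ XX D ∧
    Bd D X1 ∧ T D v X1 = v1 ∧ X2 ∈ XX D ∧ T D v1 X2 = b := by
  constructor
  · rintro ⟨v1, h⟩
    obtain ⟨X1, ⟨⟨a1, a2⟩, -, a3⟩, X2, ⟨a4, a5⟩, e⟩ := Language.mem_mul.1 h
    exact ⟨v1, X1, X2, e.symm, a1, a3, a2, a4, a5⟩
  · rintro ⟨v1, X1, X2, e, a1, a2, a3, a4, a5⟩
    exact ⟨v1, Language.mem_mul.2 ⟨X1, ⟨⟨a1, a3⟩, a1, a2⟩, X2, ⟨a4, a5⟩, e.symm⟩⟩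

theorem mem_LB {w : List α} : w ∈ LB D ↔ ∃ X r, w = X ++ r ∧ X ∈ XX D ∧ ¬ Bd D X := by
  constructor
  · intro h
    unfold LB at h
    obtain ⟨X, ⟨a1, a2⟩, r, -, e⟩ := Language.mem_mul.1 h
    exact ⟨X, r, e.symm, a1, fun hb => a2 ⟨a1, hb⟩⟩
  · rintro ⟨X, r, e, a1, a2⟩
    unfold LB
    exact Language.mem_mul.2 ⟨X, ⟨a1, fun hb => a2 hb.2⟩, r, Set.mem_univ r, e.symm⟩

theorem hQ2 (hXT : ∀ v v', HL 1 ({X | X ∈ XX D ∧ T D v X = v'} : Language α))
    (hBX : HL 1 ({X | X ∈ XX D ∧ Bd D X} : Language α)) (b : V) :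
    HL 1 ({Q | R2s D Q = some b} : Language α) := by
  have h1 : ∀ k, HL 1 ({Q | ∀ x ∈ {x : List α × V | LPk D k x.1 x.2},
      Q ∈ ({Q | x.1 ++ Q ∈ LA D x.2 b} : Language α)} : Language α) := fun k =>
    HL.biInter (LPk_finite k) (L := fun x => ({Q | x.1 ++ Q ∈ LA D x.2 b} : Language α))
      fun x _ => (hLA hXT hBX x.2 b).lquot x.1
  have h2 : ∀ k, HL 1 ({Q | ∀ x ∈ {x : List α × V | LPk D k x.1 x.2},
      Q ∈ ({Q | x.1 ++ Q ∈ LB D} : Language α)} : Language α) := fun k =>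
    HL.biInter (LPk_finite k) (L := fun x => ({Q | x.1 ++ Q ∈ LB D} : Language α))
      fun x _ => (hLB hXT hBX).lquot x.1
  have h3 : ∀ k, HL 1 ({Q | ∀ k' ∈ {k' | k' < D.K ∧ k' ≠ k}, Q ∈
      ({Q | ∀ x ∈ {x : List α × V | LPk D k' x.1 x.2},
      Q ∈ ({Q | x.1 ++ Q ∈ LB D} : Language α)} : Language α)} : Language α) := fun k =>
    HL.biInter ((Set.finite_lt_nat D.K).subset fun k' hk' => hk'.1)
      (L := fun k' => ({Q | ∀ x ∈ {x : List α × V | LPk D k' x.1 x.2},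
      Q ∈ ({Q | x.1 ++ Q ∈ LB D} : Language α)} : Language α)) fun k' _ => h2 k'
  have h4 : HL 1 ({Q | ∃ k ∈ {k | k < D.K ∧ ∃ P v, LPk D k P v}, Q ∈
      ({Q | Q ∈ ({Q | ∀ x ∈ {x : List α × V | LPk D k x.1 x.2},
      Q ∈ ({Q | x.1 ++ Q ∈ LA D x.2 b} : Language α)} : Language α) ∧
      Q ∈ ({Q | ∀ k' ∈ {k' | k' < D.K ∧ k' ≠ k}, Q ∈
      ({Q | ∀ x ∈ {x : List α × V | LPk D k' x.1 x.2},
      Q ∈ ({Q | x.1 ++ Q ∈ LB D} : Language α)} : Language α)} : Language α)} :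
        Language α)} : Language α) :=
    HL.biUnion ((Set.finite_lt_nat D.K).subset fun k' hk' => hk'.1)
      (L := fun k => ({Q | Q ∈ ({Q | ∀ x ∈ {x : List α × V | LPk D k x.1 x.2},
      Q ∈ ({Q | x.1 ++ Q ∈ LA D x.2 b} : Language α)} : Language α) ∧
      Q ∈ ({Q | ∀ k' ∈ {k' | k' < D.K ∧ k' ≠ k}, Q ∈
      ({Q | ∀ x ∈ {x : List α × V | LPk D k' x.1 x.2},
      Q ∈ ({Q | x.1 ++ Q ∈ LB D} : Language α)} : Language α)} : Language α)} : Language α))
      fun k _ => HL.setOf_and (h1 k) (h3 k)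
  refine h4.congr fun Q => ?_
  constructor
  · intro hQ
    obtain ⟨k, hk, hne, a1, a2⟩ := R2s_iff.1 hQ
    refine ⟨k, ⟨hk, hne⟩, ?_, ?_⟩
    · intro x hx
      exact mem_LA.2 (a1 x.1 x.2 hx)
    · intro k' hk' x hx
      exact mem_LB.2 (a2 k' hk'.1 hk'.2 x.1 x.2 hx)
  · rintro ⟨k, ⟨hk, hne⟩, a1, a2⟩
    refine R2s_iff.2 ⟨k, hk, hne, ?_, ?_⟩
    · intro P v hP
      exact mem_LA.1 (a1 (P, v) hP)
    · intro k' hk' hkk P v hP
      exact mem_LB.1 (a2 k' ⟨hk', hkk⟩ (P, v) hP)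

end heights

end Crest.Agent.R320.P6_841
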