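import Crest.Agent.R320.P6_841
import Crest.Agent.R320.Top5_163
import Crest.Agent.R320.Reg_819
import Crest.Agent.R320.WallU_228

/-!
Row 320, helper841: the three remaining height-one facts for the joint `P5_841` / `P6_841` (228's
walls, words with few walls), and the top of the row from the data.
-/

set_option autoImplicit false
set_option linter.unusedSectionVars false

namespace Crest.Agent.R320.P7_841

open Crest.RegLang Crest.Agent.R320.Hk_851 Crest.Agent.R320.P5_841 Crest.Agent.R320.P6_841
  Crest.Agent.R320.FewWalls_228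

universe u

variable {α : Type u} {S V : Type} [Monoid S] [AddCommGroup V] {D : Dt α S V}

def BU {ι : Type*} (s : Set ι) (L : ι → Language α) : Language α := {w | ∃ i ∈ s, w ∈ L i}

theorem reg_biUnion {ι : Type*} {s : Set ι} (hs : s.Finite) {L : ι → Language α}
    (h : ∀ i ∈ s, (L i).IsRegular) : Language.IsRegular ({w | ∃ i ∈ s, w ∈ L i} : Language α) := by
  change Language.IsRegular (BU s L)
  induction s, hs using Set.Finite.induction_on with
  | empty =>
    have e : BU (∅ : Set ι) L = 0 := by
      ext w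
      constructor
      · rintro ⟨i, hi, _⟩
        exact hi.elim
      · intro hw
        exact (Language.notMem_zero w hw).elim
    rw [e]
    exact Reg_819.reg_zero
  | @insert a s _ _ ih =>
    have h1 := (h a (Set.mem_insert _ _)).add (ih fun i hi => h i (Set.mem_insert_of_mem _ hi))
    have e : BU (insert a s) L = L a + BU s L := by
      ext w
      rw [Language.mem_add]
      constructor
      · rintro ⟨i, hi, hw⟩
        rcases Set.mem_insert_iff.1 hi with rfl | hi
        · exact Or.inl hw
        · exact Or.inr ⟨i, hi, hw⟩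
      · rintro (hw | ⟨i, hi, hw⟩)
        · exact ⟨a, Set.mem_insert _ _, hw⟩
        · exact ⟨i, Set.mem_insert_of_mem _ hi, hw⟩
    rw [e]
    exact h1

theorem reg_and {p q : List α → Prop} (hp : Language.IsRegular ({w | p w} : Language α))
    (hq : Language.IsRegular ({w | q w} : Language α)) : Language.IsRegular ({w | p w ∧ q w} : Language α) :=
  hp.inf hq

theorem reg_or {p q : List α → Prop} (hp : Language.IsRegular ({w | p w} : Language α))
    (hq : Language.IsRegular ({w | q w} : Language α)) : Language.IsRegular ({w | p w ∨ q w} : Language α) :=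
  hp.add hq

/-- words ending in a wall, of length at least `k` -/
def WZ (D : Dt α S V) (k : ℕ) : Language α := {w | D.Wo w ∧ k ≤ w.length}

def Ne (α : Type u) : Language α := {w | 1 ≤ w.length}

theorem XX_iff {X : List α} : X ∈ XX D ↔ X ∈ WZ D D.z ∧ ¬ X ∈ WZ D D.z * Ne α := by
  constructor
  · rintro ⟨a1, a2, a3⟩
    refine ⟨⟨a1, a2⟩, fun h => ?_⟩
    obtain ⟨Y, ⟨b1, b2⟩, r, hr, rfl⟩ := Language.mem_mul.1 h
    have hr' : 1 ≤ r.length := hr
    refine a3 Y.length (by rw [List.length_append]; omega) b2 ?_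
    rw [List.take_left' rfl]
    exact b1
  · rintro ⟨⟨a1, a2⟩, a3⟩
    refine ⟨a1, a2, fun t ht hz hw => a3 ?_⟩
    refine Language.mem_mul.2 ⟨X.take t, ⟨hw, ?_⟩, X.drop t, ?_, List.take_append_drop _ _⟩
    · rw [List.length_take]; omega
    · show 1 ≤ (X.drop t).length
      rw [List.length_drop]; omega

section reg

variable [Finite α]

theorem hWZ (hW : HL 0 ({w | D.Wo w} : Language α)) (k : ℕ) : HL 0 (WZ D k) :=
  HL.setOf_and hW (HL.length_ge k)

theorem XX_HL (hW : HL 0 ({w | D.Wo w} : Language α)) : HL 0 ({X | X ∈ XX D} : Language α) :=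
  (HL.setOf_and (hWZ hW D.z) (HL.setOf_not ((hWZ hW D.z).mul (HL.length_ge 1)))).congr
    fun X => XX_iff

theorem EB_HL (hW : HL 0 ({w | D.Wo w} : Language α)) : HL 0 ({X | EB D X} : Language α) := by
  have h1 : HL 0 ({w | (D.Wo w ∧ D.z - D.N1 ≤ w.length) ∧ w.length < D.z + D.N1} : Language α) :=
    HL.setOf_and (HL.setOf_and hW (HL.length_ge _)) (HL.length_lt _)
  refine (h1.mul HL.top).congr fun X => ?_
  constructor
  · rintro ⟨t, t1, t2, t3, t4⟩
    refine Language.mem_mul.2 ⟨X.take t, ⟨⟨t4, ?_⟩, ?_⟩, X.drop t, Set.mem_univ _,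
      List.take_append_drop _ _⟩
    · rw [List.length_take]; omega
    · show (X.take t).length < _
      rw [List.length_take]; omega
  · intro h
    obtain ⟨Y, ⟨⟨b1, b2⟩, b3⟩, r, -, rfl⟩ := Language.mem_mul.1 h
    have b3' : Y.length < D.z + D.N1 := b3
    refine ⟨Y.length, by rw [List.length_append]; omega, by omega, b3', ?_⟩
    rw [List.take_left' rfl]
    exact b1

/-- prefixing by the words of length `p0` -/
theorem pre_reg (p0 : ℕ) (L : List α → Language α) (hL : ∀ X0 : List α, Language.IsRegular (L X0)) :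
    Language.IsRegular ({X | p0 ≤ X.length ∧ X.drop p0 ∈ L (X.take p0)} : Language α) := by
  have h1 := reg_biUnion (List.finite_length_eq α p0) (L := fun X0 => ({X0} : Language α) * L X0)
    (fun X0 _ => Reg_819.reg_mul (Reg_819.HL.regular (HL.word (k := 0) X0)) (hL X0))
  have e : ({X | p0 ≤ X.length ∧ X.drop p0 ∈ L (X.take p0)} : Language α) =
      {w | ∃ i ∈ {l : List α | l.length = p0}, w ∈ ({i} : Language α) * L i} := by
    ext w
    constructor
    · rintro ⟨a1, a2⟩
      refine ⟨w.take p0, ?_, Language.mem_mul.2 ⟨w.take p0, rfl, w.drop p0, a2,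
        List.take_append_drop _ _⟩⟩
      show (w.take p0).length = p0
      rw [List.length_take]; omega
    · rintro ⟨X0, h0, h⟩
      have h0' : X0.length = p0 := h0
      obtain ⟨Y, hY, r, hr, rfl⟩ := Language.mem_mul.1 h
      have hY' : Y = X0 := hY
      subst hY'
      refine ⟨by rw [List.length_append]; omega, ?_⟩
      rw [List.take_left' h0', List.drop_left' h0']
      exact hr
  rw [e]
  exact h1

theorem T_reg [Finite S] [Finite V] (h : Ok D)
    (hφr : ∀ s, Language.IsRegular ({w | D.φ w = s} : Language α))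
    (hnr : ∀ x, Language.IsRegular ({w | D.nu1 w = x} : Language α)) (v v' : V) :
    Language.IsRegular ({X | D.p0 ≤ X.length ∧ T D v X = v'} : Language α) := by
  have h1 := pre_reg D.p0 (fun X0 => ({Y | ∃ i ∈ {i : S × V | D.act (D.act v (D.φ X0) +
    D.nu2 X0) i.1 + i.2 = v'}, Y ∈ ({Y | D.φ Y = i.1 ∧ D.nu1 Y = i.2} : Language α)} :
      Language α)) (fun X0 => reg_biUnion (Set.toFinite _)
        (L := fun i : S × V => ({Y | D.φ Y = i.1 ∧ D.nu1 Y = i.2} : Language α))
        fun i _ => reg_and (hφr i.1) (hnr i.2))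
  have e : ({X | D.p0 ≤ X.length ∧ T D v X = v'} : Language α) =
      {X | D.p0 ≤ X.length ∧ X.drop D.p0 ∈ (({Y | ∃ i ∈ {i : S × V | D.act (D.act v
        (D.φ (X.take D.p0)) + D.nu2 (X.take D.p0)) i.1 + i.2 = v'},
        Y ∈ ({Y | D.φ Y = i.1 ∧ D.nu1 Y = i.2} : Language α)} : Language α))} := by
    ext X
    have hT : ∀ (hX : D.p0 ≤ X.length), T D v X = D.act (D.act v (D.φ (X.take D.p0)) +
        D.nu2 (X.take D.p0)) (D.φ (X.drop D.p0)) + D.nu1 (X.drop D.p0) := fun hX =>
      T_eq h v (X.take D.p0) (X.drop D.p0) (List.take_append_drop _ _).symm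
        (by rw [List.length_take]; omega)
    constructor
    · rintro ⟨a1, a2⟩
      refine ⟨a1, (D.φ (X.drop D.p0), D.nu1 (X.drop D.p0)), ?_, rfl, rfl⟩
      show _ = v'
      rw [← hT a1]
      exact a2
    · rintro ⟨a1, ⟨s, x⟩, a2, a3, a4⟩
      refine ⟨a1, ?_⟩
      have a2' : D.act (D.act v (D.φ (X.take D.p0)) + D.nu2 (X.take D.p0)) s + x = v' := a2
      have a3' : D.φ (X.drop D.p0) = s := a3
      have a4' : D.nu1 (X.drop D.p0) = x := a4
      rw [hT a1, a3', a4']
      exact a2'
  rw [e]
  exact h1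

variable {n c P : ℕ} {Sw : Set (List α)}

open Classical in
/-- few walls -/
theorem few_of (hn : 0 < n) {z : ℕ} {w : List α}
    (hw : ∀ t < w.length, z ≤ t → ¬ WallU_228.Wo n Sw (w.take t)) : nw n Sw w ≤ z + 1 := by
  have hsub : ((Finset.range (w.length + 1)).filter (fun x => Wl n Sw w x)) ⊆
      insert (w.length - n) (Finset.range z) := by
    intro x hx
    rw [Finset.mem_filter, WallU_228.wo_take] at hx
    obtain ⟨-, h1, h2⟩ := hx
    rw [Finset.mem_insert, Finset.mem_range]
    by_cases hlt : x + n < w.length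
    · right
      by_contra hc
      exact hw (x + n) hlt (by omega) h2
    · left
      omega
  unfold nw
  refine (Finset.card_le_card hsub).trans ((Finset.card_insert_le _ _).trans ?_)
  rw [Finset.card_range]

/-- **MAIN**: the row from the data. -/
theorem main [Finite S] [Finite V] (h : Ok D) (hφ1 : D.φ [] = 1)
    (faith : ∀ s s', (∀ v, D.act v s = D.act v s') → s = s')
    (hWo : D.Wo = WallU_228.Wo n Sw) (hn : 0 < n) (hP : 0 < P) (hper : PerOff n c P Sw)
    (hφr : ∀ s, Language.IsRegular ({w | D.φ w = s} : Language α))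
    (hnr : ∀ x, Language.IsRegular ({w | D.nu1 w = x} : Language α))
    (hBr : Language.IsRegular ({w | D.BadT w.length} : Language α)) (s : S) :
    HL 3 ({w | D.φ w = s} : Language α) := by
  have hz := h.hz
  have hW : HL 0 ({w | D.Wo w} : Language α) := by
    rw [hWo]
    have h1 : HL 0 ({w | n ≤ w.length ∧ w.drop (w.length - n) ∈ Sw} : Language α) :=
      HL.setOf_and (HL.length_ge n) (Hgt1_903.H.suffixWindow 0 n (fun u => u ∈ Sw))
    exact h1
  have hXXr := Reg_819.HL.regular (XX_HL hW)
  have hXT : ∀ v v', HL 1 ({X | X ∈ XX D ∧ T D v X = v'} : Language α) := by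
    intro v v'
    refine FewVal_228.HL_of_few hn hP hper (D.z + 1) ?_ ?_
    · have h1 := reg_and hXXr (T_reg h hφr hnr v v')
      have e : ({X | X ∈ XX D ∧ T D v X = v'} : Language α) =
          {w | w ∈ XX D ∧ D.p0 ≤ w.length ∧ T D v w = v'} := by
        ext X
        constructor
        · rintro ⟨a1, a2⟩
          exact ⟨a1, by have := a1.2.1; omega, a2⟩
        · rintro ⟨a1, -, a2⟩
          exact ⟨a1, a2⟩
      rw [e]
      exact h1
    · rintro X ⟨a1, -⟩
      refine few_of hn fun t ht hzt => ?_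
      have := a1.2.2 t ht hzt
      rwa [hWo] at this
  have hBX : HL 1 ({X | X ∈ XX D ∧ Bd D X} : Language α) := by
    refine FewVal_228.HL_of_few hn hP hper (D.z + 1) ?_ ?_
    · have h1 := reg_and hXXr (reg_or (Reg_819.HL.regular (EB_HL hW))
        (pre_reg D.p0 (fun _ => ({w | D.BadT w.length} : Language α)) (fun _ => hBr)))
      have e : ({X | X ∈ XX D ∧ Bd D X} : Language α) =
          {w | w ∈ XX D ∧ (EB D w ∨ (D.p0 ≤ w.length ∧ w.drop D.p0 ∈
            ({w | D.BadT w.length} : Language α)))} := by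
        ext X
        have hl : (X.drop D.p0).length = X.length - D.p0 := List.length_drop
        constructor
        · rintro ⟨a1, a2 | a2⟩
          · exact ⟨a1, Or.inl a2⟩
          · refine ⟨a1, Or.inr ⟨by have := a1.2.1; omega, ?_⟩⟩
            show D.BadT (X.drop D.p0).length
            rw [hl]
            exact a2
        · rintro ⟨a1, a2 | ⟨-, a2⟩⟩
          · exact ⟨a1, Or.inl a2⟩
          · refine ⟨a1, Or.inr ?_⟩
            have a2' : D.BadT (X.drop D.p0).length := a2
            rwa [hl] at a2'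
      rw [e]
      exact h1
    · rintro X ⟨a1, -⟩
      refine few_of hn fun t ht hzt => ?_
      have := a1.2.2 t ht hzt
      rwa [hWo] at this
  have hNP : ∀ s, HL 1 ({r | (∀ X ∈ XX D, ¬ X <+: r) ∧ D.φ r = s} : Language α) := by
    intro s
    have hno : ∀ r : List α, (∀ X ∈ XX D, ¬ X <+: r) → ∀ t ≤ r.length, D.z ≤ t →
        ¬ D.Wo (r.take t) := by
      classical
      intro r hr t ht hzt hw
      have hex : ∃ t, t ≤ r.length ∧ D.z ≤ t ∧ D.Wo (r.take t) := ⟨t, ht, hzt, hw⟩
      obtain ⟨b1, b2, b3⟩ := Nat.find_spec hex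
      refine hr (r.take (Nat.find hex)) ⟨b3, by rw [List.length_take]; omega, ?_⟩
        (List.take_prefix _ _)
      intro y hy hzy hwy
      rw [List.length_take] at hy
      rw [List.take_take, min_eq_left (by omega)] at hwy
      exact Nat.find_min hex (m := y) (by omega) ⟨by omega, hzy, hwy⟩
    refine FewVal_228.HL_of_few hn hP hper (D.z + 1) ?_ ?_
    · refine reg_and ?_ (hφr s)
      have h1 := (Reg_819.HL.regular ((hWZ hW D.z).mul (HL.top (k := 0)))).compl
      have e : ({r | ∀ X ∈ XX D, ¬ X <+: r} : Language α) = (WZ D D.z * ⊤)ᶜ := by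
        ext r
        constructor
        · intro hr hc
          obtain ⟨Y, ⟨b1, b2⟩, q, -, rfl⟩ := Language.mem_mul.1 hc
          refine hno _ hr Y.length (by rw [List.length_append]; omega) b2 ?_
          rw [List.take_left' rfl]
          exact b1
        · intro hr X hX hpre
          obtain ⟨q, rfl⟩ := hpre
          exact hr (Language.mem_mul.2 ⟨X, ⟨hX.1, hX.2.1⟩, q, Set.mem_univ _, rfl⟩)
      rw [e]
      exact h1
    · rintro r ⟨a1, -⟩
      refine few_of hn fun t ht hzt => ?_
      have := hno r a1 t ht.le hzt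
      rwa [hWo] at this
  exact Top5_163.top D.φ hφ1 h.φ_app D.act h.act_mul h.act_add faith (XX D) (nil_XX h)
    (fun X hX Y hXY => PC X hX Y hXY) (T D) (nu D) (fun X _ v => rfl) (LP1 D) (LP2 D) (R1s D)
    (R2s D) (hR1 h) (hR2 h) s1' (s2' h) (cc' h) hXT hNP (hL1 h) (hL2 h) (hQ1 h hXT)
    (hQ2 hXT hBX) s

end reg

end Crest.Agent.R320.P7_841
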