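import Crest.Agent.R320.Hk2_851

/-!
# Row 320: reading by padding, and the abstract level step (helper47)

* `HL.comap`   : inverse images under letter maps keep the height;
* `HL.pad`     : `{w | p ++ w.map f ++ q ∈ L}` keeps the height;
* `reading`    : if the noisy transport `T w c = c . phi(w) + d(w)` is readable, so is `phi(w)`;
* `HL_of_between` : `K` closed under products, `Irr(K) ≤ X ≤ K`, `X ∈ H_j` gives `K ∈ H_(j+1)`;
* `level_step` : the same when `X` is produced by the readings of an inner sound scheme; no class
  of words ("bad stretch") has to be expressed.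
-/

set_option autoImplicit false

namespace Crest.Agent.R320.Pad_47

open Crest.RegLang Crest.Agent.R320.Hk_851

universe u v

variable {α : Type u} {β : Type v} {k : ℕ}

/-- inverse image under a letter map -/
def cmap (f : α → β) (L : Language β) : Language α := {w | w.map f ∈ L}

theorem kstar_comap (f : α → β) (L : Language β) (w : List α) :
    w.map f ∈ KStar.kstar L ↔ w ∈ KStar.kstar (cmap f L) := by
  constructor
  · intro h
    obtain ⟨S, hS, hm⟩ := Language.mem_kstar.1 h
    clear h
    induction S generalizing w with
    | nil =>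
      have : w = [] := by simpa using hS
      subst this
      exact Language.nil_mem_kstar _
    | cons x S ih =>
      rw [List.flatten_cons] at hS
      obtain ⟨w1, w2, rfl, h1, h2⟩ := List.map_eq_append_iff.1 hS
      have hw2 := ih w2 h2 (fun y hy => hm y (List.mem_cons_of_mem _ hy))
      obtain ⟨S', hS', hm'⟩ := Language.mem_kstar.1 hw2
      refine Language.mem_kstar.2 ⟨w1 :: S', by rw [List.flatten_cons, ← hS'], ?_⟩
      intro y hy
      rcases List.mem_cons.1 hy with rfl | hy
      · change y.map f ∈ L
        rw [h1]
        exact hm x (by simp)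
      · exact hm' y hy
  · intro h
    obtain ⟨S, rfl, hm⟩ := Language.mem_kstar.1 h
    refine Language.mem_kstar.2 ⟨S.map (List.map f), by rw [List.map_flatten], ?_⟩
    intro y hy
    obtain ⟨x, hx, rfl⟩ := List.mem_map.1 hy
    exact hm x hx

theorem comap_aux [Finite α] (f : α → β) :
    ∀ e : GRegExp β, HL e.height (cmap f e.lang)
  | .zero => HL.bot.congr fun w => ⟨fun h => h.elim, fun h => h.elim⟩
  | .eps => HL.one.congr fun w => by
      constructor
      · intro h
        have h' : w.map f = [] := h
        exact List.map_eq_nil_iff.1 h'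
      · intro h
        have h' : w = [] := h
        subst h'
        exact rfl
  | .char b => by
      have h := HL.biUnion (k := 0) (Set.toFinite {a : α | f a = b})
        (L := fun a => ({[a]} : Language α)) (fun a _ => HL.char a)
      refine h.congr fun w => ?_
      constructor
      · intro hw
        have hw' : w.map f = [b] := hw
        obtain ⟨a, rfl, ha⟩ := List.map_eq_singleton_iff.1 hw'
        exact ⟨a, ha, rfl⟩
      · rintro ⟨a, ha, hw⟩
        have hw' : w = [a] := hw
        have ha' : f a = b := ha
        subst hw'
        change List.map f [a] = [b]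
        simp [ha']
  | .union P Q =>
      ((comap_aux f P).mono (le_max_left P.height Q.height)).add
        ((comap_aux f Q).mono (le_max_right P.height Q.height))
  | .cat P Q => by
      have h1 := (comap_aux f P).mono (le_max_left P.height Q.height)
      have h2 := (comap_aux f Q).mono (le_max_right P.height Q.height)
      refine (h1.mul h2).congr fun w => ?_
      constructor
      · intro hw
        obtain ⟨x, hx, y, hy, hxy⟩ := Language.mem_mul.1 (show w.map f ∈ P.lang * Q.lang from hw)
        obtain ⟨w1, w2, rfl, h1, h2⟩ := List.map_eq_append_iff.1 hxy.symm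
        refine Language.mem_mul.2 ⟨w1, ?_, w2, ?_, rfl⟩
        · change w1.map f ∈ P.lang
          rw [h1]; exact hx
        · change w2.map f ∈ Q.lang
          rw [h2]; exact hy
      · intro hw
        obtain ⟨x, hx, y, hy, rfl⟩ := Language.mem_mul.1 hw
        change (x ++ y).map f ∈ P.lang * Q.lang
        rw [List.map_append]
        exact Language.mem_mul.2 ⟨_, hx, _, hy, rfl⟩
  | .not P => (comap_aux f P).compl
  | .star P => by
      refine (comap_aux f P).star.congr fun w => ?_
      exact kstar_comap f P.lang w

/-- inverse images under letter maps keep the generalized star height -/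
theorem HL_comap [Finite α] (f : α → β) {L : Language β} (h : HL k L) :
    HL k ({w : List α | w.map f ∈ L} : Language α) := by
  obtain ⟨e, h1, rfl⟩ := h
  exact (comap_aux f e).mono h1

/-- fixed left and right pads (over a larger alphabet) keep the generalized star height -/
theorem HL_pad [Finite α] (f : α → β) (p q : List β) {L : Language β} (h : HL k L) :
    HL k ({w : List α | p ++ w.map f ++ q ∈ L} : Language α) := by
  have h1 := (h.rquot q).lquot p
  exact (HL_comap f h1).congr fun w => Iff.rfl

/-- **Reading**: if the noisy transport `T w c = act c (phi w) + d w` is readable at height `k`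
for every token `c`, then `phi` is readable at height `k`. -/
theorem reading {S V : Type*} [AddCommGroup V] [Finite V] (act : V → S → V)
    (act0 : ∀ s, act 0 s = 0) (faithful : ∀ s t, (∀ c, act c s = act c t) → s = t)
    (phi : List α → S) (d : List α → V) (T : List α → V → V)
    (hT : ∀ w c, T w c = act c (phi w) + d w)
    (hH : ∀ c v, HL k ({w | T w c = v} : Language α)) (s : S) :
    HL k ({w | phi w = s} : Language α) := by
  have h1 : HL k ({w | ∀ c : V, w ∈ ({w | ∃ v0 : V, w ∈ ({w | T w c = act c s + v0 ∧ T w 0 = v0}
      : Language α)} : Language α)} : Language α) :=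
    HL.iInter fun c => HL.iUnion fun v0 => (hH c (act c s + v0)).setOf_and (hH 0 v0)
  refine h1.congr fun w => ?_
  constructor
  · intro hw c
    have hw' : phi w = s := hw
    refine ⟨d w, ?_, ?_⟩
    · rw [hT, hw']
    · rw [hT, act0, zero_add]
  · intro hw
    refine faithful _ _ fun c => ?_
    obtain ⟨v0, h2, h3⟩ := hw c
    rw [hT] at h2
    rw [hT, act0, zero_add] at h3
    rw [h3] at h2
    exact add_right_cancel h2

/-- words of `K` which are not a product of two words of `K` -/
def Irr (K : Language α) : Language α := {u | u ∈ K ∧ ∀ p ∈ K, ∀ q ∈ K, p ++ q ≠ u}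

theorem kstar_eq_of_between {K X : Language α} (hK : ∀ u ∈ K, ∀ v ∈ K, u ++ v ∈ K)
    (h0 : ([] : List α) ∉ K) (h1 : ∀ u ∈ Irr K, u ∈ X) (h2 : ∀ u ∈ X, u ∈ K) (w : List α) :
    w ∈ KStar.kstar X ↔ w ∈ K ∨ w = [] := by
  constructor
  · intro h
    obtain ⟨S, rfl, hm⟩ := Language.mem_kstar.1 h
    clear h
    induction S with
    | nil => right; rfl
    | cons x S ih =>
      have hx : x ∈ K := h2 x (hm x (by simp))
      rcases ih (fun y hy => hm y (List.mem_cons_of_mem _ hy)) with h | h
      · left
        rw [List.flatten_cons]
        exact hK x hx _ h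
      · left
        rw [List.flatten_cons, h, List.append_nil]
        exact hx
  · rintro (h | rfl)
    · induction hn : w.length using Nat.strong_induction_on generalizing w with
      | _ n ih =>
        by_cases hI : w ∈ Irr K
        · refine Language.mem_kstar.2 ⟨[w], by simp, ?_⟩
          intro y hy
          rw [List.mem_singleton.1 hy]
          exact h1 w hI
        · have hI' : ∃ p ∈ K, ∃ q ∈ K, p ++ q = w := by
            by_contra hcon
            refine hI ⟨h, fun p hp q hq e => hcon ⟨p, hp, q, hq, e⟩⟩
          obtain ⟨p, hp, q, hq, rfl⟩ := hI'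
          have hp0 : 0 < p.length := List.length_pos_iff.2 fun e => h0 (e ▸ hp)
          have hq0 : 0 < q.length := List.length_pos_iff.2 fun e => h0 (e ▸ hq)
          rw [List.length_append] at hn
          obtain ⟨S1, hS1, hm1⟩ := Language.mem_kstar.1 (ih p.length (by omega) p hp rfl)
          obtain ⟨S2, hS2, hm2⟩ := Language.mem_kstar.1 (ih q.length (by omega) q hq rfl)
          refine Language.mem_kstar.2 ⟨S1 ++ S2, by rw [List.flatten_append, ← hS1, ← hS2], ?_⟩
          intro y hy
          rcases List.mem_append.1 hy with hy | hy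
          · exact hm1 y hy
          · exact hm2 y hy
    · exact Language.nil_mem_kstar _

/-- `K` closed under products and `Irr K ≤ X ≤ K`, `X` of height `k`: then `K` has height `k + 1`. -/
theorem HL_of_between {K X : Language α} (hK : ∀ u ∈ K, ∀ v ∈ K, u ++ v ∈ K)
    (h0 : ([] : List α) ∉ K) (h1 : ∀ u ∈ Irr K, u ∈ X) (h2 : ∀ u ∈ X, u ∈ K) (hX : HL k X) :
    HL (k + 1) K := by
  have h := hX.star.sdiff (HL.one (α := α) (k := k + 1))
  refine h.congr fun w => ?_
  have hw := kstar_eq_of_between hK h0 h1 h2 w
  constructor
  · intro h3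
    refine ⟨hw.2 (Or.inl h3), fun h4 => ?_⟩
    have h5 : w = [] := h4
    exact h0 (h5 ▸ h3)
  · rintro ⟨h3, h4⟩
    rcases hw.1 h3 with h5 | h5
    · exact h5
    · exact (h4 (by rw [h5]; exact rfl)).elim

/-- **Level step.** `K` is closed under products and recognised by `psi : words → S`, `K = psi⁻¹ P`.
An inner scheme provides readings `Rd u c v` (height `k`) which are SOUND on every word
(`v = act c (psi u) + d u` for a function `d`), and complete on the irreducible words of `K`.
Then `K` has height `k + 1`. No class of bad words has to be expressed. -/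
theorem level_step {S V : Type*} [AddCommGroup V] [Finite V] [Finite S] (act : V → S → V)
    (act0 : ∀ s, act 0 s = 0) (faithful : ∀ s t, (∀ c, act c s = act c t) → s = t)
    {K : Language α} (hK : ∀ u ∈ K, ∀ v ∈ K, u ++ v ∈ K) (h0 : ([] : List α) ∉ K)
    (psi : List α → S) (P : Set S) (hP : ∀ u, u ∈ K ↔ psi u ∈ P)
    (Rd : V → V → Language α) (hR : ∀ c v, HL k (Rd c v)) (d : List α → V)
    (sound : ∀ u c v, u ∈ Rd c v → v = act c (psi u) + d u)
    (complete : ∀ u ∈ Irr K, ∀ c, ∃ v, u ∈ Rd c v) : HL (k + 1) K := by
  let X : Language α := {u | ∃ s ∈ P, ∀ c : V, ∃ v0 : V, u ∈ Rd c (act c s + v0) ∧ u ∈ Rd 0 v0}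
  have hX : HL k X := by
    have h := HL.biUnion (k := k) (Set.toFinite P)
      (L := fun s => ({u | ∀ c : V, u ∈ ({u | ∃ v0 : V, u ∈ ({u | u ∈ Rd c (act c s + v0) ∧
        u ∈ Rd 0 v0} : Language α)} : Language α)} : Language α))
      (fun s _ => HL.iInter fun c => HL.iUnion fun v0 => (hR c (act c s + v0)).setOf_and (hR 0 v0))
    exact h.congr fun u => Iff.rfl
  refine HL_of_between (X := X) hK h0 ?_ ?_ hX
  · intro u hu
    refine ⟨psi u, (hP u).1 hu.1, fun c => ⟨d u, ?_, ?_⟩⟩
    · obtain ⟨v, hv⟩ := complete u hu c
      rw [← sound u c v hv]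
      exact hv
    · obtain ⟨v, hv⟩ := complete u hu 0
      have h3 := sound u 0 v hv
      rw [act0, zero_add] at h3
      rw [← h3]
      exact hv
  · rintro u ⟨s, hs, hu⟩
    have : psi u = s := by
      refine faithful _ _ fun c => ?_
      obtain ⟨v0, h2, h3⟩ := hu c
      have h4 := sound u _ _ h2
      have h5 := sound u _ _ h3
      rw [act0, zero_add] at h5
      rw [h5] at h4
      exact (add_right_cancel h4).symm
    rw [hP, this]
    exact hs

end Crest.Agent.R320.Pad_47
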