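import Crest.Agent.R320.Main_621

/-!
# Row 320: two nested schemes, one token system, inner scheme looks over the next zone (helper320)

Over 621's `Star_621`, `Two_621`, `Main_621`.  `row2` is the row from `Data2`:
* `Z` prefix code of zones (blocks of the left-looking wall rule), `Zc <= Z` the critical zones;
* outer scheme `LA RA` sound on all zones, complete off `Zc`;
* inner scheme `LB RB` on pairs of consecutive critical zones, cut in the first one, the right word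
  covers the rest of the first zone and the whole second zone (look-ahead);
* one zone map `aff ph d` for both schemes.
-/

set_option autoImplicit false

namespace Crest.Agent.R320.Pair_320

open Crest.Agent.R320.Hk_851 Crest.Agent.R320.Star_621 Crest.Agent.R320.Two_621
open Crest.Agent.R320.Main_621 Crest.RegLang

universe u v

variable {α : Type u} {Ω : Type v} {Z Zc : Language α} {psi : List α → Ω → Ω}
  {Lf Rt : Ω → Language α}

theorem Flow.sub (hsub : ∀ z ∈ Zc, z ∈ Z) {ω ω' : Ω} {w : List α} (h : Flow Zc psi ω w ω') :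
    Flow Z psi ω w ω' := by
  induction h with
  | nil ω => exact Flow.nil ω
  | cons hz _ ih => exact Flow.cons (hsub _ hz) ih

def K2 (Zc : Language α) (psi : List α → Ω → Ω) (Lf Rt : Ω → Language α) : Language α :=
  {w | ∃ τ σ, ∃ Q ∈ Rt τ, ∃ u, Flow Zc psi τ u σ ∧ ∃ P ∈ Lf σ, Q ++ (u ++ P) = w}

def Last2 (Zc : Language α) (psi : List α → Ω → Ω) (Rt : Ω → Language α) (ω' : Ω) :
    Language α :=
  {w | ∃ τ, ∃ Q ∈ Rt τ, ∃ u, Flow Zc psi τ u ω' ∧ Q ++ u = w}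

def First2 (Zc : Language α) (psi : List α → Ω → Ω) (Lf : Ω → Language α) (ω : Ω) :
    Language α :=
  {w | ∃ σ, ∃ u, Flow Zc psi ω u σ ∧ ∃ P ∈ Lf σ, u ++ P = w}

theorem tail_sound2 (hC : Code Z) (hsub : ∀ z ∈ Zc, z ∈ Z) (hS : Sound Z psi Lf Rt) (ω' : Ω)
    (L : List (List α)) (hL : ∀ y ∈ L, y ∈ K2 Zc psi Lf Rt) (r : List α)
    (hr : r ∈ Last2 Zc psi Rt ω') :
    ∀ (σ : Ω) (P : List α), P ∈ Lf σ → ZS Z (P ++ (L.flatten ++ r)) →
      Flow Z psi σ (P ++ (L.flatten ++ r)) ω' := by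
  have key : ∀ (σ τ : Ω) (P Q x : List α), P ∈ Lf σ → Q ∈ Rt τ → ZS Z (P ++ (Q ++ x)) →
      (P ++ Q ∈ Z ∧ τ = psi (P ++ Q) σ) ∧ ZS Z x := by
    intro σ τ P Q x hP hQ hz
    generalize hw : P ++ (Q ++ x) = w at hz
    cases hz with
    | nil =>
      have : P = [] := (List.append_eq_nil_iff.1 hw).1
      exact absurd (this ▸ hP) (hS.1 σ)
    | @cons z y hz' hy =>
      have h1 : P ++ Q ++ x = z ++ y := by rw [List.append_assoc]; exact hw
      obtain ⟨h2, h3⟩ := hS.2 σ τ P Q z x y hP hQ hz' h1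
      subst h2
      have : x = y := List.append_cancel_left h1
      subst this
      exact ⟨⟨hz', h3⟩, hy⟩
  induction L with
  | nil =>
    intro σ P hP hz
    obtain ⟨τ, Q, hQ, u, hu, rfl⟩ := hr
    simp only [List.flatten_nil, List.nil_append] at hz ⊢
    obtain ⟨⟨h1, h2⟩, h3⟩ := key σ τ P Q u hP hQ hz
    rw [← List.append_assoc]
    exact Flow.cons h1 (h2 ▸ Flow.sub hsub hu)
  | cons y L ih =>
    intro σ P hP hz
    obtain ⟨τ, σ', Q, hQ, u, hu, P', hP', rfl⟩ := hL y (by simp)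
    have e : P ++ ((((Q ++ (u ++ P')) :: L).flatten) ++ r)
        = P ++ (Q ++ (u ++ (P' ++ (L.flatten ++ r)))) := by simp
    rw [e] at hz ⊢
    obtain ⟨⟨h1, h2⟩, h3⟩ := key σ τ P Q _ hP hQ hz
    have h4 := Flow.strip hC (Flow.sub hsub hu) h3
    have h5 := ih (fun z hz => hL z (by simp [hz])) σ' P' hP' h4
    rw [← List.append_assoc]
    exact Flow.cons h1 (h2 ▸ (Flow.sub hsub hu).append h5)

theorem tail_complete2 (hS : Sound Z psi Lf Rt)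
    (hcomp : ∀ z ∈ Z, z ∉ Zc → ∀ v, Cut Lf Rt v z) {ω ω' : Ω} {w : List α}
    (h : Flow Z psi ω w ω') :
    Flow Zc psi ω w ω' ∨
      ∃ f ∈ First2 Zc psi Lf ω, ∃ L : List (List α), (∀ y ∈ L, y ∈ K2 Zc psi Lf Rt) ∧
        ∃ r ∈ Last2 Zc psi Rt ω', f ++ (L.flatten ++ r) = w := by
  induction h with
  | nil ω => exact Or.inl (Flow.nil ω)
  | @cons z w ω ω' hz _ ih =>
    by_cases hc : z ∈ Zc
    · rcases ih with hu | ⟨f, ⟨σ, u, hu, P', hP', rfl⟩, L, hL, r, hr, hw⟩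
      · exact Or.inl (Flow.cons hc hu)
      · right
        exact ⟨(z ++ u) ++ P', ⟨σ, z ++ u, Flow.cons hc hu, P', hP', rfl⟩, L, hL, r, hr, by
          rw [← hw]; simp⟩
    · right
      obtain ⟨P, Q, τ, hzz, hP, hQ⟩ := hcomp z hz hc ω
      obtain ⟨-, hτ⟩ := hS.2 ω τ P Q z [] [] hP hQ hz (by simp [hzz])
      refine ⟨P, ⟨ω, [], Flow.nil ω, P, hP, rfl⟩, ?_⟩
      rcases ih with hu | ⟨f, ⟨σ, u, hu, P', hP', rfl⟩, L, hL, r, hr, hw⟩
      · exact ⟨[], by simp, Q ++ w, ⟨τ, Q, hQ, w, hτ ▸ hu, rfl⟩, by simp [hzz]⟩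
      · refine ⟨(Q ++ (u ++ P')) :: L, ?_, r, hr, ?_⟩
        · intro y hy
          rcases List.mem_cons.1 hy with rfl | hy
          · exact ⟨τ, σ, Q, hQ, u, hτ ▸ hu, P', hP', rfl⟩
          · exact hL y hy
        · rw [← hw, hzz]; simp

theorem star2 [Finite Ω] {h : ℕ} (hC : Code Z) (hsub : ∀ z ∈ Zc, z ∈ Z)
    (hS : Sound Z psi Lf Rt) (hZ : HL (h + 1) (KStar.kstar Z : Language α))
    (hL : ∀ ω, HL h (Lf ω)) (hR : ∀ ω, HL h (Rt ω))
    (hU : ∀ ω ω', HL h ({w | Flow Zc psi ω w ω'} : Language α))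
    (hcomp : ∀ z ∈ Z, z ∉ Zc → ∀ v, Cut Lf Rt v z) (ω ω' : Ω) :
    HL (h + 1) ({w | Flow Z psi ω w ω'} : Language α) := by
  have cat : ∀ {L M : Language α} {k : ℕ}, HL k L → HL k M →
      HL k ({w | ∃ a ∈ L, ∃ b ∈ M, a ++ b = w} : Language α) := by
    intro L M k h1 h2
    exact (h1.mul h2).congr fun w => Language.mem_mul.symm
  have hK : HL h (K2 Zc psi Lf Rt) := by
    refine (HL.iUnion fun τ => HL.iUnion fun σ =>
      cat (hR τ) (cat (hU τ σ) (hL σ))).congr fun w => ?_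
    constructor
    · rintro ⟨τ, σ, Q, hQ, u, hu, P, hP, rfl⟩
      exact ⟨τ, σ, Q, hQ, u ++ P, ⟨u, hu, P, hP, rfl⟩, rfl⟩
    · rintro ⟨τ, σ, Q, hQ, _, ⟨u, hu, P, hP, rfl⟩, rfl⟩
      exact ⟨τ, σ, Q, hQ, u, hu, P, hP, rfl⟩
  have hLast : HL h (Last2 Zc psi Rt ω') := by
    refine (HL.iUnion fun τ => cat (hR τ) (hU τ ω')).congr fun w => ?_
    constructor
    · rintro ⟨τ, Q, hQ, u, hu, rfl⟩
      exact ⟨τ, Q, hQ, u, hu, rfl⟩
    · rintro ⟨τ, Q, hQ, u, hu, rfl⟩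
      exact ⟨τ, Q, hQ, u, hu, rfl⟩
  have hFirst : HL h (First2 Zc psi Lf ω) := by
    refine (HL.iUnion fun σ => cat (hU ω σ) (hL σ)).congr fun w => ?_
    constructor
    · rintro ⟨σ, u, hu, P, hP, rfl⟩
      exact ⟨σ, u, hu, P, hP, rfl⟩
    · rintro ⟨σ, u, hu, P, hP, rfl⟩
      exact ⟨σ, u, hu, P, hP, rfl⟩
  have m := Nat.le_succ h
  refine (((hU ω ω').mono m).sup (hZ.inf (cat (hFirst.mono m)
    (cat hK.star (hLast.mono m))))).congr fun w => ?_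
  constructor
  · intro hw
    have hzs := zs_iff.1 (Flow.zs hw)
    rcases tail_complete2 hS hcomp hw with hu | ⟨f, hf, L, hL', r, hr, rfl⟩
    · exact Or.inl hu
    · exact Or.inr ⟨hzs, f, hf, L.flatten ++ r, ⟨L.flatten, ⟨L, rfl, hL'⟩, r, hr, rfl⟩, rfl⟩
  · rintro (hu | ⟨hzs, f, hf, _, ⟨_, ⟨L, rfl, hL'⟩, r, hr, rfl⟩, rfl⟩)
    · exact Flow.sub hsub hu
    · obtain ⟨σ, u, hu, P, hP, rfl⟩ := hf
      have h1 := zs_iff.2 hzs
      rw [List.append_assoc] at h1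
      have h2 := Flow.strip hC (Flow.sub hsub hu) h1
      have h3 := tail_sound2 hC hsub hS ω' L hL' r hr σ P hP h2
      show Flow Z psi ω (u ++ P ++ (L.flatten ++ r)) ω'
      rw [List.append_assoc]
      exact (Flow.sub hsub hu).append h3

/-! ## pairs of zones -/

def PZ (Zc : Language α) : Language α := {w | ∃ z z', z ∈ Zc ∧ z' ∈ Zc ∧ w = z ++ z'}

open Classical in
noncomputable def psi2 (Zc : Language α) (psi : List α → Ω → Ω) (w : List α) (ω : Ω) : Ω :=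
  if h : ∃ p : List α × List α, p.1 ∈ Zc ∧ p.2 ∈ Zc ∧ w = p.1 ++ p.2 then
    psi h.choose.2 (psi h.choose.1 ω)
  else ω

theorem code_pair (hC : Code Zc) {z z' y y' x x' : List α} (h1 : z ∈ Zc) (h2 : z' ∈ Zc)
    (h3 : y ∈ Zc) (h4 : y' ∈ Zc) (h : z ++ z' ++ x = y ++ y' ++ x') :
    z = y ∧ z' = y' ∧ x = x' := by
  rw [List.append_assoc, List.append_assoc] at h
  obtain rfl := hC.2 _ _ _ _ h1 h3 h
  have h5 := List.append_cancel_left h
  obtain rfl := hC.2 _ _ _ _ h2 h4 h5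
  exact ⟨rfl, rfl, List.append_cancel_left h5⟩

theorem psi2_eq (hC : Code Zc) {z z' : List α} (h1 : z ∈ Zc) (h2 : z' ∈ Zc) (ω : Ω) :
    psi2 Zc psi (z ++ z') ω = psi z' (psi z ω) := by
  have h : ∃ p : List α × List α, p.1 ∈ Zc ∧ p.2 ∈ Zc ∧ z ++ z' = p.1 ++ p.2 :=
    ⟨(z, z'), h1, h2, rfl⟩
  unfold psi2
  rw [dif_pos h]
  obtain ⟨h3, h4, h5⟩ := h.choose_spec
  obtain ⟨e1, e2, -⟩ := code_pair (x := []) (x' := []) hC h1 h2 h3 h4 (by simpa using h5)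
  rw [← e1, ← e2]

theorem code_PZ (hC : Code Zc) : Code (PZ Zc) := by
  constructor
  · rintro ⟨z, z', h1, h2, h3⟩
    have : z = [] := (List.append_eq_nil_iff.1 h3.symm).1
    exact hC.1 (this ▸ h1)
  · rintro _ _ x x' ⟨z, z', h1, h2, rfl⟩ ⟨y, y', h3, h4, rfl⟩ h
    obtain ⟨rfl, rfl, -⟩ := code_pair hC h1 h2 h3 h4 h
    rfl

theorem flow_of_pair (hC : Code Zc) {ω ω' : Ω} {w : List α}
    (h : Flow (PZ Zc) (psi2 Zc psi) ω w ω') : Flow Zc psi ω w ω' := by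
  induction h with
  | nil ω => exact Flow.nil ω
  | @cons z w ω ω' hz _ ih =>
    obtain ⟨y, y', h1, h2, rfl⟩ := hz
    rw [psi2_eq hC h1 h2] at ih
    rw [List.append_assoc]
    exact Flow.cons h1 (Flow.cons h2 ih)

def A2 (Zc : Language α) (psi : List α → Ω → Ω) (ω : Ω) (w : List α) (ω' : Ω) : Prop :=
  Flow (PZ Zc) (psi2 Zc psi) ω w ω' ∨ ∃ σ u z, Flow (PZ Zc) (psi2 Zc psi) ω u σ ∧ z ∈ Zc ∧
    psi z σ = ω' ∧ w = u ++ z

theorem A2.cons (hC : Code Zc) {z z' w : List α} {ω ω' : Ω} (h1 : z ∈ Zc) (h2 : z' ∈ Zc)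
    (h : A2 Zc psi (psi z' (psi z ω)) w ω') : A2 Zc psi ω (z ++ (z' ++ w)) ω' := by
  rw [← psi2_eq (psi := psi) hC h1 h2] at h
  have hz : z ++ z' ∈ PZ Zc := ⟨z, z', h1, h2, rfl⟩
  rw [← List.append_assoc]
  rcases h with h | ⟨σ, u, y, h3, h4, h5, rfl⟩
  · exact Or.inl (Flow.cons hz h)
  · exact Or.inr ⟨σ, (z ++ z') ++ u, y, Flow.cons hz h3, h4, h5, by simp⟩

theorem A2_of_flow (hC : Code Zc) {ω ω' : Ω} {w : List α} (h : Flow Zc psi ω w ω') :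
    A2 Zc psi ω w ω' ∧ ((w = [] ∧ ω' = ω) ∨ ∃ z y, z ∈ Zc ∧ w = z ++ y ∧
      A2 Zc psi (psi z ω) y ω') := by
  induction h with
  | nil ω => exact ⟨Or.inl (Flow.nil ω), Or.inl ⟨rfl, rfl⟩⟩
  | @cons z w ω ω' hz _ ih =>
    obtain ⟨h1, h2⟩ := ih
    refine ⟨?_, Or.inr ⟨z, w, hz, rfl, h1⟩⟩
    rcases h2 with ⟨rfl, rfl⟩ | ⟨y, x, hy, rfl, h3⟩
    · exact Or.inr ⟨ω, [], z, Flow.nil ω, hz, rfl, by simp⟩
    · exact A2.cons hC hz hy h3

/-- the inner level from the pair scheme -/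
theorem inner [Finite Ω] {h : ℕ} (hC : Code Zc) (hZc : HL h Zc)
    (hval : ∀ σ ω, HL h ({z | z ∈ Zc ∧ psi z σ = ω} : Language α))
    (hne : ∀ ω, [] ∉ Lf ω)
    (hS : ∀ (ω τ : Ω) (P Q z z' x y : List α), P ∈ Lf ω → Q ∈ Rt τ → z ∈ Zc → z' ∈ Zc →
      P ++ Q ++ x = z ++ z' ++ y → P ++ Q = z ++ z' ∧ τ = psi z' (psi z ω))
    (hL : ∀ ω, HL h (Lf ω)) (hR : ∀ ω, HL h (Rt ω))
    (hcut : ∀ z ∈ Zc, ∀ z' ∈ Zc, ∀ v, Cut Lf Rt v (z ++ z')) (ω ω' : Ω) :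
    HL (h + 1) ({w | Flow Zc psi ω w ω'} : Language α) := by
  have hPZ : HL h (PZ Zc) := by
    refine (hZc.mul hZc).congr fun w => ?_
    constructor
    · rintro ⟨z, z', h1, h2, rfl⟩
      exact Language.mem_mul.2 ⟨z, h1, z', h2, rfl⟩
    · intro hw
      obtain ⟨z, h1, z', h2, rfl⟩ := Language.mem_mul.1 hw
      exact ⟨z, z', h1, h2, rfl⟩
  have hS2 : Sound (PZ Zc) (psi2 Zc psi) Lf Rt := by
    refine ⟨hne, ?_⟩
    rintro ω τ P Q _ x y hP hQ ⟨z, z', h1, h2, rfl⟩ h3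
    obtain ⟨e1, e2⟩ := hS ω τ P Q z z' x y hP hQ h1 h2 h3
    exact ⟨e1, by rw [psi2_eq hC h1 h2]; exact e2⟩
  have hF := fun a b => star_complete (h := h) (code_PZ hC) hS2 hPZ hL hR (by
    rintro _ ⟨z, z', h1, h2, rfl⟩ v
    exact hcut z h1 z' h2 v) a b
  refine ((hF ω ω').sup (HL.iUnion fun σ => (hF ω σ).mul ((hval σ ω').mono
    (Nat.le_succ h)))).congr fun w => ?_
  constructor
  · intro hw
    rcases (A2_of_flow hC hw).1 with h1 | ⟨σ, u, z, h1, h2, h3, rfl⟩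
    · exact Or.inl h1
    · exact Or.inr ⟨σ, Language.mem_mul.2 ⟨u, h1, z, ⟨h2, h3⟩, rfl⟩⟩
  · rintro (h1 | ⟨σ, h1⟩)
    · exact flow_of_pair hC h1
    · obtain ⟨u, h2, z, ⟨h3, h4⟩, rfl⟩ := Language.mem_mul.1 h1
      have h5 : Flow Zc psi σ z ω' := by
        have := Flow.cons (psi := psi) h3 (Flow.nil (psi z σ))
        rw [List.append_nil, h4] at this
        exact this
      exact (flow_of_pair hC h2).append h5

/-- the combinatorial data of the row: two nested schemes, one token system -/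
def Data2 {S : Type u} [Monoid S] (ph : List α → S) : Prop :=
  ∃ (Z Zc : Language α) (d : List α → Tok S) (LA RA LB RB : Tok S → Language α),
    Code Z ∧ (∀ z ∈ Zc, z ∈ Z) ∧ HL 2 Z ∧ HL 1 Zc ∧
    (∀ f g, HL 1 ({z | z ∈ Zc ∧ aff ph d z f = g} : Language α)) ∧
    -- outer scheme
    Sound Z (aff ph d) LA RA ∧ (∀ v, HL 2 (LA v)) ∧ (∀ v, HL 2 (RA v)) ∧
    (∀ z ∈ Z, z ∉ Zc → ∀ v, Cut LA RA v z) ∧
    -- inner scheme, pairs of consecutive critical zones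
    (∀ v, [] ∉ LB v) ∧
    (∀ (f g : Tok S) (P Q z z' x y : List α), P ∈ LB f → Q ∈ RB g → z ∈ Zc → z' ∈ Zc →
      P ++ Q ++ x = z ++ z' ++ y → P ++ Q = z ++ z' ∧ g = aff ph d z' (aff ph d z f)) ∧
    (∀ v, HL 1 (LB v)) ∧ (∀ v, HL 1 (RB v)) ∧
    (∀ z ∈ Zc, ∀ z' ∈ Zc, ∀ v, Cut LB RB v (z ++ z')) ∧
    -- words without a complete zone
    (∀ s : S, HL 3 ({w | (∀ z ∈ Z, ¬ z <+: w) ∧ ph w = s} : Language α))

theorem of_data2 {S : Type u} [Monoid S] [Finite S] {ph : List α → S}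
    (h1 : ph [] = 1) (hm : ∀ a b, ph (a ++ b) = ph a * ph b) (hD : Data2 ph) (s : S) :
    HL 3 ({w | ph w = s} : Language α) := by
  obtain ⟨Z, Zc, d, LA, RA, LB, RB, hC, hsub, hZ, hZc, hval, hSA, hLA, hRA, hcomp, hne, hSB, hLB,
    hRB, hcut, hrest⟩ := hD
  have hCc : Code Zc := ⟨fun h => hC.1 (hsub _ h), fun z z' x x' hz hz' e =>
    hC.2 z z' x x' (hsub _ hz) (hsub _ hz') e⟩
  have hin := inner (h := 1) (psi := aff ph d) hCc hZc hval hne hSB hLB hRB hcut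
  have hout := star2 (h := 2) hC hsub hSA hZ.star hLA hRA hin hcomp
  have key := read hC ph d hout
  refine (HL.iUnion fun p : {p : S × S // p.1 * p.2 = s} =>
    (key p.1.1).mul (hrest p.1.2)).congr fun w => ?_
  constructor
  · intro hw
    obtain ⟨a, b, t, rfl, ht, he, hb⟩ := split ph hC.1 h1 hm w
    refine ⟨⟨(ph a, ph b), ?_⟩, ?_⟩
    · rw [← hm]; exact hw
    · refine Language.mem_mul.2 ⟨a, ?_, b, ⟨hb, rfl⟩, rfl⟩
      show TP Z ph a (ph a)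
      rw [he]; exact ht
  · rintro ⟨⟨p, hp⟩, hw⟩
    obtain ⟨a, ha, b, ⟨-, hb⟩, rfl⟩ := Language.mem_mul.1 hw
    show ph (a ++ b) = s
    rw [hm, TP.val h1 hm ha, hb]; exact hp

/-- The row from `Data2`. -/
theorem row2 [Finite α]
    (hD : ∀ (S : Type u) [Monoid S] [Finite S] (f : α → S),
      Data2 (fun w : List α => (w.map f).prod))
    (L : Language α) (hL : L.IsRegular) :
    ∃ e : GRegExp α, e.height ≤ 3 ∧ e.lang = L :=
  of_monoid (fun S _ _ f s => of_data2 (by simp) (by intro a b; simp) (hD S f) s) L hL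

end Crest.Agent.R320.Pair_320
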