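import Mathlib

/-!
# Row 320: instantiation of the two wall schemes (left-looking outer walls, natural chain rule
`first wall >= z`), from (a) a U-gadget on all words (no small walls), (b) the redundant exact gadget,
(c) a wall rule (helper280).  Here: definitions, soundness of scheme 1 and 2, completeness.
-/

set_option autoImplicit false

namespace Crest.Agent.R320.Par_280

open Finset

variable {α S V : Type}

structure Par (α S V : Type) [Monoid S] [AddCommGroup V] where
  φ : List α → S
  act : V → S → V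
  n : ℕ
  Sw : Set (List α)
  K : ℕ
  N1 : ℕ
  p0 : ℕ
  q0 : ℕ
  x : ℕ → ℕ
  Bad : ℕ → Prop
  lam : List α → Option V
  rho : List α → Option V
  nu : List α → V
  lamE : ℕ → List α → Option V
  rhoE : ℕ → List α → Option V
  nuE : List α → V

namespace Par

variable [Monoid S] [AddCommGroup V] (p : Par α S V)

def z : ℕ := p.p0 + p.q0 + p.N1

/-- a wall at the end of `u` -/
def Wo (u : List α) : Prop := p.n ≤ u.length ∧ u.drop (u.length - p.n) ∈ p.Sw

theorem wo_append (P Q : List α) (h : p.n ≤ Q.length) : p.Wo (P ++ Q) ↔ p.Wo Q := by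
  unfold Wo
  have h1 : (P ++ Q).drop ((P ++ Q).length - p.n) = Q.drop (Q.length - p.n) := by
    rw [List.length_append, show P.length + Q.length - p.n = P.length + (Q.length - p.n) by omega,
      List.drop_append]
    simp
  rw [h1, List.length_append]
  constructor
  · rintro ⟨_, h2⟩; exact ⟨h, h2⟩
  · rintro ⟨_, h2⟩; exact ⟨by omega, h2⟩

/-- `Q` ends at its first wall at a place `≥ c` -/
def FW (c : ℕ) (Q : List α) : Prop :=
  c ≤ Q.length ∧ p.Wo Q ∧ ∀ t, c ≤ t → t < Q.length → ¬ p.Wo (Q.take t)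

theorem FW_unique {c : ℕ} {Q Q' R : List α} (h : p.FW c Q) (h' : p.FW c Q') (h1 : Q <+: R)
    (h2 : Q' <+: R) : Q = Q' := by
  rcases lt_trichotomy Q.length Q'.length with h3 | h3 | h3
  · exfalso
    have h4 : Q <+: Q' := List.prefix_of_prefix_length_le h1 h2 h3.le
    have h5 : Q'.take Q.length = Q := (List.prefix_iff_eq_take.1 h4).symm
    exact h'.2.2 Q.length h.1 h3 (by rw [h5]; exact h.2.1)
  · have h4 : Q <+: Q' := List.prefix_of_prefix_length_le h1 h2 h3.le
    exact h4.eq_of_length h3
  · exfalso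
    have h4 : Q' <+: Q := List.prefix_of_prefix_length_le h2 h1 h3.le
    have h5 : Q.take Q'.length = Q' := (List.prefix_iff_eq_take.1 h4).symm
    exact h.2.2 Q'.length h'.1 h3 (by rw [h5]; exact h'.2.1)

/-- a wall at a place `t ≥ c` gives a first one -/
theorem exists_FW {c t : ℕ} {Q : List α} (hct : c ≤ t) (ht : t ≤ Q.length)
    (hw : p.Wo (Q.take t)) : ∃ s, c ≤ s ∧ s ≤ t ∧ p.FW c (Q.take s) := by
  classical
  have hex : ∃ s, c ≤ s ∧ p.Wo (Q.take s) := ⟨t, hct, hw⟩
  refine ⟨Nat.find hex, (Nat.find_spec hex).1, Nat.find_min' hex ⟨hct, hw⟩, ?_, 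
    (Nat.find_spec hex).2, ?_⟩
  · rw [List.length_take]
    have := (Nat.find_spec hex).1
    have := Nat.find_min' hex ⟨hct, hw⟩
    omega
  · intro s hs hs' hws
    rw [List.length_take] at hs'
    have h1 : s < Nat.find hex := by omega
    rw [List.take_take, min_eq_left h1.le] at hws
    exact Nat.find_min hex h1 ⟨hs, hws⟩

def XX : Set (List α) := {u | p.FW p.z u}

def Tm (v : V) (u : List α) : V :=
  p.act (p.act v (p.φ (u.take p.p0)) + p.nuE (u.take p.p0)) (p.φ (u.drop p.p0)) +
    p.nu (u.drop p.p0)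

def nn (u : List α) : V := p.act (p.nuE (u.take p.p0)) (p.φ (u.drop p.p0)) + p.nu (u.drop p.p0)

def LP1 (P : List α) (v : V) : Prop :=
  p.p0 ≤ P.length ∧
    p.lam (P.drop p.p0) = some (p.act v (p.φ (P.take p.p0)) + p.nuE (P.take p.p0))

open Classical in
noncomputable def R1 (Q : List α) : Option V :=
  if p.q0 + p.N1 ≤ Q.length ∧ p.FW p.q0 Q then p.rho Q else none

/-- candidate `k` looks bad from the right word `Q` -/
def Bd (k : ℕ) (Q : List α) : Prop :=
  (∃ t, t ≤ Q.length ∧ p.z ≤ t + p.x k + p.N1 ∧ t + p.x k < p.z + p.N1 ∧ p.Wo (Q.take t)) ∨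
  (∃ t, t ≤ Q.length ∧ p.FW (p.z - p.x k) (Q.take t) ∧ p.Bad (t + p.x k - p.p0))

def Only (k : ℕ) (Q : List α) : Prop := k < p.K ∧ p.Bd k Q ∧ ∀ j < p.K, p.Bd j Q → j = k

def LP2 (P : List α) (v : V) : Prop := ∃ k < p.K, P.length = p.x k ∧ p.lamE k P = some v

def RR (Q : List α) (b : V) : Prop :=
  ∃ k Q1 X2 y, p.Only k Q ∧ Q = Q1 ++ X2 ∧ p.FW (p.z - p.x k) Q1 ∧ X2 ∈ p.XX ∧
    p.rhoE k (Q1.take (p.p0 - p.x k)) = some y ∧
    b = p.Tm (p.act y (p.φ (Q1.drop (p.p0 - p.x k))) + p.nu (Q1.drop (p.p0 - p.x k))) X2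

theorem RR_unique {Q : List α} {b b' : V} (h : p.RR Q b) (h' : p.RR Q b') : b = b' := by
  obtain ⟨k, Q1, X2, y, h1, h2, h3, h4, h5, h6⟩ := h
  obtain ⟨k', Q1', X2', y', h1', h2', h3', h4', h5', h6'⟩ := h'
  have hk : k = k' := h1'.2.2 k h1.1 h1.2.1
  subst hk
  have hQ : Q1 = Q1' := p.FW_unique h3 h3' ⟨X2, h2.symm⟩ ⟨X2', h2'.symm⟩
  subst hQ
  have hX : X2 = X2' := List.append_cancel_left (h2.symm.trans h2')
  subst hX
  rw [h5] at h5'
  have hy : y = y' := Option.some.inj h5'
  subst hy
  rw [h6, h6']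

open Classical in
noncomputable def R2 (Q : List α) : Option V :=
  if h : ∃ b, p.RR Q b then some h.choose else none

theorem R2_iff {Q : List α} {b : V} : p.R2 Q = some b ↔ p.RR Q b := by
  unfold R2
  constructor
  · intro h
    split_ifs at h with h1
    rw [← Option.some.inj h]
    exact h1.choose_spec
  · intro h
    have h1 : ∃ b, p.RR Q b := ⟨b, h⟩
    rw [dif_pos h1]
    congr 1
    exact p.RR_unique h1.choose_spec h

theorem R2_isSome {Q : List α} {b : V} (h : p.RR Q b) : (p.R2 Q).isSome := by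
  rw [p.R2_iff.2 h]; rfl

open Classical in
structure Ok (p : Par α S V) (C0 W : ℕ) : Prop where
  hφ : ∀ u v, p.φ (u ++ v) = p.φ u * p.φ v
  act_mul : ∀ v s s', p.act (p.act v s) s' = p.act v (s * s')
  act_add : ∀ v w s, p.act (v + w) s = p.act v s + p.act w s
  -- gadget 1
  lamN : ∀ P v, p.lam P = some v → P.length ≤ p.N1
  sound : ∀ P Q v r, p.lam P = some v → p.rho Q = some r →
    r = p.act v (p.φ (P ++ Q)) + p.nu (P ++ Q)
  compl : ∀ u, 2 * p.N1 ≤ u.length → ¬ p.Bad u.length → ∀ v, ∃ P Q, P ++ Q = u ∧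
    p.lam P = some v ∧ (p.rho Q).isSome
  -- exact gadget
  soundE : ∀ k < p.K, ∀ P Q v b, P.length = p.x k → p.lamE k P = some v →
    p.rhoE k Q = some b → b = p.act v (p.φ (P ++ Q)) + p.nuE (P ++ Q)
  complE : ∀ (u : List α) (v : V), (∀ k < p.K, p.x k ≤ u.length) →
    ∃ I : Finset ℕ, 2 * C0 + 2 ≤ I.card ∧ ∀ k ∈ I, k < p.K ∧ p.lamE k (u.take (p.x k)) = some v ∧
      (p.rhoE k (u.drop (p.x k))).isSome
  -- ruler
  hx : ∀ k < p.K, p.x k < p.p0
  hsp : ∀ a < p.K, ∀ b < p.K, ∀ c < p.K, ∀ d < p.K, a ≠ b → c ≠ d → ¬ (a = c ∧ b = d) →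
    2 * (p.N1 : ℤ) < |((p.x a : ℤ) - p.x b) - (p.x c - p.x d)|
  thin : ∀ T : ℕ, (∀ k < p.K, p.x k ≤ T) →
    (((range p.K) ×ˢ (range p.K)).filter (fun ab : ℕ × ℕ => ab.1 ≠ ab.2 ∧
      p.Bad (T + p.x ab.1 - p.x ab.2))).card ≤ C0
  -- walls
  hn : 0 < p.n
  gap : ∀ (u : List α) (s t : ℕ), s < t → t ≤ u.length → p.Wo (u.take s) → p.Wo (u.take t) →
    s + W ≤ t
  hW : 2 * p.p0 + 2 * p.N1 ≤ W
  hq0 : p.n + 2 * p.p0 + p.N1 ≤ p.q0

variable {p} {C0 W : ℕ}

theorem prefixcode {X Y : List α} (hX : X ∈ p.XX) (hXY : X ++ Y ∈ p.XX) : Y = [] := by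
  have h := p.FW_unique hX hXY (List.prefix_append X Y) (List.prefix_refl _)
  simpa using h.symm

theorem nil_notMem (hz : 0 < p.z) : [] ∉ p.XX := by
  intro h
  have := h.1
  simp at this
  omega

theorem hT (hok : p.Ok C0 W) (X : List α) (v : V) : p.Tm v X = p.act v (p.φ X) + p.nn X := by
  unfold Tm nn
  rw [hok.act_add, hok.act_mul, ← hok.hφ, List.take_append_drop, add_assoc]

theorem R1_some {Q : List α} {b : V} (h : p.R1 Q = some b) :
    p.q0 + p.N1 ≤ Q.length ∧ p.FW p.q0 Q ∧ p.rho Q = some b := by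
  unfold R1 at h
  split_ifs at h with h1
  exact ⟨h1.1, h1.2, h⟩

theorem LP1_len (hok : p.Ok C0 W) {P : List α} {v : V} (h : p.LP1 P v) :
    P.length ≤ p.p0 + p.N1 := by
  have := hok.lamN _ _ h.2
  rw [List.length_drop] at this
  have := h.1
  omega

/-- **(s1)** -/
theorem s1 (hok : p.Ok C0 W) {P : List α} {v : V} {Q : List α} {b : V} (hP : p.LP1 P v)
    (hQ : p.R1 Q = some b) : P ++ Q ∈ p.XX ∧ p.Tm v (P ++ Q) = b := by
  obtain ⟨h1, h2, h3⟩ := R1_some hQ
  have hl := LP1_len hok hP
  have hp := hP.1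
  have hq0 := hok.hq0
  refine ⟨⟨?_, ?_, ?_⟩, ?_⟩
  · rw [List.length_append]; unfold z; omega
  · rw [p.wo_append]
    · exact h2.2.1
    · omega
  · intro t ht1 ht2 hw
    rw [List.length_append] at ht2
    have ht3 : P.length + p.q0 ≤ t := by unfold z at ht1; omega
    rw [List.take_append, List.take_of_length_le (by omega), p.wo_append] at hw
    · exact h2.2.2 (t - P.length) (by omega) (by omega) hw
    · rw [List.length_take]; omega
  · have e1 : (P ++ Q).take p.p0 = P.take p.p0 := List.take_append_of_le_length hp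
    have e2 : (P ++ Q).drop p.p0 = P.drop p.p0 ++ Q := List.drop_append_of_le_length hp
    unfold Tm
    rw [e1, e2]
    exact (hok.sound _ _ _ _ hP.2 h3).symm

/-- scheme 1 cuts every block which is not bad -/
theorem complete1 (hok : p.Ok C0 W) {X : List α} (hX : X ∈ p.XX)
    (hE : ∀ t, t ≤ X.length → p.z ≤ t + p.N1 → t < p.z + p.N1 → ¬ p.Wo (X.take t))
    (hB : ¬ p.Bad (X.length - p.p0)) (v : V) :
    ∃ P Q, X = P ++ Q ∧ p.p0 ≤ P.length ∧ p.LP1 P v ∧ (p.R1 Q).isSome := by
  have hq0 := hok.hq0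
  have hz : p.z = p.p0 + p.q0 + p.N1 := rfl
  have hlen : p.z + p.N1 ≤ X.length := by
    by_contra hcon
    exact hE X.length le_rfl (by have := hX.1; omega) (by omega)
      (by rw [List.take_length]; exact hX.2.1)
  have hYl : (X.drop p.p0).length = X.length - p.p0 := List.length_drop
  obtain ⟨P', Q, h1, h2, h3⟩ := hok.compl (X.drop p.p0) (by omega) (by rw [hYl]; exact hB)
    (p.act v (p.φ (X.take p.p0)) + p.nuE (X.take p.p0))
  have hP' := hok.lamN _ _ h2
  have htl : (X.take p.p0).length = p.p0 := by rw [List.length_take]; omega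
  have hX1 : X = (X.take p.p0 ++ P') ++ Q := by
    rw [List.append_assoc, h1, List.take_append_drop]
  have hQl : Q.length = X.length - p.p0 - P'.length := by
    have := congrArg List.length h1
    rw [List.length_append, hYl] at this
    omega
  have hPl : (X.take p.p0 ++ P').length = p.p0 + P'.length := by
    rw [List.length_append, htl]
  refine ⟨X.take p.p0 ++ P', Q, hX1, by rw [hPl]; omega, ⟨by rw [hPl]; omega, ?_⟩, ?_⟩
  · rw [List.take_append_of_le_length (by rw [htl]), List.drop_append_of_le_length (by rw [htl])]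
    rw [List.drop_of_length_le (by rw [htl]), List.nil_append, List.take_take, min_self]
    exact h2
  · have hFW : p.FW p.q0 Q := by
      refine ⟨by omega, ?_, ?_⟩
      · have := hX.2.1
        rw [hX1, p.wo_append _ _ (by omega)] at this
        exact this
      · intro t ht1 ht2 hw
        have h5 : X.take (p.p0 + P'.length + t) = (X.take p.p0 ++ P') ++ Q.take t := by
          conv_lhs => rw [hX1]
          rw [List.take_append, List.take_of_length_le (by rw [hPl]; omega), hPl]
          congr 2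
          omega
        have h6 : p.Wo (X.take (p.p0 + P'.length + t)) := by
          rw [h5, p.wo_append]
          · exact hw
          · rw [List.length_take]; omega
        by_cases h7 : p.p0 + P'.length + t < p.z
        · exact hE _ (by omega) (by omega) (by omega) h6
        · exact hX.2.2 _ (by omega) (by omega) h6
    unfold R1
    rw [if_pos ⟨by omega, hFW⟩]
    exact h3

theorem x_lt_z (hok : p.Ok C0 W) {k : ℕ} (hk : k < p.K) : p.x k + p.n + p.N1 ≤ p.z := by
  have := hok.hx k hk
  have := hok.hq0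
  unfold z; omega

/-- the true block is seen bad, or scheme 1 cuts it -/
theorem bd_or_cut (hok : p.Ok C0 W) {P Q : List α} {v : V} {k t : ℕ} (hk : k < p.K)
    (hP : P.length = p.x k) (ht : t ≤ Q.length) (hFW : p.FW (p.z - p.x k) (Q.take t))
    (hcut : ∀ X ∈ p.XX, X <+: P ++ Q → ∀ P' Q', X = P' ++ Q' → P.length ≤ P'.length →
      p.LP1 P' v → (p.R1 Q').isSome → False) : p.Bd k Q := by
  by_contra hcon
  have hxz := x_lt_z hok hk
  have hx := hok.hx k hk
  have hn := hok.hn
  have htl : (Q.take t).length = t := by rw [List.length_take]; omega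
  have hX : P ++ Q.take t ∈ p.XX := by
    refine ⟨?_, ?_, ?_⟩
    · rw [List.length_append, htl]
      have := hFW.1
      rw [htl] at this
      omega
    · rw [p.wo_append]
      · exact hFW.2.1
      · exact hFW.2.1.1
    · intro s hs1 hs2 hw
      rw [List.length_append, htl] at hs2
      rw [List.take_append, List.take_of_length_le (by omega), p.wo_append] at hw
      · exact hFW.2.2 (s - P.length) (by omega) (by rw [htl]; omega) hw
      · rw [List.length_take, htl]; omega
  obtain ⟨P', Q', h1, h2, h3, h4⟩ := complete1 hok hX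
    (by
      intro s hs1 hs2 hs3 hw
      rw [List.length_append, htl] at hs1
      rw [List.take_append, List.take_of_length_le (by omega), p.wo_append,
        List.take_take, min_eq_left (by omega)] at hw
      · exact hcon (Or.inl ⟨s - P.length, by omega, by omega, by omega, hw⟩)
      · rw [List.length_take, htl]; omega)
    (by
      intro hB
      refine hcon (Or.inr ⟨t, ht, hFW, ?_⟩)
      rw [List.length_append, htl, hP] at hB
      rw [add_comm t]
      exact hB) v
  refine hcut _ hX ?_ P' Q' h1 (by omega) h3 h4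
  exact (List.prefix_append_right_inj P).2 (List.take_prefix t Q)

/-- **(s2)** -/
theorem s2 (hok : p.Ok C0 W) {P : List α} {v : V} {Q : List α} {b : V} (hP : p.LP2 P v)
    (hQ : p.R2 Q = some b)
    (hcut : ∀ X ∈ p.XX, X <+: P ++ Q → ∀ P' Q', X = P' ++ Q' → P.length ≤ P'.length →
      p.LP1 P' v → (p.R1 Q').isSome → False) :
    ∃ Q1 X2, Q = Q1 ++ X2 ∧ Q1 ≠ [] ∧ P ++ Q1 ∈ p.XX ∧ X2 ∈ p.XX ∧
      p.Tm (p.Tm v (P ++ Q1)) X2 = b := by
  obtain ⟨k0, hk0, hPl, hlam⟩ := hP
  obtain ⟨k, Q1, X2, y, hO, hQe, hF, hX2, hrho, hb⟩ := p.R2_iff.1 hQ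
  have hxz := x_lt_z hok hk0
  have hx := hok.hx k0 hk0
  have hxk := hok.hx k hO.1
  have hxzk := x_lt_z hok hO.1
  have hn := hok.hn
  have hqq := hok.hq0
  have hzz : p.z = p.p0 + p.q0 + p.N1 := rfl
  -- the end of `Q` is a wall far away
  have hQl : Q.length = Q1.length + X2.length := by rw [hQe, List.length_append]
  have hwQ : p.Wo (Q.take Q.length) := by
    rw [List.take_length, hQe, p.wo_append]
    · exact hX2.2.1
    · exact hX2.2.1.1
  have hX2l := hX2.1
  have hQ1l := hF.1
  obtain ⟨s, hs1, hs2, hs3⟩ := p.exists_FW (c := p.z - p.x k0) (t := Q.length) (Q := Q)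
    (by omega) le_rfl hwQ
  have hbd : p.Bd k0 Q := bd_or_cut hok hk0 hPl hs2 hs3 hcut
  have hkk : k0 = k := hO.2.2 k0 hk0 hbd
  subst hkk
  have hlen : (P ++ Q1).length = p.x k0 + Q1.length := by rw [List.length_append, hPl]
  refine ⟨Q1, X2, hQe, ?_, ⟨?_, ?_, ?_⟩, hX2, ?_⟩
  · intro h
    rw [h] at hQ1l
    simp at hQ1l
    omega
  · rw [hlen]; omega
  · rw [p.wo_append]
    · exact hF.2.1
    · exact hF.2.1.1
  · intro t ht1 ht2 hw
    rw [hlen] at ht2
    rw [List.take_append, List.take_of_length_le (by omega), p.wo_append] at hw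
    · exact hF.2.2 (t - P.length) (by omega) (by omega) hw
    · rw [List.length_take]; omega
  · rw [hb]
    congr 1
    have e0 : p.p0 = P.length + (p.p0 - p.x k0) := by omega
    have e1 : (P ++ Q1).take p.p0 = P ++ Q1.take (p.p0 - p.x k0) := by
      conv_lhs => rw [e0]
      rw [List.take_append]
      simp
    have e2 : (P ++ Q1).drop p.p0 = Q1.drop (p.p0 - p.x k0) := by
      conv_lhs => rw [e0]
      rw [List.drop_append]
      simp
    unfold Tm
    rw [e1, e2, ← hok.soundE k0 hk0 P (Q1.take (p.p0 - p.x k0)) v y hPl hlam hrho]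

/-- places of walls after dropping `x k` letters -/
theorem wo_drop {U : List α} {c t : ℕ} (hc : c + t ≤ U.length) (ht : p.n ≤ t) :
    p.Wo ((U.drop c).take t) ↔ p.Wo (U.take (c + t)) := by
  have h : U.take (c + t) = U.take c ++ (U.drop c).take t := by
    rw [← List.take_append_drop c (U.take (c + t)), List.take_take, min_eq_left (by omega),
      List.drop_take]
    congr 2
    omega
  rw [h, p.wo_append]
  rw [List.length_take, List.length_drop]
  omega

open Classical in
/-- few candidates are spoiled -/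
theorem spoil (hok : p.Ok C0 W) {X X2 : List α} (hX : X ∈ p.XX) (hX2 : X2 ∈ p.XX) :
    ((range p.K).filter (fun k => ∃ j < p.K, j ≠ k ∧ p.Bd j ((X ++ X2).drop (p.x k)))).card
      ≤ 2 * C0 + 1 := by
  set U := X ++ X2 with hU
  have hn := hok.hn
  have hqq := hok.hq0
  have hWW := hok.hW
  have hzz : p.z = p.p0 + p.q0 + p.N1 := rfl
  have hXl := hX.1
  have hX2l := hX2.1
  have hUl : U.length = X.length + X2.length := by rw [hU, List.length_append]
  have hwX : p.Wo (U.take X.length) := by
    rw [hU, List.take_append_of_le_length le_rfl, List.take_length]; exact hX.2.1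
  have hwU : p.Wo (U.take U.length) := by
    rw [List.take_length, hU, p.wo_append _ _ hX2.2.1.1]; exact hX2.2.1
  -- first wall at a place ≥ z - p0
  obtain ⟨e1, h11, h12, h13⟩ := p.exists_FW (c := p.z - p.p0) (t := X.length) (Q := U)
    (by omega) (by omega) hwX
  have he1l : (U.take e1).length = e1 := by rw [List.length_take]; omega
  have hw1 : p.Wo (U.take e1) := h13.2.1
  have hf1 : ∀ t, p.z - p.p0 ≤ t → t < e1 → ¬ p.Wo (U.take t) := by
    intro t h1 h2 h3
    refine h13.2.2 t h1 (by rw [he1l]; exact h2) ?_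
    rw [List.take_take, min_eq_left h2.le]; exact h3
  -- the next one
  have hex2 : ∃ e2, e1 < e2 ∧ e2 ≤ U.length ∧ p.Wo (U.take e2) ∧
      ∀ t, e1 < t → t < e2 → ¬ p.Wo (U.take t) := by
    obtain ⟨e2, h21, h22, h23⟩ := p.exists_FW (c := e1 + 1) (t := U.length) (Q := U)
      (by omega) le_rfl hwU
    have he2l : (U.take e2).length = e2 := by rw [List.length_take]; omega
    refine ⟨e2, by omega, h22, h23.2.1, ?_⟩
    intro t h1 h2 h3
    refine h23.2.2 t (by omega) (by rw [he2l]; exact h2) ?_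
    rw [List.take_take, min_eq_left h2.le]; exact h3
  obtain ⟨e2, h21, h22, hw2, hf2⟩ := hex2
  have hgap := hok.gap U e1 e2 h21 h22 hw1 hw2
  -- the three sets
  set A1 := (((range p.K) ×ˢ (range p.K)).filter (fun ab : ℕ × ℕ => ab.1 ≠ ab.2 ∧
      p.Bad ((e1 - p.p0) + p.x ab.1 - p.x ab.2))) with hA1
  set A2 := (((range p.K) ×ˢ (range p.K)).filter (fun ab : ℕ × ℕ => ab.1 ≠ ab.2 ∧
      p.Bad ((e2 - p.p0) + p.x ab.1 - p.x ab.2))) with hA2
  have hc1 : A1.card ≤ C0 := hok.thin (e1 - p.p0) (fun k hk => by have := hok.hx k hk; omega)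
  have hc2 : A2.card ≤ C0 := hok.thin (e2 - p.p0) (fun k hk => by have := hok.hx k hk; omega)
  set E := ((range p.K).filter (fun k => ∃ j < p.K, j ≠ k ∧ ∃ w, w ≤ U.length ∧
    p.Wo (U.take w) ∧ p.z + p.x k ≤ w + p.x j + p.N1 ∧ w + p.x j < p.z + p.x k + p.N1)) with hE
  have hcE : E.card ≤ 1 := by
    rw [Finset.card_le_one]
    intro a ha b hb
    rw [hE, Finset.mem_filter, Finset.mem_range] at ha hb
    obtain ⟨haK, ja, hja, hja', w, hw, hwo, hw3, hw4⟩ := ha
    obtain ⟨hbK, jb, hjb, hjb', w', hw', hwo', hw3', hw4'⟩ := hb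
    have ha1 := hok.hx a haK
    have hb1 := hok.hx b hbK
    have ha2 := hok.hx ja hja
    have hb2 := hok.hx jb hjb
    have hww : w = w' := by
      rcases lt_trichotomy w w' with h | h | h
      · have := hok.gap U w w' h hw' hwo hwo'
        omega
      · exact h
      · have := hok.gap U w' w h hw hwo' hwo
        omega
    subst hww
    by_contra hab
    have := hok.hsp a haK ja hja b hbK jb hjb (Ne.symm hja') (Ne.symm hjb') (fun h => hab h.1)
    rw [lt_abs] at this
    omega
  refine le_trans (Finset.card_le_card (t := E ∪ (A1.image Prod.snd ∪ A2.image Prod.snd)) ?_) ?_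
  · intro k hk
    rw [Finset.mem_filter, Finset.mem_range] at hk
    obtain ⟨hkK, j, hj, hjk, hB⟩ := hk
    have hxk := hok.hx k hkK
    have hxj := hok.hx j hj
    have hdl : (U.drop (p.x k)).length = U.length - p.x k := List.length_drop
    rcases hB with ⟨t, ht1, ht2, ht3, ht4⟩ | ⟨t, ht1, ht2, ht3⟩
    · rw [hdl] at ht1
      rw [wo_drop (by omega) (by omega)] at ht4
      refine Finset.mem_union_left _ ?_
      rw [hE, Finset.mem_filter, Finset.mem_range]
      exact ⟨hkK, j, hj, hjk, p.x k + t, by omega, ht4, by omega, by omega⟩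
    · rw [hdl] at ht1
      refine Finset.mem_union_right _ ?_
      have htl : ((U.drop (p.x k)).take t).length = t := by
        rw [List.length_take, hdl]; omega
      have hc : p.z - p.x j ≤ t := by have := ht2.1; rw [htl] at this; exact this
      have hwt : p.Wo (U.take (p.x k + t)) := by
        rw [← wo_drop (by omega) (by omega)]; exact ht2.2.1
      have hft : ∀ s, p.x k + (p.z - p.x j) ≤ s → s < p.x k + t → ¬ p.Wo (U.take s) := by
        intro s hs1 hs2 hs3
        refine ht2.2.2 (s - p.x k) (by omega) (by rw [htl]; omega) ?_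
        rw [List.take_take, min_eq_left (by omega), wo_drop (by omega) (by omega),
          show p.x k + (s - p.x k) = s by omega]
        exact hs3
      have hcase : p.x k + t = e1 ∨ p.x k + t = e2 := by
        by_cases h : p.x k + (p.z - p.x j) ≤ e1
        · left
          rcases lt_trichotomy (p.x k + t) e1 with h1 | h1 | h1
          · exact absurd hwt (hf1 _ (by omega) h1)
          · exact h1
          · exact absurd hw1 (hft _ h h1)
        · right
          rcases lt_trichotomy (p.x k + t) e2 with h1 | h1 | h1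
          · exact absurd hwt (hf2 _ (by omega) h1)
          · exact h1
          · exact absurd hw2 (hft _ (by omega) h1)
      rcases hcase with h | h
      · refine Finset.mem_union_left _ (Finset.mem_image.2 ⟨(j, k), ?_, rfl⟩)
        rw [hA1, Finset.mem_filter]
        refine ⟨Finset.mem_product.2 ⟨Finset.mem_range.2 hj, Finset.mem_range.2 hkK⟩, hjk, ?_⟩
        show p.Bad ((e1 - p.p0) + p.x j - p.x k)
        rw [show (e1 - p.p0) + p.x j - p.x k = t + p.x j - p.p0 by omega]
        exact ht3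
      · refine Finset.mem_union_right _ (Finset.mem_image.2 ⟨(j, k), ?_, rfl⟩)
        rw [hA2, Finset.mem_filter]
        refine ⟨Finset.mem_product.2 ⟨Finset.mem_range.2 hj, Finset.mem_range.2 hkK⟩, hjk, ?_⟩
        show p.Bad ((e2 - p.p0) + p.x j - p.x k)
        rw [show (e2 - p.p0) + p.x j - p.x k = t + p.x j - p.p0 by omega]
        exact ht3
  · refine le_trans (Finset.card_union_le _ _) ?_
    have h1 := Finset.card_union_le (A1.image Prod.snd) (A2.image Prod.snd)
    have h2 : (A1.image Prod.snd).card ≤ A1.card := Finset.card_image_le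
    have h3 : (A2.image Prod.snd).card ≤ A2.card := Finset.card_image_le
    omega

open Classical in
/-- **(cc)** -/
theorem cc (hok : p.Ok C0 W) {X : List α} (hX : X ∈ p.XX) {X2 : List α} (hX2 : X2 ∈ p.XX)
    (v : V) :
    (∃ P Q, X = P ++ Q ∧ p.LP1 P v ∧ (p.R1 Q).isSome) ∨
      (∃ P Q, X ++ X2 = P ++ Q ∧ P.length < X.length ∧ p.LP2 P v ∧ (p.R2 Q).isSome) := by
  have hn := hok.hn
  have hqq := hok.hq0
  have hzz : p.z = p.p0 + p.q0 + p.N1 := rfl
  have hXl := hX.1
  by_cases hgood : (∀ t, t ≤ X.length → p.z ≤ t + p.N1 → t < p.z + p.N1 → ¬ p.Wo (X.take t)) ∧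
      ¬ p.Bad (X.length - p.p0)
  · left
    obtain ⟨P, Q, h1, -, h2, h3⟩ := complete1 hok hX hgood.1 hgood.2 v
    exact ⟨P, Q, h1, h2, h3⟩
  · right
    have hsp := spoil hok hX hX2
    set J := ((range p.K).filter
      (fun k => ∃ j < p.K, j ≠ k ∧ p.Bd j ((X ++ X2).drop (p.x k)))) with hJ
    have htl : (X.take p.p0).length = p.p0 := by rw [List.length_take]; omega
    obtain ⟨I, hI, hIk⟩ := hok.complE (X.take p.p0) v
      (fun k hk => by rw [htl]; exact (hok.hx k hk).le)
    have hex : ∃ k ∈ I, k ∉ J := by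
      by_contra hcon
      push Not at hcon
      have := Finset.card_le_card (fun k hk => hcon k hk : I ⊆ J)
      omega
    obtain ⟨k, hkI, hkJ⟩ := hex
    obtain ⟨hk, hlam, hrho⟩ := hIk k hkI
    have hxk := hok.hx k hk
    obtain ⟨y, hy⟩ := Option.isSome_iff_exists.1 hrho
    have hdl : (X.drop (p.x k)).length = X.length - p.x k := List.length_drop
    have hPl : (X.take (p.x k)).length = p.x k := by rw [List.length_take]; omega
    have hdrop : (X ++ X2).drop (p.x k) = X.drop (p.x k) ++ X2 :=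
      List.drop_append_of_le_length (by omega)
    have hF : p.FW (p.z - p.x k) (X.drop (p.x k)) := by
      refine ⟨by omega, ?_, ?_⟩
      · have h := hX.2.1
        rw [← List.take_append_drop (p.x k) X, p.wo_append _ _ (by omega)] at h
        exact h
      · intro t ht1 ht2 hw
        rw [wo_drop (by omega) (by omega)] at hw
        exact hX.2.2 _ (by omega) (by omega) hw
    have hBd : p.Bd k ((X ++ X2).drop (p.x k)) := by
      rw [hdrop]
      by_cases hb : p.Bad (X.length - p.p0)
      · right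
        refine ⟨X.length - p.x k, by rw [List.length_append, hdl]; omega, ?_, ?_⟩
        · rw [List.take_append_of_le_length (by omega), List.take_of_length_le (by omega)]
          exact hF
        · rw [show X.length - p.x k + p.x k - p.p0 = X.length - p.p0 by omega]
          exact hb
      · left
        have hne : ¬ ∀ t, t ≤ X.length → p.z ≤ t + p.N1 → t < p.z + p.N1 →
            ¬ p.Wo (X.take t) := fun h => hgood ⟨h, hb⟩
        push Not at hne
        obtain ⟨t, ht1, ht2, ht3, ht4⟩ := hne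
        refine ⟨t - p.x k, by rw [List.length_append, hdl]; omega, by omega, by omega, ?_⟩
        rw [List.take_append_of_le_length (by omega), wo_drop (by omega) (by omega),
          show p.x k + (t - p.x k) = t by omega]
        exact ht4
    refine ⟨X.take (p.x k), (X ++ X2).drop (p.x k), ?_, by omega, ⟨k, hk, hPl, ?_⟩, ?_⟩
    · rw [hdrop, ← List.append_assoc, List.take_append_drop]
    · rw [← hlam, List.take_take, min_eq_left (by omega)]
    · refine p.R2_isSome (b := _) ⟨k, X.drop (p.x k), X2, y, ⟨hk, hBd, ?_⟩, hdrop, hF, hX2, ?_, rfl⟩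
      · intro j hj hBj
        by_contra hjk
        refine hkJ ?_
        rw [hJ, Finset.mem_filter, Finset.mem_range]
        exact ⟨hk, j, hj, hjk, hBj⟩
      · rw [← hy, List.drop_take]

end Par

end Crest.Agent.R320.Par_280
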