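import Crest.Agent.R320.Asm_49

/-!
# Row 320: both schemes on all words from a length gadget and an exact gadget (helper49)
-/

set_option autoImplicit false

namespace Crest.Agent.R320.Par_49

open Crest.Agent.R320.Hk_851 Crest.Agent.R320.Star_621 Crest.Agent.R320.Two_621
open Crest.Agent.R320.Main_621 Crest.Agent.R320.Shared_621 Crest.RegLang
open Crest.Agent.R320.Asm_49

/-- value of a word -/
def pr {α S : Type} [Monoid S] (f : α → S) (w : List α) : S := (w.map f).prod

theorem pr_append {α S : Type} [Monoid S] (f : α → S) (u v : List α) :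
    pr f (u ++ v) = pr f u * pr f v := by simp [pr]

open Classical in
/-- all parameters and hypotheses -/
structure Par (α S : Type) [Monoid S] where
  f : α → S
  Wo : List α → Prop
  n : ℕ
  W : ℕ
  hloc : ∀ P Q : List α, n ≤ Q.length → (Wo (P ++ Q) ↔ Wo Q)
  hgap : ∀ (P : List α) (d : ℕ), Wo P → 0 < d → d ≤ W → ¬ Wo (P.take (P.length - d))
  N : ℕ
  lam : List α → Option (Tok S)
  rho : List α → Option (Tok S)
  nu1 : List α → Tok S
  Bad : ℕ → Prop
  lamN : ∀ p v, lam p = some v → p.length ≤ N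
  snd1 : ∀ p q v r, lam p = some v → rho q = some r → r = act v (pr f (p ++ q)) + nu1 (p ++ q)
  cpl1 : ∀ u : List α, 2 * N ≤ u.length → ¬ Bad u.length → ∀ v, ∃ p q, p ++ q = u ∧
    lam p = some v ∧ (rho q).isSome
  K : ℕ
  c : ℕ → ℕ
  cpos : ∀ k < K, 0 < c k
  cinj : ∀ i j, i < K → j < K → c i = c j → i = j
  p0 : ℕ
  p0pos : 0 < p0
  cp : ∀ k < K, c k ≤ p0
  lamE : ℕ → List α → Option (Tok S)
  rhoE : ℕ → List α → Option (Tok S)
  nu2 : List α → Tok S
  snd2 : ∀ k < K, ∀ P Q v b, P.length = c k → lamE k P = some v → rhoE k Q = some b →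
    b = act v (pr f (P ++ Q)) + nu2 (P ++ Q)
  C0 : ℕ
  cpl2 : ∀ (u : List α) (v : Tok S), u.length = p0 → ∃ I : Finset ℕ, 3 * C0 + 2 ≤ I.card ∧
    ∀ k ∈ I, k < K ∧ lamE k (u.take (c k)) = some v ∧ (rhoE k (u.drop (c k))).isSome
  spread : ∀ a b a' b', a < K → b < K → a' < K → b' < K → a ≠ b → a' ≠ b' →
    c a + c b' ≤ c a' + c b + 2 * N → c a' + c b ≤ c a + c b' + 2 * N → a = a' ∧ b = b'
  count : ∀ T, p0 ≤ T → ((Finset.range K ×ˢ Finset.range K).filter
    (fun ab : ℕ × ℕ => ab.1 ≠ ab.2 ∧ Bad (T + c ab.1 - c ab.2))).card ≤ C0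
  zl : ℕ
  hzl : 4 * p0 + 4 * N + 2 * n + 4 ≤ zl
  hW : 2 * p0 + 4 * N + 1 ≤ W

namespace Par

variable {α S : Type} [Monoid S] (D : Par α S)

/-- the lower bound of the accepted wall -/
def z : ℕ := D.zl + D.N

/-- two walls of a word at distance at most `W` coincide -/
theorem gap {X : List α} {s t : ℕ} (ht : t ≤ X.length) (h1 : D.Wo (X.take s))
    (h2 : D.Wo (X.take t)) (h3 : s ≤ t) (h4 : t ≤ s + D.W) : s = t := by
  by_contra hne
  have hl : (X.take t).length = t := by rw [List.length_take]; omega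
  have := D.hgap (X.take t) (t - s) h2 (by omega) (by omega)
  rw [hl, List.take_take] at this
  have e : min (t - (t - s)) t = s := by omega
  rw [e] at this
  exact this h1

/-- value of the noise of a block with accepted wall `t` -/
def dd (X : List α) (t : ℕ) : Tok S :=
  act (D.nu2 (X.take D.p0)) (pr D.f (X.drop D.p0)) +
    act (D.nu1 ((X.take t).drop D.p0)) (pr D.f (X.drop t))

open Classical in
/-- noise -/
noncomputable def d (X : List α) : Tok S :=
  if h : ∃ t, Blk D.Wo D.z X t then D.dd X h.choose else 0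

theorem d_eq {X : List α} {t : ℕ} (h : Blk D.Wo D.z X t) : D.d X = D.dd X t := by
  classical
  have hex : ∃ t, Blk D.Wo D.z X t := ⟨t, h⟩
  unfold d
  rw [dif_pos hex]
  have h' := hex.choose_spec
  rw [h.uniq _ h'.zt h'.tX h'.wt]

/-- the zone map -/
noncomputable def T (X : List α) (v : Tok S) : Tok S := aff (pr D.f) D.d X v

theorem T_eq {X : List α} {t : ℕ} (h : Blk D.Wo D.z X t) (v : Tok S) : D.T X v =
    act (act (act v (pr D.f (X.take D.p0)) + D.nu2 (X.take D.p0))
      (pr D.f ((X.take t).drop D.p0)) + D.nu1 ((X.take t).drop D.p0)) (pr D.f (X.drop t)) := by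
  have hz := h.zt
  have ht := h.tX
  have hp : D.p0 ≤ t := by have := D.hzl; unfold z at hz; omega
  unfold T aff
  rw [D.d_eq h, dd, act_add, act_add, act_add]
  rw [act_mul, act_mul, act_mul, ← add_assoc]
  have e1 : X.drop D.p0 = (X.take t).drop D.p0 ++ X.drop t := by
    conv_lhs => rw [← List.take_append_drop t X]
    rw [List.drop_append_of_le_length (by rw [List.length_take]; omega)]
  have e2 : X = X.take D.p0 ++ ((X.take t).drop D.p0 ++ X.drop t) := by
    rw [← e1, List.take_append_drop]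
  have e3 : pr D.f X = pr D.f (X.take D.p0) * (pr D.f ((X.take t).drop D.p0) *
      pr D.f (X.drop t)) := by
    conv_lhs => rw [e2]
    rw [pr_append, pr_append]
  rw [e3, e1, pr_append]

/-- the blocks -/
def Z : Language α := {X | ∃ t, Blk D.Wo D.z X t}

/-- the critical blocks -/
def Zc : Language α := {X | ∃ t, Blk D.Wo D.z X t ∧
  ((∃ s, s ≤ X.length ∧ D.zl ≤ s ∧ s < D.zl + 2 * D.N ∧ D.Wo (X.take s)) ∨ D.Bad (t - D.p0))}

theorem Z_code {X Y x y : List α} (h : X ∈ D.Z) (h' : Y ∈ D.Z) (e : X ++ x = Y ++ y) : X = Y := by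
  obtain ⟨t, ht⟩ := h
  obtain ⟨t', ht'⟩ := h'
  exact ht.code ht' e

theorem Zc_sub {X : List α} (h : X ∈ D.Zc) : X ∈ D.Z := by
  obtain ⟨t, ht, -⟩ := h
  exact ⟨t, ht⟩

/-- left words of scheme 1 -/
def LA (v : Tok S) : Language α := {P | D.p0 ≤ P.length ∧
  D.lam (P.drop D.p0) = some (act v (pr D.f (P.take D.p0)) + D.nu2 (P.take D.p0))}

theorem LA_len {v : Tok S} {P : List α} (h : P ∈ D.LA v) : D.p0 ≤ P.length ∧
    P.length ≤ D.p0 + D.N := by
  obtain ⟨h1, h2⟩ := h
  have := D.lamN _ _ h2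
  rw [List.length_drop] at this
  exact ⟨h1, by omega⟩

/-- right words of scheme 1 -/
def RA (τ : Tok S) : Language α := {Q | (∃ v P, P ∈ D.LA v ∧ P ++ Q ∈ D.Z) ∧
  ∀ v P, P ∈ D.LA v → P ++ Q ∈ D.Z ∧ D.T (P ++ Q) v = τ}

theorem soundA : Sound D.Z D.T D.LA D.RA := by
  refine ⟨fun v h => ?_, fun ω τ P Q z x y hP hQ hz e => ?_⟩
  · have := (D.LA_len h).1
    have := D.p0pos
    simp at *
    omega
  · obtain ⟨h1, h2⟩ := hQ.2 ω P hP
    have := D.Z_code h1 hz e
    exact ⟨this, by rw [← this]; exact h2.symm⟩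

theorem complA {X : List α} (hX : X ∈ D.Z) (hc : X ∉ D.Zc) (v : Tok S) : Cut D.LA D.RA v X := by
  obtain ⟨t, ht⟩ := hX
  have hzt := ht.zt
  have htX := ht.tX
  have hzl := D.hzl
  have hE : ∀ s, s ≤ X.length → D.zl ≤ s → s < D.zl + 2 * D.N → ¬ D.Wo (X.take s) := by
    intro s h1 h2 h3 h4
    exact hc ⟨t, ht, Or.inl ⟨s, h1, h2, h3, h4⟩⟩
  have hB : ¬ D.Bad (t - D.p0) := fun h => hc ⟨t, ht, Or.inr h⟩
  have hzz : D.z = D.zl + D.N := rfl
  have ht2 : D.zl + 2 * D.N ≤ t := by
    by_contra hlt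
    exact hE t (by omega) (by omega) (by omega) ht.wt
  have hYl : ((X.take t).drop D.p0).length = t - D.p0 := by
    rw [List.length_drop, List.length_take]; omega
  obtain ⟨p, q, hpq, hlam, hrho⟩ := D.cpl1 ((X.take t).drop D.p0) (by rw [hYl]; omega)
    (by rw [hYl]; exact hB) (act v (pr D.f (X.take D.p0)) + D.nu2 (X.take D.p0))
  obtain ⟨r, hr⟩ := Option.isSome_iff_exists.1 hrho
  have hpN := D.lamN _ _ hlam
  have hX1 : (X.take D.p0).length = D.p0 := by rw [List.length_take]; omega
  have hpql : p.length + q.length = t - D.p0 := by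
    rw [← hYl, ← hpq, List.length_append]
  have eX : X = (X.take D.p0 ++ p) ++ (q ++ X.drop t) := by
    have e1 : X.drop D.p0 = (X.take t).drop D.p0 ++ X.drop t := by
      conv_lhs => rw [← List.take_append_drop t X]
      rw [List.drop_append_of_le_length (by rw [List.length_take]; omega)]
    calc X = X.take D.p0 ++ X.drop D.p0 := (List.take_append_drop _ _).symm
      _ = _ := by rw [e1, ← hpq]; simp
  have hdt : D.p0 ≤ (X.take D.p0 ++ p).length := by rw [List.length_append]; omega
  have hPl : (X.take D.p0 ++ p).length = D.p0 + p.length := by rw [List.length_append, hX1]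
  have hmain : ∀ v' P', P' ∈ D.LA v' → P' ++ (q ++ X.drop t) ∈ D.Z ∧
      D.T (P' ++ (q ++ X.drop t)) v' = act r (pr D.f (X.drop t)) := by
    intro v' P' hP'
    obtain ⟨hl1, hl2⟩ := D.LA_len hP'
    have hb : Blk D.Wo D.z (P' ++ (q ++ X.drop t)) (P'.length + q.length) := by
      refine blk_shift (n := D.n) D.hloc (P := X.take D.p0 ++ p) ?_ (by omega) (by omega)
        (by omega) ?_
      · rw [← eX, hPl]
        have : D.p0 + p.length + q.length = t := by omega
        rw [this]; exact ht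
      · intro s h1 h2 h3 h4
        have hql : s ≤ (q ++ X.drop t).length := by rw [List.length_append]; omega
        have h5 := (wo_shift D.hloc (X.take D.p0 ++ p) (q ++ X.drop t) h1 hql).2 h4
        rw [← eX, hPl] at h5
        by_cases h6 : D.p0 + p.length + s < D.z
        · exact hE _ (by omega) (by omega) (by omega) h5
        · have := ht.uniq _ (by omega) (by omega) h5
          omega
    refine ⟨⟨_, hb⟩, ?_⟩
    rw [D.T_eq hb]
    have a1 : (P' ++ (q ++ X.drop t)).take D.p0 = P'.take D.p0 :=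
      List.take_append_of_le_length hl1
    have a2 : (P' ++ (q ++ X.drop t)).take (P'.length + q.length) = P' ++ q := by
      rw [List.take_length_add_append, List.take_left]
    have a3 : (P' ++ (q ++ X.drop t)).drop (P'.length + q.length) = X.drop t := by
      rw [← List.append_assoc, ← List.length_append, List.drop_left]
    have a4 : (P' ++ q).drop D.p0 = P'.drop D.p0 ++ q := List.drop_append_of_le_length hl1
    rw [a1, a2, a3, a4]
    congr 1
    exact (D.snd1 _ _ _ _ hP'.2 hr).symm
  have hPm : X.take D.p0 ++ p ∈ D.LA v := by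
    refine ⟨hdt, ?_⟩
    have b1 : (X.take D.p0 ++ p).drop D.p0 = p := List.drop_left' hX1
    have b2 : (X.take D.p0 ++ p).take D.p0 = X.take D.p0 := by
      rw [List.take_append_of_le_length (by omega), List.take_take, min_self]
    rw [b1, b2]; exact hlam
  refine ⟨X.take D.p0 ++ p, q ++ X.drop t, act r (pr D.f (X.drop t)), eX, hPm, ⟨v, _, hPm, ?_⟩,
    hmain⟩
  exact (hmain v _ hPm).1

/-- left words of scheme 2 -/
def LB (v : Tok S) : Language α := {P | ∃ k, k < D.K ∧ P.length = D.c k ∧ D.lamE k P = some v}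

/-- right words of scheme 2 -/
def RB (τ : Tok S) : Language α := {Q | (∃ v P, P ∈ D.LB v ∧ P ++ Q ∈ D.Zc) ∧
  ∀ v P, P ∈ D.LB v → (∃ z ∈ D.Zc, ∃ x y, P ++ Q ++ x = z ++ y) →
    P ++ Q ∈ D.Zc ∧ D.T (P ++ Q) v = τ}

theorem soundB : Sound D.Zc D.T D.LB D.RB := by
  refine ⟨fun v h => ?_, fun ω τ P Q z x y hP hQ hz e => ?_⟩
  · obtain ⟨k, hk, h1, -⟩ := h
    have := D.cpos k hk
    simp at h1
    omega
  · obtain ⟨h1, h2⟩ := hQ.2 ω P hP ⟨z, hz, x, y, e⟩
    have := D.Z_code (D.Zc_sub h1) (D.Zc_sub hz) e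
    exact ⟨this, by rw [← this]; exact h2.symm⟩

/-- `k` is spoiled by `k'` in `X` -/
def Ev (X : List α) (k k' : ℕ) : Prop :=
  (∃ s, s ≤ X.length ∧ D.Wo (X.take s) ∧ D.zl + D.c k ≤ s + D.c k' ∧
    s + D.c k' < D.zl + 2 * D.N + D.c k) ∨
  (∃ s, s ≤ X.length ∧ D.Wo (X.take s) ∧ D.z ≤ s + D.p0 ∧ D.Bad (s - D.p0 + D.c k' - D.c k))

/-- a comparable critical block at another place spoils -/
theorem ev_of {X : List α} {t : ℕ} (ht : Blk D.Wo D.z X t) {k k' : ℕ} (hk : k < D.K)
    (hk' : k' < D.K) {P' z' x y : List α} (hP' : P'.length = D.c k') (hz' : z' ∈ D.Zc)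
    (e : P' ++ X.drop (D.c k) ++ x = z' ++ y) : D.Ev X k k' := by
  obtain ⟨t', ht', hbad⟩ := hz'
  have hzl := D.hzl
  have hW := D.hW
  have hzz : D.z = D.zl + D.N := rfl
  have hck := D.cp k hk
  have hck' := D.cp k' hk'
  have hzt := ht.zt
  have htX := ht.tX
  have hzt' := ht'.zt
  have htX' := ht'.tX
  have hlong : t + D.W < X.length := by
    by_contra hlt
    have := D.gap (X := X) (s := t) (t := X.length) le_rfl ht.wt (by rw [List.take_length]; exact ht.wX)
      (by omega) (by omega)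
    omega
  have hXl : (X.take (D.c k)).length = D.c k := by rw [List.length_take]; omega
  have hQl : (X.drop (D.c k)).length = X.length - D.c k := by rw [List.length_drop]
  have hUl : (P' ++ X.drop (D.c k)).length = D.c k' + (X.length - D.c k) := by
    rw [List.length_append, hP', hQl]
  -- walls of `U'` are shifted walls of `X`
  have hsh : ∀ s, D.c k' + D.n ≤ s → s ≤ (P' ++ X.drop (D.c k)).length →
      D.Wo ((P' ++ X.drop (D.c k)).take s) → D.Wo (X.take (s - D.c k' + D.c k)) := by
    intro s h1 h2 h3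
    obtain ⟨r, rfl⟩ : ∃ r, s = P'.length + r := ⟨s - P'.length, by omega⟩
    rw [wo_shift D.hloc _ _ (by omega) (by omega)] at h3
    have h4 := (wo_shift D.hloc (X.take (D.c k)) (X.drop (D.c k)) (s := r) (by omega)
      (by omega)).2 h3
    rw [List.take_append_drop, hXl] at h4
    have : P'.length + r - D.c k' + D.c k = D.c k + r := by omega
    rw [this]; exact h4
  have ht'U : t' ≤ (P' ++ X.drop (D.c k)).length := by
    by_contra hlt
    have hlt' : (P' ++ X.drop (D.c k)).length < z'.length := by omega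
    have e2 := take_eq_of_append e (s := (P' ++ X.drop (D.c k)).length) le_rfl (by omega)
    rw [List.take_length] at e2
    have hw : D.Wo (P' ++ X.drop (D.c k)) := by
      rw [D.hloc _ _ (by omega)]
      have := ht.wX
      rw [← List.take_append_drop (D.c k) X] at this
      exact (D.hloc _ _ (by omega)).1 this
    rw [e2] at hw
    have := ht'.uniq _ (by omega) hlt' hw
    omega
  rcases hbad with ⟨s, h1, h2, h3, h4⟩ | hbad
  · left
    have hsU : s ≤ (P' ++ X.drop (D.c k)).length := by omega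
    have e2 := take_eq_of_append e hsU h1
    rw [← e2] at h4
    refine ⟨s - D.c k' + D.c k, by omega, hsh s (by omega) hsU h4, by omega, by omega⟩
  · right
    have e2 := take_eq_of_append e ht'U (by omega)
    have hw := ht'.wt
    rw [← e2] at hw
    refine ⟨t' - D.c k' + D.c k, by omega, hsh t' (by omega) ht'U hw, by omega, ?_⟩
    have : t' - D.c k' + D.c k - D.p0 + D.c k' - D.c k = t' - D.p0 := by omega
    rw [this]; exact hbad

open Classical in
/-- few places are spoiled -/
theorem spoil {X : List α} {t : ℕ} (ht : Blk D.Wo D.z X t) :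
    ((Finset.range D.K).filter (fun k => ∃ k', k' < D.K ∧ k' ≠ k ∧ D.Ev X k k')).card
      ≤ 3 * D.C0 + 1 := by
  have hzl := D.hzl
  have hW := D.hW
  have hzz : D.z = D.zl + D.N := rfl
  have hzt := ht.zt
  have htX := ht.tX
  have hlong : t + D.W < X.length := by
    by_contra hlt
    have := D.gap (X := X) (s := t) (t := X.length) le_rfl ht.wt (by rw [List.take_length]; exact ht.wX)
      (by omega) (by omega)
    omega
  -- (E)
  let SE : Finset ℕ := (Finset.range D.K).filter (fun k => ∃ k', k' < D.K ∧ k' ≠ k ∧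
    ∃ s, s ≤ X.length ∧ D.Wo (X.take s) ∧ D.zl + D.c k ≤ s + D.c k' ∧
    s + D.c k' < D.zl + 2 * D.N + D.c k)
  have hSE : SE.card ≤ 1 := by
    rw [Finset.card_le_one]
    intro a ha b hb
    obtain ⟨ha1, a', ha2, ha3, s, hs1, hs2, hs3, hs4⟩ := Finset.mem_filter.1 ha
    obtain ⟨hb1, b', hb2, hb3, r, hr1, hr2, hr3, hr4⟩ := Finset.mem_filter.1 hb
    rw [Finset.mem_range] at ha1 hb1
    have c1 := D.cp a ha1
    have c2 := D.cp b hb1
    have c3 := D.cp a' ha2
    have c4 := D.cp b' hb2
    have hsr : s = r := by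
      rcases le_total s r with h | h
      · exact D.gap hr1 hs2 hr2 h (by omega)
      · exact (D.gap hs1 hr2 hs2 h (by omega)).symm
    subst hsr
    exact ((D.spread a' a b' b ha2 ha1 hb2 hb1 ha3 hb3 (by omega) (by omega)).2)
  -- (B) for one wall
  let SB : ℕ → Finset ℕ := fun s => (Finset.range D.K).filter (fun k => ∃ k', k' < D.K ∧ k' ≠ k ∧
    D.Bad (s - D.p0 + D.c k' - D.c k))
  have hSB : ∀ s, D.z ≤ s + D.p0 → (SB s).card ≤ D.C0 := by
    intro s hs
    refine le_trans ?_ (D.count (s - D.p0) (by omega))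
    refine le_trans (Finset.card_le_card (t := (((Finset.range D.K ×ˢ Finset.range D.K).filter
      (fun ab : ℕ × ℕ => ab.1 ≠ ab.2 ∧ D.Bad (s - D.p0 + D.c ab.1 - D.c ab.2))).image
        Prod.snd)) ?_) Finset.card_image_le
    intro k hk
    obtain ⟨hk1, k', hk2, hk3, hk4⟩ := Finset.mem_filter.1 hk
    rw [Finset.mem_image]
    refine ⟨(k', k), ?_, rfl⟩
    rw [Finset.mem_filter, Finset.mem_product]
    exact ⟨⟨Finset.mem_range.2 hk2, hk1⟩, hk3, hk4⟩
  -- walls of `X` from `z - p0` on
  obtain ⟨w0, hw0, hw⟩ : ∃ w0, D.z ≤ w0 + D.p0 ∧ ∀ s, s ≤ X.length → D.Wo (X.take s) →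
      D.z ≤ s + D.p0 → s = w0 ∨ s = t ∨ s = X.length := by
    by_cases hex : ∃ w, w < D.z ∧ D.z ≤ w + D.p0 ∧ D.Wo (X.take w)
    · obtain ⟨w, h1, h2, h3⟩ := hex
      refine ⟨w, h2, fun s hs1 hs2 hs3 => ?_⟩
      by_cases hs4 : s < D.z
      · left
        rcases le_total s w with h | h
        · exact D.gap (by omega) hs2 h3 h (by omega)
        · exact (D.gap hs1 h3 hs2 h (by omega)).symm
      · right
        by_cases hs5 : s < X.length
        · left; exact ht.uniq s (by omega) hs5 hs2
        · right; omega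
    · refine ⟨t, by omega, fun s hs1 hs2 hs3 => ?_⟩
      by_cases hs4 : s < D.z
      · exact absurd ⟨s, hs4, hs3, hs2⟩ hex
      · right
        by_cases hs5 : s < X.length
        · left; exact ht.uniq s (by omega) hs5 hs2
        · right; omega
  have hsub : (Finset.range D.K).filter (fun k => ∃ k', k' < D.K ∧ k' ≠ k ∧ D.Ev X k k') ⊆
      SE ∪ (SB w0 ∪ (SB t ∪ SB X.length)) := by
    intro k hk
    obtain ⟨hk1, k', hk2, hk3, hk4⟩ := Finset.mem_filter.1 hk
    rcases hk4 with h | ⟨s, h1, h2, h3, h4⟩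
    · exact Finset.mem_union_left _ (Finset.mem_filter.2 ⟨hk1, k', hk2, hk3, h⟩)
    · refine Finset.mem_union_right _ ?_
      rcases hw s h1 h2 h3 with rfl | rfl | rfl
      · exact Finset.mem_union_left _ (Finset.mem_filter.2 ⟨hk1, k', hk2, hk3, h4⟩)
      · exact Finset.mem_union_right _ (Finset.mem_union_left _
          (Finset.mem_filter.2 ⟨hk1, k', hk2, hk3, h4⟩))
      · exact Finset.mem_union_right _ (Finset.mem_union_right _
          (Finset.mem_filter.2 ⟨hk1, k', hk2, hk3, h4⟩))
  have h1 := Finset.card_le_card hsub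
  have h2 := Finset.card_union_le SE (SB w0 ∪ (SB t ∪ SB X.length))
  have h3 := Finset.card_union_le (SB w0) (SB t ∪ SB X.length)
  have h4 := Finset.card_union_le (SB t) (SB X.length)
  have h5 := hSB w0 hw0
  have h6 := hSB t (by omega)
  have h7 := hSB X.length (by omega)
  omega

theorem complB {X : List α} (hX : X ∈ D.Zc) (v : Tok S) : Cut D.LB D.RB v X := by
  classical
  have hX' := hX
  obtain ⟨t, ht, hb⟩ := hX
  have hzl := D.hzl
  have hzz : D.z = D.zl + D.N := rfl
  have hzt := ht.zt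
  have htX := ht.tX
  have hX1 : (X.take D.p0).length = D.p0 := by rw [List.length_take]; omega
  obtain ⟨I, hI1, hI2⟩ := D.cpl2 (X.take D.p0) v hX1
  obtain ⟨k, hkI, hkS⟩ : ∃ k ∈ I, k ∉ (Finset.range D.K).filter
      (fun k => ∃ k', k' < D.K ∧ k' ≠ k ∧ D.Ev X k k') := by
    by_contra hno
    push Not at hno
    have := Finset.card_le_card (show I ⊆ _ from hno)
    have := D.spoil ht
    omega
  obtain ⟨hk, hlam, hrho⟩ := hI2 k hkI
  obtain ⟨b, hb'⟩ := Option.isSome_iff_exists.1 hrho
  have hck := D.cp k hk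
  have hXk : (X.take (D.c k)).length = D.c k := by rw [List.length_take]; omega
  have e0 : (X.take D.p0).take (D.c k) = X.take (D.c k) := by
    rw [List.take_take, min_eq_left hck]
  rw [e0] at hlam
  have hnosp : ∀ k', k' < D.K → k' ≠ k → ¬ D.Ev X k k' := by
    intro k' h1 h2 h3
    exact hkS (Finset.mem_filter.2 ⟨Finset.mem_range.2 hk, k', h1, h2, h3⟩)
  have hPm : X.take (D.c k) ∈ D.LB v := ⟨k, hk, hXk, hlam⟩
  have hmain : ∀ v' P', P' ∈ D.LB v' →
      (∃ z ∈ D.Zc, ∃ x y, P' ++ X.drop (D.c k) ++ x = z ++ y) →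
      P' ++ X.drop (D.c k) ∈ D.Zc ∧ D.T (P' ++ X.drop (D.c k)) v' =
        act (act b (pr D.f ((X.take t).drop D.p0)) + D.nu1 ((X.take t).drop D.p0))
          (pr D.f (X.drop t)) := by
    rintro v' P' ⟨k', hk', hl', hlam'⟩ ⟨z', hz', x, y, e⟩
    have hkk : k' = k := by
      by_contra hne
      exact hnosp k' hk' hne (D.ev_of ht hk hk' hl' hz' e)
    subst hkk
    have hbl : Blk D.Wo D.z (P' ++ X.drop (D.c k')) (P'.length + (t - D.c k')) := by
      refine blk_shift (n := D.n) D.hloc (P := X.take (D.c k')) ?_ (by omega) (by omega)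
        (by omega) ?_
      · rw [List.take_append_drop, hXk]
        have : D.c k' + (t - D.c k') = t := by omega
        rw [this]; exact ht
      · intro s h1 h2 h3 h4
        have h5 := (wo_shift D.hloc (X.take (D.c k')) (X.drop (D.c k')) h1
          (by rw [List.length_drop]; omega)).2 h4
        rw [List.take_append_drop, hXk] at h5
        have := ht.uniq _ (by omega) (by omega) h5
        omega
    have e1 : P'.length + (t - D.c k') = t := by omega
    rw [e1] at hbl
    have hUl : (P' ++ X.drop (D.c k')).length = X.length := by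
      rw [List.length_append, List.length_drop]; omega
    refine ⟨⟨t, hbl, ?_⟩, ?_⟩
    · rcases hb with ⟨s, h1, h2, h3, h4⟩ | hb
      · left
        refine ⟨s, by omega, h2, h3, ?_⟩
        have e2 := wo_shift D.hloc (X.take (D.c k')) (X.drop (D.c k')) (s := s - D.c k')
          (by omega) (by rw [List.length_drop]; omega)
        rw [List.take_append_drop, hXk] at e2
        have e3 := wo_shift D.hloc P' (X.drop (D.c k')) (s := s - D.c k')
          (by omega) (by rw [List.length_drop]; omega)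
        have e4 : D.c k' + (s - D.c k') = s := by omega
        have e5 : P'.length + (s - D.c k') = s := by omega
        rw [e4] at e2
        rw [e5] at e3
        exact e3.2 (e2.1 h4)
      · right; exact hb
    · rw [D.T_eq hbl]
      have a0 : D.p0 ≤ t := by omega
      have a1 : (P' ++ X.drop (D.c k')).take D.p0 = P' ++ (X.take D.p0).drop (D.c k') := by
        have : D.p0 = P'.length + (D.p0 - D.c k') := by omega
        rw [this, List.take_length_add_append, ← this, List.take_drop]
        congr 2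
        congr 1
        omega
      have a2 : ∀ r, D.c k' ≤ r → (P' ++ X.drop (D.c k')).drop r = X.drop r := by
        intro r hr
        obtain ⟨m, rfl⟩ : ∃ m, r = P'.length + m := ⟨r - P'.length, by omega⟩
        rw [List.drop_length_add_append, List.drop_drop]
        congr 1
        omega
      have a3 : ((P' ++ X.drop (D.c k')).take t).drop D.p0 = (X.take t).drop D.p0 := by
        rw [List.drop_take, List.drop_take, a2 D.p0 hck]
      rw [a3, a2 t (by omega), a1]
      congr 3
      exact (D.snd2 k' hk P' _ v' b hl' hlam' hb').symm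
  refine ⟨X.take (D.c k), X.drop (D.c k), _, (List.take_append_drop _ _).symm, hPm,
    ⟨v, _, hPm, ?_⟩, hmain⟩
  rw [List.take_append_drop]; exact hX'

end Par

end Crest.Agent.R320.Par_49
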