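import Mathlib.Data.ZMod.Basic
import Mathlib.NumberTheory.Bertrand
import Mathlib.Analysis.SpecificLimits.Normed
import Mathlib.Data.Nat.ChineseRemainder
import Mathlib.Tactic

/-!
# Row 320: arithmetic parameters of the rotating-weight gadget (helper844)

Explicit choice without primitive roots: `W = ZMod (q*q)`, `q` prime, `τ = 1 + q`,
`e ζ = 4 ^ (index of ζ)`.
* `sidon` : powers of 4 form a Sidon set;
* `rot_inj` : `τ^i (e a - e b) = τ^j (e c - e d)`, `a ≠ b`, `i, j < q` forces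
  `i = j`, `a = c`, `b = d` (so the phases are pairwise disjoint);
* `exists_params` : prime `q ≥ m`, `q > C` with `K * q^2 * (B-1)^m < B^m` (union bound);
* `crt3` : every triple of residues occurs among `a*b*c` consecutive positions.
-/

set_option autoImplicit false

namespace Crest.Agent.R320.Par_844

/-- powers of 4 form a Sidon set -/
theorem sidon : ∀ a b c d : ℕ, 4 ^ a + 4 ^ d = 4 ^ c + 4 ^ b → (a = c ∧ d = b) ∨ (a = b ∧ d = c) := by
  intro a
  induction a with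
  | zero =>
    intro b c d h
    have hinj : ∀ x y : ℕ, 4 ^ x = 4 ^ y → x = y := fun x y hxy =>
      Nat.pow_right_injective (le_refl _ |>.trans (by norm_num : 2 ≤ 4)) hxy
    rcases d with _ | d <;> rcases c with _ | c <;> rcases b with _ | b <;>
      simp only [pow_zero, pow_succ] at h
    · simp
    · have := Nat.one_le_pow b 4 (by norm_num); omega
    · have := Nat.one_le_pow c 4 (by norm_num); omega
    · have := Nat.one_le_pow b 4 (by norm_num)
      have := Nat.one_le_pow c 4 (by norm_num); omega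
    · have := Nat.one_le_pow d 4 (by norm_num); omega
    · left
      have h2 : 4 ^ d = 4 ^ b := by omega
      exact ⟨rfl, by rw [hinj _ _ h2]⟩
    · right
      have h2 : 4 ^ d = 4 ^ c := by omega
      exact ⟨rfl, by rw [hinj _ _ h2]⟩
    · omega
  | succ a ih =>
    intro b c d h
    have hinj : ∀ x y : ℕ, 4 ^ x = 4 ^ y → x = y := fun x y hxy =>
      Nat.pow_right_injective (le_refl _ |>.trans (by norm_num : 2 ≤ 4)) hxy
    rcases d with _ | d <;> rcases c with _ | c <;> rcases b with _ | b <;>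
      simp only [pow_zero, pow_succ] at h
    · have := Nat.one_le_pow a 4 (by norm_num); omega
    · right
      have h2 : 4 ^ a = 4 ^ b := by omega
      exact ⟨by rw [hinj _ _ h2], rfl⟩
    · left
      have h2 : 4 ^ a = 4 ^ c := by omega
      exact ⟨by rw [hinj _ _ h2], rfl⟩
    · omega
    · have := Nat.one_le_pow a 4 (by norm_num)
      have := Nat.one_le_pow d 4 (by norm_num); omega
    · omega
    · omega
    · have h2 : 4 ^ a + 4 ^ d = 4 ^ c + 4 ^ b := by omega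
      rcases ih b c d h2 with ⟨h3, h4⟩ | ⟨h3, h4⟩
      · left; exact ⟨by rw [h3], by rw [h4]⟩
      · right; exact ⟨by rw [h3], by rw [h4]⟩

/-- difference form -/
theorem sidon_sub (a b c d : ℕ) (hab : a ≠ b)
    (h : ((4 : ℤ) ^ a - 4 ^ b) = 4 ^ c - 4 ^ d) : a = c ∧ b = d := by
  have h1 : 4 ^ a + 4 ^ d = 4 ^ c + 4 ^ b := by
    have : ((4 : ℤ) ^ a + 4 ^ d) = 4 ^ c + 4 ^ b := by linarith
    exact_mod_cast this
  rcases sidon a b c d h1 with ⟨h2, h3⟩ | ⟨h2, h3⟩
  · exact ⟨h2, h3.symm⟩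
  · exact (hab h2).elim

/-- `(1 + q)^i = 1 + i q` modulo `q^2` -/
theorem one_add_pow (q : ℤ) (i : ℕ) : (q * q) ∣ ((1 + q) ^ i - (1 + i * q)) := by
  induction i with
  | zero => simp
  | succ i ih =>
    obtain ⟨k, hk⟩ := ih
    refine ⟨k * (1 + q) + i, ?_⟩
    have : (1 + q) ^ i = 1 + i * q + q * q * k := by linarith
    rw [pow_succ, this]
    push_cast
    ring

/-- integer form of the injectivity of the rotating weights -/
theorem rot_inj_int {q : ℕ} (hq : q.Prime) {i j : ℕ} (hi : i < q) (hj : j < q) {d d' : ℤ}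
    (hd0 : d ≠ 0) (hd : 2 * |d| < q) (hd' : 2 * |d'| < q)
    (h : ((q : ℤ) * q) ∣ ((1 + q) ^ i * d - (1 + q) ^ j * d')) : i = j ∧ d = d' := by
  have h1 := one_add_pow q i
  have h2 := one_add_pow q j
  have h3 : ((q : ℤ) * q) ∣ ((1 + i * q) * d - (1 + j * q) * d') := by
    have h4 := dvd_sub h (dvd_sub (h1.mul_right d) (h2.mul_right d'))
    have e4 : (1 + (i : ℤ) * q) * d - (1 + j * q) * d' =
        (1 + (q : ℤ)) ^ i * d - (1 + q) ^ j * d' -
          (((1 + (q : ℤ)) ^ i - (1 + i * q)) * d - ((1 + (q : ℤ)) ^ j - (1 + j * q)) * d') := by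
      ring
    rw [e4]; exact h4
  have hqd : (q : ℤ) ∣ d - d' := by
    have h5 : (q : ℤ) ∣ ((1 + i * q) * d - (1 + j * q) * d') := dvd_trans (dvd_mul_right _ _) h3
    have h6 : (q : ℤ) ∣ q * (i * d - j * d') := dvd_mul_right _ _
    have h7 := dvd_sub h5 h6
    have e7 : d - d' = (1 + (i : ℤ) * q) * d - (1 + j * q) * d' - q * (i * d - j * d') := by
      ring
    rw [e7]; exact h7
  have hdd : d = d' := by
    have h8 : |d - d'| < q := by
      have h9 : |d - d'| ≤ |d| + |d'| := abs_sub d d'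
      linarith
    have h9 := Int.eq_zero_of_abs_lt_dvd hqd h8
    linarith
  subst hdd
  refine ⟨?_, rfl⟩
  have h10 : ((q : ℤ) * q) ∣ q * ((i - j) * d) := by
    convert h3 using 1
    ring
  have hq0 : (q : ℤ) ≠ 0 := by exact_mod_cast hq.pos.ne'
  have h11 : (q : ℤ) ∣ (i - j) * d := (mul_dvd_mul_iff_left hq0).1 h10
  have hp : Prime (q : ℤ) := Nat.prime_iff_prime_int.1 hq
  rcases hp.dvd_or_dvd h11 with h12 | h12
  · have h13 : |(i : ℤ) - j| < q := by
      rw [abs_lt]; constructor <;> omega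
    have h14 := Int.eq_zero_of_abs_lt_dvd h12 h13
    omega
  · have h13 : |d| < q := by
      have := abs_nonneg d
      linarith
    exact (hd0 (Int.eq_zero_of_abs_lt_dvd h12 h13)).elim

/-- **rotating weights**: the differences `τ^i (e a - e b)`, `i < q`, `a ≠ b`, are pairwise
distinct in `ZMod (q*q)`. -/
theorem rot_inj {q n : ℕ} (hq : q.Prime) (hn : 2 * 4 ^ n < q) {i j a b c d : ℕ}
    (hi : i < q) (hj : j < q) (ha : a < n) (hb : b < n) (hc : c < n) (hd : d < n) (hab : a ≠ b)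
    (h : ((1 + q : ℕ) : ZMod (q * q)) ^ i * ((4 : ZMod (q * q)) ^ a - 4 ^ b) =
      ((1 + q : ℕ) : ZMod (q * q)) ^ j * ((4 : ZMod (q * q)) ^ c - 4 ^ d)) :
    i = j ∧ a = c ∧ b = d := by
  have hpos : ∀ x : ℕ, x < n → (0 : ℤ) < 4 ^ x ∧ (4 : ℤ) ^ x ≤ 4 ^ n := fun x hx =>
    ⟨by positivity, pow_le_pow_right₀ (by norm_num) hx.le⟩
  have hbd : ∀ x y : ℕ, x < n → y < n → 2 * |(4 : ℤ) ^ x - 4 ^ y| < q := by
    intro x y hx hy
    have h1 := hpos x hx
    have h2 := hpos y hy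
    have h3 : |(4 : ℤ) ^ x - 4 ^ y| ≤ 4 ^ n := by
      rw [abs_le]; constructor <;> linarith [h1.1, h1.2, h2.1, h2.2]
    have h4 : (2 * 4 ^ n : ℤ) < q := by exact_mod_cast hn
    linarith
  have hne : ((4 : ℤ) ^ a - 4 ^ b) ≠ 0 := by
    intro h0
    have h1 : (4 : ℤ) ^ a = 4 ^ b := by linarith
    exact hab (Nat.pow_right_injective (le_refl _ |>.trans (by norm_num : 2 ≤ 4))
      (by exact_mod_cast h1 : 4 ^ a = 4 ^ b))
  have hdvd : ((q : ℤ) * q) ∣
      ((1 + q) ^ i * ((4 : ℤ) ^ a - 4 ^ b) - (1 + q) ^ j * ((4 : ℤ) ^ c - 4 ^ d)) := by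
    have h1 : (((1 + q) ^ i * ((4 : ℤ) ^ a - 4 ^ b) -
        (1 + q) ^ j * ((4 : ℤ) ^ c - 4 ^ d) : ℤ) : ZMod (q * q)) = 0 := by
      push_cast
      rw [sub_eq_zero]
      push_cast at h
      exact h
    have h2 := (ZMod.intCast_zmod_eq_zero_iff_dvd _ (q * q)).1 h1
    exact_mod_cast h2
  obtain ⟨h1, h2⟩ := rot_inj_int hq hi hj hne (hbd a b ha hb) (hbd c d hc hd) hdvd
  exact ⟨h1, sidon_sub a b c d hab h2⟩

/-- union bound parameters: `K q^2 (B-1)^m < B^m` with `q` prime, `max m C < q`. -/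
theorem exists_params (K C B : ℕ) (hB : 0 < B) :
    ∃ m q : ℕ, q.Prime ∧ m < q ∧ C < q ∧ 0 < m ∧ K * q ^ 2 * (B - 1) ^ m < B ^ m := by
  have hB' : (0 : ℝ) < B := by exact_mod_cast hB
  set r : ℝ := ((B - 1 : ℕ) : ℝ) / B with hr
  have hr0 : 0 ≤ r := by positivity
  have hr1 : r < 1 := by
    rw [hr, div_lt_one hB']
    have : B - 1 < B := Nat.sub_lt hB one_pos
    exact_mod_cast this
  have ht := tendsto_pow_const_mul_const_pow_of_abs_lt_one 2 (r := r)
    (by rw [abs_of_nonneg hr0]; exact hr1)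
  have hev : ∀ᶠ m : ℕ in Filter.atTop, (m : ℝ) ^ 2 * r ^ m < 1 / (4 * K + 1) :=
    ht.eventually (gt_mem_nhds (by positivity))
  obtain ⟨m, hm, hmC⟩ := (hev.and (Filter.eventually_ge_atTop (C + 1))).exists
  have hm0 : m ≠ 0 := by omega
  obtain ⟨q, hq, hmq, hq2⟩ := Nat.exists_prime_lt_and_le_two_mul m hm0
  refine ⟨m, q, hq, hmq, by omega, by omega, ?_⟩
  have h1 : (K : ℝ) * (q : ℝ) ^ 2 * r ^ m < 1 := by
    have h2 : (q : ℝ) ≤ 2 * m := by exact_mod_cast hq2
    have h3 : (q : ℝ) ^ 2 ≤ 4 * (m : ℝ) ^ 2 := by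
      have h5 : (0 : ℝ) ≤ q := by positivity
      nlinarith
    have hrm : 0 ≤ r ^ m := by positivity
    have h4 : (K : ℝ) * (q : ℝ) ^ 2 * r ^ m ≤ K * (4 * (m : ℝ) ^ 2) * r ^ m := by
      gcongr
    have h6 : (K : ℝ) * (4 * (m : ℝ) ^ 2) * r ^ m = 4 * K * ((m : ℝ) ^ 2 * r ^ m) := by ring
    have h7 : 4 * (K : ℝ) * ((m : ℝ) ^ 2 * r ^ m) ≤ 4 * K * (1 / (4 * K + 1)) := by
      gcongr
    have h8 : 4 * (K : ℝ) * (1 / (4 * K + 1)) < 1 := by
      have hK : (0 : ℝ) < 4 * K + 1 := by positivity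
      rw [mul_one_div, div_lt_one hK]
      linarith
    linarith [h4, h6.le, h7, h8]
  have h2 : ((K * q ^ 2 * (B - 1) ^ m : ℕ) : ℝ) < ((B ^ m : ℕ) : ℝ) := by
    have hBm : (0 : ℝ) < (B : ℝ) ^ m := by positivity
    have h3 : ((K * q ^ 2 * (B - 1) ^ m : ℕ) : ℝ) = (K : ℝ) * (q : ℝ) ^ 2 * r ^ m * (B : ℝ) ^ m := by
      rw [hr, div_pow]
      push_cast
      field_simp
    rw [h3]
    push_cast
    calc (K : ℝ) * (q : ℝ) ^ 2 * r ^ m * (B : ℝ) ^ m < 1 * (B : ℝ) ^ m :=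
          mul_lt_mul_of_pos_right h1 hBm
      _ = (B : ℝ) ^ m := one_mul _
  exact_mod_cast h2

/-- three coprime clocks: every triple of residues occurs at a position of `[s, s + a*b*c)`. -/
theorem crt3 {a b c : ℕ} (hab : Nat.Coprime a b) (hac : Nat.Coprime a c) (hbc : Nat.Coprime b c)
    (ha : 0 < a) (hb : 0 < b) (hc : 0 < c) (s x y z : ℕ) :
    ∃ t, s ≤ t ∧ t < s + a * b * c ∧ t ≡ x [MOD a] ∧ t ≡ y [MOD b] ∧ t ≡ z [MOD c] := by
  obtain ⟨u, hu1, hu2⟩ := Nat.chineseRemainder hab x y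
  obtain ⟨v, hv1, hv2⟩ := Nat.chineseRemainder (Nat.Coprime.mul_left hac hbc) u z
  set N := a * b * c with hN
  have hNpos : 0 < N := by positivity
  -- representative of v in [s, s+N)
  refine ⟨s + (v + (N - s % N)) % N, Nat.le_add_right _ _, ?_, ?_⟩
  · have := Nat.mod_lt (v + (N - s % N)) hNpos
    omega
  have key : s + (v + (N - s % N)) % N ≡ v [MOD N] := by
    have h1 : s + (v + (N - s % N)) % N ≡ s + (v + (N - s % N)) [MOD N] :=
      Nat.ModEq.add_left s (Nat.mod_modEq _ _)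
    have h2 : s + (v + (N - s % N)) = v + N * (s / N + 1) := by
      have h3 := Nat.div_add_mod s N
      have h4 := Nat.mod_lt s hNpos
      have h5 : N * (s / N + 1) = N * (s / N) + N := by ring
      rw [h5]
      omega
    rw [h2] at h1
    exact h1.trans (by simp [Nat.ModEq])
  have hA : s + (v + (N - s % N)) % N ≡ v [MOD a] :=
    key.of_dvd ⟨b * c, by rw [hN]; ring⟩
  have hB : s + (v + (N - s % N)) % N ≡ v [MOD b] :=
    key.of_dvd ⟨a * c, by rw [hN]; ring⟩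
  have hC : s + (v + (N - s % N)) % N ≡ v [MOD c] :=
    key.of_dvd ⟨a * b, by rw [hN]; ring⟩
  refine ⟨hA.trans ((hv1.of_dvd ⟨b, rfl⟩).trans hu1),
    hB.trans ((hv1.of_dvd ⟨a, by ring⟩).trans hu2), hC.trans hv2⟩

/-- code sizes: two coprime moduli above given bounds. -/
theorem exists_codes (s v : ℕ) :
    ∃ n1 n2 : ℕ, s ≤ n1 ∧ v ≤ n2 ∧ 0 < n1 ∧ 0 < n2 ∧ Nat.Coprime n1 n2 ∧
      ∀ q : ℕ, q.Prime → n1 < q → n2 < q → Nat.Coprime (q * q) n1 ∧ Nat.Coprime (q * q) n2 := by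
  refine ⟨s + v + 1, s + v + 2, by omega, by omega, by omega, by omega, ?_, ?_⟩
  · have h : s + v + 2 = (s + v + 1) + 1 := rfl
    rw [h]
    exact (Nat.coprime_self_add_right).2 (Nat.coprime_one_right _)
  · intro q hq h1 h2
    have e1 : Nat.Coprime q (s + v + 1) :=
      (Nat.Prime.coprime_iff_not_dvd hq).2 fun hd => by
        have := Nat.le_of_dvd (by omega) hd; omega
    have e2 : Nat.Coprime q (s + v + 2) :=
      (Nat.Prime.coprime_iff_not_dvd hq).2 fun hd => by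
        have := Nat.le_of_dvd (by omega) hd; omega
    exact ⟨Nat.Coprime.mul_left e1 e1, Nat.Coprime.mul_left e2 e2⟩

end Crest.Agent.R320.Par_844
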