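import Crest.Agent.R320.Hk2_851
import Crest.Agent.R320.Reg_236

/-!
# Row 320: cut systems on periodic texts (helper635)

`CS` : a finite deterministic cut system (state = thread).  `sep_core`: a recurrent non-fixed
thread of a periodic text with one junction on its orbit, sound along the orbit, separates the
powers of the period word.  `irr_per`: a word that is periodic for the language `Irr A` of
irreducible junction words carries a recurrent non-fixed thread without any junction.
-/

set_option autoImplicit false

namespace Crest.Agent.R320.Per_635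

open Crest.RegLang Crest.Agent.R320.Hk_851

universe u

variable {α : Type u}

/-- power of a word -/
def pw (n : ℕ) (w : List α) : List α := (List.replicate n w).flatten

@[simp] theorem pw_zero (w : List α) : pw 0 w = [] := rfl
theorem pw_succ (n : ℕ) (w : List α) : pw (n + 1) w = w ++ pw n w := by
  simp [pw, List.replicate_succ]
theorem pw_add (m n : ℕ) (w : List α) : pw (m + n) w = pw m w ++ pw n w := by
  induction m with
  | zero => simp
  | succ m ih => rw [Nat.succ_add, pw_succ, pw_succ, ih, List.append_assoc]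
theorem pw_length (n : ℕ) (w : List α) : (pw n w).length = n * w.length := by
  induction n with
  | zero => simp
  | succ n ih => rw [pw_succ, List.length_append, ih]; ring

/-- a cut system: `Q` thread states, `LL` left-legal states, `rho` right readings of words of
length `D` (state after the word) -/
structure CS (α : Type u) where
  Q : Type u
  fin : Finite Q
  d : Q → α → Q
  LL : Q → Prop
  D : ℕ
  Dpos : 0 < D
  rho : List α → Option Q

attribute [instance] CS.fin

variable (A : CS α)

def CS.run (q : A.Q) (w : List α) : A.Q := w.foldl A.d q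

@[simp] theorem run_nil (q : A.Q) : A.run q [] = q := rfl
@[simp] theorem run_append (q : A.Q) (u v : List α) : A.run q (u ++ v) = A.run (A.run q u) v := by
  simp [CS.run]

/-- factor of a text -/
def seg (t : ℕ → α) (i n : ℕ) : List α := (List.range' i n).map t

@[simp] theorem seg_length (t : ℕ → α) (i n : ℕ) : (seg t i n).length = n := by simp [seg]
@[simp] theorem seg_zero (t : ℕ → α) (i : ℕ) : seg t i 0 = [] := rfl
theorem seg_add (t : ℕ → α) (i m n : ℕ) : seg t i (m + n) = seg t i m ++ seg t (i + m) n := by
  simp only [seg]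
  rw [← List.map_append]
  congr 1
  exact (List.range'_append_1 ..).symm
theorem seg_per {t : ℕ → α} {p : ℕ} (h : ∀ i, t (i + p) = t i) (i n : ℕ) :
    seg t (i + p) n = seg t i n := by
  induction n generalizing i with
  | zero => rfl
  | succ n ih =>
    rw [Nat.add_comm n 1, seg_add, seg_add]
    have h1 : seg t (i + p) 1 = seg t i 1 := by simp [seg, h]
    rw [h1]
    congr 1
    have := ih (i + 1)
    rw [show i + p + 1 = i + 1 + p by ring]
    exact this
theorem seg_per_mul {t : ℕ → α} {p : ℕ} (h : ∀ i, t (i + p) = t i) (k i n : ℕ) :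
    seg t (i + k * p) n = seg t i n := by
  induction k with
  | zero => simp
  | succ k ih => rw [Nat.succ_mul, ← Nat.add_assoc, seg_per h, ih]
theorem seg_pw {t : ℕ → α} {p : ℕ} (h : ∀ i, t (i + p) = t i) (n : ℕ) :
    seg t 0 (n * p) = pw n (seg t 0 p) := by
  induction n with
  | zero => simp
  | succ n ih =>
    rw [Nat.succ_mul, Nat.add_comm, seg_add, pw_succ]
    congr 1
    rw [← ih]
    exact seg_per h 0 _

/-- junction words -/
def J : Language α := {u | ∃ r s q, u = r ++ s ∧ r.length = A.D ∧ A.rho r = some q ∧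
  A.LL (A.run q s)}

/-- irreducible junction words -/
def Irr : Language α := {u | u ∈ J A ∧ ∀ p r s, u = p ++ (r ++ s) → p ∈ J A → r.length = A.D →
  A.rho r = none}

section orbit
variable (t : ℕ → α) (q0 : A.Q)

/-- the thread -/
def st (i : ℕ) : A.Q := A.run q0 (seg t 0 i)

/-- a junction of the thread -/
def Jn (i : ℕ) : Prop := A.LL (st A t q0 i) ∧ ∃ q, A.rho (seg t i A.D) = some q

/-- soundness along the thread -/
def SoundO : Prop := ∀ i q, A.LL (st A t q0 i) → A.rho (seg t i A.D) = some q →
  A.run (st A t q0 i) (seg t i A.D) = q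

/-- recurrent non-fixed thread on a text of period `p` -/
structure Orb (p m : ℕ) : Prop where
  per : ∀ i, t (i + p) = t i
  hp : 0 < p
  hm : 0 < m
  ret : A.run q0 (seg t 0 (m * p)) = q0
  ne : A.run q0 (seg t 0 p) ≠ q0

variable {A t q0}

theorem st_add (i j : ℕ) : st A t q0 (i + j) = A.run (st A t q0 i) (seg t i j) := by
  unfold st
  rw [seg_add, run_append, Nat.zero_add]

theorem Orb.st_ret {p m : ℕ} (h : Orb A t q0 p m) (i : ℕ) : st A t q0 (i + m * p) = st A t q0 i := by
  rw [Nat.add_comm, st_add]
  have h1 : st A t q0 (m * p) = q0 := h.ret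
  rw [h1]
  unfold st
  rw [← seg_per_mul h.per m 0 i, Nat.zero_add]

theorem Orb.st_ret_mul {p m : ℕ} (h : Orb A t q0 p m) (n i : ℕ) :
    st A t q0 (i + n * (m * p)) = st A t q0 i := by
  induction n with
  | zero => simp
  | succ n ih => rw [Nat.succ_mul, ← Nat.add_assoc, h.st_ret, ih]

theorem st_step {p : ℕ} (hper : ∀ i, t (i + p) = t i) {i : ℕ} (h : st A t q0 (i + p) = st A t q0 i)
    (j : ℕ) : st A t q0 (i + j + p) = st A t q0 (i + j) := by
  rw [show i + j + p = i + p + j by ring, st_add, h, st_add, seg_per hper]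

theorem J_of {i j : ℕ} (hs : SoundO A t q0) (hi : Jn A t q0 i) (hj : A.LL (st A t q0 (i + A.D + j))) :
    seg t i (A.D + j) ∈ J A := by
  obtain ⟨h1, q, h2⟩ := hi
  refine ⟨seg t i A.D, seg t (i + A.D) j, q, seg_add .., seg_length .., h2, ?_⟩
  have h3 := hs i q h1 h2
  rw [← h3, ← st_add, ← st_add]
  exact hj

theorem J_inv {i n : ℕ} (hs : SoundO A t q0) (hi : A.LL (st A t q0 i)) (h : seg t i n ∈ J A) :
    A.D ≤ n ∧ (∃ q, A.rho (seg t i A.D) = some q) ∧ A.LL (st A t q0 (i + n)) := by
  obtain ⟨r, s, q, e, hr, hq, hl⟩ := h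
  have hl0 := congrArg List.length e
  rw [seg_length, List.length_append, hr] at hl0
  have e' := e
  rw [hl0, seg_add] at e'
  obtain ⟨e1, e2⟩ := List.append_inj e' (by rw [seg_length, hr])
  rw [← e1] at hq
  refine ⟨by omega, ⟨q, hq⟩, ?_⟩
  rw [hl0, ← Nat.add_assoc, st_add, e2, st_add, hs i q hi hq]
  exact hl

/-- **separation**: one junction on a recurrent non-fixed orbit -/
theorem sep_core {p m : ℕ} (h : Orb A t q0 p m) (hs : SoundO A t q0) {K : Language α}
    (hK : ∀ u ∈ K, u ∈ J A) {x0 : ℕ} (hx : Jn A t q0 x0)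
    (hf : ∃ n, 0 < n ∧ seg t x0 (n * (m * p)) ∈ (KStar.kstar K : Language α)) :
    ∃ x y : List α, ∃ k l : ℕ, 0 < k ∧ 0 < l ∧
      x ++ pw k (seg t 0 p) ++ y ∈ (KStar.kstar K : Language α) ∧
      x ++ pw l (seg t 0 p) ++ y ∉ (KStar.kstar K : Language α) := by
  classical
  have hp := h.hp
  have hm := h.hm
  -- soundness of factorisations
  have claim : ∀ (S : List (List α)) (j n : ℕ), seg t j n = S.flatten → (∀ u ∈ S, u ∈ K) →
      A.LL (st A t q0 j) → A.LL (st A t q0 (j + n)) := by
    intro S
    induction S with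
    | nil =>
      intro j n e _ hj
      have : n = 0 := by
        have := congrArg List.length e
        simpa using this
      rw [this]; exact hj
    | cons u S ih =>
      intro j n e hS hj
      rw [List.flatten_cons] at e
      have hl := congrArg List.length e
      rw [seg_length, List.length_append] at hl
      have e' := e
      rw [hl, seg_add] at e'
      obtain ⟨e1, e2⟩ := List.append_inj e' (by rw [seg_length])
      have hu : seg t j u.length ∈ J A := by rw [e1]; exact hK u (hS u (by simp))
      have h3 := (J_inv hs hj hu).2.2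
      have := ih (j + u.length) S.flatten.length e2 (fun v hv => hS v (by simp [hv])) h3
      rw [hl, ← Nat.add_assoc]
      exact this
  have claim' : ∀ n, seg t x0 n ∈ (KStar.kstar K : Language α) → A.LL (st A t q0 (x0 + n)) := by
    intro n hn
    rw [Language.mem_kstar] at hn
    obtain ⟨S, e, hS⟩ := hn
    exact claim S x0 n e hS hx.1
  -- form of the words
  have form : ∃ x y : List α, ∀ k : ℕ,
      seg t x0 ((k + 2) * p) = x ++ pw (k + 1) (seg t 0 p) ++ y := by
    refine ⟨seg t x0 (p - x0 % p), seg t 0 (x0 % p), fun k => ?_⟩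
    have hlt := Nat.mod_lt x0 hp
    have e1 : (k + 2) * p = (p - x0 % p) + ((k + 1) * p + x0 % p) := by
      have : (k + 2) * p = p + (k + 1) * p := by ring
      omega
    rw [e1, seg_add, seg_add, List.append_assoc]
    congr 1
    have e2 : x0 + (p - x0 % p) = 0 + (x0 / p + 1) * p := by
      have := Nat.div_add_mod x0 p
      have e3 : (x0 / p + 1) * p = p * (x0 / p) + p := by ring
      omega
    rw [e2, seg_per_mul h.per, seg_pw h.per, Nat.zero_add, Nat.add_comm _ ((k + 1) * p),
      ← Nat.zero_add ((k + 1) * p + (x0 / p + 1) * p), ← Nat.add_mul, seg_per_mul h.per]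
  obtain ⟨x, y, hxy⟩ := form
  obtain ⟨n, hn, hmem⟩ := hf
  -- membership for `2 n m` periods
  have hmem2 : seg t x0 ((2 * (n * m) - 2 + 2) * p) ∈ (KStar.kstar K : Language α) := by
    have h0 : 0 < n * m := Nat.mul_pos hn hm
    have e1 : (2 * (n * m) - 2 + 2) * p = n * (m * p) + n * (m * p) := by
      have : 2 * (n * m) - 2 + 2 = 2 * (n * m) := by omega
      rw [this]; ring
    rw [e1, seg_add, ← Nat.mul_assoc, seg_per_mul h.per, Nat.mul_assoc]
    exact Reg_236.kstar_append hmem hmem
  by_contra hcon
  push Not at hcon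
  have hall : ∀ l, seg t x0 ((l + 2) * p) ∈ (KStar.kstar K : Language α) := by
    intro l
    rw [hxy]
    refine hcon x y (2 * (n * m) - 2 + 1) (l + 1) (by omega) (by omega) ?_
    rw [← hxy]; exact hmem2
  -- the state after the junction is fixed
  have hL : A.LL (st A t q0 (x0 + (2 * m + 1) * p)) := by
    have := claim' _ (hall (2 * m - 1))
    rwa [show 2 * m - 1 + 2 = 2 * m + 1 by omega] at this
  obtain ⟨hx1, q, hq⟩ := hx
  have a1 := hs x0 q hx1 hq
  have a2 := hs (x0 + (2 * m + 1) * p) q hL (by rw [seg_per_mul h.per]; exact hq)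
  rw [← st_add] at a1 a2
  have a3 : st A t q0 (x0 + A.D + p) = st A t q0 (x0 + A.D) := by
    rw [a1, ← a2, ← h.st_ret_mul 2 (x0 + A.D + p)]
    congr 1
    ring
  -- move to the start
  have a4 := st_step h.per a3 ((x0 + A.D) * (m * p) - (x0 + A.D))
  have hge : x0 + A.D ≤ (x0 + A.D) * (m * p) := Nat.le_mul_of_pos_right _ (Nat.mul_pos hm hp)
  rw [show x0 + A.D + ((x0 + A.D) * (m * p) - (x0 + A.D)) = 0 + (x0 + A.D) * (m * p) by omega] at a4
  rw [show 0 + (x0 + A.D) * (m * p) + p = p + (x0 + A.D) * (m * p) by ring, h.st_ret_mul,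
    h.st_ret_mul] at a4
  exact h.ne a4

/-- factorisation, bounded gaps -/
theorem fact_bdd (hs : SoundO A t q0) {B : ℕ} (hB : ∀ i, ∃ j, i ≤ j ∧ j ≤ i + B ∧ Jn A t q0 j)
    {K : Language α} (hK : ∀ u ∈ J A, u.length ≤ 2 * A.D + B → u ∈ K) :
    ∀ (n x0 : ℕ), A.D ≤ n → Jn A t q0 x0 → Jn A t q0 (x0 + n) →
      seg t x0 n ∈ (KStar.kstar K : Language α) := by
  intro n
  induction n using Nat.strong_induction_on with
  | _ n ih =>
    intro x0 hn h0 h1
    have hD := A.Dpos
    by_cases hle : n ≤ 2 * A.D + B
    · apply Reg_236.mem_kstar_self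
      apply hK
      · obtain ⟨j, rfl⟩ := Nat.exists_eq_add_of_le hn
        exact J_of hs h0 (by rw [Nat.add_assoc]; exact h1.1)
      · rw [seg_length]; exact hle
    · obtain ⟨j, hj1, hj2, hj⟩ := hB (x0 + A.D)
      obtain ⟨k, rfl⟩ := Nat.exists_eq_add_of_le hj1
      have e : n = (A.D + k) + (n - (A.D + k)) := by omega
      rw [e, seg_add]
      refine Reg_236.kstar_append (Reg_236.mem_kstar_self (hK _ (J_of hs h0 hj.1) ?_)) ?_
      · rw [seg_length]; omega
      · refine ih (n - (A.D + k)) (by omega) _ (by omega) ?_ ?_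
        · rw [← Nat.add_assoc]; exact hj
        · rw [show x0 + (A.D + k) + (n - (A.D + k)) = x0 + n by omega]; exact h1

/-- factorisation into irreducible junction words -/
theorem fact_irr (hs : SoundO A t q0) {K : Language α} (hK : ∀ i n, seg t i n ∈ Irr A →
      seg t i n ∈ K) :
    ∀ (n x0 : ℕ), A.D ≤ n → Jn A t q0 x0 → Jn A t q0 (x0 + n) →
      seg t x0 n ∈ (KStar.kstar K : Language α) := by
  classical
  intro n
  induction n using Nat.strong_induction_on with
  | _ n ih =>
    intro x0 hn h0 h1
    have hD := A.Dpos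
    -- irreducibility when there is no inner junction
    have irr : ∀ k, Jn A t q0 (x0 + A.D + k) → (∀ i, i + A.D ≤ k → ¬ Jn A t q0 (x0 + A.D + i)) →
        seg t x0 (A.D + k) ∈ Irr A := by
      intro k hk hno
      refine ⟨J_of hs h0 hk.1, ?_⟩
      intro p r s e hp hr
      by_contra hne
      obtain ⟨q, hq⟩ := Option.ne_none_iff_exists'.1 hne
      have hl := congrArg List.length e
      rw [seg_length, List.length_append, List.length_append, hr] at hl
      have e' := e
      rw [hl, seg_add, seg_add] at e'
      obtain ⟨e1, e2⟩ := List.append_inj e' (by rw [seg_length])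
      obtain ⟨e3, _⟩ := List.append_inj e2 (by rw [seg_length, hr])
      rw [← e1] at hp
      obtain ⟨b1, b2, b3⟩ := J_inv hs h0.1 hp
      obtain ⟨i, hi⟩ := Nat.exists_eq_add_of_le b1
      rw [hi] at b3 e3 hl
      refine hno i (by omega) ?_
      rw [Nat.add_assoc]
      exact ⟨b3, q, by rw [e3]; exact hq⟩
    by_cases hex : ∃ i, i + A.D + A.D ≤ n ∧ Jn A t q0 (x0 + A.D + i)
    · have hk := Nat.find_spec hex
      have hmin := fun i (hi : i < Nat.find hex) => Nat.find_min hex hi
      set k := Nat.find hex with hkdef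
      have e : n = (A.D + k) + (n - (A.D + k)) := by omega
      rw [e, seg_add]
      refine Reg_236.kstar_append (Reg_236.mem_kstar_self (hK _ _ (irr k hk.2 ?_))) ?_
      · intro i hi hj
        exact hmin i (by omega) ⟨by omega, hj⟩
      · refine ih (n - (A.D + k)) (by omega) _ (by omega) ?_ ?_
        · rw [← Nat.add_assoc]; exact hk.2
        · rw [show x0 + (A.D + k) + (n - (A.D + k)) = x0 + n by omega]; exact h1
    · push Not at hex
      obtain ⟨k, rfl⟩ := Nat.exists_eq_add_of_le hn
      apply Reg_236.mem_kstar_self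
      apply hK
      refine irr k (by rw [Nat.add_assoc]; exact h1) ?_
      intro i hi
      exact hex i (by omega)

end orbit


/-! ### words that are periodic for `Irr A` -/

/-- the periodic text of a word -/
def tx (w : List α) (hw : w ≠ []) : ℕ → α := fun i =>
  w[i % w.length]'(Nat.mod_lt _ (List.length_pos_iff.2 hw))

theorem tx_per (w : List α) (hw : w ≠ []) (i : ℕ) : tx w hw (i + w.length) = tx w hw i := by
  simp [tx]

theorem seg_tx (w : List α) (hw : w ≠ []) : seg (tx w hw) 0 w.length = w := by
  apply List.ext_getElem (by simp)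
  intro i h1 h2
  simp [seg, tx, Nat.mod_eq_of_lt h2]

/-- periodic word of a language -/
def PerL (L : Language α) (w : List α) : Prop :=
  ∀ n : ℕ, ∃ x y : List α, ¬ (x ++ pw n w ++ y ∈ L ↔ x ++ pw (n + 1) w ++ y ∈ L)

theorem J_append {x z : List α} (hx : A.D ≤ x.length) :
    x ++ z ∈ J A ↔ ∃ q, A.rho (x.take A.D) = some q ∧ A.LL (A.run (A.run q (x.drop A.D)) z) := by
  constructor
  · rintro ⟨r, s, q, e, hr, hq, hl⟩
    have h1 : r = x.take A.D := by
      have := congrArg (List.take A.D) e
      rw [List.take_append_of_le_length hx, List.take_left' hr] at this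
      exact this.symm
    have h2 : s = x.drop A.D ++ z := by
      have := congrArg (List.drop A.D) e
      rw [List.drop_append_of_le_length hx, List.drop_left' hr] at this
      exact this.symm
    subst h1
    refine ⟨q, hq, ?_⟩
    rw [← run_append, ← h2]; exact hl
  · rintro ⟨q, hq, hl⟩
    refine ⟨x.take A.D, x.drop A.D ++ z, q, ?_, List.length_take_of_le hx, hq, ?_⟩
    · rw [← List.append_assoc, List.take_append_drop]
    · rw [run_append]; exact hl

theorem pw_event (w : List α) : ∃ N m : ℕ, 0 < m ∧ ∀ q : A.Q,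
    A.run q (pw (N + m) w) = A.run q (pw N w) := by
  obtain ⟨a, b, hab, h⟩ := Finite.exists_ne_map_eq_of_infinite
    (fun n : ℕ => fun q : A.Q => A.run q (pw n w))
  rcases Nat.lt_or_gt_of_ne hab with hlt | hlt
  · refine ⟨a, b - a, by omega, fun q => ?_⟩
    rw [show a + (b - a) = b by omega]
    exact (congrFun h q).symm
  · refine ⟨b, a - b, by omega, fun q => ?_⟩
    rw [show b + (a - b) = a by omega]
    exact congrFun h q

/-- a prefix longer than `x` -/
theorem pre_split {x y p s : List α} (e : x ++ y = p ++ s) (h : x.length ≤ p.length) :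
    ∃ z, p = x ++ z ∧ y = z ++ s := by
  obtain ⟨z, hz⟩ := List.prefix_of_prefix_length_le (l₁ := x) (l₂ := p) (l₃ := x ++ y)
    (List.prefix_append _ _) (e ▸ List.prefix_append _ _) h
  refine ⟨z, hz.symm, ?_⟩
  rw [← hz, List.append_assoc] at e
  exact List.append_cancel_left e

theorem irr_per (w : List α) (h : PerL (Irr A) w) : ∃ (t : ℕ → α) (m : ℕ) (q0 : A.Q),
    Orb A t q0 w.length m ∧ seg t 0 w.length = w ∧ ∀ i, ¬ Jn A t q0 i := by
  classical
  have hD := A.Dpos
  have hw : w ≠ [] := by
    rintro rfl
    obtain ⟨x, y, hxy⟩ := h 0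
    apply hxy
    simp [pw]
  have hwl : 0 < w.length := List.length_pos_iff.2 hw
  set t := tx w hw with ht
  have hper := tx_per w hw
  have hsg := seg_tx w hw
  have hpw : ∀ n, pw n w = seg t 0 (n * w.length) := by
    intro n
    rw [seg_pw hper, hsg]
  by_contra hcon
  push Not at hcon
  obtain ⟨N, m, hm, hN⟩ := pw_event A w
  have hN' : ∀ (q : A.Q) (k : ℕ), N ≤ k → A.run q (pw (k + m) w) = A.run q (pw k w) := by
    intro q k hk
    obtain ⟨j, rfl⟩ := Nat.exists_eq_add_of_le hk
    rw [show N + j + m = (N + m) + j by ring, pw_add, run_append, hN, ← run_append, ← pw_add]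
  -- bound for the first junction
  have hex : ∀ q0 : A.Q, ∃ i, (A.run q0 (pw m w) = q0 ∧ A.run q0 w ≠ q0) → Jn A t q0 i := by
    intro q0
    by_cases hq : A.run q0 (pw m w) = q0 ∧ A.run q0 w ≠ q0
    · obtain ⟨i, hi⟩ := hcon t m q0 ⟨hper, hwl, hm, by rw [← hpw]; exact hq.1,
        by rw [hsg]; exact hq.2⟩ hsg
      exact ⟨i, fun _ => hi⟩
    · exact ⟨0, fun h' => (hq h').elim⟩
  choose g hg using hex
  obtain ⟨I, hI⟩ := (Set.finite_range g).bddAbove
  have hgI : ∀ q0, g q0 ≤ I := fun q0 => hI ⟨q0, rfl⟩
  obtain ⟨x, y, hxy⟩ := h (A.D + (N + 2 + (I + A.D)))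
  apply hxy
  set n' := N + 2 + (I + A.D) with hn'
  have hDl : A.D ≤ A.D * w.length := Nat.le_mul_of_pos_right _ hwl
  -- shift by `D` periods
  set x' := x ++ pw A.D w with hx'
  have hx'l : A.D ≤ x'.length := by
    rw [hx', List.length_append, pw_length]; omega
  have e1 : x ++ pw (A.D + n') w ++ y = x' ++ pw n' w ++ y := by
    rw [pw_add, hx']; simp only [List.append_assoc]
  have e2 : x ++ pw (A.D + n' + 1) w ++ y = x' ++ pw (n' + 1) w ++ y := by
    rw [Nat.add_assoc, pw_add, hx']; simp only [List.append_assoc]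
  rw [e1, e2]
  by_cases hr : A.rho (x'.take A.D) = none
  · have no : ∀ z, x' ++ z ∉ Irr A := by
      intro z hz
      obtain ⟨q, hq, _⟩ := (J_append A hx'l).1 hz.1
      rw [hr] at hq
      cases hq
    rw [List.append_assoc x', List.append_assoc x']
    exact ⟨fun h => (no _ h).elim, fun h => (no _ h).elim⟩
  obtain ⟨q1, hq1⟩ := Option.ne_none_iff_exists'.1 hr
  set qx := A.run q1 (x'.drop A.D) with hqx
  have hJ : ∀ z, x' ++ z ∈ J A ↔ A.LL (A.run qx z) := by
    intro z
    rw [J_append A hx'l]
    constructor
    · rintro ⟨q, hq, hl⟩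
      rw [hq1] at hq
      cases hq
      exact hl
    · intro hl
      exact ⟨q1, hq1, hl⟩
  set b := A.run qx (pw N w) with hb
  have hbm : A.run b (pw m w) = b := by
    rw [hb, ← run_append, ← pw_add]
    exact hN' qx N le_rfl
  have hlen : ∀ k, k ≤ k * w.length := fun k => Nat.le_mul_of_pos_right _ hwl
  by_cases hfix : A.run b w = b
  · -- fixed state: the two words have the same status
    have hbk : ∀ k, A.run b (pw k w) = b := by
      intro k
      induction k with
      | zero => rfl
      | succ k ih => rw [pw_succ, run_append, hfix, ih]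
    have hNk : ∀ k, N ≤ k → A.run qx (pw k w) = b := by
      intro k hk
      obtain ⟨j, rfl⟩ := Nat.exists_eq_add_of_le hk
      rw [pw_add, run_append, ← hb, hbk]
    have hJeq : ∀ k k' z, N ≤ k → N ≤ k' →
        (x' ++ (pw k w ++ z) ∈ J A ↔ x' ++ (pw k' w ++ z) ∈ J A) := by
      intro k k' z hk hk'
      rw [hJ, hJ, run_append, run_append, hNk k hk, hNk k' hk']
    -- transfer of inner junctions
    have tr : ∀ k k' : ℕ, N + 1 + A.D ≤ k → N + 1 + A.D ≤ k' → (k' = k + 1 ∨ k = k' + 1) →
        x' ++ (pw k w ++ y) ∈ Irr A → x' ++ (pw k' w ++ y) ∈ Irr A := by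
      intro k k' hk hk' hkk hmem
      refine ⟨(hJeq k k' y (by omega) (by omega)).1 hmem.1, ?_⟩
      intro p r s e hp hrl
      -- small common power
      by_cases hpl : p.length + A.D ≤ x'.length + (min k k') * w.length
      · -- inside the common prefix
        have ek : ∀ j, min k k' ≤ j → x' ++ (pw j w ++ y) =
            (x' ++ pw (min k k') w) ++ (pw (j - min k k') w ++ y) := by
          intro j hj
          obtain ⟨i, rfl⟩ := Nat.exists_eq_add_of_le hj
          rw [Nat.add_sub_cancel_left, pw_add]
          simp only [List.append_assoc]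
        rw [ek k' (Nat.min_le_right _ _)] at e
        have hpr : (p ++ r).length ≤ (x' ++ pw (min k k') w).length := by
          rw [List.length_append, List.length_append, pw_length, hrl]; omega
        rw [← List.append_assoc p r s] at e
        obtain ⟨z, hz1, _⟩ := pre_split e.symm hpr
        refine hmem.2 p r (z ++ (pw (k - min k k') w ++ y)) ?_ hp hrl
        rw [ek k (Nat.min_le_left _ _), hz1]
        simp only [List.append_assoc]
      · -- after the first `N + 1` periods
        push Not at hpl
        have hmin : N + 1 + A.D ≤ min k k' := le_min hk hk'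
        obtain ⟨c, hc⟩ := Nat.exists_eq_add_of_le hmin
        have hpl2 : x'.length + (N + 1) * w.length ≤ p.length := by
          have h3 : (N + 1 + A.D) * w.length ≤ min k k' * w.length := Nat.mul_le_mul_right _ hmin
          have h4 : (N + 1 + A.D) * w.length = (N + 1) * w.length + A.D * w.length := by ring
          omega
        -- offset: `p = x' ++ pw j' w ++ z`
        rcases hkk with rfl | rfl
        · -- k' = k + 1
          have e' : (x' ++ pw (N + 1) w) ++ (pw (k - N) w ++ y) = p ++ (r ++ s) := by
            rw [← e]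
            obtain ⟨j, rfl⟩ := Nat.exists_eq_add_of_le (show N ≤ k by omega)
            rw [Nat.add_sub_cancel_left, show N + j + 1 = (N + 1) + j by ring, pw_add (N + 1) j]
            simp only [List.append_assoc]
          obtain ⟨z, hz1, hz2⟩ := pre_split e' (by
            rw [List.length_append, pw_length]; exact hpl2)
          refine hmem.2 (x' ++ (pw N w ++ z)) r s ?_ ?_ hrl
          · obtain ⟨j, rfl⟩ := Nat.exists_eq_add_of_le (show N ≤ k by omega)
            rw [Nat.add_sub_cancel_left] at hz2
            rw [pw_add, List.append_assoc (pw N w), hz2]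
            simp only [List.append_assoc]
          · rw [hz1, List.append_assoc] at hp
            exact (hJeq (N + 1) N z (by omega) le_rfl).1 hp
        · -- k = k' + 1
          have e' : (x' ++ pw N w) ++ (pw (k' - N) w ++ y) = p ++ (r ++ s) := by
            rw [← e]
            obtain ⟨j, rfl⟩ := Nat.exists_eq_add_of_le (show N ≤ k' by omega)
            rw [Nat.add_sub_cancel_left, pw_add N j]
            simp only [List.append_assoc]
          obtain ⟨z, hz1, hz2⟩ := pre_split e' (by
            rw [List.length_append, pw_length]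
            have : (N + 1) * w.length = N * w.length + w.length := by ring
            omega)
          refine hmem.2 (x' ++ (pw (N + 1) w ++ z)) r s ?_ ?_ hrl
          · obtain ⟨j, rfl⟩ := Nat.exists_eq_add_of_le (show N ≤ k' by omega)
            rw [Nat.add_sub_cancel_left] at hz2
            rw [show N + j + 1 = (N + 1) + j by ring, pw_add (N + 1) j,
              List.append_assoc (pw (N + 1) w), hz2]
            simp only [List.append_assoc]
          · rw [hz1, List.append_assoc] at hp
            exact (hJeq N (N + 1) z le_rfl (by omega)).1 hp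
    rw [List.append_assoc x', List.append_assoc x']
    exact ⟨tr n' (n' + 1) (by omega) (by omega) (Or.inl rfl),
      tr (n' + 1) n' (by omega) (by omega) (Or.inr rfl)⟩
  · -- a recurrent non-fixed state: both words have an inner junction
    have hj := hg b ⟨hbm, hfix⟩
    have hi := hgI b
    set i := g b with hidef
    obtain ⟨hj1, q2, hj2⟩ := hj
    have no : ∀ k, N + 1 + (I + A.D) ≤ k → x' ++ (pw k w ++ y) ∉ Irr A := by
      intro k hk hmem
      obtain ⟨c, hc⟩ := Nat.exists_eq_add_of_le (show N ≤ k by omega)
      have hlong : i + A.D ≤ c * w.length := by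
        have := hlen c
        omega
      obtain ⟨c', hc'⟩ := Nat.exists_eq_add_of_le hlong
      have key := hmem.2 (x' ++ (pw N w ++ seg t 0 i)) (seg t i A.D) (seg t (i + A.D) c' ++ y) ?_
        ?_ (seg_length ..)
      · rw [hj2] at key; cases key
      · rw [hc, pw_add, hpw c, hc', seg_add, seg_add, Nat.zero_add]
        simp only [List.append_assoc, Nat.zero_add]
      · rw [hJ, run_append, ← hb]
        exact hj1
    rw [List.append_assoc x', List.append_assoc x']
    exact ⟨fun h => (no n' (by omega) h).elim, fun h => (no (n' + 1) (by omega) h).elim⟩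

end Crest.Agent.R320.Per_635
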