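import Mathlib

/-! Row 320: zone-by-zone complementarity of two chains on the same walls (762 #12626 (1), 233 #12627 (2)).

Walls are a predicate on positions.  The chain of step `z` moves from `a` to the first wall `≥ a + z`.
A node `a` is critical if some wall lies within `N` of `a + z`, and clean otherwise.  If no stretch of
length `Λ` is critical for both chains, then in every window of length `2 * m * Λ` one of the two
chains has at least `m` clean nodes. -/

set_option autoImplicit false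

namespace Crest.Agent.R320.Pigeon_580

/-- `b` is the first wall `≥ y`. -/
def IsNext (W : ℕ → Prop) (y b : ℕ) : Prop := W b ∧ y ≤ b ∧ ∀ t, W t → y ≤ t → b ≤ t

theorem IsNext.unique {W : ℕ → Prop} {y b b' : ℕ} (h : IsNext W y b) (h' : IsNext W y b') :
    b = b' :=
  le_antisymm (h.2.2 b' h'.1 h'.2.1) (h'.2.2 b h.1 h.2.1)

theorem exists_isNext {W : ℕ → Prop} (hW : ∀ y, ∃ t, y ≤ t ∧ W t) (y : ℕ) : ∃ b, IsNext W y b := by
  classical
  obtain ⟨b, hb, hmin⟩ := WellFounded.has_min (wellFounded_lt (α := ℕ)) {t | y ≤ t ∧ W t} (hW y)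
  exact ⟨b, hb.2, hb.1, fun t ht hyt => not_lt.1 (hmin t ⟨hyt, ht⟩)⟩

/-- A chain of step `z` on the walls `W`. -/
def IsChain (W : ℕ → Prop) (z : ℕ) (c : ℕ → ℕ) : Prop := ∀ k, IsNext W (c k + z) (c (k + 1))

theorem exists_isChain {W : ℕ → Prop} (hW : ∀ y, ∃ t, y ≤ t ∧ W t) (z a : ℕ) :
    ∃ c : ℕ → ℕ, c 0 = a ∧ IsChain W z c := by
  choose nx hnx using exists_isNext hW
  refine ⟨fun k => Nat.rec a (fun _ x => nx (x + z)) k, rfl, fun k => ?_⟩
  exact hnx _

theorem IsChain.mono {W : ℕ → Prop} {z : ℕ} {c : ℕ → ℕ} (h : IsChain W z c) : Monotone c :=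
  monotone_nat_of_le_succ fun k => le_trans (Nat.le_add_right _ z) (h k).2.1

theorem IsChain.strictMono {W : ℕ → Prop} {z : ℕ} (hz : 0 < z) {c : ℕ → ℕ} (h : IsChain W z c) :
    StrictMono c :=
  strictMono_nat_of_lt_succ fun k => lt_of_lt_of_le (Nat.lt_add_of_pos_right hz) (h k).2.1

theorem IsChain.wall {W : ℕ → Prop} {z : ℕ} {c : ℕ → ℕ} (h : IsChain W z c) (h0 : W (c 0))
    (k : ℕ) : W (c k) := by
  cases k with
  | zero => exact h0
  | succ k => exact (h k).1

/-- Two chains of the same step that meet once agree from then on. -/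
theorem IsChain.merge {W : ℕ → Prop} {z : ℕ} {c d : ℕ → ℕ} (hc : IsChain W z c)
    (hd : IsChain W z d) {i j : ℕ} (h : c i = d j) (k : ℕ) : c (i + k) = d (j + k) := by
  induction k with
  | zero => exact h
  | succ k ih => exact (hc (i + k)).unique (by rw [ih]; exact hd (j + k))

/-- `a` is critical for the step `z` and the half band `N`. -/
def Crit (W : ℕ → Prop) (z N a : ℕ) : Prop := ∃ t, W t ∧ a + z ≤ t + N ∧ t ≤ a + z + N

/-- At a clean node the next node is the first wall `≥ a + z + s` for every `|s| ≤ N`. -/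
theorem IsNext.of_clean {W : ℕ → Prop} {z N a b : ℕ} (hcl : ¬ Crit W z N a)
    (hb : IsNext W (a + z) b) {y : ℕ} (h1 : a + z ≤ y + N) (h2 : y ≤ a + z + N) :
    IsNext W y b := by
  refine ⟨hb.1, ?_, fun t ht hyt => ?_⟩
  · by_contra hlt
    exact hcl ⟨b, hb.1, le_trans hb.2.1 (Nat.le_add_right _ _), by omega⟩
  · by_cases h : a + z ≤ t
    · exact hb.2.2 t ht h
    · exact absurd ⟨t, ht, by omega, by omega⟩ hcl

/-- **Pigeonhole.**  If every stretch `[x, x + Λ)` inside `[A, A + 2 m Λ)` has a clean node of one of the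
two chains, then one of the chains has `m` clean nodes in `[A, A + 2 m Λ)`. -/
theorem clean_pigeon {P Q : ℕ → Prop} {c d : ℕ → ℕ} (hc : Monotone c) (hd : Monotone d)
    (A Λ m : ℕ)
    (H : ∀ x, A ≤ x → x + Λ ≤ A + 2 * m * Λ →
      (∃ k, x ≤ c k ∧ c k < x + Λ ∧ P (c k)) ∨ (∃ k, x ≤ d k ∧ d k < x + Λ ∧ Q (d k))) :
    (∃ k : Fin m → ℕ, StrictMono k ∧ ∀ i, A ≤ c (k i) ∧ c (k i) < A + 2 * m * Λ ∧ P (c (k i))) ∨
      (∃ k : Fin m → ℕ, StrictMono k ∧ ∀ i, A ≤ d (k i) ∧ d (k i) < A + 2 * m * Λ ∧ Q (d (k i))) := by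
  classical
  have key : ∀ {R : ℕ → Prop} {e : ℕ → ℕ} (_ : Monotone e) (s : Finset ℕ)
      (_ : s ⊆ Finset.range (2 * m)) (_ : m ≤ s.card)
      (_ : ∀ j ∈ s, ∃ k, A + j * Λ ≤ e k ∧ e k < A + j * Λ + Λ ∧ R (e k)),
      ∃ k : Fin m → ℕ, StrictMono k ∧
        ∀ i, A ≤ e (k i) ∧ e (k i) < A + 2 * m * Λ ∧ R (e (k i)) := by
    intro R e he s hs hcard hk
    obtain ⟨t, hts, htc⟩ := Finset.exists_subset_card_eq hcard
    have hk' : ∀ i : Fin m, ∃ k, A + (t.orderEmbOfFin htc i) * Λ ≤ e k ∧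
        e k < A + (t.orderEmbOfFin htc i) * Λ + Λ ∧ R (e k) := fun i =>
      hk _ (hts (Finset.orderEmbOfFin_mem t htc i))
    choose k h1 h2 h3 using hk'
    refine ⟨k, fun i j hij => ?_, fun i => ⟨le_trans (Nat.le_add_right _ _) (h1 i), ?_, h3 i⟩⟩
    · have hlt : t.orderEmbOfFin htc i < t.orderEmbOfFin htc j :=
        (t.orderEmbOfFin htc).strictMono hij
      have hstep : (t.orderEmbOfFin htc i) * Λ + Λ ≤ (t.orderEmbOfFin htc j) * Λ := by
        have := Nat.mul_le_mul_right Λ (Nat.succ_le_of_lt hlt)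
        simpa [Nat.succ_mul] using this
      by_contra hge
      have := he (not_lt.1 hge)
      have a1 := h1 j
      have a2 := h2 i
      omega
    · have hm : t.orderEmbOfFin htc i < 2 * m :=
        Finset.mem_range.1 (hs (hts (Finset.orderEmbOfFin_mem t htc i)))
      have hstep : (t.orderEmbOfFin htc i) * Λ + Λ ≤ 2 * m * Λ := by
        have := Nat.mul_le_mul_right Λ (Nat.succ_le_of_lt hm)
        simpa [Nat.succ_mul] using this
      have a2 := h2 i
      omega
  set s := (Finset.range (2 * m)).filter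
    (fun j => ∃ k, A + j * Λ ≤ c k ∧ c k < A + j * Λ + Λ ∧ P (c k)) with hs
  have hsplit := Finset.card_filter_add_card_filter_not (s := Finset.range (2 * m))
    (fun j => ∃ k, A + j * Λ ≤ c k ∧ c k < A + j * Λ + Λ ∧ P (c k))
  rw [Finset.card_range, ← hs] at hsplit
  by_cases hms : m ≤ s.card
  · exact Or.inl (key hc s (Finset.filter_subset _ _) hms fun j hj => (Finset.mem_filter.1 hj).2)
  · refine Or.inr (key hd _ (Finset.filter_subset _ _) (by omega : m ≤ ((Finset.range (2 * m)).filter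
      (fun j => ¬ ∃ k, A + j * Λ ≤ c k ∧ c k < A + j * Λ + Λ ∧ P (c k))).card) fun j hj => ?_)
    obtain ⟨hjr, hjn⟩ := Finset.mem_filter.1 hj
    have hj2 : j < 2 * m := Finset.mem_range.1 hjr
    have hstep : j * Λ + Λ ≤ 2 * m * Λ := by
      have := Nat.mul_le_mul_right Λ (Nat.succ_le_of_lt hj2)
      simpa [Nat.succ_mul] using this
    rcases H (A + j * Λ) (Nat.le_add_right _ _) (by omega) with h | h
    · exact absurd h hjn
    · exact h

/-- **Complementarity of the schemes `A` and `B`** (762 (1)): from the two-chain lemma (no stretch of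
length `Λ` is critical throughout for both chains) one of the two chains has `m` clean nodes in the
window `[A, A + 2 m Λ)`. -/
theorem two_chains_clean {W : ℕ → Prop} {z₁ z₂ N : ℕ} {c d : ℕ → ℕ}
    (hc : IsChain W z₁ c) (hd : IsChain W z₂ d) (A Λ m : ℕ)
    (H : ∀ x, A ≤ x → x + Λ ≤ A + 2 * m * Λ →
      ¬ ((∀ k, x ≤ c k → c k < x + Λ → Crit W z₁ N (c k)) ∧
        (∀ k, x ≤ d k → d k < x + Λ → Crit W z₂ N (d k)))) :
    (∃ k : Fin m → ℕ, StrictMono k ∧
        ∀ i, A ≤ c (k i) ∧ c (k i) < A + 2 * m * Λ ∧ ¬ Crit W z₁ N (c (k i))) ∨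
      (∃ k : Fin m → ℕ, StrictMono k ∧
        ∀ i, A ≤ d (k i) ∧ d (k i) < A + 2 * m * Λ ∧ ¬ Crit W z₂ N (d (k i))) := by
  refine clean_pigeon (P := fun a => ¬ Crit W z₁ N a) (Q := fun a => ¬ Crit W z₂ N a)
    hc.mono hd.mono A Λ m fun x hx hx' => ?_
  by_contra hcon
  push Not at hcon
  refine H x hx hx' ⟨fun k h1 h2 => ?_, fun k h1 h2 => ?_⟩
  · by_contra hk; exact hk (hcon.1 k h1 h2)
  · by_contra hk; exact hk (hcon.2 k h1 h2)

end Crest.Agent.R320.Pigeon_580
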