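import Crest.Agent.R320.Half1Def_961
import Crest.Agent.R320.Exact_808

/-!
# Row 320: the promise scheme (scheme 2) on words, abstract form (helper433)

Leaves (L4) + (L5) of 961's interface `TwoSchemes`: exactness and completeness of scheme 2 from
808's exact gadget (ruler form) and the ambiguity count.
-/

set_option autoImplicit false

namespace Crest.Agent.R320.Prom2_433

open Crest.Agent.R320.Half1_961 Crest.Agent.R320.Exact808

/-- **Scheme 2.** `m`, `k` depend on `S`, `V` only. -/
theorem scheme2 (S V : Type) [Monoid S] [Finite S] [Finite V] :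
    ∃ m k : ℕ, ∀ (α : Type) (φ : List α → S), (∀ u v, φ (u ++ v) = φ u * φ v) →
      ∀ (c : Chain α) (T : List α → V → V) (G : List α → S → V → V) (RF Bd : List α → Prop)
        (B : ℕ → ℕ) (ctx : ℕ → Option (ℕ × Fin k)) (p0 n1 n2 D2 L C0 : ℕ),
      Monotone B → B 0 = 0 → B m = p0 →
      (∀ x i e, ctx x = some (i, e) → i < m ∧ B i ≤ x ∧ x ≤ B (i + 1)) →
      (∀ x i e, ctx x = some (i, e) → n1 ≤ x) → p0 ≤ n2 → p0 ≤ D2 → L ≤ D2 →
      (∀ X Y, X.length = p0 → T (X ++ Y) = G Y (φ X)) →
      (∀ Q d, c.nx Q = some d → p0 < d) →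
      (∀ P P' U, P.length = P'.length → P.length ≤ p0 → c.nx (P ++ U) = c.nx (P' ++ U)) →
      (∀ Q Q', L ≤ Q.length → (Bd (Q ++ Q') ↔ Bd Q)) →
      (∀ Q, RF Q → D2 + n2 ≤ Q.length → ∃ d, c.nx Q = some d ∧ d + c.n ≤ D2) →
      (∀ i, i < m → ∀ e : Fin k, ∃ A : Finset ℕ, C0 < A.card ∧ ∀ x ∈ A, ctx x = some (i, e)) →
      (∀ Q, RF Q → D2 + n2 ≤ Q.length → Bd Q → ∃ A : Finset ℕ, A.card ≤ C0 ∧
        ∀ x, x ∉ A → (ctx x).isSome = true → ∀ P' : List α, (ctx P'.length).isSome = true →
          P'.length ≠ x → ¬ Bd (P' ++ (Q.drop x).take D2)) →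
      ∃ (ν2 : List α → V → ZMod 2) (al2 : List α → Option (V → ZMod 2))
        (rl2 : List α → Option (ℕ × (V → ZMod 2))),
        Exact c (T2 T ν2) al2 D2 rl2 (fun P U => Bd (P ++ U)) ∧
        Complete c al2 D2 rl2 n1 n2 (fun Q => RF Q ∧ D2 + n2 ≤ Q.length ∧ Bd Q) := by
  classical
  obtain ⟨m, k, H⟩ := exact_gadget S (V → ZMod 2)
  refine ⟨m, k, ?_⟩
  intro α φ hφ c T G RF Bd B ctx p0 n1 n2 D2 L C0 hB hB0 hBm hctx hn1 hp2 hpD hLD hT hnxp hnxi
    hloc hbd hpl hamb
  obtain ⟨lam, Hl⟩ := H α φ hφ B ctx hB hB0 hctx
  let act : List α → (V → ZMod 2) → S → (V → ZMod 2) := fun Y v s => push (G Y s) v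
  choose rho nu hsound hcomp using fun Y => Hl (act Y)
  have hxp : ∀ x, (ctx x).isSome = true → x ≤ p0 := by
    intro x hx
    obtain ⟨⟨i, e⟩, hie⟩ := Option.isSome_iff_exists.1 hx
    obtain ⟨him, _, h3⟩ := hctx x i e hie
    have : B (i + 1) ≤ B m := hB him
    omega
  -- the right-hand reading
  let Cand : List α → List α → Prop := fun U P' =>
    (ctx P'.length).isSome = true ∧ Bd (P' ++ U)
  let Uniq : List α → List α → Prop := fun U P' =>
    Cand U P' ∧ ∀ P'', Cand U P'' → P''.length = P'.length
  let rl2 : List α → Option (ℕ × (V → ZMod 2)) := fun U =>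
    if h : ∃ P', Uniq U P' then
      match c.nx (h.choose ++ U) with
      | none => none
      | some d =>
        match rho ((U.take (d - h.choose.length)).drop (p0 - h.choose.length))
            (U.take (p0 - h.choose.length)) with
        | none => none
        | some b => some (d - h.choose.length, b)
    else none
  let al2 : List α → Option (V → ZMod 2) := fun P =>
    if (ctx P.length).isSome = true then lam P else none
  refine ⟨fun Z => nu (Z.drop p0) (Z.take p0), al2, rl2, ?_, ?_⟩
  · intro P U v b R hU _ hBad hal hrl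
    have hctxP : (ctx P.length).isSome = true := by
      by_contra h
      simp [al2, h] at hal
    have hlam : lam P = some v := by simpa [al2, hctxP] using hal
    have hPp := hxp _ hctxP
    by_cases h : ∃ P', Uniq U P'
    · have hlen : P.length = h.choose.length := h.choose_spec.2 P ⟨hctxP, hBad⟩
      have hnx : c.nx (h.choose ++ U) = c.nx (P ++ U) :=
        (hnxi P h.choose U hlen hPp).symm
      simp only [rl2, dif_pos h, ← hlen] at hrl
      rw [hnx] at hrl
      cases hd : c.nx (P ++ U) with
      | none => simp [hd] at hrl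
      | some d =>
        simp only [hd] at hrl
        cases hr : rho ((U.take (d - P.length)).drop (p0 - P.length)) (U.take (p0 - P.length)) with
        | none => simp [hr] at hrl
        | some b' =>
          simp only [hr, Option.some.injEq, Prod.mk.injEq] at hrl
          obtain ⟨hb, hR⟩ := hrl
          have hdp := hnxp _ _ hd
          refine ⟨by congr 1; omega, ?_⟩
          have hql : (U.take (p0 - P.length)).length = p0 - P.length := by
            rw [List.length_take]; omega
          have hs := hsound ((U.take (d - P.length)).drop (p0 - P.length)) P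
            (U.take (p0 - P.length)) v b' (by rw [hql, hBm]; omega) hlam hr
          have hZ : P ++ U.take b = (P ++ U.take (p0 - P.length)) ++
              (U.take (d - P.length)).drop (p0 - P.length) := by
            rw [List.append_assoc, hb]
            congr 1
            conv_lhs => rw [← List.take_append_drop (p0 - P.length) (U.take b)]
            rw [List.take_take, Nat.min_eq_left (by omega)]
          have hX : (P ++ U.take (p0 - P.length)).length = p0 := by
            rw [List.length_append, hql]; omega
          rw [← hR, hs]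
          simp only [T2]
          rw [hZ, hT _ _ hX]
          congr 1
          rw [List.drop_left' hX, List.take_left' hX]
    · simp [rl2, h] at hrl
  · rintro Q ⟨hRF, hlen, hBad⟩ v
    obtain ⟨d, hd, hdn⟩ := hbd Q hRF hlen
    have hdp := hnxp _ _ hd
    obtain ⟨A, hA, hA2⟩ := hamb Q hRF hlen hBad
    obtain ⟨i, him, e, hie⟩ := hcomp ((Q.take d).drop p0) (Q.take p0) v
      (by rw [List.length_take, hBm]; omega)
    obtain ⟨A', hA', hA'2⟩ := hpl i him e
    have hex : ∃ x ∈ A', x ∉ A := by
      by_contra hcon
      push Not at hcon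
      have := Finset.card_le_card (fun x hx => hcon x hx : A' ⊆ A)
      omega
    obtain ⟨x, hxA', hxA⟩ := hex
    have hcx := hA'2 x hxA'
    have hcxs : (ctx x).isSome = true := by rw [hcx]; rfl
    have hxp0 := hxp x hcxs
    obtain ⟨h1, h2⟩ := hie x hcx
    have hxl : (Q.take x).length = x := by rw [List.length_take]; omega
    have hUl : ((Q.drop x).take D2).length = D2 := by
      rw [List.length_take, List.length_drop]; omega
    have hsplit : Q = Q.take x ++ ((Q.drop x).take D2 ++ (Q.drop x).drop D2) := by
      rw [List.take_append_drop, List.take_append_drop]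
    have hsplit' : Q = (Q.take x ++ (Q.drop x).take D2) ++ (Q.drop x).drop D2 := by
      rw [List.append_assoc]; exact hsplit
    have hPUl : (Q.take x ++ (Q.drop x).take D2).length = x + D2 := by
      rw [List.length_append, hxl, hUl]
    have hBadU : Bd (Q.take x ++ (Q.drop x).take D2) := by
      rw [hsplit', hloc _ _ (by rw [hPUl]; omega)] at hBad
      exact hBad
    have hnxPU : c.nx (Q.take x ++ (Q.drop x).take D2) = some d := by
      rw [hsplit'] at hd
      exact c.tight _ _ _ hd (by rw [hPUl]; omega)
    refine ⟨Q.take x, (Q.drop x).take D2, (Q.drop x).drop D2, hsplit, hUl, ?_, ?_, ?_, ?_, ?_⟩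
    · rw [hxl]; exact hn1 x i e hcx
    · rw [hxl]; omega
    · cases hP : c.nx (Q.take x) with
      | none => rfl
      | some d' =>
        have a1 := c.vis _ _ hP
        have a2 := hnxp _ _ hP
        rw [hxl] at a1
        omega
    · simp only [al2, hxl, hcxs, if_true]
      rw [List.take_take, Nat.min_eq_left hxp0] at h1
      exact h1
    · have hU : ∃ P', Uniq ((Q.drop x).take D2) P' := by
        refine ⟨Q.take x, ⟨by rw [hxl]; exact hcxs, hBadU⟩, ?_⟩
        rintro P'' ⟨hc'', hB''⟩
        rw [hxl]
        by_contra hne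
        exact hA2 x hxA hcxs P'' hc'' hne hB''
      have hlen' : (Q.take x).length = hU.choose.length :=
        hU.choose_spec.2 (Q.take x) ⟨by rw [hxl]; exact hcxs, hBadU⟩
      have hnx' : c.nx (hU.choose ++ (Q.drop x).take D2) = some d := by
        rw [← hnxPU]
        exact (hnxi (Q.take x) hU.choose _ hlen' (by rw [hxl]; exact hxp0)).symm
      have hxc : hU.choose.length = x := by rw [← hlen', hxl]
      have e1 : (((Q.drop x).take D2).take (d - x)).drop (p0 - x) = (Q.take d).drop p0 := by
        rw [List.take_take, Nat.min_eq_left (by omega)]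
        have : (Q.drop x).take (d - x) = (Q.take d).drop x := by
          rw [List.drop_take]
        rw [this, List.drop_drop]
        congr 1
        omega
      have e2 : ((Q.drop x).take D2).take (p0 - x) = (Q.take p0).drop x := by
        rw [List.take_take, Nat.min_eq_left (by omega), List.drop_take]
      obtain ⟨b', hb'⟩ := Option.isSome_iff_exists.1 h2
      simp only [rl2, dif_pos hU, hnx', hxc, e1, e2, hb']
      rfl

end Crest.Agent.R320.Prom2_433
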