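import Crest.Agent.R320.Hk2_851

/-!
# Row 320: promise form of the level theorem, heights of factor-closed classes, assembly
(helper722)

`Agr n D R` : on the class `D` the language `R` agrees with one of generalized star height at
most `n`.

* `agr_of_promise` : `D` closed under factors, `K` closed under concatenation as long as the
  result stays in `D`, irreducible words of `K` in `D` lie in `X`, `X` of height `n`, `X` inside
  `K` : then `K` agrees on `D` with a language of height `n + 1`.
* `agr_read` : reading lemma for such a class (finite tables).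
* `height_of_factorClosed` : `D` closed under factors and every `{u | a :: u ++ [b] ∉ D}` agrees
  on `D` with a language of height `m` : then `D` itself has height `m` (minimal forbidden
  factors, words outside `D` cost nothing).
* `assemble` : the three-level assembly: base class `C`, promise class `D`, all words.
-/

set_option autoImplicit false

namespace Crest.Agent.R320.Prom_722

open Crest.RegLang Crest.Agent.R320.Hk_851

universe u

variable {α : Type u} {n m : ℕ}

/-- on the class `D` the language `R` agrees with one of height `≤ n` -/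
def Agr (n : ℕ) (D R : Language α) : Prop :=
  ∃ R' : Language α, HL n R' ∧ ∀ w ∈ D, (w ∈ R' ↔ w ∈ R)

/-- closed under factors -/
def FacClosed (D : Language α) : Prop := ∀ u v w : List α, u ++ v ++ w ∈ D → v ∈ D

theorem FacClosed.left {D : Language α} (h : FacClosed D) {u v : List α} (huv : u ++ v ∈ D) :
    u ∈ D := h [] u v (by simpa using huv)

theorem FacClosed.right {D : Language α} (h : FacClosed D) {u v : List α} (huv : u ++ v ∈ D) :
    v ∈ D := h u v [] (by simpa using huv)

theorem FacClosed.infix {D : Language α} (h : FacClosed D) {v w : List α} (hw : w ∈ D)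
    (hv : v <:+: w) : v ∈ D := by
  obtain ⟨x, y, rfl⟩ := hv
  exact h x v y hw

theorem Agr.mono {D R : Language α} (h : n ≤ m) (hR : Agr n D R) : Agr m D R := by
  obtain ⟨R', h1, h2⟩ := hR
  exact ⟨R', h1.mono h, h2⟩

theorem Agr.of_HL {D R : Language α} (h : HL n R) : Agr n D R := ⟨R, h, fun _ _ => Iff.rfl⟩

theorem Agr.top {R : Language α} (h : Agr n (⊤ : Language α) R) : HL n R := by
  obtain ⟨R', h1, h2⟩ := h
  exact h1.congr fun w => (h2 w trivial).symm

theorem Agr.inf {D R : Language α} (hD : HL n D) (h : Agr n D R) : HL n (R ⊓ D) := by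
  obtain ⟨R', h1, h2⟩ := h
  refine (h1.inf hD).congr fun w => ?_
  constructor
  · rintro ⟨hw, hc⟩; exact ⟨(h2 w hc).2 hw, hc⟩
  · rintro ⟨hw, hc⟩; exact ⟨(h2 w hc).1 hw, hc⟩

theorem Agr.of_inf {D R : Language α} (h : HL n (R ⊓ D)) : Agr n D R :=
  ⟨R ⊓ D, h, fun _ hw => ⟨fun h => h.1, fun h => ⟨h, hw⟩⟩⟩

theorem star_of_irr {K X : Language α} (h0 : [] ∉ K)
    (D : Language α) (hD : FacClosed D)
    (h1 : ∀ u ∈ K, u ∈ D → (∀ p ∈ K, ∀ q ∈ K, p ++ q ≠ u) → u ∈ X) :
    ∀ N (w : List α), w.length ≤ N → w ∈ D → w ∈ K → w ∈ KStar.kstar X := by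
  intro N
  induction N with
  | zero =>
    intro w hl _ hw
    have : w = [] := List.length_eq_zero_iff.1 (Nat.le_zero.1 hl)
    rw [this] at hw
    exact (h0 hw).elim
  | succ N ih =>
    intro w hl hwD hw
    by_cases hirr : ∀ p ∈ K, ∀ q ∈ K, p ++ q ≠ w
    · have hx := h1 w hw hwD hirr
      rw [Language.mem_kstar]
      exact ⟨[w], by simp, by simpa using hx⟩
    · push Not at hirr
      obtain ⟨p, hp, q, hq, rfl⟩ := hirr
      have hp0 : p ≠ [] := fun h => h0 (h ▸ hp)
      have hq0 : q ≠ [] := fun h => h0 (h ▸ hq)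
      have hpl : 0 < p.length := List.length_pos_iff.2 hp0
      have hql : 0 < q.length := List.length_pos_iff.2 hq0
      rw [List.length_append] at hl
      have a1 := ih p (by omega) (hD.left hwD) hp
      have a2 := ih q (by omega) (hD.right hwD) hq
      rw [Language.mem_kstar] at a1 a2 ⊢
      obtain ⟨L1, e1, hL1⟩ := a1
      obtain ⟨L2, e2, hL2⟩ := a2
      refine ⟨L1 ++ L2, by rw [List.flatten_append, e1, e2], ?_⟩
      intro y hy
      rcases List.mem_append.1 hy with h | h
      · exact hL1 y h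
      · exact hL2 y h

theorem mem_of_star {D K X : Language α} (hD : FacClosed D)
    (hK : ∀ u ∈ K, ∀ v ∈ K, u ++ v ∈ D → u ++ v ∈ K) (h2 : ∀ u ∈ X, u ∈ K) :
    ∀ L : List (List α), (∀ y ∈ L, y ∈ X) → L.flatten ∈ D → (L.flatten = [] ∨ L.flatten ∈ K) := by
  intro L
  induction L with
  | nil => intro _ _; left; rfl
  | cons a L ih =>
    intro hL hwD
    rw [List.flatten_cons] at hwD ⊢
    have ha : a ∈ K := h2 a (hL a (by simp))
    rcases ih (fun y hy => hL y (by simp [hy])) (hD.right hwD) with h | h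
    · right; rw [h, List.append_nil]; exact ha
    · right; exact hK a ha _ h hwD

/-- **promise form of the level theorem** -/
theorem agr_of_promise {D K X : Language α} (hD : FacClosed D)
    (hK : ∀ u ∈ K, ∀ v ∈ K, u ++ v ∈ D → u ++ v ∈ K) (h0 : [] ∉ K)
    (h1 : ∀ u ∈ K, u ∈ D → (∀ p ∈ K, ∀ q ∈ K, p ++ q ≠ u) → u ∈ X)
    (h2 : ∀ u ∈ X, u ∈ K) (hX : HL n X) : Agr (n + 1) D K := by
  refine ⟨KStar.kstar X ⊓ (1 : Language α)ᶜ, (hX.star).inf (HL.one.compl), fun w hwD => ?_⟩
  constructor
  · rintro ⟨hw, hne⟩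
    obtain ⟨L, rfl, hL⟩ := Language.mem_kstar.1 hw
    rcases mem_of_star hD hK h2 L hL hwD with h | h
    · exact (hne h).elim
    · exact h
  · intro hw
    refine ⟨star_of_irr h0 D hD h1 _ w le_rfl hwD hw, ?_⟩
    intro h1
    have : w = [] := h1
    rw [this] at hw
    exact h0 hw

/-- promise form, with a class `C` for the irreducible words -/
theorem agr_of_promise' {C D K : Language α} (hD : FacClosed D)
    (hK : ∀ u ∈ K, ∀ v ∈ K, u ++ v ∈ D → u ++ v ∈ K) (h0 : [] ∉ K)
    (h1 : ∀ u ∈ K, u ∈ D → (∀ p ∈ K, ∀ q ∈ K, p ++ q ≠ u) → u ∈ C)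
    (hC : HL n C) (hKC : Agr n C K) : Agr (n + 1) D K :=
  agr_of_promise (X := K ⊓ C) hD hK h0 (fun u hu hd hi => ⟨hu, h1 u hu hd hi⟩)
    (fun _ hu => hu.1) (hKC.inf hC)

/-- the table of a word: which `w = p ++ u ++ q` with `u ∈ K i` occur -/
def tab {ι : Type*} (B : ℕ) (K : ι → Language α) (w : List α) :
    Set ({p : List α // p.length ≤ B} × {q : List α // q.length ≤ B} × ι) :=
  {j | ∃ u ∈ K j.2.2, w = j.1.1 ++ u ++ j.2.1.1}

/-- **reading lemma on a factor-closed class** -/
theorem agr_read [Finite α] {ι : Type*} [Finite ι] (B : ℕ) {K : ι → Language α}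
    {D : Language α} (hD : FacClosed D) (hK : ∀ i, Agr n D (K i)) {R : Language α}
    (hdet : ∀ w ∈ D, ∀ w' ∈ D, tab B K w = tab B K w' → w ∈ R → w' ∈ R) : Agr n D R := by
  choose K' hK' hKe using hK
  have : Finite {p : List α // p.length ≤ B} := (List.finite_length_le α B).to_subtype
  let J := {p : List α // p.length ≤ B} × {q : List α // q.length ≤ B} × ι
  have : Finite J := inferInstance
  have : Finite (Set J) := Set.instFinite
  have hP : ∀ j : J, HL n {w : List α | j ∈ tab B K' w} := by
    intro j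
    refine (((HL.word j.1.1).mul (hK' j.2.2)).mul (HL.word j.2.1.1)).congr fun w => ?_
    constructor
    · rintro ⟨u, hu, rfl⟩
      exact Language.mem_mul.2 ⟨j.1.1 ++ u, Language.mem_mul.2 ⟨j.1.1, rfl, u, hu, rfl⟩,
        j.2.1.1, rfl, rfl⟩
    · intro hw
      obtain ⟨pu, hpu, q, hq, rfl⟩ := Language.mem_mul.1 hw
      obtain ⟨p, hp, u, hu, rfl⟩ := Language.mem_mul.1 hpu
      rw [Set.mem_singleton_iff.1 hp, Set.mem_singleton_iff.1 hq]
      exact ⟨u, hu, rfl⟩
  have hT : ∀ τ : Set J, HL n {w : List α | tab B K' w = τ} := by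
    intro τ
    have h := HL.iInter (k := n) (ι := J) (L := fun j => {w : List α | j ∈ tab B K' w ↔ j ∈ τ})
      (fun j => (hP j).setOf_iff (HL.const (j ∈ τ)))
    refine h.congr fun w => ?_
    constructor
    · intro hw j
      have hw' : tab B K' w = τ := hw
      change j ∈ tab B K' w ↔ j ∈ τ
      rw [hw']
    · intro hw
      exact Set.ext hw
  have htab : ∀ w ∈ D, tab B K' w = tab B K w := by
    intro w hw
    ext j
    constructor
    · rintro ⟨u, hu, rfl⟩
      exact ⟨u, (hKe _ u (hD _ _ _ hw)).1 hu, rfl⟩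
    · rintro ⟨u, hu, rfl⟩
      exact ⟨u, (hKe _ u (hD _ _ _ hw)).2 hu, rfl⟩
  refine ⟨{w | ∃ τ ∈ {τ : Set J | ∃ v ∈ D, v ∈ R ∧ tab B K v = τ}, tab B K' w = τ},
    HL.biUnion (Set.toFinite _) (L := fun τ => {w : List α | tab B K' w = τ}) (fun τ _ => hT τ),
    fun w hw => ?_⟩
  constructor
  · rintro ⟨τ, ⟨v, hv, hvR, hvt⟩, hwt⟩
    rw [htab w hw] at hwt
    exact hdet v hv w hw (hvt.trans (Eq.symm hwt)) hvR
  · intro hR
    exact ⟨tab B K w, ⟨w, hw, hR, rfl⟩, htab w hw⟩

/-- **height of a factor-closed class**: minimal forbidden factors; outside `D` the languages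
`R'` may contain anything. -/
theorem height_of_factorClosed [Finite α] {D : Language α} (hD : FacClosed D)
    (h : ∀ a b : α, Agr m D {u | a :: (u ++ [b]) ∉ D}) : HL m D := by
  choose R hR hRe using h
  have h1 : HL m ({w : List α | ∃ a b : α, w ∈
      ((⊤ : Language α) * ({[a]} : Language α)) * (R a b) * ({[b]} : Language α) * ⊤}) := by
    have := HL.iUnion (k := m) (ι := α × α)
      (L := fun p => ((⊤ : Language α) * ({[p.1]} : Language α)) * (R p.1 p.2) *
        ({[p.2]} : Language α) * ⊤)
      (fun p => ((((HL.top.mul (HL.char p.1)).mul (hR p.1 p.2)).mul (HL.char p.2)).mul HL.top))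
    refine this.congr fun w => ?_
    constructor
    · rintro ⟨a, b, hp⟩; exact ⟨(a, b), hp⟩
    · rintro ⟨p, hp⟩; exact ⟨p.1, p.2, hp⟩
  have h2 : HL m ({w : List α | ∃ a : α, [a] ∉ D ∧ w ∈
      ((⊤ : Language α) * ({[a]} : Language α)) * ⊤}) := by
    have := HL.iUnion (k := m) (ι := α)
      (L := fun a => ({_w | [a] ∉ D} : Language α) ⊓ (((⊤ : Language α) * ({[a]} : Language α)) * ⊤))
      (fun a => (HL.const _).inf ((HL.top.mul (HL.char a)).mul HL.top))
    refine this.congr fun w => ?_
    constructor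
    · rintro ⟨a, hp, hq⟩; exact ⟨a, hp, hq⟩
    · rintro ⟨a, hp⟩; exact ⟨a, hp.1, hp.2⟩
  have h3 : HL m ({_w : List α | [] ∉ D} : Language α) := HL.const _
  have hall := ((h1.sup h2).sup h3).compl
  refine hall.congr fun w => Iff.symm ?_
  constructor
  · intro hw
    by_contra hwD
    -- minimal bad factor
    have key : ∀ N (v : List α), v.length ≤ N → v ∉ D → v <:+: w → False := by
      intro N
      induction N with
      | zero =>
        intro v hl hv hvw
        have : v = [] := List.length_eq_zero_iff.1 (Nat.le_zero.1 hl)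
        exact hw (Or.inr (show [] ∉ D from this ▸ hv))
      | succ N ih =>
        intro v hl hv hvw
        by_cases hmin : ∀ v', v' <:+: v → v'.length < v.length → v' ∈ D
        · cases v with
          | nil => exact hw (Or.inr (show [] ∉ D from hv))
          | cons a v =>
            rcases List.eq_nil_or_concat v with rfl | ⟨u, b, rfl⟩
            · obtain ⟨x, y, rfl⟩ := hvw
              refine hw (Or.inl (Or.inr ⟨a, hv, ?_⟩))
              exact Language.mem_mul.2 ⟨x ++ [a], Language.mem_mul.2 ⟨x, trivial, [a], rfl, rfl⟩,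
                y, trivial, rfl⟩
            · have hu : u ∈ D := by
                refine hmin u ⟨[a], [b], by simp⟩ (by simp)
              have hv' : a :: (u ++ [b]) ∉ D := by simpa [List.concat_eq_append] using hv
              have huR : u ∈ R a b := (hRe a b u hu).2 hv'
              obtain ⟨x, y, rfl⟩ := hvw
              refine hw (Or.inl (Or.inl ⟨a, b, ?_⟩))
              refine Language.mem_mul.2 ⟨x ++ [a] ++ u ++ [b], ?_, y, trivial, by simp⟩
              refine Language.mem_mul.2 ⟨x ++ [a] ++ u, ?_, [b], rfl, rfl⟩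
              refine Language.mem_mul.2 ⟨x ++ [a], ?_, u, huR, rfl⟩
              exact Language.mem_mul.2 ⟨x, trivial, [a], rfl, rfl⟩
        · push Not at hmin
          obtain ⟨v', h1, h2, h3⟩ := hmin
          exact ih v' (by omega) h3 (h1.trans hvw)
    exact key _ w le_rfl hwD (List.infix_refl w)
  · intro hwD hw
    rcases hw with (⟨a, b, hw⟩ | ⟨a, ha, hw⟩) | hw
    · obtain ⟨s1, hs1, y, -, rfl⟩ := Language.mem_mul.1 hw
      obtain ⟨s2, hs2, b', hb', rfl⟩ := Language.mem_mul.1 hs1
      obtain ⟨s3, hs3, u, hu, rfl⟩ := Language.mem_mul.1 hs2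
      obtain ⟨x, -, a', ha', rfl⟩ := Language.mem_mul.1 hs3
      have ea : a' = [a] := ha'
      have eb : b' = [b] := hb'
      subst ea eb
      have e : x ++ [a] ++ u ++ [b] ++ y = x ++ (a :: (u ++ [b])) ++ y := by simp
      rw [e] at hwD
      have h1 : a :: (u ++ [b]) ∈ D := hD _ _ _ hwD
      have h2 : u ∈ D := by
        refine hD [a] u [b] ?_
        simpa using h1
      exact (hRe a b u h2).1 hu h1
    · obtain ⟨s1, hs1, y, -, rfl⟩ := Language.mem_mul.1 hw
      obtain ⟨x, -, a', ha', rfl⟩ := Language.mem_mul.1 hs1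
      have ea : a' = [a] := ha'
      subst ea
      exact ha (hD _ _ _ hwD)
    · exact hw (hD [] [] w (by simpa using hwD))

/-- one scheme relative to the class `D`: a finite family of languages closed under
concatenation inside `D`, irreducible words in `C`, computable on `C` at height `n`, whose finite
table determines `R` on `D` -/
structure Scheme (n : ℕ) (C D R : Language α) where
  N : ℕ
  K : Fin N → Language α
  B : ℕ
  closed : ∀ i, ∀ u ∈ K i, ∀ v ∈ K i, u ++ v ∈ D → u ++ v ∈ K i
  nil : ∀ i, [] ∉ K i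
  irr : ∀ i, ∀ u ∈ K i, u ∈ D → (∀ p ∈ K i, ∀ q ∈ K i, p ++ q ≠ u) → u ∈ C
  comp : ∀ i, Agr n C (K i)
  det : ∀ w ∈ D, ∀ w' ∈ D, tab B K w = tab B K w' → w ∈ R → w' ∈ R

theorem Scheme.agr [Finite α] {C D R : Language α} (hD : FacClosed D) (hC : HL n C)
    (S : Scheme n C D R) : Agr (n + 1) D R :=
  agr_read S.B hD
    (fun i => agr_of_promise' hD (S.closed i) (S.nil i) (S.irr i) hC (S.comp i)) S.det

theorem facClosed_top : FacClosed (⊤ : Language α) := fun _ _ _ _ => trivial

/-- **assembly**: base class `C` (height 1), promise class `D` (closed under factors; its height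
is automatic), all words. The outer scheme needs its languages only on `D`, they are computed
there by inner schemes. -/
theorem assemble [Finite α] {C D L : Language α} (hC : HL 1 C) (hD : FacClosed D)
    (inner : ∀ a b : α, Nonempty (Scheme 1 C D {u | a :: (u ++ [b]) ∉ D}))
    (N : ℕ) (K : Fin N → Language α) (B : ℕ)
    (closed : ∀ i, ∀ u ∈ K i, ∀ v ∈ K i, u ++ v ∈ K i) (nil : ∀ i, [] ∉ K i)
    (irr : ∀ i, ∀ u ∈ K i, (∀ p ∈ K i, ∀ q ∈ K i, p ++ q ≠ u) → u ∈ D)
    (innerK : ∀ i, Nonempty (Scheme 1 C D (K i)))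
    (det : ∀ w w', tab B K w = tab B K w' → w ∈ L → w' ∈ L) : HL 3 L := by
  have hD2 : HL 2 D := height_of_factorClosed hD fun a b => by
    obtain ⟨S⟩ := inner a b
    exact S.agr hD hC
  have S : Scheme 2 D ⊤ L :=
    { N := N, K := K, B := B
      closed := fun i u hu v hv _ => closed i u hu v hv
      nil := nil
      irr := fun i u hu _ h => irr i u hu h
      comp := fun i => by
        obtain ⟨S⟩ := innerK i
        exact S.agr hD hC
      det := fun w _ w' _ h => det w w' h }
  exact (S.agr facClosed_top hD2).top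

end Crest.Agent.R320.Prom_722
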