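import Mathlib

/-!
# The random function lemma (row 320)

`X` finite set of points, `V` finite set of values, `T` finite set of tests. Every test `t` has a
base point and `m` chances; the chance `i` is a set `D t i` of at most `C` points, the base point is
not one of them, and different chances of one test are disjoint. The chance `i` succeeds for `F` when
`F p = d t i (F (base t)) p` for all `p ∈ D t i`. If `|T| (q^C - 1)^m < (q^C)^m` (`q = |V|`), some `F`
passes every test.
-/

set_option autoImplicit false

namespace Crest.Agent.R320.RandF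

open Finset

variable {X V : Type*} [Fintype X] [DecidableEq X] [Fintype V] [DecidableEq V]

/-- Override `F` by `d` on `D`. -/
def ovr (D : Finset X) (d F : X → V) : X → V := fun x => if x ∈ D then d x else F x

omit [Fintype X] [Fintype V] [DecidableEq V] in
lemma ovr_mem {D : Finset X} {d F : X → V} {x : X} (h : x ∈ D) : ovr D d F x = d x := by
  simp [ovr, h]

omit [Fintype X] [Fintype V] [DecidableEq V] in
lemma ovr_not_mem {D : Finset X} {d F : X → V} {x : X} (h : x ∉ D) : ovr D d F x = F x := by
  simp [ovr, h]

/-- One step: a set of functions that does not look at `D` meets the demand on `D` with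
proportion at least `q^(-C)`. -/
lemma card_le_agree (A : Finset (X → V)) (D : Finset X) (d : X → V) (C : ℕ)
    (hA : ∀ F F' : X → V, (∀ x, x ∉ D → F x = F' x) → F ∈ A → F' ∈ A) (hC : D.card ≤ C)
    (hV : 0 < Fintype.card V) :
    A.card ≤ (A.filter fun F => ∀ p ∈ D, F p = d p).card * (Fintype.card V) ^ C := by
  classical
  set B := A.filter fun F => ∀ p ∈ D, F p = d p with hB
  have h1 : A.card ≤ (B ×ˢ (Finset.univ : Finset (D → V))).card := by
    refine Finset.card_le_card_of_injOn (fun F => (ovr D d F, fun p : D => F p.1)) ?_ ?_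
    · intro F hF
      have hF' : F ∈ A := by simpa using hF
      simp only [Finset.coe_product, Finset.coe_univ, Set.mem_prod, Set.mem_univ, and_true]
      rw [Finset.mem_coe, hB, Finset.mem_filter]
      refine ⟨hA F _ ?_ hF', fun p hp => ovr_mem hp⟩
      intro x hx
      rw [ovr_not_mem hx]
    · intro F _ F' _ h
      simp only [Prod.mk.injEq] at h
      obtain ⟨h1, h2⟩ := h
      funext x
      by_cases hx : x ∈ D
      · exact congrFun h2 ⟨x, hx⟩
      · have := congrFun h1 x
        rwa [ovr_not_mem hx, ovr_not_mem hx] at this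
  have h2 : (Finset.univ : Finset (D → V)).card = (Fintype.card V) ^ D.card := by
    rw [Finset.card_univ, Fintype.card_fun, Fintype.card_coe]
  rw [Finset.card_product, h2] at h1
  exact h1.trans (Nat.mul_le_mul_left _ (Nat.pow_le_pow_right hV hC))

lemma card_disagree_le (A : Finset (X → V)) (D : Finset X) (d : X → V) (C : ℕ)
    (hA : ∀ F F' : X → V, (∀ x, x ∉ D → F x = F' x) → F ∈ A → F' ∈ A) (hC : D.card ≤ C)
    (hV : 0 < Fintype.card V) :
    (A.filter fun F => ∃ p ∈ D, F p ≠ d p).card * (Fintype.card V) ^ C
      ≤ A.card * ((Fintype.card V) ^ C - 1) := by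
  classical
  have h := card_le_agree A D d C hA hC hV
  have hsum : (A.filter fun F => ∀ p ∈ D, F p = d p).card
      + (A.filter fun F => ∃ p ∈ D, F p ≠ d p).card = A.card := by
    have : (A.filter fun F => ∃ p ∈ D, F p ≠ d p) = A.filter fun F => ¬ ∀ p ∈ D, F p = d p := by
      ext F; simp
    rw [this, Finset.card_filter_add_card_filter_not]
  set a := (A.filter fun F => ∀ p ∈ D, F p = d p).card
  set b := (A.filter fun F => ∃ p ∈ D, F p ≠ d p).card
  set q := (Fintype.card V) ^ C
  have hq : 1 ≤ q := Nat.one_le_pow _ _ hV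
  have hq' : q - 1 + 1 = q := Nat.sub_add_cancel hq
  rw [← hsum] at h ⊢
  nlinarith [h, hq']

/-- The functions with prescribed base value for which the first `k` chances fail. -/
def badUpTo (m : ℕ) (base : X) (D : Fin m → Finset X) (d : Fin m → X → V) (y : V) (k : ℕ) :
    Finset (X → V) := by
  classical
  exact Finset.univ.filter fun F => F base = y ∧ ∀ i : Fin m, i.1 < k → ∃ p ∈ D i, F p ≠ d i p

lemma card_badUpTo (m C : ℕ) (base : X) (D : Fin m → Finset X) (d : Fin m → X → V) (y : V)
    (hbase : ∀ i, base ∉ D i) (hdisj : ∀ i j, i ≠ j → Disjoint (D i) (D j))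
    (hC : ∀ i, (D i).card ≤ C) (hV : 0 < Fintype.card V) (k : ℕ) (hk : k ≤ m) :
    (badUpTo m base D d y k).card * ((Fintype.card V) ^ C) ^ k
      ≤ (badUpTo m base D d y 0).card * ((Fintype.card V) ^ C - 1) ^ k := by
  classical
  induction k with
  | zero => simp
  | succ k ih =>
    have ih := ih (by omega)
    let i0 : Fin m := ⟨k, by omega⟩
    have hstep : badUpTo m base D d y (k + 1)
        = (badUpTo m base D d y k).filter fun F => ∃ p ∈ D i0, F p ≠ d i0 p := by
      ext F
      simp only [badUpTo, Finset.mem_filter, Finset.mem_univ, true_and]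
      constructor
      · rintro ⟨h1, h2⟩
        exact ⟨⟨h1, fun i hi => h2 i (by omega)⟩, h2 i0 (by simp [i0])⟩
      · rintro ⟨⟨h1, h2⟩, h3⟩
        refine ⟨h1, fun i hi => ?_⟩
        rcases Nat.lt_or_ge i.1 k with h | h
        · exact h2 i h
        · have : i = i0 := Fin.ext (by simp [i0]; omega)
          rw [this]; exact h3
    have hinv : ∀ F F' : X → V, (∀ x, x ∉ D i0 → F x = F' x) →
        F ∈ badUpTo m base D d y k → F' ∈ badUpTo m base D d y k := by
      intro F F' hFF hF
      simp only [badUpTo, Finset.mem_filter, Finset.mem_univ, true_and] at hF ⊢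
      refine ⟨by rw [← hFF _ (hbase i0)]; exact hF.1, fun i hi => ?_⟩
      obtain ⟨p, hp, hne⟩ := hF.2 i hi
      have hne' : i ≠ i0 := fun h => by simp [h, i0] at hi
      have : p ∉ D i0 := fun h => (Finset.disjoint_left.1 (hdisj i i0 hne') hp) h
      exact ⟨p, hp, by rw [← hFF p this]; exact hne⟩
    have h1 := card_disagree_le (badUpTo m base D d y k) (D i0) (d i0) C hinv (hC i0) hV
    rw [hstep, pow_succ, pow_succ]
    set a := ((badUpTo m base D d y k).filter fun F => ∃ p ∈ D i0, F p ≠ d i0 p).card
    set b := (badUpTo m base D d y k).card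
    set c := (badUpTo m base D d y 0).card
    set q := (Fintype.card V) ^ C
    calc a * (q ^ k * q) = (a * q) * q ^ k := by ring
      _ ≤ (b * (q - 1)) * q ^ k := Nat.mul_le_mul_right _ h1
      _ = (b * q ^ k) * (q - 1) := by ring
      _ ≤ (c * (q - 1) ^ k) * (q - 1) := Nat.mul_le_mul_right _ ih
      _ = c * ((q - 1) ^ k * (q - 1)) := by ring

/-- **Random function lemma.** -/
theorem exists_fun_of_chances {T : Type*} [Fintype T] (m C : ℕ)
    (base : T → X) (D : T → Fin m → Finset X) (d : T → Fin m → V → X → V)
    (hbase : ∀ t i, base t ∉ D t i)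
    (hdisj : ∀ t i j, i ≠ j → Disjoint (D t i) (D t j))
    (hC : ∀ t i, (D t i).card ≤ C) (hV : 0 < Fintype.card V)
    (hm : Fintype.card T * ((Fintype.card V) ^ C - 1) ^ m < ((Fintype.card V) ^ C) ^ m) :
    ∃ F : X → V, ∀ t, ∃ i, ∀ p ∈ D t i, F p = d t i (F (base t)) p := by
  classical
  by_contra hcon
  push Not at hcon
  -- every `F` is bad for some test
  let bad : T → Finset (X → V) := fun t =>
    Finset.univ.filter fun F => ∀ i, ∃ p ∈ D t i, F p ≠ d t i (F (base t)) p
  have hcover : (Finset.univ : Finset (X → V)) ⊆ Finset.univ.biUnion bad := by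
    intro F _
    obtain ⟨t, ht⟩ := hcon F
    exact Finset.mem_biUnion.2 ⟨t, Finset.mem_univ _, by simpa [bad] using ht⟩
  set q := (Fintype.card V) ^ C with hq
  have hbad : ∀ t, (bad t).card * q ^ m ≤ Fintype.card (X → V) * (q - 1) ^ m := by
    intro t
    have hunion : bad t ⊆ Finset.univ.biUnion fun y : V =>
        badUpTo m (base t) (D t) (fun i => d t i y) y m := by
      intro F hF
      refine Finset.mem_biUnion.2 ⟨F (base t), Finset.mem_univ _, ?_⟩
      simp only [badUpTo, Finset.mem_filter, Finset.mem_univ, true_and]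
      simp only [bad, Finset.mem_filter, Finset.mem_univ, true_and] at hF
      exact fun i _ => hF i
    have h1 : (bad t).card ≤ ∑ y : V, (badUpTo m (base t) (D t) (fun i => d t i y) y m).card :=
      (Finset.card_le_card hunion).trans Finset.card_biUnion_le
    have h2 : ∀ y : V, (badUpTo m (base t) (D t) (fun i => d t i y) y m).card * q ^ m
        ≤ (badUpTo m (base t) (D t) (fun i => d t i y) y 0).card * (q - 1) ^ m := fun y =>
      card_badUpTo m C (base t) (D t) (fun i => d t i y) y (hbase t) (hdisj t) (hC t) hV m le_rfl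
    have h3 : ∑ y : V, (badUpTo m (base t) (D t) (fun i => d t i y) y 0).card
        = Fintype.card (X → V) := by
      rw [← Finset.card_univ, Finset.card_eq_sum_card_fiberwise (f := fun F : X → V => F (base t))
        (t := Finset.univ) (fun _ _ => Finset.mem_coe.2 (Finset.mem_univ _))]
      refine Finset.sum_congr rfl fun y _ => ?_
      congr 1
      ext F
      simp [badUpTo]
    calc (bad t).card * q ^ m
        ≤ (∑ y : V, (badUpTo m (base t) (D t) (fun i => d t i y) y m).card) * q ^ m :=
          Nat.mul_le_mul_right _ h1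
      _ = ∑ y : V, (badUpTo m (base t) (D t) (fun i => d t i y) y m).card * q ^ m := by
          rw [Finset.sum_mul]
      _ ≤ ∑ y : V, (badUpTo m (base t) (D t) (fun i => d t i y) y 0).card * (q - 1) ^ m :=
          Finset.sum_le_sum fun y _ => h2 y
      _ = Fintype.card (X → V) * (q - 1) ^ m := by rw [← Finset.sum_mul, h3]
  have hpos : 0 < Fintype.card (X → V) := by
    rw [Fintype.card_fun]; exact Nat.pow_pos hV
  have htot : Fintype.card (X → V) * q ^ m
      ≤ Fintype.card (X → V) * (Fintype.card T * (q - 1) ^ m) := by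
    calc Fintype.card (X → V) * q ^ m
        ≤ (Finset.univ.biUnion bad).card * q ^ m := by
          refine Nat.mul_le_mul_right _ ?_
          rw [← Finset.card_univ]; exact Finset.card_le_card hcover
      _ ≤ (∑ t : T, (bad t).card) * q ^ m := Nat.mul_le_mul_right _ Finset.card_biUnion_le
      _ = ∑ t : T, (bad t).card * q ^ m := by rw [Finset.sum_mul]
      _ ≤ ∑ _t : T, Fintype.card (X → V) * (q - 1) ^ m := Finset.sum_le_sum fun t _ => hbad t
      _ = Fintype.card (X → V) * (Fintype.card T * (q - 1) ^ m) := by
          rw [Finset.sum_const, Finset.card_univ, smul_eq_mul]; ring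
  have := Nat.le_of_mul_le_mul_left htot hpos
  omega

end Crest.Agent.R320.RandF
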