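import Crest.Agent.R320.TwoSch_600

/-!
Row 320: STAGE B (93 #13140): the automaton computes the monoid (helper600).

Zone maps `t v = act v (φ (Q.take d)) + const`, `act` additive and faithful: the products of the words
of the class are computed at the height of the end states.
-/

set_option autoImplicit false

namespace Crest.Agent.R320.CutAut_600

open Crest.Agent.R320.Star_903 Crest.Agent.R320.Hgt1_903

variable {α V S : Type*}

/-- the value at the end of the text. -/
def fin {B : ℕ} [Zero V] (act : V → S → V) (φ : List α → S) : St α V B → V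
  | none => 0
  | some (P, v) => act v (φ P.1)

section
variable {n : ℕ} {Z : List α → Option (ℕ × (V → V))} {RF : List α → Prop} {B : ℕ}

theorem runs_aff [Monoid S] [AddCommGroup V] (φ : List α → S)
    (hφ : ∀ u v, φ (u ++ v) = φ u * φ v) (hφ0 : φ [] = 1) (act : V → S → V)
    (hact1 : ∀ v, act v 1 = v) (hact : ∀ v s s', act (act v s) s' = act v (s * s'))
    (hadd : ∀ v v' s, act (v + v') s = act v s + act v' s)
    (hzone : ∀ Q d t, Z Q = some (d, t) → ∃ c, ∀ v, t v = act v (φ (Q.take d)) + c) :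
    ∀ (w P : List α), ∃ (u P₁ : List α) (c : V), P ++ w = u ++ P₁ ∧
      ∀ v, runs Z (P, v) w = (P₁, act v (φ u) + c) := by
  intro w
  induction w with
  | nil =>
    intro P
    exact ⟨[], P, 0, by simp, fun v => by rw [hφ0, hact1, add_zero]; rfl⟩
  | cons a w ih =>
    intro P
    cases hq : Z (P ++ [a]) with
    | none =>
      obtain ⟨u, P₁, c, h1, h2⟩ := ih (P ++ [a])
      refine ⟨u, P₁, c, by rw [← h1]; simp, fun v => ?_⟩
      rw [runs_cons, stp_none hq, h2]
    | some q =>
      obtain ⟨d, t⟩ := q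
      obtain ⟨c0, hc0⟩ := hzone _ d t hq
      obtain ⟨u, P₁, c, h1, h2⟩ := ih ((P ++ [a]).drop d)
      refine ⟨(P ++ [a]).take d ++ u, P₁, act c0 (φ u) + c, ?_, fun v => ?_⟩
      · rw [List.append_assoc, ← h1, ← List.append_assoc, List.take_append_drop]; simp
      · rw [runs_cons, stp_some hq, h2, hc0, hadd, hact, hφ, add_assoc]

/-- **STAGE B.** -/
theorem readoff [Finite α] [Finite V] [Monoid S] [AddCommGroup V] {k : ℕ}
    (hZ : ZRule n Z) (hR : RFc Z RF B) (φ : List α → S)
    (hφ : ∀ u v, φ (u ++ v) = φ u * φ v) (hφ0 : φ [] = 1) (act : V → S → V)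
    (hact1 : ∀ v, act v 1 = v) (hact : ∀ v s s', act (act v s) s' = act v (s * s'))
    (hadd : ∀ v v' s, act (v + v') s = act v s + act v' s)
    (hfaith : ∀ s s', (∀ v, act v s = act v s') → s = s')
    (hzone : ∀ Q d t, Z Q = some (d, t) → ∃ c, ∀ v, t v = act v (φ (Q.take d)) + c)
    (hRF : H k ({w | RF w} : Language α)) (hrc : RC k (dlt Z B) (Cls Z RF B)) (s : S) :
    H k ({w | RF w ∧ φ w = s} : Language α) := by
  obtain ⟨R, hR1, hR2⟩ := hrc
  have h0 : ∀ s, act 0 s = 0 := by
    intro s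
    have h := hadd 0 0 s
    rw [add_zero] at h
    exact left_eq_add.1 h
  -- the values
  have hval : ∀ w, RF w → ∀ v, fin act φ (run (dlt Z B) (st0 B v) w) -
      fin act φ (run (dlt Z B) (st0 B 0) w) = act v (φ w) := by
    intro w hw v
    obtain ⟨u, P₁, c, h1, h2⟩ := runs_aff (Z := Z) φ hφ hφ0 act hact1 hact hadd hzone w []
    rw [List.nil_append] at h1
    have hrun : ∀ v, fin act φ (run (dlt Z B) (st0 B v) w) = act (act v (φ u) + c) (φ P₁) := by
      intro v
      have h3 := run_emb hZ hR w [] [] v (hZ.none_short (Nat.zero_le _)) (by simpa using hw)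
      have e1 : (st0 B v : St α V B) = emb B ([], v) := (emb_of [] v (Nat.zero_le _)).symm
      have hB : P₁.length ≤ B := by have := h3.2.2.2; rw [h2] at this; exact this
      rw [e1, h3.1, h2, emb_of _ _ hB]
      rfl
    rw [hrun, hrun, hadd, hact, ← hφ, ← h1, h0, zero_add]
    abel
  have hcls : ∀ w, RF w → ∀ v, Cls Z RF B (st0 B v) w := fun w hw v =>
    ⟨hZ.none_short (Nat.zero_le _), by simpa using hw⟩
  refine H.congr (H.inter hRF (H.forall_fintype (fun v : V => ({w | ∃ θ : St α V B, w ∈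
    ({w | ∃ θ0 : St α V B, w ∈ ({w | (fin act φ θ - fin act φ θ0 = act v s) ∧
      w ∈ ({w | w ∈ R (st0 B v) θ ∧ w ∈ R (st0 B 0) θ0} : Language α)} : Language α)} :
      Language α)} : Language α)) fun v => ?_)) ?_
  · exact H.exists_fintype _ fun θ => H.exists_fintype _ fun θ0 =>
      H.inter (H.const k _) (H.inter (hR1 _ _) (hR1 _ _))
  · intro w
    constructor
    · rintro ⟨hw, hall⟩
      refine ⟨hw, hfaith _ _ fun v => ?_⟩
      obtain ⟨θ, θ0, h1, h2, h3⟩ := hall v
      have h4 := (hR2 _ w (hcls w hw v) θ).1 h2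
      have h5 := (hR2 _ w (hcls w hw 0) θ0).1 h3
      rw [← hval w hw v, h4, h5]; exact h1
    · rintro ⟨hw, rfl⟩
      refine ⟨hw, fun v => ⟨_, _, hval w hw v, (hR2 _ w (hcls w hw v) _).2 rfl,
        (hR2 _ w (hcls w hw 0) _).2 rfl⟩⟩

end

end Crest.Agent.R320.CutAut_600
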