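import Crest.Agent.R320.OneTok_457

/-!
# Row 320, reading the monoid value from the runs (helper457)

Position `0` of the word is used as the first anchor. `phi F` is read from the runs of `v` and
of `0`.
-/

set_option autoImplicit false

namespace Crest.Agent.R320.OneTok_457

open Crest.Agent.R320.Hk_851
open Crest.Agent.R320.Scheme_457.Sch (drop_app drop_app' take_pre)

universe u v w

namespace OT

variable {α : Type u} {V : Type v} {M : Type w} [AddCommGroup V] [Monoid M]
  {S : OT α V} (act : V → M → V) (phi : List α → M)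

/-- end condition: last anchor, value `x`, rest of product `g` -/
def EnR (S : OT α V) (phi : List α → M) (x : V) (g : M) (F : List α) (y : V) : Prop :=
  S.nx F = none ∧ phi F = g ∧ y = x

/-- the runs of `v` and of `y`: the difference moves by `phi` -/
theorem runs (hact1 : ∀ v s t, act v (s * t) = act (act v s) t)
    (hphi : ∀ u w, phi (u ++ w) = phi u * phi w)
    (haff : ∀ F m v y, S.nx F = some m → S.ze F v - S.ze F y = act (v - y) (phi (F.take m)))
    (k : ℕ) : ∀ (F : List α) (v y : V), F.length ≤ k →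
      ∃ x x0 g, S.Run (S.EnR phi x g) F v ∧ S.Run (S.EnR phi x0 g) F y ∧
        act (x - x0) g = act (v - y) (phi F) := by
  induction k with
  | zero =>
    intro F v y hF
    have hn : S.nx F = none := by
      cases h : S.nx F with
      | none => rfl
      | some m =>
        have h1 := S.nx_len h
        have h2 := S.nx_pos h
        omega
    exact ⟨v, y, phi F, .fin ⟨hn, rfl, rfl⟩, .fin ⟨hn, rfl, rfl⟩, rfl⟩
  | succ k ih =>
    intro F v y hF
    cases h : S.nx F with
    | none => exact ⟨v, y, phi F, .fin ⟨h, rfl, rfl⟩, .fin ⟨h, rfl, rfl⟩, rfl⟩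
    | some m =>
      have h1 := S.nx_len h
      have h2 := S.nx_pos h
      obtain ⟨x, x0, g, h3, h4, h5⟩ := ih (F.drop m) (S.ze F v) (S.ze F y)
        (by rw [List.length_drop]; omega)
      refine ⟨x, x0, g, .step h h3, .step h h4, ?_⟩
      rw [h5, haff F m v y h, ← hact1, ← hphi, List.take_append_drop]

omit [AddCommGroup V] [Monoid M] in
/-- a run is deterministic -/
theorem run_det {x x' : V} {g g' : M} {F : List α} {v : V} (h : S.Run (S.EnR phi x g) F v) :
    S.Run (S.EnR phi x' g') F v → x = x' ∧ g = g' := by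
  induction h with
  | @fin F v h =>
    intro h'
    cases h' with
    | fin h' => exact ⟨h.2.2.symm.trans h'.2.2, h.2.1.symm.trans h'.2.1⟩
    | step h1 _ => rw [h.1] at h1; cases h1
  | @step F v m h1 _ ih =>
    intro h'
    cases h' with
    | fin h' => rw [h'.1] at h1; cases h1
    | @step _ _ m' h2 h3 =>
      rw [h1] at h2; cases h2
      exact ih h3

/-- THE ROW from the pieces: `{w | phi w = s}` is two stars above the one-zone languages -/
theorem read [Finite α] [Finite V] [Finite M] {j : ℕ}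
    (hact1 : ∀ v s t, act v (s * t) = act (act v s) t)
    (hphi : ∀ u w, phi (u ++ w) = phi u * phi w)
    (hfaith : ∀ s t, (∀ v, act v s = act v t) → s = t)
    (haff : ∀ F m v y, S.nx F = some m → S.ze F v - S.ze F y = act (v - y) (phi (F.take m)))
    (a1 : ∀ r t, t.length = S.n → HL j {w | S.rt1 (w ++ t) r w.length})
    (b2 : HL j S.NB0) (b5 : ∀ v, HL j {F | S.Nb F v})
    (c : ∀ x g, Pieces j S (S.EnR phi x g)) (c1 : Pieces j S S.lf1) (c2 : Pieces j S S.lf2)
    (s : M) : HL (j + 2) {w | phi w = s} := by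
  have hR : ∀ x g v, HL (j + 2) {F | S.Run (S.EnR phi x g) F v} := fun x g v =>
    two (fun F v h => h.1) a1 b2 b5 (c x g) c1 c2 v
  have key : HL (j + 2) {w | ∀ v : V, w ∈ ({w | ∃ x : V, w ∈ ({w | ∃ x0 : V, w ∈
      ({w | ∃ g : M, w ∈ ({w | (S.Run (S.EnR phi x g) w v ∧ S.Run (S.EnR phi x0 g) w 0) ∧
        act (x - x0) g = act v s} : Language α)} : Language α)} : Language α)} :
          Language α)} := by
    refine HL.iInter fun v => HL.iUnion fun x => HL.iUnion fun x0 => HL.iUnion fun g => ?_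
    exact ((hR x g v).setOf_and (hR x0 g 0)).setOf_and (HL.const _)
  refine key.congr fun w => ?_
  constructor
  · intro hw v
    obtain ⟨x, x0, g, h1, h2, h3⟩ := S.runs act phi hact1 hphi haff w.length w v 0 le_rfl
    refine ⟨x, x0, g, ⟨h1, h2⟩, ?_⟩
    have hw' : phi w = s := hw
    rw [h3, sub_zero, hw']
  · intro h
    apply hfaith
    intro v
    obtain ⟨x, x0, g, ⟨h1, h2⟩, h3⟩ := h v
    obtain ⟨x', x0', g', h1', h2', h3'⟩ := S.runs act phi hact1 hphi haff w.length w v 0 le_rfl
    obtain ⟨rfl, rfl⟩ := run_det phi h1 h1'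
    obtain ⟨rfl, -⟩ := run_det phi h2 h2'
    rw [← h3, h3', sub_zero]

/-! ### the open languages are closed languages times everything -/

theorem nb_min (v : V) (F : List α) : S.Nb F v ↔
    ∃ P G, P ++ G = F ∧ (∃ m, S.nx P = some m ∧ S.Cut1 P v ∧ P.length = m + S.n) := by
  constructor
  · rintro ⟨m, h1, P, Y, r, b, h2, h3, h4⟩
    have hl := S.nx_len h1
    refine ⟨F.take (m + S.n), F.drop (m + S.n), List.take_append_drop _ _, m, S.nx_take h1, ?_,
      by rw [List.length_take]; omega⟩
    have h5 := S.s1_nx h3 h4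
    rw [h2, h1] at h5
    have h6 : m = P.length + b := by simpa using h5
    refine ⟨P, Y.take (b + S.n), r, b, ?_, h3, S.rt1_take h4⟩
    have h7 : (P ++ Y).take (P.length + (b + S.n)) = P ++ Y.take (b + S.n) := by
      rw [List.take_append,
        List.take_of_length_le (by omega : P.length ≤ P.length + (b + S.n))]
      simp
    rw [← h2, h6, add_assoc, h7]
  · rintro ⟨P, G, rfl, m, h1, h2, -⟩
    exact ⟨m, S.nx_app G h1, h2.app G⟩

theorem hl_Nb {j : ℕ} (v : V)
    (h : HL j {F | ∃ m, S.nx F = some m ∧ S.Cut1 F v ∧ F.length = m + S.n}) :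
    HL j {F | S.Nb F v} := by
  refine (h.mul HL.top).congr fun F => ?_
  show S.Nb F v ↔ _
  rw [nb_min]
  constructor
  · rintro ⟨P, G, h1, h2⟩; exact ⟨P, h2, G, trivial, h1⟩
  · rintro ⟨P, h2, G, -, h1⟩; exact ⟨P, G, h1, h2⟩

theorem hl_NB0 {j : ℕ} (h : HL j {u | ∃ r b m, S.rt2 u r b ∧ S.nx (u.drop b) = some m ∧
    S.Cut1 (u.drop b) r ∧ u.length = b + m + S.n}) : HL j S.NB0 := by
  refine (h.mul HL.top).congr fun u => ?_
  constructor
  · rintro ⟨r, b, h1, h2⟩
    have hl := S.rt2_len h1
    obtain ⟨P, G, h3, m, h4, h5, h6⟩ := (nb_min r _).1 h2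
    obtain ⟨h7, h8, h9⟩ := pre_rt2 h1 h3 (by omega)
    refine ⟨u.take b ++ P, ⟨r, b, m, h7, by rw [h8]; exact h4, by rw [h8]; exact h5, ?_⟩, G,
      trivial, h9⟩
    rw [List.length_append, List.length_take]; omega
  · rintro ⟨P, ⟨r, b, m, h1, h2, h3, h4⟩, G, -, h5⟩
    have h5' : P ++ G = u := h5
    subst h5'
    have hl := S.rt2_len h1
    refine ⟨r, b, S.rt2_app G h1, m, ?_, ?_⟩
    · rw [drop_app (by omega)]; exact S.nx_app G h2
    · rw [drop_app (by omega)]; exact h3.app G

end OT

end Crest.Agent.R320.OneTok_457
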