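import Crest.Agent.R320.Hk1_851

/-!
# Row 320: the read-off lemma (helper561)

(a) `regular_eq_act`: every regular language over any alphabet is `{w | actL w start acc}` for a
linear action of words on a finite module `σ → ZMod 2` (row vectors, the DFA pushed forward).
All finite monoids (resets included) are treated by this one module.

(b) `readoff`: if the token languages `T v v'` have height `≤ n` and, on a class `Good` of height
`≤ n`, they are sound up to an arbitrary translation `D w` ("garbage") and complete, then
`{w ∈ Good | act w = f}` has height `≤ n` for every `f`.  (The garbage is irrelevant.)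
-/

set_option autoImplicit false

namespace Crest.Agent.R320.Read_561

open Crest.RegLang Crest.Agent.R320.Hk_851

universe u v

variable {α : Type u} {n : ℕ}

/-- **Read-off lemma.** `act w : V →+ V` the linear part, `D w : V` arbitrary noise. -/
theorem readoff {V : Type v} [AddCommGroup V] [Finite V]
    (act : List α → V →+ V) (D : List α → V) (Good : Language α) (T : V → V → Language α)
    (hG : HL n Good) (hT : ∀ v v', HL n (T v v'))
    (sound : ∀ w ∈ Good, ∀ v v', w ∈ T v v' → v' = act w v + D w)
    (complete : ∀ w ∈ Good, ∀ v, ∃ v', w ∈ T v v')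
    (f : V →+ V) :
    HL n {w | w ∈ Good ∧ act w = f} := by
  have key : HL n {w | w ∈ Good ∧ ∃ c : V, ∀ v : V, w ∈ T v (f v + c)} :=
    HL.setOf_and hG (HL.iUnion fun c => HL.iInter fun v => hT v (f v + c))
  refine key.congr fun w => ?_
  have hmem : ∀ v, w ∈ Good → w ∈ T v (act w v + D w) := by
    intro v hw
    obtain ⟨v', hv'⟩ := complete w hw v
    rwa [← sound w hw v v' hv']
  constructor
  · rintro ⟨hw, rfl⟩
    exact ⟨hw, D w, fun v => hmem v hw⟩
  · rintro ⟨hw, c, hc⟩
    refine ⟨hw, ?_⟩
    have h0 : c = D w := by
      have h := sound w hw 0 _ (hc 0)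
      simpa using h
    ext v
    have h := sound w hw v _ (hc v)
    rw [h0] at h
    exact (add_right_cancel h).symm

/-- any union of classes -/
theorem readoff_set {V : Type v} [AddCommGroup V] [Finite V]
    (act : List α → V →+ V) (D : List α → V) (Good : Language α) (T : V → V → Language α)
    (hG : HL n Good) (hT : ∀ v v', HL n (T v v'))
    (sound : ∀ w ∈ Good, ∀ v v', w ∈ T v v' → v' = act w v + D w)
    (complete : ∀ w ∈ Good, ∀ v, ∃ v', w ∈ T v v')
    (Acc : Set (V →+ V)) :
    HL n {w | w ∈ Good ∧ act w ∈ Acc} := by
  have : Finite (V →+ V) := Finite.of_injective (fun g : V →+ V => (g : V → V)) DFunLike.coe_injective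
  have h : HL n {w | ∃ f ∈ Acc, w ∈ ({w | w ∈ Good ∧ act w = f} : Language α)} :=
    HL.biUnion (Set.toFinite Acc) fun f _ => readoff act D Good T hG hT sound complete f
  refine h.congr fun w => ?_
  constructor
  · rintro ⟨h1, h2⟩; exact ⟨_, h2, h1, rfl⟩
  · rintro ⟨f, hf, h1, rfl⟩; exact ⟨h1, hf⟩

section dfa

variable {σ : Type v} [Fintype σ]

open Classical in
/-- push-forward of a letter of a DFA on `σ → ZMod 2` (row vectors times the transition matrix) -/
noncomputable def pushA (st : σ → σ) : (σ → ZMod 2) →+ (σ → ZMod 2) where
  toFun x s := ∑ t : σ, if st t = s then x t else 0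
  map_zero' := by ext s; simp
  map_add' x y := by
    ext s
    simp only [Pi.add_apply]
    rw [← Finset.sum_add_distrib]
    exact Finset.sum_congr rfl fun t _ => by split_ifs <;> simp

open Classical in
theorem pushA_single (st : σ → σ) (s : σ) :
    pushA st (Pi.single s 1) = Pi.single (st s) 1 := by
  ext t
  simp only [pushA, AddMonoidHom.coe_mk, ZeroHom.coe_mk, Pi.single_apply]
  rw [Finset.sum_eq_single s]
  · simp [eq_comm]
  · intro b _ hb
    simp [hb]
  · intro h; exact absurd (Finset.mem_univ s) h

/-- the action of a word: the first letter acts first -/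
noncomputable def actW (M : DFA α σ) : List α → (σ → ZMod 2) →+ (σ → ZMod 2)
  | [] => AddMonoidHom.id _
  | a :: w => (actW M w).comp (pushA fun s => M.step s a)

theorem actW_append (M : DFA α σ) (u w : List α) (x : σ → ZMod 2) :
    actW M (u ++ w) x = actW M w (actW M u x) := by
  induction u generalizing x with
  | nil => rfl
  | cons a u ih => exact ih _

open Classical in
theorem actW_single (M : DFA α σ) (w : List α) (s : σ) :
    actW M w (Pi.single s 1) = Pi.single (M.evalFrom s w) 1 := by
  induction w generalizing s with
  | nil => rfl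
  | cons a w ih =>
    show actW M w (pushA (fun s => M.step s a) (Pi.single s 1)) = _
    rw [pushA_single, ih]
    rfl

open Classical in
theorem accepts_eq (M : DFA α σ) :
    M.accepts = {w | actW M w ∈ {f : (σ → ZMod 2) →+ (σ → ZMod 2) |
      ∃ s ∈ M.accept, f (Pi.single M.start 1) = Pi.single s 1}} := by
  ext w
  constructor
  · intro hw
    exact ⟨M.evalFrom M.start w, hw, actW_single M w _⟩
  · rintro ⟨s, hs, h⟩
    rw [actW_single] at h
    have e : M.evalFrom M.start w = s := by
      by_contra hne
      have h1 := congrFun h (M.evalFrom M.start w)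
      simp [hne] at h1
    show M.evalFrom M.start w ∈ M.accept
    rw [e]; exact hs

end dfa

/-- every regular language is a union of classes of a word action on a finite module -/
theorem regular_eq_act (L : Language α) (hL : L.IsRegular) :
    ∃ (V : Type) (_ : AddCommGroup V) (_ : Finite V) (act : List α → V →+ V) (Acc : Set (V →+ V)),
      (∀ x, act [] x = x) ∧ (∀ u w x, act (u ++ w) x = act w (act u x)) ∧
      L = {w | act w ∈ Acc} := by
  obtain ⟨σ, _, M, rfl⟩ := hL
  refine ⟨σ → ZMod 2, inferInstance, inferInstance, actW M, _, fun _ => rfl,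
    actW_append M, accepts_eq M⟩

end Crest.Agent.R320.Read_561
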