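import Crest.Agent.R320.Reg_143
import Crest.Agent.R320.WallU_228
import Crest.Agent.R320.Sc2n_937

/-!
Row 320: regularity and star height one of blocks, fibres and tails (helper143).
-/

set_option autoImplicit false

namespace Crest.Agent.R320.RegA_143

open Crest.RegLang Crest.Agent.R320.Hk_851 Crest.R320.Reg_143 Crest.Agent.R320.FewWalls_228
  Crest.Agent.R320.WallU_228 Crest.Agent.R320.Sc2n_937

universe u

variable {α : Type u} [Finite α]

theorem reg_ge (N : ℕ) : (lg fun w : List α => N ≤ w.length).IsRegular :=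
  isRegular_length (fun n => N ≤ n) N 1 one_pos (fun n hn => by constructor <;> intro _ <;> omega)

theorem reg_eqlen (N : ℕ) : (lg fun w : List α => w.length = N).IsRegular :=
  isRegular_length (fun n => n = N) (N + 1) 1 one_pos
    (fun n hn => by constructor <;> intro _ <;> omega)

theorem reg_exact (n : ℕ) (S : Set (List α)) :
    (lg fun w : List α => w.length = n ∧ w ∈ S).IsRegular := by
  have h := (RegP.and (RegP.mem (k := 0) (reg_eqlen (α := α) n))
    (RegP.mem (k := 0) (isRegular_take n (fun u : List α => u ∈ S)))).close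
  refine isRegular_congr h fun w => ?_
  rw [mem_lg]
  constructor
  · rintro ⟨h1, h2⟩
    rw [List.take_of_length_le h1.le] at h2
    exact ⟨h1, h2⟩
  · rintro ⟨h1, h2⟩
    refine ⟨h1, ?_⟩
    rw [List.take_of_length_le h1.le]
    exact h2

theorem reg_Wo (n : ℕ) (S : Set (List α)) : (lg fun w : List α => Wo n S w).IsRegular := by
  have h : RegP (k := 0) (fun (w : List α) _ => ∃ y ≤ w.length,
      ((w.drop y).length = n ∧ w.drop y ∈ S)) :=
    RegP.ex' (P := fun w _ y => ((w.drop y).length = n ∧ w.drop y ∈ S))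
      (RegP.drop (P := fun u => u.length = n ∧ u ∈ S) (reg_exact n S) 0)
  refine isRegular_congr h.close fun w => ?_
  rw [mem_lg]
  constructor
  · rintro ⟨y, hy, h1, h2⟩
    rw [List.length_drop] at h1
    have : w.length - n = y := by omega
    refine ⟨by omega, ?_⟩
    rw [this]; exact h2
  · rintro ⟨h1, h2⟩
    exact ⟨w.length - n, by omega, by rw [List.length_drop]; omega, h2⟩

variable (g : Geo α) (n : ℕ) (S : Set (List α)) (hg : g.Wo = Wo n S)

include hg in
theorem reg_XX : (lg fun w : List α => g.XX w).IsRegular := by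
  have h : RegP (k := 0) (fun (w : List α) _ => g.z ≤ w.length ∧ (Wo n S w ∧
      ∀ y ≤ w.length, (g.z ≤ (w.take y).length → (1 ≤ (w.drop y).length → ¬ Wo n S (w.take y))))) :=
    RegP.and (RegP.mem (reg_ge g.z)) (RegP.and (RegP.mem (reg_Wo n S))
      (RegP.all' (P := fun w _ y => (g.z ≤ (w.take y).length →
        (1 ≤ (w.drop y).length → ¬ Wo n S (w.take y))))
        (RegP.imp (RegP.take (P := fun u => g.z ≤ u.length) (reg_ge g.z) 0)
          (RegP.imp (RegP.drop (P := fun u => 1 ≤ u.length) (reg_ge 1) 0)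
            (RegP.not (RegP.take (P := fun u => Wo n S u) (reg_Wo n S) 0))))))
  refine isRegular_congr h.close fun w => ?_
  rw [mem_lg]
  unfold Geo.XX
  rw [hg]
  constructor
  · rintro ⟨h1, h2, h3⟩
    refine ⟨h1, h2, fun t ht htl => ?_⟩
    exact h3 t htl.le (by rw [List.length_take]; omega) (by rw [List.length_drop]; omega)
  · rintro ⟨h1, h2, h3⟩
    refine ⟨h1, h2, fun y hy h4 h5 => ?_⟩
    rw [List.length_take] at h4
    rw [List.length_drop] at h5
    exact h3 y (by omega) (by omega)

include hg in
theorem reg_tail {M : Type*} [Monoid M] [Finite M] (f : α → M) (s : M) :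
    (lg fun w : List α => (∀ X : List α, g.XX X → ¬ X <+: w) ∧ (w.map f).prod = s).IsRegular := by
  have h : RegP (k := 0) (fun (w : List α) _ => (∀ y ≤ w.length, ¬ g.XX (w.take y)) ∧
      (w.map f).prod = s) :=
    RegP.and (RegP.all' (P := fun w _ y => ¬ g.XX (w.take y))
      (RegP.not (RegP.take (P := fun u => g.XX u) (reg_XX g n S hg) 0)))
      (RegP.mem (P := fun w => (w.map f).prod = s) (isRegular_monoid f (fun m => m = s)))
  refine isRegular_congr h.close fun w => ?_
  rw [mem_lg]
  constructor
  · rintro ⟨h1, h2⟩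
    refine ⟨fun X hX hp => ?_, h2⟩
    have := List.prefix_iff_eq_take.1 hp
    exact h1 X.length hp.length_le (this ▸ hX)
  · rintro ⟨h1, h2⟩
    exact ⟨fun y hy hX => h1 _ hX (List.take_prefix _ _), h2⟩

/-- languages invariant under (prefix, length mod, value) are regular -/
theorem reg_class {M : Type*} [Monoid M] [Finite M] (f : α → M) (N0 P : ℕ) (hP : 0 < P)
    (L : List α → Prop)
    (hL : ∀ u u' : List α, N0 ≤ u.length → N0 ≤ u'.length → u.take N0 = u'.take N0 →
      u.length % P = u'.length % P → (u.map f).prod = (u'.map f).prod → (L u ↔ L u')) :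
    (lg fun w : List α => N0 ≤ w.length ∧ L w).IsRegular := by
  have hfin : Finite {l : List α // l.length = N0} := (List.finite_length_eq α N0).to_subtype
  have h : RegP (k := 0) (fun (w : List α) _ => N0 ≤ w.length ∧
      ∃ d : {l : List α // l.length = N0} × Fin P × M,
        (w.take N0 = d.1.1 ∧ (w.length % P = d.2.1.1 ∧ (w.map f).prod = d.2.2)) ∧
        (∃ u : List α, L u ∧ N0 ≤ u.length ∧ u.take N0 = d.1.1 ∧ u.length % P = d.2.1.1 ∧
          (u.map f).prod = d.2.2)) := by
    refine RegP.and (RegP.mem (reg_ge N0)) (RegP.exists_finite fun d => RegP.and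
      (RegP.and (RegP.mem (P := fun w => w.take N0 = d.1.1)
        (isRegular_take N0 (fun u => u = d.1.1)))
      (RegP.and (RegP.mem (P := fun w : List α => w.length % P = d.2.1.1)
        (isRegular_length (fun x => x % P = d.2.1.1) 0 P hP fun x _ => by
          rw [Nat.add_mod_right]))
        (RegP.mem (P := fun w => (w.map f).prod = d.2.2)
          (isRegular_monoid f (fun m => m = d.2.2))))) (RegP.const _))
  refine isRegular_congr h.close fun w => ?_
  rw [mem_lg]
  constructor
  · rintro ⟨h1, d, ⟨h2, h3, h4⟩, u, hu, h5, h6, h7, h8⟩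
    exact ⟨h1, (hL u w h5 h1 (by rw [h6, h2]) (by rw [h7, h3]) (by rw [h8, h4])).1 hu⟩
  · rintro ⟨h1, h2⟩
    refine ⟨h1, ⟨⟨w.take N0, by rw [List.length_take]; omega⟩, ⟨w.length % P, Nat.mod_lt _ hP⟩,
      (w.map f).prod⟩, ⟨rfl, rfl, rfl⟩, w, h2, h1, rfl, rfl, rfl⟩

include hg in
/-- fibres of the zone map -/
theorem reg_fib {V : Type*} {M : Type*} [Monoid M] [Finite M] (f : α → M) (N0 P : ℕ) (hP : 0 < P)
    (pre : List α → V → V) (post : V → List α → V) (hz : g.p0 + N0 ≤ g.z)
    (hpost : ∀ v, ∀ u u' : List α, N0 ≤ u.length → N0 ≤ u'.length → u.take N0 = u'.take N0 →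
      u.length % P = u'.length % P → (u.map f).prod = (u'.map f).prod → post v u = post v u')
    (x y : V) : (lg fun w : List α => g.XX w ∧ g.T pre post x w = y).IsRegular := by
  have hfin : Finite {l : List α // l.length = g.p0} :=
    (List.finite_length_eq α g.p0).to_subtype
  have h : RegP (k := 0) (fun (w : List α) _ => g.XX w ∧
      ∃ d : {l : List α // l.length = g.p0}, w.take g.p0 = d.1 ∧
        ∃ t ≤ w.length, (w.take t).length = g.p0 ∧
          (N0 ≤ (w.drop t).length ∧ post (pre d.1 x) (w.drop t) = y)) := by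
    refine RegP.and (RegP.mem (reg_XX g n S hg)) (RegP.exists_finite fun d => RegP.and
      (RegP.mem (P := fun w => w.take g.p0 = d.1) (isRegular_take g.p0 (fun u => u = d.1)))
      (RegP.ex' (P := fun w _ t => (w.take t).length = g.p0 ∧
          (N0 ≤ (w.drop t).length ∧ post (pre d.1 x) (w.drop t) = y))
        (RegP.and (RegP.take (P := fun u => u.length = g.p0) (reg_eqlen g.p0) 0)
          (RegP.drop (P := fun u => N0 ≤ u.length ∧ post (pre d.1 x) u = y)
            (reg_class f N0 P hP (fun u => post (pre d.1 x) u = y) ?_) 0))))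
    intro u u' h1 h2 h3 h4 h5
    show post (pre d.1 x) u = y ↔ post (pre d.1 x) u' = y
    rw [hpost _ u u' h1 h2 h3 h4 h5]
  refine isRegular_congr h.close fun w => ?_
  rw [mem_lg]
  constructor
  · rintro ⟨h1, d, h2, t, ht, h3, h4, h5⟩
    refine ⟨h1, ?_⟩
    rw [List.length_take] at h3
    have h6 := h1.1
    have h7 : t = g.p0 := by omega
    subst h7
    unfold Geo.T
    rw [h2]; exact h5
  · rintro ⟨h1, h2⟩
    have h6 := h1.1
    refine ⟨h1, ⟨w.take g.p0, by rw [List.length_take]; omega⟩, rfl, g.p0, by omega,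
      by rw [List.length_take]; omega, by rw [List.length_drop]; omega, h2⟩

include hg in
theorem nw_XX {w : List α} (h : g.XX w) : nw n S w ≤ g.z + 1 := by
  classical
  unfold nw
  have hsub : (Finset.range (w.length + 1)).filter (fun x => Wl n S w x) ⊆
      insert (w.length - n) (Finset.range g.z) := by
    intro x hx
    rw [Finset.mem_filter, Finset.mem_range] at hx
    obtain ⟨_, hx2⟩ := hx
    obtain ⟨h1, h2⟩ := wo_take.1 hx2
    rw [Finset.mem_insert, Finset.mem_range]
    by_contra hne
    push Not at hne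
    obtain ⟨h3, h4⟩ := hne
    have := h.2.2 (x + n) (by omega) (by omega)
    rw [hg] at this
    exact this h2
  have h1 := Finset.card_le_card hsub
  have h2 := Finset.card_insert_le (w.length - n) (Finset.range g.z)
  rw [Finset.card_range] at h2
  omega

include hg in
theorem nw_tail {w : List α} (h : ∀ X : List α, g.XX X → ¬ X <+: w) : nw n S w ≤ g.z := by
  classical
  unfold nw
  have hsub : (Finset.range (w.length + 1)).filter (fun x => Wl n S w x) ⊆
      Finset.range g.z := by
    intro x hx
    rw [Finset.mem_filter, Finset.mem_range] at hx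
    obtain ⟨_, hx2⟩ := hx
    obtain ⟨h1, h2⟩ := wo_take.1 hx2
    rw [Finset.mem_range]
    by_contra hne
    have hex : ∃ t, g.z ≤ t ∧ t ≤ w.length ∧ Wo n S (w.take t) := ⟨x + n, by omega, h1, h2⟩
    obtain ⟨e1, e2, e3⟩ := Nat.find_spec hex
    refine h (w.take (Nat.find hex)) ⟨by rw [List.length_take]; omega, by rw [hg]; exact e3, ?_⟩
      (List.take_prefix _ _)
    intro t ht htl
    rw [List.length_take] at htl
    rw [List.take_take, Nat.min_eq_left (by omega), hg]
    intro hW
    exact Nat.find_min hex (show t < Nat.find hex by omega) ⟨ht, by omega, hW⟩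
  have h1 := Finset.card_le_card hsub
  rw [Finset.card_range] at h1
  exact h1

end Crest.Agent.R320.RegA_143
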