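import Mathlib

/-!
Row 320: `reg_thread` of 932 #13555 (words over a prefix code with a finite thread are regular). helper564
-/

set_option autoImplicit false

namespace Crest.Agent.R320.RegThread564

universe u

/-- iterate of a block map along a list of blocks -/
def run {A V : Type u} (T : V → List A → V) (v : V) (l : List (List A)) : V := l.foldl T v

/-- blocks of `B` with thread `v → v'` -/
def fib {A V : Type u} (B : Language A) (T : V → List A → V) (v v' : V) : Language A :=
  {X | X ∈ B ∧ T v X = v'}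

/-- words of `B*` with thread `v → v'` -/
def thread {A V : Type u} (B : Language A) (T : V → List A → V) (v v' : V) : Language A :=
  {w | ∃ l : List (List A), w = l.flatten ∧ (∀ X ∈ l, X ∈ B) ∧ run T v l = v'}

variable {A V : Type u} {T : V → List A → V} {B : Language A}

theorem mem_thread {v v' : V} {w : List A} : w ∈ thread B T v v' ↔
    ∃ l : List (List A), w = l.flatten ∧ (∀ X ∈ l, X ∈ B) ∧ run T v l = v' := Iff.rfl

theorem mem_fib {v v' : V} {X : List A} : X ∈ fib B T v v' ↔ X ∈ B ∧ T v X = v' := Iff.rfl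

theorem parse (hne : [] ∉ B) : ∀ (n : ℕ) (w : List A), w.length = n →
    ∃ (l : List (List A)) (r : List A), w = l.flatten ++ r ∧ (∀ X ∈ l, X ∈ B) ∧
      ∀ X ∈ B, ¬ X <+: r := by
  intro n
  induction n using Nat.strong_induction_on with
  | _ n ih =>
    intro w hw
    by_cases h : ∃ X ∈ B, X <+: w
    · obtain ⟨X, hX, y, rfl⟩ := h
      have hX0 : X ≠ [] := fun e => hne (e ▸ hX)
      have hlen : 0 < X.length := List.length_pos_iff.2 hX0
      rw [List.length_append] at hw
      obtain ⟨l, r, h1, h2, h3⟩ := ih y.length (by omega) y rfl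
      refine ⟨X :: l, r, by rw [h1]; simp, ?_, h3⟩
      intro X' hX'
      rcases List.mem_cons.1 hX' with rfl | h
      · exact hX
      · exact h2 _ h
    · exact ⟨[], w, by simp, by simp, fun X hX hp => h ⟨X, hX, hp⟩⟩

theorem cancel (hpref : ∀ X ∈ B, ∀ Y, X ++ Y ∈ B → Y = []) {X X' a b : List A} (hX : X ∈ B)
    (hX' : X' ∈ B) (h : X ++ a = X' ++ b) : X = X' ∧ a = b := by
  rcases List.append_eq_append_iff.1 h with ⟨c, h1, h2⟩ | ⟨c, h1, h2⟩
  · have : c = [] := hpref X hX c (h1 ▸ hX')
    subst this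
    simp at h1 h2
    exact ⟨h1.symm, h2⟩
  · have : c = [] := hpref X' hX' c (h1 ▸ hX)
    subst this
    simp at h1 h2
    exact ⟨h1, h2.symm⟩

theorem thread_cons (hne : [] ∉ B) (hpref : ∀ X ∈ B, ∀ Y, X ++ Y ∈ B → Y = []) {X z : List A}
    {v v' : V} (hX : X ∈ B) : X ++ z ∈ thread B T v v' ↔ z ∈ thread B T (T v X) v' := by
  constructor
  · rintro ⟨l, h1, h2, h3⟩
    cases l with
    | nil =>
      exfalso
      have : X = [] := by
        have h4 : X ++ z = [] := h1
        exact (List.append_eq_nil_iff.1 h4).1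
      exact hne (this ▸ hX)
    | cons X' l =>
      rw [List.flatten_cons] at h1
      obtain ⟨rfl, rfl⟩ := cancel hpref hX (h2 X' (by simp)) h1
      exact ⟨l, rfl, fun Y hY => h2 Y (by simp [hY]), h3⟩
  · rintro ⟨l, rfl, h2, h3⟩
    refine ⟨X :: l, by simp, ?_, h3⟩
    intro Y hY
    rcases List.mem_cons.1 hY with rfl | h
    · exact hX
    · exact h2 _ h

theorem thread_flatten (hne : [] ∉ B) (hpref : ∀ X ∈ B, ∀ Y, X ++ Y ∈ B → Y = []) {v' : V}
    {z : List A} : ∀ (l : List (List A)) (v : V), (∀ X ∈ l, X ∈ B) →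
      (l.flatten ++ z ∈ thread B T v v' ↔ z ∈ thread B T (run T v l) v')
  | [], v, _ => by simp [run]
  | X :: l, v, h => by
    rw [List.flatten_cons, List.append_assoc, thread_cons hne hpref (h X (by simp)),
      thread_flatten hne hpref l (T v X) fun Y hY => h Y (by simp [hY])]
    rfl

theorem thread_quot (hne : [] ∉ B) {r : List A} (hr : ∀ X ∈ B, ¬ X <+: r) {v v' : V}
    {y : List A} : r ++ y ∈ thread B T v v' ↔
      ((r = [] ∧ y = [] ∧ v = v') ∨ ∃ (v'' : V) (y1 y2 : List A), y = y1 ++ y2 ∧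
        r ++ y1 ∈ fib B T v v'' ∧ y2 ∈ thread B T v'' v') := by
  constructor
  · rintro ⟨l, h1, h2, h3⟩
    cases l with
    | nil =>
      left
      have h4 : r ++ y = [] := h1
      obtain ⟨h5, h6⟩ := List.append_eq_nil_iff.1 h4
      exact ⟨h5, h6, h3⟩
    | cons X l =>
      right
      rw [List.flatten_cons] at h1
      rcases List.append_eq_append_iff.1 h1 with ⟨c, h4, h5⟩ | ⟨c, h4, h5⟩
      · refine ⟨T v X, c, l.flatten, h5, ⟨h4 ▸ h2 X (by simp), by rw [h4]⟩, l, rfl,
          fun Y hY => h2 Y (by simp [hY]), h3⟩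
      · exact absurd ⟨c, h4.symm⟩ (hr X (h2 X (by simp)))
  · rintro (⟨rfl, rfl, rfl⟩ | ⟨v'', y1, y2, rfl, ⟨h1, h2⟩, l, rfl, h3, h4⟩)
    · exact ⟨[], by simp, by simp, rfl⟩
    · refine ⟨(r ++ y1) :: l, by simp, ?_, ?_⟩
      · intro Y hY
        rcases List.mem_cons.1 hY with rfl | h
        · exact h1
        · exact h3 _ h
      · change run T (T v (r ++ y1)) l = v'
        rw [h2]; exact h4

/-- (REGB) words over a prefix code with a finite thread: regular -/
theorem reg_thread {A V : Type u} [Finite V] (T : V → List A → V) (B : Language A)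
    (hne : [] ∉ B) (hpref : ∀ X ∈ B, ∀ Y, X ++ Y ∈ B → Y = [])
    (hreg : ∀ v v', (fib B T v v').IsRegular) (v v' : V) : (thread B T v v').IsRegular := by
  apply Language.IsRegular.of_finite_range_leftQuotient
  let F : V × Prop × (V → Language A) → Language A := fun p =>
    {y | (p.2.1 ∧ y = [] ∧ p.1 = v') ∨ ∃ (v'' : V) (y1 y2 : List A), y = y1 ++ y2 ∧
        y1 ∈ p.2.2 v'' ∧ y2 ∈ thread B T v'' v'}
  have hfin : (Set.univ ×ˢ (Set.univ ×ˢ {q : V → Language A | ∀ v'', q v'' ∈
      ⋃ a, Set.range (fib B T a v'').leftQuotient}) : Set (V × Prop × (V → Language A))).Finite := by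
    refine Set.finite_univ.prod (Set.finite_univ.prod ?_)
    refine Set.Finite.pi' fun v'' => ?_
    exact Set.finite_iUnion fun a => (hreg a v'').finite_range_leftQuotient
  refine (hfin.image F).subset ?_
  rintro _ ⟨u, rfl⟩
  obtain ⟨l, r, rfl, h2, h3⟩ := parse hne _ u rfl
  refine ⟨(run T v l, (r = []), fun v'' => (fib B T (run T v l) v'').leftQuotient r),
    ⟨trivial, trivial, fun v'' => Set.mem_iUnion.2 ⟨run T v l, r, rfl⟩⟩, ?_⟩
  ext y
  rw [Language.mem_leftQuotient, List.append_assoc, thread_flatten hne hpref l v h2,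
    thread_quot hne h3]
  exact Iff.rfl

end Crest.Agent.R320.RegThread564
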