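import Crest.Agent.R320.RegBd_11
import Crest.Agent.R320.FewVal_228
import Crest.Agent.R320.WallU_228

/-!
# Row 320: natural chain rule blocks, regularity and height one of all block languages (helper402)
-/

set_option autoImplicit false

namespace Crest.Agent.R320.Reg_402

open Crest.RegLang Crest.Agent.R320.Hk_851 Crest.Agent.R320.FewVal_228

variable {α : Type} {S : Type} [Monoid S] [Finite S]

/-- a language determined by a finite state key is regular -/
theorem reg_key {κ : Type} [Finite κ] (key : List α → κ) (step : κ → α → κ)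
    (hstep : ∀ u a, key (u ++ [a]) = step (key u) a) {L : Language α}
    (hL : ∀ u v, key u = key v → u ∈ L → v ∈ L) : L.IsRegular := by
  classical
  haveI : Fintype κ := Fintype.ofFinite κ
  let D : DFA α κ := ⟨step, key [], {q | ∃ u, u ∈ L ∧ key u = q}⟩
  have hev : ∀ w : List α, D.eval w = key w := by
    intro w
    induction w using List.reverseRecOn with
    | nil => rfl
    | append_singleton w a ih =>
      rw [DFA.eval_append_singleton, ih, hstep]
  refine ⟨κ, inferInstance, D, ?_⟩
  ext w
  rw [DFA.mem_accepts, hev]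
  constructor
  · rintro ⟨u, hu, he⟩
    exact hL u w he hu
  · intro hw
    exact ⟨w, hw, rfl⟩

/-- blocks of the natural chain rule -/
def XX (Wo : List α → Prop) (z : ℕ) : Language α :=
  {X | z ≤ X.length ∧ Wo X ∧ ∀ t, z ≤ t → t < X.length → ¬ Wo (X.take t)}

/-- words without a block prefix -/
theorem noPrefix_iff {Wo : List α → Prop} {z : ℕ} (w : List α) :
    (∀ X ∈ XX Wo z, ¬ X <+: w) ↔ ∀ t, z ≤ t → t ≤ w.length → ¬ Wo (w.take t) := by
  constructor
  · intro h t hz ht hW
    classical
    have hex : ∃ t, z ≤ t ∧ t ≤ w.length ∧ Wo (w.take t) := ⟨t, hz, ht, hW⟩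
    obtain ⟨h1, h2, h3⟩ := Nat.find_spec hex
    have hmin := fun m (hm : m < Nat.find hex) => Nat.find_min hex hm
    refine h (w.take (Nat.find hex)) ⟨?_, h3, ?_⟩ (List.take_prefix _ _)
    · rw [List.length_take]; omega
    · intro s hs1 hs2 hs3
      rw [List.length_take] at hs2
      rw [List.take_take, Nat.min_eq_left (by omega)] at hs3
      exact hmin s (by omega) ⟨hs1, by omega, hs3⟩
  · rintro h X ⟨hX1, hX2, hX3⟩ ⟨r, rfl⟩
    refine h X.length hX1 (by simp) ?_
    rw [List.take_left']
    · exact hX2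
    · rfl

section key

variable (Wo : List α → Prop) (f : α → S) (n z p0 M Pm : ℕ)

/-- the key of a word -/
noncomputable def flag (u : List α) : Prop := ∃ t, z ≤ t ∧ t < u.length ∧ Wo (u.take t)

open Classical in
noncomputable def keyF (hPm : 0 < Pm) (u : List α) :
    {l : List α // l.length ≤ M} × {l : List α // l.length ≤ n} × Fin Pm × S × S × Bool :=
  (⟨u.take M, by rw [List.length_take]; omega⟩, ⟨lastn n u, lastn_length n u⟩,
    ⟨u.length % Pm, Nat.mod_lt _ hPm⟩, (u.map f).prod, ((u.drop p0).map f).prod,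
    decide (flag Wo z u))

open Classical in
noncomputable def stepF (hPm : 0 < Pm)
    (q : {l : List α // l.length ≤ M} × {l : List α // l.length ≤ n} × Fin Pm × S × S × Bool)
    (a : α) :
    {l : List α // l.length ≤ M} × {l : List α // l.length ≤ n} × Fin Pm × S × S × Bool :=
  (⟨(q.1.1 ++ [a]).take M, by rw [List.length_take]; omega⟩,
    ⟨lastn n (q.2.1.1 ++ [a]), lastn_length n _⟩,
    ⟨(q.2.2.1.1 + 1) % Pm, Nat.mod_lt _ hPm⟩, q.2.2.2.1 * f a,
    (if p0 ≤ q.1.1.length then q.2.2.2.2.1 * f a else 1),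
    (q.2.2.2.2.2 || decide (z ≤ q.1.1.length ∧ n ≤ q.1.1.length ∧ Wo q.2.1.1)))

variable {Wo n}

theorem wo_lastn (hloc : ∀ P Q : List α, n ≤ Q.length → (Wo (P ++ Q) ↔ Wo Q))
    (hlen : ∀ P : List α, Wo P → n ≤ P.length) (u : List α) :
    Wo u ↔ n ≤ u.length ∧ Wo (lastn n u) := by
  constructor
  · intro h
    have hn := hlen u h
    refine ⟨hn, ?_⟩
    have e : u = u.take (u.length - n) ++ lastn n u := by
      unfold lastn; rw [List.take_append_drop]
    rw [e] at h
    refine (hloc _ _ ?_).1 h
    unfold lastn; rw [List.length_drop]; omega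
  · rintro ⟨hn, h⟩
    have e : u = u.take (u.length - n) ++ lastn n u := by
      unfold lastn; rw [List.take_append_drop]
    rw [e]
    refine (hloc _ _ ?_).2 h
    unfold lastn; rw [List.length_drop]; omega

theorem key_step (hloc : ∀ P Q : List α, n ≤ Q.length → (Wo (P ++ Q) ↔ Wo Q))
    (hlen : ∀ P : List α, Wo P → n ≤ P.length) (hPm : 0 < Pm) (hM : z ≤ M) (hMn : n ≤ M)
    (hM0 : p0 ≤ M) (u : List α) (a : α) :
    keyF Wo f n z p0 M Pm hPm (u ++ [a]) = stepF Wo f n z p0 M Pm hPm
      (keyF Wo f n z p0 M Pm hPm u) a := by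
  unfold keyF stepF
  simp only [Prod.mk.injEq, Subtype.mk.injEq, Fin.mk.injEq]
  refine ⟨?_, ?_, ?_, ?_, ?_, ?_⟩
  · rcases Nat.lt_or_ge u.length M with h | h
    · rw [List.take_of_length_le (Nat.le_of_lt h)]
    · rw [List.take_append_of_le_length h, List.take_append_of_le_length
        (by rw [List.length_take]; omega), List.take_take, Nat.min_self]
  · exact lastn_snoc n u a
  · simp
  · simp
  · rcases Nat.lt_or_ge u.length p0 with h | h
    · rw [if_neg (by rw [List.length_take]; omega), List.drop_eq_nil_of_le (by simp; omega)]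
      simp
    · rw [if_pos (by rw [List.length_take]; omega), List.drop_append_of_le_length h]
      simp
  · have hiff : flag Wo z (u ++ [a]) ↔ flag Wo z u ∨
        (z ≤ (u.take M).length ∧ n ≤ (u.take M).length ∧ Wo (lastn n u)) := by
      have e1 : (z ≤ (u.take M).length ∧ n ≤ (u.take M).length ∧ Wo (lastn n u)) ↔
          (z ≤ u.length ∧ Wo u) := by
        rw [wo_lastn hloc hlen u, List.length_take]
        constructor
        · rintro ⟨h1, h2, h3⟩; exact ⟨by omega, by omega, h3⟩
        · rintro ⟨h1, h2, h3⟩; exact ⟨by omega, by omega, h3⟩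
      rw [e1]
      constructor
      · rintro ⟨t, h1, h2, h3⟩
        rw [List.length_append, List.length_singleton] at h2
        rcases Nat.lt_or_ge t u.length with h | h
        · left
          rw [List.take_append_of_le_length (by omega)] at h3
          exact ⟨t, h1, h, h3⟩
        · right
          have : t = u.length := by omega
          subst this
          rw [List.take_append_of_le_length (le_refl _), List.take_length] at h3
          exact ⟨h1, h3⟩
      · rintro (⟨t, h1, h2, h3⟩ | ⟨h1, h2⟩)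
        · refine ⟨t, h1, by simp; omega, ?_⟩
          rwa [List.take_append_of_le_length (by omega)]
        · refine ⟨u.length, h1, by simp, ?_⟩
          rwa [List.take_append_of_le_length (le_refl _), List.take_length]
    classical
    rw [Bool.eq_iff_iff, decide_eq_true_iff, hiff, Bool.or_eq_true, decide_eq_true_iff,
      decide_eq_true_iff]

theorem reg_of_key [Finite α]
    (hloc : ∀ P Q : List α, n ≤ Q.length → (Wo (P ++ Q) ↔ Wo Q))
    (hlen : ∀ P : List α, Wo P → n ≤ P.length) (hPm : 0 < Pm) (hM : z ≤ M) (hMn : n ≤ M)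
    (hM0 : p0 ≤ M) {L : Language α}
    (hL : ∀ u v : List α, u.take M = v.take M → (Wo u ↔ Wo v) → u.length % Pm = v.length % Pm →
      (u.map f).prod = (v.map f).prod → ((u.drop p0).map f).prod = ((v.drop p0).map f).prod →
      (flag Wo z u ↔ flag Wo z v) → u ∈ L → v ∈ L) : L.IsRegular := by
  haveI : Finite {l : List α // l.length ≤ M} := (List.finite_length_le α M).to_subtype
  haveI : Finite {l : List α // l.length ≤ n} := (List.finite_length_le α n).to_subtype
  refine reg_key (keyF Wo f n z p0 M Pm hPm) (stepF Wo f n z p0 M Pm hPm)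
    (key_step f z p0 M Pm hloc hlen hPm hM hMn hM0) ?_
  intro u v h hu
  unfold keyF at h
  simp only [Prod.mk.injEq, Subtype.mk.injEq, Fin.mk.injEq] at h
  obtain ⟨h1, h2, h3, h4, h5, h6⟩ := h
  refine hL u v h1 ?_ h3 h4 h5 ?_ hu
  · rw [wo_lastn hloc hlen u, wo_lastn hloc hlen v, h2]
    have hl := congrArg List.length h1
    rw [List.length_take, List.length_take] at hl
    constructor
    · rintro ⟨h7, h8⟩; exact ⟨by omega, h8⟩
    · rintro ⟨h7, h8⟩; exact ⟨by omega, h8⟩
  · exact decide_eq_decide.1 h6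

end key

/-- boundedly many walls: height one -/
theorem HL_of_key [Finite α] {Wo : List α → Prop} {n z : ℕ} {R B : ℕ}
    (hlen : ∀ P : List α, Wo P → n ≤ P.length)
    (hloc : ∀ P Q : List α, n ≤ Q.length → (Wo (P ++ Q) ↔ Wo Q))
    (hp : ∀ u : List α, (∀ t < u.length, ¬ Wo (u.take t)) →
      ∃ l : List (List α × List α × ℕ), l.length ≤ R ∧
        (∀ t ∈ l, t.1.length ≤ B ∧ t.2.1.length ≤ B) ∧
        u = Crest.Agent.R320.Pump_360.val l) {L : Language α} (hL : L.IsRegular)
    (hfl : ∀ u ∈ L, ¬ flag Wo z u) : HL 1 L := by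
  refine Crest.Agent.R320.RegBd_11.reg_pieces hL (R + 1) (max B z) ?_
  intro w hw
  have hf := hfl w hw
  obtain ⟨l, h1, h2, h3⟩ := hp (w.drop z) (by
    intro t ht hW
    rw [List.length_drop] at ht
    apply hf
    refine ⟨z + t, by omega, by omega, ?_⟩
    have hn := hlen _ hW
    have e : w.take (z + t) = w.take z ++ (w.drop z).take t := by
      rw [List.take_add]
    rw [e]
    exact (hloc _ _ hn).2 hW)
  refine ⟨(w.take z, [], 0) :: l, by simpa using h1, ?_, ?_⟩
  · intro t ht
    rcases List.mem_cons.1 ht with rfl | ht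
    · refine ⟨?_, by simp⟩
      simp only [List.length_take]
      exact le_trans (Nat.min_le_left _ _) (le_max_right _ _)
    · exact ⟨le_trans (h2 t ht).1 (le_max_left _ _), le_trans (h2 t ht).2 (le_max_left _ _)⟩
  · rw [Crest.Agent.R320.Pump_360.val_cons, ← h3, Crest.Agent.R320.Pump_360.pw_zero,
      List.append_nil, List.take_append_drop]

/-- height one of every key language of words without a block as a proper prefix -/
theorem HL_fam [Finite α] {Wo : List α → Prop} {n z M p0 Pm : ℕ} {R B : ℕ} (f : α → S)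
    (hlen : ∀ P : List α, Wo P → n ≤ P.length)
    (hloc : ∀ P Q : List α, n ≤ Q.length → (Wo (P ++ Q) ↔ Wo Q))
    (hp : ∀ u : List α, (∀ t < u.length, ¬ Wo (u.take t)) →
      ∃ l : List (List α × List α × ℕ), l.length ≤ R ∧
        (∀ t ∈ l, t.1.length ≤ B ∧ t.2.1.length ≤ B) ∧
        u = Crest.Agent.R320.Pump_360.val l)
    (hPm : 0 < Pm) (hM : z ≤ M) (hMn : n ≤ M) (hM0 : p0 ≤ M) {L : Language α}
    (hL : ∀ u v : List α, u.take M = v.take M → (Wo u ↔ Wo v) → u.length % Pm = v.length % Pm →
      (u.map f).prod = (v.map f).prod → ((u.drop p0).map f).prod = ((v.drop p0).map f).prod →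
      (flag Wo z u ↔ flag Wo z v) → u ∈ L → v ∈ L)
    (hfl : ∀ u ∈ L, ¬ flag Wo z u) : HL 1 L :=
  HL_of_key (z := z) hlen hloc hp (reg_of_key f z p0 M Pm hloc hlen hPm hM hMn hM0 hL) hfl

theorem XX_flag {Wo : List α → Prop} {z : ℕ} {X : List α} :
    X ∈ XX Wo z ↔ z ≤ X.length ∧ Wo X ∧ ¬ flag Wo z X := by
  constructor
  · rintro ⟨h1, h2, h3⟩
    exact ⟨h1, h2, fun ⟨t, a, b, c⟩ => h3 t a b c⟩
  · rintro ⟨h1, h2, h3⟩
    exact ⟨h1, h2, fun t a b c => h3 ⟨t, a, b, c⟩⟩

end Crest.Agent.R320.Reg_402
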