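import Crest.Agent.R320.WallU_228
import Crest.Agent.R320.Top5_110

/-!
Row 320: block prefix code of the natural chain rule, regularity and height one (helper656).
-/

set_option autoImplicit false

namespace Crest.Agent.R320.Reg_656

open Crest.RegLang Crest.Agent.R320.Hk_851 Crest.Agent.R320.Code110 Crest.Agent.R320.CompR_11

variable {α : Type}

theorem reg_of_summary {L : Language α} {Q : Type} [Finite Q] (sm : List α → Q)
    (h : ∀ x x' y, sm x = sm x' → (x ++ y ∈ L ↔ x' ++ y ∈ L)) : L.IsRegular := by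
  classical
  rw [Language.isRegular_iff_finite_range_leftQuotient]
  refine Set.Finite.subset (Set.finite_range (fun q : Q =>
    if hq : ∃ x, sm x = q then L.leftQuotient hq.choose else ⊥)) ?_
  rintro _ ⟨x, rfl⟩
  refine ⟨sm x, ?_⟩
  have hq : ∃ x', sm x' = sm x := ⟨x, rfl⟩
  beta_reduce
  rw [dif_pos hq]
  ext y
  rw [Language.mem_leftQuotient, Language.mem_leftQuotient]
  exact h _ _ y hq.choose_spec

/-- left-looking walls with window `n` -/
structure LW (n : ℕ) (Wo : List α → Prop) : Prop where
  loc : ∀ P Q : List α, n ≤ Q.length → (Wo (P ++ Q) ↔ Wo Q)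
  len : ∀ P : List α, Wo P → n ≤ P.length

/-- no wall in `[z, |w|)` -/
def NW (z : ℕ) (Wo : List α → Prop) (w : List α) : Prop :=
  ∀ t, z ≤ t → t < w.length → ¬ Wo (w.take t)

/-- the blocks -/
def XX (z : ℕ) (Wo : List α → Prop) : Language α :=
  {X | z ≤ X.length ∧ Wo X ∧ NW z Wo X}

variable {z n : ℕ} {Wo : List α → Prop}

theorem XX_pf : ∀ u ∈ XX z Wo, ∀ v ∈ XX z Wo, u <+: v → u = v := by
  rintro u ⟨h1, h2, h3⟩ v ⟨h4, h5, h6⟩ huv
  have hu : u = v.take u.length := List.prefix_iff_eq_take.1 huv
  by_cases hl : u.length < v.length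
  · exact absurd (hu ▸ h2) (h6 _ h1 hl)
  · exact huv.eq_of_length (le_antisymm huv.length_le (by omega))

theorem XX_pc (hz : 0 < z) : PC (XX z Wo) :=
  ⟨fun h => by have := h.1; simp at this; omega, XX_pf⟩

theorem exists_block (w : List α) (h1 : z ≤ w.length) (h2 : Wo w) :
    ∃ X ∈ XX z Wo, X <+: w := by
  classical
  have hex : ∃ t, z ≤ t ∧ t ≤ w.length ∧ Wo (w.take t) :=
    ⟨w.length, h1, le_rfl, by rw [List.take_length]; exact h2⟩
  obtain ⟨g1, g2, g3⟩ := Nat.find_spec hex
  have hmin := fun t ht => Nat.find_min hex (m := t) ht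
  set t0 := Nat.find hex
  have hl : (w.take t0).length = t0 := by rw [List.length_take]; omega
  refine ⟨w.take t0, ⟨by omega, g3, ?_⟩, List.take_prefix _ _⟩
  intro t ht1 ht2 ht3
  rw [hl] at ht2
  rw [List.take_take, min_eq_left (by omega)] at ht3
  exact hmin t ht2 ⟨ht1, by omega, ht3⟩

/-- no block prefix -/
theorem noBlock_iff (w : List α) : (∀ u ∈ XX z Wo, ¬ u <+: w) ↔
    (NW z Wo w ∧ ¬ (z ≤ w.length ∧ Wo w)) := by
  constructor
  · intro h
    refine ⟨?_, fun hh => ?_⟩
    · intro t h1 h2 h3
      have hl : (w.take t).length = t := by rw [List.length_take]; omega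
      obtain ⟨X, hX, hp⟩ := exists_block (z := z) (w.take t) (by omega) h3
      exact h X hX (hp.trans (List.take_prefix _ _))
    · obtain ⟨X, hX, hp⟩ := exists_block (z := z) w hh.1 hh.2
      exact h X hX hp
  · rintro ⟨h1, h2⟩ u ⟨h3, h4, h5⟩ hp
    have hu : u = w.take u.length := List.prefix_iff_eq_take.1 hp
    by_cases hl : u.length < w.length
    · exact h1 _ h3 hl (hu ▸ h4)
    · have : u = w := hp.eq_of_length (le_antisymm hp.length_le (by omega))
      exact h2 ⟨this ▸ h3, this ▸ h4⟩

theorem NW_append (x y : List α) (hx : z ≤ x.length) : NW z Wo (x ++ y) ↔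
    NW z Wo x ∧ ∀ s < y.length, ¬ Wo (x ++ y.take s) := by
  constructor
  · intro h
    refine ⟨fun t h1 h2 h3 => ?_, fun s h1 h2 => ?_⟩
    · refine h t h1 (by rw [List.length_append]; omega) ?_
      rw [List.take_append_of_le_length (by omega)]
      exact h3
    · refine h (x.length + s) (by omega) (by rw [List.length_append]; omega) ?_
      rw [List.take_length_add_append]
      exact h2
  · rintro ⟨h1, h2⟩ t h3 h4 h5
    rw [List.length_append] at h4
    by_cases h6 : t < x.length
    · rw [List.take_append_of_le_length (by omega)] at h5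
      exact h1 t h3 h6 h5
    · obtain ⟨s, rfl⟩ : ∃ s, t = x.length + s := ⟨t - x.length, by omega⟩
      rw [List.take_length_add_append] at h5
      exact h2 s (by omega) h5

variable {S : Type} [Monoid S] (φ : List α → S)

/-- same data -/
structure EE (z : ℕ) (Wo : List α → Prop) (φ : List α → S) (Bd M p0 : ℕ) (w w' : List α) :
    Prop where
  l1 : Bd ≤ w.length
  l2 : Bd ≤ w'.length
  tk : w.take Bd = w'.take Bd
  wo : Wo w ↔ Wo w'
  nw : NW z Wo w ↔ NW z Wo w'
  md : w.length % M = w'.length % M
  vl : φ (w.drop p0) = φ (w'.drop p0)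

instance finList [Finite α] (k : ℕ) : Finite {l : List α // l.length ≤ k} :=
  (List.finite_length_le α k).to_subtype

theorem reg_inv [Finite α] [Finite S] (hφ : ∀ u v, φ (u ++ v) = φ u * φ v) (hW : LW n Wo)
    {Bd M p0 : ℕ} (hM : 0 < M) (h1 : z ≤ Bd) (h2 : n ≤ Bd) (h3 : p0 ≤ Bd)
    (Inv : List α → Prop) (hI : ∀ w w', EE z Wo φ Bd M p0 w w' → (Inv w ↔ Inv w')) :
    Language.IsRegular ({w | Inv w} : Language α) := by
  classical
  let sm : List α → {l : List α // l.length ≤ Bd} × {l : List α // l.length ≤ n} × Fin M × S ×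
      Prop := fun x =>
    (⟨x.take Bd, by rw [List.length_take]; omega⟩,
     ⟨x.drop (x.length - n), by rw [List.length_drop]; omega⟩,
     ⟨x.length % M, Nat.mod_lt _ hM⟩, φ (x.drop p0), NW z Wo x)
  refine reg_of_summary sm ?_
  intro x x' y hs
  have e1 : x.take Bd = x'.take Bd := congrArg (fun q => q.1.1) hs
  have e2 : x.drop (x.length - n) = x'.drop (x'.length - n) := congrArg (fun q => q.2.1.1) hs
  have e3 : x.length % M = x'.length % M := congrArg (fun q => q.2.2.1.1) hs
  have e4 : φ (x.drop p0) = φ (x'.drop p0) := congrArg (fun q => q.2.2.2.1) hs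
  have e5 : NW z Wo x = NW z Wo x' := congrArg (fun q => q.2.2.2.2) hs
  have el : min Bd x.length = min Bd x'.length := by
    have := congrArg List.length e1
    simpa [List.length_take] using this
  by_cases hx : x.length < Bd
  · have : x = x' := by
      rw [List.take_of_length_le (by omega), List.take_of_length_le (by omega)] at e1
      exact e1
    rw [this]
  · have hx1 : Bd ≤ x.length := by omega
    have hx2 : Bd ≤ x'.length := by omega
    have wo : ∀ v : List α, Wo (x ++ v) ↔ Wo (x' ++ v) := by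
      intro v
      have key : ∀ u : List α, Bd ≤ u.length →
          (Wo (u ++ v) ↔ Wo (u.drop (u.length - n) ++ v)) := by
        intro u hu
        have k1 : u ++ v = u.take (u.length - n) ++ (u.drop (u.length - n) ++ v) := by
          rw [← List.append_assoc, List.take_append_drop]
        rw [k1]
        exact hW.loc _ _ (by rw [List.length_append, List.length_drop]; omega)
      rw [key x hx1, key x' hx2, e2]
    refine hI _ _ ⟨by rw [List.length_append]; omega, by rw [List.length_append]; omega, ?_,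
      wo y, ?_, ?_, ?_⟩
    · rw [List.take_append_of_le_length hx1, List.take_append_of_le_length hx2, e1]
    · rw [NW_append x y (by omega), NW_append x' y (by omega), e5]
      constructor
      · rintro ⟨a, b⟩
        exact ⟨a, fun s hs' hw => b s hs' ((wo _).2 hw)⟩
      · rintro ⟨a, b⟩
        exact ⟨a, fun s hs' hw => b s hs' ((wo _).1 hw)⟩
    · rw [List.length_append, List.length_append, Nat.add_mod, e3, ← Nat.add_mod]
    · rw [List.drop_append_of_le_length (by omega), List.drop_append_of_le_length (by omega),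
        hφ, hφ, e4]

theorem hl_inv [Finite α] [Finite S] (hφ : ∀ u v, φ (u ++ v) = φ u * φ v) (hW : LW n Wo)
    {R B : ℕ} (hP : ∀ u : List α, (∀ t < u.length, ¬ Wo (u.take t)) → Pieces R B u)
    {Bd M p0 : ℕ} (hM : 0 < M) (h1 : z ≤ Bd) (h2 : n ≤ Bd) (h3 : p0 ≤ Bd)
    (Inv : List α → Prop) (hI : ∀ w w', EE z Wo φ Bd M p0 w w' → (Inv w ↔ Inv w'))
    (hN : ∀ w, Inv w → NW z Wo w) : HL 1 ({w | Inv w} : Language α) := by
  refine Crest.Agent.R320.BddReg_746.HL_one_of_regular (B := B + z) (R := R + 1)
    (reg_inv φ hφ hW hM h1 h2 h3 Inv hI) ?_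
  intro w hw
  have hn := hN w hw
  have hd : ∀ t < (w.drop z).length, ¬ Wo ((w.drop z).take t) := by
    intro t ht hwo
    have h4 := hW.len _ hwo
    rw [List.length_take] at h4
    rw [List.length_drop] at ht
    refine hn (z + t) (by omega) (by omega) ?_
    have e : w.take (z + t) = w.take z ++ (w.drop z).take t := by
      rw [List.take_add]
    rw [e, hW.loc _ _ (by rw [List.length_take]; omega)]
    exact hwo
  obtain ⟨l, hl1, hl2, hl3⟩ := hP _ hd
  have e : w = Crest.Agent.R320.Pump_360.val ((w.take z, [], 0) :: l) := by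
    rw [Crest.Agent.R320.Pump_360.val_cons, ← hl3]
    simp [Crest.Agent.R320.Pump_360.pw]
  rw [e]
  refine Crest.Agent.R320.FewVal_228.val_mem_PN _ _ ?_ _ (by simp; omega)
  intro t ht
  rcases List.mem_cons.1 ht with rfl | ht
  · refine ⟨?_, ?_⟩
    · show (w.take z).length ≤ B + z
      rw [List.length_take]; omega
    · simp
  · have := hl2 t ht
    omega

end Crest.Agent.R320.Reg_656
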