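import Crest.Agent.R320.Step_388

/-!
# Row 320: the run on residual words (helper388)

State `(v, r)`: `v` = value at the last anchor, `r` = word read since the last anchor.
`ok t` = admissible distance of the next anchor, `R` = right looking wall rule with window `n`.
-/

set_option autoImplicit false

namespace Crest.Agent.R320.Res_388

universe u v

variable {α : Type u} {V : Type v}

/-- A right looking rule with window `n ≥ 1`, and a set of admissible distances `≥ 1`. -/
structure Rule (n : ℕ) (R : List α → Prop) (ok : ℕ → Prop) : Prop where
  npos : 1 ≤ n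
  loc : ∀ Q, R Q ↔ R (Q.take n)
  len : ∀ Q, R Q → n ≤ Q.length
  okpos : ∀ t, ok t → 1 ≤ t

variable {n : ℕ} {R : List α → Prop} {ok : ℕ → Prop}

theorem Rule.append (hR : Rule n R ok) {Q : List α} (h : n ≤ Q.length) (y : List α) :
    R (Q ++ y) ↔ R Q := by
  rw [hR.loc (Q ++ y), hR.loc Q, List.take_append_of_le_length h]

/-- next anchor at distance `t` from the start of `r` -/
def Cut (R : List α → Prop) (ok : ℕ → Prop) (r : List α) (t : ℕ) : Prop := ok t ∧ R (r.drop t)

/-- first anchor at distance `t` -/
def First (R : List α → Prop) (ok : ℕ → Prop) (r : List α) (t : ℕ) : Prop :=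
  Cut R ok r t ∧ ∀ t' < t, ¬ Cut R ok r t'

theorem Cut.le (hR : Rule n R ok) {r : List α} {t : ℕ} (h : Cut R ok r t) :
    t + n ≤ r.length := by
  have h1 := hR.len _ h.2
  have h2 := hR.npos
  rw [List.length_drop] at h1
  omega

theorem cut_append (hR : Rule n R ok) {r y : List α} {t : ℕ} (ht : t + n ≤ r.length) :
    Cut R ok (r ++ y) t ↔ Cut R ok r t := by
  unfold Cut
  rw [List.drop_append_of_le_length (by omega), hR.append (by rw [List.length_drop]; omega)]

theorem First.append (hR : Rule n R ok) {r : List α} {t : ℕ} (h : First R ok r t)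
    (y : List α) : First R ok (r ++ y) t := by
  have hl := h.1.le hR
  refine ⟨(cut_append hR hl).2 h.1, fun t' ht' hc => h.2 t' ht' ?_⟩
  exact (cut_append hR (by omega)).1 hc

theorem First.unique {r : List α} {t t' : ℕ} (h : First R ok r t) (h' : First R ok r t') :
    t = t' := by
  rcases lt_trichotomy t t' with hlt | rfl | hlt
  · exact (h'.2 t hlt h.1).elim
  · rfl
  · exact (h.2 t' hlt h'.1).elim

theorem exists_first {r : List α} {t : ℕ} (h : Cut R ok r t) : ∃ t, First R ok r t := by
  classical
  have hex : ∃ t, Cut R ok r t := ⟨t, h⟩
  exact ⟨Nat.find hex, Nat.find_spec hex, fun t' ht' => Nat.find_min hex ht'⟩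

open Classical in
/-- the run: fuel version -/
noncomputable def runF (R : List α → Prop) (ok : ℕ → Prop) (A : V → List α → V) :
    ℕ → V → List α → V × List α
  | 0, v, r => (v, r)
  | k + 1, v, r =>
      if h : ∃ t, First R ok r t then
        runF R ok A k (A v (r.take h.choose)) (r.drop h.choose)
      else (v, r)

/-- the run -/
noncomputable def run (R : List α → Prop) (ok : ℕ → Prop) (A : V → List α → V)
    (v : V) (r : List α) : V × List α := runF R ok A r.length v r

variable {A : V → List α → V}

theorem runF_of_no {k : ℕ} {v : V} {r : List α} (h : ¬ ∃ t, First R ok r t) :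
    runF R ok A k v r = (v, r) := by
  cases k with
  | zero => rfl
  | succ k => rw [runF, dif_neg h]

theorem runF_of_first {k : ℕ} {v : V} {r : List α} {t : ℕ} (h : First R ok r t) :
    runF R ok A (k + 1) v r = runF R ok A k (A v (r.take t)) (r.drop t) := by
  have hex : ∃ t, First R ok r t := ⟨t, h⟩
  rw [runF, dif_pos hex, hex.choose_spec.unique h]

theorem runF_stable (hR : Rule n R ok) : ∀ (k : ℕ) (v : V) (r : List α), r.length ≤ k →
    runF R ok A k v r = runF R ok A r.length v r := by
  intro k
  induction k using Nat.strong_induction_on with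
  | _ k ih =>
    intro v r hr
    by_cases h : ∃ t, First R ok r t
    · obtain ⟨t, ht⟩ := h
      have h1 := ht.1.le hR
      have h2 := hR.npos
      have h3 := hR.okpos _ ht.1.1
      obtain ⟨k', rfl⟩ : ∃ k', k = k' + 1 := ⟨k - 1, by omega⟩
      obtain ⟨m, hm⟩ : ∃ m, r.length = m + 1 := ⟨r.length - 1, by omega⟩
      rw [runF_of_first ht, hm, runF_of_first ht]
      have hl : (r.drop t).length ≤ m := by rw [List.length_drop]; omega
      rw [ih k' (by omega) _ _ (by omega), ih m (by omega) _ _ hl]
    · rw [runF_of_no h, runF_of_no h]

theorem run_of_no {v : V} {r : List α} (h : ¬ ∃ t, First R ok r t) :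
    run R ok A v r = (v, r) := runF_of_no h

theorem run_of_first (hR : Rule n R ok) {v : V} {r : List α} {t : ℕ} (h : First R ok r t) :
    run R ok A v r = run R ok A (A v (r.take t)) (r.drop t) := by
  have h1 := h.1.le hR
  have h2 := hR.npos
  have h3 := hR.okpos _ h.1.1
  obtain ⟨m, hm⟩ : ∃ m, r.length = m + 1 := ⟨r.length - 1, by omega⟩
  unfold run
  rw [hm, runF_of_first h, runF_stable hR m _ _ (by rw [List.length_drop]; omega)]

/-- **Semigroup law of the run.** -/
theorem run_append (hR : Rule n R ok) : ∀ (k : ℕ) (v : V) (x y : List α), x.length ≤ k →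
    run R ok A v (x ++ y) =
      run R ok A (run R ok A v x).1 ((run R ok A v x).2 ++ y) := by
  intro k
  induction k with
  | zero =>
    intro v x y hx
    have hno : ¬ ∃ t, First R ok x t := by
      rintro ⟨t, ht⟩
      have h1 := ht.1.le hR
      have h2 := hR.npos
      omega
    rw [run_of_no hno]
  | succ k ih =>
    intro v x y hx
    by_cases h : ∃ t, First R ok x t
    · obtain ⟨t, ht⟩ := h
      have h1 := ht.1.le hR
      have h2 := hR.npos
      have h3 := hR.okpos _ ht.1.1
      rw [run_of_first hR ht, run_of_first hR (ht.append hR y),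
        List.take_append_of_le_length (by omega), List.drop_append_of_le_length (by omega)]
      exact ih _ _ y (by rw [List.length_drop]; omega)
    · rw [run_of_no h]

/-- the run as an action of words on states -/
noncomputable def act (R : List α → Prop) (ok : ℕ → Prop) (A : V → List α → V)
    (s : V × List α) (w : List α) : V × List α := run R ok A s.1 (s.2 ++ w)

theorem act_append (hR : Rule n R ok) (s : V × List α) (x y : List α) :
    act R ok A s (x ++ y) = act R ok A (act R ok A s x) y := by
  unfold act
  rw [← List.append_assoc, run_append hR _ _ _ _ le_rfl]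

/-- **EXACTNESS OF A JUNCTION** `(v, r) | u`: the first anchor of `r ++ u` is at `|r| + b` and the
zone map is `c` there. -/
theorem act_of_junction (hR : Rule n R ok) {v c : V} {r u : List α} {b : ℕ}
    (hb : b ≤ u.length) (h1 : First R ok (r ++ u) (r.length + b))
    (h2 : A v (r ++ u.take b) = c) :
    act R ok A (v, r) u = run R ok A c (u.drop b) := by
  unfold act
  rw [run_of_first hR h1]
  simp only [List.take_length_add_append, List.drop_length_add_append]
  rw [h2]

/-- a right reading: next anchor and label there, decided by a prefix of the word -/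
structure RightReading (br : List α → Option (ℕ × V)) : Prop where
  le : ∀ u b c, br u = some (b, c) → b ≤ u.length
  stable : ∀ u y b c, br u = some (b, c) → br (u ++ y) = some (b, c)

/-- state after a word which starts at a right legal junction -/
noncomputable def rd (R : List α → Prop) (ok : ℕ → Prop) (A : V → List α → V)
    (br : List α → Option (ℕ × V)) (u : List α) : Option (V × List α) :=
  (br u).map fun p => run R ok A p.2 (u.drop p.1)

theorem rd_append (hR : Rule n R ok) {br : List α → Option (ℕ × V)} (hb : RightReading br)
    (x y : List α) (t : V × List α) (h : rd R ok A br x = some t) :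
    rd R ok A br (x ++ y) = some (act R ok A t y) := by
  unfold rd at h ⊢
  rcases hbx : br x with _ | ⟨b, c⟩
  · rw [hbx] at h; simp at h
  · rw [hbx] at h
    have h' : run R ok A c (x.drop b) = t := by simpa using h
    rw [hb.stable x y b c hbx]
    have hle := hb.le x b c hbx
    simp only [Option.map_some, Option.some.injEq]
    rw [List.drop_append_of_le_length hle, run_append hR _ _ _ _ le_rfl, h']
    rfl

/-- **SCHEME FROM A GADGET.**  `leg r v`: the left word `r` (read since the anchor) names the
token `v`.  `hex` = first anchor lemma (818) + gadget identity at every junction of a good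
thread; `hunc` = completeness. -/
theorem scheme (hR : Rule n R ok) (leg : List α → V → Prop) {br : List α → Option (ℕ × V)}
    (hb : RightReading br) (dec : List α → Prop) (Good : V × List α → List α → Prop)
    (C : Set (List α))
    (hdec : ∀ x, dec x → x ≠ [])
    (hdr : ∀ x y, dec x → br (x ++ y) ≠ none → br x ≠ none)
    (gl : ∀ s x y, Good s (x ++ y) → Good s x)
    (gr : ∀ s x y, Good s (x ++ y) → Good (act R ok A s x) y)
    (hex : ∀ v r u b c, leg r v → Good (v, r) u → br u = some (b, c) →
      First R ok (r ++ u) (r.length + b) ∧ A v (r ++ u.take b) = c)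
    (hunc : ∀ s w, Good s w → (∀ a b, a ++ b = w → b ≠ [] → dec a →
      leg (act R ok A s a).2 (act R ok A s a).1 → br b = none) → w ∈ C) :
    Step_388.Scheme (act R ok A) (fun s => leg s.2 s.1) (rd R ok A br) dec Good C where
  run_append := act_append hR
  rd_append := fun x y t h => rd_append hR hb x y t h
  dec_ne := hdec
  dec_rd := by
    intro x y hd h h0
    refine hdr x y hd (fun h1 => h ?_) ?_
    · unfold rd; rw [h1]; rfl
    · unfold rd at h0
      rcases hbx : br x with _ | p
      · rfl
      · rw [hbx] at h0; simp at h0
  good_left := gl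
  good_right := gr
  exact_ := by
    rintro ⟨v, r⟩ u t hl hg hrd
    unfold rd at hrd
    rcases hbu : br u with _ | ⟨b, c⟩
    · rw [hbu] at hrd; simp at hrd
    · rw [hbu] at hrd
      have h' : run R ok A c (u.drop b) = t := by simpa using hrd
      obtain ⟨h1, h2⟩ := hex v r u b c hl hg hbu
      rw [act_of_junction hR (hb.le u b c hbu) h1 h2, h']
  uncut := by
    intro s w hg h
    refine hunc s w hg fun a b hab hb' hd hl => ?_
    have := h a b hab hb' hd hl
    unfold rd at this
    rcases hbb : br b with _ | p
    · rfl
    · rw [hbb] at this; simp at this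

end Crest.Agent.R320.Res_388
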