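import Crest.Agent.R320.Hk2_851

/-!
# Row 320: inverse images under letter-to-letter maps (helper439)

`HL k L → HL k {w | w.map f ∈ L}` for every map of letters `f : α → β`, `α` finite.
Use: add marker letters (`β = Option α`, ...), fix words `x0`, `y0` over `β` at the two ends,
and come back to `α`: `restrict_frame`.
-/

set_option autoImplicit false

namespace Crest.Agent.R320.Restr_439

open Crest.RegLang Crest.Agent.R320.Hk_851

universe u v

variable {α : Type u} {β : Type v}

/-- splitting `w` along a splitting of `w.map f` -/
theorem exists_split_of_map (f : α → β) {w : List α} {x y : List β} (h : w.map f = x ++ y) :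
    ∃ w1 w2, w1 ++ w2 = w ∧ w1.map f = x ∧ w2.map f = y := by
  refine ⟨w.take x.length, w.drop x.length, List.take_append_drop _ _, ?_, ?_⟩
  · rw [List.map_take, h, List.take_left']
    rfl
  · rw [List.map_drop, h, List.drop_left']
    rfl

theorem exists_flatten_of_map (f : α → β) (S : List (List β)) :
    ∀ {w : List α}, w.map f = S.flatten →
      ∃ T : List (List α), T.flatten = w ∧ T.map (List.map f) = S := by
  induction S with
  | nil =>
    intro w h
    refine ⟨[], ?_, rfl⟩
    have : w = [] := by simpa using h
    rw [this]; rfl
  | cons x S ih =>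
    intro w h
    rw [List.flatten_cons] at h
    obtain ⟨w1, w2, rfl, h1, h2⟩ := exists_split_of_map f h
    obtain ⟨T, hT, hS⟩ := ih h2
    exact ⟨w1 :: T, by rw [List.flatten_cons, hT], by rw [List.map_cons, h1, hS]⟩

theorem comap_aux [Finite α] (f : α → β) :
    ∀ e : GRegExp β, HL e.height ({w : List α | w.map f ∈ e.lang} : Language α)
  | .zero => HL.bot.congr fun w => ⟨fun h => h.elim, fun h => h.elim⟩
  | .eps => by
    refine HL.one.congr fun w => ?_
    constructor
    · intro h
      have : w.map f = [] := h
      have : w = [] := by simpa using this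
      rw [this]; exact rfl
    · intro h
      have : w = [] := h
      rw [this]; exact rfl
  | .char b => by
    have hfin : ({w : List α | w.map f = [b]} : Set (List α)).Finite := by
      refine (List.finite_length_eq α 1).subset ?_
      intro w hw
      have := congrArg List.length (show w.map f = [b] from hw)
      simpa using this
    exact HL.finite hfin
  | .union P Q => by
    have h1 := (comap_aux f P).mono (le_max_left P.height Q.height)
    have h2 := (comap_aux f Q).mono (le_max_right P.height Q.height)
    exact h1.add h2
  | .cat P Q => by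
    have h1 := (comap_aux f P).mono (le_max_left P.height Q.height)
    have h2 := (comap_aux f Q).mono (le_max_right P.height Q.height)
    refine (h1.mul h2).congr fun w => ?_
    constructor
    · intro hw
      obtain ⟨x, hx, y, hy, hxy⟩ := Language.mem_mul.1 (show w.map f ∈ P.lang * Q.lang from hw)
      obtain ⟨w1, w2, rfl, h1, h2⟩ := exists_split_of_map f hxy.symm
      refine Language.mem_mul.2 ⟨w1, ?_, w2, ?_, rfl⟩
      · change w1.map f ∈ P.lang
        rw [h1]; exact hx
      · change w2.map f ∈ Q.lang
        rw [h2]; exact hy
    · intro hw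
      obtain ⟨w1, h1, w2, h2, rfl⟩ := Language.mem_mul.1 hw
      change (w1 ++ w2).map f ∈ P.lang * Q.lang
      rw [List.map_append]
      exact Language.mem_mul.2 ⟨_, h1, _, h2, rfl⟩
  | .not P => (comap_aux f P).compl
  | .star P => by
    refine (comap_aux f P).star.congr fun w => ?_
    constructor
    · intro hw
      obtain ⟨S, hS, hm⟩ := Language.mem_kstar.1 (show w.map f ∈ KStar.kstar P.lang from hw)
      obtain ⟨T, rfl, hTS⟩ := exists_flatten_of_map f S hS
      refine Language.mem_kstar.2 ⟨T, rfl, fun y hy => ?_⟩
      change y.map f ∈ P.lang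
      exact hm _ (hTS ▸ List.mem_map_of_mem hy)
    · intro hw
      obtain ⟨T, rfl, hT⟩ := Language.mem_kstar.1 hw
      change (T.flatten).map f ∈ KStar.kstar P.lang
      rw [List.map_flatten]
      refine Language.mem_kstar.2 ⟨_, rfl, fun y hy => ?_⟩
      obtain ⟨z, hz, rfl⟩ := List.mem_map.1 hy
      exact hT z hz

/-- inverse image under a letter-to-letter map -/
theorem HL.comap [Finite α] {k : ℕ} (f : α → β) {L : Language β} (hL : HL k L) :
    HL k ({w : List α | w.map f ∈ L} : Language α) := by
  obtain ⟨e, h1, rfl⟩ := hL
  exact (comap_aux f e).mono h1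

/-- frame: fixed words `x0`, `y0` over the larger alphabet at the two ends -/
theorem HL.frame [Finite α] {k : ℕ} (f : α → β) (x0 y0 : List β) {L : Language β} (hL : HL k L) :
    HL k ({w : List α | x0 ++ w.map f ++ y0 ∈ L} : Language α) := by
  have h1 : HL k ({w : List β | x0 ++ w ++ y0 ∈ L} : Language β) := by
    have h := (hL.rquot y0).lquot x0
    exact h
  exact HL.comap f h1

end Crest.Agent.R320.Restr_439
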