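import Crest.Agent.R320.Lev5_256

/-!
# Row 320 (helper256): from the wall chain to whole words of a class `G` on which the chain exists
(run-free words): `{w ∈ G | ∏ φ(w_i) = s}` has the height of `LevT`.
-/

set_option autoImplicit false

namespace Crest.Agent.R320.Lev_256

open Crest.Agent.R320.Hk_851

universe u v

variable {α : Type u} {W : Walls α} {V : Type v}

theorem exists_parse {H : ℕ} (hn : W.n ≤ H) {bad : List α → Prop}
    (hbl : ∀ Q, bad Q ↔ bad (Q.take H)) :
    ∀ (N : ℕ) (Q : List α), Q.length ≤ N → H ≤ Q.length →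
      (∀ Q', Q' <:+ Q → H + W.B ≤ Q'.length → bad Q' ∧ ∃ b, Step W Q' b) →
      ∃ zs y r, Q = zs.flatten ++ (y ++ r) ∧ y.length = H ∧ r.length ≤ W.B ∧
        IsCh W zs y ∧ AllZ bad zs y := by
  intro N
  induction N with
  | zero =>
    intro Q hN hH _
    have h0 : Q = [] := List.length_eq_zero_iff.1 (Nat.le_zero.1 hN)
    subst h0
    simp only [List.length_nil, Nat.le_zero] at hH
    exact ⟨[], [], [], rfl, hH.symm, Nat.zero_le _, trivial, trivial⟩
  | succ N ih =>
    intro Q hN hH hst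
    by_cases hc : H + W.B ≤ Q.length
    · obtain ⟨hb, b, hs⟩ := hst Q List.suffix_rfl hc
      have hzb : 0 < b := lt_of_lt_of_le W.hz hs.1
      have hbB := hs.2.1
      have hl : (Q.drop b).length = Q.length - b := List.length_drop
      obtain ⟨zs, y, r, hQ, hy, hr, hch, hall⟩ := ih (Q.drop b) (by omega) (by omega)
        (fun Q' hQ' hl' => hst Q' (hQ'.trans (List.drop_suffix _ _)) hl')
      have hZl : (Q.take b).length = b := by rw [List.length_take]; omega
      have hQe : Q = Q.take b ++ (zs.flatten ++ (y ++ r)) := by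
        rw [← hQ, List.take_append_drop]
      have htk : ∀ {k : ℕ}, k ≤ H → (zs.flatten ++ (y ++ r)).take k = (zs.flatten ++ y).take k := by
        intro k hk
        refine take_append_congr _ ?_
        rw [List.take_append_of_le_length (by omega)]
      refine ⟨Q.take b :: zs, y, r, ?_, hy, hr, ⟨?_, hch⟩, ?_, hall⟩
      · conv_lhs => rw [hQe]
        simp
      · refine step_congr' (htk hn) ?_
        rw [← hQe, hZl]; exact hs
      · rw [hbl, ← take_append_congr (Q.take b) (htk le_rfl), ← hQe, ← hbl]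
        exact hb
    · refine ⟨[], Q.take H, Q.drop H, ?_, ?_, ?_, trivial, trivial⟩
      · simp
      · rw [List.length_take]; omega
      · rw [List.length_drop]; omega

/-- whole words -/
theorem words_HL [Finite α] [Finite V] {M : Type*} [Monoid M] (φ : α → M) (s : M) {H k : ℕ}
    (hn : W.n ≤ H) {bad : List α → Prop} (hbl : ∀ Q, bad Q ↔ bad (Q.take H))
    {T : List α → V → V} (hT : LevT W H bad T k) (dec : (V → V) → M)
    (hdec : ∀ zs, dec (Tc T zs) = (zs.flatten.map φ).prod) {G : Language α} (hG : HL k G)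
    (hst : ∀ w ∈ G, ∀ Q, Q <:+ w → H + W.B ≤ Q.length → bad Q ∧ ∃ b, Step W Q b) :
    HL k ({w | w ∈ G ∧ (w.map φ).prod = s} : Language α) := by
  haveI : Finite (V → V) := by
    classical
    haveI := Fintype.ofFinite V
    exact Pi.finite
  choose L hL1 hL2 hL3 using hT
  have hshort : HL k ({w | w.length ≤ H ∧ (w.map φ).prod = s} : Language α) :=
    HL.finite ((List.finite_length_le α H).subset fun w hw => hw.1)
  have hlong : HL k ({w | ∃ q ∈ {q : (List α × List α) × (V → V) | q.1.1.length = H ∧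
      q.1.2.length ≤ W.B ∧ dec q.2 * ((q.1.1 ++ q.1.2).map φ).prod = s},
      w ∈ Sch.Lin' L q.1.1 q.2 * wordL (q.1.1 ++ q.1.2)} : Language α) := by
    refine HL.biUnion ?_ ?_
    · refine (((List.finite_length_eq α H).prod (List.finite_length_le α W.B)).prod
        (Set.finite_univ (α := V → V))).subset ?_
      rintro ⟨⟨y, r⟩, f⟩ h
      exact ⟨⟨h.1, h.2.1⟩, trivial⟩
    · rintro ⟨⟨y, r⟩, f⟩ h
      exact (Sch.lin'_HL hL1 h.1 f).mul (HL.word _)
  refine (HL.setOf_and hG (HL.setOf_or hshort hlong)).congr fun w => ?_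
  constructor
  · rintro ⟨hw, hs⟩
    refine ⟨hw, ?_⟩
    by_cases hl : w.length ≤ H
    · exact Or.inl ⟨hl, hs⟩
    · right
      obtain ⟨zs, y, r, he, hy, hr, hch, hall⟩ := exists_parse hn hbl w.length w le_rfl
        (le_of_lt (not_le.1 hl)) (fun Q hQ hQl => hst w hw Q hQ hQl)
      refine ⟨((y, r), Tc T zs), ⟨hy, hr, ?_⟩, ?_⟩
      · simp only
        rw [hdec, ← List.prod_append, ← List.map_append, ← he]
        exact hs
      · exact Language.mem_mul.2 ⟨zs.flatten, ⟨hy, hL2 y hy _ zs hch hall rfl⟩, y ++ r, rfl, he.symm⟩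
  · rintro ⟨hw, hs | ⟨⟨⟨y, r⟩, f⟩, ⟨hy, hr, hs⟩, hm⟩⟩
    · exact ⟨hw, hs.2⟩
    · obtain ⟨x, ⟨hy', hx⟩, t, ht, rfl⟩ := Language.mem_mul.1 hm
      have ht' : t = y ++ r := ht
      obtain ⟨zs, h1, h2, h3⟩ := hL3 y hy' f x hx
      refine ⟨hw, ?_⟩
      rw [ht', List.map_append, List.prod_append, ← h2, ← hdec, h3]
      exact hs

end Crest.Agent.R320.Lev_256
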