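import Mathlib.Data.List.Basic
import Mathlib.Data.List.TakeDrop
import Mathlib.Data.Nat.Find
import Mathlib.Tactic.Ring
import Mathlib.Tactic.Linarith
import Mathlib.Tactic.Push

/-!
# Row 320, piece (2b): splitting walls into rigid gaps `L`, `L + 1`

Given a right-looking wall rule `R` with all gaps `> W ≥ L * L` and with gaps `≤ G` on the words
satisfying `P` (run-free words), we build a right-looking rule `R'` (shifted by `G`, window
`2 * G + n`) all of whose gaps are `≥ L` on every word and are `L` or `L + 1` on words with `P`.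
-/

set_option autoImplicit false

namespace Crest.Agent.R320.RigidSplit130

/-- the `i`-th splitting point of a gap of length `g` which starts at `y` -/
def sp (L y g i : ℕ) : ℕ := y + i * L + min i (g % L)

/-- `x + S` is a splitting point of a gap `[y, y')` of the walls `b`, seen from `x` -/
def Rg (b : ℕ → Prop) (S L x : ℕ) : Prop :=
  ∃ y y', x ≤ y ∧ y ≤ x + S ∧ x + S < y' ∧ y' ≤ x + 2 * S ∧ b y ∧ b y' ∧
    (∀ t, y < t → t < y' → ¬ b t) ∧ ∃ i, i < (y' - y) / L ∧ x + S = sp L y (y' - y) i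

theorem sp_zero (L y g : ℕ) : sp L y g 0 = y := by simp [sp]

theorem sp_succ (L y g i : ℕ) :
    sp L y g (i + 1) = sp L y g i + L ∨ sp L y g (i + 1) = sp L y g i + L + 1 := by
  unfold sp
  rcases Nat.lt_or_ge i (g % L) with h | h
  · right
    rw [Nat.min_eq_left (by omega), Nat.min_eq_left (by omega)]
    ring
  · left
    rw [Nat.min_eq_right (by omega), Nat.min_eq_right (by omega)]
    ring

theorem sp_le {L y g i : ℕ} (hi : i < g / L) : sp L y g i + L ≤ y + g := by
  unfold sp
  have h1 : (i + 1) * L ≤ (g / L) * L := Nat.mul_le_mul_right _ hi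
  have h2 : g / L * L + g % L = g := Nat.div_add_mod' g L
  have h3 : min i (g % L) ≤ g % L := Nat.min_le_right _ _
  have h4 : (i + 1) * L = i * L + L := by ring
  omega

theorem sp_last {L y g : ℕ} (h : g % L ≤ g / L) : sp L y g (g / L) = y + g := by
  unfold sp
  rw [Nat.min_eq_right h]
  have h2 : g / L * L + g % L = g := Nat.div_add_mod' g L
  omega

theorem sp_pre_last {L y g i : ℕ} (h : g % L < g / L) (hi : i + 1 = g / L) :
    sp L y g i + L = y + g := by
  unfold sp
  rw [Nat.min_eq_right (by omega)]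
  have h2 : g / L * L + g % L = g := Nat.div_add_mod' g L
  have h4 : (i + 1) * L = i * L + L := by ring
  rw [hi] at h4
  omega

/-- two splitting points are at distance at least `L`, on every text -/
theorem Rg_gap {b : ℕ → Prop} {S L x d : ℕ} (h1 : Rg b S L x) (h2 : Rg b S L (x + d))
    (hd : 0 < d) : L ≤ d := by
  obtain ⟨y, y', a1, a2, a3, a4, by1, by1', hc, i, hi, hs⟩ := h1
  obtain ⟨z, z', c1, c2, c3, c4, bz, bz', hc', j, hj, ht⟩ := h2
  by_cases hyz : y' ≤ z
  · have := sp_le (y := y) hi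
    omega
  · have hzy : z = y := by
      rcases Nat.lt_trichotomy z y with h | h | h
      · exact absurd by1 (hc' y h (by omega))
      · exact h
      · exact absurd bz (hc z h (by omega))
    subst hzy
    have hzy' : z' = y' := by
      rcases Nat.lt_trichotomy z' y' with h | h | h
      · exact absurd bz' (hc z' (by omega) h)
      · exact h
      · exact absurd by1' (hc' y' (by omega) h)
    subst hzy'
    have hij : i < j := by
      by_contra hcon
      have hji : j ≤ i := by omega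
      have e1 : j * L ≤ i * L := Nat.mul_le_mul_right _ hji
      have e2 : min j ((z' - z) % L) ≤ min i ((z' - z) % L) := by omega
      unfold sp at hs ht
      omega
    have e1 : (i + 1) * L ≤ j * L := Nat.mul_le_mul_right _ hij
    have e2 : min i ((z' - z) % L) ≤ min j ((z' - z) % L) := by omega
    have e3 : (i + 1) * L = i * L + L := by ring
    unfold sp at hs ht
    omega

section
variable {b : ℕ → Prop} {G L W : ℕ}

/-- the next wall after `y` -/
theorem exists_next (y : ℕ) (h : ∃ i, i < G ∧ b (y + 1 + i)) :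
    ∃ y', y < y' ∧ y' ≤ y + G ∧ b y' ∧ ∀ t, y < t → t < y' → ¬ b t := by
  classical
  obtain ⟨i, hi, hb⟩ := h
  have hex : ∃ t, y < t ∧ b t := ⟨y + 1 + i, by omega, hb⟩
  refine ⟨Nat.find hex, (Nat.find_spec hex).1, ?_, (Nat.find_spec hex).2, ?_⟩
  · have := Nat.find_min' hex (m := y + 1 + i) ⟨by omega, hb⟩
    omega
  · intro t ht1 ht2 hbt
    exact Nat.find_min hex ht2 ⟨ht1, hbt⟩

/-- a base wall is itself a splitting point -/
theorem Rg_base (hL : 0 < L) (hLW : L * L ≤ W)
    (hW : ∀ y t, b y → 0 < t → t ≤ W → ¬ b (y + t)) {x : ℕ}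
    (hb : b (x + G)) (h : ∃ i, i < G ∧ b (x + G + 1 + i)) : Rg b G L x := by
  obtain ⟨y', h1, h2, h3, h4⟩ := exists_next (x + G) h
  have hWy : W < y' - (x + G) := by
    by_contra hcon
    have := hW (x + G) (y' - (x + G)) hb (by omega) (by omega)
    rw [show x + G + (y' - (x + G)) = y' by omega] at this
    exact this h3
  have hLL : L ≤ L * L := Nat.le_mul_of_pos_left L hL
  refine ⟨x + G, y', by omega, by omega, by omega, by omega, hb, h3, h4, 0, ?_, ?_⟩
  · exact Nat.div_pos (by omega) hL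
  · rw [sp_zero]

/-- facts about a gap `[y, y')` of the base walls -/
theorem gap_facts (hL : 0 < L) (hLW : L * L ≤ W)
    (hW : ∀ y t, b y → 0 < t → t ≤ W → ¬ b (y + t)) {y y' : ℕ} (hyy : y < y')
    (hb : b y) (hb' : b y') : (y' - y) % L < (y' - y) / L := by
  have hWy : W < y' - y := by
    by_contra hcon
    have := hW y (y' - y) hb (by omega) (by omega)
    rw [show y + (y' - y) = y' by omega] at this
    exact this hb'
  have h1 : (y' - y) % L < L := Nat.mod_lt _ hL
  have h2 : L ≤ (y' - y) / L := (Nat.le_div_iff_mul_le hL).2 (by omega)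
  omega

theorem gap_le {y y' : ℕ} (hc : ∀ t, y < t → t < y' → ¬ b t)
    (h : ∃ i, i < G ∧ b (y + 1 + i)) : y' ≤ y + G := by
  obtain ⟨i, hi, hbi⟩ := h
  by_contra hcon
  exact hc (y + 1 + i) (by omega) (by omega) hbi

/-- on words where the base walls have bounded gaps the splitting points have gaps `L`, `L + 1` -/
theorem Rg_next (hL : 0 < L) (hLW : L * L ≤ W)
    (hW : ∀ y t, b y → 0 < t → t ≤ W → ¬ b (y + t)) {x : ℕ}
    (hG : ∀ t, x ≤ t → t ≤ x + G + L + 1 → ∃ i, i < G ∧ b (t + i))
    (h : Rg b G L x) : Rg b G L (x + L) ∨ Rg b G L (x + L + 1) := by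
  obtain ⟨y, y', a1, a2, a3, a4, by1, by1', hc, i, hi, hs⟩ := h
  have hfac := gap_facts hL hLW hW (show y < y' by omega) by1 by1'
  have hle : y' ≤ y + G := gap_le hc (hG (y + 1) (by omega) (by omega))
  rcases Nat.lt_or_ge (i + 1) ((y' - y) / L) with h1 | h1
  · have hs1 := sp_le (y := y) h1
    rcases sp_succ L y (y' - y) i with h2 | h2
    · left
      exact ⟨y, y', by omega, by omega, by omega, by omega, by1, by1', hc, i + 1, h1, by omega⟩
    · right
      exact ⟨y, y', by omega, by omega, by omega, by omega, by1, by1', hc, i + 1, h1, by omega⟩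
  · have h2 : i + 1 = (y' - y) / L := by omega
    have h3 := sp_pre_last (y := y) hfac h2
    left
    have h4 : x + L + G = y' := by omega
    refine Rg_base hL hLW hW (by rw [h4]; exact by1') ?_
    rw [h4]
    exact hG (y' + 1) (by omega) (by omega)

/-- on such words there is a splitting point in every interval of length `L + 1` -/
theorem Rg_exists (hL : 0 < L) (hLW : L * L ≤ W)
    (hW : ∀ y t, b y → 0 < t → t ≤ W → ¬ b (y + t)) {x : ℕ}
    (hG : ∀ t, x ≤ t → t ≤ x + G + L + 1 → ∃ i, i < G ∧ b (t + i)) :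
    ∃ d, d ≤ L ∧ Rg b G L (x + d) := by
  classical
  -- the last base wall which is `≤ x + G`
  obtain ⟨i0, hi0, hb0⟩ := hG x le_rfl (by omega)
  obtain ⟨y, hxy, hyx, hby, hmax⟩ :
      ∃ y, x ≤ y ∧ y ≤ x + G ∧ b y ∧ ∀ t, y < t → t ≤ x + G → ¬ b t := by
    refine ⟨Nat.findGreatest b (x + G), ?_, Nat.findGreatest_le _, ?_, ?_⟩
    · have := Nat.le_findGreatest (P := b) (m := x + i0) (n := x + G) (by omega) hb0
      omega
    · exact Nat.findGreatest_spec (P := b) (m := x + i0) (n := x + G) (by omega) hb0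
    · intro t ht1 ht2
      exact Nat.findGreatest_is_greatest ht1 ht2
  obtain ⟨y', h1, h2, h3, h4⟩ := exists_next y (hG (y + 1) (by omega) (by omega))
  have hy' : x + G < y' := by
    by_contra hcon
    exact hmax y' h1 (by omega) h3
  have hfac := gap_facts hL hLW hW h1 hby h3
  -- the first splitting point which is `≥ x + G`
  have hex : ∃ i, x + G ≤ sp L y (y' - y) i :=
    ⟨(y' - y) / L, by rw [sp_last hfac.le]; omega⟩
  obtain ⟨i, hi, hmin⟩ : ∃ i, x + G ≤ sp L y (y' - y) i ∧
      ∀ j, j < i → sp L y (y' - y) j < x + G :=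
    ⟨Nat.find hex, Nat.find_spec hex, fun j hj => by
      have := Nat.find_min hex hj
      omega⟩
  have hiq : i ≤ (y' - y) / L := by
    by_contra hcon
    have := hmin ((y' - y) / L) (by omega)
    rw [sp_last hfac.le] at this
    omega
  have hd : sp L y (y' - y) i ≤ x + G + L := by
    rcases Nat.eq_zero_or_pos i with h | h
    · subst h
      rw [sp_zero]
      omega
    · obtain ⟨k, rfl⟩ : ∃ k, i = k + 1 := ⟨i - 1, by omega⟩
      have h5 := hmin k (by omega)
      rcases sp_succ L y (y' - y) k with h6 | h6 <;> omega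
  refine ⟨sp L y (y' - y) i - (x + G), by omega, ?_⟩
  rcases Nat.lt_or_ge i ((y' - y) / L) with h5 | h5
  · have h6 := sp_le (y := y) h5
    exact ⟨y, y', by omega, by omega, by omega, by omega, hby, h3, h4, i, h5, by omega⟩
  · have h6 : i = (y' - y) / L := by omega
    have h7 : sp L y (y' - y) i = y' := by
      rw [h6, sp_last hfac.le]
      omega
    have h8 : x + (sp L y (y' - y) i - (x + G)) + G = y' := by omega
    refine Rg_base hL hLW hW (by rw [h8]; exact h3) ?_
    rw [h8]
    exact hG (y' + 1) (by omega) (by omega)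

end

theorem Rg_shift (b : ℕ → Prop) (S L d : ℕ) :
    Rg (fun t => b (d + t)) S L 0 ↔ Rg b S L d := by
  constructor
  · rintro ⟨y, y', a1, a2, a3, a4, h1, h2, h3, i, hi, hs⟩
    refine ⟨d + y, d + y', by omega, by omega, by omega, by omega, h1, h2, ?_, i, ?_, ?_⟩
    · intro t ht1 ht2 hb
      refine h3 (t - d) (by omega) (by omega) ?_
      show b (d + (t - d))
      rwa [show d + (t - d) = t by omega]
    · rwa [show d + y' - (d + y) = y' - y by omega]
    · rw [show d + y' - (d + y) = y' - y by omega]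
      unfold sp at hs ⊢
      omega
  · rintro ⟨y, y', a1, a2, a3, a4, h1, h2, h3, i, hi, hs⟩
    refine ⟨y - d, y' - d, by omega, by omega, by omega, by omega, ?_, ?_, ?_, i, ?_, ?_⟩
    · show b (d + (y - d))
      rwa [show d + (y - d) = y by omega]
    · show b (d + (y' - d))
      rwa [show d + (y' - d) = y' by omega]
    · intro t ht1 ht2
      exact h3 (d + t) (by omega) (by omega)
    · rwa [show y' - d - (y - d) = y' - y by omega]
    · rw [show y' - d - (y - d) = y' - y by omega]
      unfold sp at hs ⊢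
      omega

theorem Rg_congr {b c : ℕ → Prop} {S L : ℕ} (h : ∀ t, t ≤ 2 * S → (b t ↔ c t)) :
    Rg b S L 0 → Rg c S L 0 := by
  rintro ⟨y, y', a1, a2, a3, a4, h1, h2, h3, i, hi, hs⟩
  refine ⟨y, y', a1, a2, a3, a4, (h y (by omega)).1 h1, (h y' (by omega)).1 h2, ?_, i, hi, hs⟩
  intro t ht1 ht2 hc
  exact h3 t ht1 ht2 ((h t (by omega)).2 hc)

/-- **Rigid walls.** -/
theorem rigid_split {α : Type*} (R : List α → Prop) (P : List α → Prop) (n W G L : ℕ)
    (hL : 0 < L) (hLW : L * L ≤ W)
    (hloc : ∀ Q, R Q ↔ R (Q.take n)) (_hlen : ∀ Q, R Q → n ≤ Q.length)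
    (hgap : ∀ Q d, R Q → 0 < d → d ≤ W → ¬ R (Q.drop d))
    (hfreq : ∀ Q, P Q → G + n ≤ Q.length → ∃ i, i < G ∧ R (Q.drop i))
    (hP : ∀ Q d, P Q → P (Q.drop d)) :
    ∃ R' : List α → Prop,
      (∀ Q, R' Q ↔ R' (Q.take (2 * G + n))) ∧
      (∀ Q, R' Q → 2 * G + n ≤ Q.length) ∧
      (∀ Q d, R' Q → 0 < d → d < L → ¬ R' (Q.drop d)) ∧
      (∀ Q, P Q → R' Q → 2 * G + n + L + 1 ≤ Q.length → 
        R' (Q.drop L) ∨ R' (Q.drop (L + 1))) ∧
      (∀ Q, P Q → 2 * G + n + L + 1 ≤ Q.length → ∃ d, d ≤ L ∧ R' (Q.drop d)) := by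
  have hshift : ∀ (Q : List α) (d : ℕ),
      Rg (fun t => R ((Q.drop d).drop t)) G L 0 ↔ Rg (fun t => R (Q.drop t)) G L d := by
    intro Q d
    rw [← Rg_shift (fun t => R (Q.drop t)) G L d]
    simp only [List.drop_drop]
  have hWb : ∀ (Q : List α) (y t : ℕ), R (Q.drop y) → 0 < t → t ≤ W → ¬ R (Q.drop (y + t)) := by
    intro Q y t h1 h2 h3
    have := hgap (Q.drop y) t h1 h2 h3
    rwa [List.drop_drop] at this
  have hGb : ∀ (Q : List α), P Q → 2 * G + n + L + 1 ≤ Q.length →
      ∀ t, 0 ≤ t → t ≤ 0 + G + L + 1 → ∃ i, i < G ∧ R (Q.drop (t + i)) := by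
    intro Q hQ hlenQ t _ ht
    obtain ⟨i, hi, h⟩ := hfreq (Q.drop t) (hP Q t hQ) (by rw [List.length_drop]; omega)
    refine ⟨i, hi, ?_⟩
    rwa [List.drop_drop] at h
  refine ⟨fun Q => 2 * G + n ≤ Q.length ∧ Rg (fun t => R (Q.drop t)) G L 0, ?_, ?_, ?_, ?_, ?_⟩
  · intro Q
    have key : ∀ t, t ≤ 2 * G → (R (Q.drop t) ↔ R ((Q.take (2 * G + n)).drop t)) := by
      intro t ht
      rw [hloc (Q.drop t), hloc ((Q.take (2 * G + n)).drop t)]
      rw [List.drop_take, List.take_take, Nat.min_eq_left (by omega)]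
    constructor
    · rintro ⟨h1, h2⟩
      refine ⟨by rw [List.length_take]; omega, Rg_congr key h2⟩
    · rintro ⟨h1, h2⟩
      refine ⟨by rw [List.length_take] at h1; omega, Rg_congr (fun t ht => (key t ht).symm) h2⟩
  · intro Q h
    exact h.1
  · rintro Q d ⟨_, h1⟩ hd hdL ⟨_, h2⟩
    rw [hshift] at h2
    have h3 : Rg (fun t => R (Q.drop t)) G L (0 + d) := by rwa [Nat.zero_add]
    have := Rg_gap h1 h3 hd
    omega
  · rintro Q hQ ⟨h0, h1⟩ hlenQ
    rcases Rg_next hL hLW (hWb Q) (hGb Q hQ hlenQ) h1 with h | h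
    · left
      refine ⟨by rw [List.length_drop]; omega, ?_⟩
      rw [hshift]
      rwa [Nat.zero_add] at h
    · right
      refine ⟨by rw [List.length_drop]; omega, ?_⟩
      rw [hshift]
      rwa [Nat.zero_add] at h
  · rintro Q hQ hlenQ
    obtain ⟨d, hd, h⟩ := Rg_exists hL hLW (hWb Q) (hGb Q hQ hlenQ)
    refine ⟨d, hd, by rw [List.length_drop]; omega, ?_⟩
    rw [hshift]
    rwa [Nat.zero_add] at h

end Crest.Agent.R320.RigidSplit130
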