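import Mathlib.Tactic
import Mathlib.Order.Interval.Set.Basic

/-!
Row 320, piece (4): two chains on rigid walls are never both critical on a long stretch
(860 #12446 (3)).  `P` is the set of walls; on the stretch `[lo, hi]` all gaps are `L` or `L + 1`.
A chain with step `z` goes from a wall `x` to the first wall `>= x + z`; it is critical at `x` when
some wall is at distance at most `N` from `x + z`.
-/

namespace R320_109

/-- `y` is the first wall `>= x + z`. -/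
def IsNext (P : ℤ → Prop) (x z y : ℤ) : Prop :=
  P y ∧ x + z ≤ y ∧ ∀ w, P w → x + z ≤ w → y ≤ w

/-- all gaps of the walls in `[lo, hi]` are `L` or `L + 1`. -/
structure Rigid (P : ℤ → Prop) (L lo hi : ℤ) : Prop where
  sep : ∀ x y, P x → P y → lo ≤ x → y ≤ hi → x < y → x + L ≤ y
  next : ∀ x, P x → lo ≤ x → x + L + 1 ≤ hi → P (x + L) ∨ P (x + L + 1)

/-- `x` is critical for the step `z` with tolerance `N`. -/
def Crit (P : ℤ → Prop) (x z N : ℤ) : Prop :=
  ∃ w, P w ∧ x + z - N ≤ w ∧ w ≤ x + z + N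

/-- distances of walls are in `[k L, k L + k]`. -/
theorem dist_aux {P : ℤ → Prop} {L lo hi : ℤ} (hL : 1 ≤ L) (h : Rigid P L lo hi) :
    ∀ (n : ℕ) (x y : ℤ), P x → P y → lo ≤ x → y ≤ hi → x ≤ y → (y - x).toNat ≤ n →
      ∃ k : ℕ, (k : ℤ) * L ≤ y - x ∧ y - x ≤ (k : ℤ) * L + k := by
  intro n
  induction n with
  | zero =>
    intro x y _ _ _ _ hxy hn
    exact ⟨0, by simp; omega, by simp; omega⟩
  | succ n ih =>
    intro x y hx hy hlo hhi hxy hn
    rcases eq_or_lt_of_le hxy with h0 | h0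
    · exact ⟨0, by simp; omega, by simp; omega⟩
    · have h1 := h.sep x y hx hy hlo hhi h0
      rcases eq_or_lt_of_le h1 with h2 | h2
      · exact ⟨1, by push_cast; omega, by push_cast; omega⟩
      · rcases h.next x hx hlo (by omega) with h3 | h3
        · obtain ⟨k, hk1, hk2⟩ := ih (x + L) y h3 hy (by omega) hhi (by omega) (by omega)
          refine ⟨k + 1, ?_, ?_⟩
          · push_cast; linarith
          · push_cast; linarith
        · obtain ⟨k, hk1, hk2⟩ := ih (x + L + 1) y h3 hy (by omega) hhi (by omega) (by omega)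
          refine ⟨k + 1, ?_, ?_⟩
          · push_cast; linarith
          · push_cast; linarith

theorem dist_le {P : ℤ → Prop} {L lo hi : ℤ} (hL : 1 ≤ L) (h : Rigid P L lo hi)
    {x y : ℤ} (hx : P x) (hy : P y) (hlo : lo ≤ x) (hhi : y ≤ hi) (hxy : x ≤ y) :
    ∃ k : ℕ, (k : ℤ) * L ≤ y - x ∧ y - x ≤ (k : ℤ) * L + k :=
  dist_aux hL h _ x y hx hy hlo hhi hxy le_rfl

/-- a bounded distance of two walls, signed form: `y - x = σ (k L + r)`, `k <= 6`, `0 <= r <= 6`. -/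
theorem dist_small {P : ℤ → Prop} {L lo hi : ℤ} (hL : 30 ≤ L) (h : Rigid P L lo hi)
    {x y : ℤ} (hx : P x) (hy : P y) (hlo : lo ≤ x) (hhi : x ≤ hi) (hlo' : lo ≤ y) (hhi' : y ≤ hi)
    (h6 : |y - x| ≤ 6 * L) :
    ∃ m r : ℤ, y - x = m * L + r ∧ -6 ≤ m ∧ m ≤ 6 ∧ -6 ≤ r ∧ r ≤ 6 := by
  rw [abs_le] at h6
  have key : ∀ d : ℤ, 0 ≤ d → d ≤ 6 * L →
      (∃ k : ℕ, (k : ℤ) * L ≤ d ∧ d ≤ (k : ℤ) * L + k) →
      ∃ m r : ℤ, d = m * L + r ∧ 0 ≤ m ∧ m ≤ 6 ∧ 0 ≤ r ∧ r ≤ 6 := by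
    rintro d hd0 hd6 ⟨k, hk1, hk2⟩
    have hk : (k : ℤ) ≤ 6 := by
      by_contra hcon
      have h7 : (7 : ℤ) ≤ k := by omega
      have : 7 * L ≤ (k : ℤ) * L := mul_le_mul_of_nonneg_right h7 (by omega)
      omega
    exact ⟨k, d - k * L, by ring, by positivity, hk, by omega, by omega⟩
  rcases le_total x y with hxy | hxy
  · obtain ⟨m, r, e, h1, h2, h3, h4⟩ := key (y - x) (by omega) (by omega)
      (dist_le (by omega) h hx hy hlo hhi' hxy)
    exact ⟨m, r, e, by omega, h2, by omega, h4⟩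
  · obtain ⟨m, r, e, h1, h2, h3, h4⟩ := key (x - y) (by omega) (by omega)
      (dist_le (by omega) h hy hx hlo' hhi hxy)
    exact ⟨-m, -r, by linarith, by omega, by omega, by omega, by omega⟩

/-- (3)(i): two close anchors are not both critical. -/
theorem not_close {P : ℤ → Prop} {L N z₁ z₂ lo hi : ℤ} (hN : 0 ≤ N) (hL : 4 * N + 30 ≤ L)
    (hz₁ : 0 ≤ z₁) (hz : z₂ = z₁ + 2 * L + L / 2) (h : Rigid P L lo hi)
    {x y : ℤ} (hx : P x) (hy : P y) (hlo : lo ≤ x) (hlo' : lo ≤ y)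
    (hhi : x + z₁ + N ≤ hi) (hhi' : y + z₂ + N ≤ hi) (hd : |y - x| ≤ 3 * L)
    (cx : Crit P x z₁ N) (cy : Crit P y z₂ N) (hxN : lo ≤ x + z₁ - N) : False := by
  obtain ⟨w, hw, w1, w2⟩ := cx
  obtain ⟨w', hw', w1', w2'⟩ := cy
  have hz2 : 0 ≤ z₂ := by omega
  rw [abs_le] at hd
  obtain ⟨m, r, e, m1, m2, r1, r2⟩ := dist_small (by omega) h hx hy hlo (by omega) hlo' (by omega)
    (by rw [abs_le]; constructor <;> omega)
  obtain ⟨m', r', e', m1', m2', r1', r2'⟩ := dist_small (x := w) (y := w') (by omega) h hw hw'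
    (by omega) (by omega) (by omega) (by omega) (by rw [abs_le]; constructor <;> omega)
  -- w' - w = (y - x) + 2 L + L/2 + error
  have e3 : w' - w - (y - x) - 2 * L - L / 2 ≤ 2 * N := by omega
  have e4 : -(2 * N) ≤ w' - w - (y - x) - 2 * L - L / 2 := by omega
  rw [e, e'] at e3 e4
  -- (m' - m - 2) L is within 2 N + 12 of L / 2
  set q := m' - m - 2 with hq
  have hq' : m' * L + r' - (m * L + r) - 2 * L - L / 2 = q * L + (r' - r) - L / 2 := by
    rw [hq]; ring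
  rw [hq'] at e3 e4
  have hq0 : q ≤ 0 ∨ 1 ≤ q := by omega
  rcases hq0 with hq0 | hq0
  · have : q * L ≤ 0 := mul_nonpos_of_nonpos_of_nonneg hq0 (by omega)
    omega
  · have : 1 * L ≤ q * L := mul_le_mul_of_nonneg_right hq0 (by omega)
    omega

/-- a critical step has length in `[z, z + L]`. -/
theorem step_le {P : ℤ → Prop} {L N z lo hi : ℤ} (hL : N ≤ L)
    (h : Rigid P L lo hi) {x y : ℤ} (hx : IsNext P x z y) (c : Crit P x z N)
    (hlo : lo ≤ x + z - N) (hhi : x + z + L + 1 ≤ hi) :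
    x + z ≤ y ∧ y ≤ x + z + L := by
  obtain ⟨hy, h1, h2⟩ := hx
  obtain ⟨w, hw, w1, w2⟩ := c
  refine ⟨h1, ?_⟩
  by_cases hwz : x + z ≤ w
  · have := h2 w hw hwz
    omega
  · rcases h.next w hw (by omega) (by omega) with h3 | h3
    · have := h2 _ h3 (by omega)
      omega
    · have := h2 _ h3 (by omega)
      omega

/-- **860's lemma**: on rigid walls a `z₁`-chain and a `z₂`-chain, `z₂ = z₁ + 2 L + L / 2`, are not
both critical throughout a stretch of length `10 z₂ + K (z₂ + L)`, where `K L >= 2 z₂`. -/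
theorem rigid_two_chains {P : ℤ → Prop} {L N z₁ z₂ lo hi : ℤ} {K : ℕ}
    (hN : 0 ≤ N) (hL : 4 * N + 30 ≤ L) (hz₁ : N + 1 ≤ z₁) (hz : z₂ = z₁ + 2 * L + L / 2)
    (hK : 2 * z₂ ≤ K * L) (hlen : lo + 10 * z₂ + K * (z₂ + L) ≤ hi)
    (h : Rigid P L lo hi)
    (a b : ℕ → ℤ)
    (ha0 : lo ≤ a 0) (ha0' : a 0 ≤ lo + 2 * z₂) (hb0 : lo ≤ b 0) (hb0' : b 0 ≤ lo + 2 * z₂)
    (haP : P (a 0)) (hbP : P (b 0))
    (ha : ∀ n, a n + z₁ + L + 1 ≤ hi → IsNext P (a n) z₁ (a (n + 1)))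
    (hb : ∀ n, b n + z₂ + L + 1 ≤ hi → IsNext P (b n) z₂ (b (n + 1)))
    (hca : ∀ n, a n + z₁ + L + 1 ≤ hi → Crit P (a n) z₁ N)
    (hcb : ∀ n, b n + z₂ + L + 1 ≤ hi → Crit P (b n) z₂ N) : False := by
  have hz2 : z₁ ≤ z₂ := by omega
  have hKz : 0 ≤ (K : ℤ) * (z₂ + L) := mul_nonneg (by positivity) (by omega)
  have hzL : 2 * L + z₁ ≤ z₂ := by omega
  have stepA : ∀ n, lo ≤ a n → a n + z₁ + L + 1 ≤ hi →
      P (a (n + 1)) ∧ a n + z₁ ≤ a (n + 1) ∧ a (n + 1) ≤ a n + z₁ + L := by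
    intro n h1 h2
    exact ⟨(ha n h2).1, step_le (by omega) h (ha n h2) (hca n h2) (by omega) h2⟩
  have stepB : ∀ n, lo ≤ b n → b n + z₂ + L + 1 ≤ hi →
      P (b (n + 1)) ∧ b n + z₂ ≤ b (n + 1) ∧ b (n + 1) ≤ b n + z₂ + L := by
    intro n h1 h2
    exact ⟨(hb n h2).1, step_le (by omega) h (hb n h2) (hcb n h2) (by omega) h2⟩
  -- the first anchor of the first chain behind `b 0 + 3 L`
  have hex : ∃ j, b 0 + 3 * L < a j := by
    by_contra hcon
    push Not at hcon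
    have hall : ∀ j : ℕ, lo ≤ a j ∧ a 0 + j ≤ a j := by
      intro j
      induction j with
      | zero => exact ⟨ha0, by simp⟩
      | succ j ih =>
        have h1 := hcon j
        obtain ⟨-, h2, -⟩ := stepA j ih.1 (by omega)
        push_cast
        exact ⟨by omega, by omega⟩
    have h1 := (hall ((b 0 + 3 * L - a 0).toNat + 1)).2
    have h2 := hcon ((b 0 + 3 * L - a 0).toNat + 1)
    push_cast at h1
    omega
  classical
  obtain ⟨j₀, hj₀, hmin⟩ : ∃ j₀, b 0 + 3 * L < a j₀ ∧ ∀ i < j₀, a i ≤ b 0 + 3 * L :=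
    ⟨Nat.find hex, Nat.find_spec hex, fun i hi' => not_lt.1 (Nat.find_min hex hi')⟩
  have hpre : ∀ i ≤ j₀, lo ≤ a i ∧ P (a i) := by
    intro i
    induction i with
    | zero => intro _; exact ⟨ha0, haP⟩
    | succ i ih =>
      intro hi'
      have h1 := ih (by omega)
      have h2 := hmin i (by omega)
      obtain ⟨h3, h4, -⟩ := stepA i h1.1 (by omega)
      exact ⟨by omega, h3⟩
  have hup : a j₀ ≤ b 0 + 2 * z₂ := by
    rcases Nat.eq_zero_or_pos j₀ with h0 | h0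
    · subst h0; omega
    · obtain ⟨i, rfl⟩ : ∃ i, j₀ = i + 1 := ⟨j₀ - 1, by omega⟩
      have h1 := hpre i (by omega)
      have h2 := hmin i (by omega)
      obtain ⟨-, -, h3⟩ := stepA i h1.1 (by omega)
      omega
  -- the two chains from there on
  have hI : ∀ n : ℕ, n ≤ K →
      (lo ≤ a (j₀ + n) ∧ lo ≤ b n ∧ P (a (j₀ + n)) ∧ P (b n)) ∧
      b n ≤ b 0 + n * (z₂ + L) ∧ (n : ℤ) * L - 2 * z₂ ≤ b n - a (j₀ + n) := by
    intro n
    induction n with
    | zero =>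
      intro _
      have := hpre j₀ le_rfl
      refine ⟨⟨this.1, hb0, this.2, hbP⟩, by simp, ?_⟩
      simp only [Nat.cast_zero, zero_mul, Nat.add_zero]
      omega
    | succ n ih =>
      intro hn
      obtain ⟨⟨h1, h2, h3, h4⟩, h5, h6⟩ := ih (by omega)
      have h7 : (n : ℤ) * (z₂ + L) ≤ K * (z₂ + L) :=
        mul_le_mul_of_nonneg_right (by exact_mod_cast (by omega : n ≤ K)) (by omega)
      have h8 : 0 ≤ (n : ℤ) * L := mul_nonneg (by positivity) (by omega)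
      obtain ⟨a1, a2, a3⟩ := stepA (j₀ + n) h1 (by omega)
      obtain ⟨b1, b2, b3⟩ := stepB n h2 (by omega)
      rw [← Nat.add_assoc]
      refine ⟨⟨by omega, by omega, a1, b1⟩, ?_, ?_⟩
      · push_cast
        have : ((n : ℤ) + 1) * (z₂ + L) = n * (z₂ + L) + (z₂ + L) := by ring
        omega
      · push_cast
        have : ((n : ℤ) + 1) * L = n * L + L := by ring
        omega
  have hex2 : ∃ n, -(3 * L) ≤ b n - a (j₀ + n) := ⟨K, by
    have := (hI K le_rfl).2.2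
    omega⟩
  obtain ⟨n, hn, hnmin, hnK⟩ : ∃ n, -(3 * L) ≤ b n - a (j₀ + n) ∧
      (∀ i < n, b i - a (j₀ + i) < -(3 * L)) ∧ n ≤ K := by
    refine ⟨Nat.find hex2, Nat.find_spec hex2,
      fun i hi' => not_le.1 (Nat.find_min hex2 hi'), ?_⟩
    apply Nat.find_min' hex2
    have := (hI K le_rfl).2.2
    omega
  have hn0 : n ≠ 0 := by
    rintro rfl
    simp only [Nat.add_zero] at hn
    omega
  obtain ⟨k, rfl⟩ : ∃ k, n = k + 1 := ⟨n - 1, by omega⟩
  obtain ⟨⟨h1, h2, h3, h4⟩, h5, h6⟩ := hI k (by omega)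
  obtain ⟨⟨g1, g2, g3, g4⟩, g5, g6⟩ := hI (k + 1) hnK
  have h7 : (k : ℤ) * (z₂ + L) ≤ K * (z₂ + L) :=
    mul_le_mul_of_nonneg_right (by exact_mod_cast (by omega : k ≤ K)) (by omega)
  have h8 : 0 ≤ (k : ℤ) * L := mul_nonneg (by positivity) (by omega)
  obtain ⟨a1, a2, a3⟩ := stepA (j₀ + k) h1 (by omega)
  obtain ⟨b1, b2, b3⟩ := stepB k h2 (by omega)
  have h9 := hnmin k (by omega)
  rw [← Nat.add_assoc] at hn g1 g3
  have hBk : b (k + 1) ≤ b 0 + K * (z₂ + L) := by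
    have : ((k + 1 : ℕ) : ℤ) * (z₂ + L) ≤ K * (z₂ + L) :=
      mul_le_mul_of_nonneg_right (by exact_mod_cast hnK) (by omega)
    omega
  have hd1 : b (k + 1) - a (j₀ + k + 1) < L := by omega
  exact not_close hN hL (by omega) hz h g3 g4 g1 g2 (by omega) (by omega)
    (by rw [abs_le]; constructor <;> omega) (hca _ (by omega)) (hcb _ (by omega)) (by omega)

end R320_109
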