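import Mathlib

/-!
Row 320 (S0495), piece (2b) of the plan: rigid splitting of a marker rule.

`Marker P R n G W`: `R` is a right-looking rule with window `n` (a position is a wall iff the text to the
right of it satisfies `R`), two walls are never at distance `<= W`, and in a good text (`P`, closed under
dropping letters) every `G` consecutive positions contain a wall.
`RR` is the rule obtained by cutting every gap into pieces of length `L + 1` and `L` (two-sided, then
shifted by `G` so that it is right-looking with window `2 G + n`): consecutive walls of `RR` are at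
distance exactly `L` or `L + 1` on good texts.
-/

set_option autoImplicit false

namespace Crest.Agent.R320.Rigid307

variable {α : Type*}

/-- cut points of a gap of length `g`: first `g % L` pieces of length `L+1`, then pieces of length `L`. -/
def cutp (L g c : ℕ) : Prop :=
  if c ≤ (g % L) * (L + 1) then (L + 1) ∣ c else L ∣ (c - (g % L) * (L + 1))

def step (L g c : ℕ) : ℕ := if c < (g % L) * (L + 1) then L + 1 else L

theorem cutp_zero (L g : ℕ) : cutp L g 0 := by simp [cutp]

theorem gap_eq {L g : ℕ} (hL : 0 < L) (hg : L * L ≤ g) :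
    ∃ t, g = (g % L) * (L + 1) + L * t := by
  have h1 : L * (g / L) + g % L = g := Nat.div_add_mod g L
  have h2 : g % L < L := Nat.mod_lt _ hL
  have h3 : L ≤ g / L := (Nat.le_div_iff_mul_le hL).2 hg
  obtain ⟨t, ht⟩ : ∃ t, g / L = g % L + t := ⟨g / L - g % L, by omega⟩
  refine ⟨t, ?_⟩
  conv_lhs => rw [← h1, ht]
  ring

theorem cutp_step {L g c : ℕ} (hL : 0 < L) (hg : L * L ≤ g) (hc : c < g) (h : cutp L g c) :
    c + step L g c ≤ g ∧ cutp L g (c + step L g c) ∧
      ∀ d, 0 < d → d < step L g c → ¬ cutp L g (c + d) := by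
  obtain ⟨t, ht⟩ := gap_eq hL hg
  set M := (g % L) * (L + 1) with hM
  have hMd : (L + 1) ∣ M := ⟨g % L, by rw [hM]; ring⟩
  unfold step
  rw [← hM]
  by_cases hcM : c < M
  · rw [if_pos hcM]
    have hd : (L + 1) ∣ c := by
      have := h
      unfold cutp at this
      rw [← hM, if_pos hcM.le] at this
      exact this
    obtain ⟨a, rfl⟩ := hd
    obtain ⟨b, hb⟩ := hMd
    have hab : a < b := by
      rw [hb] at hcM
      exact Nat.lt_of_mul_lt_mul_left hcM
    have hle : (L + 1) * a + (L + 1) ≤ M := by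
      rw [hb]
      calc (L + 1) * a + (L + 1) = (L + 1) * (a + 1) := by ring
        _ ≤ (L + 1) * b := Nat.mul_le_mul_left _ hab
    refine ⟨by omega, ?_, ?_⟩
    · unfold cutp
      rw [← hM, if_pos hle]
      exact ⟨a + 1, by ring⟩
    · intro d hd0 hdL hcut
      unfold cutp at hcut
      rw [← hM, if_pos (by omega)] at hcut
      have h1 : (L + 1) ∣ d := (Nat.dvd_add_right (Dvd.intro a rfl)).1 hcut
      exact absurd (Nat.le_of_dvd hd0 h1) (by omega)
  · rw [if_neg hcM]
    have hcM' : M ≤ c := not_lt.1 hcM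
    have hd : L ∣ c - M := by
      rcases hcM'.eq_or_lt with h0 | h0
      · rw [← h0]; simp
      · have := h
        unfold cutp at this
        rw [← hM, if_neg (by omega)] at this
        exact this
    obtain ⟨k, hk⟩ := hd
    have hck : c = M + L * k := by omega
    have hkt : k < t := by
      have : M + L * k < M + L * t := by rw [← hck, ← ht]; exact hc
      exact Nat.lt_of_mul_lt_mul_left (Nat.lt_of_add_lt_add_left this)
    have hle : c + L ≤ g := by
      rw [ht, hck]
      have : L * k + L ≤ L * t := by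
        calc L * k + L = L * (k + 1) := by ring
          _ ≤ L * t := Nat.mul_le_mul_left _ hkt
      omega
    refine ⟨hle, ?_, ?_⟩
    · unfold cutp
      rw [← hM, if_neg (by omega)]
      exact ⟨k + 1, by rw [hck]; rw [Nat.mul_add]; omega⟩
    · intro d hd0 hdL hcut
      unfold cutp at hcut
      rw [← hM, if_neg (by omega)] at hcut
      have h2 : c + d - M = L * k + d := by omega
      rw [h2] at hcut
      have h1 : L ∣ d := (Nat.dvd_add_right (Dvd.intro k rfl)).1 hcut
      exact absurd (Nat.le_of_dvd hd0 h1) (by omega)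

theorem cutp_exists {L g c : ℕ} (hL : 0 < L) (hg : L * L ≤ g) (hc : c < g) :
    ∃ d, d ≤ L ∧ c + d ≤ g ∧ cutp L g (c + d) := by
  obtain ⟨t, ht⟩ := gap_eq hL hg
  set M := (g % L) * (L + 1) with hM
  have hMd : (L + 1) ∣ M := ⟨g % L, by rw [hM]; ring⟩
  by_cases hcM : c ≤ M
  · by_cases h0 : (L + 1) ∣ c
    · refine ⟨0, by omega, by omega, ?_⟩
      unfold cutp
      rw [← hM, if_pos (by omega)]
      simpa using h0
    · have h1 : (L + 1) * (c / (L + 1)) + c % (L + 1) = c := Nat.div_add_mod c (L + 1)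
      have h2 : c % (L + 1) < L + 1 := Nat.mod_lt _ (by omega)
      have h3 : 0 < c % (L + 1) := Nat.pos_of_ne_zero fun h => h0 (Nat.dvd_of_mod_eq_zero h)
      obtain ⟨b, hb⟩ := hMd
      have hab : c / (L + 1) < b := by
        by_contra hcon
        have h4 : b ≤ c / (L + 1) := not_lt.1 hcon
        have h5 : (L + 1) * b ≤ (L + 1) * (c / (L + 1)) := Nat.mul_le_mul_left _ h4
        omega
      have h6 : (L + 1) * (c / (L + 1)) + (L + 1) ≤ M := by
        rw [hb]
        calc (L + 1) * (c / (L + 1)) + (L + 1) = (L + 1) * (c / (L + 1) + 1) := by ring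
          _ ≤ (L + 1) * b := Nat.mul_le_mul_left _ hab
      refine ⟨L + 1 - c % (L + 1), by omega, by omega, ?_⟩
      have h7 : c + (L + 1 - c % (L + 1)) = (L + 1) * (c / (L + 1)) + (L + 1) := by omega
      unfold cutp
      rw [h7, ← hM, if_pos h6]
      exact ⟨c / (L + 1) + 1, by ring⟩
  · have hcM' : M < c := not_le.1 hcM
    by_cases h0 : L ∣ c - M
    · refine ⟨0, by omega, by omega, ?_⟩
      unfold cutp
      rw [← hM, if_neg (by omega)]
      simpa using h0
    · have h1 : L * ((c - M) / L) + (c - M) % L = c - M := Nat.div_add_mod (c - M) L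
      have h2 : (c - M) % L < L := Nat.mod_lt _ hL
      have h3 : 0 < (c - M) % L := Nat.pos_of_ne_zero fun h => h0 (Nat.dvd_of_mod_eq_zero h)
      have hab : (c - M) / L < t := by
        by_contra hcon
        have h5 : L * t ≤ L * ((c - M) / L) := Nat.mul_le_mul_left _ (not_lt.1 hcon)
        omega
      have h6 : L * ((c - M) / L) + L ≤ L * t := by
        calc L * ((c - M) / L) + L = L * ((c - M) / L + 1) := by ring
          _ ≤ L * t := Nat.mul_le_mul_left _ hab
      refine ⟨L - (c - M) % L, by omega, by omega, ?_⟩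
      have h7 : c + (L - (c - M) % L) = M + (L * ((c - M) / L) + L) := by omega
      unfold cutp
      rw [h7, ← hM, if_neg (by omega)]
      exact ⟨(c - M) / L + 1, by rw [Nat.mul_add]; omega⟩

/-- `R` is a right-looking marker rule with window `n` on texts satisfying `P`. -/
structure Marker (P R : List α → Prop) (n G W : ℕ) : Prop where
  drop : ∀ Q d, P Q → P (Q.drop d)
  take : ∀ Q, R Q ↔ R (Q.take n)
  len : ∀ Q, R Q → n ≤ Q.length
  gap : ∀ Q d, R Q → 0 < d → d ≤ W → ¬ R (Q.drop d)
  dense : ∀ Q, P Q → G + n ≤ Q.length → ∃ i < G, R (Q.drop i)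

/-- the rigid rule: position `G` of `Q` is a cut point of the gap of `R` around it. -/
def RR (R : List α → Prop) (n G L : ℕ) (Q : List α) : Prop :=
  2 * G + n ≤ Q.length ∧ ∃ i j, i ≤ G ∧ G < j ∧ j ≤ 2 * G ∧ R (Q.drop i) ∧ R (Q.drop j) ∧
    (∀ k, i < k → k < j → ¬ R (Q.drop k)) ∧ cutp L (j - i) (G - i)

section
variable {P R : List α → Prop} {n G W L : ℕ}

theorem Marker.mark_in (hM : Marker P R n G W) {Q : List α} (hQ : P Q) (lo : ℕ)
    (hlen : lo + G + n ≤ Q.length) : ∃ i, lo ≤ i ∧ i < lo + G ∧ R (Q.drop i) := by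
  obtain ⟨i, hi, hR⟩ := hM.dense (Q.drop lo) (hM.drop _ _ hQ) (by rw [List.length_drop]; omega)
  refine ⟨lo + i, by omega, by omega, ?_⟩
  rwa [List.drop_drop] at hR

theorem Marker.drop_take (hM : Marker P R n G W) (Q : List α) {m k : ℕ} (hk : k + n ≤ m) :
    R ((Q.take m).drop k) ↔ R (Q.drop k) := by
  rw [hM.take ((Q.take m).drop k), hM.take (Q.drop k), List.drop_take, List.take_take,
    min_eq_left (by omega)]

theorem Marker.gap_gt (hM : Marker P R n G W) {Q : List α} {i j : ℕ} (hij : i < j)
    (hi : R (Q.drop i)) (hj : R (Q.drop j)) : W < j - i := by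
  by_contra hcon
  refine hM.gap (Q.drop i) (j - i) hi (by omega) (by omega) ?_
  rw [List.drop_drop, show i + (j - i) = j by omega]
  exact hj

/-- window of the rigid rule -/
theorem RR_take (hM : Marker P R n G W) (Q : List α) :
    RR R n G L Q ↔ RR R n G L (Q.take (2 * G + n)) := by
  have key : ∀ k, k ≤ 2 * G → (R ((Q.take (2 * G + n)).drop k) ↔ R (Q.drop k)) :=
    fun k hk => hM.drop_take Q (by omega)
  unfold RR
  rw [List.length_take]
  constructor
  · rintro ⟨h1, i, j, h2, h3, h4, h5, h6, h7, h8⟩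
    exact ⟨by omega, i, j, h2, h3, h4, (key i (by omega)).2 h5, (key j h4).2 h6,
      fun k hk1 hk2 hk => h7 k hk1 hk2 ((key k (by omega)).1 hk), h8⟩
  · rintro ⟨h1, i, j, h2, h3, h4, h5, h6, h7, h8⟩
    exact ⟨by omega, i, j, h2, h3, h4, (key i (by omega)).1 h5, (key j h4).1 h6,
      fun k hk1 hk2 hk => h7 k hk1 hk2 ((key k (by omega)).2 hk), h8⟩

theorem RR_len {Q : List α} (h : RR R n G L Q) : 2 * G + n ≤ Q.length := h.1

/-- `RR` at position `d` in the coordinates of `Q`. -/
theorem RR_drop_iff (Q : List α) (d : ℕ) :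
    RR R n G L (Q.drop d) ↔ 2 * G + n + d ≤ Q.length ∧ ∃ i j, d ≤ i ∧ i ≤ G + d ∧ G + d < j ∧
      j ≤ 2 * G + d ∧ R (Q.drop i) ∧ R (Q.drop j) ∧
      (∀ k, i < k → k < j → ¬ R (Q.drop k)) ∧ cutp L (j - i) (G + d - i) := by
  unfold RR
  rw [List.length_drop]
  constructor
  · rintro ⟨h1, i, j, h2, h3, h4, h5, h6, h7, h8⟩
    rcases Nat.lt_or_ge Q.length d with hd | hd
    · -- then `Q.drop d = []` and `G = n = 0`, impossible since `0 < j ≤ 0`
      omega
    · refine ⟨by omega, d + i, d + j, by omega, by omega, by omega, by omega, ?_, ?_, ?_, ?_⟩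
      · rwa [List.drop_drop] at h5
      · rwa [List.drop_drop] at h6
      · intro k hk1 hk2 hk
        refine h7 (k - d) (by omega) (by omega) ?_
        rw [List.drop_drop, show d + (k - d) = k by omega]
        exact hk
      · rw [show d + j - (d + i) = j - i by omega, show G + d - (d + i) = G - i by omega]
        exact h8
  · rintro ⟨h1, i, j, h0, h2, h3, h4, h5, h6, h7, h8⟩
    refine ⟨by omega, i - d, j - d, by omega, by omega, by omega, ?_, ?_, ?_, ?_⟩
    · rw [List.drop_drop, show d + (i - d) = i by omega]; exact h5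
    · rw [List.drop_drop, show d + (j - d) = j by omega]; exact h6
    · intro k hk1 hk2 hk
      rw [List.drop_drop] at hk
      exact h7 (d + k) (by omega) (by omega) hk
    · rw [show j - d - (i - d) = j - i by omega, show G - (i - d) = G + d - i by omega]
      exact h8

/-- **rigid walls**: after a wall the next one comes at distance exactly `L` or `L + 1`. -/
theorem RR_next (hM : Marker P R n G W) (hL : 0 < L) (hW : L * L ≤ W) {Q : List α} (hQ : P Q)
    (hlen : 3 * G + n + L + 2 ≤ Q.length) (h : RR R n G L Q) :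
    ∃ l, (l = L ∨ l = L + 1) ∧ RR R n G L (Q.drop l) ∧
      ∀ d, 0 < d → d < l → ¬ RR R n G L (Q.drop d) := by
  obtain ⟨-, i, j, h2, h3, h4, h5, h6, h7, h8⟩ := h
  have hij : W < j - i := hM.gap_gt (by omega) h5 h6
  have hg : L * L ≤ j - i := by omega
  obtain ⟨s1, s2, s3⟩ := cutp_step hL hg (by omega) h8
  set l := step L (j - i) (G - i) with hl
  have hl' : l = L ∨ l = L + 1 := by
    rw [hl]; unfold step; split_ifs <;> simp
  have hlpos : 0 < l := by rcases hl' with h | h <;> omega
  have hlL : l ≤ L + 1 := by rcases hl' with h | h <;> omega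
  -- markers are dense: the last marker before `j` is at least `l + 1` whenever `G + l < j`
  refine ⟨l, hl', ?_, ?_⟩
  · rw [RR_drop_iff]
    refine ⟨by omega, ?_⟩
    rcases Nat.lt_or_ge (G + l) j with hlt | hge
    · obtain ⟨m, hm1, hm2, hm3⟩ := hM.mark_in hQ (l + 1) (by omega)
      have hmi : m ≤ i := by
        by_contra hcon
        exact h7 m (by omega) (by omega) hm3
      refine ⟨i, j, by omega, by omega, hlt, by omega, h5, h6, h7, ?_⟩
      rw [show G + l - i = G - i + l by omega]
      exact s2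
    · have hje : j = G + l := by omega
      classical
      obtain ⟨m, hm1, hm2, hm3⟩ := hM.mark_in hQ (j + 1) (by omega)
      have hex : ∃ m, j < m ∧ R (Q.drop m) := ⟨m, by omega, hm3⟩
      have hsp := Nat.find_spec hex
      have hmin := fun k hk => Nat.find_min hex (m := k) hk
      have hle : Nat.find hex ≤ m := Nat.find_min' hex ⟨by omega, hm3⟩
      refine ⟨j, Nat.find hex, by omega, by omega, by omega, by omega, h6, hsp.2, ?_, ?_⟩
      · intro k hk1 hk2 hk
        exact hmin k hk2 ⟨hk1, hk⟩
      · rw [show G + l - j = 0 by omega]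
        exact cutp_zero _ _
  · intro d hd0 hdl hcon
    rw [RR_drop_iff] at hcon
    obtain ⟨-, i', j', g0, g2, g3, g4, g5, g6, g7, g8⟩ := hcon
    have hii : i' = i := by
      rcases Nat.lt_trichotomy i' i with hc | hc | hc
      · exact absurd h5 (g7 i hc (by omega))
      · exact hc
      · exact absurd g5 (h7 i' hc (by omega))
    have hjj : j' = j := by
      rcases Nat.lt_trichotomy j' j with hc | hc | hc
      · exact absurd g6 (h7 j' (by omega) hc)
      · exact hc
      · exact absurd h6 (g7 j (by omega) hc)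
    subst hii hjj
    refine s3 d hd0 hdl ?_
    rw [show G - i' + d = G + d - i' by omega]
    exact g8

/-- there is a wall in every `L + 1` consecutive positions. -/
theorem RR_dense (hM : Marker P R n G W) (hL : 0 < L) (hW : L * L ≤ W) {Q : List α} (hQ : P Q)
    (hlen : 3 * G + n + L + 2 ≤ Q.length) : ∃ d, d ≤ L ∧ RR R n G L (Q.drop d) := by
  classical
  obtain ⟨m, hm1, hm2, hm3⟩ := hM.mark_in hQ 1 (by omega)
  obtain ⟨m', hm1', hm2', hm3'⟩ := hM.mark_in hQ (G + 1) (by omega)
  -- last marker `≤ G`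
  obtain ⟨i, hi1, hi2, hi3⟩ : ∃ i, i ≤ G ∧ R (Q.drop i) ∧ ∀ k, i < k → k ≤ G → ¬ R (Q.drop k) := by
    refine ⟨Nat.findGreatest (fun k => R (Q.drop k)) G, Nat.findGreatest_le _, ?_, ?_⟩
    · exact Nat.findGreatest_spec (P := fun k => R (Q.drop k)) (m := m) (by omega) hm3
    · intro k hk1 hk2
      exact Nat.findGreatest_is_greatest (P := fun k => R (Q.drop k)) hk1 hk2
  have hex : ∃ m, G < m ∧ R (Q.drop m) := ⟨m', by omega, hm3'⟩
  obtain ⟨hj1, hj2⟩ := Nat.find_spec hex
  have hmin := fun k hk => Nat.find_min hex (m := k) hk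
  have hle : Nat.find hex ≤ m' := Nat.find_min' hex ⟨by omega, hm3'⟩
  set j := Nat.find hex with hj
  have hno : ∀ k, i < k → k < j → ¬ R (Q.drop k) := by
    intro k hk1 hk2 hk
    rcases Nat.lt_or_ge G k with hc | hc
    · exact hmin k hk2 ⟨hc, hk⟩
    · exact hi3 k hk1 hc hk
  have hij : W < j - i := hM.gap_gt (by omega) hi2 hj2
  have hg : L * L ≤ j - i := by omega
  obtain ⟨d, hd1, hd2, hd3⟩ := cutp_exists (c := G - i) hL hg (by omega)
  refine ⟨d, hd1, ?_⟩
  rw [RR_drop_iff]
  refine ⟨by omega, ?_⟩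
  rcases Nat.lt_or_ge (G + d) j with hlt | hge
  · obtain ⟨m2, hn1, hn2, hn3⟩ := hM.mark_in hQ (d + 1) (by omega)
    have hmi : m2 ≤ i := by
      by_contra hcon
      exact hno m2 (by omega) (by omega) hn3
    refine ⟨i, j, by omega, by omega, hlt, by omega, hi2, hj2, hno, ?_⟩
    rw [show G + d - i = G - i + d by omega]
    exact hd3
  · have hje : j = G + d := by omega
    obtain ⟨m3, hp1, hp2, hp3⟩ := hM.mark_in hQ (j + 1) (by omega)
    have hex' : ∃ m, j < m ∧ R (Q.drop m) := ⟨m3, by omega, hp3⟩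
    have hsp := Nat.find_spec hex'
    have hmin' := fun k hk => Nat.find_min hex' (m := k) hk
    have hle' : Nat.find hex' ≤ m3 := Nat.find_min' hex' ⟨by omega, hp3⟩
    refine ⟨j, Nat.find hex', by omega, by omega, by omega, by omega, hj2, hsp.2, ?_, ?_⟩
    · intro k hk1 hk2 hk
      exact hmin' k hk2 ⟨hk1, hk⟩
    · rw [show G + d - j = 0 by omega]
      exact cutp_zero _ _

end

end Crest.Agent.R320.Rigid307
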