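import Mathlib

set_option autoImplicit false

/-! # Rigid walls (row 320, piece (2b) of the blueprint)

From a right-looking wall rule `R` with window `n`, gaps `> W >= L (L + 1)` and a wall in every
`G` positions of run-free words we make a right-looking rule `RW` all of whose gaps are `>= L` and,
on run-free words, exactly `L` or `L + 1`.
The rule looks `G` letters ahead, so that both old walls around the place are visible. -/

namespace Crest.Agent.R320.Rigid883

/-- offsets of the refined walls in a gap of length `d`: first `d % L` pieces of length `L + 1`,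
then pieces of length `L`. -/
def Off (L d c : ℕ) : Prop :=
  c < d ∧ ((c ≤ (d % L) * (L + 1) ∧ (L + 1) ∣ c) ∨
    ((d % L) * (L + 1) ≤ c ∧ L ∣ (c - (d % L) * (L + 1))))

theorem cut_facts {L d : ℕ} (hL : 0 < L) (hd : L * (L + 1) ≤ d) :
    (d % L) * (L + 1) ≤ d ∧ L ∣ (d - (d % L) * (L + 1)) := by
  have h1 : d % L < L := Nat.mod_lt _ hL
  have h2 : L * (d / L) + d % L = d := Nat.div_add_mod d L
  have h3 : L + 1 ≤ d / L := by
    rw [Nat.le_div_iff_mul_le hL]
    calc (L + 1) * L = L * (L + 1) := by ring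
      _ ≤ d := hd
  obtain ⟨k, hk⟩ : ∃ k, d / L = d % L + k := ⟨d / L - d % L, by omega⟩
  have h4 : d = (d % L) * (L + 1) + L * k := by
    calc d = L * (d / L) + d % L := h2.symm
      _ = L * (d % L + k) + d % L := by rw [hk]
      _ = (d % L) * (L + 1) + L * k := by ring
  refine ⟨by omega, ?_⟩
  have h5 : d - (d % L) * (L + 1) = L * k := by omega
  rw [h5]
  exact Dvd.intro _ rfl

theorem dvd_step {m x y : ℕ} (hx : m ∣ x) (hy : m ∣ y) (h : x < y) : x + m ≤ y := by
  obtain ⟨a, rfl⟩ := hx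
  obtain ⟨b, rfl⟩ := hy
  have hab : a < b := by
    by_contra hc
    exact absurd h (not_lt.mpr (Nat.mul_le_mul_left m (not_lt.mp hc)))
  calc m * a + m = m * (a + 1) := by ring
    _ ≤ m * b := Nat.mul_le_mul_left m hab

theorem off_zero {L d : ℕ} (hd : 0 < d) : Off L d 0 :=
  ⟨hd, Or.inl ⟨Nat.zero_le _, dvd_zero _⟩⟩

/-- normal form: an offset is either strictly left of the change point and a multiple of `L + 1`,
or right of it. -/
theorem off_cases {L d c : ℕ} (h : Off L d c) :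
    (c < (d % L) * (L + 1) ∧ (L + 1) ∣ c) ∨
      ((d % L) * (L + 1) ≤ c ∧ L ∣ (c - (d % L) * (L + 1))) := by
  rcases h.2 with ⟨h1, h2⟩ | h1
  · rcases Nat.lt_or_ge c ((d % L) * (L + 1)) with h3 | h3
    · exact Or.inl ⟨h3, h2⟩
    · refine Or.inr ⟨h3, ?_⟩
      have : c - (d % L) * (L + 1) = 0 := by omega
      rw [this]
      exact dvd_zero _
  · exact Or.inr h1

theorem off_gap {L d c c' : ℕ} (h : Off L d c) (h' : Off L d c') (hc : c < c') : c + L ≤ c' := by
  rcases off_cases h with ⟨h1, h2⟩ | ⟨h1, h2⟩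
  · have hB : (L + 1) ∣ (d % L) * (L + 1) := Dvd.intro_left _ rfl
    rcases off_cases h' with ⟨h3, h4⟩ | ⟨h3, h4⟩
    · have := dvd_step h2 h4 hc
      omega
    · have := dvd_step h2 hB h1
      omega
  · rcases off_cases h' with ⟨h3, h4⟩ | ⟨h3, h4⟩
    · omega
    · have := dvd_step h2 h4 (by omega)
      omega

theorem off_end {L d c : ℕ} (hL : 0 < L) (hd : L * (L + 1) ≤ d) (h : Off L d c) : c + L ≤ d := by
  obtain ⟨hB1, hB2⟩ := cut_facts hL hd
  have hcd := h.1
  rcases off_cases h with ⟨h1, h2⟩ | ⟨h1, h2⟩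
  · have hB : (L + 1) ∣ (d % L) * (L + 1) := Dvd.intro_left _ rfl
    have := dvd_step h2 hB h1
    omega
  · have := dvd_step h2 hB2 (by omega)
    omega

theorem off_next {L d c : ℕ} (hL : 0 < L) (hd : L * (L + 1) ≤ d) (h : Off L d c) :
    (Off L d (c + L) ∨ c + L = d) ∨ (Off L d (c + (L + 1)) ∨ c + (L + 1) = d) := by
  obtain ⟨hB1, hB2⟩ := cut_facts hL hd
  have hend := off_end hL hd h
  rcases off_cases h with ⟨h1, h2⟩ | ⟨h1, h2⟩
  · right
    have hB : (L + 1) ∣ (d % L) * (L + 1) := Dvd.intro_left _ rfl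
    have h3 := dvd_step h2 hB h1
    rcases Nat.lt_or_ge (c + (L + 1)) d with h4 | h4
    · left
      exact ⟨h4, Or.inl ⟨h3, dvd_add h2 (dvd_refl _)⟩⟩
    · right
      omega
  · left
    rcases Nat.lt_or_ge (c + L) d with h4 | h4
    · left
      refine ⟨h4, Or.inr ⟨by omega, ?_⟩⟩
      have h5 : c + L - (d % L) * (L + 1) = (c - (d % L) * (L + 1)) + L := by omega
      rw [h5]
      exact dvd_add h2 (dvd_refl _)
    · right
      omega

theorem exists_mul_ge {m : ℕ} (hm : 0 < m) (x : ℕ) : ∃ i, i < m ∧ m ∣ (x + i) := by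
  have h1 := Nat.div_add_mod (x + (m - 1)) m
  have h2 := Nat.mod_lt (x + (m - 1)) hm
  refine ⟨m * ((x + (m - 1)) / m) - x, by omega, ?_⟩
  have h3 : x + (m * ((x + (m - 1)) / m) - x) = m * ((x + (m - 1)) / m) := by omega
  rw [h3]
  exact Dvd.intro _ rfl

theorem off_ex {L d c : ℕ} (hL : 0 < L) (hd : L * (L + 1) ≤ d) (hc : c < d) :
    ∃ i, i ≤ L ∧ (Off L d (c + i) ∨ c + i = d) := by
  obtain ⟨hB1, hB2⟩ := cut_facts hL hd
  have hB : (L + 1) ∣ (d % L) * (L + 1) := Dvd.intro_left _ rfl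
  rcases Nat.lt_or_ge ((d % L) * (L + 1)) c with h | h
  · obtain ⟨i, hi, hdiv⟩ := exists_mul_ge hL (c - (d % L) * (L + 1))
    refine ⟨i, by omega, ?_⟩
    have h1 : c - (d % L) * (L + 1) + i = c + i - (d % L) * (L + 1) := by omega
    rw [h1] at hdiv
    have h2 : c + i ≤ d := by
      by_contra hcon
      have h3 : d - (d % L) * (L + 1) < c + i - (d % L) * (L + 1) := by omega
      have := dvd_step hB2 hdiv h3
      omega
    rcases Nat.lt_or_ge (c + i) d with h4 | h4
    · exact Or.inl ⟨h4, Or.inr ⟨by omega, hdiv⟩⟩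
    · exact Or.inr (by omega)
  · obtain ⟨i, hi, hdiv⟩ := exists_mul_ge (Nat.succ_pos L) c
    refine ⟨i, by omega, ?_⟩
    have h2 : c + i ≤ (d % L) * (L + 1) := by
      by_contra hcon
      have := dvd_step hB hdiv (by omega)
      omega
    rcases Nat.lt_or_ge (c + i) d with h4 | h4
    · exact Or.inl ⟨h4, Or.inl ⟨h2, hdiv⟩⟩
    · exact Or.inr (by omega)

section walls

variable {α : Type*}

/-- the refined rule: the place `G` letters ahead is a refined wall. -/
def RW (R : List α → Prop) (n G L : ℕ) (Q : List α) : Prop :=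
  G + G + n ≤ Q.length ∧ ∃ t₀ t₁, t₀ ≤ G ∧ G < t₁ ∧ t₁ ≤ G + G ∧ R (Q.drop t₀) ∧ R (Q.drop t₁) ∧
    (∀ i, t₀ < i → i < t₁ → ¬ R (Q.drop i)) ∧ Off L (t₁ - t₀) (G - t₀)

/-- `R` looks only at the first `n` letters. -/
def Looks (R : List α → Prop) (n : ℕ) : Prop := ∀ Q, R Q ↔ R (Q.take n)

theorem looks_drop {R : List α → Prop} {n : ℕ} (hR : Looks R n) (Q : List α) {m t : ℕ}
    (h : t + n ≤ m) : R ((Q.take m).drop t) ↔ R (Q.drop t) := by
  rw [hR ((Q.take m).drop t), hR (Q.drop t)]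
  have : ((Q.take m).drop t).take n = (Q.drop t).take n := by
    rw [List.drop_take, List.take_take]
    congr 1
    omega
  rw [this]

theorem rw_looks {R : List α → Prop} {n : ℕ} (hR : Looks R n) (G L : ℕ) :
    Looks (RW R n G L) (G + G + n) := by
  intro Q
  unfold RW
  constructor
  · rintro ⟨hlen, t₀, t₁, h0, h1, h2, h3, h4, h5, h6⟩
    refine ⟨by simp [hlen], t₀, t₁, h0, h1, h2, ?_, ?_, ?_, h6⟩
    · exact (looks_drop hR Q (by omega)).mpr h3
    · exact (looks_drop hR Q (by omega)).mpr h4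
    · intro i hi hi' hc
      exact h5 i hi hi' ((looks_drop hR Q (by omega)).mp hc)
  · rintro ⟨hlen, t₀, t₁, h0, h1, h2, h3, h4, h5, h6⟩
    have hlen' : G + G + n ≤ Q.length := by
      rw [List.length_take] at hlen
      omega
    refine ⟨hlen', t₀, t₁, h0, h1, h2, ?_, ?_, ?_, h6⟩
    · exact (looks_drop hR Q (by omega)).mp h3
    · exact (looks_drop hR Q (by omega)).mp h4
    · intro i hi hi' hc
      exact h5 i hi hi' ((looks_drop hR Q (by omega)).mpr hc)

theorem rw_length {R : List α → Prop} {n G L : ℕ} {Q : List α} (h : RW R n G L Q) :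
    G + G + n ≤ Q.length := h.1

/-- the refined walls have gaps at least `L`. -/
theorem rw_gap {R : List α → Prop} {n G L W : ℕ} (hL : 0 < L) (hW : L * (L + 1) ≤ W + 1)
    (hgap : ∀ Q d, R Q → 0 < d → d ≤ W → ¬ R (Q.drop d)) (Q : List α) {i : ℕ}
    (hi : 0 < i) (hiL : i < L) (h : RW R n G L Q) : ¬ RW R n G L (Q.drop i) := by
  rintro ⟨-, s₀, s₁, g0, g1, g2, g3, g4, g5, g6⟩
  obtain ⟨-, t₀, t₁, h0, h1, h2, h3, h4, h5, h6⟩ := h
  rw [List.drop_drop] at g3 g4
  have g5' : ∀ j, i + s₀ < j → j < i + s₁ → ¬ R (Q.drop j) := by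
    intro j hj hj'
    have := g5 (j - i) (by omega) (by omega)
    rw [List.drop_drop] at this
    have h7 : i + (j - i) = j := by omega
    rw [h7] at this
    exact this
  -- gap of the old walls
  have hdist : ∀ a b, a < b → R (Q.drop a) → R (Q.drop b) → W < b - a := by
    intro a b hab ha hb
    by_contra hcon
    have := hgap (Q.drop a) (b - a) ha (by omega) (by omega)
    rw [List.drop_drop] at this
    have h7 : a + (b - a) = b := by omega
    rw [h7] at this
    exact this hb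
  have hd : L * (L + 1) ≤ t₁ - t₀ := by
    have := hdist t₀ t₁ (by omega) h3 h4
    omega
  rcases Nat.lt_or_ge (G + i) t₁ with hc | hc
  · -- same pair
    have e0 : i + s₀ = t₀ := by
      rcases Nat.lt_trichotomy (i + s₀) t₀ with h8 | h8 | h8
      · exact absurd h3 (g5' t₀ h8 (by omega))
      · exact h8
      · exact absurd g3 (h5 (i + s₀) h8 (by omega))
    have e1 : i + s₁ = t₁ := by
      rcases Nat.lt_trichotomy (i + s₁) t₁ with h8 | h8 | h8
      · exact absurd g4 (h5 (i + s₁) (by omega) h8)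
      · exact h8
      · exact absurd h4 (g5' t₁ (by omega) h8)
    have e2 : s₁ - s₀ = t₁ - t₀ := by omega
    have e3 : G - s₀ = (G - t₀) + i := by omega
    rw [e2, e3] at g6
    have := off_gap h6 g6 (by omega)
    omega
  · have := off_end hL hd h6
    omega

/-- the next wall behind the place `t`. -/
theorem next_wall {R : List α → Prop} {n G : ℕ} {RF : List α → Prop}
    (hdrop : ∀ Q i, RF Q → RF (Q.drop i))
    (hex : ∀ Q, RF Q → G + n ≤ Q.length → ∃ i, i < G ∧ R (Q.drop i))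
    {Q : List α} (hQ : RF Q) {t : ℕ} (hlen : t + 1 + (G + n) ≤ Q.length) :
    ∃ t', t < t' ∧ t' ≤ t + G ∧ R (Q.drop t') ∧ ∀ i, t < i → i < t' → ¬ R (Q.drop i) := by
  classical
  obtain ⟨i, hi, hR⟩ := hex (Q.drop (t + 1)) (hdrop Q _ hQ) (by rw [List.length_drop]; omega)
  rw [List.drop_drop] at hR
  have hE : ∃ j, t < j ∧ R (Q.drop j) := ⟨t + 1 + i, by omega, hR⟩
  refine ⟨Nat.find hE, (Nat.find_spec hE).1, ?_, (Nat.find_spec hE).2, ?_⟩
  · have := Nat.find_min' hE (⟨by omega, hR⟩ : t < t + 1 + i ∧ R (Q.drop (t + 1 + i)))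
    omega
  · intro j hj hj' hc
    exact Nat.find_min hE hj' ⟨hj, hc⟩

/-- the last wall at a place `≤ G`. -/
theorem prev_wall {R : List α → Prop} {n G : ℕ} {RF : List α → Prop}
    (hex : ∀ Q, RF Q → G + n ≤ Q.length → ∃ i, i < G ∧ R (Q.drop i))
    {Q : List α} (hQ : RF Q) (hlen : G + n ≤ Q.length) :
    ∃ t, t ≤ G ∧ R (Q.drop t) ∧ ∀ i, t < i → i ≤ G → ¬ R (Q.drop i) := by
  classical
  obtain ⟨i, hi, hR⟩ := hex Q hQ hlen
  refine ⟨Nat.findGreatest (fun j => R (Q.drop j)) G, Nat.findGreatest_le _, ?_, ?_⟩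
  · exact Nat.findGreatest_spec (P := fun j => R (Q.drop j)) (le_of_lt hi) hR
  · intro j hj hj'
    exact Nat.findGreatest_is_greatest hj hj'

theorem rw_helper {R : List α → Prop} {n G L : ℕ} {RF : List α → Prop}
    (hdrop : ∀ Q i, RF Q → RF (Q.drop i))
    (hex : ∀ Q, RF Q → G + n ≤ Q.length → ∃ i, i < G ∧ R (Q.drop i))
    {Q : List α} (hQ : RF Q) (hlen : G + G + G + n + 1 ≤ Q.length) {t₀ t₁ j : ℕ}
    (h0 : t₀ ≤ G) (h1 : G < t₁) (h2 : t₁ ≤ t₀ + G) (h3 : R (Q.drop t₀)) (h4 : R (Q.drop t₁))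
    (h5 : ∀ i, t₀ < i → i < t₁ → ¬ R (Q.drop i))
    (hj : Off L (t₁ - t₀) (G - t₀ + j) ∨ G - t₀ + j = t₁ - t₀) : RW R n G L (Q.drop j) := by
  rcases hj with hj | hj
  · have hlt := hj.1
    have e0 : j + (t₀ - j) = t₀ := by omega
    have e1 : j + (t₁ - j) = t₁ := by omega
    refine ⟨by rw [List.length_drop]; omega, t₀ - j, t₁ - j, by omega, by omega, by omega,
      ?_, ?_, ?_, ?_⟩
    · rw [List.drop_drop, e0]; exact h3
    · rw [List.drop_drop, e1]; exact h4
    · intro i hi hi'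
      rw [List.drop_drop]
      exact h5 (j + i) (by omega) (by omega)
    · have e2 : t₁ - j - (t₀ - j) = t₁ - t₀ := by omega
      have e3 : G - (t₀ - j) = G - t₀ + j := by omega
      rw [e2, e3]
      exact hj
  · have ht : t₁ = G + j := by omega
    obtain ⟨t₂, g1, g2, g3, g4⟩ := next_wall hdrop hex hQ (t := t₁) (by omega)
    have e0 : j + G = t₁ := by omega
    have e1 : j + (t₂ - j) = t₂ := by omega
    refine ⟨by rw [List.length_drop]; omega, G, t₂ - j, le_refl _, by omega, by omega,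
      ?_, ?_, ?_, ?_⟩
    · rw [List.drop_drop, e0]; exact h4
    · rw [List.drop_drop, e1]; exact g3
    · intro i hi hi'
      rw [List.drop_drop]
      exact g4 (j + i) (by omega) (by omega)
    · rw [Nat.sub_self]
      exact off_zero (by omega)

/-- distance of two old walls. -/
theorem old_dist {R : List α → Prop} {W : ℕ}
    (hgap : ∀ Q d, R Q → 0 < d → d ≤ W → ¬ R (Q.drop d)) (Q : List α) {a b : ℕ}
    (hab : a < b) (ha : R (Q.drop a)) (hb : R (Q.drop b)) : W < b - a := by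
  by_contra hcon
  have := hgap (Q.drop a) (b - a) ha (by omega) (by omega)
  rw [List.drop_drop] at this
  have h7 : a + (b - a) = b := by omega
  rw [h7] at this
  exact this hb

/-- on run-free words the gaps are `L` or `L + 1`. -/
theorem rw_next {R : List α → Prop} {n G L W : ℕ} {RF : List α → Prop}
    (hL : 0 < L) (hW : L * (L + 1) ≤ W + 1)
    (hgap : ∀ Q d, R Q → 0 < d → d ≤ W → ¬ R (Q.drop d))
    (hdrop : ∀ Q i, RF Q → RF (Q.drop i))
    (hex : ∀ Q, RF Q → G + n ≤ Q.length → ∃ i, i < G ∧ R (Q.drop i))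
    {Q : List α} (hQ : RF Q) (hlen : G + G + G + n + 1 ≤ Q.length) (h : RW R n G L Q) :
    RW R n G L (Q.drop L) ∨ RW R n G L (Q.drop (L + 1)) := by
  obtain ⟨-, t₀, t₁, h0, h1, -, h3, h4, h5, h6⟩ := h
  obtain ⟨t', g1, g2, g3, g4⟩ := next_wall hdrop hex hQ (t := t₀) (by omega)
  have ht : t' = t₁ := by
    rcases Nat.lt_trichotomy t' t₁ with h8 | h8 | h8
    · exact absurd g3 (h5 t' g1 h8)
    · exact h8
    · exact absurd h4 (g4 t₁ (by omega) h8)
  subst ht
  have hd : L * (L + 1) ≤ t' - t₀ := by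
    have := old_dist hgap Q g1 h3 g3
    omega
  rcases off_next hL hd h6 with h7 | h7
  · exact Or.inl (rw_helper hdrop hex hQ hlen h0 h1 g2 h3 g3 g4 h7)
  · exact Or.inr (rw_helper hdrop hex hQ hlen h0 h1 g2 h3 g3 g4 h7)

/-- on run-free words there is a refined wall in every `L + 1` consecutive places. -/
theorem rw_ex {R : List α → Prop} {n G L W : ℕ} {RF : List α → Prop}
    (hL : 0 < L) (hW : L * (L + 1) ≤ W + 1)
    (hgap : ∀ Q d, R Q → 0 < d → d ≤ W → ¬ R (Q.drop d))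
    (hdrop : ∀ Q i, RF Q → RF (Q.drop i))
    (hex : ∀ Q, RF Q → G + n ≤ Q.length → ∃ i, i < G ∧ R (Q.drop i))
    {Q : List α} (hQ : RF Q) (hlen : G + G + G + n + 1 ≤ Q.length) :
    ∃ i, i ≤ L ∧ RW R n G L (Q.drop i) := by
  obtain ⟨t₀, h0, h3, h5⟩ := prev_wall hex hQ (by omega)
  obtain ⟨t₁, g1, g2, g3, g4⟩ := next_wall hdrop hex hQ (t := t₀) (by omega)
  have h1 : G < t₁ := by
    by_contra hcon
    exact h5 t₁ g1 (by omega) g3
  have hd : L * (L + 1) ≤ t₁ - t₀ := by
    have := old_dist hgap Q g1 h3 g3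
    omega
  obtain ⟨i, hi, hoff⟩ := off_ex hL hd (c := G - t₀) (by omega)
  exact ⟨i, hi, rw_helper hdrop hex hQ hlen h0 h1 g2 h3 g3 g4 hoff⟩

/-- **Rigid walls.**  From any right-looking rule with gaps `> W`, `L (L + 1) ≤ W + 1`, and a wall
in every `G` places of run-free words one gets a right-looking rule with window `n'`, all gaps
`≥ L`, and gaps in `{L, L + 1}` on run-free words, a wall in every `L + 1` places. -/
theorem rigid_walls {R : List α → Prop} {n G L W : ℕ} {RF : List α → Prop}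
    (hL : 0 < L) (hW : L * (L + 1) ≤ W + 1)
    (hlook : ∀ Q, R Q ↔ R (Q.take n))
    (hgap : ∀ Q d, R Q → 0 < d → d ≤ W → ¬ R (Q.drop d))
    (hdrop : ∀ Q i, RF Q → RF (Q.drop i))
    (hex : ∀ Q, RF Q → G + n ≤ Q.length → ∃ i, i < G ∧ R (Q.drop i)) :
    ∃ (n' G' : ℕ) (R' : List α → Prop),
      (∀ Q, R' Q ↔ R' (Q.take n')) ∧ (∀ Q, R' Q → n' ≤ Q.length) ∧
      (∀ Q i, R' Q → 0 < i → i < L → ¬ R' (Q.drop i)) ∧
      (∀ Q, RF Q → G' ≤ Q.length → R' Q → R' (Q.drop L) ∨ R' (Q.drop (L + 1))) ∧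
      (∀ Q, RF Q → G' ≤ Q.length → ∃ i, i ≤ L ∧ R' (Q.drop i)) :=
  ⟨G + G + n, G + G + G + n + 1, RW R n G L, rw_looks hlook G L, fun _ h => rw_length h,
    fun Q _ h hi hiL => rw_gap hL hW hgap Q hi hiL h,
    fun _ hQ hlen h => rw_next hL hW hgap hdrop hex hQ hlen h,
    fun _ hQ hlen => rw_ex hL hW hgap hdrop hex hQ hlen⟩

end walls

end Crest.Agent.R320.Rigid883
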