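import Crest.Agent.R320.Top_982
import Crest.Agent.R320.FewVal_228
import Crest.Agent.R320.WallU_228

/-! # Row 320: blocks, geometry and (cc1) (helper982) -/

set_option autoImplicit false

namespace Crest.Agent.R320.RowA_982

open Crest.RegLang Crest.Agent.R320.Hk_851 Crest.Agent.R320.Blk467 Crest.Agent.R320.Top_982

universe u

variable {α : Type u} {Wo : List α → Prop} {n W z N1 p0 : ℕ} {BadT : ℕ → Prop}

/-- left-looking wall rule -/
structure LW (Wo : List α → Prop) (n W : ℕ) : Prop where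
  loc : ∀ P Q : List α, n ≤ Q.length → (Wo (P ++ Q) ↔ Wo Q)
  len : ∀ P, Wo P → n ≤ P.length
  gap : ∀ (P : List α) (d : ℕ), Wo P → 0 < d → d ≤ W → ¬ Wo (P.take (P.length - d))

/-- blocks -/
def XX (Wo : List α → Prop) (z : ℕ) : Set (List α) :=
  {X | Wo X ∧ z ≤ X.length ∧ ∀ t, z ≤ t → t < X.length → ¬ Wo (X.take t)}

/-- band -/
def EE (Wo : List α → Prop) (z N1 : ℕ) (X : List α) : Prop :=
  ∃ t, t ≤ X.length ∧ Wo (X.take t) ∧ t ≤ z + N1 ∧ z ≤ t + N1

def Bad (Wo : List α → Prop) (z N1 p0 : ℕ) (BadT : ℕ → Prop) : Set (List α) :=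
  {X | X ∈ XX Wo z ∧ (EE Wo z N1 X ∨ BadT (X.length - p0))}

theorem Bad_le : Bad Wo z N1 p0 BadT ⊆ XX Wo z := fun _ h => h.1

theorem pcode (hz : 0 < z) : PCode (XX Wo z) := by
  refine ⟨fun h => by have := h.2.1; simp at this; omega, ?_⟩
  rintro X ⟨h1, h2, _⟩ Y ⟨_, _, g3⟩ ⟨D, rfl⟩
  by_contra hne
  have hD : D ≠ [] := fun h => hne (by simp [h])
  have hl := List.length_pos_iff.2 hD
  refine g3 X.length h2 (by rw [List.length_append]; omega) ?_
  rw [List.take_left']
  · exact h1
  · rfl

theorem exists_prefix {w : List α} (hw : Wo w) (hz : z ≤ w.length) :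
    ∃ Z ∈ XX Wo z, Z <+: w := by
  classical
  have hex : ∃ t, z ≤ t ∧ t ≤ w.length ∧ Wo (w.take t) :=
    ⟨w.length, hz, le_rfl, by rwa [List.take_length]⟩
  obtain ⟨h1, h2, h3⟩ := Nat.find_spec hex
  refine ⟨w.take (Nat.find hex), ⟨h3, by rw [List.length_take]; omega, ?_⟩, List.take_prefix _ _⟩
  intro t ht htl hWo
  rw [List.length_take] at htl
  have h4 : t < Nat.find hex := by omega
  refine Nat.find_min hex h4 ⟨ht, by omega, ?_⟩
  rw [List.take_take] at hWo
  rwa [min_eq_left h4.le] at hWo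

/-- walls behind a common suffix -/
theorem wo_shift (hw : LW Wo n W) {P P' Q : List α} {t t' : ℕ} (h1 : P.length + n ≤ t)
    (h2 : t + P'.length = t' + P.length) (h3 : t ≤ (P ++ Q).length) :
    Wo ((P ++ Q).take t) ↔ Wo ((P' ++ Q).take t') := by
  rw [List.length_append] at h3
  have e1 : (P ++ Q).take t = P ++ Q.take (t - P.length) := by
    rw [List.take_append, List.take_of_length_le (by omega)]
  have e2 : (P' ++ Q).take t' = P' ++ Q.take (t - P.length) := by
    rw [List.take_append, List.take_of_length_le (by omega)]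
    congr 2
    omega
  rw [e1, e2, hw.loc _ _ (by rw [List.length_take]; omega),
    hw.loc _ _ (by rw [List.length_take]; omega)]

/-- junction lemma -/
theorem junction (hw : LW Wo n W) {P P' Q : List α} (hX : P ++ Q ∈ XX Wo z)
    (hE : ¬ EE Wo z N1 (P ++ Q)) (hP : P.length + n ≤ z) (hP' : P'.length + n + N1 ≤ z)
    (h1 : P.length ≤ P'.length + N1) (h2 : P'.length ≤ P.length + N1) :
    P' ++ Q ∈ XX Wo z := by
  obtain ⟨g1, g2, g3⟩ := hX
  have hl : z + N1 < (P ++ Q).length := by
    by_contra hlt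
    exact hE ⟨(P ++ Q).length, le_rfl, by rwa [List.take_length], by omega, by omega⟩
  have hl' : z < (P' ++ Q).length := by
    rw [List.length_append] at hl ⊢
    omega
  have hQ : n ≤ Q.length := by
    rw [List.length_append] at hl
    omega
  refine ⟨?_, hl'.le, ?_⟩
  · rw [hw.loc _ _ hQ] at g1 ⊢
    exact g1
  · intro t ht htl hWo
    have htl' := htl
    rw [List.length_append] at htl'
    have hs := (wo_shift hw (P := P') (P' := P) (Q := Q) (t := t)
      (t' := t + P.length - P'.length) (by omega) (by omega) htl.le).1 hWo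
    rcases Nat.lt_or_ge (t + P.length - P'.length) z with h | h
    · refine hE ⟨t + P.length - P'.length, ?_, hs, by omega, by omega⟩
      rw [List.length_append] at hl ⊢
      omega
    · refine g3 _ h ?_ hs
      rw [List.length_append]
      omega

/-- blocks, same length of the left part -/
theorem same_len (hw : LW Wo n W) {P P' Q : List α} (hlen : P.length = P'.length)
    (hP : P.length + n + N1 ≤ z) :
    (P ++ Q ∈ XX Wo z → P' ++ Q ∈ XX Wo z) ∧
      (z ≤ (P ++ Q).length → EE Wo z N1 (P ++ Q) → EE Wo z N1 (P' ++ Q)) := by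
  constructor
  · rintro ⟨g1, g2, g3⟩
    have hl : (P' ++ Q).length = (P ++ Q).length := by simp [hlen]
    have hQ : n ≤ Q.length := by
      rw [List.length_append] at g2
      omega
    refine ⟨?_, by omega, ?_⟩
    · rw [hw.loc _ _ hQ] at g1 ⊢
      exact g1
    · intro t ht htl hWo
      refine g3 t ht (by omega) ?_
      exact (wo_shift hw (P := P) (P' := P') (Q := Q) (t := t) (t' := t) (by omega) (by omega)
        (by omega)).2 hWo
  · rintro hz ⟨t, h1, h2, h3, h4⟩
    refine ⟨t, ?_, ?_, h3, h4⟩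
    · rw [List.length_append] at h1 ⊢
      omega
    · exact (wo_shift hw (P := P) (P' := P') (Q := Q) (t := t) (t' := t) (by omega) (by omega)
        h1).1 h2

variable {S V : Type*} [Monoid S] [AddCommGroup V]

/-- the token map -/
def TT (act : V → S → V) (φ : α → S) (p0 : ℕ) (nu2 nu1 : List α → V) (v : V) (X : List α) : V :=
  act (act v ((X.take p0).map φ).prod + nu2 (X.take p0)) ((X.drop p0).map φ).prod +
    nu1 (X.drop p0)

theorem TT_eq {act : V → S → V} (hadd : ∀ a b s, act (a + b) s = act a s + act b s)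
    (hmul : ∀ v s t, act v (s * t) = act (act v s) t) (φ : α → S) (p0 : ℕ)
    (nu2 nu1 : List α → V) (v : V) (X : List α) :
    TT act φ p0 nu2 nu1 v X = act v (X.map φ).prod +
      (act (nu2 (X.take p0)) ((X.drop p0).map φ).prod + nu1 (X.drop p0)) := by
  unfold TT
  rw [hadd, ← hmul, ← List.prod_append, ← List.map_append, List.take_append_drop, add_assoc]

/-- left words of scheme 1 -/
def LP1 (act : V → S → V) (φ : α → S) (p0 : ℕ) (nu2 : List α → V) (lam : List α → Option V)
    (v : V) : Set (List α) :=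
  {P | p0 ≤ P.length ∧ lam (P.drop p0) =
    some (act v ((P.take p0).map φ).prod + nu2 (P.take p0))}

theorem LP1_finite [Finite α] {act : V → S → V} {φ : α → S} {nu2 : List α → V}
    {lam : List α → Option V} (hlam : ∀ P v, lam P = some v → P.length < N1) (v : V) :
    (LP1 act φ p0 nu2 lam v).Finite := by
  refine (List.finite_length_le α (p0 + N1)).subset ?_
  rintro P ⟨_, h2⟩
  have := hlam _ _ h2
  rw [List.length_drop] at this
  show P.length ≤ p0 + N1
  omega

/-- **(cc1)** -/
theorem cc1 (hw : LW Wo n W) {act : V → S → V} {φ : α → S} {nu2 nu1 : List α → V}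
    {lam rho : List α → Option V} (hlam : ∀ P v, lam P = some v → P.length < N1)
    (hsound : ∀ P Q v v', lam P = some v → rho Q = some v' →
      v' = act v ((P ++ Q).map φ).prod + nu1 (P ++ Q))
    (hcompl : ∀ X : List α, ¬ BadT X.length → ∀ v, ∃ P Q, P ++ Q = X ∧ lam P = some v ∧
      (rho Q).isSome)
    (hz : p0 + N1 + n + N1 ≤ z) :
    ∀ X ∈ XX Wo z, X ∉ Bad Wo z N1 p0 BadT → ∀ v, ∃ P Q, P ++ Q = X ∧
      P ∈ LP1 act φ p0 nu2 lam v ∧
      ∀ v', ∀ P' ∈ LP1 act φ p0 nu2 lam v', P' ++ Q ∈ XX Wo z ∧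
        TT act φ p0 nu2 nu1 v' (P' ++ Q) = TT act φ p0 nu2 nu1 v X := by
  intro X hX hXB v
  have hE : ¬ EE Wo z N1 X := fun h => hXB ⟨hX, Or.inl h⟩
  have hT : ¬ BadT (X.length - p0) := fun h => hXB ⟨hX, Or.inr h⟩
  obtain ⟨P, Q, e, hP, hQ⟩ := hcompl (X.drop p0) (by rwa [List.length_drop])
    (act v ((X.take p0).map φ).prod + nu2 (X.take p0))
  obtain ⟨b, hb⟩ := Option.isSome_iff_exists.1 hQ
  have hPl := hlam _ _ hP
  have hXl : z ≤ X.length := hX.2.1
  have hl0 : (X.take p0).length = p0 := by rw [List.length_take]; omega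
  have eX : (X.take p0 ++ P) ++ Q = X := by
    rw [List.append_assoc, e, List.take_append_drop]
  have val : ∀ (v' : V) (P' : List α), P' ∈ LP1 act φ p0 nu2 lam v' →
      TT act φ p0 nu2 nu1 v' (P' ++ Q) = b := by
    rintro v' P' ⟨h1, h2⟩
    unfold TT
    rw [List.take_append_of_le_length h1, List.drop_append_of_le_length h1]
    exact (hsound _ _ _ _ h2 hb).symm
  have memP : X.take p0 ++ P ∈ LP1 act φ p0 nu2 lam v := by
    refine ⟨by rw [List.length_append]; omega, ?_⟩
    rw [List.drop_left' hl0, List.take_left' hl0]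
    exact hP
  refine ⟨X.take p0 ++ P, Q, eX, memP, ?_⟩
  intro v' P' hP'
  have hv := val v _ memP
  rw [eX] at hv
  refine ⟨?_, (val v' P' hP').trans hv.symm⟩
  obtain ⟨h1, h2⟩ := hP'
  have h3 := hlam _ _ h2
  rw [List.length_drop] at h3
  refine junction hw (P := X.take p0 ++ P) (P' := P') (Q := Q) (N1 := N1) (by rw [eX]; exact hX)
    (by rw [eX]; exact hE) ?_ ?_ ?_ ?_ <;>
    (try simp only [List.length_append, hl0]) <;> omega

end Crest.Agent.R320.RowA_982
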