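import Crest.Agent.R320.RowA_982

/-! # Row 320: (cc2) with the spoil count (helper982) -/

set_option autoImplicit false

namespace Crest.Agent.R320.RowB_982

open Crest.RegLang Crest.Agent.R320.Hk_851 Crest.Agent.R320.Blk467 Crest.Agent.R320.Top_982
open Crest.Agent.R320.RowA_982

universe u

variable {α : Type u} {Wo : List α → Prop} {n W z N1 p0 : ℕ} {BadT : ℕ → Prop}

/-- left words of scheme 2 -/
def LP2 {V : Type*} (K : ℕ) (c : ℕ → ℕ) (lam2 : ℕ → List α → Option V) (v : V) :
    Set (List α) :=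
  {P | ∃ k < K, P.length = c k ∧ lam2 k P = some v}

theorem LP2_finite [Finite α] {V : Type*} {K L : ℕ} {c : ℕ → ℕ}
    {lam2 : ℕ → List α → Option V} (hc : ∀ k < K, c k ≤ L) (v : V) :
    (LP2 K c lam2 v).Finite := by
  refine (List.finite_length_le α L).subset ?_
  rintro P ⟨k, hk, h, _⟩
  show P.length ≤ L
  rw [h]
  exact hc k hk

/-- spoiled places of the text `w` -/
def Spo (Wo : List α → Prop) (z N1 p0 : ℕ) (BadT : ℕ → Prop) (K : ℕ) (c : ℕ → ℕ) (w : List α)
    (k : ℕ) : Prop :=
  ∃ k' < K, k' ≠ k ∧ ∃ P' : List α, P'.length = c k' ∧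
    ∃ Z ∈ Bad Wo z N1 p0 BadT, Z <+: P' ++ w.drop (c k)

/-- two walls are far apart -/
theorem two_walls (hw : LW Wo n W) {w : List α} {s t : ℕ} (hs : Wo (w.take s))
    (ht : Wo (w.take t)) (hst : s < t) (htw : t ≤ w.length) : s + W < t := by
  by_contra h
  have hl : (w.take t).length = t := by rw [List.length_take]; omega
  refine hw.gap (w.take t) (t - s) ht (by omega) (by omega) ?_
  rw [hl, List.take_take]
  have e : min (t - (t - s)) t = s := by omega
  rw [e]
  exact hs

/-- a spoiled place: the end `e` of the wrong block, in the coordinates of the text -/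
theorem spo_cases (hw : LW Wo n W) {K L : ℕ} {c : ℕ → ℕ} (hc : ∀ k < K, c k ≤ L)
    (hz : 2 * L + p0 + n + 2 * N1 < z) (hpL : L ≤ p0) {w : List α}
    {k : ℕ} (hk : k < K) (hkw : c k ≤ w.length) (h : Spo Wo z N1 p0 BadT K c w k) :
    ∃ k' < K, k' ≠ k ∧ ∃ e, e ≤ w.length ∧ Wo (w.take e) ∧ z + c k ≤ e + c k' ∧
      (∀ t, z + c k ≤ t + c k' → t < e → ¬ Wo (w.take t)) ∧
      ((∃ t, t ≤ w.length ∧ Wo (w.take t) ∧ t + c k' ≤ z + N1 + c k ∧
        z + c k ≤ t + N1 + c k') ∨ BadT (e + c k' - c k - p0)) := by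
  obtain ⟨k', hk', hne, P', hP', Z, ⟨⟨g1, g2, g3⟩, hb⟩, D, hD⟩ := h
  have hck := hc k hk
  have hck' := hc k' hk'
  refine ⟨k', hk', hne, ?_⟩
  have hZl : Z.length ≤ (P' ++ w.drop (c k)).length := by
    rw [← hD, List.length_append]; omega
  have hZl' := hZl
  rw [List.length_append, List.length_drop, hP'] at hZl'
  have hZt : Z = (P' ++ w.drop (c k)).take Z.length := by
    rw [← hD, List.take_left' rfl]
  have hlk : (w.take (c k)).length = c k := by rw [List.length_take]; omega
  have sh : ∀ t t' : ℕ, c k' + n ≤ t → t + c k = t' + c k' →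
      t ≤ (P' ++ w.drop (c k)).length →
      (Wo ((P' ++ w.drop (c k)).take t) ↔ Wo (w.take t')) := by
    intro t t' h1 h2 h3
    have := wo_shift hw (P := P') (P' := w.take (c k)) (Q := w.drop (c k)) (t := t) (t' := t')
      (by omega) (by omega) h3
    rwa [List.take_append_drop] at this
  have tk : ∀ t, t ≤ Z.length → Z.take t = (P' ++ w.drop (c k)).take t := by
    intro t ht
    rw [hZt, List.take_take, min_eq_left]
    simpa using ht
  refine ⟨Z.length + c k - c k', by omega, ?_, by omega, ?_, ?_⟩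
  · refine (sh Z.length _ (by omega) (by omega) hZl).1 ?_
    rw [← hZt]
    exact g1
  · intro t h1 h2 h3
    refine g3 (t + c k' - c k) (by omega) (by omega) ?_
    rw [tk _ (by omega)]
    exact (sh _ t (by omega) (by omega) (by omega)).2 h3
  · rcases hb with ⟨t, h1, h2, h3, h4⟩ | h
    · left
      rw [tk _ h1] at h2
      exact ⟨t + c k - c k', by omega, (sh t _ (by omega) (by omega) (by omega)).1 h2,
        by omega, by omega⟩
    · right
      have e : Z.length + c k - c k' + c k' - c k - p0 = Z.length - p0 := by omega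
      rw [e]
      exact h

open Classical in
/-- **spoil count** -/
theorem spo_card (hw : LW Wo n W) {K L C0 : ℕ} {c : ℕ → ℕ} (hc : ∀ k < K, c k ≤ L)
    (hz : 2 * L + p0 + n + 2 * N1 < z) (hpL : L ≤ p0) (hW : 2 * L + 2 * N1 ≤ W)
    (hgol : ∀ i j i' j', i ≠ j → i' ≠ j' → ¬ (i = i' ∧ j = j') →
      ((4 * N1 : ℕ) : ℤ) < |((c j : ℤ) - c i) - ((c j' : ℤ) - c i')|)
    (hspoil : ∀ T : ℕ, (((Finset.range K) ×ˢ (Finset.range K)).filter (fun p =>
        p.1 ≠ p.2 ∧ c p.1 ≤ T + c p.2 ∧ BadT (T + c p.2 - c p.1))).card ≤ C0)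
    {w : List α} (hw0 : L ≤ w.length) :
    ((Finset.range K).filter (fun k => Spo Wo z N1 p0 BadT K c w k)).card ≤ 1 + (C0 + C0) := by
  set A : Set ℕ := {e | z ≤ e + L ∧ e ≤ w.length ∧ Wo (w.take e)} with hA
  set e1 := sInf A with he1
  set e2 := sInf {e | e ∈ A ∧ e1 < e} with he2
  set FB : ℕ → Finset ℕ := fun T => (((Finset.range K) ×ˢ (Finset.range K)).filter (fun p =>
        p.1 ≠ p.2 ∧ c p.1 ≤ T + c p.2 ∧ BadT (T + c p.2 - c p.1))).image Prod.fst with hFB
  set FE : Finset ℕ := (Finset.range K).filter (fun k => ∃ k' < K, k' ≠ k ∧ ∃ t,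
    t ≤ w.length ∧ Wo (w.take t) ∧ t + c k' ≤ z + N1 + c k ∧ z + c k ≤ t + N1 + c k') with hFE
  have hsub : (Finset.range K).filter (fun k => Spo Wo z N1 p0 BadT K c w k) ⊆
      FE ∪ (FB (e1 - p0) ∪ FB (e2 - p0)) := by
    intro k hk
    rw [Finset.mem_filter, Finset.mem_range] at hk
    obtain ⟨hk, hs⟩ := hk
    have hck := hc k hk
    obtain ⟨k', hk', hne, e, h1, h2, h3, h4, h5⟩ := spo_cases hw hc hz hpL hk (by omega) hs
    have hck' := hc k' hk'
    rcases h5 with ⟨t, g1, g2, g3, g4⟩ | hB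
    · refine Finset.mem_union_left _ ?_
      rw [hFE, Finset.mem_filter, Finset.mem_range]
      exact ⟨hk, k', hk', hne, t, g1, g2, g3, g4⟩
    · refine Finset.mem_union_right _ ?_
      have heA : e ∈ A := ⟨by omega, h1, h2⟩
      have he1A : e1 ∈ A := Nat.sInf_mem ⟨e, heA⟩
      have he1e : e1 ≤ e := Nat.sInf_le heA
      have hmem : ∀ T, T + p0 = e → k ∈ FB T := by
        intro T hT
        rw [hFB]
        refine Finset.mem_image.2 ⟨(k, k'), ?_, rfl⟩
        rw [Finset.mem_filter, Finset.mem_product, Finset.mem_range, Finset.mem_range]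
        refine ⟨⟨hk, hk'⟩, fun h => hne h.symm, ?_, ?_⟩
        · show c k ≤ T + c k'
          omega
        · show BadT (T + c k' - c k)
          have e : T + c k' - c k = e + c k' - c k - p0 := by omega
          rw [e]
          exact hB
      rcases Nat.lt_or_ge e1 e with hlt | hge
      · refine Finset.mem_union_right _ (hmem _ ?_)
        have he2A : e2 ∈ {e | e ∈ A ∧ e1 < e} := Nat.sInf_mem ⟨e, heA, hlt⟩
        have he2e : e2 ≤ e := Nat.sInf_le ⟨heA, hlt⟩
        have hgap := two_walls hw he1A.2.2 he2A.1.2.2 he2A.2 he2A.1.2.1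
        have h6 : e ≤ e2 := by
          by_contra hcon
          refine h4 e2 ?_ (by omega) he2A.1.2.2
          have := he1A.1
          omega
        have h7 := heA.1
        omega
      · refine Finset.mem_union_left _ (hmem _ ?_)
        have h7 := heA.1
        omega
  have hFEc : FE.card ≤ 1 := by
    rw [Finset.card_le_one]
    intro a ha b hb
    rw [hFE, Finset.mem_filter, Finset.mem_range] at ha hb
    obtain ⟨ha, a', ha', hna, t, t1, t2, t3, t4⟩ := ha
    obtain ⟨hb, b', hb', hnb, s, s1, s2, s3, s4⟩ := hb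
    have q1 := hc a ha
    have q2 := hc a' ha'
    have q3 := hc b hb
    have q4 := hc b' hb'
    have hts : t = s := by
      rcases Nat.lt_trichotomy t s with h | h | h
      · have := two_walls hw t2 s2 h s1
        omega
      · exact h
      · have := two_walls hw s2 t2 h t1
        omega
    subst hts
    by_contra hab
    have := hgol a a' b b' (fun h => hna h.symm) (fun h => hnb h.symm) (fun h => hab h.1)
    rw [lt_abs] at this
    push_cast at this
    omega
  have hFBc : ∀ T, (FB T).card ≤ C0 := fun T => Finset.card_image_le.trans (hspoil T)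
  calc _ ≤ (FE ∪ (FB (e1 - p0) ∪ FB (e2 - p0))).card := Finset.card_le_card hsub
    _ ≤ FE.card + (FB (e1 - p0) ∪ FB (e2 - p0)).card := Finset.card_union_le _ _
    _ ≤ FE.card + ((FB (e1 - p0)).card + (FB (e2 - p0)).card) :=
      Nat.add_le_add_left (Finset.card_union_le _ _) _
    _ ≤ 1 + (C0 + C0) := Nat.add_le_add hFEc (Nat.add_le_add (hFBc _) (hFBc _))

variable {S V : Type*} [Monoid S] [AddCommGroup V]

/-- **(cc2)** -/
theorem cc2 (hw : LW Wo n W) {K L C0 : ℕ} {c : ℕ → ℕ} (hc : ∀ k < K, c k ≤ L)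
    (hz : 2 * L + p0 + n + 2 * N1 < z) (hpL : L ≤ p0) (hW : 2 * L + 2 * N1 ≤ W)
    (hgol : ∀ i j i' j', i ≠ j → i' ≠ j' → ¬ (i = i' ∧ j = j') →
      ((4 * N1 : ℕ) : ℤ) < |((c j : ℤ) - c i) - ((c j' : ℤ) - c i')|)
    (hspoil : ∀ T : ℕ, open Classical in (((Finset.range K) ×ˢ (Finset.range K)).filter
      (fun p => p.1 ≠ p.2 ∧ c p.1 ≤ T + c p.2 ∧ BadT (T + c p.2 - c p.1))).card ≤ C0)
    {act : V → S → V} {φ : α → S} {nu2 nu1 : List α → V}
    {lam2 rho2 : ℕ → List α → Option V}
    (hs2 : ∀ k < K, ∀ (P Q : List α) (v b : V), P.length = c k → lam2 k P = some v →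
      rho2 k Q = some b → b = act v ((P ++ Q).map φ).prod + nu2 (P ++ Q))
    (hc2 : ∀ (u : List α) (v : V), (∀ k < K, c k ≤ u.length) →
      ∃ I : Finset ℕ, 1 + (C0 + C0) + 1 ≤ I.card ∧ ∀ k ∈ I, k < K ∧
        lam2 k (u.take (c k)) = some v ∧ (rho2 k (u.drop (c k))).isSome) :
    ∀ X ∈ Bad Wo z N1 p0 BadT, ∀ X' ∈ Bad Wo z N1 p0 BadT, ∀ v, ∃ P Q, P ++ Q = X ++ X' ∧
      P ∈ LP2 K c lam2 v ∧ ∀ v', ∀ P' ∈ LP2 K c lam2 v',
      (∃ Z ∈ XX Wo z, Z <+: P' ++ Q) ∧ ((∃ Z ∈ Bad Wo z N1 p0 BadT, Z <+: P' ++ Q) →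
        ∃ Z ∈ Bad Wo z N1 p0 BadT, ∃ Z' ∈ Bad Wo z N1 p0 BadT, P' ++ Q = Z ++ Z' ∧
          TT act φ p0 nu2 nu1 (TT act φ p0 nu2 nu1 v' Z) Z' =
            TT act φ p0 nu2 nu1 (TT act φ p0 nu2 nu1 v X) X') := by
  classical
  intro X hX X' hX' v
  have hXl : z ≤ X.length := hX.1.2.1
  have hX'l : z ≤ X'.length := hX'.1.2.1
  have hU : (X.take p0).length = p0 := by rw [List.length_take]; omega
  obtain ⟨I, hI, hI2⟩ := hc2 (X.take p0) v (fun k hk => by have := hc k hk; omega)
  have hsp := spo_card (BadT := BadT) hw hc hz hpL hW hgol hspoil (w := X ++ X')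
    (by rw [List.length_append]; omega)
  obtain ⟨k, hkI, hkS⟩ : ∃ k ∈ I, k ∉ (Finset.range K).filter
      (fun k => Spo Wo z N1 p0 BadT K c (X ++ X') k) := by
    by_contra hcon
    push Not at hcon
    have := Finset.card_le_card (fun k hk => hcon k hk)
    omega
  obtain ⟨hkK, hlam, hrho⟩ := hI2 k hkI
  obtain ⟨b, hb⟩ := Option.isSome_iff_exists.1 hrho
  have hck := hc k hkK
  have hkS' : ¬ Spo Wo z N1 p0 BadT K c (X ++ X') k := by
    intro h
    exact hkS (Finset.mem_filter.2 ⟨Finset.mem_range.2 hkK, h⟩)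
  have et : (X.take p0).take (c k) = X.take (c k) := by
    rw [List.take_take, min_eq_left (by omega)]
  rw [et] at hlam
  have ed : ∀ P' : List α, P'.length = c k →
      (P' ++ X.drop (c k)).take p0 = P' ++ (X.take p0).drop (c k) ∧
      (P' ++ X.drop (c k)).drop p0 = X.drop p0 := by
    intro P' hP'
    constructor
    · rw [List.take_append, List.take_of_length_le (by omega), hP', List.drop_take]
    · rw [List.drop_append, List.drop_eq_nil_of_le (by omega), List.nil_append, hP',
        List.drop_drop]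
      congr 1
      omega
  have val : ∀ (v' : V) (P' : List α), P'.length = c k → lam2 k P' = some v' →
      TT act φ p0 nu2 nu1 v' (P' ++ X.drop (c k)) =
        act b ((X.drop p0).map φ).prod + nu1 (X.drop p0) := by
    intro v' P' h1 h2
    unfold TT
    rw [(ed P' h1).1, (ed P' h1).2, hs2 k hkK _ _ _ _ h1 h2 hb]
  have hPl : (X.take (c k)).length = c k := by rw [List.length_take]; omega
  have hvX := val v (X.take (c k)) hPl hlam
  rw [List.take_append_drop] at hvX
  refine ⟨X.take (c k), X.drop (c k) ++ X', ?_, ⟨k, hkK, hPl, hlam⟩, ?_⟩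
  · rw [← List.append_assoc, List.take_append_drop]
  · rintro v' P' ⟨k', hk'K, hP'l, hlam'⟩
    have hck' := hc k' hk'K
    refine ⟨?_, ?_⟩
    · refine exists_prefix ?_ ?_
      · rw [← List.append_assoc, hw.loc _ _ (by omega)]
        exact hX'.1.1
      · simp only [List.length_append, List.length_drop]
        omega
    · rintro ⟨Z, hZ, hZp⟩
      by_cases hkk : k' = k
      · subst hkk
        have hlen : (X.take (c k')).length = P'.length := by rw [hPl, hP'l]
        have hsame := same_len hw (N1 := N1) (z := z) (P := X.take (c k')) (P' := P')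
          (Q := X.drop (c k')) hlen (by omega)
        rw [List.take_append_drop] at hsame
        have hZl : (P' ++ X.drop (c k')).length = X.length := by
          rw [List.length_append, List.length_drop]; omega
        refine ⟨P' ++ X.drop (c k'), ⟨hsame.1 hX.1, ?_⟩, X', hX', ?_, ?_⟩
        · rcases hX.2 with h | h
          · exact Or.inl (hsame.2 hXl h)
          · right
            rw [hZl]
            exact h
        · rw [List.append_assoc]
        · rw [val v' P' hP'l hlam', hvX]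
      · exfalso
        refine hkS' ⟨k', hk'K, hkk, P', hP'l, Z, hZ, ?_⟩
        rw [List.drop_append_of_le_length (by omega)]
        exact hZp

end Crest.Agent.R320.RowB_982
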