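import Crest.Agent.R320.RowB_982

/-! # Row 320: height one of the block languages (helper982) -/

set_option autoImplicit false

namespace Crest.Agent.R320.RowC_982

open Crest.RegLang Crest.Agent.R320.Hk_851 Crest.Agent.R320.Blk467 Crest.Agent.R320.Top_982
open Crest.Agent.R320.RowA_982 Crest.Agent.R320.FewWalls_228 Crest.Agent.R320.FewVal_228
open Crest.Agent.R320.WallU_228

universe u

variable {α : Type u} {k n z N1 p0 : ℕ} {BadT : ℕ → Prop}

/-- the wall package -/
theorem exists_LW (α : Type u) [Finite α] (W : ℕ) :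
    ∃ (n c P : ℕ) (S : Set (List α)), 0 < n ∧ 0 < P ∧ LW (Wo n S) n W ∧ PerOff n c P S := by
  obtain ⟨n, c, P, S, hn, hP, hS, hsep, hper, -⟩ :=
    Crest.Agent.R320.FewVal_228.exists_walls α (W + 1) (by omega)
  refine ⟨n, c, P, S, hn, hP, ⟨fun P Q h => wo_append P Q h, fun P h => h.1, ?_⟩, hper⟩
  intro Q d hQ hd hdW hT
  have h1 := hQ.1
  have h2 := hT.1
  rw [List.length_take] at h2
  have a1 : Wl n S Q (Q.length - n) := by
    rw [wo_take]
    refine ⟨by omega, ?_⟩
    rw [Nat.sub_add_cancel h1, List.take_length]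
    exact hQ
  have a2 : Wl n S Q (Q.length - d - n) := by
    rw [wo_take]
    refine ⟨by omega, ?_⟩
    rw [Nat.sub_add_cancel (by omega)]
    exact hT
  have := hsep Q _ _ (by omega) a2 a1
  omega

theorem HL_Wo [Finite α] (S : Set (List α)) : HL k ({X | Wo n S X} : Language α) := by
  have h1 : HL k ({v | v.length = n ∧ v ∈ S} : Language α) :=
    HL.finite ((List.finite_length_eq α n).subset fun v h => h.1)
  refine h1.suffix.congr fun w => ?_
  constructor
  · rintro ⟨h1, h2⟩
    exact ⟨w.drop (w.length - n), ⟨by rw [List.length_drop]; omega, h2⟩, List.drop_suffix _ _⟩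
  · rintro ⟨v, ⟨h1, h2⟩, y, rfl⟩
    refine ⟨by rw [List.length_append]; omega, ?_⟩
    rw [List.drop_left']
    · exact h2
    · rw [List.length_append]; omega

theorem HL_XX [Finite α] (S : Set (List α)) : HL k (XX (Wo n S) z : Language α) := by
  let A : Language α := {X | Wo n S X ∧ z ≤ X.length}
  have hA : HL k A := HL.setOf_and (HL_Wo S) (HL.length_ge z)
  let Ln : Language α := {w | 1 ≤ w.length}
  have hLn : HL k Ln := HL.length_ge 1
  let B : Language α := A * Ln
  have hB : HL k B := hA.mul hLn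
  refine (hA.sdiff hB).congr fun w => ?_
  constructor
  · rintro ⟨h1, h2, h3⟩
    refine ⟨⟨h1, h2⟩, ?_⟩
    intro h
    obtain ⟨x, ⟨hx1, hx2⟩, y, hy, rfl⟩ := Language.mem_mul.1 h
    have hy' : 1 ≤ y.length := hy
    refine h3 x.length hx2 (by rw [List.length_append]; omega) ?_
    rw [List.take_left' rfl]
    exact hx1
  · rintro ⟨⟨h1, h2⟩, h3⟩
    refine ⟨h1, h2, ?_⟩
    intro t ht htl hWo
    apply h3
    refine Language.mem_mul.2 ⟨w.take t, ⟨hWo, by rw [List.length_take]; omega⟩, w.drop t, ?_, ?_⟩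
    · show 1 ≤ (w.drop t).length
      rw [List.length_drop]
      omega
    · exact List.take_append_drop t w

/-- **generic height one lemma** -/
theorem HL_fin [Finite α] {c P K m' : ℕ} {Sw : Set (List α)} (hn : 0 < n) (hP : 0 < P)
    (hw0 : ∀ P Q : List α, n ≤ Q.length → (Wo n Sw (P ++ Q) ↔ Wo n Sw Q))
    (hper : PerOff n c P Sw) (hm' : 0 < m') {S : Type*} [Monoid S] [Finite S] (φ : α → S)
    (D : Set (List α)) (hD : HL 1 (D : Language α))
    (hDf : ∀ X ∈ D, ∀ t, K ≤ t → t < X.length → ¬ Wo n Sw (X.take t)) (G : List α → Prop)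
    (hG : ∀ W0 Y Y' : List α, W0.length = K → W0 ++ Y ∈ D → W0 ++ Y' ∈ D →
      (Y.map φ).prod = (Y'.map φ).prod → Y.length % m' = Y'.length % m' →
      G (W0 ++ Y) → G (W0 ++ Y')) :
    HL 1 ({X | X ∈ D ∧ G X} : Language α) := by
  have : NeZero m' := ⟨hm'.ne'⟩
  have : Finite (Multiplicative (ZMod m')) := Finite.of_equiv (ZMod m') Multiplicative.ofAdd
  let ψ : α → S × Multiplicative (ZMod m') := fun a => (φ a, Multiplicative.ofAdd 1)
  have hψ : ∀ Y : List α, (Y.map ψ).prod =
      ((Y.map φ).prod, Multiplicative.ofAdd ((Y.length : ℕ) : ZMod m')) := by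
    intro Y
    induction Y with
    | nil => exact Prod.ext rfl (by simp)
    | cons a Y ih =>
      rw [List.map_cons, List.prod_cons, ih, List.map_cons, List.prod_cons, List.length_cons]
      refine Prod.ext rfl ?_
      show Multiplicative.ofAdd (1 : ZMod m') * Multiplicative.ofAdd ((Y.length : ℕ) : ZMod m') =
        Multiplicative.ofAdd (((Y.length + 1 : ℕ)) : ZMod m')
      rw [← ofAdd_add]
      congr 1
      push_cast
      ring
  have hshort : HL 1 ({X | X.length < K ∧ X ∈ D ∧ G X} : Language α) :=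
    HL.finite ((List.finite_length_lt α K).subset fun v h => h.1)
  let good : List α → S × Multiplicative (ZMod m') → Prop := fun W0 p =>
    ∃ Y, W0 ++ Y ∈ D ∧ (Y.map ψ).prod = p ∧ G (W0 ++ Y)
  let LY : List α → S × Multiplicative (ZMod m') → Language α := fun W0 p =>
    {Y | good W0 p ∧ (W0 ++ Y ∈ D ∧ (nw n Sw Y ≤ 1 ∧ (Y.map ψ).prod = p))}
  have hLY : ∀ W0 p, HL 1 (LY W0 p) := fun W0 p =>
    HL.setOf_and (HL.const (good W0 p)) (HL.setOf_and (HL.lquot W0 hD)
      (Crest.Agent.R320.FewVal_228.HL_few_value hn hP hper 1 ψ p))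
  let LW0 : List α → Language α := fun W0 => {X | ∃ p, X ∈ ({W0} * LY W0 p : Language α)}
  have hLW0 : ∀ W0, HL 1 (LW0 W0) := fun W0 =>
    HL.iUnion (k := 1) (L := fun p => ({W0} * LY W0 p : Language α))
      (fun p => (HL.word W0).mul (hLY W0 p))
  have hlong := HL.biUnion (k := 1) (List.finite_length_eq α K) (L := LW0)
    (fun W0 _ => hLW0 W0)
  refine (HL.setOf_or hshort hlong).congr fun X => ?_
  constructor
  · rintro ⟨hX, hg⟩
    by_cases hl : X.length < K
    · exact Or.inl ⟨hl, hX, hg⟩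
    · right
      push Not at hl
      have hWl : (X.take K).length = K := by rw [List.length_take]; omega
      refine ⟨X.take K, hWl, ((X.drop K).map ψ).prod, ?_⟩
      refine Language.mem_mul.2 ⟨X.take K, rfl, X.drop K, ?_, List.take_append_drop _ _⟩
      refine ⟨⟨X.drop K, ?_, rfl, ?_⟩, ?_, ?_, rfl⟩
      · rw [List.take_append_drop]; exact hX
      · rw [List.take_append_drop]; exact hg
      · rw [List.take_append_drop]; exact hX
      · refine nw_le_one _ ?_
        intro t ht hWo
        rw [List.length_drop] at ht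
        refine hDf X hX (K + t) (by omega) (by omega) ?_
        have e : X.take (K + t) = X.take K ++ (X.drop K).take t := by
          rw [List.take_add]
        rw [e, hw0 _ _ hWo.1]
        exact hWo
  · rintro (⟨_, h⟩ | ⟨W0, hW0, p, hX⟩)
    · exact h
    · obtain ⟨W1, hW1, Y, ⟨⟨Y0, g1, g2, g3⟩, h1, h2, h3⟩, rfl⟩ := Language.mem_mul.1 hX
      have hW1' : W1 = W0 := hW1
      subst hW1'
      refine ⟨h1, ?_⟩
      have e := g2.trans h3.symm
      rw [hψ, hψ, Prod.mk.injEq] at e
      have e2 : ((Y0.length : ℕ) : ZMod m') = ((Y.length : ℕ) : ZMod m') := e.2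
      rw [ZMod.natCast_eq_natCast_iff'] at e2
      exact hG W1 Y0 Y hW0 g1 h1 e.1 e2 g3

variable {S V : Type*} [Monoid S] [Finite S] [AddCommGroup V] [Finite V]

/-- height one of the fibres of blocks -/
theorem HL_blocks [Finite α] {c P m' : ℕ} {Sw : Set (List α)} (hn : 0 < n) (hP : 0 < P)
    (hw0 : ∀ P Q : List α, n ≤ Q.length → (Wo n Sw (P ++ Q) ↔ Wo n Sw Q))
    (hper : PerOff n c P Sw) (hm' : 0 < m') (φ : α → S) (act : V → S → V)
    {nu2 nu1 : List α → V}
    (hnu : ∀ Q Q' : List α, N1 ≤ Q.length → N1 ≤ Q'.length → Q.take N1 = Q'.take N1 →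
      Q.length % m' = Q'.length % m' → ((Q.drop N1).map φ).prod = ((Q'.drop N1).map φ).prod →
      nu1 Q = nu1 Q')
    (hBT : ∀ s t : ℕ, s % m' = t % m' → (BadT s ↔ BadT t)) (v v' : V) :
    HL 1 ({X | X ∈ XX (Wo n Sw) z ∧ TT act φ p0 nu2 nu1 v X = v'} : Language α) ∧
    HL 1 ({X | X ∈ Bad (Wo n Sw) z N1 p0 BadT ∧ TT act φ p0 nu2 nu1 v X = v'} :
      Language α) := by
  set K := z + p0 + N1 with hK
  have hTT : ∀ W0 Y Y' : List α, W0.length = K → (Y.map φ).prod = (Y'.map φ).prod →
      Y.length % m' = Y'.length % m' →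
      TT act φ p0 nu2 nu1 v (W0 ++ Y) = TT act φ p0 nu2 nu1 v (W0 ++ Y') := by
    intro W0 Y Y' hW e1 e2
    have hmod : ∀ a : ℕ, (a + Y.length) % m' = (a + Y'.length) % m' := fun a =>
      Nat.ModEq.add_left a e2
    unfold TT
    rw [List.take_append_of_le_length (by omega), List.take_append_of_le_length (by omega),
      List.drop_append_of_le_length (by omega), List.drop_append_of_le_length (by omega)]
    have hdl : (W0.drop p0).length = z + N1 := by rw [List.length_drop]; omega
    have h1 : ((W0.drop p0 ++ Y).map φ).prod = ((W0.drop p0 ++ Y').map φ).prod := by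
      rw [List.map_append, List.prod_append, e1, List.map_append, List.prod_append]
    have h2 : nu1 (W0.drop p0 ++ Y) = nu1 (W0.drop p0 ++ Y') := by
      refine hnu _ _ (by rw [List.length_append]; omega) (by rw [List.length_append]; omega)
        ?_ ?_ ?_
      · rw [List.take_append_of_le_length (by omega), List.take_append_of_le_length (by omega)]
      · rw [List.length_append, List.length_append]
        exact hmod _
      · rw [List.drop_append_of_le_length (by omega), List.drop_append_of_le_length (by omega),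
          List.map_append, List.prod_append, e1, List.map_append, List.prod_append]
    rw [h1, h2]
  have hEE : ∀ W0 Y Y' : List α, W0.length = K → EE (Wo n Sw) z N1 (W0 ++ Y) →
      EE (Wo n Sw) z N1 (W0 ++ Y') := by
    rintro W0 Y Y' hW ⟨t, h1, h2, h3, h4⟩
    refine ⟨t, by rw [List.length_append]; omega, ?_, h3, h4⟩
    rw [List.take_append_of_le_length (by omega)] at h2 ⊢
    exact h2
  have hB : ∀ W0 Y Y' : List α, W0.length = K → Y.length % m' = Y'.length % m' →
      BadT ((W0 ++ Y).length - p0) → BadT ((W0 ++ Y').length - p0) := by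
    intro W0 Y Y' hW e2 h
    refine (hBT _ _ ?_).1 h
    rw [List.length_append, List.length_append]
    have e3 : W0.length + Y.length - p0 = (W0.length - p0) + Y.length := by omega
    have e4 : W0.length + Y'.length - p0 = (W0.length - p0) + Y'.length := by omega
    rw [e3, e4]
    exact Nat.ModEq.add_left _ e2
  have hDf : ∀ X ∈ XX (Wo n Sw) z, ∀ t, K ≤ t → t < X.length → ¬ Wo n Sw (X.take t) :=
    fun X hX t ht htl => hX.2.2 t (by omega) htl
  constructor
  · refine HL_fin (K := K) hn hP hw0 hper hm' φ _ (HL_XX Sw) hDf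
      (fun X => TT act φ p0 nu2 nu1 v X = v') ?_
    intro W0 Y Y' hW _ _ e1 e2 h
    rw [← hTT W0 Y Y' hW e1 e2]
    exact h
  · have := HL_fin (K := K) hn hP hw0 hper hm' φ (XX (Wo n Sw) z) (HL_XX Sw) hDf
      (fun X => (EE (Wo n Sw) z N1 X ∨ BadT (X.length - p0)) ∧
        TT act φ p0 nu2 nu1 v X = v') ?_
    · refine this.congr fun X => ?_
      constructor
      · rintro ⟨⟨h1, h2⟩, h3⟩
        exact ⟨h1, h2, h3⟩
      · rintro ⟨h1, h2, h3⟩
        exact ⟨⟨h1, h2⟩, h3⟩
    · rintro W0 Y Y' hW _ _ e1 e2 ⟨h, h'⟩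
      refine ⟨h.imp (hEE W0 Y Y' hW) (hB W0 Y Y' hW e2), ?_⟩
      rw [← hTT W0 Y Y' hW e1 e2]
      exact h'

/-- the tail -/
theorem HL_tail [Finite α] {c P : ℕ} {Sw : Set (List α)} (hn : 0 < n) (hP : 0 < P)
    (hw0 : ∀ P Q : List α, n ≤ Q.length → (Wo n Sw (P ++ Q) ↔ Wo n Sw Q))
    (hper : PerOff n c P Sw) (φ : α → S) (s : S) :
    HL 1 ({w | (∀ X ∈ XX (Wo n Sw) z, ¬ X <+: w) ∧ (w.map φ).prod = s} : Language α) := by
  have hD : HL 1 ({w | ∀ X ∈ XX (Wo n Sw) z, ¬ X <+: w} : Language α) := by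
    refine (HL.setOf_not (HL.prefix (HL_XX (k := 1) (n := n) (z := z) Sw))).congr fun w => ?_
    constructor
    · rintro h ⟨X, hX, hp⟩
      exact h X hX hp
    · intro h X hX hp
      exact h ⟨X, hX, hp⟩
  refine HL_fin (K := z) (m' := 1) hn hP hw0 hper one_pos φ
    {w | ∀ X ∈ XX (Wo n Sw) z, ¬ X <+: w} hD ?_ (fun w => (w.map φ).prod = s) ?_
  · intro X hX t ht htl hWo
    obtain ⟨Z, hZ, hp⟩ := exists_prefix (z := z) hWo (by rw [List.length_take]; omega)
    exact hX Z hZ (hp.trans (List.take_prefix _ _))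
  · intro W0 Y Y' _ _ _ e1 _ h
    have h' : ((W0 ++ Y).map φ).prod = s := h
    show ((W0 ++ Y').map φ).prod = s
    rw [List.map_append, List.prod_append] at h' ⊢
    rw [← e1]
    exact h'

end Crest.Agent.R320.RowC_982
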