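import Crest.Agent.R320.RowC_982
import Crest.Agent.R320.ExactR_237
import Crest.Agent.R320.Sp_597

/-! # Row 320: assembly from the digit gadget (helper982) -/

set_option autoImplicit false

namespace Crest.Agent.R320.RowD_982

open Crest.RegLang Crest.Agent.R320.Hk_851 Crest.Agent.R320.Blk467 Crest.Agent.R320.Top_982
open Crest.Agent.R320.RowA_982 Crest.Agent.R320.RowB_982 Crest.Agent.R320.RowC_982
open Crest.Agent.R320.WallU_228

/-- the digit gadget, literal of #13673 -/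
def G1 (S V : Type) [Monoid S] [AddCommGroup V] (act : V → S → V) : Prop :=
  ∃ m r : ℕ, ∀ Bd : ℕ, ∃ (Ms : Finset ℕ) (M : ℕ), Ms.card ≤ r ∧
    (∀ k ∈ Ms, Bd < k ∧ k.Prime ∧ k ∣ M) ∧ 0 < M ∧
    ∀ b : ℕ, 4 * M + 4 < b → Nat.Coprime b M → ∀ (A : Type) (f : A → S),
      ∃ (lam rho : List A → Option V) (nu : List A → V),
        (∀ P v, lam P = some v → P.length < b ^ m) ∧
        (∀ P Q v v', lam P = some v → rho Q = some v' →
          v' = act v ((P ++ Q).map f).prod + nu (P ++ Q)) ∧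
        (∀ X, (∀ k ∈ Ms, ¬ k ∣ X.length) →
          (∀ j < m, M ≤ X.length / b ^ j % b ∧ X.length / b ^ j % b + M + 1 ≤ b) →
          ∀ v, ∃ P Q, P ++ Q = X ∧ lam P = some v ∧ (rho Q).isSome) ∧
        (∀ Q Q', b ^ m ≤ Q.length → b ^ m ≤ Q'.length → Q.take (b ^ m) = Q'.take (b ^ m) →
          Q.length % (M * b ^ m) = Q'.length % (M * b ^ m) →
          ((Q.drop (b ^ m)).map f).prod = ((Q'.drop (b ^ m)).map f).prod →
          rho Q = rho Q' ∧ nu Q = nu Q')

theorem bad_periodic (Ms : Finset ℕ) (M b m : ℕ) (hMs : ∀ k ∈ Ms, k ∣ M) (s t : ℕ)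
    (h : s % (M * b ^ m) = t % (M * b ^ m)) : Sp_597.Bad Ms M b m s ↔ Sp_597.Bad Ms M b m t := by
  have hmod : s ≡ t [MOD M * b ^ m] := h
  have h1 : ∀ k ∈ Ms, (k ∣ s ↔ k ∣ t) := fun k hk =>
    hmod.dvd_iff ((hMs k hk).trans (Dvd.intro _ rfl))
  have h2 : ∀ j < m, s / b ^ j % b = t / b ^ j % b := by
    intro j hj
    have hd : b ^ j * b ∣ M * b ^ m := by
      rw [← pow_succ]
      exact Dvd.dvd.mul_left (pow_dvd_pow b hj) M
    have h3 : s % (b ^ j * b) = t % (b ^ j * b) := hmod.of_dvd hd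
    rw [← Nat.mod_mul_right_div_self, ← Nat.mod_mul_right_div_self, h3]
  unfold Sp_597.Bad
  constructor
  · rintro (⟨k, hk, h⟩ | ⟨j, hj, h⟩)
    · exact Or.inl ⟨k, hk, (h1 k hk).1 h⟩
    · exact Or.inr ⟨j, hj, by rw [← h2 j hj]; exact h⟩
  · rintro (⟨k, hk, h⟩ | ⟨j, hj, h⟩)
    · exact Or.inl ⟨k, hk, (h1 k hk).2 h⟩
    · exact Or.inr ⟨j, hj, by rw [h2 j hj]; exact h⟩

theorem assembly {α : Type} [Finite α] {S : Type} [Monoid S] [Finite S] (φ : α → S)
    (hG : ∀ act : (S → ZMod 2) → S → (S → ZMod 2), G1 S (S → ZMod 2) act) (s : S) :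
    HL 3 ({w | (w.map φ).prod = s} : Language α) := by
  classical
  have : Fintype S := Fintype.ofFinite S
  obtain ⟨act, hadd, hone, hmul, hfaith⟩ := Blk467.exists_module S
  obtain ⟨m, r, H⟩ := hG act
  set C0 := r + m with hC0
  obtain ⟨K, HK⟩ := ExactR_237.exact_gadget α S (S → ZMod 2) φ act (1 + (C0 + C0) + 1)
  obtain ⟨Ms, M, hcard, hMs, hM, H⟩ := H (4 ^ K)
  set b := M * (4 * 2 ^ K + 8) + 1 with hb
  have hb1 : 4 * M + 4 < b := by
    have : 1 ≤ M * 2 ^ K := Nat.succ_le_of_lt (by positivity)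
    rw [hb]; nlinarith
  have hb2 : 4 * M * 2 ^ K + 2 * M + 4 ≤ b := by
    rw [hb]; nlinarith
  have hco : Nat.Coprime b M := by
    rw [hb, Nat.coprime_mul_left_add_left]
    exact Nat.coprime_one_left M
  obtain ⟨lam, rho, nu1, hlam, hsound, hcompl, hfs⟩ := H b hb1 hco α φ
  set N1 := b ^ m with hN1
  obtain ⟨c, hmono, hc4, hgol, hspoil⟩ := Sp_597.spoil_nat K m Ms M b hM
    (fun k hk => ⟨(hMs k hk).1, (hMs k hk).2.2⟩) hb2 hco N1
  set L := c K with hL
  have hc : ∀ k < K, c k ≤ L := fun k hk => (hmono hk).le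
  obtain ⟨lam2, rho2, nu2, hs2, hc2⟩ := HK c (fun i j hij _ => hmono hij)
  obtain ⟨n, cc, P, Sw, hn, hP, hLW, hper⟩ := RowC_982.exists_LW α (2 * L + 2 * N1)
  set z := 2 * L + L + n + 2 * N1 + 1 with hz
  have hm' : 0 < M * b ^ m := Nat.mul_pos hM (Nat.pow_pos (by omega))
  have hblk := fun v v' => RowC_982.HL_blocks (N1 := N1) (z := z) (p0 := L)
    (BadT := Sp_597.Bad Ms M b m) hn hP hLW.loc hper hm' φ act
    (nu2 := fun u => nu2 u 1) (nu1 := nu1)
    (fun Q Q' h1 h2 h3 h4 h5 => (hfs Q Q' h1 h2 h3 h4 h5).2)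
    (bad_periodic Ms M b m (fun k hk => (hMs k hk).2.2)) v v'
  refine Top_982.top_block (k := 1) act hadd hone hmul hfaith φ
    (fun X => act (nu2 (X.take L) 1) ((X.drop L).map φ).prod + nu1 (X.drop L))
    (XX := XX (Wo n Sw) z) (Bad := Bad (Wo n Sw) z N1 L (Sp_597.Bad Ms M b m))
    Bad_le (pcode (by omega)) (T := TT act φ L (fun u => nu2 u 1) nu1)
    (fun v X => TT_eq hadd hmul φ L _ nu1 v X)
    (LP1 act φ L (fun u => nu2 u 1) lam) (LP2 K c lam2)
    (fun v => LP1_finite (N1 := N1) hlam v) (fun v => LP2_finite hc v) ?_ ?_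
    (fun v v' => (hblk v v').1) (fun v v' => (hblk v v').2)
    (fun s => HL.mono (by omega) (RowC_982.HL_tail hn hP hLW.loc hper φ s)) s
  · refine cc1 hLW hlam hsound ?_ (by omega)
    intro X hX v
    refine hcompl X ?_ ?_ v
    · intro k hk hd
      exact hX (Or.inl ⟨k, hk, hd⟩)
    · intro j hj
      by_contra hcon
      exact hX (Or.inr ⟨j, hj, hcon⟩)
  · refine cc2 (C0 := C0) (rho2 := fun k Q => rho2 k Q 1) hLW hc (by omega) le_rfl le_rfl hgol ?_
      ?_ ?_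
    · intro T
      exact (hspoil T).trans (Nat.add_le_add_right hcard m)
    · intro k hk P Q v b hPl h1 h2
      have := hs2 k hk P Q 1 v b hPl h1 h2
      rw [mul_one] at this
      exact this
    · intro u v hu
      exact hc2 u 1 v hu

end Crest.Agent.R320.RowD_982
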