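import Crest.Agent.R320.End_532
import Crest.Agent.R320.G1Loc_808
import Crest.Agent.R320.Sp_21
import Crest.Agent.R320.ExactR_237
import Crest.Agent.R320.LWallAll_922
import Crest.Agent.R320.P4_933
import Crest.Agent.R320.RegCongr_253
import Crest.Agent.R320.Names_727
import Crest.Agent.R320.Two_621
import Crest.Agent.R320.Fin_869

/-!
# Row 320: constants and join (helper194)
-/

set_option autoImplicit false

namespace Crest.Agent.R320.Row_194

open Crest.RegLang Crest.Agent.R320.Hk_851 Crest.Agent.R320.BddReg_746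

/-- 922's form of wall-free words lies in `PN`. -/
theorem mem_PN {α : Type} {B W : ℕ} {u x v X : List α} {k : ℕ} (hu : u.length ≤ B)
    (hx : x.length ≤ W) (hv : v.length ≤ B) (hX : X = u ++ (List.replicate k x).flatten ++ v) :
    X ∈ (PN (B + W) 2 : Language α) := by
  refine Language.mem_mul.2 ⟨u ++ pw x k, ⟨u, x, k, by omega, by omega, rfl⟩, v, ?_, ?_⟩
  · refine Language.mem_mul.2 ⟨v ++ pw [] 0, ⟨v, [], 0, by omega, by simp, rfl⟩, [], ?_, by simp⟩
    exact Language.nil_mem_one
  · rw [hX]; rfl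

theorem reg_prod {α S : Type} [Finite α] [Monoid S] [Finite S] (f : α → S) (s : S) :
    Language.IsRegular ({w | (w.map f).prod = s} : Language α) := by
  refine RegCongr_253.regular_of_congr f 0 1 one_pos _ ?_
  intro q q' _ _ _ _ h hq
  simp only [List.drop_zero] at h
  change (q'.map f).prod = s
  rw [← h]; exact hq

theorem fibres (α S : Type) [Finite α] [Monoid S] [Finite S] (φ : α → S) (s : S) :
    HL 3 ({w | (w.map φ).prod = s} : Language α) := by
  classical
  letI : Fintype S := Fintype.ofFinite S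
  letI : Fintype (Two_621.Tok S) := Fintype.ofFinite _
  obtain ⟨m, kk, hG⟩ := G1Loc_808.gadget_loc S (Two_621.Tok S) Two_621.act
  obtain ⟨K, hK⟩ := ExactR_237.exact_gadget α S (Two_621.Tok S) φ Two_621.act
    (2 * (kk + m) + 2)
  obtain ⟨q, hqi, hqp, hqB⟩ := Names_727.exists_primes (ι := Fin kk) (2 ^ (K + 1) + 2)
  have hqcop : Pairwise (fun i j => Nat.Coprime (q i) (q j)) := fun i j hij =>
    (Nat.coprime_primes (hqp i) (hqp j)).2 fun h => hij (hqi h)
  have hqodd : ∀ j, Odd (q j) := fun j => (hqp j).odd_of_ne_two (by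
    have := hqB j
    have h0 : 0 < 2 ^ (K + 1) := by positivity
    omega)
  obtain ⟨M, hMdef⟩ : ∃ M, M = ∏ j, q j := ⟨_, rfl⟩
  have hM : 0 < M := by rw [hMdef]; exact Finset.prod_pos fun j _ => (hqp j).pos
  have hdvd : ∀ j, q j ∣ M := fun j => by rw [hMdef]; exact Finset.dvd_prod_of_mem q (Finset.mem_univ j)
  obtain ⟨b, hb⟩ : ∃ b, b = (2 ^ (K + 4) + 10) * M + 1 := ⟨_, rfl⟩
  have hbM : Nat.Coprime b M := by
    rw [hb, Nat.coprime_mul_right_add_left]
    exact Nat.coprime_one_left M
  have hb1 : 4 * M + 4 < b := by rw [hb]; nlinarith [Nat.one_le_two_pow (n := K + 4)]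
  have hb2 : (2 ^ (K + 4) + 2) * M < b := by rw [hb]; nlinarith
  have hbq : ∀ j, Nat.Coprime b (q j) := fun j => Nat.Coprime.coprime_dvd_right (hdvd j) hbM
  obtain ⟨lam, rho, nu1, hlam, hsound, hcomp, hloc⟩ := hG q hqodd hqcop b (by rw [← hMdef]; exact hb1)
    hbq α (fun u => (u.map φ).prod) (fun u v => by simp)
  rw [← hMdef] at hcomp hloc
  obtain ⟨N1, hN1def⟩ : ∃ N1, N1 = b ^ m := ⟨_, rfl⟩
  have hN1 : 0 < N1 := by rw [hN1def]; exact Nat.pow_pos (by omega)
  obtain ⟨Ms, hMs⟩ : ∃ Ms : Finset ℕ, Ms = Finset.univ.image q := ⟨_, rfl⟩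
  have hMscard : Ms.card ≤ kk := by
    rw [hMs]; refine Finset.card_image_le.trans ?_
    simp
  obtain ⟨c, hc1, hc2, hc3⟩ := Sp_21.spoil K N1 m M b Ms hM (by
      intro k hk
      rw [hMs, Finset.mem_image] at hk
      obtain ⟨j, -, rfl⟩ := hk
      exact ⟨hdvd j, by have := hqB j; omega⟩) hbM hb2
  have hcmono : ∀ i j, i < j → c i < c j := fun i j h => by have := hc1 i j h; omega
  obtain ⟨lam2, rho2, nu2, h2s, h2c⟩ := hK c (fun i j h _ => hcmono i j h)
  obtain ⟨p0, hp0⟩ : ∃ p0, p0 = c K := ⟨_, rfl⟩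
  have hcp : ∀ k, k < K → c k ≤ p0 := fun k hk => by rw [hp0]; exact (hcmono k K hk).le
  obtain ⟨n, G, B, Wo, hLW, hgap, -, -, hfree⟩ :=
    LWallAll_922.walls_all_left α (2 * p0 + 2 * N1) (by omega)
  have hlocW : ∀ P Q : List α, n ≤ Q.length → (Wo (P ++ Q) ↔ Wo Q) := hLW.app
  have hlenW : ∀ P : List α, Wo P → n ≤ P.length := hLW.len
  let g : Sc2n_937.Geo α :=
    { Wo := Wo, n := n, z := p0 + N1 + (n + 2 * p0), p0 := p0, q0 := n + 2 * p0, N1 := N1
      loc := hlocW, hz := rfl, hq := by omega, hN := hN1, hqp := by omega }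
  have hfreePN : ∀ u : List α, (∀ t < u.length, ¬ Wo (u.take t)) →
      u ∈ (PN (B + (2 * p0 + 2 * N1)) 2 : Language α) := by
    intro u hu
    obtain ⟨a, x, v, k, h1, h2, h3, h4⟩ := hfree u hu
    exact mem_PN h1 h2 h3 h4
  have hXX : ∀ X, g.XX X ↔ P4_933.XX Wo g.z X := by
    intro X
    constructor
    · rintro ⟨h1, h2, h3⟩
      exact ⟨h2, h1, fun t ht hz => h3 t hz ht⟩
    · rintro ⟨h1, h2, h3⟩
      exact ⟨h2, h1, fun t hz ht => h3 t ht hz⟩
  refine End_532.joint Two_621.act Two_621.act_add Two_621.act_one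
    (fun v s t => (Two_621.act_mul v s t).symm)
    (fun s t h => Two_621.act_faithful h) φ g nu1 (fun u => nu2 u 1) K c lam rho lam2
    (fun k Q => rho2 k Q 1) (Sp_21.Bad m M b Ms) (kk + m)
    ?_ ?_ ?_ hcp ?_ ?_ ?_ ?_ ?_ ?_ ?_ ?_ s
  · -- hlen
    intro P v h
    have := hlam P v h
    change P.length ≤ N1
    omega
  · -- hex
    intro P Q u b' h1 h2
    exact hsound P Q u b' h1 h2
  · -- hc1
    intro Y hY hB u
    refine hcomp Y ?_ ?_ u
    · intro j hj
      refine hB (Or.inl ⟨q j, ?_, hj⟩)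
      rw [hMs]; exact Finset.mem_image_of_mem q (Finset.mem_univ j)
    · intro j hj
      by_contra hcon
      refine hB (Or.inr ⟨j, hj, fun h => hcon ⟨h.1, by have := h.2; omega⟩⟩)
  · -- hex2
    intro k hk P Q v u hP hQ hl hr
    have := h2s k hk P Q 1 v u hP hl hr
    rw [mul_one] at this
    exact this
  · -- hgap
    intro P Q hP hPQ hne
    have hQ : 0 < Q.length := List.length_pos_iff.2 hne
    have := hgap (P ++ Q) P.length (P ++ Q).length (by simp; exact hQ) le_rfl
      (by rw [List.take_left]; exact hP) (by rw [List.take_length]; exact hPQ)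
    rw [List.length_append] at this
    change 2 * p0 + 2 * N1 < Q.length
    omega
  · -- hsp
    intro k k' l l' _ _ _ _ hk hl h1 h2
    by_contra hne
    change c k + c l' < c l + c k' + 2 * N1 at h1
    change c l + c k' < c k + c l' + 2 * N1 at h2
    have := hc2 k k' l l' (Ne.symm hk) (Ne.symm hl) (fun h => hne (Prod.ext_iff.1 h).1)
    omega
  · -- hthin
    intro τ hτ J hJ
    change p0 + N1 + (n + 2 * p0) ≤ τ + p0 at hτ
    choose! k' hk' using fun k hk => (hJ k hk).2
    have hcard : (J.image fun k => (k, k' k)).card = J.card :=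
      Finset.card_image_of_injective _ fun a b h => (Prod.ext_iff.1 h).1
    rw [← hcard]
    refine (hc3 (τ - p0) (fun i hi => by have := hcp i hi; omega) _ ?_).trans
      (Nat.add_le_add_right hMscard m)
    intro p hp
    rw [Finset.mem_image] at hp
    obtain ⟨k, hk, rfl⟩ := hp
    obtain ⟨h1, h2, h3⟩ := hk' k hk
    refine ⟨(hJ k hk).1, h1, Ne.symm h2, ?_⟩
    change Sp_21.Bad m M b Ms (τ + c (k' k) - c k - p0) at h3
    change Sp_21.Bad m M b Ms (τ - p0 + c (k' k) - c k)
    have e : τ - p0 + c (k' k) - c k = τ + c (k' k) - c k - p0 := by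
      have := hcp k (hJ k hk).1
      omega
    rw [e]; exact h3
  · -- hI
    intro X0 v hX0
    obtain ⟨I, hI1, hI2⟩ := h2c X0 1 v (fun k hk => by rw [hX0]; exact hcp k hk)
    exact ⟨I, hI1, hI2⟩
  · -- hz0
    change 0 < p0 + N1 + (n + 2 * p0)
    omega
  · -- hfib
    intro x y
    have hreg : Language.IsRegular ({X | Two_621.act (Two_621.act x ((X.take p0).map φ).prod +
        nu2 (X.take p0) 1) ((X.drop p0).map φ).prod + nu1 (X.drop p0) = y} : Language α) := by
      refine RegCongr_253.regular_of_congr φ (p0 + b ^ m) (b ^ m * M)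
        (Nat.mul_pos (Nat.pow_pos (by omega)) hM) _ ?_
      intro X X' hX hX' ht hl hd hmem
      have e1 : X.take p0 = X'.take p0 := by
        have := congrArg (List.take p0) ht
        rwa [List.take_take, List.take_take, Nat.min_eq_left (by omega)] at this
      have e2 : (X.drop p0).take (b ^ m) = (X'.drop p0).take (b ^ m) := by
        have := congrArg (List.drop p0) ht
        rwa [List.drop_take, List.drop_take, Nat.add_sub_cancel_left] at this
      have e3 : (((X.drop p0).drop (b ^ m)).map φ).prod = (((X'.drop p0).drop (b ^ m)).map φ).prod := by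
        rw [List.drop_drop, List.drop_drop]; exact hd
      have e4 : (X.drop p0).length % (b ^ m * M) = (X'.drop p0).length % (b ^ m * M) := by
        rw [List.length_drop, List.length_drop]
        have h1 : p0 ≤ X.length := by omega
        have h2 : p0 ≤ X'.length := by omega
        exact Nat.ModEq.add_right_cancel' p0 (by
          rw [Nat.sub_add_cancel h1, Nat.sub_add_cancel h2]; exact hl)
      have e5 := (hloc (X.drop p0) (X'.drop p0) e2 e3 e4).2
      have e6 : ((X.drop p0).map φ).prod = ((X'.drop p0).map φ).prod := by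
        rw [← List.take_append_drop (b ^ m) (X.drop p0), List.map_append, List.prod_append, e2, e3,
          ← List.prod_append, ← List.map_append, List.take_append_drop]
      change Two_621.act (Two_621.act x ((X'.take p0).map φ).prod +
        nu2 (X'.take p0) 1) ((X'.drop p0).map φ).prod + nu1 (X'.drop p0) = y
      rw [← e1, ← e6, ← e5]
      exact hmem
    refine (P4_933.hl_XX (z := g.z) hlocW hlenW hfreePN hreg).congr fun X => ?_
    exact and_congr_left fun _ => hXX X
  · -- htail
    intro t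
    refine HL.mono (by norm_num) ((P4_933.hl_NB (z := g.z) hlocW hlenW hfreePN
      (reg_prod φ t)).congr fun w => ?_)
    refine and_congr_left fun _ => ?_
    rw [P4_933.NB_iff]
    constructor
    · intro h P hp hX
      exact h P ((hXX P).2 hX) hp
    · intro h X hX hp
      exact h X hp ((hXX X).1 hX)

theorem row (α : Type*) [Finite α] (L : Language α) (hL : L.IsRegular) :
    ∃ e : Crest.RegLang.GRegExp α, e.height ≤ 3 ∧ e.lang = L :=
  Fin_869.template (fun n S _ _ f s => fibres (Fin n) S f s) α L hL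

end Crest.Agent.R320.Row_194
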