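import Crest.Agent.R320.Hgt1_903

/-!
Row 320, item (11), the top of the proof: every regular language is a finite union of classes
`{w | (w.map φ).prod = s}` of a finite monoid `S : Type`; hence it is enough to prove `H n` for
those classes.  Then a second reduction: it is enough to treat words through a letter-to-letter
map (finite alphabets `Fin k`), and boundary words / short words are free.
-/

set_option autoImplicit false

namespace Crest.Agent.R320.Top_835

open Crest.RegLang Crest.Agent.R320.Hgt1_903

universe u v

/-- The class of `s : S` under the letter map `φ`. -/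
def Cls {α : Type u} {S : Type v} [Monoid S] (φ : α → S) (s : S) : Language α :=
  {w | (w.map φ).prod = s}

theorem mem_Cls {α : Type u} {S : Type v} [Monoid S] {φ : α → S} {s : S} {w : List α} :
    w ∈ Cls φ s ↔ (w.map φ).prod = s := Iff.rfl

/-- `H n` for all classes of a finite monoid, letters in `α`. -/
def AllCls (n : ℕ) (α : Type u) : Prop :=
  ∀ (S : Type) [Monoid S] [Finite S] (φ : α → S) (s : S), H n (Cls φ s)

/-- Letter action of a DFA, as an element of the opposite endomorphism monoid. -/
def act {α : Type u} {σ : Type v} (M : DFA α σ) (a : α) : (Function.End σ)ᵐᵒᵖ :=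
  MulOpposite.op (fun q => M.step q a : Function.End σ)

theorem evalFrom_eq {α : Type u} {σ : Type v} (M : DFA α σ) (w : List α) (q : σ) :
    M.evalFrom q w = MulOpposite.unop ((w.map (act M)).prod) q := by
  induction w generalizing q with
  | nil => rfl
  | cons a w ih =>
    rw [List.map_cons, List.prod_cons, MulOpposite.unop_mul]
    change M.evalFrom (M.step q a) w = _
    rw [ih]
    rfl

/-- The first reduction: classes of finite monoids are enough. -/
theorem of_allCls {n : ℕ} {α : Type u} (h : AllCls n α) (L : Language α) (hL : L.IsRegular) :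
    ∃ e : GRegExp α, e.height ≤ n ∧ e.lang = L := by
  obtain ⟨σ, hσ, M, rfl⟩ := hL
  classical
  have hf : Finite (Function.End σ) := inferInstanceAs (Finite (σ → σ))
  have hf' : Finite (Function.End σ)ᵐᵒᵖ := Finite.of_equiv _ MulOpposite.opEquiv
  have h1 : H n ({w | ∃ s : (Function.End σ)ᵐᵒᵖ, w ∈
      ({w | w ∈ Cls (act M) s ∧
        w ∈ ({_w | MulOpposite.unop s M.start ∈ M.accept} : Language α)} : Language α)} :
        Language α) :=
    H.exists_fintype _ fun s => H.inter (h _ _ _) (H.const _ _)
  refine H.congr h1 fun w => ?_
  change (∃ s : (Function.End σ)ᵐᵒᵖ, (w.map (act M)).prod = s ∧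
    MulOpposite.unop s M.start ∈ M.accept) ↔ M.evalFrom M.start w ∈ M.accept
  rw [evalFrom_eq]
  constructor
  · rintro ⟨s, rfl, h2⟩; exact h2
  · intro h2; exact ⟨_, rfl, h2⟩

end Crest.Agent.R320.Top_835
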