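import Crest.Agent.R320.Spoil_374
import Crest.Agent.R320.Top5_120
import Crest.Agent.R320.Fib_854
import Crest.Agent.R320.LWallAll_922
import Crest.Agent.R320.ExactR_237
import Crest.Agent.R320.Sp_597
import Crest.Agent.R320.G1_256
import Crest.Agent.R320.Top_835

/-!
# R320 / Row_374: assembly of row 320

Top5_120.top5 (semantic right legality) + Inst_374 (hcc1, hcc2) + Spoil_374 + G1_256.g1 (852's digit
gadget) + ExactR_237.exact_gadget + Sp_597.spoil (ruler) + LWallAll_922.walls_all_left (813's walls)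
+ Fib_854 (height one of the block languages) + Top_835 (reduction to monoids).
-/

set_option autoImplicit false

namespace Crest.Agent.R320.Row_374

open Finset Crest.RegLang Crest.Agent.R320.Hk_851 Crest.Agent.R320.Inst_374

universe u

/-- The bad lengths only depend on the length modulo `M * b ^ m`. -/
theorem bad_mod (Ms : Finset ℕ) (M b m : ℕ) (hMs : ∀ k ∈ Ms, k ∣ M) (n n' : ℕ)
    (h : n % (M * b ^ m) = n' % (M * b ^ m)) :
    Sp_597.Bad Ms M b m n → Sp_597.Bad Ms M b m n' := by
  have hk : ∀ d : ℕ, d ∣ M * b ^ m → n % d = n' % d := by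
    intro d hd
    rw [← Nat.mod_mod_of_dvd n hd, ← Nat.mod_mod_of_dvd n' hd, h]
  rintro (⟨k, hk1, hk2⟩ | ⟨j, hj, hbad⟩)
  · left
    refine ⟨k, hk1, ?_⟩
    have h1 := hk k (Dvd.dvd.mul_right (hMs k hk1) _)
    rw [Nat.dvd_iff_mod_eq_zero] at hk2 ⊢
    rw [← h1, hk2]
  · right
    refine ⟨j, hj, ?_⟩
    have h1 := hk (b ^ j * b) (by
      rw [← pow_succ]
      exact Dvd.dvd.mul_left (pow_dvd_pow b hj) _)
    have h2 : n / b ^ j % b = n' / b ^ j % b := by
      rw [← Nat.mod_mul_right_div_self, ← Nat.mod_mul_right_div_self, h1]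
    rw [← h2]
    exact hbad

theorem mod_sub (n n' p N : ℕ) (h1 : p ≤ n) (h2 : p ≤ n') (h : n % N = n' % N) :
    (n - p) % N = (n' - p) % N := by
  have h3 : n ≡ n' [MOD N] := h
  have h4 : (n - p) + p ≡ (n' - p) + p [MOD N] := by
    rw [Nat.sub_add_cancel h1, Nat.sub_add_cancel h2]; exact h3
  exact Nat.ModEq.add_right_cancel' p h4

theorem row {α : Type u} [Finite α] [Nonempty α] (S : Type) [Monoid S] [Finite S] (φ : α → S)
    (s : S) : HL 3 ({w | (w.map φ).prod = s} : Language α) := by
  classical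
  have : Fintype S := Fintype.ofFinite S
  let V : Type := S → ZMod 2
  let act : V → S → V := fun v s x => v (s * x)
  have hadd : ∀ a b s, act (a + b) s = act a s + act b s := fun a b s => rfl
  have hone : ∀ v, act v 1 = v := fun v => by
    funext x; simp [act]
  have hmul : ∀ v s t, act v (s * t) = act (act v s) t := fun v s t => by
    funext x; simp [act, mul_assoc]
  have hfaith : ∀ s t, (∀ v, act v s = act v t) → s = t := by
    intro s t h
    have h1 := congrFun (h (fun x => if x = s then 1 else 0)) 1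
    simp only [act, mul_one] at h1
    by_contra hne
    have hne' : ¬ t = s := fun h => hne h.symm
    simp [hne'] at h1
  obtain ⟨nn, ⟨e⟩⟩ := Finite.exists_equiv_fin α
  let fe : Fin nn → S := fun i => φ (e.symm i)
  have hmap : ∀ P : List α, ((P.map e).map fe).prod = (P.map φ).prod := by
    intro P
    congr 1
    rw [List.map_map]
    apply List.map_congr_left
    intro a _
    simp [fe]
  have hback : ∀ L : List (Fin nn), (L.map e.symm).map e = L := by
    intro L
    rw [List.map_map]
    simp
  have hback' : ∀ L : List α, (L.map e).map e.symm = L := by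
    intro L
    rw [List.map_map]
    simp
  obtain ⟨m, r, hg⟩ := G1_256.g1 S V act
  obtain ⟨K, hK⟩ := ExactR_237.exact_gadget (Fin nn) S V fe act (2 + 2 * (r + m))
  obtain ⟨Ms, M, hMs1, hMs2, hM, hb⟩ := hg (4 ^ K)
  let b : ℕ := M * (4 * 2 ^ K + 16) + 1
  have hb1 : 4 * M + 4 < b := by
    have : 16 * M ≤ M * (4 * 2 ^ K + 16) := by nlinarith [Nat.zero_le (M * (4 * 2 ^ K))]
    simp only [b]
    nlinarith [Nat.zero_le (M * (4 * 2 ^ K))]
  have hb2 : 4 * M * 2 ^ K + 2 * M + 4 ≤ b := by
    simp only [b]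
    nlinarith [Nat.zero_le (M * (4 * 2 ^ K))]
  have hb3 : Nat.Coprime b M := by
    apply Nat.Coprime.symm
    exact (Nat.coprime_mul_left_add_right M 1 (4 * 2 ^ K + 16)).2 (Nat.coprime_one_right M)
  have hbpos : 0 < b := by omega
  obtain ⟨lam, rho, nu1, g1, g2, g3, g4⟩ := hb b hb1 hb3 (Fin nn) fe
  let N1 : ℕ := b ^ m
  obtain ⟨c, hc1, hc2, hc3, hc4⟩ := Sp_597.spoil K m Ms M b hM
    (fun k hk => ⟨(hMs2 k hk).1, (hMs2 k hk).2.2⟩) hb2 hb3 N1
  obtain ⟨lam2, rho2, nu2, e1, e2⟩ := hK c (fun i j h _ => hc1 h)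
  let p0 : ℕ := c K
  have hcp : ∀ k < K, c k ≤ p0 := fun k hk => (hc1 hk).le
  let W : ℕ := 2 * (N1 + p0) + 1
  obtain ⟨n, G, B, Wo, hLW, hgap, _, _, hfew⟩ := LWallAll_922.walls_all_left α W (by omega)
  let n' : ℕ := max n 1
  have hloc : ∀ P Q : List α, n' ≤ Q.length → (Wo (P ++ Q) ↔ Wo Q) := fun P Q h =>
    hLW.1 P Q (le_trans (le_max_left _ _) h)
  have hlen : ∀ Q : List α, Wo Q → n' ≤ Q.length := by
    intro Q hQ
    have h1 := hLW.2 Q hQ
    rcases Nat.eq_zero_or_pos n with h0 | h0
    · exfalso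
      have h2 : Wo ([] : List α) := by
        have := hLW.1 Q [] (by omega)
        rw [List.append_nil] at this
        exact this.1 hQ
      obtain ⟨a⟩ := (inferInstance : Nonempty α)
      have h3 : Wo [a] := by
        have := hLW.1 [a] [] (by omega)
        rw [List.append_nil] at this
        exact this.2 h2
      have h4 := hgap [a] 0 1 (by omega) (by simp) (by simpa using h2) (by simpa using h3)
      omega
    · have : n' = n := by simp only [n']; omega
      omega
  have hn' : 0 < n' := lt_of_lt_of_le one_pos (le_max_right _ _)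
  let z : ℕ := p0 + 2 * N1 + n' + 1
  let D : Dat α S V :=
    { act := act, hadd := hadd, hmul := hmul, φ := φ, Wo := Wo, n := n', z := z, p0 := p0, N1 := N1
      wloc := hloc
      lam := fun P => lam (P.map e), rho := fun Q => rho (Q.map e), nu1 := fun X => nu1 (X.map e)
      BadT := Sp_597.Bad Ms M b m
      lamlen := fun P v h => by
        have := g1 _ _ h
        rwa [List.length_map] at this
      gs := fun P Q v v' h h' => by
        have := g2 _ _ _ _ h h'
        rw [← List.map_append, hmap] at this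
        exact this
      gc := fun X hX v => by
        have h1 : (∀ k ∈ Ms, ¬ k ∣ (X.map e).length) := by
          intro k hk hd
          rw [List.length_map] at hd
          exact hX (Or.inl ⟨k, hk, hd⟩)
        have h2 : ∀ j < m, M ≤ (X.map e).length / b ^ j % b ∧
            (X.map e).length / b ^ j % b + M + 1 ≤ b := by
          intro j hj
          rw [List.length_map]
          by_contra hcon
          exact hX (Or.inr ⟨j, hj, hcon⟩)
        obtain ⟨P, Q, h3, h4, h5⟩ := g3 (X.map e) h1 h2 v
        refine ⟨P.map e.symm, Q.map e.symm, ?_, ?_, ?_⟩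
        · rw [← List.map_append, h3, hback']
        · rw [hback]; exact h4
        · rw [hback]; exact h5
      K := K, R := 2 + 2 * (r + m), c := c, hcp := hcp
      lam2 := fun k P => lam2 k (P.map e), rho2 := fun k Q => rho2 k (Q.map e) 1
      nu2 := fun X => nu2 (X.map e) 1
      es := fun k hk P Q v b hP h h' => by
        have := e1 k hk (P.map e) (Q.map e) 1 v b (by rw [List.length_map]; exact hP) h h'
        rw [← List.map_append, mul_one] at this
        unfold ExactR_237.pr at this
        rw [hmap] at this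
        exact this
      ec := fun u v hu => by
        obtain ⟨I, h1, h2⟩ := e2 (u.map e) 1 v (fun k hk => by
          rw [List.length_map, hu]; exact hcp k hk)
        refine ⟨I, h1, fun k hk => ?_⟩
        obtain ⟨h3, h4, h5⟩ := h2 k hk
        refine ⟨h3, ?_, ?_⟩
        · rw [List.map_take]; exact h4
        · rw [List.map_drop]; exact h5
      hz := by simp only [z]; omega
      zpos := by simp only [z]; omega }
  -- spoil
  have hsp : ∀ X ∈ D.C, ∀ Y ∈ D.C, ∃ Sp : Finset ℕ, Sp.card < D.R ∧
      ∀ k < D.K, ∀ k' < D.K, k' ≠ k → D.BadC (D.wl (X ++ Y)) k k' → k ∈ Sp := by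
    intro X _ Y _
    obtain ⟨Sp, hSp1, hSp2⟩ := spoil_aux K c z N1 p0 W p0 (r + m) (Sp_597.Bad Ms M b m)
      (D.wl (X ++ Y)) hcp
      (by
        rintro t1 t2 ⟨a1, a2, a3⟩ ⟨b1, b2, b3⟩ hlt
        have := hgap (X ++ Y) t1 t2 hlt b2 a3 b3
        omega)
      (by simp only [W]; omega) (by simp only [z]; omega)
      (by
        intro a a' b b' _ _ _ _ h1 h2 h3
        by_contra hne
        have h4 := hc3 a' a b' b h1.symm h2.symm (fun h => hne ⟨h.2, h.1⟩)
        have h5 : ((4 * N1 : ℕ) : ℤ) = 4 * (N1 : ℤ) := by push_cast; ring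
        have h6 : (0 : ℤ) ≤ (N1 : ℤ) := Int.natCast_nonneg _
        rw [h5] at h4
        linarith)
      (by
        intro T
        refine le_trans (Finset.card_le_card ?_) ((hc4 T).trans (by omega))
        intro p hp
        rw [Finset.mem_filter] at hp ⊢
        obtain ⟨h1, h2, nn', h3, h4⟩ := hp
        refine ⟨h1, h2, ?_⟩
        have h5 : T + (c p.2 : ℤ) - c p.1 = (nn' : ℤ) := by rw [h3]; ring
        rw [h5]
        exact (Sp_597.badZ_cast Ms M b m nn').2 h4)
    refine ⟨Sp, by
      show Sp.card < 2 + 2 * (r + m)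
      omega, ?_⟩
    intro k hk k' hk' hne hbad
    exact hSp2 k hk k' hk' hne hbad
  -- prefix code
  have hPC : Blk467.PCode D.C := by
    refine ⟨?_, ?_⟩
    · rintro ⟨h1, _⟩
      have : D.z ≤ 0 := h1
      have := D.zpos
      omega
    · rintro X ⟨hX1, hX2, hX3⟩ Y ⟨hY1, hY2, hY3⟩ hpre
      by_contra hne
      have hlt : X.length < Y.length := by
        rcases Nat.lt_or_ge X.length Y.length with h | h
        · exact h
        · exact absurd (hpre.eq_of_length_le h) hne
      have h1 : Y.take X.length = X := (List.prefix_iff_eq_take.1 hpre).symm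
      exact hY3 X.length hX1 hlt (by rw [h1]; exact hX2)
  -- finiteness
  have hf1 : ∀ v, (D.L1 v).Finite := by
    intro v
    refine (List.finite_length_le α (p0 + N1)).subset ?_
    rintro P ⟨h1, h2⟩
    have h3 := D.lamlen _ _ h2
    rw [List.length_drop] at h3
    have h4 : P.length - p0 < N1 := h3
    show P.length ≤ p0 + N1
    omega
  have hf2 : ∀ v, (D.L2 v).Finite := by
    intro v
    refine (List.finite_length_le α p0).subset ?_
    rintro P ⟨k, hk, h1, h2⟩
    show P.length ≤ p0
    rw [h1]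
    exact hcp k hk
  -- few walls
  have hfew' : ∀ X : List α, (∀ t, t < X.length → ¬ Wo (X.take t)) → ∃ (u x : List α) (k : ℕ)
      (v : List α), u.length ≤ max B W ∧ x.length ≤ max B W ∧ v.length ≤ max B W ∧
      X = u ++ (List.replicate k x).flatten ++ v := by
    intro X hX
    obtain ⟨u, x, v, k, h1, h2, h3, h4⟩ := hfew X hX
    exact ⟨u, x, k, v, h1.trans (le_max_left _ _), h2.trans (le_max_right _ _),
      h3.trans (le_max_left _ _), h4⟩
  have hnz : n' ≤ z := by simp only [z]; omega
  -- the key function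
  let g : V → List α → V × Prop := fun x X => (D.act x (X.map φ).prod + D.nu X,
    ((∃ t ≤ X.length, D.z ≤ t + D.N1 ∧ t < D.z + D.N1 ∧ D.Wo (X.take t)) ∨
      D.BadT (X.length - D.p0)))
  have hkey : ∀ x, Fib_854.Key (g x) := by
    intro x
    refine ⟨z + N1, M * b ^ m, S, inferInstance, inferInstance, φ, by positivity, ?_⟩
    intro X Y hX hY hXY hmod hprod
    have hkl : ∀ j ≤ z + N1, X.take j = Y.take j ∧
        ((X.drop j).map φ).prod = ((Y.drop j).map φ).prod := fun j hj =>
      Fib_854.key_le φ hj hXY hprod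
    have hp0z : p0 + N1 ≤ z := by simp only [z]; omega
    have k0 := hkl 0 (Nat.zero_le _)
    have k1 := hkl p0 (by omega)
    have k2 := hkl (p0 + N1) (by omega)
    have hφ : (X.map φ).prod = (Y.map φ).prod := by simpa using k0.2
    have hnu1 : nu1 ((X.drop p0).map e) = nu1 ((Y.drop p0).map e) := by
      have hl : ∀ Z : List α, z + N1 ≤ Z.length → b ^ m ≤ ((Z.drop p0).map e).length := by
        intro Z hZ
        rw [List.length_map, List.length_drop]
        have : N1 = b ^ m := rfl
        omega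
      refine (g4 _ _ (hl X hX) (hl Y hY) ?_ ?_ ?_).2
      · rw [← List.map_take, ← List.map_take]
        congr 1
        have h1 : ∀ Z : List α, (Z.drop p0).take (b ^ m) = (Z.take (p0 + N1)).drop p0 := by
          intro Z
          rw [List.drop_take]
          congr 1
          have : N1 = b ^ m := rfl
          omega
        rw [h1, h1, k2.1]
      · rw [List.length_map, List.length_map, List.length_drop, List.length_drop]
        exact mod_sub _ _ _ _ (by omega) (by omega) hmod
      · rw [← List.map_drop, ← List.map_drop, hmap, hmap, List.drop_drop, List.drop_drop]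
        exact k2.2
    have hnu : D.nu X = D.nu Y := by
      show act (nu2 ((X.take p0).map e) 1) ((X.drop p0).map φ).prod + nu1 ((X.drop p0).map e)
        = act (nu2 ((Y.take p0).map e) 1) ((Y.drop p0).map φ).prod + nu1 ((Y.drop p0).map e)
      rw [hnu1, k1.1, k1.2]
    have hE : ∀ X Y : List α, z + N1 ≤ X.length → z + N1 ≤ Y.length →
        X.take (z + N1) = Y.take (z + N1) →
        (∃ t ≤ X.length, z ≤ t + N1 ∧ t < z + N1 ∧ Wo (X.take t)) →
        (∃ t ≤ Y.length, z ≤ t + N1 ∧ t < z + N1 ∧ Wo (Y.take t)) := by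
      rintro X Y hX hY hXY ⟨t, h1, h2, h3, h4⟩
      refine ⟨t, by omega, h2, h3, ?_⟩
      have h5 : X.take t = Y.take t := by
        have := congrArg (List.take t) hXY
        rwa [List.take_take, List.take_take, Nat.min_eq_left h3.le] at this
      rw [← h5]; exact h4
    have hBm : ∀ X Y : List α, z + N1 ≤ X.length → z + N1 ≤ Y.length →
        X.length % (M * b ^ m) = Y.length % (M * b ^ m) →
        Sp_597.Bad Ms M b m (X.length - p0) → Sp_597.Bad Ms M b m (Y.length - p0) := by
      intro X Y hX hY hm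
      exact bad_mod Ms M b m (fun k hk => (hMs2 k hk).2.2) _ _
        (mod_sub _ _ _ _ (by omega) (by omega) hm)
    apply Prod.ext
    · show act x (X.map φ).prod + D.nu X = act x (Y.map φ).prod + D.nu Y
      rw [hφ, hnu]
    · show ((∃ t ≤ X.length, z ≤ t + N1 ∧ t < z + N1 ∧ Wo (X.take t)) ∨
          Sp_597.Bad Ms M b m (X.length - p0)) =
        ((∃ t ≤ Y.length, z ≤ t + N1 ∧ t < z + N1 ∧ Wo (Y.take t)) ∨
          Sp_597.Bad Ms M b m (Y.length - p0))
      apply propext
      constructor
      · rintro (h | h)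
        · exact Or.inl (hE X Y hX hY hXY h)
        · exact Or.inr (hBm X Y hX hY hmod h)
      · rintro (h | h)
        · exact Or.inl (hE Y X hY hX hXY.symm h)
        · exact Or.inr (hBm Y X hY hX hmod.symm h)
  have hfib : ∀ x y (p : Prop), HL 1 ({X | X ∈ D.C ∧ g x X = (y, p)} : Language α) := fun x y p =>
    Fib_854.fib hloc hlen hn' hnz hfew' (g x) (hkey x) (y, p)
  have hBT : ∀ x y, HL 1 ({X | X ∈ D.Bad ∧ act x (X.map φ).prod + D.nu X = y} : Language α) := by
    intro x y
    refine (hfib x y True).congr fun X => Iff.symm ?_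
    constructor
    · rintro ⟨h1, h2⟩
      have h3 := congrArg Prod.fst h2
      have h4 := congrArg Prod.snd h2
      exact ⟨⟨h1, of_eq_true h4⟩, h3⟩
    · rintro ⟨⟨h1, h2⟩, h3⟩
      exact ⟨h1, Prod.ext h3 (eq_true h2)⟩
  have hCT : ∀ x y, HL 1 ({X | X ∈ D.C ∧ act x (X.map φ).prod + D.nu X = y} : Language α) := by
    intro x y
    refine ((hfib x y True).sup (hfib x y False)).congr fun X => Iff.symm ?_
    constructor
    · rintro (⟨h1, h2⟩ | ⟨h1, h2⟩)
      · exact ⟨h1, congrArg Prod.fst h2⟩
      · exact ⟨h1, congrArg Prod.fst h2⟩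
    · rintro ⟨h1, h2⟩
      by_cases hb : (g x X).2
      · exact Or.inl ⟨h1, Prod.ext h2 (eq_true hb)⟩
      · exact Or.inr ⟨h1, Prod.ext h2 (eq_false hb)⟩
  have htail : ∀ s, HL 1 ({w | (∀ X ∈ D.C, ¬ X <+: w) ∧ (w.map φ).prod = s} : Language α) :=
    fun s => Fib_854.tail φ hloc hlen hn' hnz hfew' s
  exact Top5_120.top5 act hadd hone hmul hfaith φ D.nu D.C D.Bad hPC (fun X hX => hX.1) D.L1 D.L2
    hf1 hf2 hCT hBT htail (fun X hX hb v => D.hcc1 X hX hb v)
    (fun X hX Y hY v => D.hcc2 hsp X hX Y hY v) s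

end Crest.Agent.R320.Row_374
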