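import Crest.Agent.R320.Fin_427
import Crest.Agent.R320.UGI_219

/-!
# Row 320: the row (helper427): `Fin_427.row` + 219's closed gadget `UGI_219.ugi`
-/

set_option autoImplicit false

namespace Crest.Agent.R320.Row_427

open Crest.RegLang Crest.Agent.R320.Fin_427

theorem gad (S V : Type) [Monoid S] [Finite S] [AddCommGroup V] [Finite V]
    (act : V → S → V) : Gad S V act := by
  classical
  obtain ⟨C0, h0⟩ := Crest.Agent.R320.Grid219.ugi S V act
  refine ⟨C0, fun K => ?_⟩
  obtain ⟨N1, Pm, La, c, Bad, h1, h2, h3, h4, h5, h6, h7, h8⟩ := h0 K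
  refine ⟨N1, La, Pm, c, Bad, h1, fun T _ => h6 T, fun i j hij _ => h4 i j hij, ?_, ?_, ?_⟩
  · intro a b d e _ _ _ _ hab hde i1 i2
    by_contra hne
    have := h5 a b d e hab hde (fun h => hne (Prod.ext_iff.1 h).1)
    omega
  · intro T hT Sp hSp
    let g : ℕ → ℕ := fun k => if h : k ∈ Sp then (hSp k h).2.choose else 0
    have hg : ∀ k (h : k ∈ Sp), g k < K ∧ g k ≠ k ∧ Bad (T + c (g k) - c k) := by
      intro k h
      have := (hSp k h).2.choose_spec
      simp only [g, dif_pos h]
      exact this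
    have hcard := h7 (T : ℤ) (Sp.image fun k => (k, g k)) ?_
    · rwa [Finset.card_image_of_injective _ (fun a b hab => (Prod.ext_iff.1 hab).1)] at hcard
    · intro q hq
      obtain ⟨k, hk, rfl⟩ := Finset.mem_image.1 hq
      obtain ⟨g1, g2, g3⟩ := hg k hk
      have hkK := (hSp k hk).1
      have := hT k hkK
      exact ⟨hkK, g1, Ne.symm g2, T + c (g k) - c k, by push_cast [Nat.cast_sub (by omega : c k ≤ T + c (g k))]; ring, g3⟩
  · intro α _ f
    obtain ⟨lam, rho, nu, a1, a2, a3, a4⟩ := h8 (α := α) (fun w => (w.map f).prod)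
      (fun u v => by simp)
    refine ⟨lam, rho, nu, a1, a2, ?_, ?_⟩
    · intro u hu hb v
      obtain ⟨p, q, e, e1, e2⟩ := a3 u hu hb v
      exact ⟨p, q, e.symm, e1, e2⟩
    · intro q q' b1 b2 b3 b4 b5
      exact (a4 q q' b1 b2 b3 b5 b4).2

/-- **generalized star height at most three** -/
theorem row {α : Type*} [Finite α] (L : Language α) (hL : L.IsRegular) :
    ∃ e : GRegExp α, e.height ≤ 3 ∧ e.lang = L :=
  Fin_427.row (fun S _ _ => by
    have : Finite (Crest.Agent.R320.Two_621.Tok S) := inferInstanceAs (Finite (S → ZMod 2))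
    exact gad S (Crest.Agent.R320.Two_621.Tok S) Crest.Agent.R320.Two_621.act) L hL

end Crest.Agent.R320.Row_427
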