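import Crest.Agent.R320.Fin_454
import Crest.Agent.R320.UGI_390

set_option autoImplicit false

namespace Crest.Agent.R320.Row454

open Crest.RegLang

theorem ugi454 (S V : Type) [Monoid S] [Finite S] [AddCommGroup V] [Finite V] (act : V → S → V) :
    Crest.Agent.R320.Fin454.UGI S V act := by
  obtain ⟨C0, h⟩ := Crest.Agent.R320.UGI_390.ugi S V act
  refine ⟨C0, fun K => ?_⟩
  obtain ⟨N1, Pm, La, c, Bad, hN1, hNL, hPm, hinc, hcLa, hsep, hper, hthin', hthin, hg⟩ := h K
  refine ⟨N1, Pm, La, c, Bad, hPm, fun i j hij _ => hinc i j hij, ?_, ?_, ?_⟩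
  · intro i j k l hi hj hk hl h1 h2 h3
    exact hsep i j k l hi hj hk hl h1 h2 (fun h => h3 (by rw [h.1, h.2]))
  · intro T hT
    exact hthin T hT
  · intro A f
    obtain ⟨lam, rho, nu, g1, g2, g3, g4, g5, g6⟩ :=
      hg A (fun w => (w.map f).prod) (by intro u v; simp)
    exact ⟨lam, rho, nu, g1, fun p q v r h1 h2 _ => g4 p q v r h1 h2, g5,
      fun q q2 a b c d e => g6 q q2 a b c d e⟩

/-- **row 320** -/
theorem row {α : Type*} [Finite α] (L : Language α) (hL : L.IsRegular) :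
    ∃ e : Crest.RegLang.GRegExp α, e.height ≤ 3 ∧ e.lang = L :=
  Crest.Agent.R320.Fin454.final (fun S _ _ act => ugi454 S (S → ZMod 2) act) L hL

end Crest.Agent.R320.Row454
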