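import Crest.Agent.R320.Fin_720

/-!
# Row 320: choice of the constants, S0495 over `Type` (helper720)
-/

set_option autoImplicit false
set_option linter.unusedSectionVars false

namespace Crest.Agent.R320.Row_720

open Crest.Agent.R320.Hk_851 Crest.Agent.R320.P5_841 Crest.Agent.R320.P4_720
open Crest.Agent.R320.WallU_228 Crest.Agent.R320.Fin_720

theorem bad_per {Ms : Finset ℕ} {M b m : ℕ} (hMs : ∀ k ∈ Ms, k ∣ M) (n n' : ℕ)
    (h : n % (M * b ^ m) = n' % (M * b ^ m)) :
    (Sp_597.Bad Ms M b m n ↔ Sp_597.Bad Ms M b m n') := by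
  have h' : n ≡ n' [MOD M * b ^ m] := h
  have hd : ∀ j < m, n / b ^ j % b = n' / b ^ j % b := by
    intro j hj
    rw [← Nat.mod_mul_right_div_self, ← Nat.mod_mul_right_div_self, ← pow_succ]
    have h1 : n ≡ n' [MOD b ^ (j + 1)] :=
      h'.of_dvd ((pow_dvd_pow b (by omega)).trans (Dvd.intro_left M rfl))
    rw [h1]
  unfold Sp_597.Bad
  refine or_congr ?_ ?_
  · refine exists_congr fun k => and_congr_right fun hk => ?_
    exact h'.dvd_iff ((hMs k hk).trans (Dvd.intro _ rfl))
  · refine exists_congr fun j => and_congr_right fun hj => ?_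
    rw [hd j hj]

theorem fibre {α S : Type} [Finite α] [Monoid S] [Finite S] (f : α → S) (s : S) :
    HL 3 ({w | (w.map f).prod = s} : Language α) := by
  classical
  have := Fintype.ofFinite S
  let V := S → ZMod 2
  let act : V → S → V := fun v t x => v (t * x)
  obtain ⟨m, r, hG⟩ := G1_852.gadget (S := S) (V := V) act
  obtain ⟨K, hK⟩ := ExactR_237.exact_gadget α S V f act (2 + 2 * (r + m))
  obtain ⟨Ms, M, hcard, hMs, hM, hG⟩ := hG (4 ^ K)
  obtain ⟨b, hbge, hbc⟩ : ∃ b, 4 * M * 2 ^ K + 2 * M + 4 ≤ b ∧ Nat.Coprime b M := by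
    refine ⟨(4 * M * 2 ^ K + 2 * M + 4) * M + 1, ?_, ?_⟩
    · have := Nat.le_mul_of_pos_right (4 * M * 2 ^ K + 2 * M + 4) hM
      omega
    · exact (Nat.coprime_mul_right_add_left 1 M _).2 (Nat.coprime_one_left M)
  have hb0 : 0 < b := by omega
  obtain ⟨lam, rho, nu1, g1, g2, g3, g4⟩ := hG b hb0 hbc α f
  obtain ⟨c, c1, c2, c3, c4⟩ := Sp_597.spoil_nat K m Ms M b hM
    (fun k hk => ⟨(hMs k hk).1, (hMs k hk).2.2⟩) hbge hbc (b ^ m)
  obtain ⟨lam2, rho2, nu2, e1, e2⟩ := hK c (fun i j hij _ => c1 hij)
  obtain ⟨n, cw, P, SS, hn, hP, loc, gap, -, -, hone⟩ :=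
    walls_full (α := α) (2 * c K + 2 * b ^ m + 1)
  let D : Dt α S V :=
    { φ := fun w => (w.map f).prod
      act := act
      Wo := Wo n SS
      n := n
      W := 2 * c K + 2 * b ^ m + 1
      lam := lam
      rho := rho
      nu1 := nu1
      N1 := b ^ m
      T0 := 0
      BadT := Sp_597.Bad Ms M b m
      K := K
      c := c
      lam2 := fun k P => lam2 k P
      rho2 := fun k Q => rho2 k Q 1
      nu2 := fun u => nu2 u 1
      p0 := c K
      z := 3 * c K + b ^ m + n + 0 + 1
      R0 := r + m }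
  have ho : Ok D := by
    constructor
    · intro u v
      show ((u ++ v).map f).prod = _
      rw [List.map_append, List.prod_append]
    · intro v s s'
      show (fun x => v (s * (s' * x))) = fun x => v (s * s' * x)
      funext x
      rw [mul_assoc]
    · intro v w s
      rfl
    · exact loc
    · intro U hU
      exact hU.1
    · intro U t t' h1 h2 h3 h4
      show 2 * c K + 2 * b ^ m + 1 < t' - t
      by_contra hc
      have hl : (U.take t').length = t' := by rw [List.length_take, min_eq_left h4]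
      refine gap (U.take t') (t' - t) h2 (by omega) (by omega) ?_
      rw [hl, List.take_take]
      have e : min (t' - (t' - t)) t' = t := by omega
      rw [e]
      exact h1
    · intro P Q v b' h1 h2
      exact (g2 P Q v b' h1 h2).symm
    · intro P v h
      exact (g1 P v h).le
    · intro Y _ hY v
      have hY' : ¬ Sp_597.Bad Ms M b m Y.length := hY
      unfold Sp_597.Bad at hY'
      push Not at hY'
      obtain ⟨P, Q, e, h1, v', h2⟩ := g3 Y hY'.1 (fun j hj => ⟨(hY'.2 j hj).1, by
        have := (hY'.2 j hj).2; omega⟩) v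
      exact ⟨P, Q, e, h1, by show (rho Q).isSome = true; rw [h2]; rfl⟩
    · intro k hk P Q v b' h1 _ h3 h4
      have := e1 k hk P Q 1 v b' h1 h3 h4
      rw [mul_one] at this
      exact this.symm
    · intro X hX v
      have hX' : X.length = c K := hX
      obtain ⟨I, hI, h⟩ := e2 X 1 v (fun k hk => by rw [hX']; exact (c1 hk).le)
      refine ⟨I, ?_, h⟩
      show 1 + 2 * (r + m) < I.card
      omega
    · intro k hk
      exact (c1 hk).le
    · intro i _ j _ h
      exact c1.injective h
    · intro a ha b1 hb1 c' hc' d hd hab hcd h1 h2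
      by_contra hne
      have h3 := c3 b1 a d c' (Ne.symm hab) (Ne.symm hcd) (fun hh => hne hh.1)
      have h1' : ((c a : ℤ) - c b1) - (c c' - c d) ≤ 2 * ((b ^ m : ℕ) : ℤ) := h1
      have h2' : ((c c' : ℤ) - c d) - (c a - c b1) ≤ 2 * ((b ^ m : ℕ) : ℤ) := h2
      have h4 : |((c a : ℤ) - c b1) - ((c c' : ℤ) - c d)| ≤ 2 * ((b ^ m : ℕ) : ℤ) := by
        rw [abs_le]; constructor <;> linarith
      have h5 : (0 : ℤ) ≤ ((b ^ m : ℕ) : ℤ) := by positivity
      push_cast at h3 h4 h5
      linarith
    · intro T hT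
      have hT' : c K ≤ T := hT
      have h5 := c4 T
      refine le_trans (le_trans (Finset.card_le_card (t := ((((Finset.range K) ×ˢ
        (Finset.range K)).filter (fun p => p.1 ≠ p.2 ∧ c p.1 ≤ T + c p.2 ∧
          Sp_597.Bad Ms M b m (T + c p.2 - c p.1))).image Prod.fst)) ?_)
        Finset.card_image_le) (h5.trans (by show _ ≤ r + m; omega))
      intro k hk
      obtain ⟨hk1, k', hk', hne, hbad⟩ := Finset.mem_filter.1 hk
      refine Finset.mem_image.2 ⟨(k, k'), Finset.mem_filter.2 ⟨Finset.mem_product.2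
        ⟨hk1, Finset.mem_range.2 hk'⟩, Ne.symm hne, ?_, hbad⟩, rfl⟩
      have h6 : k < K := Finset.mem_range.1 hk1
      have h7 : c k < c K := c1 h6
      show c k ≤ T + c k'
      omega
    · exact le_rfl
    · show 2 * c K + 2 * b ^ m < 2 * c K + 2 * b ^ m + 1
      omega
  have hNpos : 0 < M * b ^ m := Nat.mul_pos hM (Nat.pow_pos hb0)
  have hr : Rg D := by
    constructor
    · refine r_congr (r_cat (r_const (α := α) True) (r_short n (fun u : List α => u.length = n ∧
        u ∈ SS) (fun u hu => hu.1.le))) fun w => ?_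
      show Wo n SS w ↔ _
      constructor
      · rintro ⟨h1, h2⟩
        exact ⟨w.take (w.length - n), w.drop (w.length - n), (List.take_append_drop _ _).symm,
          trivial, by rw [List.length_drop]; omega, h2⟩
      · rintro ⟨u, v, rfl, -, h1, h2⟩
        refine ⟨by rw [List.length_append]; omega, ?_⟩
        have e : (u ++ v).length - n = u.length := by rw [List.length_append]; omega
        rw [e, List.drop_left' rfl]
        exact h2
    · intro b'
      refine RegCongr_253.regular_of_congr f (b ^ m) (M * b ^ m) hNpos _ ?_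
      intro q q' _ _ h1 h2 h3 hq
      have h4 := (g4 q q' h1 h3 h2).1
      show rho q' = some b'
      rw [← h4]; exact hq
    · intro b'
      refine RegCongr_253.regular_of_congr f (b ^ m) (M * b ^ m) hNpos _ ?_
      intro q q' _ _ h1 h2 h3 hq
      have h4 := (g4 q q' h1 h3 h2).2
      show nu1 q' = b'
      rw [← h4]; exact hq
    · intro s
      exact Fib_298.isRegular_fib f s
    · exact ⟨_, hNpos, fun n n' h => bad_per (fun k hk => (hMs k hk).2.2) n n' h⟩
  refine row_of_ok (D := D) f ho hr rfl rfl hone ?_ s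
  intro s1 s2 h
  have h1 := congrFun (h (fun x => if x = s1 then 1 else 0)) 1
  have h2 : (if s1 * 1 = s1 then (1 : ZMod 2) else 0) = if s2 * 1 = s1 then 1 else 0 := h1
  rw [mul_one, mul_one, if_pos rfl] at h2
  by_contra hne
  rw [if_neg (fun e => hne e.symm)] at h2
  exact one_ne_zero h2

/-- **S0495 over `Type`.** -/
theorem row {α : Type} [Finite α] (L : Language α) (hL : L.IsRegular) : HL 3 L :=
  of_monoid (fun _ _ _ f s => fibre f s) L hL

end Crest.Agent.R320.Row_720
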