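import Crest.Agent.R320.Conc5_795

/-!
# Row 320: every language recognised by a finite monoid has generalized star height at most three
(helper795)
-/

set_option autoImplicit false

namespace Crest.Agent.R320.Conc_795

open Crest.RegLang Crest.Agent.R320.Hk_851 Crest.Agent.R320.Blk_517 Crest.Agent.R320.Top_517
  Crest.Agent.R320.Fin_517 Crest.Agent.R320.Main_517 Crest.Agent.R320.SemTop_795
  Crest.Agent.R320.FewWalls_228 Crest.Agent.R320.WallU_228 Crest.Agent.R320.FewVal_228

universe u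

variable {α : Type u}

theorem row [Finite α] {S : Type} [Monoid S] [Finite S] (φ : α → S) (s : S) :
    HL 3 ({w | ev φ w = s} : Language α) := by
  classical
  haveI := Fintype.ofFinite S
  obtain ⟨m2, k2, hex⟩ := exact_places.{u} S (S → ZMod 2)
  obtain ⟨m1, c1, hgrid⟩ := Grid_693.grid S (S → ZMod 2) pact
  set C0 := c1 + m1 with hC0
  set K := m2 * (k2 * (2 * C0 + 2)) with hK
  obtain ⟨M, mods, hM, h2M, hcard, hmods, hG⟩ := hgrid (2 ^ (K + 1))
  set κ := K + 4 + M * (m1 + 1) with hκ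
  set A := Grid_693.Am κ M m1 with hA
  have hGpos : ∀ i, 0 < Grid_693.G κ i := fun i => pow_pos (by norm_num) _
  have hGs : ∀ i, Grid_693.G κ (i + 1) = 2 ^ κ * Grid_693.G κ i := by
    intro i
    unfold Grid_693.G
    rw [← pow_add]
    congr 1
    ring
  have hGmono : Monotone (Grid_693.G κ) := by
    refine monotone_nat_of_le_succ fun i => ?_
    rw [hGs]
    exact Nat.le_mul_of_pos_left _ (pow_pos (by norm_num) _)
  have hbig : ∀ i, 1 ≤ i → i ≤ m1 →
      2 ^ (K + 4) * ∑ j ∈ Finset.range i, M * Grid_693.G κ j ≤ Grid_693.G κ i := by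
    intro i h1 h2
    obtain ⟨i', rfl⟩ : ∃ i', i = i' + 1 := ⟨i - 1, by omega⟩
    have h3 : ∑ j ∈ Finset.range (i' + 1), M * Grid_693.G κ j ≤
        (i' + 1) * (M * Grid_693.G κ i') := by
      have := Finset.sum_le_card_nsmul (Finset.range (i' + 1)) (fun j => M * Grid_693.G κ j)
        (M * Grid_693.G κ i') (fun j hj => Nat.mul_le_mul_left _
          (hGmono (by rw [Finset.mem_range] at hj; omega)))
      rwa [Finset.card_range, smul_eq_mul] at this
    have h4 : (i' + 1) * M ≤ 2 ^ (M * (m1 + 1)) := by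
      have h5 : (i' + 1) * M ≤ M * (m1 + 1) := by
        rw [Nat.mul_comm]; exact Nat.mul_le_mul_left _ (by omega)
      exact h5.trans (Nat.lt_two_pow_self).le
    rw [hGs]
    calc 2 ^ (K + 4) * ∑ j ∈ Finset.range (i' + 1), M * Grid_693.G κ j
        ≤ 2 ^ (K + 4) * ((i' + 1) * (M * Grid_693.G κ i')) := Nat.mul_le_mul_left _ h3
      _ = 2 ^ (K + 4) * ((i' + 1) * M) * Grid_693.G κ i' := by ring
      _ ≤ 2 ^ (K + 4) * 2 ^ (M * (m1 + 1)) * Grid_693.G κ i' :=
          Nat.mul_le_mul_right _ (Nat.mul_le_mul_left _ h4)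
      _ = 2 ^ κ * Grid_693.G κ i' := by rw [← pow_add]
  have hcop : Nat.Coprime (Grid_693.G κ m1) (∏ q ∈ mods, q) := by
    unfold Grid_693.G
    exact Nat.Coprime.pow_left _ (Nat.Coprime.prod_right fun q hq =>
      Nat.Coprime.coprime_dvd_right (hmods q hq).2 h2M)
  obtain ⟨X, hX1, -, -, -, hX5⟩ := GridRuler314.grid_ruler (2 * A) K m1 mods (Grid_693.G κ)
    (fun i => M * Grid_693.G κ i) (fun i => Nat.mul_pos hM (hGpos i))
    (fun i => Dvd.intro_left _ rfl) (fun i => by rw [hGs]; exact Dvd.intro_left _ rfl)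
    (hGpos m1) hbig hcop (fun q hq => (hmods q hq).1)
  have hXpos : 0 < X := by omega
  set p0 := 2 ^ K * X with hp0
  have hxm : ∀ a, ((2 ^ a * X : ℕ) : ℤ) = GridRuler314.xm X a := by
    intro a; unfold GridRuler314.xm; push_cast; ring
  obtain ⟨lam2, rho2, nu2, g2s, g2c⟩ := hex (2 * C0 + 2) X (by omega) hXpos α (ev φ)
    (ev_append φ) pact
  obtain ⟨LW, RW, nu, hl, hr, hs, hc⟩ := hG κ φ
  obtain ⟨nu1, snd, inv⟩ := nu_fix φ pact hl hr hs
  obtain ⟨n, cc, P, Sw, hn, hP, hW, hper⟩ := exists_params (α := α) (2 * A + 2 * p0)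
  set z := p0 + 3 * A + n + p0 + 1 with hz
  have hcK : ∀ k < K, 2 ^ k * X ≤ p0 := fun k hk =>
    Nat.mul_le_mul_right _ (Nat.pow_le_pow_right (by norm_num) hk.le)
  refine SemTop_795.top φ (XX (Wo n Sw) z) (pcode (by omega)) (TT φ pact p0 nu1 nu2)
    (fun X => pact (nu2 (X.take p0)) (ev φ (X.drop p0)) + nu1 (X.drop p0)) ?_
    (LL1 φ pact p0 nu2 LW) (LL2 lam2 (fun k => 2 ^ k * X) K) ?_ ?_ ?_ ?_ ?_ ?_ s
  · intro Y _ v
    unfold TT
    have e : ev φ Y = ev φ (Y.take p0) * ev φ (Y.drop p0) := by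
      rw [← ev_append, List.take_append_drop]
    rw [pact_add, pact_mul, ← e]
    abel
  · intro v v'
    refine hl_fibre hn hP hper z φ (M * Grid_693.G κ m1) (Nat.mul_pos hM (hGpos m1))
      (TT φ pact p0 nu1 nu2 v) ?_ v'
    intro Y Y' hY hY' h1 h2 h3
    exact TT_inv φ pact nu1 nu2 (A := A) (by omega) inv v hY.1 hY'.1 h1 h2 h3
  · intro s'
    exact hl_rest hn hP hper z φ s'
  · intro v
    refine (List.finite_length_le α (p0 + A)).subset ?_
    rintro Q ⟨X1, P', rfl, h1, h2⟩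
    have := hl P' (by rw [h2]; rfl)
    show (X1 ++ P').length ≤ p0 + A
    rw [List.length_append]; omega
  · intro v
    refine (List.finite_length_le α p0).subset ?_
    rintro Q ⟨k, hk, h1, h2⟩
    show Q.length ≤ p0
    rw [h1]
    exact hcK k hk
  · rintro v ⟨k, hk, h1, h2⟩
    have h3 : 0 < 2 ^ k * X := Nat.mul_pos (pow_pos (by norm_num) _) hXpos
    have h4 : ([] : List α).length = 2 ^ k * X := h1
    rw [List.length_nil] at h4
    omega
  · intro Y hY Y' hY' v
    refine cut2 (φ := φ) (act := pact) (p0 := p0) (A := A) (C0 := C0) (K := K) hW (by omega)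
      le_rfl hcK (Bad1 := fun y => A ≤ y ∧ Grid_693.Bad κ M m1 mods y) snd hl ?_ ?_ ?_ g2s g2c
      hY hY' v
    · intro u hu hb w
      exact hc u hu (fun h => hb ⟨by omega, h⟩) w
    · intro a b a' b' ha hb ha' hb' hab hab' habs
      simp only [hxm] at habs
      rw [GridRuler314.xm_diff] at habs
      by_cases h0 : ((2 : ℤ) ^ a - 2 ^ b) - (2 ^ a' - 2 ^ b') = 0
      · exact GridRuler314.coef_zero hab h0
      · exfalso
        have h1 : 1 ≤ |((2 : ℤ) ^ a - 2 ^ b) - (2 ^ a' - 2 ^ b')| := Int.one_le_abs h0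
        rw [abs_mul, Nat.abs_cast] at habs
        have h2 : ((2 * A : ℕ) : ℤ) < X := by exact_mod_cast hX1
        push_cast at h2
        have h3 : (0 : ℤ) ≤ X := Int.natCast_nonneg X
        nlinarith
    · intro T
      obtain ⟨Pr, h1, h2⟩ := hX5 (fun i => (Grid_693.Am κ M i : ℤ)) T
      refine ⟨Pr, by omega, ?_⟩
      rintro a b ha hb hab y hy ⟨hy1, hy2⟩
      refine h2 a b ha hb hab ?_
      have h3 := bad_badT hy1 (fun i j hij => Grid_693.Am_mono hij) hy2
      rw [hy] at h3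
      simp only [hxm] at h3
      exact h3

end Crest.Agent.R320.Conc_795
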