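import Crest.Agent.R320.Grid_899
import Crest.Agent.R320.RulerGrid_506

/-!
Row 320 (helper891): the U-gadget on all words with its ruler and the finite-state clauses, one
hypothesis-free statement (over 899's grid gadget and 506's ruler).
-/

set_option autoImplicit false
set_option linter.all false

namespace Crest.Agent.R320.UGFull_891

open Finset Crest.Agent.R320

/-- many odd primes above `B` -/
theorem primes (k B : ℕ) : ∃ q : Fin k → ℕ, (∀ j, (q j).Prime) ∧ (∀ j, B < q j) ∧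
    (∀ j, Odd (q j)) ∧ Pairwise (fun i j => Nat.Coprime (q i) (q j)) := by
  have hinf := Nat.infinite_setOf_prime
  have hmono := Nat.nth_strictMono hinf
  have hge : ∀ n, n ≤ Nat.nth Nat.Prime n := fun n => hmono.le_apply
  refine ⟨fun j => Nat.nth Nat.Prime (B + 3 + j), fun j => Nat.nth_mem_of_infinite hinf _,
    fun j => ?_, fun j => ?_, fun i j hij => ?_⟩
  · have := hge (B + 3 + j)
    simp only
    omega
  · have h1 := hge (B + 3 + j)
    have h2 : (Nat.nth Nat.Prime (B + 3 + (j:ℕ))).Prime := Nat.nth_mem_of_infinite hinf _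
    exact h2.odd_of_ne_two (by omega)
  · have h1 : (Nat.nth Nat.Prime (B + 3 + (i:ℕ))).Prime := Nat.nth_mem_of_infinite hinf _
    have h2 : (Nat.nth Nat.Prime (B + 3 + (j:ℕ))).Prime := Nat.nth_mem_of_infinite hinf _
    refine (Nat.coprime_primes h1 h2).2 fun h => hij ?_
    have h3 := hmono.injective h
    exact Fin.ext (by omega)

/-- the bad totals -/
def Bad {k : ℕ} (q : Fin k → ℕ) (m κ T : ℕ) : Prop :=
  (∃ j, q j ∣ T) ∨ ∃ j, 1 ≤ j ∧ j ≤ m ∧
    ¬ ((∏ j, q j) * Grid_899.G κ (j - 1) ≤ (T - Grid_899.Am (∏ j, q j) κ j) % Grid_899.G κ j ∧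
      (T - Grid_899.Am (∏ j, q j) κ j) % Grid_899.G κ j + (∏ j, q j) * Grid_899.G κ (j - 1) ≤
        Grid_899.G κ j)

theorem G_dvd {κ i j : ℕ} (h : i ≤ j) : Grid_899.G κ i ∣ Grid_899.G κ j := by
  unfold Grid_899.G
  exact pow_dvd_pow 2 (Nat.mul_le_mul_left κ h)

theorem bad_period {k : ℕ} (q : Fin k → ℕ) (m κ T : ℕ)
    (hT : Grid_899.Am (∏ j, q j) κ m ≤ T) :
    Bad q m κ (T + (∏ j, q j) * Grid_899.G κ m) ↔ Bad q m κ T := by
  unfold Bad
  have h1 : ∀ j, q j ∣ T + (∏ j, q j) * Grid_899.G κ m ↔ q j ∣ T := by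
    intro j
    have : q j ∣ (∏ j, q j) * Grid_899.G κ m :=
      Dvd.dvd.mul_right (Finset.dvd_prod_of_mem _ (Finset.mem_univ j)) _
    exact (Nat.dvd_add_left this)
  have h2 : ∀ j, j ≤ m → (T + (∏ j, q j) * Grid_899.G κ m - Grid_899.Am (∏ j, q j) κ j) %
      Grid_899.G κ j = (T - Grid_899.Am (∏ j, q j) κ j) % Grid_899.G κ j := by
    intro j hj
    have h3 : Grid_899.Am (∏ j, q j) κ j ≤ T := (Grid_899.Am_mono hj).trans hT
    obtain ⟨c, hc⟩ := G_dvd (κ := κ) hj
    have h4 : T + (∏ j, q j) * Grid_899.G κ m - Grid_899.Am (∏ j, q j) κ j =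
        (T - Grid_899.Am (∏ j, q j) κ j) + Grid_899.G κ j * ((∏ j, q j) * c) := by
      rw [hc]
      have : (∏ j, q j) * (Grid_899.G κ j * c) = Grid_899.G κ j * ((∏ j, q j) * c) := by ring
      rw [this]; omega
    rw [h4, Nat.add_mul_mod_self_left]
  constructor
  · rintro (⟨j, h⟩ | ⟨j, h3, h4, h5⟩)
    · exact Or.inl ⟨j, (h1 j).1 h⟩
    · rw [h2 j h4] at h5
      exact Or.inr ⟨j, h3, h4, h5⟩
  · rintro (⟨j, h⟩ | ⟨j, h3, h4, h5⟩)
    · exact Or.inl ⟨j, (h1 j).2 h⟩
    · refine Or.inr ⟨j, h3, h4, ?_⟩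
      rw [h2 j h4]; exact h5

/-- our bad totals are bad for 506's ruler -/
theorem bad_ruler {k : ℕ} (q : Fin k → ℕ) (m κ T : ℕ)
    (hT : Grid_899.Am (∏ j, q j) κ m ≤ T) (h : Bad q m κ T) :
    RulerGrid_506.Bad (Finset.univ.image q) m (∏ j, q j) (2^κ)
      (fun j => (Grid_899.Am (∏ j, q j) κ j : ℤ)) (T : ℤ) := by
  rcases h with ⟨j, h⟩ | ⟨j, h1, h2, h3⟩
  · exact Or.inl ⟨q j, Finset.mem_image_of_mem _ (Finset.mem_univ j), by exact_mod_cast h⟩
  · right
    refine ⟨j, h1, h2, ?_⟩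
    have hA : Grid_899.Am (∏ j, q j) κ j ≤ T := (Grid_899.Am_mono h2).trans hT
    have hG : Grid_899.G κ j = (2^κ)^j := by unfold Grid_899.G; rw [pow_mul]
    have hG1 : Grid_899.G κ (j-1) = (2^κ)^(j-1) := by unfold Grid_899.G; rw [pow_mul]
    set y := T - Grid_899.Am (∏ j, q j) κ j with hy
    have hyz : (T:ℤ) = Grid_899.Am (∏ j, q j) κ j + y := by omega
    have hdm := Nat.div_add_mod y (Grid_899.G κ j)
    have hlt := Nat.mod_lt y (Grid_899.G_pos (κ := κ) j)
    set r := y % Grid_899.G κ j with hr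
    set d := y / Grid_899.G κ j with hd
    have hdmz : (y:ℤ) = Grid_899.G κ j * d + r := by exact_mod_cast hdm.symm
    have hGz : ((Grid_899.G κ j : ℕ):ℤ) = ((2^κ : ℕ):ℤ)^j := by rw [hG]; push_cast; ring
    have hG1z : ((Grid_899.G κ (j-1) : ℕ):ℤ) = ((2^κ : ℕ):ℤ)^(j-1) := by rw [hG1]; push_cast; ring
    have h4 : ¬ ((∏ j, q j) * Grid_899.G κ (j - 1) ≤ r) ∨
        ¬ (r + (∏ j, q j) * Grid_899.G κ (j - 1) ≤ Grid_899.G κ j) := by
      by_contra hcon
      push Not at hcon
      exact h3 hcon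
    set w := (∏ j, q j) * Grid_899.G κ (j - 1) with hw
    have hwz : (w:ℤ) = ((∏ j, q j : ℕ):ℤ) * ((2^κ : ℕ):ℤ)^(j-1) := by
      rw [hw, Nat.cast_mul, hG1z]
    rcases h4 with h4 | h4
    · refine ⟨d, ?_⟩
      rw [← hwz, ← hGz]
      have e : (T:ℤ) - Grid_899.Am (∏ j, q j) κ j - d * ((Grid_899.G κ j : ℕ):ℤ) = r := by
        rw [hyz, hdmz]; ring
      rw [e, abs_of_nonneg (by positivity)]
      omega
    · refine ⟨d + 1, ?_⟩
      rw [← hwz, ← hGz]
      have e : (T:ℤ) - Grid_899.Am (∏ j, q j) κ j - (d+1) * ((Grid_899.G κ j : ℕ):ℤ) =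
          r - Grid_899.G κ j := by
        rw [hyz, hdmz]; ring
      rw [e, abs_le]
      constructor <;> omega

def pr {α S V : Type*} [AddCommGroup V] (φ : List α → S) (act : V → S → V)
    (lam rho : List α → Option V) (u : List α) (d : V) : Prop :=
  ∃ P Q v b, P ++ Q = u ∧ lam P = some v ∧ rho Q = some b ∧ d = b - act v (φ u)

open Classical in
/-- the canonical noise: `0` where nothing is cut -/
noncomputable def nuC {α S V : Type*} [AddCommGroup V] (φ : List α → S) (act : V → S → V)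
    (lam rho : List α → Option V) (u : List α) : V :=
  if h : ∃ d : V, pr φ act lam rho u d then h.choose else 0

theorem nuC_sound {α S V : Type*} [AddCommGroup V] (φ : List α → S) (act : V → S → V)
    (lam rho : List α → Option V) (nu : List α → V)
    (hs : ∀ P Q v b, lam P = some v → rho Q = some b → b = act v (φ (P ++ Q)) + nu (P ++ Q))
    (P Q : List α) (v b : V) (hP : lam P = some v) (hQ : rho Q = some b) :
    b = act v (φ (P ++ Q)) + nuC φ act lam rho (P ++ Q) := by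
  have hex : ∃ d : V, pr φ act lam rho (P ++ Q) d := ⟨_, P, Q, v, b, rfl, hP, hQ, rfl⟩
  have h1 : nuC φ act lam rho (P ++ Q) = hex.choose := by
    unfold nuC
    rw [dif_pos hex]
  obtain ⟨P', Q', v', b', h2, h3, h4, h5⟩ := hex.choose_spec
  rw [h1, h5, ← h2]
  have h6 := hs _ _ _ _ h3 h4
  have h7 := hs _ _ _ _ hP hQ
  have h8 : act v' (φ (P' ++ Q')) + nu (P' ++ Q') - act v' (φ (P' ++ Q')) = nu (P' ++ Q') := by abel
  have h9 : b' - act v' (φ (P' ++ Q')) = nu (P' ++ Q') := by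
    rw [← h8, ← h6]
  rw [h9, h2]
  exact h7

theorem pr_tr {α S V : Type*} [Monoid S] [AddCommGroup V] (φ : List α → S) (act : V → S → V)
    (hφ : ∀ u v, φ (u ++ v) = φ u * φ v)
    (lam rho : List α → Option V) (A N D : ℕ) (hN : ∀ P v, lam P = some v → P.length ≤ N)
    (hrho : ∀ Q Q' : List α, A ≤ Q.length → A ≤ Q'.length → Q.take A = Q'.take A →
      φ (Q.drop A) = φ (Q'.drop A) → Q.length % D = Q'.length % D → rho Q = rho Q')
    (u u' : List α) (h1 : A + N ≤ u.length) (h2 : A + N ≤ u'.length)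
    (h3 : u.take (A + N) = u'.take (A + N)) (h4 : φ (u.drop (A + N)) = φ (u'.drop (A + N)))
    (h5 : u.length % D = u'.length % D) (d : V) (h : pr φ act lam rho u d) :
    pr φ act lam rho u' d := by
  obtain ⟨P, Q, v, b, rfl, h7, h8, h9⟩ := h
  have hPN := hN _ _ h7
  have hPe : P = u'.take P.length := by
    have e1 : (P ++ Q).take P.length = P := List.take_left
    have e2 : ((P ++ Q).take (A + N)).take P.length = (P ++ Q).take P.length := by
      rw [List.take_take, min_eq_left (by omega)]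
    have e3 : (u'.take (A + N)).take P.length = u'.take P.length := by
      rw [List.take_take, min_eq_left (by omega)]
    rw [← e3, ← h3, e2, e1]
  have hQe : Q = (P ++ Q).drop P.length := List.drop_left.symm
  have hφu : φ (P ++ Q) = φ u' := by
    rw [← List.take_append_drop (A + N) (P ++ Q), ← List.take_append_drop (A + N) u', hφ, hφ, h3, h4]
  refine ⟨P, u'.drop P.length, v, b, ?_, h7, ?_, ?_⟩
  · have e := List.take_append_drop P.length u'
    rw [← hPe] at e
    exact e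
  · rw [← h8]
    have hlen : Q.length = (P ++ Q).length - P.length := by rw [List.length_append]; omega
    have gen : ∀ w : List α, A + N ≤ w.length → (w.drop P.length).take A =
        ((w.take (A + N)).drop P.length).take A := by
      intro w _
      rw [List.drop_take, List.take_take, min_eq_left (by omega)]
    have gen2 : ∀ w : List α, A + N ≤ w.length → φ ((w.drop P.length).drop A) =
        φ ((w.take (A + N)).drop (P.length + A)) * φ (w.drop (A + N)) := by
      intro w hw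
      rw [← hφ, List.drop_drop]
      congr 1
      have e := List.drop_append_of_le_length (l₁ := w.take (A + N)) (l₂ := w.drop (A + N))
        (i := P.length + A) (by rw [List.length_take]; omega)
      rw [List.take_append_drop] at e
      exact e
    apply hrho
    · rw [List.length_drop]; omega
    · rw [List.length_append] at h1; omega
    · rw [gen _ h2]
      conv_rhs => rw [hQe, gen _ h1]
      rw [h3]
    · rw [gen2 _ h2]
      conv_rhs => rw [hQe, gen2 _ h1]
      rw [h3, h4]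
    · rw [List.length_drop, hlen]
      have : u'.length ≡ (P ++ Q).length [MOD D] := h5.symm
      have h10 : (u'.length - P.length) + P.length ≡ ((P ++ Q).length - P.length) + P.length
          [MOD D] := by
        rw [Nat.sub_add_cancel (by omega), Nat.sub_add_cancel (by omega)]
        exact this
      exact Nat.ModEq.add_right_cancel' _ h10
  · rw [h9, hφu]

theorem nuC_dep {α S V : Type*} [Monoid S] [AddCommGroup V] (φ : List α → S) (act : V → S → V)
    (hφ : ∀ u v, φ (u ++ v) = φ u * φ v)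
    (lam rho : List α → Option V) (A N D : ℕ) (hN : ∀ P v, lam P = some v → P.length ≤ N)
    (hrho : ∀ Q Q' : List α, A ≤ Q.length → A ≤ Q'.length → Q.take A = Q'.take A →
      φ (Q.drop A) = φ (Q'.drop A) → Q.length % D = Q'.length % D → rho Q = rho Q')
    (u u' : List α) (h1 : A + N ≤ u.length) (h2 : A + N ≤ u'.length)
    (h3 : u.take (A + N) = u'.take (A + N)) (h4 : φ (u.drop (A + N)) = φ (u'.drop (A + N)))
    (h5 : u.length % D = u'.length % D) :
    nuC φ act lam rho u = nuC φ act lam rho u' := by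
  classical
  have key : ∀ p p' : V → Prop, p = p' →
      (if h : ∃ d, p d then h.choose else 0) = (if h : ∃ d, p' d then h.choose else 0) := by
    rintro p _ rfl; rfl
  unfold nuC
  refine key _ _ (funext fun d => propext ⟨fun h => ?_, fun h => ?_⟩)
  · exact pr_tr φ act hφ lam rho A N D hN hrho u u' h1 h2 h3 h4 h5 d h
  · exact pr_tr φ act hφ lam rho A N D hN hrho u' u h2 h1 h3.symm h4.symm h5.symm d h

universe u

/-- **the U-gadget with ruler and finite-state clauses, no hypothesis** -/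
theorem ugfull (S V : Type) [Monoid S] [Finite S] [AddCommGroup V] [Finite V]
    (act : V → S → V) :
    ∃ C0 : ℕ, ∀ K : ℕ, ∃ (A D : ℕ) (BadT : ℕ → Prop), 0 < D ∧ 0 < A ∧
      (∀ T, A ≤ T → (BadT (T + D) ↔ BadT T)) ∧
      (∀ N' : ℕ, ∃ x : ℕ → ℕ, StrictMono x ∧
        (∀ i j k l, i < K → j < K → k < K → l < K → i ≠ j → k ≠ l → ¬ (i = k ∧ j = l) →
          (N':ℤ) < |((x i:ℤ) - x j) - ((x k:ℤ) - x l)|) ∧
        ∀ (T : ℤ) (P : Finset (ℕ × ℕ)), (∀ ab ∈ P, ab.1 < K ∧ ab.2 < K ∧ ab.1 ≠ ab.2 ∧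
          ∃ T' : ℕ, (T':ℤ) = T + x ab.2 - x ab.1 ∧ A ≤ T' ∧ BadT T') → P.card ≤ C0) ∧
      ∀ {α : Type u} (φ : List α → S), (∀ u v, φ (u ++ v) = φ u * φ v) →
        ∃ (lam rho : List α → Option V) (nu : List α → V),
          (∀ P v, lam P = some v → P.length ≤ A ∧ P ≠ []) ∧
          (∀ Q b, rho Q = some b → A ≤ Q.length) ∧
          (∀ P Q v b, lam P = some v → rho Q = some b →
            b = act v (φ (P ++ Q)) + nu (P ++ Q)) ∧
          (∀ u : List α, 2 * A ≤ u.length → ¬ BadT u.length →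
            ∀ v, ∃ P Q, u = P ++ Q ∧ lam P = some v ∧ (rho Q).isSome) ∧
          (∀ Q Q' : List α, A ≤ Q.length → A ≤ Q'.length → Q.take A = Q'.take A →
            φ (Q.drop A) = φ (Q'.drop A) → Q.length % D = Q'.length % D → rho Q = rho Q') ∧
          (∀ u u' : List α, 2 * A ≤ u.length → 2 * A ≤ u'.length →
            u.take (2 * A) = u'.take (2 * A) → φ (u.drop (2 * A)) = φ (u'.drop (2 * A)) →
            u.length % D = u'.length % D → nu u = nu u') := by
  obtain ⟨k, m, H⟩ := Grid_899.grid_gadget_reg S V act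
  refine ⟨k + m, fun K => ?_⟩
  obtain ⟨q, hq1, hq2, hq3, hq4⟩ := primes k (8 * 4 ^ (K + 1))
  have hpos : 0 < ∏ j, q j := Finset.prod_pos fun j _ => (hq1 j).pos
  obtain ⟨κ, hκ⟩ : ∃ κ : ℕ, (100 * 4 ^ (K + 1)) * (∏ j, q j) ≤ 2 ^ κ :=
    ⟨_, (Nat.lt_two_pow_self (n := (100 * 4 ^ (K + 1)) * (∏ j, q j))).le⟩
  have hAm : Grid_899.Am (∏ j, q j) κ m ≤ Grid_899.Am (∏ j, q j) κ (m + 1) :=
    Grid_899.Am_mono (Nat.le_succ m)
  have hApos : 0 < Grid_899.Am (∏ j, q j) κ (m + 1) := by
    show 0 < Grid_899.Am (∏ j, q j) κ m + Grid_899.G κ m + (∏ j, q j) * Grid_899.G κ m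
    have := Grid_899.G_pos (κ := κ) m
    omega
  refine ⟨Grid_899.Am (∏ j, q j) κ (m + 1), (∏ j, q j) * Grid_899.G κ m, Bad q m κ,
    Nat.mul_pos hpos (Grid_899.G_pos (κ := κ) m), hApos, fun T hT => bad_period q m κ T (hAm.trans hT),
    fun N' => ?_, ?_⟩
  · obtain ⟨x, hx1, hx2, hx3⟩ := RulerGrid_506.exists_ruler K m N' (∏ j, q j) (2 ^ κ)
      (Finset.univ.image q) (fun j => (Grid_899.Am (∏ j, q j) κ j : ℤ)) hpos (by
        intro p hp
        obtain ⟨j, -, rfl⟩ := Finset.mem_image.1 hp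
        exact ⟨hq1 j, hq2 j, Finset.dvd_prod_of_mem _ (Finset.mem_univ j)⟩) hκ
    refine ⟨x, hx1, hx2, fun T P hP => ?_⟩
    classical
    have h1 := hx3 T
    have h2 : (Finset.univ.image q).card ≤ k := by
      have := Finset.card_image_le (s := Finset.univ) (f := q)
      simpa using this
    refine le_trans (Finset.card_le_card (fun ab hab => ?_)) (h1.trans (by omega))
    obtain ⟨a1, a2, a3, T', a4, a5, a6⟩ := hP ab hab
    rw [Finset.mem_filter, Finset.mem_product, Finset.mem_range, Finset.mem_range]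
    refine ⟨⟨a1, a2⟩, a3, ?_⟩
    rw [← a4]
    exact bad_ruler q m κ T' (hAm.trans a5) a6
  · intro α φ hφ
    obtain ⟨lam, rho, nu, g1, g2, g3, g4, g5⟩ := H q hq3 hq4 κ α φ hφ
    have hN : ∀ P v, lam P = some v → P.length ≤ Grid_899.Am (∏ j, q j) κ (m + 1) :=
      fun P v h => ((g1 P v h).1.le.trans hAm)
    have hrho : ∀ Q Q' : List α, Grid_899.Am (∏ j, q j) κ (m + 1) ≤ Q.length →
        Grid_899.Am (∏ j, q j) κ (m + 1) ≤ Q'.length →
        Q.take (Grid_899.Am (∏ j, q j) κ (m + 1)) = Q'.take (Grid_899.Am (∏ j, q j) κ (m + 1)) →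
        φ (Q.drop (Grid_899.Am (∏ j, q j) κ (m + 1))) =
          φ (Q'.drop (Grid_899.Am (∏ j, q j) κ (m + 1))) →
        Q.length % ((∏ j, q j) * Grid_899.G κ m) = Q'.length % ((∏ j, q j) * Grid_899.G κ m) →
        rho Q = rho Q' := fun Q Q' a b c d e => g5 Q Q' a b c d e
    refine ⟨lam, rho, nuC φ act lam rho, fun P v h => ⟨hN P v h, (g1 P v h).2⟩, g2,
      fun P Q v b hP hQ => nuC_sound φ act lam rho nu g3 P Q v b hP hQ, ?_, hrho, ?_⟩
    · intro u hu hb v
      refine g4 u hu (fun j hj => hb (Or.inl ⟨j, hj⟩)) (fun j h1 h2 => ?_) v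
      by_contra hcon
      exact hb (Or.inr ⟨j, h1, h2, hcon⟩)
    · intro u u' h1 h2 h3 h4 h5
      rw [two_mul] at h1 h2 h3 h4
      exact nuC_dep φ act hφ lam rho _ _ _ hN hrho u u' h1 h2 h3 h4 h5

end Crest.Agent.R320.UGFull_891
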