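import Crest.Agent.R320.Fin_6
import Crest.Agent.R320.UGFull_891

/-!
Row 320 (helper891): the black box gadget `Fin_6.GadW` of helper6, closed, over `UGFull_891`
(899's grid gadget + 506's ruler); then S0495 by `Fin_6.row'`.
-/

set_option autoImplicit false
set_option linter.all false

namespace Crest.Agent.R320.Row_891

open Crest.Agent.R320.ExactR_237 (pr pr_append)

theorem gadw (S V : Type) [Monoid S] [Finite S] [AddCommGroup V] [Finite V]
    (act : V → S → V) : Fin_6.GadW S V act := by
  classical
  obtain ⟨C0, H⟩ := UGFull_891.ugfull.{0} S V act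
  refine ⟨C0, fun K => ?_⟩
  obtain ⟨A, D, BadT, hD, hA, hper, hx, hg⟩ := H K
  obtain ⟨x, hx1, hx2, hx3⟩ := hx (2 * A)
  have hxK : ∀ k, k < K → x k ≤ x K := fun k hk => hx1.monotone hk.le
  refine ⟨A, 2 * A + x K, D, x, BadT, hD, fun i j hij _ => hx1 hij, ?_, ?_,
    fun T hT => hper T (by omega), ?_⟩
  · intro i i' j j' hi hi' hj hj' h1 h2 h3 h4
    by_contra hne
    have := hx2 i i' j j' hi hi' hj hj' (Ne.symm h1) (Ne.symm h2) (fun h => hne h.1)
    rw [lt_abs] at this
    push_cast at this
    omega
  · intro T hT hT1 I hI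
    have hch : ∀ k, ∃ k', k ∈ I → (k' < K ∧ k' ≠ k ∧ BadT (T + x k' - x k)) := by
      intro k
      by_cases hk : k ∈ I
      · obtain ⟨_, k', h⟩ := hI k hk
        exact ⟨k', fun _ => h⟩
      · exact ⟨0, fun h => absurd h hk⟩
    choose g hgk using hch
    have key := hx3 (T:ℤ) (I.image fun k => (k, g k)) (by
      intro ab hab
      obtain ⟨k, hk, rfl⟩ := Finset.mem_image.1 hab
      obtain ⟨a1, a2, a3⟩ := hgk k hk
      have b1 := (hI k hk).1
      have b2 := hxK k b1
      refine ⟨b1, a1, Ne.symm a2, T + x (g k) - x k, ?_, ?_, a3⟩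
      · show (((T + x (g k) - x k : ℕ)) : ℤ) = (T:ℤ) + x (g k) - x k
        omega
      · omega)
    rwa [Finset.card_image_of_injective _ (fun a b h => (Prod.mk.inj h).1)] at key
  · intro α f
    obtain ⟨lam, rho, nu, g1, g2, g3, g4, g5, g6⟩ := hg (α := α) (fun w => pr f w)
      (fun u v => pr_append f u v)
    refine ⟨lam, rho, nu, fun P v h => (g1 P v h).1, ?_, ?_, ?_⟩
    · intro P Q v r h1 h2
      exact g3 P Q v r h1 h2
    · intro Y hY hb v
      exact g4 Y (by omega) hb v
    · intro u u' hu hu' e1 e2 e3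
      have e4 : u.take (2 * A) = u'.take (2 * A) := Fin_6.take_of_take e1 (by omega)
      refine g6 u u' (by omega) (by omega) e4 ?_ e2
      show pr f (u.drop (2 * A)) = pr f (u'.drop (2 * A))
      rw [← List.take_append_drop (x K) (u.drop (2 * A)),
        ← List.take_append_drop (x K) (u'.drop (2 * A)),
        pr_append, pr_append, List.drop_drop, List.drop_drop, e3]
      congr 2
      have := congrArg (List.drop (2 * A)) e1
      rwa [List.drop_take, List.drop_take, show 2 * A + x K - 2 * A = x K by omega] at this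

theorem row (α : Type*) [Finite α] (L : Language α) (hL : L.IsRegular) :
    ∃ e : Crest.RegLang.GRegExp α, e.height ≤ 3 ∧ e.lang = L :=
  Fin_6.row' (fun S V _ _ _ _ act => (gadw S V act).gad) α L hL

end Crest.Agent.R320.Row_891
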