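import Crest.Agent.R320.Join_937
import Crest.Agent.R320.G1_604
import Crest.Agent.R320.Sp_21
import Crest.Agent.R320.RegCongr_253
import Crest.Agent.R320.Univ_582

/-! Row 320: end of the proof: gadget of scheme 1 (`G1_604.g1`), ruler (`Sp_21.spoil`), join
(`Join_937.join`), universes (`Univ_582.final`). -/

set_option autoImplicit false

namespace Crest.Agent.R320.Row_937

open Crest.RegLang Crest.Agent.R320.Hk_851

theorem digit_shift {M b m j T : ℕ} (hb : 0 < b) (hj : j < m) :
    (T + M * b ^ m) / b ^ j % b = T / b ^ j % b := by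
  obtain ⟨d, rfl⟩ : ∃ d, m = j + (d + 1) := ⟨m - j - 1, by omega⟩
  have e : T + M * b ^ (j + (d + 1)) = T + b ^ j * (M * b ^ d * b) := by ring
  rw [e, Nat.add_mul_div_left _ _ (Nat.pow_pos hb), Nat.add_mul_mod_self_right]

theorem bad_per {m M b : ℕ} {Ms : Finset ℕ} (hb : 0 < b) (hMs : ∀ k ∈ Ms, k ∣ M) (T : ℕ) :
    Sp_21.Bad m M b Ms (T + M * b ^ m) ↔ Sp_21.Bad m M b Ms T := by
  unfold Sp_21.Bad
  apply or_congr
  · constructor
    · rintro ⟨k, hk, h⟩
      exact ⟨k, hk, (Nat.dvd_add_left (Dvd.dvd.mul_right (hMs k hk) _)).1 h⟩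
    · rintro ⟨k, hk, h⟩
      exact ⟨k, hk, (Nat.dvd_add_left (Dvd.dvd.mul_right (hMs k hk) _)).2 h⟩
  · constructor
    · rintro ⟨j, hj, h⟩
      rw [digit_shift hb hj] at h
      exact ⟨j, hj, h⟩
    · rintro ⟨j, hj, h⟩
      refine ⟨j, hj, ?_⟩
      rw [digit_shift hb hj]
      exact h

theorem ug (S V : Type) [Monoid S] [Finite S] [AddCommGroup V] [Finite V] (act : V → S → V) :
    Join_937.UG S V act := by
  classical
  obtain ⟨m, r, H⟩ := G1_604.g1 S V act
  refine ⟨r + m, fun K => ?_⟩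
  obtain ⟨Ms, M, hcard, hMs, hM, H⟩ := H (2 ^ (K + 1))
  set b := (2 ^ (K + 4) + 12) * M + 1 with hbdef
  have hpow : 0 < 2 ^ (K + 4) := by positivity
  have hb1 : 4 * M + 4 < b := by
    rw [hbdef]
    have h1 : 16 ≤ 2 ^ (K + 4) := by
      calc 16 = 2 ^ 4 := by norm_num
        _ ≤ 2 ^ (K + 4) := Nat.pow_le_pow_right (by norm_num) (by omega)
    nlinarith
  have hb2 : Nat.Coprime b M := by
    rw [hbdef]
    simp
  have hb3 : (2 ^ (K + 4) + 2) * M < b := by
    rw [hbdef]
    nlinarith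
  have hb0 : 0 < b := by omega
  obtain ⟨c, hc1, hc2, hc3⟩ := Sp_21.spoil K (b ^ m) m M b Ms hM
    (fun k hk => ⟨(hMs k hk).2.2, (hMs k hk).1.le⟩) hb2 hb3
  have hcm : ∀ i j, i < j → c i < c j := fun i j hij => by
    have := hc1 i j hij
    omega
  refine ⟨b ^ m, c K, M * b ^ m, c, Sp_21.Bad m M b Ms, Nat.pow_pos hb0,
    Nat.mul_pos hM (Nat.pow_pos hb0), bad_per hb0 (fun k hk => (hMs k hk).2.2), hcm, ?_, ?_, ?_⟩
  · intro k k' l l' _ _ _ _ h1 h2 h3 h4
    by_contra hne
    rcases hc2 k' k l' l h1 h2 (fun h => hne (by injection h)) with h | h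
    · omega
    · omega
  · intro T hT J hJ
    choose! k' hk' using fun k (hk : k ∈ J) => (hJ k hk).2
    have hcard' : (J.image fun k => (k, k' k)).card = J.card := by
      apply Finset.card_image_of_injOn
      intro a _ b _ h
      have h' : (a, k' a) = (b, k' b) := h
      injection h'
    have := hc3 T (fun i hi => (hcm i K hi).le.trans hT) (J.image fun k => (k, k' k)) (by
      intro p hp
      obtain ⟨k, hk, rfl⟩ := Finset.mem_image.1 hp
      exact ⟨(hJ k hk).1, (hk' k hk).1, fun h => (hk' k hk).2.1 h.symm, (hk' k hk).2.2⟩)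
    rw [hcard'] at this
    omega
  · intro α _ f
    obtain ⟨lam, rho, nu, h1, h2, h3, h4⟩ := H b hb1 hb2 α f
    refine ⟨lam, rho, nu, fun P v h => (h1 P v h).le, fun P Q u b' hu hb' => h2 P Q u b' hu hb',
      ?_, ?_⟩
    · intro X hX v
      have hX1 : ∀ k ∈ Ms, ¬ k ∣ X.length := fun k hk h => hX (Or.inl ⟨k, hk, h⟩)
      have hX2 : ∀ j < m, M ≤ X.length / b ^ j % b ∧ X.length / b ^ j % b + M + 1 ≤ b := by
        intro j hj
        by_contra h
        exact hX (Or.inr ⟨j, hj, h⟩)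
      obtain ⟨P, Q, h5, h6, h7⟩ := h3 X hX1 hX2 v
      exact ⟨P, Q, h5.symm, h6, h7⟩
    · intro y
      refine RegCongr_253.regular_of_congr f (b ^ m) (M * b ^ m)
        (Nat.mul_pos hM (Nat.pow_pos hb0)) _ ?_
      intro q q' hq hq' ht hl hp hy
      have := (h4 q q' hq hq' ht hl hp).2
      have hy' : nu q = y := hy
      show nu q' = y
      rw [← this]; exact hy'

/-- fibres of a finite monoid -/
theorem fib (α : Type) [Finite α] (S : Type) [Monoid S] [Finite S] (f : α → S) (s : S) :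
    HL 3 ({w | (w.map f).prod = s} : Language α) := by
  classical
  let V := S → ZMod 2
  let act : V → S → V := fun v s x => v (s * x)
  refine Join_937.join (S := S) (V := V) act ?_ ?_ ?_ ?_ (ug S V act) α f s
  · intro a b s
    rfl
  · intro v
    funext x
    show v (1 * x) = v x
    rw [one_mul]
  · intro v s t
    funext x
    show v (s * t * x) = v (s * (t * x))
    rw [mul_assoc]
  · intro s t h
    have h1 := congrFun (h (fun x => if x = s then 1 else 0)) 1
    have h2 : (if s * 1 = s then (1 : ZMod 2) else 0) = if t * 1 = s then 1 else 0 := h1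
    rw [mul_one, mul_one, if_pos rfl] at h2
    by_contra hne
    rw [if_neg (fun h => hne h.symm)] at h2
    exact one_ne_zero h2

theorem row.{u} (α : Type u) [Finite α] (L : Language α) (hL : L.IsRegular) :
    ∃ e : Crest.RegLang.GRegExp α, e.height ≤ 3 ∧ e.lang = L :=
  Univ_582.final (k := 3) (fun β _ S _ _ φ s => fib β S φ s) α L hL

end Crest.Agent.R320.Row_937
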