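import Crest.Agent.R320.UGf_943
import Crest.Agent.R320.Joint_943
import Crest.Agent.R320.Top5_110
import Crest.Agent.R320.Univ_119

/-!
Row 320, helper943: the end-to-end assembly.
-/

set_option autoImplicit false
set_option linter.unusedVariables false

namespace Crest.Agent.R320.Row_943

open Finset Crest.RegLang
open Crest.Agent.R320.Hgt1_903 (H)
open Crest.Agent.R320.Hk_851 (HL)
open Crest.Agent.R320.Code110
open Crest.Agent.R320.Fib_835 (XX NX Walls mem_NX prefix_code cl_XX cl_NX H_XX exists_walls)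
open Crest.Agent.R320.P3_943 (Cand TT scheme2)
open Crest.Agent.R320.Joint_943

section inv

variable {α : Type} {Wo : List α → Prop} {n B W z : ℕ}

theorem inv_hl [Finite α] (h : Walls Wo n B W) (hn : 0 < n) {S : Type} [Monoid S] [Finite S]
    (f : α → S) (cc mm : ℕ) (hm : 0 < mm) (Pd : List α → Prop)
    (hinv : ∀ X ∈ XX Wo z, ∀ X' ∈ XX Wo z, X.take cc = X'.take cc →
      ((X.drop cc).map f).prod = ((X'.drop cc).map f).prod → X.length % mm = X'.length % mm →
      Pd X → Pd X') :
    H 1 ({X | X ∈ XX Wo z ∧ Pd X} : Language α) := by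
  refine Hgt1_903.H.congr ((cl_XX h hn z).fin_mod f cc mm hm (fun l s r => ∃ X' ∈ XX Wo z,
    X'.take cc = l ∧ ((X'.drop cc).map f).prod = s ∧ X'.length % mm = r ∧ Pd X')) fun w => ?_
  constructor
  · rintro ⟨hw, X', hX', e1, e2, e3, hP⟩
    exact ⟨hw, hinv X' hX' w hw e1 e2 e3 hP⟩
  · rintro ⟨hw, hP⟩
    exact ⟨hw, w, hw, rfl, rfl, rfl, hP⟩

theorem per_int {BT : ℤ → Prop} {Mm : ℕ} (hper : ∀ T, BT (T + (Mm : ℤ)) ↔ BT T) (T : ℤ) (k : ℤ) :
    BT (T + k * Mm) ↔ BT T := by
  induction k using Int.induction_on with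
  | zero => simp
  | succ i ih =>
    rw [← ih, ← hper (T + i * Mm)]
    have : T + (i + 1) * (Mm : ℤ) = T + i * Mm + Mm := by ring
    rw [this]
  | pred i ih =>
    rw [← ih, ← hper (T + (-i - 1) * Mm)]
    have : T + (-i - 1) * (Mm : ℤ) + Mm = T + -i * Mm := by ring
    rw [this]

theorem per_mod {BT : ℤ → Prop} {Mm : ℕ} (hper : ∀ T, BT (T + (Mm : ℤ)) ↔ BT T) {a b : ℕ} (p : ℕ)
    (hab : a % Mm = b % Mm) : BT ((a : ℤ) - p) → BT ((b : ℤ) - p) := by
  intro h
  have h1 : (Mm : ℤ) ∣ (b : ℤ) - a := (Nat.modEq_iff_dvd).1 hab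
  obtain ⟨k, hk⟩ := h1
  have : (b : ℤ) - p = ((a : ℤ) - p) + k * Mm := by linarith
  rw [this]
  exact (per_int hper _ k).2 h

end inv

theorem pow_zero_nil {α : Type} (L : Language α) {t : List α} (ht : t ∈ L ^ 0) : t = [] := by
  rw [pow_zero] at ht
  exact (Language.mem_one t).1 ht

theorem row0 (α : Type) [Finite α] (S : Type) [Monoid S] [Finite S] (f : α → S) (s : S) :
    HL 3 ({w | (w.map f).prod = s} : Language α) := by
  classical
  have := Fintype.ofFinite S
  let V : Type := S → ZMod 2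
  let act : V → S → V := fun v s => fun t => v (s * t)
  have act_mul : ∀ (v : V) (s t : S), act v (s * t) = act (act v s) t := by
    intro v s t
    funext r
    show v (s * t * r) = v (s * (t * r))
    rw [mul_assoc]
  have act_one : ∀ v : V, act v 1 = v := by
    intro v
    funext r
    show v (1 * r) = v r
    rw [one_mul]
  have act_add : ∀ (v w : V) (s : S), act (v + w) s = act v s + act w s := fun v w s => rfl
  have act_sub : ∀ (v w : V) (s : S), act (v - w) s = act v s - act w s := fun v w s => rfl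
  have faith : ∀ s t : S, (∀ v, act v s = act v t) → s = t := by
    intro s t hst
    have h1 := congrFun (hst (Pi.single s 1)) 1
    have h2 : (Pi.single s (1 : ZMod 2) : S → ZMod 2) (s * 1) =
      (Pi.single s (1 : ZMod 2) : S → ZMod 2) (t * 1) := h1
    rw [mul_one, mul_one, Pi.single_eq_same] at h2
    by_contra hne
    rw [Pi.single_eq_of_ne (fun e => hne e.symm)] at h2
    exact one_ne_zero h2
  let φ : List α → S := fun w => (w.map f).prod
  have φ_one : φ [] = 1 := rfl
  have φ_mul : ∀ u v, φ (u ++ v) = φ u * φ v := by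
    intro u v
    show ((u ++ v).map f).prod = _
    rw [List.map_append, List.prod_append]
  obtain ⟨C0, hug⟩ := UGf_943.ug S V act
  obtain ⟨K, hK⟩ := scheme2 (A := α) φ φ_one φ_mul act (2 * C0 + 2)
  obtain ⟨N1, A0, Mm, BT, hMm, hNA, hper, hrul, hg⟩ := hug K
  obtain ⟨x, hxm, hres, hsp⟩ := hrul (2 * N1)
  obtain ⟨lam, rho, nu1, g1, g2, g3, g4⟩ := hg α φ φ_mul
  obtain ⟨nu2, lam2, h2⟩ := hK x (fun i j hij _ => hxm hij)
  set p0 := x K with hp0
  have hxle : ∀ k < K, x k ≤ p0 := fun k hk => (hxm hk).le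
  obtain ⟨Wo, n, B, hn, hw⟩ := exists_walls α (2 * (p0 + N1) + 1) (by omega)
  set z := p0 + n + 3 * N1 + A0 + 1 with hz
  have hpc : ∀ X ∈ XX Wo z, ∀ Y, X ++ Y ∈ XX Wo z → Y = [] :=
    fun X hX Y hY => prefix_code hX hY
  obtain ⟨R2, r1, r2, r3⟩ := h2 p0 (XX Wo z) (BadB Wo BT p0 N1 z) nu1 hxle
    (fun X hX => by have := hX.1; omega) hpc
    (fun u u' Q hl hp hX => loc hw (by omega) u u' Q hl hp hX)
    (fun k hk k' hk' u u' Q1 X2 hu hu' hX hX2 => exi hw (by omega) u Q1 X2 hX2)
    (fun X hX X2 hX2 hb I hI hcard => count hw BT K C0 p0 N1 z (2 * N1) x hxle (by omega)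
      (by omega) le_rfl hres hsp hX hX2 I hI hcard)
  let BadS : Language α := {X | X ∈ XX Wo z ∧ BadB Wo BT p0 N1 z X}
  let T : List α → V → V := fun X v => TT φ act nu2 nu1 p0 v X
  have hXl : ∀ X ∈ XX Wo z, z ≤ X.length := fun X hX => hX.1
  set cc := z + N1 + A0 + p0 + 1 with hcc
  -- reading
  have htk : ∀ (X X' : List α) (t : ℕ), t ≤ cc → X.take cc = X'.take cc →
      X.take t = X'.take t := by
    intro X X' t ht he
    have := congrArg (List.take t) he
    rwa [List.take_take, List.take_take, min_eq_left ht] at this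
  have hφd : ∀ X : List α, z ≤ X.length →
      φ (X.drop p0) = φ ((X.take cc).drop p0) * φ (X.drop cc) := by
    intro X hX
    rw [← φ_mul]
    congr 1
    conv_lhs => rw [← List.take_append_drop cc X]
    exact List.drop_append_of_le_length (by rw [List.length_take]; omega)
  have hTinv : ∀ v, ∀ X ∈ XX Wo z, ∀ X' ∈ XX Wo z, X.take cc = X'.take cc →
      ((X.drop cc).map f).prod = ((X'.drop cc).map f).prod → X.length % Mm = X'.length % Mm →
      T X v = T X' v := by
    intro v X hX X' hX' e1 e2 e3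
    have l1 := hXl X hX
    have l2 := hXl X' hX'
    have q1 : X.take p0 = X'.take p0 := htk X X' p0 (by omega) e1
    have q2 : φ (X.drop p0) = φ (X'.drop p0) := by
      rw [hφd X l1, hφd X' l2, e1]
      congr 1
    have q3 : nu1 (X.drop p0) = nu1 (X'.drop p0) := by
      refine g4 _ _ (by rw [List.length_drop]; omega) (by rw [List.length_drop]; omega) ?_ q2 ?_
      · have := htk X X' (p0 + A0) (by omega) e1
        have h5 := congrArg (List.drop p0) this
        rwa [List.drop_take, List.drop_take, Nat.add_sub_cancel_left] at h5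
      · rw [List.length_drop, List.length_drop]
        have : p0 + (X.length - p0) ≡ p0 + (X'.length - p0) [MOD Mm] := by
          rw [Nat.add_sub_cancel' (by omega), Nat.add_sub_cancel' (by omega)]
          exact e3
        exact Nat.ModEq.add_left_cancel' _ this
    show TT φ act nu2 nu1 p0 v X = TT φ act nu2 nu1 p0 v X'
    unfold P3_943.TT
    rw [q1, q2, q3]
  refine Top5_110.top_sem (φ := φ) (act := act) (XX := (XX Wo z : Language α)) (Bad := BadS)
    (T := T) (N1 := 0) (N2 := 1)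
    (L1 := fun v => ({P | L1 φ act nu2 lam p0 v P} : Language α))
    (L2 := fun v => ({P | ∃ k < K, P.length = x k ∧ lam2 k P = some v} : Language α))
    φ_one φ_mul act_one act_mul faith ?_ ?_ ?_ ?_ ?_ ?_ ?_ ?_ ?_ ?_ ?_ s
  · -- prefix code
    refine ⟨fun h0 => ?_, fun u hu v hv huv => ?_⟩
    · have := hXl _ h0
      simp only [List.length_nil] at this
      omega
    · obtain ⟨r, rfl⟩ := huv
      rw [hpc u hu r hv, List.append_nil]
  · intro u hu
    exact hu.1
  · intro u hu v v'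
    show TT φ act nu2 nu1 p0 v u - TT φ act nu2 nu1 p0 v' u = act (v - v') (φ u)
    have e : φ u = φ (u.take p0) * φ (u.drop p0) := by
      rw [← φ_mul, List.take_append_drop]
    unfold P3_943.TT
    rw [e, act_mul, act_sub, act_sub, act_add, act_add]
    abel
  · exact H_XX hw 1 z
  · refine inv_hl hw hn f cc Mm hMm (BadB Wo BT p0 N1 z) ?_
    intro X hX X' hX' e1 e2 e3 hb
    rcases hb with ⟨t, t1, t2, t3, t4⟩ | hb
    · left
      have hlen := congrArg List.length e1
      rw [List.length_take, List.length_take] at hlen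
      refine ⟨t, t1, t2, by omega, ?_⟩
      rw [← htk X X' t (by omega) e1]
      exact t4
    · right
      exact per_mod hper p0 e3 hb
  · intro v v'
    refine inv_hl hw hn f cc Mm hMm (fun X => T X v = v') ?_
    intro X hX X' hX' e1 e2 e3 hb
    rw [← hTinv v X hX X' hX' e1 e2 e3]
    exact hb
  · intro s'
    have h5 := (cl_NX hw hn z) S f s'
    refine (Hk_851.HL.mono (k := 1) (by norm_num) ?_)
    refine Hk_851.HL.congr (k := 1) h5 fun w => ?_
    constructor
    · rintro ⟨h6, h7⟩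
      exact ⟨(mem_NX w).2 h6, h7⟩
    · rintro ⟨h6, h7⟩
      exact ⟨(mem_NX w).1 h6, h7⟩
  · intro v
    refine (List.finite_length_le α (p0 + N1)).subset ?_
    rintro P ⟨X0, P1, rfl, hX0, hl⟩
    have := g2 _ _ hl
    show (X0 ++ P1).length ≤ p0 + N1
    rw [List.length_append]
    omega
  · intro v
    refine (List.finite_length_le α p0).subset ?_
    rintro P ⟨k, hk, hP, -⟩
    have := hxle k hk
    show P.length ≤ p0
    omega
  · intro u hu hub v t ht
    have ht' : t = [] := pow_zero_nil _ ht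
    subst ht'
    have hnb : ¬ BadB Wo BT p0 N1 z u := fun hb => hub ⟨hu, hb⟩
    obtain ⟨P, Q, e, hP, y, hy⟩ := sem1 hw φ act nu2 nu1 lam rho BT p0 N1 z g1 g2 g3 (by omega)
      hu hnb v
    refine ⟨P, Q, y, by rw [List.append_nil]; exact e, hP, ?_⟩
    intro v' P' hP'
    left
    obtain ⟨k1, k2⟩ := hy v' P' hP'
    exact ⟨y, Language.mem_mul.2 ⟨P' ++ Q, ⟨k1, k2⟩, [], ⟨rfl, rfl⟩, by simp⟩⟩
  · intro u hu v t ht
    rw [pow_one] at ht
    obtain ⟨hu1, hu2⟩ := hu
    obtain ⟨P, Q, e, -, hP, hQ⟩ := r3 u hu1 t ht.1 hu2 v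
    obtain ⟨b, hb⟩ := Option.isSome_iff_exists.1 hQ
    refine ⟨P, Q, b, e, hP, ?_⟩
    intro v' P' hP'
    by_cases hprom : ∀ X ∈ XX Wo z, X <+: P' ++ Q → BadB Wo BT p0 N1 z X
    · obtain ⟨Q1, X2, rfl, hQ1, k1, k2, k3⟩ := r2 P' v' Q b hP' hb hprom
      have hb1 : BadB Wo BT p0 N1 z (P' ++ Q1) := hprom _ k1
        ⟨X2, by rw [List.append_assoc]⟩
      by_cases hb2 : BadB Wo BT p0 N1 z X2
      · left
        refine ⟨T (P' ++ Q1) v', Language.mem_mul.2 ⟨P' ++ Q1, ⟨⟨k1, hb1⟩, rfl⟩, X2, ?_,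
          by rw [List.append_assoc]⟩⟩
        exact ⟨b, Language.mem_mul.2 ⟨X2, ⟨⟨k2, hb2⟩, k3⟩, [], ⟨rfl, rfl⟩, by simp⟩⟩
      · right
        right
        refine Language.mem_mul.2 ⟨P' ++ Q1, k1, X2, ⟨X2, k2, fun h6 => hb2 h6.2,
          List.prefix_rfl⟩, by rw [List.append_assoc]⟩
    · push Not at hprom
      obtain ⟨X, hX, hXp, hXb⟩ := hprom
      right
      left
      exact ⟨X, hX, fun h6 => hXb h6.2, hXp⟩

/-- all regular languages over small alphabets -/
theorem result0 (α : Type) [Finite α] (L : Language α) (hL : L.IsRegular) :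
    ∃ e : GRegExp α, e.height ≤ 3 ∧ e.lang = L :=
  Hk_851.of_monoid (k := 3) (fun S _ _ φ s => row0 α S φ s) L hL

universe u

/-- **Row 320.** -/
theorem row (α : Type u) [Finite α] (L : Language α) (hL : L.IsRegular) :
    ∃ e : GRegExp α, e.height ≤ 3 ∧ e.lang = L :=
  Univ_119.bridge result0 α L hL

end Crest.Agent.R320.Row_943
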