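import Crest.Agent.R320.Gad_963
import Crest.Agent.R320.Univ_294

/-!
# Row 320 (helper963): the row, `Fin_963.main` + `Gad_963.gad1` + 294's universe adaptor
-/

set_option autoImplicit false

namespace Crest.Agent.R320.Row_963

theorem hl3 (β : Type) [Finite β] (S : Type) [Monoid S] [Finite S] (φ : β → S) (s : S) :
    Crest.Agent.R320.Hk_851.HL 3 ({w | (w.map φ).prod = s} : Language β) :=
  Fin_963.main φ (Gad_963.gad1 S (S → ZMod 2) Fin_963.act) s

theorem row (α : Type*) [Finite α] (L : Language α) (hL : L.IsRegular) :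
    ∃ e : Crest.RegLang.GRegExp α, e.height ≤ 3 ∧ e.lang = L :=
  Univ_294.s0495_of_types hl3 α L hL

end Crest.Agent.R320.Row_963
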