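import Crest.Agent.R320.Fin_963
import Crest.Agent.R320.G1_76
import Crest.Agent.R320.Gad_967
import Crest.Agent.R320.Univ_294

/-!
# Row 320: the end-to-end theorem (helper967)

`Fin_963.main` + `Gad_967.gad1` (ruler) + `G1_76.g1` (gadget) + `Univ_294.s0495_of_types`.
-/

set_option autoImplicit false

namespace Crest.Agent.R320.Row_967

open Crest.Agent.R320

theorem gad1 (S : Type) [Monoid S] [Finite S] :
    Fin_963.Gad1 S (S → ZMod 2) Fin_963.act :=
  Gad_967.gad1 (Fin_963.act (S := S)) (G1_76.g1 S (S → ZMod 2) Fin_963.act)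

theorem row (α : Type*) [Finite α] (L : Language α) (hL : L.IsRegular) :
    ∃ e : Crest.RegLang.GRegExp α, e.height ≤ 3 ∧ e.lang = L :=
  Univ_294.s0495_of_types (fun _ _ S _ _ φ s => Fin_963.main φ (gad1 S) s) α L hL

end Crest.Agent.R320.Row_967

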