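import Crest.Agent.R320.Sp_365

/-!
Row 320, leaf RUL of helper763's post #14130.
-/

set_option autoImplicit false

namespace Crest.Agent.R320.Rul_365

open Crest.Agent.R320.Sp_365

open Classical in
theorem spoilZ (K N1 r m M b : ℕ) (Ms : Finset ℕ) (hM : 0 < M) (hcop : Nat.Coprime b M)
    (hMs : ∀ k ∈ Ms, 2 ^ (K + 2) < k ∧ k ∣ M) (hc : Ms.card ≤ r)
    (hb : 2 ^ (K + 5) * M ≤ b) :
    ∃ c : ℕ → ℕ, (∀ i j, i < j → c i + 4 * N1 < c j) ∧
      (∀ i j i' j', i < K → j < K → i' < K → j' < K → i ≠ j → (i ≠ i' ∨ j ≠ j') →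
        4 * (N1:ℤ) < |((c i:ℤ) - c j) - (c i' - c j')|) ∧
      ∀ T : ℤ,
        ((Finset.range K ×ˢ Finset.range K).filter
          (fun ij => ij.1 ≠ ij.2 ∧ ∃ n : ℕ, (n : ℤ) = T - ((c ij.1 : ℤ) - c ij.2) ∧
            Bad b m M Ms n)).card ≤ r + m := by
  have hK : 1 ≤ 2 ^ K := Nat.one_le_two_pow
  have hpow : 2 ^ (K + 5) = 32 * 2 ^ K := by rw [pow_add]; ring
  have hb2 : 32 * 2 ^ K ≤ b := by
    rw [hpow] at hb
    exact le_trans (Nat.le_mul_of_pos_right _ hM) hb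
  have hMb : M ≤ b := by
    rw [hpow] at hb
    exact le_trans (Nat.le_mul_of_pos_left _ (by positivity)) hb
  have hcop' : Nat.Coprime M (b ^ m) := (Nat.Coprime.pow_left m hcop).symm
  obtain ⟨k0, hk1, hk2⟩ := Nat.chineseRemainder hcop' 1 (4 * M * rep b m)
  set K0 := k0 + M * b ^ m * (4 * N1 + 1) with hK0
  have hbm : 0 < b ^ m := pow_pos (by omega) m
  have hK0big : 4 * N1 < K0 := by
    have : 4 * N1 + 1 ≤ M * b ^ m * (4 * N1 + 1) :=
      Nat.le_mul_of_pos_left _ (Nat.mul_pos hM hbm)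
    omega
  have hKmod1 : ∃ u : ℤ, (K0 : ℤ) = 1 + M * u := by
    have h1 : (M : ℤ) ∣ (k0 : ℤ) - 1 := by
      have := (Nat.modEq_iff_dvd.1 hk1.symm)
      simpa using this
    obtain ⟨u, hu⟩ := h1
    refine ⟨u + b ^ m * (4 * N1 + 1), ?_⟩
    rw [hK0]
    push_cast
    linear_combination hu
  have hKmodb : ∃ u : ℤ, (K0 : ℤ) = 4 * M * rep b m + b ^ m * u := by
    have h1 : ((b ^ m : ℕ) : ℤ) ∣ (k0 : ℤ) - ((4 * M * rep b m : ℕ) : ℤ) :=
      Nat.modEq_iff_dvd.1 hk2.symm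
    obtain ⟨u, hu⟩ := h1
    refine ⟨u + M * (4 * N1 + 1), ?_⟩
    rw [hK0]
    push_cast at hu ⊢
    linear_combination hu
  refine ⟨fun i => 2 ^ i * K0, ?_, ?_, ?_⟩
  · intro i j hij
    have h1 : 2 ^ i + 1 ≤ 2 ^ j := Nat.pow_lt_pow_right (by norm_num) hij
    have h2 : (2 ^ i + 1) * K0 ≤ 2 ^ j * K0 := Nat.mul_le_mul_right _ h1
    show 2 ^ i * K0 + 4 * N1 < 2 ^ j * K0
    have h3 : (2 ^ i + 1) * K0 = 2 ^ i * K0 + K0 := by ring
    omega
  · intro i j i' j' hi hj hi' hj' hij hne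
    have hE : ((2:ℤ) ^ i - 2 ^ j) - (2 ^ i' - 2 ^ j') ≠ 0 := by
      intro h0
      rcases pow2 (show (2:ℤ) ^ i - 2 ^ j = 2 ^ i' - 2 ^ j' by linarith) with h | h
      · rcases hne with hne | hne
        · exact hne h.1
        · exact hne h.2
      · exact hij h.1
    have e : (((2 ^ i * K0 : ℕ) : ℤ) - ((2 ^ j * K0 : ℕ) : ℤ))
        - (((2 ^ i' * K0 : ℕ) : ℤ) - ((2 ^ j' * K0 : ℕ) : ℤ))
        = (((2:ℤ) ^ i - 2 ^ j) - (2 ^ i' - 2 ^ j')) * K0 := by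
      push_cast; ring
    show 4 * (N1:ℤ) < |(((2 ^ i * K0 : ℕ) : ℤ) - ((2 ^ j * K0 : ℕ) : ℤ))
        - (((2 ^ i' * K0 : ℕ) : ℤ) - ((2 ^ j' * K0 : ℕ) : ℤ))|
    rw [e, abs_mul]
    have h1 := Int.one_le_abs hE
    have h2 : (0:ℤ) ≤ K0 := by positivity
    rw [abs_of_nonneg h2]
    have h3 : 4 * (N1:ℤ) < K0 := by exact_mod_cast hK0big
    nlinarith
  · intro T
    set Pr := (Finset.range K ×ˢ Finset.range K).filter (fun ab => ab.1 ≠ ab.2) with hPr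
    have fin : ∀ i j i' j', i < K → j < K → i' < K → j' < K → i ≠ j →
        ((2:ℤ) ^ i - 2 ^ j) - (2 ^ i' - 2 ^ j') = 0 → i = i' ∧ j = j' := by
      intro i j i' j' _ _ _ _ hij h0
      rcases pow2 (show (2:ℤ) ^ i - 2 ^ j = 2 ^ i' - 2 ^ j' by linarith) with h | h
      · exact h
      · exact absurd h.1 hij
    have hEb : ∀ i j i' j', i < K → j < K → i' < K → j' < K →
        |((2:ℤ) ^ i - 2 ^ j) - (2 ^ i' - 2 ^ j')| ≤ 2 ^ (K + 1) := by
      intro i j i' j' hi hj hi' hj'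
      have h3 := pow_bound hi hj
      have h4 := pow_bound hi' hj'
      have e : (2:ℤ) ^ (K+1) = 2 * 2 ^ K := by rw [pow_succ]; ring
      have h5 : |((2:ℤ) ^ i - 2 ^ j) - (2 ^ i' - 2 ^ j')| ≤ |(2:ℤ) ^ i - 2 ^ j| + |(2:ℤ) ^ i' - 2 ^ j'| :=
        abs_sub _ _
      linarith
    have card1 : ∀ (p : ℕ × ℕ → Prop) [DecidablePred p], (∀ i j i' j', i < K → j < K → i' < K → j' < K →
        i ≠ j → i' ≠ j' → p (i, j) → p (i', j') → i = i' ∧ j = j') →
        (Pr.filter p).card ≤ 1 := by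
      intro p _ h
      rw [Finset.card_le_one]
      rintro ⟨a, b'⟩ hab ⟨c, d⟩ hcd
      simp only [hPr, Finset.mem_filter, Finset.mem_product, Finset.mem_range] at hab hcd
      obtain ⟨⟨⟨ha, hb'⟩, hne⟩, hp⟩ := hab
      obtain ⟨⟨⟨hc', hd⟩, hne'⟩, hp'⟩ := hcd
      obtain ⟨h1, h2⟩ := h a b' c d ha hb' hc' hd hne hne' hp hp'
      rw [h1, h2]
    let A2 := Ms.biUnion (fun k => Pr.filter (fun ab =>
      ∃ n : ℕ, (n : ℤ) = T - ((2:ℤ) ^ ab.1 - 2 ^ ab.2) * K0 ∧ k ∣ n))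
    let A3 := (Finset.range m).biUnion (fun j => Pr.filter (fun ab =>
      ∃ n : ℕ, (n : ℤ) = T - ((2:ℤ) ^ ab.1 - 2 ^ ab.2) * K0 ∧
        ¬ (M ≤ n / b ^ j % b ∧ n / b ^ j % b + M + 1 ≤ b)))
    have c2 : A2.card ≤ r := by
      refine le_trans (Finset.card_biUnion_le) ?_
      refine le_trans (Finset.sum_le_sum (g := fun _ => 1) ?_) ?_
      · intro k hk
        apply card1
        rintro i j i' j' hi hj hi' hj' hij - ⟨n1, hn1, h1⟩ ⟨n2, hn2, h2⟩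
        apply fin i j i' j' hi hj hi' hj' hij
        have z1 : (k : ℤ) ∣ (n1 : ℕ) := by exact_mod_cast h1
        have z2 : (k : ℤ) ∣ (n2 : ℕ) := by exact_mod_cast h2
        rw [hn1] at z1
        rw [hn2] at z2
        have z3 := dvd_sub z2 z1
        have e : ((T:ℤ) - ((2:ℤ) ^ i' - 2 ^ j') * K0) - ((T:ℤ) - ((2:ℤ) ^ i - 2 ^ j) * K0)
            = (((2:ℤ) ^ i - 2 ^ j) - (2 ^ i' - 2 ^ j')) * K0 := by ring
        rw [e] at z3
        obtain ⟨u, hu⟩ := hKmod1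
        obtain ⟨hk1', w, hw⟩ := hMs k hk
        have e2 : (((2:ℤ) ^ i - 2 ^ j) - (2 ^ i' - 2 ^ j')) * K0
            = (((2:ℤ) ^ i - 2 ^ j) - (2 ^ i' - 2 ^ j'))
              + k * ((((2:ℤ) ^ i - 2 ^ j) - (2 ^ i' - 2 ^ j')) * w * u) := by
          rw [hu, hw]; push_cast; ring
        rw [e2] at z3
        have z4 : (k:ℤ) ∣ ((2:ℤ) ^ i - 2 ^ j) - (2 ^ i' - 2 ^ j') :=
          (dvd_add_left (dvd_mul_right _ _)).1 z3
        apply Int.eq_zero_of_abs_lt_dvd z4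
        refine lt_of_le_of_lt (hEb i j i' j' hi hj hi' hj') ?_
        have : 2 ^ (K + 1) < k :=
          lt_of_le_of_lt (Nat.pow_le_pow_right (by norm_num) (by omega)) hk1'
        exact_mod_cast this
      · simpa using hc
    have c3 : A3.card ≤ m := by
      refine le_trans (Finset.card_biUnion_le) ?_
      refine le_trans (Finset.sum_le_sum (g := fun _ => 1) ?_) ?_
      · intro l hl
        apply card1
        rintro i j i' j' hi hj hi' hj' hij - ⟨n1, hn1, h1⟩ ⟨n2, hn2, h2⟩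
        apply fin i j i' j' hi hj hi' hj' hij
        obtain ⟨t1, u1, v1⟩ := near_of_digit (show 0 < b by omega) hMb h1
        obtain ⟨t2, u2, v2⟩ := near_of_digit (show 0 < b by omega) hMb h2
        simp only at hn1 hn2
        rw [hn1] at u1 v1
        rw [hn2] at u2 v2
        apply digit_sep (Finset.mem_range.1 hl) hM hb hKmodb (t := t2 - t1)
          (hEb i j i' j' hi hj hi' hj')
        have e : (((2:ℤ) ^ i - 2 ^ j) - (2 ^ i' - 2 ^ j')) * K0 - (t2 - t1) * (b ^ l * b)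
            = ((T:ℤ) - ((2:ℤ) ^ i' - 2 ^ j') * K0 - t2 * (b ^ l * b))
              - ((T:ℤ) - ((2:ℤ) ^ i - 2 ^ j) * K0 - t1 * (b ^ l * b)) := by ring
        rw [e, abs_lt]
        constructor <;> linarith
      · simp
    have hsub : (Finset.range K ×ˢ Finset.range K).filter
        (fun ij => ij.1 ≠ ij.2 ∧ ∃ n : ℕ,
          (n : ℤ) = T - (((2 ^ ij.1 * K0 : ℕ) : ℤ) - ((2 ^ ij.2 * K0 : ℕ) : ℤ)) ∧
            Bad b m M Ms n)
        ⊆ A2 ∪ A3 := by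
      intro ab hab
      rw [Finset.mem_filter] at hab
      obtain ⟨hm, hne, n, hn, hbad⟩ := hab
      have hpr : ab ∈ Pr := by
        rw [hPr, Finset.mem_filter]; exact ⟨hm, hne⟩
      have hn' : (n : ℤ) = T - ((2:ℤ) ^ ab.1 - 2 ^ ab.2) * K0 := by
        rw [hn]; push_cast; ring
      rcases hbad with ⟨k, hk, hkd⟩ | ⟨l, hl, hb'⟩
      · apply Finset.mem_union_left
        exact Finset.mem_biUnion.2 ⟨k, hk, Finset.mem_filter.2 ⟨hpr, n, hn', hkd⟩⟩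
      · apply Finset.mem_union_right
        exact Finset.mem_biUnion.2 ⟨l, Finset.mem_range.2 hl,
          Finset.mem_filter.2 ⟨hpr, n, hn', hb'⟩⟩
    refine le_trans (Finset.card_le_card hsub) ?_
    refine le_trans (Finset.card_union_le _ _) ?_
    omega

theorem rul (m r K : ℕ) : ∃ Bd : ℕ, ∀ (Ms : Finset ℕ) (M : ℕ), Ms.card ≤ r →
    (∀ k ∈ Ms, Bd < k ∧ k ∣ M) → 0 < M → ∃ b : ℕ, 4 * M + 4 < b ∧ Nat.Coprime b M ∧
    ∃ c : ℕ → ℕ, (∀ i j, i < j → j < K → c i < c j) ∧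
      (∀ i j p q, i < K → j < K → p < K → q < K → i ≠ j →
        |((c i:ℤ) - c j) - (c p - c q)| ≤ 2 * b^m → i = p ∧ j = q) ∧
      (∀ t : ℤ, ∀ J : Finset ℕ, (∀ k ∈ J, k < K ∧ ∃ k' < K, k' ≠ k ∧ ∃ n : ℕ,
        (n : ℤ) = t - ((c k : ℤ) - c k') ∧
          ((∃ q ∈ Ms, q ∣ n) ∨ ∃ j < m, ¬ (M ≤ n / b^j % b ∧ n / b^j % b + M + 1 ≤ b))) →
        J.card ≤ r + m) := by
  classical
  refine ⟨2 ^ (K + 2), fun Ms M hc hMs hM => ?_⟩
  have hK : 1 ≤ 2 ^ K := Nat.one_le_two_pow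
  have e6 : 2 ^ (K + 6) = 64 * 2 ^ K := by rw [pow_add]; ring
  have e5 : 2 ^ (K + 5) = 32 * 2 ^ K := by rw [pow_add]; ring
  refine ⟨2 ^ (K + 6) * M + 1, ?_, ?_, ?_⟩
  · have : 64 * 1 * M ≤ 2 ^ (K + 6) * M := Nat.mul_le_mul_right _ (by omega)
    omega
  · have : (2 ^ (K + 6) * M + 1).Coprime M := by
      rw [Nat.coprime_comm]
      simp
    exact this
  · set b := 2 ^ (K + 6) * M + 1 with hb
    have hcop : Nat.Coprime b M := by
      rw [hb, Nat.coprime_comm]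
      simp
    have hbM : 2 ^ (K + 5) * M ≤ b := by
      rw [hb, e6, e5]
      nlinarith
    obtain ⟨c, c1, c2, c3⟩ := spoilZ K (b ^ m) r m M b Ms hM hcop hMs hc hbM
    refine ⟨c, ?_, ?_, ?_⟩
    · intro i j hij _
      have := c1 i j hij
      omega
    · intro i j p q hi hj hp hq hij hle
      by_contra hcon
      have hne : i ≠ p ∨ j ≠ q := by
        by_contra h
        rw [not_or, not_not, not_not] at h
        exact hcon h
      have := c2 i j p q hi hj hp hq hij hne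
      push_cast at this
      have hb0 : (0:ℤ) ≤ (b:ℤ) ^ m := by positivity
      linarith
    · intro t J hJ
      refine le_trans ?_ (c3 t)
      refine le_trans (Finset.card_le_card (t := (((Finset.range K ×ˢ Finset.range K).filter
          (fun ij => ij.1 ≠ ij.2 ∧ ∃ n : ℕ, (n : ℤ) = t - ((c ij.1 : ℤ) - c ij.2) ∧
            Bad b m M Ms n)).image Prod.fst)) ?_) Finset.card_image_le
      intro k hk
      obtain ⟨hkK, k', hk', hne, n, hn, hbad⟩ := hJ k hk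
      rw [Finset.mem_image]
      refine ⟨(k, k'), ?_, rfl⟩
      rw [Finset.mem_filter]
      exact ⟨Finset.mem_product.2 ⟨Finset.mem_range.2 hkK, Finset.mem_range.2 hk'⟩,
        fun h => hne h.symm, n, hn, hbad⟩

end Crest.Agent.R320.Rul_365
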