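import Mathlib
import Crest.Agent.R320.Ruler_853

/-!
Row 320: the ruler of scheme 2 for the grid gadget (Grid_219): `c i = X * 2 ^ i`,
`X = 1 + 4 M (G_0 + .. + G_(m-1)) + M G_m (2 N + 1)`, `G_j = 2 ^ (e j)`.
-/

set_option autoImplicit false

namespace Crest.Agent.R320.Rul_832

open Finset
open Crest.Agent.R320.Ruler_853 (two_pow_sum)

def dd (i j i' j' : ℕ) : ℤ := ((2:ℤ)^i - 2^j) - (2^i' - 2^j')

theorem dd_eq_zero {i j i' j' : ℕ} (hij : i ≠ j) (h : dd i j i' j' = 0) :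
    i = i' ∧ j = j' := by
  unfold dd at h
  have h1 : (2:ℤ)^i + 2^j' = 2^j + 2^i' := by linarith
  rcases two_pow_sum h1 with ⟨a, b⟩ | ⟨a, _⟩
  · exact ⟨a, b.symm⟩
  · exact absurd a hij

theorem pow_bd {K i : ℕ} (hi : i < K) : (0:ℤ) < 2 ^ i ∧ (2:ℤ) ^ i ≤ 2 ^ K := by
  constructor
  · positivity
  · exact pow_le_pow_right₀ (by norm_num) hi.le

theorem dd_abs {K i j i' j' : ℕ} (hi : i < K) (hj : j < K) (hi' : i' < K) (hj' : j' < K) :
    |dd i j i' j'| < 2 ^ (K + 1) := by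
  have h1 := pow_bd hi
  have h2 := pow_bd hj
  have h3 := pow_bd hi'
  have h4 := pow_bd hj'
  unfold dd
  rw [pow_succ, abs_lt]
  constructor <;> linarith [h1.1, h1.2, h2.1, h2.2, h3.1, h3.2, h4.1, h4.2]

def G (e j : ℕ) : ℕ := 2 ^ (e * j)

theorem G_pos (e j : ℕ) : 0 < G e j := by unfold G; positivity

theorem G_succ (e j : ℕ) : G e (j + 1) = 2 ^ e * G e j := by
  unfold G; rw [Nat.mul_succ, pow_add]; ring

theorem G_dvd (e : ℕ) {i j : ℕ} (h : i ≤ j) : G e i ∣ G e j := by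
  unfold G; exact pow_dvd_pow 2 (Nat.mul_le_mul_left e h)

def Y (M e l : ℕ) : ℕ := 1 + 4 * M * ∑ i ∈ range l, G e i

def X (M e m N : ℕ) : ℕ := Y M e m + M * G e m * (2 * N + 1)

theorem Y_add (M e l d : ℕ) : ∃ q, Y M e (l + d) = Y M e l + G e l * q := by
  induction d with
  | zero => exact ⟨0, by simp⟩
  | succ d ih =>
    obtain ⟨q, hq⟩ := ih
    obtain ⟨r, hr⟩ := G_dvd e (show l ≤ l + d by omega)
    refine ⟨q + 4 * M * r, ?_⟩
    have : Y M e (l + (d + 1)) = Y M e (l + d) + 4 * M * G e (l + d) := by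
      unfold Y
      rw [← add_assoc l d 1, sum_range_succ]; ring
    rw [this, hq, hr]; ring

theorem X_mod {M e m N l : ℕ} (hl : l ≤ m) : ∃ q, X M e m N = Y M e l + G e l * q := by
  obtain ⟨d, rfl⟩ := Nat.exists_eq_add_of_le hl
  obtain ⟨q, hq⟩ := Y_add M e l d
  obtain ⟨r, hr⟩ := G_dvd e (show l ≤ l + d by omega)
  refine ⟨q + M * r * (2 * N + 1), ?_⟩
  unfold X
  rw [hq, hr]; ring

theorem sum_le {e : ℕ} (he : 1 ≤ e) (l : ℕ) : ∑ i ∈ range (l + 1), G e i ≤ 2 * G e l := by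
  induction l with
  | zero => simp [G]
  | succ l ih =>
    rw [sum_range_succ]
    have h1 : 2 * G e l ≤ G e (l + 1) := by
      rw [G_succ]
      apply Nat.mul_le_mul_right
      calc 2 = 2 ^ 1 := by norm_num
        _ ≤ 2 ^ e := Nat.pow_le_pow_right (by norm_num) he
    omega

theorem Y_lo (M e l : ℕ) : 4 * M * G e l ≤ Y M e (l + 1) := by
  unfold Y
  rw [sum_range_succ, Nat.mul_add]
  omega

theorem Y_hi {M e : ℕ} (he : 1 ≤ e) (hM : 0 < M) (l : ℕ) :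
    Y M e (l + 1) ≤ 9 * (M * G e l) := by
  have h1 := Nat.mul_le_mul_left (4 * M) (sum_le he l)
  have h2 : 0 < M * G e l := Nat.mul_pos hM (G_pos e l)
  unfold Y
  have h3 : 4 * M * (2 * G e l) = 8 * (M * G e l) := by ring
  omega

/-- bands: at most one pair -/
theorem band {M e m N K l : ℕ} (hM : 0 < M) (he : M * 2 ^ (K + 5) ≤ 2 ^ e) (he1 : 1 ≤ e)
    (hl : l + 1 ≤ m) {i j i' j' : ℕ} (hi : i < K) (hj : j < K) (hi' : i' < K) (hj' : j' < K)
    (hij : i ≠ j) (T a k k' : ℤ)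
    (h1 : |T + X M e m N * 2 ^ i - X M e m N * 2 ^ j - (a + G e (l + 1) * k)| ≤
      (M * G e l : ℕ))
    (h2 : |T + X M e m N * 2 ^ i' - X M e m N * 2 ^ j' - (a + G e (l + 1) * k')| ≤
      (M * G e l : ℕ)) : i = i' ∧ j = j' := by
  apply dd_eq_zero hij
  obtain ⟨q, hq⟩ := X_mod (M := M) (e := e) (N := N) hl
  set B : ℤ := ((M * G e l : ℕ) : ℤ) with hB
  have hBpos : 0 < B := by
    rw [hB]; exact_mod_cast Nat.mul_pos hM (G_pos e l)
  have hylo : 4 * B ≤ (Y M e (l + 1) : ℤ) := by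
    rw [hB]
    have := Y_lo M e l
    have h : 4 * (M * G e l) ≤ Y M e (l + 1) := by rw [← mul_assoc]; exact this
    exact_mod_cast h
  have hyhi : (Y M e (l + 1) : ℤ) ≤ 9 * B := by
    rw [hB]; exact_mod_cast Y_hi he1 hM l
  have hG : 32 * 2 ^ K * B ≤ (G e (l + 1) : ℤ) := by
    have h : M * 2 ^ (K + 5) * G e l ≤ G e (l + 1) := by
      rw [G_succ]; exact Nat.mul_le_mul_right _ he
    have h' : 32 * 2 ^ K * (M * G e l) ≤ G e (l + 1) := by
      calc 32 * 2 ^ K * (M * G e l) = M * 2 ^ (K + 5) * G e l := by rw [pow_add]; ring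
        _ ≤ _ := h
    rw [hB]; exact_mod_cast h'
  have hd := dd_abs hi hj hi' hj'
  have hXq : (X M e m N : ℤ) = Y M e (l + 1) + G e (l + 1) * q := by rw [hq]; push_cast; ring
  set u := T + X M e m N * 2 ^ i - X M e m N * 2 ^ j - (a + G e (l + 1) * k) with hu
  set u' := T + X M e m N * 2 ^ i' - X M e m N * 2 ^ j' - (a + G e (l + 1) * k') with hu'
  have hdiff : u - u' = X M e m N * dd i j i' j' - G e (l + 1) * (k - k') := by
    rw [hu, hu']; unfold dd; ring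
  have hdvd : (G e (l + 1) : ℤ) ∣ Y M e (l + 1) * dd i j i' j' - (u - u') := by
    refine ⟨k - k' - q * dd i j i' j', ?_⟩
    rw [hdiff, hXq]; ring
  have huu : |u - u'| ≤ 2 * B := by
    rw [abs_le] at h1 h2 ⊢
    constructor <;> linarith [h1.1, h1.2, h2.1, h2.2]
  have hYpos : (0:ℤ) < Y M e (l + 1) := by linarith
  have h2K : (1:ℤ) ≤ 2 ^ K := one_le_pow₀ (by norm_num)
  have hYd : |(Y M e (l + 1) : ℤ) * dd i j i' j'| ≤ 9 * B * 2 ^ (K + 1) := by
    rw [abs_mul, abs_of_pos hYpos]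
    exact mul_le_mul hyhi hd.le (abs_nonneg _) (by linarith)
  have hlt : |(Y M e (l + 1) : ℤ) * dd i j i' j' - (u - u')| < G e (l + 1) := by
    have h3 : |(Y M e (l + 1) : ℤ) * dd i j i' j' - (u - u')| ≤
        |(Y M e (l + 1) : ℤ) * dd i j i' j'| + |u - u'| := abs_sub _ _
    have h4 : B ≤ 2 ^ K * B := le_mul_of_one_le_left hBpos.le h2K
    have h5 : 9 * B * 2 ^ (K + 1) = 18 * (2 ^ K * B) := by rw [pow_succ]; ring
    have h6 : 32 * 2 ^ K * B = 32 * (2 ^ K * B) := by ring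
    rw [h5] at hYd
    rw [h6] at hG
    linarith
  have hzero : (Y M e (l + 1) : ℤ) * dd i j i' j' - (u - u') = 0 :=
    Int.eq_zero_of_abs_lt_dvd hdvd hlt
  by_contra hne
  have h7 : 1 ≤ |dd i j i' j'| := Int.one_le_abs hne
  have h8 : |(Y M e (l + 1) : ℤ) * dd i j i' j'| ≤ 2 * B := by
    have : (Y M e (l + 1) : ℤ) * dd i j i' j' = u - u' := by linarith
    rw [this]; exact huu
  rw [abs_mul, abs_of_pos hYpos] at h8
  have h9 : (Y M e (l + 1) : ℤ) ≤ Y M e (l + 1) * |dd i j i' j'| :=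
    le_mul_of_one_le_right hYpos.le h7
  linarith

/-- primes: at most one pair -/
theorem prime_pair {M e m N K p : ℕ} (hp : p.Prime) (hpM : p ∣ M) (hpK : 2 ^ (K + 1) ≤ p)
    {i j i' j' : ℕ} (hi : i < K) (hj : j < K) (hi' : i' < K) (hj' : j' < K)
    (hij : i ≠ j) (T : ℤ)
    (h1 : (p : ℤ) ∣ T + X M e m N * 2 ^ i - X M e m N * 2 ^ j)
    (h2 : (p : ℤ) ∣ T + X M e m N * 2 ^ i' - X M e m N * 2 ^ j') : i = i' ∧ j = j' := by
  apply dd_eq_zero hij
  obtain ⟨r, hr⟩ := hpM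
  have hX : (p : ℤ) ∣ X M e m N - 1 := by
    refine ⟨4 * r * (∑ t ∈ range m, G e t : ℕ) + r * G e m * (2 * N + 1), ?_⟩
    unfold X Y
    rw [hr]; push_cast; ring
  have h3 : (p : ℤ) ∣ dd i j i' j' := by
    have h4 := dvd_sub h1 h2
    have h5 : (T + X M e m N * 2 ^ i - X M e m N * 2 ^ j) -
        (T + X M e m N * 2 ^ i' - X M e m N * 2 ^ j') =
        (X M e m N - 1) * dd i j i' j' + dd i j i' j' := by unfold dd; ring
    rw [h5] at h4
    exact (dvd_add_right (hX.mul_right _)).1 h4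
  refine Int.eq_zero_of_abs_lt_dvd h3 ?_
  have hd := dd_abs hi hj hi' hj'
  have : ((2:ℤ)) ^ (K + 1) ≤ p := by exact_mod_cast hpK
  linarith

/-- size: differences of different pairs are more than `2 N` apart -/
theorem size_pair {M e m N : ℕ} (hM : 0 < M)
    {i j i' j' : ℕ} (hij : i ≠ j)
    (h1 : X M e m N * 2 ^ i + X M e m N * 2 ^ j' ≤ X M e m N * 2 ^ i' + X M e m N * 2 ^ j + 2 * N)
    (h2 : X M e m N * 2 ^ i' + X M e m N * 2 ^ j ≤ X M e m N * 2 ^ i + X M e m N * 2 ^ j' + 2 * N) :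
    i = i' ∧ j = j' := by
  apply dd_eq_zero hij
  by_contra hne
  have h7 : 1 ≤ |dd i j i' j'| := Int.one_le_abs hne
  have hXN : (2 * N : ℤ) < X M e m N := by
    have : 2 * N < X M e m N := by
      unfold X
      have h3 : 0 < M * G e m := Nat.mul_pos hM (G_pos e m)
      have h4 : 2 * N + 1 ≤ M * G e m * (2 * N + 1) := Nat.le_mul_of_pos_left _ h3
      omega
    exact_mod_cast this
  have h3 : |(X M e m N : ℤ) * dd i j i' j'| ≤ 2 * N := by
    have e1 : (X M e m N : ℤ) * dd i j i' j' =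
      (X M e m N * 2 ^ i + X M e m N * 2 ^ j') - (X M e m N * 2 ^ i' + X M e m N * 2 ^ j) := by
      unfold dd; ring
    rw [e1, abs_le]
    have h1' : (X M e m N * 2 ^ i + X M e m N * 2 ^ j' : ℤ) ≤
      X M e m N * 2 ^ i' + X M e m N * 2 ^ j + 2 * N := by exact_mod_cast h1
    have h2' : (X M e m N * 2 ^ i' + X M e m N * 2 ^ j : ℤ) ≤
      X M e m N * 2 ^ i + X M e m N * 2 ^ j' + 2 * N := by exact_mod_cast h2
    constructor <;> linarith
  have hXpos : (0:ℤ) < X M e m N := by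
    have : (0:ℤ) ≤ N := by positivity
    linarith
  rw [abs_mul, abs_of_pos hXpos] at h3
  have h9 : (X M e m N : ℤ) ≤ X M e m N * |dd i j i' j'| := le_mul_of_one_le_right hXpos.le h7
  linarith

open Classical in
/-- the spoiling count -/
theorem spoil {M e m N K r : ℕ} (Ms : Finset ℕ) (hcard : Ms.card ≤ r) (hM : 0 < M)
    (hMs : ∀ p ∈ Ms, p.Prime ∧ p ∣ M ∧ 2 ^ (K + 1) ≤ p)
    (he : M * 2 ^ (K + 5) ≤ 2 ^ e) (he1 : 1 ≤ e) (Am : ℕ → ℕ) (T : ℕ)
    (hT : ∀ i < K, X M e m N * 2 ^ i ≤ T) :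
    (((range K) ×ˢ (range K)).filter (fun ab : ℕ × ℕ => ab.1 ≠ ab.2 ∧
      ((∃ p ∈ Ms, p ∣ T + X M e m N * 2 ^ ab.1 - X M e m N * 2 ^ ab.2) ∨
       (∃ j, 1 ≤ j ∧ j ≤ m ∧ ∃ k,
        Am j + G e j * k ≤ (T + X M e m N * 2 ^ ab.1 - X M e m N * 2 ^ ab.2) + M * G e (j - 1) ∧
        (T + X M e m N * 2 ^ ab.1 - X M e m N * 2 ^ ab.2) ≤
          Am j + G e j * k + M * G e (j - 1))))).card ≤ r + m := by
  let A : ℕ → Finset (ℕ × ℕ) := fun p => ((range K) ×ˢ (range K)).filter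
    (fun ab : ℕ × ℕ => ab.1 ≠ ab.2 ∧ p ∣ T + X M e m N * 2 ^ ab.1 - X M e m N * 2 ^ ab.2)
  let C : ℕ → Finset (ℕ × ℕ) := fun l => ((range K) ×ˢ (range K)).filter
    (fun ab : ℕ × ℕ => ab.1 ≠ ab.2 ∧ ∃ k,
        Am (l + 1) + G e (l + 1) * k ≤
          (T + X M e m N * 2 ^ ab.1 - X M e m N * 2 ^ ab.2) + M * G e l ∧
        (T + X M e m N * 2 ^ ab.1 - X M e m N * 2 ^ ab.2) ≤
          Am (l + 1) + G e (l + 1) * k + M * G e l)
  have hA : ∀ p ∈ Ms, (A p).card ≤ 1 := by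
    intro p hp
    obtain ⟨hpp, hpM, hpK⟩ := hMs p hp
    rw [Finset.card_le_one]
    rintro ⟨i, j⟩ h1 ⟨i', j'⟩ h2
    simp only [A, mem_filter, mem_product, mem_range] at h1 h2
    obtain ⟨⟨hi, hj⟩, hne, hd⟩ := h1
    obtain ⟨⟨hi', hj'⟩, hne', hd'⟩ := h2
    have t1 := hT j hj
    have t2 := hT j' hj'
    have hz : ∀ a b, b < K → ((T + X M e m N * 2 ^ a - X M e m N * 2 ^ b : ℕ) : ℤ) =
        (T : ℤ) + X M e m N * 2 ^ a - X M e m N * 2 ^ b := by
      intro a b hb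
      have := hT b hb
      rw [Nat.cast_sub (by omega)]; push_cast; ring
    have z1 : (p : ℤ) ∣ (T : ℤ) + X M e m N * 2 ^ i - X M e m N * 2 ^ j := by
      rw [← hz i j hj]; exact_mod_cast hd
    have z2 : (p : ℤ) ∣ (T : ℤ) + X M e m N * 2 ^ i' - X M e m N * 2 ^ j' := by
      rw [← hz i' j' hj']; exact_mod_cast hd'
    obtain ⟨e1, e2⟩ := prime_pair hpp hpM hpK hi hj hi' hj' hne T z1 z2
    rw [e1, e2]
  have hC : ∀ l ∈ range m, (C l).card ≤ 1 := by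
    intro l hl
    rw [Finset.card_le_one]
    rintro ⟨i, j⟩ h1 ⟨i', j'⟩ h2
    simp only [C, mem_filter, mem_product, mem_range] at h1 h2
    obtain ⟨⟨hi, hj⟩, hne, k, hk1, hk2⟩ := h1
    obtain ⟨⟨hi', hj'⟩, hne', k', hk1', hk2'⟩ := h2
    have hz : ∀ a b, b < K → ((T + X M e m N * 2 ^ a - X M e m N * 2 ^ b : ℕ) : ℤ) =
        (T : ℤ) + X M e m N * 2 ^ a - X M e m N * 2 ^ b := by
      intro a b hb
      have := hT b hb
      rw [Nat.cast_sub (by omega)]; push_cast; ring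
    have z1 := hz i j hj
    have z2 := hz i' j' hj'
    have g : ∀ (t : ℕ) (q : ℕ) (z : ℤ), ((t : ℕ) : ℤ) = z →
        Am (l + 1) + G e (l + 1) * q ≤ t + M * G e l →
        t ≤ Am (l + 1) + G e (l + 1) * q + M * G e l →
        |z - ((Am (l + 1) : ℤ) + G e (l + 1) * q)| ≤ (M * G e l : ℕ) := by
      intro t q z hz h1 h2
      rw [← hz, abs_le]
      have h1' : (Am (l + 1) : ℤ) + G e (l + 1) * q ≤ t + (M * G e l : ℕ) := by exact_mod_cast h1
      have h2' : (t : ℤ) ≤ Am (l + 1) + G e (l + 1) * q + (M * G e l : ℕ) := by exact_mod_cast h2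
      constructor <;> linarith
    obtain ⟨e1, e2⟩ := band (N := N) hM he he1 (by rw [mem_range] at hl; exact hl) hi hj hi' hj' hne T
      (Am (l + 1)) k k' (g _ k _ z1 hk1 hk2) (g _ k' _ z2 hk1' hk2')
    rw [e1, e2]
  refine (Finset.card_le_card (t := Ms.biUnion A ∪ (range m).biUnion C) ?_).trans ?_
  · rintro ⟨i, j⟩ h
    simp only [mem_filter, mem_product, mem_range] at h
    obtain ⟨⟨hi, hj⟩, hne, ⟨p, hp, hd⟩ | ⟨l, hl1, hl2, k, hk1, hk2⟩⟩ := h
    · refine mem_union_left _ (mem_biUnion.2 ⟨p, hp, ?_⟩)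
      simp only [A, mem_filter, mem_product, mem_range]
      exact ⟨⟨hi, hj⟩, hne, hd⟩
    · obtain ⟨l, rfl⟩ : ∃ t, l = t + 1 := ⟨l - 1, by omega⟩
      refine mem_union_right _ (mem_biUnion.2 ⟨l, mem_range.2 (by omega), ?_⟩)
      simp only [C, mem_filter, mem_product, mem_range]
      exact ⟨⟨hi, hj⟩, hne, k, by simpa using hk1, by simpa using hk2⟩
  · refine (card_union_le _ _).trans ?_
    have a1 := card_biUnion_le_card_mul Ms A 1 hA
    have a2 := card_biUnion_le_card_mul (range m) C 1 hC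
    rw [card_range] at a2
    omega

end Crest.Agent.R320.Rul_832
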