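import Crest.Agent.R320.Grid4_859
import Crest.Agent.R320.Thin_963

set_option autoImplicit false

namespace Crest.Agent.R320.Grid859

theorem badT_per {κ M m : ℕ} {Ms : Finset ℕ} (hM : M = ∏ p ∈ Ms, p) {T T' : ℕ}
    (h : Am κ M m ≤ T) (h' : Am κ M m ≤ T') (hmod : T ≡ T' [MOD M * G κ m])
    (hb : BadT κ M m Ms T) : BadT κ M m Ms T' := by
  rcases hb with ⟨p, hp, hd⟩ | ⟨j, hj, hb⟩
  · left
    refine ⟨p, hp, ?_⟩
    have hpM : p ∣ M := hM ▸ Finset.dvd_prod_of_mem _ hp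
    exact ((hmod.of_dvd (hpM.trans (Dvd.intro _ rfl))).dvd_iff dvd_rfl).1 hd
  · right
    refine ⟨j, hj, ?_⟩
    have h1 : Am κ M (j + 1) ≤ T := (Am_mono κ M hj).trans h
    have h2 : Am κ M (j + 1) ≤ T' := (Am_mono κ M hj).trans h'
    have h3 : (T - Am κ M (j + 1)) % G κ (j + 1) = (T' - Am κ M (j + 1)) % G κ (j + 1) := by
      have h4 : T ≡ T' [MOD G κ (j + 1)] :=
        hmod.of_dvd ((G_dvd κ hj).trans (Dvd.intro_left _ rfl))
      apply Nat.ModEq.add_left_cancel (Nat.ModEq.refl (Am κ M (j + 1)))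
      rw [Nat.add_sub_cancel' h1, Nat.add_sub_cancel' h2]
      exact h4
    rw [← h3]; exact hb

theorem toInt {κ M m : ℕ} {Ms : Finset ℕ} {T : ℕ} (h : Am κ M m ≤ T)
    (hb : BadT κ M m Ms T) :
    Thin963.BadT Ms m (fun i => (G κ i : ℤ)) (fun i => (M * G κ i : ℤ))
      (fun i => (Am κ M i : ℤ)) (T : ℤ) := by
  rcases hb with ⟨p, hp, hd⟩ | ⟨j, hj, hb⟩
  · left
    exact ⟨p, hp, by exact_mod_cast hd⟩
  · right
    refine ⟨j, hj, ?_⟩
    have h1 : Am κ M (j + 1) ≤ T := (Am_mono κ M hj).trans h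
    have hlt := Nat.mod_lt (T - Am κ M (j + 1)) (G_pos κ (j + 1))
    have e := Nat.mod_add_div (T - Am κ M (j + 1)) (G κ (j + 1))
    set ρ := (T - Am κ M (j + 1)) % G κ (j + 1) with hρ
    set q := (T - Am κ M (j + 1)) / G κ (j + 1) with hq
    have e' : (T : ℤ) - Am κ M (j + 1) = ρ + G κ (j + 1) * q := by
      have : T = Am κ M (j + 1) + (ρ + G κ (j + 1) * q) := by omega
      rw [this]; push_cast; ring
    rcases hb with hb | hb
    · refine ⟨-(ρ : ℤ), ?_, ?_⟩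
      · rw [abs_neg, Nat.abs_cast]
        have : (ρ : ℤ) < ((M * G κ j : ℕ) : ℤ) := by exact_mod_cast hb
        push_cast at this
        linarith
      · simp only
        rw [e']
        exact ⟨q, by ring⟩
    · refine ⟨(G κ (j + 1) : ℤ) - ρ, ?_, ?_⟩
      · rw [abs_of_nonneg (by
          have : (ρ : ℤ) < (G κ (j + 1) : ℤ) := by exact_mod_cast hlt
          linarith)]
        have : ((G κ (j + 1) : ℕ) : ℤ) < ((ρ + M * G κ j : ℕ) : ℤ) := by exact_mod_cast hb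
        push_cast at this
        linarith
      · simp only
        rw [e']
        exact ⟨q + 1, by ring⟩

theorem geo_sum (κ : ℕ) (hκ : 1 ≤ κ) (i : ℕ) :
    ∑ j ∈ Finset.range (i + 1), G κ j ≤ 2 * G κ i := by
  induction i with
  | zero => simp; omega
  | succ i ih =>
    rw [Finset.sum_range_succ]
    have : 2 * G κ i ≤ G κ (i + 1) := by
      unfold G
      rw [show κ * (i + 1 + 1) = κ + κ * (i + 1) by ring, pow_add]
      apply Nat.mul_le_mul_right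
      calc 2 = 2 ^ 1 := by norm_num
        _ ≤ 2 ^ κ := Nat.pow_le_pow_right (by norm_num) hκ
    omega

theorem ruler (K m M κ : ℕ) (Ms : Finset ℕ) (hMs : ∀ p ∈ Ms, p.Prime ∧ 2 ^ (K + 1) < p)
    (hM : M = ∏ p ∈ Ms, p) (hκ1 : 1 ≤ κ) (hκ : 2 ^ (K + 5) * M ≤ 2 ^ κ) (N : ℕ) :
    ∃ X : ℕ, N ≤ X ∧ 0 < X ∧ ∀ τ p0 : ℕ, (∀ k < K, X * 2 ^ k ≤ p0) →
      2 * p0 + Am κ M m ≤ τ → ∀ J : Finset ℕ, (∀ k ∈ J, k < K ∧ ∃ k', k' < K ∧ k' ≠ k ∧
        BadT κ M m Ms (τ + X * 2 ^ k' - X * 2 ^ k - p0)) → J.card ≤ Ms.card + m := by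
  classical
  have hMpos : 0 < M := hM ▸ Finset.prod_pos fun p hpm => (hMs p hpm).1.pos
  have hgrow : ∀ i < m, (2 : ℤ) ^ (K + 4) * ∑ j ∈ Finset.range (i + 1), (M * G κ j : ℤ) ≤
      (G κ (i + 1) : ℤ) := by
    intro i _
    have h1 := geo_sum κ hκ1 i
    have h2 : 2 ^ (K + 4) * ∑ j ∈ Finset.range (i + 1), (M * G κ j) ≤ G κ (i + 1) := by
      rw [← Finset.mul_sum]
      calc 2 ^ (K + 4) * (M * ∑ j ∈ Finset.range (i + 1), G κ j)
          ≤ 2 ^ (K + 4) * (M * (2 * G κ i)) :=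
            Nat.mul_le_mul_left _ (Nat.mul_le_mul_left _ h1)
        _ = (2 ^ (K + 5) * M) * G κ i := by ring
        _ ≤ 2 ^ κ * G κ i := Nat.mul_le_mul_right _ hκ
        _ = G κ (i + 1) := by
          unfold G
          rw [← pow_add]
          congr 1
          ring
    exact_mod_cast h2
  obtain ⟨X, h1, h2, h3⟩ := Thin963.thin K m Ms (fun i => (G κ i : ℤ))
    (fun i => (M * G κ i : ℤ)) (fun i => (Am κ M i : ℤ))
    (fun q hq => ⟨(hMs q hq).1, (hMs q hq).2.le⟩)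
    (fun q hq => by
      rw [Nat.isCoprime_iff_coprime]
      unfold G
      apply Nat.Coprime.pow_right
      rw [Nat.coprime_primes (hMs q hq).1 Nat.prime_two]
      have h5 := (hMs q hq).2
      have h6 : 2 ^ 1 ≤ 2 ^ (K + 1) := Nat.pow_le_pow_right (by norm_num) (by omega)
      omega)
    (by exact_mod_cast G_pos κ m)
    (fun i j hij => by exact_mod_cast G_dvd κ hij)
    (fun i => by
      have := Nat.mul_pos hMpos (G_pos κ i)
      exact_mod_cast this)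
    (fun i => Dvd.intro_left _ rfl)
    hgrow (N : ℤ)
  lift X to ℕ using h2.le
  refine ⟨X, by exact_mod_cast h1, by exact_mod_cast h2, ?_⟩
  intro τ p0 hp0 hτ J hJ
  choose! F hF using fun k hk => (hJ k hk).2
  refine le_trans ?_ (h3 ((τ : ℤ) - p0))
  refine Finset.card_le_card_of_injOn (fun k => (F k, k)) ?_ ?_
  · intro k hk
    have hkJ : k ∈ J := hk
    obtain ⟨a1, a2, a3⟩ := hF k hkJ
    have hkK := (hJ k hkJ).1
    simp only [Finset.coe_filter, Finset.mem_product, Finset.mem_range, Set.mem_setOf_eq]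
    refine ⟨⟨a1, hkK⟩, a2, ?_⟩
    have b1 := hp0 k hkK
    have b3 := toInt (by omega) a3
    have e : (((τ + X * 2 ^ F k - X * 2 ^ k - p0 : ℕ)) : ℤ) =
        (τ : ℤ) - p0 + X * 2 ^ F k - X * 2 ^ k := by
      rw [Nat.cast_sub (by omega), Nat.cast_sub (by omega)]
      push_cast
      ring
    rw [e] at b3
    exact b3
  · intro k _ k' _ h
    exact (Prod.ext_iff.1 h).2

theorem wide (X N1 : ℕ) (hX : 2 * N1 ≤ X) {k k' l l' : ℕ} (h1 : k' ≠ k) (h2 : l' ≠ l)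
    (h3 : X * 2 ^ k + X * 2 ^ l' < X * 2 ^ l + X * 2 ^ k' + 2 * N1)
    (h4 : X * 2 ^ l + X * 2 ^ k' < X * 2 ^ k + X * 2 ^ l' + 2 * N1) : k = l := by
  have e : 2 ^ k + 2 ^ l' = 2 ^ l + 2 ^ k' := by
    rcases Nat.lt_trichotomy (2 ^ k + 2 ^ l') (2 ^ l + 2 ^ k') with h | h | h
    · exfalso
      have := Nat.mul_le_mul_left X h
      rw [Nat.succ_eq_add_one, Nat.mul_add, Nat.mul_add, Nat.mul_add] at this
      omega
    · exact h
    · exfalso
      have := Nat.mul_le_mul_left X h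
      rw [Nat.succ_eq_add_one, Nat.mul_add, Nat.mul_add, Nat.mul_add] at this
      omega
  have e' : (2 : ℤ) ^ k - 2 ^ k' = 2 ^ l - 2 ^ l' := by
    have : (2 : ℤ) ^ k + 2 ^ l' = 2 ^ l + 2 ^ k' := by exact_mod_cast e
    linarith
  exact (Crest.Agent.R320.G369.pow_diff (Ne.symm h1) (Ne.symm h2) (by linarith)).1

end Crest.Agent.R320.Grid859
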