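import Crest.Agent.R320.Ruler2_537
import Crest.Agent.R320.Ruler_302

/-!
Row 320: existence of the ruler of scheme 2 in the form of `Ruler2_537.Ruler2`
(from the explicit ruler of `Ruler_302`), and existence of threshold parameters
`ThrChain260.Par`.  helper470.
-/

set_option autoImplicit false

namespace Crest.Agent.R320.Ruler2Ex_470

open Crest.Agent.R320.ThrChain260 Crest.Agent.R320.Ruler2_537 Crest.Agent.R320.Ruler_302

/-- Existence of the ruler of scheme 2. -/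
theorem exists_ruler2 (k M' M D : ℕ) (hM' : 4 ^ k ≤ M') (hM : 0 < M) :
    ∃ c : ℕ → ℕ, StrictMono c ∧ (∀ j, 2 * D < c j) ∧ (∀ j, 2 * D < c (j + 1) - c j) ∧
      ∀ (P : Par), P.M = M' → (∀ j < k, (c j : ℤ) ≤ P.L) → ∀ (r : ℕ) (m : ℕ → ℤ),
        (∀ i < r, 2 * 4 ^ k + 2 ≤ m i ∧ m i ∣ (M : ℤ)) →
        Ruler2 P D m r ((Finset.range k).image fun j => (c j : ℤ)) := by
  have h4 : (0 : ℕ) < 4 ^ k := by positivity
  have hM'0 : 0 < M' := lt_of_lt_of_le h4 hM'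
  set t : ℕ := 2 * D + 1 with ht
  set U : ℕ := M' * (1 + M * t) + 1 with hU
  have hUD : 2 * D < U := by
    have h1 : 1 ≤ M * t := Nat.one_le_iff_ne_zero.2 (by positivity)
    have h2 : t ≤ M * t := Nat.le_mul_of_pos_left t hM
    have h3 : M * t ≤ M' * (1 + M * t) := by nlinarith
    omega
  have hUpos : 0 < U := by omega
  have hUZ : (U : ℤ) = M' * (1 + M * (t : ℤ)) + 1 := by rw [hU]; push_cast; ring
  have hdiff : ∀ a b : ℕ, (((U * 4 ^ a : ℕ) : ℤ) - ((U * 4 ^ b : ℕ) : ℤ))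
      = (U : ℤ) * ((4 : ℤ) ^ a - 4 ^ b) := by intro a b; push_cast; ring
  refine ⟨fun j => U * 4 ^ j, ?_, ?_, ?_, ?_⟩
  · intro i j hij
    exact Nat.mul_lt_mul_of_pos_left (Nat.pow_lt_pow_right (by norm_num) hij) hUpos
  · intro j
    have : 1 ≤ 4 ^ j := Nat.one_le_pow _ _ (by norm_num)
    show 2 * D < U * 4 ^ j
    nlinarith
  · intro j
    have h1 : 1 ≤ 4 ^ j := Nat.one_le_pow _ _ (by norm_num)
    have h2 : U * 4 ^ (j + 1) = 4 * (U * 4 ^ j) := by ring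
    have h3 : U ≤ U * 4 ^ j := Nat.le_mul_of_pos_right U (by omega)
    show 2 * D < U * 4 ^ (j + 1) - U * 4 ^ j
    omega
  · intro P hPM hPL r m hm
    have hmem : ∀ x ∈ (Finset.range k).image (fun j => ((U * 4 ^ j : ℕ) : ℤ)),
        ∃ j < k, x = ((U * 4 ^ j : ℕ) : ℤ) := by
      intro x hx
      rw [Finset.mem_image] at hx
      obtain ⟨j, hj, rfl⟩ := hx
      exact ⟨j, Finset.mem_range.1 hj, rfl⟩
    have hUdvd : (M' : ℤ) ∣ (U : ℤ) - 1 := ⟨1 + M * (t : ℤ), by rw [hUZ]; ring⟩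
    have hM'Z : (4 : ℤ) ^ k ≤ (M' : ℤ) := by exact_mod_cast hM'
    refine ⟨⟨?_, ?_, ?_⟩, ?_, ?_⟩
    · intro x hx y hy
      obtain ⟨a, ha, rfl⟩ := hmem x hx
      obtain ⟨b, hb, rfl⟩ := hmem y hy
      have h1 := hPL a ha
      have h2 := hPL b hb
      have h3 : (0 : ℤ) ≤ ((U * 4 ^ a : ℕ) : ℤ) := Int.natCast_nonneg _
      have h5 : (0 : ℤ) ≤ ((U * 4 ^ b : ℕ) : ℤ) := Int.natCast_nonneg _
      rw [abs_le]
      constructor <;> linarith
    · intro x hx y hy hne hd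
      obtain ⟨a, ha, rfl⟩ := hmem x hx
      obtain ⟨b, hb, rfl⟩ := hmem y hy
      have hab : a ≠ b := fun h => hne (by rw [h])
      rw [hPM, hdiff] at hd
      have h1 : (M' : ℤ) ∣ (U : ℤ) * ((4 : ℤ) ^ a - 4 ^ b) - (U : ℤ) * ((4 : ℤ) ^ a - 4 ^ a) := by
        simpa using hd
      have h2 := dist_mod hM'Z hUdvd ha hb ha ha hab h1
      exact hab h2.2.symm
    · intro c₁ h₁ c₂ h₂ c₃ h₃ c₄ h₄ hne hne' hd
      obtain ⟨a, ha, rfl⟩ := hmem c₁ h₁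
      obtain ⟨b, hb, rfl⟩ := hmem c₂ h₂
      obtain ⟨a', ha', rfl⟩ := hmem c₃ h₃
      obtain ⟨b', hb', rfl⟩ := hmem c₄ h₄
      have hab : a ≠ b := fun h => hne (by rw [h])
      rw [hPM, hdiff, hdiff] at hd
      obtain ⟨e1, e2⟩ := dist_mod hM'Z hUdvd ha hb ha' hb' hab hd
      exact ⟨by rw [e1], by rw [e2]⟩
    · intro c₁ h₁ c₂ h₂ c₃ h₃ c₄ h₄ hne hne' hd
      obtain ⟨a, ha, rfl⟩ := hmem c₁ h₁
      obtain ⟨b, hb, rfl⟩ := hmem c₂ h₂
      obtain ⟨a', ha', rfl⟩ := hmem c₃ h₃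
      obtain ⟨b', hb', rfl⟩ := hmem c₄ h₄
      have hab : a ≠ b := fun h => hne (by rw [h])
      rw [hdiff, hdiff] at hd
      have hlt : (2 * (D : ℤ)) < (U : ℤ) := by exact_mod_cast hUD
      obtain ⟨e1, e2⟩ := resol (U := (U : ℤ)) (by exact_mod_cast hUpos) hab
        (lt_of_le_of_lt hd hlt)
      exact ⟨by rw [e1], by rw [e2]⟩
    · intro i hi c₁ h₁ c₂ h₂ c₃ h₃ c₄ h₄ hne hne' s hd
      obtain ⟨a, ha, rfl⟩ := hmem c₁ h₁
      obtain ⟨b, hb, rfl⟩ := hmem c₂ h₂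
      obtain ⟨a', ha', rfl⟩ := hmem c₃ h₃
      obtain ⟨b', hb', rfl⟩ := hmem c₄ h₄
      have hab : a ≠ b := fun h => hne (by rw [h])
      obtain ⟨hm1, hm2⟩ := hm i hi
      rw [hPM, hdiff, hdiff] at hd
      obtain ⟨e1, e2⟩ := dist_mod_floor (M := (M : ℤ)) (t := (t : ℤ)) (by exact_mod_cast hM'0)
        hm1 hm2 hUZ ha hb ha' hb' hab hd ⟨s, by ring⟩
      exact ⟨by rw [e1], by rw [e2]⟩

theorem card_ruler {c : ℕ → ℕ} (hc : StrictMono c) (k : ℕ) :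
    ((Finset.range k).image fun j => (c j : ℤ)).card = k := by
  rw [Finset.card_image_of_injective _ (fun a b h => hc.injective (by exact_mod_cast h)),
    Finset.card_range]

/-- Existence of threshold parameters with prescribed comb modulus, window and span:
`z` may be any integer. -/
theorem exists_par (M' N1 L : ℕ) (hM' : 0 < M') : ∃ S : ℕ, N1 ≤ S ∧ ∀ z p0 : ℤ,
    ∃ P : Par, P.M = M' ∧ P.N1 = N1 ∧ P.L = L ∧ P.S = S ∧ P.z = z ∧ P.p0 = p0 ∧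
      (∀ ρ, P.s ρ = (2 * ((N1 : ℤ) + L) + 1) * (ρ % M')) := by
  refine ⟨(2 * (N1 + L) + 1) * M' + N1, by omega, fun z p0 => ?_⟩
  have hMZ : (0 : ℤ) < M' := by exact_mod_cast hM'
  refine ⟨⟨M', z, p0, N1, ((2 * (N1 + L) + 1) * M' + N1 : ℕ), L,
    fun ρ => (2 * ((N1 : ℤ) + L) + 1) * (ρ % M'), hMZ, by positivity, by positivity, ?_, ?_⟩,
    rfl, rfl, rfl, rfl, rfl, rfl, fun _ => rfl⟩
  · intro r
    have h1 := Int.emod_nonneg r hMZ.ne'
    have h2 := Int.emod_lt_of_pos r hMZ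
    have h3 : (0 : ℤ) ≤ 2 * ((N1 : ℤ) + L) + 1 := by positivity
    rw [abs_of_nonneg (by positivity)]
    push_cast
    nlinarith
  · intro r r' h0 h1 h0' h1' hne
    rw [Int.emod_eq_of_lt h0 h1, Int.emod_eq_of_lt h0' h1', ← mul_sub, abs_mul]
    have h2 : (1 : ℤ) ≤ |r - r'| := Int.one_le_abs (sub_ne_zero.2 hne)
    have h3 : (0 : ℤ) < 2 * ((N1 : ℤ) + L) + 1 := by positivity
    rw [abs_of_pos h3]
    nlinarith

end Crest.Agent.R320.Ruler2Ex_470
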