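import Crest.Agent.R320.Grid_693

set_option autoImplicit false

namespace Crest.Agent.R320.RulerN_363

open Crest.Agent.R320.Grid_693

theorem four_lt {i j : ℕ} (h : i < j) : 4 * 4 ^ i ≤ 4 ^ j := by
  calc 4 * 4 ^ i = 4 ^ (i + 1) := by ring
    _ ≤ 4 ^ j := Nat.pow_le_pow_right (by norm_num) h

theorem golomb {a b c d : ℕ} (h1 : a ≠ b) (h2 : c ≠ d)
    (h : ((4:ℤ) ^ a - 4 ^ b) = 4 ^ c - 4 ^ d) : a = c ∧ b = d := by
  have h' : (4:ℕ) ^ a + 4 ^ d = 4 ^ c + 4 ^ b := by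
    have : ((4:ℕ):ℤ) ^ a + ((4:ℕ):ℤ) ^ d = ((4:ℕ):ℤ) ^ c + ((4:ℕ):ℤ) ^ b := by push_cast; linarith
    exact_mod_cast this
  have inj : ∀ i j : ℕ, (4:ℕ) ^ i = 4 ^ j → i = j := fun i j hij =>
    Nat.pow_right_injective (le_refl 4 |>.trans' (by norm_num)) hij
  have pa : 0 < 4 ^ a := by positivity
  have pb : 0 < 4 ^ b := by positivity
  have pc : 0 < 4 ^ c := by positivity
  have pd : 0 < 4 ^ d := by positivity
  rcases lt_trichotomy a c with hac | hac | hac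
  · exfalso
    have e1 := four_lt hac
    have e2 : c < d := by
      rcases lt_trichotomy c d with h3 | h3 | h3
      · exact h3
      · exact absurd h3 h2
      · have := four_lt h3; omega
    have e3 := four_lt e2
    rcases lt_trichotomy b d with h3 | h3 | h3
    · have := four_lt h3; omega
    · subst h3; omega
    · have := four_lt h3; omega
  · subst hac
    refine ⟨rfl, inj _ _ (by omega)⟩
  · exfalso
    have e1 := four_lt hac
    have e2 : a < b := by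
      rcases lt_trichotomy a b with h3 | h3 | h3
      · exact h3
      · exact absurd h3 h1
      · have := four_lt h3; omega
    have e3 := four_lt e2
    rcases lt_trichotomy d b with h3 | h3 | h3
    · have := four_lt h3; omega
    · subst h3; omega
    · have := four_lt h3; omega

theorem sum_bound (κ j : ℕ) (hk : 1 ≤ κ) :
    (∑ i ∈ Finset.range (j+1), G κ i) ≤ 2 * G κ j := by
  induction j with
  | zero => simp; omega
  | succ j ih =>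
    rw [Finset.sum_range_succ]
    have : 2 * G κ j ≤ G κ (j+1) := by
      unfold G
      calc 2 * 2 ^ (κ * (j+1)) = 2 ^ (κ * (j+1) + 1) := by ring
        _ ≤ 2 ^ (κ * (j+1+1)) := Nat.pow_le_pow_right (by norm_num) (by nlinarith)
    omega

theorem near (t Gj cc : ℕ) (hG : 0 < Gj) (hc : 0 < cc)
    (ht : t % Gj < cc ∨ Gj ≤ t % Gj + cc) :
    ∃ q ε : ℤ, (t:ℤ) = q * Gj + ε ∧ -(cc:ℤ) ≤ ε ∧ ε < cc := by
  have h3 := Nat.div_add_mod t Gj
  have h4 := Nat.mod_lt t hG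
  have h3' : (Gj:ℤ) * (t / Gj : ℕ) + (t % Gj : ℕ) = t := by exact_mod_cast h3
  rcases ht with h5 | h6
  · refine ⟨(t / Gj : ℕ), (t % Gj : ℕ), ?_, ?_, ?_⟩
    · rw [← h3']; ring
    · have : (0:ℤ) ≤ ((t % Gj : ℕ):ℤ) := Int.natCast_nonneg _
      have : (0:ℤ) ≤ (cc:ℤ) := Int.natCast_nonneg _
      linarith
    · exact_mod_cast h5
  · refine ⟨(t / Gj : ℕ) + 1, (t % Gj : ℕ) - Gj, ?_, ?_, ?_⟩
    · rw [← h3']; ring
    · have : (Gj:ℤ) ≤ ((t % Gj : ℕ):ℤ) + cc := by exact_mod_cast h6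
      linarith
    · have h7 : ((t % Gj : ℕ):ℤ) < Gj := by exact_mod_cast h4
      have : (0:ℤ) < (cc:ℤ) := by exact_mod_cast hc
      linarith

theorem core (Gj cc Yj X Δ R q ε : ℤ) (hX : Gj ∣ X - Yj) (h1 : 4 * cc ≤ Yj)
    (h2 : Yj ≤ 8 * cc) (hc : 0 < cc) (hR : 0 ≤ R) (hG : cc * (16 * R + 2) < Gj)
    (hΔ : |Δ| ≤ 2 * R) (he : X * Δ = q * Gj + ε) (h3 : -(2 * cc) < ε) (h4 : ε < 2 * cc) :
    Δ = 0 := by
  obtain ⟨u, hu⟩ := hX
  have heq : Yj * Δ = Gj * (q - u * Δ) + ε := by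
    have h5 : X = Yj + Gj * u := by linarith
    rw [h5] at he
    linear_combination he
  have hY0 : 0 ≤ Yj := by linarith
  have hYΔ : |Yj * Δ| ≤ cc * (16 * R) := by
    rw [abs_mul, abs_of_nonneg hY0]
    calc Yj * |Δ| ≤ (8 * cc) * (2 * R) := mul_le_mul h2 hΔ (abs_nonneg _) (by positivity)
      _ = cc * (16 * R) := by ring
  have hq0 : Gj * (q - u * Δ) = 0 := by
    apply Int.eq_zero_of_abs_lt_dvd (dvd_mul_right _ _)
    have h5 : Gj * (q - u * Δ) = Yj * Δ - ε := by linarith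
    rw [h5]
    rw [abs_le] at hYΔ
    have h6 : cc * (16 * R + 2) = cc * (16 * R) + 2 * cc := by ring
    rw [abs_lt]
    constructor <;> linarith
  rw [hq0, zero_add] at heq
  by_contra hne
  have h5 : 1 ≤ |Δ| := Int.one_le_abs hne
  have h6 : |Yj * Δ| < 2 * cc := by
    rw [heq, abs_lt]
    constructor <;> linarith
  rw [abs_mul, abs_of_nonneg hY0] at h6
  have h7 : Yj * 1 ≤ Yj * |Δ| := mul_le_mul_of_nonneg_left h5 hY0
  linarith

theorem modcore (k X M Δ R : ℤ) (hM : k ∣ M) (hX : M ∣ X - 1) (h : k ∣ X * Δ)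
    (hR : |Δ| < k) : Δ = 0 := by
  have h4 : k ∣ (X - 1) * Δ := Dvd.dvd.mul_right (hM.trans hX) _
  have h5 : k ∣ Δ := by
    have := dvd_sub h h4
    have e : X * Δ - (X - 1) * Δ = Δ := by ring
    rwa [e] at this
  exact Int.eq_zero_of_abs_lt_dvd h5 hR

theorem castsub (e X a b : ℕ) (h : X * b ≤ e) :
    ((e + X * a - X * b : ℕ) : ℤ) = e + X * ((a:ℤ) - b) := by
  rw [Nat.cast_sub (by omega)]; push_cast; ring

theorem castsub2 (e X a b A : ℕ) (h : X * b + A ≤ e) :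
    ((e + X * a - X * b - A : ℕ) : ℤ) = e + X * ((a:ℤ) - b) - A := by
  rw [Nat.cast_sub (by omega), castsub e X a b (by omega)]

theorem yfacts (κ M m j : ℕ) (hk : 1 ≤ κ) (hj1 : 1 ≤ j) (hj2 : j < m) (X : ℤ)
    (hXG : ((G κ m : ℕ):ℤ) ∣ X - ((4 * ∑ i ∈ Finset.range m, M * G κ i : ℕ):ℤ)) :
    ((G κ j : ℕ):ℤ) ∣ X - ((4 * ∑ i ∈ Finset.range j, M * G κ i : ℕ):ℤ) ∧
    4 * (M * G κ (j-1)) ≤ 4 * ∑ i ∈ Finset.range j, M * G κ i ∧
    4 * ∑ i ∈ Finset.range j, M * G κ i ≤ 8 * (M * G κ (j-1)) := by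
  refine ⟨?_, ?_, ?_⟩
  · have h3 : ((G κ j : ℕ):ℤ) ∣ X - ((4 * ∑ i ∈ Finset.range m, M * G κ i : ℕ):ℤ) :=
      Dvd.dvd.trans (by exact_mod_cast (G_dvd hj2.le)) hXG
    have h5 : 4 * ∑ i ∈ Finset.range m, M * G κ i = 4 * ∑ i ∈ Finset.range j, M * G κ i
        + 4 * ∑ i ∈ Finset.Ico j m, M * G κ i := by
      rw [← mul_add, Finset.sum_range_add_sum_Ico _ hj2.le]
    have h6 : G κ j ∣ 4 * ∑ i ∈ Finset.Ico j m, M * G κ i := by
      apply Dvd.dvd.mul_left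
      apply Finset.dvd_sum
      intro i hi
      rw [Finset.mem_Ico] at hi
      exact Dvd.dvd.mul_left (G_dvd hi.1) _
    have h7 : X - ((4 * ∑ i ∈ Finset.range j, M * G κ i : ℕ):ℤ) =
        (X - ((4 * ∑ i ∈ Finset.range m, M * G κ i : ℕ):ℤ)) +
          ((4 * ∑ i ∈ Finset.Ico j m, M * G κ i : ℕ):ℤ) := by
      rw [h5, Nat.cast_add]; ring
    rw [h7]
    exact dvd_add h3 (by exact_mod_cast h6)
  · apply Nat.mul_le_mul_left
    exact Finset.single_le_sum (f := fun i => M * G κ i) (fun _ _ => Nat.zero_le _)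
      (Finset.mem_range.mpr (by omega))
  · rw [← Finset.mul_sum]
    have h3 := sum_bound κ (j - 1) hk
    have h4 : j - 1 + 1 = j := by omega
    rw [h4] at h3
    calc 4 * (M * ∑ i ∈ Finset.range j, G κ i) ≤ 4 * (M * (2 * G κ (j - 1))) := by gcongr
      _ = 8 * (M * G κ (j - 1)) := by ring

/-- the events -/
def Ev (κ M m e X : ℕ) (a b : ℕ) : ℕ ⊕ ℕ → Prop
  | Sum.inl μ => μ ∣ (e + X * 4 ^ a - X * 4 ^ b)
  | Sum.inr j => (e + X * 4 ^ a - X * 4 ^ b - Am κ M j) % G κ j < M * G κ (j - 1) ∨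
      G κ j ≤ (e + X * 4 ^ a - X * 4 ^ b - Am κ M j) % G κ j + M * G κ (j - 1)

theorem key (κ M m K e X : ℕ) (mods : Finset ℕ) (hM : 0 < M) (hκ : 1 ≤ κ)
    (h2κ : M * (16 * 4 ^ K + 2) < 2 ^ κ)
    (hmods : ∀ μ ∈ mods, 2 * 4 ^ K + 2 < μ ∧ μ ∣ M)
    (hXM : (M:ℤ) ∣ (X:ℤ) - 1)
    (hXG : ((G κ m : ℕ):ℤ) ∣ (X:ℤ) - ((4 * ∑ i ∈ Finset.range m, M * G κ i : ℕ):ℤ))
    (he : ∀ i < K, X * 4 ^ i + Am κ M m ≤ e)
    (ev : ℕ ⊕ ℕ) (hev : ev ∈ mods.disjSum (Finset.Ico 1 m))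
    (a b c d : ℕ) (ha : a < K) (hb : b < K) (hc : c < K) (hd : d < K) (hab : a ≠ b) (hcd : c ≠ d)
    (h1 : Ev κ M m e X a b ev) (h2 : Ev κ M m e X c d ev) : a = c ∧ b = d := by
  have hpow : ∀ i < K, (4:ℤ) ^ i < 4 ^ K ∧ 0 < (4:ℤ) ^ i := fun i hi =>
    ⟨pow_lt_pow_right₀ (by norm_num) hi, by positivity⟩
  have hΔ : |((4:ℤ) ^ a - 4 ^ b) - (4 ^ c - 4 ^ d)| ≤ 2 * 4 ^ K := by
    obtain ⟨a1, a2⟩ := hpow a ha
    obtain ⟨b1, b2⟩ := hpow b hb
    obtain ⟨c1, c2⟩ := hpow c hc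
    obtain ⟨d1, d2⟩ := hpow d hd
    rw [abs_le]; constructor <;> linarith
  suffices hs : ((4:ℤ) ^ a - 4 ^ b) - (4 ^ c - 4 ^ d) = 0 from golomb hab hcd (by linarith)
  have hb' := he b hb
  have hd' := he d hd
  rcases ev with k | j
  · have hk : k ∈ mods := by
      rw [Finset.inl_mem_disjSum] at hev; exact hev
    obtain ⟨hk1, hk2⟩ := hmods k hk
    have h1' : (k:ℤ) ∣ e + X * ((4:ℤ) ^ a - 4 ^ b) := by
      have := castsub e X (4 ^ a) (4 ^ b) (by omega)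
      push_cast at this
      have h1x : ((k:ℕ):ℤ) ∣ ((e + X * 4 ^ a - X * 4 ^ b : ℕ):ℤ) := by exact_mod_cast h1
      rwa [this] at h1x
    have h2' : (k:ℤ) ∣ e + X * ((4:ℤ) ^ c - 4 ^ d) := by
      have := castsub e X (4 ^ c) (4 ^ d) (by omega)
      push_cast at this
      have h1x : ((k:ℕ):ℤ) ∣ ((e + X * 4 ^ c - X * 4 ^ d : ℕ):ℤ) := by exact_mod_cast h2
      rwa [this] at h1x
    apply modcore k X M _ 0 (by exact_mod_cast hk2) hXM
    · have := dvd_sub h1' h2'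
      have e1 : ((e:ℤ) + X * ((4:ℤ) ^ a - 4 ^ b)) - (e + X * ((4:ℤ) ^ c - 4 ^ d)) =
        X * (((4:ℤ) ^ a - 4 ^ b) - (4 ^ c - 4 ^ d)) := by ring
      rwa [e1] at this
    · have hk3 : ((2 * 4 ^ K + 2 : ℕ):ℤ) < k := by exact_mod_cast hk1
      push_cast at hk3
      linarith
  · have hj : 1 ≤ j ∧ j < m := by
      rw [Finset.inr_mem_disjSum, Finset.mem_Ico] at hev; exact hev
    obtain ⟨hj1, hj2⟩ := hj
    have hAj : Am κ M j ≤ Am κ M m := Am_mono hj2.le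
    have hGpos : 0 < G κ j := G_pos j
    have hcc : 0 < M * G κ (j-1) := Nat.mul_pos hM (G_pos _)
    obtain ⟨q1, ε1, e1, e2, e3⟩ := near _ (G κ j) (M * G κ (j-1)) hGpos hcc h1
    obtain ⟨q2, ε2, e4, e5, e6⟩ := near _ (G κ j) (M * G κ (j-1)) hGpos hcc h2
    rw [castsub2 e X (4 ^ a) (4 ^ b) _ (by omega)] at e1
    rw [castsub2 e X (4 ^ c) (4 ^ d) _ (by omega)] at e4
    push_cast at e1 e4
    obtain ⟨y1, y2, y3⟩ := yfacts κ M m j hκ hj1 hj2 X hXG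
    have hGbig : M * G κ (j-1) * (16 * 4 ^ K + 2) < G κ j := by
      have h3 : G κ j = 2 ^ κ * G κ (j-1) := by
        unfold G
        rw [← pow_add]
        congr 1
        obtain ⟨j', rfl⟩ : ∃ j', j = j' + 1 := ⟨j - 1, by omega⟩
        simp only [Nat.add_sub_cancel]
        ring
      rw [h3]
      calc M * G κ (j-1) * (16 * 4 ^ K + 2) = (M * (16 * 4 ^ K + 2)) * G κ (j-1) := by ring
        _ < 2 ^ κ * G κ (j-1) := Nat.mul_lt_mul_of_pos_right h2κ (G_pos _)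
    refine core (G κ j : ℕ) (M * G κ (j-1) : ℕ) (4 * ∑ i ∈ Finset.range j, M * G κ i : ℕ) X _
      (4 ^ K) (q1 - q2) (ε1 - ε2) y1 (by exact_mod_cast y2) (by exact_mod_cast y3)
      (by exact_mod_cast hcc) (by positivity) (by exact_mod_cast hGbig) hΔ ?_ ?_ ?_
    · linarith
    · linarith
    · linarith

theorem ruler2F (m cc K : ℕ) : ∃ B : ℕ, ∀ (M : ℕ) (mods : Finset ℕ), 0 < M → Nat.Coprime 2 M →
    mods.card ≤ cc → (∀ mu ∈ mods, B < mu ∧ mu ∣ M) → ∃ (k : ℕ) (c : ℕ → ℕ),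
      (∀ i j, i < j → j < K → c i < c j) ∧
      (∀ i i' l l', i < K → i' < K → l < K → l' < K → i' ≠ i → l' ≠ l →
        c i + c l' ≤ c l + c i' + 2 * Am k M m → c l + c i' ≤ c i + c l' + 2 * Am k M m →
        i = l ∧ i' = l') ∧
      (∀ e, (∀ i < K, c i + Am k M m ≤ e) → ∀ F : Finset ℕ,
        (∀ i ∈ F, i < K ∧ ∃ j < K, j ≠ i ∧ Bad k M m mods (e + c j - c i)) →
          F.card ≤ cc + 2 * m) := by
  classical
  refine ⟨2 * 4 ^ K + 2, fun M mods hM h2M hcard hmods => ?_⟩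
  set κ : ℕ := M * (16 * 4 ^ K + 2) + 1 with hκd
  have hκ : 1 ≤ κ := by omega
  have h2κ : M * (16 * 4 ^ K + 2) < 2 ^ κ := by
    calc M * (16 * 4 ^ K + 2) < κ := by omega
      _ < 2 ^ κ := Nat.lt_two_pow_self
  have hcop : Nat.Coprime M (G κ m) := by
    unfold G
    exact Nat.Coprime.pow_right _ h2M.symm
  obtain ⟨X0, hX1, hX2⟩ := Nat.chineseRemainder hcop 1 (4 * ∑ i ∈ Finset.range m, M * G κ i)
  set X : ℕ := X0 + (2 * Am κ M m + 1) * (M * G κ m) with hX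
  have hMG : 0 < M * G κ m := Nat.mul_pos hM (G_pos _)
  have hXD : 2 * Am κ M m < X := by
    have : (2 * Am κ M m + 1) ≤ (2 * Am κ M m + 1) * (M * G κ m) := Nat.le_mul_of_pos_right _ hMG
    omega
  have hXM : (M:ℤ) ∣ (X:ℤ) - 1 := by
    have h1 : (M:ℤ) ∣ (X0:ℤ) - 1 := by
      have := (Nat.modEq_iff_dvd.mp hX1.symm)
      exact_mod_cast this
    have h2 : (X:ℤ) - 1 = ((X0:ℤ) - 1) + M * ((2 * Am κ M m + 1) * G κ m) := by
      rw [hX]; push_cast; ring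
    rw [h2]
    exact dvd_add h1 (dvd_mul_right _ _)
  have hXG : ((G κ m : ℕ):ℤ) ∣ (X:ℤ) - ((4 * ∑ i ∈ Finset.range m, M * G κ i : ℕ):ℤ) := by
    have h1 : ((G κ m : ℕ):ℤ) ∣ (X0:ℤ) - ((4 * ∑ i ∈ Finset.range m, M * G κ i : ℕ):ℤ) :=
      Nat.modEq_iff_dvd.mp hX2.symm
    have h2 : (X:ℤ) - ((4 * ∑ i ∈ Finset.range m, M * G κ i : ℕ):ℤ) =
        ((X0:ℤ) - ((4 * ∑ i ∈ Finset.range m, M * G κ i : ℕ):ℤ)) +
          ((G κ m : ℕ):ℤ) * ((2 * Am κ M m + 1) * M) := by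
      rw [hX, Nat.cast_add, Nat.cast_mul, Nat.cast_mul]; push_cast; ring
    rw [h2]
    exact dvd_add h1 (dvd_mul_right _ _)
  clear_value X κ
  refine ⟨κ, fun j => X * 4 ^ j, ?_, ?_, ?_⟩
  · intro i j hij _
    have h1 := four_lt hij
    have h2 : 1 ≤ 4 ^ i := Nat.one_le_pow _ _ (by norm_num)
    have hX0 : 0 < X := by omega
    exact Nat.mul_lt_mul_of_pos_left (by omega) hX0
  · intro i i' l l' hi hi' hl hl' h1 h2 h3 h4
    have hs : ((4:ℤ) ^ i - 4 ^ i') = (4 ^ l - 4 ^ l') := by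
      by_contra hne
      have h5 : 1 ≤ |((4:ℤ) ^ i - 4 ^ i') - (4 ^ l - 4 ^ l')| :=
        Int.one_le_abs (sub_ne_zero.mpr hne)
      have h6 : (X:ℤ) * 1 ≤ X * |((4:ℤ) ^ i - 4 ^ i') - (4 ^ l - 4 ^ l')| :=
        mul_le_mul_of_nonneg_left h5 (by positivity)
      have h7 : (X:ℤ) * |((4:ℤ) ^ i - 4 ^ i') - (4 ^ l - 4 ^ l')| ≤ 2 * Am κ M m := by
        have h9 : (X:ℤ) * |((4:ℤ) ^ i - 4 ^ i') - (4 ^ l - 4 ^ l')| =
            |(X:ℤ) * (((4:ℤ) ^ i - 4 ^ i') - (4 ^ l - 4 ^ l'))| := by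
          rw [abs_mul, abs_of_nonneg (by positivity : (0:ℤ) ≤ (X:ℤ))]
        rw [h9, abs_le]
        have h3' : (X:ℤ) * 4 ^ i + X * 4 ^ l' ≤ X * 4 ^ l + X * 4 ^ i' + 2 * Am κ M m := by
          exact_mod_cast h3
        have h4' : (X:ℤ) * 4 ^ l + X * 4 ^ i' ≤ X * 4 ^ i + X * 4 ^ l' + 2 * Am κ M m := by
          exact_mod_cast h4
        constructor <;> linarith
      have h8 : (2 * (Am κ M m : ℤ)) < X := by exact_mod_cast hXD
      linarith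
    obtain ⟨e1, e2⟩ := golomb h1.symm h2.symm hs
    exact ⟨e1, e2⟩
  · intro e he F hF
    have hc2 : (mods.disjSum (Finset.Ico 1 m)).card ≤ cc + 2 * m := by
      rw [Finset.card_disjSum, Nat.card_Ico]; omega
    refine le_trans ?_ hc2
    have hex : ∀ i ∈ F, ∃ ev ∈ mods.disjSum (Finset.Ico 1 m), ∃ j < K, j ≠ i ∧
        Ev κ M m e X j i ev := by
      intro i hi
      obtain ⟨-, j, hj, hne, ⟨μ, hμ, h⟩ | ⟨l, hl1, hl2, h⟩⟩ := hF i hi
      · exact ⟨Sum.inl μ, Finset.inl_mem_disjSum.mpr hμ, j, hj, hne, h⟩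
      · exact ⟨Sum.inr l, Finset.inr_mem_disjSum.mpr (Finset.mem_Ico.mpr ⟨hl1, hl2⟩), j, hj, hne, h⟩
    choose! ev hev using hex
    apply Finset.card_le_card_of_injOn ev (fun i hi => (hev i hi).1)
    intro p hp q hq hpq
    obtain ⟨h1, a, ha, hne, h2⟩ := hev p hp
    obtain ⟨h3, b, hb, hne', h4⟩ := hev q hq
    have hpK : p < K := (hF p hp).1
    have hqK : q < K := (hF q hq).1
    rw [← hpq] at h4
    exact (key κ M m K e X mods hM hκ h2κ hmods hXM hXG he (ev p) h1 a p b q ha hpK hb hqK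
      hne hne' h2 h4).2

open Classical in
theorem ruler2 (m cc K : ℕ) : ∃ B : ℕ, ∀ (M : ℕ) (mods : Finset ℕ), 0 < M → Nat.Coprime 2 M →
    mods.card ≤ cc → (∀ mu ∈ mods, B < mu ∧ mu ∣ M) → ∃ (k : ℕ) (c : ℕ → ℕ),
      (∀ i j, i < j → j < K → c i < c j) ∧
      (∀ i i' l l', i < K → i' < K → l < K → l' < K → i' ≠ i → l' ≠ l →
        c i + c l' ≤ c l + c i' + 2 * Am k M m → c l + c i' ≤ c i + c l' + 2 * Am k M m →
        i = l ∧ i' = l') ∧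
      (∀ e, (∀ i < K, c i + Am k M m ≤ e) →
        ((Finset.range K).filter
          (fun i => ∃ j < K, j ≠ i ∧ Bad k M m mods (e + c j - c i))).card ≤ cc + 2 * m) := by
  obtain ⟨B, hB⟩ := ruler2F m cc K
  refine ⟨B, fun M mods h1 h2 h3 h4 => ?_⟩
  obtain ⟨k, c, g1, g2, g3⟩ := hB M mods h1 h2 h3 h4
  refine ⟨k, c, g1, g2, fun e he => g3 e he _ fun i hi => ?_⟩
  rw [Finset.mem_filter, Finset.mem_range] at hi
  exact hi

end Crest.Agent.R320.RulerN_363
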