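import Mathlib

/-! Row 320: the wide ruler for the digit gadget G2_867 (852 #13483 (3)) (helper867). -/

set_option autoImplicit false

namespace Crest.Agent.R320.Ruler_867

open Finset

/-- the exceptional lengths of the digit gadget -/
def BadN (Ms : Finset ℕ) (M m b : ℕ) (n : ℕ) : Prop :=
  (∃ k ∈ Ms, k ∣ n) ∨ ∃ j < m, ¬ (M ≤ n / b ^ j % b ∧ n / b ^ j % b + M < b)

theorem three_add {a c d : ℕ} (h1 : c < a) (h2 : d < a) : (3 : ℕ) ^ c + 3 ^ d < 3 ^ a := by
  obtain ⟨e, rfl⟩ : ∃ e, a = e + 1 := ⟨a - 1, by omega⟩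
  have h3 : 3 ^ c ≤ 3 ^ e := Nat.pow_le_pow_right (by norm_num) (by omega)
  have h4 : 3 ^ d ≤ 3 ^ e := Nat.pow_le_pow_right (by norm_num) (by omega)
  have h5 : 0 < 3 ^ e := Nat.pow_pos (by norm_num)
  rw [pow_succ]
  omega

theorem sidon {l l' p p' : ℕ} (h1 : l ≠ l') (h2 : p ≠ p') (h3 : l ≠ p) :
    (3 : ℕ) ^ l + 3 ^ p' ≠ 3 ^ p + 3 ^ l' := by
  intro h
  have e1 : 0 < (3 : ℕ) ^ l := Nat.pow_pos (by norm_num)
  have e2 : 0 < (3 : ℕ) ^ l' := Nat.pow_pos (by norm_num)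
  have e3 : 0 < (3 : ℕ) ^ p := Nat.pow_pos (by norm_num)
  have e4 : 0 < (3 : ℕ) ^ p' := Nat.pow_pos (by norm_num)
  rcases lt_trichotomy l p with hlp | hlp | hlp
  · rcases lt_trichotomy p p' with hpp | hpp | hpp
    · rcases lt_trichotomy l' p' with hq | hq | hq
      · have := three_add hpp hq; linarith
      · subst hq
        have h4 : (3 : ℕ) ^ l < 3 ^ p := Nat.pow_lt_pow_right (by norm_num) hlp
        linarith
      · have := three_add (hlp.trans (hpp.trans hq)) hq; linarith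
    · exact h2 hpp
    · have := three_add hlp hpp; linarith
  · exact h3 hlp
  · rcases lt_trichotomy l l' with hll | hll | hll
    · rcases lt_trichotomy p' l' with hq | hq | hq
      · have := three_add hll hq; linarith
      · subst hq
        have h4 : (3 : ℕ) ^ p < 3 ^ l := Nat.pow_lt_pow_right (by norm_num) hlp
        linarith
      · have := three_add (hlp.trans (hll.trans hq)) hq; linarith
    · exact h1 hll
    · have := three_add hlp hll; linarith

/-- the integer `N` of two pairs -/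
theorem nbound {K l l' p p' : ℕ} (hl : l < K) (hl' : l' < K) (hp : p < K) (hp' : p' < K)
    (h1 : l ≠ l') (h2 : p ≠ p') (h3 : l ≠ p) :
    (1 : ℤ) ≤ |(3 : ℤ) ^ l - 3 ^ l' - 3 ^ p + 3 ^ p'| ∧
      |(3 : ℤ) ^ l - 3 ^ l' - 3 ^ p + 3 ^ p'| ≤ 2 * 3 ^ K := by
  have hne := sidon h1 h2 h3
  have hb : ∀ x, x < K → (3 : ℤ) ^ x ≤ 3 ^ K ∧ (0 : ℤ) < 3 ^ x := fun x hx =>
    ⟨pow_le_pow_right₀ (by norm_num) hx.le, by positivity⟩
  obtain ⟨a1, a2⟩ := hb l hl
  obtain ⟨b1, b2⟩ := hb l' hl'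
  obtain ⟨c1, c2⟩ := hb p hp
  obtain ⟨d1, d2⟩ := hb p' hp'
  constructor
  · refine Int.one_le_abs fun h => hne ?_
    have : (3 : ℤ) ^ l + 3 ^ p' = 3 ^ p + 3 ^ l' := by linarith
    exact_mod_cast this
  · rw [abs_le]; constructor <;> linarith

/-- a bad digit: close to a multiple of `b ^ (j+1)` -/
theorem near {M b j n : ℕ} (hb : 0 < b) (h : ¬ (M ≤ n / b ^ j % b ∧ n / b ^ j % b + M < b)) :
    ∃ q : ℤ, |(n : ℤ) - b ^ (j + 1) * q| ≤ M * b ^ j := by
  have hbj : 0 < b ^ j := Nat.pow_pos hb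
  set d := n / b ^ j % b with hd
  have hdb : d < b := Nat.mod_lt _ hb
  have e1 : n % b ^ (j + 1) = n % b ^ j + b ^ j * d := by
    rw [hd, pow_succ, Nat.mod_mul]
  have e2 : b ^ (j + 1) * (n / b ^ (j + 1)) + n % b ^ (j + 1) = n := Nat.div_add_mod _ _
  have e3 : n % b ^ j < b ^ j := Nat.mod_lt _ hbj
  by_cases hlt : d < M
  · refine ⟨((n / b ^ (j + 1) : ℕ) : ℤ), ?_⟩
    have h1 : n % b ^ (j + 1) ≤ M * b ^ j := by
      rw [e1]
      have : b ^ j * d + b ^ j ≤ M * b ^ j := by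
        calc b ^ j * d + b ^ j = (d + 1) * b ^ j := by ring
          _ ≤ M * b ^ j := Nat.mul_le_mul_right _ hlt
      linarith
    have h2 : (n : ℤ) - b ^ (j + 1) * ((n / b ^ (j + 1) : ℕ) : ℤ) = ((n % b ^ (j + 1) : ℕ) : ℤ) := by
      have : (n : ℤ) = b ^ (j + 1) * ((n / b ^ (j + 1) : ℕ) : ℤ) + ((n % b ^ (j + 1) : ℕ) : ℤ) := by
        exact_mod_cast e2.symm
      linarith
    rw [h2, abs_of_nonneg (by positivity)]
    exact_mod_cast h1
  · have hge : b ≤ d + M := by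
      by_contra hc
      exact h ⟨by omega, by omega⟩
    refine ⟨((n / b ^ (j + 1) : ℕ) : ℤ) + 1, ?_⟩
    have h1 : b ^ (j + 1) ≤ n % b ^ (j + 1) + M * b ^ j := by
      rw [e1]
      calc b ^ (j + 1) = b * b ^ j := by ring
        _ ≤ (d + M) * b ^ j := Nat.mul_le_mul_right _ hge
        _ = b ^ j * d + M * b ^ j := by ring
        _ ≤ n % b ^ j + b ^ j * d + M * b ^ j := by linarith [Nat.zero_le (n % b ^ j)]
    have h3 : n % b ^ (j + 1) < b ^ (j + 1) := Nat.mod_lt _ (Nat.pow_pos hb)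
    have h2 : (n : ℤ) - b ^ (j + 1) * (((n / b ^ (j + 1) : ℕ) : ℤ) + 1) =
        ((n % b ^ (j + 1) : ℕ) : ℤ) - ((b ^ (j + 1) : ℕ) : ℤ) := by
      have : (n : ℤ) = b ^ (j + 1) * ((n / b ^ (j + 1) : ℕ) : ℤ) + ((n % b ^ (j + 1) : ℕ) : ℤ) := by
        exact_mod_cast e2.symm
      push_cast at this ⊢
      linarith
    rw [h2, abs_le]
    have h1' : ((b ^ (j + 1) : ℕ) : ℤ) ≤ ((n % b ^ (j + 1) : ℕ) : ℤ) + M * b ^ j := by
      exact_mod_cast h1
    have h3' : ((n % b ^ (j + 1) : ℕ) : ℤ) < ((b ^ (j + 1) : ℕ) : ℤ) := by exact_mod_cast h3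
    have h4 : (0 : ℤ) ≤ M * b ^ j := by positivity
    constructor <;> linarith

theorem geom_bounds (b j : ℕ) (hb : 2 ≤ b) :
    b ^ j ≤ ∑ i ∈ range (j + 1), b ^ i ∧ ∑ i ∈ range (j + 1), b ^ i ≤ 2 * b ^ j := by
  constructor
  · rw [Finset.sum_range_succ]; omega
  · induction j with
    | zero => simp
    | succ j ih =>
      rw [Finset.sum_range_succ]
      have : 2 * b ^ j ≤ b ^ (j + 1) := by
        rw [pow_succ, mul_comm]; exact Nat.mul_le_mul_left _ hb
      omega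

open Classical in
theorem ruler (K : ℕ) (Ms : Finset ℕ) (M m b D : ℕ) (hMs : ∀ k ∈ Ms, 2 * 3 ^ K < k ∧ k ∣ M)
    (hM : 0 < M) (hb : 8 * M * (2 * 3 ^ K) + 2 * M < b) (hco : Nat.Coprime b M) :
    ∃ c : ℕ → ℕ, (∀ l l', l < l' → c l + D < c l') ∧
      (∀ l l' p p', l < K → l' < K → p < K → p' < K → l ≠ l' → p ≠ p' → l ≠ p →
        c p + c l' + D < c l + c p' ∨ c l + c p' + D < c p + c l') ∧
      ∀ T : ℤ, ((range K).filter fun l => ∃ l' < K, l' ≠ l ∧ ∃ n : ℕ,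
        (n : ℤ) = T + c l - c l' ∧ BadN Ms M m b n).card ≤ Ms.card + m := by
  have h3K : 0 < 3 ^ K := Nat.pow_pos (by norm_num)
  have hb2 : 2 ≤ b := by nlinarith
  have hb0 : 0 < b := by omega
  let κ := 4 * M * ∑ i ∈ range m, b ^ i
  obtain ⟨K0, hK1, hK2⟩ := Nat.chineseRemainder (Nat.Coprime.pow_left m hco) κ 1
  let Kp := K0 + b ^ m * (M * (D + 1))
  have hKp1 : Kp ≡ κ [MOD b ^ m] := by
    have : K0 + b ^ m * (M * (D + 1)) ≡ K0 [MOD b ^ m] := by
      simp [Nat.ModEq]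
    exact this.trans hK1
  have hKp2 : Kp ≡ 1 [MOD M] := by
    have : K0 + b ^ m * (M * (D + 1)) ≡ K0 [MOD M] := by
      have e : b ^ m * (M * (D + 1)) = M * (b ^ m * (D + 1)) := by ring
      rw [e]
      simp [Nat.ModEq]
    exact this.trans hK2
  have hKpD : D < Kp := by
    have h1 : 1 ≤ b ^ m := Nat.one_le_pow _ _ hb0
    have h2 : D + 1 ≤ b ^ m * (M * (D + 1)) := by
      calc D + 1 = 1 * (1 * (D + 1)) := by ring
        _ ≤ b ^ m * (M * (D + 1)) := Nat.mul_le_mul h1 (Nat.mul_le_mul_right _ hM)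
    show D < K0 + b ^ m * (M * (D + 1))
    omega
  refine ⟨fun l => 3 ^ l * Kp, ?_, ?_, ?_⟩
  · intro l l' h
    have h1 : 3 ^ l + 1 ≤ 3 ^ l' := Nat.pow_lt_pow_right (by norm_num) h
    calc 3 ^ l * Kp + D < 3 ^ l * Kp + Kp := by omega
      _ = (3 ^ l + 1) * Kp := by ring
      _ ≤ 3 ^ l' * Kp := Nat.mul_le_mul_right _ h1
  · intro l l' p p' _ _ _ _ h1 h2 h3
    have hne := sidon h1 h2 h3
    rcases lt_or_gt_of_ne hne with h | h
    · right
      calc 3 ^ l * Kp + 3 ^ p' * Kp + D < 3 ^ l * Kp + 3 ^ p' * Kp + Kp := by omega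
        _ = (3 ^ l + 3 ^ p' + 1) * Kp := by ring
        _ ≤ (3 ^ p + 3 ^ l') * Kp := Nat.mul_le_mul_right _ h
        _ = 3 ^ p * Kp + 3 ^ l' * Kp := by ring
    · left
      calc 3 ^ p * Kp + 3 ^ l' * Kp + D < 3 ^ p * Kp + 3 ^ l' * Kp + Kp := by omega
        _ = (3 ^ p + 3 ^ l' + 1) * Kp := by ring
        _ ≤ (3 ^ l + 3 ^ p') * Kp := Nat.mul_le_mul_right _ h
        _ = 3 ^ l * Kp + 3 ^ p' * Kp := by ring
  · intro T
    let A : ℕ → Finset ℕ := fun k => (range K).filter fun l => ∃ l' < K, l' ≠ l ∧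
      (k : ℤ) ∣ T + 3 ^ l * Kp - 3 ^ l' * Kp
    let C : ℕ → Finset ℕ := fun j => (range K).filter fun l => ∃ l' < K, l' ≠ l ∧
      ∃ q : ℤ, |T + 3 ^ l * Kp - 3 ^ l' * Kp - b ^ (j + 1) * q| ≤ M * b ^ j
    have hA : ∀ k ∈ Ms, (A k).card ≤ 1 := by
      intro k hk
      rw [Finset.card_le_one]
      intro l hl p hp
      by_contra hlp
      simp only [A, Finset.mem_filter, Finset.mem_range] at hl hp
      obtain ⟨hl0, l', hl1, hl2, hl3⟩ := hl
      obtain ⟨hp0, p', hp1, hp2, hp3⟩ := hp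
      obtain ⟨n1, n2⟩ := nbound hl0 hl1 hp0 hp1 (Ne.symm hl2) (Ne.symm hp2) hlp
      obtain ⟨hk1, hk2⟩ := hMs k hk
      have hd : (k : ℤ) ∣ ((3 : ℤ) ^ l - 3 ^ l' - 3 ^ p + 3 ^ p') * Kp := by
        have := dvd_sub hl3 hp3
        have e : T + 3 ^ l * (Kp : ℤ) - 3 ^ l' * Kp - (T + 3 ^ p * Kp - 3 ^ p' * Kp) =
            ((3 : ℤ) ^ l - 3 ^ l' - 3 ^ p + 3 ^ p') * Kp := by ring
        rwa [e] at this
      have hcop : IsCoprime (k : ℤ) (Kp : ℤ) := by
        have h1 : Kp ≡ 1 [MOD k] := hKp2.of_dvd hk2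
        have h2 : Nat.Coprime k Kp := by
          have := h1.gcd_eq
          rw [Nat.gcd_one_left] at this
          rwa [Nat.coprime_comm]
        exact Nat.isCoprime_iff_coprime.2 h2
      have hd2 := hcop.dvd_of_dvd_mul_right hd
      have h4 : (k : ℤ) ≤ |(3 : ℤ) ^ l - 3 ^ l' - 3 ^ p + 3 ^ p'| :=
        Int.le_of_dvd (by linarith) ((dvd_abs _ _).2 hd2)
      have h5 : (2 * 3 ^ K : ℤ) < k := by exact_mod_cast hk1
      linarith
    have hC : ∀ j ∈ range m, (C j).card ≤ 1 := by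
      intro j hj
      have hjm : j < m := Finset.mem_range.1 hj
      rw [Finset.card_le_one]
      intro l hl p hp
      by_contra hlp
      simp only [C, Finset.mem_filter, Finset.mem_range] at hl hp
      obtain ⟨hl0, l', hl1, hl2, q1, hl3⟩ := hl
      obtain ⟨hp0, p', hp1, hp2, q2, hp3⟩ := hp
      obtain ⟨n1, n2⟩ := nbound hl0 hl1 hp0 hp1 (Ne.symm hl2) (Ne.symm hp2) hlp
      set N := (3 : ℤ) ^ l - 3 ^ l' - 3 ^ p + 3 ^ p' with hN
      -- Kp modulo b^(j+1)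
      obtain ⟨g1, g2⟩ := geom_bounds b j hb2
      set σ := ∑ i ∈ range (j + 1), b ^ i with hσ
      have hmod : ∃ w : ℤ, (Kp : ℤ) = 4 * M * σ + b ^ (j + 1) * w := by
        have h1 : Kp ≡ κ [MOD b ^ (j + 1)] := hKp1.of_dvd (pow_dvd_pow b hjm)
        have h2 : ∃ w : ℕ, κ = 4 * M * σ + b ^ (j + 1) * w := by
          refine ⟨4 * M * ∑ i ∈ range (m - (j + 1)), b ^ i, ?_⟩
          have e : ∑ i ∈ range m, b ^ i = σ + b ^ (j + 1) * ∑ i ∈ range (m - (j + 1)), b ^ i := by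
            have : m = (j + 1) + (m - (j + 1)) := by omega
            conv_lhs => rw [this]
            rw [Finset.sum_range_add, Finset.mul_sum]
            congr 1
            refine Finset.sum_congr rfl fun i _ => ?_
            rw [pow_add]
          show 4 * M * ∑ i ∈ range m, b ^ i = _
          rw [e]; ring
        obtain ⟨w, hw⟩ := h2
        have h3 : ((b ^ (j + 1) : ℕ) : ℤ) ∣ (κ : ℤ) - Kp := (Nat.modEq_iff_dvd).1 h1
        obtain ⟨u, hu⟩ := h3
        refine ⟨w - u, ?_⟩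
        have hw' : (κ : ℤ) = 4 * M * σ + b ^ (j + 1) * w := by exact_mod_cast hw
        push_cast at hu
        linarith
      obtain ⟨w, hw⟩ := hmod
      have hdiff : |N * (4 * M * σ) - b ^ (j + 1) * (q1 - q2 - N * w)| ≤ 2 * (M * b ^ j) := by
        have e : N * (4 * M * (σ : ℤ)) - b ^ (j + 1) * (q1 - q2 - N * w) =
            (T + 3 ^ l * Kp - 3 ^ l' * Kp - b ^ (j + 1) * q1) -
            (T + 3 ^ p * Kp - 3 ^ p' * Kp - b ^ (j + 1) * q2) := by
          rw [hw, hN]; ring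
        rw [e]
        calc _ ≤ |T + 3 ^ l * (Kp : ℤ) - 3 ^ l' * Kp - b ^ (j + 1) * q1| +
            |T + 3 ^ p * (Kp : ℤ) - 3 ^ p' * Kp - b ^ (j + 1) * q2| := abs_sub _ _
          _ ≤ 2 * (M * b ^ j) := by linarith
      have hbj : (0 : ℤ) < b ^ j := by positivity
      have hM' : (0 : ℤ) < M := by exact_mod_cast hM
      have g1' : (b : ℤ) ^ j ≤ σ := by exact_mod_cast g1
      have g2' : (σ : ℤ) ≤ 2 * b ^ j := by exact_mod_cast g2
      have habs : |N * (4 * M * (σ : ℤ))| = |N| * (4 * M * σ) := by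
        rw [abs_mul, abs_of_nonneg (a := 4 * (M : ℤ) * σ) (by positivity)]
      have hlow : 4 * M * (b : ℤ) ^ j ≤ |N| * (4 * M * σ) := by
        have h1 : 4 * M * (b : ℤ) ^ j ≤ 4 * M * σ := by
          apply mul_le_mul_of_nonneg_left g1' (by positivity)
        have h2 : (4 * M * (σ : ℤ)) ≤ |N| * (4 * M * σ) := by
          have : (0 : ℤ) ≤ 4 * M * σ := by positivity
          nlinarith
        linarith
      have hupp : |N| * (4 * M * (σ : ℤ)) ≤ (2 * 3 ^ K) * (8 * M * b ^ j) := by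
        have h1 : 4 * M * (σ : ℤ) ≤ 8 * M * b ^ j := by nlinarith
        exact mul_le_mul n2 h1 (by positivity) (by positivity)
      by_cases hq : q1 - q2 - N * w = 0
      · rw [hq, mul_zero, sub_zero, habs] at hdiff
        nlinarith
      · have hq1 : (1 : ℤ) ≤ |q1 - q2 - N * w| := Int.one_le_abs hq
        have h6 : |(b : ℤ) ^ (j + 1) * (q1 - q2 - N * w)| =
            b ^ (j + 1) * |q1 - q2 - N * w| := by
          rw [abs_mul, abs_of_nonneg (a := (b : ℤ) ^ (j + 1)) (by positivity)]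
        have h7 : (b : ℤ) ^ (j + 1) ≤ |(b : ℤ) ^ (j + 1) * (q1 - q2 - N * w)| := by
          rw [h6]
          have : (0 : ℤ) ≤ b ^ (j + 1) := by positivity
          nlinarith
        have h8 : |(b : ℤ) ^ (j + 1) * (q1 - q2 - N * w)| ≤
            |N * (4 * M * σ)| + |N * (4 * M * σ) - b ^ (j + 1) * (q1 - q2 - N * w)| := by
          have e : (b : ℤ) ^ (j + 1) * (q1 - q2 - N * w) = N * (4 * M * σ) -
            (N * (4 * M * σ) - b ^ (j + 1) * (q1 - q2 - N * w)) := by ring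
          conv_lhs => rw [e]
          exact abs_sub _ _
        rw [habs] at h8
        have hbZ : 8 * (M : ℤ) * (2 * 3 ^ K) + 2 * M < b := by exact_mod_cast hb
        have h9 : (8 * (M : ℤ) * (2 * 3 ^ K) + 2 * M) * b ^ j < b * b ^ j :=
          mul_lt_mul_of_pos_right hbZ hbj
        have h10 : (b : ℤ) ^ (j + 1) = b * b ^ j := by ring
        nlinarith
    have hsub : ((range K).filter fun l => ∃ l' < K, l' ≠ l ∧ ∃ n : ℕ,
        (n : ℤ) = T + (3 ^ l * Kp : ℕ) - (3 ^ l' * Kp : ℕ) ∧ BadN Ms M m b n) ⊆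
        Ms.biUnion A ∪ (range m).biUnion C := by
      intro l hl
      simp only [Finset.mem_filter, Finset.mem_range] at hl
      obtain ⟨hl0, l', hl1, hl2, n, hn, hbad⟩ := hl
      rw [Finset.mem_union]
      push_cast at hn
      rcases hbad with ⟨k, hk, hkn⟩ | ⟨j, hj, hbj⟩
      · left
        rw [Finset.mem_biUnion]
        refine ⟨k, hk, ?_⟩
        simp only [A, Finset.mem_filter, Finset.mem_range]
        refine ⟨hl0, l', hl1, hl2, ?_⟩
        rw [← hn]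
        exact_mod_cast hkn
      · right
        rw [Finset.mem_biUnion]
        refine ⟨j, Finset.mem_range.2 hj, ?_⟩
        simp only [C, Finset.mem_filter, Finset.mem_range]
        obtain ⟨q, hq⟩ := near hb0 hbj
        refine ⟨hl0, l', hl1, hl2, q, ?_⟩
        rw [← hn]
        exact hq
    calc _ ≤ (Ms.biUnion A ∪ (range m).biUnion C).card := Finset.card_le_card hsub
      _ ≤ (Ms.biUnion A).card + ((range m).biUnion C).card := Finset.card_union_le _ _
      _ ≤ ∑ k ∈ Ms, (A k).card + ∑ j ∈ range m, (C j).card :=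
          Nat.add_le_add Finset.card_biUnion_le Finset.card_biUnion_le
      _ ≤ ∑ _k ∈ Ms, 1 + ∑ _j ∈ range m, 1 :=
          Nat.add_le_add (Finset.sum_le_sum hA) (Finset.sum_le_sum hC)
      _ = Ms.card + m := by simp

end Crest.Agent.R320.Ruler_867
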