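import Crest.Agent.R320.Ruler_265

/-!
# Row 320: the wide ruler for Bad = (E) or (primes) or (digits), pair-unique form
-/

set_option autoImplicit false

namespace Crest.Agent.R320.Ruler_965

/-- bad digit `j` of `x` in base `b` -/
def Dg (M b j x : ℕ) : Prop := ¬ (M ≤ x / b ^ j % b ∧ x / b ^ j % b + M + 1 ≤ b)

theorem sidon {k k' l l' : ℕ} (hne : k ≠ k') (h : 2 ^ k + 2 ^ l' = 2 ^ k' + 2 ^ l) : k = l := by
  have h1 : (2 : ℤ) ^ k - 2 ^ k' = 2 ^ l - 2 ^ l' := by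
    have : ((2 : ℤ) ^ k + 2 ^ l') = 2 ^ k' + 2 ^ l := by exact_mod_cast h
    linarith
  exact (Crest.Agent.R320.Ruler265.pow_sidon hne h1).1

/-- geometric sum -/
def gs (b j : ℕ) : ℕ := ∑ i ∈ Finset.range j, b ^ i

theorem gs_lt (b j s : ℕ) (hs : s + 1 ≤ b) : s * gs b j < b ^ j := by
  induction j with
  | zero => simp [gs]
  | succ j ih =>
    have h1 : gs b (j + 1) = gs b j + b ^ j := by simp [gs, Finset.sum_range_succ]
    rw [h1, Nat.mul_add, pow_succ]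
    have h2 : (s + 1) * b ^ j ≤ b * b ^ j := Nat.mul_le_mul_right _ hs
    have h3 : (s + 1) * b ^ j = s * b ^ j + b ^ j := by ring
    have h4 : b ^ j * b = b * b ^ j := mul_comm _ _
    omega

theorem gs_split (b j m : ℕ) (h : j < m) : ∃ U, gs b m = gs b j + b ^ j + b ^ (j + 1) * U := by
  induction m with
  | zero => omega
  | succ m ih =>
    have h1 : gs b (m + 1) = gs b m + b ^ m := by simp [gs, Finset.sum_range_succ]
    rcases Nat.lt_succ_iff_lt_or_eq.1 h with hlt | rfl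
    · obtain ⟨U, hU⟩ := ih hlt
      refine ⟨U + b ^ (m - (j + 1)), ?_⟩
      rw [h1, hU, Nat.mul_add, ← pow_add, show j + 1 + (m - (j + 1)) = m by omega]
      ring
    · exact ⟨0, by rw [h1]; ring⟩

/-- adding a multiple of `K0` moves the digit `j` by `4 M Δ` and at most one carry -/
theorem digit_move {M b m j K0 t D y : ℕ} (hj : j < m) (hK : K0 = b ^ m * t + 4 * M * gs b m)
    (hD : 4 * M * D + 1 ≤ b) :
    ∃ e ≤ 1, (y + D * K0) / b ^ j % b = (y / b ^ j % b + 4 * M * D + e) % b := by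
  obtain ⟨U, hU⟩ := gs_split b j m hj
  have hb : 0 < b := by omega
  have hbj : 0 < b ^ j := pow_pos hb j
  have hlt := gs_lt b j (4 * M * D) hD
  have hm : b ^ m = b ^ j * (b * b ^ (m - (j + 1))) := by
    rw [← pow_succ', ← pow_add]; congr 1; omega
  have hy := Nat.div_add_mod y (b ^ j)
  set y1 := y / b ^ j with hy1
  set y0 := y % b ^ j with hy0
  have hy0lt : y0 < b ^ j := Nat.mod_lt _ hbj
  have hx : y + D * K0 = b ^ j * (y1 + 4 * M * D + b * (b ^ (m - (j + 1)) * t * D + 4 * M * D * U))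
      + (y0 + 4 * M * D * gs b j) := by
    rw [hK, hU, hm, ← hy]
    rw [pow_succ]
    ring
  have hsum : y0 + 4 * M * D * gs b j < 2 * b ^ j := by omega
  refine ⟨(y0 + 4 * M * D * gs b j) / b ^ j, ?_, ?_⟩
  · have : (y0 + 4 * M * D * gs b j) / b ^ j < 2 := by
      rw [Nat.div_lt_iff_lt_mul hbj]; exact hsum
    omega
  · rw [hx, Nat.mul_add_div hbj]
    have e1 : y1 + 4 * M * D + b * (b ^ (m - (j + 1)) * t * D + 4 * M * D * U)
        + (y0 + 4 * M * D * gs b j) / b ^ j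
        = (y1 + 4 * M * D + (y0 + 4 * M * D * gs b j) / b ^ j)
          + b * (b ^ (m - (j + 1)) * t * D + 4 * M * D * U) := by ring
    rw [e1, Nat.add_mul_mod_self_left]
    rw [Nat.add_assoc, Nat.add_assoc, Nat.mod_add_mod]

theorem digit_unique {M b m j K0 t D x y : ℕ} (hM : 0 < M) (hj : j < m)
    (hK : K0 = b ^ m * t + 4 * M * gs b m) (hD0 : 0 < D) (hD : 4 * M * D + 2 * M + 4 ≤ b)
    (hx : Dg M b j x) (hy : Dg M b j y) (h : x = y + D * K0) : False := by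
  obtain ⟨e, he, hmv⟩ := digit_move (y := y) hj hK (D := D) (by omega)
  rw [← h] at hmv
  unfold Dg at hx hy
  set d := y / b ^ j % b with hd
  set s := 4 * M * D with hs
  have hb : 0 < b := by omega
  have hdlt : d < b := Nat.mod_lt _ hb
  have hs4 : 4 * M ≤ s := by rw [hs]; exact Nat.le_mul_of_pos_right _ hD0
  by_cases h1 : d < M
  · have h2 : (d + s + e) % b = d + s + e := Nat.mod_eq_of_lt (by omega)
    rw [h2] at hmv
    apply hx
    rw [hmv]
    constructor <;> omega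
  · have h3 : b < d + M + 1 := by
      by_contra hc
      exact hy ⟨by omega, by omega⟩
    have h2 : (d + s + e) % b = d + s + e - b := by
      rw [Nat.mod_eq_sub_mod (by omega)]
      exact Nat.mod_eq_of_lt (by omega)
    rw [h2] at hmv
    apply hx
    rw [hmv]
    constructor <;> omega

/-- **the wide ruler** `c k = 2 ^ k * K0` -/
theorem ruler (Ms : Finset ℕ) (M m b K N1 : ℕ) (hM : 0 < M)
    (hMs : ∀ p ∈ Ms, 2 ^ (K + 3) < p ∧ p ∣ M) (hb : Nat.Coprime b M)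
    (hb2 : M * 2 ^ (K + 5) + 4 ≤ b) :
    ∃ K0 : ℕ, 0 < K0 ∧
      (∀ k < K, ∀ k' < K, ∀ l < K, ∀ l' < K, k ≠ k' → l ≠ l' →
        2 ^ k * K0 + 2 ^ l' * K0 < 2 ^ k' * K0 + 2 ^ l * K0 + 2 * N1 →
        2 ^ k' * K0 + 2 ^ l * K0 < 2 ^ k * K0 + 2 ^ l' * K0 + 2 * N1 → k = l) ∧
      (∀ p ∈ Ms, ∀ k < K, ∀ k' < K, ∀ l < K, ∀ l' < K, k ≠ k' → l ≠ l' → ∀ x y : ℕ,
        p ∣ x → p ∣ y → x + 2 ^ k * K0 + 2 ^ l' * K0 = y + 2 ^ k' * K0 + 2 ^ l * K0 → k = l) ∧
      (∀ j < m, ∀ k < K, ∀ k' < K, ∀ l < K, ∀ l' < K, k ≠ k' → l ≠ l' → ∀ x y : ℕ,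
        Dg M b j x → Dg M b j y →
        x + 2 ^ k * K0 + 2 ^ l' * K0 = y + 2 ^ k' * K0 + 2 ^ l * K0 → k = l) := by
  have hcop : Nat.Coprime (b ^ m) M := Nat.Coprime.pow_left m hb
  obtain ⟨u, hu1, hu2⟩ := Nat.chineseRemainder hcop (4 * M * gs b m) 1
  have hbm : 0 < b ^ m := pow_pos (by omega) m
  -- make it large and of the right shape
  set Q := b ^ m * M with hQ
  have hQ0 : 0 < Q := Nat.mul_pos hbm hM
  set K0 := u + Q * (4 * M * gs b m + 2 * N1 + 1) with hK0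
  have hKlarge : 4 * M * gs b m + 2 * N1 + 1 ≤ K0 := by
    have : 1 * (4 * M * gs b m + 2 * N1 + 1) ≤ Q * (4 * M * gs b m + 2 * N1 + 1) :=
      Nat.mul_le_mul_right _ hQ0
    omega
  have hK1 : K0 ≡ 4 * M * gs b m [MOD b ^ m] := by
    have h1 : Q * (4 * M * gs b m + 2 * N1 + 1) ≡ 0 [MOD b ^ m] := by
      rw [Nat.modEq_zero_iff_dvd, hQ]
      exact Dvd.dvd.mul_right (Dvd.intro _ rfl) _
    have := hu1.add h1
    simpa using this
  have hK2 : K0 ≡ 1 [MOD M] := by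
    have h1 : Q * (4 * M * gs b m + 2 * N1 + 1) ≡ 0 [MOD M] := by
      rw [Nat.modEq_zero_iff_dvd, hQ]
      exact Dvd.dvd.mul_right (Dvd.intro_left _ rfl) _
    have := hu2.add h1
    simpa using this
  obtain ⟨t, ht⟩ : ∃ t, K0 = b ^ m * t + 4 * M * gs b m := by
    have h1 : b ^ m ∣ K0 - 4 * M * gs b m := (Nat.modEq_iff_dvd' (by omega)).1 hK1.symm
    obtain ⟨t, ht⟩ := h1
    exact ⟨t, by omega⟩
  -- the comparison of two pairs
  have hpow : ∀ k < K, 2 ^ k ≤ 2 ^ K := fun k hk => Nat.pow_le_pow_right (by norm_num) hk.le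
  have e3 : 2 ^ (K + 3) = 8 * 2 ^ K := by rw [pow_add]; ring
  have e5 : M * 2 ^ (K + 5) = 32 * (M * 2 ^ K) := by rw [pow_add]; ring
  refine ⟨K0, by omega, ?_, ?_, ?_⟩
  · intro k hk k' hk' l hl l' hl' hne hne' h1 h2
    apply sidon hne
    rw [← Nat.add_mul, ← Nat.add_mul] at h1 h2
    rcases lt_trichotomy (2 ^ k + 2 ^ l') (2 ^ k' + 2 ^ l) with h | h | h
    · have : (2 ^ k + 2 ^ l' + 1) * K0 ≤ (2 ^ k' + 2 ^ l) * K0 := Nat.mul_le_mul_right _ h
      rw [Nat.add_mul (2 ^ k + 2 ^ l') 1 K0] at this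
      omega
    · exact h
    · have : (2 ^ k' + 2 ^ l + 1) * K0 ≤ (2 ^ k + 2 ^ l') * K0 := Nat.mul_le_mul_right _ h
      rw [Nat.add_mul (2 ^ k' + 2 ^ l) 1 K0] at this
      omega
  · intro p hp k hk k' hk' l hl l' hl' hne hne' x y hx hy h
    apply sidon hne
    obtain ⟨hp1, hp2⟩ := hMs p hp
    have hKp : K0 ≡ 1 [MOD p] := hK2.of_dvd hp2
    rw [Nat.add_assoc, Nat.add_assoc, ← Nat.add_mul, ← Nat.add_mul] at h
    have hA : (2 ^ k + 2 ^ l') ≡ (2 ^ k' + 2 ^ l) [MOD p] := by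
      have a1 : (2 ^ k + 2 ^ l') * K0 ≡ (2 ^ k' + 2 ^ l) * K0 [MOD p] := by
        have b1 : x ≡ 0 [MOD p] := (Nat.modEq_zero_iff_dvd).2 hx
        have b2 : y ≡ 0 [MOD p] := (Nat.modEq_zero_iff_dvd).2 hy
        have b3 : x + (2 ^ k + 2 ^ l') * K0 ≡ y + (2 ^ k' + 2 ^ l) * K0 [MOD p] := by rw [h]
        exact Nat.ModEq.add_left_cancel (b1.trans b2.symm) b3
      have a2 := (Nat.ModEq.mul_left (2 ^ k + 2 ^ l') hKp).symm
      have a3 := Nat.ModEq.mul_left (2 ^ k' + 2 ^ l) hKp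
      rw [mul_one] at a2 a3
      exact (a2.trans a1).trans a3
    have q1 := hpow k hk
    have q2 := hpow k' hk'
    have q3 := hpow l hl
    have q4 := hpow l' hl'
    exact Nat.ModEq.eq_of_lt_of_lt hA (by omega) (by omega)
  · intro j hj k hk k' hk' l hl l' hl' hne hne' x y hx hy h
    apply sidon hne
    rw [Nat.add_assoc, Nat.add_assoc, ← Nat.add_mul, ← Nat.add_mul] at h
    have q1 := hpow k hk
    have q2 := hpow k' hk'
    have q3 := hpow l hl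
    have q4 := hpow l' hl'
    have hbd : ∀ D : ℕ, D ≤ 2 * 2 ^ K → 4 * M * D + 2 * M + 4 ≤ b := by
      intro D hD
      have h1 : 4 * M * D ≤ 4 * M * (2 * 2 ^ K) := Nat.mul_le_mul_left _ hD
      have h2 : 4 * M * (2 * 2 ^ K) = 8 * (M * 2 ^ K) := by ring
      have h3 : M ≤ M * 2 ^ K := Nat.le_mul_of_pos_right _ (by positivity)
      omega
    rcases lt_trichotomy (2 ^ k + 2 ^ l') (2 ^ k' + 2 ^ l) with hlt | heq | hgt
    · exfalso
      have hDD := hbd (2 ^ k' + 2 ^ l - (2 ^ k + 2 ^ l')) ((Nat.sub_le _ _).trans (by omega))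
      refine digit_unique (D := 2 ^ k' + 2 ^ l - (2 ^ k + 2 ^ l')) hM hj ht (by omega)
        hDD hx hy ?_
      have h5 : (2 ^ k' + 2 ^ l) * K0 = (2 ^ k + 2 ^ l') * K0
          + (2 ^ k' + 2 ^ l - (2 ^ k + 2 ^ l')) * K0 := by
        rw [← Nat.add_mul]; congr 1; omega
      omega
    · exact heq
    · exfalso
      have hDD := hbd (2 ^ k + 2 ^ l' - (2 ^ k' + 2 ^ l)) ((Nat.sub_le _ _).trans (by omega))
      refine digit_unique (D := 2 ^ k + 2 ^ l' - (2 ^ k' + 2 ^ l)) hM hj ht (by omega)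
        hDD hy hx ?_
      have h5 : (2 ^ k + 2 ^ l') * K0 = (2 ^ k' + 2 ^ l) * K0
          + (2 ^ k + 2 ^ l' - (2 ^ k' + 2 ^ l)) * K0 := by
        rw [← Nat.add_mul]; congr 1; omega
      omega

end Crest.Agent.R320.Ruler_965
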