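import Mathlib

/-!
# Row 320: the run clock (helper730)

Constant content, total length `T` unknown to both sides.  For a self-map `A` of
`V = ι → ZMod 2` (one period of the run acts by `A`) there are periodic labels
`left i y` (`i` = distance from the start of the run, `y` = current value),
`right j r` (`j` = distance to the end of the run, `r` = value at the end) and a noise `ν T`
such that every legal junction is exact, and in every long run every value is cut.

The base gadget (one bit): sets `A_l, B_l', P_v` in `Z/m × Z/k` with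
`A_l + B_l' = P_(l+l')`, `m = 2n+1`, `n ≥ 4`, `k ≥ 3` odd (helper550 found it for small `m`).
-/

set_option autoImplicit false

namespace Crest.Agent.R320.RunClock_730

/-- left set of the base gadget: `x` = position mod `2n+1`, `z` = "position is `0` mod `k`" -/
def GA (n : ℕ) (l : ZMod 2) (x : ℕ) (z : Prop) : Prop :=
  (l = 0 ∧ ((z ∧ (x = n + 1 ∨ x = n + 3)) ∨ (¬ z ∧ x = 1))) ∨
  (l ≠ 0 ∧ ((z ∧ (x = 0 ∨ x = 2)) ∨ (¬ z ∧ x = n + 2)))

/-- right set of the base gadget -/
def GB (n : ℕ) (l : ZMod 2) (x : ℕ) (z : Prop) : Prop :=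
  (l = 0 ∧ ((z ∧ n ≤ x ∧ x + 3 ≤ 2 * n) ∨ (¬ z ∧ x + 2 = n))) ∨
  (l ≠ 0 ∧ ((z ∧ x + 3 ≤ n) ∨ (¬ z ∧ x + 1 = n)))

/-- noise set of the base gadget -/
def GP (n : ℕ) (l : ZMod 2) (x : ℕ) (z : Prop) : Prop :=
  (l = 0 ∧ ((z ∧ x + 1 ≤ n) ∨ (¬ z ∧ (x = 0 ∨ x + 1 = n ∨ (n + 1 ≤ x ∧ x + 1 ≤ 2 * n))))) ∨
  (l ≠ 0 ∧ ((z ∧ n ≤ x) ∨ (¬ z ∧ ((1 ≤ x ∧ x + 2 ≤ n) ∨ x = n ∨ x = 2 * n))))

theorem zmod2 (l : ZMod 2) : l = 0 ∨ l = 1 := by
  revert l; decide

theorem GP_total {n : ℕ} (hn : 4 ≤ n) {x : ℕ} (hx : x < 2 * n + 1) (z : Prop) :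
    GP n 0 x z ∨ GP n 1 x z := by
  unfold GP
  by_cases hz : z
  · simp only [hz, true_and, not_true_eq_false, false_and, or_false, ne_eq]
    simp only [true_and, false_and, or_false, one_ne_zero, not_false_eq_true,
      false_or]
    omega
  · simp only [hz, false_and, not_false_eq_true, true_and, false_or, ne_eq]
    simp only [not_true_eq_false, false_and, or_false, one_ne_zero,
      not_false_eq_true, true_and, false_or]
    omega

theorem GP_unique {n : ℕ} (hn : 4 ≤ n) {x : ℕ} {z : Prop} {l l' : ZMod 2}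
    (h : GP n l x z) (h' : GP n l' x z) : l = l' := by
  unfold GP at h h'
  rcases zmod2 l with rfl | rfl <;> rcases zmod2 l' with rfl | rfl
  · rfl
  · exfalso
    simp only [true_and, ne_eq, not_true_eq_false, false_and, or_false, one_ne_zero,
      not_false_eq_true, false_or] at h h'
    by_cases hz : z
    · simp only [hz, true_and, not_true_eq_false, false_and, or_false] at h h'
      omega
    · simp only [hz, false_and, not_false_eq_true, true_and, false_or] at h h'
      omega
  · exfalso
    simp only [true_and, ne_eq, not_true_eq_false, false_and, or_false, one_ne_zero,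
      not_false_eq_true, false_or] at h h'
    by_cases hz : z
    · simp only [hz, true_and, not_true_eq_false, false_and, or_false] at h h'
      omega
    · simp only [hz, false_and, not_false_eq_true, true_and, false_or] at h h'
      omega
  · rfl

theorem z2_11 : (1 : ZMod 2) + 1 = 0 := by decide

/-- soundness of the base gadget -/
theorem base_sound {n : ℕ} (hn : 4 ≤ n) {l l' : ZMod 2} {x x' s : ℕ} {z z' w : Prop}
    (hx : x < 2 * n + 1) (hx' : x' < 2 * n + 1) (hs : s < 2 * n + 1)
    (hsum : s = x + x' ∨ s + (2 * n + 1) = x + x')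
    (h1 : z → z' → w) (h2 : z → ¬ z' → ¬ w) (h3 : ¬ z → z' → ¬ w)
    (hA : GA n l x z) (hB : GB n l' x' z') : GP n (l + l') s w := by
  unfold GA at hA
  unfold GB at hB
  unfold GP
  rcases zmod2 l with rfl | rfl <;> rcases zmod2 l' with rfl | rfl <;>
  simp only [true_and, ne_eq, not_true_eq_false, false_and, or_false, one_ne_zero,
      not_false_eq_true, false_or, add_zero, zero_add, z2_11] at hA hB ⊢ <;>
  (by_cases hz : z <;> by_cases hz' : z' <;> by_cases hw : w <;>
   simp only [hz, hz', hw, true_and, not_true_eq_false, false_and, or_false,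
     not_false_eq_true, false_or, forall_const, imp_false, not_true, not_false_iff,
     true_implies, false_implies] at h1 h2 h3 hA hB ⊢ <;>
   omega)

/-- completeness of the base gadget -/
theorem base_complete {n : ℕ} (hn : 4 ≤ n) {l l' : ZMod 2} {s : ℕ} {w : Prop}
    (hs : s < 2 * n + 1) (hP : GP n (l + l') s w) :
    ∃ (x x' : ℕ) (z z' : Bool), x < 2 * n + 1 ∧ x' < 2 * n + 1 ∧
      (s = x + x' ∨ s + (2 * n + 1) = x + x') ∧
      (w → (z = z')) ∧ (¬ w → ¬ (z = true ∧ z' = true)) ∧
      GA n l x (z = true) ∧ GB n l' x' (z' = true) := by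
  unfold GP at hP
  unfold GA GB
  by_cases hw : w
  · rcases zmod2 l with rfl | rfl <;> rcases zmod2 l' with rfl | rfl <;>
    simp only [hw, true_and, ne_eq, not_true_eq_false, false_and, or_false, one_ne_zero,
      not_false_eq_true, false_or, add_zero, zero_add, z2_11] at hP
    · by_cases h : s ≤ 1
      · refine ⟨n + 1, s + n, true, true, by omega, by omega, by omega, ?_, ?_, ?_, ?_⟩ <;>
          simp [hw] <;> omega
      · refine ⟨n + 3, s + n - 2, true, true, by omega, by omega, by omega, ?_, ?_, ?_, ?_⟩ <;>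
          simp [hw] <;> omega
    · by_cases h0 : s = n
      · refine ⟨1, n - 1, false, false, by omega, by omega, by omega, ?_, ?_, ?_, ?_⟩ <;>
          simp [hw] <;> omega
      · by_cases h : s ≤ n + 2
        · refine ⟨n + 1, s - n - 1, true, true, by omega, by omega, by omega, ?_, ?_, ?_, ?_⟩ <;>
            simp [hw] <;> omega
        · refine ⟨n + 3, s - n - 3, true, true, by omega, by omega, by omega, ?_, ?_, ?_, ?_⟩ <;>
            simp [hw] <;> omega
    · by_cases h0 : s = 2 * n
      · refine ⟨n + 2, n - 2, false, false, by omega, by omega, by omega, ?_, ?_, ?_, ?_⟩ <;>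
          simp [hw] <;> omega
      · by_cases h : s ≤ n + 1
        · refine ⟨0, s, true, true, by omega, by omega, by omega, ?_, ?_, ?_, ?_⟩ <;>
            simp [hw] <;> omega
        · refine ⟨2, s - 2, true, true, by omega, by omega, by omega, ?_, ?_, ?_, ?_⟩ <;>
            simp [hw] <;> omega
    · by_cases h : s ≤ 1
      · refine ⟨0, s, true, true, by omega, by omega, by omega, ?_, ?_, ?_, ?_⟩ <;>
          simp [hw] <;> omega
      · refine ⟨2, s - 2, true, true, by omega, by omega, by omega, ?_, ?_, ?_, ?_⟩ <;>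
          simp [hw] <;> omega
  · rcases zmod2 l with rfl | rfl <;> rcases zmod2 l' with rfl | rfl <;>
    simp only [hw, true_and, ne_eq, not_true_eq_false, false_and, or_false, one_ne_zero,
      not_false_eq_true, false_or, add_zero, zero_add, z2_11] at hP
    · by_cases h0 : s + 1 = n
      · refine ⟨1, n - 2, false, false, by omega, by omega, by omega, ?_, ?_, ?_, ?_⟩ <;>
          simp [hw] <;> omega
      · by_cases h1 : s + 1 = 2 * n
        · refine ⟨n + 1, n - 2, true, false, by omega, by omega, by omega, ?_, ?_, ?_, ?_⟩ <;>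
            simp [hw] <;> omega
        · by_cases h2 : s = 0
          · refine ⟨n + 3, n - 2, true, false, by omega, by omega, by omega, ?_, ?_, ?_, ?_⟩ <;>
              simp [hw] <;> omega
          · refine ⟨1, s - 1, false, true, by omega, by omega, by omega, ?_, ?_, ?_, ?_⟩ <;>
              simp [hw] <;> omega
    · by_cases h0 : s = n
      · refine ⟨1, n - 1, false, false, by omega, by omega, by omega, ?_, ?_, ?_, ?_⟩ <;>
          simp [hw] <;> omega
      · by_cases h1 : s = 2 * n
        · refine ⟨n + 1, n - 1, true, false, by omega, by omega, by omega, ?_, ?_, ?_, ?_⟩ <;>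
            simp [hw] <;> omega
        · refine ⟨1, s - 1, false, true, by omega, by omega, by omega, ?_, ?_, ?_, ?_⟩ <;>
            simp [hw] <;> omega
    · by_cases h0 : s = 2 * n
      · refine ⟨n + 2, n - 2, false, false, by omega, by omega, by omega, ?_, ?_, ?_, ?_⟩ <;>
          simp [hw] <;> omega
      · by_cases h1 : s = n
        · refine ⟨2, n - 2, true, false, by omega, by omega, by omega, ?_, ?_, ?_, ?_⟩ <;>
            simp [hw] <;> omega
        · refine ⟨n + 2, s + n - 1, false, true, by omega, by omega, by omega, ?_, ?_, ?_, ?_⟩ <;>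
            simp [hw] <;> omega
    · by_cases h0 : s = 0
      · refine ⟨n + 2, n - 1, false, false, by omega, by omega, by omega, ?_, ?_, ?_, ?_⟩ <;>
          simp [hw] <;> omega
      · by_cases h1 : s + 1 = n
        · refine ⟨0, n - 1, true, false, by omega, by omega, by omega, ?_, ?_, ?_, ?_⟩ <;>
            simp [hw] <;> omega
        · by_cases h2 : s = n + 1
          · refine ⟨2, n - 1, true, false, by omega, by omega, by omega, ?_, ?_, ?_, ?_⟩ <;>
              simp [hw] <;> omega
          · refine ⟨n + 2, s - n - 2, false, true, by omega, by omega, by omega, ?_, ?_, ?_, ?_⟩ <;>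
              simp [hw] <;> omega

/-- the `k`-part of the clock: the pattern `(z, z')` can be realised -/
theorem kpart {k : ℕ} (hk : 3 ≤ k) (hodd : Odd k) (T : ℕ) (z z' : Bool)
    (h1 : k ∣ T → z = z') (h2 : ¬ k ∣ T → ¬ (z = true ∧ z' = true)) :
    ∃ y : ℕ, ∀ i j : ℕ, i ≡ y [MOD k] → i + j = T →
      ((k ∣ i ↔ z = true) ∧ (k ∣ j ↔ z' = true)) := by
  have key : ∀ i y : ℕ, i ≡ y [MOD k] → (k ∣ i ↔ k ∣ y) := fun i y h => h.dvd_iff dvd_rfl
  by_cases hT : k ∣ T
  · have hz := h1 hT
    subst hz
    cases z
    · refine ⟨1, fun i j hi hij => ?_⟩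
      have hi' : ¬ k ∣ i := by
        rw [key i 1 hi]
        intro h
        have := Nat.le_of_dvd one_pos h
        omega
      have hj' : ¬ k ∣ j := by
        intro h
        exact hi' ((Nat.dvd_add_left h).1 (hij ▸ hT))
      simp [hi', hj']
    · refine ⟨0, fun i j hi hij => ?_⟩
      have hi' : k ∣ i := by
        rw [key i 0 hi]
        exact dvd_zero _
      have hj' : k ∣ j := (Nat.dvd_add_right hi').1 (hij ▸ hT)
      simp [hi', hj']
  · have hz := h2 hT
    cases z <;> cases z'
    · refine ⟨2 * T, fun i j hi hij => ?_⟩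
      have h2T : ¬ k ∣ 2 * T := by
        intro h
        apply hT
        have hc : Nat.Coprime k 2 := by
          rw [Nat.coprime_comm]
          exact (Nat.coprime_two_left).2 hodd
        exact hc.dvd_of_dvd_mul_left h
      have hi' : ¬ k ∣ i := by
        rw [key i _ hi]
        exact h2T
      have hj' : ¬ k ∣ j := by
        intro h
        -- then `T ≡ i ≡ 2 T`
        have e1 : T ≡ i [MOD k] := by
          rw [← hij]
          have : i + j ≡ i + 0 [MOD k] := Nat.ModEq.add_left i ((Nat.modEq_zero_iff_dvd).2 h)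
          simpa using this
        have e2 : T ≡ 2 * T [MOD k] := e1.trans hi
        have e3 : T + 0 ≡ T + T [MOD k] := by
          rw [add_zero, ← two_mul]
          exact e2
        have e4 : 0 ≡ T [MOD k] := Nat.ModEq.add_left_cancel' T e3
        exact hT ((Nat.modEq_zero_iff_dvd).1 e4.symm)
      simp [hi', hj']
    · refine ⟨T, fun i j hi hij => ?_⟩
      have hi' : ¬ k ∣ i := by
        rw [key i _ hi]
        exact hT
      have hj' : k ∣ j := by
        have e : i + 0 ≡ i + j [MOD k] := by
          rw [hij, add_zero]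
          exact hi
        exact (Nat.modEq_zero_iff_dvd).1 (Nat.ModEq.add_left_cancel' i e).symm
      simp [hi', hj']
    · refine ⟨0, fun i j hi hij => ?_⟩
      have hi' : k ∣ i := by
        rw [key i 0 hi]
        exact dvd_zero _
      have hj' : ¬ k ∣ j := by
        intro h
        exact hT (hij ▸ dvd_add hi' h)
      simp [hi', hj']
    · exact absurd ⟨rfl, rfl⟩ hz

/-- one bit of the clock: labels of natural numbers -/
def LA (n k : ℕ) (l : ZMod 2) (i : ℕ) : Prop := GA n l (i % (2 * n + 1)) (k ∣ i)
def LB (n k : ℕ) (l : ZMod 2) (i : ℕ) : Prop := GB n l (i % (2 * n + 1)) (k ∣ i)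
def LP (n k : ℕ) (l : ZMod 2) (i : ℕ) : Prop := GP n l (i % (2 * n + 1)) (k ∣ i)

theorem mod_sum {m i j : ℕ} (hm : 0 < m) :
    (i + j) % m = i % m + j % m ∨ (i + j) % m + m = i % m + j % m := by
  have h1 := Nat.mod_lt i hm
  have h2 := Nat.mod_lt j hm
  rw [Nat.add_mod]
  rcases lt_or_ge (i % m + j % m) m with h | h
  · left
    exact Nat.mod_eq_of_lt h
  · right
    rw [Nat.mod_eq_sub_mod h, Nat.mod_eq_of_lt (by omega)]
    omega

theorem bit_sound {n k : ℕ} (hn : 4 ≤ n) {l l' : ZMod 2} {i j : ℕ}
    (hA : LA n k l i) (hB : LB n k l' j) : LP n k (l + l') (i + j) := by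
  have hm : 0 < 2 * n + 1 := by omega
  refine base_sound hn (Nat.mod_lt i hm) (Nat.mod_lt j hm) (Nat.mod_lt _ hm) (mod_sum hm)
    ?_ ?_ ?_ hA hB
  · intro h h'
    exact dvd_add h h'
  · intro h h' h''
    exact h' ((Nat.dvd_add_right h).1 h'')
  · intro h h' h''
    exact h ((Nat.dvd_add_left h').1 h'')

theorem bit_complete {n k : ℕ} (hn : 4 ≤ n) (hk : 3 ≤ k) (hodd : Odd k) {l l' : ZMod 2} {T : ℕ}
    (hP : LP n k (l + l') T) :
    ∃ x y : ℕ, ∀ i j : ℕ, i ≡ x [MOD 2 * n + 1] → i ≡ y [MOD k] → i + j = T →
      LA n k l i ∧ LB n k l' j := by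
  have hm : 0 < 2 * n + 1 := by omega
  obtain ⟨x, x', z, z', hx, hx', hsum, h1, h2, hA, hB⟩ :=
    base_complete hn (Nat.mod_lt T hm) hP
  obtain ⟨y, hy⟩ := kpart hk hodd T z z' h1 h2
  refine ⟨x, y, fun i j hi hi' hij => ?_⟩
  obtain ⟨hz, hz'⟩ := hy i j hi' hij
  have ex : i % (2 * n + 1) = x := by
    have := hi
    unfold Nat.ModEq at this
    rw [this, Nat.mod_eq_of_lt hx]
  have ex' : j % (2 * n + 1) = x' := by
    have h3 := mod_sum (i := i) (j := j) hm
    have h4 := Nat.mod_lt j hm
    rw [hij, ex] at h3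
    omega
  refine ⟨?_, ?_⟩
  · unfold LA
    rw [ex]
    have : (k ∣ i) = (z = true) := propext hz
    rw [this]
    exact hA
  · unfold LB
    rw [ex']
    have : (k ∣ j) = (z' = true) := propext hz'
    rw [this]
    exact hB

theorem bit_total {n k : ℕ} (hn : 4 ≤ n) (T : ℕ) : LP n k 0 T ∨ LP n k 1 T :=
  GP_total hn (Nat.mod_lt _ (by omega)) _

theorem bit_unique {n k : ℕ} (hn : 4 ≤ n) {l l' : ZMod 2} {T : ℕ}
    (h : LP n k l T) (h' : LP n k l' T) : l = l' := GP_unique hn h h'

theorem GA_unique {n : ℕ} (hn : 4 ≤ n) {x : ℕ} {z : Prop} {l l' : ZMod 2}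
    (h : GA n l x z) (h' : GA n l' x z) : l = l' := by
  unfold GA at h h'
  rcases zmod2 l with rfl | rfl <;> rcases zmod2 l' with rfl | rfl
  · rfl
  · exfalso
    simp only [true_and, ne_eq, not_true_eq_false, false_and, or_false, one_ne_zero,
      not_false_eq_true, false_or] at h h'
    by_cases hz : z
    · simp only [hz, true_and, not_true_eq_false, false_and, or_false] at h h'
      omega
    · simp only [hz, false_and, not_false_eq_true, true_and, false_or] at h h'
      omega
  · exfalso
    simp only [true_and, ne_eq, not_true_eq_false, false_and, or_false, one_ne_zero,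
      not_false_eq_true, false_or] at h h'
    by_cases hz : z
    · simp only [hz, true_and, not_true_eq_false, false_and, or_false] at h h'
      omega
    · simp only [hz, false_and, not_false_eq_true, true_and, false_or] at h h'
      omega
  · rfl

theorem GB_unique {n : ℕ} {x : ℕ} {z : Prop} {l l' : ZMod 2}
    (h : GB n l x z) (h' : GB n l' x z) : l = l' := by
  unfold GB at h h'
  rcases zmod2 l with rfl | rfl <;> rcases zmod2 l' with rfl | rfl
  · rfl
  · exfalso
    simp only [true_and, ne_eq, not_true_eq_false, false_and, or_false, one_ne_zero,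
      not_false_eq_true, false_or] at h h'
    by_cases hz : z
    · simp only [hz, true_and, not_true_eq_false, false_and, or_false] at h h'
      omega
    · simp only [hz, false_and, not_false_eq_true, true_and, false_or] at h h'
      omega
  · exfalso
    simp only [true_and, ne_eq, not_true_eq_false, false_and, or_false, one_ne_zero,
      not_false_eq_true, false_or] at h h'
    by_cases hz : z
    · simp only [hz, true_and, not_true_eq_false, false_and, or_false] at h h'
      omega
    · simp only [hz, false_and, not_false_eq_true, true_and, false_or] at h h'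
      omega
  · rfl

/-- eventual periodicity of the iterates of a self-map of a finite type -/
theorem iterate_periodic {V : Type*} [Finite V] (A : V → V) :
    ∃ i0 a : ℕ, 0 < a ∧ ∀ i, i0 ≤ i → ∀ t v, A^[i + a * t] v = A^[i] v := by
  obtain ⟨p, q, hpq, h⟩ := Finite.exists_ne_map_eq_of_infinite (fun i : ℕ => A^[i])
  wlog hlt : p < q generalizing p q
  · exact this q p hpq.symm h.symm (by omega)
  refine ⟨p, q - p, by omega, ?_⟩
  intro i hi t v
  induction t with
  | zero => simp
  | succ t ih =>
    have e : i + (q - p) * (t + 1) = (i + (q - p) * t) + (q - p) := by ring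
    rw [e]
    have hN : p ≤ i + (q - p) * t := le_trans hi (Nat.le_add_right _ _)
    obtain ⟨c, hc⟩ := Nat.exists_eq_add_of_le hN
    rw [← ih, hc]
    have e2 : p + c + (q - p) = c + q := by omega
    have e3 : p + c = c + p := by omega
    rw [e2, e3, Function.iterate_add_apply, Function.iterate_add_apply]
    have h' : A^[p] = A^[q] := h
    rw [h']

/-- finite families of distinct large primes -/
theorem exists_primes (κ : Type*) [Finite κ] (N : ℕ) :
    ∃ p : κ → ℕ, (∀ c, (p c).Prime) ∧ (∀ c, N < p c) ∧ Function.Injective p := by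
  have := Fintype.ofFinite κ
  refine ⟨fun c => Nat.nth Nat.Prime (N + (Fintype.equivFin κ c : ℕ)),
    fun c => Nat.prime_nth_prime _, fun c => ?_, ?_⟩
  · have := Nat.add_two_le_nth_prime (N + (Fintype.equivFin κ c : ℕ))
    show N < Nat.nth Nat.Prime (N + (Fintype.equivFin κ c : ℕ))
    omega
  · intro a b h
    have h1 := Nat.nth_injective Nat.infinite_setOfPred_prime h
    have h2 : (Fintype.equivFin κ a : ℕ) = (Fintype.equivFin κ b : ℕ) := by omega
    exact (Fintype.equivFin κ).injective (Fin.ext h2)

/-- `m % M` is not changed by adding a multiple of `M` -/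
theorem add_mod_of_dvd {M D i : ℕ} (h : M ∣ D) : (i + D) % M = i % M := by
  obtain ⟨c, rfl⟩ := h
  simp

/-- THE RUN CLOCK. -/
theorem run_clock {ι : Type*} [Finite ι] (A : (ι → ZMod 2) → (ι → ZMod 2)) :
    ∃ D : ℕ, 0 < D ∧ ∃ (left right : ℕ → (ι → ZMod 2) → Prop) (ν : ℕ → (ι → ZMod 2)),
      (∀ i y, left (i + D) y ↔ left i y) ∧ (∀ j r, right (j + D) r ↔ right j r) ∧
      (∀ T, ν (T + D) = ν T) ∧
      (∀ i y y', left i y → left i y' → y = y') ∧
      (∀ j r r', right j r → right j r' → r = r') ∧
      (∀ i j v r, D ≤ i → left i (A^[i] v) → right j r → r = A^[i + j] v + ν (i + j)) ∧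
      (∀ T v, 3 * D ≤ T → ∃ i, D ≤ i ∧ i < 2 * D ∧ left i (A^[i] v) ∧
        right (T - i) (A^[T] v + ν T)) := by
  classical
  have := Fintype.ofFinite ι
  obtain ⟨i0, a, ha, hper⟩ := iterate_periodic A
  obtain ⟨p, hp, hbig, hinj⟩ := exists_primes (ι × Bool) (a + 9)
  -- odd primes
  have hodd : ∀ c, Odd (p c) := fun c => (hp c).odd_of_ne_two (by have := hbig c; omega)
  choose n hn using fun c : ι × Bool => (hodd c)
  have hn4 : ∀ c, 4 ≤ n c := fun c => by
    have h1 := hbig c
    have h2 := hn c
    omega
  have hk3 : ∀ c, 3 ≤ p c := fun c => by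
    have h1 := hbig c
    omega
  -- the common period
  let s : Option (ι × Bool) → ℕ := fun o => o.elim a p
  have hs0 : ∀ o, s o ≠ 0 := by
    intro o
    cases o with
    | none => exact ha.ne'
    | some c => exact (hp c).ne_zero
  have hcop : ∀ o o', o ≠ o' → Nat.Coprime (s o) (s o') := by
    have hac : ∀ c, Nat.Coprime (p c) a := fun c =>
      ((hp c).coprime_iff_not_dvd).2 (fun h => by
        have h1 := Nat.le_of_dvd ha h
        have h2 := hbig c
        omega)
    intro o o' hne
    cases o with
    | none =>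
      cases o' with
      | none => exact absurd rfl hne
      | some c => exact (hac c).symm
    | some c =>
      cases o' with
      | none => exact hac c
      | some c' =>
        exact (Nat.coprime_primes (hp c) (hp c')).2 (fun h => hne (by rw [hinj h]))
  let P : ℕ := ∏ o, s o
  have hsP : ∀ o, s o ∣ P := fun o => Finset.dvd_prod_of_mem s (Finset.mem_univ o)
  have hP0 : 0 < P := Nat.pos_of_ne_zero (Finset.prod_ne_zero_iff.2 (fun o _ => hs0 o))
  let D : ℕ := P * (i0 + 1)
  have hsD : ∀ o, s o ∣ D := fun o => (hsP o).mul_right _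
  have hD0 : 0 < D := Nat.mul_pos hP0 (Nat.succ_pos _)
  have hDi : i0 ≤ D := by
    have : 1 * (i0 + 1) ≤ P * (i0 + 1) := Nat.mul_le_mul_right _ hP0
    show i0 ≤ P * (i0 + 1)
    omega
  have haD : a ∣ D := hsD none
  have hpD : ∀ c, p c ∣ D := fun c => hsD (some c)
  have hmD : ∀ c, 2 * n c + 1 ∣ D := fun c => by
    rw [← hn c]
    exact hpD c
  have hdvd : ∀ (c : ι × Bool) (i : ℕ), (p c ∣ i + D) = (p c ∣ i) := fun c i =>
    propext (Nat.dvd_add_left (hpD c))
  let left : ℕ → (ι → ZMod 2) → Prop := fun i y =>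
    ∀ c, LA (n (c, false)) (p (c, true)) (y c) i
  let right : ℕ → (ι → ZMod 2) → Prop := fun j r =>
    a ∣ j ∧ ∀ c, LB (n (c, false)) (p (c, true)) (r c) j
  let ν : ℕ → (ι → ZMod 2) := fun T c =>
    if LP (n (c, false)) (p (c, true)) 0 T then 0 else 1
  have hν : ∀ T c, LP (n (c, false)) (p (c, true)) (ν T c) T := by
    intro T c
    by_cases h : LP (n (c, false)) (p (c, true)) 0 T
    · have : ν T c = 0 := if_pos h
      rw [this]
      exact h
    · have : ν T c = 1 := if_neg h
      rw [this]
      exact (bit_total (hn4 _) T).resolve_left h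
  have hA_eq : ∀ c l i, LA (n (c, false)) (p (c, true)) l (i + D) =
      LA (n (c, false)) (p (c, true)) l i := by
    intro c l i
    unfold LA
    rw [add_mod_of_dvd (hmD _), hdvd]
  have hB_eq : ∀ c l i, LB (n (c, false)) (p (c, true)) l (i + D) =
      LB (n (c, false)) (p (c, true)) l i := by
    intro c l i
    unfold LB
    rw [add_mod_of_dvd (hmD _), hdvd]
  have hP_eq : ∀ c l i, LP (n (c, false)) (p (c, true)) l (i + D) =
      LP (n (c, false)) (p (c, true)) l i := by
    intro c l i
    unfold LP
    rw [add_mod_of_dvd (hmD _), hdvd]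
  refine ⟨D, hD0, left, right, ν, ?_, ?_, ?_, ?_, ?_, ?_, ?_⟩
  · intro i y
    show (∀ c, LA (n (c, false)) (p (c, true)) (y c) (i + D)) ↔
      ∀ c, LA (n (c, false)) (p (c, true)) (y c) i
    simp only [hA_eq]
  · intro j r
    show (a ∣ j + D ∧ ∀ c, LB (n (c, false)) (p (c, true)) (r c) (j + D)) ↔
      (a ∣ j ∧ ∀ c, LB (n (c, false)) (p (c, true)) (r c) j)
    simp only [hB_eq]
    rw [Nat.dvd_add_left haD]
  · intro T
    funext c
    show (if LP (n (c, false)) (p (c, true)) 0 (T + D) then (0 : ZMod 2) else 1) =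
      if LP (n (c, false)) (p (c, true)) 0 T then (0 : ZMod 2) else 1
    simp only [hP_eq]
  · intro i y y' h h'
    funext c
    exact GA_unique (hn4 _) (h c) (h' c)
  · intro j r r' h h'
    funext c
    exact GB_unique (h.2 c) (h'.2 c)
  · intro i j v r hi hl hr
    obtain ⟨⟨t, ht⟩, hrc⟩ := hr
    have e1 : A^[i + j] v = A^[i] v := by
      rw [ht]
      exact hper i (le_trans hDi hi) t v
    rw [e1]
    funext c
    have h1 := bit_sound (hn4 _) (hl c) (hrc c)
    have h2 := bit_unique (hn4 _) h1 (hν (i + j) c)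
    show r c = A^[i] v c + ν (i + j) c
    rw [← h2, ← add_assoc, CharTwo.add_self_eq_zero, zero_add]
  · intro T v hT
    -- the value at the end
    have hbits : ∀ c : ι, ∃ x y : ℕ, ∀ i j : ℕ, i ≡ x [MOD 2 * n (c, false) + 1] →
        i ≡ y [MOD p (c, true)] → i + j = T →
        LA (n (c, false)) (p (c, true)) (A^[T] v c) i ∧
        LB (n (c, false)) (p (c, true)) (A^[T] v c + ν T c) j := by
      intro c
      refine bit_complete (hn4 _) (hk3 _) (hodd _) ?_
      rw [← add_assoc, CharTwo.add_self_eq_zero, zero_add]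
      exact hν T c
    choose x y hxy using hbits
    let res : Option (ι × Bool) → ℕ := fun o =>
      o.elim T (fun c => if c.2 then y c.1 else x c.1)
    obtain ⟨k0, hk0⟩ := Nat.chineseRemainderOfFinset res s Finset.univ
      (fun o _ => hs0 o) (fun o _ o' _ hne => hcop o o' hne)
    let i := k0 % D + D
    have hiD : D ≤ i := Nat.le_add_left _ _
    have hi2 : i < 2 * D := by
      have := Nat.mod_lt k0 hD0
      show k0 % D + D < 2 * D
      omega
    have hiT : i ≤ T := by omega
    have hires : ∀ o, i ≡ res o [MOD s o] := by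
      intro o
      have h1 : i ≡ k0 [MOD s o] := by
        show (k0 % D + D) % s o = k0 % s o
        rw [add_mod_of_dvd (hsD o), Nat.mod_mod_of_dvd _ (hsD o)]
      exact h1.trans (hk0 o (Finset.mem_univ o))
    have hiTa : i ≡ T [MOD a] := hires none
    have hdiv : a ∣ T - i := (Nat.modEq_iff_dvd' hiT).1 hiTa
    have eT : A^[T] v = A^[i] v := by
      obtain ⟨t, ht⟩ := hdiv
      have : T = i + a * t := by omega
      rw [this]
      exact hper i (le_trans hDi hiD) t v
    have hij : i + (T - i) = T := by omega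
    refine ⟨i, hiD, hi2, ?_, hdiv, ?_⟩
    · intro c
      have h1 : i ≡ x c [MOD 2 * n (c, false) + 1] := by
        rw [← hn (c, false)]
        exact hires (some (c, false))
      have h2 : i ≡ y c [MOD p (c, true)] := hires (some (c, true))
      have h3 := (hxy c i (T - i) h1 h2 hij).1
      rw [← eT]
      exact h3
    · intro c
      have h1 : i ≡ x c [MOD 2 * n (c, false) + 1] := by
        rw [← hn (c, false)]
        exact hires (some (c, false))
      have h2 : i ≡ y c [MOD p (c, true)] := hires (some (c, true))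
      exact (hxy c i (T - i) h1 h2 hij).2

end Crest.Agent.R320.RunClock_730
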