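import Mathlib

/-! Row 320, item (10): graded cover of `Z/M` by a vector space over `F_2` (550 / 708), for every dimension.
One side plays `g` at clock `i`, the other side plays `h` at clock `j`; `g + h` depends on `i + j` only, and for
every total `T` every `g` is played. `M = m k`, `m = 2 r + 1`, all sets depend on `(x mod m, [x mod k = 0])`. -/

set_option autoImplicit false

namespace Crest.Agent.R320.RunCover471

/-- left clock -/
def al (r k i : ℕ) (g : ZMod 2) : Prop :=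
  (i % k = 0 ∧ ((g = 0 ∧ (i % (2 * r + 1) = r + 1 ∨ i % (2 * r + 1) = r + 3)) ∨
    (g = 1 ∧ (i % (2 * r + 1) = 0 ∨ i % (2 * r + 1) = 2)))) ∨
  (i % k ≠ 0 ∧ ((g = 0 ∧ i % (2 * r + 1) = 1) ∨ (g = 1 ∧ i % (2 * r + 1) = r + 2)))

/-- right clock -/
def be (r k j : ℕ) (h : ZMod 2) : Prop :=
  (j % k = 0 ∧ ((h = 0 ∧ (r ≤ j % (2 * r + 1) ∧ j % (2 * r + 1) + 3 ≤ 2 * r)) ∨
    (h = 1 ∧ j % (2 * r + 1) + 3 ≤ r))) ∨
  (j % k ≠ 0 ∧ ((h = 0 ∧ j % (2 * r + 1) + 2 = r) ∨ (h = 1 ∧ j % (2 * r + 1) + 1 = r)))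

open Classical in
/-- the grade of the total -/
noncomputable def ka (r k T : ℕ) : ZMod 2 :=
  if (T % k = 0 ∧ r ≤ T % (2 * r + 1)) ∨ (T % k ≠ 0 ∧
    ((1 ≤ T % (2 * r + 1) ∧ T % (2 * r + 1) + 2 ≤ r) ∨ T % (2 * r + 1) = r ∨ T % (2 * r + 1) = 2 * r))
  then 1 else 0

theorem add_mod_cases (m i j : ℕ) (hm : 0 < m) :
    (i + j) % m = i % m + j % m ∨ (i + j) % m + m = i % m + j % m := by
  have h1 := Nat.mod_lt i hm
  have h2 := Nat.mod_lt j hm
  rw [Nat.add_mod]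
  rcases Nat.lt_or_ge (i % m + j % m) m with h | h
  · left; exact Nat.mod_eq_of_lt h
  · right
    have : (i % m + j % m) % m = i % m + j % m - m := by
      rw [Nat.mod_eq_sub_mod h, Nat.mod_eq_of_lt (by omega)]
    omega

theorem exact1 (r k i j : ℕ) (hr : 4 ≤ r) (hk : 3 ≤ k) (g h : ZMod 2)
    (hA : al r k i g) (hB : be r k j h) : ka r k (i + j) = g + h := by
  have hm := add_mod_cases (2 * r + 1) i j (by omega)
  have hk' := add_mod_cases k i j (by omega)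
  have l1 := Nat.mod_lt i (show 0 < 2 * r + 1 by omega)
  have l2 := Nat.mod_lt j (show 0 < 2 * r + 1 by omega)
  have l3 := Nat.mod_lt (i + j) (show 0 < 2 * r + 1 by omega)
  have l4 := Nat.mod_lt i (show 0 < k by omega)
  have l5 := Nat.mod_lt j (show 0 < k by omega)
  have l6 := Nat.mod_lt (i + j) (show 0 < k by omega)
  unfold al at hA
  unfold be at hB
  unfold ka
  generalize i % (2 * r + 1) = x at *
  generalize j % (2 * r + 1) = y at *
  generalize (i + j) % (2 * r + 1) = z at *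
  generalize i % k = x' at *
  generalize j % k = y' at *
  generalize (i + j) % k = z' at *
  have e00 : (0 : ZMod 2) + 0 = 0 := by decide
  have e01 : (0 : ZMod 2) + 1 = 1 := by decide
  have e10 : (1 : ZMod 2) + 0 = 1 := by decide
  have e11 : (1 : ZMod 2) + 1 = 0 := by decide
  rcases hA with ⟨a0, ⟨rfl, a1⟩ | ⟨rfl, a1⟩⟩ | ⟨a0, ⟨rfl, a1⟩ | ⟨rfl, a1⟩⟩ <;>
  rcases hB with ⟨b0, ⟨rfl, b1⟩ | ⟨rfl, b1⟩⟩ | ⟨b0, ⟨rfl, b1⟩ | ⟨rfl, b1⟩⟩
  all_goals first
    | (rw [if_neg (by omega)]; exact e00.symm)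
    | (rw [if_neg (by omega)]; exact e11.symm)
    | (rw [if_pos (by omega)]; exact e01.symm)
    | (rw [if_pos (by omega)]; exact e10.symm)

/-- completeness in residues -/
theorem complete0 (r k : ℕ) (hr : 4 ≤ r) (hk : 3 ≤ k) (T : ℕ) (g : ZMod 2) :
    ∃ x < 2 * r + 1, ∃ y < k, ∀ i j, i % (2 * r + 1) = x → i % k = y →
      (i + j) % (2 * r + 1) = T % (2 * r + 1) → (i + j) % k = T % k →
      al r k i g ∧ be r k j (ka r k T - g) := by
  have l1 := Nat.mod_lt T (show 0 < 2 * r + 1 by omega)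
  have l2 := Nat.mod_lt T (show 0 < k by omega)
  have e00 : (0 : ZMod 2) - 0 = 0 := by decide
  have e01 : (0 : ZMod 2) - 1 = 1 := by decide
  have e10 : (1 : ZMod 2) - 0 = 1 := by decide
  have e11 : (1 : ZMod 2) - 1 = 0 := by decide
  -- the reduced statement
  have key : ∀ (x y : ℕ), x < 2 * r + 1 → y < k → (∀ u v, u < 2 * r + 1 → v < k →
      (x + u = T % (2 * r + 1) ∨ x + u = T % (2 * r + 1) + (2 * r + 1)) →
      (y + v = T % k ∨ y + v = T % k + k) →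
      ((y = 0 ∧ ((g = 0 ∧ (x = r + 1 ∨ x = r + 3)) ∨ (g = 1 ∧ (x = 0 ∨ x = 2)))) ∨
        (y ≠ 0 ∧ ((g = 0 ∧ x = 1) ∨ (g = 1 ∧ x = r + 2)))) ∧
      ((v = 0 ∧ ((ka r k T - g = 0 ∧ (r ≤ u ∧ u + 3 ≤ 2 * r)) ∨ (ka r k T - g = 1 ∧ u + 3 ≤ r))) ∨
        (v ≠ 0 ∧ ((ka r k T - g = 0 ∧ u + 2 = r) ∨ (ka r k T - g = 1 ∧ u + 1 = r))))) →
      ∃ x < 2 * r + 1, ∃ y < k, ∀ i j, i % (2 * r + 1) = x → i % k = y →
      (i + j) % (2 * r + 1) = T % (2 * r + 1) → (i + j) % k = T % k →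
      al r k i g ∧ be r k j (ka r k T - g) := by
    intro x y hx hy H
    refine ⟨x, hx, y, hy, ?_⟩
    intro i j h1 h2 h3 h4
    have hm := add_mod_cases (2 * r + 1) i j (by omega)
    have hk' := add_mod_cases k i j (by omega)
    have := H (j % (2 * r + 1)) (j % k) (Nat.mod_lt _ (by omega)) (Nat.mod_lt _ (by omega))
      (by omega) (by omega)
    unfold al be
    rw [h1, h2]
    exact this
  have hg2 : ∀ g : ZMod 2, g = 0 ∨ g = 1 := by decide
  have hg := hg2 g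
  generalize hz : T % (2 * r + 1) = z at *
  generalize hz' : T % k = z' at *
  -- a nonzero residue whose complement is nonzero
  obtain ⟨w, hw0, hwk, hwz⟩ : ∃ w, w ≠ 0 ∧ w < k ∧ w ≠ z' := by
    by_cases h : z' = 1
    · exact ⟨2, by omega, by omega, by omega⟩
    · exact ⟨1, by omega, by omega, by omega⟩
  by_cases h0 : z' = 0
  · by_cases hlow : z < r
    · have hka : ka r k T = 0 := by unfold ka; rw [hz, hz', if_neg (by omega)]
      rw [hka] at key ⊢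
      rcases hg with rfl | rfl
      · rw [e00] at key ⊢
        by_cases hs : z + 3 ≤ r
        · refine key (r + 1) 0 (by omega) (by omega) ?_
          intro u v hu hv h1 h2
          exact ⟨Or.inl ⟨rfl, Or.inl ⟨rfl, by omega⟩⟩, Or.inl ⟨by omega, Or.inl ⟨rfl, by omega⟩⟩⟩
        · refine key (r + 3) 0 (by omega) (by omega) ?_
          intro u v hu hv h1 h2
          exact ⟨Or.inl ⟨rfl, Or.inl ⟨rfl, by omega⟩⟩, Or.inl ⟨by omega, Or.inl ⟨rfl, by omega⟩⟩⟩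
      · rw [e01] at key ⊢
        by_cases hs : z + 3 ≤ r
        · refine key 0 0 (by omega) (by omega) ?_
          intro u v hu hv h1 h2
          exact ⟨Or.inl ⟨rfl, Or.inr ⟨rfl, by omega⟩⟩, Or.inl ⟨by omega, Or.inr ⟨rfl, by omega⟩⟩⟩
        · refine key 2 0 (by omega) (by omega) ?_
          intro u v hu hv h1 h2
          exact ⟨Or.inl ⟨rfl, Or.inr ⟨rfl, by omega⟩⟩, Or.inl ⟨by omega, Or.inr ⟨rfl, by omega⟩⟩⟩
    · have hka : ka r k T = 1 := by unfold ka; rw [hz, hz', if_pos (by omega)]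
      rw [hka] at key ⊢
      rcases hg with rfl | rfl
      · rw [e10] at key ⊢
        by_cases hs : z = r
        · refine key 1 w (by omega) (by omega) ?_
          intro u v hu hv h1 h2
          exact ⟨Or.inr ⟨hw0, Or.inl ⟨rfl, by omega⟩⟩, Or.inr ⟨by omega, Or.inr ⟨rfl, by omega⟩⟩⟩
        · by_cases hs : z + 2 ≤ 2 * r
          · refine key (r + 1) 0 (by omega) (by omega) ?_
            intro u v hu hv h1 h2
            exact ⟨Or.inl ⟨rfl, Or.inl ⟨rfl, by omega⟩⟩, Or.inl ⟨by omega, Or.inr ⟨rfl, by omega⟩⟩⟩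
          · refine key (r + 3) 0 (by omega) (by omega) ?_
            intro u v hu hv h1 h2
            exact ⟨Or.inl ⟨rfl, Or.inl ⟨rfl, by omega⟩⟩, Or.inl ⟨by omega, Or.inr ⟨rfl, by omega⟩⟩⟩
      · rw [e11] at key ⊢
        by_cases hs : z = 2 * r
        · refine key (r + 2) w (by omega) (by omega) ?_
          intro u v hu hv h1 h2
          exact ⟨Or.inr ⟨hw0, Or.inr ⟨rfl, by omega⟩⟩, Or.inr ⟨by omega, Or.inl ⟨rfl, by omega⟩⟩⟩
        · by_cases hs : z + 3 ≤ 2 * r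
          · refine key 0 0 (by omega) (by omega) ?_
            intro u v hu hv h1 h2
            exact ⟨Or.inl ⟨rfl, Or.inr ⟨rfl, by omega⟩⟩, Or.inl ⟨by omega, Or.inl ⟨rfl, by omega⟩⟩⟩
          · refine key 2 0 (by omega) (by omega) ?_
            intro u v hu hv h1 h2
            exact ⟨Or.inl ⟨rfl, Or.inr ⟨rfl, by omega⟩⟩, Or.inl ⟨by omega, Or.inl ⟨rfl, by omega⟩⟩⟩
  · by_cases hone : (1 ≤ z ∧ z + 2 ≤ r) ∨ z = r ∨ z = 2 * r
    · have hka : ka r k T = 1 := by unfold ka; rw [hz, hz', if_pos (by omega)]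
      rw [hka] at key ⊢
      rcases hg with rfl | rfl
      · rw [e10] at key ⊢
        by_cases hs : z = r
        · refine key 1 w (by omega) (by omega) ?_
          intro u v hu hv h1 h2
          exact ⟨Or.inr ⟨hw0, Or.inl ⟨rfl, by omega⟩⟩, Or.inr ⟨by omega, Or.inr ⟨rfl, by omega⟩⟩⟩
        · by_cases hs : z = 2 * r
          · refine key (r + 1) 0 (by omega) (by omega) ?_
            intro u v hu hv h1 h2
            exact ⟨Or.inl ⟨rfl, Or.inl ⟨rfl, by omega⟩⟩, Or.inr ⟨by omega, Or.inr ⟨rfl, by omega⟩⟩⟩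
          · refine key 1 z' (by omega) (by omega) ?_
            intro u v hu hv h1 h2
            exact ⟨Or.inr ⟨by omega, Or.inl ⟨rfl, by omega⟩⟩, Or.inl ⟨by omega, Or.inr ⟨rfl, by omega⟩⟩⟩
      · rw [e11] at key ⊢
        by_cases hs : z = 2 * r
        · refine key (r + 2) w (by omega) (by omega) ?_
          intro u v hu hv h1 h2
          exact ⟨Or.inr ⟨hw0, Or.inr ⟨rfl, by omega⟩⟩, Or.inr ⟨by omega, Or.inl ⟨rfl, by omega⟩⟩⟩
        · by_cases hs : z = r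
          · refine key 2 0 (by omega) (by omega) ?_
            intro u v hu hv h1 h2
            exact ⟨Or.inl ⟨rfl, Or.inr ⟨rfl, by omega⟩⟩, Or.inr ⟨by omega, Or.inl ⟨rfl, by omega⟩⟩⟩
          · refine key (r + 2) z' (by omega) (by omega) ?_
            intro u v hu hv h1 h2
            exact ⟨Or.inr ⟨by omega, Or.inr ⟨rfl, by omega⟩⟩, Or.inl ⟨by omega, Or.inl ⟨rfl, by omega⟩⟩⟩
    · have hka : ka r k T = 0 := by unfold ka; rw [hz, hz', if_neg (by omega)]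
      rw [hka] at key ⊢
      rcases hg with rfl | rfl
      · rw [e00] at key ⊢
        by_cases hs : z + 1 = r
        · refine key 1 w (by omega) (by omega) ?_
          intro u v hu hv h1 h2
          exact ⟨Or.inr ⟨hw0, Or.inl ⟨rfl, by omega⟩⟩, Or.inr ⟨by omega, Or.inl ⟨rfl, by omega⟩⟩⟩
        · by_cases hs : z = 0
          · refine key (r + 3) 0 (by omega) (by omega) ?_
            intro u v hu hv h1 h2
            exact ⟨Or.inl ⟨rfl, Or.inl ⟨rfl, by omega⟩⟩, Or.inr ⟨by omega, Or.inl ⟨rfl, by omega⟩⟩⟩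
          · by_cases hs : z + 1 = 2 * r
            · refine key (r + 1) 0 (by omega) (by omega) ?_
              intro u v hu hv h1 h2
              exact ⟨Or.inl ⟨rfl, Or.inl ⟨rfl, by omega⟩⟩, Or.inr ⟨by omega, Or.inl ⟨rfl, by omega⟩⟩⟩
            · refine key 1 z' (by omega) (by omega) ?_
              intro u v hu hv h1 h2
              exact ⟨Or.inr ⟨by omega, Or.inl ⟨rfl, by omega⟩⟩, Or.inl ⟨by omega, Or.inl ⟨rfl, by omega⟩⟩⟩
      · rw [e01] at key ⊢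
        by_cases hs : z = 0
        · refine key (r + 2) w (by omega) (by omega) ?_
          intro u v hu hv h1 h2
          exact ⟨Or.inr ⟨hw0, Or.inr ⟨rfl, by omega⟩⟩, Or.inr ⟨by omega, Or.inr ⟨rfl, by omega⟩⟩⟩
        · by_cases hs : z + 1 = r
          · refine key 0 0 (by omega) (by omega) ?_
            intro u v hu hv h1 h2
            exact ⟨Or.inl ⟨rfl, Or.inr ⟨rfl, by omega⟩⟩, Or.inr ⟨by omega, Or.inr ⟨rfl, by omega⟩⟩⟩
          · by_cases hs : z = r + 1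
            · refine key 2 0 (by omega) (by omega) ?_
              intro u v hu hv h1 h2
              exact ⟨Or.inl ⟨rfl, Or.inr ⟨rfl, by omega⟩⟩, Or.inr ⟨by omega, Or.inr ⟨rfl, by omega⟩⟩⟩
            · refine key (r + 2) z' (by omega) (by omega) ?_
              intro u v hu hv h1 h2
              exact ⟨Or.inr ⟨by omega, Or.inr ⟨rfl, by omega⟩⟩, Or.inl ⟨by omega, Or.inr ⟨rfl, by omega⟩⟩⟩

theorem al_mod (r k i N : ℕ) (h1 : (2 * r + 1) ∣ N) (h2 : k ∣ N) (g : ZMod 2) :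
    al r k (i % N) g ↔ al r k i g := by
  unfold al
  rw [Nat.mod_mod_of_dvd _ h1, Nat.mod_mod_of_dvd _ h2]

theorem be_mod (r k i N : ℕ) (h1 : (2 * r + 1) ∣ N) (h2 : k ∣ N) (g : ZMod 2) :
    be r k (i % N) g ↔ be r k i g := by
  unfold be
  rw [Nat.mod_mod_of_dvd _ h1, Nat.mod_mod_of_dvd _ h2]

theorem ka_mod (r k i N : ℕ) (h1 : (2 * r + 1) ∣ N) (h2 : k ∣ N) :
    ka r k (i % N) = ka r k i := by
  unfold ka
  rw [Nat.mod_mod_of_dvd _ h1, Nat.mod_mod_of_dvd _ h2]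

theorem al_unique (r k i : ℕ) (hr : 4 ≤ r) (g g' : ZMod 2) (h : al r k i g) (h' : al r k i g') :
    g = g' := by
  unfold al at h h'
  rcases h with ⟨a0, ⟨rfl, a1⟩ | ⟨rfl, a1⟩⟩ | ⟨a0, ⟨rfl, a1⟩ | ⟨rfl, a1⟩⟩ <;>
  rcases h' with ⟨b0, ⟨rfl, b1⟩ | ⟨rfl, b1⟩⟩ | ⟨b0, ⟨rfl, b1⟩ | ⟨rfl, b1⟩⟩
  all_goals first
    | rfl
    | (exfalso; omega)

theorem be_unique (r k i : ℕ) (hr : 4 ≤ r) (g g' : ZMod 2) (h : be r k i g) (h' : be r k i g') :
    g = g' := by
  unfold be at h h'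
  rcases h with ⟨a0, ⟨rfl, a1⟩ | ⟨rfl, a1⟩⟩ | ⟨a0, ⟨rfl, a1⟩ | ⟨rfl, a1⟩⟩ <;>
  rcases h' with ⟨b0, ⟨rfl, b1⟩ | ⟨rfl, b1⟩⟩ | ⟨b0, ⟨rfl, b1⟩ | ⟨rfl, b1⟩⟩
  all_goals first
    | rfl
    | (exfalso; omega)

/-- one coordinate, one modulus `N = (2 r + 1) k` -/
theorem complete1 (r k : ℕ) (hr : 4 ≤ r) (hk : 3 ≤ k) (hc : Nat.Coprime (2 * r + 1) k)
    (T : ℕ) (g : ZMod 2) :
    ∃ i₀ < (2 * r + 1) * k, ∀ i j, i % ((2 * r + 1) * k) = i₀ →
      (i + j) % ((2 * r + 1) * k) = T % ((2 * r + 1) * k) →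
      al r k i g ∧ be r k j (ka r k T - g) := by
  obtain ⟨x, hx, y, hy, H⟩ := complete0 r k hr hk T g
  have hcr := Nat.chineseRemainder hc x y
  obtain ⟨z, hz1, hz2⟩ := hcr
  refine ⟨z % ((2 * r + 1) * k), Nat.mod_lt _ (by positivity), ?_⟩
  intro i j h1 h2
  have d1 : (2 * r + 1) ∣ (2 * r + 1) * k := Dvd.intro _ rfl
  have d2 : k ∣ (2 * r + 1) * k := Dvd.intro_left _ rfl
  apply H
  · rw [← Nat.mod_mod_of_dvd i d1, h1, Nat.mod_mod_of_dvd _ d1]
    rw [hz1, Nat.mod_eq_of_lt hx]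
  · rw [← Nat.mod_mod_of_dvd i d2, h1, Nat.mod_mod_of_dvd _ d2]
    rw [hz2, Nat.mod_eq_of_lt hy]
  · rw [← Nat.mod_mod_of_dvd (i + j) d1, h2, Nat.mod_mod_of_dvd _ d1]
  · rw [← Nat.mod_mod_of_dvd (i + j) d2, h2, Nat.mod_mod_of_dvd _ d2]

/-- pairwise coprime pairs `(2 r + 1, k)` -/
theorem moduli (d : ℕ) : ∃ (r k : Fin d → ℕ), (∀ l, 4 ≤ r l) ∧ (∀ l, 3 ≤ k l) ∧
    (∀ l, Nat.Coprime (2 * r l + 1) (k l)) ∧
    (∀ l l', l ≠ l' → Nat.Coprime ((2 * r l + 1) * k l) ((2 * r l' + 1) * k l')) := by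
  classical
  have hinf : {p : ℕ | p.Prime ∧ 9 ≤ p}.Infinite := by
    intro hfin
    obtain ⟨B, hB⟩ := hfin.bddAbove
    obtain ⟨p, hp1, hp2⟩ := Nat.exists_infinite_primes (B + 9)
    have := hB ⟨hp2, by omega⟩
    omega
  let P : ℕ → ℕ := Nat.nth (fun p => p.Prime ∧ 9 ≤ p)
  have hP : ∀ n, (P n).Prime ∧ 9 ≤ P n := fun n => Nat.nth_mem_of_infinite hinf n
  have hinj : Function.Injective P := Nat.nth_injective hinf
  have hodd : ∀ n, 2 * ((P n - 1) / 2) + 1 = P n := by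
    intro n
    obtain ⟨h1, h2⟩ := hP n
    have := h1.eq_two_or_odd
    omega
  have hcop : ∀ a b, a ≠ b → Nat.Coprime (P a) (P b) := fun a b hab =>
    (Nat.coprime_primes (hP a).1 (hP b).1).2 (fun h => hab (hinj h))
  refine ⟨fun l => (P (2 * l) - 1) / 2, fun l => P (2 * l + 1), ?_, ?_, ?_, ?_⟩
  · intro l; have := hP (2 * l); simp only; omega
  · intro l; have := hP (2 * l + 1); simp only; omega
  · intro l
    simp only
    rw [hodd]
    exact hcop _ _ (by omega)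
  · intro l l' hll
    have hne : (l : ℕ) ≠ (l' : ℕ) := fun h => hll (Fin.ext h)
    simp only
    rw [hodd, hodd]
    apply Nat.Coprime.mul_left
    · apply Nat.Coprime.mul_right
      · exact hcop _ _ (by omega)
      · exact hcop _ _ (by omega)
    · apply Nat.Coprime.mul_right
      · exact hcop _ _ (by omega)
      · exact hcop _ _ (by omega)

/-- The graded cover with grades in `(Z/2)^d`, any `d`. -/
theorem run_cover (d : ℕ) : ∃ (M : ℕ) (A B : ℕ → (Fin d → ZMod 2) → Prop)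
    (κ : ℕ → Fin d → ZMod 2), 0 < M ∧
    (∀ i g, A (i % M) g ↔ A i g) ∧ (∀ j h, B (j % M) h ↔ B j h) ∧ (∀ T, κ (T % M) = κ T) ∧
    (∀ i g g', A i g → A i g' → g = g') ∧ (∀ j h h', B j h → B j h' → h = h') ∧
    (∀ i j g h, A i g → B j h → κ (i + j) = g + h) ∧
    (∀ T g, ∃ i₀ < M, ∀ i j, i % M = i₀ → (i + j) % M = T % M → A i g ∧ B j (κ T - g)) := by
  classical
  obtain ⟨r, k, hr, hk, hc, hpc⟩ := moduli d
  let N : Fin d → ℕ := fun l => (2 * r l + 1) * k l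
  have hN : ∀ l, 0 < N l := fun l => Nat.mul_pos (by omega) (by have := hk l; omega)
  let M : ℕ := ∏ l, N l
  have hM : 0 < M := Finset.prod_pos (fun l _ => hN l)
  have hdN : ∀ l, N l ∣ M := fun l => Finset.dvd_prod_of_mem N (Finset.mem_univ l)
  have hd1 : ∀ l, (2 * r l + 1) ∣ M := fun l => (Dvd.intro _ rfl : (2 * r l + 1) ∣ N l).trans (hdN l)
  have hd2 : ∀ l, k l ∣ M := fun l => (Dvd.intro_left _ rfl : k l ∣ N l).trans (hdN l)
  refine ⟨M, fun i g => ∀ l, al (r l) (k l) i (g l), fun j h => ∀ l, be (r l) (k l) j (h l),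
    fun T l => ka (r l) (k l) T, hM, ?_, ?_, ?_, ?_, ?_, ?_, ?_⟩
  · intro i g
    exact forall_congr' fun l => al_mod _ _ _ _ (hd1 l) (hd2 l) _
  · intro i g
    exact forall_congr' fun l => be_mod _ _ _ _ (hd1 l) (hd2 l) _
  · intro T
    funext l
    exact ka_mod _ _ _ _ (hd1 l) (hd2 l)
  · intro i g g' h h'
    funext l
    exact al_unique _ _ _ (hr l) _ _ (h l) (h' l)
  · intro i g g' h h'
    funext l
    exact be_unique _ _ _ (hr l) _ _ (h l) (h' l)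
  · intro i j g h hA hB
    funext l
    exact exact1 _ _ _ _ (hr l) (hk l) _ _ (hA l) (hB l)
  · intro T g
    choose c hc1 hc2 using fun l => complete1 (r l) (k l) (hr l) (hk l) (hc l) T (g l)
    obtain ⟨z, hz⟩ := Nat.chineseRemainderOfFinset c N Finset.univ
      (fun l _ => (hN l).ne') (fun l _ l' _ hll => hpc l l' hll)
    refine ⟨z % M, Nat.mod_lt _ hM, ?_⟩
    intro i j h1 h2
    have key : ∀ l, al (r l) (k l) i (g l) ∧ be (r l) (k l) j (ka (r l) (k l) T - g l) := by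
      intro l
      apply hc2 l
      · show i % N l = c l
        rw [← Nat.mod_mod_of_dvd i (hdN l), h1, Nat.mod_mod_of_dvd _ (hdN l)]
        have := hz l (Finset.mem_univ l)
        rw [this, Nat.mod_eq_of_lt (hc1 l)]
      · show (i + j) % N l = T % N l
        rw [← Nat.mod_mod_of_dvd (i + j) (hdN l), h2, Nat.mod_mod_of_dvd _ (hdN l)]
    exact ⟨fun l => (key l).1, fun l => (key l).2⟩

end Crest.Agent.R320.RunCover471
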