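import Crest.Agent.R320.Hk2_851

/-!
# Row 320, item (10): long runs cost one star (truncation-free form) (helper712)

`pow_lang` : `{u x^k v : phi = s}` has height at most `1`.
`Sc B c`   : words which are products of `c + 1` words `u x^k v` with `|u|, |x|, |v| <= B`.
`Sc_hl`    : `{w in Sc B c : phi w = s}` has height at most `1`.
`atLeast_not_Sc` : for a right-looking rule whose wall-free stretches are periodic (`PerGap`),
words with at most `c` walls are in `Sc B c`.
`few_walls_hl` : `{w : at most c walls, phi w = s}` has height at most `1`.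
-/

set_option autoImplicit false

namespace Crest.Agent.R320.RunGap_712

open Crest.RegLang Crest.Agent.R320.Hk_851

universe u

variable {α : Type u}

/-- `k`-th power of a word -/
def rep (k : ℕ) (x : List α) : List α := (List.replicate k x).flatten

theorem rep_zero (x : List α) : rep 0 x = [] := by simp [rep]

theorem rep_succ (k : ℕ) (x : List α) : rep (k + 1) x = x ++ rep k x := by
  simp [rep, List.replicate_succ]

theorem rep_add (k l : ℕ) (x : List α) : rep (k + l) x = rep k x ++ rep l x := by
  induction k with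
  | zero => simp [rep_zero]
  | succ k ih => rw [Nat.add_right_comm, rep_succ, ih, rep_succ, List.append_assoc]

theorem rep_mul (k l : ℕ) (x : List α) : rep (k * l) x = rep k (rep l x) := by
  induction k with
  | zero => simp [rep_zero]
  | succ k ih => rw [Nat.succ_mul, Nat.add_comm, rep_add, ih, rep_succ]

theorem mem_kstar_rep (k : ℕ) (y : List α) : rep k y ∈ KStar.kstar ({y} : Language α) := by
  rw [Language.mem_kstar]
  exact ⟨List.replicate k y, rfl, fun z hz => by rw [List.eq_of_mem_replicate hz]; rfl⟩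

theorem kstar_rep {y w : List α} (h : w ∈ KStar.kstar ({y} : Language α)) :
    ∃ k, w = rep k y := by
  rw [Language.mem_kstar] at h
  obtain ⟨S, rfl, hS⟩ := h
  refine ⟨S.length, ?_⟩
  have : S = List.replicate S.length y := List.eq_replicate_iff.2 ⟨rfl, fun b hb => hS b hb⟩
  unfold rep
  rw [← this]

/-- value of a word in a monoid -/
def val {S : Type*} [Monoid S] (f : α → S) (w : List α) : S := (w.map f).prod

theorem val_append {S : Type*} [Monoid S] (f : α → S) (v w : List α) :
    val f (v ++ w) = val f v * val f w := by simp [val]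

theorem val_rep {S : Type*} [Monoid S] (f : α → S) (k : ℕ) (x : List α) :
    val f (rep k x) = val f x ^ k := by
  induction k with
  | zero => simp [rep_zero, val]
  | succ k ih => rw [rep_succ, val_append, ih, pow_succ']

/-- powers in a finite monoid are eventually periodic -/
theorem pow_period {S : Type*} [Monoid S] [Finite S] (g : S) :
    ∃ N m : ℕ, 0 < m ∧ ∀ k, N ≤ k → g ^ (k + m) = g ^ k := by
  obtain ⟨a, b, hne, hab⟩ := Finite.exists_ne_map_eq_of_infinite (fun k : ℕ => g ^ k)
  change g ^ a = g ^ b at hab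
  rcases lt_or_gt_of_ne hne with h | h
  · refine ⟨a, b - a, Nat.sub_pos_of_lt h, fun k hk => ?_⟩
    obtain ⟨c, rfl⟩ := Nat.exists_eq_add_of_le hk
    have e : a + c + (b - a) = b + c := by omega
    rw [e, pow_add, ← hab, ← pow_add]
  · refine ⟨b, a - b, Nat.sub_pos_of_lt h, fun k hk => ?_⟩
    obtain ⟨c, rfl⟩ := Nat.exists_eq_add_of_le hk
    have e : b + c + (a - b) = a + c := by omega
    rw [e, pow_add, hab, ← pow_add]

theorem pow_period' {S : Type*} [Monoid S] {g : S} {N m : ℕ}
    (h : ∀ k, N ≤ k → g ^ (k + m) = g ^ k) (k j : ℕ) (hk : N ≤ k) : g ^ (k + j * m) = g ^ k := by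
  induction j with
  | zero => simp
  | succ j ih =>
    have e : k + (j + 1) * m = k + j * m + m := by ring
    rw [e, h _ (by omega), ih]

/-- `{u x^k v : phi = s}` has height at most one -/
theorem pow_lang {S : Type*} [Monoid S] [Finite S] (f : α → S) (s : S) (p x q : List α) :
    HL 1 {w : List α | (∃ k, w = p ++ rep k x ++ q) ∧ val f w = s} := by
  obtain ⟨N, m, hm, hper⟩ := pow_period (val f x)
  have hstar : ∀ r : ℕ, HL 1 ((({p ++ rep r x} : Language α) *
      KStar.kstar ({rep m x} : Language α)) * ({q} : Language α)) := fun r =>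
    ((HL.word _).mul (HL.star (HL.word (k := 0) (rep m x)))).mul (HL.word _)
  have hone : ∀ r : ℕ, HL 1 ({p ++ rep r x ++ q} : Language α) := fun r => HL.word _
  have h1 : HL 1 {w : List α | ∃ r ∈ {r : ℕ | r < N ∧ val f (p ++ rep r x ++ q) = s},
      w ∈ ({p ++ rep r x ++ q} : Language α)} :=
    HL.biUnion ((Set.finite_lt_nat N).subset fun r hr => hr.1) fun r _ => hone r
  have h2 : HL 1 {w : List α | ∃ r ∈ {r : ℕ | r < N + m ∧ N ≤ r ∧
      val f (p ++ rep r x ++ q) = s},
      w ∈ ((({p ++ rep r x} : Language α) * KStar.kstar ({rep m x} : Language α)) *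
        ({q} : Language α))} :=
    HL.biUnion ((Set.finite_lt_nat (N + m)).subset fun r hr => hr.1) fun r _ => hstar r
  refine (h1.sup h2).congr fun w => ?_
  constructor
  · rintro ⟨⟨k, rfl⟩, hs⟩
    by_cases hk : k < N
    · left
      exact ⟨k, ⟨hk, hs⟩, rfl⟩
    · right
      push Not at hk
      obtain ⟨j, r, hr, hkr⟩ : ∃ j r, r < m ∧ k = N + r + j * m := by
        refine ⟨(k - N) / m, (k - N) % m, Nat.mod_lt _ hm, ?_⟩
        have := Nat.div_add_mod (k - N) m
        have e : (k - N) / m * m = m * ((k - N) / m) := Nat.mul_comm _ _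
        omega
      refine ⟨N + r, ⟨by omega, by omega, ?_⟩, ?_⟩
      · rw [← hs, hkr]
        simp only [val_append, val_rep]
        rw [pow_period' hper (N + r) j (by omega)]
      · refine Language.mem_mul.2 ⟨p ++ rep k x, ?_, q, rfl, rfl⟩
        refine Language.mem_mul.2 ⟨p ++ rep (N + r) x, rfl, rep j (rep m x),
          mem_kstar_rep _ _, ?_⟩
        rw [List.append_assoc, ← rep_mul, ← rep_add, hkr]
  · rintro (⟨r, ⟨_, hs⟩, hw⟩ | ⟨r, ⟨_, hN, hs⟩, hw⟩)
    · rw [Set.mem_singleton_iff.1 hw]
      exact ⟨⟨r, rfl⟩, hs⟩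
    · obtain ⟨y, hy, z, hz, rfl⟩ := Language.mem_mul.1 hw
      obtain ⟨y1, hy1, y2, hy2, rfl⟩ := Language.mem_mul.1 hy
      rw [Set.mem_singleton_iff.1 hz, Set.mem_singleton_iff.1 hy1]
      obtain ⟨j, rfl⟩ := kstar_rep hy2
      rw [List.append_assoc p, ← rep_mul, ← rep_add]
      refine ⟨⟨_, rfl⟩, ?_⟩
      rw [← hs]
      simp only [val_append, val_rep]
      rw [pow_period' hper r j hN]

/-- one-run words -/
def G0 (B : ℕ) : Language α :=
  {w | ∃ p x q : List α, p.length ≤ B ∧ x.length ≤ B ∧ q.length ≤ B ∧ ∃ k, w = p ++ rep k x ++ q}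

/-- products of `c + 1` one-run words -/
def Sc (B : ℕ) : ℕ → Language α
  | 0 => G0 B
  | c + 1 => G0 B * Sc B c

/-- one-run words with a given value -/
def GV {S : Type*} [Monoid S] (f : α → S) (B : ℕ) (s : S) : Language α :=
  {w | w ∈ G0 B ∧ val f w = s}

/-- words of `Sc B c` with a given value -/
def SV {S : Type*} [Monoid S] (f : α → S) (B c : ℕ) (s : S) : Language α :=
  {w | w ∈ Sc B c ∧ val f w = s}

theorem G0_hl [Finite α] {S : Type*} [Monoid S] [Finite S] (f : α → S) (B : ℕ) (s : S) :
    HL 1 (GV f B s) := by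
  have hfin : ({t : List α × List α × List α | t.1.length ≤ B ∧ t.2.1.length ≤ B ∧
      t.2.2.length ≤ B}).Finite := by
    have h := List.finite_length_le α B
    exact (h.prod (h.prod h)).subset fun t ht => ⟨ht.1, ht.2.1, ht.2.2⟩
  have h := HL.biUnion (k := 1) hfin (L := fun t =>
    {w : List α | (∃ k, w = t.1 ++ rep k t.2.1 ++ t.2.2) ∧ val f w = s})
    fun t _ => pow_lang f s t.1 t.2.1 t.2.2
  refine h.congr fun w => ?_
  constructor
  · rintro ⟨⟨p, x, q, hp, hx, hq, k, hk⟩, hs⟩
    exact ⟨(p, x, q), ⟨hp, hx, hq⟩, ⟨k, hk⟩, hs⟩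
  · rintro ⟨⟨p, x, q⟩, ⟨hp, hx, hq⟩, ⟨k, hk⟩, hs⟩
    exact ⟨⟨p, x, q, hp, hx, hq, k, hk⟩, hs⟩

theorem Sc_hl [Finite α] {S : Type*} [Monoid S] [Finite S] (f : α → S) (B : ℕ) (c : ℕ) :
    ∀ s : S, HL 1 (SV f B c s) := by
  induction c with
  | zero => exact G0_hl f B
  | succ c ih =>
    intro s
    have h := HL.biUnion (k := 1) (Set.toFinite {t : S × S | t.1 * t.2 = s})
      (L := fun t => GV f B t.1 * SV f B c t.2)
      fun t _ => (G0_hl f B t.1).mul (ih t.2)
    refine h.congr fun w => ?_
    constructor
    · rintro ⟨hw, hs⟩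
      obtain ⟨y, hy, z, hz, rfl⟩ := Language.mem_mul.1 hw
      refine ⟨(val f y, val f z), ?_, Language.mem_mul.2 ⟨y, ⟨hy, rfl⟩, z, ⟨hz, rfl⟩, rfl⟩⟩
      change val f y * val f z = s
      rw [← val_append]; exact hs
    · rintro ⟨t, ht, hw⟩
      obtain ⟨y, ⟨hy, hy'⟩, z, ⟨hz, hz'⟩, rfl⟩ := Language.mem_mul.1 hw
      refine ⟨Language.mem_mul.2 ⟨y, hy, z, hz, rfl⟩, ?_⟩
      rw [val_append, hy', hz']; exact ht


/-- at least `c` walls (positions `i < |w|` with `R (w.drop i)`) -/
def atLeast (R : List α → Prop) : ℕ → List α → Prop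
  | 0, _ => True
  | c + 1, w => ∃ i, i < w.length ∧ R (w.drop i) ∧ atLeast R c (w.drop (i + 1))

/-- if there is no wall in the first `G` places, then the letters `o` and `o + D` agree -/
def PerGap (R : List α → Prop) (G n o D : ℕ) : Prop :=
  ∀ Q : List α, (∀ i < G, ¬ R (Q.drop i)) → G + n ≤ Q.length → Q[o]? = Q[o + D]?

/-- a word with period `D` is a power times a short word -/
theorem per_rep {D : ℕ} (hD : 0 < D) : ∀ (l : ℕ) (z : List α), z.length = l → D ≤ l →
    (∀ t, t + D < z.length → z[t]? = z[t + D]?) →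
    ∃ k v, v.length ≤ D ∧ z = rep k (z.take D) ++ v := by
  intro l
  induction l using Nat.strong_induction_on with
  | _ l ih =>
    intro z hz hDl hper
    by_cases h2 : l < 2 * D
    · refine ⟨1, z.drop D, ?_, ?_⟩
      · rw [List.length_drop]; omega
      · rw [rep_succ, rep_zero, List.append_nil, List.take_append_drop]
    · have htake : (z.drop D).take D = z.take D := by
        apply List.ext_getElem?
        intro t
        rw [List.getElem?_take, List.getElem?_take]
        by_cases ht : t < D
        · rw [if_pos ht, if_pos ht, List.getElem?_drop, hper t (by omega), Nat.add_comm]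
        · rw [if_neg ht, if_neg ht]
      obtain ⟨k, v, hv, hkv⟩ := ih (l - D) (by omega) (z.drop D)
        (by rw [List.length_drop, hz]) (by omega) (by
          intro t ht
          rw [List.length_drop] at ht
          rw [List.getElem?_drop, List.getElem?_drop, hper (D + t) (by omega)]
          congr 1
          omega)
      refine ⟨k + 1, v, hv, ?_⟩
      rw [htake] at hkv
      rw [rep_succ, List.append_assoc, ← hkv, List.take_append_drop]

theorem nil_mem_Sc (B : ℕ) : ∀ c, ([] : List α) ∈ Sc (α := α) B c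
  | 0 => ⟨[], [], [], Nat.zero_le _, Nat.zero_le _, Nat.zero_le _, 0, by simp [rep_zero]⟩
  | c + 1 => Language.mem_mul.2 ⟨[], nil_mem_Sc B 0, [], nil_mem_Sc B c, rfl⟩

/-- a prefix without walls is a one-run word -/
theorem take_mem_G0 {R : List α → Prop} {G n o D : ℕ} (hD : 0 < D) (ho : o + D < G + n)
    (hR : PerGap R G n o D) (w : List α) (i : ℕ) (hi : i ≤ w.length)
    (hfree : ∀ j < i, ¬ R (w.drop j)) : w.take (i + 1) ∈ G0 (o + D + G + n) := by
  set y := w.take (i + 1) with hy
  set m := min (i + 1 - G) (w.length + 1 - G - n) with hm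
  set z := (y.drop o).take (m + D) with hz
  set r := (y.drop o).drop (m + D) with hr
  have hyl : y.length ≤ i + 1 := by rw [hy, List.length_take]; omega
  have hrl : r.length ≤ G + n := by
    rw [hr, List.length_drop, List.length_drop]
    omega
  have hzper : ∀ t, t + D < z.length → z[t]? = z[t + D]? := by
    intro t ht
    have hzl : z.length ≤ m + D := by rw [hz, List.length_take]; omega
    have hzl2 : z.length ≤ y.length - o := by
      rw [hz, List.length_take, List.length_drop]; omega
    have htm : t < m := by omega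
    have h1 : z[t]? = w[o + t]? := by
      rw [hz, List.getElem?_take, if_pos (by omega), List.getElem?_drop, hy,
        List.getElem?_take, if_pos (by omega)]
    have h2 : z[t + D]? = w[o + (t + D)]? := by
      rw [hz, List.getElem?_take, if_pos (by omega), List.getElem?_drop, hy,
        List.getElem?_take, if_pos (by omega)]
    have h3 := hR (w.drop t) (by
      intro j hj
      rw [List.drop_drop]
      exact hfree (t + j) (by omega)) (by rw [List.length_drop]; omega)
    rw [List.getElem?_drop, List.getElem?_drop] at h3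
    rw [h1, h2]
    have e1 : o + t = t + o := by omega
    have e2 : o + (t + D) = t + (o + D) := by omega
    rw [e1, e2, h3]
  have hyz : y = y.take o ++ (z ++ r) := by
    rw [hz, hr, List.take_append_drop, List.take_append_drop]
  have hto : (y.take o).length ≤ o := by rw [List.length_take]; omega
  by_cases hzD : D ≤ z.length
  · obtain ⟨k, v, hv, hkv⟩ := per_rep hD z.length z rfl hzD hzper
    refine ⟨y.take o, z.take D, v ++ r, by omega, ?_, ?_, k, ?_⟩
    · rw [List.length_take]; omega
    · rw [List.length_append]; omega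
    · rw [List.append_assoc, ← List.append_assoc (rep k _), ← hkv]
      exact hyz
  · refine ⟨y.take o, [], z ++ r, by omega, Nat.zero_le _, ?_, 0, ?_⟩
    · rw [List.length_append]; omega
    · rw [rep_zero, List.append_nil]
      exact hyz

theorem mem_Sc_of_not_atLeast {R : List α → Prop} {G n o D : ℕ} (hD : 0 < D)
    (ho : o + D < G + n) (hR : PerGap R G n o D) :
    ∀ (c : ℕ) (w : List α), ¬ atLeast R (c + 1) w → w ∈ Sc (o + D + G + n) c := by
  have key : ∀ w : List α, (∀ j < w.length, ¬ R (w.drop j)) → w ∈ G0 (o + D + G + n) := by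
    intro w hw
    have := take_mem_G0 hD ho hR w w.length le_rfl hw
    rwa [List.take_of_length_le (by omega)] at this
  intro c
  induction c with
  | zero =>
    intro w hw
    exact key w fun j hj hRj => hw ⟨j, hj, hRj, trivial⟩
  | succ c ih =>
    intro w hw
    classical
    by_cases hex : ∃ i, i < w.length ∧ R (w.drop i)
    · set i := Nat.find hex with hi
      have hspec := Nat.find_spec hex
      have hmin : ∀ j < i, ¬ R (w.drop j) := by
        intro j hj hRj
        exact Nat.find_min hex hj ⟨by omega, hRj⟩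
      refine Language.mem_mul.2 ⟨w.take (i + 1), take_mem_G0 hD ho hR w i hspec.1.le hmin,
        w.drop (i + 1), ih _ ?_, List.take_append_drop _ _⟩
      intro h
      exact hw ⟨i, hspec.1, hspec.2, h⟩
    · refine Language.mem_mul.2 ⟨w, key w ?_, [], nil_mem_Sc _ _, List.append_nil _⟩
      intro j hj hRj
      exact hex ⟨j, hj, hRj⟩

/-- right-looking rules are star-free -/
theorem rule_hl [Finite α] {R : List α → Prop} {n : ℕ} (h1 : ∀ Q, R Q → n ≤ Q.length)
    (h2 : ∀ Q, R Q ↔ R (Q.take n)) : HL 0 ({Q | R Q} : Language α) := by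
  have h := HL.prefix (k := 0) (HL.finite (α := α) (k := 0)
    (s := {v : List α | v.length = n ∧ R v})
    ((List.finite_length_eq α n).subset fun v hv => hv.1))
  refine h.congr fun w => ?_
  constructor
  · intro hw
    have hw' : R w := hw
    refine ⟨w.take n, ⟨?_, (h2 w).1 hw'⟩, List.take_prefix _ _⟩
    rw [List.length_take]
    have := h1 w hw'
    omega
  · rintro ⟨v, ⟨hv1, hv2⟩, hvw⟩
    change R w
    rw [h2 w]
    have : w.take n = v := by
      obtain ⟨y, rfl⟩ := hvw
      rw [List.take_append_of_le_length (by omega), List.take_of_length_le (by omega)]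
    rw [this]; exact hv2

theorem atLeast_hl [Finite α] {R : List α → Prop} {n : ℕ} (h1 : ∀ Q, R Q → n ≤ Q.length)
    (h2 : ∀ Q, R Q ↔ R (Q.take n)) : ∀ c, HL 0 ({w | atLeast R c w} : Language α)
  | 0 => HL.top.congr fun w => ⟨fun _ => trivial, fun _ => trivial⟩
  | c + 1 => by
    have ih := atLeast_hl h1 h2 c
    have ha : HL 0 ({v : List α | v.length = 1} : Language α) :=
      HL.finite (List.finite_length_eq α 1)
    have h := (HL.top (α := α) (k := 0)).mul ((rule_hl h1 h2).inf (ha.mul ih))
    refine h.congr fun w => ?_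
    constructor
    · rintro ⟨i, hi, hRi, hc⟩
      refine Language.mem_mul.2 ⟨w.take i, trivial, w.drop i, ⟨hRi, ?_⟩,
        List.take_append_drop _ _⟩
      refine Language.mem_mul.2 ⟨(w.drop i).take 1, ?_, w.drop (i + 1), hc, ?_⟩
      · change ((w.drop i).take 1).length = 1
        rw [List.length_take, List.length_drop]; omega
      · have e : w.drop (i + 1) = (w.drop i).drop 1 := by rw [List.drop_drop]
        rw [e, List.take_append_drop]
    · intro hw
      obtain ⟨x, -, y, ⟨hy1, hy2⟩, rfl⟩ := Language.mem_mul.1 hw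
      obtain ⟨a, ha', z, hz, rfl⟩ := Language.mem_mul.1 hy2
      have hal : a.length = 1 := ha'
      refine ⟨x.length, ?_, ?_, ?_⟩
      · simp only [List.length_append]; omega
      · rw [List.drop_left]; exact hy1
      · have e : (x ++ (a ++ z)).drop (x.length + 1) = z := by
          rw [← List.append_assoc, ← hal, ← List.length_append, List.drop_left]
        rw [e]; exact hz

/-- words with at most `c` walls and a given value: height one -/
theorem few_walls_hl [Finite α] {R : List α → Prop} {G n o D : ℕ} (hD : 0 < D)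
    (ho : o + D < G + n) (h1 : ∀ Q, R Q → n ≤ Q.length)
    (h2 : ∀ Q, R Q ↔ R (Q.take n)) (hR : PerGap R G n o D)
    {S : Type*} [Monoid S] [Finite S] (f : α → S) (s : S) (c : ℕ) :
    HL 1 ({w | ¬ atLeast R (c + 1) w ∧ val f w = s} : Language α) := by
  have h := (((atLeast_hl h1 h2 (c + 1)).mono (Nat.zero_le 1)).compl).inf
    (Sc_hl f (o + D + G + n) c s)
  refine h.congr fun w => ?_
  constructor
  · rintro ⟨hw, hs⟩
    exact ⟨hw, mem_Sc_of_not_atLeast hD ho hR c w hw, hs⟩
  · rintro ⟨hw, -, hs⟩
    exact ⟨hw, hs⟩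

end Crest.Agent.R320.RunGap_712
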