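import Crest.Agent.R320.RunGap_712

/-!
# Row 320, item (10) / (2): Krieger's marker rule in right-looking form (helper712)

`exists_rule` : for every `W` there are `n` and a rule `R` (a word sees a wall at its first place
iff `R` holds for its first `n` letters), walls are at least `W` apart, and wall-free stretches of
length `2 W` show the letter equality `Q[o] = Q[o + W!]`, so long wall-free stretches have period
`W!` (`PerGap`).  `few_walls_hl'`: languages with at most `c` walls have height at most one.
-/

set_option autoImplicit false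

namespace Crest.Agent.R320.RunMark_712

open Crest.RegLang Crest.Agent.R320.Hk_851 Crest.Agent.R320.RunGap_712

universe u

variable {α : Type u}

/-- greedy marks: the words of the list are treated from the last one to the first one -/
def mark (W N : ℕ) : List (List α) → List α → ℕ → Prop
  | [], _, _ => False
  | u :: us, w, i => mark W N us w i ∨
      ((w.drop i).take N = u ∧ ∀ j, j < i + W → i < j + W → ¬ mark W N us w j)

/-- no period smaller than `W` -/
def Ap (W N : ℕ) (u : List α) : Prop :=
  u.length = N ∧ ∀ d, 0 < d → d < W → ∃ j, j + d < N ∧ u[j]? ≠ u[j + d]?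

theorem mark_gap {W N : ℕ} : ∀ {us : List (List α)}, (∀ u ∈ us, Ap W N u) → ∀ {w : List α} {i j : ℕ},
    mark W N us w i → mark W N us w j → i < j → i + W ≤ j := by
  intro us
  induction us with
  | nil => intro _ w i j hi; exact hi.elim
  | cons u us ih =>
    intro hus w i j hi hj hij
    have hus' : ∀ v ∈ us, Ap W N v := fun v hv => hus v (List.mem_cons_of_mem _ hv)
    by_contra hlt
    push Not at hlt
    rcases hi with hi | ⟨hi, hi'⟩
    · rcases hj with hj | ⟨hj, hj'⟩
      · exact absurd (ih hus' hi hj hij) (by omega)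
      · exact hj' i (by omega) (by omega) hi
    · rcases hj with hj | ⟨hj, hj'⟩
      · exact hi' j (by omega) (by omega) hj
      · obtain ⟨-, hap⟩ := hus u (List.mem_cons_self)
        obtain ⟨t, ht, hne⟩ := hap (j - i) (by omega) (by omega)
        apply hne
        have e1 : u[t]? = w[j + t]? := by
          rw [← hj, List.getElem?_take, if_pos (by omega), List.getElem?_drop]
        have e2 : u[t + (j - i)]? = w[i + (t + (j - i))]? := by
          rw [← hi, List.getElem?_take, if_pos (by omega), List.getElem?_drop]
        rw [e1, e2]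
        congr 1
        omega

theorem mark_cover {W N : ℕ} (hW : 0 < W) : ∀ {us : List (List α)} {u : List α}, u ∈ us →
    ∀ {w : List α} {i : ℕ}, (w.drop i).take N = u →
    ∃ j, j < i + W ∧ i < j + W ∧ mark W N us w j := by
  intro us
  induction us with
  | nil => intro u hu; exact absurd hu (List.not_mem_nil)
  | cons v us ih =>
    intro u hu w i hi
    rcases List.mem_cons.1 hu with rfl | hu'
    · by_cases h : ∃ j, j < i + W ∧ i < j + W ∧ mark W N us w j
      · obtain ⟨j, h1, h2, h3⟩ := h
        exact ⟨j, h1, h2, Or.inl h3⟩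
      · refine ⟨i, by omega, by omega, Or.inr ⟨hi, ?_⟩⟩
        intro j h1 h2 h3
        exact h ⟨j, h1, h2, h3⟩
    · obtain ⟨j, h1, h2, h3⟩ := ih hu' hi
      exact ⟨j, h1, h2, Or.inl h3⟩

/-- marks do not see what is far to the left -/
theorem mark_drop {W N : ℕ} : ∀ (us : List (List α)) (w : List α) (a i : ℕ),
    us.length * W ≤ i → (mark W N us w (a + i) ↔ mark W N us (w.drop a) i) := by
  intro us
  induction us with
  | nil => intro w a i _; exact Iff.rfl
  | cons u us ih =>
    intro w a i hi
    have hlen : (u :: us).length * W = us.length * W + W := by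
      rw [List.length_cons, Nat.succ_mul]
    rw [hlen] at hi
    have h1 : (w.drop (a + i)).take N = ((w.drop a).drop i).take N := by rw [List.drop_drop]
    simp only [mark]
    rw [ih w a i (by omega), h1]
    refine or_congr Iff.rfl (and_congr Iff.rfl ?_)
    constructor
    · intro h j hj1 hj2 hm
      exact h (a + j) (by omega) (by omega) ((ih w a j (by omega)).2 hm)
    · intro h j hj1 hj2 hm
      obtain ⟨j', rfl⟩ : ∃ j', j = a + j' := ⟨j - a, by omega⟩
      exact h j' (by omega) (by omega) ((ih w a j' (by omega)).1 hm)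

/-- marks do not see what is far to the right -/
theorem mark_take {W N L : ℕ} : ∀ (us : List (List α)) (w : List α) (i : ℕ),
    i + us.length * W + N ≤ L → (mark W N us w i ↔ mark W N us (w.take L) i) := by
  intro us
  induction us with
  | nil => intro w i _; exact Iff.rfl
  | cons u us ih =>
    intro w i hi
    have hlen : (u :: us).length * W = us.length * W + W := by
      rw [List.length_cons, Nat.succ_mul]
    rw [hlen] at hi
    have h1 : ((w.take L).drop i).take N = (w.drop i).take N := by
      rw [List.drop_take, List.take_take]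
      congr 1
      omega
    simp only [mark]
    rw [ih w i (by omega), h1]
    refine or_congr Iff.rfl (and_congr Iff.rfl ?_)
    constructor
    · intro h j hj1 hj2 hm
      exact h j hj1 hj2 ((ih w j (by omega)).2 hm)
    · intro h j hj1 hj2 hm
      exact h j hj1 hj2 ((ih w j (by omega)).1 hm)

/-- the rule -/
def Rule (W N : ℕ) (us : List (List α)) (Q : List α) : Prop :=
  2 * (us.length * W) + N ≤ Q.length ∧ mark W N us Q (us.length * W)

theorem rule_take (W N : ℕ) (us : List (List α)) (Q : List α) :
    Rule W N us Q ↔ Rule W N us (Q.take (2 * (us.length * W) + N)) := by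
  unfold Rule
  rw [← mark_take us Q (us.length * W) (by omega), List.length_take]
  constructor
  · rintro ⟨h1, h2⟩; exact ⟨by omega, h2⟩
  · rintro ⟨h1, h2⟩; exact ⟨by omega, h2⟩

theorem rule_drop {W N : ℕ} {us : List (List α)} {Q : List α} {i : ℕ}
    (hi : i + (2 * (us.length * W) + N) ≤ Q.length) :
    Rule W N us (Q.drop i) ↔ mark W N us Q (i + us.length * W) := by
  unfold Rule
  rw [mark_drop us Q i _ le_rfl, List.length_drop]
  constructor
  · rintro ⟨_, h2⟩; exact h2
  · intro h2; exact ⟨by omega, h2⟩

theorem rule_gap {W N : ℕ} {us : List (List α)} (hus : ∀ u ∈ us, Ap W N u) (Q : List α) (d : ℕ)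
    (hQ : Rule W N us Q) (hd : 0 < d) (hdW : d < W) : ¬ Rule W N us (Q.drop d) := by
  rintro ⟨h1, h2⟩
  rw [← mark_drop us Q d _ le_rfl] at h2
  have := mark_gap hus hQ.2 h2 (by omega)
  omega

theorem rule_perGap {W : ℕ} (hW : 0 < W) {us : List (List α)}
    (hus : ∀ u, u ∈ us ↔ Ap W (W.factorial + 1) u) :
    PerGap (Rule W (W.factorial + 1) us) (2 * W) (2 * (us.length * W) + (W.factorial + 1))
      (us.length * W + W) W.factorial := by
  intro Q hfree hlen
  set D := W.factorial with hD
  set T := us.length * W with hT
  set o := T + W with ho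
  set v := (Q.drop o).take (D + 1) with hv
  have hvl : v.length = D + 1 := by
    rw [hv, List.length_take, List.length_drop]; omega
  have hnot : ¬ Ap W (D + 1) v := by
    intro hap
    obtain ⟨j, hj1, hj2, hm⟩ := mark_cover (N := D + 1) hW ((hus v).2 hap) (w := Q) (i := o) rfl
    obtain ⟨i, rfl⟩ : ∃ i, j = i + T := ⟨j - T, by omega⟩
    exact hfree i (by omega) ((rule_drop (by omega)).2 hm)
  have hex : ∃ d, 0 < d ∧ d < W ∧ ∀ j, j + d < D + 1 → v[j]? = v[j + d]? := by
    by_contra hcon
    push Not at hcon
    apply hnot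
    refine ⟨hvl, fun d hd hdW => ?_⟩
    obtain ⟨j, h1, h2⟩ := hcon d hd hdW
    exact ⟨j, h1, h2⟩
  obtain ⟨d, hd, hdW, hper⟩ := hex
  have hdvd : d ∣ D := Nat.dvd_factorial hd hdW.le
  obtain ⟨k, hk⟩ := hdvd
  have hstep : ∀ l, l * d ≤ D → v[0]? = v[l * d]? := by
    intro l
    induction l with
    | zero => intro _; simp
    | succ l ih =>
      intro hl
      have e : (l + 1) * d = l * d + d := Nat.succ_mul l d
      rw [e] at hl ⊢
      rw [ih (by omega), hper (l * d) (by omega)]
  have h0 := hstep k (by rw [hk, Nat.mul_comm])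
  rw [Nat.mul_comm k d, ← hk] at h0
  rw [hv, List.getElem?_take, if_pos (by omega), List.getElem?_take, if_pos (by omega),
    List.getElem?_drop, List.getElem?_drop] at h0
  simpa using h0

/-- **Walls on all words.** Right-looking rule with window `n`, walls at least `W` apart, wall-free
stretches periodic with period `W!`. -/
theorem exists_rule [Finite α] (W : ℕ) (hW : 0 < W) :
    ∃ (n o : ℕ) (R : List α → Prop), (∀ Q, R Q → n ≤ Q.length) ∧ (∀ Q, R Q ↔ R (Q.take n)) ∧
      (∀ Q d, R Q → 0 < d → d < W → ¬ R (Q.drop d)) ∧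
      o + W.factorial < 2 * W + n ∧ PerGap R (2 * W) n o W.factorial := by
  have hfin : ({u : List α | Ap W (W.factorial + 1) u}).Finite :=
    (List.finite_length_eq α (W.factorial + 1)).subset fun u hu => hu.1
  set us := hfin.toFinset.toList with hus
  have hmem : ∀ u, u ∈ us ↔ Ap W (W.factorial + 1) u := by
    intro u
    rw [hus, Finset.mem_toList, Set.Finite.mem_toFinset]
    rfl
  refine ⟨2 * (us.length * W) + (W.factorial + 1), us.length * W + W,
    Rule W (W.factorial + 1) us, fun Q h => h.1, fun Q => rule_take _ _ _ _,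
    fun Q d => rule_gap (fun u hu => (hmem u).1 hu) Q d, by omega, rule_perGap hW hmem⟩

/-- **Long runs cost one star.** Words with at most `c` walls and a given value in a finite monoid:
height at most one. -/
theorem exists_rule_few_walls [Finite α] (W : ℕ) (hW : 0 < W) :
    ∃ (n o : ℕ) (R : List α → Prop), (∀ Q, R Q → n ≤ Q.length) ∧ (∀ Q, R Q ↔ R (Q.take n)) ∧
      (∀ Q d, R Q → 0 < d → d < W → ¬ R (Q.drop d)) ∧
      o + W.factorial < 2 * W + n ∧ PerGap R (2 * W) n o W.factorial ∧
      (∀ c, HL 0 ({w | atLeast R c w} : Language α)) ∧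
      ∀ (S : Type u) [Monoid S] [Finite S] (f : α → S) (s : S) (c : ℕ),
        HL 1 ({w | ¬ atLeast R (c + 1) w ∧ val f w = s} : Language α) := by
  obtain ⟨n, o, R, h1, h2, h3, h4, h5⟩ := exists_rule (α := α) W hW
  refine ⟨n, o, R, h1, h2, h3, h4, h5, atLeast_hl h1 h2, ?_⟩
  intro S _ _ f s c
  exact few_walls_hl (Nat.factorial_pos W) h4 h1 h2 h5 f s c

end Crest.Agent.R320.RunMark_712
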