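import Mathlib

/-!
# Row 320, run zones (helper81)

A long run `x^T` is a zone of its own (233 #12760 (I), 537 #12879 (2)).  The left word knows the
number `o` of periods since the beginning of the run, the right word knows the number `o'` of
periods up to its end, nobody knows `T = o + o'`.  Names = tokens (755 #12640 (A)); two families
of moduli, row products read on `T`, column products read on `T - 1`, so that for every `T`
one of the two families is complete; both are sound for every `T`.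
-/

set_option autoImplicit false

namespace Crest.Agent.R320.RunZone_81

/-! ## Names by moduli -/

section Names

variable {ι : Type*}

/-- the left clock value `o` shows the name `c` -/
def LN (q : ι × Bool → ℕ) (o : ℕ) (c : ι) : Prop :=
  (q (c, false) ∣ o ∧ ¬ q (c, true) ∣ o) ∧
    ∀ l, l ≠ c → (¬ q (l, false) ∣ o ∧ q (l, true) ∣ o)

/-- the right clock value `o'` shows the name `c` -/
def RN (q : ι × Bool → ℕ) (o : ℕ) (c : ι) : Prop :=
  (¬ q (c, false) ∣ o ∧ q (c, true) ∣ o) ∧
    ∀ l, l ≠ c → (q (l, false) ∣ o ∧ ¬ q (l, true) ∣ o)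

theorem LN.unique {q : ι × Bool → ℕ} {o : ℕ} {c d : ι} (h : LN q o c) (h' : LN q o d) :
    c = d := by
  by_contra hne
  exact (h'.2 c hne).1 h.1.1

theorem RN.unique {q : ι × Bool → ℕ} {o : ℕ} {c d : ι} (h : RN q o c) (h' : RN q o d) :
    c = d := by
  by_contra hne
  exact h.1.1 (h'.2 c hne).1

/-- the names whose moduli meet `T` -/
def Bad (q : ι × Bool → ℕ) (T : ℕ) : Set ι := {d | q (d, false) ∣ T ∨ q (d, true) ∣ T}

private theorem not_dvd_of_left {a o o' : ℕ} (h : a ∣ o) (h' : ¬ a ∣ o') : ¬ a ∣ o + o' :=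
  fun hs => h' ((Nat.dvd_add_right h).1 hs)

private theorem not_dvd_of_right {a o o' : ℕ} (h : ¬ a ∣ o) (h' : a ∣ o') : ¬ a ∣ o + o' :=
  fun hs => h ((Nat.dvd_add_left h').1 hs)

/-- equal names: no modulus divides `T` -/
theorem bad_eq {q : ι × Bool → ℕ} {o o' : ℕ} {c : ι} (h : LN q o c) (h' : RN q o' c) :
    Bad q (o + o') = ∅ := by
  ext d
  simp only [Bad, Set.mem_setOf_eq, Set.mem_empty_iff_false, iff_false, not_or]
  by_cases hd : d = c
  · subst hd
    exact ⟨not_dvd_of_left h.1.1 h'.1.1, not_dvd_of_right h.1.2 h'.1.2⟩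
  · exact ⟨not_dvd_of_right (h.2 d hd).1 (h'.2 d hd).1, not_dvd_of_left (h.2 d hd).2 (h'.2 d hd).2⟩

/-- different names: the moduli of exactly these two names meet `T` -/
theorem bad_ne {q : ι × Bool → ℕ} {o o' : ℕ} {c c' : ι} (h : LN q o c) (h' : RN q o' c')
    (hne : c ≠ c') : Bad q (o + o') = {c, c'} := by
  ext d
  simp only [Bad, Set.mem_setOf_eq, Set.mem_insert_iff, Set.mem_singleton_iff]
  by_cases hd : d = c
  · subst hd
    exact ⟨fun _ => Or.inl rfl, fun _ => Or.inl (dvd_add h.1.1 (h'.2 d hne).1)⟩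
  · by_cases hd' : d = c'
    · subst hd'
      exact ⟨fun _ => Or.inr rfl, fun _ => Or.inr (dvd_add (h.2 d hd).2 h'.1.2)⟩
    · constructor
      · rintro (hq | hq)
        · exact ((not_dvd_of_right (h.2 d hd).1 (h'.2 d hd').1) hq).elim
        · exact ((not_dvd_of_left (h.2 d hd).2 (h'.2 d hd').2) hq).elim
      · rintro (hq | hq)
        · exact (hd hq).elim
        · exact (hd' hq).elim

/-- the modulus of the family, `t` included -/
noncomputable def modulus [Fintype ι] (q : ι × Bool → ℕ) (t : ℕ) : ℕ := t * ∏ i, q i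

/-- all names occur in every interval of length `modulus q t` -/
theorem complete [Fintype ι] [DecidableEq ι] (q : ι × Bool → ℕ) (t : ℕ) (ht : 0 < t)
    (hq : ∀ i, 0 < q i) (hco : Pairwise fun i j => Nat.Coprime (q i) (q j))
    (hct : ∀ i, Nat.Coprime t (q i)) (T : ℕ) (hT : ∀ i, ¬ q i ∣ T) (c : ι) (s : ℕ)
    (hs : s + modulus q t ≤ T) :
    ∃ o o', o + o' = T ∧ s ≤ o ∧ o < s + modulus q t ∧ t ∣ o ∧ LN q o c ∧ RN q o' c := by
  classical
  -- residues
  let m : Option (ι × Bool) → ℕ := fun i => i.elim t q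
  let a : Option (ι × Bool) → ℕ := fun i => i.elim 0 fun j =>
    if (j.1 = c ↔ j.2 = true) then T else 0
  have hm0 : ∀ i ∈ (Finset.univ : Finset (Option (ι × Bool))), m i ≠ 0 := by
    rintro (_ | i) -
    · exact ht.ne'
    · exact (hq i).ne'
  have hpp : Set.Pairwise (↑(Finset.univ : Finset (Option (ι × Bool))) : Set _)
      (Function.onFun Nat.Coprime m) := by
    rintro (_ | i) - (_ | j) - hij
    · exact (hij rfl).elim
    · exact hct j
    · exact (hct i).symm
    · exact hco fun h => hij (by rw [h])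
  obtain ⟨k, hk⟩ := Nat.chineseRemainderOfFinset a m Finset.univ hm0 hpp
  have hMpos : 0 < modulus q t := Nat.mul_pos ht (Finset.prod_pos fun i _ => hq i)
  have hdM : ∀ i, m i ∣ modulus q t := by
    rintro (_ | i)
    · exact Dvd.intro _ rfl
    · exact Dvd.dvd.mul_left (Finset.dvd_prod_of_mem q (Finset.mem_univ i)) t
  -- shift into the interval
  obtain ⟨o, hso, hoM, hok⟩ : ∃ o, s ≤ o ∧ o < s + modulus q t ∧ o ≡ k [MOD modulus q t] := by
    refine ⟨s + (k + (modulus q t - s % modulus q t)) % modulus q t, Nat.le_add_right _ _,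
      Nat.add_lt_add_left (Nat.mod_lt _ hMpos) _, ?_⟩
    have h1 : s % modulus q t < modulus q t := Nat.mod_lt _ hMpos
    have h2 : (s + (k + (modulus q t - s % modulus q t)) % modulus q t) ≡
        s + (k + (modulus q t - s % modulus q t)) [MOD modulus q t] :=
      Nat.ModEq.add_left _ (Nat.mod_modEq _ _)
    refine h2.trans ?_
    have h3 : s + (k + (modulus q t - s % modulus q t)) ≡
        s % modulus q t + (k + (modulus q t - s % modulus q t)) [MOD modulus q t] :=
      Nat.ModEq.add_right _ (Nat.mod_modEq _ _).symm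
    refine h3.trans ?_
    have h4 : s % modulus q t + (k + (modulus q t - s % modulus q t)) = k + modulus q t := by
      omega
    rw [h4]
    simp [Nat.ModEq]
  have hres : ∀ i, o ≡ a i [MOD m i] := fun i =>
    (hok.of_dvd (hdM i)).trans (hk i (Finset.mem_univ i))
  have hoT : o ≤ T := by omega
  refine ⟨o, T - o, by omega, hso, hoM, ?_, ?_, ?_⟩
  · have := hres none
    exact (Nat.modEq_zero_iff_dvd).1 this
  all_goals
    have hz : ∀ j : ι × Bool, ¬ (j.1 = c ↔ j.2 = true) → q j ∣ o := by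
      intro j hj
      have := hres (some j)
      simp only [a, m, Option.elim, if_neg hj] at this
      exact (Nat.modEq_zero_iff_dvd).1 this
    have hTT : ∀ j : ι × Bool, (j.1 = c ↔ j.2 = true) → q j ∣ T - o := by
      intro j hj
      have := hres (some j)
      simp only [a, m, Option.elim, if_pos hj] at this
      exact (Nat.modEq_iff_dvd' hoT).1 this
    have hz' : ∀ j : ι × Bool, ¬ (j.1 = c ↔ j.2 = true) → ¬ q j ∣ T - o := by
      intro j hj hd
      apply hT j
      have := dvd_add (hz j hj) hd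
      rwa [Nat.add_sub_cancel' hoT] at this
    have hTT' : ∀ j : ι × Bool, (j.1 = c ↔ j.2 = true) → ¬ q j ∣ o := by
      intro j hj hd
      apply hT j
      have := dvd_add hd (hTT j hj)
      rwa [Nat.add_sub_cancel' hoT] at this
  · refine ⟨⟨hz _ (by simp), hTT' _ (by simp)⟩, fun l hl => ⟨hTT' _ (by simp [hl]), hz _ (by simp [hl])⟩⟩
  · refine ⟨⟨hz' _ (by simp), hTT _ (by simp)⟩, fun l hl => ⟨hTT _ (by simp [hl]), hz' _ (by simp [hl])⟩⟩

end Names

/-! ## Two families of moduli: rows and columns -/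

section Moduli

variable {I : Type*} [Fintype I]

/-- infinitely many primes, as an injection above a bound -/
theorem exists_primes (K : Type*) [Finite K] (N : ℕ) :
    ∃ p : K → ℕ, Function.Injective p ∧ (∀ k, (p k).Prime) ∧ ∀ k, N < p k := by
  classical
  have := Fintype.ofFinite K
  have hinf : Set.Infinite {p : ℕ | p.Prime ∧ N < p} := by
    refine Set.infinite_of_forall_exists_gt fun n => ?_
    obtain ⟨p, hp, hpp⟩ := Nat.exists_infinite_primes (max n N + 1)
    exact ⟨p, ⟨hpp, by omega⟩, by omega⟩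
  have : Infinite {p : ℕ | p.Prime ∧ N < p} := hinf.to_subtype
  obtain ⟨f⟩ : Nonempty (K ↪ {p : ℕ | p.Prime ∧ N < p}) := by
    exact ⟨(Fintype.equivFin K).toEmbedding.trans
      (Fin.valEmbedding.trans (Infinite.natEmbedding _))⟩
  exact ⟨fun k => (f k : ℕ), fun a b h => f.injective (Subtype.ext h),
    fun k => (f k).2.1, fun k => (f k).2.2⟩

theorem exists_moduli (I : Type*) [Fintype I] (t : ℕ) (ht : 0 < t) :
    ∃ q : Bool → I → ℕ, (∀ b i, 0 < q b i) ∧
      (∀ b, Pairwise fun i j => Nat.Coprime (q b i) (q b j)) ∧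
      (∀ b i, Nat.Coprime t (q b i)) ∧
      ∀ T, 1 ≤ T → (∀ i, ¬ q false i ∣ T) ∨ (∀ i, ¬ q true i ∣ T - 1) := by
  classical
  obtain ⟨p, hinj, hp, hlt⟩ := exists_primes (I × I) t
  refine ⟨fun b i => if b then ∏ j, p (j, i) else ∏ j, p (i, j), ?_, ?_, ?_, ?_⟩
  · intro b i
    cases b
    · exact Finset.prod_pos fun j _ => (hp _).pos
    · exact Finset.prod_pos fun j _ => (hp _).pos
  · intro b i j hij
    cases b
    · simp only [Bool.false_eq_true, if_false]
      refine Nat.Coprime.prod_left fun k _ => Nat.Coprime.prod_right fun l _ => ?_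
      exact (Nat.coprime_primes (hp _) (hp _)).2 fun h => hij (Prod.ext_iff.1 (hinj h)).1
    · simp only [if_true]
      refine Nat.Coprime.prod_left fun k _ => Nat.Coprime.prod_right fun l _ => ?_
      exact (Nat.coprime_primes (hp _) (hp _)).2 fun h => hij (Prod.ext_iff.1 (hinj h)).2
  · intro b i
    have key : ∀ k, Nat.Coprime t (p k) := fun k =>
      (Nat.coprime_comm.1 ((Nat.Prime.coprime_iff_not_dvd (hp k)).2
        (Nat.not_dvd_of_pos_of_lt ht (hlt k))))
    cases b
    · exact Nat.Coprime.prod_right fun k _ => key _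
    · exact Nat.Coprime.prod_right fun k _ => key _
  · intro T hT
    by_contra hcon
    simp only [not_or, not_forall, not_not] at hcon
    obtain ⟨⟨i, hi⟩, ⟨j, hj⟩⟩ := hcon
    simp only [Bool.false_eq_true, if_false, if_true] at hi hj
    have h1 : p (i, j) ∣ T := (Finset.dvd_prod_of_mem (fun j => p (i, j)) (Finset.mem_univ j)).trans hi
    have h2 : p (i, j) ∣ T - 1 :=
      (Finset.dvd_prod_of_mem (fun k => p (k, j)) (Finset.mem_univ i)).trans hj
    have h3 : p (i, j) ∣ 1 := by
      have := (Nat.dvd_sub h1 h2)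
      rwa [show T - (T - 1) = 1 by omega] at this
    exact (hp _).one_lt.ne' (Nat.dvd_one.1 h3)

end Moduli

/-! ## The run zone -/

/-- **Run zone gadget.** -/
theorem run_zone (V : Type*) [AddCommGroup V] [Finite V] (h2 : ∀ v : V, v + v = 0)
    (t : ℕ) (ht : 0 < t) (E0 : ℕ) :
    ∃ (M : ℕ) (L R : Bool → ℕ → V → Prop) (D : Bool → ℕ → V), 0 < M ∧
      (∀ i o c, L i (o + M) c ↔ L i o c) ∧
      (∀ i o c, 1 ≤ o → (R i (o + M) c ↔ R i o c)) ∧
      (∀ i T, 1 ≤ T → D i (T + M) = D i T) ∧
      (∀ i o c c', L i o c → L i o c' → c = c') ∧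
      (∀ i o c c', R i o c → R i o c' → c = c') ∧
      (∀ i o c, L i o c → t ∣ o) ∧
      (∀ i o c, R i o c → 1 ≤ o) ∧
      (∀ i (g : AddMonoid.End V), (∀ k, E0 ≤ k → g ^ (k + t) = g ^ k) →
        ∀ o o' c c', L i o c → R i o' c' → E0 ≤ o' →
          (g ^ o') c' = (g ^ (o + o')) (c + D i (o + o'))) ∧
      (∀ T, 1 ≤ T → ∃ i, ∀ (c : V) (s : ℕ), s + M < T →
        ∃ o o', o + o' = T ∧ s ≤ o ∧ o < s + M ∧ L i o c ∧ R i o' c) := by
  classical
  have := Fintype.ofFinite V
  obtain ⟨q, hq, hco, hct, hrc⟩ := exists_moduli (V × Bool) t ht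
  -- common modulus
  let M : ℕ := modulus (q false) t * modulus (q true) t
  have hm : ∀ b, 0 < modulus (q b) t := fun b =>
    Nat.mul_pos ht (Finset.prod_pos fun i _ => hq b i)
  have hM : 0 < M := Nat.mul_pos (hm _) (hm _)
  have hmM : ∀ b, modulus (q b) t ∣ M := by
    intro b; cases b
    · exact Dvd.intro _ rfl
    · exact Dvd.intro_left _ rfl
  have htM : t ∣ M := (Dvd.intro _ rfl : t ∣ modulus (q false) t).trans (hmM false)
  have hqM : ∀ b i, q b i ∣ M := fun b i =>
    (Dvd.dvd.mul_left (Finset.dvd_prod_of_mem (q b) (Finset.mem_univ i)) t).trans (hmM b)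
  have dM : ∀ {a x : ℕ}, a ∣ M → (a ∣ x + M ↔ a ∣ x) := fun {a x} h => Nat.dvd_add_left h
  -- shift of the right clock
  let sh : Bool → ℕ := fun b => if b then 1 else 0
  have sh1 : ∀ b, sh b ≤ 1 := by intro b; cases b <;> simp [sh]
  let L : Bool → ℕ → V → Prop := fun b o c => t ∣ o ∧ LN (q b) o c
  let R : Bool → ℕ → V → Prop := fun b o c => 1 ≤ o ∧ RN (q b) (o - sh b) c
  let D : Bool → ℕ → V := fun b T => ∑ d ∈ Finset.univ.filter (fun d => d ∈ Bad (q b) (T - sh b)), d
  refine ⟨M, L, R, D, hM, ?_, ?_, ?_, ?_, ?_, ?_, ?_, ?_, ?_⟩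
  · intro i o c
    simp only [L, LN, dM htM, dM (hqM i _)]
  · intro i o c ho
    have e : o + M - sh i = (o - sh i) + M := by have := sh1 i; omega
    simp only [R, RN, e, dM (hqM i _)]
    constructor
    · rintro ⟨-, h⟩; exact ⟨ho, h⟩
    · rintro ⟨-, h⟩; exact ⟨by omega, h⟩
  · intro i T hT
    have e : T + M - sh i = (T - sh i) + M := by have := sh1 i; omega
    simp only [D, Bad, Set.mem_setOf_eq, e, dM (hqM i _)]
  · intro i o c c' h h'; exact h.2.unique h'.2
  · intro i o c c' h h'; exact h.2.unique h'.2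
  · intro i o c h; exact h.1
  · intro i o c h; exact h.1
  · rintro i g hg o o' c c' ⟨hto, hL⟩ ⟨ho', hR⟩ hE
    have hpow : ∀ n, g ^ (o' + n * t) = g ^ o' := by
      intro n
      induction n with
      | zero => simp
      | succ n ih =>
        have : o' + (n + 1) * t = (o' + n * t) + t := by ring
        rw [this, hg _ (hE.trans (Nat.le_add_right _ _)), ih]
    obtain ⟨n, rfl⟩ := hto
    have hgo : g ^ (t * n + o') = g ^ o' := by
      rw [show t * n + o' = o' + n * t by ring]; exact hpow n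
    rw [hgo]
    have e : t * n + o' - sh i = t * n + (o' - sh i) := by have := sh1 i; omega
    congr 1
    by_cases hcc : c = c'
    · subst hcc
      have hB := bad_eq hL hR
      simp [D, e, hB]
    · have hB := bad_ne hL hR hcc
      have hf : (Finset.univ.filter fun d => d ∈ Bad (q i) (t * n + o' - sh i)) = {c, c'} := by
        ext d
        rw [Finset.mem_filter, e, hB]
        simp
      change c' = c + ∑ d ∈ Finset.univ.filter (fun d => d ∈ Bad (q i) (t * n + o' - sh i)), d
      rw [hf, Finset.sum_pair hcc, ← add_assoc, h2, zero_add]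
  · intro T hT
    have hall : ∃ i, ∀ j, ¬ q i j ∣ T - sh i := by
      rcases hrc T hT with h | h
      · exact ⟨false, by simpa [sh] using h⟩
      · exact ⟨true, by simpa [sh] using h⟩
    obtain ⟨i, hi⟩ := hall
    refine ⟨i, fun c s hs => ?_⟩
    have hle : modulus (q i) t ≤ M := Nat.le_of_dvd hM (hmM i)
    have hs1 := sh1 i
    obtain ⟨o, o', hoo, hso, hoM, hto, hLN, hRN⟩ := complete (q i) t ht (hq i) (hco i) (hct i)
      (T - sh i) hi c s (by omega)
    refine ⟨o, o' + sh i, by omega, hso, by omega, ⟨hto, hLN⟩, ?_, ?_⟩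
    · omega
    · rwa [Nat.add_sub_cancel]

end Crest.Agent.R320.RunZone_81
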