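import Crest.Agent.R320.Hk1_851

/-!
# Row 320, runs: factors of powers of one word, words of a given period (helper207)

Over 851's calculus `HL k L`.
* `pw x n` : the `n`-th power of the word `x`;
* `HL.pows` : `{pw x n | n ∈ N}` is in `HL 1` for every ultimately periodic set `N`;
* `HL.runs` : factors of powers of `x` with a given value in a finite monoid are in `HL 1`;
* `HasPer p w`, `HL.per` : words of period `p` with a given value are in `HL 1`;
* `RF b E`, `HL.rf` : words without a factor of length `E` and period `≤ b` are in `HL 0`.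
-/

set_option autoImplicit false

namespace Crest.Agent.R320.Run_207

open Crest.RegLang Crest.Agent.R320.Hk_851

universe u

variable {α : Type u} {k : ℕ}

/-- powers of a word -/
def pw (x : List α) (n : ℕ) : List α := (List.replicate n x).flatten

theorem pw_zero (x : List α) : pw x 0 = [] := rfl

theorem pw_succ (x : List α) (n : ℕ) : pw x (n + 1) = x ++ pw x n := by
  simp [pw, List.replicate_succ]

theorem pw_one (x : List α) : pw x 1 = x := by rw [pw_succ, pw_zero, List.append_nil]

theorem pw_add (x : List α) (m n : ℕ) : pw x (m + n) = pw x m ++ pw x n := by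
  induction m with
  | zero => simp [pw_zero]
  | succ m ih => rw [Nat.succ_add, pw_succ, pw_succ, ih, List.append_assoc]

theorem pw_mul (x : List α) (m n : ℕ) : pw x (m * n) = pw (pw x m) n := by
  induction n with
  | zero => rfl
  | succ n ih => rw [Nat.mul_succ, Nat.add_comm, pw_add, ih, pw_succ]

theorem length_pw (x : List α) (n : ℕ) : (pw x n).length = n * x.length := by
  induction n with
  | zero => simp [pw_zero]
  | succ n ih => rw [pw_succ, List.length_append, ih]; ring

theorem star_word (x : List α) :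
    (KStar.kstar ({x} : Language α)) = ({w | ∃ n, w = pw x n} : Language α) := by
  ext w
  rw [Language.mem_kstar]
  constructor
  · rintro ⟨L, rfl, hL⟩
    refine ⟨L.length, ?_⟩
    have : L = List.replicate L.length x := List.eq_replicate_of_mem fun y hy => hL y hy
    unfold pw
    rw [← this]
  · rintro ⟨n, rfl⟩
    exact ⟨List.replicate n x, rfl, fun y hy => List.eq_of_mem_replicate hy⟩

theorem HL.progr (x : List α) (r q : ℕ) : HL 1 {w | ∃ n, w = pw x (r + q * n)} := by
  have h1 : HL 1 (KStar.kstar ({pw x q} : Language α)) := (HL.word (k := 0) (pw x q)).star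
  have h2 := (HL.word (k := 1) (pw x r)).mul h1
  refine h2.congr fun w => ?_
  rw [Language.mem_mul]
  constructor
  · rintro ⟨n, rfl⟩
    refine ⟨_, rfl, pw (pw x q) n, ?_, by rw [pw_add, pw_mul]⟩
    rw [star_word]
    exact ⟨n, rfl⟩
  · rintro ⟨a, ha, b, hb, rfl⟩
    rw [star_word] at hb
    obtain ⟨n, rfl⟩ := hb
    rw [Set.mem_singleton_iff.1 ha]
    exact ⟨n, by rw [pw_add, pw_mul]⟩

/-- powers with exponents in an ultimately periodic set -/
theorem HL.pows (x : List α) (N : Set ℕ) (n0 q : ℕ) (hq : 0 < q)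
    (hN : ∀ n, n0 ≤ n → (n + q ∈ N ↔ n ∈ N)) : HL 1 {w | ∃ n ∈ N, w = pw x n} := by
  classical
  have hN' : ∀ n, n0 ≤ n → ∀ j, (n + q * j ∈ N ↔ n ∈ N) := by
    intro n hn j
    induction j with
    | zero => simp
    | succ j ih =>
      rw [← ih, show n + q * (j + 1) = (n + q * j) + q by ring]
      exact hN _ (le_trans hn (Nat.le_add_right _ _))
  have h1 : HL 1 ({w | ∃ n ∈ {n | n < n0 ∧ n ∈ N}, w ∈ ({pw x n} : Language α)} : Language α) :=
    HL.biUnion ((Set.finite_lt_nat n0).subset fun n hn => hn.1) fun n _ => HL.word _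
  have h2 : HL 1 ({w | ∃ r ∈ {r | r < n0 + q ∧ n0 ≤ r ∧ r ∈ N},
      w ∈ ({w | ∃ n, w = pw x (r + q * n)} : Language α)} : Language α) :=
    HL.biUnion ((Set.finite_lt_nat (n0 + q)).subset fun n hn => hn.1) fun n _ => HL.progr x n q
  refine (h1.sup h2).congr fun w => ?_
  constructor
  swap
  · rintro (⟨n, hn, hw⟩ | ⟨r, hr, n, hw⟩)
    · exact ⟨n, hn.2, Set.mem_singleton_iff.1 hw⟩
    · exact ⟨r + q * n, (hN' r hr.2.1 n).2 hr.2.2, hw⟩
  · rintro ⟨n, hn, rfl⟩
    rcases lt_or_ge n n0 with h | h
    · exact Or.inl ⟨n, ⟨h, hn⟩, rfl⟩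
    · right
      obtain ⟨d, rfl⟩ := Nat.exists_eq_add_of_le h
      have hd : n0 + d = (n0 + d % q) + q * (d / q) := by
        have := Nat.mod_add_div d q
        omega
      rw [hd] at hn ⊢
      refine ⟨n0 + d % q, ⟨?_, Nat.le_add_right _ _, ?_⟩, d / q, rfl⟩
      · have := Nat.mod_lt d hq
        omega
      · exact (hN' _ (Nat.le_add_right _ _) _).1 hn

/-! ### finite monoids -/

variable {M : Type*} [Monoid M] [Finite M]

omit [Finite M] in
theorem val_pw (φ : α → M) (x : List α) (n : ℕ) :
    ((pw x n).map φ).prod = (x.map φ).prod ^ n := by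
  induction n with
  | zero => simp [pw_zero]
  | succ n ih => rw [pw_succ, List.map_append, List.prod_append, ih, pow_succ']

theorem exists_index_period (a : M) : ∃ n0 q, 0 < q ∧ ∀ n, n0 ≤ n → a ^ (n + q) = a ^ n := by
  obtain ⟨i, j, hij, h⟩ := Finite.exists_ne_map_eq_of_infinite (fun n : ℕ => a ^ n)
  wlog hlt : i < j generalizing i j
  · exact this j i hij.symm h.symm (lt_of_le_of_ne (not_lt.1 hlt) hij.symm)
  refine ⟨i, j - i, Nat.sub_pos_of_lt hlt, fun n hn => ?_⟩
  obtain ⟨d, rfl⟩ := Nat.exists_eq_add_of_le hn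
  have e : i + d + (j - i) = j + d := by omega
  rw [e, pow_add, pow_add]
  exact congrArg (· * a ^ d) h.symm

/-- powers of `x` with a given value between `a` and `b` -/
def PowV (φ : α → M) (x : List α) (a b s : M) : Language α :=
  {w | ∃ n, a * (x.map φ).prod ^ n * b = s ∧ w = pw x n}

theorem HL.pows_val (φ : α → M) (x : List α) (a b s : M) : HL 1 (PowV φ x a b s) := by
  obtain ⟨n0, q, hq, h⟩ := exists_index_period (x.map φ).prod
  refine (HL.pows x {n | a * (x.map φ).prod ^ n * b = s} n0 q hq fun n hn => ?_).congr fun w => ?_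
  · show a * _ * b = s ↔ a * _ * b = s
    rw [h n hn]
  · rfl

theorem prefix_pw {x v : List α} : ∀ {n : ℕ}, v <+: pw x n → ∃ m v', v' <+: x ∧ v = pw x m ++ v'
  | 0, h => ⟨0, [], List.nil_prefix, by
      rw [pw_zero] at h
      simp [List.prefix_nil.1 h, pw_zero]⟩
  | n + 1, h => by
      rw [pw_succ] at h
      rcases le_total v.length x.length with hl | hl
      · exact ⟨0, v, (List.isPrefix_append_of_length hl).1 h, by simp [pw_zero]⟩
      · have hx : x <+: v := List.prefix_of_prefix_length_le (List.prefix_append _ _) h hl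
        obtain ⟨v1, rfl⟩ := hx
        rw [List.prefix_append_right_inj] at h
        obtain ⟨m, v', hv', rfl⟩ := prefix_pw h
        exact ⟨m + 1, v', hv', by rw [pw_succ, List.append_assoc]⟩

theorem infix_pw {x w : List α} : ∀ {n : ℕ}, w <:+: pw x n →
    w <:+: x ∨ ∃ u v m, u <:+ x ∧ v <+: x ∧ w = u ++ pw x m ++ v
  | 0, h => Or.inr ⟨[], [], 0, List.nil_suffix, List.nil_prefix, by
      rw [pw_zero] at h
      simp [List.infix_nil.1 h, pw_zero]⟩
  | n + 1, h => by
      rw [pw_succ, List.infix_append_iff] at h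
      rcases h with h | h | ⟨l1, l2, rfl, h1, h2⟩
      · exact Or.inl h
      · exact infix_pw h
      · obtain ⟨m, v', hv', rfl⟩ := prefix_pw h2
        exact Or.inr ⟨l1, v', m, h1, hv', by rw [List.append_assoc]⟩

theorem infix_pw_iff {x w : List α} : (∃ n, w <:+: pw x n) ↔
    (w <:+: x ∨ ∃ u v m, u <:+ x ∧ v <+: x ∧ w = u ++ pw x m ++ v) := by
  constructor
  · rintro ⟨n, h⟩; exact infix_pw h
  · rintro (h | ⟨u, v, m, ⟨u', hu⟩, ⟨v', hv⟩, rfl⟩)
    · exact ⟨1, by rwa [pw_one]⟩
    · refine ⟨1 + m + 1, u', v', ?_⟩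
      have e : u' ++ (u ++ pw x m ++ v) ++ v' = (u' ++ u) ++ pw x m ++ (v ++ v') := by
        simp only [List.append_assoc]
      rw [e, hu, hv, pw_add, pw_add, pw_one]

theorem finite_infix (x : List α) : {u : List α | u <:+: x}.Finite := by
  classical
  have h : {u : List α | u <:+: x} ⊆ ((x.tails.map List.inits).flatten.toFinset : Set (List α)) := by
    rintro u ⟨a, b, hab⟩
    simp only [List.coe_toFinset, Set.mem_ofPred_eq, List.mem_flatten, List.mem_map, List.mem_tails]
    exact ⟨(u ++ b).inits, ⟨u ++ b, ⟨a, by rw [← hab, List.append_assoc]⟩, rfl⟩,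
      (List.mem_inits _ _).2 (List.prefix_append _ _)⟩
  exact (Finset.finite_toSet _).subset h

/-- factors of powers of `x` with a given value -/
theorem HL.runs (φ : α → M) (x : List α) (s : M) :
    HL 1 {w | (∃ n, w <:+: pw x n) ∧ (w.map φ).prod = s} := by
  have h1 : HL 1 ({w | w <:+: x ∧ (w.map φ).prod = s} : Language α) :=
    HL.finite ((finite_infix x).subset fun w hw => hw.1)
  have h2 : HL 1 ({w | ∃ u ∈ {u | u <:+ x}, w ∈ ({w | ∃ v ∈ {v | v <+: x},
      w ∈ ((({u} : Language α) * PowV φ x (u.map φ).prod (v.map φ).prod s) *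
        ({v} : Language α))} : Language α)} : Language α) := by
    refine HL.biUnion ((finite_infix x).subset fun u hu => hu.isInfix) fun u _ => ?_
    refine HL.biUnion ((finite_infix x).subset fun u hu => hu.isInfix) fun v _ => ?_
    exact ((HL.word u).mul (HL.pows_val φ x _ _ s)).mul (HL.word v)
  refine (h1.sup h2).congr fun w => ?_
  change ((∃ n, w <:+: pw x n) ∧ (w.map φ).prod = s) ↔ _
  rw [infix_pw_iff]
  constructor
  swap
  · rintro (⟨hw, hs⟩ | ⟨u, hu, v, hv, hw⟩)
    · exact ⟨Or.inl hw, hs⟩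
    · obtain ⟨y, hy, z, hz, rfl⟩ := Language.mem_mul.1 hw
      obtain ⟨y1, hy1, y2, ⟨n, hn, rfl⟩, rfl⟩ := Language.mem_mul.1 hy
      rw [Set.mem_singleton_iff.1 hy1, Set.mem_singleton_iff.1 hz]
      refine ⟨Or.inr ⟨u, v, n, hu, hv, rfl⟩, ?_⟩
      rw [List.map_append, List.map_append, List.prod_append, List.prod_append, val_pw]
      exact hn
  · rintro ⟨hw | ⟨u, v, n, hu, hv, rfl⟩, hs⟩
    · exact Or.inl ⟨hw, hs⟩
    · refine Or.inr ⟨u, hu, v, hv, Language.mem_mul.2 ⟨u ++ pw x n, Language.mem_mul.2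
        ⟨u, rfl, pw x n, ⟨n, ?_, rfl⟩, rfl⟩, v, rfl, rfl⟩⟩
      rw [List.map_append, List.map_append, List.prod_append, List.prod_append, val_pw] at hs
      exact hs

/-! ### periods -/

/-- `w` has period `p` -/
def HasPer (p : ℕ) (w : List α) : Prop := ∀ i, i + p < w.length → w[i]? = w[i + p]?

theorem HasPer.prefix {p : ℕ} {v w : List α} (h : HasPer p w) (hv : v <+: w) : HasPer p v := by
  obtain ⟨t, rfl⟩ := hv
  intro i hi
  have := h i (by rw [List.length_append]; omega)
  rwa [List.getElem?_append_left (by omega), List.getElem?_append_left hi] at this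

theorem HasPer.suffix {p : ℕ} {v w : List α} (h : HasPer p w) (hv : v <:+ w) : HasPer p v := by
  obtain ⟨t, rfl⟩ := hv
  intro i hi
  have := h (t.length + i) (by rw [List.length_append]; omega)
  rwa [List.getElem?_append_right (by omega), List.getElem?_append_right (by omega),
    show t.length + i - t.length = i by omega, show t.length + i + p - t.length = i + p by omega]
    at this

theorem HasPer.infix {p : ℕ} {v w : List α} (h : HasPer p w) (hv : v <:+: w) : HasPer p v := by
  obtain ⟨a, b, rfl⟩ := hv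
  exact (h.prefix (List.prefix_append (a ++ v) b)).suffix (List.suffix_append a v)

theorem HasPer.drop_prefix {p : ℕ} {w : List α} (h : HasPer p w) : w.drop p <+: w := by
  rw [List.prefix_iff_getElem?]
  intro i hi
  rw [List.length_drop] at hi
  rw [h i (by omega), List.getElem_drop, List.getElem?_eq_getElem (by omega)]
  congr 2
  omega

theorem HasPer.prefix_pw {p : ℕ} {w : List α} (h : HasPer p w) (n : ℕ) :
    w <+: pw (w.take p) n ++ w := by
  induction n with
  | zero => simp [pw_zero]
  | succ n ih =>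
    rw [pw_succ, List.append_assoc]
    have h1 : w.drop p <+: pw (w.take p) n ++ w := h.drop_prefix.trans ih
    nth_rw 1 [← List.take_append_drop p w]
    exact (List.prefix_append_right_inj _).2 h1

theorem HasPer.exists_pw {p : ℕ} {w : List α} (h : HasPer p w) (hp : 0 < p) (hl : p ≤ w.length) :
    ∃ n, w <+: pw (w.take p) n := by
  refine ⟨w.length, ?_⟩
  have h1 := h.prefix_pw w.length
  refine (List.isPrefix_append_of_length ?_).1 h1
  rw [length_pw, List.length_take, min_eq_left hl]
  exact Nat.le_mul_of_pos_right _ hp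

theorem hasPer_pw (x : List α) (n : ℕ) : HasPer x.length (pw x n) := by
  intro i hi
  cases n with
  | zero => simp [pw_zero] at hi
  | succ n =>
    have h1 : (pw x (n + 1))[i + x.length]? = (pw x n)[i]? := by
      rw [pw_succ, List.getElem?_append_right (by omega), Nat.add_sub_cancel]
    have h2 : pw x (n + 1) = pw x n ++ x := by rw [pw_add, pw_one]
    rw [h1, h2, List.getElem?_append_left]
    rw [length_pw] at hi ⊢
    have : (n + 1) * x.length = n * x.length + x.length := by ring
    omega

/-- long words of period `p` are the factors of powers of the words of length `p` -/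
theorem hasPer_iff {p : ℕ} (hp : 0 < p) {w : List α} : HasPer p w ↔
    w.length < p ∨ ∃ x : List α, x.length = p ∧ ∃ n, w <:+: pw x n := by
  constructor
  · intro h
    rcases lt_or_ge w.length p with hl | hl
    · exact Or.inl hl
    · obtain ⟨n, hn⟩ := h.exists_pw hp hl
      exact Or.inr ⟨w.take p, by rw [List.length_take, min_eq_left hl], n, hn.isInfix⟩
  · rintro (h | ⟨x, rfl, n, hn⟩)
    · intro i hi; omega
    · exact (hasPer_pw x n).infix hn

/-- words of period `p` with a given value -/
theorem HL.per [Finite α] (φ : α → M) {p : ℕ} (hp : 0 < p) (s : M) :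
    HL 1 {w | HasPer p w ∧ (w.map φ).prod = s} := by
  have h1 : HL 1 ({w | w.length < p ∧ (w.map φ).prod = s} : Language α) :=
    HL.finite ((List.finite_length_lt α p).subset fun w hw => hw.1)
  have h2 : HL 1 ({w | ∃ x ∈ {x : List α | x.length = p},
      w ∈ ({w | (∃ n, w <:+: pw x n) ∧ (w.map φ).prod = s} : Language α)} : Language α) :=
    HL.biUnion (List.finite_length_eq α p) fun x _ => HL.runs φ x s
  refine (h1.sup h2).congr fun w => ?_
  change (HasPer p w ∧ (w.map φ).prod = s) ↔ _
  rw [hasPer_iff hp]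
  constructor
  swap
  · rintro (⟨hw, hs⟩ | ⟨x, hx, hw, hs⟩)
    · exact ⟨Or.inl hw, hs⟩
    · exact ⟨Or.inr ⟨x, hx, hw⟩, hs⟩
  · rintro ⟨hw | ⟨x, hx, hw⟩, hs⟩
    · exact Or.inl ⟨hw, hs⟩
    · exact Or.inr ⟨x, hx, hw, hs⟩

/-- words with some period `≤ b`, with a given value -/
theorem HL.perLe [Finite α] (φ : α → M) (b : ℕ) (s : M) :
    HL 1 {w | (∃ p, 0 < p ∧ p ≤ b ∧ HasPer p w) ∧ (w.map φ).prod = s} := by
  have h : HL 1 ({w | ∃ p ∈ {p | 0 < p ∧ p ≤ b},
      w ∈ ({w | HasPer p w ∧ (w.map φ).prod = s} : Language α)} : Language α) :=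
    HL.biUnion ((Set.finite_le_nat b).subset fun p hp => hp.2) fun p hp => HL.per φ hp.1 s
  refine h.congr fun w => ?_
  constructor
  swap
  · rintro ⟨p, hp, h1, h2⟩; exact ⟨⟨p, hp.1, hp.2, h1⟩, h2⟩
  · rintro ⟨⟨p, hp1, hp2, h1⟩, h2⟩; exact ⟨p, ⟨hp1, hp2⟩, h1, h2⟩

/-- no factor of length `≥ E` has a period `≤ b` -/
def RF (b E : ℕ) (w : List α) : Prop :=
  ∀ v, v <:+: w → ∀ p, 0 < p → p ≤ b → HasPer p v → v.length < E

theorem rf_iff {b E : ℕ} {w : List α} : RF b E w ↔
    ∀ v, v <:+: w → v.length = E → ∀ p, 0 < p → p ≤ b → ¬ HasPer p v := by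
  constructor
  · intro h v hv hl p hp hb hper
    exact absurd (h v hv p hp hb hper) (by omega)
  · intro h v hv p hp hb hper
    by_contra hl
    have hpre : v.take E <+: v := List.take_prefix _ _
    exact h (v.take E) (hpre.isInfix.trans hv) (by rw [List.length_take]; omega) p hp hb
      (hper.prefix hpre)

theorem HL.rf [Finite α] (b E : ℕ) : HL k {w : List α | RF b E w} :=
  (HL.local (k := k) E fun v : List α => ∀ p, 0 < p → p ≤ b → ¬ HasPer p v).congr fun _ =>
    rf_iff

theorem RF.infix {b E : ℕ} {v w : List α} (h : RF b E w) (hv : v <:+: w) : RF b E v :=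
  fun u hu => h u (hu.trans hv)

/-- in terms of powers: a run-free word contains no `e`-th power of a nonempty word of length `≤ b` -/
theorem RF.no_pow {b E e : ℕ} {w x : List α} (h : RF b E w) (hx : x ≠ []) (hb : x.length ≤ b)
    (hE : E ≤ e * x.length) : ¬ pw x e <:+: w := fun hw => by
  have h1 := h _ hw x.length (List.length_pos_iff.2 hx) hb (hasPer_pw x e)
  rw [length_pw] at h1
  omega

theorem rf_of_no_pow {b E e : ℕ} {w : List α} (hE : (e + 1) * b ≤ E)
    (h : ∀ x : List α, x ≠ [] → x.length ≤ b → ¬ pw x e <:+: w) : RF b E w := by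
  rw [rf_iff]
  intro v hv hl p hp hb hper
  have hpl : p ≤ v.length := by
    have : 1 * b ≤ (e + 1) * b := Nat.mul_le_mul_right _ (by omega)
    omega
  obtain ⟨n, hn⟩ := hper.exists_pw hp hpl
  have hx : (v.take p).length = p := by rw [List.length_take, min_eq_left hpl]
  refine h (v.take p) (fun h0 => by rw [h0] at hx; simp at hx; omega) (by rw [hx]; exact hb) ?_
  refine List.IsInfix.trans ?_ hv
  refine List.IsPrefix.isInfix ?_
  have hvn := hn.length_le
  rw [length_pw, hx, hl] at hvn
  have hen : e ≤ n := by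
    by_contra hc
    have h2 : n * p ≤ e * b := Nat.mul_le_mul (by omega) hb
    have h3 : (e + 1) * b = e * b + b := by ring
    omega
  have h1 : pw (v.take p) e <+: pw (v.take p) n := by
    obtain ⟨d, rfl⟩ := Nat.exists_eq_add_of_le hen
    rw [pw_add]
    exact List.prefix_append _ _
  refine List.prefix_of_prefix_length_le h1 hn ?_
  rw [length_pw, hx, hl]
  have h2 : e * p ≤ e * b := Nat.mul_le_mul_left _ hb
  have h3 : (e + 1) * b = e * b + b := by ring
  omega

end Crest.Agent.R320.Run_207
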