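import Crest.Agent.R320.Nest_85

set_option autoImplicit false

/-! Row 320 (helper548): residual-word run along a chain rule. -/

namespace Crest.Agent.R320.Run_548

open Crest.Agent.R320.Nest_85

variable {α V : Type}

/-- a right-looking chain rule: distance of the next anchor -/
structure Nxt (α : Type) where
  nx : List α → Option ℕ
  n : ℕ
  pos : ∀ Q t, nx Q = some t → 0 < t
  len : ∀ Q t, nx Q = some t → t + n ≤ Q.length
  ext : ∀ Q y t, nx Q = some t → nx (Q ++ y) = some t

variable (C : Nxt α) (A : V → List α → V)

noncomputable def F (Q : List α) (v : V) : List α × V :=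
  match h : C.nx Q with
  | none => (Q, v)
  | some t => F (Q.drop t) (A v (Q.take t))
termination_by Q.length
decreasing_by
  have h1 := C.pos _ _ h
  have h2 := C.len _ _ h
  rw [List.length_drop]; omega

theorem F_none {Q : List α} {v : V} (h : C.nx Q = none) : F C A Q v = (Q, v) := by
  rw [F]
  split
  · rfl
  · rename_i t ht
    rw [h] at ht; cases ht

theorem F_some {Q : List α} {v : V} {t : ℕ} (h : C.nx Q = some t) :
    F C A Q v = F C A (Q.drop t) (A v (Q.take t)) := by
  rw [F]
  split
  · rename_i ht
    rw [h] at ht; cases ht
  · rename_i t' ht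
    rw [h] at ht; cases ht; rfl

theorem F_fst (Q : List α) (v : V) : C.nx (F C A Q v).1 = none ∧ (F C A Q v).1 <:+ Q := by
  induction hk : Q.length using Nat.strong_induction_on generalizing Q v with
  | _ k ih =>
    rcases h : C.nx Q with _ | t
    · rw [F_none C A h]; exact ⟨h, List.suffix_refl _⟩
    · rw [F_some C A h]
      have h1 := C.pos _ _ h
      have h2 := C.len _ _ h
      obtain ⟨h3, h4⟩ := ih (Q.drop t).length (by rw [List.length_drop]; omega) (Q.drop t)
        (A v (Q.take t)) rfl
      exact ⟨h3, h4.trans (List.drop_suffix _ _)⟩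

theorem F_append (Q y : List α) (v : V) :
    F C A (Q ++ y) v = F C A ((F C A Q v).1 ++ y) (F C A Q v).2 := by
  induction hk : Q.length using Nat.strong_induction_on generalizing Q v with
  | _ k ih =>
    rcases h : C.nx Q with _ | t
    · rw [F_none C A h]
    · have h1 := C.pos _ _ h
      have h2 := C.len _ _ h
      rw [F_some C A h, F_some C A (C.ext _ y _ h), List.drop_append_of_le_length (by omega),
        List.take_append_of_le_length (by omega)]
      exact ih (Q.drop t).length (by rw [List.length_drop]; omega) (Q.drop t)
        (A v (Q.take t)) rfl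

/-- the letterwise step -/
noncomputable def step (q : List α × V) (c : α) : List α × V := F C A (q.1 ++ [c]) q.2

theorem run_eq (w : List α) (q : List α × V) (h : C.nx q.1 = none) :
    run (step C A) q w = F C A (q.1 ++ w) q.2 := by
  induction w generalizing q with
  | nil =>
    rw [List.append_nil, F_none C A h]; rfl
  | cons c w ih =>
    have e : run (step C A) q (c :: w) = run (step C A) (step C A q c) w := rfl
    rw [e, ih (step C A q c) (F_fst C A _ _).1]
    have e2 : q.1 ++ c :: w = (q.1 ++ [c]) ++ w := by simp
    rw [e2, F_append C A (q.1 ++ [c]) w q.2]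
    rfl

theorem run_nx (w : List α) (q : List α × V) (h : C.nx q.1 = none) :
    C.nx (run (step C A) q w).1 = none := by
  rw [run_eq C A w q h]; exact (F_fst C A _ _).1

end Crest.Agent.R320.Run_548
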