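import Crest.Agent.R320.Hk1_851

/-!
# Row 320, item (10): run languages (helper626)

`rep x n` = the word `x^n`.  Powers of a fixed word with an eventually periodic set of exponents,
with a prescribed value in a finite monoid and a prescribed length mod `e`, have generalized star
height at most one; the same for all factors of the powers of `x`; "there is a factor `x^E` with
`|x| ≤ b`" is star-free.
-/

set_option autoImplicit false

namespace Crest.Agent.R320.Run_626

open Crest.Agent.R320.Hk_851

universe u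

variable {α : Type u}

/-- the word `x^n` -/
def rep (x : List α) (n : ℕ) : List α := (List.replicate n x).flatten

theorem rep_zero (x : List α) : rep x 0 = [] := rfl

theorem rep_succ (x : List α) (n : ℕ) : rep x (n + 1) = x ++ rep x n := by
  simp [rep, List.replicate_succ]

theorem rep_add (x : List α) (m n : ℕ) : rep x (m + n) = rep x m ++ rep x n := by
  induction m with
  | zero => simp [rep_zero]
  | succ m ih => rw [Nat.succ_add, rep_succ, ih, rep_succ, List.append_assoc]

theorem rep_succ' (x : List α) (n : ℕ) : rep x (n + 1) = rep x n ++ x := by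
  rw [rep_add, rep_succ x 0, rep_zero, List.append_nil]

theorem rep_mul (x : List α) (p n : ℕ) : rep (rep x p) n = rep x (p * n) := by
  induction n with
  | zero => simp [rep_zero]
  | succ n ih => rw [rep_succ, ih, Nat.mul_succ, Nat.add_comm, rep_add]

theorem length_rep (x : List α) (n : ℕ) : (rep x n).length = n * x.length := by
  induction n with
  | zero => simp [rep_zero]
  | succ n ih => rw [rep_succ, List.length_append, ih]; ring

theorem map_prod_rep {S : Type*} [Monoid S] (φ : α → S) (x : List α) (n : ℕ) :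
    ((rep x n).map φ).prod = ((x.map φ).prod) ^ n := by
  induction n with
  | zero => simp [rep_zero]
  | succ n ih => rw [rep_succ, List.map_append, List.prod_append, ih, pow_succ']

/-- eventually periodic sets of exponents -/
def EvPer (N : Set ℕ) : Prop := ∃ i p : ℕ, 0 < p ∧ ∀ n, i ≤ n → (n + p ∈ N ↔ n ∈ N)

theorem EvPer.mul {N : Set ℕ} {i p : ℕ} (h : ∀ n, i ≤ n → (n + p ∈ N ↔ n ∈ N)) (k : ℕ) :
    ∀ n, i ≤ n → (n + p * k ∈ N ↔ n ∈ N) := by
  induction k with
  | zero => intro n _; simp
  | succ k ih =>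
    intro n hn
    have e : n + p * (k + 1) = (n + p * k) + p := by ring
    rw [e, h (n + p * k) (by omega)]
    exact ih n hn

theorem EvPer.inter {M N : Set ℕ} (hM : EvPer M) (hN : EvPer N) : EvPer (M ∩ N) := by
  obtain ⟨i, p, hp, h1⟩ := hM
  obtain ⟨j, q, hq, h2⟩ := hN
  refine ⟨max i j, p * q, Nat.mul_pos hp hq, fun n hn => ?_⟩
  have a := EvPer.mul h1 q n (le_trans (le_max_left _ _) hn)
  have b := EvPer.mul h2 p n (le_trans (le_max_right _ _) hn)
  rw [Nat.mul_comm q p] at b
  constructor
  · rintro ⟨x, y⟩; exact ⟨a.1 x, b.1 y⟩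
  · rintro ⟨x, y⟩; exact ⟨a.2 x, b.2 y⟩

theorem EvPer.monoid {S : Type*} [Monoid S] [Finite S] (c g d m : S) :
    EvPer {n : ℕ | c * g ^ n * d = m} := by
  obtain ⟨i, j, hij, he⟩ := Finite.exists_ne_map_eq_of_infinite (fun n : ℕ => g ^ n)
  wlog hlt : i < j generalizing i j
  · exact this j i hij.symm he.symm (lt_of_le_of_ne (not_lt.1 hlt) hij.symm)
  refine ⟨i, j - i, by omega, fun n hn => ?_⟩
  have e : g ^ (n + (j - i)) = g ^ n := by
    have e1 : n + (j - i) = j + (n - i) := by omega
    have e2 : n = i + (n - i) := by omega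
    rw [e1, pow_add]
    conv_rhs => rw [e2, pow_add]
    rw [show g ^ j = g ^ i from he.symm]
  simp only [Set.mem_ofPred_eq, e]

theorem EvPer.mod (a l e r : ℕ) (he : 0 < e) : EvPer {n : ℕ | (a + n * l) % e = r} := by
  refine ⟨0, e, he, fun n _ => ?_⟩
  have h : a + (n + e) * l = a + n * l + e * l := by ring
  simp only [Set.mem_ofPred_eq, h, Nat.add_mul_mod_self_left]

/-- the star of one word -/
theorem HL.star_word (x : List α) : HL 1 ({w | ∃ n, w = rep x n} : Language α) := by
  refine (HL.star (HL.word (k := 0) x)).congr fun w => ?_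
  constructor
  · rintro ⟨n, rfl⟩
    exact Language.mem_kstar.2 ⟨List.replicate n x, rfl, fun y hy => by
      rw [List.eq_of_mem_replicate hy]; exact rfl⟩
  · intro hw
    obtain ⟨L, rfl, hL⟩ := Language.mem_kstar.1 hw
    refine ⟨L.length, ?_⟩
    have : L = List.replicate L.length x := List.eq_replicate_iff.2 ⟨rfl, fun y hy => hL y hy⟩
    change L.flatten = (List.replicate L.length x).flatten
    rw [← this]

theorem HL.arith (x : List α) (r p : ℕ) :
    HL 1 ({w | ∃ n, w = rep x (r + p * n)} : Language α) := by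
  refine ((HL.word (k := 1) (rep x r)).mul (HL.star_word (rep x p))).congr fun w => ?_
  constructor
  · rintro ⟨n, rfl⟩
    refine Language.mem_mul.2 ⟨rep x r, rfl, rep (rep x p) n, ⟨n, rfl⟩, ?_⟩
    rw [rep_mul, rep_add]
  · intro hw
    obtain ⟨y, hy, z, ⟨n, hz⟩, rfl⟩ := Language.mem_mul.1 hw
    refine ⟨n, ?_⟩
    have hy' : y = rep x r := hy
    rw [hy', hz, rep_mul, rep_add]

/-- powers of `x` with exponents in an eventually periodic set -/
theorem HL.powers (x : List α) {N : Set ℕ} (hN : EvPer N) :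
    HL 1 ({w | ∃ n ∈ N, w = rep x n} : Language α) := by
  obtain ⟨i, p, hp, h⟩ := hN
  have h1 : HL 1 ({w | ∃ n ∈ {n | n < i ∧ n ∈ N}, w ∈ ({rep x n} : Language α)} : Language α) :=
    HL.biUnion ((Set.finite_lt_nat i).subset fun n hn => hn.1) fun n _ => HL.word _
  have h2 : HL 1 ({w | ∃ r ∈ {r | r < i + p ∧ i ≤ r ∧ r ∈ N},
      w ∈ ({w | ∃ n, w = rep x (r + p * n)} : Language α)} : Language α) :=
    HL.biUnion ((Set.finite_lt_nat (i + p)).subset fun n hn => hn.1) fun n _ => HL.arith _ _ _
  refine (h1.sup h2).congr fun w => ?_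
  constructor
  · rintro ⟨n, hn, rfl⟩
    by_cases hni : n < i
    · exact Or.inl ⟨n, ⟨hni, hn⟩, rfl⟩
    · right
      have hni' : i ≤ n := not_lt.1 hni
      have hr : i + (n - i) % p < i + p := by
        have := Nat.mod_lt (n - i) hp
        omega
      have hdecomp : n = (i + (n - i) % p) + p * ((n - i) / p) := by
        have := Nat.mod_add_div (n - i) p
        omega
      refine ⟨i + (n - i) % p, ⟨hr, Nat.le_add_right _ _, ?_⟩, (n - i) / p, ?_⟩
      · have := EvPer.mul h ((n - i) / p) (i + (n - i) % p) (Nat.le_add_right _ _)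
        rw [← hdecomp] at this
        exact this.1 hn
      · rw [← hdecomp]
  · rintro (⟨n, ⟨_, hn⟩, hw⟩ | ⟨r, ⟨_, hir, hr⟩, n, rfl⟩)
    · exact ⟨n, hn, hw⟩
    · exact ⟨r + p * n, (EvPer.mul h n r hir).2 hr, rfl⟩

/-- **run language**: words `s x^n t` with prescribed value in a finite monoid and prescribed
length mod `e`. -/
theorem HL.run {S : Type*} [Monoid S] [Finite S] (φ : α → S) (s x t : List α) (m : S)
    (e r : ℕ) (he : 0 < e) :
    HL 1 ({w | ∃ n, w = s ++ rep x n ++ t ∧ (w.map φ).prod = m ∧ w.length % e = r} :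
      Language α) := by
  have hN : EvPer ({n : ℕ | (s.map φ).prod * ((x.map φ).prod) ^ n * (t.map φ).prod = m} ∩
      {n : ℕ | ((s.length + t.length) + n * x.length) % e = r}) :=
    (EvPer.monoid _ _ _ _).inter (EvPer.mod _ _ _ _ he)
  refine (((HL.word (k := 1) s).mul (HL.powers x hN)).mul (HL.word (k := 1) t)).congr fun w => ?_
  constructor
  · rintro ⟨n, rfl, hm, hl⟩
    refine Language.mem_mul.2 ⟨s ++ rep x n, Language.mem_mul.2 ⟨s, rfl, rep x n, ⟨n, ⟨?_, ?_⟩, rfl⟩,
      rfl⟩, t, rfl, rfl⟩
    · change (s.map φ).prod * ((x.map φ).prod) ^ n * (t.map φ).prod = m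
      rw [← hm, List.map_append, List.map_append, List.prod_append, List.prod_append,
        map_prod_rep]
    · change ((s.length + t.length) + n * x.length) % e = r
      rw [← hl]
      congr 1
      rw [List.length_append, List.length_append, length_rep]; ring
  · intro hw
    obtain ⟨y, hy, z, hz, rfl⟩ := Language.mem_mul.1 hw
    obtain ⟨s', hs', y', ⟨n, ⟨h1, h2⟩, rfl⟩, rfl⟩ := Language.mem_mul.1 hy
    have e1 : s' = s := hs'
    have e2 : z = t := hz
    subst e1; subst e2
    refine ⟨n, rfl, ?_, ?_⟩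
    · have h1' : (s'.map φ).prod * ((x.map φ).prod) ^ n * (z.map φ).prod = m := h1
      simpa only [List.map_append, List.prod_append, map_prod_rep] using h1'
    · have h2' : ((s'.length + z.length) + n * x.length) % e = r := h2
      rw [← h2']
      congr 1
      rw [List.length_append, List.length_append, length_rep]; ring

/-- factors of a concatenation -/
theorem infix_append_cases {y z w : List α} (h : w <:+: y ++ z) :
    w <:+: y ∨ w <:+: z ∨ ∃ s v, s <:+ y ∧ v <+: z ∧ w = s ++ v := by
  obtain ⟨a, b, h⟩ := h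
  rw [List.append_assoc, List.append_eq_append_iff] at h
  rcases h with ⟨a', h1, h2⟩ | ⟨c, h1, h2⟩
  · rw [List.append_eq_append_iff] at h2
    rcases h2 with ⟨c, h3, h4⟩ | ⟨c, h3, h4⟩
    · exact Or.inl ⟨a, c, by rw [h1, h3, List.append_assoc]⟩
    · exact Or.inr (Or.inr ⟨a', c, ⟨a, h1.symm⟩, ⟨b, h4.symm⟩, h3⟩)
  · exact Or.inr (Or.inl ⟨c, b, by rw [h2, List.append_assoc]⟩)

/-- prefixes of a concatenation -/
theorem prefix_append_cases {y z w : List α} (h : w <+: y ++ z) :
    w <+: y ∨ ∃ v, v <+: z ∧ w = y ++ v := by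
  obtain ⟨b, h⟩ := h
  rw [List.append_eq_append_iff] at h
  rcases h with ⟨c, h1, h2⟩ | ⟨c, h1, h2⟩
  · exact Or.inl ⟨c, h1.symm⟩
  · exact Or.inr ⟨c, ⟨b, h2.symm⟩, h1⟩

theorem prefix_rep (x : List α) (n : ℕ) : ∀ v : List α, v <+: rep x n →
    ∃ k t, t <+: x ∧ v = rep x k ++ t := by
  induction n with
  | zero =>
    intro v hv
    have h0 : v = [] := by simpa [rep_zero] using hv
    exact ⟨0, [], List.nil_prefix, by rw [h0]; rfl⟩
  | succ n ih =>
    intro v hv
    rw [rep_succ] at hv
    rcases prefix_append_cases hv with h | ⟨v', h, rfl⟩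
    · exact ⟨0, v, h, by simp [rep_zero]⟩
    · obtain ⟨k, t, ht, rfl⟩ := ih v' h
      exact ⟨k + 1, t, ht, by rw [rep_succ, List.append_assoc]⟩

/-- factors of powers of `x`: normal form -/
theorem infix_rep_iff (x w : List α) :
    (∃ n, w <:+: rep x n) ↔
      w <:+: x ∨ ∃ s t n, s <:+ x ∧ t <+: x ∧ w = s ++ rep x n ++ t := by
  constructor
  · rintro ⟨n, hn⟩
    induction n with
    | zero =>
      have h0 : w = [] := by simpa [rep_zero] using hn
      exact Or.inl (by rw [h0]; exact List.nil_infix)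
    | succ n ih =>
      rw [rep_succ] at hn
      rcases infix_append_cases hn with h | h | ⟨s, v, hs, hv, rfl⟩
      · exact Or.inl h
      · exact ih h
      · obtain ⟨k, t, ht, rfl⟩ := prefix_rep x n v hv
        exact Or.inr ⟨s, t, k, hs, ht, (List.append_assoc _ _ _).symm⟩
  · rintro (h | ⟨s, t, n, ⟨a, ha⟩, ⟨b, hb⟩, rfl⟩)
    · exact ⟨1, by rw [rep_succ, rep_zero, List.append_nil]; exact h⟩
    · refine ⟨n + 2, a, b, ?_⟩
      have e : rep x (n + 2) = x ++ (rep x n ++ x) := by
        rw [← rep_succ', ← rep_succ]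
      rw [e]
      calc a ++ (s ++ rep x n ++ t) ++ b = (a ++ s) ++ (rep x n ++ (t ++ b)) := by
            simp only [List.append_assoc]
        _ = x ++ (rep x n ++ x) := by rw [ha, hb]

theorem finite_infixes (x : List α) : {w : List α | w <:+: x}.Finite :=
  (List.finite_toSet x.sublists).subset fun _ hw => List.mem_sublists.2 (List.IsInfix.sublist hw)

theorem finite_suffixes (x : List α) : {w : List α | w <:+ x}.Finite :=
  (finite_infixes x).subset fun _ hw => List.IsSuffix.isInfix hw

theorem finite_prefixes (x : List α) : {w : List α | w <+: x}.Finite :=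
  (finite_infixes x).subset fun _ hw => List.IsPrefix.isInfix hw

/-- **factors of the powers of `x`** with prescribed value in a finite monoid and prescribed
length mod `e` have generalized star height at most one. -/
theorem HL.run_infix {S : Type*} [Monoid S] [Finite S] (φ : α → S) (x : List α) (m : S)
    (e r : ℕ) (he : 0 < e) :
    HL 1 ({w | (∃ n, w <:+: rep x n) ∧ (w.map φ).prod = m ∧ w.length % e = r} :
      Language α) := by
  have h1 : HL 1 ({w : List α | w <:+: x ∧ (w.map φ).prod = m ∧ w.length % e = r} :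
      Language α) :=
    HL.finite ((finite_infixes x).subset fun w hw => hw.1)
  have h2 : HL 1 ({w | ∃ s ∈ {s : List α | s <:+ x}, w ∈ ({w | ∃ t ∈ {t : List α | t <+: x},
      w ∈ ({w | ∃ n, w = s ++ rep x n ++ t ∧ (w.map φ).prod = m ∧ w.length % e = r} :
        Language α)} : Language α)} : Language α) :=
    HL.biUnion (finite_suffixes x) fun s _ =>
      HL.biUnion (finite_prefixes x) fun t _ => HL.run φ s x t m e r he
  refine (h1.sup h2).congr fun w => ?_
  constructor
  · rintro ⟨hw, hm, hl⟩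
    rcases (infix_rep_iff x w).1 hw with h | ⟨s, t, n, hs, ht, hw'⟩
    · exact Or.inl ⟨h, hm, hl⟩
    · exact Or.inr ⟨s, hs, t, ht, n, hw', hm, hl⟩
  · rintro (⟨h, hm, hl⟩ | ⟨s, hs, t, ht, n, hw', hm, hl⟩)
    · exact ⟨(infix_rep_iff x w).2 (Or.inl h), hm, hl⟩
    · exact ⟨(infix_rep_iff x w).2 (Or.inr ⟨s, t, n, hs, ht, hw'⟩), hm, hl⟩

/-- the same, for all words `x` of length at most `b` at once (finite alphabet) -/
theorem HL.run_infix_le [Finite α] {S : Type*} [Monoid S] [Finite S] (φ : α → S) (b : ℕ) (m : S)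
    (e r : ℕ) (he : 0 < e) :
    HL 1 ({w | (∃ x : List α, x.length ≤ b ∧ ∃ n, w <:+: rep x n) ∧
      (w.map φ).prod = m ∧ w.length % e = r} : Language α) := by
  have h : HL 1 ({w | ∃ x ∈ {x : List α | x.length ≤ b}, w ∈ ({w | (∃ n, w <:+: rep x n) ∧
      (w.map φ).prod = m ∧ w.length % e = r} : Language α)} : Language α) :=
    HL.biUnion (List.finite_length_le α b) fun x _ => HL.run_infix φ x m e r he
  refine h.congr fun w => ?_
  constructor
  · rintro ⟨⟨x, hx, hn⟩, hm, hl⟩; exact ⟨x, hx, hn, hm, hl⟩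
  · rintro ⟨x, hx, hn, hm, hl⟩; exact ⟨⟨x, hx, hn⟩, hm, hl⟩

/-- words with a factor `x^E`, `x` nonempty of length at most `b`: star-free (finite alphabet) -/
theorem HL.has_power [Finite α] {k : ℕ} (b E : ℕ) :
    HL k ({w | ∃ x : List α, x ≠ [] ∧ x.length ≤ b ∧ rep x E <:+: w} : Language α) := by
  have h : HL k ({w | ∃ x ∈ {x : List α | x ≠ [] ∧ x.length ≤ b},
      w ∈ ({w | ∃ v ∈ ({rep x E} : Language α), v <:+: w} : Language α)} : Language α) :=
    HL.biUnion ((List.finite_length_le α b).subset fun x hx => hx.2) fun x _ =>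
      HL.infix (HL.word _)
  refine h.congr fun w => ?_
  constructor
  · rintro ⟨x, hx, hb, hw⟩; exact ⟨x, ⟨hx, hb⟩, rep x E, rfl, hw⟩
  · rintro ⟨x, ⟨hx, hb⟩, v, hv, hw⟩
    have e : v = rep x E := hv
    exact ⟨x, hx, hb, by rw [← e]; exact hw⟩

/-- words with no factor `x^E`, `x` nonempty of length at most `b`: star-free -/
theorem HL.no_power [Finite α] {k : ℕ} (b E : ℕ) :
    HL k ({w | ∀ x : List α, x ≠ [] → x.length ≤ b → ¬ rep x E <:+: w} : Language α) := by
  refine (HL.has_power (α := α) (k := k) b E).compl.congr fun w => ?_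
  constructor
  · rintro hw ⟨x, hx, hb, h⟩; exact hw x hx hb h
  · intro hw x hx hb h; exact hw ⟨x, hx, hb, h⟩

end Crest.Agent.R320.Run_626
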