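import Mathlib

/-!
Row 320 (helper449): the literal hypotheses (s1), (s2), (cc) of helper163's `top` (post 13363) for
the natural left-looking block code "first wall at distance at least `z`", from a total-length
gadget `lam`, `rho`, `nu1` for scheme 1 (every pair exact, complete off `BadT |u|`), an exact gadget
`lam2`, `rho2`, `nu2` at the places `c k` for scheme 2, and a bound for the number of spoiled places.
-/

set_option autoImplicit false
set_option linter.unusedSectionVars false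
set_option linter.unusedVariables false

namespace Crest.Agent.R320.S12_449

structure Dat (α S V : Type*) where
  φ : List α → S
  act : V → S → V
  Wo : List α → Prop
  n : ℕ
  z : ℕ
  p0 : ℕ
  N : ℕ
  lam : List α → Option V
  rho : List α → Option V
  nu1 : List α → V
  BadT : ℕ → Prop
  K : ℕ
  c : ℕ → ℕ
  lam2 : ℕ → List α → Option V
  rho2 : ℕ → List α → Option V
  nu2 : List α → V
  R : ℕ

variable {α S V : Type*} [Monoid S] [AddCommGroup V] (D : Dat α S V)

/-- the block code -/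
def Dat.XX : Set (List α) :=
  {X | D.z ≤ X.length ∧ D.Wo X ∧ ∀ t, D.z ≤ t → t < X.length → ¬ D.Wo (X.take t)}

/-- the zone map -/
def Dat.T (v : V) (X : List α) : V :=
  D.act (D.act v (D.φ (X.take D.p0)) + D.nu2 (X.take D.p0)) (D.φ (X.drop D.p0)) +
    D.nu1 (X.drop D.p0)

/-- the noise of a block -/
def Dat.ν (X : List α) : V :=
  D.act (D.nu2 (X.take D.p0)) (D.φ (X.drop D.p0)) + D.nu1 (X.drop D.p0)

/-- left words of scheme 1 -/
def Dat.LP1 (P : List α) (v : V) : Prop :=
  D.p0 ≤ P.length ∧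
    D.lam (P.drop D.p0) = some (D.act v (D.φ (P.take D.p0)) + D.nu2 (P.take D.p0))

/-- right-legal words of scheme 1 -/
def Dat.RL (Q : List α) : Prop :=
  D.z ≤ D.p0 + Q.length ∧ D.Wo Q ∧
    ∀ t, D.z ≤ t + D.p0 + D.N → t < Q.length → ¬ D.Wo (Q.take t)

open Classical in
/-- right reading of scheme 1 -/
noncomputable def Dat.R1 (Q : List α) : Option V := if D.RL Q then D.rho Q else none

/-- badness of a block -/
def Dat.BadX (X : List α) : Prop :=
  (∃ s ≤ X.length, D.z ≤ s + D.N ∧ s ≤ D.z + D.N ∧ D.Wo (X.take s)) ∨ D.BadT (X.length - D.p0)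

/-- the first admissible wall of the text `Q` which starts `s` letters behind its anchor -/
def Dat.FW (s : ℕ) (Q : List α) (t : ℕ) : Prop :=
  t ≤ Q.length ∧ D.z ≤ s + t ∧ D.Wo (Q.take t) ∧ ∀ t' < t, D.z ≤ s + t' → ¬ D.Wo (Q.take t')

/-- the anchor `c k` letters in front of `Q` has a bad block -/
def Dat.BadQ (k : ℕ) (Q : List α) : Prop :=
  ∃ t, D.FW (D.c k) Q t ∧
    ((∃ s ≤ t, D.z ≤ D.c k + s + D.N ∧ D.c k + s ≤ D.z + D.N ∧ D.Wo (Q.take s)) ∨
      D.BadT (D.c k + t - D.p0))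

/-- left words of scheme 2 -/
def Dat.LP2 (P : List α) (v : V) : Prop := ∃ k < D.K, P.length = D.c k ∧ D.lam2 k P = some v

/-- right reading of scheme 2, as a relation -/
def Dat.Rel (Q : List α) (b : V) : Prop :=
  ∃ k < D.K, ∃ t w, D.FW (D.c k) Q t ∧ D.BadQ k Q ∧ (∀ k' < D.K, D.BadQ k' Q → k' = k) ∧
    Q.drop t ∈ D.XX ∧ D.rho2 k (Q.take (D.p0 - D.c k)) = some w ∧
    b = D.T (D.act w (D.φ ((Q.take t).drop (D.p0 - D.c k))) +
      D.nu1 ((Q.take t).drop (D.p0 - D.c k))) (Q.drop t)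

open Classical in
/-- right reading of scheme 2 -/
noncomputable def Dat.R2 (Q : List α) : Option V :=
  if h : ∃ b, D.Rel Q b then some h.choose else none

/-- hypotheses -/
structure Dat.Ok : Prop where
  hφ : ∀ u v, D.φ (u ++ v) = D.φ u * D.φ v
  hadd : ∀ a b s, D.act (a + b) s = D.act a s + D.act b s
  hmul : ∀ v s t, D.act (D.act v s) t = D.act v (s * t)
  hW : ∀ P Q, D.n ≤ Q.length → (D.Wo (P ++ Q) ↔ D.Wo Q)
  hz : D.p0 + 3 * D.N + D.n + 1 ≤ D.z
  hc : ∀ k < D.K, D.c k ≤ D.p0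
  u1 : ∀ p v, D.lam p = some v → p.length ≤ D.N
  u2 : ∀ p q v r, D.lam p = some v → D.rho q = some r →
    r = D.act v (D.φ (p ++ q)) + D.nu1 (p ++ q)
  u3 : ∀ u, 2 * D.N ≤ u.length → ¬ D.BadT u.length → ∀ v, ∃ p q, p ++ q = u ∧
    D.lam p = some v ∧ (D.rho q).isSome
  e1 : ∀ k < D.K, ∀ P Q v b, P.length = D.c k → D.lam2 k P = some v → D.rho2 k Q = some b →
    b = D.act v (D.φ (P ++ Q)) + D.nu2 (P ++ Q)
  e2 : ∀ (u : List α) (v : V), (∀ k < D.K, D.c k ≤ u.length) →
    ∃ I : Finset ℕ, D.R ≤ I.card ∧ ∀ k ∈ I, k < D.K ∧ D.lam2 k (u.take (D.c k)) = some v ∧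
      (D.rho2 k (u.drop (D.c k))).isSome
  sp : ∀ X ∈ D.XX, ∀ X2 ∈ D.XX, D.BadX X → ∀ I : Finset ℕ,
    (∀ k ∈ I, k < D.K ∧ ∃ k' < D.K, k' ≠ k ∧ D.BadQ k' ((X ++ X2).drop (D.c k))) → I.card < D.R

variable {D}

theorem Dat.Ok.nil_notMem (h : D.Ok) : [] ∉ D.XX := by
  rintro ⟨h1, -⟩
  have := h.hz
  simp at h1
  omega

theorem Dat.Ok.prefix_code (h : D.Ok) : ∀ X ∈ D.XX, ∀ Y, X ++ Y ∈ D.XX → Y = [] := by
  rintro X ⟨h1, h2, -⟩ Y ⟨-, -, h3⟩
  by_contra hY
  have hl : 0 < Y.length := List.length_pos_iff.2 hY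
  have := h3 X.length h1 (by rw [List.length_append]; omega)
  rw [List.take_left'] at this
  · exact this h2
  · rfl

theorem Dat.Ok.T_eq (h : D.Ok) (X : List α) (v : V) : D.T v X = D.act v (D.φ X) + D.ν X := by
  unfold Dat.T Dat.ν
  rw [h.hadd, h.hmul, ← h.hφ, List.take_append_drop, add_assoc]

/-- walls of `P ++ Q` right of `P` are walls of `Q` -/
theorem Dat.Ok.wall (h : D.Ok) {P Q : List α} {t : ℕ} (ht : D.n ≤ t) (htQ : t ≤ Q.length) :
    D.Wo ((P ++ Q).take (P.length + t)) ↔ D.Wo (Q.take t) := by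
  have e : (P ++ Q).take (P.length + t) = P ++ Q.take t := by
    rw [List.take_append]
    simp
  rw [e]
  exact h.hW _ _ (by rw [List.length_take]; omega)

theorem Dat.Ok.s1 (h : D.Ok) : ∀ P v Q b, D.LP1 P v → D.R1 Q = some b →
    P ++ Q ∈ D.XX ∧ D.T v (P ++ Q) = b := by
  classical
  intro P v Q b hL hR
  obtain ⟨hp, hl⟩ := hL
  unfold Dat.R1 at hR
  split_ifs at hR with hq
  obtain ⟨q1, q2, q3⟩ := hq
  have hz := h.hz
  have hN := h.u1 _ _ hl
  rw [List.length_drop] at hN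
  refine ⟨⟨by rw [List.length_append]; omega, (h.hW _ _ (by omega)).2 q2, ?_⟩, ?_⟩
  · intro t h1 h2
    rw [List.length_append] at h2
    obtain ⟨s, rfl⟩ := Nat.exists_eq_add_of_le (show P.length ≤ t by omega)
    rw [h.wall (by omega) (by omega)]
    exact q3 s (by omega) (by omega)
  · unfold Dat.T
    rw [List.take_append_of_le_length hp, List.drop_append_of_le_length hp]
    exact (h.u2 _ _ _ _ hl hR).symm

theorem Dat.Ok.c1 (h : D.Ok) {X : List α} (hX : X ∈ D.XX) (hb : ¬ D.BadX X) (v : V) :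
    ∃ P Q, X = P ++ Q ∧ D.LP1 P v ∧ (D.R1 Q).isSome := by
  classical
  obtain ⟨x1, x2, x3⟩ := hX
  unfold Dat.BadX at hb
  push Not at hb
  obtain ⟨hE, hT⟩ := hb
  have hz := h.hz
  have hlen : D.z + D.N < X.length := by
    by_contra hcon
    have := hE X.length le_rfl (by omega) (by omega)
    rw [List.take_length] at this
    exact this x2
  have hYl : (X.drop D.p0).length = X.length - D.p0 := List.length_drop
  obtain ⟨p, q, hpq, hl, hr⟩ := h.u3 (X.drop D.p0) (by omega) (by rw [hYl]; exact hT)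
    (D.act v (D.φ (X.take D.p0)) + D.nu2 (X.take D.p0))
  have hN := h.u1 _ _ hl
  have hX : X = (X.take D.p0 ++ p) ++ q := by
    rw [List.append_assoc, hpq, List.take_append_drop]
  have hp0 : (X.take D.p0).length = D.p0 := by rw [List.length_take]; omega
  have hl2 : X.length = D.p0 + p.length + q.length := by
    conv_lhs => rw [hX]
    rw [List.length_append, List.length_append, hp0]
  refine ⟨X.take D.p0 ++ p, q, hX, ⟨?_, ?_⟩, ?_⟩
  · rw [List.length_append, hp0]; omega
  · have a1 : (X.take D.p0 ++ p).drop D.p0 = p := List.drop_left' hp0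
    have a2 : (X.take D.p0 ++ p).take D.p0 = X.take D.p0 := List.take_left' hp0
    rw [a1, a2]
    exact hl
  · have hw : ∀ t, D.n ≤ t → t ≤ q.length →
        (D.Wo (X.take (D.p0 + p.length + t)) ↔ D.Wo (q.take t)) := by
      intro t h1 h2
      have := h.wall (P := X.take D.p0 ++ p) (Q := q) h1 h2
      rw [← hX, List.length_append, hp0] at this
      exact this
    have hRL : D.RL q := by
      refine ⟨by omega, ?_, ?_⟩
      · have := hw q.length (by omega) le_rfl
        rw [List.take_length, ← hl2, List.take_length] at this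
        exact this.1 x2
      · intro t h1 h2 h3
        rw [← hw t (by omega) (by omega)] at h3
        rcases le_or_gt D.z (D.p0 + p.length + t) with h4 | h4
        · exact x3 _ h4 (by omega) h3
        · exact hE _ (by omega) (by omega) (by omega) h3
    unfold Dat.R1
    rw [if_pos hRL]
    exact hr

/-- the true block, seen from a place of scheme 2 -/
theorem Dat.Ok.fw_of_mem (h : D.Ok) {P Q1 Q2 : List α} {k : ℕ} (hk : k < D.K)
    (hP : P.length = D.c k) (hX : P ++ Q1 ∈ D.XX) :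
    D.FW (D.c k) (Q1 ++ Q2) Q1.length ∧ (D.BadQ k (Q1 ++ Q2) ↔ D.BadX (P ++ Q1)) := by
  obtain ⟨x1, x2, x3⟩ := hX
  rw [List.length_append, hP] at x1
  have hz := h.hz
  have hc := h.hc k hk
  have hn : D.n ≤ Q1.length := by omega
  have htk : ∀ t ≤ Q1.length, (Q1 ++ Q2).take t = Q1.take t :=
    fun t ht => List.take_append_of_le_length ht
  have hw : ∀ t, D.n ≤ t → t ≤ Q1.length →
      (D.Wo ((P ++ Q1).take (D.c k + t)) ↔ D.Wo ((Q1 ++ Q2).take t)) := by
    intro t h1 h2
    rw [htk t h2, ← hP]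
    exact h.wall h1 h2
  have hfw : D.FW (D.c k) (Q1 ++ Q2) Q1.length := by
    refine ⟨by rw [List.length_append]; omega, by omega, ?_, ?_⟩
    · rw [htk _ le_rfl, List.take_length]
      exact (h.hW _ _ hn).1 x2
    · intro t' h1 h2
      rw [← hw t' (by omega) h1.le]
      exact x3 _ h2 (by rw [List.length_append, hP]; omega)
  have huniq : ∀ t, D.FW (D.c k) (Q1 ++ Q2) t → t = Q1.length := by
    rintro t ⟨t1, t2, t3, t4⟩
    rcases lt_trichotomy t Q1.length with h5 | h5 | h5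
    · exact absurd t3 (hfw.2.2.2 t h5 t2)
    · exact h5
    · exact absurd hfw.2.2.1 (t4 _ h5 hfw.2.1)
  refine ⟨hfw, ?_⟩
  have hlen : (P ++ Q1).length = D.c k + Q1.length := by rw [List.length_append, hP]
  constructor
  · rintro ⟨t, ht, hbad⟩
    obtain rfl := huniq t ht
    rcases hbad with ⟨s, s1, s2, s3, s4⟩ | hbad
    · refine Or.inl ⟨D.c k + s, by rw [hlen]; omega, s2, s3, ?_⟩
      rw [hw s (by omega) s1]
      exact s4
    · right
      rw [hlen]
      exact hbad
  · rintro (⟨s, s1, s2, s3, s4⟩ | hbad)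
    · refine ⟨Q1.length, hfw, Or.inl ?_⟩
      obtain ⟨s', rfl⟩ := Nat.exists_eq_add_of_le (show D.c k ≤ s by omega)
      rw [hlen] at s1
      refine ⟨s', by omega, s2, s3, ?_⟩
      rw [← hw s' (by omega) (by omega)]
      exact s4
    · refine ⟨Q1.length, hfw, Or.inr ?_⟩
      rw [hlen] at hbad
      exact hbad

theorem Dat.Ok.s2 (h : D.Ok) : ∀ P v Q b, D.LP2 P v → D.R2 Q = some b →
    (∀ X ∈ D.XX, X <+: P ++ Q → ∀ P' Q', X = P' ++ Q' → P.length ≤ P'.length →
      D.LP1 P' v → (D.R1 Q').isSome → False) →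
    ∃ Q1 X2, Q = Q1 ++ X2 ∧ Q1 ≠ [] ∧ P ++ Q1 ∈ D.XX ∧ X2 ∈ D.XX ∧
      D.T (D.T v (P ++ Q1)) X2 = b := by
  classical
  intro P v Q b hL hR hno
  obtain ⟨k0, hk0, hP, hl⟩ := hL
  unfold Dat.R2 at hR
  split_ifs at hR with hex
  have hrel := hex.choose_spec
  rw [Option.some.injEq] at hR
  rw [hR] at hrel
  obtain ⟨k, hk, t, w, hfw, hbad, huni, hX2, hrho, hb⟩ := hrel
  have hz := h.hz
  have hc := h.hc k hk
  have hc0 := h.hc k0 hk0
  -- the true block
  have hQl : t ≤ Q.length := hfw.1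
  have hdl : (Q.drop t).length = Q.length - t := List.length_drop
  have hWQ : D.Wo Q := by
    have h1 : Q = Q.take t ++ Q.drop t := (List.take_append_drop _ _).symm
    rw [h1]
    have := hX2.1
    exact (h.hW _ _ (by omega)).2 hX2.2.1
  have hex0 : ∃ t0, D.z ≤ D.c k0 + t0 ∧ D.Wo (Q.take t0) :=
    ⟨Q.length, by have := hX2.1; omega, by rw [List.take_length]; exact hWQ⟩
  have ht0 : Nat.find hex0 ≤ Q.length :=
    Nat.find_min' hex0 ⟨by have := hX2.1; omega, by rw [List.take_length]; exact hWQ⟩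
  obtain ⟨f1, f2⟩ := Nat.find_spec hex0
  have f3 : ∀ t' < Nat.find hex0, D.z ≤ D.c k0 + t' → ¬ D.Wo (Q.take t') :=
    fun t' h1 h2 h3 => Nat.find_min hex0 h1 ⟨h2, h3⟩
  set t0 := Nat.find hex0 with ht0def
  have hX0 : P ++ Q.take t0 ∈ D.XX := by
    have hl0 : (Q.take t0).length = t0 := by rw [List.length_take]; omega
    refine ⟨by rw [List.length_append, hP, hl0]; exact f1, ?_, ?_⟩
    · exact (h.hW _ _ (by omega)).2 f2
    · intro s h1 h2
      rw [List.length_append, hP, hl0] at h2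
      obtain ⟨s', rfl⟩ := Nat.exists_eq_add_of_le (show P.length ≤ s by omega)
      rw [h.wall (by omega) (by omega), List.take_take, min_eq_left (by omega)]
      exact f3 s' (by omega) (by omega)
  have hbX : D.BadX (P ++ Q.take t0) := by
    by_contra hnb
    obtain ⟨P', Q', e, hL1, hR1⟩ := h.c1 hX0 hnb v
    refine hno _ hX0 ?_ P' Q' e ?_ hL1 hR1
    · exact (List.prefix_append_right_inj P).2 (List.take_prefix _ _)
    · rw [hP]; exact hc0.trans hL1.1
  have hQd : Q.take t0 ++ Q.drop t0 = Q := List.take_append_drop _ _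
  obtain ⟨g1, g2⟩ := h.fw_of_mem (Q2 := Q.drop t0) hk0 hP hX0
  rw [hQd] at g1 g2
  have hkk : k0 = k := huni k0 hk0 (g2.2 hbX)
  subst hkk
  have htt : t = t0 := by
    have hl0 : (Q.take t0).length = t0 := by rw [List.length_take]; omega
    rw [hl0] at g1
    rcases lt_trichotomy t t0 with h5 | h5 | h5
    · exact absurd hfw.2.2.1 (g1.2.2.2 t h5 hfw.2.1)
    · exact h5
    · exact absurd g1.2.2.1 (hfw.2.2.2 _ h5 g1.2.1)
  subst htt
  refine ⟨Q.take t0, Q.drop t0, hQd.symm, ?_, hX0, hX2, ?_⟩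
  · intro h0
    have := congrArg List.length h0
    rw [List.length_take, List.length_nil] at this
    omega
  · rw [hb]
    congr 1
    unfold Dat.T
    have hp0 : D.p0 - D.c k0 ≤ t0 := by omega
    have a1 : (P ++ Q.take t0).take D.p0 = P ++ Q.take (D.p0 - D.c k0) := by
      rw [List.take_append, List.take_of_length_le (by omega), List.take_take, hP,
        min_eq_left hp0]
    have a2 : (P ++ Q.take t0).drop D.p0 = (Q.take t0).drop (D.p0 - D.c k0) := by
      rw [List.drop_append, List.drop_of_length_le (by omega), hP, List.nil_append]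
    rw [a1, a2, ← h.e1 k0 hk _ _ _ _ hP hl hrho]

theorem Dat.Ok.cc (h : D.Ok) : ∀ X ∈ D.XX, ∀ X2 ∈ D.XX, ∀ v,
    (∃ P Q, X = P ++ Q ∧ D.LP1 P v ∧ (D.R1 Q).isSome) ∨
    (∃ P Q, X ++ X2 = P ++ Q ∧ P.length < X.length ∧ D.LP2 P v ∧ (D.R2 Q).isSome) := by
  classical
  intro X hX X2 hX2 v
  by_cases hb : D.BadX X
  swap
  · exact Or.inl (h.c1 hX hb v)
  right
  have hz := h.hz
  have hXl := hX.1
  have htl : (X.take D.p0).length = D.p0 := by rw [List.length_take]; omega
  obtain ⟨I, hI, hI2⟩ := h.e2 (X.take D.p0) v (fun k hk => by rw [htl]; exact h.hc k hk)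
  -- an unspoiled place
  obtain ⟨k, hkI, hgood⟩ : ∃ k ∈ I, ¬ ∃ k' < D.K, k' ≠ k ∧ D.BadQ k' ((X ++ X2).drop (D.c k)) := by
    by_contra hcon
    push Not at hcon
    have := h.sp X hX X2 hX2 hb I (fun k hk => ⟨(hI2 k hk).1, hcon k hk⟩)
    omega
  obtain ⟨hk, hl, hr⟩ := hI2 k hkI
  have hc := h.hc k hk
  push Not at hgood
  have hPl : (X.take (D.c k)).length = D.c k := by rw [List.length_take]; omega
  have hd : (X ++ X2).drop (D.c k) = X.drop (D.c k) ++ X2 :=
    List.drop_append_of_le_length (by omega)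
  have hXd : X.take (D.c k) ++ X.drop (D.c k) = X := List.take_append_drop _ _
  obtain ⟨g1, g2⟩ := h.fw_of_mem (P := X.take (D.c k)) (Q1 := X.drop (D.c k)) (Q2 := X2) hk hPl
    (by rw [hXd]; exact hX)
  rw [hXd] at g2
  refine ⟨X.take (D.c k), X.drop (D.c k) ++ X2, ?_, by rw [hPl]; omega, ⟨k, hk, hPl, ?_⟩, ?_⟩
  · rw [← List.append_assoc, hXd]
  · rw [List.take_take, min_eq_left hc] at hl
    exact hl
  · obtain ⟨w, hw⟩ := Option.isSome_iff_exists.1 hr
    have hdl : (X.drop (D.c k)).length = X.length - D.c k := List.length_drop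
    have hdrop : (X.drop (D.c k) ++ X2).drop (X.drop (D.c k)).length = X2 := List.drop_left' rfl
    have hrel : ∃ b, D.Rel (X.drop (D.c k) ++ X2) b := by
      refine ⟨_, k, hk, (X.drop (D.c k)).length, w, g1, g2.2 hb, ?_, ?_, ?_, rfl⟩
      · intro k' hk' hbk
        by_contra hne
        rw [← hd] at hbk
        exact hgood k' hk' hne hbk
      · rw [hdrop]; exact hX2
      · have : (X.drop (D.c k) ++ X2).take (D.p0 - D.c k) = (X.take D.p0).drop (D.c k) := by
          rw [List.take_append_of_le_length (by omega), List.drop_take]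
        rw [this]
        exact hw
    unfold Dat.R2
    rw [dif_pos hrel]
    rfl

theorem Dat.Ok.R1_ne_nil (h : D.Ok) : ∀ Q b, D.R1 Q = some b → Q ≠ [] := by
  classical
  rintro Q b hQ rfl
  unfold Dat.R1 at hQ
  split_ifs at hQ with hq
  have := hq.1
  have := h.hz
  simp at *
  omega

theorem Dat.Ok.R2_ne_nil (h : D.Ok) : ∀ Q b, D.R2 Q = some b → Q ≠ [] := by
  classical
  rintro Q b hQ rfl
  unfold Dat.R2 at hQ
  split_ifs at hQ with hq
  obtain ⟨b', k, hk, t, w, hfw, -⟩ := hq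
  have h1 := hfw.1
  have h2 := hfw.2.1
  have h3 := h.hz
  have h4 := h.hc k hk
  simp at h1
  omega

end Crest.Agent.R320.S12_449
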