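import Mathlib

/-!
Row 320: word level zone gadget of scheme 1 (small walls, levels, cells), on top of the
abstract gadget interface (`Lb`, `Rb`, `D`).
-/

namespace Crest.Agent.R320.S1W_184

open List

variable {α S V : Type*}

noncomputable section

/-- value of a word -/
def pr [Monoid S] (φ : α → S) (u : List α) : S := (u.map φ).prod

def seg (Y : List α) (a b : ℕ) : List α := (Y.drop a).take (b - a)

/-- some place `>= a` satisfies the rule -/
def has (R : List α → Prop) (Y : List α) (a : ℕ) : Prop := ∃ j, a ≤ j ∧ R (Y.drop j)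

/-- first place `>= a` satisfying the rule -/
def fw (R : List α → Prop) (Y : List α) (a : ℕ) : ℕ := sInf {j | a ≤ j ∧ R (Y.drop j)}

theorem fw_spec {R : List α → Prop} {Y : List α} {a : ℕ} (h : has R Y a) :
    a ≤ fw R Y a ∧ R (Y.drop (fw R Y a)) :=
  Nat.sInf_mem (s := {j | a ≤ j ∧ R (Y.drop j)}) h

theorem fw_le {R : List α → Prop} {Y : List α} {a j : ℕ} (h1 : a ≤ j) (h2 : R (Y.drop j)) :
    fw R Y a ≤ j :=
  Nat.sInf_le (s := {j | a ≤ j ∧ R (Y.drop j)}) ⟨h1, h2⟩

theorem fw_eq {R : List α → Prop} {Y : List α} {a h : ℕ} (h1 : a ≤ h) (h2 : R (Y.drop h))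
    (h3 : ∀ j, a ≤ j → j < h → ¬ R (Y.drop j)) : fw R Y a = h := by
  apply le_antisymm (fw_le h1 h2)
  by_contra hlt
  rw [not_le] at hlt
  obtain ⟨ha, hb⟩ := fw_spec (R := R) (Y := Y) (a := a) ⟨h, h1, h2⟩
  exact h3 _ ha hlt hb

theorem fw_mono {R : List α → Prop} {Y : List α} {a b : ℕ} (hab : a ≤ b) (h : has R Y b) :
    fw R Y a ≤ fw R Y b := by
  obtain ⟨h1, h2⟩ := fw_spec h
  exact fw_le (le_trans hab h1) h2

theorem rule_len {R : List α → Prop} {n : ℕ} (hn : 0 < n) (hRn : ∀ Q, R Q → n ≤ Q.length)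
    {P : List α} {j : ℕ} (h : R (P.drop j)) : j + n ≤ P.length := by
  have := hRn _ h
  rw [List.length_drop] at this
  omega

theorem rule_take {R : List α → Prop} {n : ℕ} (hR : ∀ Q, R Q ↔ R (Q.take n))
    (P Q : List α) {j : ℕ} (h : j + n ≤ P.length) : R ((P ++ Q).drop j) ↔ R (P.drop j) := by
  rw [hR ((P ++ Q).drop j), hR (P.drop j)]
  rw [List.drop_append_of_le_length (by omega), List.take_append_of_le_length]
  rw [List.length_drop]
  omega

theorem fw_left {R : List α → Prop} {n : ℕ} (hn : 0 < n) (hR : ∀ Q, R Q ↔ R (Q.take n))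
    (hRn : ∀ Q, R Q → n ≤ Q.length) (P Q : List α) {a : ℕ} (h : has R P a) :
    has R (P ++ Q) a ∧ fw R (P ++ Q) a = fw R P a ∧ fw R P a + n ≤ P.length := by
  obtain ⟨h1, h2⟩ := fw_spec h
  have h3 := rule_len hn hRn h2
  have h4 : R ((P ++ Q).drop (fw R P a)) := (rule_take hR P Q h3).2 h2
  refine ⟨⟨_, h1, h4⟩, ?_, h3⟩
  apply fw_eq h1 h4
  intro j hj1 hj2 hj3
  have : R (P.drop j) := (rule_take hR P Q (by omega)).1 hj3
  have := fw_le hj1 this
  omega

theorem drop_add (P Q : List α) (j : ℕ) : (P ++ Q).drop (P.length + j) = Q.drop j := by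
  rw [List.drop_append, List.drop_eq_nil_of_le (by omega)]
  simp

theorem fw_right {R : List α → Prop} (P Q : List α) {A a' a'' : ℕ}
    (h1 : a' + P.length ≤ A) (h2 : A ≤ a'' + P.length)
    (hno : ∀ j, a' ≤ j → j < a'' → ¬ R (Q.drop j)) (h : has R Q a') :
    has R (P ++ Q) A ∧ fw R (P ++ Q) A = P.length + fw R Q a' := by
  obtain ⟨h3, h4⟩ := fw_spec h
  have h5 : a'' ≤ fw R Q a' := by
    by_contra hlt
    rw [not_le] at hlt
    exact hno _ h3 hlt h4
  have h6 : R ((P ++ Q).drop (P.length + fw R Q a')) := by rw [drop_add]; exact h4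
  refine ⟨⟨_, by omega, h6⟩, ?_⟩
  apply fw_eq (by omega) h6
  intro j hj1 hj2 hj3
  obtain ⟨i, rfl⟩ : ∃ i, j = P.length + i := ⟨j - P.length, by omega⟩
  rw [drop_add] at hj3
  have := fw_le (a := a') (show a' ≤ i by omega) hj3
  omega

theorem seg_left (P Q : List α) {a b : ℕ} (hb : b ≤ P.length) :
    seg (P ++ Q) a b = seg P a b := by
  unfold seg
  by_cases hab : a ≤ b
  · rw [List.drop_append_of_le_length (by omega), List.take_append_of_le_length]
    rw [List.length_drop]; omega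
  · have : b - a = 0 := by omega
    rw [this]; simp

theorem seg_right (P Q : List α) (a b : ℕ) :
    seg (P ++ Q) (P.length + a) (P.length + b) = seg Q a b := by
  unfold seg
  rw [drop_add]
  congr 1
  omega

theorem pr_append [Monoid S] (φ : α → S) (u v : List α) : pr φ (u ++ v) = pr φ u * pr φ v := by
  simp [pr]

theorem take_seg (Y : List α) {a b : ℕ} (hab : a ≤ b) : Y.take b = Y.take a ++ seg Y a b := by
  unfold seg
  conv_lhs => rw [show b = a + (b - a) by omega]
  rw [List.take_add]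

theorem pr_zones [Monoid S] (φ : α → S) (Y : List α) (h : ℕ → ℕ) (m : ℕ)
    (hm : ∀ k < m, h k ≤ h (k + 1)) :
    pr φ (Y.take (h 0)) * ((List.range m).map (fun k => pr φ (seg Y (h k) (h (k + 1))))).prod *
      pr φ (Y.drop (h m)) = pr φ Y := by
  have key : ∀ m, (∀ k < m, h k ≤ h (k + 1)) →
      pr φ (Y.take (h 0)) * ((List.range m).map (fun k => pr φ (seg Y (h k) (h (k + 1))))).prod
        = pr φ (Y.take (h m)) := by
    intro m
    induction m with
    | zero => intro _; simp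
    | succ m ih =>
      intro hm
      rw [List.range_succ, List.map_append, List.prod_append, ← mul_assoc,
        ih (fun k hk => hm k (by omega))]
      simp only [List.map_cons, List.map_nil, List.prod_cons, List.prod_nil, mul_one]
      rw [← pr_append, ← take_seg Y (hm m (by omega))]
  rw [key m hm, ← pr_append, List.take_append_drop]

/-- content of the holes -/
def holes [Monoid S] (φ : α → S) (Y : List α) (h : ℕ → ℕ) (m : ℕ) : List S :=
  (List.range m).map (fun k => pr φ (seg Y (h k) (h (k + 1))))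

theorem length_holes [Monoid S] (φ : α → S) (Y : List α) (h : ℕ → ℕ) (m : ℕ) :
    (holes φ Y h m).length = m := by simp [holes]

theorem holes_take [Monoid S] (φ : α → S) (Y : List α) (h : ℕ → ℕ) {i m : ℕ} (him : i ≤ m) :
    (holes φ Y h m).take i = holes φ Y h i := by
  unfold holes
  rw [← List.map_take, List.take_range, min_eq_left him]

theorem holes_split [Monoid S] (φ : α → S) (Y : List α) (h : ℕ → ℕ) {i m : ℕ} (him : i < m) :
    holes φ Y h m = holes φ Y h i ++ pr φ (seg Y (h i) (h (i + 1))) ::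
      (holes φ Y h m).drop (i + 1) := by
  have hlen : i < (holes φ Y h m).length := by rw [length_holes]; exact him
  conv_lhs => rw [← List.take_append_drop i (holes φ Y h m)]
  rw [holes_take φ Y h him.le, List.drop_eq_getElem_cons hlen]
  congr 2
  simp [holes]

/-- data of the levels -/
structure Lev where
  m : ℕ
  M : ℕ
  M' : ℕ
  A : ℕ → ℕ
  C : ℕ → ℕ

/-- the cell of level `i` -/
def Lev.cell (L : Lev) (p i : ℕ) : Prop :=
  i < L.m ∧ L.M' ∣ p ∧ L.M' * L.C i ≤ p ∧ p < L.M' * (L.C i + L.M)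

/-- the left word can read -/
def Lev.lok (L : Lev) (R : List α → Prop) (P : List α) (i : ℕ) : Prop :=
  L.cell P.length i ∧ ∀ k ≤ i, has R P (L.A k)

open Classical in
def Lev.hp (L : Lev) (R : List α → Prop) (Y : List α) (k : ℕ) : ℕ :=
  if has R Y (L.A k) then fw R Y (L.A k) else Y.length

theorem Lev.hp_of {L : Lev} {R : List α → Prop} {Y : List α} {k : ℕ} (h : has R Y (L.A k)) :
    L.hp R Y k = fw R Y (L.A k) := by
  unfold Lev.hp; rw [if_pos h]

theorem Lev.hp_not {L : Lev} {R : List α → Prop} {Y : List α} {k : ℕ} (h : ¬ has R Y (L.A k)) :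
    L.hp R Y k = Y.length := by
  unfold Lev.hp; rw [if_neg h]

open Classical in
def lam (L : Lev) (R : List α → Prop) [Monoid S] (φ : α → S)
    (Lb : ℕ → S → List S → ℕ → Option V) (P : List α) : Option V :=
  if h : ∃ i, L.lok R P i then
    Lb (Classical.choose h) (pr φ (P.take (L.hp R P 0)))
      (holes φ P (L.hp R P) (Classical.choose h)) (P.length / L.M')
  else none

/-- place of the `k`-th boundary read by a right word which believes in level `i` -/
def Lev.hr (L : Lev) (R : List α → Prop) (Q : List α) (i k : ℕ) : ℕ :=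
  fw R Q (L.A k - L.M' * (L.C i + L.M - 1))

def Lev.rok (L : Lev) (R : List α → Prop) (Q : List α) (i : ℕ) : Prop :=
  ∀ k, i < k → k ≤ L.m → has R Q (L.A k - L.M' * (L.C i + L.M - 1)) ∧
    ∀ j, L.A k - L.M' * (L.C i + L.M - 1) ≤ j → j < L.A k - L.M' * L.C i → ¬ R (Q.drop j)

open Classical in
def view (L : Lev) (R : List α → Prop) [Monoid S] (φ : α → S) (Q : List α) (i : ℕ) :
    Option (List S × S) :=
  if L.rok R Q i then
    some ((holes φ Q (L.hr R Q i) L.m).drop (i + 1), pr φ (Q.drop (L.hr R Q i L.m)))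
  else none

def rho (L : Lev) (R : List α → Prop) [Monoid S] (φ : α → S)
    (Rb : (ℕ → Option (List S × S)) → ℕ → Option V) (Q : List α) : Option V :=
  Rb (view L R φ Q) (Q.length / L.M')

def nu (L : Lev) (R : List α → Prop) [Monoid S] (φ : α → S)
    (D : ℕ → S → List S → S → V) (Y : List α) : V :=
  D (Y.length / L.M') (pr φ (Y.take (L.hp R Y 0))) (holes φ Y (L.hp R Y) L.m)
    (pr φ (Y.drop (L.hp R Y L.m)))

structure Lev.Good (L : Lev) (n g : ℕ) : Prop where
  n0 : 0 < n
  M0 : 0 < L.M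
  M'0 : 0 < L.M'
  ac : ∀ i < L.m, L.A i + g + n ≤ L.M' * L.C i
  ca : ∀ i < L.m, L.M' * (L.C i + L.M) ≤ L.A (i + 1)

variable {L : Lev} {n g : ℕ}

theorem Lev.Good.mono (G : L.Good n g) {i k : ℕ} (hik : i ≤ k) (hk : k ≤ L.m) :
    L.A i ≤ L.A k := by
  induction k with
  | zero =>
    obtain rfl : i = 0 := by omega
    exact le_rfl
  | succ k ih =>
    rcases Nat.lt_or_ge i (k + 1) with h | h
    · have h1 := ih (by omega) (by omega)
      have h2 := G.ac k (by omega)
      have h3 := G.ca k (by omega)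
      have h4 : L.M' * L.C k ≤ L.M' * (L.C k + L.M) := Nat.mul_le_mul_left _ (by omega)
      omega
    · obtain rfl : i = k + 1 := by omega
      exact le_rfl

theorem Lev.Good.cell_unique (G : L.Good n g) {p i j : ℕ} (hi : L.cell p i) (hj : L.cell p j) :
    i = j := by
  have key : ∀ i j, L.cell p i → L.cell p j → i < j → False := by
    intro i j hi hj hij
    have h1 := G.ca i hi.1
    have h2 := G.mono (i := i + 1) (k := j) (by omega) hj.1.le
    have h3 := G.ac j hj.1
    have h4 := hi.2.2.2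
    have h5 := hj.2.2.1
    omega
  rcases Nat.lt_trichotomy i j with h | h | h
  · exact (key i j hi hj h).elim
  · exact h
  · exact (key j i hj hi h).elim

theorem lam_of (G : L.Good n g) {R : List α → Prop} [Monoid S] (φ : α → S)
    (Lb : ℕ → S → List S → ℕ → Option V) {P : List α} {i : ℕ} (hi : L.lok R P i) :
    lam L R φ Lb P = Lb i (pr φ (P.take (L.hp R P 0))) (holes φ P (L.hp R P) i)
      (P.length / L.M') := by
  have h : ∃ i, L.lok R P i := ⟨i, hi⟩
  have he : Classical.choose h = i :=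
    G.cell_unique (Classical.choose_spec h).1 hi.1
  unfold lam
  rw [dif_pos h, he]

theorem lam_some {R : List α → Prop} [Monoid S] {φ : α → S}
    {Lb : ℕ → S → List S → ℕ → Option V} {P : List α} {v : V}
    (h : lam L R φ Lb P = some v) : ∃ i, L.lok R P i := by
  unfold lam at h
  by_contra hne
  rw [dif_neg hne] at h
  cases h

/-- the places on the two sides of a junction at level `i` -/
theorem places (G : L.Good n g) {R : List α → Prop} (hR : ∀ Q, R Q ↔ R (Q.take n))
    (hRn : ∀ Q, R Q → n ≤ Q.length) {P Q : List α} {i : ℕ} (hi : L.lok R P i)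
    (hr : L.rok R Q i) :
    (∀ k ≤ i, L.hp R (P ++ Q) k = L.hp R P k ∧ L.hp R P k ≤ P.length ∧
      has R (P ++ Q) (L.A k)) ∧
    (∀ k, i < k → k ≤ L.m → L.hp R (P ++ Q) k = P.length + L.hr R Q i k ∧
      has R (P ++ Q) (L.A k)) := by
  constructor
  · intro k hk
    obtain ⟨h1, h2, h3⟩ := fw_left G.n0 hR hRn P Q (hi.2 k hk)
    rw [Lev.hp_of h1, Lev.hp_of (hi.2 k hk)]
    exact ⟨h2, by omega, h1⟩
  · intro k hk hkm
    obtain ⟨h1, h2⟩ := hr k hk hkm
    have hca := G.ca i hi.1.1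
    have hmono := G.mono (i := i + 1) (k := k) (by omega) hkm
    have hlt := hi.1.2.2.2
    have hge := hi.1.2.2.1
    have hup : P.length ≤ L.M' * (L.C i + L.M - 1) := by
      obtain ⟨t, ht⟩ := hi.1.2.1
      rw [ht] at hlt ⊢
      have h5 : t < L.C i + L.M := lt_of_mul_lt_mul_left hlt (Nat.zero_le _)
      exact Nat.mul_le_mul_left _ (by omega)
    have hup2 : L.M' * (L.C i + L.M - 1) ≤ L.M' * (L.C i + L.M) :=
      Nat.mul_le_mul_left _ (by omega)
    obtain ⟨h3, h4⟩ := fw_right P Q (A := L.A k) (a' := L.A k - L.M' * (L.C i + L.M - 1))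
      (a'' := L.A k - L.M' * L.C i) (by omega) (by omega) h2 h1
    rw [Lev.hp_of h3]
    exact ⟨h4, h3⟩

theorem Lev.Good.hp_mono (G : L.Good n g) {R : List α → Prop}
    (hRn : ∀ Q, R Q → n ≤ Q.length) (Y : List α) {k : ℕ} (hk : k < L.m) :
    L.hp R Y k ≤ L.hp R Y (k + 1) := by
  have hA := G.mono (i := k) (k := k + 1) (by omega) (by omega)
  by_cases h1 : has R Y (L.A (k + 1))
  · have h0 : has R Y (L.A k) := by
      obtain ⟨j, hj, hj2⟩ := h1
      exact ⟨j, le_trans hA hj, hj2⟩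
    rw [Lev.hp_of h0, Lev.hp_of h1]
    exact fw_mono hA h1
  · rw [Lev.hp_not h1]
    by_cases h0 : has R Y (L.A k)
    · rw [Lev.hp_of h0]
      have := rule_len G.n0 hRn (fw_spec h0).2
      omega
    · rw [Lev.hp_not h0]

theorem contents_left (G : L.Good n g) {R : List α → Prop} (hR : ∀ Q, R Q ↔ R (Q.take n))
    (hRn : ∀ Q, R Q → n ≤ Q.length) [Monoid S] (φ : α → S) {P Q : List α} {i : ℕ}
    (hi : L.lok R P i) :
    pr φ ((P ++ Q).take (L.hp R (P ++ Q) 0)) = pr φ (P.take (L.hp R P 0)) ∧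
    holes φ (P ++ Q) (L.hp R (P ++ Q)) i = holes φ P (L.hp R P) i := by
  have p1 : ∀ k ≤ i, L.hp R (P ++ Q) k = L.hp R P k ∧ L.hp R P k ≤ P.length := by
    intro k hk
    obtain ⟨h1, h2, h3⟩ := fw_left G.n0 hR hRn P Q (hi.2 k hk)
    rw [Lev.hp_of h1, Lev.hp_of (hi.2 k hk)]
    exact ⟨h2, by omega⟩
  refine ⟨?_, ?_⟩
  · rw [(p1 0 (Nat.zero_le _)).1, List.take_append_of_le_length (p1 0 (Nat.zero_le _)).2]
  · unfold holes
    apply List.map_congr_left
    intro k hk
    rw [List.mem_range] at hk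
    rw [(p1 k (by omega)).1, (p1 (k + 1) (by omega)).1, seg_left P Q (p1 (k + 1) (by omega)).2]

theorem contents_right (G : L.Good n g) {R : List α → Prop} (hR : ∀ Q, R Q ↔ R (Q.take n))
    (hRn : ∀ Q, R Q → n ≤ Q.length) [Monoid S] (φ : α → S) {P Q : List α} {i : ℕ}
    (hi : L.lok R P i) (hr : L.rok R Q i) :
    (holes φ (P ++ Q) (L.hp R (P ++ Q)) L.m).drop (i + 1) =
      (holes φ Q (L.hr R Q i) L.m).drop (i + 1) ∧
    pr φ ((P ++ Q).drop (L.hp R (P ++ Q) L.m)) = pr φ (Q.drop (L.hr R Q i L.m)) := by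
  obtain ⟨p1, p2⟩ := places G hR hRn hi hr
  refine ⟨?_, ?_⟩
  · unfold holes
    rw [← List.map_drop, ← List.map_drop]
    apply List.map_congr_left
    intro k hk
    have hk' : i < k ∧ k < L.m := by
      rw [List.mem_drop_iff_getElem] at hk
      obtain ⟨j, hj, hj2⟩ := hk
      simp at hj2
      simp at hj
      omega
    rw [(p2 k hk'.1 (by omega)).1, (p2 (k + 1) (by omega) (by omega)).1, seg_right]
  · rw [(p2 L.m hi.1.1 le_rfl).1, drop_add]

theorem sound (G : L.Good n g) {R : List α → Prop} (hR : ∀ Q, R Q ↔ R (Q.take n))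
    (hRn : ∀ Q, R Q → n ≤ Q.length) [Monoid S] [AddCommGroup V] (φ : α → S) (act : V → S → V)
    (Lb : ℕ → S → List S → ℕ → Option V) (Rb : (ℕ → Option (List S × S)) → ℕ → Option V)
    (D : ℕ → S → List S → S → V)
    (hs : ∀ (x : S) (zl : List S) (z : S) (zr : List S) (y : S)
      (vw : ℕ → Option (List S × S)) (t t' : ℕ) (v b : V), (zl ++ z :: zr).length = L.m →
      (∀ q, vw zl.length = some q → q = (zr, y)) → Lb zl.length x zl t = some v →
      Rb vw t' = some b →
      b = act v (x * zl.prod * z * zr.prod * y) + D (t + t') x (zl ++ z :: zr) y)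
    {P Q : List α} {v b : V} (h1 : lam L R φ Lb P = some v) (h2 : rho L R φ Rb Q = some b) :
    b = act v (pr φ (P ++ Q)) + nu L R φ D (P ++ Q) := by
  obtain ⟨i, hi⟩ := lam_some h1
  rw [lam_of G φ Lb hi] at h1
  obtain ⟨c1, c2⟩ := contents_left G hR hRn φ (Q := Q) hi
  have hsplit := holes_split φ (P ++ Q) (L.hp R (P ++ Q)) hi.1.1
  have hlen : (holes φ P (L.hp R P) i).length = i := length_holes _ _ _ _
  have hz := pr_zones φ (P ++ Q) (L.hp R (P ++ Q)) L.m (fun k hk => G.hp_mono hRn (P ++ Q) hk)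
  have hT : (P ++ Q).length / L.M' = P.length / L.M' + Q.length / L.M' := by
    rw [List.length_append]
    exact Nat.add_div_of_dvd_right hi.1.2.1
  have key := hs (pr φ (P.take (L.hp R P 0))) (holes φ P (L.hp R P) i)
    (pr φ (seg (P ++ Q) (L.hp R (P ++ Q) i) (L.hp R (P ++ Q) (i + 1))))
    ((holes φ (P ++ Q) (L.hp R (P ++ Q)) L.m).drop (i + 1))
    (pr φ ((P ++ Q).drop (L.hp R (P ++ Q) L.m)))
    (view L R φ Q) (P.length / L.M') (Q.length / L.M') v b ?_ ?_ ?_ ?_
  · rw [key]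
    unfold nu
    rw [hT, c1]
    rw [← c2, ← hsplit]
    congr 2
    rw [← hz, c1]
    change _ = _ * (holes φ (P ++ Q) (L.hp R (P ++ Q)) L.m).prod * _
    conv_rhs => rw [hsplit]
    rw [List.prod_append, List.prod_cons]
    simp only [mul_assoc]
  · rw [← c2, ← hsplit, length_holes]
  · intro q hq
    rw [hlen] at hq
    unfold view at hq
    by_cases hr : L.rok R Q i
    · rw [if_pos hr] at hq
      obtain ⟨c3, c4⟩ := contents_right G hR hRn φ hi hr
      rw [c3, c4]
      exact (Option.some.inj hq).symm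
    · rw [if_neg hr] at hq
      cases hq
  · rw [hlen]; exact h1
  · exact h2

theorem complete (G : L.Good n g) {R : List α → Prop} (hR : ∀ Q, R Q ↔ R (Q.take n))
    (hRn : ∀ Q, R Q → n ≤ Q.length) [Monoid S] (φ : α → S)
    (Lb : ℕ → S → List S → ℕ → Option V) (Rb : (ℕ → Option (List S × S)) → ℕ → Option V)
    (BadT : ℕ → Prop)
    (hc : ∀ (T : ℕ) (x : S) (zs : List S) (y : S) (v : V), ¬ BadT T → zs.length = L.m →
      ∃ i < L.m, ∀ c0, c0 + L.M ≤ T + 1 → ∃ t, c0 ≤ t ∧ t < c0 + L.M ∧ t ≤ T ∧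
        Lb i x (zs.take i) t = some v ∧
        ∀ vw : ℕ → Option (List S × S), vw i = some (zs.drop (i + 1), y) →
          (Rb vw (T - t)).isSome)
    (Y : List α) (v : V) (hw : ∀ k ≤ L.m, ∃ j, L.A k ≤ j ∧ j < L.A k + g ∧ R (Y.drop j))
    (hT : ¬ BadT (Y.length / L.M'))
    (hD : ∀ k ≤ L.m, ∀ j, L.A k < j + L.M' * L.M → j < L.A k + L.M' * L.M → ¬ R (Y.drop j)) :
    ∃ x, x ≤ Y.length ∧ lam L R φ Lb (Y.take x) = some v ∧
      (rho L R φ Rb (Y.drop x)).isSome := by
  obtain ⟨i, him, hi⟩ := hc (Y.length / L.M') (pr φ (Y.take (L.hp R Y 0)))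
    (holes φ Y (L.hp R Y) L.m) (pr φ (Y.drop (L.hp R Y L.m))) v hT (length_holes _ _ _ _)
  have hca := G.ca i him
  have hac := G.ac i him
  have hYA : L.A L.m ≤ Y.length := by
    obtain ⟨j, hj1, hj2, hj3⟩ := hw L.m le_rfl
    have := rule_len G.n0 hRn hj3
    omega
  have hmono := G.mono (i := i + 1) (k := L.m) (by omega) le_rfl
  have hC : L.C i + L.M ≤ Y.length / L.M' := by
    rw [Nat.le_div_iff_mul_le G.M'0, mul_comm]
    omega
  obtain ⟨t, ht1, ht2, ht3, ht4, ht5⟩ := hi (L.C i) (by omega)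
  have hx : L.M' * t ≤ Y.length := by
    have := (Nat.le_div_iff_mul_le G.M'0).1 ht3
    rw [mul_comm]; exact this
  have hPl : (Y.take (L.M' * t)).length = L.M' * t := by
    rw [List.length_take]; omega
  have hYe : Y.take (L.M' * t) ++ Y.drop (L.M' * t) = Y := List.take_append_drop _ _
  have e1 : L.M' * L.C i ≤ L.M' * t := Nat.mul_le_mul_left _ ht1
  have e2 : L.M' * t < L.M' * (L.C i + L.M) := Nat.mul_lt_mul_of_pos_left ht2 G.M'0
  have hRY : ∀ j, R (Y.drop (L.M' * t + j)) ↔ R ((Y.drop (L.M' * t)).drop j) := by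
    intro j
    rw [List.drop_drop]
  have hlok : L.lok R (Y.take (L.M' * t)) i := by
    refine ⟨⟨him, ?_, ?_, ?_⟩, ?_⟩
    · rw [hPl]; exact Dvd.intro _ rfl
    · rw [hPl]; exact e1
    · rw [hPl]; exact e2
    · intro k hk
      obtain ⟨j, hj1, hj2, hj3⟩ := hw k (by omega)
      refine ⟨j, hj1, ?_⟩
      have hAk := G.mono (i := k) (k := i) hk him.le
      have := rule_take hR (Y.take (L.M' * t)) (Y.drop (L.M' * t)) (j := j)
        (by rw [hPl]; omega)
      rw [hYe] at this
      exact this.1 hj3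
  have hrok : L.rok R (Y.drop (L.M' * t)) i := by
    intro k hk hkm
    have hAk := G.mono (i := i + 1) (k := k) (by omega) hkm
    have e3 : L.M' * t ≤ L.M' * (L.C i + L.M - 1) := Nat.mul_le_mul_left _ (by omega)
    have e4 : L.M' * (L.C i + L.M) = L.M' * L.C i + L.M' * L.M := Nat.mul_add _ _ _
    have e5 : L.M' * (L.C i + L.M - 1) + L.M' = L.M' * (L.C i + L.M) := by
      have := G.M0
      rw [← Nat.mul_succ]
      congr 1
      omega
    have hM'0 := G.M'0
    constructor
    · obtain ⟨j, hj1, hj2, hj3⟩ := hw k hkm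
      refine ⟨j - L.M' * t, by omega, ?_⟩
      rw [← hRY]
      rw [show L.M' * t + (j - L.M' * t) = j by omega]
      exact hj3
    · intro j hj1 hj2 hj3
      rw [← hRY] at hj3
      exact hD k hkm _ (by omega) (by omega) hj3
  refine ⟨L.M' * t, hx, ?_, ?_⟩
  · rw [lam_of G φ Lb hlok]
    obtain ⟨c1, c2⟩ := contents_left G hR hRn φ (Q := Y.drop (L.M' * t)) hlok
    rw [hYe] at c1 c2
    rw [← c1, ← c2, hPl, Nat.mul_div_cancel_left _ G.M'0]
    rw [holes_take φ Y (L.hp R Y) him.le] at ht4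
    exact ht4
  · unfold rho
    have hQl : (Y.drop (L.M' * t)).length / L.M' = Y.length / L.M' - t := by
      rw [List.length_drop, Nat.sub_mul_div]
    rw [hQl]
    apply ht5
    obtain ⟨c3, c4⟩ := contents_right G hR hRn φ (Q := Y.drop (L.M' * t)) hlok hrok
    rw [hYe] at c3 c4
    unfold view
    rw [if_pos hrok, c3, c4]

/-- the word level gadget of scheme 1 -/
theorem s1w (G : L.Good n g) {R : List α → Prop} (hR : ∀ Q, R Q ↔ R (Q.take n))
    (hRn : ∀ Q, R Q → n ≤ Q.length) [Monoid S] [AddCommGroup V] (φ : α → S) (act : V → S → V)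
    (Lb : ℕ → S → List S → ℕ → Option V) (Rb : (ℕ → Option (List S × S)) → ℕ → Option V)
    (D : ℕ → S → List S → S → V) (BadT : ℕ → Prop)
    (hs : ∀ (x : S) (zl : List S) (z : S) (zr : List S) (y : S)
      (vw : ℕ → Option (List S × S)) (t t' : ℕ) (v b : V), (zl ++ z :: zr).length = L.m →
      (∀ q, vw zl.length = some q → q = (zr, y)) → Lb zl.length x zl t = some v →
      Rb vw t' = some b →
      b = act v (x * zl.prod * z * zr.prod * y) + D (t + t') x (zl ++ z :: zr) y)
    (hc : ∀ (T : ℕ) (x : S) (zs : List S) (y : S) (v : V), ¬ BadT T → zs.length = L.m →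
      ∃ i < L.m, ∀ c0, c0 + L.M ≤ T + 1 → ∃ t, c0 ≤ t ∧ t < c0 + L.M ∧ t ≤ T ∧
        Lb i x (zs.take i) t = some v ∧
        ∀ vw : ℕ → Option (List S × S), vw i = some (zs.drop (i + 1), y) →
          (Rb vw (T - t)).isSome) :
    ∃ (lam rho : List α → Option V) (nu : List α → V),
      (∀ P v, lam P = some v → L.M' ∣ P.length ∧
        ∃ i < L.m, L.M' * L.C i ≤ P.length ∧ P.length < L.M' * (L.C i + L.M)) ∧
      (∀ P Q v b, lam P = some v → rho Q = some b →
        b = act v ((P ++ Q).map φ).prod + nu (P ++ Q)) ∧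
      (∀ (Y : List α) (v : V), (∀ k ≤ L.m, ∃ j, L.A k ≤ j ∧ j < L.A k + g ∧ R (Y.drop j)) →
        ¬ BadT (Y.length / L.M') →
        (∀ k ≤ L.m, ∀ j, L.A k < j + L.M' * L.M → j < L.A k + L.M' * L.M → ¬ R (Y.drop j)) →
        ∃ x, x ≤ Y.length ∧ lam (Y.take x) = some v ∧ (rho (Y.drop x)).isSome) := by
  refine ⟨lam L R φ Lb, rho L R φ Rb, nu L R φ D, ?_, ?_, ?_⟩
  · intro P v h
    obtain ⟨i, hi⟩ := lam_some h
    exact ⟨hi.1.2.1, i, hi.1.1, hi.1.2.2.1, hi.1.2.2.2⟩
  · intro P Q v b h1 h2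
    exact sound G hR hRn φ act Lb Rb D hs h1 h2
  · intro Y v hw hT hD
    exact complete G hR hRn φ Lb Rb BadT hc Y v hw hT hD

end

end Crest.Agent.R320.S1W_184
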