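import Crest.Agent.R320.Joint_664
import Crest.Agent.R320.WallSch_870

/-! Row 320: from wall rule + two gadgets + badness to the joint (helper664). -/

set_option autoImplicit false

namespace Crest.Agent.R320.S1_664

open Crest.Agent.R320.Joint_664 Crest.Agent.R320.WallSch_870 Crest.Agent.R320.Hgt1_903

variable {α V S : Type*}

structure K (α V S : Type*) where
  C : List α → Prop
  φ : List α → S
  act : V → S → V
  R : List α → Prop
  n : ℕ
  Ok : ℕ → Prop
  LL : ℕ → Prop
  p0 : ℕ
  G : ℕ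
  B1 : ℕ
  lam1 : List α → Option V
  rho1 : List α → Option V
  nu1 : List α → V
  C2 : Set ℕ
  lam2 : List α → Option V
  rho2 : ℕ → List α → Option V
  nu2 : List α → V
  BadR : ℕ → List α → Prop

structure K.Ok' [Monoid S] [AddCommGroup V] (D : K α V S) : Prop where
  φ_nil : D.φ [] = 1
  φ_app : ∀ u w, D.φ (u ++ w) = D.φ u * D.φ w
  act_add : ∀ v v' s, D.act (v + v') s = D.act v s + D.act v' s
  act_mul : ∀ v s s', D.act (D.act v s) s' = D.act v (s * s')
  act_one : ∀ v, D.act v 1 = v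
  faith : ∀ s s', (∀ v, D.act v s = D.act v s') → s = s'
  C_left : ∀ u w, D.C (u ++ w) → D.C u
  C_right : ∀ u w, D.C (u ++ w) → D.C w
  n_pos : 0 < D.n
  G_pos : 0 < D.G
  R_loc : ∀ Q, D.R Q ↔ D.R (Q.take D.n)
  R_len : ∀ Q, D.R Q → D.n ≤ Q.length
  sep : ∀ s o, D.Ok s → D.LL o → o < s
  LL_ne : ∃ o, D.LL o
  LL_p0 : ∀ o, D.LL o → D.p0 ≤ o
  n_le : D.n ≤ D.p0
  ex : ∀ Q, D.C Q → D.G ≤ Q.length → ∃ s, D.R (Q.drop s) ∧ D.Ok s
  B1_ge : 2 * D.G ≤ D.B1
  C2_le : ∀ o ∈ D.C2, D.n ≤ o ∧ o ≤ D.p0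
  exact1 : ∀ P Q v c, D.lam1 P = some v → D.rho1 Q = some c →
    c = D.act v (D.φ (P ++ Q)) + D.nu1 (P ++ Q)
  exact2 : ∀ P Q v u, P.length ∈ D.C2 → P.length + Q.length = D.p0 → D.lam2 P = some v →
    D.rho2 P.length Q = some u → u = D.act v (D.φ (P ++ Q)) + D.nu2 (P ++ Q)
  comp1 : ∀ Z, D.C Z → D.B1 ≤ Z.length → ¬ D.BadR 0 Z → ∀ T, Nx D.R D.Ok Z T → ∀ v, ∃ o,
    D.LL o ∧ D.lam1 ((Z.take o).drop D.p0) = some v ∧ Fs D.R D.Ok D.LL (Z.drop o) (T - o) ∧
      (D.rho1 ((Z.take T).drop o)).isSome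
  comp2 : ∀ Z, D.C Z → D.p0 + D.B1 ≤ Z.length → D.BadR 0 Z → ∀ v, ∃ o ∈ D.C2,
    D.lam2 (Z.take o) = some v ∧ (D.rho2 o ((Z.take D.p0).drop o)).isSome ∧
      ∀ o' ∈ D.C2, D.BadR o' (Z.drop o) → o' = o
  bad_shift : ∀ P r, P.length ∈ D.C2 → D.B1 ≤ r.length → (D.BadR 0 (P ++ r) ↔ D.BadR P.length r)
  bad_loc : ∀ o ∈ D.C2, ∀ r s, D.C (r ++ s) → D.B1 ≤ r.length →
    (D.BadR o (r ++ s) ↔ D.BadR o r)

section
variable [AddCommGroup V] (D : K α V S)

open Classical in
noncomputable def K.nx (P : List α) : Option ℕ :=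
  if h : ∃ t, Nx D.R D.Ok P t then some h.choose else none

def K.nu (Z : List α) : V := D.act (D.nu2 (Z.take D.p0)) (D.φ (Z.drop D.p0)) + D.nu1 (Z.drop D.p0)

def K.L1 (P : List α) (v : V) : Prop :=
  D.LL P.length ∧
    D.lam1 (P.drop D.p0) = some (D.act v (D.φ (P.take D.p0)) + D.nu2 (P.take D.p0))

def K.Rel1 (r : List α) (x : ℕ × V) : Prop :=
  Fs D.R D.Ok D.LL r x.1 ∧ D.rho1 (r.take x.1) = some x.2

open Classical in
noncomputable def K.right1 (r : List α) : Option (ℕ × V) :=
  if h : ∃ x, D.Rel1 r x then some h.choose else none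

def K.L2 (P : List α) (v : V) : Prop := P.length ∈ D.C2 ∧ D.lam2 P = some v

/-- offset, distance of the next anchor, value at `p0` -/
def K.Rel2 (r : List α) (x : ℕ × ℕ × V) : Prop :=
  x.1 ∈ D.C2 ∧ D.BadR x.1 r ∧ (∀ o' ∈ D.C2, D.BadR o' r → o' = x.1) ∧
    D.R (r.drop x.2.1) ∧ D.Ok (x.1 + x.2.1) ∧
    (∀ s, s < x.2.1 → D.R (r.drop s) → ¬ D.Ok (x.1 + s)) ∧
    D.rho2 x.1 (r.take (D.p0 - x.1)) = some x.2.2

open Classical in
noncomputable def K.right2 (r : List α) : Option (ℕ × V) :=
  if h : ∃ x, D.Rel2 r x then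
    some (h.choose.2.1, D.act h.choose.2.2 (D.φ ((r.take h.choose.2.1).drop (D.p0 - h.choose.1))) +
      D.nu1 ((r.take h.choose.2.1).drop (D.p0 - h.choose.1)))
  else none

/-- the joint data -/
noncomputable def K.toJ : J α V S where
  C := D.C
  φ := D.φ
  act := D.act
  nx := D.nx
  nu := D.nu
  L1 := D.L1
  D1 := D.G
  right1 := D.right1
  L2 := D.L2
  D2 := D.B1
  right2 := D.right2
  n0 := D.n
  p0 := D.p0
  G := D.G
  B0 := D.p0 + D.B1
end

variable [Monoid S] [AddCommGroup V] {D : K α V S}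

theorem nx_some {P : List α} {t : ℕ} : D.nx P = some t ↔ Nx D.R D.Ok P t := by
  classical
  unfold K.nx
  constructor
  · intro h
    split_ifs at h with h1
    have := h1.choose_spec
    rw [Option.some.injEq] at h
    rwa [h] at this
  · intro h
    have h1 : ∃ t, Nx D.R D.Ok P t := ⟨t, h⟩
    rw [dif_pos h1, Nx_uniq h1.choose_spec h]

theorem nx_none {P : List α} : D.nx P = none ↔ ∀ t, ¬ Nx D.R D.Ok P t := by
  constructor
  · intro h t ht
    rw [nx_some.2 ht] at h
    exact absurd h (by simp)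
  · intro h
    by_contra hne
    obtain ⟨q, hq⟩ := Option.ne_none_iff_exists'.1 hne
    exact h q (nx_some.1 hq)

theorem Nx_fit (hD : D.Ok') {P : List α} {t : ℕ} (h : Nx D.R D.Ok P t) : t + D.n ≤ P.length :=
  R_drop_len (hD.R_len) h.1 hD.n_pos

theorem Ok_pos (hD : D.Ok') {t : ℕ} (h : D.Ok t) : D.p0 < t := by
  obtain ⟨o, ho⟩ := hD.LL_ne
  have h1 := hD.sep _ _ h ho
  have h2 := hD.LL_p0 _ ho
  omega

theorem L1_none (hD : D.Ok') (P : List α) (v : V) (h : D.L1 P v) : D.nx P = none := by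
  rw [nx_none]
  intro t ht
  have h1 := hD.sep _ _ ht.2.1 h.1
  have h2 := Nx_fit hD ht
  omega

theorem L2_none (hD : D.Ok') (P : List α) (v : V) (h : D.L2 P v) : D.nx P = none := by
  rw [nx_none]
  intro t ht
  have h1 := Ok_pos hD ht.2.1
  have h2 := Nx_fit hD ht
  have h3 := (hD.C2_le _ h.1).2
  omega

/-- a zone of the class ends within `G` -/
theorem Nx_G (hD : D.Ok') {Z : List α} (hC : D.C Z) (hl : D.G ≤ Z.length) :
    ∃ T, Nx D.R D.Ok Z T ∧ T + D.n ≤ D.G := by
  have hC' : D.C (Z.take D.G) := by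
    apply hD.C_left _ (Z.drop D.G)
    rwa [List.take_append_drop]
  obtain ⟨s, hs1, hs2⟩ := hD.ex _ hC' (by rw [List.length_take]; omega)
  obtain ⟨t, -, ht⟩ := exists_Nx hs1 hs2
  have h1 := Nx_fit hD ht
  rw [List.length_take] at h1
  refine ⟨t, ?_, by omega⟩
  have := (Nx_app hD.R_loc (Q := Z.take D.G) (t := t) (Ok := D.Ok) (Z.drop D.G)
    (by rw [List.length_take]; omega)).2 ht
  rwa [List.take_append_drop] at this

theorem not_good (hD : D.Ok') {Z : List α} (hC : D.C Z) (hl : D.B1 ≤ Z.length)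
    (h : ¬ D.toJ.Good Z) : D.BadR 0 Z := by
  by_contra hb
  apply h
  intro v
  have hB := hD.B1_ge
  obtain ⟨T, hT, hTG⟩ := Nx_G hD hC (by omega)
  obtain ⟨o, h1, h2, h3, h4⟩ := hD.comp1 Z hC hl hb T hT
    (D.act v (D.φ (Z.take D.p0)) + D.nu2 (Z.take D.p0))
  have h5 := hD.sep _ _ hT.2.1 h1
  have h6 := hD.LL_p0 _ h1
  have h7 := hD.n_le
  have hlen : (Z.take o).length = o := by rw [List.length_take]; omega
  refine ⟨Z.take o, (Z.drop o).take D.G, (Z.drop o).drop D.G, ?_, ?_, ?_, ?_, ?_, ?_⟩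
  · rw [List.take_append_drop, List.take_append_drop]
  · change D.n ≤ _; omega
  · change D.p0 ≤ _; omega
  · refine ⟨by rw [hlen]; exact h1, ?_⟩
    rw [h2, List.take_take, min_eq_left h6]
  · change _ = D.G
    rw [List.length_take, List.length_drop]; omega
  · have hF : Fs D.R D.Ok D.LL ((Z.drop o).take D.G) (T - o) := by
      have := (Fs_app hD.R_loc (Q := (Z.drop o).take D.G) (t := T - o) (Ok := D.Ok) (LL := D.LL)
        ((Z.drop o).drop D.G) (by rw [List.length_take, List.length_drop]; omega)).1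
          (by rwa [List.take_append_drop])
      exact this
    obtain ⟨c, hc⟩ := Option.isSome_iff_exists.1 h4
    have hRel : ∃ x, D.Rel1 ((Z.drop o).take D.G) x := by
      refine ⟨(T - o, c), hF, ?_⟩
      rw [← hc]
      congr 1
      rw [List.take_take, min_eq_left (by omega), List.drop_take]
    change (D.right1 _).isSome
    unfold K.right1
    rw [dif_pos hRel]
    rfl

theorem sound1 (hD : D.Ok') (P : List α) (v : V) (r : List α) (b : ℕ) (c : V)
    (hL : D.L1 P v) (_hr : r.length = D.G) (hR : D.right1 r = some (b, c)) :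
    D.nx (P ++ r) = some (P.length + b) ∧
      D.act v (D.φ ((P ++ r).take (P.length + b))) + D.nu ((P ++ r).take (P.length + b)) = c := by
  classical
  have hRel : D.Rel1 r (b, c) := by
    unfold K.right1 at hR
    split_ifs at hR with h
    have := h.choose_spec
    rw [Option.some.injEq] at hR
    rwa [hR] at this
  obtain ⟨hF, hrho⟩ := hRel
  have hN := junc hD.sep hL.1 hF
  refine ⟨nx_some.2 hN, ?_⟩
  have hp := hD.LL_p0 _ hL.1
  have e1 : (P ++ r).take (P.length + b) = P ++ r.take b := by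
    rw [List.take_append]
    simp
  have h2 := hD.exact1 _ _ _ _ hL.2 hrho
  rw [e1]
  unfold K.nu
  have e2 : (P ++ r.take b).take D.p0 = P.take D.p0 := by
    rw [List.take_append_of_le_length hp]
  have e3 : (P ++ r.take b).drop D.p0 = P.drop D.p0 ++ r.take b := by
    rw [List.drop_append_of_le_length hp]
  rw [e2, e3]
  simp only at h2
  rw [h2, hD.act_add, hD.act_mul, ← hD.φ_app]
  have e4 : P.take D.p0 ++ (P.drop D.p0 ++ r.take b) = P ++ r.take b := by
    rw [← List.append_assoc, List.take_append_drop]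
  rw [e4]
  abel

theorem sound2 (hD : D.Ok') (P : List α) (v : V) (r : List α) (b : ℕ) (c : V)
    (hC : D.C (P ++ r)) (hG : ¬ D.toJ.Good (P ++ r)) (hL : D.L2 P v) (hr : r.length = D.B1)
    (hR : D.right2 r = some (b, c)) :
    D.nx (P ++ r) = some (P.length + b) ∧
      D.act v (D.φ ((P ++ r).take (P.length + b))) + D.nu ((P ++ r).take (P.length + b)) = c := by
  classical
  unfold K.right2 at hR
  split_ifs at hR with h
  have hspec := h.choose_spec
  set x := h.choose with hx
  obtain ⟨o, t, u⟩ := x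
  obtain ⟨ho, hb, huniq, hw, hok, hfirst, hrho⟩ := hspec
  simp only at ho hb huniq hw hok hfirst hrho hR
  have hB : D.BadR 0 (P ++ r) := not_good hD hC (by
    rw [List.length_append]; omega) hG
  have hB2 := (hD.bad_shift P r hL.1 hr.ge).1 hB
  have hPo : P.length = o := huniq _ hL.1 hB2
  simp only [Option.some.injEq, Prod.mk.injEq] at hR
  obtain ⟨rfl, hc⟩ := hR
  have hCP := (hD.C2_le _ hL.1).2
  have hd : ∀ s, (P ++ r).drop (P.length + s) = r.drop s := by
    intro s
    simp [List.drop_append]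
  have hN : Nx D.R D.Ok (P ++ r) (P.length + t) := by
    refine ⟨by rw [hd]; exact hw, by rw [hPo]; exact hok, ?_⟩
    intro s hs hRs hOs
    have h1 := Ok_pos hD hOs
    obtain ⟨s', rfl⟩ := Nat.exists_eq_add_of_le (show P.length ≤ s by omega)
    rw [hd] at hRs
    rw [hPo] at hOs
    exact hfirst s' (by omega) hRs hOs
  refine ⟨nx_some.2 hN, ?_⟩
  have hp := Ok_pos hD hN.2.1
  have hfit := Nx_fit hD hN
  rw [List.length_append] at hfit
  have e1 : (P ++ r).take (P.length + t) = P ++ r.take t := by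
    rw [List.take_append]
    simp
  have hQl : P.length + (r.take (D.p0 - o)).length = D.p0 := by
    rw [List.length_take]; omega
  rw [← hPo] at hrho hQl
  have h2 := hD.exact2 P (r.take (D.p0 - P.length)) v u hL.1 hQl hL.2 hrho
  rw [e1]
  unfold K.nu
  have e2 : (P ++ r.take t).take D.p0 = P ++ r.take (D.p0 - P.length) := by
    rw [List.take_append, List.take_of_length_le hCP, List.take_take, min_eq_left (by omega)]
  have e3 : (P ++ r.take t).drop D.p0 = (r.take t).drop (D.p0 - o) := by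
    rw [List.drop_append, List.drop_eq_nil_of_le hCP, hPo]
    simp
  rw [e2, e3, ← hc, h2, hD.act_add, hD.act_mul, ← hD.φ_app]
  have e4 : P ++ r.take (D.p0 - P.length) ++ (r.take t).drop (D.p0 - o) = P ++ r.take t := by
    rw [List.append_assoc]
    congr 1
    have : r.take (D.p0 - P.length) = (r.take t).take (D.p0 - o) := by
      rw [List.take_take, min_eq_left (by omega), hPo]
    rw [this, List.take_append_drop]
  rw [e4]
  abel

theorem comp2 (hD : D.Ok') (Z : List α) (hC : D.C Z) (hl : D.p0 + D.B1 ≤ Z.length)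
    (hG : ¬ D.toJ.Good Z) (v : V) : ∃ P r s, Z = P ++ (r ++ s) ∧
      D.n ≤ P.length ∧ D.L2 P v ∧ r.length = D.B1 ∧ (D.right2 r).isSome := by
  classical
  have hB := not_good hD hC (by omega) hG
  obtain ⟨o, ho, hlam, hrho, huniq⟩ := hD.comp2 Z hC hl hB v
  obtain ⟨h1, h2⟩ := hD.C2_le _ ho
  have hB1 := hD.B1_ge
  obtain ⟨T, hT, hTG⟩ := Nx_G hD hC (by omega)
  have hTp := Ok_pos hD hT.2.1
  have hlen : (Z.take o).length = o := by rw [List.length_take]; omega
  have hrl : ((Z.drop o).take D.B1).length = D.B1 := by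
    rw [List.length_take, List.length_drop]; omega
  refine ⟨Z.take o, (Z.drop o).take D.B1, (Z.drop o).drop D.B1, ?_, ?_, ?_, hrl, ?_⟩
  · rw [List.take_append_drop, List.take_append_drop]
  · omega
  · exact ⟨by rw [hlen]; exact ho, hlam⟩
  · have hCd : D.C ((Z.drop o).take D.B1 ++ (Z.drop o).drop D.B1) := by
      rw [List.take_append_drop]
      apply hD.C_right (Z.take o)
      rwa [List.take_append_drop]
    have hbo : D.BadR o ((Z.drop o).take D.B1) := by
      have h3 := (hD.bad_shift (Z.take o) (Z.drop o) (by rw [hlen]; exact ho)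
        (by rw [List.length_drop]; omega)).1 (by rwa [List.take_append_drop])
      rw [hlen] at h3
      exact (hD.bad_loc o ho _ _ hCd hrl.ge).1 (by rwa [List.take_append_drop])
    obtain ⟨u, hu⟩ := Option.isSome_iff_exists.1 hrho
    have hdd : ∀ s, Z.drop (o + s) = (Z.drop o).drop s := by
      intro s; rw [List.drop_drop]
    have hRr : ∀ s, s + D.n ≤ D.B1 → (D.R (((Z.drop o).take D.B1).drop s) ↔ D.R (Z.drop (o + s))) := by
      intro s hs
      rw [hdd]
      have := R_drop_app hD.R_loc (Q := (Z.drop o).take D.B1) (t := s) ((Z.drop o).drop D.B1)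
        (by omega)
      rw [List.take_append_drop] at this
      exact this.symm
    have hRel : ∃ x, D.Rel2 ((Z.drop o).take D.B1) x := by
      refine ⟨(o, T - o, u), ho, hbo, ?_, ?_, ?_, ?_, ?_⟩
      · intro o' ho' hbad
        apply huniq o' ho'
        have := (hD.bad_loc o' ho' _ _ hCd hrl.ge).2 hbad
        rwa [List.take_append_drop] at this
      · simp only
        rw [hRr _ (by omega), Nat.add_sub_cancel' (by omega)]
        exact hT.1
      · simp only
        rw [Nat.add_sub_cancel' (by omega)]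
        exact hT.2.1
      · simp only
        intro s hs hRs
        rw [hRr _ (by omega)] at hRs
        exact hT.2.2 _ (by omega) hRs
      · simp only
        rw [← hu]
        congr 1
        rw [List.take_take, min_eq_left (by omega), List.drop_take]
    change (D.right2 _).isSome
    unfold K.right2
    rw [dif_pos hRel]
    rfl

/-- **the wall data give the joint** -/
theorem toJ_ok (hD : D.Ok') : D.toJ.Ok where
  φ_nil := hD.φ_nil
  φ_app := hD.φ_app
  act_add := hD.act_add
  act_mul := hD.act_mul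
  act_one := hD.act_one
  faith := hD.faith
  C_left := hD.C_left
  C_right := hD.C_right
  nx_mono := by
    intro P w t h
    change D.nx _ = _
    have h1 := nx_some.1 (show D.nx P = some t from h)
    exact nx_some.2 ((Nx_app hD.R_loc w (Nx_fit hD h1)).2 h1)
  nx_pos := by
    intro P t h
    have h1 := nx_some.1 (show D.nx P = some t from h)
    have := Ok_pos hD h1.2.1
    omega
  nx_le := by
    intro P t h
    have h1 := nx_some.1 (show D.nx P = some t from h)
    have := Nx_fit hD h1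
    omega
  nx_short := by
    intro P x t h h'
    have h1 := nx_some.1 (show D.nx (P ++ [x]) = some t from h')
    have h2 := nx_none.1 (show D.nx P = none from h)
    have h3 := Nx_fit hD h1
    have h4 : ¬ t + D.n ≤ P.length := fun h4 => h2 t ((Nx_app hD.R_loc [x] h4).1 h1)
    have h5 : ((P ++ [x]).drop t).length = D.n := by
      rw [List.length_drop]
      simp only [List.length_append, List.length_singleton] at h3 ⊢
      omega
    refine ⟨?_, h5.le⟩
    change D.nx _ = none
    rw [nx_none]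
    intro t' ht'
    have h6 := Nx_fit hD ht'
    have h7 := Ok_pos hD ht'.2.1
    omega
  nx_ex := by
    intro Q hQ hG
    obtain ⟨T, hT, -⟩ := Nx_G hD hQ hG
    change D.nx Q ≠ none
    rw [nx_some.2 hT]
    simp
  D1_pos := hD.G_pos
  D2_pos := by
    have h1 := hD.G_pos
    have h2 := hD.B1_ge
    change 0 < D.B1
    omega
  L1_none := L1_none hD
  L2_none := L2_none hD
  L2_le := fun P v h => (hD.C2_le _ h.1).2
  sound1 := sound1 hD
  sound2 := sound2 hD
  comp2 := comp2 hD

/-- **the wall data give height 2** -/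
theorem main [Finite α] [Finite V] (hD : D.Ok') (s : S) :
    ∃ E : Language α, H 2 E ∧ ∀ w, D.C w → (w ∈ E ↔ D.φ w = s) :=
  Joint_664.main (toJ_ok hD) s

end Crest.Agent.R320.S1_664
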