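import Crest.Agent.R320.S1_5
import Crest.Agent.R320.Names_570
import Crest.Agent.R320.RandF_808

/-!
# Row 320, leaf (S1a) of helper5 #13143: names, availability and noise for `S1_5.Par`
(755 / 570's names, 237 / 808's noise).
-/

set_option autoImplicit false

namespace Crest.Agent.R320.S1a_112

open Finset Crest.Agent.R320.S1_5

universe uS uV uW

/-- the names of 755 / 570 as names of `S1_5.Par` -/
theorem exists_names5 {S : Type uS} {V : Type uV} {W : Type uW} [Monoid S] [Finite S]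
    [AddCommGroup V] [Finite V] [AddCommGroup W] [Finite W] (act : V → S → V) (e : ℕ → S → W)
    (F : S → W → V) (m : ℕ) :
    ∃ r : ℕ, ∀ B0 : ℕ, ∃ (Ms : Finset ℕ) (Nm : Type (max uS uV uW)) (_ : Finite Nm)
      (LC RC : Nm → ℕ → Prop)
      (lv : Nm → ℕ) (gg : Nm → S) (wl : Nm → W) (hh : Nm → S) (wr : Nm → W) (vv bb : Nm → V),
      Ms.card ≤ r ∧ (∀ p ∈ Ms, p.Prime ∧ B0 < p) ∧ (∀ c, lv c < m) ∧
      (∀ c t, LC c (t + ∏ p ∈ Ms, p) ↔ LC c t) ∧ (∀ c t, RC c (t + ∏ p ∈ Ms, p) ↔ RC c t) ∧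
      (∀ c z, F (gg c * z * hh c) (wl c + e (lv c) z + wr c) + act (vv c) (gg c * z * hh c) =
        bb c) ∧
      (∀ c c' d d' o o' q q', LC c o → RC c' o' → LC d q → RC d' q' → o + o' = q + q' →
        (c = c' ∧ d = d') ∨ (vv c = vv d ∧ bb c' = bb d')) ∧
      (∀ T : ℕ, (∀ p ∈ Ms, ¬ p ∣ T) → ∀ i < m, ∀ s, s + ∏ p ∈ Ms, p ≤ T + 1 →
        ∀ (g : S) (wl' : W) (k : S) (wr' : W) (v b : V),
        (∀ z, F (g * z * k) (wl' + e i z + wr') + act v (g * z * k) = b) →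
        ∃ c om, lv c = i ∧ gg c = g ∧ wl c = wl' ∧ hh c = k ∧ wr c = wr' ∧ vv c = v ∧
          (s ≤ om ∧ om < s + ∏ p ∈ Ms, p) ∧ om ≤ T ∧ LC c om ∧ RC c (T - om)) := by
  classical
  let N0 := Fin m × S × W × S × W × V
  let bv : N0 → V := fun n =>
    F (n.2.1 * 1 * n.2.2.2.1) (n.2.2.1 + e n.1 1 + n.2.2.2.2.1) +
      act n.2.2.2.2.2 (n.2.1 * 1 * n.2.2.2.1)
  let gd : N0 → Prop := fun n => ∀ z,
    F (n.2.1 * z * n.2.2.2.1) (n.2.2.1 + e n.1 z + n.2.2.2.2.1) +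
      act n.2.2.2.2.2 (n.2.1 * z * n.2.2.2.1) = bv n
  let Nm := {n : N0 // gd n}
  let col : Nm → V × V := fun n => (n.1.2.2.2.2.2, bv n.1)
  obtain ⟨r, hr⟩ := Names_570.exists_names col
  refine ⟨r, fun B0 => ?_⟩
  obtain ⟨Ms, nmL, nmR, hcard, hprime, hpL, hpR, hN1, hN3, hN2⟩ := hr B0
  refine ⟨Ms, Nm, inferInstance, fun c t => nmL t = some c, fun c t => nmR t = some c,
    fun c => (c.1.1 : ℕ), fun c => c.1.2.1, fun c => c.1.2.2.1, fun c => c.1.2.2.2.1,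
    fun c => c.1.2.2.2.2.1, fun c => c.1.2.2.2.2.2, fun c => bv c.1, hcard, hprime,
    fun c => c.1.1.2, fun c t => by show nmL _ = _ ↔ nmL _ = _; rw [hpL],
    fun c t => by show nmR _ = _ ↔ nmR _ = _; rw [hpR], fun c z => c.2 z, ?_, ?_⟩
  · intro c c' d d' o o' q q' h1 h2 h3 h4 h5
    by_cases hB : ∃ p ∈ Ms, p ∣ o + o'
    · right
      rcases hN2 o o' q q' c c' d d' h5 hB h1 h2 h3 h4 with ⟨rfl, rfl⟩ | ⟨rfl, rfl, hc⟩
      · exact ⟨rfl, rfl⟩
      · exact ⟨congrArg Prod.fst hc, (congrArg Prod.snd hc).symm⟩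
    · left
      push Not at hB
      refine ⟨hN1 o o' c c' hB h1 h2, hN1 q q' d d' ?_ h3 h4⟩
      rw [← h5]; exact hB
  · intro T hT i hi s hs g wl' k wr' v b hb
    have hgd : gd (⟨i, hi⟩, g, wl', k, wr', v) := by
      intro z
      exact (hb z).trans (hb 1).symm
    obtain ⟨t, ht1, ht2, ht3, ht4, ht5⟩ := hN3 T ⟨(⟨i, hi⟩, g, wl', k, wr', v), hgd⟩ s hT hs
    exact ⟨⟨(⟨i, hi⟩, g, wl', k, wr', v), hgd⟩, t, rfl, rfl, rfl, rfl, rfl, rfl, ⟨ht1, ht2⟩, ht3,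
      ht4, ht5⟩

/-- **Scheme 1, closed form over `S1_5`.**  `m`, `r` depend on the finite monoid and the finite
token space only; for every bound `B0` there are at most `r` primes `> B0` such that for every
alphabet, letter map, left-looking small wall rule and every geometry the parameter record exists:
`Ok` (hence `Ok.sound` on every text), the right name pattern is periodic, and every token is cut
in every `Y` with no prime dividing `|Y| / Mq` in which no level is in doubt. -/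
theorem exists_par (S : Type uS) (V : Type uV) [Monoid S] [Fintype S] [AddCommGroup V] [Fintype V]
    (act : V → S → V) :
    ∃ (Wt : Type) (_ : AddCommGroup Wt) (_ : Finite Wt) (m r : ℕ), ∀ B0 : ℕ,
      ∃ (Nm : Type (max uS uV)) (_ : Finite Nm) (Ms : Finset ℕ), Ms.card ≤ r ∧
      (∀ p ∈ Ms, p.Prime ∧ B0 < p) ∧
      ∀ (α : Type*) (φ : α → S) (Ws : List α → Prop) (ns G D Mq : ℕ) (B lo : ℕ → ℕ),
        D ≤ G → 0 < Mq → (∀ U W : List α, ns ≤ W.length → (Ws (U ++ W) ↔ Ws W)) →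
        (∀ j, B j + G ≤ B (j + 1)) → (∀ i, B i + G ≤ Mq * lo i) →
        (∀ i, Mq * (lo i + ∏ p ∈ Ms, p) + ns ≤ B (i + 1)) →
        ∃ p : Par α S V Wt Nm, p.φ = φ ∧ p.act = act ∧ p.Ws = Ws ∧ p.ns = ns ∧ p.G = G ∧
          p.D = D ∧ p.Mq = Mq ∧ p.m = m ∧ p.B = B ∧
          p.cell = (fun i om => lo i ≤ om ∧ om < lo i + ∏ p ∈ Ms, p) ∧ Ok p ∧
          (∀ c, p.lv c < m) ∧
          (∀ c t, p.RC c (t + ∏ p ∈ Ms, p) ↔ p.RC c t) ∧
          ∀ (Y : List α) (v : V), (∀ q ∈ Ms, ¬ q ∣ Y.length / Mq) →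
            (∀ i < m, Mq * (lo i + ∏ p ∈ Ms, p) ≤ Y.length) →
            (∀ i < m, ∀ om om', p.cell i om → p.cell i om' → p.Mq * om ≤ Y.length →
              ph p.φ ((Y.drop (p.Mq * om)).drop (H p (Y.drop (p.Mq * om)) (p.Mq * om') (i + 1))) =
                ph p.φ ((Y.drop (p.Mq * om)).drop
                  (H p (Y.drop (p.Mq * om)) (p.Mq * om) (i + 1))) ∧
              wt p (Y.drop (p.Mq * om)) (p.Mq * om') (i + 1) p.m =
                wt p (Y.drop (p.Mq * om)) (p.Mq * om) (i + 1) p.m) →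
            ∃ P Q c, P ++ Q = Y ∧ LL p P c ∧ RR p Q c ∧ p.vv c = v := by
  classical
  obtain ⟨m, N, e, F, hN, hF⟩ := RandF808.exists_noise S V act
  have : NeZero N := ⟨hN.ne'⟩
  obtain ⟨r, hr⟩ := exists_names5 act e F m
  refine ⟨ZMod N × ZMod N, inferInstance, inferInstance, m, r, fun B0 => ?_⟩
  obtain ⟨Ms, Nm, hNm, LC, RC, lv, gg, wl, hh, wr, vv, bb, hcard, hprime, hlv, hpL, hpR, hgood,
    hnames, havail⟩ := hr B0
  refine ⟨Nm, hNm, Ms, hcard, hprime, ?_⟩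
  intro α φ Ws ns G D Mq B lo hD hMq hloc hB0 hcl hcr
  let p : Par α S V (ZMod N × ZMod N) Nm :=
    { φ := φ, act := act, Ws := Ws, ns := ns, G := G, D := D, Mq := Mq, m := m, B := B
      cell := fun i om => lo i ≤ om ∧ om < lo i + ∏ p ∈ Ms, p
      e := e, F := F, LC := LC, RC := RC, lv := lv, gg := gg, wl := wl, hh := hh, wr := wr
      vv := vv, bb := bb }
  have hok : Ok p :=
    { hD := hD
      hM := hMq
      loc := hloc
      B0 := hB0
      cellL := fun i om h => (hcl i).trans (Nat.mul_le_mul_left _ h.1)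
      cellR := fun i om h => by
        have h1 : Mq * om ≤ Mq * (lo i + ∏ p ∈ Ms, p) := Nat.mul_le_mul_left _ h.2.le
        have h2 := hcr i
        show Mq * om + ns ≤ B (i + 1)
        omega
      good := hgood
      names := hnames }
  refine ⟨p, rfl, rfl, rfl, rfl, rfl, rfl, rfl, rfl, rfl, rfl, hok, hlv, hpR, ?_⟩
  intro Y v hB hlen hdoubt
  refine hok.complete Y v (hF _ _ v) ?_ hdoubt
  intro i hi g wl' k wr' b hb
  have hlen' : lo i + ∏ p ∈ Ms, p ≤ Y.length / Mq := by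
    rw [Nat.le_div_iff_mul_le hMq, Nat.mul_comm]
    exact hlen i hi
  obtain ⟨c, om, h1, h2, h3, h4, h5, h6, h7, h8, h9, h10⟩ :=
    havail (Y.length / Mq) hB i hi (lo i) (by omega) g wl' k wr' v b hb
  refine ⟨c, om, h1, h2, h3, h4, h5, h6, h7, h9, h10, ?_⟩
  calc Mq * om ≤ Mq * (Y.length / Mq) := Nat.mul_le_mul_left _ h8
    _ ≤ Y.length := Nat.mul_div_le _ _

end Crest.Agent.R320.S1a_112
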