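import Mathlib
import Crest.Agent.R320.S1_5
import Crest.Agent.R320.Names_570
import Crest.Agent.R320.RandF_808

/-!
Row 320, helper257: leaf (S1a) of helper5 #13143: names, `good` and availability for `S1_5`.
-/

set_option autoImplicit false

namespace Crest.Agent.R320.S1a_257

open Crest.Agent.R320.S1_5

/-- a good context: level, left product, left weight, right product, right weight, token -/
def GoodC {S V W : Type} [Monoid S] [AddCommGroup V] [AddCommGroup W] (act : V → S → V)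
    (e : ℕ → S → W) (F : S → W → V) {m : ℕ} (c : Fin m × S × W × S × W × V) : Prop :=
  ∀ z : S, F (c.2.1 * z * c.2.2.2.1) (c.2.2.1 + e c.1 z + c.2.2.2.2.1) +
      act c.2.2.2.2.2 (c.2.1 * z * c.2.2.2.1) =
    F (c.2.1 * 1 * c.2.2.2.1) (c.2.2.1 + e c.1 1 + c.2.2.2.2.1) +
      act c.2.2.2.2.2 (c.2.1 * 1 * c.2.2.2.1)

/-- (S1a): all finite data of scheme 1.  The moduli `Ms` come after the number `r`. -/
theorem inst (S V : Type) [Monoid S] [Finite S] [AddCommGroup V] [Finite V] (act : V → S → V) :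
    ∃ (m N : ℕ) (e : ℕ → S → ZMod N × ZMod N) (F : S → ZMod N × ZMod N → V) (Nm : Type)
      (_ : Finite Nm) (lv : Nm → ℕ) (gg : Nm → S) (wl : Nm → ZMod N × ZMod N) (hh : Nm → S)
      (wr : Nm → ZMod N × ZMod N) (vv bb : Nm → V) (r : ℕ),
      0 < N ∧ 0 < m ∧ (∀ c, lv c < m) ∧
      (∀ s w v, ∃ i < m, ∀ g x h, g * x * h = s → ∀ z,
        F (g * z * h) (w - e i x + e i z) + act v (g * z * h) = F s w + act v s) ∧
      (∀ c z, F (gg c * z * hh c) (wl c + e (lv c) z + wr c) + act (vv c) (gg c * z * hh c) =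
        bb c) ∧
      ∀ B : ℕ, ∃ (Ms : Finset ℕ) (LC RC : Nm → ℕ → Prop),
        Ms.card ≤ r ∧ (∀ k ∈ Ms, k.Prime ∧ B < k) ∧ 0 < ∏ k ∈ Ms, k ∧
        (∀ c t, LC c (t + ∏ k ∈ Ms, k) ↔ LC c t) ∧ (∀ c t, RC c (t + ∏ k ∈ Ms, k) ↔ RC c t) ∧
        (∀ c c' d d' o o' q q', LC c o → RC c' o' → LC d q → RC d' q' → o + o' = q + q' →
          (c = c' ∧ d = d') ∨ (vv c = vv d ∧ bb c' = bb d')) ∧
        (∀ T : ℕ, (∀ k ∈ Ms, ¬ k ∣ T) → ∀ i < m, ∀ (g : S) (w1 : ZMod N × ZMod N) (h : S)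
          (w2 : ZMod N × ZMod N) (v b : V),
          (∀ z, F (g * z * h) (w1 + e i z + w2) + act v (g * z * h) = b) →
          ∀ s, s + ∏ k ∈ Ms, k ≤ T + 1 → ∃ c om, lv c = i ∧ gg c = g ∧ wl c = w1 ∧ hh c = h ∧
            wr c = w2 ∧ vv c = v ∧ s ≤ om ∧ om < s + ∏ k ∈ Ms, k ∧ om ≤ T ∧ LC c om ∧
            RC c (T - om)) := by
  classical
  haveI := Fintype.ofFinite S
  haveI := Fintype.ofFinite V
  obtain ⟨m, N, e, F, hN, hF⟩ := RandF808.exists_noise S V act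
  haveI : NeZero N := ⟨hN.ne'⟩
  have hm : 0 < m := by
    obtain ⟨i, hi, -⟩ := hF 1 0 0
    exact lt_of_le_of_lt (Nat.zero_le _) hi
  let Nm : Type := {c : Fin m × S × (ZMod N × ZMod N) × S × (ZMod N × ZMod N) × V //
    GoodC act e F c}
  let bb : Nm → V := fun c => F (c.1.2.1 * 1 * c.1.2.2.2.1)
      (c.1.2.2.1 + e c.1.1 1 + c.1.2.2.2.2.1) + act c.1.2.2.2.2.2 (c.1.2.1 * 1 * c.1.2.2.2.1)
  haveI : Finite Nm := Subtype.finite
  obtain ⟨r, hr⟩ := Names_570.exists_names (N := Nm) (C := V × V)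
    (fun c => (c.1.2.2.2.2.2, bb c))
  refine ⟨m, N, e, F, Nm, inferInstance, fun c => (c.1.1 : ℕ), fun c => c.1.2.1,
    fun c => c.1.2.2.1, fun c => c.1.2.2.2.1, fun c => c.1.2.2.2.2.1, fun c => c.1.2.2.2.2.2, bb,
    r, hN, hm, fun c => c.1.1.2, hF, fun c z => c.2 z, fun B => ?_⟩
  obtain ⟨Ms, nmL, nmR, h1, h2, h3, h4, h5, h6, h7⟩ := hr B
  have hM : 0 < ∏ k ∈ Ms, k := Finset.prod_pos fun k hk => (h2 k hk).1.pos
  refine ⟨Ms, fun c o => nmL o = some c, fun c o => nmR o = some c, h1, h2, hM,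
    fun c t => by show nmL _ = _ ↔ nmL _ = _; rw [h3],
    fun c t => by show nmR _ = _ ↔ nmR _ = _; rw [h4], ?_, ?_⟩
  · intro c c' d d' o o' q q' a1 a2 a3 a4 hT
    by_cases hd : ∃ k ∈ Ms, k ∣ o + o'
    · rcases h7 o o' q q' c c' d d' hT hd a1 a2 a3 a4 with ⟨e1, e2⟩ | ⟨e1, e2, e3⟩
      · subst e1 e2
        exact Or.inr ⟨rfl, rfl⟩
      · subst e1 e2
        have e4 := Prod.mk.inj e3
        exact Or.inr ⟨e4.1, e4.2.symm⟩
    · push Not at hd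
      have hd' : ∀ k ∈ Ms, ¬ k ∣ q + q' := by rw [← hT]; exact hd
      exact Or.inl ⟨h5 o o' c c' hd a1 a2, h5 q q' d d' hd' a3 a4⟩
  · intro T hT i hi g w1 h w2 v b hz s hs
    let c : Nm := ⟨(⟨i, hi⟩, g, w1, h, w2, v), fun z => by
      show F (g * z * h) (w1 + e i z + w2) + act v (g * z * h) =
        F (g * 1 * h) (w1 + e i 1 + w2) + act v (g * 1 * h)
      rw [hz z, hz 1]⟩
    obtain ⟨t, b1, b2, b3, b4, b5⟩ := h6 T c s hT hs
    exact ⟨c, t, rfl, rfl, rfl, rfl, rfl, rfl, b1, b2, b3, b4, b5⟩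

/-- `hN` of `S1_5.Ok.complete` from the availability clause. -/
theorem hN_of {α S V Wt Nm : Type} [Monoid S] [AddCommGroup V] [AddCommGroup Wt]
    (p : Par α S V Wt Nm) (M : ℕ) (Y : List α) (v : V)
    (hav : ∀ i < p.m, ∀ (g : S) (w1 : Wt) (h : S) (w2 : Wt) (b : V),
      (∀ z, p.F (g * z * h) (w1 + p.e i z + w2) + p.act v (g * z * h) = b) →
      ∀ s, s + M ≤ Y.length / p.Mq + 1 → ∃ c om, p.lv c = i ∧ p.gg c = g ∧ p.wl c = w1 ∧
        p.hh c = h ∧ p.wr c = w2 ∧ p.vv c = v ∧ s ≤ om ∧ om < s + M ∧ om ≤ Y.length / p.Mq ∧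
        p.LC c om ∧ p.RC c (Y.length / p.Mq - om))
    (hcell : ∀ i < p.m, ∃ s, s + M ≤ Y.length / p.Mq + 1 ∧
      ∀ om, s ≤ om → om < s + M → p.cell i om) :
    ∀ i < p.m, ∀ (g : S) (wl : Wt) (k : S) (wr : Wt) (b : V),
      (∀ z, p.F (g * z * k) (wl + p.e i z + wr) + p.act v (g * z * k) = b) →
      ∃ c om, p.lv c = i ∧ p.gg c = g ∧ p.wl c = wl ∧ p.hh c = k ∧ p.wr c = wr ∧ p.vv c = v ∧
        p.cell i om ∧ p.LC c om ∧ p.RC c (Y.length / p.Mq - om) ∧ p.Mq * om ≤ Y.length := by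
  intro i hi g wl k wr b hz
  obtain ⟨s, hs, hc⟩ := hcell i hi
  obtain ⟨c, om, a1, a2, a3, a4, a5, a6, a7, a8, a9, a10, a11⟩ := hav i hi g wl k wr b hz s hs
  refine ⟨c, om, a1, a2, a3, a4, a5, a6, hc om a7 a8, a10, a11, ?_⟩
  calc p.Mq * om ≤ p.Mq * (Y.length / p.Mq) := Nat.mul_le_mul_left _ a9
    _ ≤ Y.length := Nat.mul_div_le _ _

end Crest.Agent.R320.S1a_257
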