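import Crest.Agent.R320.Names_72
import Mathlib.Data.Nat.PrimeFin
import Mathlib.Data.Set.Finite.Lattice
import Mathlib.SetTheory.Cardinal.NatCard
import Mathlib.Data.Fintype.EquivFin

/-! # Row 320, leaf S1a of helper5 #13143: names and their availability for scheme 1.

`Ctx` = contexts (level, data, token), `key` = the datum `(v, b)` which the colour codes. -/

namespace Crest.Agent.R320.S1a_72

open Crest.Agent.R320.Names72

universe u

/-- `n` distinct primes above `B` -/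
theorem exists_primes (κ : Type*) [Finite κ] (B : ℕ) :
    ∃ m : κ → ℕ, Function.Injective m ∧ ∀ i, B < m i ∧ (m i).Prime := by
  classical
  obtain ⟨n, ⟨e⟩⟩ := Finite.exists_equiv_fin κ
  have hinf : ({p : ℕ | p.Prime ∧ B < p}).Infinite := by
    refine Set.infinite_of_not_bddAbove ?_
    rintro ⟨b, hb⟩
    obtain ⟨p, hp, hpp⟩ := Nat.exists_infinite_primes (max b B + 1)
    have := hb (show p ∈ {p : ℕ | p.Prime ∧ B < p} from ⟨hpp, by omega⟩)
    omega
  let f := hinf.natEmbedding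
  refine ⟨fun i => (f (e i).1 : ℕ), ?_, fun i => ⟨(f (e i).1).2.2, (f (e i).1).2.1⟩⟩
  intro i j h
  have h1 : f (e i).1 = f (e j).1 := Subtype.ext h
  have h2 := f.injective h1
  exact e.injective (Fin.ext h2)

theorem names_S1 {Ctx D : Type u} [Finite Ctx] [Finite D] (key : Ctx → D) :
    ∃ (Nm : Type u) (_ : Finite Nm) (ctx : Nm → Ctx) (r : ℕ), ∀ B : ℕ,
    ∃ (M : ℕ) (Ms : Finset ℕ) (LC RC : Nm → ℕ → Prop), 0 < M ∧ Ms.card ≤ r ∧
      (∀ q ∈ Ms, B < q ∧ q.Prime ∧ q ∣ M) ∧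
      (∀ c o, LC c (o + M) ↔ LC c o) ∧ (∀ c o, RC c (o + M) ↔ RC c o) ∧
      (∀ c c' d d' o o' q q', LC c o → RC c' o' → LC d q → RC d' q' → o + o' = q + q' →
        (c = c' ∧ d = d') ∨ (key (ctx c) = key (ctx d) ∧ key (ctx c') = key (ctx d'))) ∧
      (∀ T, (∀ q ∈ Ms, ¬ q ∣ T) → ∀ x : Ctx, ∀ s, s + M ≤ T + 1 →
        ∃ c om, ctx c = x ∧ s ≤ om ∧ om < s + M ∧ om ≤ T ∧ LC c om ∧ RC c (T - om)) := by
  classical
  have := Fintype.ofFinite Ctx
  have := Fintype.ofFinite D
  let Nm : Type u := Ctx × (D → Bool)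
  let κ : Type u := (Nm × Bool) ⊕ D
  refine ⟨Nm, inferInstance, Prod.fst, Fintype.card κ, fun B => ?_⟩
  obtain ⟨m, hinj, hm⟩ := exists_primes κ (max B 2)
  let md : Nm × Bool → ℕ := fun i => m (Sum.inl i)
  let mh : D → ℕ := fun j => m (Sum.inr j)
  have hmm : Sum.elim md mh = m := by
    funext i
    cases i <;> rfl
  have hpos : ∀ i, 0 < m i := fun i => (hm i).2.pos
  have hco : Pairwise (Function.onFun Nat.Coprime (Sum.elim md mh)) := by
    rw [hmm]
    intro i j hij
    exact (Nat.coprime_primes (hm i).2 (hm j).2).2 fun h => hij (hinj h)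
  have hodd : ∀ j, mh j % 2 = 1 := fun j =>
    Nat.odd_iff.1 ((hm (Sum.inr j)).2.odd_of_ne_two (by have := (hm (Sum.inr j)).1; omega))
  let col : Nm → D → Bool := fun c j => decide (key c.1 = j)
  let eps : Nm → D → Bool := fun c => c.2
  have hcol : ∀ c d : Nm, col c = col d → key c.1 = key d.1 := by
    intro c d h
    have := congrFun h (key c.1)
    simp only [col, decide_true] at this
    have h2 := this.symm
    rw [decide_eq_true_eq] at h2
    exact h2.symm
  have hdvdM : ∀ i, m i ∣ ∏ i, m i := fun i => Finset.dvd_prod_of_mem m (Finset.mem_univ i)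
  have hmodM : ∀ i o, (o + ∏ i, m i) % m i = o % m i := by
    intro i o
    obtain ⟨k, hk⟩ := hdvdM i
    rw [hk, Nat.add_mul_mod_self_left]
  have hdvd : ∀ i o, m i ∣ o + ∏ i, m i ↔ m i ∣ o := fun i o => by
    rw [Nat.dvd_iff_mod_eq_zero, Nat.dvd_iff_mod_eq_zero, hmodM]
  refine ⟨∏ i, m i, Finset.univ.image m, LFull md mh col eps, RFull md mh col eps,
    Finset.prod_pos fun i _ => hpos i, Finset.card_image_le, ?_, ?_, ?_, ?_, ?_⟩
  · intro q hq
    obtain ⟨i, -, rfl⟩ := Finset.mem_image.1 hq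
    exact ⟨lt_of_le_of_lt (le_max_left _ _) (hm i).1, (hm i).2, hdvdM i⟩
  · intro c o
    unfold LFull LName LHalf Half
    have h1 : ∀ i, (md i ∣ o + ∏ i, m i) = (md i ∣ o) := fun i => propext (hdvd (Sum.inl i) o)
    have h2 : ∀ j, (o + ∏ i, m i) % mh j = o % mh j := fun j => hmodM (Sum.inr j) o
    simp only [h1, h2]
  · intro c o
    unfold RFull RName RHalf Half
    have h1 : ∀ i, (md i ∣ o + ∏ i, m i) = (md i ∣ o) := fun i => propext (hdvd (Sum.inl i) o)
    have h2 : ∀ j, (o + ∏ i, m i) % mh j = o % mh j := fun j => hmodM (Sum.inr j) o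
    simp only [h1, h2]
  · intro c c' d d' o o' q q' h1 h2 h3 h4 hT
    rcases full_sound (fun j => hpos (Sum.inr j)) hT h1 h2 h3 h4 with h | ⟨-, h5, h6⟩
    · exact Or.inl h
    · exact Or.inr ⟨(hcol _ _ h5).symm, (hcol _ _ h6).symm⟩
  · intro T hT x s hs
    have hsg : ∀ j, ∃ e, Half (mh j) e T := fun j => half_sign (hodd j) T fun h0 =>
      hT (mh j) (Finset.mem_image.2 ⟨Sum.inr j, Finset.mem_univ _, rfl⟩)
        (Nat.dvd_of_mod_eq_zero h0)
    choose e he using hsg
    obtain ⟨t, t', h1, h2, h3, h4, h5⟩ := full_complete (md := md) (mh := mh) (col := col)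
      (eps := eps) (fun i => hpos (Sum.inl i)) (fun j => hpos (Sum.inr j)) hco (T := T)
      (fun i => hT (md i) (Finset.mem_image.2 ⟨Sum.inl i, Finset.mem_univ _, rfl⟩))
      ((x, e) : Nm) he s (by rw [hmm]; exact hs)
    rw [hmm] at h2
    refine ⟨(x, e), t, rfl, h1, h2, by omega, h4, ?_⟩
    have : T - t = t' := by omega
    rw [this]
    exact h5

end Crest.Agent.R320.S1a_72
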