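import Crest.Agent.R320.S1_5

/-!
Row 320, leaf S1b of scheme 1 (helper5 #13143) including the run case.

`hdoubt_run` : the hypothesis `hdoubt` of `Ok.complete` holds if no small wall of `Y` is near
`B j` or near `B j + G`, and every wall-free window `[B j, B j + G]` is periodic (deeper than `D1`)
with a period `q ≤ g`, `q * t ∣ Mq`, where `t` is a period of the powers of the monoid.
-/

set_option autoImplicit false

namespace Crest.Agent.R320.S1bRun_742

open Crest.Agent.R320.S1_5

variable {α S V Wt Nm : Type*}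

/-- the factor `[a, b)` of `Y` -/
def sl (Y : List α) (a b : ℕ) : List α := (Y.take b).drop a

theorem sl_append (Y : List α) {a b c : ℕ} (h1 : a ≤ b) (h2 : b ≤ c) :
    sl Y a b ++ sl Y b c = sl Y a c := by
  unfold sl
  have h3 : Y.take b = (Y.take c).take b := by rw [List.take_take, min_eq_left h2]
  rw [h3]
  generalize Y.take c = Z
  have h4 : Z.drop a = ((Z.take b) ++ Z.drop b).drop a := by rw [List.take_append_drop]
  rw [h4]
  by_cases hb : b ≤ Z.length
  · rw [List.drop_append_of_le_length (by rw [List.length_take]; omega)]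
  · push Not at hb
    rw [List.drop_eq_nil_of_le (by omega : Z.length ≤ b), List.append_nil, List.append_nil]

/-- period `p` on the interval `[u, v)` of `Y` -/
def PerOn (Y : List α) (p u v : ℕ) : Prop := ∀ i, u ≤ i → i + p < v → Y[i]? = Y[i + p]?

theorem sl_shift {Y : List α} {p u v a b : ℕ} (h : PerOn Y p u v) (ha : u ≤ a)
    (hb : b + p ≤ v) : sl Y (a + p) (b + p) = sl Y a b := by
  apply List.ext_getElem?
  intro i
  unfold sl
  simp only [List.getElem?_drop, List.getElem?_take]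
  by_cases hi : a + i < b
  · rw [if_pos (by omega), if_pos hi, h (a + i) (by omega) (by omega)]
    congr 1
    omega
  · rw [if_neg (by omega), if_neg hi]

theorem sl_shift_mul {Y : List α} {p u v : ℕ} (h : PerOn Y p u v) :
    ∀ (k a b : ℕ), u ≤ a → b + p * k ≤ v → sl Y (a + p * k) (b + p * k) = sl Y a b := by
  intro k
  induction k with
  | zero => intro a b _ _; simp
  | succ k ih =>
    intro a b ha hb
    have e1 : a + p * (k + 1) = (a + p * k) + p := by ring
    have e2 : b + p * (k + 1) = (b + p * k) + p := by ring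
    rw [e2] at hb
    have h0 : a ≤ a + p * k := Nat.le_add_right _ _
    rw [e1, e2, sl_shift h (le_trans ha h0) hb]
    exact ih a b ha (by omega)

theorem ph_pow [Monoid S] (φ : α → S) {Y : List α} {p u v : ℕ} (h : PerOn Y p u v) :
    ∀ (k a : ℕ), u ≤ a → a + p * k ≤ v →
      ph φ (sl Y a (a + p * k)) = ph φ (sl Y a (a + p)) ^ k := by
  intro k
  induction k with
  | zero =>
    intro a _ _
    have : sl Y a (a + p * 0) = [] := by
      unfold sl
      apply List.drop_eq_nil_of_le
      rw [List.length_take]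
      simp
    rw [this]
    simp [ph]
  | succ k ih =>
    intro a ha hk
    have e : a + p * (k + 1) = (a + p * k) + p := by ring
    rw [e] at hk
    rw [pow_succ', ← ih a ha (by omega), e,
      ← sl_append Y (by omega : a ≤ a + p) (by omega : a + p ≤ a + p * k + p), ph_append,
      sl_shift h ha hk]

section

variable [Monoid S] (φ : α → S) {n0 t : ℕ}

theorem swap_left (hpow : ∀ (g : S) (x : ℕ), g ^ (n0 + t * x) = g ^ n0)
    {Y : List α} {p u v a x c : ℕ} (h : PerOn Y p u v)
    (hu : u + p * n0 ≤ a) (ha : a + p * (t * x) ≤ v) (hc : c + p * n0 ≤ a) :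
    ph φ (sl Y c (a + p * (t * x))) = ph φ (sl Y c a) := by
  obtain ⟨a0, rfl⟩ : ∃ a0, a = a0 + p * n0 := ⟨a - p * n0, by omega⟩
  have e : a0 + p * n0 + p * (t * x) = a0 + p * (n0 + t * x) := by ring
  rw [e] at ha ⊢
  rw [← sl_append Y (by omega : c ≤ a0) (by omega : a0 ≤ a0 + p * (n0 + t * x)),
    ← sl_append Y (by omega : c ≤ a0) (by omega : a0 ≤ a0 + p * n0), ph_append, ph_append,
    ph_pow φ h (n0 + t * x) a0 (by omega) ha,
    ph_pow φ h n0 a0 (by omega) (by
      have : p * n0 ≤ p * (n0 + t * x) := Nat.mul_le_mul_left _ (Nat.le_add_right _ _)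
      omega), hpow]

theorem swap_right (hpow : ∀ (g : S) (x : ℕ), g ^ (n0 + t * x) = g ^ n0)
    {Y : List α} {p u v a x c : ℕ} (h : PerOn Y p u v)
    (hu : u ≤ a) (ha : a + p * (t * x) + p * n0 ≤ v) (hc : a + p * (t * x) + p * n0 ≤ c) :
    ph φ (sl Y (a + p * (t * x)) c) = ph φ (sl Y a c) := by
  have e : a + p * (t * x) + p * n0 = a + p * (n0 + t * x) := by ring
  have e' : a + p * (t * x) + p * n0 = (a + p * n0) + p * (t * x) := by ring
  rw [← sl_append Y (by omega : a + p * (t * x) ≤ a + p * (t * x) + p * n0) hc,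
    ← sl_append Y (by omega : a ≤ a + p * (t * x) + p * n0) hc, ph_append, ph_append]
  congr 1
  conv_lhs => rw [e']
  rw [sl_shift_mul h (t * x) a (a + p * n0) hu (by rw [← e']; exact ha), e,
    ph_pow φ h (n0 + t * x) a hu (by rw [← e]; exact ha),
    ph_pow φ h n0 a hu (by omega), hpow]

/-- two positions which cannot be distinguished from far away -/
structure Sim (Y : List α) (a a' lo hi : ℕ) : Prop where
  left : ∀ c, c ≤ lo → ph φ (sl Y c a') = ph φ (sl Y c a)
  right : ∀ c, hi ≤ c → ph φ (sl Y a' c) = ph φ (sl Y a c)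

theorem level (hpow : ∀ (g : S) (x : ℕ), g ^ (n0 + t * x) = g ^ n0) (Ws : List α → Prop)
    {G D D1 w g Mq : ℕ} {Y : List α} {k k' lo hi : ℕ}
    (hx : ∃ x, k' = k + Mq * x ∨ k = k' + Mq * x) (hw1 : k' ≤ k + w) (hw2 : k ≤ k' + w)
    (hD : D1 + w + n0 * g ≤ D) (hG : D + D1 + w + n0 * g ≤ G)
    (hclean : ∀ s, s ≤ Y.length → Ws (Y.take s) →
      ¬ (k ≤ s + w ∧ s ≤ k + w) ∧ ¬ (k + G ≤ s + w ∧ s ≤ k + G + w))
    (hrun : (∀ s, k ≤ s → s ≤ k + G → s ≤ Y.length → ¬ Ws (Y.take s)) →
      ∃ q, q ≤ g ∧ q * t ∣ Mq ∧ PerOn Y q (k + D1) (k + G - D1))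
    (hlo : lo + w + n0 * g ≤ k + D) (hhi : k + D + w + n0 * g ≤ hi) :
    Sim φ Y (hp Ws G D Y k) (hp Ws G D Y k') lo hi := by
  classical
  by_cases hwall : ∃ s, k ≤ s ∧ s ≤ k + G ∧ s ≤ Y.length ∧ Ws (Y.take s)
  · have h1 : hp Ws G D Y k = Nat.find hwall := by unfold hp; rw [dif_pos hwall]
    obtain ⟨a1, a2, a3, a4⟩ := Nat.find_spec hwall
    obtain ⟨c1, c2⟩ := hclean _ a3 a4
    have hwall' : ∃ s, k' ≤ s ∧ s ≤ k' + G ∧ s ≤ Y.length ∧ Ws (Y.take s) :=
      ⟨Nat.find hwall, by omega, by omega, a3, a4⟩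
    have h2 : hp Ws G D Y k' = Nat.find hwall' := by unfold hp; rw [dif_pos hwall']
    have h3 : Nat.find hwall' = Nat.find hwall := by
      apply le_antisymm
      · exact Nat.find_min' hwall' ⟨by omega, by omega, a3, a4⟩
      · obtain ⟨b1, b2, b3, b4⟩ := Nat.find_spec hwall'
        obtain ⟨d1, d2⟩ := hclean _ b3 b4
        exact Nat.find_min' hwall ⟨by omega, by omega, b3, b4⟩
    rw [h1, h2, h3]
    exact ⟨fun _ _ => rfl, fun _ _ => rfl⟩
  · have hno : ∀ s, k ≤ s → s ≤ k + G → s ≤ Y.length → ¬ Ws (Y.take s) :=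
      fun s h1 h2 h3 h4 => hwall ⟨s, h1, h2, h3, h4⟩
    have hwall' : ¬ ∃ s, k' ≤ s ∧ s ≤ k' + G ∧ s ≤ Y.length ∧ Ws (Y.take s) := by
      rintro ⟨s, b1, b2, b3, b4⟩
      obtain ⟨d1, d2⟩ := hclean _ b3 b4
      by_cases e1 : k ≤ s
      · by_cases e2 : s ≤ k + G
        · exact hno s e1 e2 b3 b4
        · omega
      · omega
    have h1 : hp Ws G D Y k = k + D := by unfold hp; rw [dif_neg hwall]
    have h2 : hp Ws G D Y k' = k' + D := by unfold hp; rw [dif_neg hwall']
    rw [h1, h2]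
    obtain ⟨q, hqg, ⟨z, hz⟩, hper⟩ := hrun hno
    have hqn : q * n0 ≤ n0 * g := by rw [mul_comm]; exact Nat.mul_le_mul_left _ hqg
    obtain ⟨x, hx | hx⟩ := hx
    · have e : k' + D = (k + D) + q * (t * (z * x)) := by rw [hx, hz]; ring
      rw [e]
      have e3 : q * (t * (z * x)) ≤ w := by omega
      constructor
      · intro c hc
        exact swap_left φ hpow hper (by omega) (by omega) (by omega)
      · intro c hc
        exact swap_right φ hpow hper (by omega) (by omega) (by omega)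
    · have e : k + D = (k' + D) + q * (t * (z * x)) := by rw [hx, hz]; ring
      have e3 : q * (t * (z * x)) ≤ w := by omega
      constructor
      · intro c hc
        rw [e]
        exact (swap_left φ hpow hper (by omega) (by omega) (by omega)).symm
      · intro c hc
        rw [e]
        exact (swap_right φ hpow hper (by omega) (by omega) (by omega)).symm

end

section main

variable [Monoid S] [AddCommGroup V] [AddCommGroup Wt] {p : Par α S V Wt Nm}

theorem drop_sl (Y : List α) (n a b : ℕ) : ((Y.drop n).take b).drop a = sl Y (n + a) (n + b) := by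
  unfold sl
  apply List.ext_getElem?
  intro i
  simp only [List.getElem?_drop, List.getElem?_take]
  by_cases hi : a + i < b
  · rw [if_pos hi, if_pos (by omega)]
    congr 1
    omega
  · rw [if_neg hi, if_neg (by omega)]

/-- the leaf `hdoubt`, walls or runs at the levels. -/
theorem hdoubt_run (h : Ok p) (Y : List α) {n0 t w g D1 : ℕ}
    (hpow : ∀ (s : S) (x : ℕ), s ^ (n0 + t * x) = s ^ n0)
    (hcw : ∀ i om om', p.cell i om → p.cell i om' → p.Mq * om ≤ p.Mq * om' + w)
    (hD : D1 + 2 * w + n0 * g ≤ p.D) (hG : p.D + D1 + 2 * w + n0 * g ≤ p.G)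
    (hclean : ∀ j, 1 ≤ j → j ≤ p.m → ∀ s, s ≤ Y.length → p.Ws (Y.take s) →
      ¬ (p.B j ≤ s + w ∧ s ≤ p.B j + w) ∧ ¬ (p.B j + p.G ≤ s + w ∧ s ≤ p.B j + p.G + w))
    (hrun : ∀ j, 1 ≤ j → j ≤ p.m →
      (∀ s, p.B j ≤ s → s ≤ p.B j + p.G → s ≤ Y.length → ¬ p.Ws (Y.take s)) →
      ∃ q, q ≤ g ∧ q * t ∣ p.Mq ∧ PerOn Y q (p.B j + D1) (p.B j + p.G - D1)) :
    ∀ i < p.m, ∀ om om', p.cell i om → p.cell i om' → p.Mq * om ≤ Y.length →
      ph p.φ ((Y.drop (p.Mq * om)).drop (H p (Y.drop (p.Mq * om)) (p.Mq * om') (i + 1))) =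
        ph p.φ ((Y.drop (p.Mq * om)).drop (H p (Y.drop (p.Mq * om)) (p.Mq * om) (i + 1))) ∧
      wt p (Y.drop (p.Mq * om)) (p.Mq * om') (i + 1) p.m =
        wt p (Y.drop (p.Mq * om)) (p.Mq * om) (i + 1) p.m := by
  intro i hi om om' hc hc' hle
  set n := p.Mq * om with hn
  set n' := p.Mq * om' with hn'
  have hR := h.cellR i om hc
  have hR' := h.cellR i om' hc'
  rw [← hn] at hR
  rw [← hn'] at hR'
  have hYl : (Y.take n).length = n := by rw [List.length_take]; omega
  have hYe : Y.take n ++ Y.drop n = Y := List.take_append_drop _ _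
  -- positions in `Y`
  have hH : ∀ l j, p.ns ≤ p.B j - l →
      n + H p (Y.drop n) l j = hp p.Ws p.G p.D Y (n + (p.B j - l)) := by
    intro l j hl
    have := hp_right p.Ws p.ns h.loc p.G p.D (Y.take n) (Y.drop n) (k := p.B j - l) hl
    rw [hYe, hYl] at this
    rw [this]
    rfl
  have hBm : ∀ j, i + 1 ≤ j → p.B (i + 1) ≤ p.B j := fun j hj => h.B_mono hj
  have hw1 := hcw i om om' hc hc'
  have hw2 := hcw i om' om hc' hc
  rw [← hn, ← hn'] at hw1
  rw [← hn, ← hn'] at hw2
  have hx : ∀ j, i + 1 ≤ j → ∃ x, n + (p.B j - n') = p.B j + p.Mq * x ∨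
      p.B j = n + (p.B j - n') + p.Mq * x := by
    intro j hj
    have := hBm j hj
    rcases le_total om' om with hle' | hle'
    · refine ⟨om - om', Or.inl ?_⟩
      have e : p.Mq * (om - om') = n - n' := by rw [Nat.mul_sub]
      have e2 : n' ≤ n := Nat.mul_le_mul_left _ hle'
      omega
    · refine ⟨om' - om, Or.inr ?_⟩
      have e : p.Mq * (om' - om) = n' - n := by rw [Nat.mul_sub]
      have e2 : n ≤ n' := Nat.mul_le_mul_left _ hle'
      omega
  have hsim : ∀ j, i + 1 ≤ j → j ≤ p.m → Sim p.φ Y (hp p.Ws p.G p.D Y (p.B j))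
      (hp p.Ws p.G p.D Y (n + (p.B j - n'))) (p.B j + w) (p.B j + p.D + w + n0 * g) := by
    intro j hj hjm
    have := hBm j hj
    refine level p.φ hpow p.Ws (D1 := D1) (w := w) (g := g) (hx j hj) (by omega) (by omega)
      (by omega) (by omega) (hclean j (by omega) hjm) (hrun j (by omega) hjm) (by omega) (by omega)
  have hk0 : ∀ j, i + 1 ≤ j → n + (p.B j - n) = p.B j := by
    intro j hj
    have := hBm j hj
    omega
  constructor
  · rw [List.drop_drop, List.drop_drop]
    have h1 := hBm (i + 1) le_rfl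
    rw [hH n' (i + 1) (by omega), hH n (i + 1) (by omega), hk0 _ le_rfl]
    have hs := (hsim (i + 1) le_rfl (by omega)).right
      (max Y.length (p.B (i + 1) + p.D + w + n0 * g)) (le_max_right _ _)
    have e : ∀ a, sl Y a (max Y.length (p.B (i + 1) + p.D + w + n0 * g)) = Y.drop a := by
      intro a
      unfold sl
      rw [List.take_of_length_le (le_max_left _ _)]
    rw [e, e] at hs
    exact hs
  · unfold wt
    refine Finset.sum_congr rfl fun j hj => ?_
    obtain ⟨hj1, hj2⟩ := Finset.mem_Ico.1 hj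
    congr 1
    unfold seg
    have b1 := hBm j hj1
    have b2 := hBm (j + 1) (by omega)
    rw [drop_sl, drop_sl, hH n' (j + 1) (by omega), hH n' j (by omega), hH n (j + 1) (by omega),
      hH n j (by omega), hk0 _ hj1, hk0 _ (by omega)]
    have B0 := h.B0 j
    have q1 := hp_bounds p.Ws p.G p.D Y (p.B j) h.hD
    have q2 := hp_bounds p.Ws p.G p.D Y (n + (p.B j - n')) h.hD
    have q3 := hp_bounds p.Ws p.G p.D Y (p.B (j + 1)) h.hD
    have s1 := (hsim (j + 1) (by omega) (by omega)).left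
      (hp p.Ws p.G p.D Y (n + (p.B j - n'))) (by omega)
    have s2 := (hsim j hj1 (by omega)).right (hp p.Ws p.G p.D Y (p.B (j + 1))) (by omega)
    rw [s1, s2]

end main

end Crest.Agent.R320.S1bRun_742
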