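import Crest.Agent.R320.Zone132_898

/-!
Row 320: (SC1) and (CP1) of 131's buffer form (#13123) for scheme 1 of 132 (right-looking walls),
over 898's zone gadget.
-/

set_option autoImplicit false

namespace Crest.Agent.R320.S1b394

open Crest.Agent.R320.Zone132_898 Finset

variable {α S V W : Type*}

theorem take_iff' (r : Rule α) {Q : List α} {k : ℕ} (h : r.n ≤ k) : r.R (Q.take k) ↔ r.R Q := by
  rw [r.take_iff, List.take_take, min_eq_left h, ← r.take_iff]

theorem of_take (r : Rule α) {Q : List α} {k : ℕ} (h : r.R (Q.take k)) : r.R Q := by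
  have := r.len _ h
  rw [List.length_take] at this
  exact (take_iff' r (by omega)).1 h

/-- wall at `t` of a prefix of length `B` -/
theorem R_take_drop (r : Rule α) {w : List α} {B t : ℕ} (h : t + r.n ≤ B) :
    r.R ((w.take B).drop t) ↔ r.R (w.drop t) := by
  rw [List.drop_take]
  exact take_iff' r (by omega)

theorem R_of_take_drop (r : Rule α) {w : List α} {B t : ℕ} (h : r.R ((w.take B).drop t)) :
    r.R (w.drop t) := by
  rw [List.drop_take] at h
  exact of_take r h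

/-- parameters of the outer chain -/
structure Par (α S V W : Type*) [Monoid S] [AddCommGroup V] [AddCommGroup W] where
  D : Data α S V W
  ro : Rule α
  p0 : ℕ
  N1 : ℕ
  Zt : ℕ → ℕ
  zhi : ℕ
  G : ℕ
  Gs : ℕ
  Bm : ℕ
  nu2 : List α → V
  hN1 : ∀ i, i < D.m → D.q * (D.lo i + D.M) ≤ N1
  hZlo : ∀ r, p0 + N1 < Zt r
  hZhi : ∀ r, Zt r ≤ zhi
  hBm : zhi + N1 + G + ro.n ≤ Bm
  hA : D.A D.m + Gs + D.r.n ≤ N1
  hlo : ∀ i, i < D.m → D.A i + Gs + D.r.n ≤ D.q * D.lo i
  act_mul : ∀ v s t, D.act v (s * t) = D.act (D.act v s) t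
  act_add : ∀ v w s, D.act (v + w) s = D.act v s + D.act w s

variable [Monoid S] [AddCommGroup V] [AddCommGroup W]

namespace Par

variable (P : Par α S V W)

/-- the place `t` of the text `y` (from an anchor) qualifies as next anchor -/
def Qual (y : List α) (t : ℕ) : Prop := P.ro.R (y.drop t) ∧ P.Zt (t % P.D.q) ≤ t

def IsN (y : List α) (t : ℕ) : Prop := P.Qual y t ∧ ∀ t', t' < t → ¬ P.Qual y t'

open Classical in
/-- next anchor (read on a buffer of length `Bm`) -/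
noncomputable def N (y : List α) : ℕ := if h : ∃ t, P.Qual y t then Nat.find h else P.Bm

theorem N_eq {y : List α} {t : ℕ} (h : P.IsN y t) : P.N y = t := by
  classical
  have h1 : ∃ t, P.Qual y t := ⟨t, h.1⟩
  unfold N
  rw [dif_pos h1]
  apply le_antisymm (Nat.find_min' h1 h.1)
  by_contra hlt
  push Not at hlt
  exact h.2 _ hlt (Nat.find_spec h1)

theorem N_pos (y : List α) (hB : 0 < P.Bm) : 0 < P.N y := by
  classical
  unfold N
  split_ifs with h
  · have := (Nat.find_spec h).2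
    have h2 := P.hZlo (Nat.find h % P.D.q)
    omega
  · exact hB

theorem N_le (y : List α) (hy : y.length ≤ P.Bm) : P.N y ≤ P.Bm := by
  classical
  unfold N
  split_ifs with h
  · have h1 := P.ro.len _ (Nat.find_spec h).1
    rw [List.length_drop] at h1
    have h2 := P.ro.pos
    omega
  · exact le_refl _

/-- the middle and last part of the zone -/
noncomputable def nu (y : List α) : V :=
  P.D.act (P.nu2 (y.take P.p0)) (P.D.phi ((y.take (P.N y)).drop P.p0)) +
    P.D.nu ((y.take (P.N y)).drop P.p0)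

noncomputable def zm (y : List α) (v : V) : V := P.D.act v (P.D.phi (y.take (P.N y))) + P.nu y

def RQual (r : List α) (τ : ℕ) : Prop :=
  P.ro.R (r.drop τ) ∧ P.Zt ((P.p0 + τ) % P.D.q) ≤ P.p0 + τ

def Amb (r : List α) (τ : ℕ) : Prop :=
  P.ro.R (r.drop τ) ∧ P.p0 + τ < P.Zt ((P.p0 + τ) % P.D.q) ∧
    P.Zt ((P.p0 + τ) % P.D.q) ≤ P.p0 + τ + P.N1

def R1rel (r : List α) (d : ℕ) (b : V) : Prop :=
  (∀ τ, ¬ P.Amb r τ) ∧ P.RQual r d ∧ (∀ τ, τ < d → ¬ P.RQual r τ) ∧ P.D.RR (r.take d) b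

open Classical in
noncomputable def R1 (r : List α) : Option (ℕ × V) :=
  if h : ∃ db : ℕ × V, P.R1rel r db.1 db.2 then some h.choose else none

theorem R1_spec {r : List α} {d : ℕ} {b : V} (h : P.R1 r = some (d, b)) : P.R1rel r d b := by
  classical
  unfold R1 at h
  split_ifs at h with h1
  have h2 := h1.choose_spec
  rw [Option.some.inj h] at h2
  exact h2

theorem R1_isSome {r : List α} {d : ℕ} {b : V} (h : P.R1rel r d b) : (P.R1 r).isSome := by
  classical
  unfold R1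
  rw [dif_pos ⟨(d, b), h⟩]
  rfl

def L1 (u : List α) (v : V) : Prop :=
  ∃ X Q, u = X ++ Q ∧ X.length = P.p0 ∧ P.D.LL Q (P.D.act v (P.D.phi X) + P.nu2 X)

/-- **zone condition (bad zones)** -/
def Ebad (y : List α) : Prop :=
  ∃ t, P.ro.R (y.drop t) ∧ P.Zt (t % P.D.q) ≤ t + P.N1 ∧ t ≤ P.Zt (t % P.D.q) + P.N1

def Dbad (y : List α) : Prop :=
  ∃ k, k ≤ P.D.m ∧ ∃ t, P.D.A k ≤ t + P.D.q * P.D.M ∧ t < P.D.A k + P.D.q * P.D.M ∧
    P.D.r.R (y.drop (P.p0 + t))

def Bbad (y : List α) : Prop := P.D.B ((P.N y - P.p0) / P.D.q)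

def Bad (y : List α) : Prop := P.Ebad y ∨ P.Bbad y ∨ P.Dbad y

theorem mod_shift (om τ : ℕ) :
    (P.p0 + P.D.q * om + τ) % P.D.q = (P.p0 + τ) % P.D.q := by
  rw [show P.p0 + P.D.q * om + τ = (P.p0 + τ) + P.D.q * om by omega, Nat.add_mul_mod_self_left]

/-- the right side computes the next anchor -/
theorem junction {u r : List α} {om : ℕ} (hu : u.length = P.p0 + P.D.q * om)
    (hom : P.D.q * om ≤ P.N1) (hA : ∀ τ, ¬ P.Amb r τ) (τ : ℕ) :
    P.Qual (u ++ r) (u.length + τ) ↔ P.RQual r τ := by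
  unfold Qual RQual
  rw [drop_add, hu, P.mod_shift om τ]
  constructor
  · rintro ⟨h1, h2⟩
    refine ⟨h1, ?_⟩
    by_contra h3
    push Not at h3
    exact hA τ ⟨h1, h3, by omega⟩
  · rintro ⟨h1, h2⟩
    exact ⟨h1, by omega⟩

theorem isN_of_right {u r : List α} {om d : ℕ} (hu : u.length = P.p0 + P.D.q * om)
    (hom : P.D.q * om ≤ P.N1) (hA : ∀ τ, ¬ P.Amb r τ) (hd : P.RQual r d)
    (hd' : ∀ τ, τ < d → ¬ P.RQual r τ) : P.IsN (u ++ r) (u.length + d) := by
  refine ⟨(P.junction hu hom hA d).2 hd, ?_⟩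
  intro t' ht' hq
  by_cases h : u.length ≤ t'
  · obtain ⟨τ, rfl⟩ := Nat.exists_eq_add_of_le h
    exact hd' τ (by omega) ((P.junction hu hom hA τ).1 hq)
  · have h1 := hq.2
    have h2 := P.hZlo (t' % P.D.q)
    omega

/-- density of the outer walls on the class -/
def DensO (Cl : List α → Prop) : Prop :=
  ∀ w, Cl w → ∀ t, t + P.G + P.ro.n ≤ w.length → ∃ t', t ≤ t' ∧ t' ≤ t + P.G ∧ P.ro.R (w.drop t')

def DensS (Cl : List α → Prop) : Prop :=
  ∀ w, Cl w → ∀ t, t + P.Gs + P.D.r.n ≤ w.length →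
    ∃ t', t ≤ t' ∧ t' ≤ t + P.Gs ∧ P.D.r.R (w.drop t')

theorem exists_isN {Cl : List α → Prop} (hO : P.DensO Cl) {w : List α} (hw : Cl w)
    (hl : P.Bm ≤ w.length) : ∃ t, P.IsN w t ∧ t + P.ro.n + P.N1 ≤ P.Bm ∧ t ≤ P.zhi + P.G := by
  classical
  have hB := P.hBm
  obtain ⟨t', h1, h2, h3⟩ := hO w hw P.zhi (by omega)
  have hex : ∃ t, P.Qual w t := ⟨t', h3, le_trans (P.hZhi _) h1⟩
  refine ⟨Nat.find hex, ⟨Nat.find_spec hex, fun t ht => Nat.find_min hex ht⟩, ?_, ?_⟩
  · have := Nat.find_min' hex ⟨h3, le_trans (P.hZhi _) h1⟩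
    omega
  · have := Nat.find_min' hex ⟨h3, le_trans (P.hZhi _) h1⟩
    omega

theorem isN_take {w : List α} {t : ℕ} (h : P.IsN w t) (ht : t + P.ro.n ≤ P.Bm) :
    P.IsN (w.take P.Bm) t := by
  refine ⟨⟨(R_take_drop P.ro ht).2 h.1.1, h.1.2⟩, ?_⟩
  intro t' ht' hq
  exact h.2 t' ht' ⟨R_of_take_drop P.ro hq.1, hq.2⟩

theorem isN_unique {w : List α} {t t' : ℕ} (h : P.IsN w t) (h' : P.IsN w t') : t = t' := by
  rcases lt_trichotomy t t' with h1 | h1 | h1
  · exact absurd h.1 (h'.2 t h1)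
  · exact h1
  · exact absurd h'.1 (h.2 t' h1)

/-- **(SC1)** -/
theorem sc1 (h1 : P.D.N1) (h2 : P.D.N2) {Cl : List α → Prop} (hO : P.DensO Cl)
    {u r : List α} {D₁ : ℕ} (hD : P.Bm ≤ D₁) (hCl : Cl (u ++ r)) (hr : r.length = D₁)
    {v : V} {d : ℕ} {b : V} (hL : P.L1 u v) (hR : P.R1 r = some (d, b)) :
    P.N ((u ++ r).take P.Bm) = u.length + d ∧ P.zm ((u ++ r).take P.Bm) v = b := by
  obtain ⟨X, Q, rfl, hX, hLL⟩ := hL
  obtain ⟨hA, hd, hd', hRR⟩ := P.R1_spec hR
  obtain ⟨c, om, H, hQl, hci, hlo, hhi, hrest⟩ := id hLL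
  have hom : P.D.q * om ≤ P.N1 := by
    refine le_trans ?_ (P.hN1 c.i hci)
    exact Nat.mul_le_mul_left _ hhi.le
  have hu : (X ++ Q).length = P.p0 + P.D.q * om := by
    rw [List.length_append, hX, hQl]
  have hN := P.isN_of_right hu hom hA hd hd'
  obtain ⟨t, ht, htB, _⟩ := P.exists_isN hO hCl (by rw [List.length_append]; omega)
  have htt := P.isN_unique ht hN
  have hNt := P.isN_take hN (by rw [← htt]; omega)
  have hNeq := P.N_eq hNt
  refine ⟨hNeq, ?_⟩
  have hB := P.hBm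
  have hle : (X ++ Q).length + d ≤ P.Bm := by rw [← htt]; omega
  have htake : ((X ++ Q ++ r).take P.Bm).take ((X ++ Q).length + d) = (X ++ Q) ++ r.take d := by
    rw [List.take_take, min_eq_left hle, List.take_length_add_append]
  have hp0 : ((X ++ Q ++ r).take P.Bm).take P.p0 = X := by
    have h3 : P.p0 ≤ P.Bm := by rw [hu] at hle; omega
    rw [List.take_take, min_eq_left h3, List.append_assoc, ← hX, List.take_left]
  have hdrop : ((X ++ Q) ++ r.take d).drop P.p0 = Q ++ r.take d := by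
    rw [List.append_assoc, ← hX, List.drop_left]
  unfold zm nu
  rw [hNeq, htake, hp0, hdrop, List.append_assoc, P.D.hphi, P.act_mul, ← add_assoc, ← P.act_add]
  exact (P.D.sound h1 h2 hLL hRR).symm

/-- **(CP1)** -/
theorem cp1 (h1 : P.D.N1) (h2 : P.D.N2) (h3 : P.D.N3) (hF : P.D.Hides)
    {Cl : List α → Prop} (hO : P.DensO Cl) (hS : P.DensS Cl)
    {w : List α} {D₁ : ℕ} (hD : P.Bm ≤ D₁) (hCl : Cl w) (hl : P.Bm + D₁ ≤ w.length)
    (hbad : ¬ P.Bad (w.take P.Bm)) (v : V) :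
    ∃ x, P.p0 ≤ x ∧ x < P.Bm ∧ P.L1 (w.take x) v ∧ (P.R1 ((w.drop x).take D₁)).isSome := by
  classical
  have hB := P.hBm
  have hAm := P.hA
  obtain ⟨b0, hb0, hb0B, hb0hi⟩ := P.exists_isN hO hCl (by omega)
  have hb0lo : P.p0 + P.N1 < b0 := lt_of_lt_of_le (P.hZlo _) hb0.1.2
  have hNeq := P.N_eq (P.isN_take hb0 (by omega))
  have hE : ¬ P.Ebad (w.take P.Bm) := fun h => hbad (Or.inl h)
  have hBb : ¬ P.Bbad (w.take P.Bm) := fun h => hbad (Or.inr (Or.inl h))
  have hDb : ¬ P.Dbad (w.take P.Bm) := fun h => hbad (Or.inr (Or.inr h))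
  -- the two parts of the zone
  set X := w.take P.p0 with hX
  set Y := (w.take b0).drop P.p0 with hY
  have hXl : X.length = P.p0 := by rw [hX, List.length_take]; omega
  have hYl : Y.length = b0 - P.p0 := by
    rw [hY, List.length_drop, List.length_take]; omega
  have hXY : w.take b0 = X ++ Y := by
    rw [hX, hY]
    conv_lhs => rw [← List.take_append_drop P.p0 (w.take b0)]
    rw [List.take_take, min_eq_left (by omega)]
  have hYdrop : ∀ t, Y.drop t = (w.drop (P.p0 + t)).take (b0 - (P.p0 + t)) := by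
    intro t
    rw [hY, List.drop_drop, List.drop_take]
  have hYR : ∀ t, t + P.D.r.n ≤ b0 - P.p0 → (P.D.r.R (Y.drop t) ↔ P.D.r.R (w.drop (P.p0 + t))) := by
    intro t ht
    rw [hYdrop]
    exact take_iff' P.D.r (by omega)
  -- small walls
  have hH : ∀ k, ∃ H, k ≤ P.D.m → FW P.D.r Y (P.D.A k) H ∧ H ≤ P.D.A k + P.Gs := by
    intro k
    by_cases hk : k ≤ P.D.m
    · have hAk : P.D.A k ≤ P.D.A P.D.m := P.D.monoA hk
      obtain ⟨t', h4, h5, h6⟩ := hS w hCl (P.p0 + P.D.A k) (by omega)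
      have hex : ∃ t, P.D.A k ≤ t ∧ P.D.r.R (Y.drop t) := by
        refine ⟨t' - P.p0, by omega, ?_⟩
        rw [hYR _ (by omega), show P.p0 + (t' - P.p0) = t' by omega]
        exact h6
      refine ⟨Nat.find hex, fun _ => ⟨⟨(Nat.find_spec hex).1, (Nat.find_spec hex).2, ?_⟩, ?_⟩⟩
      · intro t'' h7 h8 h9
        exact Nat.find_min hex h8 ⟨h7, h9⟩
      · have h7 : Nat.find hex ≤ t' - P.p0 := by
          apply Nat.find_min' hex
          refine ⟨by omega, ?_⟩
          rw [hYR _ (by omega), show P.p0 + (t' - P.p0) = t' by omega]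
          exact h6
        omega
    · exact ⟨0, fun h => absurd h hk⟩
  choose H hH' using hH
  have hnear : ∀ k, k ≤ P.D.m → ∀ t, P.D.A k ≤ t + P.D.q * P.D.M →
      t < P.D.A k + P.D.q * P.D.M → ¬ P.D.r.R (Y.drop t) := by
    intro k hk t h4 h5 h6
    apply hDb
    refine ⟨k, hk, t, h4, h5, ?_⟩
    have h7 := P.D.r.len _ h6
    rw [List.length_drop, hYl] at h7
    have hns := P.D.r.pos
    rw [hYdrop] at h6
    have h8 := of_take P.D.r h6
    exact (R_take_drop P.D.r (by omega)).2 h8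
  have hBY : ¬ P.D.B (Y.length / P.D.q) := by
    rw [hYl]
    intro h
    apply hBb
    unfold Bbad
    rw [hNeq]; exact h
  obtain ⟨Pl, Qr, i, om, hYe, hi, hPl, hlo, hhi, hLL, hRR⟩ :=
    P.D.complete' h1 h2 h3 hF hBY H (fun k hk => (hH' k hk).1) (fun k hk => (hH' k hk).2)
      P.hlo hnear (fun i hi => by
        have := P.hN1 i hi
        rw [hYl]; omega) (P.D.act v (P.D.phi X) + P.nu2 X)
  have hom : P.D.q * om ≤ P.N1 := le_trans (Nat.mul_le_mul_left _ hhi.le) (P.hN1 i hi)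
  have hQl : Pl.length + Qr.length = b0 - P.p0 := by
    rw [← hYl, hYe, List.length_append]
  have hPlen : Pl.length ≤ P.N1 := by rw [hPl]; exact hom
  set x := P.p0 + Pl.length with hx
  have hxB : x < P.Bm := by omega
  have hwx : w.take x = X ++ Pl := by
    have h4 : w.take x = (w.take b0).take x := by
      rw [List.take_take, min_eq_left (by omega)]
    rw [h4, hXY, hYe, ← List.append_assoc, hx, ← hXl, ← List.length_append, List.take_left]
  have hwd : (w.drop x).take (b0 - x) = Qr := by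
    have h4 : (w.drop x).take (b0 - x) = (w.take b0).drop x := by rw [List.drop_take]
    rw [h4, hXY, hYe, ← List.append_assoc, hx, ← hXl, ← List.length_append, List.drop_left]
  refine ⟨x, by omega, hxB, ⟨X, Pl, hwx, hXl, hLL⟩, ?_⟩
  apply P.R1_isSome (d := b0 - x)
    (b := P.D.act (P.D.act v (P.D.phi X) + P.nu2 X) (P.D.phi Y) + P.D.nu Y)
  have hxom : x = P.p0 + P.D.q * om := by rw [hx, hPl]
  have hRr : ∀ τ, P.ro.R (((w.drop x).take D₁).drop τ) → P.ro.R (w.drop (x + τ)) := by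
    intro τ h
    have := R_of_take_drop P.ro h
    rwa [List.drop_drop] at this
  have hamb : ∀ τ, ¬ P.Amb ((w.drop x).take D₁) τ := by
    rintro τ ⟨h4, h5, h6⟩
    apply hE
    have h7 := hRr τ h4
    have h8 := P.hZhi ((P.p0 + τ) % P.D.q)
    have hmod : (x + τ) % P.D.q = (P.p0 + τ) % P.D.q := by
      rw [hxom]; exact P.mod_shift om τ
    refine ⟨x + τ, (R_take_drop P.ro (by omega)).2 h7, ?_, ?_⟩
    · rw [hmod]; omega
    · rw [hmod]; omega
  refine ⟨hamb, ?_, ?_, ?_⟩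
  · have h4 : P.ro.R (((w.drop x).take D₁).drop (b0 - x)) := by
      rw [R_take_drop P.ro (by omega), List.drop_drop, show x + (b0 - x) = b0 by omega]
      exact hb0.1.1
    refine ⟨h4, ?_⟩
    by_contra h5
    push Not at h5
    have hmod : (x + (b0 - x)) % P.D.q = (P.p0 + (b0 - x)) % P.D.q := by
      have h7 := P.mod_shift om (b0 - x)
      rw [← hxom] at h7
      exact h7
    have h6 := hb0.1.2
    rw [show b0 = x + (b0 - x) by omega, hmod] at h6
    exact hamb (b0 - x) ⟨h4, h5, by omega⟩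
  · rintro τ hτ ⟨h4, h5⟩
    have hmod : (x + τ) % P.D.q = (P.p0 + τ) % P.D.q := by
      rw [hxom]; exact P.mod_shift om τ
    exact hb0.2 (x + τ) (by omega) ⟨hRr τ h4, by rw [hmod]; omega⟩
  · rw [List.take_take, min_eq_left (by omega), hwd]
    exact hRR

end Par

end Crest.Agent.R320.S1b394
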