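import Crest.Agent.R320.Gad1_420

/-!
# Row 320: scheme 1 in block form (helper494)

Blocks: `Wo` is a left-looking wall rule (window `no`), `Z` a table of thresholds by residue
modulo `M'` (132).  `Adm X` : wall at the end of `X` and `Z (|X| mod M') ≤ |X|`;
`XX X` : admissible and no proper prefix is admissible (a prefix code).
Scheme 1 = thresholds + `Gad1_420.gadget1` on `Y = X.drop p0`.
-/

set_option autoImplicit false

namespace Crest.Agent.R320.S1blk_494

open Crest.Agent.R320.Gad1_420

variable {α : Type*}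

/-- left-looking rule with window `n` -/
structure LRule (Wo : List α → Prop) (n : ℕ) : Prop where
  app : ∀ P Q : List α, n ≤ Q.length → (Wo (P ++ Q) ↔ Wo Q)
  len : ∀ Q, Wo Q → n ≤ Q.length

/-- block parameters -/
structure Blk (α : Type*) where
  Wo : List α → Prop
  no : ℕ
  M' : ℕ
  p0 : ℕ
  N1 : ℕ
  Z : ℕ → ℕ
  rule : LRule Wo no
  M'pos : 0 < M'
  Zge : ∀ r, p0 + N1 + no < Z r

variable (B : Blk α)

/-- admissible words -/
def Blk.Adm (X : List α) : Prop := B.Wo X ∧ B.Z (X.length % B.M') ≤ X.length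

/-- blocks -/
def Blk.XX (X : List α) : Prop := B.Adm X ∧ ∀ k < X.length, ¬ B.Adm (X.take k)

theorem Blk.XX_prefix {X Y : List α} (hX : B.XX X) (hY : B.XX Y) (h : X <+: Y) : X = Y := by
  rcases h with ⟨t, rfl⟩
  by_contra hne
  have ht : t ≠ [] := fun h => hne (by simp [h])
  have hl : X.length < (X ++ t).length := by
    rw [List.length_append]
    have := List.length_pos_iff.2 ht
    omega
  have := hY.2 X.length hl
  rw [List.take_left'  rfl] at this
  exact this hX.1

theorem Blk.XX_len {X : List α} (hX : B.XX X) : B.p0 + B.N1 + B.no < X.length :=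
  (B.Zge _).trans_le hX.1.2

theorem Blk.XX_ne {X : List α} (hX : B.XX X) : X ≠ [] := by
  intro h
  have := B.XX_len hX
  rw [h] at this
  simp at this

/-- the walls seen from the right side `Q` of a comb place -/
def Blk.RW (Q : List α) : Prop :=
  B.Wo Q ∧ B.Z ((Q.length + B.p0) % B.M') ≤ Q.length + B.p0 ∧
    ∀ k < Q.length, B.Wo (Q.take k) → k + B.p0 + B.N1 < B.Z ((k + B.p0) % B.M')

/-- **junction lemma** (818 for 132's thresholds) -/
theorem Blk.junction {P Q : List α} (h1 : B.p0 ≤ P.length) (h2 : P.length ≤ B.p0 + B.N1)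
    (h3 : B.M' ∣ P.length - B.p0) (hQ : B.RW Q) : B.XX (P ++ Q) := by
  obtain ⟨q1, q2, q3⟩ := hQ
  have hmod : ∀ k : ℕ, (P.length + k) % B.M' = (k + B.p0) % B.M' := by
    intro k
    obtain ⟨c, hc⟩ := h3
    have : P.length + k = (k + B.p0) + B.M' * c := by omega
    rw [this, Nat.add_mul_mod_self_left]
  have hqn := B.rule.len _ q1
  refine ⟨⟨(B.rule.app P Q hqn).2 q1, ?_⟩, ?_⟩
  · rw [List.length_append, hmod]
    omega
  · rintro k hk ⟨a1, a2⟩
    rw [List.length_append] at hk
    have hkl : (List.take k (P ++ Q)).length = k := by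
      rw [List.length_take, List.length_append]; omega
    rw [hkl] at a2
    have hz := B.Zge (k % B.M')
    obtain ⟨j, rfl⟩ : ∃ j, k = P.length + j := ⟨k - P.length, by omega⟩
    have hj : j < Q.length := by omega
    have ht : List.take (P.length + j) (P ++ Q) = P ++ Q.take j := by
      rw [List.take_append]
      simp
    rw [ht] at a1
    have hjn : B.no ≤ (Q.take j).length := by
      rw [List.length_take]
      omega
    have := q3 j hj ((B.rule.app P _ hjn).1 a1)
    rw [hmod] at a2
    omega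

/-- no wall of the block in the doubtful band -/
def Blk.Egood (X : List α) : Prop :=
  B.Z (X.length % B.M') + B.N1 ≤ X.length ∧
    ∀ k < X.length, B.Wo (X.take k) → k + B.N1 < B.Z (k % B.M')

/-- off the bands every comb place is right-legal -/
theorem Blk.RW_of_Egood {P Q : List α} (hX : B.XX (P ++ Q)) (hE : B.Egood (P ++ Q))
    (h1 : B.p0 ≤ P.length) (h2 : P.length ≤ B.p0 + B.N1)
    (h3 : B.M' ∣ P.length - B.p0) : B.RW Q := by
  have hmod : ∀ k : ℕ, (P.length + k) % B.M' = (k + B.p0) % B.M' := by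
    intro k
    obtain ⟨c, hc⟩ := h3
    have : P.length + k = (k + B.p0) + B.M' * c := by omega
    rw [this, Nat.add_mul_mod_self_left]
  have hlen := B.XX_len hX
  rw [List.length_append] at hlen
  have hqn : B.no ≤ Q.length := by omega
  obtain ⟨e1, e2⟩ := hE
  refine ⟨(B.rule.app P Q hqn).1 hX.1.1, ?_, ?_⟩
  · rw [List.length_append, hmod] at e1
    omega
  · intro k hk hw
    have hkn := B.rule.len _ hw
    rw [List.length_take] at hkn
    have ht : List.take (P.length + k) (P ++ Q) = P ++ Q.take k := by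
      rw [List.take_append]
      simp
    have := e2 (P.length + k) (by rw [List.length_append]; omega)
      (by rw [ht]; exact (B.rule.app P _ (by rw [List.length_take]; exact hkn)).2 hw)
    rw [hmod] at this
    omega

variable {S V W : Type*} [Monoid S] [AddCommGroup V] [AddCommGroup W] (D : Dat α S V W)

/-- left labels of scheme 1 (a relation: the token at the anchor) -/
noncomputable def L1 (P : List α) (v : V) : Prop :=
  B.p0 ≤ P.length ∧ D.Lf (P.drop B.p0) = some (D.act v (D.φ (P.take B.p0)))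

/-- right labels of scheme 1 -/
noncomputable def R1 (Q : List α) (r : V) : Prop := D.Rf Q = some r ∧ B.RW Q

/-- zone map of scheme 1 for a noise `nu` of the part behind `p0` -/
def T1 (nu : List α → V) (X : List α) (v : V) : V :=
  D.act (D.act v (D.φ (X.take B.p0))) (D.φ (X.drop B.p0)) + nu (X.drop B.p0)

/-- **scheme 1 in block form.** -/
theorem scheme1 (good : ℕ → Prop) (hD : Geo D) (hN : Names D good)
    (hF : ∀ s w v, ∃ i < D.m, ∀ g x h, g * x * h = s → ∀ z,
      D.F (g * z * h) (w - D.e i x + D.e i z) + D.act v (g * z * h) = D.F s w + D.act v s)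
    (hM : B.M' = D.M') (hN1 : ∀ i < D.m, D.A' i + D.M' * D.M ≤ B.N1) :
    ∃ nu : List α → V,
      (∀ P Q v r, L1 B D P v → R1 B D Q r → B.XX (P ++ Q) ∧ r = T1 B D nu (P ++ Q) v) ∧
      (∀ P v, L1 B D P v → B.p0 ≤ P.length ∧ P.length ≤ B.p0 + B.N1) ∧
      (∀ X, B.XX X → B.Egood X → good ((X.length - B.p0) / D.M') →
        (∀ t, t ≤ D.A D.m + D.M' * D.M → ∃ s, t ≤ s ∧ s < t + D.G ∧ D.R (X.drop (B.p0 + s))) →
        (∀ k, k ≤ D.m → ∀ s, D.A k ≤ s + D.M' * D.M → s < D.A k + D.M' * D.M →
          ¬ D.R (X.drop (B.p0 + s))) →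
        ∀ v, ∃ P Q, P ++ Q = X ∧ L1 B D P v ∧ ∃ r, R1 B D Q r) := by
  obtain ⟨nu, g1, g2, g3⟩ := gadget1 D good hD hN hF
  have hLen : ∀ P v, L1 B D P v → B.p0 ≤ P.length ∧ P.length ≤ B.p0 + B.N1 ∧
      B.M' ∣ P.length - B.p0 := by
    rintro P v ⟨h1, h2⟩
    obtain ⟨i, hi, a1, a2, a3⟩ := g2 _ _ h2
    rw [List.length_drop] at a1 a2 a3
    have := hN1 i hi
    refine ⟨h1, by omega, by rw [hM]; exact a1⟩
  refine ⟨nu, ?_, fun P v h => ⟨(hLen P v h).1, (hLen P v h).2.1⟩, ?_⟩
  · intro P Q v r hP hQ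
    obtain ⟨h1, h2, h3⟩ := hLen P v hP
    refine ⟨B.junction h1 h2 h3 hQ.2, ?_⟩
    have := g1 _ _ _ _ hP.2 hQ.1
    unfold T1
    rw [List.take_append_of_le_length h1, List.drop_append_of_le_length h1]
    exact this
  · intro X hX hE hg hw hnd v
    have hXl := B.XX_len hX
    have hYl : (X.drop B.p0).length = X.length - B.p0 := List.length_drop ..
    obtain ⟨P', Q, hPQ, hL, hR⟩ := g3 (X.drop B.p0) (by rw [hYl]; exact hg)
      (fun i hi => by rw [hYl]; have := hN1 i hi; omega)
      (fun t ht => by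
        obtain ⟨s, a, b, c⟩ := hw t ht
        exact ⟨s, a, b, by rw [List.drop_drop]; exact c⟩)
      (fun k hk s a b c => hnd k hk s a b (by rw [List.drop_drop] at c; exact c))
      (D.act v (D.φ (X.take B.p0)))
    have htl : (X.take B.p0).length = B.p0 := by rw [List.length_take]; omega
    have hP : (X.take B.p0 ++ P').drop B.p0 = P' := List.drop_left' htl
    have hP2 : (X.take B.p0 ++ P').take B.p0 = X.take B.p0 := List.take_left' htl
    have hXe : (X.take B.p0 ++ P') ++ Q = X := by
      rw [List.append_assoc, hPQ, List.take_append_drop]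
    have hL1 : L1 B D (X.take B.p0 ++ P') v :=
      ⟨by rw [List.length_append, htl]; omega, by rw [hP, hP2]; exact hL⟩
    obtain ⟨h1, h2, h3⟩ := hLen _ v hL1
    obtain ⟨r, hr⟩ := Option.isSome_iff_exists.1 hR
    refine ⟨X.take B.p0 ++ P', Q, hXe, hL1, r, hr, ?_⟩
    exact B.RW_of_Egood (P := X.take B.p0 ++ P') (by rw [hXe]; exact hX)
      (by rw [hXe]; exact hE) h1 h2 h3

end Crest.Agent.R320.S1blk_494
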