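import Crest.Agent.R320.Asm_505
import Crest.Agent.R320.Exact_355

set_option autoImplicit false

/-!
Row 320, scheme 2 (promise ruler) in 505's `Level` form, with semantic right words.
-/

namespace Crest.Agent.R320.S2_952

open Crest.RegLang Crest.Agent.R320.Hk_851 Crest.Agent.R320.Asm_505

/-- product of a word -/
def pr {α S : Type*} [Monoid S] (φ : α → S) (w : List α) : S := (w.map φ).prod

theorem pr_append {α S : Type*} [Monoid S] (φ : α → S) (u v : List α) :
    pr φ (u ++ v) = pr φ u * pr φ v := by
  simp [pr]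

/-- contents of the blocks `[hb i, hb (i+1))`, `i < m` -/
def cont {α S : Type*} [Monoid S] (φ : α → S) (hb : ℕ → ℕ) (m : ℕ) (z : List α) : List S :=
  (List.range m).map fun i => pr φ ((z.take (hb (i + 1))).drop (hb i))

section
variable {α S : Type*} [Monoid S] (φ : α → S) (hb : ℕ → ℕ)

theorem cont_length (m : ℕ) (z : List α) : (cont φ hb m z).length = m := by
  simp [cont]

theorem cont_prod (h0 : hb 0 = 0) (hm : Monotone hb) (m : ℕ) (z : List α) :
    (cont φ hb m z).prod = pr φ (z.take (hb m)) := by
  induction m with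
  | zero => simp [cont, pr, h0]
  | succ m ih =>
    have h1 : cont φ hb (m + 1) z = cont φ hb m z ++ [pr φ ((z.take (hb (m + 1))).drop (hb m))] := by
      simp [cont, List.range_succ]
    rw [h1, List.prod_append, ih, List.prod_singleton, ← pr_append]
    congr 1
    have h2 : z.take (hb m) = (z.take (hb (m + 1))).take (hb m) := by
      rw [List.take_take, min_eq_left (hm (Nat.le_succ m))]
    rw [h2, List.take_append_drop]

theorem cont_take (hm : Monotone hb) {m i : ℕ} (hi : i ≤ m) (p q p' q' : List α) (L : ℕ)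
    (hL : hb i ≤ L) (h : (p ++ q).take L = (p' ++ q').take L) :
    (cont φ hb m (p ++ q)).take i = (cont φ hb m (p' ++ q')).take i := by
  apply List.ext_getElem
  · simp [cont_length]
  · intro n h1 h2
    have hn : n < i := by
      have := h1
      simp [cont_length] at this
      omega
    simp only [cont, List.getElem_take, List.getElem_map, List.getElem_range]
    have hle : hb (n + 1) ≤ L := le_trans (hm (by omega)) hL
    have e1 : (p ++ q).take (hb (n + 1)) = ((p ++ q).take L).take (hb (n + 1)) := by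
      rw [List.take_take, min_eq_left hle]
    have e2 : (p' ++ q').take (hb (n + 1)) = ((p' ++ q').take L).take (hb (n + 1)) := by
      rw [List.take_take, min_eq_left hle]
    rw [e1, e2, h]

theorem cont_drop (hm : Monotone hb) {m i : ℕ} (p p' q : List α) (hp : p.length = p'.length)
    (hL : p.length ≤ hb (i + 1)) :
    (cont φ hb m (p ++ q)).drop (i + 1) = (cont φ hb m (p' ++ q)).drop (i + 1) := by
  apply List.ext_getElem
  · simp [cont_length]
  · intro n h1 h2
    simp only [cont, List.getElem_drop, List.getElem_map, List.getElem_range]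
    have hle : p.length ≤ hb (i + 1 + n) := le_trans hL (hm (by omega))
    have hle2 : p.length ≤ hb (i + 1 + n + 1) := le_trans hL (hm (by omega))
    have key : ∀ r : List α, r.length = p.length →
        ((r ++ q).take (hb (i + 1 + n + 1))).drop (hb (i + 1 + n)) =
          (q.take (hb (i + 1 + n + 1) - p.length)).drop (hb (i + 1 + n) - p.length) := by
      intro r hr
      rw [List.take_append, List.drop_append, List.take_of_length_le (by omega),
        List.drop_of_length_le (by omega), hr]
      simp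
    rw [key p rfl, key p' hp.symm]

end

/-- data of scheme 2 -/
structure Dat (α S V : Type*) [Monoid S] [AddCommGroup V] where
  φ : α → S
  act : V → S → V
  m : ℕ
  K : ℕ
  idx : Fin K → ℕ
  Lf : Fin K → List S → Prop
  Rt : Fin K → List S → Prop
  lab : Fin K → V
  rlab : Fin K → V
  nu : List S → V
  N : ℕ
  pl : Fin K → ℕ → ℕ
  hb : ℕ → ℕ
  p0 : ℕ
  D : List α → V
  XX : Language α
  B : Language α
  idx_lt : ∀ c, idx c < m
  sound : ∀ (c : Fin K) (pre post : List S) (z : S), pre.length = idx c →
    (pre ++ z :: post).length = m → Lf c pre → Rt c post →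
      rlab c = act (lab c) (pre ++ z :: post).prod + nu (pre ++ z :: post)
  compl : ∀ (u : List S) (v : V), u.length = m → ∃ (c : Fin K) (pre post : List S) (z : S),
    u = pre ++ z :: post ∧ pre.length = idx c ∧ Lf c pre ∧ Rt c post ∧ lab c = v
  hb0 : hb 0 = 0
  hbm : hb m = p0
  hbmono : Monotone hb
  pl_pos : ∀ k j, j ≤ N → 0 < pl k j
  pl_lo : ∀ k j, j ≤ N → hb (idx k) ≤ pl k j
  pl_hi : ∀ k j, j ≤ N → pl k j ≤ hb (idx k + 1)
  pl_inj : ∀ k j k' j', j ≤ N → j' ≤ N → pl k j = pl k' j' → k = k'
  pc : PC XX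
  loc : ∀ z ∈ XX, ∀ y ≤ p0, ∀ p' : List α, p'.length = y → p' ++ z.drop y ∈ XX
  BX : ∀ z ∈ B, z ∈ XX
  len : ∀ z ∈ XX, p0 ≤ z.length
  amb : ∀ z ∈ B, ∀ k, ∃ j ≤ N, ∀ k' j', j' ≤ N → pl k' j' ≠ pl k j → ∀ p' : List α,
    p'.length = pl k' j' → ∀ z' ∈ B,
      ¬ (z' <+: p' ++ z.drop (pl k j) ∨ p' ++ z.drop (pl k j) <+: z')

namespace Dat

variable {α S V : Type*} [Monoid S] [AddCommGroup V] (G : Dat α S V)

/-- the zone map -/
def eps (z : List α) (v : V) : V :=
  G.act (G.act v (pr G.φ (z.take G.p0)) + G.nu (cont G.φ G.hb G.m z)) (pr G.φ (z.drop G.p0))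
    + G.D (z.drop G.p0)

/-- left words -/
def P2 (x : V) : Language α :=
  {p | ∃ k j, j ≤ G.N ∧ p.length = G.pl k j ∧ G.lab k = x ∧
    G.Lf k ((cont G.φ G.hb G.m p).take (G.idx k))}

/-- right words -/
def R2 (y : V) : Language α :=
  {q | (∃ x, ∃ p ∈ G.P2 x, p ++ q ∈ G.B) ∧ ∀ x, ∀ p ∈ G.P2 x, ∀ z ∈ G.B,
    (z <+: p ++ q ∨ p ++ q <+: z) → z = p ++ q ∧ G.eps z x = y}

theorem hb_le_p0 {i : ℕ} (hi : i ≤ G.m) : G.hb i ≤ G.p0 := by
  rw [← G.hbm]
  exact G.hbmono hi

theorem pl_le_p0 {k : Fin G.K} {j : ℕ} (hj : j ≤ G.N) : G.pl k j ≤ G.p0 :=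
  le_trans (G.pl_hi k j hj) (G.hb_le_p0 (G.idx_lt k))

/-- **scheme 2, one level** -/
theorem level2 : Level G.B 0 G.eps G.P2 G.R2 where
  pne := by
    rintro x ⟨k, j, hj, h, -⟩
    have := G.pl_pos k j hj
    simp at h
    omega
  sound := by
    intro z hz x y p hp q hq h
    exact hq.2 x p hp z hz h
  compl := by
    intro z hz _ x
    have hzX := G.BX z hz
    have hzl := G.len z hzX
    obtain ⟨k, pre, post, c, h1, h2, h3, h4, h5⟩ :=
      G.compl (cont G.φ G.hb G.m z) x (cont_length _ _ _ _)
    obtain ⟨j, hj, hamb⟩ := G.amb z hz k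
    set y := G.pl k j with hy
    have hyp : y ≤ G.p0 := G.pl_le_p0 hj
    have hyz : y ≤ z.length := le_trans hyp hzl
    have hzpq : z.take y ++ z.drop y = z := List.take_append_drop y z
    have hpl : (z.take y).length = y := by simp [hyz]
    have htk : (cont G.φ G.hb G.m (z.take y)).take (G.idx k) = pre := by
      have e := cont_take G.φ G.hb G.hbmono (m := G.m) (i := G.idx k) (G.idx_lt k).le
        (z.take y) [] (z.take y) (z.drop y) (G.hb (G.idx k)) le_rfl (by
          rw [List.append_nil, List.take_append_of_le_length]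
          rw [hpl]
          exact G.pl_lo k j hj)
      rw [List.append_nil, hzpq, h1] at e
      rw [e, List.take_append_of_le_length (by rw [h2]), ← h2, List.take_length]
    have hpP : z.take y ∈ G.P2 x := ⟨k, j, hj, hpl, h5, by rw [htk]; exact h3⟩
    refine ⟨z.take y, hpP, z.drop y, ?_, hzpq.symm⟩
    refine ⟨⟨x, z.take y, hpP, by rw [hzpq]; exact hz⟩, ?_⟩
    rintro x' p' ⟨k', j', hj', hl', hlab', hLf'⟩ z' hz' hcomp
    have hpe : G.pl k' j' = y := by
      by_contra hne
      exact hamb k' j' hj' hne p' hl' z' hz' hcomp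
    have hkk : k' = k := G.pl_inj k' j' k j hj' hj hpe
    subst hkk
    have hlp : p'.length = y := hl'.trans hpe
    have hX' : p' ++ z.drop y ∈ G.XX := G.loc z hzX y hyp p' hlp
    have hz'X := G.BX z' hz'
    have hzz : z' = p' ++ z.drop y := by
      rcases hcomp with h | h
      · exact G.pc.pc _ hz'X _ hX' h
      · exact (G.pc.pc _ hX' _ hz'X h).symm
    refine ⟨hzz, ?_⟩
    have hxx : x' = x := by rw [← hlab', h5]
    subst hxx
    -- contents
    have hpost : (cont G.φ G.hb G.m z').drop (G.idx k' + 1) = post := by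
      have e := cont_drop G.φ G.hb G.hbmono (m := G.m) (i := G.idx k') p' (z.take y) (z.drop y)
        (by rw [hlp, hpl]) (by rw [hlp]; exact G.pl_hi k' j hj)
      rw [hzpq, ← hzz, h1] at e
      rw [e, ← h2]
      simp
    have hpre : (cont G.φ G.hb G.m z').take (G.idx k') =
        (cont G.φ G.hb G.m p').take (G.idx k') := by
      have e := cont_take G.φ G.hb G.hbmono (m := G.m) (i := G.idx k') (G.idx_lt k').le
        p' (z.drop y) p' [] (G.hb (G.idx k')) le_rfl (by
          rw [List.append_nil, List.take_append_of_le_length]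
          rw [hlp]
          exact G.pl_lo k' j hj)
      rw [← hzz, List.append_nil] at e
      exact e
    have hlt : G.idx k' < (cont G.φ G.hb G.m z').length := by
      rw [cont_length]; exact G.idx_lt k'
    have hdec : cont G.φ G.hb G.m z' = (cont G.φ G.hb G.m p').take (G.idx k') ++
        (cont G.φ G.hb G.m z')[G.idx k'] :: post := by
      rw [← hpost, ← hpre, List.cons_getElem_drop_succ, List.take_append_drop]
    have hlen' : ((cont G.φ G.hb G.m p').take (G.idx k')).length = G.idx k' := by
      rw [List.length_take, cont_length]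
      exact min_eq_left (G.idx_lt k').le
    have s1 := G.sound k' _ post _ hlen' (by rw [← hdec, cont_length]) hLf' h4
    rw [← hdec] at s1
    have s2 := G.sound k' pre post c h2 (by rw [← h1, cont_length]) h3 h4
    rw [← h1] at s2
    rw [cont_prod G.φ G.hb G.hb0 G.hbmono, G.hbm, h5] at s1 s2
    unfold eps
    rw [← s1, ← s2]
    have hdr : z'.drop G.p0 = z.drop G.p0 := by
      have e1 : z'.drop G.p0 = (z'.drop y).drop (G.p0 - y) := by
        rw [List.drop_drop]; congr 1; omega
      have e2 : z.drop G.p0 = (z.drop y).drop (G.p0 - y) := by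
        rw [List.drop_drop]; congr 1; omega
      rw [e1, e2]
      congr 1
      rw [hzz, ← hlp, List.drop_left]
    rw [hdr]

end Dat

end Crest.Agent.R320.S2_952
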