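import Crest.Agent.R320.Last_517
import Crest.Agent.R320.GadL_517
import Crest.Agent.R320.Univ_582

/-!
# Row 320: all finite monoids (helper517)
-/

set_option autoImplicit false

namespace Crest.Agent.R320.S495_517

open Crest.RegLang Crest.Agent.R320.Hk_851

theorem fin (α : Type) [Finite α] (S : Type) [Monoid S] [Finite S] (φ : α → S) (s : S) :
    HL 3 ({w | (w.map φ).prod = s} : Language α) := by
  classical
  haveI := Fintype.ofFinite S
  refine Last_517.fin_of_gad α S ?_ φ s
  exact GadL_517.gadget_loc S (S → ZMod 2) Fin_517.pact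

theorem row {α : Type*} [Finite α] (L : Language α) (hL : L.IsRegular) :
    ∃ e : GRegExp α, e.height ≤ 3 ∧ e.lang = L :=
  Univ_582.final (k := 3) (fun β _ S _ _ φ s => fin β S φ s) α L hL

end Crest.Agent.R320.S495_517
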