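import Crest.Agent.R320.WZ_316

/-!
Row 320 (helper316): scheme A (outer scheme) of `Main_621.Data` from an abstract gadget, on the zones
of the natural chain rule.
-/

set_option autoImplicit false

namespace Crest.Agent.R320.SA_316

open Crest.Agent.R320.Hk_851 Crest.Agent.R320.Star_621 Crest.Agent.R320.Two_621
open Crest.Agent.R320.WZ_316

universe u

variable {α : Type u} {S : Type u} [Monoid S]

/-- the zone gadget (693 / 638 / 893): sound for every word, complete off `Bad |Y|` -/
structure Gad (ph : List α → S) where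
  lam : Tok S → Language α
  rho : Tok S → Language α
  nu : List α → Tok S
  N1 : ℕ
  Bad : ℕ → Prop
  len : ∀ {v p}, p ∈ lam v → p.length ≤ N1
  sound : ∀ {v b p q}, p ∈ lam v → q ∈ rho b → b = act v (ph (p ++ q)) + nu (p ++ q)
  complete : ∀ Y : List α, 2 * N1 ≤ Y.length → ¬ Bad Y.length → ∀ v, ∃ p q b, Y = p ++ q ∧
    p ∈ lam v ∧ q ∈ rho b

variable (ph : List α → S) (g : Gad ph) (Wo : List α → Prop) (p0 zz : ℕ)

def LA (v : Tok S) : Language α :=
  {P | p0 ≤ P.length ∧ P.drop p0 ∈ g.lam (act v (ph (P.take p0)))}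

def RA (τ : Tok S) : Language α :=
  {Q | ∃ t b, FW Wo (zz - p0 - g.N1) Q t ∧ zz - p0 ≤ t ∧ FW Wo (t + 1) Q Q.length ∧
    Q.take t ∈ g.rho b ∧ τ = act b (ph (Q.drop t))}

/-- noise of the part behind `p0` -/
noncomputable def dY (Y : List α) : Tok S :=
  act (g.nu (Y.take (tt Wo (zz - p0) Y))) (ph (Y.drop (tt Wo (zz - p0) Y)))

noncomputable def dA (z : List α) : Tok S := dY ph g Wo p0 zz (z.drop p0)

/-- end wall band -/
def Eb (N1 : ℕ) (z : List α) : Prop := ∃ t, Wt Wo z t ∧ zz ≤ t + N1 ∧ t < zz + N1

def Zc : Language α :=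
  {z | Zn Wo zz z ∧ (Eb Wo zz g.N1 z ∨ g.Bad (tt Wo zz z - p0))}

variable {ph} {g} {Wo} {p0 zz}
variable {n : ℕ} (loc : ∀ P Q : List α, n ≤ Q.length → (Wo (P ++ Q) ↔ Wo Q))
variable (hm : ∀ a b, ph (a ++ b) = ph a * ph b)
variable (h0 : 0 < p0) (hz : p0 + 2 * g.N1 + n ≤ zz)

include loc hz in
/-- first wall `≥ zz` of the text is first wall `≥ zz - p0` of the part behind `p0` -/
theorem tt_drop {z : List α} {t : ℕ} (h : FW Wo zz z t) :
    FW Wo (zz - p0) (z.drop p0) (t - p0) := by
  have hl : t ≤ z.length := h.1.1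
  have ht := h.2.1
  have e : z = z.take p0 ++ z.drop p0 := (List.take_append_drop _ _).symm
  have el : (z.take p0).length = p0 := by rw [List.length_take]; omega
  have h' : FW Wo zz (z.take p0 ++ z.drop p0) ((z.take p0).length + (t - p0)) := by
    rw [← e, el]
    rwa [Nat.add_sub_cancel' (by omega)]
  refine fw_unshift loc (by omega) h' (by omega) fun s hs hst h4 => ?_
  rw [el] at h4
  omega

include loc hm h0 hz in
theorem soundA : Sound ({z | Zn Wo zz z} : Language α) (aff ph (dA ph g Wo p0 zz))
    (LA ph g p0) (RA ph g Wo p0 zz) := by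
  constructor
  · rintro ω ⟨h1, -⟩
    simp at h1
    omega
  · rintro ω τ P Q z x y ⟨hP1, hP2⟩ ⟨t, b, hQ1, hQ2, hQ3, hQ4, rfl⟩ hzZ he
    have hlen := g.len hP2
    rw [List.length_drop] at hlen
    have hPQ1 : FW Wo zz (P ++ Q) (P.length + t) :=
      fw_shift loc (by omega) hQ1 (by omega) (by omega)
    have hQ3' : t + 1 ≤ Q.length := hQ3.2.1
    have hPQ2 : FW Wo (P.length + t + 1) (P ++ Q) (P ++ Q).length := by
      rw [List.length_append]
      exact fw_shift loc (by omega) hQ3 (by omega) (by omega)
    have hZ : P ++ Q ∈ ({z | Zn Wo zz z} : Language α) := ⟨_, hPQ1, hPQ2⟩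
    have hcode := (code (Wo := Wo) zz).2 _ _ _ _ hZ hzZ he
    refine ⟨hcode, ?_⟩
    subst hcode
    have ht := tt_eq (tt_drop loc hz hPQ1)
    have eP : P = P.take p0 ++ P.drop p0 := (List.take_append_drop _ _).symm
    have ePl : (P.take p0).length = p0 := by rw [List.length_take]; omega
    have eD : (P ++ Q).drop p0 = P.drop p0 ++ Q := by
      rw [List.drop_append_of_le_length hP1]
    have hb := g.sound hP2 hQ4
    have e1 : (P.drop p0 ++ Q).take (P.length + t - p0) = P.drop p0 ++ Q.take t := by
      rw [List.take_append, List.take_of_length_le (by rw [List.length_drop]; omega)]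
      congr 2
      rw [List.length_drop]; omega
    have e2 : (P.drop p0 ++ Q).drop (P.length + t - p0) = Q.drop t := by
      rw [List.drop_append, List.drop_of_length_le (by rw [List.length_drop]; omega)]
      rw [List.nil_append]
      congr 1
      rw [List.length_drop]; omega
    show act b (ph (Q.drop t)) = act ω (ph (P ++ Q)) + dY ph g Wo p0 zz ((P ++ Q).drop p0)
    have e3 : ph (P ++ Q) = ph (P.take p0) * ph (P.drop p0 ++ Q.take t) * ph (Q.drop t) := by
      rw [← hm, ← hm]
      congr 1
      rw [← List.append_assoc, ← eP, List.append_assoc, List.take_append_drop]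
    unfold dY
    rw [ht, eD, e1, e2, e3, hb, act_add, ← act_mul, ← act_mul]

include loc h0 hz in
theorem cutA_of {z : List α} (hzZ : Zn Wo zz z) (hc : z ∉ Zc ph g Wo p0 zz) (v : Tok S) :
    Cut (LA ph g p0) (RA ph g Wo p0 zz) v z := by
  obtain ⟨t, h1, h2⟩ := hzZ
  have ht := tt_eq h1
  have hE : ¬ Eb Wo zz g.N1 z := fun h => hc ⟨⟨t, h1, h2⟩, Or.inl h⟩
  have hB : ¬ g.Bad (t - p0) := fun h => hc ⟨⟨t, h1, h2⟩, Or.inr (ht ▸ h)⟩
  have hl : t ≤ z.length := h1.1.1
  have htz := h1.2.1
  have hge : zz + g.N1 ≤ t := by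
    by_contra h
    exact hE ⟨t, h1.1, by omega, by omega⟩
  set Y := (z.take t).drop p0 with hY
  have hYl : Y.length = t - p0 := by
    rw [hY, List.length_drop, List.length_take]; omega
  obtain ⟨p, q, b, hpq, hp, hq⟩ := g.complete Y (by omega) (by rw [hYl]; exact hB)
    (act v (ph (z.take p0)))
  have hpl := g.len hp
  have hql : p.length + q.length = t - p0 := by
    rw [← hYl, hpq, List.length_append]
  have el : (z.take p0).length = p0 := by rw [List.length_take]; omega
  have ez : z = (z.take p0 ++ p) ++ (q ++ z.drop t) := by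
    have a1 : z.take t = (z.take t).take p0 ++ (z.take t).drop p0 :=
      (List.take_append_drop _ _).symm
    rw [List.take_take, min_eq_left (by omega : p0 ≤ t), ← hY, hpq] at a1
    calc z = z.take t ++ z.drop t := (List.take_append_drop _ _).symm
      _ = _ := by rw [a1]; simp
  set P := z.take p0 ++ p with hP
  have hPl : P.length = p0 + p.length := by rw [hP, List.length_append, el]
  have hPt : P.take p0 = z.take p0 := by
    rw [hP, List.take_append_of_le_length (by omega), List.take_take, min_self]
  have hPd : P.drop p0 = p := by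
    rw [hP, List.drop_append, List.drop_of_length_le (by omega), List.nil_append, el]
    simp
  have hd : (q ++ z.drop t).length = z.length - P.length := by
    have := congrArg List.length ez
    rw [List.length_append] at this
    omega
  refine ⟨P, q ++ z.drop t, act b (ph (z.drop t)), ez, ⟨by omega, ?_⟩, q.length, b, ?_, ?_, ?_, ?_, ?_⟩
  · rw [hPt, hPd]; exact hp
  · have h' : FW Wo zz (P ++ (q ++ z.drop t)) (P.length + q.length) := by
      rw [← ez]
      have : P.length + q.length = t := by omega
      rw [this]; exact h1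
    refine fw_unshift loc (by omega) h' (by omega) fun s hs hst h4 hw => ?_
    rw [← ez] at hw
    exact hE ⟨_, hw, by omega, by omega⟩
  · omega
  · have h' : FW Wo (t + 1) (P ++ (q ++ z.drop t)) (P.length + (q ++ z.drop t).length) := by
      rw [← List.length_append, ← ez]; exact h2
    have h2' := h2.2.1
    refine fw_unshift loc (by omega) h' (by rw [hd]; omega) fun s hs hst h4 => ?_
    omega
  · rw [List.take_append_of_le_length le_rfl, List.take_length]
    exact hq
  · rw [List.drop_append_of_le_length le_rfl, List.drop_length, List.nil_append]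

end Crest.Agent.R320.SA_316
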