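import Crest.Agent.R320.Geo_678
import Crest.Agent.R320.Main_621

/-!
# Row 320: outer scheme on zones of the natural chain rule from a length gadget (helper678)
-/

set_option autoImplicit false

namespace Crest.Agent.R320.SA_678

open Crest.Agent.R320.Geo_678 Crest.Agent.R320.Two_621 Crest.Agent.R320.Star_621

universe u

variable {α : Type u} {S : Type u} [Monoid S] {Wo : List α → Prop}

theorem FW.mono {h h' s : ℕ} {u : List α} (a : FW Wo h u s) (h1 : h ≤ h') (h2 : h' ≤ s) :
    FW Wo h' u s := ⟨h2, a.2.1, a.2.2.1, fun t ht => a.2.2.2 t (h1.trans ht)⟩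

/-- the gadget on the piece between `p0` and the first wall -/
structure Gad (ph : List α → S) (N : ℕ) (Bad : ℕ → Prop)
    (lam rho : List α → Option (Tok S)) (nu : List α → Tok S) : Prop where
  len : ∀ p v, lam p = some v → p.length ≤ N
  sound : ∀ p q v r, lam p = some v → rho q = some r →
    r = act v (ph (p ++ q)) + nu (p ++ q)
  compl : ∀ u : List α, 2 * N ≤ u.length → ¬ Bad u.length → ∀ v, ∃ p q, p ++ q = u ∧
    lam p = some v ∧ (rho q).isSome

/-- left parts -/
def LA (ph : List α → S) (p0 : ℕ) (lam : List α → Option (Tok S)) (v : Tok S) : Language α :=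
  {P | ∃ X P', P = X ++ P' ∧ X.length = p0 ∧ lam P' = some (act v (ph X))}

/-- right parts -/
def RA (ph : List α → S) (Wo : List α → Prop) (h p0 N : ℕ) (rho : List α → Option (Tok S))
    (t : Tok S) : Language α :=
  {Q | ∃ Y R b, Q = Y ++ R ∧ FW Wo (h - p0 - N) Q Y.length ∧ h ≤ p0 + Y.length ∧
    FW Wo (Y.length + 1) Q Q.length ∧ rho Y = some b ∧ t = act b (ph R)}

open Classical in
/-- noise of a zone -/
noncomputable def dA (ph : List α → S) (Wo : List α → Prop) (h p0 : ℕ)
    (nu : List α → Tok S) (z : List α) : Tok S :=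
  if hs : ∃ s, FW Wo h z s then act (nu ((z.take hs.choose).drop p0)) (ph (z.drop hs.choose))
  else 0

theorem dA_eq {ph : List α → S} {h p0 : ℕ} {nu : List α → Tok S} {z : List α} {s : ℕ}
    (hs : FW Wo h z s) :
    dA ph Wo h p0 nu z = act (nu ((z.take s).drop p0)) (ph (z.drop s)) := by
  have hex : ∃ s, FW Wo h z s := ⟨s, hs⟩
  unfold dA
  rw [dif_pos hex, hex.choose_spec.uniq hs]

/-- bad zones -/
def BadZ (Wo : List α → Prop) (h p0 N : ℕ) (Bad : ℕ → Prop) (z : List α) : Prop :=
  (∃ τ, τ ≤ z.length ∧ h ≤ τ + N ∧ τ < h + N ∧ Wo (z.take τ)) ∨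
    ∃ s, FW Wo h z s ∧ Bad (s - p0)

variable {ph : List α → S} {n N p0 h : ℕ} {Bad : ℕ → Prop}
  {lam rho : List α → Option (Tok S)} {nu : List α → Tok S}

theorem soundA (hm : ∀ a b, ph (a ++ b) = ph a * ph b)
    (loc : ∀ P Q : List α, n ≤ Q.length → (Wo (P ++ Q) ↔ Wo Q))
    (hG : Gad ph N Bad lam rho nu) (hh : p0 + N + n ≤ h) (hp : 0 < p0) :
    Sound (Zn Wo h : Language α) (aff ph (dA ph Wo h p0 nu)) (LA ph p0 lam)
      (RA ph Wo h p0 N rho) := by
  constructor
  · rintro v ⟨X, P', h1, h2, -⟩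
    have : X = [] := (List.append_eq_nil_iff.1 h1.symm).1
    rw [this] at h2
    simp at h2
    omega
  · rintro v t P Q z x y ⟨X, P', rfl, hX, hl⟩ ⟨Y, R, b, rfl, w1, w2, w3, hr, rfl⟩ hz he
    have hlen := hG.len _ _ hl
    have hPlen : (X ++ P').length = p0 + P'.length := by rw [List.length_append, hX]
    have f1 := (FW_drop (P := X ++ P') (Q := Y ++ R) loc (g := h - p0 - N) (by omega)).2 w1
    have f2 := (FW_drop (P := X ++ P') (Q := Y ++ R) loc (g := Y.length + 1) (by
      have := w1.1; omega)).2 w3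
    have f1' : FW Wo h (X ++ P' ++ (Y ++ R)) ((X ++ P').length + Y.length) :=
      FW.mono f1 (by omega) (by omega)
    have hzn : Zn Wo h (X ++ P' ++ (Y ++ R)) := by
      refine ⟨_, f1', ?_⟩
      rw [List.length_append (as := X ++ P')]
      rw [← Nat.add_assoc] at f2
      exact f2
    have hz' : X ++ P' ++ (Y ++ R) = z := Zn_code hzn hz he
    refine ⟨hz', ?_⟩
    rw [← hz', aff, dA_eq f1']
    have e1 : ((X ++ P' ++ (Y ++ R)).take ((X ++ P').length + Y.length)).drop p0 = P' ++ Y := by
      rw [take_add, List.take_left' rfl, List.append_assoc, List.drop_left' hX]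
    have e2 : (X ++ P' ++ (Y ++ R)).drop ((X ++ P').length + Y.length) = R := by
      rw [← List.append_assoc]
      exact List.drop_left' (by rw [List.length_append (as := X ++ P')])
    rw [e1, e2, hG.sound _ _ _ _ hl hr, act_add, act_mul, act_mul]
    simp only [hm, mul_assoc]

theorem complA (loc : ∀ P Q : List α, n ≤ Q.length → (Wo (P ++ Q) ↔ Wo Q))
    (hG : Gad ph N Bad lam rho nu) (hh : p0 + N + n ≤ h) {z : List α} (hz : Zn Wo h z)
    (hb : ¬ BadZ Wo h p0 N Bad z) (v : Tok S) :
    Cut (LA ph p0 lam) (RA ph Wo h p0 N rho) v z := by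
  obtain ⟨s, hs1, hs2⟩ := hz
  have hsl := hs1.2.1
  have hsh := hs1.1
  have hsN : h + N ≤ s := by
    by_contra hlt
    exact hb (Or.inl ⟨s, hsl, by omega, by omega, hs1.2.2.1⟩)
  have hl1 : ((z.take s).drop p0).length = s - p0 := by
    rw [List.length_drop, List.length_take]; omega
  have hnb : ¬ Bad ((z.take s).drop p0).length := by
    rw [hl1]; exact fun hB => hb (Or.inr ⟨s, hs1, hB⟩)
  obtain ⟨p, q, hpq, hlp, hrq⟩ := hG.compl ((z.take s).drop p0) (by omega) hnb
    (act v (ph (z.take p0)))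
  have hlen := hG.len _ _ hlp
  have hpq' : p.length + q.length = s - p0 := by
    rw [← hl1, ← hpq, List.length_append]
  obtain ⟨b, hb'⟩ := Option.isSome_iff_exists.1 hrq
  have hX : (z.take p0).length = p0 := by rw [List.length_take]; omega
  have hzs : z = z.take p0 ++ p ++ (q ++ z.drop s) := by
    rw [List.append_assoc, ← List.append_assoc p q, hpq]
    have : z.take p0 = (z.take s).take p0 := by rw [List.take_take]; congr 1; omega
    rw [← List.append_assoc, this, List.take_append_drop, List.take_append_drop]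
  have hPl : (z.take p0 ++ p).length = p0 + p.length := by rw [List.length_append, hX]
  refine ⟨z.take p0 ++ p, q ++ z.drop s, act b (ph (z.drop s)), hzs, ⟨z.take p0, p, rfl, hX, hlp⟩,
    ⟨q, z.drop s, b, rfl, ?_, by omega, ?_, hb', rfl⟩⟩
  · refine (FW_drop (P := z.take p0 ++ p) loc (g := h - p0 - N) (by omega)).1 ?_
    rw [← hzs]
    have e : (z.take p0 ++ p).length + q.length = s := by omega
    rw [e]
    refine ⟨by omega, hsl, hs1.2.2.1, fun t h1 h2 h3 => ?_⟩
    rcases Nat.lt_or_ge t h with h4 | h4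
    · exact hb (Or.inl ⟨t, by omega, by omega, by omega, h3⟩)
    · exact hs1.2.2.2 t h4 h2 h3
  · refine (FW_drop (P := z.take p0 ++ p) loc (g := q.length + 1) (by omega)).1 ?_
    rw [← hzs]
    have e : (z.take p0 ++ p).length + (q.length + 1) = s + 1 := by omega
    have e2 : (z.take p0 ++ p).length + (q ++ z.drop s).length = z.length := by
      conv_rhs => rw [hzs]
      rw [List.length_append (as := z.take p0 ++ p)]
    rw [e, e2]
    exact hs2

end Crest.Agent.R320.SA_678
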