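import Crest.Agent.R320.SA_316
import Crest.Agent.R320.ExactRu_316

/-!
Row 320 (helper316): scheme B (inner promise scheme) of `Main_621.Data` from 237's exact gadget.
-/

set_option autoImplicit false

namespace Crest.Agent.R320.SB_316

open Crest.Agent.R320.Hk_851 Crest.Agent.R320.Star_621 Crest.Agent.R320.Two_621
open Crest.Agent.R320.WZ_316 Crest.Agent.R320.SA_316
open Crest.Agent.R320.ExactRu_316 (pr)

universe u

variable {α : Type u} {S : Type u} [Monoid S]

abbrev T2 (S : Type u) : Type u := (Function.End (Option (Tok S)))ᵐᵒᵖ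

/-- the part in front of `p0` -/
def Gs (s : S) : T2 S := MulOpposite.op fun o => o.map fun v => act v s

theorem Gs_mul (s t : S) : Gs (s * t) = Gs s * Gs t := by
  apply MulOpposite.unop_injective
  funext o
  show o.map (fun v => act v (s * t)) = (o.map fun v => act v s).map fun v => act v t
  cases o with
  | none => rfl
  | some v => simp [act_mul]

theorem Gs_one : Gs (1 : S) = 1 := by
  apply MulOpposite.unop_injective
  funext o
  show o.map (fun v => act v (1 : S)) = o
  cases o with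
  | none => rfl
  | some v => simp [act_one]

variable (ph : List α → S) (g : Gad ph) (Wo : List α → Prop) (p0 zz : ℕ)

def CutY (v : Tok S) (Y : List α) : Prop :=
  ∃ p Q τ, Y = p ++ Q ∧ p ∈ g.lam v ∧ Q ∈ RA ph g Wo p0 zz τ

open Classical in
noncomputable def Hs (Y : List α) : T2 S :=
  MulOpposite.op fun o => o.bind fun v =>
    if CutY ph g Wo p0 zz v Y then none else some (act v (ph Y) + dY ph g Wo p0 zz Y)

variable {ph} {g} {Wo} {p0 zz}

theorem cut_iff {z : List α} (hz : p0 ≤ z.length) (v : Tok S) :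
    Cut (LA ph g p0) (RA ph g Wo p0 zz) v z ↔
      CutY ph g Wo p0 zz (act v (ph (z.take p0))) (z.drop p0) := by
  constructor
  · rintro ⟨P, Q, τ, rfl, ⟨h1, h2⟩, h3⟩
    refine ⟨P.drop p0, Q, τ, List.drop_append_of_le_length h1, ?_, h3⟩
    rw [List.take_append_of_le_length h1]
    exact h2
  · rintro ⟨p, Q, τ, h1, h2, h3⟩
    have el : (z.take p0).length = p0 := by rw [List.length_take]; omega
    refine ⟨z.take p0 ++ p, Q, τ, ?_, ⟨by rw [List.length_append, el]; omega, ?_⟩, h3⟩
    · rw [List.append_assoc, ← h1, List.take_append_drop]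
    · have e1 : (z.take p0 ++ p).take p0 = z.take p0 := by
        rw [List.take_append_of_le_length (by omega), List.take_take, min_self]
      have e2 : (z.take p0 ++ p).drop p0 = p := by
        rw [List.drop_append, List.drop_of_length_le (by omega), List.nil_append, el]
        simp
      rw [e1, e2]
      exact h2

theorem stepA_eq (hm : ∀ a b, ph (a ++ b) = ph a * ph b) {z : List α} (hz : p0 ≤ z.length) :
    stepA (aff ph (dA ph g Wo p0 zz)) (LA ph g p0) (RA ph g Wo p0 zz) z =
      Gs (ph (z.take p0)) * Hs ph g Wo p0 zz (z.drop p0) := by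
  classical
  apply MulOpposite.unop_injective
  funext o
  cases o with
  | none => rfl
  | some v =>
    show (if Cut (LA ph g p0) (RA ph g Wo p0 zz) v z then none
      else some (act v (ph z) + dY ph g Wo p0 zz (z.drop p0))) =
      (if CutY ph g Wo p0 zz (act v (ph (z.take p0))) (z.drop p0) then none
        else some (act (act v (ph (z.take p0))) (ph (z.drop p0)) + dY ph g Wo p0 zz (z.drop p0)))
    have e : ph z = ph (z.take p0) * ph (z.drop p0) := by
      rw [← hm, List.take_append_drop]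
    rw [act_mul, ← e]
    by_cases h : Cut (LA ph g p0) (RA ph g Wo p0 zz) v z
    · rw [if_pos h, if_pos ((cut_iff hz v).1 h)]
    · rw [if_neg h, if_neg fun h' => h ((cut_iff hz v).2 h')]

/-! ### the labels -/

variable (g) (Wo) (zz)

/-- the candidate with clock `c` looks bad from the right word `Q` -/
def BadAt (p0 : ℕ) (c : ℕ) (Q : List α) : Prop :=
  ∃ t, FW Wo (zz - c) Q t ∧
    ((∃ s, Wt Wo Q s ∧ zz ≤ s + c + g.N1 ∧ s + c < zz + g.N1) ∨ g.Bad (t + c - p0))

variable (K : ℕ) (c : ℕ → ℕ) (lam2 : ℕ → List α → Option (Tok (T2 S)))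
  (rho2 : ℕ → List α → T2 S → Option (Tok (T2 S))) (nu2 : List α → T2 S → Tok (T2 S)) (p0)

def LB (v : Tok (T2 S)) : Language α := {P | ∃ k < K, P.length = c k ∧ lam2 k P = some v}

def RB (τ : Tok (T2 S)) : Language α :=
  {Q | ∃ k < K, BadAt g Wo zz p0 (c k) Q ∧ (∀ k' < K, BadAt g Wo zz p0 (c k') Q → k' = k) ∧
    (∃ t, FW Wo (zz - c k) Q t ∧ FW Wo (t + 1) Q Q.length) ∧
    rho2 k (Q.take (p0 - c k)) (Hs ph g Wo p0 zz (Q.drop (p0 - c k))) = some τ}

noncomputable def dB (z : List α) : Tok (T2 S) := nu2 (z.take p0) (Hs ph g Wo p0 zz (z.drop p0))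

variable {g} {Wo} {zz} {K} {c} {lam2} {rho2} {nu2} {p0}
variable {n W : ℕ} (loc : ∀ P Q : List α, n ≤ Q.length → (Wo (P ++ Q) ↔ Wo Q))
  (gap : ∀ (w : List α) (s t : ℕ), Wt Wo w s → Wt Wo w t → s < t → W < t - s)
  (hm : ∀ a b, ph (a ++ b) = ph a * ph b)
  (hz : p0 + 2 * g.N1 + n ≤ zz) (hW : 2 * p0 + 2 * g.N1 ≤ W)
  (hc : ∀ k < K, 0 < c k ∧ c k ≤ p0)

include loc gap hz hW in
theorem badAt_of_text {P Q x z y : List α} {ck : ℕ} (hP : P.length = ck) (hck : ck ≤ p0)
    (hzc : z ∈ Zc ph g Wo p0 zz) (he : P ++ Q ++ x = z ++ y)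
    {b t : ℕ} (hb : zz ≤ b + p0 + p0) (hbt : b < t) (h1 : Wt Wo Q b) (h2 : t = Q.length)
    (h3 : Wt Wo Q t) : BadAt g Wo zz p0 ck Q := by
  obtain ⟨⟨tz, z1, z2⟩, hE⟩ := hzc
  have htz := tt_eq z1
  rw [htz] at hE
  have hg := gap Q b t h1 h3 hbt
  have a1 := (fw_app (x := y) z1.1.1).2 z1
  rw [← he, List.append_assoc] at a1
  have htz' := z1.2.1
  have e1 : tz = P.length + (tz - P.length) := by omega
  rw [e1] at a1
  have a2 : FW Wo (zz - ck) (Q ++ x) (tz - P.length) :=
    fw_unshift loc (by omega) a1 (by omega) fun s hs hst h4 => by omega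
  have h3' : Wt Wo (Q ++ x) t := (wt_app (by omega)).2 h3
  have h4 : tz - P.length ≤ Q.length := by
    by_contra hlt
    exact a2.2.2 t (by omega) (by omega) h3'
  refine ⟨tz - P.length, (fw_app h4).1 a2, ?_⟩
  rcases hE with ⟨s, hs1, hs2, hs3⟩ | hE
  · left
    have b1 := (wt_app (x := y) hs1.1).2 hs1
    rw [← he, List.append_assoc] at b1
    have e2 : s = P.length + (s - P.length) := by omega
    rw [e2, wt_shift loc (by omega)] at b1
    exact ⟨s - P.length, (wt_app (by omega)).1 b1, by omega, by omega⟩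
  · right
    have e3 : tz - P.length + ck - p0 = tz - p0 := by omega
    rw [e3]; exact hE

include loc gap hm hz hW hc in
theorem soundB (f : α → S) (hf : ph = fun w => (w.map f).prod)
    (hex : ∀ k < K, ∀ (P Q : List α) (y : T2 S) (v b : Tok (T2 S)), P.length = c k →
      lam2 k P = some v → rho2 k Q y = some b →
      b = act v (pr (fun a => Gs (f a)) (P ++ Q) * y) + nu2 (P ++ Q) y) :
    Sound (Zc ph g Wo p0 zz)
      (aff (stepA (aff ph (dA ph g Wo p0 zz)) (LA ph g p0) (RA ph g Wo p0 zz))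
        (dB g Wo p0 zz nu2))
      (LB K c lam2) (RB g Wo p0 zz K c rho2) := by
  constructor
  · rintro ω ⟨k, hk, h1, -⟩
    have := (hc k hk).1
    simp at h1
    omega
  · rintro ω τ P Q z x y ⟨k0, hk0, hP1, hP2⟩ ⟨k, hk, hQ1, hQ2, ⟨t, hQ3, hQ4⟩, hQ5⟩ hzc he
    have c0 := hc k0 hk0
    have c1 := hc k hk
    have hQ3' := hQ3.2.1
    have hQ4' := hQ4.2.1
    have hbad : BadAt g Wo zz p0 (c k0) Q :=
      badAt_of_text loc gap hz hW hP1 c0.2 hzc he (b := t) (t := Q.length) (by omega) (by omega)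
        hQ3.1 rfl hQ4.1
    have ek := hQ2 k0 hk0 hbad
    subst ek
    have hPQ1 : FW Wo zz (P ++ Q) (P.length + t) :=
      fw_shift loc (by omega) hQ3 (by omega) (by omega)
    have hPQ2 : FW Wo (P.length + t + 1) (P ++ Q) (P ++ Q).length := by
      rw [List.length_append]
      exact fw_shift loc (by omega) hQ4 (by omega) (by omega)
    have hZ : P ++ Q ∈ ({z | Zn Wo zz z} : Language α) := ⟨_, hPQ1, hPQ2⟩
    have hcode := (code (Wo := Wo) zz).2 _ _ _ _ hZ hzc.1 he
    refine ⟨hcode, ?_⟩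
    subst hcode
    have hl : (P ++ Q).length = P.length + Q.length := List.length_append
    have e1 : (P ++ Q).take p0 = P ++ Q.take (p0 - c k0) := by
      rw [List.take_append, List.take_of_length_le (by omega), hP1]
    have e2 : (P ++ Q).drop p0 = Q.drop (p0 - c k0) := by
      rw [List.drop_append, List.drop_of_length_le (by omega), List.nil_append, hP1]
    have h := hex k0 hk0 P _ _ ω τ hP1 hP2 hQ5
    show τ = act ω (stepA (aff ph (dA ph g Wo p0 zz)) (LA ph g p0) (RA ph g Wo p0 zz) (P ++ Q)) +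
      nu2 ((P ++ Q).take p0) (Hs ph g Wo p0 zz ((P ++ Q).drop p0))
    rw [stepA_eq hm (by omega), e1, e2, h]
    have e3 : ∀ w : List α, pr (fun a => Gs (f a)) w = Gs (ph w) := by
      intro w
      rw [hf]
      induction w with
      | nil => exact Gs_one.symm
      | cons a w ih =>
        have : pr (fun a => Gs (f a)) (a :: w) = Gs (f a) * pr (fun a => Gs (f a)) w := by
          simp [ExactRu_316.pr]
        rw [this, ih]
        simp [Gs_mul]
    rw [e3]

include loc hz in
theorem badAt_self {z : List α} (hzc : z ∈ Zc ph g Wo p0 zz) {ck : ℕ} (hck : ck ≤ p0) :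
    BadAt g Wo zz p0 ck (z.drop ck) ∧
      ∃ t, FW Wo (zz - ck) (z.drop ck) t ∧ FW Wo (t + 1) (z.drop ck) (z.drop ck).length := by
  obtain ⟨⟨tz, z1, z2⟩, hE⟩ := hzc
  have htz := tt_eq z1
  rw [htz] at hE
  have htz' := z1.2.1
  have hl := z1.1.1
  have hl2 := z2.2.1
  have e : z = z.take ck ++ z.drop ck := (List.take_append_drop _ _).symm
  have el : (z.take ck).length = ck := by rw [List.length_take]; omega
  have a1 : FW Wo (zz - ck) (z.drop ck) (tz - ck) := by
    have h' : FW Wo zz (z.take ck ++ z.drop ck) ((z.take ck).length + (tz - ck)) := by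
      rw [← e, el, Nat.add_sub_cancel' (by omega)]; exact z1
    exact fw_unshift loc (by omega) h' (by omega) fun s hs hst h4 => by omega
  have a2 : FW Wo (tz - ck + 1) (z.drop ck) (z.drop ck).length := by
    have h' : FW Wo (tz + 1) (z.take ck ++ z.drop ck) ((z.take ck).length + (z.drop ck).length) := by
      rw [← List.length_append, ← e]; exact z2
    refine fw_unshift loc (by omega) h' (by rw [List.length_drop]; omega)
      fun s hs hst h4 => by omega
  refine ⟨⟨tz - ck, a1, ?_⟩, tz - ck, a1, a2⟩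
  rcases hE with ⟨s, hs1, hs2, hs3⟩ | hE
  · left
    have b1 : Wt Wo (z.take ck ++ z.drop ck) ((z.take ck).length + (s - ck)) := by
      rw [← e, el, Nat.add_sub_cancel' (by omega)]; exact hs1
    rw [wt_shift loc (by omega)] at b1
    exact ⟨s - ck, b1, by omega, by omega⟩
  · right
    have e3 : tz - ck + ck - p0 = tz - p0 := by omega
    rw [e3]; exact hE

open Classical in
include loc hz in
theorem cutB_of (R : ℕ) {z : List α} (hzc : z ∈ Zc ph g Wo p0 zz)
    (hcp : ∀ (u : List α) (y : T2 S) (v : Tok (T2 S)), (∀ k < K, c k ≤ u.length) →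
      ∃ I : Finset ℕ, R ≤ I.card ∧ ∀ k ∈ I, k < K ∧ lam2 k (u.take (c k)) = some v ∧
        (rho2 k (u.drop (c k)) y).isSome)
    (hck : ∀ k < K, c k ≤ p0)
    (spoil : ((Finset.range K).filter fun k => ∃ k' < K, k' ≠ k ∧
      BadAt g Wo zz p0 (c k') (z.drop (c k))).card < R) (v : Tok (T2 S)) :
    Cut (LB K c lam2) (RB g Wo p0 zz K c rho2) v z := by
  have hl : p0 ≤ z.length := by
    obtain ⟨⟨tz, z1, z2⟩, -⟩ := hzc
    have := z1.2.1
    have := z1.1.1
    omega
  obtain ⟨I, hI1, hI2⟩ := hcp (z.take p0) (Hs ph g Wo p0 zz (z.drop p0)) v (fun k hk => by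
    rw [List.length_take]; have := hck k hk; omega)
  obtain ⟨k, hk1, hk2⟩ : ∃ k ∈ I, k ∉ ((Finset.range K).filter fun k => ∃ k' < K, k' ≠ k ∧
      BadAt g Wo zz p0 (c k') (z.drop (c k))) := by
    by_contra hcon
    push Not at hcon
    have := Finset.card_le_card hcon
    omega
  obtain ⟨hkK, hlam, hrho⟩ := hI2 k hk1
  obtain ⟨τ, hτ⟩ := Option.isSome_iff_exists.1 hrho
  have hckk := hck k hkK
  obtain ⟨hb1, hb2⟩ := badAt_self loc hz hzc hckk
  refine ⟨z.take (c k), z.drop (c k), τ, (List.take_append_drop _ _).symm,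
    ⟨k, hkK, by rw [List.length_take]; omega, ?_⟩, k, hkK, hb1, ?_, hb2, ?_⟩
  · rw [List.take_take, min_eq_left hckk] at hlam
    exact hlam
  · intro k' hk' hbad
    by_contra hne
    exact hk2 (Finset.mem_filter.2 ⟨Finset.mem_range.2 hkK, k', hk', hne, hbad⟩)
  · have e1 : (z.drop (c k)).take (p0 - c k) = (z.take p0).drop (c k) := by
      rw [List.drop_take]
    have e2 : (z.drop (c k)).drop (p0 - c k) = z.drop p0 := by
      rw [List.drop_drop]; congr 1; omega
    rw [e1, e2]
    exact hτ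

end Crest.Agent.R320.SB_316
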