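import Crest.Agent.R320.Zone132_898
import Crest.Agent.R320.ThrChain_260

/-!
# Row 320: scheme 1 on buffers, (SC1) and (CP1) of 131 #13123 (helper220)

Anchor at the left end of a text.  `Nn y` : the next anchor (threshold rule of 132 / 260 read on the buffer
`y` of length `Bm`), zone = `X ++ Y`, `|X| = p0`.  Zone map `v ↦ (v.φ X + nu2 X).φ Y + nu1 Y` with `nu1` the
noise of 898's zone gadget and `nu2` ARBITRARY.
-/

set_option autoImplicit false

namespace Crest.Agent.R320.SC1_220

open Crest.Agent.R320.Zone132_898 Crest.Agent.R320.ThrChain260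

/-- the walls of a text as a set of integers -/
def WlOf {α : Type*} (ro : Rule α) (t : List α) (i : ℤ) : Prop := ∃ k : ℕ, i = k ∧ ro.R (t.drop k)

section Walls

variable {α : Type*} {ro : Rule α} {P : Par}

theorem R_ext (r : Rule α) {A B : List α} (h : r.R A) : r.R (A ++ B) := (r.app (r.len _ h)).2 h

theorem wl_right (u r : List α) (t : ℤ) (ht : (u.length : ℤ) ≤ t) :
    WlOf ro (u ++ r) t ↔ WlOf ro r (t - u.length) := by
  constructor
  · rintro ⟨k, rfl, hk⟩
    obtain ⟨j, rfl⟩ : ∃ j, k = u.length + j := ⟨k - u.length, by omega⟩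
    rw [drop_add] at hk
    exact ⟨j, by push_cast; ring, hk⟩
  · rintro ⟨j, hj, hk⟩
    refine ⟨u.length + j, by push_cast; linarith, ?_⟩
    rwa [drop_add]

theorem wl_take {t : List α} {B : ℕ} {i : ℤ} (h : WlOf ro (t.take B) i) :
    WlOf ro t i ∧ i + ro.n ≤ B := by
  obtain ⟨k, rfl, hk⟩ := h
  have h1 := ro.len _ hk
  rw [List.length_drop, List.length_take] at h1
  have h0 := ro.pos
  have hB : k + ro.n ≤ B := by omega
  refine ⟨⟨k, rfl, ?_⟩, by exact_mod_cast hB⟩
  have e : t.drop k = (t.take B).drop k ++ t.drop B := by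
    rw [← List.drop_append_of_le_length (by rw [List.length_take]; omega), List.take_append_drop]
  rw [e]
  exact R_ext ro hk

theorem wl_of {t : List α} {B : ℕ} {i : ℤ} (h : WlOf ro t i) (hi : i + ro.n ≤ B) :
    WlOf ro (t.take B) i := by
  obtain ⟨k, rfl, hk⟩ := h
  have h1 := ro.len _ hk
  rw [List.length_drop] at h1
  have h0 := ro.pos
  have hB : k + ro.n ≤ B := by exact_mod_cast hi
  refine ⟨k, rfl, ?_⟩
  have e : t.drop k = (t.take B).drop k ++ t.drop B := by
    rw [← List.drop_append_of_le_length (by rw [List.length_take]; omega), List.take_append_drop]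
  rw [e] at hk
  exact (ro.app (by rw [List.length_drop, List.length_take]; omega)).1 hk

/-- the next anchor read on a buffer -/
noncomputable def Nn (P : Par) (ro : Rule α) (y : List α) : ℕ := by
  classical
  exact if h : ∃ t : ℕ, IsN P (WlOf ro y) 0 t then h.choose else 1

theorem Nn_eq {y : List α} {t : ℕ} (h : IsN P (WlOf ro y) 0 t) : Nn P ro y = t := by
  classical
  have hex : ∃ t : ℕ, IsN P (WlOf ro y) 0 t := ⟨t, h⟩
  unfold Nn
  rw [dif_pos hex]
  have := isN_unique hex.choose_spec h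
  exact_mod_cast this

/-- the next anchor is read correctly on the buffer `t.take B` -/
theorem isN_take_iff {t : List α} {B k0 : ℕ} (hk0 : P.z + (P.S - P.N1) ≤ k0)
    (hw : WlOf ro (t.take B) k0) (i : ℤ) :
    IsN P (WlOf ro t) 0 i ↔ IsN P (WlOf ro (t.take B)) 0 i := by
  obtain ⟨hw1, hw2⟩ := wl_take hw
  have hq : Qual P (WlOf ro t) 0 k0 := qual_of_ge hw1 (by linarith)
  have hq' : Qual P (WlOf ro (t.take B)) 0 k0 := qual_of_ge hw (by linarith)
  constructor
  · rintro ⟨h1, h2⟩
    have hle : i ≤ k0 := by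
      by_contra hc
      exact h2 k0 (not_le.mp hc) hq
    exact ⟨⟨wl_of h1.1 (by linarith), h1.2⟩, fun t' ht' h => h2 t' ht' ⟨(wl_take h.1).1, h.2⟩⟩
  · rintro ⟨h1, h2⟩
    have hle : i ≤ k0 := by
      by_contra hc
      exact h2 k0 (not_le.mp hc) hq'
    refine ⟨⟨(wl_take h1.1).1, h1.2⟩, fun t' ht' h => h2 t' ht' ⟨wl_of h.1 (by linarith), h.2⟩⟩

/-- existence of the next anchor -/
theorem exists_N {t : List α} {B k0 : ℕ} (hz : P.p0 + P.S ≤ P.z) (hp : 0 ≤ P.p0)
    (hk0 : P.z + (P.S - P.N1) ≤ k0)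
    (hw : WlOf ro (t.take B) k0) :
    ∃ N : ℕ, IsN P (WlOf ro t) 0 N ∧ Nn P ro (t.take B) = N ∧ N + ro.n ≤ B ∧
      P.z - (P.S - P.N1) ≤ N := by
  obtain ⟨i, hi, h1, h2⟩ := exists_isN (P := P) (a := 0) hw (by linarith)
  have hN := P.hN
  have hi0 : 0 ≤ i := by linarith
  obtain ⟨N, rfl⟩ := Int.eq_ofNat_of_zero_le hi0
  refine ⟨N, (isN_take_iff hk0 hw _).2 hi, Nn_eq hi, ?_, by simpa using h1⟩
  have := (wl_take hi.1.1).2
  exact_mod_cast this

theorem legal_shift (u r : List α) (hz : P.p0 + P.S ≤ P.z)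
    (h : Legal P (WlOf ro r) 0) : Legal P (WlOf ro (u ++ r)) u.length := by
  rw [legal_congr (Wl' := fun t => WlOf ro r (t - u.length)) hz
    (fun t ht => wl_right u r t ht)]
  intro t ht
  have := h (t - u.length) ht
  simpa using this

theorem isB_shift (u r : List α) (hz : P.p0 + P.S ≤ P.z) {d : ℤ}
    (h : IsB P (WlOf ro r) 0 d) : IsB P (WlOf ro (u ++ r)) u.length (u.length + d) := by
  rw [isB_congr (Wl' := fun t => WlOf ro r (t - u.length)) hz
    (fun t ht => wl_right u r t ht)]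
  obtain ⟨⟨h1, h2⟩, h3⟩ := h
  refine ⟨⟨by simpa using h1, by simpa using h2⟩, fun t ht hq => ?_⟩
  obtain ⟨q1, q2⟩ := hq
  exact h3 (t - u.length) (by linarith) ⟨q1, by simpa using q2⟩

end Walls


section Main

variable {α S V W : Type*} [Monoid S] [AddCommGroup V] [AddCommGroup W]

/-- the parameters of scheme 1 on buffers of length `Bm` -/
structure Prm (α S V W : Type*) [Monoid S] [AddCommGroup V] [AddCommGroup W] where
  D : Data α S V W
  P : Par
  ro : Rule α
  p0 : ℕ
  Bm : ℕ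
  D₁ : ℕ
  G : ℕ
  nu2 : List α → V
  Cl : List α → Prop
  hadd : ∀ a b s, D.act (a + b) s = D.act a s + D.act b s
  hmul : ∀ v s t, D.act v (s * t) = D.act (D.act v s) t
  hN1 : D.N1
  hN2 : D.N2
  hN3 : D.N3
  hHid : D.Hides
  hp0 : P.p0 = p0
  hM : P.M = D.q
  hwin : ∀ i, i < D.m → ((D.q * (D.lo i + D.M) : ℕ) : ℤ) ≤ P.N1
  hz : P.p0 + P.S ≤ P.z
  hBm : P.z + P.S + ro.n ≤ Bm
  hBD : Bm ≤ D₁
  hCl : ∀ u v w : List α, Cl (u ++ v ++ w) → Cl v
  /-- outer walls exist on `Cl` -/
  hout : ∀ y, Cl y → y.length = Bm → ∃ k : ℕ, P.z + (P.S - P.N1) ≤ k ∧ ro.R (y.drop k)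
  /-- small walls exist on `Cl` -/
  hsm : ∀ y, Cl y → G + D.r.n ≤ y.length → ∃ i ≤ G, D.r.R (y.drop i)
  hlo : ∀ i, i < D.m → D.A i + G + D.r.n ≤ D.q * D.lo i
  /-- the zone is longer than all levels -/
  hlen : ∀ k, k ≤ D.m → (p0 : ℤ) + D.A k + G + D.r.n ≤ P.z - (P.S - P.N1)
  hcell : ∀ i, i < D.m → (p0 : ℤ) + (D.q * (D.lo i + D.M) : ℕ) ≤ P.z - (P.S - P.N1)

namespace Prm

variable (A : Prm α S V W)

/-- next anchor -/
noncomputable def N (y : List α) : ℕ := Nn A.P A.ro y

/-- noise of both gadgets -/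
noncomputable def nu (y : List α) : V :=
  A.D.act (A.nu2 (y.take A.p0)) (A.D.phi ((y.take (A.N y)).drop A.p0))
    + A.D.nu ((y.take (A.N y)).drop A.p0)

/-- zone map -/
noncomputable def zm (y : List α) (v : V) : V :=
  A.D.act v (A.D.phi (y.take (A.N y))) + A.nu y

/-- left legal -/
def L₁ (u : List α) (v : V) : Prop :=
  A.p0 ≤ u.length ∧
    A.D.LL (u.drop A.p0) (A.D.act v (A.D.phi (u.take A.p0)) + A.nu2 (u.take A.p0))

/-- right legal, as a relation -/
def R₁r (r : List α) (d : ℕ) (b : V) : Prop :=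
  Legal A.P (WlOf A.ro r) 0 ∧ IsB A.P (WlOf A.ro r) 0 d ∧ A.D.RR (r.take d) b

open Classical in
/-- right legal -/
noncomputable def R₁ (r : List α) : Option (ℕ × V) :=
  if h : ∃ x : ℕ × V, A.R₁r r x.1 x.2 then some h.choose else none

theorem R₁_spec {r : List α} {d : ℕ} {b : V} (h : A.R₁ r = some (d, b)) : A.R₁r r d b := by
  classical
  unfold R₁ at h
  split_ifs at h with hex
  have := hex.choose_spec
  rw [Option.some.inj h] at this
  exact this

theorem R₁_isSome {r : List α} {d : ℕ} {b : V} (h : A.R₁r r d b) : (A.R₁ r).isSome := by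
  classical
  unfold R₁
  rw [dif_pos ⟨(d, b), h⟩]
  rfl

/-- a bad anchor, read on the buffer: (E), (D) or (B) -/
def Bad (y : List α) : Prop :=
  E A.P (WlOf A.ro y) 0 ∨
  (∃ k, k ≤ A.D.m ∧ ∃ t, A.D.A k ≤ t + A.D.q * A.D.M ∧ t < A.D.A k + A.D.q * A.D.M ∧
    A.D.r.R (y.drop (A.p0 + t))) ∨
  A.D.B ((A.N y - A.p0) / A.D.q)

theorem next (t : List α) (hc : A.Cl t) (hl : A.Bm ≤ t.length) :
    ∃ N : ℕ, IsN A.P (WlOf A.ro t) 0 N ∧ A.N (t.take A.Bm) = N ∧ N + A.ro.n ≤ A.Bm ∧
      A.P.z - (A.P.S - A.P.N1) ≤ N := by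
  have hc' : A.Cl (t.take A.Bm) := by
    apply A.hCl [] (t.take A.Bm) (t.drop A.Bm)
    simpa using hc
  obtain ⟨k, hk, hR⟩ := A.hout (t.take A.Bm) hc' (by rw [List.length_take]; omega)
  exact exists_N A.hz (by rw [A.hp0]; positivity) hk ⟨k, rfl, hR⟩

theorem zm_eq (hA : True) {T X Y : List α} {v : V} {n : ℕ} (hN : A.N T = n) (hX : T.take A.p0 = X)
    (hY : (T.take n) = X ++ Y) (hXl : X.length = A.p0) :
    A.zm T v = A.D.act (A.D.act v (A.D.phi X) + A.nu2 X) (A.D.phi Y) + A.D.nu Y := by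
  unfold zm nu
  rw [hN, hX, hY, A.D.hphi, A.hmul, A.hadd]
  have : (X ++ Y).drop A.p0 = Y := by rw [← hXl, List.drop_left]
  rw [this, add_assoc]

/-- **(SC1)** -/
theorem sc1 {u r : List α} {v b : V} {d : ℕ} (hc : A.Cl (u ++ r)) (_hu : u.length < A.Bm)
    (hr : r.length = A.D₁) (hL : A.L₁ u v) (hR : A.R₁ r = some (d, b)) :
    A.N ((u ++ r).take A.Bm) = u.length + d ∧ A.zm ((u ++ r).take A.Bm) v = b := by
  obtain ⟨hleg, hB, hRR⟩ := A.R₁_spec hR
  obtain ⟨hp, hLL⟩ := hL
  have hBD := A.hBD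
  obtain ⟨N, hN, hNN, hNB, hNz⟩ := A.next (u ++ r) hc (by rw [List.length_append]; omega)
  have hleg' := legal_shift u r A.hz hleg
  have hB' := isB_shift u r A.hz hB
  have hwin : InWin A.P 0 u.length := by
    obtain ⟨c, om, H, hP, hi, hlo, hhi, _⟩ := hLL
    rw [List.length_drop] at hP
    have hu' : u.length = A.p0 + A.D.q * om := by omega
    have h1 := A.hwin c.i hi
    have h2 : A.D.q * om ≤ A.D.q * (A.D.lo c.i + A.D.M) := Nat.mul_le_mul_left _ (by omega)
    have h3 : ((A.D.q * om : ℕ) : ℤ) ≤ A.P.N1 := le_trans (by exact_mod_cast h2) h1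
    have e : ((u.length : ℕ) : ℤ) - A.P.p0 - 0 = ((A.D.q * om : ℕ) : ℤ) := by
      rw [A.hp0, hu']; push_cast; ring
    refine ⟨by rw [e]; positivity, by rw [e]; exact h3, ?_⟩
    rw [e, A.hM]
    exact_mod_cast Dvd.intro om rfl
  have hN' := (isN_iff_isB hleg' hwin _).2 hB'
  have hNe : N = u.length + d := by
    have := isN_unique hN hN'
    exact_mod_cast this
  have hpre : ((u ++ r).take A.Bm).take N = (u ++ r).take N := by
    rw [List.take_take, min_eq_left (by omega)]
  refine ⟨by rw [hNN, hNe], ?_⟩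
  have hpz : A.p0 ≤ A.Bm := by
    have h1 := A.hz
    have h2 := A.hBm
    have h3 := A.hp0
    have h4 : 0 ≤ A.P.S := by
      have := (abs_nonneg _).trans (A.P.hs 0)
      have := A.P.hN
      linarith
    have : (A.p0 : ℤ) ≤ A.Bm := by
      have : (0 : ℤ) ≤ A.ro.n := by positivity
      linarith
    exact_mod_cast this
  have hX : ((u ++ r).take A.Bm).take A.p0 = u.take A.p0 := by
    rw [List.take_take, min_eq_left hpz, List.take_append_of_le_length hp]
  have hY : ((u ++ r).take A.Bm).take N = u.take A.p0 ++ (u.drop A.p0 ++ r.take d) := by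
    rw [hpre, hNe, ← List.append_assoc, List.take_append_drop, List.take_length_add_append]
  rw [A.zm_eq trivial hNN hX hY (by rw [List.length_take]; omega)]
  have := A.D.sound A.hN1 A.hN2 hLL hRR
  exact this.symm

/-- **(CP1)** -/
theorem cp1 {t : List α} (hc : A.Cl t) (hl : A.Bm + A.D₁ ≤ t.length)
    (hbad : ¬ A.Bad (t.take A.Bm)) (v : V) :
    ∃ x, A.p0 ≤ x ∧ x < A.Bm ∧ A.L₁ (t.take x) v ∧ (A.R₁ ((t.drop x).take A.D₁)).isSome := by
  classical
  have hBD := A.hBD
  obtain ⟨N, hN, hNN, hNB, hNz⟩ := A.next t hc (by omega)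
  set y := t.take A.Bm with hy
  have hyN : y.take N = t.take N := by
    rw [hy, List.take_take, min_eq_left (by omega)]
  -- the zone
  set Z := (t.take N).drop A.p0 with hZ
  have hm0 := A.hlen 0 (Nat.zero_le _)
  have hpN : A.p0 ≤ N := by
    have : (A.p0 : ℤ) ≤ N := by
      have h1 : (0 : ℤ) ≤ A.D.A 0 := by positivity
      have h2 : (0 : ℤ) ≤ A.G := by positivity
      have h3 : (0 : ℤ) ≤ A.D.r.n := by positivity
      linarith
    exact_mod_cast this
  have hZl : Z.length = N - A.p0 := by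
    rw [hZ, List.length_drop, List.length_take]; omega
  have hXZ : t.take N = t.take A.p0 ++ Z := by
    rw [hZ]
    conv_lhs => rw [← List.take_append_drop A.p0 (t.take N)]
    rw [List.take_take, min_eq_left hpN]
  -- small walls
  have hwall : ∀ k, k ≤ A.D.m → ∃ H, FW A.D.r Z (A.D.A k) H ∧ H ≤ A.D.A k + A.G := by
    intro k hk
    have h1 := A.hlen k hk
    have h2 : A.p0 + A.D.A k + A.G + A.D.r.n ≤ N := by
      have : (A.p0 : ℤ) + A.D.A k + A.G + A.D.r.n ≤ N := by linarith
      exact_mod_cast this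
    have hcz : A.Cl (Z.drop (A.D.A k)) := by
      apply A.hCl (t.take (A.p0 + A.D.A k)) (Z.drop (A.D.A k)) (t.drop N)
      have e : t.take (A.p0 + A.D.A k) ++ Z.drop (A.D.A k) = t.take N := by
        rw [hZ, List.drop_drop]
        have : t.take (A.p0 + A.D.A k) = (t.take N).take (A.p0 + A.D.A k) := by
          rw [List.take_take, min_eq_left (by omega)]
        rw [this, List.take_append_drop]
      rw [e, List.take_append_drop]
      exact hc
    obtain ⟨i, hi, hR⟩ := A.hsm _ hcz (by rw [List.length_drop, hZl]; omega)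
    rw [List.drop_drop] at hR
    have hex : ∃ s, A.D.A k ≤ s ∧ A.D.r.R (Z.drop s) := ⟨A.D.A k + i, by omega, hR⟩
    refine ⟨Nat.find hex, ⟨(Nat.find_spec hex).1, (Nat.find_spec hex).2, ?_⟩, ?_⟩
    · intro t' h3 h4 h5
      exact Nat.find_min hex h4 ⟨h3, h5⟩
    · exact le_trans (Nat.find_min' hex ⟨by omega, hR⟩) (by omega)
  choose! H hH hHG using hwall
  have hnear : ∀ k, k ≤ A.D.m → ∀ t', A.D.A k ≤ t' + A.D.q * A.D.M →
      t' < A.D.A k + A.D.q * A.D.M → ¬ A.D.r.R (Z.drop t') := by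
    intro k hk t' h1 h2 h3
    apply hbad
    right; left
    refine ⟨k, hk, t', h1, h2, ?_⟩
    have h4 := A.D.r.len _ h3
    rw [hZ, List.drop_drop] at h3
    have e : y.drop (A.p0 + t') = (t.take N).drop (A.p0 + t') ++ y.drop N := by
      rw [← hyN, ← List.drop_append_of_le_length, List.take_append_drop]
      rw [List.length_drop, hZl] at h4
      have := A.D.r.pos
      rw [List.length_take, hy, List.length_take]
      omega
    rw [e]
    exact R_ext _ h3
  have hB : ¬ A.D.B (Z.length / A.D.q) := by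
    intro h
    apply hbad
    right; right
    rw [hNN, ← hZl]
    exact h
  have hZc : ∀ i, i < A.D.m → A.D.q * (A.D.lo i + A.D.M) ≤ Z.length := by
    intro i hi
    have h1 := A.hcell i hi
    have h2 : (A.p0 : ℤ) + (A.D.q * (A.D.lo i + A.D.M) : ℕ) ≤ N := by linarith
    have h3 : A.p0 + A.D.q * (A.D.lo i + A.D.M) ≤ N := by exact_mod_cast h2
    omega
  obtain ⟨P', Q', i, om, hPQ, hi, hPl, hlo1, hlo2, hLL, hRR⟩ :=
    A.D.complete' A.hN1 A.hN2 A.hN3 A.hHid hB H hH hHG A.hlo hnear hZc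
      (A.D.act v (A.D.phi (t.take A.p0)) + A.nu2 (t.take A.p0))
  have hlen2 : P'.length + Q'.length = N - A.p0 := by
    rw [← hZl, hPQ, List.length_append]
  have hq : A.D.q * om ≤ A.D.q * (A.D.lo i + A.D.M) := Nat.mul_le_mul_left _ (by omega)
  set x := A.p0 + P'.length with hx
  have hxN : x ≤ N := by omega
  have hXl : (t.take A.p0).length = A.p0 := by rw [List.length_take]; omega
  have htx : t.take x = t.take A.p0 ++ P' := by
    have : t.take x = (t.take N).take x := by rw [List.take_take, min_eq_left hxN]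
    rw [this, hXZ, hPQ, ← List.append_assoc]
    apply List.take_left'
    rw [List.length_append, hXl]
  have hdx : (t.take N).drop x = Q' := by
    rw [hXZ, hPQ, ← List.append_assoc]
    apply List.drop_left'
    rw [List.length_append, hXl]
  have hn := A.ro.pos
  refine ⟨x, by omega, by omega, ⟨?_, ?_⟩, ?_⟩
  · rw [List.length_take]; omega
  · have h1 : (t.take x).drop A.p0 = P' := by
      rw [htx]; exact List.drop_left' hXl
    have h2 : (t.take x).take A.p0 = t.take A.p0 := by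
      rw [List.take_take, min_eq_left (by omega)]
    rw [h1, h2]
    exact hLL
  · set r := (t.drop x).take A.D₁ with hr
    have hwin : InWin A.P 0 x := by
      have h1 := A.hwin i hi
      have h3 : ((A.D.q * om : ℕ) : ℤ) ≤ A.P.N1 := le_trans (by exact_mod_cast hq) h1
      have e : ((x : ℕ) : ℤ) - A.P.p0 - 0 = ((A.D.q * om : ℕ) : ℤ) := by
        rw [A.hp0, hx, hPl]; push_cast; ring
      refine ⟨by rw [e]; positivity, by rw [e]; exact h3, ?_⟩
      rw [e, A.hM]
      exact_mod_cast Dvd.intro om rfl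
    have hwl : ∀ τ : ℤ, WlOf A.ro r τ → WlOf A.ro t (x + τ) ∧ τ + A.ro.n ≤ A.D₁ := by
      intro τ h
      obtain ⟨h1, h2⟩ := wl_take h
      refine ⟨?_, h2⟩
      have h3 := (wl_right (ro := A.ro) (t.take x) (t.drop x) (x + τ) (by
        rw [List.length_take]
        obtain ⟨k, rfl, _⟩ := h1
        have : (min x t.length : ℕ) ≤ x := min_le_left _ _
        have : ((min x t.length : ℕ) : ℤ) ≤ x := by exact_mod_cast this
        push_cast at *
        omega)).2
      rw [List.take_append_drop] at h3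
      apply h3
      rw [List.length_take, min_eq_left (by omega)]
      simpa using h1
    have hE : ¬ E A.P (WlOf A.ro t) 0 := by
      rintro ⟨τ, h1, h2⟩
      apply hbad
      left
      refine ⟨τ, wl_of h1 ?_, h2⟩
      have h3 := abs_le.1 h2
      have h4 := s_le (P := A.P) ((τ - 0 - A.P.z) % A.P.M)
      have h5 := A.hBm
      linarith [h3.2]
    have hleg := legal_of_not_E hE hwin
    have hleg0 : Legal A.P (WlOf A.ro r) 0 := by
      intro τ h1 h2
      apply hleg (x + τ) (hwl τ h1).1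
      have e : (x : ℤ) + τ - x + A.P.p0 - A.P.z = τ - 0 + A.P.p0 - A.P.z := by ring
      rw [e]
      exact h2
    have hIB := (isN_iff_isB hleg hwin _).1 hN
    have hIB0 : IsB A.P (WlOf A.ro r) 0 ((N - x : ℕ) : ℤ) := by
      obtain ⟨⟨h1, h2⟩, h3⟩ := hIB
      have e : (N : ℤ) = x + ((N - x : ℕ) : ℤ) := by push_cast [Nat.cast_sub hxN]; ring
      refine ⟨⟨?_, ?_⟩, ?_⟩
      · apply wl_of
        · have h4 := (wl_right (ro := A.ro) (t.take x) (t.drop x) N (by
            rw [List.length_take]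
            have : (min x t.length : ℕ) ≤ N := le_trans (min_le_left _ _) hxN
            exact_mod_cast this)).1 (by rw [List.take_append_drop]; exact h1)
          rw [List.length_take, min_eq_left (by omega)] at h4
          rw [e] at h4
          simpa using h4
        · have : (N - x) + A.ro.n ≤ A.D₁ := by omega
          exact_mod_cast this
      · rw [e] at h2
        simpa using h2
      · intro t' ht' hq'
        apply h3 (x + t') (by rw [e]; linarith)
        refine ⟨(hwl t' hq'.1).1, ?_⟩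
        have e' : (x : ℤ) + t' - x + A.P.p0 - A.P.z = t' - 0 + A.P.p0 - A.P.z := by ring
        rw [e']
        exact hq'.2
    apply A.R₁_isSome (d := N - x)
    refine ⟨hleg0, hIB0, ?_⟩
    have : r.take (N - x) = Q' := by
      rw [hr, List.take_take, min_eq_left (by omega), ← hdx, List.drop_take]
    rw [this]
    exact hRR

end Prm

end Main

end Crest.Agent.R320.SC1_220
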