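import Crest.Agent.R320.Exact_808

/-!
# Row 320, CORE-4: scheme 2 (promise ruler + exact gadget) in buffer form (helper335)

Statements (SC2) and (CP2) of helper131's glue, from 808's `exact_gadget`.
-/

set_option autoImplicit false

namespace Crest.Agent.R320.SC2_335

/-- index of a ruler place: level, context, copy -/
abbrev J (m k C0 : ℕ) : Type := Fin m × Fin k × Fin (C0 + 1)

def idx {m k C0 : ℕ} (a : J m k C0) : ℕ := (a.1.1 * k + a.2.1.1) * (C0 + 1) + a.2.2.1

theorem idx_lt {m k C0 : ℕ} (a : J m k C0) : idx a < (a.1.1 + 1) * k * (C0 + 1) := by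
  obtain ⟨i, c, e⟩ := a
  simp only [idx]
  have h1 := c.2
  have h2 := e.2
  have : (i.1 * k + c.1 + 1) * (C0 + 1) ≤ (i.1 + 1) * k * (C0 + 1) := by
    apply Nat.mul_le_mul_right
    nlinarith
  nlinarith

theorem le_idx {m k C0 : ℕ} (a : J m k C0) : a.1.1 * k * (C0 + 1) ≤ idx a := by
  obtain ⟨i, c, e⟩ := a
  simp only [idx]
  nlinarith [Nat.zero_le (c.1 * (C0 + 1)), Nat.zero_le e.1]

theorem idx_inj {m k C0 : ℕ} : Function.Injective (idx (m := m) (k := k) (C0 := C0)) := by
  rintro ⟨i, c, e⟩ ⟨i', c', e'⟩ h
  simp only [idx] at h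
  have he : e.1 = e'.1 := by
    have := congrArg (· % (C0 + 1)) h
    simpa [Nat.mul_add_mod', Nat.mod_eq_of_lt e.2, Nat.mod_eq_of_lt e'.2, Nat.add_mod,
      Nat.mul_mod_left] using this
  have h2 : i.1 * k + c.1 = i'.1 * k + c'.1 := by
    have : (i.1 * k + c.1) * (C0 + 1) = (i'.1 * k + c'.1) * (C0 + 1) := by omega
    exact Nat.eq_of_mul_eq_mul_right (Nat.succ_pos _) this
  have hc : c.1 = c'.1 := by
    have := congrArg (· % k) h2
    simpa [Nat.mul_add_mod', Nat.mod_eq_of_lt c.2, Nat.mod_eq_of_lt c'.2, Nat.add_mod,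
      Nat.mul_mod_left] using this
  have hi : i.1 = i'.1 := by
    have hk : 0 < k := lt_of_le_of_lt (Nat.zero_le _) c.2
    have : i.1 * k = i'.1 * k := by omega
    exact Nat.eq_of_mul_eq_mul_right hk this
  exact Prod.ext (Fin.ext hi) (Prod.ext (Fin.ext hc) (Fin.ext he))

/-- the candidate buffer: `r` read from place `x` of an unknown zone -/
def cand {α : Type*} (Bm : ℕ) (r : List α) (x : ℕ) : List α := (r.take x ++ r).take Bm

theorem drop_cand {α : Type*} (p0 n : ℕ) (u u' r : List α) (h : u.length = u'.length)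
    (hu : u.length ≤ p0) : ((u ++ r).take n).drop p0 = ((u' ++ r).take n).drop p0 := by
  have h1 : u.drop p0 = [] := List.drop_eq_nil_of_le hu
  have h2 : u'.drop p0 = [] := List.drop_eq_nil_of_le (by omega)
  rw [List.drop_take, List.drop_take, List.drop_append, List.drop_append, h1, h2, h]

section

variable {S V : Type*} [Monoid S] [AddCommGroup V] {α : Type*}

/-- the part of the zone of `y` behind `p0` -/
def Yp (p0 : ℕ) (N : List α → ℕ) (y : List α) : List α := (y.take (N y)).drop p0

open Classical in
/-- right reading of scheme 2 -/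
noncomputable def R2 {m k C0 : ℕ} (φ : List α → S) (act : V → S → V) (Bm p0 : ℕ)
    (N : List α → ℕ) (Bad : List α → Prop) (P : J m k C0 → ℕ) (nu1 : List α → V)
    (rho : List α → Option V) (r : List α) : Option (ℕ × V) :=
  if h : ∃ a : J m k C0, Bad (cand Bm r (P a)) ∧ ∀ a', Bad (cand Bm r (P a')) → a' = a then
    (rho (r.take (p0 - P h.choose))).map fun w =>
      (N (cand Bm r (P h.choose)) - P h.choose,
        act w (φ (Yp p0 N (cand Bm r (P h.choose)))) + nu1 (Yp p0 N (cand Bm r (P h.choose))))
  else none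

end

theorem scheme2 (S V : Type*) [Monoid S] [Finite S] [AddCommGroup V] [Finite V] :
    ∃ m k : ℕ, 0 < m ∧ ∀ (α : Type*) (φ : List α → S), (∀ u v, φ (u ++ v) = φ u * φ v) →
      ∀ (C0 p0 Bm D₂ : ℕ) (pos : ℕ → ℕ), StrictMono pos → pos (m * k * (C0 + 1)) ≤ p0 →
      p0 ≤ Bm → Bm ≤ D₂ →
      ∀ (Cl : List α → Prop) (N : List α → ℕ) (Bad : List α → Prop),
      (∀ y : List α, y.length = Bm → p0 ≤ N y ∧ N y ≤ Bm) →
      (∀ u u' r : List α, u.length = u'.length → u.length ≤ p0 → Bm ≤ r.length →
        N ((u ++ r).take Bm) = N ((u' ++ r).take Bm)) →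
      (∀ u u' r : List α, u.length = u'.length → u.length ≤ p0 → Bm ≤ r.length →
        (Bad ((u ++ r).take Bm) ↔ Bad ((u' ++ r).take Bm))) →
      (∀ t : List α, Cl t → Bm + D₂ ≤ t.length → Bad (t.take Bm) →
        Set.ncard {a : J m k C0 | ∃ a', a' ≠ a ∧
          Bad (cand Bm ((t.drop (pos (idx a))).take D₂) (pos (idx a')))} ≤ C0) →
      ∃ lam : List α → Option V, ∀ (act : V → S → V), ∃ nu2 : List α → V,
        ∀ nu1 : List α → V, ∃ R₂ : List α → Option (ℕ × V),
        (∀ (u r : List α) (v b : V) (d : ℕ), u.length ≤ p0 → r.length = D₂ →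
          (lam u = some v ∧ ∃ a : J m k C0, pos (idx a) = u.length) → R₂ r = some (d, b) →
          Bad ((u ++ r).take Bm) →
          N ((u ++ r).take Bm) = u.length + d ∧
          b = act (act v (φ (((u ++ r).take Bm).take p0)) + nu2 (((u ++ r).take Bm).take p0))
            (φ (Yp p0 N ((u ++ r).take Bm))) + nu1 (Yp p0 N ((u ++ r).take Bm))) ∧
        (∀ t : List α, Cl t → Bm + D₂ ≤ t.length → Bad (t.take Bm) → ∀ v : V,
          ∃ x, (∃ a : J m k C0, pos (idx a) = x) ∧ x ≤ p0 ∧
            (lam (t.take x) = some v ∧ ∃ a : J m k C0, pos (idx a) = (t.take x).length) ∧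
            (R₂ ((t.drop x).take D₂)).isSome) := by
  classical
  obtain ⟨m, k, hmk⟩ := Exact808.exact_gadget S V
  have hm : 0 < m := by
    obtain ⟨lam, hl⟩ := hmk PUnit (fun _ => 1) (by simp) (fun _ => 0) (fun _ => none)
      (fun _ _ _ => le_rfl) rfl (by simp)
    obtain ⟨_, _, _, h2⟩ := hl (fun v _ => v)
    obtain ⟨i, hi, _⟩ := h2 [] 0 rfl
    omega
  refine ⟨m, k, hm, ?_⟩
  intro α φ hφ C0 p0 Bm D₂ pos hpos hp0 hpB hBD Cl N Bad hN hNu hBu hspoil
  let P : J m k C0 → ℕ := fun a => pos (idx a)
  have hPinj : Function.Injective P := hpos.injective.comp idx_inj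
  have hPle : ∀ a, P a ≤ p0 := by
    intro a
    refine le_trans (hpos.monotone ?_) hp0
    have h1 := idx_lt a
    have h2 : (a.1.1 + 1) * k * (C0 + 1) ≤ m * k * (C0 + 1) := by
      apply Nat.mul_le_mul_right
      apply Nat.mul_le_mul_right
      exact a.1.2
    omega
  let B : ℕ → ℕ := fun i => if i = 0 then 0 else if m ≤ i then p0 else pos (i * k * (C0 + 1))
  have hBle : ∀ i, i < m → pos (i * k * (C0 + 1)) ≤ p0 := by
    intro i hi
    refine le_trans (hpos.monotone ?_) hp0
    apply Nat.mul_le_mul_right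
    apply Nat.mul_le_mul_right
    omega
  have hB0 : B 0 = 0 := by simp [B]
  have hBm : B m = p0 := by simp [B, hm.ne']
  have hBmono : Monotone B := by
    intro i j hij
    simp only [B]
    by_cases hi : i = 0
    · simp [hi]
    · have hj : j ≠ 0 := by omega
      simp only [hi, hj, if_false]
      by_cases hmi : m ≤ i
      · have hmj : m ≤ j := by omega
        simp [hmi, hmj]
      · by_cases hmj : m ≤ j
        · simp only [hmi, hmj, if_true, if_false]
          exact hBle i (by omega)
        · simp only [hmi, hmj, if_false]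
          apply hpos.monotone
          apply Nat.mul_le_mul_right
          apply Nat.mul_le_mul_right
          exact hij
  let ctx : ℕ → Option (ℕ × Fin k) := fun x =>
    if h : ∃ a : J m k C0, P a = x then some (h.choose.1.1, h.choose.2.1) else none
  have hctxP : ∀ a : J m k C0, ctx (P a) = some (a.1.1, a.2.1) := by
    intro a
    have h : ∃ a' : J m k C0, P a' = P a := ⟨a, rfl⟩
    have h2 : h.choose = a := hPinj h.choose_spec
    simp only [ctx, dif_pos h, h2]
  have hctx : ∀ x i c, ctx x = some (i, c) → i < m ∧ B i ≤ x ∧ x ≤ B (i + 1) := by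
    intro x i c hx
    by_cases h : ∃ a : J m k C0, P a = x
    · obtain ⟨a, rfl⟩ := h
      rw [hctxP a] at hx
      obtain ⟨rfl, rfl⟩ : a.1.1 = i ∧ a.2.1 = c := by simpa using hx
      refine ⟨a.1.2, ?_, ?_⟩
      · simp only [B]
        by_cases h0 : a.1.1 = 0
        · simp [h0]
        · have : ¬ m ≤ a.1.1 := by have := a.1.2; omega
          simp only [h0, this, if_false]
          exact hpos.monotone (le_idx a)
      · simp only [B]
        have h0 : a.1.1 + 1 ≠ 0 := by omega
        simp only [h0, if_false]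
        by_cases hm2 : m ≤ a.1.1 + 1
        · simp only [hm2, if_true]
          exact hPle a
        · simp only [hm2, if_false]
          exact hpos.monotone (idx_lt a).le
    · simp only [ctx, dif_neg h] at hx
      exact absurd hx (by simp)
  obtain ⟨lam, hlam⟩ := hmk α φ hφ B ctx hBmono hB0 hctx
  refine ⟨lam, fun act => ?_⟩
  obtain ⟨rho, nu2, hsound, hcompl⟩ := hlam act
  refine ⟨nu2, fun nu1 => ⟨R2 φ act Bm p0 N Bad P nu1 rho, ?_, ?_⟩⟩
  · rintro u r v b d hu hr ⟨hlu, a, ha⟩ hR hbad
    have hPa : P a = u.length := ha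
    -- the true candidate is bad
    have hlen : (r.take (P a)).length = u.length := by
      rw [List.length_take, hr, hPa]
      omega
    have hc : Bad (cand Bm r (P a)) := by
      unfold cand
      exact (hBu _ _ r hlen (by rw [hlen]; exact hu) (by omega)).2 hbad
    unfold R2 at hR
    split_ifs at hR with h
    have hch : h.choose = a := (h.choose_spec.2 a hc).symm
    rw [hch] at hR
    rw [Option.map_eq_some_iff] at hR
    obtain ⟨w, hw, hwe⟩ := hR
    have hd : N (cand Bm r (P a)) - P a = d := congrArg Prod.fst hwe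
    have hb : act w (φ (Yp p0 N (cand Bm r (P a)))) + nu1 (Yp p0 N (cand Bm r (P a))) = b :=
      congrArg Prod.snd hwe
    have hNN : N (cand Bm r (P a)) = N ((u ++ r).take Bm) :=
      hNu _ _ r hlen (by rw [hlen]; exact hu) (by omega)
    have hYY : Yp p0 N (cand Bm r (P a)) = Yp p0 N ((u ++ r).take Bm) := by
      unfold Yp
      rw [hNN]
      unfold cand
      rw [List.take_take, List.take_take]
      exact drop_cand p0 _ _ _ r hlen (by rw [hlen]; exact hu)
    have hylen : ((u ++ r).take Bm).length = Bm := by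
      rw [List.length_take, List.length_append]
      omega
    have hNy := hN _ hylen
    have hXsplit : ((u ++ r).take Bm).take p0 = u ++ r.take (p0 - P a) := by
      rw [List.take_take, min_eq_left hpB, List.take_append, List.take_of_length_le hu, hPa]
    have hq : u.length + (r.take (p0 - P a)).length = B m := by
      rw [hBm, List.length_take, hr, hPa]
      omega
    have hs := hsound u (r.take (p0 - P a)) v w hq hlu hw
    constructor
    · rw [← hNN, ← hd, ← hPa]
      have : P a ≤ N (cand Bm r (P a)) := by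
        rw [hNN]
        exact le_trans (hPle a) hNy.1
      omega
    · rw [← hb, hYY, hXsplit, ← hs]
  · intro t ht htl hbad v
    have hXl : (t.take p0).length = B m := by
      rw [hBm, List.length_take]
      omega
    obtain ⟨i, hi, c, hic⟩ := hcompl (t.take p0) v hXl
    -- an unspoiled copy
    have hex : ∃ e : Fin (C0 + 1), (⟨i, hi⟩, c, e) ∉ {a : J m k C0 | ∃ a', a' ≠ a ∧
          Bad (cand Bm ((t.drop (pos (idx a))).take D₂) (pos (idx a')))} := by
      by_contra hcon
      push Not at hcon
      have h1 : Set.range (fun e : Fin (C0 + 1) => ((⟨i, hi⟩, c, e) : J m k C0)) ⊆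
          {a : J m k C0 | ∃ a', a' ≠ a ∧
          Bad (cand Bm ((t.drop (pos (idx a))).take D₂) (pos (idx a')))} := by
        rintro _ ⟨e, rfl⟩
        exact hcon e
      have h2 := Set.ncard_le_ncard h1 (Set.toFinite _)
      have h3 : Set.ncard (Set.range (fun e : Fin (C0 + 1) => ((⟨i, hi⟩, c, e) : J m k C0))) =
          C0 + 1 := by
        rw [← Set.image_univ, Set.ncard_image_of_injective, Set.ncard_univ, Nat.card_fin]
        intro e e' he
        simpa using he
      have h4 := hspoil t ht htl hbad
      omega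
    obtain ⟨e, he⟩ := hex
    let a : J m k C0 := (⟨i, hi⟩, c, e)
    have ha : ∀ a', Bad (cand Bm ((t.drop (P a)).take D₂) (P a')) → a' = a := by
      intro a' hb
      by_contra hne
      exact he ⟨a', hne, hb⟩
    have hPa : P a ≤ p0 := hPle a
    have hrl : ((t.drop (P a)).take D₂).length = D₂ := by
      rw [List.length_take, List.length_drop]
      omega
    have htk : (t.take (P a)).length = P a := by
      rw [List.length_take]
      omega
    have hself : Bad (cand Bm ((t.drop (P a)).take D₂) (P a)) := by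
      have h1 : t.take Bm = (t.take (P a) ++ (t.drop (P a)).take D₂).take Bm := by
        conv_lhs => rw [← List.take_append_drop (P a) t]
        rw [List.take_append, List.take_append, htk, List.take_take (i := Bm - P a),
          min_eq_left (show Bm - P a ≤ D₂ by omega)]
      rw [h1] at hbad
      unfold cand
      refine (hBu _ _ _ ?_ ?_ (by omega)).2 hbad
      · rw [htk, List.length_take, hrl]
        omega
      · rw [List.length_take, hrl]
        omega
    have hctxa : ctx (P a) = some (i, c) := hctxP a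
    obtain ⟨hl1, hr1⟩ := hic (P a) hctxa
    refine ⟨P a, ⟨a, rfl⟩, hPa, ⟨?_, a, ?_⟩, ?_⟩
    · rw [List.take_take, min_eq_left hPa] at hl1
      exact hl1
    · exact htk.symm
    · unfold R2
      have h : ∃ a : J m k C0, Bad (cand Bm ((t.drop (P a)).take D₂) (P a)) ∧ True := ⟨a, hself, trivial⟩
      have h' : ∃ a₁ : J m k C0, Bad (cand Bm ((t.drop (P a)).take D₂) (P a₁)) ∧
          ∀ a', Bad (cand Bm ((t.drop (P a)).take D₂) (P a')) → a' = a₁ := ⟨a, hself, ha⟩
      rw [dif_pos h']
      have hch : h'.choose = a := ha _ h'.choose_spec.1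
      rw [Option.isSome_map, hch, List.take_take, min_eq_left (by omega)]
      rw [List.drop_take] at hr1
      exact hr1

end Crest.Agent.R320.SC2_335
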