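import Crest.Agent.R320.Ruler2_537
import Crest.Agent.R320.ExactR_237

/-!
# Row 320: scheme 2 (the promise ruler) of helper132's chain on words, in the buffer form of
helper131 (#13123): (SC2) and (CP2).
-/

set_option autoImplicit false
set_option linter.unusedSectionVars false

namespace Crest.Agent.R320.SC2_692

open Crest.Agent.R320.ThrChain260 Crest.Agent.R320.Ruler2_537

variable {α : Type*}

/-- walls of the text `t` at integer positions -/
def Wv (R : List α → Prop) (t : List α) (i : ℤ) : Prop := 0 ≤ i ∧ R (t.drop i.toNat)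

/-- right-looking rule with window `n` -/
structure Rl (R : List α → Prop) (n : ℕ) : Prop where
  pos : 0 < n
  loc : ∀ Q, R Q ↔ R (Q.take n)
  len : ∀ Q, R Q → n ≤ Q.length

section walls

variable {R : List α → Prop} {n : ℕ} (hR : Rl R n)

include hR

theorem Rl.app {Q X : List α} (h : n ≤ Q.length) : R (Q ++ X) ↔ R Q := by
  rw [hR.loc (Q ++ X), hR.loc Q, List.take_append_of_le_length h]

theorem Wv_len {t : List α} {i : ℤ} (h : Wv R t i) : i + n ≤ t.length := by
  have h1 := hR.len _ h.2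
  have h2 := hR.pos
  rw [List.length_drop] at h1
  have := h.1
  omega

theorem Wv_left {u r : List α} {i : ℤ} (h : i + n ≤ u.length) :
    Wv R (u ++ r) i ↔ Wv R u i := by
  unfold Wv
  refine and_congr_right fun h0 => ?_
  rw [List.drop_append_of_le_length (by omega)]
  exact hR.app (by rw [List.length_drop]; omega)

theorem Wv_take {t : List α} {B : ℕ} {i : ℤ} (h : i + n ≤ B) :
    Wv R (t.take B) i ↔ Wv R t i := by
  rcases le_or_gt B t.length with hB | hB
  · conv_rhs => rw [← List.take_append_drop B t]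
    exact (Wv_left hR (by rw [List.length_take]; omega)).symm
  · rw [List.take_of_length_le hB.le]

omit hR in
theorem Wv_drop {t : List α} {x : ℕ} {i : ℤ} (h0 : 0 ≤ i) :
    Wv R (t.drop x) i ↔ Wv R t (i + x) := by
  unfold Wv
  rw [List.drop_drop]
  have e : x + i.toNat = (i + x).toNat := by omega
  rw [e]
  constructor
  · rintro ⟨_, h⟩; exact ⟨by omega, h⟩
  · rintro ⟨_, h⟩; exact ⟨h0, h⟩

omit hR in
theorem Wv_right {u r : List α} {i : ℤ} (h0 : (u.length : ℤ) ≤ i) :
    Wv R (u ++ r) i ↔ Wv R r (i - u.length) := by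
  have h := Wv_drop (R := R) (t := u ++ r) (x := u.length) (i := i - u.length) (by omega)
  rw [List.drop_left] at h
  rw [h]
  have e : i - u.length + u.length = i := by ring
  rw [e]

end walls

variable {P : Par}

/-- transfer of the next anchor between two texts with a shift -/
theorem isN_shift {W W' : ℤ → Prop} {a b : ℤ} (e : ℤ)
    (h : ∀ i, a + P.z - (P.S - P.N1) ≤ i → i ≤ b → (W i ↔ W' (i + e))) (hN : IsN P W a b) :
    IsN P W' (a + e) (b + e) := by
  have hb := qual_ge hN.1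
  refine ⟨⟨(h b hb le_rfl).1 hN.1.1, ?_⟩, ?_⟩
  · have := hN.1.2
    have e1 : b + e - (a + e) - P.z = b - a - P.z := by ring
    rw [e1]; exact this
  · intro t' ht' hq
    have h1 := qual_ge hq
    have h2 : W (t' - e) := (h (t' - e) (by linarith) (by linarith)).2 (by
      have e2 : t' - e + e = t' := by ring
      rw [e2]; exact hq.1)
    refine hN.2 (t' - e) (by linarith) ⟨h2, ?_⟩
    have := hq.2
    have e1 : t' - e - a - P.z = t' - (a + e) - P.z := by ring
    rw [e1]; exact this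

/-- transfer of badness -/
theorem bad_shift {Wl Ws Wl' Ws' : ℤ → Prop} {A : ℕ → ℤ} {D : ℤ} {K : ℕ} {m : ℕ → ℤ} {r : ℕ}
    {a : ℤ} (e : ℤ)
    (h1 : ∀ i, a + P.z - P.S ≤ i → Wl i → Wl' (i + e))
    (h2 : ∀ b, Wl b → ∀ i, a + P.z - P.S ≤ i → i ≤ b → Wl' (i + e) → Wl i)
    (h3 : ∀ k < K, ∀ i, a + A k - D ≤ i → Ws i → Ws' (i + e))
    (h : Bad P Wl Ws A D K m r a) : Bad P Wl' Ws' A D K m r (a + e) := by
  have hN := P.hN
  rcases h with ⟨t, ht, hb⟩ | ⟨k, hk, u, hu, hb⟩ | ⟨i, hi, b, hb, hm⟩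
  · left
    have g1 := abs_le.mp hb
    have g2 := s_ge (P := P) ((t - a - P.z) % P.M)
    refine ⟨t + e, h1 t (by linarith [g1.1]) ht, ?_⟩
    have e1 : t + e - (a + e) - P.z = t - a - P.z := by ring
    rw [e1]; exact hb
  · right; left
    have g1 := abs_le.mp hb
    refine ⟨k, hk, u + e, h3 k hk u (by linarith [g1.1]) hu, ?_⟩
    have e1 : u + e - (a + e) - A k = u - a - A k := by ring
    rw [e1]; exact hb
  · right; right
    refine ⟨i, hi, b + e, ?_, ?_⟩
    · refine isN_shift e (fun j hj hjb => ⟨h1 j (by linarith), h2 b hb.1.1 j (by linarith) hjb⟩) hb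
    · have e1 : b + e - (a + e) - P.p0 = b - a - P.p0 := by ring
      rw [e1]; exact hm

variable {S V : Type*} [Monoid S] [AddCommGroup V]

/-- the data of the two schemes seen from scheme 2 -/
structure Dt (α S V : Type*) [Monoid S] [AddCommGroup V] where
  P : Par
  p0 : ℕ
  hp0 : P.p0 = p0
  Ro : List α → Prop
  n : ℕ
  hRo : Rl Ro n
  Rs : List α → Prop
  ns : ℕ
  hRs : Rl Rs ns
  A : ℕ → ℤ
  D : ℤ
  K : ℕ
  m : ℕ → ℤ
  r : ℕ
  φ : List α → S
  act : V → S → V
  nu1 : List α → V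
  c : ℕ → ℕ
  Kc : ℕ
  lam : ℕ → List α → Option V
  rho : ℕ → List α → Option V
  nu2 : List α → V
  Bm : ℕ
  D2 : ℕ
  G : ℕ
  /-- places of scheme 2 lie in the first part of the zone -/
  hc : ∀ k < Kc, c k ≤ p0
  hz : P.S + p0 < P.z
  hA : ∀ k < K, p0 + D < A k
  hB : P.z + P.S + G + n ≤ Bm
  hD2 : Bm ≤ D2
  snd : ∀ k < Kc, ∀ (X Y : List α) (v b : V), X.length = c k → lam k X = some v →
    rho k Y = some b → b = act v (φ (X ++ Y)) + nu2 (X ++ Y)

namespace Dt

variable (E : Dt α S V)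

/-- a bad zone text -/
def BadY (y : List α) : Prop :=
  Bad E.P (Wv E.Ro y) (Wv E.Rs y) E.A E.D E.K E.m E.r 0

open Classical in
/-- the next anchor -/
noncomputable def N (y : List α) : ℕ :=
  if h : ∃ b : ℕ, IsN E.P (Wv E.Ro y) 0 b then h.choose else 1

/-- the zone map -/
noncomputable def zm (y : List α) (v : V) : V :=
  E.act (E.act v (E.φ (y.take E.p0)) + E.nu2 (y.take E.p0)) (E.φ ((y.take (E.N y)).drop E.p0)) +
    E.nu1 ((y.take (E.N y)).drop E.p0)

/-- left labels -/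
def L2 (u : List α) (v : V) : Prop := ∃ k < E.Kc, u.length = E.c k ∧ E.lam k u = some v

/-- right labels -/
def Rel (r : List α) (db : ℕ × V) : Prop :=
  ∃ k < E.Kc, (∀ k' < E.Kc, Bad E.P (Wv E.Ro r) (Wv E.Rs r) E.A E.D E.K E.m E.r (-(E.c k' : ℤ)) →
      k' = k) ∧
    IsN E.P (Wv E.Ro r) (-(E.c k : ℤ)) (db.1 : ℤ) ∧
    ∃ b0, E.rho k (r.take (E.p0 - E.c k)) = some b0 ∧
      db.2 = E.act b0 (E.φ ((r.take db.1).drop (E.p0 - E.c k))) +
        E.nu1 ((r.take db.1).drop (E.p0 - E.c k))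

open Classical in
noncomputable def R2 (r : List α) : Option (ℕ × V) :=
  if h : ∃ db, E.Rel r db then some h.choose else none

theorem R2_spec {r : List α} {db : ℕ × V} (h : E.R2 r = some db) : E.Rel r db := by
  unfold R2 at h
  split_ifs at h with h1
  rw [← Option.some.inj h]
  exact h1.choose_spec

theorem R2_isSome {r : List α} {db : ℕ × V} (h : E.Rel r db) : (E.R2 r).isSome := by
  unfold R2
  rw [dif_pos ⟨db, h⟩]
  rfl

theorem N_eq {y : List α} {b : ℕ} (h : IsN E.P (Wv E.Ro y) 0 b) : E.N y = b := by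
  have hex : ∃ b : ℕ, IsN E.P (Wv E.Ro y) 0 b := ⟨b, h⟩
  unfold N
  rw [dif_pos hex]
  have := isN_unique hex.choose_spec h
  exact_mod_cast this

/-- outer walls exist in every window of the text -/
def Wd (t : List α) : Prop :=
  ∀ x : ℕ, x + E.G + E.n ≤ t.length → ∃ i, x ≤ i ∧ i < x + E.G ∧ E.Ro (t.drop i)

/-- a next anchor is close, on texts with walls -/
theorem isN_le {t : List α} (hW : E.Wd t) {x : ℕ} (hx : (x : ℤ) ≤ E.p0) {b : ℤ}
    (hl : (x : ℤ) + E.P.z + E.P.S + E.G + E.n ≤ t.length)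
    (hb : IsN E.P (Wv E.Ro t) x b) : b < x + E.P.z + E.P.S + E.G := by
  have hN := E.P.hN
  have hs := E.P.hs 0
  have hS : 0 ≤ E.P.S - E.P.N1 := le_trans (abs_nonneg _) hs
  have hz := E.hz
  obtain ⟨i, h1, h2, h3⟩ := hW (x + (E.P.z + E.P.S).toNat) (by omega)
  have hq : Qual E.P (Wv E.Ro t) x i := by
    refine qual_of_ge ⟨by omega, ?_⟩ (by omega)
    simpa using h3
  by_contra hc
  refine hb.2 i (by omega) hq

theorem SC2 {u r : List α} {v b : V} {d : ℕ} (hW : E.Wd (u ++ r)) (hr : r.length = E.D2)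
    (hL : E.L2 u v) (hR : E.R2 r = some (d, b)) (hbad : E.BadY ((u ++ r).take E.Bm)) :
    E.N ((u ++ r).take E.Bm) = u.length + d ∧ E.zm ((u ++ r).take E.Bm) v = b := by
  obtain ⟨k0, hk0, hlu, hlam⟩ := hL
  obtain ⟨k, hk, huniq, hN, b0, hrho, hb⟩ := E.R2_spec hR
  have hz := E.hz
  have hPN := E.P.hN
  have hs := E.P.hs 0
  have hS : 0 ≤ E.P.S - E.P.N1 := le_trans (abs_nonneg _) hs
  have hc0 := E.hc k0 hk0
  have hB := E.hB
  have hD2 := E.hD2
  -- the promise makes the true place a candidate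
  have hkk : k0 = k := by
    apply huniq k0 hk0
    have h := bad_shift (P := E.P) (A := E.A) (D := E.D) (K := E.K) (m := E.m) (r := E.r)
      (Wl := Wv E.Ro ((u ++ r).take E.Bm)) (Ws := Wv E.Rs ((u ++ r).take E.Bm))
      (Wl' := Wv E.Ro r) (Ws' := Wv E.Rs r) (a := 0) (-(E.c k0 : ℤ)) ?_ ?_ ?_ hbad
    · simpa using h
    · intro i hi hw
      have h1 := Wv_len E.hRo hw
      rw [List.length_take] at h1
      have h2 := (Wv_take E.hRo (by omega)).1 hw
      have h3 := (Wv_right (by rw [hlu]; omega)).1 h2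
      rw [hlu] at h3
      exact h3
    · intro b' hb' i hi hib hw
      have h1 := Wv_len E.hRo hb'
      rw [List.length_take] at h1
      refine (Wv_take E.hRo (by omega)).2 ?_
      refine (Wv_right (by rw [hlu]; omega)).2 ?_
      rw [hlu]; exact hw
    · intro k' hk' i hi hw
      have hA := E.hA k' hk'
      have h1 := Wv_len E.hRs hw
      rw [List.length_take] at h1
      have h2 := (Wv_take E.hRs (by omega)).1 hw
      have h3 := (Wv_right (by rw [hlu]; omega)).1 h2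
      rw [hlu] at h3
      exact h3
  subst hkk
  have hlen : (u ++ r).length = E.c k0 + E.D2 := by rw [List.length_append, hlu, hr]
  -- next anchor in the whole text
  have hN1 : IsN E.P (Wv E.Ro (u ++ r)) ((0 : ℕ) : ℤ) ((E.c k0 + d : ℕ) : ℤ) := by
    have h := isN_shift (P := E.P) (W := Wv E.Ro r) (W' := Wv E.Ro (u ++ r))
      (a := -(E.c k0 : ℤ)) (b := (d : ℤ)) (E.c k0 : ℤ) ?_ hN
    · have e1 : -(E.c k0 : ℤ) + (E.c k0 : ℤ) = ((0 : ℕ) : ℤ) := by simp
      have e2 : (d : ℤ) + (E.c k0 : ℤ) = ((E.c k0 + d : ℕ) : ℤ) := by push_cast; ring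
      rw [e1, e2] at h; exact h
    · intro i hi hib
      have h3 := Wv_right (R := E.Ro) (u := u) (r := r) (i := i + E.c k0) (by rw [hlu]; omega)
      rw [h3, hlu]
      have e1 : i + (E.c k0 : ℤ) - (E.c k0 : ℤ) = i := by ring
      rw [e1]
  have hlt := E.isN_le hW (x := 0) (by simp) (by rw [hlen]; push_cast; omega) hN1
  have hN2 : IsN E.P (Wv E.Ro ((u ++ r).take E.Bm)) 0 ((E.c k0 + d : ℕ) : ℤ) := by
    have h := isN_shift (P := E.P) (W := Wv E.Ro (u ++ r)) (W' := Wv E.Ro ((u ++ r).take E.Bm))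
      (a := ((0 : ℕ) : ℤ)) (b := ((E.c k0 + d : ℕ) : ℤ)) 0 ?_ hN1
    · simpa using h
    · intro i hi hib
      rw [add_zero]
      exact (Wv_take E.hRo (by push_cast at hlt hib ⊢; omega)).symm
  have hNy := E.N_eq hN2
  refine ⟨by rw [hNy, hlu], ?_⟩
  have hd : E.p0 < E.c k0 + d := by
    have h := qual_ge hN1.1
    push_cast at h
    omega
  push_cast at hlt
  have e1 : ((u ++ r).take E.Bm).take E.p0 = u ++ r.take (E.p0 - E.c k0) := by
    rw [List.take_take, min_eq_left (by omega), List.take_append, List.take_of_length_le (by omega),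
      hlu]
  have e2 : (((u ++ r).take E.Bm).take (E.c k0 + d)).drop E.p0 =
      (r.take d).drop (E.p0 - E.c k0) := by
    rw [List.take_take, min_eq_left (by omega), List.take_append, List.take_of_length_le (by omega),
      hlu, List.drop_append, List.drop_of_length_le (by omega), hlu]
    have e3 : E.c k0 + d - E.c k0 = d := by omega
    rw [e3, List.nil_append]
  unfold zm
  rw [hNy, e1, e2]
  have hb' : b = E.act b0 (E.φ ((r.take d).drop (E.p0 - E.c k0))) +
      E.nu1 ((r.take d).drop (E.p0 - E.c k0)) := hb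
  rw [hb', E.snd k0 hk0 u (r.take (E.p0 - E.c k0)) v b0 hlu hlam hrho]

/-- the ruler as a finset of integers -/
def Cs : Finset ℤ := (Finset.range E.Kc).image fun k => (E.c k : ℤ)

theorem CP2 (hinj : ∀ i < E.Kc, ∀ j < E.Kc, E.c i = E.c j → i = j)
    (hC : Ruler2 E.P E.D E.m E.r E.Cs)
    {t : List α} (hW : E.Wd t) (ht : E.Bm + E.D2 ≤ t.length)
    (gap : ∀ i j, Wv E.Ro t i → Wv E.Ro t j → i < j → 2 * (E.P.S + E.P.L) < j - i)
    (gapS : ∀ i j, Wv E.Rs t i → Wv E.Rs t j → i < j → 2 * (E.D + E.P.L) < j - i)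
    (Rr : ℕ) (hRr : 1 + E.K + 2 * E.r < Rr)
    (hcomp : ∀ (X : List α) (v : V), (∀ k < E.Kc, E.c k ≤ X.length) →
      ∃ I : Finset ℕ, Rr ≤ I.card ∧ ∀ k ∈ I, k < E.Kc ∧ E.lam k (X.take (E.c k)) = some v ∧
        (E.rho k (X.drop (E.c k))).isSome) (v : V) :
    ∃ k < E.Kc, E.L2 (t.take (E.c k)) v ∧ (E.R2 ((t.drop (E.c k)).take E.D2)).isSome := by
  classical
  have hz := E.hz
  have hPN := E.P.hN
  have hs := E.P.hs 0
  have hS : 0 ≤ E.P.S - E.P.N1 := le_trans (abs_nonneg _) hs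
  have hB := E.hB
  have hD2 := E.hD2
  obtain ⟨I, hI, hIk⟩ := hcomp (t.take E.p0) v (by
    intro k hk
    have := E.hc k hk
    rw [List.length_take]; omega)
  have hcard := card_spoiled (Wl := Wv E.Ro t) (Ws := Wv E.Rs t) (A := E.A) (K := E.K) hC gap gapS 0
  -- some place of `I` is not spoiled
  obtain ⟨k, hkI, hks⟩ : ∃ k ∈ I, (E.c k : ℤ) ∉ (E.Cs.filter fun c => ∃ c' ∈ E.Cs, c' ≠ c ∧
      Bad E.P (Wv E.Ro t) (Wv E.Rs t) E.A E.D E.K E.m E.r (0 + (c - c'))) := by
    by_contra hcon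
    push Not at hcon
    have h1 : (I.image fun k => (E.c k : ℤ)).card = I.card := by
      apply Finset.card_image_of_injOn
      intro i hi j hj hij
      have hij' : (E.c i : ℤ) = E.c j := hij
      exact hinj i (hIk i hi).1 j (hIk j hj).1 (by exact_mod_cast hij')
    have h2 : (I.image fun k => (E.c k : ℤ)) ⊆ (E.Cs.filter fun c => ∃ c' ∈ E.Cs, c' ≠ c ∧
        Bad E.P (Wv E.Ro t) (Wv E.Rs t) E.A E.D E.K E.m E.r (0 + (c - c'))) := by
      intro x hx
      obtain ⟨k, hk, rfl⟩ := Finset.mem_image.1 hx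
      exact hcon k hk
    have h3 := Finset.card_le_card h2
    omega
  obtain ⟨hk, hlam, hrho⟩ := hIk k hkI
  have hck := E.hc k hk
  refine ⟨k, hk, ⟨k, hk, ?_, ?_⟩, ?_⟩
  · rw [List.length_take]; omega
  · rw [List.take_take, min_eq_left hck] at hlam
    exact hlam
  obtain ⟨b0, hb0⟩ := Option.isSome_iff_exists.1 hrho
  set r := (t.drop (E.c k)).take E.D2 with hr
  have hrl : r.length = E.D2 := by
    rw [hr, List.length_take, List.length_drop]; omega
  -- walls of `r` are walls of `t`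
  have hwr : ∀ (R : List α → Prop) (n : ℕ), Rl R n → ∀ i : ℤ, Wv R r i → Wv R t (i + E.c k) := by
    intro R n hR i hi
    have h1 := Wv_len hR hi
    rw [hrl] at h1
    have h2 := (Wv_take hR (by omega)).1 hi
    exact (Wv_drop hi.1).1 h2
  have hrw : ∀ (R : List α → Prop) (n : ℕ), Rl R n → ∀ i : ℤ, 0 ≤ i → i + n ≤ E.D2 →
      Wv R t (i + E.c k) → Wv R r i := by
    intro R n hR i h0 h1 hi
    exact (Wv_take hR h1).2 ((Wv_drop h0).2 hi)
  -- next anchor of `t`
  obtain ⟨i0, hi1, hi2, hi3⟩ := hW (E.P.z + E.P.S).toNat (by omega)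
  obtain ⟨b, hbN, hb1, hb2⟩ := exists_isN (P := E.P) (Wl := Wv E.Ro t) (a := 0) (u := (i0 : ℤ))
    ⟨by omega, by simpa using hi3⟩ (by omega)
  have hbc : (E.c k : ℤ) < b := by omega
  have hNr : IsN E.P (Wv E.Ro r) (-(E.c k : ℤ)) (((b - E.c k).toNat : ℕ) : ℤ) := by
    have h := isN_shift (P := E.P) (W := Wv E.Ro t) (W' := Wv E.Ro r) (a := 0) (b := b)
      (-(E.c k : ℤ)) ?_ hbN
    · have e1 : (((b - E.c k).toNat : ℕ) : ℤ) = b + -(E.c k : ℤ) := by omega
      rw [e1]
      simpa using h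
    · intro i hi hib
      constructor
      · intro hw
        refine hrw E.Ro E.n E.hRo _ (by omega) (by omega) ?_
        have e1 : i + -(E.c k : ℤ) + E.c k = i := by ring
        rw [e1]; exact hw
      · intro hw
        have := hwr E.Ro E.n E.hRo _ hw
        have e1 : i + -(E.c k : ℤ) + E.c k = i := by ring
        rw [e1] at this; exact this
  refine E.R2_isSome (db := ((b - E.c k).toNat,
    E.act b0 (E.φ ((r.take (b - E.c k).toNat).drop (E.p0 - E.c k))) +
      E.nu1 ((r.take (b - E.c k).toNat).drop (E.p0 - E.c k)))) ⟨k, hk, ?_, hNr, b0, ?_, rfl⟩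
  · intro k' hk' hbad
    by_contra hne
    apply hks
    rw [Finset.mem_filter]
    refine ⟨Finset.mem_image.2 ⟨k, Finset.mem_range.2 hk, rfl⟩, (E.c k' : ℤ),
      Finset.mem_image.2 ⟨k', Finset.mem_range.2 hk', rfl⟩, ?_, ?_⟩
    · intro h
      exact hne (hinj k' hk' k hk (by exact_mod_cast h))
    · have hck' := E.hc k' hk'
      have h := bad_shift (P := E.P) (A := E.A) (D := E.D) (K := E.K) (m := E.m) (r := E.r)
        (Wl := Wv E.Ro r) (Ws := Wv E.Rs r)
        (Wl' := Wv E.Ro t) (Ws' := Wv E.Rs t) (a := -(E.c k' : ℤ)) (E.c k : ℤ) ?_ ?_ ?_ hbad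
      · have e1 : (0 : ℤ) + ((E.c k : ℤ) - E.c k') = -(E.c k' : ℤ) + E.c k := by ring
        rw [e1]; exact h
      · intro i hi hw
        exact hwr E.Ro E.n E.hRo _ hw
      · intro b' hb' i hi hib hw
        have h1 := Wv_len E.hRo hb'
        rw [hrl] at h1
        exact hrw E.Ro E.n E.hRo _ (by omega) (by omega) hw
      · intro k'' hk'' i hi hw
        exact hwr E.Rs E.ns E.hRs _ hw
  · have e1 : r.take (E.p0 - E.c k) = (t.take E.p0).drop (E.c k) := by
      rw [hr, List.take_take, min_eq_left (by omega), List.drop_take]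
    rw [e1]; exact hb0

end Dt

end Crest.Agent.R320.SC2_692
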