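import Crest.Agent.R320.Ruler2_537

/-!
Row 320, the spoiling hypothesis (SP) of scheme 2 in word form (helper434), from 537's
`card_spoiled`.

`t` is the text from the anchor, `Y` the text from `a + p0` cut to `B` letters; `R`, `Rs` are the
right-looking rules of the outer and of the small walls.
-/

set_option autoImplicit false

namespace Crest.Agent.R320.SP_434

open Crest.Agent.R320.ThrChain260 Crest.Agent.R320.Ruler2_537

variable {α : Type*}

/-- a local rule on a truncated text -/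
theorem rule_of_take {R : List α → Prop} {n : ℕ} (h1 : ∀ Q, R Q ↔ R (Q.take n))
    (h2 : ∀ Q, R Q → n ≤ Q.length) {Z : List α} {m : ℕ} (h : R (Z.take m)) : R Z := by
  have hl := h2 _ h
  rw [List.length_take] at hl
  have : (Z.take m).take n = Z.take n := by
    rw [List.take_take, min_eq_left (by omega)]
  rw [h1, ← this, ← h1]
  exact h

theorem rule_take {R : List α → Prop} {n : ℕ} (h1 : ∀ Q, R Q ↔ R (Q.take n))
    {Z : List α} {m : ℕ} (hm : n ≤ m) (h : R Z) : R (Z.take m) := by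
  have : (Z.take m).take n = Z.take n := by
    rw [List.take_take, min_eq_left (by omega)]
  rw [h1, this, ← h1]
  exact h

/-- walls of a text as a set of integers -/
def wl (R : List α → Prop) (t : List α) (x : ℤ) : Prop := 0 ≤ x ∧ R (t.drop x.toNat)

theorem wl_gap {R : List α → Prop} {W : ℕ}
    (hg : ∀ Q d, R Q → 0 < d → d ≤ W → ¬ R (Q.drop d)) {G : ℤ} (hG : G ≤ W) (t : List α) :
    ∀ x y, wl R t x → wl R t y → x < y → G < y - x := by
  rintro x y ⟨hx, hRx⟩ ⟨hy, hRy⟩ hxy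
  by_contra hc
  push Not at hc
  refine hg (t.drop x.toNat) (y - x).toNat hRx (by omega) (by omega) ?_
  rw [List.drop_drop]
  have : x.toNat + (y - x).toNat = y.toNat := by omega
  rw [this]
  exact hRy

/-- (E) on the text `Y` from `a + p0` -/
def EB (P : Par) (R : List α → Prop) (Y : List α) : Prop :=
  ∃ j : ℕ, R (Y.drop j) ∧ |(P.p0 + j) - P.z - P.s ((P.p0 + j - P.z) % P.M)| ≤ P.N1

/-- (D) on the text `Y` from `a + p0` -/
def DB (P : Par) (Rs : List α → Prop) (A : ℕ → ℤ) (D : ℤ) (K : ℕ) (Y : List α) : Prop :=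
  ∃ k < K, ∃ j : ℕ, Rs (Y.drop j) ∧ |P.p0 + j - A k| ≤ D

/-- the wall at distance `p0 + j` qualifies -/
def Qj (P : Par) (R : List α → Prop) (Y : List α) (j : ℕ) : Prop :=
  R (Y.drop j) ∧ P.s ((P.p0 + j - P.z) % P.M) ≤ P.p0 + j - P.z

/-- (B) on the text `Y` from `a + p0` -/
def BB (P : Par) (R : List α → Prop) (m : ℕ → ℤ) (r : ℕ) (Y : List α) : Prop :=
  ∃ i < r, ∃ j : ℕ, Qj P R Y j ∧ (∀ j' < j, ¬ Qj P R Y j') ∧ m i ∣ (j : ℤ) / P.M

theorem drop_take_eq (t : List α) (q B j : ℕ) :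
    ((t.drop q).take B).drop j = (t.drop (q + j)).take (B - j) := by
  rw [List.drop_take, List.drop_drop]

section

variable {P : Par} {R Rs : List α → Prop} {n : ℕ} {A : ℕ → ℤ} {D : ℤ} {K : ℕ} {m : ℕ → ℤ}
  {r : ℕ}

theorem EB_imp (h1 : ∀ Q, R Q ↔ R (Q.take n)) (h2 : ∀ Q, R Q → n ≤ Q.length) {t : List α}
    {q B : ℕ} {a : ℤ} (ha : a + P.p0 = q) (h : EB P R ((t.drop q).take B)) :
    E P (wl R t) a := by
  obtain ⟨j, hj, hs⟩ := h
  rw [drop_take_eq] at hj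
  have hR := rule_of_take h1 h2 hj
  refine ⟨(q : ℤ) + j, ⟨by positivity, ?_⟩, ?_⟩
  · have : ((q : ℤ) + j).toNat = q + j := by omega
    rw [this]; exact hR
  · have e : (q : ℤ) + j - a - P.z = P.p0 + j - P.z := by linarith
    rw [e]
    exact hs

theorem DB_imp {ns : ℕ} (h1 : ∀ Q, Rs Q ↔ Rs (Q.take ns)) (h2 : ∀ Q, Rs Q → ns ≤ Q.length)
    {t : List α} {q B : ℕ} {a : ℤ} (ha : a + P.p0 = q)
    (h : DB P Rs A D K ((t.drop q).take B)) : ∃ k < K, DBad (wl Rs t) A D k a := by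
  obtain ⟨k, hk, j, hj, hs⟩ := h
  rw [drop_take_eq] at hj
  have hR := rule_of_take h1 h2 hj
  refine ⟨k, hk, (q : ℤ) + j, ⟨by positivity, ?_⟩, ?_⟩
  · have : ((q : ℤ) + j).toNat = q + j := by omega
    rw [this]; exact hR
  · have e : (q : ℤ) + j - a - A k = P.p0 + j - A k := by linarith
    rw [e]
    exact hs

theorem isN_of_Qj (hn : 0 < n) (h1 : ∀ Q, R Q ↔ R (Q.take n)) (h2 : ∀ Q, R Q → n ≤ Q.length)
    (hz : P.p0 + P.S ≤ P.z) {t : List α} {q B : ℕ} {a : ℤ} (ha : a + P.p0 = q) {j : ℕ}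
    (hj : Qj P R ((t.drop q).take B) j) (hmin : ∀ j' < j, ¬ Qj P R ((t.drop q).take B) j') :
    IsN P (wl R t) a ((q : ℤ) + j) := by
  obtain ⟨hR, hs⟩ := hj
  have hlen := h2 _ hR
  rw [List.length_drop, List.length_take, List.length_drop] at hlen
  rw [drop_take_eq] at hR
  have hR' := rule_of_take h1 h2 hR
  refine ⟨⟨⟨by positivity, ?_⟩, ?_⟩, ?_⟩
  · have : ((q : ℤ) + j).toNat = q + j := by omega
    rw [this]; exact hR'
  · have e : (q : ℤ) + j - a - P.z = P.p0 + j - P.z := by linarith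
    rw [e]
    exact hs
  · rintro t' ht' hq
    have hge := qual_ge hq
    have hN := P.hN
    obtain ⟨⟨h0, hRt⟩, hst⟩ := hq
    have hq' : (q : ℤ) ≤ t' := by linarith
    obtain ⟨j', hj'⟩ : ∃ j' : ℕ, t' = q + j' := ⟨(t' - q).toNat, by omega⟩
    subst hj'
    apply hmin j' (by omega)
    refine ⟨?_, ?_⟩
    · rw [drop_take_eq]
      have : ((q : ℤ) + j').toNat = q + j' := by omega
      rw [this] at hRt
      apply rule_take h1 _ hRt
      have : j' < j := by omega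
      omega
    · have e : (q : ℤ) + j' - a - P.z = P.p0 + j' - P.z := by linarith
      rw [e] at hst
      exact hst

theorem BB_imp (hn : 0 < n) (h1 : ∀ Q, R Q ↔ R (Q.take n)) (h2 : ∀ Q, R Q → n ≤ Q.length)
    (hz : P.p0 + P.S ≤ P.z) {t : List α} {q B : ℕ} {a : ℤ} (ha : a + P.p0 = q)
    (h : BB P R m r ((t.drop q).take B)) : ∃ i < r, BBad P (wl R t) m i a := by
  obtain ⟨i, hi, j, hj, hmin, hm⟩ := h
  refine ⟨i, hi, (q : ℤ) + j, isN_of_Qj hn h1 h2 hz ha hj hmin, ?_⟩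
  have e : (q : ℤ) + j - a - P.p0 = j := by linarith
  rw [e]
  exact hm

end

/-- **(SP)**: the spoiling count of scheme 2 in word form. -/
theorem spoiled_le {P : Par} {R Rs : List α → Prop} {n ns W Ws : ℕ} {A : ℕ → ℤ} {D : ℤ} {K : ℕ}
    {m : ℕ → ℤ} {r : ℕ} (hn : 0 < n)
    (h1 : ∀ Q, R Q ↔ R (Q.take n)) (h2 : ∀ Q, R Q → n ≤ Q.length)
    (hs1 : ∀ Q, Rs Q ↔ Rs (Q.take ns)) (hs2 : ∀ Q, Rs Q → ns ≤ Q.length)
    (hg : ∀ Q d, R Q → 0 < d → d ≤ W → ¬ R (Q.drop d)) (hW : 2 * (P.S + P.L) ≤ W)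
    (hgs : ∀ Q d, Rs Q → 0 < d → d ≤ Ws → ¬ Rs (Q.drop d)) (hWs : 2 * (D + P.L) ≤ Ws)
    (hz : P.p0 + P.S ≤ P.z) (p0 : ℕ) (hp0 : P.p0 = p0) (CC : Finset ℕ)
    (hCp : ∀ c ∈ CC, c ≤ p0)
    (hC : Ruler2 P D m r (CC.image (fun c : ℕ => (c : ℤ))))
    (B : ℕ) (B' : List α → Prop)
    (hB' : ∀ Y, B' Y → EB P R Y ∨ DB P Rs A D K Y ∨ BB P R m r Y)
    [dp : ∀ t : List α, DecidablePred fun x : ℕ =>
      ∃ c' ∈ CC, c' ≠ x ∧ B' ((t.drop (p0 + x - c')).take B)] (t : List α) :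
    (CC.filter fun x => ∃ c' ∈ CC, c' ≠ x ∧ B' ((t.drop (p0 + x - c')).take B)).card
      ≤ 1 + K + 2 * r := by
  classical
  have key := card_spoiled (A := A) (K := K) hC (wl_gap hg hW t) (wl_gap hgs hWs t) 0
  refine le_trans ?_ key
  rw [← Finset.card_image_of_injective (s := CC.filter _) (f := fun c : ℕ => (c : ℤ))
    Nat.cast_injective]
  apply Finset.card_le_card
  intro y hy
  rw [Finset.mem_image] at hy
  obtain ⟨x, hx, rfl⟩ := hy
  rw [Finset.mem_filter] at hx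
  obtain ⟨hxC, c', hc', hne, hb⟩ := hx
  rw [Finset.mem_filter]
  refine ⟨Finset.mem_image_of_mem _ hxC, (c' : ℤ), Finset.mem_image_of_mem _ hc', ?_, ?_⟩
  · intro h
    exact hne (by exact_mod_cast h)
  · have hc'p := hCp c' hc'
    have ha : ((x : ℤ) - c') + P.p0 = ((p0 + x - c' : ℕ) : ℤ) := by
      rw [hp0]
      omega
    rw [zero_add]
    rcases hB' _ hb with h | h | h
    · exact Or.inl (EB_imp h1 h2 ha h)
    · exact Or.inr (Or.inl (DB_imp hs1 hs2 ha h))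
    · exact Or.inr (Or.inr (BB_imp hn h1 h2 hz ha h))

end Crest.Agent.R320.SP_434
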