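import Crest.Agent.R320.Hk2_851

/-!
# Row 320: zone calculus without automata (helper748)

`Z` = set of extended zones (zone followed by `n` letters of look-ahead), a prefix code.
`Pth n Z ζ v ω v' ω'`: the chain started at the beginning of `v` in state `ω` reaches the suffix
`v'` in state `ω'`; one step reads an extended zone `z ∈ Z`, `z <+: v`, and drops `|z| - n` letters.
`Sand n Z D ζ k`: languages of height `k`, sound on every word, complete on chains with zones in `D`.
`Sch`: legal pasts `Lf P v` (`P` = text from the last anchor to the cut), legal futures `Rt Q v'`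
(`Q` = text from the cut to the next anchor + `n`), exact: `P ++ Q ∈ Z`, `ζ (P ++ Q) v = v'`.
-/

set_option autoImplicit false

namespace Crest.Agent.R320.Sand_748

open Crest.RegLang Crest.Agent.R320.Hk_851

universe u

variable {α : Type u} {Ω V : Type*} {n k : ℕ}

inductive Pth (n : ℕ) (Z : Set (List α)) (ζ : List α → Ω → Ω) :
    List α → Ω → List α → Ω → Prop
  | nil (v : List α) (ω : Ω) : Pth n Z ζ v ω v ω
  | cons (z v : List α) (ω : Ω) (v' : List α) (ω' : Ω) (hz : z ∈ Z) (hp : z <+: v)
      (h : Pth n Z ζ (v.drop (z.length - n)) (ζ z ω) v' ω') : Pth n Z ζ v ω v' ω'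

variable {Z D : Set (List α)} {ζ : List α → Ω → Ω}

theorem Pth.append {v v' : List α} {ω ω' : Ω} (h : Pth n Z ζ v ω v' ω') (x : List α) :
    Pth n Z ζ (v ++ x) ω (v' ++ x) ω' := by
  induction h with
  | nil v ω => exact .nil _ _
  | cons z v ω v' ω' hz hp h ih =>
    refine .cons z _ _ _ _ hz (hp.trans (List.prefix_append _ _)) ?_
    rw [List.drop_append_of_le_length (by have := hp.length_le; omega)]
    exact ih

theorem Pth.trans {a b c : List α} {x y z : Ω} (h : Pth n Z ζ a x b y) (h' : Pth n Z ζ b y c z) :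
    Pth n Z ζ a x c z := by
  induction h with
  | nil v ω => exact h'
  | cons z v ω v' ω' hz hp h ih => exact .cons z _ _ _ _ hz hp (ih h')

theorem Pth.mono (hD : D ⊆ Z) {v v' : List α} {ω ω' : Ω} (h : Pth n D ζ v ω v' ω') :
    Pth n Z ζ v ω v' ω' := by
  induction h with
  | nil v ω => exact .nil _ _
  | cons z v ω v' ω' hz hp h ih => exact .cons z _ _ _ _ (hD hz) hp ih

theorem Pth.one {z x : List α} (hz : z ∈ Z) (ω : Ω) :
    Pth n Z ζ (z ++ x) ω ((z ++ x).drop (z.length - n)) (ζ z ω) :=
  .cons z _ _ _ _ hz (List.prefix_append _ _) (.nil _ _)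

theorem Pth.suffix {v v' : List α} {ω ω' : Ω} (h : Pth n Z ζ v ω v' ω') : v' <:+ v := by
  induction h with
  | nil v ω => exact List.suffix_refl _
  | cons z v ω v' ω' hz hp h ih => exact ih.trans (List.drop_suffix _ _)

/-- a path up to the suffix `c ++ y`, `|c| = n`, is already seen without `y`. -/
theorem Pth.restrict {v v' : List α} {ω ω' : Ω} (h : Pth n Z ζ v ω v' ω') :
    ∀ c y : List α, c.length = n → v' = c ++ y → ∃ v0, v = v0 ++ y ∧ Pth n Z ζ v0 ω c ω' := by
  induction h with
  | nil v ω =>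
    intro c y _ e
    exact ⟨c, e, .nil _ _⟩
  | cons z v ω v' ω' hz hp h ih =>
    intro c y hc e
    obtain ⟨r, hr, hr'⟩ := ih c y hc e
    have hlr : n ≤ r.length := by
      have := hr'.suffix.length_le
      omega
    have hv : v = v.take (z.length - n) ++ r ++ y := by
      conv_lhs => rw [← List.take_append_drop (z.length - n) v]
      rw [hr, List.append_assoc]
    have hlz := hp.length_le
    have htl : (v.take (z.length - n)).length = z.length - n := by
      rw [List.length_take]; omega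
    refine ⟨v.take (z.length - n) ++ r, hv, .cons z _ _ _ _ hz ?_ ?_⟩
    · have h1 : v.take (z.length - n) ++ r <+: v := ⟨y, hv.symm⟩
      refine List.prefix_of_prefix_length_le hp h1 ?_
      rw [List.length_append, htl]; omega
    · have : (v.take (z.length - n) ++ r).drop (z.length - n) = r := by
        conv_lhs => rw [← htl]
        simp
      rw [this]
      exact hr'

/-- languages of height `k`, sound everywhere, complete on chains with zones in `D` -/
def Sand (n : ℕ) (Z D : Set (List α)) (ζ : List α → Ω → Ω) (k : ℕ) : Prop :=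
  ∀ ω ω' : Ω, ∃ X : Language α, HL k X ∧
    (∀ u, n ≤ u.length → Pth n D ζ u ω (u.drop (u.length - n)) ω' → u ∈ X) ∧
    (∀ u ∈ X, n ≤ u.length ∧ Pth n Z ζ u ω (u.drop (u.length - n)) ω')

/-- exact languages for chains with zones in `D` -/
def Ex (n : ℕ) (D : Set (List α)) (ζ : List α → Ω → Ω) (k : ℕ) : Prop :=
  ∀ ω ω' : Ω, HL k ({u | n ≤ u.length ∧ Pth n D ζ u ω (u.drop (u.length - n)) ω'} : Language α)

theorem Ex.sand (hD : D ⊆ Z) (h : Ex n D ζ k) : Sand n Z D ζ k := fun ω ω' =>
  ⟨_, h ω ω', fun _ h1 h2 => ⟨h1, h2⟩, fun _ hu => ⟨hu.1, hu.2.mono hD⟩⟩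

/-- a scheme, `C` = zones in which every token is cut -/
structure Sch (n : ℕ) (Z C : Set (List α)) (ζ : List α → V → V) (k : ℕ) where
  Lf : List α → V → Prop
  Rt : List α → V → Prop
  hL : ∀ v, HL k ({P | Lf P v} : Language α)
  hR : ∀ v, HL k ({Q | Rt Q v} : Language α)
  lenL : ∀ P v, Lf P v → n ≤ P.length
  lenR : ∀ Q v, Rt Q v → n ≤ Q.length
  exact : ∀ P v Q v', Lf P v → Rt Q v' → P ++ Q ∈ Z ∧ ζ (P ++ Q) v = v'
  compl : ∀ z ∈ C, ∀ v, ∃ P Q v', P ++ Q = z ∧ Lf P v ∧ Rt Q v'

section star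

variable (n) (Lf Rt : List α → V → Prop) (X : V → V → Language α)

/-- auxiliary languages -/
def lp (Lf : List α → V → Prop) (c : List α) (w : V) : Language α := {P | Lf (c ++ P) w}

/-- auxiliary languages -/
def rp (Rt : List α → V → Prop) (c : List α) (w : V) : Language α := {Q | Rt (Q ++ c) w}

/-- auxiliary languages -/
def pre (c : List α) : Language α := {M | ∃ x ∈ ({c} : Language α), x <+: M}

/-- auxiliary languages -/
def suf (c : List α) : Language α := {M | ∃ x ∈ ({c} : Language α), x <:+ M}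

def EL (v : V) : Language α :=
  {u | ∃ w' M P1, M ∈ X v w' ∧ n ≤ M.length ∧ Lf (M.drop (M.length - n) ++ P1) w' ∧ u = M ++ P1}

def FL (v' : V) : Language α :=
  {u | ∃ w Q0 M, Rt (Q0 ++ M.take n) w ∧ M ∈ X w v' ∧ n ≤ M.length ∧ u = Q0 ++ M}

def KL : Language α :=
  {u | ∃ w w' Q0 M P1, Rt (Q0 ++ M.take n) w ∧ M ∈ X w w' ∧ n ≤ M.length ∧
    Lf (M.drop (M.length - n) ++ P1) w' ∧ u = Q0 ++ M ++ P1}

variable {n Lf Rt X}

theorem EL_HL [Finite α] [Finite V] (hX : ∀ w w', HL k (X w w'))
    (hL : ∀ v, HL k ({P | Lf P v} : Language α)) (v : V) : HL k (EL n Lf X v) := by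
  have h : HL k ({u | ∃ w' : V, u ∈ ({u | ∃ c ∈ {c : List α | c.length = n},
      u ∈ (X v w' ⊓ suf c) * lp Lf c w'} : Language α)} : Language α) := by
    refine HL.iUnion fun w' => HL.biUnion (List.finite_length_eq α n) fun c _ => ?_
    exact ((hX v w').inf (HL.word c).suffix).mul ((hL w').lquot c)
  refine h.congr fun u => ?_
  constructor
  · rintro ⟨w', M, P1, h1, h2, h3, rfl⟩
    refine ⟨w', M.drop (M.length - n), ?_, ?_⟩
    · show (M.drop (M.length - n)).length = n
      rw [List.length_drop]; omega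
    · exact Language.mem_mul.2 ⟨M, ⟨h1, _, rfl, List.drop_suffix _ _⟩, P1, h3, rfl⟩
  · rintro ⟨w', c, hc, hu⟩
    obtain ⟨M, ⟨h1, x, hx, h2⟩, P1, h3, rfl⟩ := Language.mem_mul.1 hu
    have hx' : x = c := hx
    subst hx'
    have hc' : x.length = n := hc
    have hle := h2.length_le
    have e : M.drop (M.length - n) = x := by
      obtain ⟨y, rfl⟩ := h2
      rw [List.length_append, hc']
      simp
    exact ⟨w', M, P1, h1, by omega, by rw [e]; exact h3, rfl⟩

theorem FL_HL [Finite α] [Finite V] (hX : ∀ w w', HL k (X w w'))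
    (hR : ∀ v, HL k ({P | Rt P v} : Language α)) (v' : V) : HL k (FL n Rt X v') := by
  have h : HL k ({u | ∃ w : V, u ∈ ({u | ∃ c ∈ {c : List α | c.length = n},
      u ∈ rp Rt c w * (X w v' ⊓ pre c)} : Language α)} : Language α) := by
    refine HL.iUnion fun w => HL.biUnion (List.finite_length_eq α n) fun c _ => ?_
    exact ((hR w).rquot c).mul ((hX w v').inf (HL.word c).prefix)
  refine h.congr fun u => ?_
  constructor
  · rintro ⟨w, Q0, M, h1, h2, h3, rfl⟩
    refine ⟨w, M.take n, ?_, ?_⟩
    · show (M.take n).length = n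
      rw [List.length_take]; omega
    · exact Language.mem_mul.2 ⟨Q0, h1, M, ⟨h2, _, rfl, List.take_prefix _ _⟩, rfl⟩
  · rintro ⟨w, c, hc, hu⟩
    obtain ⟨Q0, h3, M, ⟨h1, x, hx, h2⟩, rfl⟩ := Language.mem_mul.1 hu
    have hx' : x = c := hx
    subst hx'
    have hc' : x.length = n := hc
    have hle := h2.length_le
    have e : M.take n = x := by
      obtain ⟨y, rfl⟩ := h2
      rw [← hc']; simp
    exact ⟨w, Q0, M, by rw [e]; exact h3, h1, by omega, rfl⟩

theorem KL_HL [Finite α] [Finite V] (hX : ∀ w w', HL k (X w w'))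
    (hL : ∀ v, HL k ({P | Lf P v} : Language α))
    (hR : ∀ v, HL k ({P | Rt P v} : Language α)) : HL k (KL n Lf Rt X) := by
  have h : HL k ({u | ∃ w w' : V, ∃ c ∈ {c : List α | c.length = n},
      ∃ c' ∈ {c : List α | c.length = n},
      u ∈ rp Rt c w * (X w w' ⊓ pre c ⊓ suf c') * lp Lf c' w'} : Language α) := by
    refine HL.iUnion fun w => HL.iUnion fun w' => HL.biUnion (List.finite_length_eq α n)
      fun c _ => HL.biUnion (List.finite_length_eq α n) fun c' _ => ?_
    exact (((hR w).rquot c).mul (((hX w w').inf (HL.word c).prefix).inf (HL.word c').suffix)).mul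
      ((hL w').lquot c')
  refine h.congr fun u => ?_
  constructor
  · rintro ⟨w, w', Q0, M, P1, h1, h2, h3, h4, rfl⟩
    refine ⟨w, w', M.take n, ?_, M.drop (M.length - n), ?_, ?_⟩
    · show (M.take n).length = n
      rw [List.length_take]; omega
    · show (M.drop (M.length - n)).length = n
      rw [List.length_drop]; omega
    · exact Language.mem_mul.2 ⟨Q0 ++ M, Language.mem_mul.2 ⟨Q0, h1, M,
        ⟨⟨h2, _, rfl, List.take_prefix _ _⟩, _, rfl, List.drop_suffix _ _⟩, rfl⟩, P1, h4, rfl⟩
  · rintro ⟨w, w', c, hc, c', hc', hu⟩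
    obtain ⟨QM, hQM, P1, h4, rfl⟩ := Language.mem_mul.1 hu
    obtain ⟨Q0, h3, M, ⟨⟨h1, x, hx, h2⟩, y, hy, h5⟩, rfl⟩ := Language.mem_mul.1 hQM
    have hx' : x = c := hx
    subst hx'
    have hy' : y = c' := hy
    subst hy'
    have hc1 : x.length = n := hc
    have hc2 : y.length = n := hc'
    have hle := h2.length_le
    have e : M.take n = x := by
      obtain ⟨t, rfl⟩ := h2
      rw [← hc1]; simp
    have e' : M.drop (M.length - n) = y := by
      obtain ⟨t, rfl⟩ := h5
      rw [List.length_append, hc2]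
      simp
    exact ⟨w, w', Q0, M, P1, by rw [e]; exact h3, h1, by omega, by rw [e']; exact h4, rfl⟩

/-- words from an anchor (value `v`) to a left-legal cut -/
def TL (n : ℕ) (Z : Set (List α)) (ζ : List α → V → V) (Lf : List α → V → Prop) (v : V)
    (u : List α) : Prop := ∃ P w', Lf P w' ∧ Pth n Z ζ u v P w'

theorem TL_EL {Z : Set (List α)} {ζ : List α → V → V}
    (hX : ∀ v v', ∀ u ∈ X v v', n ≤ u.length ∧ Pth n Z ζ u v (u.drop (u.length - n)) v')
    {v : V} {u : List α} (h : u ∈ EL n Lf X v) : TL n Z ζ Lf v u := by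
  obtain ⟨w', M, P1, h1, h2, h3, rfl⟩ := h
  exact ⟨_, w', h3, (hX _ _ _ h1).2.append P1⟩

theorem junction {Z : Set (List α)} {ζ : List α → V → V}
    (ex : ∀ P v Q v', Lf P v → Rt Q v' → P ++ Q ∈ Z ∧ ζ (P ++ Q) v = v')
    {v w w' : V} {u P Q0 M x : List α} (hP : Lf P w') (hu : Pth n Z ζ u v P w')
    (hn : n ≤ M.length) (hR : Rt (Q0 ++ M.take n) w) :
    Pth n Z ζ (u ++ (Q0 ++ M ++ x)) v (M ++ x) w := by
  obtain ⟨hz, he⟩ := ex _ _ _ _ hP hR
  refine (hu.append (Q0 ++ M ++ x)).trans ?_
  have e : P ++ (Q0 ++ M ++ x) = (P ++ (Q0 ++ M.take n)) ++ (M.drop n ++ x) := by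
    conv_lhs => rw [← List.take_append_drop n M]
    simp only [List.append_assoc]
  have h1 := Pth.one (n := n) (ζ := ζ) (x := M.drop n ++ x) hz w'
  rw [← e, he] at h1
  have e2 : (P ++ (Q0 ++ M ++ x)).drop ((P ++ (Q0 ++ M.take n)).length - n) = M ++ x := by
    have : (P ++ (Q0 ++ M.take n)).length - n = (P ++ Q0).length := by
      simp only [List.length_append, List.length_take]; omega
    rw [this, show P ++ (Q0 ++ M ++ x) = (P ++ Q0) ++ (M ++ x) by simp only [List.append_assoc]]
    simp
  rwa [e2] at h1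

theorem TL_KL {Z : Set (List α)} {ζ : List α → V → V}
    (hX : ∀ v v', ∀ u ∈ X v v', n ≤ u.length ∧ Pth n Z ζ u v (u.drop (u.length - n)) v')
    (ex : ∀ P v Q v', Lf P v → Rt Q v' → P ++ Q ∈ Z ∧ ζ (P ++ Q) v = v')
    {v : V} {u y : List α} (h : TL n Z ζ Lf v u) (hy : y ∈ KL n Lf Rt X) :
    TL n Z ζ Lf v (u ++ y) := by
  obtain ⟨P, w0, hP, hu⟩ := h
  obtain ⟨w, w', Q0, M, P1, h1, h2, h3, h4, rfl⟩ := hy
  exact ⟨_, w', h4, (junction ex hP hu h3 h1).trans ((hX _ _ _ h2).2.append P1)⟩

theorem TL_star {Z : Set (List α)} {ζ : List α → V → V}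
    (hX : ∀ v v', ∀ u ∈ X v v', n ≤ u.length ∧ Pth n Z ζ u v (u.drop (u.length - n)) v')
    (ex : ∀ P v Q v', Lf P v → Rt Q v' → P ++ Q ∈ Z ∧ ζ (P ++ Q) v = v')
    {v : V} (L : List (List α)) (hL : ∀ y ∈ L, y ∈ KL n Lf Rt X) :
    ∀ {u : List α}, TL n Z ζ Lf v u → TL n Z ζ Lf v (u ++ L.flatten) := by
  induction L with
  | nil => intro u h; simpa using h
  | cons y L ih =>
    intro u h
    have h1 := ih (fun z hz => hL z (List.mem_cons_of_mem _ hz))
      (TL_KL hX ex h (hL y List.mem_cons_self))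
    rw [List.append_assoc] at h1
    simpa using h1

/-- the new languages -/
def YL (n : ℕ) (Lf Rt : List α → V → Prop) (X : V → V → Language α) (v v' : V) : Language α :=
  X v v' + EL n Lf X v * (KStar.kstar (KL n Lf Rt X) * FL n Rt X v')

theorem YL_sound {Z : Set (List α)} {ζ : List α → V → V}
    (hX : ∀ v v', ∀ u ∈ X v v', n ≤ u.length ∧ Pth n Z ζ u v (u.drop (u.length - n)) v')
    (ex : ∀ P v Q v', Lf P v → Rt Q v' → P ++ Q ∈ Z ∧ ζ (P ++ Q) v = v')
    {v v' : V} {u : List α} (h : u ∈ YL n Lf Rt X v v') :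
    n ≤ u.length ∧ Pth n Z ζ u v (u.drop (u.length - n)) v' := by
  rcases h with h | h
  · exact hX _ _ _ h
  · obtain ⟨e, he, g, hg, rfl⟩ := Language.mem_mul.1 h
    obtain ⟨s, hs, f, hf, rfl⟩ := Language.mem_mul.1 hg
    obtain ⟨L, rfl, hL⟩ := Language.mem_kstar.1 hs
    obtain ⟨P, w0, hP, hu⟩ := TL_star hX ex L hL (TL_EL hX he)
    obtain ⟨w, Q0, M, h1, h2, h3, rfl⟩ := hf
    have h4 := junction (x := []) ex hP hu h3 h1
    simp only [List.append_nil] at h4
    have h5 := h4.trans (hX _ _ _ h2).2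
    rw [List.append_assoc] at h5
    have e1 : (e ++ (L.flatten ++ (Q0 ++ M))).drop ((e ++ (L.flatten ++ (Q0 ++ M))).length - n) =
        M.drop (M.length - n) := by
      have : e ++ (L.flatten ++ (Q0 ++ M)) = (e ++ L.flatten ++ Q0) ++ M := by
        simp only [List.append_assoc]
      rw [this, List.length_append, List.drop_append]
      have h6 : (e ++ L.flatten ++ Q0).drop ((e ++ L.flatten ++ Q0).length + M.length - n) = [] := by
        apply List.drop_eq_nil_of_le; omega
      rw [h6, List.nil_append]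
      congr 1
      omega
    refine ⟨by simp only [List.length_append]; omega, ?_⟩
    rw [e1]
    exact h5

end star

end Crest.Agent.R320.Sand_748

namespace Crest.Agent.R320.Sand_748

open Crest.RegLang Crest.Agent.R320.Hk_851

universe u

variable {α : Type u} {Ω V : Type*} {n k : ℕ}

section compl

variable {Lf Rt : List α → V → Prop} {X : V → V → Language α} {D C : Set (List α)}
  {ζ : List α → V → V}

/-- true `D`-chains from an anchor (value `v`) to a left-legal cut -/
def TD (n : ℕ) (D : Set (List α)) (ζ : List α → V → V) (Lf : List α → V → Prop) (v : V)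
    (u : List α) : Prop := ∃ P w', Lf P w' ∧ n ≤ P.length ∧ Pth n D ζ u v P w'

theorem TD_split (hXl : ∀ v v', ∀ u, n ≤ u.length → Pth n D ζ u v (u.drop (u.length - n)) v' →
      u ∈ X v v') {v : V} {e : List α} (h : TD n D ζ Lf v e) :
    ∃ w' M P1, M ∈ X v w' ∧ n ≤ M.length ∧ Lf (M.drop (M.length - n) ++ P1) w' ∧ e = M ++ P1 := by
  obtain ⟨P, w', hP, hn, hp⟩ := h
  have hc : (P.take n).length = n := by rw [List.length_take]; omega
  obtain ⟨M, hM, hp'⟩ := hp.restrict (P.take n) (P.drop n) hc (List.take_append_drop n P).symm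
  have hle : n ≤ M.length := by
    have := hp'.suffix.length_le
    omega
  have hsuf : M.drop (M.length - n) = P.take n := by
    obtain ⟨t, ht⟩ := hp'.suffix
    rw [← ht, List.length_append, hc]
    simp
  refine ⟨w', M, P.drop n, hXl _ _ _ hle (by rw [hsuf]; exact hp'), hle, ?_, hM⟩
  rw [hsuf, List.take_append_drop]
  exact hP

theorem TD_cons {z v : List α} {a : V} {e g : List α} (hz : z ∈ D) (hp : z <+: v)
    (hln : n < z.length)
    (he : v.drop (z.length - n) = e ++ g) (h : TD n D ζ Lf (ζ z a) e) :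
    TD n D ζ Lf a (v.take (z.length - n) ++ e) := by
  obtain ⟨P, w', hP, hn, hpp⟩ := h
  have hne : n ≤ e.length := hn.trans hpp.suffix.length_le
  have hlz := hp.length_le
  have htl : (v.take (z.length - n)).length = z.length - n := by
    rw [List.length_take]; omega
  refine ⟨P, w', hP, hn, .cons z _ _ _ _ hz ?_ ?_⟩
  · have h1 : v.take (z.length - n) ++ e <+: v := by
      refine ⟨g, ?_⟩
      rw [List.append_assoc, ← he, List.take_append_drop]
    refine List.prefix_of_prefix_length_le hp h1 ?_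
    rw [List.length_append, htl]; omega
  · have : (v.take (z.length - n) ++ e).drop (z.length - n) = e := by
      conv_lhs => rw [← htl]
      simp
    rw [this]
    exact hpp

theorem complete
    (hD : ∀ z ∈ D, n < z.length) (hC : ∀ z ∈ C, n < z.length)
    (hXl : ∀ v v', ∀ u, n ≤ u.length → Pth n D ζ u v (u.drop (u.length - n)) v' → u ∈ X v v')
    (lenL : ∀ P v, Lf P v → n ≤ P.length) (lenR : ∀ Q v, Rt Q v → n ≤ Q.length)
    (ex : ∀ z ∈ C, ∀ P v Q v', P ++ Q = z → Lf P v → Rt Q v' → ζ (P ++ Q) v = v')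
    (compl : ∀ z ∈ C, ∀ v, ∃ P Q v', P ++ Q = z ∧ Lf P v ∧ Rt Q v')
    {v s : List α} {a b : V} (h : Pth n (D ∪ C) ζ v a s b) (hs : s.length = n) :
    (n ≤ v.length ∧ Pth n D ζ v a (v.drop (v.length - n)) b) ∨
      ∃ e g, v = e ++ g ∧ TD n D ζ Lf a e ∧
        g ∈ KStar.kstar (KL n Lf Rt X) * FL n Rt X b := by
  induction h with
  | nil v a =>
    left
    refine ⟨hs.ge, ?_⟩
    rw [hs, Nat.sub_self, List.drop_zero]
    exact .nil _ _
  | cons z v a s b hz hp h ih =>
    have hlz := hp.length_le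
    have hln : n < z.length := by
      rcases hz with hz | hz
      · exact hD z hz
      · exact hC z hz
    have htl : (v.take (z.length - n)).length = z.length - n := by
      rw [List.length_take]; omega
    by_cases hzD : z ∈ D
    · rcases ih hs with ⟨h1, h2⟩ | ⟨e, g, h1, h2, h3⟩
      · left
        refine ⟨by omega, .cons z _ _ _ _ hzD hp ?_⟩
        have e1 : v.drop (v.length - n) =
            (v.drop (z.length - n)).drop ((v.drop (z.length - n)).length - n) := by
          rw [List.drop_drop, List.length_drop]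
          congr 1
          rw [List.length_drop] at h1
          omega
        rw [e1]; exact h2
      · right
        exact ⟨v.take (z.length - n) ++ e, g, by rw [List.append_assoc, ← h1, List.take_append_drop],
          TD_cons hzD hp hln h1 h2, h3⟩
    · have hzC : z ∈ C := hz.resolve_left hzD
      obtain ⟨P, Q, w, hPQ, hP, hQ⟩ := compl z hzC a
      have hval := ex z hzC P a Q w hPQ hP hQ
      have hlP := lenL _ _ hP
      have hlQ := lenR _ _ hQ
      have hlen : P.length + Q.length = z.length := by rw [← hPQ, List.length_append]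
      obtain ⟨t, rfl⟩ := hp
      -- `Q = Q0 ++ c`
      set rest := (z ++ t).drop (z.length - n) with hrest
      have hQd : Q = Q.take (Q.length - n) ++ Q.drop (Q.length - n) :=
        (List.take_append_drop _ _).symm
      have hlc : (Q.drop (Q.length - n)).length = n := by rw [List.length_drop]; omega
      have hzt : z ++ t = P ++ (Q.take (Q.length - n) ++ (Q.drop (Q.length - n) ++ t)) := by
        rw [← List.append_assoc (Q.take _), List.take_append_drop, ← List.append_assoc, hPQ]
      have hrest2 : rest = Q.drop (Q.length - n) ++ t := by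
        rw [hrest, hzt, ← List.append_assoc P]
        have : z.length - n = (P ++ Q.take (Q.length - n)).length := by
          rw [List.length_append, List.length_take]; omega
        rw [this]; simp
      have htk : ∀ M y : List α, rest = M ++ y → n ≤ M.length → M.take n = Q.drop (Q.length - n) := by
        intro M y hM hnM
        have h1 : (M ++ y).take n = (Q.drop (Q.length - n) ++ t).take n := by rw [← hM, hrest2]
        rw [List.take_append_of_le_length hnM] at h1
        rw [h1]; exact List.take_left' hlc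
      right
      rw [hPQ] at hval
      rw [hval] at ih
      refine ⟨P, Q.take (Q.length - n) ++ rest, by rw [hzt, hrest2], ⟨P, a, hP, hlP, .nil _ _⟩, ?_⟩
      rcases ih hs with ⟨h1, h2⟩ | ⟨e, g, h1, h2, h3⟩
      · refine Language.mem_mul.2 ⟨[], Language.mem_kstar.2 ⟨[], rfl, by simp⟩, _, ?_, rfl⟩
        refine ⟨w, Q.take (Q.length - n), rest, ?_, hXl _ _ _ h1 h2, h1, rfl⟩
        rw [htk rest [] (by simp) h1, List.take_append_drop]
        exact hQ
      · obtain ⟨s1, hs1, f, hf, rfl⟩ := Language.mem_mul.1 h3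
        obtain ⟨L, rfl, hL⟩ := Language.mem_kstar.1 hs1
        obtain ⟨w', M, P1, m1, m2, m3, rfl⟩ := TD_split hXl h2
        refine Language.mem_mul.2 ⟨(Q.take (Q.length - n) ++ M ++ P1) ++ L.flatten,
          Language.mem_kstar.2 ⟨(Q.take (Q.length - n) ++ M ++ P1) :: L, rfl, ?_⟩, f, hf, ?_⟩
        · intro y hy
          rcases List.mem_cons.1 hy with rfl | hy
          · refine ⟨w, w', Q.take (Q.length - n), M, P1, ?_, m1, m2, m3, rfl⟩
            rw [htk M (P1 ++ (L.flatten ++ f)) (by rw [h1]; simp only [List.append_assoc]) m2,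
              List.take_append_drop]
            exact hQ
          · exact hL y hy
        · rw [h1]; simp only [List.append_assoc]

end compl

/-- **Step.** A scheme exact everywhere, complete on `C`. -/
theorem step [Finite α] [Finite V] {Z D C : Set (List α)} {ζ : List α → V → V} {j : ℕ}
    (hZ : ∀ z ∈ Z, n < z.length) (hDZ : D ⊆ Z) (hCZ : C ⊆ Z) (S : Sch n Z C ζ j) (hj : j ≤ k)
    (h : Sand n Z D ζ k) : Sand n Z (D ∪ C) ζ (k + 1) := by
  choose X hX hXl hXu using h
  intro v v'
  have hL : ∀ v, HL k ({P | S.Lf P v} : Language α) := fun v => (S.hL v).mono hj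
  have hR : ∀ v, HL k ({P | S.Rt P v} : Language α) := fun v => (S.hR v).mono hj
  refine ⟨YL n S.Lf S.Rt X v v', ?_, ?_, ?_⟩
  · exact ((hX v v').mono (Nat.le_succ k)).add (((EL_HL hX hL v).mono (Nat.le_succ k)).mul
      ((KL_HL hX hL hR).star.mul ((FL_HL hX hR v').mono (Nat.le_succ k))))
  · intro u hu hp
    have hs : (u.drop (u.length - n)).length = n := by rw [List.length_drop]; omega
    rcases complete (X := X) (fun z hz => hZ z (hDZ hz)) (fun z hz => hZ z (hCZ hz))
      (fun v v' u h1 h2 => hXl v v' u h1 h2)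
      S.lenL S.lenR (fun z _ P v Q v' _ h1 h2 => (S.exact P v Q v' h1 h2).2) S.compl hp hs with
      h1 | ⟨e, g, h1, h2, h3⟩
    · exact Or.inl (hXl _ _ _ h1.1 h1.2)
    · right
      refine Language.mem_mul.2 ⟨e, ?_, g, h3, h1.symm⟩
      obtain ⟨w', M, P1, m1, m2, m3, rfl⟩ := TD_split (fun v v' u h1 h2 => hXl v v' u h1 h2) h2
      exact ⟨w', M, P1, m1, m2, m3, rfl⟩
  · intro u hu
    exact YL_sound (fun v v' u hu => hXu v v' u hu) S.exact hu

end Crest.Agent.R320.Sand_748
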