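import Crest.Agent.R320.Zone132_898

/-!
# Row 320, plan #13168, G2 / G3: common definitions (131 #13123 literal form)

`Par`: outer rule `Ro`, small rule `Rs`, comb modulus `q`, `p0 = |X|`, thresholds `th` indexed by
residues mod `q`, base `z = p0 + q * ze`, window of scheme 1 = `Nq` teeth, buffer `Bm`, levels
`A 0 .. A m`, cell length `M`, exceptional primes `Ms`.

`NN p y` = next anchor (threshold rule of 132 #12664 (2)), `Bad p y` = (E) or (B) or (D),
`nuXY` = noise of both gadgets, `zm` = zone map, `SC`, `CP` = the four buffer statements.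
-/

namespace Crest.Agent.R320.Sc0_898

open Crest.Agent.R320.Zone132_898

variable {α S V : Type*}

/-- parameters of the chain rule -/
structure Par (α : Type*) where
  /-- outer walls -/
  Ro : Rule α
  /-- small walls -/
  Rs : Rule α
  /-- comb modulus (`M'` of 132) -/
  q : ℕ
  /-- length of the first part `X` of a zone -/
  p0 : ℕ
  /-- base of the thresholds: `z = p0 + q * ze` -/
  ze : ℕ
  /-- thresholds, indexed by residues modulo `q` -/
  th : ℕ → ℕ
  /-- number of teeth of the window of scheme 1 -/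
  Nq : ℕ
  /-- buffer length -/
  Bm : ℕ
  /-- number of levels -/
  m : ℕ
  /-- levels (distance from `a + p0`) -/
  A : ℕ → ℕ
  /-- length of a cell in teeth, product of `Ms` -/
  M : ℕ
  /-- name moduli -/
  Ms : Finset ℕ

/-- the outer wall at distance `t` from the anchor qualifies -/
def Qual (p : Par α) (y : List α) (t : ℕ) : Prop :=
  p.Ro.R (y.drop t) ∧ p.p0 + p.q * p.ze + p.th ((t - p.p0) % p.q) ≤ t

open Classical in
/-- length of the zone that starts at the start of `y` -/
noncomputable def NN (p : Par α) (y : List α) : ℕ :=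
  if h : ∃ t, Qual p y t then Nat.find h else p.Bm

/-- (E): an outer wall in the threshold band -/
def Ebad (p : Par α) (y : List α) : Prop :=
  ∃ s, p.Ro.R (y.drop (p.p0 + s)) ∧ p.q * p.ze + p.th (s % p.q) ≤ s + p.q * p.Nq ∧
    s < p.q * p.ze + p.th (s % p.q) + p.q * p.Nq

/-- (B): a name modulus divides the number of teeth of the zone -/
def Bbad (p : Par α) (y : List α) : Prop := ∃ l ∈ p.Ms, l ∣ (NN p y - p.p0) / p.q

/-- (D): a small wall near a level -/
def Dbad (p : Par α) (y : List α) : Prop :=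
  ∃ k, k ≤ p.m ∧ ∃ t, p.A k ≤ t + p.q * p.M ∧ t < p.A k + p.q * p.M ∧
    p.Rs.R (y.drop (p.p0 + t))

/-- the zone is left to scheme 2 -/
def Bad (p : Par α) (y : List α) : Prop := Ebad p y ∨ Bbad p y ∨ Dbad p y

/-- noise of both gadgets -/
noncomputable def nuXY [Add V] (p : Par α) (phi : List α → S) (act : V → S → V)
    (nu1 nu2 : List α → V) (y : List α) : V :=
  act (nu2 (y.take p.p0)) (phi ((y.take (NN p y)).drop p.p0)) +
    nu1 ((y.take (NN p y)).drop p.p0)

/-- the zone map of 131 -/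
def zm [Add V] (N : List α → ℕ) (phi : List α → S) (act : V → S → V) (nu : List α → V)
    (y : List α) (v : V) : V :=
  act v (phi (y.take (N y))) + nu y

/-- (SC1) of 131 #13123 -/
def SC1 [Add V] (Cl : List α → Prop) (Bm D₁ : ℕ) (N : List α → ℕ) (phi : List α → S)
    (act : V → S → V) (nu : List α → V) (L₁ : List α → V → Prop)
    (R₁ : List α → Option (ℕ × V)) : Prop :=
  ∀ u r v d b, Cl (u ++ r) → u.length < Bm → r.length = D₁ → L₁ u v → R₁ r = some (d, b) →
    N ((u ++ r).take Bm) = u.length + d ∧ zm N phi act nu ((u ++ r).take Bm) v = b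

/-- (SC2) of 131 #13123 -/
def SC2 [Add V] (Cl : List α → Prop) (Bm D₂ p0 : ℕ) (Bad : List α → Prop) (N : List α → ℕ)
    (phi : List α → S) (act : V → S → V) (nu : List α → V) (L₂ : List α → V → Prop)
    (R₂ : List α → Option (ℕ × V)) : Prop :=
  ∀ u r v d b, Cl (u ++ r) → u.length ≤ p0 → r.length = D₂ → Bad ((u ++ r).take Bm) →
    L₂ u v → R₂ r = some (d, b) →
    N ((u ++ r).take Bm) = u.length + d ∧ zm N phi act nu ((u ++ r).take Bm) v = b

/-- (CP1) of 131 #13123 -/
def CP1 (Cl : List α → Prop) (Bm D₁ p0 : ℕ) (Bad : List α → Prop) (L₁ : List α → V → Prop)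
    (R₁ : List α → Option (ℕ × V)) : Prop :=
  ∀ t, Cl t → Bm + D₁ ≤ t.length → ¬ Bad (t.take Bm) →
    ∀ v, ∃ x, p0 ≤ x ∧ x < Bm ∧ L₁ (t.take x) v ∧ (R₁ ((t.drop x).take D₁)).isSome

/-- (CP2) of 131 #13123 -/
def CP2 (Cl : List α → Prop) (Bm D₂ q0 p0 : ℕ) (Bad : List α → Prop) (L₂ : List α → V → Prop)
    (R₂ : List α → Option (ℕ × V)) : Prop :=
  ∀ t, Cl t → Bm + D₂ ≤ t.length → Bad (t.take Bm) →
    ∀ v, ∃ x, q0 ≤ x ∧ x ≤ p0 ∧ L₂ (t.take x) v ∧ (R₂ ((t.drop x).take D₂)).isSome

end Crest.Agent.R320.Sc0_898
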