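import Mathlib
import Crest.Agent.R320.Sch1_420

/-!
Row 320, helper420: (SC1) and (CP1) of 131 #13123 (scheme 1 in buffers), from an abstract zone
gadget (`L`, `Rt`, `nu1` with sound / length / complete, e.g. 898's `exists_scheme` or `gadget1`)
and the outer threshold rule `Outer` (left-looking walls) of `Sch1_420`.
-/

set_option autoImplicit false
set_option linter.unusedSectionVars false

namespace Crest.Agent.R320.Sc1_420

open Crest.Agent.R320.Sch1_420

variable {α : Type*} {S V : Type*} [Monoid S] [AddCommGroup V]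

/-- the blocks form a prefix code -/
theorem XX_prefix {O : Outer α} {w : List α} {s t : ℕ} (hs : w.take s ∈ O.XX)
    (ht : w.take t ∈ O.XX) (hsw : s ≤ w.length) (htw : t ≤ w.length) : s = t := by
  have key : ∀ a b : ℕ, a ≤ w.length → b ≤ w.length → w.take a ∈ O.XX → w.take b ∈ O.XX →
      ¬ a < b := by
    intro a b ha hb h1 h2 hab
    obtain ⟨x1, x2, -⟩ := h1
    obtain ⟨-, -, x3⟩ := h2
    have hla : (w.take a).length = a := by rw [List.length_take]; omega
    have hlb : (w.take b).length = b := by rw [List.length_take]; omega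
    refine x3 a (by omega) ⟨?_, ?_⟩
    · rw [List.take_take, min_eq_left hab.le]; exact x1
    · rw [hla] at x2; exact x2
  rcases lt_trichotomy s t with h | h | h
  · exact absurd h (key s t hsw htw hs ht)
  · exact h
  · exact absurd h (key t s htw hsw ht hs)

open Classical in
/-- the next anchor, read in a buffer -/
noncomputable def Nn (O : Outer α) (y : List α) : ℕ :=
  if h : ∃ t, t ≤ y.length ∧ y.take t ∈ O.XX then Nat.find h else y.length

theorem Nn_eq {O : Outer α} {y : List α} {t : ℕ} (h1 : t ≤ y.length) (h2 : y.take t ∈ O.XX) :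
    Nn O y = t := by
  classical
  have h : ∃ t, t ≤ y.length ∧ y.take t ∈ O.XX := ⟨t, h1, h2⟩
  unfold Nn
  rw [dif_pos h]
  obtain ⟨h3, h4⟩ := Nat.find_spec h
  exact XX_prefix h4 h2 h3 h1

/-- the noise of a buffer: noise of scheme 2 on the first `p0` letters, moved, plus noise of
scheme 1 on the rest of the zone -/
noncomputable def nuB (O : Outer α) (φ : List α → S) (act : V → S → V) (nu1 nu2 : List α → V)
    (y : List α) : V :=
  act (nu2 (y.take O.p0)) (φ ((y.take (Nn O y)).drop O.p0)) + nu1 ((y.take (Nn O y)).drop O.p0)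

/-- left-legal for the token `v` -/
def L1 (O : Outer α) (φ : List α → S) (act : V → S → V) (nu2 : List α → V)
    (L : V → Set (List α)) (u : List α) (v : V) : Prop :=
  O.p0 ≤ u.length ∧ u.drop O.p0 ∈ L (act v (φ (u.take O.p0)) + nu2 (u.take O.p0))

open Classical in
/-- right reading: distance to the next anchor and value there -/
noncomputable def R1 (O : Outer α) (Rt : V → Set (List α)) (r : List α) : Option (ℕ × V) :=
  if h : ∃ p : ℕ × V, p.1 ≤ r.length ∧ r.take p.1 ∈ O.RB ∧ r.take p.1 ∈ Rt p.2 then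
    some h.choose else none

theorem R1_some {O : Outer α} {Rt : V → Set (List α)} {r : List α} {d : ℕ} {b : V}
    (h : R1 O Rt r = some (d, b)) : d ≤ r.length ∧ r.take d ∈ O.RB ∧ r.take d ∈ Rt b := by
  classical
  unfold R1 at h
  split_ifs at h with h1
  have h2 := h1.choose_spec
  rw [Option.some.injEq] at h
  rw [h] at h2
  exact h2

theorem R1_isSome {O : Outer α} {Rt : V → Set (List α)} {r : List α} {d : ℕ} {b : V}
    (h1 : d ≤ r.length) (h2 : r.take d ∈ O.RB) (h3 : r.take d ∈ Rt b) :
    (R1 O Rt r).isSome := by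
  classical
  unfold R1
  rw [dif_pos ⟨(d, b), h1, h2, h3⟩]
  rfl

/-- the hypotheses -/
structure Hyp (O : Outer α) (φ : List α → S) (act : V → S → V) (nu1 : List α → V)
    (L Rt : V → Set (List α)) (Cl Bad : List α → Prop) (Bm : ℕ) (Good : List α → Prop) : Prop where
  nopos : 0 < O.no
  hφ : ∀ u v, φ (u ++ v) = φ u * φ v
  actm : ∀ v s t, act (act v s) t = act v (s * t)
  acta : ∀ v w s, act (v + w) s = act v s + act w s
  sound : ∀ P Q v b, P ∈ L v → Q ∈ Rt b → b = act v (φ (P ++ Q)) + nu1 (P ++ Q)
  len : ∀ P v, P ∈ L v → O.q ∣ P.length ∧ P.length ≤ O.N1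
  comp : ∀ Z, Good Z → ∀ v, ∃ P Q, Z = P ++ Q ∧ P ∈ L v ∧ ∃ b, Q ∈ Rt b
  clp : ∀ x y, Cl (x ++ y) → Cl x
  bound : ∀ y, Cl y → y.length = Bm → ∃ t, t ≤ Bm ∧ y.take t ∈ O.XX
  bad : ∀ y, Cl y → y.length = Bm → ¬ Bad y →
    ¬ O.E (y.take (Nn O y)) ∧ Good ((y.take (Nn O y)).drop O.p0)

variable {O : Outer α} {φ : List α → S} {act : V → S → V} {nu1 nu2 : List α → V}
  {L Rt : V → Set (List α)} {Cl Bad : List α → Prop} {Bm : ℕ} {Good : List α → Prop}

/-- (SC1) of 131 #13123 -/
theorem SC1 (H : Hyp O φ act nu1 L Rt Cl Bad Bm Good) {D₁ : ℕ} (hD : Bm ≤ D₁)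
    {u r : List α} {v b : V} {d : ℕ} (hC : Cl (u ++ r)) (_hu : u.length < Bm)
    (hr : r.length = D₁) (hL : L1 O φ act nu2 L u v) (hR : R1 O Rt r = some (d, b)) :
    Nn O ((u ++ r).take Bm) = u.length + d ∧
      act v (φ (((u ++ r).take Bm).take (Nn O ((u ++ r).take Bm)))) +
        nuB O φ act nu1 nu2 ((u ++ r).take Bm) = b := by
  obtain ⟨hp, hL⟩ := hL
  obtain ⟨hd, hRB, hRt⟩ := R1_some hR
  obtain ⟨hdv, hN1⟩ := H.len _ _ hL
  rw [List.length_drop] at hdv hN1
  have hXX : u ++ r.take d ∈ O.XX := XX_of_RB hp (by omega) hdv hRB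
  have htk : (u ++ r).take (u.length + d) = u ++ r.take d := by
    rw [List.take_append, Nat.add_sub_cancel_left, List.take_of_length_le (by omega)]
  have hlen : (u ++ r).length = u.length + r.length := List.length_append
  -- the stop lies in the buffer
  have hB : ((u ++ r).take Bm).length = Bm := by rw [List.length_take]; omega
  have hClB : Cl ((u ++ r).take Bm) := H.clp _ ((u ++ r).drop Bm) (by
    rw [List.take_append_drop]; exact hC)
  obtain ⟨t, ht, htX⟩ := H.bound _ hClB hB
  rw [List.take_take, min_eq_left ht] at htX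
  have hte : t = u.length + d := XX_prefix htX (by rw [htk]; exact hXX) (by omega) (by omega)
  have hNn : Nn O ((u ++ r).take Bm) = u.length + d := by
    refine Nn_eq (by omega) ?_
    rw [List.take_take, min_eq_left (by omega), htk]
    exact hXX
  refine ⟨hNn, ?_⟩
  have hX : ((u ++ r).take Bm).take (Nn O ((u ++ r).take Bm)) = u ++ r.take d := by
    rw [hNn, List.take_take, min_eq_left (by omega), htk]
  have hp0 : ((u ++ r).take Bm).take O.p0 = u.take O.p0 := by
    rw [List.take_take, min_eq_left (by omega), List.take_append_of_le_length hp]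
  unfold nuB
  rw [hX, hp0, List.drop_append_of_le_length hp]
  have hs := H.sound _ _ _ _ hL hRt
  rw [hs, H.acta, H.actm, ← H.hφ]
  have : u.take O.p0 ++ (u.drop O.p0 ++ r.take d) = u ++ r.take d := by
    rw [← List.append_assoc, List.take_append_drop]
  rw [this]
  abel

/-- (CP1) of 131 #13123 -/
theorem CP1 (H : Hyp O φ act nu1 L Rt Cl Bad Bm Good) {D₁ : ℕ} (hD : Bm ≤ D₁)
    {t : List α} (hC : Cl t) (ht : Bm + D₁ ≤ t.length) (hbad : ¬ Bad (t.take Bm)) (v : V) :
    ∃ x, O.p0 ≤ x ∧ x < Bm ∧ L1 O φ act nu2 L (t.take x) v ∧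
      (R1 O Rt ((t.drop x).take D₁)).isSome := by
  have hB : (t.take Bm).length = Bm := by rw [List.length_take]; omega
  have hClB : Cl (t.take Bm) := H.clp _ (t.drop Bm) (by rw [List.take_append_drop]; exact hC)
  obtain ⟨b, hb, hbX⟩ := H.bound _ hClB hB
  have hNn : Nn O (t.take Bm) = b := Nn_eq (by omega) hbX
  obtain ⟨hE, hG⟩ := H.bad _ hClB hB hbad
  rw [hNn] at hE hG
  rw [List.take_take, min_eq_left hb] at hbX hE hG
  set X := t.take b with hXdef
  have hXl : X.length = b := by rw [hXdef, List.length_take]; omega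
  have h1 : O.p0 + O.N1 + O.no ≤ b := by
    have := O.thr_lb (X.length % O.q)
    have := hbX.2.1
    omega
  obtain ⟨P', Q, hPQ, hP', c, hQ⟩ := H.comp _ hG
    (act v (φ (X.take O.p0)) + nu2 (X.take O.p0))
  obtain ⟨hdv, hN1⟩ := H.len _ _ hP'
  have hX0 : (X.take O.p0).length = O.p0 := by rw [List.length_take]; omega
  have hXe : X = (X.take O.p0 ++ P') ++ Q := by
    rw [List.append_assoc, ← hPQ, List.take_append_drop]
  have hPl : (X.take O.p0 ++ P').length = O.p0 + P'.length := by
    rw [List.length_append, hX0]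
  have hXl2 : X.length = O.p0 + P'.length + Q.length := by
    conv_lhs => rw [hXe]
    rw [List.length_append, hPl]
  have hRB : Q ∈ O.RB := by
    refine RB_of_XX (P := X.take O.p0 ++ P') (by omega) (by omega) ?_ ?_ ?_
    · rw [hPl, Nat.add_sub_cancel_left]; exact hdv
    · rw [← hXe]; exact hbX
    · rw [← hXe]; exact hE
  have hE2 : O.thr (X.length % O.q) + O.N1 ≤ X.length := by
    unfold Outer.E at hE
    push Not at hE
    exact hE.1
  have hthr := O.thr_lb (X.length % O.q)
  have hno := hRB.2.1
  have hno2 := H.nopos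
  refine ⟨O.p0 + P'.length, by omega, by omega, ?_, ?_⟩
  · have e0 : t.take (O.p0 + P'.length) = X.take O.p0 ++ P' := by
      have : t.take (O.p0 + P'.length) = X.take (O.p0 + P'.length) := by
        rw [hXdef, List.take_take, min_eq_left (by omega)]
      rw [this]
      conv_lhs => rw [hXe]
      rw [List.take_append_of_le_length hPl.ge, List.take_of_length_le hPl.le]
    rw [e0]
    refine ⟨by omega, ?_⟩
    rw [List.drop_append_of_le_length hX0.ge, List.drop_of_length_le hX0.le, List.nil_append,
      List.take_append_of_le_length hX0.ge, List.take_of_length_le hX0.le]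
    exact hP'
  · have e1 : ((t.drop (O.p0 + P'.length)).take D₁).take Q.length = Q := by
      rw [List.take_take, min_eq_left (by omega)]
      have : t.drop (O.p0 + P'.length) = Q ++ t.drop b := by
        conv_lhs => rw [← List.take_append_drop b t]
        rw [← hXdef]
        conv_lhs => rw [hXe]
        rw [List.append_assoc, List.drop_append_of_le_length hPl.ge,
          List.drop_of_length_le hPl.le, List.nil_append]
      rw [this, List.take_append_of_le_length le_rfl, List.take_length]
    refine R1_isSome (d := Q.length) (b := c) ?_ ?_ ?_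
    · rw [List.length_take, List.length_drop]; omega
    · rw [e1]; exact hRB
    · rw [e1]; exact hQ

end Crest.Agent.R320.Sc1_420
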