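import Crest.Agent.R320.ZG1_478

/-!
# Row 320, G2 (helper478): (SC1) and (CP1) of 131 #13123 in the buffer form of 416's `SC2_416`

Everything is read on the text `T` from `a + p0` (416's view), `y = T.take BR` is the buffer.
-/

set_option autoImplicit false

namespace Crest.Agent.R320.Sc1_478

open Classical Crest.Agent.R320.ZG1_478

variable {α S V : Type*}

/-- qualifying wall -/
def Qual (Ro : List α → Prop) (M' : ℕ) (th : ℕ → ℕ) (T : List α) (t : ℕ) : Prop :=
  Ro (T.drop t) ∧ th (t % M') ≤ t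

/-- end of the zone -/
noncomputable def NR (Ro : List α → Prop) (M' : ℕ) (th : ℕ → ℕ) (T : List α) : ℕ :=
  if h : ∃ t, Qual Ro M' th T t then Nat.find h else 0

def EBad (Ro : List α → Prop) (M' : ℕ) (th : ℕ → ℕ) (N1 : ℕ) (T : List α) : Prop :=
  ∃ t, Ro (T.drop t) ∧ t < th (t % M') + N1 ∧ th (t % M') ≤ t + N1

def BBad (Ro : List α → Prop) (M' : ℕ) (th : ℕ → ℕ) (Ms : Finset ℕ) (T : List α) : Prop :=
  ∃ p ∈ Ms, p ∣ NR Ro M' th T / M'

def DBad (Rs : List α → Prop) (M' la m M : ℕ) (T : List α) : Prop :=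
  ∃ j, 1 ≤ j ∧ j ≤ m ∧ ∃ s, Rs (T.drop s) ∧ An M' la j < s + M' * M ∧ s < An M' la j + M' * M

def BadR (Ro Rs : List α → Prop) (M' la m M : ℕ) (th : ℕ → ℕ) (Ms : Finset ℕ)
    (T : List α) : Prop :=
  EBad Ro M' th (M' * (la * m)) T ∨ BBad Ro M' th Ms T ∨ DBad Rs M' la m M T

/-- right reading of the zone end -/
def RQ (Ro : List α → Prop) (no M' : ℕ) (th : ℕ → ℕ) (N1 BR : ℕ) (r : List α) (d : ℕ) : Prop :=
  Ro (r.drop d) ∧ th (d % M') ≤ d ∧ (∀ t' < d, Ro (r.drop t') → N1 + t' < th (t' % M')) ∧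
    N1 + d + no ≤ BR

theorem RQ.uniq {Ro : List α → Prop} {no M' : ℕ} {th : ℕ → ℕ} {N1 BR : ℕ} {r : List α} {d d' : ℕ}
    (h : RQ Ro no M' th N1 BR r d) (h' : RQ Ro no M' th N1 BR r d') : d = d' := by
  rcases Nat.lt_trichotomy d d' with hlt | hlt | hlt
  · have := h'.2.2.1 d hlt h.1
    have := h.2.1
    omega
  · exact hlt
  · have := h.2.2.1 d' hlt h'.1
    have := h'.2.1
    omega

section rule

variable {R : List α → Prop} {n : ℕ}

theorem rule_take (hR : IsRule R n) {T : List α} {B t : ℕ} (h : t + n ≤ B) :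
    R ((T.take B).drop t) ↔ R (T.drop t) := by
  rw [List.drop_take, hR.take_iff (T.drop t), hR.take_iff ((T.drop t).take (B - t)),
    List.take_take, Nat.min_eq_left (by omega)]

theorem rule_of_take (hR : IsRule R n) {T : List α} {B t : ℕ} (h : R ((T.take B).drop t)) :
    R (T.drop t) ∧ t + n ≤ B := by
  have h1 := hR.len _ h
  have hp := hR.pos
  rw [List.length_drop, List.length_take] at h1
  have h2 : t + n ≤ B := by omega
  exact ⟨(rule_take hR h2).1 h, h2⟩

end rule

section NRlem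

variable {Ro : List α → Prop} {no M' : ℕ} {th : ℕ → ℕ}

theorem NR_eq {T : List α} {t : ℕ} (h : Qual Ro M' th T t)
    (hmin : ∀ s < t, ¬ Qual Ro M' th T s) : NR Ro M' th T = t := by
  have hex : ∃ t, Qual Ro M' th T t := ⟨t, h⟩
  unfold NR
  rw [dif_pos hex]
  exact (Nat.find_eq_iff hex).2 ⟨h, hmin⟩

theorem NR_spec {T : List α} (hex : ∃ t, Qual Ro M' th T t) :
    Qual Ro M' th T (NR Ro M' th T) ∧ ∀ s < NR Ro M' th T, ¬ Qual Ro M' th T s := by
  unfold NR
  rw [dif_pos hex]
  exact ⟨Nat.find_spec hex, fun s hs => Nat.find_min hex hs⟩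

end NRlem

section main

variable [Monoid S] [AddCommGroup V]
variable (Ro Rs : List α → Prop) (ψ : List α → S)
variable (Lb : ℕ → S → List S → ℕ → Option V) (Rb : (ℕ → Option (List S × S)) → ℕ → Option V)
variable (D : ℕ → S → List S → S → V)
variable (no m M M' ga la BR : ℕ) (th : ℕ → ℕ)

/-- right label of scheme 1: distance to the zone end and value there -/
noncomputable def RR (r : List α) : Option (ℕ × V) :=
  if h : ∃ p : ℕ × V, RQ Ro no M' th (M' * (la * m)) BR r p.1 ∧
      R1 Rs ψ Rb m M M' ga la (r.take p.1) = some p.2 then some (choose h) else none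

/-- noise of scheme 1 as a function of the buffer -/
noncomputable def nuB (y : List α) : V :=
  nu1 Rs ψ D m M' la (y.take (NR Ro M' th y))

variable {Ro Rs ψ Lb Rb D no m M M' ga la BR th}

theorem RR_spec {r : List α} {d : ℕ} {b : V}
    (h : RR Ro Rs ψ Rb no m M M' ga la BR th r = some (d, b)) :
    RQ Ro no M' th (M' * (la * m)) BR r d ∧
      R1 Rs ψ Rb m M M' ga la (r.take d) = some b := by
  unfold RR at h
  split_ifs at h with hc
  have h1 := choose_spec hc
  rw [Option.some.inj h] at h1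
  exact h1

theorem RR_isSome {r : List α} {d : ℕ} (h1 : RQ Ro no M' th (M' * (la * m)) BR r d)
    (h2 : (R1 Rs ψ Rb m M M' ga la (r.take d)).isSome) :
    (RR Ro Rs ψ Rb no m M M' ga la BR th r).isSome := by
  obtain ⟨b, hb⟩ := Option.isSome_iff_exists.1 h2
  unfold RR
  rw [dif_pos ⟨(d, b), h1, hb⟩]
  rfl

/-- **(SC1)** in view form: `P` is the left word from `a + p0`, `r` the right word. -/
theorem sc1 {ns : ℕ} (hRo : IsRule Ro no) (hRs : IsRule Rs ns)
    (hψ : ∀ p q, ψ (p ++ q) = ψ p * ψ q) {act : V → S → V}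
    {Bad : ℕ → Prop} (hU : UG act m M Bad Lb Rb D) (hM' : 0 < M') (hla : ga + M ≤ la)
    (hth : ∀ ρ, M' * (la * m) ≤ th ρ)
    {P r : List α} {w : V} {d : ℕ} {b : V} (hr : BR ≤ (P ++ r).length)
    (hL : L1 Rs ψ Lb m M M' ga la P = some w)
    (hR : RR Ro Rs ψ Rb no m M M' ga la BR th r = some (d, b)) :
    NR Ro M' th ((P ++ r).take BR) = P.length + d ∧
      act w (ψ (((P ++ r).take BR).take (NR Ro M' th ((P ++ r).take BR)))) +
        nuB Ro Rs ψ D m M' la th ((P ++ r).take BR) = b := by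
  obtain ⟨⟨q1, q2, q3, q4⟩, hb⟩ := RR_spec hR
  obtain ⟨om, hP, hom⟩ := L1_window hla hL
  have hPN : P.length ≤ M' * (la * m) := by
    rw [hP]; exact Nat.mul_le_mul_left _ hom.le
  have hmod : ∀ t', (P.length + t') % M' = t' % M' := by
    intro t'
    rw [hP, Nat.mul_add_mod]
  have hN : NR Ro M' th ((P ++ r).take BR) = P.length + d := by
    apply NR_eq
    · constructor
      · rw [rule_take hRo (by omega), drop_app_ge (by omega)]
        have : P.length + d - P.length = d := by omega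
        rw [this]; exact q1
      · rw [hmod]; omega
    · rintro s hs ⟨h1, h2⟩
      have h3 := (rule_of_take hRo h1).1
      rcases Nat.lt_or_ge s P.length with h4 | h4
      · have := hth (s % M')
        omega
      · rw [drop_app_ge h4] at h3
        have h5 := q3 (s - P.length) (by omega) h3
        have h6 := hmod (s - P.length)
        have h7 : P.length + (s - P.length) = s := by omega
        rw [h7] at h6
        rw [h6] at h2
        omega
  refine ⟨hN, ?_⟩
  have htake : ((P ++ r).take BR).take (P.length + d) = P ++ r.take d := by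
    rw [List.take_take, Nat.min_eq_left (by omega), List.take_append]
    have e : P.length + d - P.length = d := by omega
    rw [e, List.take_of_length_le (by omega)]
  unfold nuB
  rw [hN, htake]
  exact (sound hRs hψ hU hM' hla hL hb).symm

/-- **(CP1)** in view form. -/
theorem cp1 {ns Go Gs Th : ℕ} (hRo : IsRule Ro no) (hRs : IsRule Rs ns) {act : V → S → V}
    {Ms : Finset ℕ} (hU : UG act m M (fun T => ∃ p ∈ Ms, p ∣ T) Lb Rb D) (hM' : 0 < M')
    (hla : ga + M ≤ la) (hga : Gs + ns ≤ M' * ga)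
    (hth1 : ∀ ρ, M' * (la * (m + 1)) ≤ th ρ) (hth2 : ∀ ρ, An M' la m + Gs + ns ≤ th ρ)
    (hth3 : ∀ ρ, th ρ ≤ Th) (hBR : M' * (la * m) + Th + Go + no ≤ BR)
    {D1 : ℕ} (hD1 : BR ≤ D1) {T : List α} (hT : BR ≤ T.length)
    (hwo : ∃ t, Th ≤ t ∧ t < Th + Go ∧ Ro (T.drop t))
    (hws : ∀ j ≤ m, ∃ s, An M' la j ≤ s ∧ s < An M' la j + Gs ∧ Rs (T.drop s))
    (hbad : ¬ BadR Ro Rs M' la m M th Ms (T.take BR)) (w : V) :
    ∃ om, M' * om < M' * (la * m) ∧ L1 Rs ψ Lb m M M' ga la (T.take (M' * om)) = some w ∧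
      (RR Ro Rs ψ Rb no m M M' ga la BR th ((T.drop (M' * om)).take D1)).isSome := by
  set y := T.take BR with hy
  unfold BadR at hbad
  push Not at hbad
  obtain ⟨hE, hB, hDb⟩ := hbad
  -- the zone end
  obtain ⟨t0, t1, t2, t3⟩ := hwo
  have hex : ∃ t, Qual Ro M' th y t := by
    refine ⟨t0, (rule_take hRo (by omega)).2 t3, ?_⟩
    exact le_trans (hth3 _) t1
  obtain ⟨⟨n1, n2⟩, n3⟩ := NR_spec hex
  set N := NR Ro M' th y with hN
  have hN0 : N ≤ t0 := by
    by_contra hc
    exact n3 t0 (by omega) ⟨(rule_take hRo (by omega)).2 t3, le_trans (hth3 _) t1⟩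
  have hNth := hth1 (N % M')
  have hNth2 := hth2 (N % M')
  have hNE : th (N % M') + M' * (la * m) ≤ N := by
    by_contra hc
    exact hE ⟨N, n1, by omega, by omega⟩
  -- the zone content
  set Y := T.take N with hY
  have hYl : Y.length = N := by rw [hY, List.length_take]; omega
  have hws' : ∀ j ≤ m, ∃ s, An M' la j ≤ s ∧ s < An M' la j + Gs ∧ Rs (Y.drop s) := by
    intro j hj
    obtain ⟨s, s1, s2, s3⟩ := hws j hj
    have : An M' la j ≤ An M' la m := An_mono hj
    exact ⟨s, s1, s2, (rule_take hRs (by omega)).2 s3⟩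
  have hbY : ¬ ∃ p ∈ Ms, p ∣ Y.length / M' := by
    rw [hYl]
    exact hB
  have hDY : ∀ j, 1 ≤ j → j ≤ m → ∀ s, An M' la j < s + M' * M → s < An M' la j + M' * M →
      ¬ Rs (Y.drop s) := by
    intro j j1 j2 s s1 s2 s3
    obtain ⟨r1, r2⟩ := rule_of_take hRs s3
    apply hDb
    refine ⟨j, j1, j2, s, ?_, s1, s2⟩
    exact (rule_take hRs (by omega)).2 r1
  obtain ⟨om, h1, h2, h3, h4⟩ := complete (ψ := ψ) hRs hU hM' hla hga (by rw [hYl]; omega) hws' hbY
    hDY w
  rw [hYl] at h2
  have hx : M' * om < M' * (la * m) := Nat.mul_lt_mul_of_pos_left h1 hM'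
  refine ⟨om, hx, ?_, ?_⟩
  · rw [hY, List.take_take, Nat.min_eq_left h2] at h3
    exact h3
  · set x := M' * om with hxdef
    have hmod : ∀ t', (x + t') % M' = t' % M' := by
      intro t'
      rw [hxdef, Nat.mul_add_mod]
    have hdrop : ∀ t', t' + no ≤ D1 →
        (Ro (((T.drop x).take D1).drop t') ↔ Ro (T.drop (x + t'))) := by
      intro t' ht'
      rw [rule_take hRo ht', List.drop_drop]
    apply RR_isSome (d := N - x)
    · refine ⟨?_, ?_, ?_, ?_⟩
      · rw [hdrop _ (by omega)]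
        have : x + (N - x) = N := by omega
        rw [this]
        exact (rule_of_take hRo n1).1
      · have e := hmod (N - x)
        have e2 : x + (N - x) = N := by omega
        rw [e2] at e
        rw [← e]
        omega
      · intro t' ht' hw
        rw [hdrop _ (by omega)] at hw
        have hw' : Ro (y.drop (x + t')) := (rule_take hRo (by omega)).2 hw
        have e := hmod t'
        have hnq : ¬ th ((x + t') % M') ≤ x + t' := fun h => n3 (x + t') (by omega) ⟨hw', h⟩
        have hnE : ¬ (x + t' < th ((x + t') % M') + M' * (la * m) ∧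
            th ((x + t') % M') ≤ x + t' + M' * (la * m)) := fun h => hE ⟨x + t', hw', h.1, h.2⟩
        rw [e] at hnq hnE
        omega
      · omega
    · have e : ((T.drop x).take D1).take (N - x) = Y.drop x := by
        rw [List.take_take, Nat.min_eq_left (by omega), hY, List.drop_take]
      rw [e]
      exact h4

end main

end Crest.Agent.R320.Sc1_478
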