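import Crest.Agent.R320.Zone132_898
import Crest.Agent.R320.WallSch_870

/-!
# Row 320, (SC1) + (CP1) of 131 #13123 from 898's zone gadget and 870's wall scheme (helper575)

The zone of an anchor is `X ++ Y`, `|X| = p0`; scheme 1 cuts in `Y`, at the comb places
`p0 + q * om`.  `N y` = the distance to the next anchor (132's threshold rule), read on the buffer
`y` of length `Bm = z + Sb + G + n`.  The noise is the noise of BOTH schemes (118 #13043):
`nu y = act (nu2 X) (phi Y) + nu1 Y`.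
-/

set_option autoImplicit false

namespace Crest.Agent.R320.Sc1_575

open Crest.Agent.R320.Zone132_898 Crest.Agent.R320.WallSch_870

variable {α S V W : Type*} [Monoid S] [AddCommGroup V] [AddCommGroup W]

/-- parameters of the outer chain for the zone gadget `D` -/
structure Outer (D : Data α S V W) where
  /-- outer wall rule -/
  ro : Rule α
  p0 : ℕ
  z : ℕ
  /-- bound of the thresholds -/
  Sb : ℕ
  /-- gap bound of the outer walls -/
  G : ℕ
  th : ℤ → ℤ
  /-- number of comb steps of the window of scheme 1 -/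
  K : ℕ
  hthlo : ∀ r, -(Sb : ℤ) ≤ th r
  hthhi : ∀ r, th r ≤ Sb
  hz : p0 + D.q * K + Sb < z
  hK : ∀ i, i < D.m → D.lo i + D.M ≤ K

namespace Outer

variable {D : Data α S V W} (O : Outer D)

/-- buffer length -/
def Bm : ℕ := O.z + O.Sb + O.G + O.ro.n

/-- a wall at distance `t` qualifies as the next anchor -/
def Ok (t : ℕ) : Prop := Ok132 (O.z : ℤ) (D.q : ℤ) O.th t

/-- left-legal distances of scheme 1 -/
def LLd (o : ℕ) : Prop := LL132 O.p0 (D.q * O.K) (D.q : ℤ) o

open Classical in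
/-- distance to the next anchor -/
noncomputable def N (y : List α) : ℕ :=
  if h : ∃ t, Nx O.ro.R O.Ok y t then h.choose else y.length

theorem N_eq {y : List α} {t : ℕ} (h : Nx O.ro.R O.Ok y t) : O.N y = t := by
  have hex : ∃ t, Nx O.ro.R O.Ok y t := ⟨t, h⟩
  unfold N
  rw [dif_pos hex]
  exact Nx_uniq hex.choose_spec h

theorem Ok_ge {t : ℕ} (h : O.Ok t) : (O.z : ℤ) - O.Sb ≤ t := by
  have h1 := O.hthlo (((t : ℤ) - O.z) % (D.q : ℤ))
  unfold Ok Ok132 at h
  omega

theorem Ok_of_ge {t : ℕ} (h : O.z + O.Sb ≤ t) : O.Ok t := by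
  have h1 := O.hthhi (((t : ℤ) - O.z) % (D.q : ℤ))
  unfold Ok Ok132
  omega

theorem sep : ∀ s o, O.Ok s → O.LLd o → o < s := by
  refine sep132 (S := (O.Sb : ℤ)) O.hthlo ?_
  have := O.hz
  push_cast
  have h2 : ((O.p0 + D.q * O.K + O.Sb : ℕ) : ℤ) < (O.z : ℤ) := by exact_mod_cast this
  push_cast at h2
  linarith

theorem ro_take (Q : List α) : O.ro.R Q ↔ O.ro.R (Q.take O.ro.n) := O.ro.take_iff Q

theorem N_le (y : List α) : O.N y ≤ y.length := by
  unfold N
  split_ifs with h
  · have := R_drop_len O.ro.len h.choose_spec.1 O.ro.pos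
    omega
  · exact le_rfl

theorem N_ge (y : List α) (hy : y.length = O.Bm) : O.z - O.Sb ≤ O.N y := by
  unfold N
  split_ifs with h
  · have := O.Ok_ge h.choose_spec.2.1
    omega
  · rw [hy]; unfold Bm; omega

theorem N_pos (y : List α) (hy : y.length = O.Bm) : 0 < O.N y := by
  have h1 := O.N_ge y hy
  have h2 := O.hz
  omega

/-- the noise of both schemes, as a function of the buffer -/
noncomputable def nu (nu2 : List α → V) (y : List α) : V :=
  D.act (nu2 (y.take O.p0)) (D.phi ((y.take (O.N y)).drop O.p0)) +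
    D.nu ((y.take (O.N y)).drop O.p0)

/-- left legality of scheme 1 -/
def L1 (nu2 : List α → V) (u : List α) (v : V) : Prop :=
  O.LLd u.length ∧ D.LL (u.drop O.p0) (D.act v (D.phi (u.take O.p0)) + nu2 (u.take O.p0))

/-- right legality of scheme 1 as a relation -/
def R1p (r : List α) (p : ℕ × V) : Prop :=
  Fs O.ro.R O.Ok O.LLd r p.1 ∧ D.RR (r.take p.1) p.2

open Classical in
/-- right legality of scheme 1 -/
noncomputable def R1 (r : List α) : Option (ℕ × V) :=
  if h : ∃ p, O.R1p r p then some h.choose else none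

theorem R1_some {r : List α} {d : ℕ} {b : V} (h : O.R1 r = some (d, b)) : O.R1p r (d, b) := by
  unfold R1 at h
  split_ifs at h with h1
  have h2 := h1.choose_spec
  rw [Option.some.inj h] at h2
  exact h2

theorem R1_isSome {r : List α} {p : ℕ × V} (h : O.R1p r p) : (O.R1 r).isSome := by
  unfold R1
  rw [dif_pos ⟨p, h⟩]
  rfl

/-- failure mode (E) -/
def EBad (y : List α) : Prop :=
  ∃ s, s ≤ O.N y ∧ O.ro.R (y.drop s) ∧
    |(s : ℤ) - O.z - O.th (((s : ℤ) - O.z) % (D.q : ℤ))| ≤ ((D.q * O.K : ℕ) : ℤ)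

/-- failure mode (B) -/
def BBad (y : List α) : Prop := D.B ((O.N y - O.p0) / D.q)

/-- failure mode (D) -/
def DBad (y : List α) : Prop :=
  ∃ k, k ≤ D.m ∧ ∃ t, D.A k ≤ t + D.q * D.M ∧ t < D.A k + D.q * D.M ∧ D.r.R (y.drop (O.p0 + t))

def Bad (y : List α) : Prop := O.EBad y ∨ O.BBad y ∨ O.DBad y

/-- the next anchor of a run-free text is seen in the buffer -/
theorem exists_Nx_cl {Cl : List α → Prop}
    (hout : ∀ t, Cl t → ∀ s, s + O.G + O.ro.n ≤ t.length →
      ∃ i, s ≤ i ∧ i ≤ s + O.G ∧ O.ro.R (t.drop i))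
    {t : List α} (ht : Cl t) (hl : O.Bm ≤ t.length) :
    ∃ T, T + O.ro.n ≤ O.Bm ∧ Nx O.ro.R O.Ok t T := by
  unfold Bm at hl
  obtain ⟨i, h1, h2, h3⟩ := hout t ht (O.z + O.Sb) (by omega)
  obtain ⟨T, h4, h5⟩ := exists_Nx (R := O.ro.R) (Ok := O.Ok) h3 (O.Ok_of_ge h1)
  exact ⟨T, by unfold Bm; omega, h5⟩

theorem N_take {t : List α} {T : ℕ} (hT : T + O.ro.n ≤ O.Bm) (hN : Nx O.ro.R O.Ok t T)
    (hl : O.Bm ≤ t.length) : Nx O.ro.R O.Ok (t.take O.Bm) T := by
  have h := Nx_app (R := O.ro.R) (n := O.ro.n) (Ok := O.Ok) O.ro_take (Q := t.take O.Bm) (t := T)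
    (t.drop O.Bm) (by rw [List.length_take]; omega)
  rw [List.take_append_drop] at h
  exact h.1 hN

/-- **(SC1)** -/
theorem sc1 {Cl : List α → Prop}
    (hadd : ∀ a b s, D.act (a + b) s = D.act a s + D.act b s)
    (hmul : ∀ a s t, D.act a (s * t) = D.act (D.act a s) t)
    (hout : ∀ t, Cl t → ∀ s, s + O.G + O.ro.n ≤ t.length →
      ∃ i, s ≤ i ∧ i ≤ s + O.G ∧ O.ro.R (t.drop i))
    (h1 : D.N1) (h2 : D.N2) (nu2 : List α → V) {D1 : ℕ} (hD1 : O.Bm ≤ D1)
    {u r : List α} {v b : V} {d : ℕ} (hcl : Cl (u ++ r)) (hr : r.length = D1)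
    (hL : O.L1 nu2 u v) (hR : O.R1 r = some (d, b)) :
    O.N ((u ++ r).take O.Bm) = u.length + d ∧
      D.act v (D.phi (((u ++ r).take O.Bm).take (O.N ((u ++ r).take O.Bm)))) +
        O.nu nu2 ((u ++ r).take O.Bm) = b := by
  obtain ⟨hLd, hLL⟩ := hL
  obtain ⟨hFs, hRR⟩ := O.R1_some hR
  have hj := junc O.sep hLd hFs
  have hlen : O.Bm ≤ (u ++ r).length := by rw [List.length_append]; omega
  obtain ⟨T, hT, hN⟩ := O.exists_Nx_cl hout hcl hlen
  have hTT : T = u.length + d := Nx_uniq hN hj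
  subst hTT
  have hNe : O.N ((u ++ r).take O.Bm) = u.length + d := O.N_eq (O.N_take hT hN hlen)
  refine ⟨hNe, ?_⟩
  have htake : ((u ++ r).take O.Bm).take (u.length + d) = u ++ r.take d := by
    rw [List.take_take, min_eq_left (by omega), List.take_length_add_append]
  have hp0 : O.p0 ≤ u.length := hLd.1
  have hX : ((u ++ r).take O.Bm).take O.p0 = u.take O.p0 := by
    rw [List.take_take, min_eq_left (by have := O.hz; unfold Bm; omega),
      List.take_append_of_le_length hp0]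
  have hY : (u ++ r.take d).drop O.p0 = u.drop O.p0 ++ r.take d :=
    List.drop_append_of_le_length hp0
  unfold nu
  rw [hNe, htake, hX, hY]
  have hs : b = D.act (D.act v (D.phi (u.take O.p0)) + nu2 (u.take O.p0))
      (D.phi (u.drop O.p0 ++ r.take d)) + D.nu (u.drop O.p0 ++ r.take d) :=
    D.sound h1 h2 hLL hRR
  have hsplit : u ++ r.take d = u.take O.p0 ++ (u.drop O.p0 ++ r.take d) := by
    rw [← List.append_assoc, List.take_append_drop]
  rw [hs, hsplit, D.hphi (u.take O.p0) (u.drop O.p0 ++ r.take d), hmul, hadd, add_assoc]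

/-- **(CP1)** -/
theorem cp1 {Cl : List α → Prop}
    (hclf : ∀ a b c : List α, Cl (a ++ b ++ c) → Cl b)
    (hout : ∀ t, Cl t → ∀ s, s + O.G + O.ro.n ≤ t.length →
      ∃ i, s ≤ i ∧ i ≤ s + O.G ∧ O.ro.R (t.drop i))
    {Gs : ℕ}
    (hsm : ∀ t, Cl t → ∀ s, s + Gs + D.r.n ≤ t.length →
      ∃ i, s ≤ i ∧ i ≤ s + Gs ∧ D.r.R (t.drop i))
    (h3 : D.N3) (hF : D.Hides)
    (hlo : ∀ i, i < D.m → D.A i + Gs + D.r.n ≤ D.q * D.lo i)
    (hlev : O.p0 + D.A D.m + Gs + D.r.n + O.Sb ≤ O.z)
    (nu2 : List α → V) {D1 : ℕ} (hD1 : O.Bm ≤ D1)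
    {t : List α} (hcl : Cl t) (hl : O.Bm + D1 ≤ t.length) (hbad : ¬ O.Bad (t.take O.Bm)) (v : V) :
    ∃ x, O.p0 ≤ x ∧ x < O.Bm ∧ O.L1 nu2 (t.take x) v ∧ (O.R1 ((t.drop x).take D1)).isSome := by
  obtain ⟨T, hT, hN⟩ := O.exists_Nx_cl hout hcl (by omega)
  have hNt := O.N_take hT hN (by omega)
  have hNe := O.N_eq hNt
  have hTge := O.Ok_ge hN.2.1
  have hz := O.hz
  have hqK : 0 ≤ D.q * O.K := Nat.zero_le _
  have hTp : O.p0 + D.q * O.K < T := by omega
  unfold Bad at hbad
  push Not at hbad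
  obtain ⟨hE, hB, hDD⟩ := hbad
  set X := t.take O.p0 with hXdef
  set Y := (t.take T).drop O.p0 with hYdef
  have hYlen : Y.length = T - O.p0 := by
    rw [hYdef, List.length_drop, List.length_take]; omega
  have htXY : t = X ++ Y ++ t.drop T := by
    have : X = (t.take T).take O.p0 := by
      rw [hXdef, List.take_take, min_eq_left (by omega)]
    rw [this, hYdef, List.take_append_drop, List.take_append_drop]
  have hclY : Cl Y := hclf X Y (t.drop T) (htXY ▸ hcl)
  -- small walls of the levels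
  have hAm : ∀ k, k ≤ D.m → D.A k ≤ D.A D.m := fun k hk => D.monoA hk
  have hex : ∀ k, k ≤ D.m → ∃ H, FW D.r Y (D.A k) H ∧ H ≤ D.A k + Gs := by
    classical
    intro k hk
    obtain ⟨i, hi1, hi2, hi3⟩ := hsm Y hclY (D.A k) (by rw [hYlen]; have := hAm k hk; omega)
    have hex' : ∃ H, D.A k ≤ H ∧ D.r.R (Y.drop H) := ⟨i, hi1, hi3⟩
    refine ⟨Nat.find hex', ⟨(Nat.find_spec hex').1, (Nat.find_spec hex').2, ?_⟩,
      (Nat.find_min' hex' ⟨hi1, hi3⟩).trans hi2⟩
    intro t' ht1 ht2 ht3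
    exact Nat.find_min hex' ht2 ⟨ht1, ht3⟩
  choose! H hH1 hH2 using hex
  have hnear : ∀ k, k ≤ D.m → ∀ t', D.A k ≤ t' + D.q * D.M → t' < D.A k + D.q * D.M →
      ¬ D.r.R (Y.drop t') := by
    intro k hk t' ht1 ht2 ht3
    refine hDD ⟨k, hk, t', ht1, ht2, ?_⟩
    have hle : t' + D.r.n ≤ Y.length := by
      have h8 := D.r.len _ ht3
      have h9 := D.r.pos
      rw [List.length_drop] at h8
      omega
    have e1 : Y.drop t' = (t.take T).drop (O.p0 + t') := by
      rw [hYdef, List.drop_drop]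
    rw [e1] at ht3
    have e2 : t.take O.Bm = t.take T ++ (t.take O.Bm).drop T := by
      have : t.take T = (t.take O.Bm).take T := by
        rw [List.take_take, min_eq_left (by omega)]
      rw [this, List.take_append_drop]
    rw [e2]
    refine (R_left D.r ?_).2 ht3
    rw [List.length_take]
    omega
  have hBn : ¬ D.B (Y.length / D.q) := by
    intro hb
    apply hB
    unfold BBad
    rw [hNe]
    rwa [hYlen] at hb
  have hZ : ∀ i, i < D.m → D.q * (D.lo i + D.M) ≤ Y.length := by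
    intro i hi
    have h5 : D.q * (D.lo i + D.M) ≤ D.q * O.K := Nat.mul_le_mul_left _ (O.hK i hi)
    omega
  obtain ⟨P, Q, i, om, hPQ, him, hPl, hlo1, hlo2, hLL, b, hRR⟩ :=
    D.complete h3 hF hBn H hH1 hH2 hlo hnear hZ (D.act v (D.phi X) + nu2 X)
  have hom : D.q * om ≤ D.q * O.K := Nat.mul_le_mul_left _ (by have := O.hK i him; omega)
  have hPQl : P.length + Q.length = T - O.p0 := by rw [← hYlen, hPQ, List.length_append]
  have hXl : X.length = O.p0 := by rw [hXdef, List.length_take]; omega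
  have htx : t = (X ++ P) ++ (Q ++ t.drop T) := by
    rw [hPQ] at htXY
    simpa [List.append_assoc] using htXY
  have hxl : (X ++ P).length = O.p0 + P.length := by rw [List.length_append, hXl]
  have htake : t.take (O.p0 + P.length) = X ++ P := by
    conv_lhs => rw [htx]
    rw [← hxl, List.take_left]
  have hdrop : t.drop (O.p0 + P.length) = Q ++ t.drop T := by
    conv_lhs => rw [htx]
    rw [← hxl, List.drop_left]
  have hLd : O.LLd (O.p0 + P.length) := by
    refine ⟨by omega, by omega, ⟨(om : ℤ), ?_⟩⟩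
    rw [hPl]; push_cast; ring
  refine ⟨O.p0 + P.length, by omega, by omega, ?_, ?_⟩
  · rw [htake]
    refine ⟨by rw [hxl]; exact hLd, ?_⟩
    have e3 : (X ++ P).drop O.p0 = P := by rw [← hXl, List.drop_left]
    have e4 : (X ++ P).take O.p0 = X := by rw [← hXl, List.take_left]
    rw [e3, e4]
    exact hLL
  · have hN' : Nx O.ro.R O.Ok ((X ++ P) ++ (Q ++ t.drop T)) T := by rw [← htx]; exact hN
    obtain ⟨hle, hFs⟩ := Fs_of_notE (S := (O.Sb : ℤ)) (R := O.ro.R) (z := (O.z : ℤ))
      (M := (D.q : ℤ)) (th := O.th) (p := O.p0) (N := D.q * O.K) O.hthlo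
      (by
        have h6 : ((O.p0 + D.q * O.K + O.Sb : ℕ) : ℤ) < (O.z : ℤ) := by exact_mod_cast hz
        push_cast at h6 ⊢
        linarith) hN' (by rw [hxl]; exact hLd)
      (by
        intro s hs hRs
        by_contra hcon
        push Not at hcon
        apply hE
        refine ⟨s, by rw [hNe]; exact hs, ?_, hcon⟩
        rw [← htx] at hRs
        have e2 : t = t.take O.Bm ++ t.drop O.Bm := (List.take_append_drop _ _).symm
        rw [e2] at hRs
        exact (R_left O.ro (by rw [List.length_take]; omega)).1 hRs)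
    have hd : T - (X ++ P).length = Q.length := by rw [hxl]; omega
    rw [hd] at hFs
    refine O.R1_isSome (p := (Q.length, b)) ⟨?_, ?_⟩
    · rw [hdrop]
      have h7 := Fs_app (R := O.ro.R) (n := O.ro.n) (Ok := O.Ok) (LL := O.LLd) O.ro_take
        (Q := (Q ++ t.drop T).take D1) (t := Q.length) ((Q ++ t.drop T).drop D1)
        (by
          rw [List.length_take, ← hdrop, List.length_drop]
          omega)
      rw [List.take_append_drop] at h7
      exact h7.1 hFs
    · rw [hdrop]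
      change D.RR (((Q ++ t.drop T).take D1).take Q.length) b
      rw [List.take_take, min_eq_left (by omega), List.take_left]
      exact hRR

end Outer

end Crest.Agent.R320.Sc1_575
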