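import Crest.Agent.R320.Gad1_420

/-!
Row 320, helper679: (SC1) and (CP1) of helper131's interface (post 13123) over helper420's
`gadget1` : scheme 1 in the zone, outer walls with helper132's residue thresholds.
-/

set_option autoImplicit false
set_option linter.unusedSectionVars false

namespace Crest.Agent.R320.Sc1_679

open Finset Crest.Agent.R320.Gad1_420

variable {α : Type*}

/-- outer rule, comb and thresholds. -/
structure Outer (α : Type*) where
  Wo : List α → Prop
  no : ℕ
  M' : ℕ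
  p0 : ℕ
  N1 : ℕ
  th : ℕ → ℕ

structure Outer.Ok (O : Outer α) : Prop where
  rule : Rule O.Wo O.no
  big : ∀ r, O.p0 + O.N1 < O.th r

variable {O : Outer α}

/-- `e` = distance of the next anchor, read in the text `Z` right of `a + p0`. -/
def Outer.NZ (O : Outer α) (Z : List α) (e : ℕ) : Prop :=
  O.Wo (Z.drop e) ∧ O.th ((e + O.p0) % O.M') ≤ e + O.p0 ∧
    ∀ i < e, O.Wo (Z.drop i) → i + O.p0 < O.th ((i + O.p0) % O.M')

/-- the next anchor as certified from a cut place. -/
def Outer.NR (O : Outer α) (r : List α) (d : ℕ) : Prop :=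
  O.Wo (r.drop d) ∧ O.th ((d + O.p0) % O.M') ≤ d + O.p0 ∧
    ∀ i < d, O.Wo (r.drop i) → i + O.p0 + O.N1 < O.th ((i + O.p0) % O.M')

/-- failure mode (E). -/
def Outer.EB (O : Outer α) (Z : List α) (e : ℕ) : Prop :=
  ∃ i ≤ e, O.Wo (Z.drop i) ∧ i + O.p0 ≤ O.th ((i + O.p0) % O.M') + O.N1 ∧
    O.th ((i + O.p0) % O.M') ≤ i + O.p0 + O.N1

theorem NZ_unique {Z : List α} {e e' : ℕ} (h : O.NZ Z e) (h' : O.NZ Z e') : e = e' := by
  rcases lt_trichotomy e e' with h1 | h1 | h1
  · have := h'.2.2 e h1 h.1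
    have := h.2.1
    omega
  · exact h1
  · have := h.2.2 e' h1 h'.1
    have := h'.2.1
    omega

theorem NR_unique {Z : List α} {e e' : ℕ} (h : O.NR Z e) (h' : O.NR Z e') : e = e' := by
  rcases lt_trichotomy e e' with h1 | h1 | h1
  · have := h'.2.2 e h1 h.1
    have := h.2.1
    omega
  · exact h1
  · have := h.2.2 e' h1 h'.1
    have := h'.2.1
    omega

theorem NZ_fit (hO : O.Ok) {Z : List α} {e : ℕ} (h : O.NZ Z e) : e + O.no ≤ Z.length :=
  hO.rule.wall_fit h.1

theorem NZ_ext (hO : O.Ok) {Z : List α} {e : ℕ} (h : O.NZ Z e) (X : List α) :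
    O.NZ (Z ++ X) e := by
  have hf := NZ_fit hO h
  refine ⟨(hO.rule.wall_left hf).2 h.1, h.2.1, fun i hi hw => h.2.2 i hi ?_⟩
  exact (hO.rule.wall_left (by omega)).1 hw

theorem NZ_res (hO : O.Ok) {Z X : List α} {e : ℕ} (h : O.NZ (Z ++ X) e)
    (he : e + O.no ≤ Z.length) : O.NZ Z e := by
  refine ⟨(hO.rule.wall_left he).1 h.1, h.2.1, fun i hi hw => h.2.2 i hi ?_⟩
  exact (hO.rule.wall_left (by omega)).2 hw

theorem NR_NZ (hO : O.Ok) {P r : List α} {d : ℕ} (hP : O.M' ∣ P.length)
    (hP1 : P.length ≤ O.N1) (h : O.NR r d) : O.NZ (P ++ r) (P.length + d) := by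
  obtain ⟨o, ho⟩ := hP
  have hmod : ∀ j, (P.length + j + O.p0) % O.M' = (j + O.p0) % O.M' := by
    intro j
    rw [ho, show O.M' * o + j + O.p0 = (j + O.p0) + O.M' * o by ring, Nat.add_mul_mod_self_left]
  refine ⟨?_, ?_, ?_⟩
  · rw [drop_app_right]; exact h.1
  · rw [hmod]; have := h.2.1; omega
  · intro i hi hw
    rcases lt_or_ge i P.length with h1 | h1
    · have := hO.big ((i + O.p0) % O.M')
      omega
    · obtain ⟨j, rfl⟩ := Nat.exists_eq_add_of_le h1
      rw [drop_app_right] at hw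
      have := h.2.2 j (by omega) hw
      rw [hmod]
      omega

theorem NZ_NR (hO : O.Ok) {P r : List α} {e : ℕ} (hP : O.M' ∣ P.length)
    (hP1 : P.length ≤ O.N1) (h : O.NZ (P ++ r) e) (hE : ¬ O.EB (P ++ r) e) :
    ∃ d, e = P.length + d ∧ O.NR r d := by
  have h0 : P.length ≤ e := by
    have := hO.big ((e + O.p0) % O.M')
    have := h.2.1
    omega
  obtain ⟨d, rfl⟩ := Nat.exists_eq_add_of_le h0
  obtain ⟨o, ho⟩ := hP
  have hmod : ∀ j, (P.length + j + O.p0) % O.M' = (j + O.p0) % O.M' := by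
    intro j
    rw [ho, show O.M' * o + j + O.p0 = (j + O.p0) + O.M' * o by ring, Nat.add_mul_mod_self_left]
  refine ⟨d, rfl, ?_, ?_, ?_⟩
  · have := h.1; rwa [drop_app_right] at this
  · by_contra hc
    apply hE
    refine ⟨P.length + d, le_rfl, h.1, ?_, ?_⟩
    · rw [hmod]; omega
    · have := h.2.1; omega
  · intro j hj hw
    by_contra hc
    apply hE
    have hw' : O.Wo ((P ++ r).drop (P.length + j)) := by rwa [drop_app_right]
    have h2 := h.2.2 (P.length + j) (by omega) hw'
    refine ⟨P.length + j, by omega, hw', by omega, ?_⟩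
    rw [hmod]; omega

open Classical in
/-- distance of the next anchor from `a + p0`. -/
noncomputable def Outer.nz (O : Outer α) (Z : List α) : ℕ :=
  if h : ∃ e, O.NZ Z e then h.choose else 0

theorem nz_eq {Z : List α} {e : ℕ} (h : O.NZ Z e) : O.nz Z = e := by
  classical
  have hex : ∃ e, O.NZ Z e := ⟨e, h⟩
  unfold Outer.nz
  rw [dif_pos hex]
  exact NZ_unique hex.choose_spec h

/-- distance of the next anchor. -/
noncomputable def Outer.N (O : Outer α) (y : List α) : ℕ := O.p0 + O.nz (y.drop O.p0)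

variable {S V W : Type*} [Monoid S] [AddCommGroup V] [AddCommGroup W] (D : Dat α S V W)

/-- failure modes (E), (B), (D), read right of `a + p0`. -/
def BdZ (O : Outer α) (D : Dat α S V W) (good : ℕ → Prop) (Z : List α) : Prop :=
  ∃ e, O.NZ Z e ∧ (O.EB Z e ∨ ¬ good (e / D.M') ∨
    ∃ k ≤ D.m, ∃ s, D.A k ≤ s + D.M' * D.M ∧ s < D.A k + D.M' * D.M ∧ D.R (Z.drop s))

/-- noise of the zone. -/
noncomputable def nuZ (O : Outer α) (D : Dat α S V W) (nu1 nu2 : List α → V) (y : List α) : V :=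
  D.act (nu2 (y.take O.p0)) (D.φ ((y.take (O.N y)).drop O.p0)) + nu1 ((y.take (O.N y)).drop O.p0)

/-- left words of scheme 1. -/
def L1 (O : Outer α) (D : Dat α S V W) (nu2 : List α → V) (u : List α) (v : V) : Prop :=
  O.p0 ≤ u.length ∧
    D.Lf (u.drop O.p0) = some (D.act v (D.φ (u.take O.p0)) + nu2 (u.take O.p0))

open Classical in
/-- right words of scheme 1. -/
noncomputable def R1 (O : Outer α) (D : Dat α S V W) (r : List α) : Option (ℕ × V) :=
  if h : ∃ x : ℕ × V, O.NR r x.1 ∧ D.Rf (r.take x.1) = some x.2 then some h.choose else none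

theorem R1_some {r : List α} {d : ℕ} {b : V} (h : R1 O D r = some (d, b)) :
    O.NR r d ∧ D.Rf (r.take d) = some b := by
  classical
  unfold R1 at h
  split_ifs at h with h1
  · have := h1.choose_spec
    rw [Option.some.injEq] at h
    rwa [h] at this

theorem R1_isSome {r : List α} {d : ℕ} (h1 : O.NR r d) (h2 : (D.Rf (r.take d)).isSome) :
    (R1 O D r).isSome := by
  classical
  obtain ⟨b, hb⟩ := Option.isSome_iff_exists.1 h2
  unfold R1
  rw [dif_pos ⟨(d, b), h1, hb⟩]
  rfl

variable {D}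

/-- zone map in two steps. -/
theorem zm_eq {nu1 nu2 : List α → V}
    (hφ : ∀ u v, D.φ (u ++ v) = D.φ u * D.φ v)
    (hact : ∀ v s t, D.act (D.act v s) t = D.act v (s * t))
    (hadd : ∀ v w s, D.act (v + w) s = D.act v s + D.act w s) (y : List α) (v : V) :
    D.act v (D.φ (y.take (O.N y))) + nuZ O D nu1 nu2 y =
      D.act (D.act v (D.φ (y.take O.p0)) + nu2 (y.take O.p0))
        (D.φ ((y.take (O.N y)).drop O.p0)) + nu1 ((y.take (O.N y)).drop O.p0) := by
  have h1 : y.take (O.N y) = y.take O.p0 ++ (y.take (O.N y)).drop O.p0 := by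
    have : (y.take (O.N y)).take O.p0 = y.take O.p0 := by
      rw [List.take_take]; congr 1; unfold Outer.N; omega
    rw [← this, List.take_append_drop]
  unfold nuZ
  rw [hadd, hact, ← hφ, ← h1]
  abel

/-- (SC1) -/
theorem sc1 (hO : O.Ok) (hM : D.M' = O.M') {Cl : List α → Prop} {Bm : ℕ}
    (hp0 : O.p0 ≤ Bm)
    (hcl : ∀ y, Cl y → Cl (y.take Bm))
    (hex : ∀ y, Cl y → y.length = Bm → ∃ e, O.NZ (y.drop O.p0) e)
    {nu1 nu2 : List α → V}
    (hφ : ∀ u v, D.φ (u ++ v) = D.φ u * D.φ v)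
    (hact : ∀ v s t, D.act (D.act v s) t = D.act v (s * t))
    (hadd : ∀ v w s, D.act (v + w) s = D.act v s + D.act w s)
    (hs : ∀ P Q v r, D.Lf P = some v → D.Rf Q = some r →
      r = D.act v (D.φ (P ++ Q)) + nu1 (P ++ Q))
    (hl : ∀ P v, D.Lf P = some v → D.M' ∣ P.length ∧ P.length ≤ O.N1)
    {u r : List α} {v b : V} {d : ℕ} (hy : Cl (u ++ r)) (hlen : Bm ≤ r.length)
    (hL : L1 O D nu2 u v) (hR : R1 O D r = some (d, b)) :
    O.N ((u ++ r).take Bm) = u.length + d ∧
      D.act v (D.φ (((u ++ r).take Bm).take (O.N ((u ++ r).take Bm)))) +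
        nuZ O D nu1 nu2 ((u ++ r).take Bm) = b := by
  obtain ⟨hu, hLf⟩ := hL
  obtain ⟨hNR, hRf⟩ := R1_some D hR
  obtain ⟨hl1, hl2⟩ := hl _ _ hLf
  rw [hM] at hl1
  -- the buffer
  set y := (u ++ r).take Bm with hyd
  have hylen : y.length = Bm := by
    rw [hyd, List.length_take, List.length_append]; omega
  obtain ⟨e, he⟩ := hex y (hcl _ hy) hylen
  have hZ : (u ++ r).drop O.p0 = u.drop O.p0 ++ r := List.drop_append_of_le_length hu
  have h1 : O.NZ (u.drop O.p0 ++ r) ((u.drop O.p0).length + d) := NR_NZ hO hl1 hl2 hNR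
  have h2 : (u.drop O.p0 ++ r) = y.drop O.p0 ++ (u ++ r).drop Bm := by
    rw [← hZ]
    conv_lhs => rw [← List.take_append_drop Bm (u ++ r)]
    rw [List.drop_append_of_le_length (by rw [← hyd]; omega)]
  have h3 : O.NZ (u.drop O.p0 ++ r) e := by rw [h2]; exact NZ_ext hO he _
  have h4 := NZ_unique h3 h1
  have hN : O.N y = u.length + d := by
    unfold Outer.N
    rw [nz_eq he, h4, List.length_drop]
    omega
  have hfit := NZ_fit hO he
  rw [List.length_drop, hylen] at hfit
  refine ⟨hN, ?_⟩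
  rw [zm_eq hφ hact hadd]
  have hud : u.length + d ≤ Bm := by
    rw [h4, List.length_drop] at hfit
    omega
  have e1 : y.take O.p0 = u.take O.p0 := by
    rw [hyd, List.take_take, Nat.min_eq_left hp0, List.take_append_of_le_length hu]
  have e2 : (y.take (O.N y)).drop O.p0 = u.drop O.p0 ++ r.take d := by
    rw [hN, hyd, List.take_take, Nat.min_eq_left hud, List.take_length_add_append,
      List.drop_append_of_le_length hu]
  rw [e1, e2]
  exact (hs _ _ _ _ hLf hRf).symm

/-- (CP1) -/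
theorem cp1 (hO : O.Ok) (hM : D.M' = O.M') {Cl : List α → Prop} {Bm D1 : ℕ} {good : ℕ → Prop}
    (hD1 : Bm ≤ D1) (hp0 : O.p0 ≤ Bm)
    (hcl : ∀ y, Cl y → Cl (y.take Bm))
    (hex : ∀ y, Cl y → y.length = Bm → ∃ e, O.NZ (y.drop O.p0) e)
    (hl : ∀ P v, D.Lf P = some v → D.M' ∣ P.length ∧ P.length ≤ O.N1)
    (hrule : Rule D.R D.n)
    (hbig : ∀ r, O.p0 + (D.A D.m + D.M' * D.M + D.G + D.n) ≤ O.th r)
    (hcell : ∀ i < D.m, D.A' i + D.M' * D.M ≤ D.A D.m)
    (hAm : ∀ k ≤ D.m, D.A k ≤ D.A D.m)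
    (hsm : ∀ y, Cl y → ∀ t, t + D.G + D.n ≤ y.length → ∃ s, t ≤ s ∧ s < t + D.G ∧ D.R (y.drop s))
    (hc : ∀ Y : List α, good (Y.length / D.M') →
        (∀ i < D.m, D.A' i + D.M' * D.M ≤ Y.length) →
        (∀ t, t ≤ D.A D.m + D.M' * D.M → ∃ s, t ≤ s ∧ s < t + D.G ∧ D.R (Y.drop s)) →
        (∀ k, k ≤ D.m → ∀ s, D.A k ≤ s + D.M' * D.M → s < D.A k + D.M' * D.M →
          ¬ D.R (Y.drop s)) →
        ∀ v, ∃ P Q, P ++ Q = Y ∧ D.Lf P = some v ∧ (D.Rf Q).isSome)
    {nu2 : List α → V}
    {t : List α} (ht : Cl t) (hlen : Bm + D1 ≤ t.length)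
    (hbad : ¬ BdZ O D good ((t.take Bm).drop O.p0)) (v : V) :
    ∃ x, O.p0 ≤ x ∧ x < Bm ∧ L1 O D nu2 (t.take x) v ∧
      (R1 O D ((t.drop x).take D1)).isSome := by
  set y := t.take Bm with hyd
  have hylen : y.length = Bm := by rw [hyd, List.length_take]; omega
  have hCy : Cl y := hcl _ ht
  obtain ⟨e, he⟩ := hex y hCy hylen
  have hfit := NZ_fit hO he
  have hno := hO.rule.pos
  rw [List.length_drop, hylen] at hfit
  have heb : ∀ e', O.NZ (y.drop O.p0) e' → O.p0 + (D.A D.m + D.M' * D.M + D.G + D.n) ≤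
      e' + O.p0 := by
    intro e' h
    exact (hbig _).trans h.2.1
  have heb' := heb e he
  unfold BdZ at hbad
  push Not at hbad
  obtain ⟨b1, b2, b3⟩ := hbad e he
  -- the zone
  set Y := (y.drop O.p0).take e with hYd
  have hYlen : Y.length = e := by
    rw [hYd, List.length_take, List.length_drop, hylen]; omega
  have hYw : ∀ s, s + D.n ≤ e → (D.R (Y.drop s) ↔ D.R ((y.drop O.p0).drop s)) := by
    intro s hs
    have : y.drop O.p0 = Y ++ (y.drop O.p0).drop e := by rw [hYd, List.take_append_drop]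
    conv_rhs => rw [this]
    exact (hrule.wall_left (by omega)).symm
  have hn := hrule.pos
  obtain ⟨P, Q, hPQ, hLf, hRf⟩ := hc Y (by rw [hYlen]; exact b2)
    (by
      intro i hi
      have := hcell i hi
      rw [hYlen]
      omega)
    (by
      intro t' ht'
      obtain ⟨s, s1, s2, s3⟩ := hsm y hCy (O.p0 + t') (by rw [hylen]; omega)
      obtain ⟨q, rfl⟩ := Nat.exists_eq_add_of_le (show O.p0 ≤ s by omega)
      refine ⟨q, by omega, by omega, ?_⟩
      rw [hYw q (by omega), List.drop_drop]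
      exact s3)
    (by
      intro k hk s hs1 hs2 hR
      have := hAm k hk
      rw [hYw s (by omega)] at hR
      exact b3 k hk s hs1 hs2 hR)
    (D.act v (D.φ (t.take O.p0)) + nu2 (t.take O.p0))
  obtain ⟨l1, l2⟩ := hl _ _ hLf
  rw [hM] at l1
  have hPl : P.length + Q.length = e := by rw [← hYlen, ← hPQ, List.length_append]
  -- decomposition of the text
  have ht1 : t = t.take O.p0 ++ (P ++ (Q ++ t.drop (O.p0 + e))) := by
    have h1 : t.drop O.p0 = Y ++ t.drop (O.p0 + e) := by
      have : Y = (t.drop O.p0).take e := by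
        rw [hYd, hyd, List.drop_take, List.take_take]
        congr 1
        omega
      rw [this, ← List.drop_drop, List.take_append_drop]
    rw [← List.append_assoc P, hPQ, ← h1, List.take_append_drop]
  have hp0t : (t.take O.p0).length = O.p0 := by rw [List.length_take]; omega
  have hx1 : t.take (O.p0 + P.length) = t.take O.p0 ++ P := by
    conv_lhs => rw [ht1]
    rw [show O.p0 + P.length = (t.take O.p0).length + P.length by rw [hp0t],
      List.take_length_add_append, List.take_left]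
  have hx2 : t.drop (O.p0 + P.length) = Q ++ t.drop (O.p0 + e) := by
    conv_lhs => rw [ht1]
    rw [show O.p0 + P.length = (t.take O.p0).length + P.length by rw [hp0t],
      List.drop_length_add_append, List.drop_left]
  refine ⟨O.p0 + P.length, by omega, by omega, ?_, ?_⟩
  · rw [hx1]
    refine ⟨by rw [List.length_append, hp0t]; omega, ?_⟩
    rw [List.drop_append_of_le_length (by omega), List.take_append_of_le_length (by omega),
      List.take_of_length_le (by omega : (t.take O.p0).length ≤ O.p0),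
      List.drop_of_length_le (by omega : (t.take O.p0).length ≤ O.p0), List.nil_append]
    exact hLf
  · have hzz : y.drop O.p0 = P ++ (Q ++ (y.drop O.p0).drop e) := by
      rw [← List.append_assoc, hPQ, hYd, List.take_append_drop]
    rw [hzz] at he b1
    obtain ⟨d, hd1, hd2⟩ := NZ_NR hO l1 l2 he b1
    have hdQ : d = Q.length := by omega
    subst hdQ
    have hpre : ∃ X, (t.drop (O.p0 + P.length)).take D1 = (Q ++ (y.drop O.p0).drop e) ++ X := by
      have h5 : (Q ++ (y.drop O.p0).drop e) = (t.drop (O.p0 + P.length)).take (Bm - (O.p0 + P.length)) := by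
        have : y.drop (O.p0 + P.length) = Q ++ (y.drop O.p0).drop e := by
          rw [← List.drop_drop, hzz, List.drop_left, ← hzz]
        rw [← this, hyd, List.drop_take]
      rw [h5]
      refine ⟨((t.drop (O.p0 + P.length)).take D1).drop (Bm - (O.p0 + P.length)), ?_⟩
      conv_lhs => rw [← List.take_append_drop (Bm - (O.p0 + P.length))
        ((t.drop (O.p0 + P.length)).take D1)]
      rw [List.take_take]
      congr 2
      omega
    obtain ⟨X, hX⟩ := hpre
    rw [hX]
    have hNR : O.NR ((Q ++ (y.drop O.p0).drop e) ++ X) Q.length := by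
      have hf := hO.rule.wall_fit hd2.1
      refine ⟨(hO.rule.wall_left hf).2 hd2.1, hd2.2.1, fun i hi hw => hd2.2.2 i hi ?_⟩
      exact (hO.rule.wall_left (by omega)).1 hw
    apply R1_isSome D hNR
    rw [List.append_assoc, List.take_left]
    exact hRf

end Crest.Agent.R320.Sc1_679
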