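import Crest.Agent.R320.Zone132b_898
import Crest.Agent.R320.Sc0_898

/-!
# Row 320, plan #13168, G2: (SC1) and (CP1) of 131 #13123 in literal form

From the closed zone gadget `Zone132b_898`; the only hypotheses left are parameter inequalities and
the gap bounds of the two wall rules on words of the class `Cl`.
-/

namespace Crest.Agent.R320.Sc1_898

open Crest.Agent.R320.Zone132_898 Crest.Agent.R320.Zone132b_898 Crest.Agent.R320.Sc0_898

universe u

section

variable {α : Type u} {S V : Type*}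

theorem R_of_take (r : Rule α) {y : List α} {b t : ℕ} (h : r.R ((y.take b).drop t)) :
    r.R (y.drop t) := by
  have h1 := r.len _ h
  have h2 := r.pos
  rw [List.length_drop] at h1
  rw [← List.take_append_drop b y]
  exact (R_left r (by omega)).2 h

theorem R_to_take (r : Rule α) {y : List α} {b t : ℕ} (h : r.R (y.drop t)) (hb : t + r.n ≤ b) :
    r.R ((y.take b).drop t) := by
  have h1 := r.len _ h
  have h2 := r.pos
  rw [List.length_drop] at h1
  rw [← List.take_append_drop b y] at h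
  exact (R_left r (by rw [List.length_take]; omega)).1 h

theorem NN_eq {p : Par α} {y : List α} {b : ℕ} (h : Qual p y b) (h' : ∀ t, t < b → ¬ Qual p y t) :
    NN p y = b := by
  classical
  have hex : ∃ t, Qual p y t := ⟨b, h⟩
  unfold NN
  rw [dif_pos hex]
  exact (Nat.find_eq_iff hex).2 ⟨h, fun n hn => h' n hn⟩

theorem exists_NN {p : Par α} {y : List α} (hex : ∃ t, Qual p y t) :
    Qual p y (NN p y) ∧ ∀ t, t < NN p y → ¬ Qual p y t := by
  classical
  unfold NN
  rw [dif_pos hex]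
  exact ⟨Nat.find_spec hex, fun t ht => Nat.find_min hex ht⟩

theorem exists_FW (r : Rule α) {Z : List α} {y G : ℕ}
    (h : ∃ t, y ≤ t ∧ t ≤ y + G ∧ r.R (Z.drop t)) : ∃ t, FW r Z y t ∧ t ≤ y + G := by
  classical
  obtain ⟨t0, h1, h2, h3⟩ := h
  have hex : ∃ t, y ≤ t ∧ r.R (Z.drop t) := ⟨t0, h1, h3⟩
  refine ⟨Nat.find hex, ⟨(Nat.find_spec hex).1, (Nat.find_spec hex).2, ?_⟩, ?_⟩
  · intro t' ht1 ht2 ht3
    exact Nat.find_min hex ht2 ⟨ht1, ht3⟩
  · exact le_trans (Nat.find_min' hex ⟨h1, h3⟩) h2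

/-- right side: first outer wall which qualifies for all teeth, no ambiguous wall before -/
def Out (p : Par α) (r : List α) (d : ℕ) : Prop :=
  p.Ro.R (r.drop d) ∧ p.q * p.ze + p.th (d % p.q) ≤ d ∧
    ∀ t', t' < d → p.Ro.R (r.drop t') → t' + p.q * p.Nq < p.q * p.ze + p.th (t' % p.q)

open Classical in
/-- the right function of scheme 1 -/
noncomputable def RR1 (p : Par α) (Rt : V → Language α) (r : List α) : Option (ℕ × V) :=
  if h : ∃ db : ℕ × V, Out p r db.1 ∧ r.take db.1 ∈ Rt db.2 then some h.choose else none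

theorem RR1_some {p : Par α} {Rt : V → Language α} {r : List α} {d : ℕ} {b : V}
    (h : RR1 p Rt r = some (d, b)) : Out p r d ∧ r.take d ∈ Rt b := by
  classical
  unfold RR1 at h
  split_ifs at h with hex
  have h1 := hex.choose_spec
  have h2 : hex.choose = (d, b) := by simpa using h
  rw [h2] at h1
  exact h1

theorem RR1_isSome {p : Par α} {Rt : V → Language α} {r : List α} {d : ℕ} {b : V}
    (h : Out p r d) (h' : r.take d ∈ Rt b) : (RR1 p Rt r).isSome := by
  classical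
  have hex : ∃ db : ℕ × V, Out p r db.1 ∧ r.take db.1 ∈ Rt db.2 := ⟨(d, b), h, h'⟩
  unfold RR1
  rw [dif_pos hex]
  rfl

/-- the left predicate of scheme 1 -/
def LL1 [Add V] (p : Par α) (phi : List α → S) (act : V → S → V) (nu2 : List α → V)
    (L : V → Language α) (u : List α) (v : V) : Prop :=
  p.p0 ≤ u.length ∧ u.drop p.p0 ∈ L (act v (phi (u.take p.p0)) + nu2 (u.take p.p0))

theorem mod_aux {q a b : ℕ} : (q * a + b) % q = b % q := by
  rw [Nat.mul_add_mod]

/-- **(SC1)** -/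
theorem sc1 [Monoid S] [AddCommGroup V] {phi : List α → S}
    (hphi : ∀ u v, phi (u ++ v) = phi u * phi v) {act : V → S → V}
    (hadd : ∀ v v' s, act (v + v') s = act v s + act v' s)
    (hmul : ∀ v s s', act v (s * s') = act (act v s) s') {p : Par α} {Go Sm D₁ : ℕ}
    {Cl : List α → Prop} (hze : p.Nq < p.ze) (hq : 0 < p.q) (hS : ∀ r, p.th r ≤ Sm)
    (hBm : p.p0 + p.q * p.ze + Sm + Go + p.Ro.n ≤ p.Bm) (hD : p.Bm ≤ D₁)
    (hgapo : ∀ w, Cl w → ∀ i, i + Go + p.Ro.n ≤ w.length →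
      ∃ t, i ≤ t ∧ t ≤ i + Go ∧ p.Ro.R (w.drop t))
    {L Rt : V → Language α} {nu1 : List α → V}
    (hL : ∀ v P, P ∈ L v → ∃ om, P.length = p.q * om ∧ om ≤ p.Nq)
    (hsound : ∀ P Q v b, P ∈ L v → Q ∈ Rt b → b = act v (phi (P ++ Q)) + nu1 (P ++ Q))
    (nu2 : List α → V) :
    SC1 Cl p.Bm D₁ (NN p) phi act (nuXY p phi act nu1 nu2) (LL1 p phi act nu2 L)
      (RR1 p Rt) := by
  intro u r v d b hCl hu hr hLu hRr
  obtain ⟨⟨hw, hqual, hmin⟩, hRt⟩ := RR1_some hRr
  obtain ⟨hpu, hP⟩ := hLu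
  obtain ⟨om, hom, homN⟩ := hL _ _ hP
  rw [List.length_drop] at hom
  have hulen : u.length = p.p0 + p.q * om := by omega
  have hqom : p.q * om ≤ p.q * p.Nq := Nat.mul_le_mul_left _ homN
  have hqNz : p.q * p.Nq < p.q * p.ze := Nat.mul_lt_mul_of_pos_left hze hq
  have hQual : Qual p (u ++ r) (u.length + d) := by
    refine ⟨by rw [drop_add]; exact hw, ?_⟩
    rw [hulen, show p.p0 + p.q * om + d - p.p0 = p.q * om + d by omega, mod_aux]
    omega
  have hmin' : ∀ t, t < u.length + d → ¬ Qual p (u ++ r) t := by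
    rintro t ht ⟨h1, h2⟩
    rcases lt_or_ge t u.length with h3 | h3
    · omega
    · obtain ⟨t', rfl⟩ : ∃ t', t = u.length + t' := ⟨t - u.length, by omega⟩
      rw [drop_add] at h1
      have h4 := hmin t' (by omega) h1
      rw [hulen, show p.p0 + p.q * om + t' - p.p0 = p.q * om + t' by omega, mod_aux] at h2
      omega
  obtain ⟨ts, hts1, hts2, hts3⟩ := hgapo (u ++ r) hCl (p.p0 + p.q * p.ze + Sm)
    (by rw [List.length_append]; omega)
  have hb0 : u.length + d ≤ ts := by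
    by_contra hlt
    push Not at hlt
    exact hmin' ts hlt ⟨hts3, by have := hS ((ts - p.p0) % p.q); omega⟩
  have hNN : NN p ((u ++ r).take p.Bm) = u.length + d := by
    apply NN_eq
    · exact ⟨R_to_take p.Ro hQual.1 (by omega), hQual.2⟩
    · rintro t ht ⟨h1, h2⟩
      exact hmin' t ht ⟨R_of_take p.Ro h1, h2⟩
  refine ⟨hNN, ?_⟩
  have hs := hsound _ _ _ _ hP hRt
  have e1 : ((u ++ r).take p.Bm).take (u.length + d) = u ++ r.take d := by
    rw [List.take_take, min_eq_left (by omega), List.take_length_add_append]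
  have e2 : ((u ++ r).take p.Bm).take p.p0 = u.take p.p0 := by
    rw [List.take_take, min_eq_left (by omega), List.take_append_of_le_length hpu]
  have e3 : (u ++ r.take d).drop p.p0 = u.drop p.p0 ++ r.take d := by
    rw [List.drop_append_of_le_length hpu]
  have e4 : phi (u ++ r.take d) = phi (u.take p.p0) * phi (u.drop p.p0 ++ r.take d) := by
    rw [← hphi, ← List.append_assoc, List.take_append_drop]
  unfold zm nuXY
  rw [hNN, e1, e2, e3, e4, hs, hadd, hmul]
  abel

/-- **(CP1)** -/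
theorem cp1 [Monoid S] [AddCommGroup V] {phi : List α → S} {act : V → S → V} {p : Par α}
    {Go G Sm D₁ : ℕ} {lo : ℕ → ℕ}
    {Cl : List α → Prop} (hfac : ∀ x y z, Cl (x ++ y ++ z) → Cl y)
    (hze : p.Nq < p.ze) (hq : 0 < p.q) (hS : ∀ r, p.th r ≤ Sm)
    (hBm : p.p0 + p.q * p.ze + Sm + Go + p.Ro.n ≤ p.Bm) (hD : p.Bm ≤ D₁)
    (hgapo : ∀ w, Cl w → ∀ i, i + Go + p.Ro.n ≤ w.length →
      ∃ t, i ≤ t ∧ t ≤ i + Go ∧ p.Ro.R (w.drop t))
    (hgaps : ∀ w, Cl w → ∀ i, i + G + p.Rs.n ≤ w.length →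
      ∃ t, i ≤ t ∧ t ≤ i + G ∧ p.Rs.R (w.drop t))
    (hA : Monotone p.A) (hcell : ∀ i, i < p.m → p.q * (lo i + p.M) ≤ p.A (i + 1))
    (hNq : ∀ i, i < p.m → lo i + p.M ≤ p.Nq)
    (hAm : p.A p.m + G + p.Rs.n ≤ p.q * p.ze)
    {L Rt : V → Language α} {nu1 : List α → V}
    (hcomp : ∀ Z : List α, (∀ l ∈ p.Ms, ¬ l ∣ Z.length / p.q) →
          (∃ H : ℕ → ℕ, ∀ k, k ≤ p.m → FW p.Rs Z (p.A k) (H k) ∧ H k ≤ p.A k + G) →
          (∀ k, k ≤ p.m → ∀ t, p.A k ≤ t + p.q * p.M → t < p.A k + p.q * p.M →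
            ¬ p.Rs.R (Z.drop t)) →
          (∀ i, i < p.m → p.q * (lo i + p.M) ≤ Z.length) →
          ∀ v, ∃ (P Q : List α) (i om : ℕ), Z = P ++ Q ∧ i < p.m ∧ P.length = p.q * om ∧
            lo i ≤ om ∧ om < lo i + p.M ∧ P ∈ L v ∧
            Q ∈ Rt (act v (phi Z) + nu1 Z))
    (nu2 : List α → V) :
    CP1 Cl p.Bm D₁ p.p0 (Bad p) (LL1 p phi act nu2 L) (RR1 p Rt) := by
  intro t hCl hlen hBad v
  have hqNz : p.q * p.Nq < p.q * p.ze := Nat.mul_lt_mul_of_pos_left hze hq
  have hE : ¬ Ebad p (t.take p.Bm) := fun h => hBad (Or.inl h)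
  have hB : ¬ Bbad p (t.take p.Bm) := fun h => hBad (Or.inr (Or.inl h))
  have hDb : ¬ Dbad p (t.take p.Bm) := fun h => hBad (Or.inr (Or.inr h))
  set y := t.take p.Bm with hy
  have hylen : y.length = p.Bm := by rw [hy, List.length_take]; omega
  have hCly : Cl y := by
    refine hfac [] y (t.drop p.Bm) ?_
    rw [hy, List.nil_append, List.take_append_drop]
    exact hCl
  obtain ⟨ts, hts1, hts2, hts3⟩ := hgapo y hCly (p.p0 + p.q * p.ze + Sm) (by omega)
  have hex : ∃ s, Qual p y s :=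
    ⟨ts, hts3, by have := hS ((ts - p.p0) % p.q); omega⟩
  obtain ⟨hQ, hmin⟩ := exists_NN hex
  set b0 := NN p y with hb0
  have hb0n : b0 + p.Ro.n ≤ p.Bm := by
    have h1 := p.Ro.len _ hQ.1
    have h2 := p.Ro.pos
    rw [List.length_drop] at h1
    omega
  have hb0z : p.p0 + p.q * p.ze ≤ b0 := by have := hQ.2; omega
  set Z := (t.take b0).drop p.p0 with hZdef
  have htb : t.take b0 = t.take p.p0 ++ Z := by
    rw [hZdef]
    conv_lhs => rw [← List.take_append_drop p.p0 (t.take b0)]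
    rw [List.take_take, min_eq_left (by omega)]
  have hZlen : Z.length = b0 - p.p0 := by
    rw [hZdef, List.length_drop, List.length_take]; omega
  have hClZ : Cl Z := by
    refine hfac (t.take p.p0) Z (t.drop b0) ?_
    rw [← htb, List.take_append_drop]
    exact hCl
  have hyZ : ∀ s, p.Rs.R (Z.drop s) → p.Rs.R (y.drop (p.p0 + s)) := by
    intro s hs
    have h1 := p.Rs.len _ hs
    have h2 := p.Rs.pos
    rw [List.length_drop, hZlen] at h1
    rw [hZdef, List.drop_drop] at hs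
    have h3 := R_of_take p.Rs hs
    exact R_to_take p.Rs h3 (by omega)
  have hH : ∀ k, ∃ h, k ≤ p.m → FW p.Rs Z (p.A k) h ∧ h ≤ p.A k + G := by
    intro k
    by_cases hk : k ≤ p.m
    · have h1 := hA hk
      obtain ⟨h, h2, h3⟩ := exists_FW p.Rs (hgaps Z hClZ (p.A k) (by omega))
      exact ⟨h, fun _ => ⟨h2, h3⟩⟩
    · exact ⟨0, fun h => absurd h hk⟩
  choose H hH using hH
  obtain ⟨P, Q, i, om, hPQ, hi, hPlen, hlo1, hlo2, hPL, hQR⟩ :=
    hcomp Z (fun l hl hd => hB ⟨l, hl, by rw [← hb0, ← hZlen]; exact hd⟩)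
      ⟨H, fun k hk => hH k hk⟩
      (fun k hk s h1 h2 h3 => hDb ⟨k, hk, s, h1, h2, hyZ s h3⟩)
      (fun i hi => by
        have h1 := hcell i hi
        have h2 := hA (show i + 1 ≤ p.m by omega)
        omega)
      (act v (phi (t.take p.p0)) + nu2 (t.take p.p0))
  have homN : om ≤ p.Nq := by have := hNq i hi; omega
  have hqom : p.q * om ≤ p.q * p.Nq := Nat.mul_le_mul_left _ homN
  have hXlen : (t.take p.p0).length = p.p0 := by rw [List.length_take]; omega
  set X := t.take p.p0 with hX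
  set R' := t.drop b0 with hR'
  have hXP : (X ++ P).length = p.p0 + p.q * om := by rw [List.length_append, hXlen, hPlen]
  have ht : t = (X ++ P) ++ (Q ++ R') := by
    conv_lhs => rw [← List.take_append_drop b0 t, htb, hPQ]
    rw [← hR']
    simp only [List.append_assoc]
  have hQlen : Q.length = b0 - p.p0 - p.q * om := by
    have h1 := congrArg List.length hPQ
    rw [List.length_append, hZlen, hPlen] at h1
    omega
  have htakex : t.take (p.p0 + p.q * om) = X ++ P := by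
    rw [ht, ← hXP, List.take_left']
    rfl
  have hdropx : t.drop (p.p0 + p.q * om) = Q ++ R' := by
    rw [ht, ← hXP, List.drop_left']
    rfl
  have hRt : ∀ s, p.Ro.R ((Q ++ R').drop s) → p.p0 + p.q * om + s + p.Ro.n ≤ p.Bm →
      p.Ro.R (y.drop (p.p0 + p.q * om + s)) := by
    intro s hs hsb
    refine R_to_take p.Ro ?_ hsb
    rw [← List.drop_drop, hdropx]
    exact hs
  refine ⟨p.p0 + p.q * om, by omega, by omega, ?_, ?_⟩
  · rw [htakex]
    refine ⟨by rw [hXP]; omega, ?_⟩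
    have e1 : (X ++ P).drop p.p0 = P := by
      conv_lhs => rw [← hXlen]
      rw [List.drop_left]
    have e2 : (X ++ P).take p.p0 = X := by
      conv_lhs => rw [← hXlen]
      rw [List.take_left]
    rw [e1, e2]
    exact hPL
  · rw [hdropx]
    have hdD : Q.length ≤ D₁ := by omega
    have e3 : ((Q ++ R').take D₁).take Q.length = Q := by
      rw [List.take_take, min_eq_left hdD, List.take_left]
    refine RR1_isSome (d := Q.length) ⟨?_, ?_, ?_⟩ (by rw [e3]; exact hQR)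
    · refine R_to_take p.Ro ?_ (by omega)
      have h1 : p.Ro.R (t.drop b0) := R_of_take p.Ro hQ.1
      rw [show b0 = p.p0 + p.q * om + Q.length by omega, ← List.drop_drop, hdropx] at h1
      exact h1
    · by_contra hcon
      push Not at hcon
      have h1 := hQ.2
      have h2 : (b0 - p.p0) % p.q = Q.length % p.q := by
        rw [show b0 - p.p0 = p.q * om + Q.length by omega, mod_aux]
      rw [h2] at h1
      refine hE ⟨b0 - p.p0, ?_, ?_, ?_⟩
      · rw [show p.p0 + (b0 - p.p0) = b0 by omega]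
        exact hQ.1
      · rw [h2]; omega
      · rw [h2]; omega
    · intro t' ht' hw'
      have h1 := R_of_take p.Ro hw'
      have h2 := hRt t' h1 (by omega)
      by_contra hcon
      push Not at hcon
      have h3 := hmin (p.p0 + p.q * om + t') (by omega)
      have h4 : (p.q * om + t') % p.q = t' % p.q := mod_aux
      refine hE ⟨p.q * om + t', ?_, ?_, ?_⟩
      · rw [← Nat.add_assoc]; exact h2
      · rw [h4]; omega
      · rw [h4]
        by_contra hcon2
        push Not at hcon2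
        apply h3
        refine ⟨h2, ?_⟩
        rw [show p.p0 + p.q * om + t' - p.p0 = p.q * om + t' by omega, h4]
        omega

end

/-- **G2 of plan #13168 in closed form.** -/
theorem exists_sc1_cp1 (S V : Type*) [Monoid S] [Fintype S] [AddCommGroup V] [Fintype V]
    (act : V → S → V) (hadd : ∀ v v' s, act (v + v') s = act v s + act v' s)
    (hmul : ∀ v s s', act v (s * s') = act (act v s) s') :
    ∃ m r : ℕ, ∀ B0 : ℕ, ∃ Ms : Finset ℕ, Ms.card ≤ r ∧ (∀ l ∈ Ms, l.Prime ∧ B0 < l) ∧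
      ∀ (α : Type u) [Finite α] (phi : List α → S), (∀ u v, phi (u ++ v) = phi u * phi v) →
      ∀ (p : Par α) (lo : ℕ → ℕ) (Cl : List α → Prop) (Go G Sm D₁ : ℕ),
      p.m = m → p.Ms = Ms → p.M = ∏ l ∈ Ms, l → 0 < p.q → p.Nq < p.ze →
      (∀ r, p.th r ≤ Sm) →
      (∀ x y z, Cl (x ++ y ++ z) → Cl y) →
      (∀ w, Cl w → ∀ i, i + Go + p.Ro.n ≤ w.length →
        ∃ t, i ≤ t ∧ t ≤ i + Go ∧ p.Ro.R (w.drop t)) →
      (∀ w, Cl w → ∀ i, i + G + p.Rs.n ≤ w.length →
        ∃ t, i ≤ t ∧ t ≤ i + G ∧ p.Rs.R (w.drop t)) →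
      Monotone p.A →
      (∀ i, i < m → p.A i + G + p.Rs.n ≤ p.q * lo i) →
      (∀ i, i < m → p.q * (lo i + p.M) ≤ p.A (i + 1)) →
      (∀ i, i < m → lo i + p.M ≤ p.Nq) →
      p.A m + G + p.Rs.n ≤ p.q * p.ze →
      p.p0 + p.q * p.ze + Sm + Go + p.Ro.n ≤ p.Bm → p.Bm ≤ D₁ →
      ∃ nu1 : List α → V, ∀ nu2 : List α → V,
        ∃ (L₁ : List α → V → Prop) (R₁ : List α → Option (ℕ × V)),
          SC1 Cl p.Bm D₁ (NN p) phi act (nuXY p phi act nu1 nu2) L₁ R₁ ∧
          CP1 Cl p.Bm D₁ p.p0 (Bad p) L₁ R₁ := by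
  obtain ⟨m, N, e, F, hN, hF⟩ := RandF808.exists_noise S V act
  have : NeZero N := ⟨hN.ne'⟩
  obtain ⟨r, hr⟩ := exists_ctx_names.{u} act e F m
  refine ⟨m, r, fun B0 => ?_⟩
  obtain ⟨Ms, LN, RN, hcard, hprime, hpL, hpR, hD⟩ := hr B0
  refine ⟨Ms, hcard, hprime, ?_⟩
  intro α _ phi hphi p lo Cl Go G Sm D₁ hm hMs hM hq hze hS hfac hgapo hgaps hA hlo hcell hNq
    hAm hBm hDD
  let D : Data α S V (ZMod N × ZMod N) :=
    { phi := phi, hphi := hphi, act := act, r := p.Rs, q := p.q, hq := hq, M := p.M, m := p.m,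
      A := p.A, monoA := hA, lo := lo, G := G, e := e, F := F, LN := LN, RN := RN,
      B := fun n => ∃ l ∈ Ms, l ∣ n, cell_le := by rw [hm]; exact hcell }
  obtain ⟨h1, h2, h3⟩ := hD α D rfl rfl rfl hm hM rfl rfl rfl
  have hides : D.Hides := by
    intro s w v
    obtain ⟨i, hi, hi'⟩ := hF s w v
    exact ⟨i, by change i < p.m; rw [hm]; exact hi, hi'⟩
  refine ⟨D.nu, fun nu2 => ⟨LL1 p phi act nu2 (fun v => {P | D.LL P v}),
    RR1 p (fun b => {Q | D.RR Q b}), ?_, ?_⟩⟩
  · refine sc1 hphi hadd hmul hze hq hS hBm hDD hgapo ?_ ?_ nu2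
    · rintro v P ⟨c, om, H, hP, hi, -, hhi, -⟩
      refine ⟨om, hP, ?_⟩
      have h4 : D.lo c.i + D.M ≤ p.Nq := hNq c.i (by rw [← hm]; exact hi)
      omega
    · intro P Q v b hP hQ
      exact D.sound h1 h2 hP hQ
  · refine cp1 (lo := lo) hfac hze hq hS hBm hDD hgapo hgaps hA (by rw [hm]; exact hcell)
      (by rw [hm]; exact hNq) (by rw [hm]; exact hAm) (nu1 := D.nu) ?_ nu2
    rintro Z hB ⟨H, hH⟩ hnear hZ v
    refine D.complete' h1 h2 h3 hides ?_ H (fun k hk => (hH k hk).1)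
      (fun k hk => (hH k hk).2) ?_ hnear hZ v
    · rintro ⟨l, hl, hd⟩
      exact hB l (by rw [hMs]; exact hl) hd
    · intro i hi
      exact hlo i (by rw [← hm]; exact hi)

end Crest.Agent.R320.Sc1_898
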