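import Crest.Agent.R320.Zone132_898

/-!
# Row 320, G2: literal (SC1) + (CP1) of 131 #13123 over `Zone132_898.Data` and the threshold chain
rule of 132 #12664 (2), (3)

`Outer`: the outer wall rule `o`, thresholds `thr` by residue mod the comb modulus `q`, first part
`X` of length `p0`, window `N1`.  `N y` = first wall `t` with `thr (t % q) ≤ t`.
`Bad` = (E) or (B) or (D).  The noise of the second scheme (`nu2`, a function of `X`) is arbitrary.
-/

namespace Crest.Agent.R320.Sc1_901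

open Crest.Agent.R320.Zone132_898
open Finset

theorem R_of_take {α : Type*} (r : Rule α) {X : List α} {k : ℕ} (h : r.R (X.take k)) :
    r.R X ∧ r.n ≤ k := by
  have h1 := r.len _ h
  have h2 : r.n ≤ k := by rw [List.length_take] at h1; omega
  refine ⟨?_, h2⟩
  rw [r.take_iff, List.take_take, min_eq_left h2] at h
  rwa [r.take_iff]

theorem R_take {α : Type*} (r : Rule α) {X : List α} {k : ℕ} (h : r.R X) (hk : r.n ≤ k) :
    r.R (X.take k) := by
  rw [r.take_iff, List.take_take, min_eq_left hk]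
  rwa [r.take_iff] at h

/-- wall at `t` of `Y.take B` -/
theorem R_drop_take {α : Type*} (r : Rule α) {Y : List α} {B t : ℕ} :
    r.R ((Y.take B).drop t) ↔ r.R (Y.drop t) ∧ (t + r.n ≤ B) := by
  rw [List.drop_take]
  constructor
  · intro h
    obtain ⟨h1, h2⟩ := R_of_take r h
    have := r.pos
    exact ⟨h1, by omega⟩
  · rintro ⟨h1, h2⟩
    exact R_take r h1 (by omega)

structure Outer (α S V W : Type*) [Monoid S] [AddCommGroup V] [AddCommGroup W] where
  D : Data α S V W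
  act_mul : ∀ v a b, D.act v (a * b) = D.act (D.act v a) b
  act_add : ∀ v w a, D.act (v + w) a = D.act v a + D.act w a
  o : Rule α
  thr : ℕ → ℕ
  p0 : ℕ
  N1 : ℕ
  T : ℕ
  Go : ℕ
  Bm : ℕ
  D1 : ℕ
  nu2 : List α → V
  thr_lo : ∀ ρ, p0 + N1 < thr ρ
  thr_hi : ∀ ρ, thr ρ ≤ T
  bm_ge : T + Go + N1 + o.n ≤ Bm
  d1_ge : Bm ≤ D1

namespace Outer

variable {α S V W : Type*} [Monoid S] [AddCommGroup V] [AddCommGroup W] (O : Outer α S V W)

/-- `t` qualifies in the text `y` read from the anchor -/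
def Qf (y : List α) (t : ℕ) : Prop := O.o.R (y.drop t) ∧ O.thr (t % O.D.q) ≤ t

open Classical in
/-- distance to the next anchor -/
noncomputable def N (y : List α) : ℕ := if h : ∃ t, O.Qf y t then Nat.find h else O.Bm

theorem N_eq {y : List α} {t : ℕ} (h : O.Qf y t) (h' : ∀ t' < t, ¬ O.Qf y t') : O.N y = t := by
  classical
  have hex : ∃ t, O.Qf y t := ⟨t, h⟩
  unfold N
  rw [dif_pos hex]
  apply le_antisymm
  · exact Nat.find_min' hex h
  · by_contra hlt
    push Not at hlt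
    exact h' _ hlt (Nat.find_spec hex)

theorem N_spec {y : List α} (h : ∃ t, O.Qf y t) : O.Qf y (O.N y) ∧ ∀ t' < O.N y, ¬ O.Qf y t' := by
  classical
  unfold N
  rw [dif_pos h]
  exact ⟨Nat.find_spec h, fun t' ht' => Nat.find_min h ht'⟩

/-- the noise of the whole zone -/
noncomputable def nu (Z : List α) : V :=
  O.D.act (O.nu2 (Z.take O.p0)) (O.D.phi (Z.drop O.p0)) + O.D.nu (Z.drop O.p0)

/-- the zone map -/
noncomputable def zm (y : List α) (v : V) : V :=
  O.D.act v (O.D.phi (y.take (O.N y))) + O.nu (y.take (O.N y))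

def L1 (u : List α) (v : V) : Prop :=
  O.p0 ≤ u.length ∧ u.length ≤ O.p0 + O.N1 ∧
    O.D.LL (u.drop O.p0) (O.D.act v (O.D.phi (u.take O.p0)) + O.nu2 (u.take O.p0))

def Legal (r : List α) : Prop := ∀ t, O.o.R (r.drop t) →
  ¬ (t + O.p0 < O.thr ((O.p0 + t) % O.D.q) ∧ O.thr ((O.p0 + t) % O.D.q) ≤ t + O.p0 + O.N1)

def Qr (r : List α) (t : ℕ) : Prop := O.o.R (r.drop t) ∧ O.thr ((O.p0 + t) % O.D.q) ≤ t + O.p0

def Rrel (r : List α) (d : ℕ) (b : V) : Prop :=
  O.Legal r ∧ O.Qr r d ∧ (∀ t' < d, ¬ O.Qr r t') ∧ d + O.p0 + O.N1 + O.o.n ≤ O.Bm ∧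
    O.D.RR (r.take d) b

theorem Rrel_unique {r : List α} {d d' : ℕ} {b b' : V} (h : O.Rrel r d b) (h' : O.Rrel r d' b') :
    d = d' ∧ b = b' := by
  obtain ⟨_, h2, h3, _, h5⟩ := h
  obtain ⟨_, h2', h3', _, h5'⟩ := h'
  have hd : d = d' := by
    rcases lt_trichotomy d d' with h | h | h
    · exact absurd h2 (h3' _ h)
    · exact h
    · exact absurd h2' (h3 _ h)
  subst hd
  refine ⟨rfl, ?_⟩
  obtain ⟨c, t, _, hc, _, _, _, _, hb⟩ := h5
  obtain ⟨c', t', _, hc', _, _, _, _, hb'⟩ := h5'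
  rw [hc] at hc'
  rw [hb, hb', Option.some.inj hc']

open Classical in
noncomputable def R1 (r : List α) : Option (ℕ × V) :=
  if h : ∃ p : ℕ × V, O.Rrel r p.1 p.2 then some h.choose else none

theorem R1_some {r : List α} {d : ℕ} {b : V} : O.R1 r = some (d, b) ↔ O.Rrel r d b := by
  classical
  unfold R1
  constructor
  · intro h
    by_cases hex : ∃ p : ℕ × V, O.Rrel r p.1 p.2
    · rw [dif_pos hex] at h
      have h1 := hex.choose_spec
      rw [Option.some.inj h] at h1
      exact h1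
    · rw [dif_neg hex] at h
      exact absurd h (by simp)
  · intro h
    have hex : ∃ p : ℕ × V, O.Rrel r p.1 p.2 := ⟨(d, b), h⟩
    rw [dif_pos hex]
    obtain ⟨h1, h2⟩ := O.Rrel_unique hex.choose_spec h
    congr 1
    exact Prod.ext h1 h2

/-- (E): a wall near its threshold -/
def EE (y : List α) : Prop := ∃ t, O.o.R (y.drop t) ∧ O.thr (t % O.D.q) ≤ t + O.N1 ∧
  t ≤ O.thr (t % O.D.q) + O.N1

/-- (B): a bad length -/
def BB (y : List α) : Prop := O.D.B ((O.N y - O.p0) / O.D.q)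

/-- (D): a small wall near a level -/
def DD (y : List α) : Prop := ∃ k t, k ≤ O.D.m ∧ O.D.A k ≤ t + O.D.q * O.D.M ∧
  t < O.D.A k + O.D.q * O.D.M ∧ O.D.r.R (((y.take (O.N y)).drop O.p0).drop t)

def Bad (y : List α) : Prop := O.EE y ∨ O.BB y ∨ O.DD y

/-- the junction: a left legal part meets a right legal part: the next anchor is where the right
part says -/
theorem N_junction {u r : List α} {v : V} {d : ℕ} {b : V} (hL : O.L1 u v) (hR : O.Rrel r d b) :
    O.N ((u ++ r).take O.Bm) = u.length + d := by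
  obtain ⟨h1, h2, c, om, H, hP, -⟩ := hL
  obtain ⟨hleg, hQ, hmin, hd, -⟩ := hR
  have hlen : u.length = O.p0 + O.D.q * om := by
    rw [List.length_drop] at hP; omega
  have hres : ∀ t, (u.length + t) % O.D.q = (O.p0 + t) % O.D.q := by
    intro t
    rw [hlen, show O.p0 + O.D.q * om + t = (O.p0 + t) + O.D.q * om by ring,
      Nat.add_mul_mod_self_left]
  apply O.N_eq
  · refine ⟨?_, ?_⟩
    · rw [R_drop_take, drop_add]
      exact ⟨hQ.1, by omega⟩
    · rw [hres]
      have := hQ.2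
      omega
  · intro t ht hq
    obtain ⟨hq1, hq2⟩ := hq
    rcases lt_or_ge t u.length with h3 | h3
    · have := O.thr_lo (t % O.D.q)
      omega
    · obtain ⟨s, rfl⟩ : ∃ s, t = u.length + s := ⟨t - u.length, by omega⟩
      rw [R_drop_take, drop_add] at hq1
      rw [hres] at hq2
      refine hmin s (by omega) ⟨hq1.1, ?_⟩
      by_contra hlt
      push Not at hlt
      exact hleg s hq1.1 ⟨hlt, by omega⟩

theorem zm_eq {X Y y : List α} (hX : X.length = O.p0) (hy : y.take (O.N y) = X ++ Y) (v : V) :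
    O.zm y v = O.D.act (O.D.act v (O.D.phi X) + O.nu2 X) (O.D.phi Y) + O.D.nu Y := by
  unfold zm nu
  rw [hy, O.D.hphi, O.act_mul, List.take_left' hX, List.drop_left' hX, O.act_add]
  abel

/-- **(SC1)** -/
theorem SC1 (hN1 : O.D.N1) (hN2 : O.D.N2) {u r : List α} {v : V} {d : ℕ} {b : V}
    (hL : O.L1 u v) (hR : O.R1 r = some (d, b)) :
    O.N ((u ++ r).take O.Bm) = u.length + d ∧ O.zm ((u ++ r).take O.Bm) v = b := by
  rw [R1_some] at hR
  have hN := O.N_junction hL hR
  refine ⟨hN, ?_⟩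
  obtain ⟨h1, h2, hLL⟩ := hL
  obtain ⟨hleg, hQ, hmin, hd, hRR⟩ := hR
  have hy : ((u ++ r).take O.Bm).take (O.N ((u ++ r).take O.Bm))
      = u.take O.p0 ++ (u.drop O.p0 ++ r.take d) := by
    rw [hN, List.take_take, min_eq_left (by omega), ← List.append_assoc, List.take_append_drop,
      List.take_length_add_append]
  rw [O.zm_eq (by rw [List.length_take]; omega) hy]
  exact (O.D.sound hN1 hN2 hLL hRR).symm

/-- **(CP1)** -/
theorem CP1 (hN3 : O.D.N3) (hF : O.D.Hides) {Cl : List α → Prop}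
    (hCl : ∀ w t, Cl w → Cl (w.drop t)) (hClt : ∀ w t, Cl w → Cl (w.take t))
    (hgo : ∀ w, Cl w → O.Go + O.o.n ≤ w.length → ∃ s, s ≤ O.Go ∧ O.o.R (w.drop s))
    (hg : ∀ w, Cl w → O.D.G + O.D.r.n ≤ w.length → ∃ s, s ≤ O.D.G ∧ O.D.r.R (w.drop s))
    (hcell : ∀ i, i < O.D.m → O.D.q * (O.D.lo i + O.D.M) ≤ O.N1)
    (hAm : O.D.A O.D.m + O.D.G + O.D.r.n ≤ O.N1)
    (hlo : ∀ i, i < O.D.m → O.D.A i + O.D.G + O.D.r.n ≤ O.D.q * O.D.lo i)
    {t : List α} (ht : Cl t) (hlen : O.Bm + O.D1 ≤ t.length) (hbad : ¬ O.Bad (t.take O.Bm))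
    (v : V) : ∃ x, O.p0 ≤ x ∧ x < O.Bm ∧ O.L1 (t.take x) v ∧
      (O.R1 ((t.drop x).take O.D1)).isSome := by
  classical
  have hb1 := O.bm_ge
  have hd1 := O.d1_ge
  have hopos := O.o.pos
  set y := t.take O.Bm with hy
  have hE : ¬ O.EE y := fun h => hbad (Or.inl h)
  have hB : ¬ O.BB y := fun h => hbad (Or.inr (Or.inl h))
  have hD : ¬ O.DD y := fun h => hbad (Or.inr (Or.inr h))
  -- the next anchor
  obtain ⟨s, hs, hsR⟩ := hgo (t.drop O.T) (hCl _ _ ht) (by rw [List.length_drop]; omega)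
  rw [List.drop_drop] at hsR
  have hQs : O.Qf y (O.T + s) := by
    refine ⟨?_, ?_⟩
    · rw [hy, R_drop_take]
      exact ⟨hsR, by omega⟩
    · have := O.thr_hi ((O.T + s) % O.D.q)
      omega
  obtain ⟨hNq, hNmin⟩ := O.N_spec ⟨_, hQs⟩
  set n := O.N y with hn
  have hnle : n ≤ O.T + s := by
    by_contra h
    push Not at h
    exact hNmin _ h hQs
  have hnR : O.o.R (t.drop n) := by
    have := hNq.1
    rw [hy, R_drop_take] at this
    exact this.1
  have hnlo : O.p0 + O.N1 < n := lt_of_lt_of_le (O.thr_lo _) hNq.2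
  have hyn : y.take n = t.take n := by
    rw [hy, List.take_take, min_eq_left (by omega)]
  set Z := (y.take n).drop O.p0 with hZ
  have hZlen : Z.length = n - O.p0 := by
    rw [hZ, hyn, List.length_drop, List.length_take]; omega
  have hZCl : Cl Z := by rw [hZ, hyn]; exact hCl _ _ (hClt _ _ ht)
  -- the small walls
  have hAle : ∀ k, k ≤ O.D.m → O.D.A k ≤ O.D.A O.D.m := fun k hk => O.D.monoA hk
  have hex : ∀ k, k ≤ O.D.m → ∃ h, FW O.D.r Z (O.D.A k) h ∧ h ≤ O.D.A k + O.D.G := by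
    intro k hk
    have h1 := hAle k hk
    obtain ⟨s', hs', hsR'⟩ := hg (Z.drop (O.D.A k)) (hCl _ _ hZCl)
      (by rw [List.length_drop, hZlen]; omega)
    rw [List.drop_drop] at hsR'
    have hP : ∃ h, O.D.A k ≤ h ∧ O.D.r.R (Z.drop h) := ⟨_, Nat.le_add_right _ _, hsR'⟩
    refine ⟨Nat.find hP, ⟨(Nat.find_spec hP).1, (Nat.find_spec hP).2, ?_⟩, ?_⟩
    · intro t' h2 h3 h4
      exact Nat.find_min hP h3 ⟨h2, h4⟩
    · exact le_trans (Nat.find_min' hP ⟨Nat.le_add_right _ _, hsR'⟩) (by omega)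
  choose! H hH hHG using hex
  have hBZ : ¬ O.D.B (Z.length / O.D.q) := by rw [hZlen]; exact hB
  have hnear : ∀ k, k ≤ O.D.m → ∀ t, O.D.A k ≤ t + O.D.q * O.D.M →
      t < O.D.A k + O.D.q * O.D.M → ¬ O.D.r.R (Z.drop t) := by
    intro k hk t' h1 h2 h3
    exact hD ⟨k, t', hk, h1, h2, h3⟩
  obtain ⟨P, Q, i, om, hPQ, hi, hPlen, hlo1, hlo2, hLL, b, hRR⟩ := O.D.complete hN3 hF hBZ H hH
    hHG hlo hnear (fun i hi => by rw [hZlen]; have := hcell i hi; omega)
    (O.D.act v (O.D.phi (t.take O.p0)) + O.nu2 (t.take O.p0))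
  have homN : P.length ≤ O.N1 := by
    rw [hPlen]
    refine le_trans (Nat.mul_le_mul_left _ ?_) (hcell i hi)
    omega
  have hZt : Z = (t.drop O.p0).take (n - O.p0) := by rw [hZ, hyn, List.drop_take]
  have hPt : P = (t.drop O.p0).take P.length := by
    have h1 : Z.take P.length = P := by rw [hPQ, List.take_left]
    have h2 : P.length ≤ n - O.p0 := by omega
    conv_lhs => rw [← h1, hZt, List.take_take, min_eq_left h2]
  have hQt : Q = (t.drop (O.p0 + P.length)).take (n - O.p0 - P.length) := by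
    have h1 : Z.drop P.length = Q := by rw [hPQ, List.drop_left]
    rw [← h1, hZt, List.drop_take, List.drop_drop]
  refine ⟨O.p0 + P.length, by omega, by omega, ⟨?_, ?_, ?_⟩, ?_⟩
  · rw [List.length_take]; omega
  · rw [List.length_take]; omega
  · rw [List.take_take, min_eq_left (by omega), List.drop_take,
      show O.p0 + P.length - O.p0 = P.length by omega, ← hPt]
    exact hLL
  · have hxq : ∀ t', (O.p0 + P.length + t') % O.D.q = (O.p0 + t') % O.D.q := by
      intro t'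
      rw [hPlen, show O.p0 + O.D.q * om + t' = (O.p0 + t') + O.D.q * om by ring,
        Nat.add_mul_mod_self_left]
    have hleg : O.Legal ((t.drop (O.p0 + P.length)).take O.D1) := by
      intro t' h1 ⟨h2, h3⟩
      rw [R_drop_take, List.drop_drop] at h1
      have h4 := O.thr_hi ((O.p0 + t') % O.D.q)
      refine hE ⟨O.p0 + P.length + t', ?_, ?_, ?_⟩
      · rw [hy, R_drop_take]
        exact ⟨h1.1, by omega⟩
      · rw [hxq]; omega
      · rw [hxq]; omega
    have hrel : O.Rrel ((t.drop (O.p0 + P.length)).take O.D1) (n - O.p0 - P.length) b := by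
      refine ⟨hleg, ⟨?_, ?_⟩, ?_, ?_, ?_⟩
      · rw [R_drop_take, List.drop_drop,
          show O.p0 + P.length + (n - O.p0 - P.length) = n by omega]
        exact ⟨hnR, by omega⟩
      · by_contra hlt
        push Not at hlt
        have h5 := hleg (n - O.p0 - P.length) (by
          rw [R_drop_take, List.drop_drop,
            show O.p0 + P.length + (n - O.p0 - P.length) = n by omega]
          exact ⟨hnR, by omega⟩)
        have h6 := hNq.2
        have h7 := hxq (n - O.p0 - P.length)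
        rw [show O.p0 + P.length + (n - O.p0 - P.length) = n by omega] at h7
        rw [h7] at h6
        exact h5 ⟨hlt, by omega⟩
      · intro t' h1 ⟨h2, h3⟩
        rw [R_drop_take, List.drop_drop] at h2
        refine hNmin (O.p0 + P.length + t') (by omega) ⟨?_, ?_⟩
        · rw [hy, R_drop_take]
          exact ⟨h2.1, by omega⟩
        · rw [hxq]; omega
      · omega
      · rw [List.take_take, min_eq_left (by omega), ← hQt]
        exact hRR
    rw [(O.R1_some).2 hrel]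
    rfl

/-- **(n)**: `0 < N`, `N ≤ Bm`, `Bm - N ≤ q0` -/
theorem N_bounds {q0 : ℕ} (hq0 : ∀ ρ, O.Bm ≤ O.thr ρ + q0) (y : List α) (hy : y.length ≤ O.Bm) :
    0 < O.N y ∧ O.N y ≤ O.Bm ∧ O.Bm - O.N y ≤ q0 := by
  classical
  have hb1 := O.bm_ge
  have hopos := O.o.pos
  by_cases h : ∃ t, O.Qf y t
  · obtain ⟨⟨h1, h2⟩, -⟩ := O.N_spec h
    have h3 := O.o.len _ h1
    rw [List.length_drop] at h3
    have h4 := O.thr_lo (O.N y % O.D.q)
    have h5 := hq0 (O.N y % O.D.q)
    refine ⟨?_, ?_, ?_⟩ <;> omega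
  · unfold N
    rw [dif_neg h]
    refine ⟨?_, ?_, ?_⟩ <;> omega

end Outer

end Crest.Agent.R320.Sc1_901
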