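import Crest.Agent.R320.Exact_808

/-!
Row 320, P3 (scheme 2 = promise ruler + exact gadget) in the literal form of 163's `top`
(#13363): blocks of a code `XX`, one token system, right words = rest of the block ++ one more block.

`bad c Q` : the block whose anchor lies `c` places left of the text `Q` is bad for scheme 1.
-/

set_option autoImplicit false

namespace Crest.Agent.R320.Sc2Block_455

open Crest.Agent.R320.Exact808

/-- zone map of both schemes -/
def TT {α S V : Type*} [AddCommGroup V] (φ : List α → S) (act : V → S → V) (p0 : ℕ)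
    (nu2 nu1 : List α → V) (v : V) (X : List α) : V :=
  act (act v (φ (X.take p0)) + nu2 (X.take p0)) (φ (X.drop p0)) + nu1 (X.drop p0)

/-- left legality of scheme 1 in the frame of the anchor -/
def L1 {α S V : Type*} [AddCommGroup V] (φ : List α → S) (act : V → S → V) (p0 : ℕ)
    (nu2 : List α → V) (LL : List α → V → Prop) (P : List α) (v : V) : Prop :=
  p0 ≤ P.length ∧ LL (P.drop p0) (act v (φ (P.take p0)) + nu2 (P.take p0))

/-- the block of the anchor `c` places left of `Q` is visible in `Q` -/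
def Vis {α : Type*} (XX : Set (List α)) (c : ℕ) (Q : List α) : Prop :=
  ∃ t ≤ Q.length, ∃ P' : List α, P'.length = c ∧ P' ++ Q.take t ∈ XX

theorem scheme2 (S V : Type*) [Monoid S] [Finite S] [AddCommGroup V] [Finite V] :
    ∃ m k : ℕ, ∀ (α : Type*) (φ : List α → S), (∀ u v, φ (u ++ v) = φ u * φ v) →
      ∀ (act : V → S → V) (XX : Set (List α)) (p0 : ℕ) (B : ℕ → ℕ)
        (ctx : ℕ → Option (ℕ × Fin k)),
      Monotone B → B 0 = 0 → B m = p0 →
      (∀ x i cc, ctx x = some (i, cc) → i < m ∧ B i ≤ x ∧ x ≤ B (i + 1)) →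
      (∀ X ∈ XX, p0 < X.length) →
      (∀ P P' Q : List α, P.length = P'.length → P.length ≤ p0 → P ++ Q ∈ XX → P' ++ Q ∈ XX) →
      ∃ (nu2 : List α → V) (LP2 : List α → V → Prop),
      (∀ P v, LP2 P v → P.length ≤ p0) ∧
      ∀ (nu1 : List α → V) (LL : List α → V → Prop) (R1 : List α → Option V)
        (bad : ℕ → List α → Prop),
      -- scheme 1 is complete on blocks which are not bad
      (∀ (P Q : List α) (t : ℕ), (ctx P.length).isSome → P.length ≤ p0 → t ≤ Q.length →
        P ++ Q.take t ∈ XX → ¬ bad P.length Q →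
        ∀ u, ∃ P' Q', (P ++ Q.take t).drop p0 = P' ++ Q' ∧ LL P' u ∧ (R1 Q').isSome) →
      -- bad is thin
      (∀ X ∈ XX, ∀ X2 ∈ XX,
        (∃ u, ¬ ∃ P' Q', X.drop p0 = P' ++ Q' ∧ LL P' u ∧ (R1 Q').isSome) →
        ∀ i < m, ∀ cc : Fin k, ∃ x, ctx x = some (i, cc) ∧ x ≤ p0 ∧
          ∀ x', (ctx x').isSome → x' ≤ p0 →
            Vis XX x' ((X ++ X2).drop x) ∧ (bad x' ((X ++ X2).drop x) → x' = x)) →
      ∃ R2 : List α → Option V,
        (∀ Q b, R2 Q = some b → Q ≠ []) ∧
        (∀ P v Q b, LP2 P v → R2 Q = some b →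
          (∀ X ∈ XX, X <+: P ++ Q → ∀ P' Q', X = P' ++ Q' → P.length ≤ P'.length →
            L1 φ act p0 nu2 LL P' v → (R1 Q').isSome → False) →
          ∃ Q1 X2, Q = Q1 ++ X2 ∧ Q1 ≠ [] ∧ P ++ Q1 ∈ XX ∧ X2 ∈ XX ∧
            TT φ act p0 nu2 nu1 (TT φ act p0 nu2 nu1 v (P ++ Q1)) X2 = b) ∧
        (∀ X ∈ XX, ∀ X2 ∈ XX, ∀ v,
          (∃ P Q, X = P ++ Q ∧ L1 φ act p0 nu2 LL P v ∧ (R1 Q).isSome) ∨
          (∃ P Q, X ++ X2 = P ++ Q ∧ P.length < X.length ∧ LP2 P v ∧ (R2 Q).isSome)) := by
  classical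
  obtain ⟨m, k, hG⟩ := exact_gadget S V
  refine ⟨m, k, ?_⟩
  intro α φ hφ act XX p0 B ctx hB hB0 hBm hctx hlong hins
  obtain ⟨lam, hlam⟩ := hG α φ hφ B ctx hB hB0 hctx
  obtain ⟨rho, nu2, hs, hc⟩ := hlam act
  refine ⟨nu2, fun P v => (ctx P.length).isSome ∧ P.length ≤ p0 ∧ lam P = some v,
    fun P v h => h.2.1, ?_⟩
  intro nu1 LL R1 bad hcomp hthin
  let Rel : List α → V → Prop := fun Q b => ∃ (c t : ℕ) (r : V), (ctx c).isSome ∧ c ≤ p0 ∧
    (∀ c', (ctx c').isSome → c' ≤ p0 → Vis XX c' Q) ∧
    (∀ c', (ctx c').isSome → c' ≤ p0 → bad c' Q → c' = c) ∧ t ≤ Q.length ∧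
    (∃ P' : List α, P'.length = c ∧ P' ++ Q.take t ∈ XX) ∧ Q.drop t ∈ XX ∧
    rho (Q.take (p0 - c)) = some r ∧
    b = TT φ act p0 nu2 nu1 (act r (φ ((Q.take t).drop (p0 - c))) +
      nu1 ((Q.take t).drop (p0 - c))) (Q.drop t)
  let R2 : List α → Option V := fun Q => if h : ∃ b, Rel Q b then some h.choose else none
  have hR2 : ∀ Q b, R2 Q = some b → Rel Q b := by
    intro Q b h
    by_cases h' : ∃ b, Rel Q b
    · simp only [R2, dif_pos h', Option.some.injEq] at h
      rw [← h]; exact h'.choose_spec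
    · simp only [R2, dif_neg h'] at h
      exact (Option.some_ne_none _ h.symm).elim
  have hR2' : ∀ Q b, Rel Q b → (R2 Q).isSome := by
    intro Q b h
    have h' : ∃ b, Rel Q b := ⟨b, h⟩
    simp only [R2, dif_pos h', Option.isSome_some]
  refine ⟨R2, ?_, ?_, ?_⟩
  · intro Q b h hQ
    obtain ⟨c, t, r, -, -, -, -, ht, -, hX, -⟩ := hR2 Q b h
    subst hQ
    have := hlong _ hX
    simp at this
  · rintro P v Q b ⟨hc1, hc2, hlP⟩ hQ hun
    obtain ⟨c, t, r, hc3, hc4, hvis, hun2, ht, ⟨P1, hP1, hP1X⟩, hX2, hr, hb⟩ := hR2 Q b hQ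
    -- the true block is bad
    have hbad : bad P.length Q := by
      by_contra hnb
      obtain ⟨t', ht', P2, hP2, hP2X⟩ := hvis _ hc1 hc2
      have hX : P ++ Q.take t' ∈ XX := hins P2 P _ hP2 (by rw [hP2]; exact hc2) hP2X
      have hlX := hlong _ hX
      obtain ⟨P', Q', he, hLL, hRR⟩ := hcomp P Q t' hc1 hc2 ht' hX hnb
        (act v (φ ((P ++ Q.take t').take p0)) + nu2 ((P ++ Q.take t').take p0))
      have hX1l : ((P ++ Q.take t').take p0).length = p0 := by
        rw [List.length_take]; omega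
      refine hun _ hX ?_ ((P ++ Q.take t').take p0 ++ P') Q' ?_ ?_ ?_ hRR
      · exact (List.prefix_append_right_inj P).2 (List.take_prefix _ _)
      · rw [List.append_assoc, ← he, List.take_append_drop]
      · rw [List.length_append, hX1l]; omega
      · refine ⟨by rw [List.length_append, hX1l]; omega, ?_⟩
        rw [List.drop_left' hX1l, List.take_left' hX1l]
        exact hLL
    have hPc : P.length = c := hun2 _ hc1 hc2 hbad
    have hX : P ++ Q.take t ∈ XX := hins P1 P _ (hP1.trans hPc.symm) (by rw [hP1]; exact hc4) hP1X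
    have hlX := hlong _ hX
    rw [List.length_append, List.length_take, Nat.min_eq_left ht] at hlX
    refine ⟨Q.take t, Q.drop t, (List.take_append_drop t Q).symm, ?_, hX, hX2, ?_⟩
    · intro h0
      have := congrArg List.length h0
      rw [List.length_take, List.length_nil] at this
      omega
    · have hq : (Q.take (p0 - c)).length = p0 - c := by rw [List.length_take]; omega
      have hs' := hs P (Q.take (p0 - c)) v r (by rw [hBm, hq]; omega) hlP hr
      have hZt : (P ++ Q.take t).take p0 = P ++ Q.take (p0 - c) := by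
        rw [List.take_append, List.take_of_length_le hc2, List.take_take, hPc]
        congr 2
        omega
      have hZd : (P ++ Q.take t).drop p0 = (Q.take t).drop (p0 - c) := by
        rw [List.drop_append, List.drop_eq_nil_of_le hc2, List.nil_append, hPc]
      have h1 : TT φ act p0 nu2 nu1 v (P ++ Q.take t) =
          act r (φ ((Q.take t).drop (p0 - c))) + nu1 ((Q.take t).drop (p0 - c)) := by
        unfold TT
        rw [hZt, hZd, ← hs']
      rw [h1, hb]
  · intro X hX X2 hX2 v
    by_cases h : ∃ P' Q', X.drop p0 = P' ++ Q' ∧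
        LL P' (act v (φ (X.take p0)) + nu2 (X.take p0)) ∧ (R1 Q').isSome
    · left
      obtain ⟨P', Q', he, hLL, hRR⟩ := h
      have hlX := hlong _ hX
      have hX1l : (X.take p0).length = p0 := by rw [List.length_take]; omega
      refine ⟨X.take p0 ++ P', Q', ?_, ⟨by rw [List.length_append, hX1l]; omega, ?_⟩, hRR⟩
      · rw [List.append_assoc, ← he, List.take_append_drop]
      · rw [List.drop_left' hX1l, List.take_left' hX1l]
        exact hLL
    · right
      have hlX := hlong _ hX
      have hul : (X.take p0).length = B m := by rw [List.length_take, hBm]; omega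
      obtain ⟨i, him, cc, hx⟩ := hc (X.take p0) v hul
      obtain ⟨x, hx1, hx2, hx3⟩ := hthin X hX X2 hX2 ⟨_, h⟩ i him cc
      obtain ⟨hl1, hl2⟩ := hx x hx1
      rw [List.take_take, Nat.min_eq_left hx2] at hl1
      obtain ⟨r, hr⟩ := Option.isSome_iff_exists.1 hl2
      have hPl : (X.take x).length = x := by rw [List.length_take]; omega
      have hd : (X ++ X2).drop x = X.drop x ++ X2 := by
        rw [List.drop_append_of_le_length (by omega)]
      have hdl : (X.drop x).length = X.length - x := List.length_drop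
      have ht1 : (X.drop x ++ X2).take (X.length - x) = X.drop x := List.take_left' hdl
      have ht2 : (X.drop x ++ X2).drop (X.length - x) = X2 := List.drop_left' hdl
      refine ⟨X.take x, X.drop x ++ X2, ?_, by rw [hPl]; omega, ?_, ?_⟩
      · rw [← List.append_assoc, List.take_append_drop]
      · refine ⟨?_, ?_, hl1⟩
        · rw [hPl, hx1]; rfl
        · rw [hPl]; exact hx2
      · refine hR2' _ _ ⟨x, X.length - x, r, by rw [hx1]; rfl, hx2, ?_, ?_, ?_, ?_, ?_, ?_, rfl⟩
        · intro c' h1 h2; rw [← hd]; exact (hx3 c' h1 h2).1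
        · intro c' h1 h2 h3; rw [← hd] at h3; exact (hx3 c' h1 h2).2 h3
        · rw [List.length_append, hdl]; omega
        · exact ⟨X.take x, hPl, by rw [ht1, List.take_append_drop]; exact hX⟩
        · rw [ht2]; exact hX2
        · have : (X.drop x ++ X2).take (p0 - x) = (X.take p0).drop x := by
            rw [List.take_append_of_le_length (by rw [hdl]; omega), List.drop_take]
          rw [this]; exact hr

end Crest.Agent.R320.Sc2Block_455
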