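import Mathlib
import Crest.Agent.R320.ExactR_237

/-!
Row 320, G3 (promise ruler): abstract joint.  From the exact gadget with redundancy and a bound on
the number of ambiguous places we get soundness and completeness of scheme 2.
-/

set_option autoImplicit false

namespace Crest.Agent.R320.Sc2_237

open Crest.Agent.R320.ExactR_237 (pr exact_gadget)

variable {α S V : Type}

/-- first part of a zone -/
def XX (p0 : ℕ) (y : List α) : List α := y.take p0
/-- second part of a zone -/
def YY (p0 : ℕ) (N : List α → ℕ) (y : List α) : List α := (y.take (N y)).drop p0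

/-- the zone map of both schemes -/
def zm [Monoid S] [Add V] (f : α → S) (act : V → S → V) (p0 : ℕ) (N : List α → ℕ)
    (nu1 nu2 : List α → V) (y : List α) (v : V) : V :=
  act (act v (pr f (XX p0 y)) + nu2 (XX p0 y)) (pr f (YY p0 N y)) + nu1 (YY p0 N y)

/-- hypothesis `k` is bad for the right word `r` -/
def Hyp (c : ℕ → ℕ) (Bm : ℕ) (Bad : List α → Prop) (r : List α) (k : ℕ) : Prop :=
  ∃ u : List α, u.length = c k ∧ Bad ((u ++ r).take Bm)

theorem scheme2 [Monoid S] [Fintype S] [Fintype V] [AddCommGroup V] (f : α → S)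
    (act : V → S → V) (κ : ℕ) :
    ∃ K : ℕ, ∀ c : ℕ → ℕ, (∀ i j, i < j → j < K → c i < c j) →
      ∃ nu2 : List α → V, ∃ L2 : List α → V → Prop,
      (∀ u v, L2 u v → ∃ k < K, u.length = c k) ∧
      ∀ (p0 Bm D2 : ℕ) (N : List α → ℕ) (Bad : List α → Prop) (Cl : List α → Prop)
        (nu1 : List α → V),
        (∀ k < K, c k ≤ p0) → p0 ≤ Bm → Bm ≤ D2 →
        (∀ k < K, ∀ u u' r : List α, u.length = c k → u'.length = c k → r.length = D2 →
          N ((u ++ r).take Bm) = N ((u' ++ r).take Bm)) →
        (∀ k < K, ∀ u u' r : List α, u.length = c k → u'.length = c k → r.length = D2 →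
          (Bad ((u ++ r).take Bm) → Bad ((u' ++ r).take Bm))) →
        (∀ k < K, ∀ u r : List α, u.length = c k → r.length = D2 → Cl (u ++ r) →
          p0 ≤ N ((u ++ r).take Bm) ∧ N ((u ++ r).take Bm) ≤ Bm) →
        (∀ t : List α, Cl t → Bm + D2 ≤ t.length → Bad (t.take Bm) →
          ∃ J : Finset ℕ, J.card ≤ κ ∧ ∀ k < K, k ∉ J → ∀ k' < K,
            Hyp c Bm Bad ((t.drop (c k)).take D2) k' → k' = k) →
        ∃ R2 : List α → Option (ℕ × V),
          (∀ (u r : List α) (v b : V) (d : ℕ), Cl (u ++ r) → r.length = D2 → L2 u v →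
            R2 r = some (d, b) → Bad ((u ++ r).take Bm) →
            N ((u ++ r).take Bm) = u.length + d ∧
              zm f act p0 N nu1 nu2 ((u ++ r).take Bm) v = b) ∧
          (∀ t : List α, Cl t → Bm + D2 ≤ t.length → Bad (t.take Bm) → ∀ v : V,
            ∃ k < K, L2 (t.take (c k)) v ∧ (R2 ((t.drop (c k)).take D2)).isSome) := by
  classical
  obtain ⟨K, hK⟩ := exact_gadget α S V f act (κ + 1)
  refine ⟨K, fun c hc => ?_⟩
  obtain ⟨lam, rho, nuE, hsound, hcomp⟩ := hK c hc
  refine ⟨fun X => nuE X 1, fun u v => ∃ k < K, u.length = c k ∧ lam k u = some v, ?_, ?_⟩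
  · rintro u v ⟨k, hk, h, _⟩
    exact ⟨k, hk, h⟩
  intro p0 Bm D2 N Bad Cl nu1 hcp hpB hBD locN locB hN hamb
  -- the right reading
  let G : List α → ℕ → Prop := fun r k => k < K ∧ Hyp c Bm Bad r k
  let Un : List α → ℕ → Prop := fun r k => G r k ∧ ∀ k', G r k' → k' = k
  let Val : List α → ℕ → List α → ℕ × V → Prop := fun r k u x =>
    ∃ b', rho k (r.take (p0 - c k)) 1 = some b' ∧
      x = (N ((u ++ r).take Bm) - c k,
          act b' (pr f ((r.drop (p0 - c k)).take (N ((u ++ r).take Bm) - p0))) +
          nu1 ((r.drop (p0 - c k)).take (N ((u ++ r).take Bm) - p0)))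
  let R2 : List α → Option (ℕ × V) := fun r =>
    if h : ∃ x : ℕ × V, ∃ k u, Un r k ∧ u.length = c k ∧ Val r k u x then some h.choose else none
  -- computation of the right reading
  have hR2 : ∀ (r : List α) (k : ℕ), r.length = D2 → Un r k → ∀ u : List α, u.length = c k →
      ∀ x, R2 r = some x → Val r k u x := by
    intro r k hr hk u hu x hx
    by_cases hex : ∃ x : ℕ × V, ∃ k u, Un r k ∧ u.length = c k ∧ Val r k u x
    · have h1 : R2 r = some hex.choose := by
        show (if h : ∃ x : ℕ × V, ∃ k u, Un r k ∧ u.length = c k ∧ Val r k u x then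
          some h.choose else none) = _
        rw [dif_pos hex]
      rw [h1] at hx
      have h2 : hex.choose = x := Option.some.inj hx
      obtain ⟨k', u', hk', hu', hv⟩ := hex.choose_spec
      rw [h2] at hv
      have hkk : k' = k := hk.2 k' hk'.1
      subst hkk
      have hNN : N ((u' ++ r).take Bm) = N ((u ++ r).take Bm) :=
        locN k' hk.1.1 _ _ _ hu' hu hr
      obtain ⟨b', hb', hxx⟩ := hv
      exact ⟨b', hb', by rw [hxx, hNN]⟩
    · exfalso
      have h1 : R2 r = none := by
        show (if h : ∃ x : ℕ × V, ∃ k u, Un r k ∧ u.length = c k ∧ Val r k u x then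
          some h.choose else none) = _
        rw [dif_neg hex]
      rw [h1] at hx
      exact absurd hx (by simp)
  -- parts of the text
  have hX : ∀ (u r : List α), u.length ≤ p0 → XX p0 ((u ++ r).take Bm) = u ++ r.take (p0 - u.length) := by
    intro u r hu
    unfold XX
    rw [List.take_take, min_eq_left hpB, List.take_append, List.take_of_length_le hu]
  have hY : ∀ (u r : List α) (n : ℕ), u.length ≤ p0 → n ≤ Bm →
      (((u ++ r).take Bm).take n).drop p0 = (r.drop (p0 - u.length)).take (n - p0) := by
    intro u r n hu hn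
    rw [List.take_take, min_eq_left hn, List.drop_take, List.drop_append,
      List.drop_of_length_le hu, List.nil_append]
  refine ⟨R2, ?_, ?_⟩
  · rintro u r v b d hCl hr ⟨k, hk, hu, hlam⟩ hR hbad
    have hG : G r k := ⟨hk, u, hu, hbad⟩
    -- the unique hypothesis is `k`
    have hUn : Un r k := by
      by_cases hex : ∃ k, Un r k
      · obtain ⟨k', hk'⟩ := hex
        have : k = k' := hk'.2 k hG
        rw [this]; exact hk'
      · exfalso
        have : R2 r = none := by
          show (if h : ∃ x : ℕ × V, ∃ k u, Un r k ∧ u.length = c k ∧ Val r k u x then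
            some h.choose else none) = _
          rw [dif_neg]
          rintro ⟨_, k', _, hk', _⟩
          exact hex ⟨k', hk'⟩
        rw [this] at hR
        exact absurd hR (by simp)
    obtain ⟨b', hb', heq⟩ := hR2 r k hr hUn u hu _ hR
    obtain ⟨h1, h2⟩ := Prod.mk.inj heq
    obtain ⟨hN1, hN2⟩ := hN k hk u r hu hr hCl
    have hcple := hcp k hk
    refine ⟨by omega, ?_⟩
    have hup : u.length ≤ p0 := by omega
    have hs := hsound k hk u (r.take (p0 - c k)) 1 v b' hu hlam hb'
    unfold zm YY
    rw [hX u r hup, hY u r _ hup hN2, hu]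
    rw [mul_one] at hs
    rw [← hs]
    exact h2.symm
  · intro t hCl ht hbad v
    obtain ⟨J, hJ, hJ2⟩ := hamb t hCl ht hbad
    have hlenX : (t.take p0).length = p0 := by
      rw [List.length_take]; omega
    obtain ⟨I, hI, hI2⟩ := hcomp (t.take p0) 1 v (fun k hk => by rw [hlenX]; exact hcp k hk)
    obtain ⟨k, hkI, hkJ⟩ : ∃ k ∈ I, k ∉ J := by
      by_contra hcon
      push Not at hcon
      have : I.card ≤ J.card := Finset.card_le_card hcon
      omega
    obtain ⟨hkK, hlam, hrho⟩ := hI2 k hkI
    have hck := hcp k hkK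
    have hcl : (t.take (c k)).length = c k := by rw [List.length_take]; omega
    have hrl : ((t.drop (c k)).take D2).length = D2 := by
      rw [List.length_take, List.length_drop]; omega
    have htt : (t.take p0).take (c k) = t.take (c k) := by
      rw [List.take_take, min_eq_left hck]
    have hdd : (t.take p0).drop (c k) = ((t.drop (c k)).take D2).take (p0 - c k) := by
      rw [List.drop_take, List.take_take, min_eq_left (by omega)]
    have hcat : (t.take (c k) ++ (t.drop (c k)).take D2).take Bm = t.take Bm := by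
      have h1 : t.take (c k) ++ (t.drop (c k)).take D2 = t.take (c k + D2) := by
        rw [List.take_add]
      rw [h1, List.take_take, min_eq_left (by omega)]
    refine ⟨k, hkK, ⟨k, hkK, hcl, by rw [← htt]; exact hlam⟩, ?_⟩
    have hUn : Un ((t.drop (c k)).take D2) k := by
      refine ⟨⟨hkK, t.take (c k), hcl, by rw [hcat]; exact hbad⟩, ?_⟩
      rintro k' ⟨hk', hh⟩
      exact hJ2 k hkK hkJ k' hk' hh
    rw [hdd] at hrho
    obtain ⟨b', hb'⟩ := Option.isSome_iff_exists.1 hrho
    have hex : ∃ x : ℕ × V, ∃ k' u, Un ((t.drop (c k)).take D2) k' ∧ u.length = c k' ∧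
        Val ((t.drop (c k)).take D2) k' u x :=
      ⟨_, k, t.take (c k), hUn, hcl, b', hb', rfl⟩
    show (if h : ∃ x : ℕ × V, ∃ k' u, Un ((t.drop (c k)).take D2) k' ∧ u.length = c k' ∧
        Val ((t.drop (c k)).take D2) k' u x then some h.choose else none).isSome
    rw [dif_pos hex]
    rfl

end Crest.Agent.R320.Sc2_237
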