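import Mathlib
import Crest.Agent.R320.ExactR_237

/-!
# Row 320: (SC2) + (CP2) of 131 #13123, abstract in `N`, `Bad`, `nu1` (helper343)

`nu2` depends on the places `c` only.  Zone = X ++ Y, `|X| = p0`; the noise of the zone is
`act (nu2 X) (phi Y) + nu1 Y`, i.e. `zm (X ++ Y) v = act (act v (phi X) + nu2 X) (phi Y) + nu1 Y`.
`N` (zone length) and `Bad` are read right of `p0`; ruler hypothesis: fewer than `R` ambiguous places.
-/

set_option autoImplicit false

namespace Crest.Agent.R320.Sc2_343

open Crest.Agent.R320.ExactR_237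

/-- the noise of the whole zone, `y` = the `Bm` letters behind the anchor, `N y` = zone length -/
def nuz {α S V : Type} [Monoid S] [AddCommGroup V] (f : α → S) (act : V → S → V) (p0 : ℕ)
    (N : List α → ℕ) (nu2 nu1 : List α → V) (y : List α) : V :=
  act (nu2 (y.take p0)) (pr f ((y.take (N y)).drop p0)) + nu1 ((y.take (N y)).drop p0)

/-- zone map -/
def zm {α S V : Type} [Monoid S] [AddCommGroup V] (f : α → S) (act : V → S → V) (p0 : ℕ)
    (N : List α → ℕ) (nu2 nu1 : List α → V) (y : List α) (v : V) : V :=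
  act v (pr f (y.take (N y))) + nuz f act p0 N nu2 nu1 y

theorem zm_eq {α S V : Type} [Monoid S] [AddCommGroup V] (f : α → S) (act : V → S → V)
    (hadd : ∀ v w s, act (v + w) s = act v s + act w s)
    (hmul : ∀ v s t, act v (s * t) = act (act v s) t) (p0 : ℕ)
    (N : List α → ℕ) (nu2 nu1 : List α → V) (y : List α) (v : V) (hN : p0 ≤ N y) :
    zm f act p0 N nu2 nu1 y v =
      act (act v (pr f (y.take p0)) + nu2 (y.take p0)) (pr f ((y.take (N y)).drop p0))
        + nu1 ((y.take (N y)).drop p0) := by
  have h1 : y.take (N y) = y.take p0 ++ (y.take (N y)).drop p0 := by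
    have h := (List.take_append_drop p0 (y.take (N y))).symm
    rw [List.take_take, min_eq_left hN] at h
    exact h
  unfold zm nuz
  rw [hadd, ← hmul, ← pr_append, ← h1, add_assoc]

/-- a word of a given length if there is one -/
noncomputable def fill {α : Type} (j : ℕ) : List α :=
  open Classical in if h : ∃ u : List α, u.length = j then h.choose else []

theorem fill_len {α : Type} (u : List α) : (fill (α := α) u.length).length = u.length := by
  classical
  have h : ∃ w : List α, w.length = u.length := ⟨u, rfl⟩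
  unfold fill
  rw [dif_pos h]
  exact h.choose_spec

/-- plausible hypothesis at the right word `Q`: the anchor is `j` letters to the left of it -/
def badR {α : Type} (Bm : ℕ) (Bad : List α → Prop) (j : ℕ) (Q : List α) : Prop :=
  ∃ u : List α, u.length = j ∧ Bad ((u ++ Q).take Bm)

theorem sc2 (α S V : Type) [Monoid S] [Fintype S] [Fintype V] [AddCommGroup V]
    (f : α → S) (act : V → S → V)
    (hadd : ∀ v w s, act (v + w) s = act v s + act w s)
    (hmul : ∀ v s t, act v (s * t) = act (act v s) t) (R : ℕ) :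
    ∃ K : ℕ, ∀ c : ℕ → ℕ, (∀ i j, i < j → j < K → c i < c j) →
      ∃ nu2 : List α → V, ∀ (Bm p0 q0 D₂ : ℕ), (∀ k < K, q0 ≤ c k ∧ c k ≤ p0) → p0 ≤ Bm → Bm ≤ D₂ →
      ∀ (N : List α → ℕ) (Bad : List α → Prop) (nu1 : List α → V),
      (∀ y, y.length = Bm → p0 ≤ N y ∧ N y ≤ Bm) →
      (∀ u u' r : List α, u.length = u'.length → u.length ≤ p0 →
        N ((u ++ r).take Bm) = N ((u' ++ r).take Bm)) →
      (∀ u u' r : List α, u.length = u'.length → u.length ≤ p0 →
        (Bad ((u ++ r).take Bm) ↔ Bad ((u' ++ r).take Bm))) →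
      ∃ (L₂ : List α → V → Prop) (R₂ : List α → Option (ℕ × V)),
        -- (left places)
        (∀ u v, L₂ u v → ∃ k < K, u.length = c k) ∧
        -- (left label is a function)
        (∀ u v v', L₂ u v → L₂ u v' → v = v') ∧
        -- (SC2)
        (∀ u r v d b, r.length = D₂ → L₂ u v → R₂ r = some (d, b) → Bad ((u ++ r).take Bm) →
          N ((u ++ r).take Bm) = u.length + d ∧ zm f act p0 N nu2 nu1 ((u ++ r).take Bm) v = b) ∧
        -- (CP2)
        (∀ t : List α, Bm + D₂ ≤ t.length → Bad (t.take Bm) →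
          (∃ amb : Finset ℕ, amb.card < R ∧ ∀ k < K, k ∉ amb → ∀ k' < K,
            badR Bm Bad (c k') ((t.drop (c k)).take D₂) → k' = k) →
          ∀ v, ∃ x, q0 ≤ x ∧ x ≤ p0 ∧ L₂ (t.take x) v ∧ (R₂ ((t.drop x).take D₂)).isSome) := by
  classical
  obtain ⟨K, hK⟩ := exact_gadget α S V f act R
  refine ⟨K, fun c hc => ?_⟩
  obtain ⟨lam, rho, nu, hs, hcomp⟩ := hK c hc
  refine ⟨fun X => nu X 1, fun Bm p0 q0 D₂ hp0 hp0B hBD N Bad nu1 hNr hN hB => ?_⟩
  have hinj : ∀ i < K, ∀ j < K, c i = c j → i = j := by
    intro i hi j hj h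
    rcases lt_trichotomy i j with hlt | heq | hgt
    · exact absurd h (ne_of_lt (hc i j hlt hj))
    · exact heq
    · exact absurd h.symm (ne_of_lt (hc j i hgt hi))
  -- unique plausible hypothesis
  let Uq : List α → ℕ → Prop := fun Q k => k < K ∧ badR Bm Bad (c k) Q ∧
    ∀ k' < K, badR Bm Bad (c k') Q → k' = k
  let NR : ℕ → List α → ℕ := fun k r => N ((fill (c k) ++ r).take Bm)
  let YR : ℕ → List α → List α := fun k r => (r.take (NR k r - c k)).drop (p0 - c k)
  let RR : ℕ → List α → Option (ℕ × V) := fun k r =>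
    (rho k (r.take (p0 - c k)) 1).map
      (fun b' => (NR k r - c k, act b' (pr f (YR k r)) + nu1 (YR k r)))
  refine ⟨fun u v => ∃ k, k < K ∧ u.length = c k ∧ lam k u = some v,
    fun r => if h : ∃ k, Uq r k then RR h.choose r else none, ?_, ?_, ?_, ?_⟩
  · rintro u v ⟨k, hk, hu, -⟩
    exact ⟨k, hk, hu⟩
  · rintro u v v' ⟨k, hk, hu, h1⟩ ⟨k', hk', hu', h1'⟩
    have : k = k' := hinj k hk k' hk' (hu.symm.trans hu')
    subst this
    rw [h1] at h1'
    exact Option.some.inj h1'
  · rintro u r v d b hr ⟨k, hk, hu, hlam⟩ hR hbad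
    by_cases hQ : ∃ k, Uq r k
    swap
    · simp only [dif_neg hQ] at hR
      cases hR
    simp only [dif_pos hQ] at hR
    obtain ⟨hk1, hk2, hk3⟩ := hQ.choose_spec
    set k1 := hQ.choose with hk1def
    have hkk : k = k1 := hk3 k hk ⟨u, hu, hbad⟩
    rw [← hkk] at hR
    have hle : c k ≤ p0 := (hp0 k hk).2
    -- the right side computes the true zone length
    have hfl : (fill (α := α) (c k)).length = u.length := by
      rw [← hu]; exact fill_len u
    have hNN : NR k r = N ((u ++ r).take Bm) := hN _ _ _ hfl (by rw [hfl, hu]; exact hle)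
    have hylen : ((u ++ r).take Bm).length = Bm := by
      rw [List.length_take, List.length_append]
      exact min_eq_left (by omega)
    obtain ⟨hN1, hN2⟩ := hNr _ hylen
    set y := (u ++ r).take Bm with hy
    have hytake : ∀ j, j ≤ Bm → y.take j = (u ++ r).take j := by
      intro j hj
      rw [hy, List.take_take, min_eq_left hj]
    have hX : y.take p0 = u ++ r.take (p0 - c k) := by
      rw [hytake p0 hp0B, List.take_append, hu,
        List.take_of_length_le (by rw [hu]; exact hle)]
    have hY : (y.take (N y)).drop p0 = YR k r := by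
      show (y.take (N y)).drop p0 = (r.take (NR k r - c k)).drop (p0 - c k)
      rw [hytake (N y) hN2, hNN, List.take_append, hu,
        List.take_of_length_le (by rw [hu]; exact hle.trans hN1), List.drop_append, hu,
        List.drop_eq_nil_of_le (by rw [hu]; exact hle), List.nil_append]
    -- unfold the right label
    have hR' : (rho k (r.take (p0 - c k)) 1).map
      (fun b' => (NR k r - c k, act b' (pr f (YR k r)) + nu1 (YR k r))) = some (d, b) := hR
    obtain ⟨b', hb', heq⟩ := Option.map_eq_some_iff.1 hR'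
    have hd : NR k r - c k = d := congrArg Prod.fst heq
    have hb : act b' (pr f (YR k r)) + nu1 (YR k r) = b := congrArg Prod.snd heq
    have hex := hs k hk u (r.take (p0 - c k)) 1 v b' hu hlam hb'
    constructor
    · rw [← hd, hNN, hu]
      omega
    · rw [zm_eq f act hadd hmul p0 N _ nu1 y v hN1, hX, hY, ← hb, hex, mul_one]
  · rintro t ht hbad ⟨amb, hamb, hun⟩ v
    obtain ⟨I, hI, hIk⟩ := hcomp (t.take p0) 1 v
      (fun k hk => by rw [List.length_take]; exact le_min (hp0 k hk).2 ((hp0 k hk).2.trans (by omega)))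
    have hne : ∃ k ∈ I, k ∉ amb := by
      by_contra hcon
      push Not at hcon
      exact absurd (Finset.card_le_card (fun k hk => hcon k hk)) (not_le.2 (lt_of_lt_of_le hamb hI))
    obtain ⟨k, hkI, hkamb⟩ := hne
    obtain ⟨hk, hl, hr⟩ := hIk k hkI
    have hle : c k ≤ p0 := (hp0 k hk).2
    have hlen : (t.take (c k)).length = c k := by
      rw [List.length_take]; exact min_eq_left (by omega)
    have hsplit : (t.take (c k) ++ (t.drop (c k)).take D₂).take Bm = t.take Bm := by
      have e1 : t.take (c k) ++ (t.drop (c k)).take D₂ = t.take (c k + D₂) := by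
        rw [List.take_add]
      rw [e1, List.take_take, min_eq_left (by omega)]
    have hbk : badR Bm Bad (c k) ((t.drop (c k)).take D₂) :=
      ⟨t.take (c k), hlen, by rw [hsplit]; exact hbad⟩
    have hQ : ∃ k', Uq ((t.drop (c k)).take D₂) k' :=
      ⟨k, hk, hbk, fun k' hk' h' => hun k hk hkamb k' hk' h'⟩
    refine ⟨c k, (hp0 k hk).1, hle, ⟨k, hk, hlen, ?_⟩, ?_⟩
    · rw [List.take_take, min_eq_left hle] at hl
      exact hl
    · simp only [dif_pos hQ]
      have h2 := hQ.choose_spec
      have h3 : hQ.choose = k := hun k hk hkamb _ h2.1 h2.2.1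
      rw [h3]
      show ((rho k (((t.drop (c k)).take D₂).take (p0 - c k)) 1).map _).isSome
      rw [Option.isSome_map]
      have e1 : (t.take p0).drop (c k) = ((t.drop (c k)).take D₂).take (p0 - c k) := by
        rw [List.take_take, min_eq_left (by omega : p0 - c k ≤ D₂), List.drop_take]
      rw [← e1]
      exact hr

end Crest.Agent.R320.Sc2_343
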