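import Mathlib
import Crest.Agent.R320.ExactR_237

/-!
Row 320, helper353: G3 = (SC2) + (CP2) of 131's interface (#13123), the promise scheme, from the
exact gadget of 237 (ExactR_237, tail letter `1`) and ONE abstract spoiling hypothesis (SP):
at most `R0` of the places `c k` see another bad candidate.
-/

set_option autoImplicit false

namespace Crest.Agent.R320.Sc2_353

open Crest.Agent.R320.ExactR_237

variable {α S V : Type} [Monoid S] [AddCommGroup V]

/-- The data of scheme 2. -/
structure Dat (α S V : Type) where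
  f : α → S
  act : V → S → V
  K : ℕ
  c : ℕ → ℕ
  p0 : ℕ
  Bm : ℕ
  lam : ℕ → List α → Option V
  rho : ℕ → List α → Option V
  nu2 : List α → V
  nu1 : List α → V
  N : List α → ℕ
  Bad : List α → Prop

variable (D : Dat α S V)

/-- the noise of a zone (read on the first `Bm` letters of the text) -/
def Dat.nu (y : List α) : V :=
  D.act (D.nu2 (y.take D.p0)) (pr D.f ((y.take (D.N y)).drop D.p0)) +
    D.nu1 ((y.take (D.N y)).drop D.p0)

/-- the zone map -/
def Dat.zm (y : List α) (v : V) : V := D.act v (pr D.f (y.take (D.N y))) + D.nu y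

/-- left label -/
def Dat.L2 (u : List α) (v : V) : Prop := ∃ k, k < D.K ∧ u.length = D.c k ∧ D.lam k u = some v

/-- `u` is a bad candidate at the place `k` -/
def Dat.Cand (r : List α) (k : ℕ) (u : List α) : Prop :=
  k < D.K ∧ u.length = D.c k ∧ D.Bad ((u ++ r).take D.Bm)

/-- right legality -/
def Dat.Leg (r : List α) (x : ℕ × List α × V) : Prop :=
  D.Cand r x.1 x.2.1 ∧ (∀ k' u', D.Cand r k' u' → k' = x.1) ∧
    D.rho x.1 (r.take (D.p0 - D.c x.1)) = some x.2.2

open Classical in
/-- right label -/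
noncomputable def Dat.R2 (r : List α) : Option (ℕ × V) :=
  if h : ∃ x : ℕ × List α × V, D.Leg r x then
    some (D.N ((h.choose.2.1 ++ r).take D.Bm) - D.c h.choose.1,
      D.act h.choose.2.2 (pr D.f ((((h.choose.2.1 ++ r).take D.Bm).take
        (D.N ((h.choose.2.1 ++ r).take D.Bm))).drop D.p0)) +
        D.nu1 ((((h.choose.2.1 ++ r).take D.Bm).take
        (D.N ((h.choose.2.1 ++ r).take D.Bm))).drop D.p0))
  else none

/-- the part behind `p0` does not depend on a short prefix of given length -/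
theorem drop_take_app {u u' r : List α} {a b p : ℕ} (h : u.length = u'.length)
    (hp : u.length ≤ p) :
    (((u ++ r).take a).take b).drop p = (((u' ++ r).take a).take b).drop p := by
  rw [List.take_take, List.take_take, List.take_append, List.take_append, h]
  rw [List.drop_append, List.drop_append]
  have h1 : (u.take (min b a)).drop p = [] := by
    rw [List.drop_eq_nil_iff, List.length_take]; omega
  have h2 : (u'.take (min b a)).drop p = [] := by
    rw [List.drop_eq_nil_iff, List.length_take]; omega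
  rw [h1, h2, List.length_take, List.length_take, h]

/-- hypotheses -/
structure Hyp (D : Dat α S V) (q0 D2 : ℕ) (Cl : List α → Prop) : Prop where
  act_mul : ∀ v s t, D.act v (s * t) = D.act (D.act v s) t
  act_add : ∀ v v' s, D.act (v + v') s = D.act v s + D.act v' s
  c_le : ∀ k < D.K, D.c k ≤ D.p0
  q_le : ∀ k < D.K, q0 ≤ D.c k
  p_le : D.p0 ≤ D.Bm
  B_le : D.Bm ≤ D2
  /-- exactness of the gadget -/
  exact : ∀ k < D.K, ∀ (P Q : List α) (v b : V), P.length = D.c k →
    D.lam k P = some v → D.rho k Q = some b → b = D.act v (pr D.f (P ++ Q)) + D.nu2 (P ++ Q)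
  Nlb : ∀ y : List α, y.length = D.Bm → D.p0 ≤ D.N y
  /-- `N` and `Bad` do not look at the first `p0` letters -/
  Nins : ∀ u u' w : List α, u.length = u'.length → u.length ≤ D.p0 →
    D.N ((u ++ w).take D.Bm) = D.N ((u' ++ w).take D.Bm)
  Bins : ∀ u u' w : List α, u.length = u'.length → u.length ≤ D.p0 →
    D.Bad ((u ++ w).take D.Bm) → D.Bad ((u' ++ w).take D.Bm)

variable {D}

/-- **(SC2)** -/
theorem sc2 {q0 D2 : ℕ} {Cl : List α → Prop} (H : Hyp D q0 D2 Cl) (u r : List α) (v b : V)
    (d : ℕ) (hr : r.length = D2) (hbad : D.Bad ((u ++ r).take D.Bm)) (hL : D.L2 u v)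
    (hR : D.R2 r = some (d, b)) :
    D.N ((u ++ r).take D.Bm) = u.length + d ∧ D.zm ((u ++ r).take D.Bm) v = b := by
  classical
  obtain ⟨k, hk, hu, hl⟩ := hL
  unfold Dat.R2 at hR
  split_ifs at hR with h
  obtain ⟨⟨h1, h2, h3⟩, h4, h5⟩ := h.choose_spec
  set x := h.choose with hx
  have hkx : k = x.1 := h4 k u ⟨hk, hu, hbad⟩
  have hlen : x.2.1.length = u.length := by rw [h2, hu, hkx]
  have hup : u.length ≤ D.p0 := by rw [hu]; exact H.c_le k hk
  have hN : D.N ((x.2.1 ++ r).take D.Bm) = D.N ((u ++ r).take D.Bm) :=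
    H.Nins _ _ _ hlen (by omega)
  rw [Option.some.injEq, Prod.mk.injEq] at hR
  obtain ⟨hd, hb⟩ := hR
  rw [hN, drop_take_app (u' := u) hlen (by omega)] at hb
  rw [hN] at hd
  have hB := H.B_le
  have hpB := H.p_le
  have hyl : ((u ++ r).take D.Bm).length = D.Bm := by
    rw [List.length_take, List.length_append]; omega
  have hNlb := H.Nlb _ hyl
  have hck : D.c x.1 = u.length := by rw [← hkx, hu]
  refine ⟨by omega, ?_⟩
  -- the value
  set y := (u ++ r).take D.Bm with hy
  have hX : y.take D.p0 = u ++ r.take (D.p0 - D.c x.1) := by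
    rw [hy, List.take_take, min_eq_left hpB, List.take_append, List.take_of_length_le hup, hck]
  have hex := H.exact k hk u (r.take (D.p0 - D.c x.1)) v x.2.2 hu hl (by rw [hkx]; exact h5)
  rw [← hX] at hex
  have hsplit : y.take (D.N y) = y.take D.p0 ++ (y.take (D.N y)).drop D.p0 := by
    conv_lhs => rw [← List.take_append_drop D.p0 (y.take (D.N y))]
    rw [List.take_take, min_eq_left hNlb]
  have hpr : pr D.f (y.take (D.N y)) =
      pr D.f (y.take D.p0) * pr D.f ((y.take (D.N y)).drop D.p0) := by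
    conv_lhs => rw [hsplit]
    simp only [pr, List.map_append, List.prod_append]
  unfold Dat.zm Dat.nu
  rw [hpr, H.act_mul, ← add_assoc, ← H.act_add, ← hex]
  exact hb

/-- **(CP2)** from the completeness with redundancy `Rr` of the gadget and the spoiling bound. -/
theorem cp2 {q0 D2 R0 Rr : ℕ} {Cl : List α → Prop} (H : Hyp D q0 D2 Cl) (hRR : R0 < Rr)
    (hcomp : ∀ (u : List α) (v : V), (∀ k < D.K, D.c k ≤ u.length) →
      ∃ I : Finset ℕ, Rr ≤ I.card ∧ ∀ k ∈ I, k < D.K ∧ D.lam k (u.take (D.c k)) = some v ∧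
        (D.rho k (u.drop (D.c k))).isSome)
    (t : List α) (ht : D.Bm + D2 ≤ t.length) (hbad : D.Bad (t.take D.Bm))
    (hsp : ∃ J : Finset ℕ, J.card ≤ R0 ∧ ∀ k < D.K, k ∉ J → ∀ k' u',
      D.Cand ((t.drop (D.c k)).take D2) k' u' → k' = k)
    (v : V) :
    ∃ x, q0 ≤ x ∧ x ≤ D.p0 ∧ D.L2 (t.take x) v ∧ (D.R2 ((t.drop x).take D2)).isSome := by
  classical
  have hB := H.B_le
  have hpB := H.p_le
  obtain ⟨I, hI, hI2⟩ := hcomp (t.take D.p0) v (fun k hk => by
    rw [List.length_take]; have := H.c_le k hk; omega)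
  obtain ⟨J, hJ, hJ2⟩ := hsp
  obtain ⟨k, hkI, hkJ⟩ : ∃ k ∈ I, k ∉ J := by
    by_contra hcon
    push Not at hcon
    have : I.card ≤ J.card := Finset.card_le_card fun k hk => hcon k hk
    omega
  obtain ⟨hk, hl, hr⟩ := hI2 k hkI
  have hck := H.c_le k hk
  refine ⟨D.c k, H.q_le k hk, hck, ⟨k, hk, ?_, ?_⟩, ?_⟩
  · rw [List.length_take]; omega
  · rw [List.take_take, min_eq_left hck] at hl
    exact hl
  · unfold Dat.R2
    obtain ⟨b, hb⟩ := Option.isSome_iff_exists.1 hr
    have hleg : D.Leg ((t.drop (D.c k)).take D2) (k, t.take (D.c k), b) := by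
      refine ⟨⟨hk, ?_, ?_⟩, ?_, ?_⟩
      · simp only [List.length_take]; omega
      · have : (t.take (D.c k) ++ (t.drop (D.c k)).take D2).take D.Bm = t.take D.Bm := by
          rw [← List.take_add, List.take_take, min_eq_left (by omega)]
        simp only
        rw [this]
        exact hbad
      · intro k' u' hc
        exact hJ2 k hk hkJ k' u' hc
      · simp only
        rw [List.take_take, min_eq_left (by omega), ← List.drop_take]
        exact hb
    rw [dif_pos ⟨_, hleg⟩]
    rfl

end Crest.Agent.R320.Sc2_353
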