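import Crest.Agent.R320.ExactW_355

set_option autoImplicit false

/-!
Row 320, box G3: scheme 2 (promise ruler) in the buffer form SC2, CP2 of helper131 (#13123), from the
exact gadget on words and ONE hypothesis `SP` (a bad zone spoils at most `s` places of the ruler).
-/

namespace Crest.Agent.R320.Sc2_355

open Crest.Agent.R320.ExactW_355

variable {α S V : Type*}

/-- The `Y` part of the zone whose anchor is `c` places left of the beginning of `r`. -/
def Yp (Bm p0 : ℕ) (c : ℕ) (r : List α) : List α := (r.drop (p0 - c)).take (Bm - p0)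

theorem Yp_append {Bm p0 : ℕ} {u r : List α} (hu : u.length ≤ p0) (_hp : p0 ≤ Bm) :
    ((u ++ r).take Bm).drop p0 = Yp Bm p0 u.length r := by
  unfold Yp
  rw [List.drop_take, List.drop_append]
  have h1 : u.drop p0 = [] := List.drop_eq_nil_of_le hu
  rw [h1, List.nil_append]

theorem sc2 (α S V : Type*) [Monoid S] [AddCommGroup V] [Finite S] [Finite V]
    (act : V → S → V) (hadd : ∀ v w s, act (v + w) s = act v s + act w s)
    (hact : ∀ v s t, act v (s * t) = act (act v s) t)
    (φ : List α → S) (h1 : φ [] = 1) (hmul : ∀ u w, φ (u ++ w) = φ u * φ w) :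
    ∃ (m K : ℕ) (idx : Fin K → ℕ), 0 < m ∧ (∀ n, idx n < m) ∧
      ∀ (bd : ℕ → ℕ), Monotone bd → bd 0 = 0 →
      ∀ (C : Finset ℕ) (name : ℕ → Fin K) (s q0 : ℕ),
        (∀ c ∈ C, bd (idx (name c)) ≤ c ∧ c ≤ bd (idx (name c) + 1)) →
        (∀ c ∈ C, q0 ≤ c) →
        (∀ n, s < (C.filter (fun c => name c = n)).card) →
      ∃ nu2 : List α → V,
      ∀ (Bm D2 : ℕ), bd m < Bm → Bm ≤ D2 →
      ∀ (Cl : List α → Prop) (BadY : List α → Prop) (NY : List α → ℕ) (nu1 : List α → V),
        (∀ y, bd m ≤ NY y) →
        (∀ t, Cl t → Bm + D2 ≤ t.length → BadY ((t.take Bm).drop (bd m)) →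
          ∃ X : Finset ℕ, X.card ≤ s ∧ ∀ c ∈ C, c ∉ X → ∀ c' ∈ C, c' ≠ c →
            ¬ BadY ((t.drop (bd m + c - c')).take (Bm - bd m))) →
      ∃ (L2 : List α → V → Prop) (R2 : List α → Option (ℕ × V)),
        (∀ u r v d b, Cl (u ++ r) → u.length ≤ bd m → r.length = D2 →
          BadY (((u ++ r).take Bm).drop (bd m)) → L2 u v → R2 r = some (d, b) →
            NY (((u ++ r).take Bm).drop (bd m)) = u.length + d ∧
            act v (φ (((u ++ r).take Bm).take (NY (((u ++ r).take Bm).drop (bd m)))))
              + (act (nu2 (((u ++ r).take Bm).take (bd m)))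
                  (φ ((((u ++ r).take Bm).take (NY (((u ++ r).take Bm).drop (bd m)))).drop (bd m)))
                + nu1 (((u ++ r).take Bm).drop (bd m))) = b) ∧
        (∀ t, Cl t → Bm + D2 ≤ t.length → BadY ((t.take Bm).drop (bd m)) →
          ∀ v, ∃ x, q0 ≤ x ∧ x ≤ bd m ∧ L2 (t.take x) v ∧
            (R2 ((t.drop x).take D2)).isSome) := by
  classical
  obtain ⟨m, K, idx, lab, rlab, hm, hidx, hW⟩ := exact_words α S V act φ h1 hmul
  refine ⟨m, K, idx, hm, hidx, ?_⟩
  intro bd hbd h0 C name s q0 hC hCq hcop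
  obtain ⟨LP, RQ, nu2, hs, hc⟩ := hW bd hbd h0
  refine ⟨nu2, ?_⟩
  intro Bm D2 hBm hD2 Cl BadY NY nu1 hNY hSP
  have hCle : ∀ c ∈ C, c ≤ bd m := fun c hcC => le_trans (hC c hcC).2 (hbd (hidx _))
  -- the guess
  let G : List α → Finset ℕ := fun r => C.filter (fun c => BadY (Yp Bm (bd m) c r))
  let lbl : List α → ℕ → ℕ × V := fun r c =>
    (NY (Yp Bm (bd m) c r) - c,
      act (rlab (name c)) (φ ((Yp Bm (bd m) c r).take (NY (Yp Bm (bd m) c r) - bd m)))
        + nu1 (Yp Bm (bd m) c r))
  let R2 : List α → Option (ℕ × V) := fun r =>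
    if h : ∃ c, G r = {c} ∧ RQ (name c) (r.take (bd m - c)) then some (lbl r h.choose) else none
  let L2 : List α → V → Prop := fun u v =>
    ∃ c ∈ C, u.length = c ∧ LP (name c) u ∧ lab (name c) = v
  refine ⟨L2, R2, ?_, ?_⟩
  · intro u r v d b hCl hu hr hBad hL hR
    obtain ⟨c, hcC, hcu, hLP, hlab⟩ := hL
    simp only [R2] at hR
    split_ifs at hR with hx
    obtain ⟨hG, hRQ⟩ := hx.choose_spec
    set c' := hx.choose with hc'
    rw [Yp_append hu hBm.le, hcu] at hBad ⊢
    have hcG : c ∈ G r := by
      simp only [G, Finset.mem_filter]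
      exact ⟨hcC, hBad⟩
    rw [hG, Finset.mem_singleton] at hcG
    rw [← hcG] at hR hRQ
    rw [Option.some.injEq, Prod.mk.injEq] at hR
    obtain ⟨hd, hb⟩ := hR
    have hcm := hCle c hcC
    have hNge := hNY (Yp Bm (bd m) c r)
    set Y := Yp Bm (bd m) c r with hY
    constructor
    · omega
    · -- the zone is `X ++ Y'`
      have hrl : bd m - c ≤ r.length := by omega
      have hX : ((u ++ r).take Bm).take (bd m) = u ++ r.take (bd m - c) := by
        rw [List.take_take, min_eq_left hBm.le, List.take_append, hcu]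
        rw [List.take_of_length_le (by omega : u.length ≤ bd m)]
      have hzone : ((u ++ r).take Bm).take (NY Y)
          = (u ++ r.take (bd m - c)) ++ Y.take (NY Y - bd m) := by
        rw [← hX]
        have e1 : NY Y = bd m + (NY Y - bd m) := by omega
        conv_lhs => rw [e1, List.take_add]
        congr 1
        rw [Yp_append hu hBm.le, hcu]
      have hlenX : (u ++ r.take (bd m - c)).length = bd m := by
        rw [List.length_append, List.length_take, hcu]; omega
      have hdrop : (((u ++ r).take Bm).take (NY Y)).drop (bd m) = Y.take (NY Y - bd m) := by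
        rw [hzone, List.drop_left' hlenX]
      rw [hdrop, hzone, hX, hmul, hact]
      have hex := hs (name c) u (r.take (bd m - c)) (by rw [hcu]; exact (hC c hcC).1)
        (by rw [hcu]; exact (hC c hcC).2) hlenX hLP hRQ
      rw [hlab] at hex
      rw [← hb]
      rw [hex, hadd, add_assoc]
  · intro t hCl ht hBad v
    have hX : (t.take (bd m)).length = bd m := by rw [List.length_take]; omega
    obtain ⟨n, hlab, hn⟩ := hc (t.take (bd m)) v hX
    obtain ⟨X, hXcard, hXsp⟩ := hSP t hCl ht hBad
    -- an unspoiled copy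
    obtain ⟨c, hc1, hc2⟩ : ∃ c, c ∈ C.filter (fun c => name c = n) ∧ c ∉ X := by
      by_contra hcon
      push Not at hcon
      have : (C.filter (fun c => name c = n)).card ≤ X.card := Finset.card_le_card hcon
      have := hcop n
      omega
    rw [Finset.mem_filter] at hc1
    obtain ⟨hcC, hcn⟩ := hc1
    have hcm := hCle c hcC
    have hb := hC c hcC
    rw [hcn] at hb
    obtain ⟨hLP, hRQ⟩ := hn c hb.1 hb.2
    refine ⟨c, hCq c hcC, hcm, ⟨c, hcC, ?_, ?_, ?_⟩, ?_⟩
    · rw [List.length_take]; omega
    · rw [hcn]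
      rw [List.take_take, min_eq_left hcm] at hLP
      exact hLP
    · rw [hcn]; exact hlab
    · have hYp : ∀ c' ∈ C, Yp Bm (bd m) c' ((t.drop c).take D2)
          = (t.drop (bd m + c - c')).take (Bm - bd m) := by
        intro c' hc'
        have := hCle c' hc'
        unfold Yp
        rw [List.drop_take, List.take_take, List.drop_drop]
        congr 1
        · omega
        · congr 1; omega
      have hGc : G ((t.drop c).take D2) = {c} := by
        ext c'
        simp only [G, Finset.mem_filter, Finset.mem_singleton]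
        constructor
        · rintro ⟨h2, h3⟩
          by_contra hne
          rw [hYp c' h2] at h3
          exact hXsp c hcC hc2 c' h2 hne h3
        · rintro rfl
          refine ⟨hcC, ?_⟩
          rw [hYp _ hcC]
          have e1 : bd m + c' - c' = bd m := by omega
          rw [e1]
          rw [List.drop_take] at hBad
          exact hBad
      have hRQ' : RQ (name c) (((t.drop c).take D2).take (bd m - c)) := by
        rw [hcn, List.take_take, min_eq_left (by omega)]
        rw [List.drop_take] at hRQ
        exact hRQ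
      have hex : ∃ c'', G ((t.drop c).take D2) = {c''} ∧
          RQ (name c'') (((t.drop c).take D2).take (bd m - c'')) := ⟨c, hGc, hRQ'⟩
      simp only [R2]
      rw [dif_pos hex]
      rfl

end Crest.Agent.R320.Sc2_355
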