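import Mathlib
import Crest.Agent.R320.ExactR_237

/-!
# Row 320: scheme 2 (promise ruler), structural half

`SC2` and `CP2` of 131 #13123 from two hypotheses only:
`LOC` (everything about the zone is read behind `p0`) and `COUNT` (few places are spoiled).
-/

set_option autoImplicit false

namespace Crest.Agent.R320.Sc2_476

open Finset Crest.Agent.R320.ExactR_237

section

variable {α S V : Type} [Monoid S] [AddCommGroup V]

/-- the zone text seen from the right word `r` at the place `c k`: the unknown prefix is replaced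
by copies of a dummy word -/
def BadAt (Bm : ℕ) (Bad : List α → Prop) (e : ℕ) (r : List α) : Prop :=
  ∃ u : List α, u.length = e ∧ Bad ((u ++ r).take Bm)

open Classical in
/-- the distance to the next anchor from the candidate anchor `e` letters before `r` -/
noncomputable def NAt (Bm : ℕ) (N : List α → ℕ) (e : ℕ) (r : List α) : ℕ :=
  if h : ∃ u : List α, u.length = e then N ((h.choose ++ r).take Bm) else 0

/-- zone noise: of scheme 2 on the first `p0` letters, of scheme 1 on the rest -/
noncomputable def nuZ (f : α → S) (act : V → S → V) (N : List α → ℕ) (p0 : ℕ)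
    (nu2 : List α → S → V) (nu1 : List α → V) (y : List α) : V :=
  act (nu2 (y.take p0) 1) (pr f ((y.take (N y)).drop p0)) + nu1 ((y.take (N y)).drop p0)

open Classical in
/-- the right reading of scheme 2 -/
noncomputable def R2 (f : α → S) (act : V → S → V) (Bm p0 K : ℕ) (c : ℕ → ℕ)
    (rho : ℕ → List α → S → Option V) (Bad : List α → Prop) (N : List α → ℕ)
    (nu1 : List α → V) (r : List α) : Option (ℕ × V) :=
  if h : ∃ k, (k < K ∧ BadAt Bm Bad (c k) r) ∧ ∀ k' < K, BadAt Bm Bad (c k') r → k' = k then
    (rho h.choose (r.take (p0 - c h.choose)) 1).map fun b0 =>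
      (NAt Bm N (c h.choose) r - c h.choose,
        act b0 (pr f ((r.take (NAt Bm N (c h.choose) r - c h.choose)).drop (p0 - c h.choose)))
        + nu1 ((r.take (NAt Bm N (c h.choose) r - c h.choose)).drop (p0 - c h.choose)))
  else none

/-- the left reading of scheme 2 -/
def L2 (K : ℕ) (c : ℕ → ℕ) (lam : ℕ → List α → Option V) (u : List α) (v : V) : Prop :=
  ∃ k < K, u.length = c k ∧ lam k u = some v

theorem scheme2 [Nonempty α] (f : α → S) (act : V → S → V)
    (act_add : ∀ v w s, act (v + w) s = act v s + act w s)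
    (act_mul : ∀ v s t, act v (s * t) = act (act v s) t)
    (R K : ℕ) (c : ℕ → ℕ)
    (lam : ℕ → List α → Option V) (rho : ℕ → List α → S → Option V) (nu2 : List α → S → V)
    (hsound : ∀ k < K, ∀ (P Q : List α) (y : S) (v b : V), P.length = c k →
          lam k P = some v → rho k Q y = some b → b = act v (pr f (P ++ Q) * y) + nu2 (P ++ Q) y)
    (hcompl : ∀ (u : List α) (y : S) (v : V), (∀ k < K, c k ≤ u.length) →
          ∃ I : Finset ℕ, R ≤ I.card ∧ ∀ k ∈ I, k < K ∧ lam k (u.take (c k)) = some v ∧
            (rho k (u.drop (c k)) y).isSome)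
    (Bm p0 D₂ : ℕ) (hD : Bm ≤ D₂) (hcp : ∀ k < K, c k ≤ p0) (hp0 : p0 ≤ Bm)
    (Cl Bad : List α → Prop) (N : List α → ℕ) (nu1 : List α → V)
    (hN : ∀ y : List α, y.length = Bm → Cl y → p0 ≤ N y)
    (hN' : ∀ y : List α, y.length = Bm → N y ≤ Bm)
    (hClt : ∀ (y : List α) (n : ℕ), Cl y → Cl (y.take n))
    (hloc : ∀ (k : ℕ), k < K → ∀ u u' r : List α, u.length = c k → u'.length = c k →
      (Bad ((u ++ r).take Bm) ↔ Bad ((u' ++ r).take Bm)) ∧
      N ((u ++ r).take Bm) = N ((u' ++ r).take Bm))
    (hcount : ∀ t : List α, Cl t → Bm + D₂ ≤ t.length → Bad (t.take Bm) →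
      ∃ Sp : Finset ℕ, Sp.card < R ∧ ∀ k < K, k ∉ Sp → ∀ k' < K, k' ≠ k →
        ∀ u : List α, u.length = c k' → ¬ Bad ((u ++ (t.drop (c k)).take D₂).take Bm)) :
    (∀ (u r : List α) (v : V) (d : ℕ) (b : V), Cl (u ++ r) → r.length = D₂ →
      Bad ((u ++ r).take Bm) → L2 K c lam u v →
      R2 f act Bm p0 K c rho Bad N nu1 r = some (d, b) →
      N ((u ++ r).take Bm) = u.length + d ∧
        act v (pr f (((u ++ r).take Bm).take (N ((u ++ r).take Bm))))
          + nuZ f act N p0 nu2 nu1 ((u ++ r).take Bm) = b) ∧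
    (∀ t : List α, Cl t → Bm + D₂ ≤ t.length → Bad (t.take Bm) → ∀ v : V,
      ∃ k < K, L2 K c lam (t.take (c k)) v ∧
        (R2 f act Bm p0 K c rho Bad N nu1 ((t.drop (c k)).take D₂)).isSome) := by
  classical
  have hex : ∀ e : ℕ, ∃ u : List α, u.length = e := fun e =>
    ⟨List.replicate e (Classical.arbitrary α), by simp⟩
  have hbad : ∀ k < K, ∀ u r : List α, u.length = c k →
      (BadAt Bm Bad (c k) r ↔ Bad ((u ++ r).take Bm)) := by
    intro k hk u r hu
    constructor
    · rintro ⟨u', hu', h⟩
      exact (hloc k hk u u' r hu hu').1.2 h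
    · intro h
      exact ⟨u, hu, h⟩
  have hNAt : ∀ k < K, ∀ u r : List α, u.length = c k →
      NAt Bm N (c k) r = N ((u ++ r).take Bm) := by
    intro k hk u r hu
    unfold NAt
    rw [dif_pos (hex (c k))]
    exact (hloc k hk _ u r (hex (c k)).choose_spec hu).2
  constructor
  · rintro u r v d b hCl hr hB ⟨k, hk, hu, hl⟩ hR
    unfold R2 at hR
    split_ifs at hR with h
    obtain ⟨⟨hk1, hb1⟩, huniq⟩ := h.choose_spec
    have hkk : k = h.choose := huniq k hk ((hbad k hk u r hu).2 hB)
    rw [← hkk] at hR
    rw [hNAt k hk u r hu] at hR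
    obtain ⟨b0, hb0, hb0'⟩ := Option.map_eq_some_iff.1 hR
    have hlen : ((u ++ r).take Bm).length = Bm := by
      rw [List.length_take, List.length_append]; omega
    have hNp := hN _ hlen (hClt _ _ hCl)
    have hNB := hN' _ hlen
    have hck := hcp k hk
    set n := N ((u ++ r).take Bm) with hn
    simp only [Prod.mk.injEq] at hb0'
    obtain ⟨hd, hb⟩ := hb0'
    refine ⟨by omega, ?_⟩
    have hs := hsound k hk u (r.take (p0 - c k)) 1 v b0 hu hl hb0
    rw [mul_one] at hs
    have hX : ((u ++ r).take Bm).take p0 = u ++ r.take (p0 - c k) := by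
      rw [List.take_take, min_eq_left hp0, List.take_append, hu,
        List.take_of_length_le (by omega : u.length ≤ p0)]
    have hZ : ((u ++ r).take Bm).take n = u ++ r.take (n - c k) := by
      rw [List.take_take, min_eq_left hNB, List.take_append, hu,
        List.take_of_length_le (by omega : u.length ≤ n)]
    have hY : (((u ++ r).take Bm).take n).drop p0 = (r.take (n - c k)).drop (p0 - c k) := by
      rw [hZ, List.drop_append, hu, List.drop_eq_nil_of_le (by omega), List.nil_append]
    have hsplit : ((u ++ r).take Bm).take n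
        = (u ++ r.take (p0 - c k)) ++ (r.take (n - c k)).drop (p0 - c k) := by
      have h1 : (((u ++ r).take Bm).take n).take p0 = u ++ r.take (p0 - c k) := by
        rw [← hX, List.take_take, min_eq_left hNp]
      rw [← h1, ← hY, List.take_append_drop]
    unfold nuZ
    rw [← hn, hY, hX]
    rw [hsplit, pr_append, act_mul, ← hb, hs, act_add, hd]
    rw [add_assoc]
  · intro t hCl ht hB v
    obtain ⟨Sp, hSp, hgood⟩ := hcount t hCl ht hB
    obtain ⟨I, hI, hIk⟩ := hcompl (t.take p0) 1 v (by
      intro k hk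
      have := hcp k hk
      rw [List.length_take]; omega)
    obtain ⟨k, hkI, hkS⟩ : ∃ k ∈ I, k ∉ Sp := by
      by_contra hcon
      push Not at hcon
      have := Finset.card_le_card (show I ⊆ Sp from hcon)
      omega
    obtain ⟨hk, hl, hrho⟩ := hIk k hkI
    have hck := hcp k hk
    refine ⟨k, hk, ⟨k, hk, ?_, ?_⟩, ?_⟩
    · rw [List.length_take]; omega
    · rw [List.take_take, min_eq_left hck] at hl
      exact hl
    · have hkB : BadAt Bm Bad (c k) ((t.drop (c k)).take D₂) := by
        refine ⟨t.take (c k), by rw [List.length_take]; omega, ?_⟩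
        have : (t.take (c k) ++ (t.drop (c k)).take D₂).take Bm = t.take Bm := by
          rw [← List.take_add, List.take_take, min_eq_left (by omega)]
        rw [this]
        exact hB
      have huni : ∀ k' < K, BadAt Bm Bad (c k') ((t.drop (c k)).take D₂) → k' = k := by
        rintro k' hk' ⟨u, hu, h⟩
        by_contra hne
        exact hgood k hk hkS k' hk' hne u hu h
      have hE : ∃ k1, (k1 < K ∧ BadAt Bm Bad (c k1) ((t.drop (c k)).take D₂)) ∧
          ∀ k' < K, BadAt Bm Bad (c k') ((t.drop (c k)).take D₂) → k' = k1 :=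
        ⟨k, ⟨hk, hkB⟩, huni⟩
      unfold R2
      rw [dif_pos hE]
      have hkk : hE.choose = k := huni _ hE.choose_spec.1.1 hE.choose_spec.1.2
      rw [hkk, Option.isSome_map]
      have hw : ((t.drop (c k)).take D₂).take (p0 - c k) = (t.take p0).drop (c k) := by
        rw [List.take_take, min_eq_left (by omega), List.drop_take]
      rw [hw]
      exact hrho

end

end Crest.Agent.R320.Sc2_476
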