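import Crest.Agent.R320.ExactR_237

/-!
Row 320, P3 (scheme 2, promise ruler) in block-code form, abstract in the block code `XX` and the
predicate `Bad`; the only geometric input is `hspoil` (at most `K0` places are ambiguous).
-/

set_option autoImplicit false

namespace Crest.Agent.R320.Sc2_524

open Crest.Agent.R320.ExactR_237

variable {A S V : Type} [Monoid S] [AddCommGroup V]

/-- the zone map of a block: frame change at `p0`. -/
def T (f : A → S) (act : V → S → V) (p0 : ℕ) (nu2 nu1 : List A → V) (v : V) (X : List A) : V :=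
  act (act v (pr f (X.take p0)) + nu2 (X.take p0)) (pr f (X.drop p0)) + nu1 (X.drop p0)

/-- `Q'` ends a bad block whose left part has length `o`. -/
def Cand (XX Bad : List A → Prop) (o : ℕ) (Q' : List A) : Prop :=
  ∀ P', P'.length = o → XX (P' ++ Q') ∧ Bad (P' ++ Q')

/-- left words of scheme 2 -/
def LP (K : ℕ) (c : ℕ → ℕ) (lam : ℕ → List A → Option V) (P : List A) (v : V) : Prop :=
  ∃ k < K, P.length = c k ∧ lam k P = some v

/-- right words of scheme 2 -/
def RQ (f : A → S) (act : V → S → V) (p0 : ℕ) (nu2 nu1 : List A → V) (XX Bad : List A → Prop)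
    (K : ℕ) (c : ℕ → ℕ) (rho : ℕ → List A → Option V) (Q : List A) (r : V) : Prop :=
  ∃ k < K, (∀ j < K, (∃ Q', Q' <+: Q ∧ Cand XX Bad (c j) Q') → j = k) ∧
    ∃ Q1 X2 b, Q = Q1 ++ X2 ∧ Cand XX Bad (c k) Q1 ∧ XX X2 ∧
      rho k (Q1.take (p0 - c k)) = some b ∧
      r = T f act p0 nu2 nu1 (act b (pr f (Q1.drop (p0 - c k))) + nu1 (Q1.drop (p0 - c k))) X2

theorem scheme2 [Fintype S] [Fintype V] (f : A → S) (act : V → S → V) (K0 : ℕ) :
    ∃ K : ℕ, ∀ c : ℕ → ℕ, (∀ i j, i < j → j < K → c i < c j) → ∀ p0 : ℕ, (∀ k < K, c k ≤ p0) →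
    ∃ (lam rho : ℕ → List A → Option V) (nu2 : List A → V),
    ∀ (XX Bad : List A → Prop) (nu1 : List A → V),
      (∀ P P' Q, P.length = P'.length → P.length ≤ p0 → XX (P ++ Q) → XX (P' ++ Q)) →
      (∀ P P' Q, P.length = P'.length → P.length ≤ p0 → Bad (P ++ Q) → Bad (P' ++ Q)) →
      -- soundness
      (∀ P Q v r, LP K c lam P v → RQ f act p0 nu2 nu1 XX Bad K c rho Q r →
        (∃ Q', Q' <+: Q ∧ XX (P ++ Q') ∧ Bad (P ++ Q')) →
        ∃ Q1 X2, Q = Q1 ++ X2 ∧ XX (P ++ Q1) ∧ XX X2 ∧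
          T f act p0 nu2 nu1 (T f act p0 nu2 nu1 v (P ++ Q1)) X2 = r) ∧
      -- completeness
      (∀ X X2 v, XX X → p0 ≤ X.length → Bad X → XX X2 →
        {k | k < K ∧ ∃ j < K, j ≠ k ∧ ∃ Q', Q' <+: X.drop (c k) ++ X2 ∧
          Cand XX Bad (c j) Q'}.ncard ≤ K0 →
        ∃ k < K, LP K c lam (X.take (c k)) v ∧
          ∃ r, RQ f act p0 nu2 nu1 XX Bad K c rho (X.drop (c k) ++ X2) r) := by
  classical
  obtain ⟨K, hK⟩ := exact_gadget A S V f act (K0 + 1)
  refine ⟨K, fun c hc p0 hp0 => ?_⟩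
  obtain ⟨lam, rho, nu, hs, hcpl⟩ := hK c hc
  refine ⟨lam, fun k Q => rho k Q 1, fun X1 => nu X1 1, fun XX Bad nu1 hXX hBad => ⟨?_, ?_⟩⟩
  · rintro P Q v r ⟨j, hj, hPj, hlam⟩ ⟨k, hk, huniq, Q1, X2, b, hQ, hcand, hX2, hrho, hr⟩
      ⟨Q', hQ', hx, hb⟩
    have hjk : j = k := by
      refine huniq j hj ⟨Q', hQ', fun P' hP' => ⟨?_, ?_⟩⟩
      · exact hXX P P' Q' (by rw [hPj, hP']) (by rw [hPj]; exact hp0 j hj) hx
      · exact hBad P P' Q' (by rw [hPj, hP']) (by rw [hPj]; exact hp0 j hj) hb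
    subst hjk
    refine ⟨Q1, X2, hQ, (hcand P hPj).1, hX2, ?_⟩
    have hp := hp0 j hj
    have e1 : (P ++ Q1).take p0 = P ++ Q1.take (p0 - c j) := by
      rw [List.take_append, List.take_of_length_le (by omega), hPj]
    have e2 : (P ++ Q1).drop p0 = Q1.drop (p0 - c j) := by
      rw [List.drop_append, List.drop_of_length_le (by omega), hPj, List.nil_append]
    have h1 := hs j hj P (Q1.take (p0 - c j)) 1 v b hPj hlam hrho
    rw [mul_one] at h1
    have e3 : T f act p0 (fun X1 => nu X1 1) nu1 v (P ++ Q1) =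
        act b (pr f (Q1.drop (p0 - c j))) + nu1 (Q1.drop (p0 - c j)) := by
      unfold T
      rw [e1, e2, ← h1]
    rw [e3, hr]
  · intro X X2 v hX hlen hB hX2 hsp
    obtain ⟨I, hI, hI2⟩ := hcpl (X.take p0) 1 v (fun k hk => by
      rw [List.length_take]; exact le_min (hp0 k hk) (le_trans (hp0 k hk) hlen))
    have hfin : {k | k < K ∧ ∃ j < K, j ≠ k ∧ ∃ Q', Q' <+: X.drop (c k) ++ X2 ∧
          Cand XX Bad (c j) Q'}.Finite := (Set.finite_lt_nat K).subset fun k hk => hk.1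
    have hex : ∃ k ∈ I, k ∉ {k | k < K ∧ ∃ j < K, j ≠ k ∧ ∃ Q', Q' <+: X.drop (c k) ++ X2 ∧
          Cand XX Bad (c j) Q'} := by
      by_contra hno
      push Not at hno
      have hsub : (I : Set ℕ) ⊆ {k | k < K ∧ ∃ j < K, j ≠ k ∧ ∃ Q', Q' <+: X.drop (c k) ++ X2 ∧
          Cand XX Bad (c j) Q'} := fun k hk => hno k hk
      have := Set.ncard_le_ncard hsub hfin
      rw [Set.ncard_coe_finset] at this
      omega
    obtain ⟨k, hkI, hk⟩ := hex
    obtain ⟨hkK, hlam, hrho⟩ := hI2 k hkI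
    have hck := hp0 k hkK
    have hlk : (X.take (c k)).length = c k := by
      rw [List.length_take]; exact min_eq_left (le_trans hck hlen)
    refine ⟨k, hkK, ⟨k, hkK, hlk, ?_⟩, ?_⟩
    · rw [List.take_take, min_eq_left hck] at hlam
      exact hlam
    · obtain ⟨b, hb⟩ := Option.isSome_iff_exists.1 hrho
      refine ⟨_, k, hkK, ?_, X.drop (c k), X2, b, rfl, ?_, hX2, ?_, rfl⟩
      · rintro j hj ⟨Q', hQ', hc'⟩
        by_contra hne
        exact hk ⟨hkK, j, hj, hne, Q', hQ', hc'⟩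
      · intro P' hP'
        have e : X.take (c k) ++ X.drop (c k) = X := List.take_append_drop _ _
        refine ⟨hXX (X.take (c k)) P' _ (by rw [hlk, hP']) (by rw [hlk]; exact hck)
          (by rw [e]; exact hX), hBad (X.take (c k)) P' _ (by rw [hlk, hP'])
          (by rw [hlk]; exact hck) (by rw [e]; exact hB)⟩
      · rw [← hb, List.drop_take]

end Crest.Agent.R320.Sc2_524
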