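import Crest.Agent.R320.ExactR_237

/-!
Row 320, G3 (helper590): SC2 + CP2 of helper131's interface (#13123), from the exact gadget
`ExactR_237` and two abstract facts on the outer chain:

* `loc` : next anchor and badness do not read the first `p0` letters of the zone text;
* `spoil` : for a bad anchor fewer than `R` places of the ruler have a wrong bad hypothesis.
-/

set_option autoImplicit false
set_option linter.unusedSectionVars false

namespace Crest.Agent.R320.Sc2_590

open Crest.Agent.R320.ExactR_237

variable {A S V : Type} [Monoid S] [Fintype S] [Fintype V] [AddCommGroup V]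

/-- badness of the anchor `o` letters before the beginning of `r`. -/
def BadV (Bm : ℕ) (Bad : List A → Prop) (o : ℕ) (r : List A) : Prop :=
  ∃ u : List A, u.length = o ∧ Bad ((u ++ r).take Bm)

/-- distance from the beginning of `r` to the next anchor of the anchor `o` letters before. -/
noncomputable def NV (Bm : ℕ) (N : List A → ℕ) (o : ℕ) (r : List A) : ℕ :=
  sInf {n | ∃ u : List A, u.length = o ∧ n = N ((u ++ r).take Bm) - o}

theorem BadV_iff {Bm p0 D2 : ℕ} {Bad : List A → Prop}
    (locB : ∀ u u' r : List A, u.length = u'.length → u.length ≤ p0 → r.length = D2 →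
      (Bad ((u ++ r).take Bm) ↔ Bad ((u' ++ r).take Bm)))
    {u r : List A} (hu : u.length ≤ p0) (hr : r.length = D2) :
    BadV Bm Bad u.length r ↔ Bad ((u ++ r).take Bm) := by
  constructor
  · rintro ⟨u', hu', hb⟩
    exact (locB u' u r hu' (by omega) hr).1 hb
  · intro h
    exact ⟨u, rfl, h⟩

theorem NV_eq {Bm p0 D2 : ℕ} {N : List A → ℕ}
    (locN : ∀ u u' r : List A, u.length = u'.length → u.length ≤ p0 → r.length = D2 →
      N ((u ++ r).take Bm) = N ((u' ++ r).take Bm))
    {u r : List A} (hu : u.length ≤ p0) (hr : r.length = D2) :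
    NV Bm N u.length r = N ((u ++ r).take Bm) - u.length := by
  have : {n | ∃ u' : List A, u'.length = u.length ∧ n = N ((u' ++ r).take Bm) - u.length} =
      {N ((u ++ r).take Bm) - u.length} := by
    ext n
    simp only [Set.mem_setOf_eq, Set.mem_singleton_iff]
    constructor
    · rintro ⟨u', hu', rfl⟩
      rw [locN u' u r hu' (by omega) hr]
    · rintro rfl
      exact ⟨u, rfl, rfl⟩
  rw [NV, this, csInf_singleton]

open Classical in
/-- **SC2 + CP2.** -/
theorem sc2_cp2 (f : A → S) (act : V → S → V)
    (act_add : ∀ a b s, act (a + b) s = act a s + act b s)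
    (act_mul : ∀ v s s', act (act v s) s' = act v (s * s')) (R : ℕ) :
    ∃ K : ℕ, ∀ c : ℕ → ℕ, (∀ i j, i < j → j < K → c i < c j) →
    ∃ nu2 : List A → V, ∀ (Bm p0 q0 D2 : ℕ) (N : List A → ℕ) (Bad : List A → Prop)
      (nu1 : List A → V) (Cl : List A → Prop),
      (∀ k < K, q0 ≤ c k ∧ c k ≤ p0) → Bm ≤ D2 → p0 ≤ Bm →
      (∀ y : List A, y.length = Bm → p0 ≤ N y ∧ N y ≤ Bm) →
      (∀ u u' r : List A, u.length = u'.length → u.length ≤ p0 → r.length = D2 →
        (Bad ((u ++ r).take Bm) ↔ Bad ((u' ++ r).take Bm))) →
      (∀ u u' r : List A, u.length = u'.length → u.length ≤ p0 → r.length = D2 →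
        N ((u ++ r).take Bm) = N ((u' ++ r).take Bm)) →
      (∀ t : List A, Cl t → Bm + D2 ≤ t.length → Bad (t.take Bm) →
        ((Finset.range K).filter fun k => ∃ k' < K, k' ≠ k ∧
          BadV Bm Bad (c k') ((t.drop (c k)).take D2)).card < R) →
      ∃ (L2 : List A → V → Prop) (R2 : List A → Option (ℕ × V)),
        (∀ (u r : List A) (v : V) (d : ℕ) (b : V), u.length ≤ p0 → r.length = D2 →
          Bad ((u ++ r).take Bm) → L2 u v → R2 r = some (d, b) →
          N ((u ++ r).take Bm) = u.length + d ∧
          act (act v (pr f (((u ++ r).take Bm).take p0)) + nu2 (((u ++ r).take Bm).take p0))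
            (pr f ((((u ++ r).take Bm).take (N ((u ++ r).take Bm))).drop p0)) +
            nu1 ((((u ++ r).take Bm).take (N ((u ++ r).take Bm))).drop p0) = b) ∧
        (∀ t : List A, Cl t → Bm + D2 ≤ t.length → Bad (t.take Bm) → ∀ v, ∃ x, q0 ≤ x ∧ x ≤ p0 ∧
          L2 (t.take x) v ∧ (R2 ((t.drop x).take D2)).isSome) := by
  obtain ⟨K, hK⟩ := exact_gadget A S V f act R
  refine ⟨K, fun c hc => ?_⟩
  obtain ⟨lam, rho, nu, hs, hcmp⟩ := hK c hc
  refine ⟨fun X => nu X 1, ?_⟩
  intro Bm p0 q0 D2 N Bad nu1 Cl hck hBD hpB hN locB locN hsp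
  let Leg : ℕ → List A → Prop := fun k r => k < K ∧ BadV Bm Bad (c k) r
  let R2 : List A → Option (ℕ × V) := fun r =>
    if h : ∃! k, Leg k r then
      (rho h.choose (r.take (p0 - c h.choose)) 1).map fun b1 =>
        (NV Bm N (c h.choose) r,
          act b1 (pr f ((r.take (NV Bm N (c h.choose) r)).drop (p0 - c h.choose))) +
            nu1 ((r.take (NV Bm N (c h.choose) r)).drop (p0 - c h.choose)))
    else none
  refine ⟨fun u v => ∃ k < K, u.length = c k ∧ lam k u = some v, R2, ?_, ?_⟩
  · intro u r v d b hu hr hbad hL hR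
    obtain ⟨k, hk, huk, hlam⟩ := hL
    have hbv : BadV Bm Bad (c k) r := by
      rw [← huk]; exact (BadV_iff locB hu hr).2 hbad
    have hRdef : R2 r = if h : ∃! k, Leg k r then
      (rho h.choose (r.take (p0 - c h.choose)) 1).map fun b1 =>
        (NV Bm N (c h.choose) r,
          act b1 (pr f ((r.take (NV Bm N (c h.choose) r)).drop (p0 - c h.choose))) +
            nu1 ((r.take (NV Bm N (c h.choose) r)).drop (p0 - c h.choose)))
      else none := rfl
    rw [hRdef] at hR
    split_ifs at hR with h
    · have hch : h.choose = k := by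
        obtain ⟨h1, h2⟩ := h.choose_spec
        exact (h2 k ⟨hk, hbv⟩).symm
      rw [hch] at hR
      rw [Option.map_eq_some_iff] at hR
      obtain ⟨b1, hb1, hb2⟩ := hR
      simp only [Prod.mk.injEq] at hb2
      obtain ⟨hd, hb⟩ := hb2
      have hNV := NV_eq locN hu hr
      rw [huk] at hNV
      set y := (u ++ r).take Bm with hy
      have hyl : y.length = Bm := by
        rw [hy, List.length_take, List.length_append]; omega
      obtain ⟨n1, n2⟩ := hN y hyl
      have hdN : N y = u.length + d := by rw [← hd, hNV]; omega
      have e1 : y.take p0 = u ++ r.take (p0 - c k) := by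
        rw [hy, List.take_take, min_eq_left hpB, List.take_append, huk, List.take_of_length_le]
        omega
      have e2 : (y.take (N y)).drop p0 = (r.take d).drop (p0 - c k) := by
        rw [hy, List.take_take, min_eq_left n2, hdN, List.take_append,
          List.take_of_length_le (by omega), List.drop_append, List.drop_of_length_le (by omega),
          List.nil_append, huk]
        congr 2
        omega
      have hex := hs k hk u (r.take (p0 - c k)) 1 v b1 huk hlam hb1
      rw [mul_one] at hex
      refine ⟨hdN, ?_⟩
      rw [e1, e2, ← hex, ← hb, hd]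
  · intro t hCl hlen hbad v
    have hX : (t.take p0).length = p0 := by rw [List.length_take]; omega
    obtain ⟨I, hI1, hI2⟩ := hcmp (t.take p0) 1 v (fun k hk => by rw [hX]; exact (hck k hk).2)
    have hspt := hsp t hCl hlen hbad
    have : ∃ k ∈ I, k ∉ (Finset.range K).filter fun k => ∃ k' < K, k' ≠ k ∧
          BadV Bm Bad (c k') ((t.drop (c k)).take D2) := by
      by_contra hcon
      push Not at hcon
      have := Finset.card_le_card (fun k hk => hcon k hk)
      omega
    obtain ⟨k, hkI, hkn⟩ := this
    obtain ⟨hkK, hl, hrh⟩ := hI2 k hkI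
    obtain ⟨c1, c2⟩ := hck k hkK
    refine ⟨c k, c1, c2, ⟨k, hkK, ?_, ?_⟩, ?_⟩
    · rw [List.length_take]; omega
    · rw [List.take_take, min_eq_left c2] at hl; exact hl
    · set r := (t.drop (c k)).take D2 with hr
      have hrl : r.length = D2 := by
        rw [hr, List.length_take, List.length_drop]; omega
      have htk : (t.take (c k)).length = c k := by rw [List.length_take]; omega
      have hglue : (t.take (c k) ++ r).take Bm = t.take Bm := by
        rw [hr, List.take_append, htk, List.take_take, List.take_take,
          min_eq_left (by omega : Bm - c k ≤ D2)]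
        rcases Nat.lt_or_ge Bm (c k) with h | h
        · omega
        · rw [min_eq_right h]
          conv_rhs => rw [show Bm = c k + (Bm - c k) by omega, List.take_add]
      have hbv : BadV Bm Bad (c k) r := by
        have := (BadV_iff locB (u := t.take (c k)) (r := r) (by omega) hrl).2
          (by rw [hglue]; exact hbad)
        rwa [htk] at this
      have hu : ∃! k, Leg k r := by
        refine ⟨k, ⟨hkK, hbv⟩, ?_⟩
        rintro k' ⟨hk', hb'⟩
        by_contra hne
        apply hkn
        rw [Finset.mem_filter, Finset.mem_range]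
        exact ⟨hkK, k', hk', hne, hb'⟩
      have hch : hu.choose = k := by
        obtain ⟨h1, h2⟩ := hu.choose_spec
        exact (h2 k ⟨hkK, hbv⟩).symm
      have hRdef : R2 r = if h : ∃! k, Leg k r then
        (rho h.choose (r.take (p0 - c h.choose)) 1).map fun b1 =>
          (NV Bm N (c h.choose) r,
            act b1 (pr f ((r.take (NV Bm N (c h.choose) r)).drop (p0 - c h.choose))) +
              nu1 ((r.take (NV Bm N (c h.choose) r)).drop (p0 - c h.choose)))
        else none := rfl
      rw [hRdef, dif_pos hu, hch]
      have e3 : (t.take p0).drop (c k) = r.take (p0 - c k) := by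
        rw [hr, List.drop_take, List.take_take, min_eq_left (by omega)]
      rw [e3] at hrh
      simpa using hrh

end Crest.Agent.R320.Sc2_590
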