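import Mathlib
import Crest.Agent.R320.ExactR_237

/-!
Row 320: (SC2) + (CP2) of 131 #13123 (scheme 2 of the two-scheme chain 132 #12664 in the
one-token-system form of 118 #13043).  The only inputs left are LOC (badness and next anchor are
read right of `p0`) and SPOIL (at most `C0` spoiled places).
-/

set_option autoImplicit false

namespace Crest.Agent.R320.Sc2_594

open Finset ExactR_237

/-- badness of the anchor `s` letters before the start of `r` (text `r` of length at least `Bm`). -/
def BadAt {A : Type} (Bm : ℕ) (Bad : List A → Prop) (s : ℕ) (r : List A) : Prop :=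
  ∀ u : List A, u.length = s → Bad ((u ++ r).take Bm)

/-- the place `k` is the only one whose anchor is bad. -/
def IsCand {A : Type} (K : ℕ) (c : ℕ → ℕ) (Bm : ℕ) (Bad : List A → Prop) (r : List A) (k : ℕ) :
    Prop :=
  k < K ∧ BadAt Bm Bad (c k) r ∧ ∀ k' < K, BadAt Bm Bad (c k') r → k' = k

/-- the spoiled places of a text -/
noncomputable def spoiled {A : Type} (K : ℕ) (c : ℕ → ℕ) (Bm : ℕ) (Bad : List A → Prop)
    (t : List A) : Finset ℕ := by
  classical
  exact (range K).filter (fun k => ∃ k' < K, k' ≠ k ∧ BadAt Bm Bad (c k') (t.drop (c k)))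

/-- noise of a zone: noise of scheme 2 on `X = y.take p0`, noise of scheme 1 on `Y`. -/
noncomputable def nu {A S V : Type} [Monoid S] [AddCommGroup V] (f : A → S) (act : V → S → V)
    (p0 : ℕ) (N : List A → ℕ) (nu2 nu1 : List A → V) (y : List A) : V :=
  act (nu2 (y.take p0)) (pr f ((y.take (N y)).drop p0)) + nu1 ((y.take (N y)).drop p0)

/-- zone map -/
noncomputable def zm {A S V : Type} [Monoid S] [AddCommGroup V] (f : A → S) (act : V → S → V)
    (N : List A → ℕ) (nuT : List A → V) (y : List A) (v : V) : V :=
  act v (pr f (y.take (N y))) + nuT y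

theorem sc2_cp2 (A S V : Type) [Monoid S] [Fintype S] [Fintype V] [AddCommGroup V]
    (f : A → S) (act : V → S → V)
    (hadd : ∀ v w s, act (v + w) s = act v s + act w s)
    (hmul : ∀ v s t, act (act v s) t = act v (s * t)) (C0 : ℕ) :
    ∃ K : ℕ, ∀ (c : ℕ → ℕ) (p0 : ℕ), (∀ i j, i < j → j < K → c i < c j) →
      (∀ k < K, c k ≤ p0) →
      ∃ (L₂ : List A → V → Prop) (nu2 : List A → V),
        (∀ u v, L₂ u v → ∃ k < K, u.length = c k) ∧
        ∀ (Bm D₂ : ℕ) (N : List A → ℕ) (Bad : List A → Prop) (nu1 : List A → V)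
          (Cl : List A → Prop),
          p0 < Bm → Bm ≤ D₂ →
          (∀ u v, Cl (u ++ v) → Cl u) →
          (∀ y, y.length = Bm → Cl y → p0 ≤ N y ∧ N y ≤ Bm) →
          (∀ y y', y.length = Bm → y'.length = Bm → y.drop p0 = y'.drop p0 →
            ((Bad y ↔ Bad y') ∧ N y = N y')) →
          (∀ t, Cl t → Bm + D₂ ≤ t.length → Bad (t.take Bm) →
            (spoiled K c Bm Bad t).card ≤ C0) →
          ∃ R₂ : List A → Option (ℕ × V),
            (∀ u r v d b, Cl (u ++ r) → u.length ≤ p0 → r.length = D₂ → L₂ u v →
              R₂ r = some (d, b) → Bad ((u ++ r).take Bm) →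
              N ((u ++ r).take Bm) = u.length + d ∧
              zm f act N (nu f act p0 N nu2 nu1) ((u ++ r).take Bm) v = b) ∧
            (∀ t, Cl t → Bm + D₂ ≤ t.length → Bad (t.take Bm) → ∀ v,
              ∃ k < K, L₂ (t.take (c k)) v ∧ (R₂ ((t.drop (c k)).take D₂)).isSome) := by
  classical
  obtain ⟨K, hK⟩ := exact_gadget A S V f act (C0 + 1)
  refine ⟨K, fun c p0 hc hcp => ?_⟩
  obtain ⟨lam, rho, nu0, hex, hco⟩ := hK c hc
  have hinj : ∀ i j, i < K → j < K → c i = c j → i = j := by
    intro i j hi hj h
    rcases lt_trichotomy i j with h1 | h1 | h1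
    · exact absurd h (ne_of_lt (hc i j h1 hj))
    · exact h1
    · exact absurd h (ne_of_gt (hc j i h1 hi))
  refine ⟨fun u v => ∃ k < K, u.length = c k ∧ lam k u = some v, fun u => nu0 u 1, ?_, ?_⟩
  · rintro u v ⟨k, hk, h, -⟩
    exact ⟨k, hk, h⟩
  intro Bm D₂ N Bad nu1 Cl hp0 hBD hCl hN hloc hsp
  -- the dummy left text
  -- `X`-rest, `Y` of the candidate `k`
  let NN : ℕ → List A → ℕ := fun s r => N ((r.take s ++ r).take Bm)
  have lenT : ∀ (u r : List A), D₂ ≤ r.length → ((u ++ r).take Bm).length = Bm := by
    intro u r hr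
    rw [List.length_take, List.length_append]
    omega
  have dropT : ∀ (u u' r : List A), u.length = u'.length → u.length ≤ p0 →
      ((u ++ r).take Bm).drop p0 = ((u' ++ r).take Bm).drop p0 := by
    intro u u' r h1 h2
    have a1 : (u ++ r).drop p0 = r.drop (p0 - u.length) := by
      rw [List.drop_append, List.drop_eq_nil_of_le h2, List.nil_append]
    have a2 : (u' ++ r).drop p0 = r.drop (p0 - u.length) := by
      rw [List.drop_append, List.drop_eq_nil_of_le (h1 ▸ h2), List.nil_append, h1]
    rw [List.drop_take, List.drop_take, a1, a2]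
  have hBadAt : ∀ (u r : List A), u.length ≤ p0 → D₂ ≤ r.length →
      (Bad ((u ++ r).take Bm) ↔ BadAt Bm Bad u.length r) := by
    intro u r hu hr
    constructor
    · intro h u' hu'
      exact ((hloc _ _ (lenT u r hr) (lenT u' r hr) (dropT u u' r hu'.symm hu)).1).1 h
    · intro h
      exact h u rfl
  have hNN : ∀ (u r : List A), u.length ≤ p0 → D₂ ≤ r.length →
      N ((u ++ r).take Bm) = NN u.length r := by
    intro u r hu hr
    have hl : (r.take u.length).length = u.length := by
      rw [List.length_take]; omega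
    exact (hloc _ _ (lenT u r hr) (lenT _ r hr) (dropT u _ r hl.symm hu)).2
  -- locality of BadAt and NN: they depend on `r.take D₂` only
  have takeT : ∀ (u r : List A), (u ++ r.take D₂).take Bm = (u ++ r).take Bm := by
    intro u r
    rw [List.take_append, List.take_append, List.take_take,
      min_eq_left (le_trans (Nat.sub_le _ _) hBD)]
  have hBadTake : ∀ (s : ℕ) (r : List A), BadAt Bm Bad s (r.take D₂) ↔ BadAt Bm Bad s r := by
    intro s r
    unfold BadAt
    constructor
    · intro h u hu
      rw [← takeT]; exact h u hu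
    · intro h u hu
      rw [takeT]; exact h u hu
  -- the right reading
  let R₂ : List A → Option (ℕ × V) := fun r =>
    if h : ∃ k, IsCand K c Bm Bad r k then
      (rho h.choose (r.take (p0 - c h.choose)) 1).map (fun b =>
        (NN (c h.choose) r - c h.choose,
          act b (pr f ((r.take (NN (c h.choose) r - c h.choose)).drop (p0 - c h.choose))) +
            nu1 ((r.take (NN (c h.choose) r - c h.choose)).drop (p0 - c h.choose))))
    else none
  have hR : ∀ (r : List A) (k : ℕ), IsCand K c Bm Bad r k →
      R₂ r = (rho k (r.take (p0 - c k)) 1).map (fun b =>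
        (NN (c k) r - c k,
          act b (pr f ((r.take (NN (c k) r - c k)).drop (p0 - c k))) +
            nu1 ((r.take (NN (c k) r - c k)).drop (p0 - c k)))) := by
    intro r k hk
    have hk' : ∃ k, IsCand K c Bm Bad r k := ⟨k, hk⟩
    have hkk : hk'.choose = k := hk.2.2 _ hk'.choose_spec.1 hk'.choose_spec.2.1
    simp only [R₂, dif_pos hk', hkk]
  have hRnone : ∀ (r : List A), (¬ ∃ k, IsCand K c Bm Bad r k) → R₂ r = none := by
    intro r h
    simp only [R₂, dif_neg h]
  refine ⟨R₂, ?_, ?_⟩
  · -- SC2
    rintro u r v d b hcl hu hr ⟨k, hk, huk, hlam⟩ hR2 hbad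
    have hbk : BadAt Bm Bad (c k) r := huk ▸ (hBadAt u r hu (le_of_eq hr.symm)).1 hbad
    have hcand : ∃ k, IsCand K c Bm Bad r k := by
      by_contra h
      rw [hRnone r h] at hR2
      exact absurd hR2 (by simp)
    obtain ⟨k', hk'⟩ := hcand
    have hkk : k = k' := hk'.2.2 k hk hbk
    subst hkk
    rw [hR r k hk'] at hR2
    rcases hrho : rho k (r.take (p0 - c k)) 1 with _ | b0
    · rw [hrho] at hR2; exact absurd hR2 (by simp)
    rw [hrho, Option.map_some, Option.some.injEq, Prod.mk.injEq] at hR2
    obtain ⟨hd, hb⟩ := hR2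
    have hNeq : N ((u ++ r).take Bm) = NN (c k) r := huk ▸ hNN u r hu (le_of_eq hr.symm)
    have hcly : Cl ((u ++ r).take Bm) := by
      apply hCl _ ((u ++ r).drop Bm)
      rw [List.take_append_drop]
      exact hcl
    obtain ⟨hN1, hN2⟩ := hN _ (lenT u r (le_of_eq hr.symm)) hcly
    have hck := hcp k hk
    rw [hNeq] at hN1 hN2
    refine ⟨by rw [hNeq, huk]; omega, ?_⟩
    -- the zone map
    have e0 : ((u ++ r).take Bm).take (N ((u ++ r).take Bm)) = u ++ r.take (NN (c k) r - c k) := by
      rw [hNeq, List.take_take, min_eq_left hN2, List.take_append,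
        List.take_of_length_le (by omega), huk]
    have e1 : (u ++ r.take (NN (c k) r - c k)).drop p0 =
        (r.take (NN (c k) r - c k)).drop (p0 - c k) := by
      rw [List.drop_append, List.drop_eq_nil_of_le hu, List.nil_append, huk]
    have e2 : ((u ++ r).take Bm).take p0 = u ++ r.take (p0 - c k) := by
      rw [List.take_take, min_eq_left hp0.le, List.take_append, List.take_of_length_le hu, huk]
    have e3 : u ++ r.take (NN (c k) r - c k) = (u ++ r.take (p0 - c k)) ++
        (r.take (NN (c k) r - c k)).drop (p0 - c k) := by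
      rw [List.append_assoc]
      congr 1
      have : r.take (p0 - c k) = (r.take (NN (c k) r - c k)).take (p0 - c k) := by
        rw [List.take_take, min_eq_left (by omega)]
      rw [this, List.take_append_drop]
    have h4 : b0 = act v (pr f (u ++ r.take (p0 - c k))) + nu0 (u ++ r.take (p0 - c k)) 1 := by
      have := hex k hk u (r.take (p0 - c k)) 1 v b0 huk hlam hrho
      rwa [mul_one] at this
    unfold zm nu
    rw [e0, e1, e2, ← hb, e3, pr_append, ← hmul, h4, hadd]
    abel
  · -- CP2
    intro t hcl ht hbad v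
    have hlen : ∀ k < K, c k ≤ (t.take p0).length := by
      intro k hk
      rw [List.length_take]
      have := hcp k hk
      omega
    obtain ⟨I, hI, hIk⟩ := hco (t.take p0) 1 v hlen
    have : ∃ k ∈ I, k ∉ spoiled K c Bm Bad t := by
      by_contra h
      push Not at h
      have h2 : I.card ≤ (spoiled K c Bm Bad t).card := Finset.card_le_card h
      have h3 := hsp t hcl ht hbad
      omega
    obtain ⟨k, hkI, hks⟩ := this
    obtain ⟨hk, hl, hr⟩ := hIk k hkI
    have hkp := hcp k hk
    have hPlen : (t.take (c k)).length = c k := by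
      rw [List.length_take]; omega
    have hUeq : t.take (c k) ++ t.drop (c k) = t := List.take_append_drop _ _
    have hbk : BadAt Bm Bad (c k) (t.drop (c k)) := by
      have := (hBadAt (t.take (c k)) (t.drop (c k)) (by omega)
        (by rw [List.length_drop]; omega)).1 (by rwa [hUeq])
      rwa [hPlen] at this
    have hcand : IsCand K c Bm Bad ((t.drop (c k)).take D₂) k := by
      refine ⟨hk, (hBadTake _ _).2 hbk, ?_⟩
      intro k' hk' hb'
      rw [hBadTake] at hb'
      by_contra hne
      apply hks
      unfold spoiled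
      rw [Finset.mem_filter]
      exact ⟨Finset.mem_range.2 hk, k', hk', hne, hb'⟩
    refine ⟨k, hk, ⟨k, hk, hPlen, ?_⟩, ?_⟩
    · have : (t.take p0).take (c k) = t.take (c k) := by
        rw [List.take_take, min_eq_left hkp]
      rw [← this]
      exact hl
    · rw [hR _ k hcand, Option.isSome_map]
      have e1 : ((t.drop (c k)).take D₂).take (p0 - c k) = (t.take p0).drop (c k) := by
        rw [List.take_take, min_eq_left (by omega), List.drop_take]
      rw [e1]
      exact hr

end Crest.Agent.R320.Sc2_594
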