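import Crest.Agent.R320.Sc1_679
import Crest.Agent.R320.Sch2_606

/-!
Row 320, helper679: (SC2) and (CP2) of helper131's interface (post 13123) over helper606's
`sound2` / `complete2` (helper237's redundant exact gadget).
-/

set_option autoImplicit false
set_option linter.unusedSectionVars false

namespace Crest.Agent.R320.Sc2_679

open Finset Crest.Agent.R320.Gad1_420 Crest.Agent.R320.Sc1_679 Crest.Agent.R320.Sch2_606
  Crest.Agent.R320.ExactR_237

variable {α S V W : Type} [Monoid S] [AddCommGroup V] [AddCommGroup W]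

/-- badness with window `L`. -/
def BdL (O : Outer α) (D : Dat α S V W) (good : ℕ → Prop) (L : ℕ) (Z : List α) : Prop :=
  BdZ O D good (Z.take L)

variable {f : α → S} {act : V → S → V} {K R : ℕ} {c : ℕ → ℕ}
  {lam : ℕ → List α → Option V} {rho : ℕ → List α → S → Option V} {nu : List α → S → V}

/-- the reading of the exact gadget, ending at `a + p0`. -/
noncomputable def r0 (O : Outer α) (D : Dat α S V W) (good : ℕ → Prop) (L K : ℕ) (c : ℕ → ℕ)
    (rho : ℕ → List α → S → Option V) (r : List α) : Option (ℕ × V) :=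
  rho2 K c O.p0 (BdL O D good L) (fun _ => some (0, (1 : S))) rho r

/-- right reading of scheme 2. -/
noncomputable def R2 (O : Outer α) (D : Dat α S V W) (good : ℕ → Prop) (L K : ℕ) (c : ℕ → ℕ)
    (rho : ℕ → List α → S → Option V) (nu1 : List α → V) (r : List α) : Option (ℕ × V) :=
  (r0 O D good L K c rho r).map fun db =>
    (db.1 + O.nz ((r.drop db.1).take L),
      D.act db.2 (D.φ (((r.drop db.1).take L).take (O.nz ((r.drop db.1).take L)))) +
        nu1 (((r.drop db.1).take L).take (O.nz ((r.drop db.1).take L))))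

theorem Only_take {O : Outer α} {D : Dat α S V W} {good : ℕ → Prop} {L D2 : ℕ}
    (hD2 : O.p0 + L ≤ D2) {Q : List α} {k : ℕ} :
    Only K c O.p0 (BdL O D good L) (Q.take D2) k ↔ Only K c O.p0 (BdL O D good L) Q k := by
  have h : ∀ j, BdL O D good L ((Q.take D2).drop (O.p0 - c j)) ↔
      BdL O D good L (Q.drop (O.p0 - c j)) := by
    intro j
    unfold BdL
    rw [List.drop_take, List.take_take, Nat.min_eq_left (by omega)]
  unfold Only
  rw [h k]
  constructor
  · rintro ⟨h1, h2, h3⟩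
    exact ⟨h1, h2, fun j hj hb => h3 j hj ((h j).2 hb)⟩
  · rintro ⟨h1, h2, h3⟩
    exact ⟨h1, h2, fun j hj hb => h3 j hj ((h j).1 hb)⟩

theorem r0_take {O : Outer α} {D : Dat α S V W} {good : ℕ → Prop} {L D2 : ℕ}
    (hD2 : O.p0 + L ≤ D2) {Q : List α} {x : ℕ × V}
    (h : r0 O D good L K c rho Q = some x) :
    r0 O D good L K c rho (Q.take D2) = some x := by
  obtain ⟨d, b⟩ := x
  obtain ⟨k, e, y, hk, ht, hr, hd⟩ := rho2_some h
  simp only [Option.some.injEq, Prod.mk.injEq] at ht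
  obtain ⟨rfl, rfl⟩ := ht
  unfold r0
  rw [rho2_eq ((Only_take hD2).2 hk), Option.bind_some]
  simp only
  rw [List.take_take, Nat.min_eq_left (by omega), hr, Option.map_some, hd]

/-- (SC2) -/
theorem sc2 {O : Outer α} {D : Dat α S V W} {good : ℕ → Prop} {Bm : ℕ}
    (hBm : O.p0 ≤ Bm)
    (hp0 : ∀ k < K, c k ≤ O.p0) (hφf : ∀ w, D.φ w = pr f w)
    {nu1 : List α → V}
    (hφ : ∀ u v, D.φ (u ++ v) = D.φ u * D.φ v)
    (hact : ∀ v s t, D.act (D.act v s) t = D.act v (s * t))
    (hadd : ∀ v w s, D.act (v + w) s = D.act v s + D.act w s)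
    (hG : Gad f D.act K R c lam rho nu)
    {u r : List α} {v b : V} {d : ℕ} (hlen : Bm ≤ r.length)
    (hbad : BdZ O D good (((u ++ r).take Bm).drop O.p0))
    (hL : lam2 K c lam u = some v)
    (hR : R2 O D good (Bm - O.p0) K c rho nu1 r = some (d, b)) :
    O.N ((u ++ r).take Bm) = u.length + d ∧
      D.act v (D.φ (((u ++ r).take Bm).take (O.N ((u ++ r).take Bm)))) +
        nuZ O D nu1 (fun X => nu X 1) ((u ++ r).take Bm) = b := by
  unfold R2 at hR
  rw [Option.map_eq_some_iff] at hR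
  obtain ⟨⟨d0, b0⟩, h0, h1⟩ := hR
  rw [Prod.mk.injEq] at h1
  obtain ⟨h1, h2⟩ := h1
  dsimp only at h1 h2
  have hb' : BdL O D good (Bm - O.p0) ((u ++ r).drop O.p0) := by
    unfold BdL
    rw [← List.drop_take]
    exact hbad
  obtain ⟨e, y, e1, e2, e3⟩ := sound2 hp0 hG hL h0 hb'
  simp only [Option.some.injEq, Prod.mk.injEq] at e1
  obtain ⟨rfl, rfl⟩ := e1
  obtain ⟨k, hk, huk, -⟩ := lam2_some hL
  have hu : u.length ≤ O.p0 := by rw [huk]; exact hp0 k hk
  set Y := (u ++ r).take Bm with hY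
  have hYt : Y.take O.p0 = (u ++ r).take O.p0 := by
    rw [hY, List.take_take, Nat.min_eq_left hBm]
  have hZ : (r.drop d0).take (Bm - O.p0) = Y.drop O.p0 := by
    rw [hY, List.drop_take]
    congr 1
    have : O.p0 = u.length + d0 := by omega
    rw [this, List.drop_append]
    simp
  rw [hZ] at h1 h2
  have hN : O.N Y = u.length + d := by
    unfold Outer.N
    omega
  refine ⟨hN, ?_⟩
  rw [zm_eq hφ hact hadd, hYt, ← h2]
  have e4 : (Y.take (O.N Y)).drop O.p0 = (Y.drop O.p0).take (O.nz (Y.drop O.p0)) := by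
    rw [List.drop_take]
    congr 1
    unfold Outer.N
    omega
  rw [e4, hφf ((u ++ r).take O.p0)]
  rw [mul_one] at e3
  rw [e3]

/-- (CP2) -/
theorem cp2 {O : Outer α} {D : Dat α S V W} {good : ℕ → Prop} {Bm D2 q0 : ℕ}
    (hBm : O.p0 ≤ Bm) (hD2 : Bm ≤ D2)
    (hc : ∀ i j, i < j → j < K → c i < c j)
    (hp0 : ∀ k < K, c k ≤ O.p0) (hq0 : ∀ k < K, q0 ≤ c k)
    {nu1 : List α → V}
    (hG : Gad f D.act K R c lam rho nu)
    {t : List α} (hlen : Bm + D2 ≤ t.length)
    (hbad : BdZ O D good ((t.take Bm).drop O.p0))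
    (hsp : ∃ J : Finset ℕ, J.card < R ∧ ∀ k < K,
      (∃ j < K, j ≠ k ∧ BdL O D good (Bm - O.p0) (t.drop (c k + (O.p0 - c j)))) → k ∈ J)
    (v : V) :
    ∃ x, q0 ≤ x ∧ x ≤ O.p0 ∧ lam2 K c lam (t.take x) = some v ∧
      (R2 O D good (Bm - O.p0) K c rho nu1 ((t.drop x).take D2)).isSome := by
  obtain ⟨J, hJ, hJk⟩ := hsp
  have hb' : BdL O D good (Bm - O.p0) (t.drop O.p0) := by
    unfold BdL
    rw [← List.drop_take]
    exact hbad
  obtain ⟨k, hk, h1, b, h2⟩ := complete2 (f := f) (act := D.act) (tl := fun _ => some (0, (1 : S)))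
    (e := 0) (y := 1) hc hp0 hG (by omega : O.p0 ≤ t.length) hb' rfl hJ hJk v
  refine ⟨c k, hq0 k hk, hp0 k hk, h1, ?_⟩
  have h3 : r0 O D good (Bm - O.p0) K c rho (t.drop (c k)) = some (O.p0 - c k + 0, b) := h2
  have h4 := r0_take (D2 := D2) (by omega) h3
  unfold R2
  rw [h4]
  rfl

end Crest.Agent.R320.Sc2_679
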