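import Mathlib
import Crest.Agent.R320.ExactR_237

/-!
Row 320, piece G3 (helper943): SC2 + CP2 of 131 #13123 in abstract form.
Promise scheme: cut places `c k` left of `p0`; the right side lists all `k` whose candidate anchor is bad and is
legal only if there is exactly one.  Exact gadget = 237.
Input: `Bad` and `N` do not read the first `p0` letters, and the count `hcount` (ruler).
-/

set_option autoImplicit false

namespace Crest.Agent.R320.Sc2_943

open Crest.Agent.R320.ExactR_237

section

variable {A V : Type} (Bm : ℕ) (c : ℕ → ℕ) (K : ℕ) (Bad : List A → Prop)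

/-- the candidate anchor `c k` letters to the left of the text `r` is bad. -/
def BadS (k : ℕ) (r : List A) : Prop := ∃ u : List A, u.length = c k ∧ Bad ((u ++ r).take Bm)

end

section

variable {A S V : Type} [Monoid S] [AddCommGroup V]

/-- right reading as a relation. -/
def Rr (f : A → S) (act : V → S → V) (Bm p0 : ℕ) (c : ℕ → ℕ) (K : ℕ) (Bad : List A → Prop)
    (N : List A → ℕ) (nu1 : List A → V) (rho : ℕ → List A → S → Option V)
    (r : List A) (p : ℕ × V) : Prop :=
  ∃ k b' u0, k < K ∧ u0.length = c k ∧ Bad ((u0 ++ r).take Bm) ∧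
    (∀ k' < K, BadS Bm c Bad k' r → k' = k) ∧ rho k (r.take (p0 - c k)) 1 = some b' ∧
    p.1 = N ((u0 ++ r).take Bm) - c k ∧
    p.2 = act b' (pr f ((((u0 ++ r).take Bm).take (N ((u0 ++ r).take Bm))).drop p0)) +
      nu1 ((((u0 ++ r).take Bm).take (N ((u0 ++ r).take Bm))).drop p0)

theorem take_drop_eq {u u0 r : List A} {Bm n p0 : ℕ} (h : u.length = u0.length)
    (hp : u.length ≤ p0) :
    (((u ++ r).take Bm).take n).drop p0 = (((u0 ++ r).take Bm).take n).drop p0 := by
  rw [List.take_take, List.take_take, List.take_append, List.take_append, List.drop_append,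
    List.drop_append]
  have h1 : (u.take (min n Bm)).drop p0 = [] := by
    apply List.drop_eq_nil_of_le
    rw [List.length_take]; omega
  have h2 : (u0.take (min n Bm)).drop p0 = [] := by
    apply List.drop_eq_nil_of_le
    rw [List.length_take]; omega
  rw [h1, h2, List.length_take, List.length_take, h]

/-- **SC2 and CP2** from the exact gadget and the count. -/
theorem sc2_cp2 [Fintype S] [Fintype V] (f : A → S) (act : V → S → V)
    (hact : ∀ v s t, act v (s * t) = act (act v s) t)
    (hadd : ∀ a b s, act (a + b) s = act a s + act b s) (R : ℕ) :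
    ∃ K : ℕ, ∀ c : ℕ → ℕ, (∀ i j, i < j → j < K → c i < c j) →
      ∃ nu2 : List A → V,
      ∀ (Bm p0 q0 D2 : ℕ) (Cl Bad : List A → Prop) (N : List A → ℕ) (nu1 : List A → V),
        (∀ k < K, q0 ≤ c k ∧ c k ≤ p0) → p0 ≤ Bm → Bm ≤ D2 →
        (∀ y : List A, y.length = Bm → p0 ≤ N y ∧ N y ≤ Bm) →
        (∀ u u' r : List A, u.length = u'.length → u.length ≤ p0 →
          N ((u ++ r).take Bm) = N ((u' ++ r).take Bm)) →
        (∀ t, Cl t → Bm + D2 ≤ t.length → Bad (t.take Bm) → ∀ I : Finset ℕ, (∀ k ∈ I, k < K) →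
          R ≤ I.card → ∃ k ∈ I, ∀ k' < K, BadS Bm c Bad k' ((t.drop (c k)).take D2) → k' = k) →
        ∃ (L2 : List A → V → Prop) (R2 : List A → Option (ℕ × V)),
          (∀ u v, L2 u v → q0 ≤ u.length ∧ u.length ≤ p0) ∧
          (∀ u r v d b, r.length = D2 → Bad ((u ++ r).take Bm) → L2 u v →
            R2 r = some (d, b) → N ((u ++ r).take Bm) = u.length + d ∧
            act v (pr f (((u ++ r).take Bm).take (N ((u ++ r).take Bm)))) +
              (act (nu2 (((u ++ r).take Bm).take p0))
                (pr f ((((u ++ r).take Bm).take (N ((u ++ r).take Bm))).drop p0)) +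
              nu1 ((((u ++ r).take Bm).take (N ((u ++ r).take Bm))).drop p0)) = b) ∧
          (∀ t, Cl t → Bm + D2 ≤ t.length → Bad (t.take Bm) → ∀ v, ∃ x, q0 ≤ x ∧ x ≤ p0 ∧
            L2 (t.take x) v ∧ (R2 ((t.drop x).take D2)).isSome) := by
  classical
  obtain ⟨K, hK⟩ := exact_gadget A S V f act (max R 1)
  refine ⟨K, fun c hc => ?_⟩
  obtain ⟨lam, rho, nu, h1, h2⟩ := hK c hc
  refine ⟨fun X => nu X 1, ?_⟩
  intro Bm p0 q0 D2 Cl Bad N nu1 hck hpB hBD hN hNl hcount
  refine ⟨fun u v => ∃ k < K, u.length = c k ∧ lam k u = some v,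
    fun r => if h : ∃ p, Rr f act Bm p0 c K Bad N nu1 rho r p then some h.choose else none,
    ?_, ?_, ?_⟩
  · rintro u v ⟨k, hk, hu, -⟩
    rw [hu]
    exact hck k hk
  · rintro u r v d b hr hB ⟨k1, hk1, hu, hl⟩ hR
    beta_reduce at hR
    by_cases hex : ∃ p, Rr f act Bm p0 c K Bad N nu1 rho r p
    swap
    · rw [dif_neg hex] at hR
      exact absurd hR (by simp)
    rw [dif_pos hex] at hR
    have hs := hex.choose_spec
    rw [Option.some.injEq] at hR
    rw [hR] at hs
    obtain ⟨k, b', u0, hk, hu0, hB0, huq, hrho, hd, hb⟩ := hs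
    have hkk : k1 = k := huq k1 hk1 ⟨u, hu, hB⟩
    subst hkk
    have hle : u.length ≤ p0 := by rw [hu]; exact (hck k1 hk1).2
    have hlen : u.length = u0.length := by rw [hu, hu0]
    have hNN : N ((u ++ r).take Bm) = N ((u0 ++ r).take Bm) := hNl u u0 r hlen hle
    have hxl : ((u ++ r).take Bm).length = Bm := by
      rw [List.length_take, List.length_append]; omega
    obtain ⟨hN1, hN2⟩ := hN _ hxl
    simp only at hd hb
    constructor
    · rw [hd, hNN] at *
      rw [hNN] at hN1
      omega
    · rw [← hNN, ← take_drop_eq hlen hle] at hb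
      set x := (u ++ r).take Bm with hx
      have hX : x.take p0 = u ++ r.take (p0 - c k1) := by
        rw [hx, List.take_take, Nat.min_eq_left hpB, List.take_append, hu,
          List.take_of_length_le (by rw [hu]; exact (hck k1 hk1).2)]
      have hsplit : x.take (N x) = x.take p0 ++ (x.take (N x)).drop p0 := by
        conv_lhs => rw [← List.take_append_drop p0 (x.take (N x))]
        rw [List.take_take, Nat.min_eq_left hN1]
      have he := h1 k1 hk1 u (r.take (p0 - c k1)) 1 v b' hu hl hrho
      rw [← hX, mul_one] at he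
      have hpr : pr f (x.take (N x)) = pr f (x.take p0) * pr f ((x.take (N x)).drop p0) := by
        conv_lhs => rw [hsplit]
        simp [pr, List.map_append, List.prod_append]
      rw [hb, he, hpr, hact, hadd, add_assoc]
  · intro t hCl hlen hB v
    set X := t.take p0 with hX
    have hXl : X.length = p0 := by rw [hX, List.length_take]; omega
    obtain ⟨I, hI1, hI2⟩ := h2 X 1 v (fun k hk => by rw [hXl]; exact (hck k hk).2)
    obtain ⟨k, hkI, huq⟩ := hcount t hCl hlen hB I (fun k hk => (hI2 k hk).1)
      (le_trans (le_max_left _ _) hI1)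
    obtain ⟨hk, hlam, hrho⟩ := hI2 k hkI
    obtain ⟨hq, hp⟩ := hck k hk
    refine ⟨c k, hq, hp, ⟨k, hk, ?_, ?_⟩, ?_⟩
    · rw [List.length_take]; omega
    · rw [hX, List.take_take, Nat.min_eq_left hp] at hlam
      exact hlam
    · obtain ⟨b', hb'⟩ := Option.isSome_iff_exists.1 hrho
      have hQ : ((t.drop (c k)).take D2).take (p0 - c k) = X.drop (c k) := by
        rw [List.take_take, Nat.min_eq_left (by omega), hX, List.drop_take]
      have hjoin : (t.take (c k) ++ (t.drop (c k)).take D2).take Bm = t.take Bm := by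
        have : t.take (c k) ++ (t.drop (c k)).take D2 = t.take (c k + D2) := by
          rw [List.take_add]
        rw [this, List.take_take, Nat.min_eq_left (by omega)]
      have hex : ∃ p, Rr f act Bm p0 c K Bad N nu1 rho ((t.drop (c k)).take D2) p := by
        refine ⟨(_, _), k, b', t.take (c k), hk, ?_, ?_, huq, ?_, rfl, rfl⟩
        · rw [List.length_take]; omega
        · rw [hjoin]; exact hB
        · rw [hQ]; exact hb'
      show (if h : ∃ p, Rr f act Bm p0 c K Bad N nu1 rho ((t.drop (c k)).take D2) p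
        then some h.choose else none).isSome = true
      rw [dif_pos hex]
      rfl

end

end Crest.Agent.R320.Sc2_943
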