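import Crest.Agent.R320.Sc2b_590
import Crest.Agent.R320.Hk2_851

/-!
Row 320, P3/P4 (helper590): the right languages of scheme 2 (block form) have height at most `n`
as soon as the block languages have.
-/

set_option autoImplicit false
set_option linter.unusedSectionVars false

namespace Crest.Agent.R320.Sc2h_590

open Crest.RegLang Crest.Agent.R320.Hk_851
open Crest.Agent.R320.ExactR_237 Crest.Agent.R320.Sc2b_590

variable {A S V : Type} [Monoid S] [Fintype S] [Fintype V] [AddCommGroup V]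

/-- a helper: a set of words as a language. -/
def LL (p : List A → Prop) : Language A := {w | p w}

theorem mem_LL {p : List A → Prop} {w : List A} : w ∈ LL p ↔ p w := Iff.rfl

theorem badQ_HL [Finite A] {n : ℕ} {XX : Set (List A)} {Bd : List A → Prop}
    (hBd : HL n {X | X ∈ XX ∧ Bd X}) (o : ℕ) : HL n {Q | BadQ XX Bd o Q} := by
  have h := HL.biUnion (k := n) (List.finite_length_eq A o)
    (L := fun u => LL (fun w => u ++ w ∈ LL (fun X => X ∈ XX ∧ Bd X)) * (⊤ : Language A))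
    (fun u _ => (HL.lquot u hBd).mul HL.top)
  refine h.congr fun Q => ?_
  constructor
  · rintro ⟨u, R, S', hu, rfl, h1, h2⟩
    exact ⟨u, hu, Language.mem_mul.2 ⟨R, ⟨h1, h2⟩, S', trivial, rfl⟩⟩
  · rintro ⟨u, hu, hQ⟩
    obtain ⟨R, hR, S', -, rfl⟩ := Language.mem_mul.1 hQ
    exact ⟨u, R, S', hu, rfl, hR.1, hR.2⟩

theorem spl_HL [Finite A] {n : ℕ} {f : A → S} {act : V → S → V}
    {rho : ℕ → List A → S → Option V} {c : ℕ → ℕ} {p0 : ℕ} {nu2 nu1 : List A → V}
    {XX : Set (List A)} (hlen : ∀ X ∈ XX, p0 < X.length) {k : ℕ} (hck : c k ≤ p0)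
    (hXT : ∀ v v', HL n {X | X ∈ XX ∧ TT f act p0 nu2 nu1 v X = v'})
    (hYT : ∀ (u0 : List A) (b b' : V), u0.length = p0 →
      HL n {Y | u0 ++ Y ∈ XX ∧ act b (pr f Y) + nu1 Y = b'}) (b : V) :
    HL n {Q | Spl f act rho c p0 nu2 nu1 XX k Q b} := by
  have h := HL.biUnion (k := n) (List.finite_length_eq A (c k))
    (L := fun u => {Q | ∃ h ∈ {h : List A | h.length = p0 - c k},
      Q ∈ ({Q | ∃ bb : V × V, Q ∈ ({Q | rho k h 1 = some bb.1 ∧
        Q ∈ (LL (fun w => w = h) * LL (fun Y => (u ++ h) ++ Y ∈ XX ∧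
          act bb.1 (pr f Y) + nu1 Y = bb.2)) *
          LL (fun X => X ∈ XX ∧ TT f act p0 nu2 nu1 bb.2 X = b)} : Language A)} :
        Language A)})
    (fun u hu => HL.biUnion (List.finite_length_eq A (p0 - c k))
      (L := fun h => ({Q | ∃ bb : V × V, Q ∈ ({Q | rho k h 1 = some bb.1 ∧
        Q ∈ (LL (fun w => w = h) * LL (fun Y => (u ++ h) ++ Y ∈ XX ∧
          act bb.1 (pr f Y) + nu1 Y = bb.2)) *
          LL (fun X => X ∈ XX ∧ TT f act p0 nu2 nu1 bb.2 X = b)} : Language A)} :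
        Language A))
      (fun h hh => HL.iUnion (fun bb : V × V =>
        (HL.const (rho k h 1 = some bb.1)).setOf_and
          (((HL.word h).mul (hYT (u ++ h) bb.1 bb.2 (by
            have h1 : u.length = c k := hu
            have h2 : h.length = p0 - c k := hh
            rw [List.length_append]; omega))).mul (hXT bb.2 b)))))
  refine h.congr fun Q => ?_
  constructor
  · rintro ⟨u, R, X2, b1, rfl, hu, h1, h2, h3, h4⟩
    refine ⟨u, hu, R.take (p0 - c k), ?_, (b1, act b1 (pr f (R.drop (p0 - c k))) +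
      nu1 (R.drop (p0 - c k))), h3, ?_⟩
    · have hl := hlen _ h1
      rw [List.length_append, hu] at hl
      show (R.take (p0 - c k)).length = p0 - c k
      rw [List.length_take]; omega
    · refine Language.mem_mul.2 ⟨R, Language.mem_mul.2 ⟨R.take (p0 - c k), rfl,
        R.drop (p0 - c k), ⟨?_, rfl⟩, List.take_append_drop _ _⟩, X2, ⟨h2, h4.symm⟩, rfl⟩
      rw [List.append_assoc, List.take_append_drop]
      exact h1
  · rintro ⟨u, hu, h, hh, bb, h3, hQ⟩
    obtain ⟨R, hR, X2, ⟨h2, h4⟩, rfl⟩ := Language.mem_mul.1 hQ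
    obtain ⟨h', hh', Y, ⟨h5, h6⟩, rfl⟩ := Language.mem_mul.1 hR
    have : h' = h := hh'
    subst this
    have hl : h'.length = p0 - c k := hh
    have t1 : (h' ++ Y).take (p0 - c k) = h' := by
      rw [List.take_append_of_le_length (by omega), List.take_of_length_le (by omega)]
    have t2 : (h' ++ Y).drop (p0 - c k) = Y := by
      rw [← hl, List.drop_left]
    refine ⟨u, h' ++ Y, X2, bb.1, rfl, hu, ?_, h2, ?_, ?_⟩
    · rw [← List.append_assoc]; exact h5
    · rw [t1]; exact h3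
    · rw [t2, h6, h4]

/-- **the right languages of scheme 2.** -/
theorem rr2_HL [Finite A] {n : ℕ} {f : A → S} {act : V → S → V}
    {rho : ℕ → List A → S → Option V} {c : ℕ → ℕ} {p0 K : ℕ} {nu2 nu1 : List A → V}
    {XX : Set (List A)} {Bd : List A → Prop} (hlen : ∀ X ∈ XX, p0 < X.length)
    (hcp : ∀ k < K, c k ≤ p0) (hBd : HL n {X | X ∈ XX ∧ Bd X})
    (hXT : ∀ v v', HL n {X | X ∈ XX ∧ TT f act p0 nu2 nu1 v X = v'})
    (hYT : ∀ (u0 : List A) (b b' : V), u0.length = p0 →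
      HL n {Y | u0 ++ Y ∈ XX ∧ act b (pr f Y) + nu1 Y = b'}) (b : V) :
    HL n {Q | RR2 f act rho c p0 K nu2 nu1 XX Bd Q b} := by
  have h := HL.iUnion (k := n) (ι := Fin K)
    (L := fun k => ({Q | BadQ XX Bd (c k) Q ∧ ((∀ k' : Fin K, Q ∈ ({Q | ((k' : ℕ) ≠ k →
      ¬ BadQ XX Bd (c k') Q)} : Language A)) ∧ Spl f act rho c p0 nu2 nu1 XX k Q b)} :
      Language A))
    (fun k => (badQ_HL hBd (c k)).setOf_and
      ((HL.iInter (fun k' : Fin K => (HL.const _).setOf_imp (badQ_HL hBd (c k')).setOf_not)).setOf_and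
        (spl_HL hlen (hcp k k.2) hXT hYT b)))
  refine h.congr fun Q => ?_
  constructor
  · rintro ⟨k, hk, h1, h2, h3⟩
    exact ⟨⟨k, hk⟩, h1, fun k' hne => h2 k' k'.2 hne, h3⟩
  · rintro ⟨k, h1, h2, h3⟩
    exact ⟨k, k.2, h1, fun k' hk' hne => h2 ⟨k', hk'⟩ hne, h3⟩

/-- the left places of scheme 2 are a finite set. -/
theorem lp2_HL [Finite A] {n : ℕ} (lam : ℕ → List A → Option V) (c : ℕ → ℕ) (K : ℕ) (v : V) :
    HL n {P | ∃ k < K, P.length = c k ∧ lam k P = some v} := by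
  apply HL.finite
  apply (Set.Finite.biUnion (Set.finite_lt_nat K) (fun k _ => List.finite_length_eq A (c k))).subset
  rintro P ⟨k, hk, hP, -⟩
  simp only [Set.mem_iUnion]
  exact ⟨k, hk, hP⟩

end Crest.Agent.R320.Sc2h_590
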