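import Crest.Agent.R320.S1blk_494

/-!
# Row 320: both schemes in block form, over abstract gadgets (helper494)

Target: (s1), (s2), (cc) of helper163's `top`.
-/

set_option autoImplicit false
set_option linter.unusedSectionVars false

namespace Crest.Agent.R320.Sch12_494

open Crest.Agent.R320.S1blk_494

variable {α S V : Type*} [Monoid S] [AddCommGroup V]

/-- the data of the two schemes -/
structure Two (α S V : Type*) extends Blk α where
  φ : List α → S
  act : V → S → V
  -- gadget 1 (unknown total length)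
  lam : List α → Option V
  rho : List α → Option V
  nu1 : List α → V
  UBad : ℕ → Prop
  -- gadget 2 (exact, on words of length `p0`)
  K : ℕ
  c : ℕ → ℕ
  lam2 : ℕ → List α → Option V
  rho2 : ℕ → List α → Option V
  nu2 : List α → V
  R : ℕ

variable (D : Two α S V)

/-- zone map -/
def Two.T (v : V) (X : List α) : V :=
  D.act (D.act v (D.φ (X.take D.p0)) + D.nu2 (X.take D.p0)) (D.φ (X.drop D.p0)) +
    D.nu1 (X.drop D.p0)

/-- noise -/
def Two.nu (X : List α) : V :=
  D.act (D.nu2 (X.take D.p0)) (D.φ (X.drop D.p0)) + D.nu1 (X.drop D.p0)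

/-- left labels of scheme 1 -/
def Two.LP1 (P : List α) (v : V) : Prop :=
  D.p0 ≤ P.length ∧
    D.lam (P.drop D.p0) = some (D.act v (D.φ (P.take D.p0)) + D.nu2 (P.take D.p0))

open Classical in
/-- right labels of scheme 1 -/
noncomputable def Two.R1 (Q : List α) : Option V := if D.RW Q then D.rho Q else none

/-- left labels of scheme 2 -/
def Two.LP2 (P : List α) (v : V) : Prop := ∃ k < D.K, P.length = D.c k ∧ D.lam2 k P = some v

/-- the block of the candidate `k` ends after `j` letters of `Q` -/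
def Two.vend (k : ℕ) (Q : List α) (j : ℕ) : Prop :=
  j ≤ Q.length ∧ D.Wo (Q.take j) ∧ D.Z ((j + D.c k) % D.M') ≤ j + D.c k ∧
    ∀ i < j, D.Wo (Q.take i) → ¬ D.Z ((i + D.c k) % D.M') ≤ i + D.c k

/-- the block of the candidate `k` is bad -/
def Two.vbad (k : ℕ) (Q : List α) (j : ℕ) : Prop :=
  ¬ (D.Z ((j + D.c k) % D.M') + D.N1 ≤ j + D.c k ∧
    ∀ i < j, D.Wo (Q.take i) → i + D.c k + D.N1 < D.Z ((i + D.c k) % D.M')) ∨
  D.UBad (j + D.c k - D.p0)

/-- the candidate `k` is plausible -/
def Two.Gk (k : ℕ) (Q : List α) : Prop := ∃ j, D.vend k Q j ∧ D.vbad k Q j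

/-- a bad block -/
def Two.Bad (X : List α) : Prop := ¬ D.Egood X ∨ D.UBad (X.length - D.p0)

/-- right labels of scheme 2, relation -/
def Two.RR2 (Q : List α) (b : V) : Prop :=
  ∃ k < D.K, ∃ j b', D.vend k Q j ∧ D.vbad k Q j ∧ (∀ k' < D.K, D.Gk k' Q → k' = k) ∧
    D.XX (Q.drop j) ∧ D.rho2 k (Q.take (D.p0 - D.c k)) = some b' ∧
    b = D.T (D.act b' (D.φ ((Q.take j).drop (D.p0 - D.c k))) +
      D.nu1 ((Q.take j).drop (D.p0 - D.c k))) (Q.drop j)

open Classical in
/-- right labels of scheme 2 -/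
noncomputable def Two.R2 (Q : List α) : Option V :=
  if h : ∃ b, D.RR2 Q b then some h.choose else none

theorem Two.R2_spec {Q : List α} {b : V} (h : D.R2 Q = some b) : D.RR2 Q b := by
  unfold Two.R2 at h
  split_ifs at h with h1
  rw [Option.some.injEq] at h
  rw [← h]
  exact h1.choose_spec

theorem Two.R2_isSome {Q : List α} {b : V} (h : D.RR2 Q b) : (D.R2 Q).isSome := by
  unfold Two.R2
  rw [dif_pos ⟨b, h⟩]
  rfl

/-- hypotheses -/
structure Two.Ok (D : Two α S V) : Prop where
  φ_app : ∀ u v, D.φ (u ++ v) = D.φ u * D.φ v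
  act_mul : ∀ v s s', D.act (D.act v s) s' = D.act v (s * s')
  act_add : ∀ v w s, D.act (v + w) s = D.act v s + D.act w s
  len1 : ∀ p v, D.lam p = some v → D.M' ∣ p.length ∧ p.length ≤ D.N1
  ex1 : ∀ p q v r, D.lam p = some v → D.rho q = some r →
    r = D.act v (D.φ (p ++ q)) + D.nu1 (p ++ q)
  cp1 : ∀ u : List α, D.N1 + D.no < u.length → ¬ D.UBad u.length → ∀ v, ∃ p q,
    p ++ q = u ∧ D.lam p = some v ∧ (D.rho q).isSome
  c_le : ∀ k < D.K, D.c k ≤ D.p0
  ex2 : ∀ k < D.K, ∀ p q v b, p.length = D.c k → p.length + q.length = D.p0 →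
    D.lam2 k p = some v → D.rho2 k q = some b → b = D.act v (D.φ (p ++ q)) + D.nu2 (p ++ q)
  cp2 : ∀ u : List α, u.length = D.p0 → ∀ v, ∃ I : Finset ℕ, D.R ≤ I.card ∧ ∀ k ∈ I, k < D.K ∧
    D.lam2 k (u.take (D.c k)) = some v ∧ (D.rho2 k (u.drop (D.c k))).isSome
  -- two blocks reach beyond every threshold
  Zmax : ∀ r r' r'' k, k < D.K → D.Z r ≤ D.Z r' + D.Z r'' - D.c k
  spoil : ∀ X X2, D.XX X → D.XX X2 → ∀ I : Finset ℕ, D.R ≤ I.card → (∀ k ∈ I, k < D.K) →
    ∃ k ∈ I, ∀ k' < D.K, D.Gk k' ((X ++ X2).drop (D.c k)) → k' = k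

variable {D}

theorem Two.Ok.T_eq (h : D.Ok) (X : List α) (v : V) :
    D.T v X = D.act v (D.φ X) + D.nu X := by
  unfold Two.T Two.nu
  rw [h.act_add, h.act_mul, ← h.φ_app, List.take_append_drop, add_assoc]

theorem take_app (P Q : List α) (j : ℕ) : (P ++ Q).take (P.length + j) = P ++ Q.take j := by
  rw [List.take_append]; simp

theorem no_lt {k j : ℕ} (h : D.Ok) (hk : k < D.K)
    (hZ : D.Z ((j + D.c k) % D.M') ≤ j + D.c k) : D.N1 + D.no < j := by
  have := D.Zge ((j + D.c k) % D.M')
  have := h.c_le k hk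
  omega

theorem Two.Ok.XX_iff (h : D.Ok) {k : ℕ} (hk : k < D.K) {P Q : List α} (hP : P.length = D.c k)
    {j : ℕ} (hj : j ≤ Q.length) : D.XX (P ++ Q.take j) ↔ D.vend k Q j := by
  have hc := h.c_le k hk
  have hjl : (Q.take j).length = j := by rw [List.length_take]; omega
  constructor
  · rintro ⟨⟨a1, a2⟩, a3⟩
    rw [List.length_append, hjl, hP, add_comm] at a2
    have hn := no_lt h hk a2
    refine ⟨hj, (D.rule.app P _ (by omega)).1 a1, a2, ?_⟩
    intro i hi hw hz
    have hn2 := no_lt h hk hz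
    refine a3 (P.length + i) (by rw [List.length_append, hjl]; omega) ⟨?_, ?_⟩
    · rw [take_app, List.take_take, min_eq_left hi.le]
      exact (D.rule.app P _ (by rw [List.length_take]; omega)).2 hw
    · rw [List.length_take, List.length_append, hjl, hP, min_eq_left (by omega), add_comm]
      exact hz
  · rintro ⟨-, b1, b2, b3⟩
    have hn := no_lt h hk b2
    refine ⟨⟨(D.rule.app P _ (by omega)).2 b1, ?_⟩, ?_⟩
    · rw [List.length_append, hjl, hP, add_comm]
      exact b2
    · rintro i hi ⟨d1, d2⟩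
      rw [List.length_append, hjl] at hi
      have hil : ((P ++ Q.take j).take i).length = i := by
        rw [List.length_take, List.length_append, hjl]; omega
      rw [hil] at d2
      have hz := D.Zge (i % D.M')
      obtain ⟨i', rfl⟩ : ∃ i', i = P.length + i' := ⟨i - P.length, by omega⟩
      rw [take_app, List.take_take, min_eq_left (by omega)] at d1
      rw [hP, add_comm] at d2
      have hn2 := no_lt h hk d2
      exact b3 i' (by omega) ((D.rule.app P _ (by rw [List.length_take]; omega)).1 d1) d2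

theorem Two.Ok.Bad_iff (h : D.Ok) {k : ℕ} (hk : k < D.K) {P Q : List α}
    (hP : P.length = D.c k) {j : ℕ} (hj : D.vend k Q j) :
    D.Bad (P ++ Q.take j) ↔ D.vbad k Q j := by
  have hc := h.c_le k hk
  have hjl : (Q.take j).length = j := by rw [List.length_take]; have := hj.1; omega
  have hE : D.Egood (P ++ Q.take j) ↔ (D.Z ((j + D.c k) % D.M') + D.N1 ≤ j + D.c k ∧
    ∀ i < j, D.Wo (Q.take i) → i + D.c k + D.N1 < D.Z ((i + D.c k) % D.M')) := by
    unfold Blk.Egood
    rw [List.length_append, hjl, hP, add_comm (D.c k) j]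
    refine and_congr Iff.rfl ?_
    constructor
    · intro h1 i hi hw
      have hil := D.rule.len _ hw
      have := h1 (i + D.c k) (by omega) (by
        rw [add_comm, ← hP, take_app, List.take_take, min_eq_left hi.le]
        exact (D.rule.app P _ hil).2 hw)
      exact this
    · intro h1 i hi hw
      by_cases hlt : i < D.c k + D.no
      · have := D.Zge (i % D.M')
        omega
      · obtain ⟨i', rfl⟩ : ∃ i', i = P.length + i' := ⟨i - P.length, by omega⟩
        rw [take_app, List.take_take, min_eq_left (by omega)] at hw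
        have := h1 i' (by omega) ((D.rule.app P _ (by
          rw [List.length_take]; have := hj.1; omega)).1 hw)
        rw [hP, add_comm (D.c k) i']
        exact this
  unfold Two.Bad Two.vbad
  rw [hE, List.length_append, hjl, hP, add_comm (D.c k) j]

theorem vend_unique {k j j' : ℕ} {Q : List α} (h1 : D.vend k Q j) (h2 : D.vend k Q j') :
    j = j' := by
  rcases lt_trichotomy j j' with h | h | h
  · exact absurd h1.2.2.1 (h2.2.2.2 j h h1.2.1)
  · exact h
  · exact absurd h2.2.2.1 (h1.2.2.2 j' h h2.2.1)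

/-- (s1) -/
theorem Two.Ok.s1 (h : D.Ok) (P : List α) (v : V) (Q : List α) (b : V) (h1 : D.LP1 P v)
    (h2 : D.R1 Q = some b) : D.XX (P ++ Q) ∧ D.T v (P ++ Q) = b := by
  unfold Two.R1 at h2
  split_ifs at h2 with h3
  obtain ⟨a1, a2⟩ := h1
  obtain ⟨b1, b2⟩ := h.len1 _ _ a2
  rw [List.length_drop] at b1 b2
  refine ⟨D.junction a1 (by omega) b1 h3, ?_⟩
  unfold Two.T
  rw [List.take_append_of_le_length a1, List.drop_append_of_le_length a1]
  exact (h.ex1 _ _ _ _ a2 h2).symm

/-- completeness of scheme 1 off the bad blocks -/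
theorem Two.Ok.comp1 (h : D.Ok) {X : List α} (hX : D.XX X) (hb : ¬ D.Bad X) (v : V) :
    ∃ P Q, X = P ++ Q ∧ D.p0 ≤ P.length ∧ D.LP1 P v ∧ (D.R1 Q).isSome := by
  unfold Two.Bad at hb
  push Not at hb
  obtain ⟨hE, hU⟩ := hb
  have hXl := D.XX_len hX
  obtain ⟨p, q, hpq, hl, hr⟩ := h.cp1 (X.drop D.p0) (by rw [List.length_drop]; omega)
    (by rw [List.length_drop]; exact hU) (D.act v (D.φ (X.take D.p0)) + D.nu2 (X.take D.p0))
  have htl : (X.take D.p0).length = D.p0 := by rw [List.length_take]; omega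
  have hP : (X.take D.p0 ++ p).drop D.p0 = p := List.drop_left' htl
  have hP2 : (X.take D.p0 ++ p).take D.p0 = X.take D.p0 := List.take_left' htl
  have hXe : (X.take D.p0 ++ p) ++ q = X := by
    rw [List.append_assoc, hpq, List.take_append_drop]
  obtain ⟨b1, b2⟩ := h.len1 _ _ hl
  have hPl : (X.take D.p0 ++ p).length = D.p0 + p.length := by rw [List.length_append, htl]
  refine ⟨_, q, hXe.symm, by omega, ⟨by omega, by rw [hP, hP2]; exact hl⟩, ?_⟩
  unfold Two.R1
  rw [if_pos]
  · exact hr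
  · exact D.RW_of_Egood (P := X.take D.p0 ++ p) (by rw [hXe]; exact hX)
      (by rw [hXe]; exact hE) (by omega) (by omega) (by rw [hPl]; simpa using b1)

/-- every long enough text with a wall at the end has a block as a prefix -/
theorem exists_block {Y : List α} (h : D.Adm Y) : ∃ j ≤ Y.length, D.XX (Y.take j) := by
  classical
  have hex : ∃ j, j ≤ Y.length ∧ D.Adm (Y.take j) := ⟨Y.length, le_rfl, by
    rw [List.take_length]; exact h⟩
  refine ⟨Nat.find hex, (Nat.find_spec hex).1, (Nat.find_spec hex).2, ?_⟩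
  intro k hk ha
  rw [List.length_take] at hk
  have hk' : k < Nat.find hex := lt_of_lt_of_le hk (min_le_left _ _)
  rw [List.take_take, min_eq_left hk'.le] at ha
  exact Nat.find_min hex hk' ⟨by have := (Nat.find_spec hex).1; omega, ha⟩

/-- (s2) -/
theorem Two.Ok.s2 (h : D.Ok) (P : List α) (v : V) (Q : List α) (b : V) (h1 : D.LP2 P v)
    (h2 : D.R2 Q = some b)
    (h3 : ∀ X, D.XX X → X <+: P ++ Q → ∀ P' Q', X = P' ++ Q' → P.length ≤ P'.length →
      D.LP1 P' v → (D.R1 Q').isSome → False) :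
    ∃ Q1 X2, Q = Q1 ++ X2 ∧ Q1 ≠ [] ∧ D.XX (P ++ Q1) ∧ D.XX X2 ∧
      D.T (D.T v (P ++ Q1)) X2 = b := by
  obtain ⟨k, hk, hPl, hlam⟩ := h1
  obtain ⟨k2, hk2, j, b', hv, hvb, hun, hX2, hrho, hb⟩ := D.R2_spec h2
  have hc := h.c_le k hk
  -- the whole text is admissible
  have hj := hv.1
  have hQl : Q.length = j + (Q.drop j).length := by rw [List.length_drop]; omega
  have hQ2 : D.Adm (P ++ Q) := by
    have e : P ++ Q = (P ++ Q.take j) ++ Q.drop j := by
      rw [List.append_assoc, List.take_append_drop]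
    have hX2l := D.XX_len hX2
    constructor
    · rw [e]
      exact (D.rule.app _ _ (by omega)).2 hX2.1.1
    · have z1 := hX2.1.2
      have z2 := hv.2.2.1
      have z3 := h.Zmax ((P ++ Q).length % D.M') ((Q.drop j).length % D.M')
        ((j + D.c k2) % D.M') k2 hk2
      have z4 := h.c_le k2 hk2
      have z5 := D.Zge ((j + D.c k2) % D.M')
      rw [List.length_append, hPl] at z3 ⊢
      omega
  obtain ⟨i, hi, hXi⟩ := exists_block hQ2
  have hil := D.XX_len hXi
  rw [List.length_take] at hil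
  obtain ⟨j1, rfl⟩ : ∃ j1, i = P.length + j1 := ⟨i - P.length, by omega⟩
  rw [take_app] at hXi
  rw [List.length_append] at hi hil
  have hj1 : j1 ≤ Q.length := by omega
  have hbad : D.Bad (P ++ Q.take j1) := by
    by_contra hnb
    obtain ⟨P', Q', e, e2, e3, e4⟩ := h.comp1 hXi hnb v
    refine h3 _ hXi ?_ P' Q' e (by omega) e3 e4
    refine ⟨Q.drop j1, ?_⟩
    rw [List.append_assoc, List.take_append_drop]
  have hvk := (h.XX_iff hk hPl hj1).1 hXi
  have hkk : k = k2 := hun k hk ⟨j1, hvk, (h.Bad_iff hk hPl hvk).1 hbad⟩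
  subst hkk
  have hjj := vend_unique hv hvk
  subst hjj
  have hn := no_lt h hk hv.2.2.1
  have hzz := D.Zge ((j + D.c k) % D.M')
  have hz2 := hv.2.2.1
  refine ⟨Q.take j, Q.drop j, (List.take_append_drop _ _).symm, ?_, hXi, hX2, ?_⟩
  · intro he
    have : (Q.take j).length = 0 := by rw [he]; rfl
    rw [List.length_take] at this
    omega
  · rw [hb]
    congr 1
    unfold Two.T
    have e1 : (P ++ Q.take j).take D.p0 = P ++ Q.take (D.p0 - D.c k) := by
      have : D.p0 = P.length + (D.p0 - D.c k) := by omega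
      conv_lhs => rw [this]
      rw [take_app, List.take_take, min_eq_left (by omega)]
    have e2 : (P ++ Q.take j).drop D.p0 = (Q.take j).drop (D.p0 - D.c k) := by
      have : D.p0 = P.length + (D.p0 - D.c k) := by omega
      conv_lhs => rw [this]
      rw [List.drop_append]
      simp
    have e3 := h.ex2 k hk P (Q.take (D.p0 - D.c k)) v b' hPl
      (by rw [List.length_take]; omega) hlam hrho
    rw [e1, e2, ← e3]

/-- (cc) -/
theorem Two.Ok.cc (h : D.Ok) {X X2 : List α} (hX : D.XX X) (hX2 : D.XX X2) (v : V) :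
    (∃ P Q, X = P ++ Q ∧ D.LP1 P v ∧ (D.R1 Q).isSome) ∨
    (∃ P Q, X ++ X2 = P ++ Q ∧ P.length < X.length ∧ D.LP2 P v ∧ (D.R2 Q).isSome) := by
  by_cases hb : D.Bad X
  · right
    have hXl := D.XX_len hX
    obtain ⟨I, hI, hI2⟩ := h.cp2 (X.take D.p0) (by rw [List.length_take]; omega) v
    obtain ⟨k, hkI, hun⟩ := h.spoil X X2 hX hX2 I hI fun k hk => (hI2 k hk).1
    obtain ⟨hk, hlam, hrho⟩ := hI2 k hkI
    have hc := h.c_le k hk
    obtain ⟨b', hb'⟩ := Option.isSome_iff_exists.1 hrho
    have e0 : (X ++ X2).drop (D.c k) = X.drop (D.c k) ++ X2 :=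
      List.drop_append_of_le_length (by omega)
    have hPl : (X.take (D.c k)).length = D.c k := by rw [List.length_take]; omega
    set Q := X.drop (D.c k) ++ X2 with hQ
    have hjl : (X.drop (D.c k)).length = X.length - D.c k := List.length_drop ..
    have hjQ : X.length - D.c k ≤ Q.length := by
      rw [hQ, List.length_append, hjl]; omega
    have hQt : Q.take (X.length - D.c k) = X.drop (D.c k) := by
      rw [hQ, ← hjl, List.take_left' rfl]
    have hQd : Q.drop (X.length - D.c k) = X2 := by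
      rw [hQ, ← hjl, List.drop_left' rfl]
    have hXe : X.take (D.c k) ++ Q.take (X.length - D.c k) = X := by
      rw [hQt, List.take_append_drop]
    have hv : D.vend k Q (X.length - D.c k) :=
      (h.XX_iff hk hPl hjQ).1 (by rw [hXe]; exact hX)
    have hvb : D.vbad k Q (X.length - D.c k) :=
      (h.Bad_iff hk hPl hv).1 (by rw [hXe]; exact hb)
    refine ⟨X.take (D.c k), Q, ?_, by omega, ⟨k, hk, hPl, ?_⟩, ?_⟩
    · rw [hQ, ← List.append_assoc, List.take_append_drop]
    · rw [← hlam, List.take_take, min_eq_left hc]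
    · refine D.R2_isSome (b := _) ⟨k, hk, X.length - D.c k, b', hv, hvb, ?_, ?_, ?_, rfl⟩
      · intro k' hk' hG
        exact hun k' hk' (by rw [e0]; exact hG)
      · rw [hQd]; exact hX2
      · rw [← hb']
        congr 1
        have : Q.take (D.p0 - D.c k) = (Q.take (X.length - D.c k)).take (D.p0 - D.c k) := by
          rw [List.take_take, min_eq_left (by omega)]
        rw [this, hQt, List.drop_take]
  · left
    obtain ⟨P, Q, e, -, e3, e4⟩ := h.comp1 hX hb v
    exact ⟨P, Q, e, e3, e4⟩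

end Crest.Agent.R320.Sch12_494
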