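import Crest.Agent.R320.Half1Def_961
import Crest.Agent.R320.RandF_808
import Crest.Agent.R320.Names_570

/-!
# Row 320: scheme 1 (names + comb + levels + random noise), word level (helper232)
-/

set_option autoImplicit false

namespace Crest.Agent.R320.Sch1_232

open Crest.Agent.R320.Half1_961

variable {α : Type*}

/-- `t` is the first `R`-place `≥ x` of `Q` -/
def Fst (R : List α → Prop) (Q : List α) (x t : ℕ) : Prop :=
  x ≤ t ∧ R (Q.drop t) ∧ ∀ s, x ≤ s → s < t → ¬ R (Q.drop s)

theorem Fst.unique {R : List α → Prop} {Q : List α} {x t t' : ℕ} (h : Fst R Q x t)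
    (h' : Fst R Q x t') : t = t' := by
  rcases lt_trichotomy t t' with c | c | c
  · exact absurd h.2.1 (h'.2.2 t h.1 c)
  · exact c
  · exact absurd h'.2.1 (h.2.2 t' h'.1 c)

open Classical in
noncomputable def fst (R : List α → Prop) (Q : List α) (x : ℕ) : ℕ :=
  if h : ∃ t, Fst R Q x t then h.choose else 0

theorem fst_eq {R : List α → Prop} {Q : List α} {x t : ℕ} (h : Fst R Q x t) : fst R Q x = t := by
  have h' : ∃ t, Fst R Q x t := ⟨t, h⟩
  unfold fst
  rw [dif_pos h']
  exact h'.choose_spec.unique h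

theorem exists_Fst {R : List α → Prop} {Q : List α} {x t : ℕ} (h1 : x ≤ t) (h2 : R (Q.drop t)) :
    ∃ t' ≤ t, Fst R Q x t' := by
  classical
  have h : ∃ t, x ≤ t ∧ R (Q.drop t) := ⟨t, h1, h2⟩
  refine ⟨Nat.find h, Nat.find_min' h ⟨h1, h2⟩, (Nat.find_spec h).1, (Nat.find_spec h).2, ?_⟩
  intro s hs hlt hR
  exact Nat.find_min h hlt ⟨hs, hR⟩

/-- right-looking rule with window `n` -/
structure Rule (R : List α → Prop) (n : ℕ) : Prop where
  take : ∀ Q, R Q ↔ R (Q.take n)
  len : ∀ Q, R Q → n ≤ Q.length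
  pos : 0 < n

variable {R : List α → Prop} {n : ℕ}

theorem Rule.vis (h : Rule R n) {Q : List α} {t : ℕ} (ht : R (Q.drop t)) : t + n ≤ Q.length := by
  have := h.len _ ht
  have := h.pos
  rw [List.length_drop] at *
  omega

theorem Rule.left (h : Rule R n) {P Y : List α} {t : ℕ} (ht : t + n ≤ P.length) :
    R ((P ++ Y).drop t) ↔ R (P.drop t) := by
  rw [h.take, h.take (P.drop t), List.drop_append_of_le_length (by omega),
    List.take_append_of_le_length (by rw [List.length_drop]; omega)]

theorem drop_shift (P U : List α) (t : ℕ) : (P ++ U).drop (P.length + t) = U.drop t := by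
  rw [← List.drop_drop, List.drop_left]

theorem Rule.right {P U : List α} (t : ℕ) :
    R ((P ++ U).drop (P.length + t)) ↔ R (U.drop t) := by
  rw [drop_shift]

theorem Rule.Fst_left (h : Rule R n) {P Y : List α} {x t : ℕ} (hf : Fst R P x t) :
    Fst R (P ++ Y) x t := by
  have hv := h.vis hf.2.1
  refine ⟨hf.1, (h.left hv).2 hf.2.1, fun s h1 h2 h3 => hf.2.2 s h1 h2 ((h.left (by omega)).1 h3)⟩

theorem Rule.Fst_left' (h : Rule R n) {P Y : List α} {x t : ℕ} (hf : Fst R (P ++ Y) x t)
    (ht : t + n ≤ P.length) : Fst R P x t :=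
  ⟨hf.1, (h.left ht).1 hf.2.1, fun s h1 h2 h3 => hf.2.2 s h1 h2 ((h.left (h.vis h3)).2 h3)⟩

/-- transfer of a clean first place between two texts with a common right part -/
theorem Rule.Fst_transfer (h : Rule R n) {P P' U : List α} {x t MM : ℕ}
    (hf : Fst R (P ++ U) x t) (hx : P.length ≤ x) (hx' : P'.length ≤ x)
    (h1 : P.length < P'.length + MM) (h2 : P'.length < P.length + MM)
    (hclean : ∀ s, R ((P ++ U).drop s) → ¬ (x < s + MM ∧ s < x + MM)) :
    Fst R (P' ++ U) x (P'.length + (t - P.length)) := by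
  obtain ⟨a1, a2, a3⟩ := hf
  have hc := hclean t a2
  refine ⟨by omega, ?_, ?_⟩
  · rw [drop_shift]
    rw [show t = P.length + (t - P.length) by omega, drop_shift] at a2
    exact a2
  · intro s hs hlt hR
    rw [show s = P'.length + (s - P'.length) by omega, drop_shift] at hR
    have hR' : R ((P ++ U).drop (P.length + (s - P'.length))) := by rw [drop_shift]; exact hR
    have hc' := hclean _ hR'
    by_cases hge : x ≤ P.length + (s - P'.length)
    · exact a3 _ hge (by omega) hR'
    · omega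

/-! ### the chain with thresholds -/

/-- admissible anchors -/
def Adm (R : List α → Prop) (n M' : ℕ) (thr : ℕ → ℕ) (Q : List α) (t : ℕ) : Prop :=
  0 < t ∧ t + n ≤ Q.length ∧ R (Q.drop t) ∧ thr (t % M') ≤ t

open Classical in
noncomputable def nxt (R : List α → Prop) (n M' : ℕ) (thr : ℕ → ℕ) (Q : List α) : Option ℕ :=
  if h : ∃ t, Adm R n M' thr Q t then some (Nat.find h) else none

theorem nxt_eq_some {M' : ℕ} {thr : ℕ → ℕ} {Q : List α} {t : ℕ} :
    nxt R n M' thr Q = some t ↔ Adm R n M' thr Q t ∧ ∀ s < t, ¬ Adm R n M' thr Q s := by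
  classical
  unfold nxt
  by_cases h : ∃ t, Adm R n M' thr Q t
  · rw [dif_pos h, Option.some.injEq, Nat.find_eq_iff]
  · rw [dif_neg h]
    constructor
    · intro h'; exact absurd h' (by simp)
    · intro h'; exact absurd ⟨t, h'.1⟩ h

theorem nxt_eq_none {M' : ℕ} {thr : ℕ → ℕ} {Q : List α} :
    nxt R n M' thr Q = none ↔ ∀ t, ¬ Adm R n M' thr Q t := by
  classical
  unfold nxt
  by_cases h : ∃ t, Adm R n M' thr Q t
  · rw [dif_pos h]
    constructor
    · intro h'; exact absurd h' (by simp)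
    · intro h'; exact absurd h.choose_spec (h' _)
  · rw [dif_neg h]
    simpa using h

theorem Adm.left (h : Rule R n) {M' : ℕ} {thr : ℕ → ℕ} {P Y : List α} {t : ℕ}
    (ht : t + n ≤ P.length) : Adm R n M' thr (P ++ Y) t ↔ Adm R n M' thr P t := by
  unfold Adm
  rw [h.left ht, List.length_append]
  constructor
  · rintro ⟨a, _, c, d⟩; exact ⟨a, ht, c, d⟩
  · rintro ⟨a, _, c, d⟩; exact ⟨a, by omega, c, d⟩

/-- the chain -/
noncomputable def chain (h : Rule R n) (M' : ℕ) (thr : ℕ → ℕ) : Chain α where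
  nx := nxt R n M' thr
  n := n
  ext := by
    intro Q Q' d hd
    rw [nxt_eq_some] at hd ⊢
    have hl := hd.1.2.1
    refine ⟨(Adm.left h hl).2 hd.1, fun s hs hA => hd.2 s hs ((Adm.left h (by omega)).1 hA)⟩
  vis := by
    intro Q d hd
    rw [nxt_eq_some] at hd
    exact ⟨hd.1.1, hd.1.2.1⟩
  tight := by
    intro Q Q' d hd hl
    rw [nxt_eq_some] at hd ⊢
    exact ⟨(Adm.left h hl).1 hd.1, fun s hs hA => hd.2 s hs ((Adm.left h hA.2.1).2 hA)⟩

/-- transfer of the next anchor between two texts with a common right part (818's lemma with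
132's thresholds) -/
theorem nxt_transfer (h : Rule R n) {M' : ℕ} {thr : ℕ → ℕ} {P P' U : List α} {T N1 : ℕ}
    (hP : M' ∣ P.length) (hP' : M' ∣ P'.length)
    (h1 : P.length ≤ P'.length + N1) (h2 : P'.length ≤ P.length + N1)
    (hthr : ∀ r, P.length < thr r ∧ P'.length < thr r)
    (hT : nxt R n M' thr (P ++ U) = some T)
    (hclean : ∀ s, R ((P ++ U).drop s) → ¬ (s ≤ thr (s % M') + N1 ∧ thr (s % M') ≤ s + N1)) :
    P.length < T ∧ nxt R n M' thr (P' ++ U) = some (P'.length + (T - P.length)) := by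
  rw [nxt_eq_some] at hT
  obtain ⟨⟨a1, a2, a3, a4⟩, a5⟩ := hT
  have hPT : P.length < T := lt_of_lt_of_le (hthr (T % M')).1 a4
  have hmod : ∀ u, (P.length + u) % M' = u % M' := by
    intro u
    obtain ⟨k, hk⟩ := hP
    rw [hk, Nat.mul_add_mod]
  have hmod' : ∀ u, (P'.length + u) % M' = u % M' := by
    intro u
    obtain ⟨k, hk⟩ := hP'
    rw [hk, Nat.mul_add_mod]
  refine ⟨hPT, ?_⟩
  rw [nxt_eq_some]
  obtain ⟨u, rfl⟩ := Nat.exists_eq_add_of_lt hPT
  have e : P.length + u + 1 - P.length = u + 1 := by omega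
  rw [e]
  rw [List.length_append] at a2
  have a3' := a3
  rw [show P.length + u + 1 = P.length + (u + 1) by omega, drop_shift] at a3'
  have hc := hclean _ a3
  rw [show P.length + u + 1 = P.length + (u + 1) by omega, hmod] at hc a4
  refine ⟨⟨by omega, by rw [List.length_append]; omega, by rw [drop_shift]; exact a3', ?_⟩, ?_⟩
  · rw [hmod']
    by_contra hlt
    apply hc
    constructor
    · omega
    · omega
  · intro s hs hA
    obtain ⟨b1, b2, b3, b4⟩ := hA
    have hs' : P'.length < s := lt_of_lt_of_le (hthr (s % M')).2 b4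
    obtain ⟨y, rfl⟩ := Nat.exists_eq_add_of_lt hs'
    rw [show P'.length + y + 1 = P'.length + (y + 1) by omega] at b2 b3 b4 hs
    rw [drop_shift] at b3
    rw [hmod'] at b4
    have b3' : R ((P ++ U).drop (P.length + (y + 1))) := by rw [drop_shift]; exact b3
    have hc' := hclean _ b3'
    rw [hmod] at hc'
    apply a5 (P.length + (y + 1)) (by omega)
    rw [List.length_append] at b2
    refine ⟨by omega, by rw [List.length_append]; omega, b3', ?_⟩
    rw [hmod]
    by_contra hlt
    apply hc'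
    constructor
    · omega
    · omega

end Crest.Agent.R320.Sch1_232
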