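import Mathlib

set_option autoImplicit false

/-!
Row 320, scheme 1 in abstract form (left-looking walls, comb, names, levels).
-/

namespace Crest.Agent.R320.Sch1_538

/-- All data of scheme 1. -/
structure Dat (α S V : Type*) [Monoid S] [AddCommGroup V] where
  φ : List α → S
  hφ : ∀ u v, φ (u ++ v) = φ u * φ v
  hφ1 : φ [] = 1
  act : V → S → V
  Wo : List α → Prop
  no : ℕ
  hWo : ∀ P Q, no ≤ Q.length → (Wo (P ++ Q) ↔ Wo Q)
  Ws : List α → Prop
  ns : ℕ
  hWs : ∀ P Q, ns ≤ Q.length → (Ws (P ++ Q) ↔ Ws Q)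
  th : ℤ → ℤ
  Mc : ℕ
  hMc : 0 < Mc
  z : ℕ
  p0 : ℕ
  N1 : ℕ
  Sb : ℕ
  hth : ∀ r, -(Sb : ℤ) ≤ th r
  hz : p0 + N1 + Sb + no < z
  m : ℕ
  K : ℕ
  idx : Fin K → ℕ
  Lf : Fin K → List S → Prop
  Rt : Fin K → List S → Prop
  lab : Fin K → V
  rlab : Fin K → V
  nuE : List S → V
  hm : 0 < m
  hidx : ∀ c, idx c < m
  hex : ∀ (c : Fin K) (pre post : List S) (y : S), pre.length = idx c →
        (pre ++ y :: post).length = m → Lf c pre → Rt c post →
          rlab c = act (lab c) (pre ++ y :: post).prod + nuE (pre ++ y :: post)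
  hcm : ∀ (u : List S) (v : V), u.length = m → ∃ (c : Fin K) (pre post : List S) (y : S),
        u = pre ++ y :: post ∧ pre.length = idx c ∧ Lf c pre ∧ Rt c post ∧ lab c = v
  Ms : Finset ℕ
  M : ℕ
  nmL : ℕ → Option (Fin K)
  nmR : ℕ → Option (Fin K)
  hM : 0 < M
  hperL : ∀ t, nmL (t + M) = nmL t
  hgood : ∀ t t' c c', nmL t = some c → nmR t' = some c' → (∀ k ∈ Ms, ¬ k ∣ t + t') → c = c'
  hall : ∀ T, (∀ k ∈ Ms, ¬ k ∣ T) → ∀ c, ∃ t < M, nmL t = some c ∧
        ∀ t', t + t' ≡ T [MOD M] → nmR t' = some c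
  hbad : ∀ t₁ t₁' t₂ t₂' c₁ c₁' c₂ c₂', nmL t₁ = some c₁ → nmR t₁' = some c₁' →
        nmL t₂ = some c₂ → nmR t₂' = some c₂' → t₁ + t₁' = t₂ + t₂' →
        (∃ k ∈ Ms, k ∣ t₁ + t₁') → lab c₁ = lab c₂ ∧ rlab c₁' = rlab c₂'
  lv : ℕ
  gs : ℕ
  hlv : Mc * (M * gs) + Mc * M + ns ≤ Mc * (M * lv)
  hN1 : Mc * (M * (m * lv + gs)) ≤ N1

namespace Dat

open Classical

variable {α S V : Type*} [Monoid S] [AddCommGroup V] (D : Dat α S V)

/-- start of level `k`, measured from `p0` -/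
def A (k : ℕ) : ℕ := D.Mc * (D.M * (k * D.lv))

/-- start of the cell of level `i`, in units of `Mc` -/
def C (i : ℕ) : ℕ := D.M * (i * D.lv + D.gs)

/-- the end of `X` is a qualifying wall -/
def Qual (X : List α) : Prop :=
  D.Wo X ∧ D.th (((X.length : ℤ) - D.z) % D.Mc) ≤ (X.length : ℤ) - D.z

def XX : Set (List α) := {X | D.Qual X ∧ ∀ t < X.length, ¬ D.Qual (X.take t)}

/-- right side: the end of `Q` is a qualifying wall, seen without knowledge of the clock -/
def QualR (Q : List α) : Prop :=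
  D.Wo Q ∧ D.th (((Q.length : ℤ) + D.p0 - D.z) % D.Mc) ≤ (Q.length : ℤ) + D.p0 - D.z

def QQ : Set (List α) := {Q | D.no ≤ Q.length ∧ D.QualR Q ∧
  (∀ t < Q.length, D.no ≤ t → ¬ D.QualR (Q.take t)) ∧
  (∀ t ≤ Q.length, D.no ≤ t → D.Wo (Q.take t) →
    ¬ ((t : ℤ) + D.p0 - D.z < D.th (((t : ℤ) + D.p0 - D.z) % D.Mc) ∧
      D.th (((t : ℤ) + D.p0 - D.z) % D.Mc) ≤ (t : ℤ) + D.p0 - D.z + D.N1))}

theorem take_append_add {P Q : List α} {t : ℕ} : (P ++ Q).take (P.length + t) = P ++ Q.take t := by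
  rw [List.take_append, List.take_of_length_le (by omega)]
  congr 2
  omega

theorem mod_comb (x : ℤ) (om : ℕ) : (x + (D.Mc * om : ℕ)) % (D.Mc : ℤ) = x % D.Mc := by
  push_cast
  exact Int.add_mul_emod_self_left x D.Mc om

theorem not_qual_short {X : List α} (h : X.length + D.Sb < D.z) : ¬ D.Qual X := by
  rintro ⟨-, h2⟩
  have := D.hth (((X.length : ℤ) - D.z) % D.Mc)
  omega

/-- junction lemma -/
theorem junction {P Q : List α} {om : ℕ} (hP : P.length = D.p0 + D.Mc * om)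
    (hom : D.Mc * om ≤ D.N1) (hQ : Q ∈ D.QQ) : P ++ Q ∈ D.XX := by
  obtain ⟨hn, hq, hmin, hleg⟩ := hQ
  have hz := D.hz
  have key : ∀ t ≤ Q.length, D.no ≤ t → (D.Qual (P ++ Q.take t) ↔ D.QualR (Q.take t)) := by
    intro t ht hnt
    have hl : (Q.take t).length = t := by simp [ht]
    have e1 : (((P ++ Q.take t).length : ℤ) - D.z) = ((t : ℤ) + D.p0 - D.z) + (D.Mc * om : ℕ) := by
      rw [List.length_append, hl, hP]; push_cast; ring
    have e2 : (((Q.take t).length : ℤ) + D.p0 - D.z) = ((t : ℤ) + D.p0 - D.z) := by rw [hl]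
    unfold Qual QualR
    rw [D.hWo P (Q.take t) (by omega), e1, e2, D.mod_comb]
    constructor
    · rintro ⟨h1, h2⟩
      refine ⟨h1, ?_⟩
      by_contra h3
      exact hleg t ht hnt h1 ⟨by omega, by omega⟩
    · rintro ⟨h1, h2⟩
      exact ⟨h1, by omega⟩
  refine ⟨?_, ?_⟩
  · have := (key Q.length le_rfl hn).2 (by simpa using hq)
    simpa using this
  · intro t ht
    rw [List.length_append] at ht
    by_cases h1 : t < P.length + D.no
    · apply D.not_qual_short
      have : ((P ++ Q).take t).length ≤ t := by simp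
      omega
    · obtain ⟨s, rfl⟩ : ∃ s, t = P.length + s := ⟨t - P.length, by omega⟩
      rw [take_append_add, key s (by omega) (by omega)]
      exact hmin s (by omega) (by omega)

/-- outer wall band -/
def Ebad (X : List α) : Prop := ∃ t ≤ X.length, D.Wo (X.take t) ∧
  |((t : ℤ) - D.z) - D.th (((t : ℤ) - D.z) % D.Mc)| ≤ D.N1

theorem QQ_of_not_Ebad {P Q : List α} {om : ℕ} (hP : P.length = D.p0 + D.Mc * om)
    (hom : D.Mc * om ≤ D.N1) (hX : P ++ Q ∈ D.XX) (hE : ¬ D.Ebad (P ++ Q)) : Q ∈ D.QQ := by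
  obtain ⟨hq, hmin⟩ := hX
  have hz := D.hz
  have hlen : D.z ≤ (P ++ Q).length + D.Sb := by
    by_contra h
    exact D.not_qual_short (by omega) hq
  rw [List.length_append] at hlen
  have hnQ : D.no ≤ Q.length := by omega
  have band : ∀ t ≤ Q.length, D.no ≤ t → D.Wo (Q.take t) →
      ¬ ((t : ℤ) + D.p0 - D.z < D.th (((t : ℤ) + D.p0 - D.z) % D.Mc) ∧
      D.th (((t : ℤ) + D.p0 - D.z) % D.Mc) ≤ (t : ℤ) + D.p0 - D.z + D.N1) := by
    rintro t ht hnt hw ⟨h1, h2⟩
    apply hE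
    refine ⟨P.length + t, by rw [List.length_append]; omega, ?_, ?_⟩
    · rw [take_append_add, D.hWo P _ (by simp; omega)]; exact hw
    · have e1 : (((P.length + t : ℕ) : ℤ) - D.z) = ((t : ℤ) + D.p0 - D.z) + (D.Mc * om : ℕ) := by
        rw [hP]; push_cast; ring
      rw [e1, D.mod_comb, abs_le]
      constructor <;> omega
  have key : ∀ t ≤ Q.length, D.no ≤ t → (D.Qual (P ++ Q.take t) ↔ D.QualR (Q.take t)) := by
    intro t ht hnt
    have hl : (Q.take t).length = t := by simp [ht]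
    have e1 : (((P ++ Q.take t).length : ℤ) - D.z) = ((t : ℤ) + D.p0 - D.z) + (D.Mc * om : ℕ) := by
      rw [List.length_append, hl, hP]; push_cast; ring
    have e2 : (((Q.take t).length : ℤ) + D.p0 - D.z) = ((t : ℤ) + D.p0 - D.z) := by rw [hl]
    unfold Qual QualR
    rw [D.hWo P (Q.take t) (by omega), e1, e2, D.mod_comb]
    constructor
    · rintro ⟨h1, h2⟩
      refine ⟨h1, ?_⟩
      by_contra h3
      exact band t ht hnt h1 ⟨by omega, by omega⟩
    · rintro ⟨h1, h2⟩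
      exact ⟨h1, by omega⟩
  refine ⟨hnQ, ?_, ?_, band⟩
  · have := (key Q.length le_rfl hnQ).1 (by simpa using hq)
    simpa using this
  · intro t ht hnt h
    apply hmin (P.length + t) (by rw [List.length_append]; omega)
    rw [take_append_add]
    exact (key t (by omega) hnt).2 h

/-- product of a factor -/
def pc (X : List α) (a b : ℕ) : S := D.φ ((X.take b).drop a)

/-- `t` is the first small wall at or after `s` -/
def Fst (X : List α) (s t : ℕ) : Prop := s ≤ t ∧ t ≤ X.length ∧ D.Ws (X.take t) ∧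
  ∀ t', s ≤ t' → t' < t → ¬ D.Ws (X.take t')

theorem Fst.uniq {X : List α} {s t t' : ℕ} (h : D.Fst X s t) (h' : D.Fst X s t') : t = t' := by
  rcases lt_trichotomy t t' with h1 | h1 | h1
  · exact absurd h.2.2.1 (h'.2.2.2 t h.1 h1)
  · exact h1
  · exact absurd h'.2.2.1 (h.2.2.2 t' h'.1 h1)

noncomputable def fst (X : List α) (s : ℕ) : ℕ :=
  if h : ∃ t, D.Fst X s t then h.choose else X.length

theorem fst_eq {X : List α} {s t : ℕ} (h : D.Fst X s t) : D.fst X s = t := by
  have h1 : ∃ t, D.Fst X s t := ⟨t, h⟩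
  rw [fst, dif_pos h1]
  exact Fst.uniq D h1.choose_spec h

theorem exists_Fst {X : List α} {s t : ℕ} (h1 : s ≤ t) (h2 : t ≤ X.length) (h3 : D.Ws (X.take t)) :
    ∃ t', t' ≤ t ∧ D.Fst X s t' := by
  have hex : ∃ t, s ≤ t ∧ D.Ws (X.take t) := ⟨t, h1, h3⟩
  refine ⟨Nat.find hex, Nat.find_le ⟨h1, h3⟩, (Nat.find_spec hex).1,
    (Nat.find_le ⟨h1, h3⟩).trans h2, (Nat.find_spec hex).2, ?_⟩
  intro t' h4 h5 h6
  exact Nat.find_min hex h5 ⟨h4, h6⟩

/-- boundaries (from the left) -/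
noncomputable def bd (X : List α) (k : ℕ) : ℕ := if k = 0 then 0 else D.fst X (D.p0 + D.A k)

noncomputable def bdm (X : List α) (k : ℕ) : ℕ := if k = D.m then X.length else D.bd X k

/-- contents of the `m` holes -/
noncomputable def zs (X : List α) : List S :=
  (List.range D.m).map (fun k => D.pc X (D.bdm X k) (D.bdm X (k + 1)))

noncomputable def pre (P : List α) (i : ℕ) : List S :=
  (List.range i).map (fun k => D.pc P (D.bd P k) (D.bd P (k + 1)))

/-- start of the search for the boundary `k` in the right word, seen from level `i` -/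
def s0 (i k : ℕ) : ℕ := D.A k - D.Mc * D.C i

noncomputable def bdQ (Q : List α) (i k : ℕ) : ℕ :=
  if k = D.m then Q.length else D.fst Q (D.s0 i k)

noncomputable def post (Q : List α) (i : ℕ) : List S :=
  (List.range (D.m - (i + 1))).map
    (fun j => D.pc Q (D.bdQ Q i (i + 1 + j)) (D.bdQ Q i (i + 1 + j + 1)))

/-- no small wall in the interval of doubt -/
def Clear (Q : List α) (i k : ℕ) : Prop :=
  ∀ t, D.s0 i k ≤ t + D.Mc * D.M → t < D.s0 i k → ¬ D.Ws (Q.take t)

theorem A_mono {i k : ℕ} (h : i ≤ k) : D.A i ≤ D.A k :=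
  Nat.mul_le_mul_left _ (Nat.mul_le_mul_left _ (Nat.mul_le_mul_right _ h))

theorem A_succ (i : ℕ) : D.A (i + 1) = D.A i + D.Mc * (D.M * D.lv) := by
  unfold A; ring

theorem C_eq (i : ℕ) : D.Mc * D.C i = D.A i + D.Mc * (D.M * D.gs) := by
  unfold A C; ring

theorem s0_big {i k : ℕ} (h : i < k) : D.ns + D.Mc * D.M ≤ D.s0 i k ∧
    D.s0 i k + D.Mc * D.C i = D.A k := by
  have h1 : D.A (i + 1) ≤ D.A k := D.A_mono h
  have h2 := D.A_succ i
  have h3 := D.C_eq i
  have h4 := D.hlv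
  unfold s0
  omega

theorem C_le {i : ℕ} (h : i < D.m) {om : ℕ} (hom : om < D.M) :
    D.Mc * (D.C i + om) ≤ D.N1 := by
  have h1 : D.C i + om ≤ D.M * (D.m * D.lv + D.gs) := by
    have h2 : D.M * (i * D.lv + D.gs) + D.M * D.lv ≤ D.M * (D.m * D.lv + D.gs) := by
      have : (i + 1) * D.lv ≤ D.m * D.lv := Nat.mul_le_mul_right _ h
      calc D.M * (i * D.lv + D.gs) + D.M * D.lv = D.M * ((i + 1) * D.lv + D.gs) := by ring
        _ ≤ _ := Nat.mul_le_mul_left _ (by omega)
    have h3 : D.M ≤ D.M * D.lv := by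
      have h4 := D.hlv
      have h5 : D.Mc * D.M ≤ D.Mc * (D.M * D.lv) := by omega
      exact Nat.le_of_mul_le_mul_left h5 D.hMc
    unfold C
    omega
  exact (Nat.mul_le_mul_left _ h1).trans D.hN1

theorem fst_append_left {P Q : List α} {s t : ℕ} (h : D.Fst P s t) : D.Fst (P ++ Q) s t := by
  obtain ⟨h1, h2, h3, h4⟩ := h
  refine ⟨h1, by rw [List.length_append]; omega, ?_, ?_⟩
  · rwa [List.take_append_of_le_length h2]
  · intro t' h5 h6
    rw [List.take_append_of_le_length (by omega)]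
    exact h4 t' h5 h6

/-- the right side sees the boundary `k` of the block -/
theorem fst_append_right {P Q : List α} {i k om t : ℕ} (hik : i < k)
    (hP : P.length = D.p0 + D.Mc * (D.C i + om)) (hom : om < D.M)
    (hcl : D.Clear Q i k) (h : D.Fst Q (D.s0 i k) t) :
    D.Fst (P ++ Q) (D.p0 + D.A k) (P.length + t) := by
  obtain ⟨h1, h2, h3, h4⟩ := h
  obtain ⟨b1, b2⟩ := D.s0_big hik
  have hle : D.Mc * om ≤ D.Mc * D.M := Nat.mul_le_mul_left _ hom.le
  have hP' : P.length = D.p0 + D.Mc * D.C i + D.Mc * om := by rw [hP]; ring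
  refine ⟨by omega, by rw [List.length_append]; omega, ?_, ?_⟩
  · rw [take_append_add, D.hWs P _ (by rw [List.length_take]; omega)]; exact h3
  · intro t' h5 h6
    obtain ⟨s, rfl⟩ : ∃ s, t' = P.length + s := ⟨t' - P.length, by omega⟩
    rw [take_append_add, D.hWs P _ (by rw [List.length_take]; omega)]
    by_cases h7 : s < D.s0 i k
    · exact hcl s (by omega) h7
    · exact h4 s (by omega) (by omega)

theorem pc_left {P Q : List α} {a b : ℕ} (hb : b ≤ P.length) : D.pc (P ++ Q) a b = D.pc P a b := by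
  unfold pc
  rw [List.take_append_of_le_length hb]

theorem pc_right {P Q : List α} {a b : ℕ} :
    D.pc (P ++ Q) (P.length + a) (P.length + b) = D.pc Q a b := by
  unfold pc
  rw [take_append_add, List.drop_append]
  rw [List.drop_of_length_le (by omega)]
  simp

theorem bdm_left {P Q : List α} {k : ℕ} (hk : k < D.m)
    (h : k = 0 ∨ ∃ t, D.Fst P (D.p0 + D.A k) t) :
    D.bdm (P ++ Q) k = D.bd P k ∧ D.bd P k ≤ P.length := by
  unfold bdm bd
  rw [if_neg hk.ne]
  by_cases h0 : k = 0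
  · simp [h0]
  · obtain ⟨t, ht⟩ := h.resolve_left h0
    rw [if_neg h0, if_neg h0, D.fst_eq ht, D.fst_eq (D.fst_append_left ht)]
    exact ⟨rfl, ht.2.1⟩

theorem bdm_right {P Q : List α} {i k om : ℕ} (hik : i < k) (hk : k ≤ D.m)
    (hP : P.length = D.p0 + D.Mc * (D.C i + om)) (hom : om < D.M)
    (h : k < D.m → D.Clear Q i k ∧ ∃ t, D.Fst Q (D.s0 i k) t) :
    D.bdm (P ++ Q) k = P.length + D.bdQ Q i k := by
  unfold bdm bdQ
  by_cases h0 : k = D.m
  · rw [if_pos h0, if_pos h0, List.length_append]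
  · obtain ⟨hc, t, ht⟩ := h (by omega)
    rw [if_neg h0, if_neg h0, D.fst_eq ht]
    unfold bd
    rw [if_neg (by omega), D.fst_eq (D.fst_append_right hik hP hom hc ht)]

theorem zs_split {P Q : List α} {i om : ℕ} (hi : i < D.m)
    (hP : P.length = D.p0 + D.Mc * (D.C i + om)) (hom : om < D.M)
    (hl : ∀ k, 1 ≤ k → k ≤ i → ∃ t, D.Fst P (D.p0 + D.A k) t)
    (hr : ∀ k, i < k → k < D.m → D.Clear Q i k ∧ ∃ t, D.Fst Q (D.s0 i k) t) :
    ∃ y, D.zs (P ++ Q) = D.pre P i ++ y :: D.post Q i := by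
  refine ⟨D.pc (P ++ Q) (D.bdm (P ++ Q) i) (D.bdm (P ++ Q) (i + 1)), ?_⟩
  have hm' : D.m = i + (1 + (D.m - (i + 1))) := by omega
  have hL : ∀ k, k ≤ i → D.bdm (P ++ Q) k = D.bd P k ∧ D.bd P k ≤ P.length := by
    intro k hk
    apply D.bdm_left (by omega)
    rcases Nat.eq_zero_or_pos k with h | h
    · exact Or.inl h
    · exact Or.inr (hl k h hk)
  have hR : ∀ k, i < k → k ≤ D.m → D.bdm (P ++ Q) k = P.length + D.bdQ Q i k := by
    intro k h1 h2
    exact D.bdm_right h1 h2 hP hom (fun h3 => hr k h1 h3)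
  unfold zs pre post
  conv_lhs => rw [hm', List.range_add, List.map_append, List.range_add]
  simp only [List.map_append, List.map_map, List.range_one, List.map_cons, List.map_nil]
  congr 1
  · apply List.map_congr_left
    intro k hk
    rw [List.mem_range] at hk
    rw [(hL k hk.le).1, (hL (k + 1) hk).1, D.pc_left (hL (k + 1) hk).2]
  · simp only [List.singleton_append, Nat.add_zero]
    congr 1
    apply List.map_congr_left
    intro j hj
    rw [List.mem_range] at hj
    simp only [Function.comp]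
    have e : i + (1 + j) = i + 1 + j := by omega
    rw [e, hR (i + 1 + j) (by omega) (by omega), hR (i + 1 + j + 1) (by omega) (by omega),
      D.pc_right]

theorem pre_length (P : List α) (i : ℕ) : (D.pre P i).length = i := by simp [pre]
theorem post_length (Q : List α) (i : ℕ) : (D.post Q i).length = D.m - (i + 1) := by simp [post]
theorem zs_length (X : List α) : (D.zs X).length = D.m := by simp [zs]

end Dat

end Crest.Agent.R320.Sch1_538
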