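import Crest.Agent.R320.Sch1_538

set_option autoImplicit false

/-!
Row 320, scheme 1 in abstract form: labels, soundness on all pairs, completeness.
-/

namespace Crest.Agent.R320.Sch1_538.Dat

open Classical

variable {α S V : Type*} [Monoid S] [AddCommGroup V] (D : Dat α S V)

theorem pc_mul {X : List α} {a b c : ℕ} (h1 : a ≤ b) (h2 : b ≤ c) :
    D.pc X a b * D.pc X b c = D.pc X a c := by
  unfold pc
  rw [← D.hφ]
  congr 1
  have e1 : (X.take b).drop a = ((X.take c).drop a).take (b - a) := by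
    rw [List.drop_take, List.drop_take, List.take_take, min_eq_left (by omega)]
  have e2 : (X.take c).drop b = ((X.take c).drop a).drop (b - a) := by
    rw [List.drop_drop]
    congr 1
    omega
  rw [e1, e2, List.take_append_drop]

theorem pc_self {X : List α} {a : ℕ} : D.pc X a a = 1 := by
  unfold pc
  rw [List.drop_take, Nat.sub_self, List.take_zero, D.hφ1]

theorem Fst.le {X : List α} {s s' t t' : ℕ} (hs : s ≤ s') (h : D.Fst X s t) (h' : D.Fst X s' t') :
    t ≤ t' := by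
  by_contra hc
  exact h.2.2.2 t' (hs.trans h'.1) (by omega) h'.2.2.1

theorem bdm_mono {X : List α} (hF : ∀ k, 1 ≤ k → k < D.m → ∃ t, D.Fst X (D.p0 + D.A k) t)
    {k : ℕ} (hk : k < D.m) : D.bdm X k ≤ D.bdm X (k + 1) := by
  unfold bdm
  rw [if_neg hk.ne]
  by_cases h0 : k = 0
  · unfold bd; simp [h0]
  · obtain ⟨t, ht⟩ := hF k (by omega) hk
    have e1 : D.bd X k = t := by unfold bd; rw [if_neg h0, D.fst_eq ht]
    by_cases h1 : k + 1 = D.m
    · rw [if_pos h1, e1]; exact ht.2.1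
    · obtain ⟨t', ht'⟩ := hF (k + 1) (by omega) (by omega)
      have e2 : D.bd X (k + 1) = t' := by unfold bd; rw [if_neg (by omega), D.fst_eq ht']
      rw [if_neg h1, e1, e2]
      exact Fst.le D (Nat.add_le_add_left (D.A_mono (by omega)) _) ht ht'

theorem prod_zs {X : List α} (hF : ∀ k, 1 ≤ k → k < D.m → ∃ t, D.Fst X (D.p0 + D.A k) t) :
    (D.zs X).prod = D.φ X := by
  have key : ∀ j, j ≤ D.m →
      ((List.range j).map (fun k => D.pc X (D.bdm X k) (D.bdm X (k + 1)))).prod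
        = D.pc X (D.bdm X 0) (D.bdm X j) ∧ D.bdm X 0 ≤ D.bdm X j := by
    intro j
    induction j with
    | zero => intro _; simp [D.pc_self]
    | succ j ih =>
      intro hj
      obtain ⟨h1, h2⟩ := ih (by omega)
      have h3 := D.bdm_mono hF (k := j) (by omega)
      refine ⟨?_, h2.trans h3⟩
      rw [List.range_succ, List.map_append, List.prod_append, h1]
      simp only [List.map_cons, List.map_nil, List.prod_cons, List.prod_nil, mul_one]
      exact D.pc_mul h2 h3
  have h0 : D.bdm X 0 = 0 := by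
    unfold bdm bd
    rw [if_neg (by have := D.hm; omega), if_pos rfl]
  have hm : D.bdm X D.m = X.length := by unfold bdm; rw [if_pos rfl]
  have := (key D.m le_rfl).1
  rw [h0, hm] at this
  unfold zs
  rw [this]
  unfold pc
  simp

/-- left-legal with label `v` -/
def LP (v : V) (P : List α) : Prop := ∃ i om c, i < D.m ∧ om < D.M ∧
  P.length = D.p0 + D.Mc * (D.C i + om) ∧ D.nmL (D.C i + om) = some c ∧ D.idx c = i ∧
  (∀ k, 1 ≤ k → k ≤ i → ∃ t, D.Fst P (D.p0 + D.A k) t) ∧ D.Lf c (D.pre P i) ∧ D.lab c = v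

/-- right-legal with label `r` -/
def RQ (r : V) (Q : List α) : Prop := Q ∈ D.QQ ∧ ∃ c, D.nmR (Q.length / D.Mc) = some c ∧
  (∀ k, D.idx c < k → k < D.m →
    D.Clear Q (D.idx c) k ∧ ∃ t, D.Fst Q (D.s0 (D.idx c) k) t) ∧
  D.Rt c (D.post Q (D.idx c)) ∧ D.rlab c = r

/-- number of comb steps in the block -/
def T (X : List α) : ℕ := (X.length - D.p0) / D.Mc

def Good (T : ℕ) : Prop := ∀ k ∈ D.Ms, ¬ k ∣ T

noncomputable def nu1 (X : List α) : V :=
  if D.Good (D.T X) then D.nuE (D.zs X)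
  else if h : ∃ p : V × V, ∃ P Q, X = P ++ Q ∧ D.LP p.1 P ∧ D.RQ p.2 Q then
    h.choose.2 - D.act h.choose.1 (D.φ X) else 0

theorem T_append {P Q : List α} {t : ℕ} (hP : P.length = D.p0 + D.Mc * t) :
    D.T (P ++ Q) = t + Q.length / D.Mc := by
  unfold T
  rw [List.length_append, hP]
  have : D.p0 + D.Mc * t + Q.length - D.p0 = Q.length + D.Mc * t := by omega
  rw [this, Nat.add_mul_div_left _ _ D.hMc]
  omega

theorem exF_of_split {P Q : List α} {i om : ℕ}
    (hP : P.length = D.p0 + D.Mc * (D.C i + om)) (hom : om < D.M)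
    (hl : ∀ k, 1 ≤ k → k ≤ i → ∃ t, D.Fst P (D.p0 + D.A k) t)
    (hr : ∀ k, i < k → k < D.m → D.Clear Q i k ∧ ∃ t, D.Fst Q (D.s0 i k) t) :
    ∀ k, 1 ≤ k → k < D.m → ∃ t, D.Fst (P ++ Q) (D.p0 + D.A k) t := by
  intro k h1 h2
  rcases Nat.lt_or_ge i k with h | h
  · obtain ⟨hc, t, ht⟩ := hr k h h2
    exact ⟨_, D.fst_append_right h hP hom hc ht⟩
  · obtain ⟨t, ht⟩ := hl k h1 h
    exact ⟨_, D.fst_append_left ht⟩

/-- SOUNDNESS on all pairs. -/
theorem sound {P Q : List α} {v r : V} (hP : D.LP v P) (hQ : D.RQ r Q) :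
    P ++ Q ∈ D.XX ∧ r = D.act v (D.φ (P ++ Q)) + D.nu1 (P ++ Q) := by
  obtain ⟨i, om, c, hi, hom, hlen, hnm, hidx, hl, hLf, hlab⟩ := hP
  obtain ⟨hQQ, c', hnm', hr, hRt, hrlab⟩ := hQ
  refine ⟨D.junction hlen (D.C_le hi hom) hQQ, ?_⟩
  have hT := D.T_append (Q := Q) hlen
  by_cases hg : D.Good (D.T (P ++ Q))
  · have hcc : c = c' := D.hgood _ _ _ _ hnm hnm' (by rw [← hT]; exact hg)
    subst hcc
    rw [hidx] at hr hRt
    obtain ⟨y, hy⟩ := D.zs_split hi hlen hom hl hr
    have h1 := D.hex c (D.pre P i) (D.post Q i) y (by rw [D.pre_length, hidx])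
      (by rw [← hy, D.zs_length]) hLf hRt
    rw [← hy, D.prod_zs (D.exF_of_split hlen hom hl hr)] at h1
    unfold nu1
    rw [if_pos hg, ← hrlab, ← hlab, h1]
  · unfold nu1
    rw [if_neg hg]
    have hex : ∃ p : V × V, ∃ P' Q', P ++ Q = P' ++ Q' ∧ D.LP p.1 P' ∧ D.RQ p.2 Q' :=
      ⟨(v, r), P, Q, rfl, ⟨i, om, c, hi, hom, hlen, hnm, hidx, hl, hLf, hlab⟩,
        ⟨hQQ, c', hnm', hr, hRt, hrlab⟩⟩
    rw [dif_pos hex]
    obtain ⟨P', Q', he, hP', hQ'⟩ := hex.choose_spec
    obtain ⟨i2, om2, c2, hi2, hom2, hlen2, hnm2, -, -, -, hlab2⟩ := hP'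
    obtain ⟨-, c2', hnm2', -, -, hrlab2⟩ := hQ'
    have hT2 := D.T_append (Q := Q') hlen2
    rw [← he] at hT2
    have hb : ∃ k ∈ D.Ms, k ∣ (D.C i + om) + Q.length / D.Mc := by
      unfold Good at hg
      push Not at hg
      rw [hT] at hg
      exact hg
    obtain ⟨e1, e2⟩ := D.hbad _ _ _ _ _ _ _ _ hnm hnm' hnm2 hnm2' (by rw [← hT, ← hT2]) hb
    rw [← hlab2, ← hrlab2, ← e1, ← e2, hlab, hrlab]
    abel

/-- a small wall in one of the intervals of doubt -/
def Dbad (X : List α) : Prop := ∃ k, 1 ≤ k ∧ k < D.m ∧ ∃ t, D.p0 + D.A k ≤ t + D.Mc * D.M ∧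
  t < D.p0 + D.A k + D.Mc * D.M ∧ t ≤ X.length ∧ D.Ws (X.take t)

theorem nmL_C (i om : ℕ) : D.nmL (D.C i + om) = D.nmL om := by
  have h : ∀ j, D.nmL (D.M * j + om) = D.nmL om := by
    intro j
    induction j with
    | zero => simp
    | succ j ih => rw [← ih, ← D.hperL (D.M * j + om)]; congr 1; ring
  exact h _

/-- COMPLETENESS. -/
theorem complete {X : List α} (hX : X ∈ D.XX)
    (hF : ∀ k, 1 ≤ k → k < D.m → ∃ t, D.p0 + D.A k ≤ t ∧ t ≤ D.p0 + D.A k + D.Mc * (D.M * D.gs) ∧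
      D.Ws (X.take t))
    (hE : ¬ D.Ebad X) (hB : D.Good (D.T X)) (hD : ¬ D.Dbad X) (v : V) :
    ∃ P Q r, X = P ++ Q ∧ D.LP v P ∧ D.RQ r Q := by
  have hz := D.hz
  have hlenX : D.z ≤ X.length + D.Sb := by
    by_contra h
    exact D.not_qual_short (by omega) hX.1
  obtain ⟨c, pre0, post0, y, hu, hpl, hLf, hRt, hlab⟩ := D.hcm (D.zs X) v (D.zs_length X)
  obtain ⟨om, hom, hn1, hn2⟩ := D.hall (D.T X) hB c
  have hi : D.idx c < D.m := D.hidx c
  have hCl := D.C_le hi hom
  have hCm : D.Mc * (D.C (D.idx c) + om) = D.A (D.idx c) + D.Mc * (D.M * D.gs) + D.Mc * om := by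
    rw [Nat.mul_add, D.C_eq]
  have hle : D.Mc * om ≤ D.Mc * D.M := Nat.mul_le_mul_left _ hom.le
  obtain ⟨P, Q, hPQ, hPlen⟩ : ∃ P Q, X = P ++ Q ∧
      P.length = D.p0 + D.Mc * (D.C (D.idx c) + om) := by
    refine ⟨X.take (D.p0 + D.Mc * (D.C (D.idx c) + om)), X.drop _,
      (List.take_append_drop _ _).symm, ?_⟩
    rw [List.length_take]; omega
  subst hPQ
  have hl : ∀ k, 1 ≤ k → k ≤ D.idx c → ∃ t, D.Fst P (D.p0 + D.A k) t := by
    intro k h1 h2
    obtain ⟨t, ht1, ht2, ht3⟩ := hF k h1 (by omega)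
    have hA := D.A_mono h2
    have htP : t ≤ P.length := by omega
    rw [List.take_append_of_le_length htP] at ht3
    obtain ⟨t', -, h⟩ := D.exists_Fst ht1 htP ht3
    exact ⟨t', h⟩
  have hr : ∀ k, D.idx c < k → k < D.m →
      D.Clear Q (D.idx c) k ∧ ∃ t, D.Fst Q (D.s0 (D.idx c) k) t := by
    intro k h1 h2
    obtain ⟨b1, b2⟩ := D.s0_big h1
    have hCe := D.C_eq (D.idx c)
    have hPl' : P.length = D.p0 + D.Mc * D.C (D.idx c) + D.Mc * om := by rw [hPlen]; ring
    constructor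
    · intro s hs1 hs2 hw
      by_cases hsQ : s ≤ Q.length
      · apply hD
        refine ⟨k, by omega, h2, P.length + s, by omega, by omega,
          by rw [List.length_append]; omega, ?_⟩
        rw [take_append_add, D.hWs P _ (by rw [List.length_take]; omega)]
        exact hw
      · -- beyond the end of `Q`: the whole word
        have hN := D.hN1
        have : D.s0 (D.idx c) k ≤ Q.length := by
          have h3 : D.A k + D.Mc * (D.M * D.lv) ≤ D.Mc * (D.M * (D.m * D.lv + D.gs)) := by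
            rw [← D.A_succ]
            unfold A
            apply Nat.mul_le_mul_left
            apply Nat.mul_le_mul_left
            have h4 : (k + 1) * D.lv ≤ D.m * D.lv := Nat.mul_le_mul_right D.lv h2
            omega
          have h5 := D.hlv
          rw [List.length_append] at hlenX
          omega
        omega
    · obtain ⟨t, ht1, ht2, ht3⟩ := hF k (by omega) h2
      have htX : t ≤ (P ++ Q).length := by
        have hN := D.hN1
        have h3 : D.A k + D.Mc * (D.M * D.gs) ≤ D.Mc * (D.M * (D.m * D.lv + D.gs)) := by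
          have : D.Mc * (D.M * (D.m * D.lv + D.gs)) =
            D.Mc * (D.M * (D.m * D.lv)) + D.Mc * (D.M * D.gs) := by ring
          rw [this]
          apply Nat.add_le_add_right
          unfold A
          exact Nat.mul_le_mul_left _ (Nat.mul_le_mul_left _ (Nat.mul_le_mul_right _ h2.le))
        omega
      have h4 : D.p0 + D.A k + D.Mc * D.M ≤ t := by
        by_contra h5
        exact hD ⟨k, by omega, h2, t, by omega, by omega, htX, ht3⟩
      obtain ⟨s, rfl⟩ : ∃ s, t = P.length + s := ⟨t - P.length, by omega⟩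
      rw [List.length_append] at htX
      rw [take_append_add, D.hWs P _ (by rw [List.length_take]; omega)] at ht3
      obtain ⟨t', -, h⟩ := D.exists_Fst (s := D.s0 (D.idx c) k) (by omega) (by omega) ht3
      exact ⟨t', h⟩
  obtain ⟨y', hy'⟩ := D.zs_split hi hPlen hom hl hr
  have hinj := List.append_inj (hu.symm.trans hy') (by rw [hpl, D.pre_length])
  have e1 : pre0 = D.pre P (D.idx c) := hinj.1
  have e2 : post0 = D.post Q (D.idx c) := (List.cons.inj hinj.2).2
  refine ⟨P, Q, D.rlab c, rfl, ⟨D.idx c, om, c, hi, hom, hPlen, ?_, rfl, hl, ?_, hlab⟩,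
    D.QQ_of_not_Ebad hPlen hCl hX hE, c, ?_, hr, ?_, rfl⟩
  · rw [D.nmL_C]; exact hn1
  · rw [← e1]; exact hLf
  · apply hn2
    rw [D.T_append hPlen]
    have : D.C (D.idx c) + om + Q.length / D.Mc =
        (om + Q.length / D.Mc) + D.M * (D.idx c * D.lv + D.gs) := by unfold C; ring
    rw [this]
    show _ % _ = _ % _
    rw [Nat.add_mul_mod_self_left]
  · rw [← e2]; exact hRt

end Crest.Agent.R320.Sch1_538.Dat
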