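import Crest.Agent.R320.ExactR_237

/-!
Row 320, P3 in the frozen format of 163 #13363 (block code, all words, one token system):
scheme 2 = exact gadget (237) in the first `p0` letters of a block, places `pl k`; the right word is
`Q1 ++ X2` and is legal iff exactly one hypothesis `k` gives a bad block.
-/

set_option autoImplicit false

namespace Crest.Agent.R320.Sch2B_776

open Crest.Agent.R320.ExactR_237

variable {A S V : Type}

/-- the zone map with both noises (118) -/
def Tz [Monoid S] [AddCommGroup V] (f : A → S) (act : V → S → V) (p0 : ℕ) (nu2 nu1 : List A → V)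
    (v : V) (X : List A) : V :=
  act (act v (pr f (X.take p0)) + nu2 (X.take p0)) (pr f (X.drop p0)) + nu1 (X.drop p0)

theorem scheme2 (A S V : Type) [Monoid S] [Finite S] [AddCommGroup V] [Finite V] (f : A → S)
    (act : V → S → V) (R0 : ℕ) :
    ∃ K : ℕ, ∀ (p0 n2 : ℕ) (pl : ℕ → ℕ),
      (∀ i j, i < j → j < K → pl i < pl j) → (∀ k, k < K → pl k ≤ n2) → n2 ≤ p0 →
      ∃ (nu2 : List A → V) (LP2 : List A → V → Prop),
        (∀ P v, LP2 P v → ∃ k < K, P.length = pl k) ∧
        ∀ (XX : Set (List A)) (Bad : List A → Prop) (nu1 : List A → V),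
          (∀ X ∈ XX, p0 < X.length) →
          (∀ P P' U : List A, P.length = P'.length → P.length ≤ n2 →
            (P ++ U ∈ XX ↔ P' ++ U ∈ XX)) →
          (∀ P P' U : List A, P.length = P'.length → P.length ≤ n2 →
            (Bad (P ++ U) ↔ Bad (P' ++ U))) →
          (∀ X ∈ XX, ∀ Y, X ++ Y ∈ XX → Y = []) →
          -- VIS
          (∀ k k', k < K → k' < K → ∀ P P' Q1 X2 : List A, P.length = pl k → P'.length = pl k' →
            P' ++ Q1 ∈ XX → X2 ∈ XX → ∃ X ∈ XX, X <+: P ++ (Q1 ++ X2)) →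
          -- SPOIL
          (∀ X ∈ XX, ∀ X2 ∈ XX, Bad X → ∀ I : Finset ℕ,
            (∀ k ∈ I, k < K ∧ ∃ k' < K, k' ≠ k ∧ ∃ P' R : List A, P'.length = pl k' ∧
              R <+: (X ++ X2).drop (pl k) ∧ P' ++ R ∈ XX ∧ Bad (P' ++ R)) → I.card ≤ R0) →
          ∃ R2 : List A → Option V,
            (∀ Q b, R2 Q = some b → Q ≠ []) ∧
            (∀ P v Q b, LP2 P v → R2 Q = some b →
              (∀ X ∈ XX, X <+: P ++ Q → Bad X) →
              ∃ Q1 X2, Q = Q1 ++ X2 ∧ Q1 ≠ [] ∧ P ++ Q1 ∈ XX ∧ X2 ∈ XX ∧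
                Tz f act p0 nu2 nu1 (Tz f act p0 nu2 nu1 v (P ++ Q1)) X2 = b) ∧
            (∀ X ∈ XX, ∀ X2 ∈ XX, Bad X → ∀ v, ∃ P Q, X ++ X2 = P ++ Q ∧
              P.length < X.length ∧ LP2 P v ∧ (R2 Q).isSome) := by
  classical
  let _ : Fintype S := Fintype.ofFinite _
  let _ : Fintype V := Fintype.ofFinite _
  obtain ⟨K, hK⟩ := exact_gadget A S V f act (R0 + 1)
  refine ⟨K, ?_⟩
  intro p0 n2 pl hpl hplr hn2
  obtain ⟨lam, rho, nu, hex, hco⟩ := hK pl hpl
  have hinj : ∀ i j, i < K → j < K → pl i = pl j → i = j := by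
    intro i j hi hj h
    rcases lt_trichotomy i j with h1 | h1 | h1
    · have := hpl i j h1 hj; omega
    · exact h1
    · have := hpl j i h1 hi; omega
  refine ⟨fun u => nu u 1, fun P v => ∃ k, k < K ∧ P.length = pl k ∧ lam k P = some v,
    fun P v h => ?_, ?_⟩
  · obtain ⟨k, hk, hkP, _⟩ := h
    exact ⟨k, hk, hkP⟩
  intro XX Bad nu1 hXl hXXl hBadl hPC hvis hspoil
  -- candidates of a right word
  let cand : List A → ℕ → Prop := fun Q k => k < K ∧ ∃ P' R : List A, P'.length = pl k ∧
    R <+: Q ∧ P' ++ R ∈ XX ∧ Bad (P' ++ R)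
  let RelR : List A → V → Prop := fun Q b => ∃ (k : ℕ) (P' Q1 X2 : List A) (r : V),
    k < K ∧ P'.length = pl k ∧ Q = Q1 ++ X2 ∧ P' ++ Q1 ∈ XX ∧ X2 ∈ XX ∧
      (∀ k', cand Q k' → k' = k) ∧ rho k (Q1.take (p0 - pl k)) 1 = some r ∧
      b = Tz f act p0 (fun u => nu u 1) nu1
        (act r (pr f (Q1.drop (p0 - pl k))) + nu1 (Q1.drop (p0 - pl k))) X2
  refine ⟨fun Q => if h : ∃ b, RelR Q b then some h.choose else none, ?_, ?_, ?_⟩
  · intro Q b h hQ
    have hR : RelR Q b := by
      by_cases h' : ∃ b, RelR Q b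
      · simp only [dif_pos h', Option.some.injEq] at h
        rw [← h]; exact h'.choose_spec
      · simp only [dif_neg h'] at h
        exact absurd h (by simp)
    obtain ⟨k, P', Q1, X2, r, hk, hP', hQQ, hX1, hX2, -, -, -⟩ := hR
    subst hQ
    have h2 : X2 = [] := by
      have := congrArg List.length hQQ
      rw [List.length_append, List.length_nil] at this
      exact List.length_eq_zero_iff.1 (by omega)
    have h3 := hXl X2 hX2
    rw [h2, List.length_nil] at h3
    omega
  · -- exactness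
    intro P v Q b hLP hR2 hprom
    have hR : RelR Q b := by
      by_cases h' : ∃ b, RelR Q b
      · simp only [dif_pos h', Option.some.injEq] at hR2
        rw [← hR2]; exact h'.choose_spec
      · simp only [dif_neg h'] at hR2
        exact absurd hR2 (by simp)
    obtain ⟨k, hk, hkP, hlam⟩ := hLP
    obtain ⟨k', P', Q1, X2, r, hk', hP', hQQ, hX1, hX2, hun, hrho, hb⟩ := hR
    obtain ⟨X, hX, hXp⟩ := hvis k k' hk hk' P P' Q1 X2 hkP hP' hX1 hX2
    rw [← hQQ] at hXp
    have hBX := hprom X hX hXp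
    have hXlen := hXl X hX
    have hplk := hplr k hk
    obtain ⟨R, hR⟩ : ∃ R, X = P ++ R := by
      have h1 : P <+: P ++ Q := List.prefix_append _ _
      obtain ⟨R, hR⟩ := List.prefix_of_prefix_length_le h1 hXp (by omega)
      exact ⟨R, hR.symm⟩
    subst hR
    have hRQ : R <+: Q := by
      obtain ⟨t, ht⟩ := hXp
      rw [List.append_assoc] at ht
      exact ⟨t, List.append_cancel_left ht⟩
    have hkk : k = k' := hun k ⟨hk, P, R, hkP, hRQ, hX, hBX⟩
    subst hkk
    have hX1' : P ++ Q1 ∈ XX := (hXXl P P' Q1 (by rw [hkP, hP']) (by omega)).2 hX1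
    have hlen1 := hXl _ hX1'
    rw [List.length_append] at hlen1
    refine ⟨Q1, X2, hQQ, ?_, hX1', hX2, ?_⟩
    · intro h
      rw [h, List.length_nil] at hlen1
      omega
    · rw [hb]
      congr 1
      have e1 : (P ++ Q1).take p0 = P ++ Q1.take (p0 - pl k) := by
        rw [List.take_append, List.take_of_length_le (by omega), hkP]
      have e2 : (P ++ Q1).drop p0 = Q1.drop (p0 - pl k) := by
        rw [List.drop_append, List.drop_of_length_le (by omega), List.nil_append, hkP]
      have h := hex k hk P (Q1.take (p0 - pl k)) 1 v r hkP hlam hrho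
      rw [mul_one] at h
      unfold Tz
      rw [e1, e2, ← h]
  · -- completeness
    intro X hX X2 hX2 hBX v
    have hXlen := hXl X hX
    have hX0 : (X.take p0).length = p0 := by rw [List.length_take]; omega
    obtain ⟨I, hI, hIk⟩ := hco (X.take p0) 1 v
      (fun k hk => by rw [hX0]; have := hplr k hk; omega)
    obtain ⟨k, hkI, hns⟩ : ∃ k ∈ I, ¬ ∃ k' < K, k' ≠ k ∧ ∃ P' R : List A, P'.length = pl k' ∧
        R <+: (X ++ X2).drop (pl k) ∧ P' ++ R ∈ XX ∧ Bad (P' ++ R) := by
      by_contra hcon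
      push Not at hcon
      have := hspoil X hX X2 hX2 hBX I (fun k hk => ⟨(hIk k hk).1, by
        obtain ⟨k', h1, h2, P', R, h3, h4, h5, h6⟩ := hcon k hk
        exact ⟨k', h1, h2, P', R, h3, h4, h5, h6⟩⟩)
      omega
    obtain ⟨hk, hlam, hrho⟩ := hIk k hkI
    have hplk := hplr k hk
    have hXk : (X.take (pl k)).length = pl k := by rw [List.length_take]; omega
    have hdrop : (X ++ X2).drop (pl k) = X.drop (pl k) ++ X2 :=
      List.drop_append_of_le_length (by omega)
    refine ⟨X.take (pl k), X.drop (pl k) ++ X2, ?_, by rw [hXk]; omega, ⟨k, hk, hXk, ?_⟩, ?_⟩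
    · rw [← List.append_assoc, List.take_append_drop]
    · rw [List.take_take, min_eq_left (by omega)] at hlam
      exact hlam
    · obtain ⟨r, hr⟩ := Option.isSome_iff_exists.1 hrho
      have e1 : (X.drop (pl k)).take (p0 - pl k) = (X.take p0).drop (pl k) := by
        rw [List.drop_take]
      have hexR : ∃ b, RelR (X.drop (pl k) ++ X2) b := by
        refine ⟨_, k, X.take (pl k), X.drop (pl k), X2, r, hk, hXk, rfl, ?_, hX2, ?_, ?_, rfl⟩
        · rw [List.take_append_drop]; exact hX
        · rintro k' ⟨hk', P', R, hP', hR, hRX, hRB⟩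
          by_contra hne
          exact hns ⟨k', hk', hne, P', R, hP', by rw [hdrop]; exact hR, hRX, hRB⟩
        · rw [e1]; exact hr
      show (if h : ∃ b, RelR (X.drop (pl k) ++ X2) b then some h.choose else none).isSome
      rw [dif_pos hexR]
      rfl

end Crest.Agent.R320.Sch2B_776
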