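import Mathlib
import Crest.Agent.R320.Geo_199

/-! Row 320, helper199: spoiling count for the promise ruler (HALF 1). -/

set_option autoImplicit false
set_option linter.unusedSectionVars false

namespace Crest.Agent.R320.Spoil_199

open Crest.Agent.R320.Mach_199 Crest.Agent.R320.Geo_199
open Crest.Agent.R320.Gad1_420 (Rule)

universe u

variable {α : Type u} {p : PP α}

theorem Bad_take (hp : PH p) {o n : ℕ} {X : List α} (h : Bad p o (X.take n)) : Bad p o X := by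
  rcases h with ⟨s, h1, h2⟩ | ⟨k, hk, s, h1, h2⟩ | ⟨b, ⟨h1, h2, h3⟩, h4⟩
  · have hs : s ≤ n := by have := h1.1; rw [List.length_take] at this; omega
    exact Or.inl ⟨s, (OW_take hs).1 h1, h2⟩
  · refine Or.inr (Or.inl ⟨k, hk, s, ?_, h2⟩)
    have h3 := hp.rs.wall_fit h1
    have h4 := (hp.rs.wall_left (Q := X.drop n) h3).2 h1
    rwa [List.take_append_drop] at h4
  · have hs : b ≤ n := by have := h1.1; rw [List.length_take] at this; omega
    refine Or.inr (Or.inr ⟨b, ⟨(OW_take hs).1 h1, h2, ?_⟩, h4⟩)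
    intro s hsb hw
    exact h3 s hsb ((OW_take (by omega)).2 hw)

def cc (p : PP α) (j : ℕ) : ℕ := p.U * 4 ^ j

theorem cc_le (hp : PH p) {j : ℕ} (hj : j < p.k) : cc p j ≤ p.p0 := by
  rw [hp.hp0]
  exact Nat.mul_le_mul_left _ (Nat.pow_le_pow_right (by norm_num) hj.le)

def dd (p : PP α) (j j' : ℕ) : ℤ := (cc p j' : ℤ) - cc p j

theorem dd_eq (j j' : ℕ) : dd p j j' = p.U * (4 ^ j' - 4 ^ j) := by
  unfold dd cc
  push_cast
  ring

theorem dd_abs (hp : PH p) {j j' : ℕ} (hj : j < p.k) (hj' : j' < p.k) : |dd p j j'| ≤ p.p0 := by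
  have h1 := cc_le hp hj
  have h2 := cc_le hp hj'
  unfold dd
  rw [abs_le]
  constructor <;> omega

/-- type E -/
def SE (p : PP α) (w : List α) (δ : ℤ) : Prop :=
  ∃ t : ℕ, OW p w t ∧ |((t : ℤ) + δ - p.z) - p.th (((t : ℤ) + δ - p.z) % p.M')| ≤ p.N1

def SD (p : PP α) (w : List α) (k : ℕ) (δ : ℤ) : Prop :=
  ∃ t : ℕ, p.Rs (w.drop t) ∧ |(t : ℤ) + δ - p.p0 - p.A k| ≤ p.M' * p.M

def SB (p : PP α) (w : List α) (β : Bool) (q : ℕ) (δ : ℤ) : Prop :=
  ∃ t : ℕ, OW p w t ∧ (p.z : ℤ) ≤ (t : ℤ) + δ ∧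
    (β = true → t ≤ p.z + p.Sb + p.p0) ∧
    (β = false → p.z + p.Sb + p.p0 < t ∧ ∀ t', p.z + p.Sb + p.p0 < t' → t' < t → ¬ OW p w t') ∧
    ∃ a r : ℤ, 0 ≤ r ∧ r < p.M' ∧ (t : ℤ) + δ - p.p0 = p.M' * (q * a) + r

abbrev Ty (p : PP α) := Option (Fin (p.m + 1) ⊕ (Bool × p.ms))

def Sp (p : PP α) (w : List α) (δ : ℤ) : Ty p → Prop
  | none => SE p w δ
  | some (Sum.inl k) => SD p w k δ
  | some (Sum.inr (β, q)) => SB p w β q δ

theorem exists_type (hp : PH p) {w : List α} {j j' : ℕ} (hj : j < p.k) (hj' : j' < p.k)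
    (hw : p.p0 ≤ w.length) (h : Bad p (cc p j') (w.drop (cc p j))) :
    ∃ ty, Sp p w (dd p j j') ty := by
  have hcj := cc_le hp hj
  have hcj' := cc_le hp hj'
  have hd : ∀ s : ℕ, ((cc p j' + s : ℕ) : ℤ) = ((cc p j + s : ℕ) : ℤ) + dd p j j' := by
    intro s; unfold dd; push_cast; ring
  rcases h with ⟨s, h1, h2⟩ | ⟨k, hk, s, h1, h2, h3⟩ | ⟨b, ⟨h1, h2, h3⟩, h4⟩
  · refine ⟨none, cc p j + s, (OW_drop hp (by omega) (OW_len hp h1)).1 h1, ?_⟩
    rw [← hd]
    exact h2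
  · refine ⟨some (Sum.inl ⟨k, by omega⟩), cc p j + s, ?_, ?_⟩
    · rw [← List.drop_drop]; exact h1
    · rw [← hd, abs_le]
      have e : ((p.M' * p.M : ℕ) : ℤ) = p.M' * p.M := by push_cast; ring
      simp only
      constructor
      · have : ((p.p0 + p.A k : ℕ) : ℤ) ≤ ((cc p j' + s + p.M' * p.M : ℕ) : ℤ) := by exact_mod_cast h2
        push_cast at this ⊢
        linarith
      · have : ((cc p j' + s : ℕ) : ℤ) < ((p.p0 + p.A k + p.M' * p.M : ℕ) : ℤ) := by exact_mod_cast h3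
        push_cast at this ⊢
        linarith
  · unfold good at h4
    push Not at h4
    obtain ⟨q, hq, hqd⟩ := h4
    have hbw : OW p w (cc p j + b) := (OW_drop hp (by omega) (OW_len hp h1)).1 h1
    have hz := Ok_ge hp h2
    have hzz : (p.z : ℤ) ≤ ((cc p j + b : ℕ) : ℤ) + dd p j j' := by
      rw [← hd]; exact_mod_cast hz
    obtain ⟨a, ha⟩ := hqd
    have hpz : p.p0 ≤ cc p j' + b := by have := hp.hz; omega
    have hM0 : 0 < p.M' := lt_of_lt_of_le (by positivity) hp.hM'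
    have hdiv := Nat.div_add_mod (cc p j' + b - p.p0) p.M'
    have hmod := Nat.mod_lt (cc p j' + b - p.p0) hM0
    have hex : ∃ a r : ℤ, 0 ≤ r ∧ r < p.M' ∧
        ((cc p j + b : ℕ) : ℤ) + dd p j j' - p.p0 = p.M' * (q * a) + r := by
      refine ⟨a, ((cc p j' + b - p.p0) % p.M' : ℕ), by positivity, by exact_mod_cast hmod, ?_⟩
      rw [← hd]
      have e : ((cc p j' + b - p.p0 : ℕ) : ℤ) = ((cc p j' + b : ℕ) : ℤ) - p.p0 := by
        rw [Nat.cast_sub hpz]
      rw [← e]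
      conv_lhs => rw [← hdiv, ha]
      push_cast
      ring
    rcases Nat.lt_or_ge (p.z + p.Sb + p.p0) (cc p j + b) with hlt | hge
    · refine ⟨some (Sum.inr (false, ⟨q, hq⟩)), cc p j + b, hbw, hzz, by simp, ?_, hex⟩
      intro _
      refine ⟨hlt, ?_⟩
      intro t' h5 h6 h7
      obtain ⟨s, rfl⟩ := Nat.exists_eq_add_of_le (show cc p j ≤ t' by omega)
      have hno := hp.hz
      have h8 : OW p (w.drop (cc p j)) s := (OW_drop hp (by omega) (by omega)).2 h7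
      exact h3 s (by omega) h8 (Ok_of_ge hp (by omega))
    · exact ⟨some (Sum.inr (true, ⟨q, hq⟩)), cc p j + b, hbw, hzz, fun _ => hge, by simp, hex⟩

theorem type_uniq (hp : PH p) {w : List α} {j1 j1' j2 j2' : ℕ} (h1 : j1 < p.k) (h1' : j1' < p.k)
    (h2 : j2 < p.k) (h2' : j2' < p.k) (hn1 : j1' ≠ j1) (ty : Ty p)
    (s1 : Sp p w (dd p j1 j1') ty) (s2 : Sp p w (dd p j2 j2') ty) : j1 = j2 := by
  have a1 := dd_abs hp h1 h1'
  have a2 := dd_abs hp h2 h2'
  have hM0 : 0 < p.M' := lt_of_lt_of_le (by positivity) hp.hM'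
  have hMk : (4 : ℤ) ^ p.k ≤ p.M' := by exact_mod_cast hp.hM'
  rw [abs_le] at a1 a2
  rcases ty with _ | k | ⟨β, q⟩
  · obtain ⟨t1, w1, e1⟩ := s1
    obtain ⟨t2, w2, e2⟩ := s2
    have b1 := hp.th0 (((t1 : ℤ) + dd p j1 j1' - p.z) % p.M')
    have b1' := hp.thS (((t1 : ℤ) + dd p j1 j1' - p.z) % p.M')
    have b2 := hp.th0 (((t2 : ℤ) + dd p j2 j2' - p.z) % p.M')
    have b2' := hp.thS (((t2 : ℤ) + dd p j2 j2' - p.z) % p.M')
    have c1 := abs_le.1 e1
    have c2 := abs_le.1 e2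
    have hW := hp.hWo
    have ht : t1 = t2 := OW_uniq hp w1 w2 (by omega) (by omega)
    subst ht
    have hth := hp.thD (((t1 : ℤ) + dd p j1 j1' - p.z) % p.M') (((t1 : ℤ) + dd p j2 j2' - p.z) % p.M')
      (Int.emod_nonneg _ (by omega)) (Int.emod_lt_of_pos _ (by omega))
      (Int.emod_nonneg _ (by omega)) (Int.emod_lt_of_pos _ (by omega)) (by
        rw [abs_le]; constructor <;> linarith)
    have hdv : (p.M' : ℤ) ∣ dd p j1 j1' - dd p j2 j2' := by
      have h5 := Int.emod_emod_of_dvd ((t1 : ℤ) + dd p j1 j1' - p.z) (dvd_refl (p.M' : ℤ))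
      have h6 := (Int.emod_emod_of_dvd ((t1 : ℤ) + dd p j2 j2' - p.z) (dvd_refl (p.M' : ℤ)))
      have h7 := Int.ModEq.dvd (show ((t1 : ℤ) + dd p j2 j2' - p.z) ≡
        ((t1 : ℤ) + dd p j1 j1' - p.z) [ZMOD p.M'] from hth.symm)
      have h8 : (t1 : ℤ) + dd p j1 j1' - p.z - ((t1 : ℤ) + dd p j2 j2' - p.z) =
        dd p j1 j1' - dd p j2 j2' := by ring
      rwa [h8] at h7
    rw [dd_eq, dd_eq] at hdv
    have hU : (p.M' : ℤ) ∣ (p.U : ℤ) - 1 := by
      refine ⟨1 + p.M * p.t0, ?_⟩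
      rw [hp.hU]; push_cast; ring
    exact (Ruler_302.dist_mod hMk hU h1' h1 h2' h2 hn1 hdv).2
  · obtain ⟨t1, w1, e1⟩ := s1
    obtain ⟨t2, w2, e2⟩ := s2
    have c1 := abs_le.1 e1
    have c2 := abs_le.1 e2
    have hW := hp.hWs
    have hW' : (2 * ((p.M' : ℤ) * p.M) + 2 * p.p0) ≤ p.Ws := by exact_mod_cast hW
    have hMM : (0 : ℤ) ≤ (p.M' : ℤ) * p.M := by positivity
    have ht : t1 = t2 := by
      have hsep : ∀ {a b : ℕ}, p.Rs (w.drop a) → p.Rs (w.drop b) → a < b → b ≤ a + p.Ws → False := by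
        intro a b ha hb hab hle
        refine hp.seps _ (b - a) ha (by omega) (by omega) ?_
        rw [List.drop_drop, Nat.add_sub_cancel' hab.le]; exact hb
      rcases lt_trichotomy t1 t2 with h3 | h3 | h3
      · exact (hsep w1 w2 h3 (by omega)).elim
      · exact h3
      · exact (hsep w2 w1 h3 (by omega)).elim
    subst ht
    have hU2 : 2 * ((p.M' : ℤ) * p.M) < p.U := by exact_mod_cast hp.hU2
    have h9 : |(p.U : ℤ) * (4 ^ j1' - 4 ^ j1) - p.U * (4 ^ j2' - 4 ^ j2)| < p.U := by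
      rw [← dd_eq, ← dd_eq, abs_lt]
      constructor <;> linarith
    have hU0 : (0 : ℤ) < p.U := by linarith
    exact (Ruler_302.resol hU0 hn1 h9).2
  · obtain ⟨t1, w1, z1, l1, f1, a1', r1, p1, q1, e1⟩ := s1
    obtain ⟨t2, w2, z2, l2, f2, a2', r2, p2, q2, e2⟩ := s2
    have hW := hp.hWo
    have ht : t1 = t2 := by
      cases β with
      | true =>
        have := l1 rfl
        have := l2 rfl
        exact OW_uniq hp w1 w2 (by omega) (by omega)
      | false =>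
        obtain ⟨g1, g1'⟩ := f1 rfl
        obtain ⟨g2, g2'⟩ := f2 rfl
        rcases lt_trichotomy t1 t2 with h3 | h3 | h3
        · exact (g2' t1 g1 h3 w1).elim
        · exact h3
        · exact (g1' t2 g2 h3 w2).elim
    subst ht
    obtain ⟨m1, m2⟩ := hp.hms q.1 q.2
    have hM0' : (0 : ℤ) < p.M' := by exact_mod_cast hM0
    have hm1 : 2 * (4 : ℤ) ^ p.k + 2 ≤ (q.1 : ℤ) := by exact_mod_cast m1
    have hm2 : ((q.1 : ℕ) : ℤ) ∣ (p.M : ℤ) := by exact_mod_cast m2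
    have hU : (p.U : ℤ) = p.M' * (1 + p.M * p.t0) + 1 := by rw [hp.hU]; push_cast; ring
    refine (Ruler_302.dist_mod_floor (r := r1 - r2) hM0' hm1 hm2 hU h1' h1 h2' h2 hn1 ?_ ?_).2
    · rw [abs_lt]; constructor <;> linarith
    · rw [← dd_eq, ← dd_eq]
      refine ⟨a1' - a2', ?_⟩
      have : dd p j1 j1' - dd p j2 j2' = (t1 + dd p j1 j1' - p.p0) - (t1 + dd p j2 j2' - p.p0) := by
        ring
      rw [this, e1, e2]
      ring

/-- among enough copies one is not spoiled. -/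
theorem spoil (hp : PH p) {w : List α} (hw : p.p0 ≤ w.length) {R D : ℕ}
    (hR : 1 + (p.m + 1) + 2 * p.ms.card < R) (idx : Fin R → ℕ) (hidx : Function.Injective idx)
    (hk : ∀ l, idx l < p.k) :
    ∃ l, ∀ j', j' < p.k → Bad p (cc p j') ((w.drop (cc p (idx l))).take D) → j' = idx l := by
  classical
  by_contra hcon
  push Not at hcon
  choose f hf1 hf2 hf3 using hcon
  have hty : ∀ l, ∃ ty, Sp p w (dd p (idx l) (f l)) ty := fun l =>
    exists_type hp (hk l) (hf1 l) hw (Bad_take hp (hf2 l))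
  choose ty hty using hty
  have hcard : Fintype.card (Ty p) < Fintype.card (Fin R) := by
    simp only [Ty, Fintype.card_option, Fintype.card_sum, Fintype.card_fin, Fintype.card_prod,
      Fintype.card_bool, Fintype.card_coe]
    omega
  obtain ⟨l1, l2, hne, he⟩ := Fintype.exists_ne_map_eq_of_card_lt ty hcard
  apply hne
  apply hidx
  exact type_uniq hp (hk l1) (hf1 l1) (hk l2) (hf1 l2) (hf3 l1) (ty l1) (hty l1)
    (by rw [he]; exact hty l2)

end Crest.Agent.R320.Spoil_199
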