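import Mathlib
import Crest.Agent.R320.Mach_199

/-! Row 320, helper199: the two level theorem for the block machine (HALF 1). -/

set_option autoImplicit false
set_option linter.unusedSectionVars false

namespace Crest.Agent.R320.Two_199

open Crest.RegLang Crest.Agent.R320.Hgt1_903 Crest.Agent.R320.Star_903
open Crest.Agent.R320.Mach_199

universe u

variable {α : Type u} {V V1 V2 S S2 : Type}
variable {E : List α → Prop} {Bm : ℕ} {G : List α → Prop}

/-- a start state -/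
def z0 (Bm : ℕ) (v : V) : St α Bm V := (⟨[], Nat.zero_le _⟩, v)

open Classical in
/-- the right reading. -/
noncomputable def rho (E : List α → Prop) (Bm : ℕ) (T : List α → V → V)
    (RR : List α → ℕ → V → Prop) (r : List α) : Option (St α Bm V) :=
  if h : ∃ c : ℕ × V, RR r c.1 c.2 then
    some (run (dl E Bm T) (z0 Bm h.choose.2) (r.drop h.choose.1)) else none

/-- left cut -/
def cl (CL : List α → V → Prop) (θ : St α Bm V) : Prop := CL θ.1.1 θ.2

/-- uncut, in relation form. -/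
def Unc (E : List α → Prop) (Bm : ℕ) (T : List α → V → V) (CL : List α → V → Prop)
    (RR : List α → ℕ → V → Prop) (D : ℕ) (θ : St α Bm V) (w : List α) : Prop :=
  Uncut (dl E Bm T) (cl CL) D (rho E Bm T RR) θ w

theorem rho_isSome (T : List α → V → V) (RR : List α → ℕ → V → Prop) {r : List α} {b : ℕ} {u : V}
    (h : RR r b u) : (rho E Bm T RR r).isSome := by
  unfold rho
  rw [dif_pos ⟨(b, u), h⟩]
  rfl

theorem rho_some (T : List α → V → V) (RR : List α → ℕ → V → Prop) {r : List α} {θ : St α Bm V}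
    (h : rho E Bm T RR r = some θ) :
    ∃ b u, RR r b u ∧ θ = run (dl E Bm T) (z0 Bm u) (r.drop b) := by
  unfold rho at h
  split_ifs at h with h1
  · exact ⟨_, _, h1.choose_spec, by rw [Option.some.injEq] at h; exact h.symm⟩

/-- one level. -/
theorem level [Finite α] [Finite V] (hH : Hyp E Bm G) (T : List α → V → V) (n : ℕ)
    (Pr : St α Bm V → List α → Prop)
    (hpre : ∀ θ u v, Pr θ (u ++ v) → Pr θ u)
    (hsuf : ∀ θ u v, Pr θ (u ++ v) → Pr (run (dl E Bm T) θ u) v)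
    (CL : List α → V → Prop) (RR : List α → ℕ → V → Prop) (D : ℕ) (hD : 0 < D)
    (snd : ∀ (θ : St α Bm V) (r : List α) (b : ℕ) (u : V), Cl E G θ.1.1 r → Pr θ r →
      r.length = D → CL θ.1.1 θ.2 → RR r b u →
      0 < b ∧ b ≤ r.length ∧ E (θ.1.1 ++ r.take b) ∧ (∀ t, t < b → ¬ E (θ.1.1 ++ r.take t)) ∧
        T (θ.1.1 ++ r.take b) θ.2 = u)
    (hunc : RC n (dl E Bm T) (fun θ w => (Cl E G θ.1.1 w ∧ Pr θ w) ∧ Unc E Bm T CL RR D θ w)) :
    RC (n + 1) (dl E Bm T) (fun θ w => Cl E G θ.1.1 w ∧ Pr θ w) := by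
  have : Finite {P : List α // P.length ≤ Bm} := by
    have h := List.finite_length_le α Bm
    exact h.to_subtype
  refine nested (dl E Bm T) _ ?_ ?_ (cl CL) D hD (rho E Bm T RR) ?_ hunc
  · rintro θ u v ⟨h1, h2⟩
    exact ⟨h1.pre hH, hpre θ u v h2⟩
  · rintro θ u v ⟨h1, h2⟩
    exact ⟨Cl.run hH T u θ h1, hsuf θ u v h2⟩
  · rintro θ r θ' ⟨h1, h2⟩ hc hr hρ
    obtain ⟨b, u, hRR, rfl⟩ := rho_some T RR hρ
    obtain ⟨a1, a2, a3, a4, a5⟩ := snd θ r b u h1 h2 hr hc hRR
    rw [run_yes hH T h1 a1 a2 a3 a4, a5]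
    rfl

/-- composites. -/
theorem comp [AddCommGroup V2] [Monoid S2] (act2 : V2 → S2 → V2)
    (add2 : ∀ a b s, act2 (a + b) s = act2 a s + act2 b s)
    (mul2 : ∀ a s t, act2 (act2 a s) t = act2 a (s * t)) (one2 : ∀ a, act2 a 1 = a)
    (ap : V1 → S2 → V1) (ap1 : ∀ v, ap v 1 = v) (apm : ∀ v s t, ap v (s * t) = ap (ap v s) t)
    (T1 : List α → V1 → V1) (T2 : List α → V2 → V2) (τ : List α → S2) (n2 : List α → V2)
    (h1 : ∀ Z v, T1 Z v = ap v (τ Z)) (h2 : ∀ Z v, T2 Z v = act2 v (τ Z) + n2 Z) :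
    ∀ (w : List α) (P : {P : List α // P.length ≤ Bm}), ∃ (σ : S2) (κ : V2),
      (∀ v, (run (dl E Bm T2) (P, v) w).2 = act2 v σ + κ) ∧
      (∀ v, (run (dl E Bm T1) (P, v) w).2 = ap v σ) := by
  intro w
  induction w with
  | nil => intro P; exact ⟨1, 0, fun v => by simp [one2], fun v => by simp [ap1]⟩
  | cons x w ih =>
    intro P
    by_cases hx : E (P.1 ++ [x])
    · obtain ⟨σ, κ, e1, e2⟩ := ih ⟨[], Nat.zero_le _⟩
      refine ⟨τ (P.1 ++ [x]) * σ, act2 (n2 (P.1 ++ [x])) σ + κ, fun v => ?_, fun v => ?_⟩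
      · have : run (dl E Bm T2) (P, v) (x :: w) =
          run (dl E Bm T2) (dl E Bm T2 (P, v) x) w := rfl
        rw [this, dl_yes T2 (θ := (P, v)) hx, e1, h2, add2, mul2, add_assoc]
      · have : run (dl E Bm T1) (P, v) (x :: w) =
          run (dl E Bm T1) (dl E Bm T1 (P, v) x) w := rfl
        rw [this, dl_yes T1 (θ := (P, v)) hx, e2, h1, apm]
    · by_cases hl : (P.1 ++ [x]).length ≤ Bm
      · obtain ⟨σ, κ, e1, e2⟩ := ih ⟨P.1 ++ [x], hl⟩
        refine ⟨σ, κ, fun v => ?_, fun v => ?_⟩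
        · have : run (dl E Bm T2) (P, v) (x :: w) =
            run (dl E Bm T2) (dl E Bm T2 (P, v) x) w := rfl
          rw [this, dl_no T2 (θ := (P, v)) hx hl, e1]
        · have : run (dl E Bm T1) (P, v) (x :: w) =
            run (dl E Bm T1) (dl E Bm T1 (P, v) x) w := rfl
          rw [this, dl_no T1 (θ := (P, v)) hx hl, e2]
      · obtain ⟨σ, κ, e1, e2⟩ := ih P
        refine ⟨σ, κ, fun v => ?_, fun v => ?_⟩
        · have : run (dl E Bm T2) (P, v) (x :: w) =
            run (dl E Bm T2) (dl E Bm T2 (P, v) x) w := rfl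
          have h' : dl E Bm T2 (P, v) x = (P, v) := by
            unfold dl; rw [if_neg hx, dif_neg hl]
          rw [this, h', e1]
        · have : run (dl E Bm T1) (P, v) (x :: w) =
            run (dl E Bm T1) (dl E Bm T1 (P, v) x) w := rfl
          have h' : dl E Bm T1 (P, v) x = (P, v) := by
            unfold dl; rw [if_neg hx, dif_neg hl]
          rw [this, h', e2]

/-- projection from the tokens of scheme 2 to the tokens of scheme 1. -/
theorem proj [Finite V1] [Finite V2] [AddCommGroup V2] [Monoid S2] [Finite α] (act2 : V2 → S2 → V2)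
    (add2 : ∀ a b s, act2 (a + b) s = act2 a s + act2 b s)
    (mul2 : ∀ a s t, act2 (act2 a s) t = act2 a (s * t)) (one2 : ∀ a, act2 a 1 = a)
    (faith : ∀ s t, (∀ a, act2 a s = act2 a t) → s = t)
    (ap : V1 → S2 → V1) (ap1 : ∀ v, ap v 1 = v) (apm : ∀ v s t, ap v (s * t) = ap (ap v s) t)
    (T1 : List α → V1 → V1) (T2 : List α → V2 → V2) (τ : List α → S2) (n2 : List α → V2)
    (h1 : ∀ Z v, T1 Z v = ap v (τ Z)) (h2 : ∀ Z v, T2 Z v = act2 v (τ Z) + n2 Z)
    (n : ℕ) (Pr1 : St α Bm V1 → List α → Prop) (Pr2 : St α Bm V2 → List α → Prop)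
    (hPr : ∀ P v1 w, Pr1 (P, v1) w → ∀ v2, Pr2 (P, v2) w)
    (hrc : RC n (dl E Bm T2) Pr2) : RC n (dl E Bm T1) Pr1 := by
  classical
  have : Finite {P : List α // P.length ≤ Bm} := by
    have h := List.finite_length_le α Bm
    exact h.to_subtype
  have : Finite (V2 → V2) := inferInstance
  obtain ⟨R, hR, hs⟩ := hrc
  have zadd : ∀ s, act2 0 s = 0 := fun s => by
    have := add2 0 0 s
    rw [add_zero] at this
    exact (add_eq_left.1 this.symm)
  refine ⟨fun θ θ' => {w | ∃ g : V2 → V2, w ∈ ({w | w ∈ ({_w | ∃ σ κ, (∀ v, g v = act2 v σ + κ) ∧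
      ap θ.2 σ = θ'.2} : Language α) ∧
      w ∈ ({w | ∀ v2, w ∈ R (θ.1, v2) (θ'.1, g v2)} : Language α)} : Language α)}, ?_, ?_⟩
  · intro θ θ'
    exact H.exists_fintype _ fun g => H.inter (H.const n _) (H.forall_fintype _ fun v2 => hR _ _)
  · rintro ⟨P, v1⟩ w hw ⟨P', v1'⟩
    have hP2 := hPr P v1 w hw
    obtain ⟨σ, κ, e1, e2⟩ := comp (E := E) (Bm := Bm) act2 add2 mul2 one2 ap ap1 apm T1 T2 τ n2 h1 h2 w P
    have hfst : ∀ v2, (run (dl E Bm T2) (P, v2) w).1 = (run (dl E Bm T1) (P, v1) w).1 :=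
      fun v2 => run_fst T2 T1 w _ _ rfl
    constructor
    · rintro ⟨g, ⟨σ', κ', hg, hap⟩, h3⟩
      have h4 : ∀ v2, run (dl E Bm T2) (P, v2) w = (P', g v2) := fun v2 =>
        (hs _ w (hP2 v2) _).1 (h3 v2)
      have h5 : σ' = σ := by
        apply faith
        intro a
        have q1 := e1 a
        have q0 := e1 0
        rw [h4 a] at q1
        rw [h4 0] at q0
        simp only [hg, zadd, zero_add] at q1 q0
        rw [q0] at q1
        exact add_right_cancel q1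
      subst h5
      ext1
      · rw [← hfst 0, h4 0]
      · rw [e2 v1]; exact hap
    · intro hrun
      refine ⟨fun v => act2 v σ + κ, ⟨σ, κ, fun _ => rfl, ?_⟩, fun v2 => ?_⟩
      · show ap v1 σ = v1'
        rw [← e2 v1, hrun]
      · refine (hs _ w (hP2 v2) _).2 ?_
        ext1
        · rw [hfst v2, hrun]
        · exact e1 v2

/-- read-off of the content. -/
theorem comp1 [AddCommGroup V1] [Monoid S] (hH : Hyp E Bm G) (φ : List α → S)
    (hφ : ∀ u v, φ (u ++ v) = φ u * φ v) (act1 : V1 → S → V1)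
    (add1 : ∀ a b s, act1 (a + b) s = act1 a s + act1 b s)
    (mul1 : ∀ a s t, act1 (act1 a s) t = act1 a (s * t)) (one1 : ∀ a, act1 a 1 = a)
    (T1 : List α → V1 → V1) (n1 : List α → V1) (h1 : ∀ Z v, T1 Z v = act1 v (φ Z) + n1 Z) :
    ∀ (w : List α) (P : {P : List α // P.length ≤ Bm}), Cl E G P.1 w → ∃ (s : S) (κ : V1),
      ∀ v, (run (dl E Bm T1) (P, v) w).2 = act1 v s + κ ∧
        φ (P.1 ++ w) = s * φ (run (dl E Bm T1) (P, v) w).1.1 := by
  intro w
  induction w with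
  | nil => intro P _; exact ⟨1, 0, fun v => by simp [one1]⟩
  | cons x w ih =>
    intro P hcl
    by_cases hx : E (P.1 ++ [x])
    · have hs := Cl.step (θ := (P, (0 : V1))) hH T1 hcl
      rw [dl_yes T1 (θ := (P, (0 : V1))) hx] at hs
      obtain ⟨s, κ, e⟩ := ih ⟨[], Nat.zero_le _⟩ hs
      refine ⟨φ (P.1 ++ [x]) * s, act1 (n1 (P.1 ++ [x])) s + κ, fun v => ?_⟩
      have : run (dl E Bm T1) (P, v) (x :: w) =
          run (dl E Bm T1) (dl E Bm T1 (P, v) x) w := rfl
      rw [this, dl_yes T1 (θ := (P, v)) hx]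
      obtain ⟨e1, e2⟩ := e (T1 (P.1 ++ [x]) v)
      refine ⟨?_, ?_⟩
      · rw [e1, h1, add1, mul1, add_assoc]
      · have : P.1 ++ x :: w = (P.1 ++ [x]) ++ w := by simp
        rw [this, hφ, mul_assoc, ← e2, List.nil_append]
    · have hl := hcl.len hH hx
      have hs := Cl.step (θ := (P, (0 : V1))) hH T1 hcl
      rw [dl_no T1 (θ := (P, (0 : V1))) hx hl] at hs
      obtain ⟨s, κ, e⟩ := ih ⟨P.1 ++ [x], hl⟩ hs
      refine ⟨s, κ, fun v => ?_⟩
      have : run (dl E Bm T1) (P, v) (x :: w) =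
          run (dl E Bm T1) (dl E Bm T1 (P, v) x) w := rfl
      rw [this, dl_no T1 (θ := (P, v)) hx hl]
      obtain ⟨e1, e2⟩ := e v
      refine ⟨e1, ?_⟩
      rw [← e2]
      simp

/-- read-off of the language. -/
theorem readoff [Finite V1] [Finite α] [AddCommGroup V1] [Monoid S] (hH : Hyp E Bm G)
    (φ : List α → S)
    (hφ : ∀ u v, φ (u ++ v) = φ u * φ v) (hφ1 : φ [] = 1) (act1 : V1 → S → V1)
    (add1 : ∀ a b s, act1 (a + b) s = act1 a s + act1 b s)
    (mul1 : ∀ a s t, act1 (act1 a s) t = act1 a (s * t)) (one1 : ∀ a, act1 a 1 = a)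
    (faith : ∀ s t, (∀ a, act1 a s = act1 a t) → s = t)
    (T1 : List α → V1 → V1) (n1 : List α → V1) (h1 : ∀ Z v, T1 Z v = act1 v (φ Z) + n1 Z)
    (n : ℕ) (hG : H n {w | G w}) (hrc : RC n (dl E Bm T1) (fun θ w => Cl E G θ.1.1 w)) (s : S) :
    H n ({w | w ∈ ({w | G w} : Language α) ∧ w ∈ ({w | φ w = s} : Language α)} : Language α) := by
  classical
  have : Finite {P : List α // P.length ≤ Bm} := by
    have h := List.finite_length_le α Bm
    exact h.to_subtype
  have : Finite (V1 → V1) := inferInstance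
  have zadd : ∀ s, act1 0 s = 0 := fun s => by
    have := add1 0 0 s
    rw [add_zero] at this
    exact (add_eq_left.1 this.symm)
  obtain ⟨R, hR, hs⟩ := hrc
  have key : H n ({w | w ∈ ({w | G w} : Language α) ∧ w ∈ ({w | ∃ c : {P : List α // P.length ≤ Bm} × (V1 → V1),
      w ∈ ({w | w ∈ ({_w | ∃ σ κ, (∀ v, c.2 v = act1 v σ + κ) ∧ σ * φ c.1.1 = s} : Language α) ∧
      w ∈ ({w | ∀ v, w ∈ R (z0 Bm v) (c.1, c.2 v)} : Language α)} : Language α)} : Language α)} : Language α) :=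
    H.inter hG (H.exists_fintype _ fun c => H.inter (H.const n _)
      (H.forall_fintype _ fun v => hR _ _))
  refine H.congr key fun w => ?_
  have hw0 : ∀ (hg : G w), Cl E G ([] : List α) w := fun hg => ⟨by simpa using hg, fun t => by simpa using hH.e0⟩
  constructor
  · rintro ⟨hg, ⟨P', g⟩, ⟨σ', κ', hg', hσ⟩, h3⟩
    refine ⟨hg, ?_⟩
    have h4 : ∀ v, run (dl E Bm T1) (z0 Bm v) w = (P', g v) := fun v =>
      (hs _ w (hw0 hg) _).1 (h3 v)
    obtain ⟨σ, κ, e⟩ := comp1 hH φ hφ act1 add1 mul1 one1 T1 n1 h1 w ⟨[], Nat.zero_le _⟩ (hw0 hg)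
    have h5 : σ' = σ := by
      apply faith
      intro a
      have q1 := (e a).1
      have q0 := (e 0).1
      have r1 := h4 a
      have r0 := h4 0
      unfold z0 at r1 r0
      rw [r1] at q1
      rw [r0] at q0
      have hg'' : ∀ v, g v = act1 v σ' + κ' := hg'
      simp only [hg'', zadd, zero_add] at q1 q0
      rw [q0] at q1
      exact add_right_cancel q1
    have h6 := (e 0).2
    have r0 := h4 0
    unfold z0 at r0
    rw [r0] at h6
    show φ w = s
    rw [← hσ, h5, ← h6]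
    rfl
  · rintro ⟨hg, hw⟩
    refine ⟨hg, ?_⟩
    obtain ⟨σ, κ, e⟩ := comp1 hH φ hφ act1 add1 mul1 one1 T1 n1 h1 w ⟨[], Nat.zero_le _⟩ (hw0 hg)
    refine ⟨((run (dl E Bm T1) (z0 Bm 0) w).1, fun v => act1 v σ + κ),
      ⟨σ, κ, fun _ => rfl, ?_⟩, fun v => (hs _ w (hw0 hg) _).2 ?_⟩
    · have := (e 0).2
      show σ * φ (run (dl E Bm T1) (z0 Bm 0) w).1.1 = s
      unfold z0
      rw [← this]
      exact hw
    · ext1
      · exact run_fst T1 T1 w _ _ rfl
      · exact (e v).1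

end Crest.Agent.R320.Two_199
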