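import Mathlib
import Crest.Agent.R320.Two_199
import Crest.Agent.R320.Spoil_199

/-! Row 320, helper199: the two schemes on the block machine (HALF 1). -/

set_option autoImplicit false
set_option linter.unusedSectionVars false

namespace Crest.Agent.R320.Sch_199

open Crest.RegLang Crest.Agent.R320.Hgt1_903 Crest.Agent.R320.Star_903
open Crest.Agent.R320.Mach_199 Crest.Agent.R320.Geo_199 Crest.Agent.R320.Spoil_199
open Crest.Agent.R320.Two_199
open Crest.Agent.R320.Gad1_420 (Rule Dat Geo Names)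

universe u

variable {α : Type u} {p : PP α} {V1 V2 S S2 W : Type} [Monoid S] [AddCommGroup V1] [AddCommGroup W]
  [AddCommGroup V2] [Monoid S2]

/-- link between the geometry and the gadget data -/
structure Lk (p : PP α) (D : Dat α S V1 W) : Prop where
  m : D.m = p.m
  R : D.R = p.Rs
  n : D.n = p.ns
  Gs : D.G = p.Gs
  M : D.M = p.M
  M' : D.M' = p.M'
  A : D.A = p.A
  win : ∀ i < D.m, D.A' i + D.M' * D.M ≤ p.N1 + 1
  AN : p.A p.m + p.M' * p.M ≤ p.N1
  hz2 : p.p0 + p.N1 + p.N1 + p.no + p.Gs + p.ns + 1 ≤ p.z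

def CL1 (p : PP α) (D : Dat α S V1 W) (P : List α) (v : V1) : Prop :=
  p.p0 ≤ P.length ∧ D.Lf (P.drop p.p0) = some (D.act v (D.φ (P.take p.p0)))

def RR1 (p : PP α) (D : Dat α S V1 W) (r : List α) (b : ℕ) (u : V1) : Prop :=
  Fs p r b ∧ D.Rf (r.take b) = some u

def T1 (p : PP α) (D : Dat α S V1 W) (nu : List α → V1) (Z : List α) (v : V1) : V1 :=
  D.act (D.act v (D.φ (Z.take p.p0))) (D.φ (Z.drop p.p0)) + nu (Z.drop p.p0)

/-- the three properties of gadget1 -/
structure G1 (D : Dat α S V1 W) (gd : ℕ → Prop) (nu : List α → V1) : Prop where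
  ex : ∀ P Q v r, D.Lf P = some v → D.Rf Q = some r → r = D.act v (D.φ (P ++ Q)) + nu (P ++ Q)
  pl : ∀ P v, D.Lf P = some v → ∃ i < D.m, D.M' ∣ P.length ∧ D.A' i ≤ P.length ∧
        P.length < D.A' i + D.M' * D.M
  cp : ∀ Y : List α, gd (Y.length / D.M') →
        (∀ i < D.m, D.A' i + D.M' * D.M ≤ Y.length) →
        (∀ t, t ≤ D.A D.m + D.M' * D.M → ∃ s, t ≤ s ∧ s < t + D.G ∧ D.R (Y.drop s)) →
        (∀ k, k ≤ D.m → ∀ s, D.A k ≤ s + D.M' * D.M → s < D.A k + D.M' * D.M →
          ¬ D.R (Y.drop s)) →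
        ∀ v, ∃ P Q, P ++ Q = Y ∧ D.Lf P = some v ∧ (D.Rf Q).isSome

theorem CL1_LLo {D : Dat α S V1 W} {nu : List α → V1} (lk : Lk p D) (g1 : G1 D (good p) nu)
    {P : List α} {v : V1} (h : CL1 p D P v) : LLo p P.length := by
  obtain ⟨h1, h2⟩ := h
  obtain ⟨i, hi, ⟨q, hq⟩, h3, h4⟩ := g1.pl _ _ h2
  rw [List.length_drop] at hq h4
  have := lk.win i hi
  rw [lk.M'] at hq
  refine ⟨q, by omega, by omega⟩

/-- soundness of scheme 1. -/
theorem snd1 (hp : PH p) {D : Dat α S V1 W} {nu : List α → V1} (lk : Lk p D)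
    (g1 : G1 D (good p) nu) {P r : List α} {v u : V1} {b : ℕ} (hc : CL1 p D P v)
    (hr : RR1 p D r b u) :
    0 < b ∧ b ≤ r.length ∧ E p (P ++ r.take b) ∧ (∀ t, t < b → ¬ E p (P ++ r.take t)) ∧
      T1 p D nu (P ++ r.take b) v = u := by
  have hL := CL1_LLo lk g1 hc
  have hF := Fs_First hr.1 hL
  have hz := lk.hz2
  have hlen : P.length + p.no ≤ p.z := by
    obtain ⟨q, h1, h2⟩ := hL
    omega
  obtain ⟨a1, a2, a3, a4⟩ := first_block hp hlen hF
  refine ⟨a1, a2, a3, a4, ?_⟩
  unfold T1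
  rw [List.take_append_of_le_length hc.1, List.drop_append_of_le_length hc.1]
  exact (g1.ex _ _ _ _ hc.2 hr.2).symm

/-- completeness of scheme 1 on zones which are not bad. -/
theorem cmp1 (hp : PH p) {D : Dat α S V1 W} {nu : List α → V1} (lk : Lk p D)
    (g1 : G1 D (good p) nu) {P r : List α} {b : ℕ} (hP : P.length ≤ p.p0) (hG : p.G (P ++ r))
    (hb : First p P.length r b) (hbad : ¬ Bad p P.length r) (v : V1) (D1 : ℕ)
    (hD1 : b + D1 ≤ r.length) (hbD : b ≤ D1) :
    ∃ x, x < b ∧ CL1 p D (P ++ r.take x) v ∧ ∃ b' u, RR1 p D ((r.drop x).take D1) b' u := by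
  have hz := lk.hz2
  have hz1 := hp.hz
  have hbz := Ok_ge hp hb.2.1
  unfold Bad at hbad
  push Not at hbad
  obtain ⟨nE, nD, nB⟩ := hbad
  set Z := P ++ r.take b with hZ
  have hZl : Z.length = P.length + b := by rw [hZ]; simp; omega
  set Y := Z.drop p.p0 with hY
  have hYl : Y.length = P.length + b - p.p0 := by rw [hY, List.length_drop, hZl]
  have hGZ : p.G Z := by
    refine hp.gl _ (r.drop b) ?_
    rw [hZ, List.append_assoc, List.take_append_drop]; exact hG
  have hGY : p.G Y := hp.gr (Z.take p.p0) _ (by rw [hY, List.take_append_drop]; exact hGZ)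
  -- walls of Y are walls of r
  have hwall : ∀ s, p.Rs (Y.drop s) → p.Rs (r.drop (p.p0 + s - P.length)) := by
    intro s hs
    rw [hY, List.drop_drop] at hs
    have h1 : Z.drop (p.p0 + s) = (r.take b).drop (p.p0 + s - P.length) := by
      rw [hZ]
      have : p.p0 + s = P.length + (p.p0 + s - P.length) := by omega
      conv_lhs => rw [this]
      simp [List.drop_append]
    rw [h1] at hs
    have h3 := hp.rs.wall_fit hs
    have h4 := (hp.rs.wall_left (Q := r.drop b) h3).2 hs
    rwa [List.take_append_drop] at h4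
  obtain ⟨P', Q', hPQ, hLf, hRf⟩ := g1.cp Y (by
      rw [lk.M', hYl]
      by_contra h
      exact nB ⟨b, hb, h⟩) (by
      intro i hi
      have := lk.win i hi
      omega) (by
      intro t ht
      rw [lk.A, lk.m, lk.M', lk.M] at ht
      have hAN := lk.AN
      have hG2 : p.G (Y.drop t) := hp.gr (Y.take t) _ (by rw [List.take_append_drop]; exact hGY)
      obtain ⟨i, hi, h2⟩ := hp.denss (Y.drop t) hG2 (by rw [List.length_drop]; omega)
      rw [List.drop_drop] at h2
      exact ⟨t + i, by omega, by rw [lk.Gs]; omega, by rw [lk.R]; exact h2⟩) (by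
      intro k hk s h1 h2 h3
      rw [lk.m] at hk
      rw [lk.A, lk.M', lk.M] at h1 h2
      rw [lk.R] at h3
      exact nD ⟨k, hk, p.p0 + s - P.length, hwall s h3, by omega, by omega⟩)
      (D.act v (D.φ (Z.take p.p0)))
  obtain ⟨i, hi, ⟨q, hq⟩, h3, h4⟩ := g1.pl _ _ hLf
  have hwin := lk.win i hi
  rw [lk.M'] at hq
  have hP'N : P'.length ≤ p.N1 := by omega
  have hQl : P'.length + Q'.length = Y.length := by rw [← hPQ]; simp
  -- the place
  set x := p.p0 + P'.length - P.length with hx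
  have hxP : P.length + x = p.p0 + P'.length := by omega
  have hLL : LLo p (P.length + x) := ⟨q, by omega, by omega⟩
  have hxb : P.length + x + p.no ≤ p.z := by omega
  have hZx : P ++ r.take x = Z.take (p.p0 + P'.length) := by
    have e0 : (P ++ r.take b).take (P.length + x) = P ++ (r.take b).take x := by
      simp [List.take_append]
    rw [← hxP, hZ, e0, List.take_take, Nat.min_eq_left (by omega)]
  have hFs := Fs_of_notE hp hb nE hLL hxb (by omega)
  refine ⟨x, by omega, ⟨?_, ?_⟩, b - x, ?_⟩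
  · rw [hZx, List.length_take]; omega
  · rw [hZx]
    have e1 : (Z.take (p.p0 + P'.length)).take p.p0 = Z.take p.p0 := by
      rw [List.take_take, Nat.min_eq_left (by omega)]
    have e2 : (Z.take (p.p0 + P'.length)).drop p.p0 = P' := by
      rw [List.drop_take, Nat.add_sub_cancel_left, ← hY, ← hPQ]
      simp
    rw [e1, e2, hLf]
  · obtain ⟨u, hu⟩ := Option.isSome_iff_exists.1 hRf
    refine ⟨u, ?_, ?_⟩
    · refine ⟨(OW_take (by omega)).2 hFs.1, hFs.2.1, ?_⟩
      intro s hs hw
      exact hFs.2.2 s hs ((OW_take (by omega)).1 hw)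
    · rw [List.take_take, Nat.min_eq_left (by omega)]
      have : (r.drop x).take (b - x) = Q' := by
        have e3 : (r.drop x).take (b - x) = (r.take b).drop x := by rw [List.drop_take]
        have e4 : (r.take b).drop x = Z.drop (P.length + x) := by
          rw [hZ]; simp [List.drop_append]
        rw [e3, e4, hxP, ← List.drop_drop, ← hY, ← hPQ]
        simp
      rw [this, hu]

end Crest.Agent.R320.Sch_199
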