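import Mathlib
import Crest.Agent.R320.Sch_199

/-! Row 320, helper199: scheme 2 and the assembly (HALF 1). -/

set_option autoImplicit false
set_option linter.unusedSectionVars false

namespace Crest.Agent.R320.Sch2_199

open Crest.RegLang Crest.Agent.R320.Hgt1_903 Crest.Agent.R320.Star_903
open Crest.Agent.R320.Mach_199 Crest.Agent.R320.Geo_199 Crest.Agent.R320.Spoil_199
open Crest.Agent.R320.Two_199 Crest.Agent.R320.Sch_199
open Crest.Agent.R320.Gad1_420 (Rule Dat Geo Names)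

universe u

variable {α : Type u} {p : PP α} {V1 V2 S S2 W : Type} [Monoid S] [AddCommGroup V1] [AddCommGroup W]
  [AddCommGroup V2] [Monoid S2]

/-- length of the right words of scheme 1 / 2 -/
def DD1 (p : PP α) : ℕ := Bm p + 1
def DD2 (p : PP α) : ℕ := Bm p + DD1 p

abbrev Unc1 (p : PP α) (D : Dat α S V1 W) (nu : List α → V1) (θ : St α (Bm p) V1) (w : List α) :
    Prop := Unc (E p) (Bm p) (T1 p D nu) (CL1 p D) (RR1 p D) (DD1 p) θ w

theorem Unc_suffix {V : Type} {E : List α → Prop} {Bm : ℕ} {T : List α → V → V}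
    {CL : List α → V → Prop} {RR : List α → ℕ → V → Prop} {D : ℕ} {θ : St α Bm V} {u v : List α}
    (h : Unc E Bm T CL RR D θ (u ++ v)) : Unc E Bm T CL RR D (run (dl E Bm T) θ u) v := by
  intro q r s e hc
  refine h (u ++ q) r s (by rw [← e]; simp [List.append_assoc]) ?_
  obtain ⟨h1, h2, h3⟩ := hc
  refine ⟨h1, ?_, h3⟩
  rw [run_append]; exact h2

/-- an uncut zone is bad. -/
theorem bad_of_unc (hp : PH p) {D : Dat α S V1 W} {nu : List α → V1} (lk : Lk p D)
    (g1 : G1 D (good p) nu) {θ : St α (Bm p) V1} {r : List α} {b : ℕ}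
    (hcl : Cl (E p) p.G θ.1.1 r) (hP : θ.1.1.length ≤ p.p0)
    (hb : First p θ.1.1.length r b) (hbD : b ≤ DD1 p) (hl : b + DD1 p ≤ r.length)
    (hu : Unc1 p D nu θ r) : Bad p θ.1.1.length r := by
  by_contra hbad
  obtain ⟨x, hx, hC, b', u', hR⟩ := cmp1 hp lk g1 hP hcl.1 hb hbad θ.2 (DD1 p) hl hbD
  have hz := hp.hz
  obtain ⟨a1, a2, a3, a4⟩ := first_block hp (by omega) hb
  have hxr : x ≤ r.length := by omega
  have hcl' : Cl (E p) p.G θ.1.1 (r.take x) :=
    Cl.pre (v := r.drop x) (hyp hp) (by rw [List.take_append_drop]; exact hcl)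
  obtain ⟨h3, h4⟩ := run_no (hyp hp) (T1 p D nu) (r.take x) θ hcl' (by
    intro t ht
    rw [List.length_take] at ht
    rw [List.take_take, Nat.min_eq_left (by omega)]
    exact a4 t (by omega))
  refine hu (r.take x) ((r.drop x).take (DD1 p)) ((r.drop x).drop (DD1 p)) ?_ ⟨?_, ?_, ?_⟩
  · rw [List.append_assoc, List.take_append_drop, List.take_append_drop]
  · rw [List.length_take, List.length_drop]; omega
  · rw [h4]; exact hC
  · exact rho_isSome _ _ hR

/-- data of scheme 2 -/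
structure G2 (p : PP α) (ph2 : List α → S2) (act2 : V2 → S2 → V2) (R : ℕ)
    (lam rh : List α → Option V2) (nu2 : List α → V2) : Prop where
  ex : ∀ (P q : List α) (v b : V2), P.length + q.length = p.p0 → lam P = some v → rh q = some b →
    b = act2 v (ph2 (P ++ q)) + nu2 (P ++ q)
  cp : ∀ (u : List α) (v : V2), u.length = p.p0 → ∃ idx : Fin R → ℕ, Function.Injective idx ∧
    ∀ l, idx l < p.k ∧ lam (u.take (cc p (idx l))) = some v ∧ (rh (u.drop (cc p (idx l)))).isSome
  hR : 1 + (p.m + 1) + 2 * p.ms.card < R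

def CL2 (p : PP α) (lam : List α → Option V2) (P : List α) (v : V2) : Prop :=
  (∃ j, j < p.k ∧ P.length = cc p j) ∧ lam P = some v

def RR2 (p : PP α) (act2 : V2 → S2 → V2) (gam : List α → S2) (rh : List α → Option V2)
    (r : List α) (b : ℕ) (u : V2) : Prop :=
  ∃ j, j < p.k ∧ (∀ j', j' < p.k → Bad p (cc p j') r → j' = j) ∧ First p (cc p j) r b ∧
    ∃ a, rh (r.take (p.p0 - cc p j)) = some a ∧
      u = act2 a (gam ((r.take b).drop (p.p0 - cc p j)))

def T2 (p : PP α) (ph2 : List α → S2) (act2 : V2 → S2 → V2) (gam : List α → S2)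
    (nu2 : List α → V2) (Z : List α) (v : V2) : V2 :=
  act2 (act2 v (ph2 (Z.take p.p0)) + nu2 (Z.take p.p0)) (gam (Z.drop p.p0))

theorem snd2 (hp : PH p) {D : Dat α S V1 W} {nu : List α → V1} (lk : Lk p D)
    (g1 : G1 D (good p) nu) {ph2 : List α → S2} {act2 : V2 → S2 → V2} {R : ℕ}
    {lam rh : List α → Option V2} {nu2 : List α → V2} (g2 : G2 p ph2 act2 R lam rh nu2)
    (gam : List α → S2) {P : {P : List α // P.length ≤ Bm p}} {v : V2} {r : List α} {b : ℕ} {u : V2}
    (hcl : Cl (E p) p.G P.1 r) (hpr : ∃ v1, Unc1 p D nu (P, v1) r) (hr : r.length = DD2 p)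
    (hc : CL2 p lam P.1 v) (hR : RR2 p act2 gam rh r b u) :
    0 < b ∧ b ≤ r.length ∧ E p (P.1 ++ r.take b) ∧ (∀ t, t < b → ¬ E p (P.1 ++ r.take t)) ∧
      T2 p ph2 act2 gam nu2 (P.1 ++ r.take b) v = u := by
  obtain ⟨⟨j0, hj0, hPl⟩, hlam⟩ := hc
  obtain ⟨j, hj, huniq, hF, a, ha, hu⟩ := hR
  obtain ⟨v1, hv1⟩ := hpr
  have hz := hp.hz
  have hcj := cc_le hp hj0
  have hBm : Bm p = p.z + p.Sb + p.Go + p.no := rfl
  have hD1 : DD1 p = Bm p + 1 := rfl
  have hD2 : DD2 p = Bm p + DD1 p := rfl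
  obtain ⟨b0, hb0, hb0l⟩ := exists_first hp (hp.gr P.1 r hcl.1) P.1.length (by omega)
  have hbad := bad_of_unc (θ := (P, v1)) hp lk g1 hcl (by show P.1.length ≤ _; omega) hb0
    (by omega) (by omega) hv1
  have hjj : j0 = j := huniq j0 hj0 (by rw [← hPl]; exact hbad)
  subst hjj
  rw [← hPl] at hF ha hu
  obtain ⟨a1, a2, a3, a4⟩ := first_block hp (by omega) hF
  refine ⟨a1, a2, a3, a4, ?_⟩
  have hbz := Ok_ge hp hF.2.1
  have e1 : (P.1 ++ r.take b).take p.p0 = P.1 ++ r.take (p.p0 - P.1.length) := by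
    have : p.p0 = P.1.length + (p.p0 - P.1.length) := by omega
    conv_lhs => rw [this]
    have e0 : (P.1 ++ r.take b).take (P.1.length + (p.p0 - P.1.length)) =
      P.1 ++ (r.take b).take (p.p0 - P.1.length) := by
      simp [List.take_append]
    rw [e0, List.take_take, Nat.min_eq_left (by omega)]
  have e2 : (P.1 ++ r.take b).drop p.p0 = (r.take b).drop (p.p0 - P.1.length) := by
    have : p.p0 = P.1.length + (p.p0 - P.1.length) := by omega
    conv_lhs => rw [this]
    simp [List.drop_append]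
  unfold T2
  rw [e1, e2, hu]
  have := g2.ex P.1 (r.take (p.p0 - P.1.length)) v a (by rw [List.length_take]; omega) hlam ha
  rw [← this]

/-- long words have a 2-cut. -/
theorem cmp2 (hp : PH p) {ph2 : List α → S2} {act2 : V2 → S2 → V2} {R : ℕ}
    {lam rh : List α → Option V2} {nu2 : List α → V2} (g2 : G2 p ph2 act2 R lam rh nu2)
    (gam : List α → S2) (θ : St α (Bm p) V2) (w : List α) (hcl : Cl (E p) p.G θ.1.1 w)
    (hu : Unc (E p) (Bm p) (T2 p ph2 act2 gam nu2) (CL2 p lam) (RR2 p act2 gam rh) (DD2 p) θ w) :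
    w.length ≤ Bm p + 1 + p.p0 + DD2 p := by
  classical
  by_contra hlen
  push Not at hlen
  have hz := hp.hz
  have hBm : Bm p = p.z + p.Sb + p.Go + p.no := rfl
  have hD1 : DD1 p = Bm p + 1 := rfl
  have hD2 : DD2 p = Bm p + DD1 p := rfl
  set TT := T2 p ph2 act2 gam nu2 with hTT
  have hex : ∃ t, t ≤ Bm p + 1 ∧ E p (θ.1.1 ++ w.take t) := by
    by_contra hno
    push Not at hno
    have hcl' : Cl (E p) p.G θ.1.1 (w.take (Bm p + 1)) :=
      Cl.pre (v := w.drop (Bm p + 1)) (hyp hp) (by rw [List.take_append_drop]; exact hcl)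
    obtain ⟨h3, -⟩ := run_no (hyp hp) TT (w.take (Bm p + 1)) θ hcl' (by
      intro t ht
      rw [List.length_take] at ht
      rw [List.take_take, Nat.min_eq_left (by omega)]
      exact hno t (by omega))
    rw [List.length_append, List.length_take] at h3
    omega
  obtain ⟨hb1, hb2⟩ := Nat.find_spec hex
  have hbmin : ∀ t, t < Nat.find hex → ¬ E p (θ.1.1 ++ w.take t) := by
    intro t ht hE
    exact Nat.find_min hex ht ⟨by omega, hE⟩
  set b1 := Nat.find hex with hb1def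
  have hb0 : 0 < b1 := by
    rcases Nat.eq_zero_or_pos b1 with h0 | h0
    · exfalso
      rw [h0] at hb2
      have := hcl.2 θ.1.1.length
      rw [List.take_length] at this
      apply this
      simpa using hb2
    · exact h0
  have hclb : Cl (E p) p.G θ.1.1 (w.take b1) :=
    Cl.pre (v := w.drop b1) (hyp hp) (by rw [List.take_append_drop]; exact hcl)
  have hrun := run_yes (hyp hp) TT (w := w.take b1) (θ := θ) hclb hb0
    (by rw [List.length_take]; omega)
    (by rw [List.take_take, Nat.min_self]; exact hb2)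
    (by intro t ht; rw [List.take_take, Nat.min_eq_left ht.le]; exact hbmin t ht)
  rw [List.drop_eq_nil_of_le (by rw [List.length_take]; omega)] at hrun
  set v' := TT (θ.1.1 ++ (w.take b1).take b1) θ.2 with hv'
  have hrun' : run (dl (E p) (Bm p) TT) θ (w.take b1) = (⟨[], Nat.zero_le _⟩, v') := hrun
  set w1 := w.drop b1 with hw1
  have hw : w.take b1 ++ w1 = w := List.take_append_drop _ _
  have hcl1 : Cl (E p) p.G [] w1 := by
    have := Cl.run (w' := w1) (hyp hp) TT (w.take b1) θ (by rw [hw]; exact hcl)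
    rw [hrun'] at this
    exact this
  have hG1 : p.G w1 := by simpa using hcl1.1
  have hu1 : Unc (E p) (Bm p) TT (CL2 p lam) (RR2 p act2 gam rh) (DD2 p)
      (⟨[], Nat.zero_le _⟩, v') w1 := by
    have := Unc_suffix (u := w.take b1) (v := w1) (θ := θ) (by rw [hw]; exact hu)
    rwa [hrun'] at this
  have hw1l : w1.length = w.length - b1 := by rw [hw1, List.length_drop]
  obtain ⟨idx, hinj, hidx⟩ := g2.cp (w1.take p.p0) v' (by rw [List.length_take]; omega)
  obtain ⟨l, hl⟩ := spoil hp (w := w1) (D := DD2 p) (by omega) g2.hR idx hinj (fun l => (hidx l).1)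
  obtain ⟨hk, hlam, hrh⟩ := hidx l
  set x := cc p (idx l) with hx
  have hxp : x ≤ p.p0 := cc_le hp hk
  have hclx : Cl (E p) p.G [] (w1.take x) :=
    Cl.pre (v := w1.drop x) (hyp hp) (by rw [List.take_append_drop]; exact hcl1)
  obtain ⟨h3, h4⟩ := run_no (hyp hp) TT (w1.take x) (⟨[], Nat.zero_le _⟩, v') hclx (by
    intro t ht hE
    have := E_ge hp hE
    rw [List.length_append, List.length_take, List.length_take] at this
    simp only [List.length_nil] at this
    omega)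
  set r := (w1.drop x).take (DD2 p) with hr
  have hrl : r.length = DD2 p := by rw [hr, List.length_take, List.length_drop]; omega
  have hGr : p.G r := by
    have h5 : p.G (w1.drop x) := hp.gr (w1.take x) _ (by rw [List.take_append_drop]; exact hG1)
    exact hp.gl _ ((w1.drop x).drop (DD2 p)) (by rw [List.take_append_drop]; exact h5)
  obtain ⟨b, hb, hbl⟩ := exists_first hp hGr x (by omega)
  obtain ⟨a, ha⟩ := Option.isSome_iff_exists.1 hrh
  have hra : r.take (p.p0 - x) = (w1.take p.p0).drop x := by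
    rw [hr, List.take_take, Nat.min_eq_left (by omega), List.drop_take]
  refine hu1 (w1.take x) r ((w1.drop x).drop (DD2 p)) ?_ ⟨hrl, ?_, ?_⟩
  · rw [hr, List.append_assoc, List.take_append_drop, List.take_append_drop]
  · rw [h4]
    refine ⟨⟨idx l, hk, ?_⟩, ?_⟩
    · show ([] ++ w1.take x).length = _
      rw [List.nil_append, List.length_take]; omega
    · show lam ([] ++ w1.take x) = some v'
      rw [List.nil_append]
      rw [List.take_take, Nat.min_eq_left hxp] at hlam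
      exact hlam
  · exact rho_isSome _ _ (b := b) (u := act2 a (gam ((r.take b).drop (p.p0 - x))))
      ⟨idx l, hk, hl, hb, a, by rw [← hx, hra]; exact ha, rfl⟩

/-- **the assembly.** -/
theorem assembly [Finite α] [Finite V1] [Finite V2] (hp : PH p) {D : Dat α S V1 W}
    {nu : List α → V1} (lk : Lk p D) (g1 : G1 D (good p) nu)
    (hφ : ∀ u v, D.φ (u ++ v) = D.φ u * D.φ v) (hφ1 : D.φ [] = 1)
    (add1 : ∀ a b s, D.act (a + b) s = D.act a s + D.act b s)
    (mul1 : ∀ a s t, D.act (D.act a s) t = D.act a (s * t)) (one1 : ∀ a, D.act a 1 = a)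
    (faith1 : ∀ s t, (∀ a, D.act a s = D.act a t) → s = t)
    {act2 : V2 → S2 → V2}
    (add2 : ∀ a b s, act2 (a + b) s = act2 a s + act2 b s)
    (mul2 : ∀ a s t, act2 (act2 a s) t = act2 a (s * t)) (one2 : ∀ a, act2 a 1 = a)
    (faith2 : ∀ s t, (∀ a, act2 a s = act2 a t) → s = t)
    (ap : V1 → S2 → V1) (ap1 : ∀ v, ap v 1 = v) (apm : ∀ v s t, ap v (s * t) = ap (ap v s) t)
    {ph2 gam : List α → S2}
    (hph2 : ∀ X v, ap v (ph2 X) = D.act v (D.φ X))
    (hgam : ∀ Y v, ap v (gam Y) = D.act v (D.φ Y) + nu Y)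
    {R : ℕ} {lam rh : List α → Option V2} {nu2 : List α → V2} (g2 : G2 p ph2 act2 R lam rh nu2)
    (hG : H 2 {w | p.G w}) (s : S) :
    H 2 ({w | w ∈ ({w | p.G w} : Language α) ∧ w ∈ ({w | D.φ w = s} : Language α)} :
      Language α) := by
  -- scheme 2
  have hD1pos : 0 < DD1 p := Nat.succ_pos _
  have hD2pos : 0 < DD2 p := by unfold DD2; omega
  have r2 : RC (0 + 1) (dl (E p) (Bm p) (T2 p ph2 act2 gam nu2))
      (fun θ w => Cl (E p) p.G θ.1.1 w ∧ ∃ v1, Unc1 p D nu (θ.1, v1) w) := by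
    refine level (hyp hp) (T2 p ph2 act2 gam nu2) 0 (fun θ w => ∃ v1, Unc1 p D nu (θ.1, v1) w)
      ?_ ?_ (CL2 p lam) (RR2 p act2 gam rh) (DD2 p) hD2pos ?_ ?_
    · rintro θ u v ⟨v1, h⟩
      exact ⟨v1, Uncut.prefix h⟩
    · rintro θ u v ⟨v1, h⟩
      refine ⟨(run (dl (E p) (Bm p) (T1 p D nu)) (θ.1, v1) u).2, ?_⟩
      have h1 := Unc_suffix h
      have h2 : (run (dl (E p) (Bm p) (T1 p D nu)) (θ.1, v1) u).1 =
        (run (dl (E p) (Bm p) (T2 p ph2 act2 gam nu2)) θ u).1 := run_fst _ _ u _ _ rfl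
      rw [← h2]
      exact h1
    · intro θ r b u hcl hpr hr hc hR
      exact snd2 (P := θ.1) hp lk g1 g2 gam hcl hpr hr hc hR
    · refine RC.bounded 0 (Bm p + 1 + p.p0 + DD2 p) ?_
      rintro θ w ⟨⟨h1, -⟩, h2⟩
      exact cmp2 hp g2 gam θ w h1 h2
  -- projection
  have r1 : RC (0 + 1) (dl (E p) (Bm p) (T1 p D nu))
      (fun θ w => (Cl (E p) p.G θ.1.1 w ∧ True) ∧ Unc1 p D nu θ w) := by
    refine proj act2 add2 mul2 one2 faith2 ap ap1 apm (T1 p D nu) (T2 p ph2 act2 gam nu2)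
      (fun Z => ph2 (Z.take p.p0) * gam (Z.drop p.p0))
      (fun Z => act2 (nu2 (Z.take p.p0)) (gam (Z.drop p.p0))) ?_ ?_ (0 + 1) _ _ ?_ r2
    · intro Z v
      unfold T1
      rw [apm, hph2, hgam]
    · intro Z v
      unfold T2
      rw [add2, mul2]
    · rintro P v1 w ⟨⟨h1, -⟩, h2⟩ v2
      exact ⟨h1, v1, h2⟩
  -- scheme 1
  have r0 : RC (0 + 1 + 1) (dl (E p) (Bm p) (T1 p D nu))
      (fun θ w => Cl (E p) p.G θ.1.1 w ∧ True) := by
    refine level (hyp hp) (T1 p D nu) (0 + 1) (fun _ _ => True)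
      (fun _ _ _ _ => trivial) (fun _ _ _ _ => trivial) (CL1 p D) (RR1 p D) (DD1 p) hD1pos ?_ r1
    intro θ r b u _ _ _ hc hR
    exact snd1 hp lk g1 hc hR
  refine readoff (E := E p) (Bm := Bm p) (G := p.G) (hyp hp) D.φ hφ hφ1 D.act add1 mul1 one1 faith1
    (T1 p D nu) (fun Z => nu (Z.drop p.p0)) ?_ 2 hG
    (r0.weaken fun θ w h => ⟨h, trivial⟩) s
  intro Z v
  unfold T1
  rw [mul1, ← hφ, List.take_append_drop]

end Crest.Agent.R320.Sch2_199
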