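import Crest.Agent.R320.Sch1_232

/-!
# Row 320: scheme 1 (names + comb + levels + random noise), exactness and completeness (helper232)
-/

set_option autoImplicit false
set_option linter.unusedVariables false
set_option linter.unusedSectionVars false

namespace Crest.Agent.R320.Sch2_232

open Crest.Agent.R320.Half1_961 Crest.Agent.R320.Sch1_232 Finset

variable {α : Type*} {S V W : Type*} [Monoid S] [AddCommGroup V] [AddCommGroup W]

/-! ### canonical right labels -/

open Classical in
noncomputable def crl (c : Chain α) (T : List α → V → V) (al : List α → Option V)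
    (G : List α → List α → Prop) (U : List α) : Option (ℕ × V) :=
  if h : ∃ bR : ℕ × V, ∀ P v, c.nx P = none → G P U → al P = some v →
      c.nx (P ++ U) = some (P.length + bR.1) ∧ T (P ++ U.take bR.1) v = bR.2 then some h.choose
  else none

theorem exact_crl (c : Chain α) (T : List α → V → V) (al : List α → Option V) (D : ℕ)
    (G : List α → List α → Prop) : Exact c T al D (crl c T al G) G := by
  intro P U v b R hU hP hG hal hrl
  unfold crl at hrl
  by_cases h : ∃ bR : ℕ × V, ∀ P v, c.nx P = none → G P U → al P = some v →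
      c.nx (P ++ U) = some (P.length + bR.1) ∧ T (P ++ U.take bR.1) v = bR.2
  · rw [dif_pos h] at hrl
    have h2 := h.choose_spec P v hP hG hal
    rw [Option.some.inj hrl] at h2
    exact h2
  · rw [dif_neg h] at hrl
    exact absurd hrl (by simp)

theorem crl_isSome {c : Chain α} {T : List α → V → V} {al : List α → Option V}
    {G : List α → List α → Prop} {U : List α}
    (h : ∃ bR : ℕ × V, ∀ P v, c.nx P = none → G P U → al P = some v →
      c.nx (P ++ U) = some (P.length + bR.1) ∧ T (P ++ U.take bR.1) v = bR.2) :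
    (crl c T al G U).isSome := by
  unfold crl
  rw [dif_pos h]
  rfl

/-! ### blocks -/

def seg (Q : List α) (a b : ℕ) : List α := (Q.drop a).take (b - a)

theorem seg_left {P Y : List α} {a b : ℕ} (hab : a ≤ b) (hb : b ≤ P.length) :
    seg (P ++ Y) a b = seg P a b := by
  unfold seg
  rw [List.drop_append_of_le_length (by omega),
    List.take_append_of_le_length (by rw [List.length_drop]; omega)]

theorem seg_right (P Y : List α) (a b : ℕ) :
    seg (P ++ Y) (P.length + a) (P.length + b) = seg Y a b := by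
  unfold seg
  rw [drop_shift, Nat.add_sub_add_left]

theorem split_seg (Q : List α) {a b : ℕ} (hab : a ≤ b) :
    Q = Q.take a ++ seg Q a b ++ Q.drop b := by
  unfold seg
  conv_lhs => rw [← List.take_append_drop b Q]
  rw [show b = a + (b - a) by omega, List.take_add, show a + (b - a) = b by omega]

variable (φ : List α → S) (act : V → S → V) (R : List α → Prop) (A : ℕ → ℕ) (m : ℕ)
  (e : ℕ → S → W) (F : S → W → V)

noncomputable def blk (Q : List α) (j : ℕ) : S := φ (seg Q (fst R Q (A j)) (fst R Q (A (j + 1))))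

noncomputable def WL (Q : List α) (i : ℕ) : W := ∑ j ∈ range i, e j (blk φ R A Q j)

noncomputable def WR (Q : List α) (i : ℕ) : W := ∑ j ∈ Ico (i + 1) m, e j (blk φ R A Q j)

theorem WL_tot (Q : List α) {i : ℕ} (hi : i < m) :
    WL φ R A e Q m = WL φ R A e Q i + e i (blk φ R A Q i) + WR φ R A m e Q i := by
  unfold WL WR
  rw [← Finset.sum_range_add_sum_Ico _ hi.le, Finset.sum_eq_sum_Ico_succ_bot hi, add_assoc]

/-- names -/
abbrev Nm (m : ℕ) (S V W : Type*) := Fin m × S × W × S × W × V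

def bval (c : Nm m S V W) (z : S) : V :=
  F (c.2.1 * z * c.2.2.2.1) (c.2.2.1 + e c.1 z + c.2.2.2.2.1) +
    act c.2.2.2.2.2 (c.2.1 * z * c.2.2.2.1)

def col (c : Nm m S V W) : V × V := (c.2.2.2.2.2, bval act m e F c 1)

variable (nmL nmR : ℕ → Option (Nm m S V W)) (Ms : Finset ℕ) (M' p0 lam kap Mp : ℕ)

/-- left legality -/
def LL (P : List α) (t : ℕ) (c : Nm m S V W) : Prop :=
  P.length = p0 + M' * t ∧ t / lam = c.1 ∧ kap ≤ t % lam ∧ t % lam < kap + Mp ∧
    nmL t = some c ∧ (∀ z, bval act m e F c z = bval act m e F c 1) ∧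
    (∀ j ≤ (c.1 : ℕ), Fst R P (A j) (fst R P (A j))) ∧
    c.2.1 = φ (P.take (fst R P (A c.1))) ∧ c.2.2.1 = WL φ R A e P c.1

open Classical in
noncomputable def al (P : List α) : Option V :=
  if h : ∃ v t c, LL φ act R A m e F nmL M' p0 lam kap Mp P t c ∧ c.2.2.2.2.2 = v then
    some h.choose else none

theorem al_some (hM' : 0 < M') {P : List α} {t : ℕ} {c : Nm m S V W}
    (h : LL φ act R A m e F nmL M' p0 lam kap Mp P t c) :
    al φ act R A m e F nmL M' p0 lam kap Mp P = some c.2.2.2.2.2 := by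
  have hex : ∃ v t c, LL φ act R A m e F nmL M' p0 lam kap Mp P t c ∧ c.2.2.2.2.2 = v :=
    ⟨_, t, c, h, rfl⟩
  unfold al
  rw [dif_pos hex]
  obtain ⟨t', c', h', hv⟩ := hex.choose_spec
  have e1 : M' * t = M' * t' := by have := h.1; have := h'.1; omega
  have e2 : t = t' := Nat.eq_of_mul_eq_mul_left hM' e1
  subst e2
  have e3 : c' = c := Option.some.inj (h'.2.2.2.2.1.symm.trans h.2.2.2.2.1)
  rw [← hv, e3]

theorem al_exists {P : List α} {v : V}
    (h : al φ act R A m e F nmL M' p0 lam kap Mp P = some v) :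
    ∃ t c, LL φ act R A m e F nmL M' p0 lam kap Mp P t c ∧ c.2.2.2.2.2 = v := by
  unfold al at h
  by_cases hex : ∃ v t c, LL φ act R A m e F nmL M' p0 lam kap Mp P t c ∧ c.2.2.2.2.2 = v
  · rw [dif_pos hex] at h
    have := hex.choose_spec
    rw [Option.some.inj h] at this
    exact this
  · rw [dif_neg hex] at h
    exact absurd h (by simp)

open Classical in
/-- the noise of a zone -/
noncomputable def nu (Z : List α) : V :=
  if ∀ μ ∈ Ms, ¬ μ ∣ (Z.length - p0) / M' then F (φ Z) (WL φ R A e Z m)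
  else if h : ∃ q : ℕ × ℕ × Nm m S V W × Nm m S V W, q.1 + q.2.1 = (Z.length - p0) / M' ∧
      nmL q.1 = some q.2.2.1 ∧ nmR q.2.1 = some q.2.2.2 then
    bval act m e F h.choose.2.2.2 1 - act h.choose.2.2.1.2.2.2.2.2 (φ Z)
  else 0

/-- zone map -/
noncomputable def TT (Z : List α) (v : V) : V :=
  act v (φ Z) + nu φ act R A m e F nmL nmR Ms M' p0 Z

/-- the value of the zone map at a junction of names in the bad case -/
theorem TT_bad {Z : List α} {t t' : ℕ} {c c' : Nm m S V W}
    (hpair : ∀ t1 t1' t2 t2' c1 c1' c2 c2', t1 + t1' = t2 + t2' → (∃ μ ∈ Ms, μ ∣ t1 + t1') →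
        nmL t1 = some c1 → nmR t1' = some c1' → nmL t2 = some c2 → nmR t2' = some c2' →
        (c1 = c2 ∧ c1' = c2') ∨
          (c1 = c2' ∧ c1' = c2 ∧ col act m e F c1 = col act m e F c1'))
    (hZ : (Z.length - p0) / M' = t + t') (hb : ¬ ∀ μ ∈ Ms, ¬ μ ∣ t + t')
    (hL : nmL t = some c) (hR : nmR t' = some c') :
    TT φ act R A m e F nmL nmR Ms M' p0 Z c.2.2.2.2.2 = bval act m e F c' 1 := by
  unfold TT nu
  have hb' : ¬ ∀ μ ∈ Ms, ¬ μ ∣ (Z.length - p0) / M' := by rw [hZ]; exact hb
  have hex : ∃ q : ℕ × ℕ × Nm m S V W × Nm m S V W, q.1 + q.2.1 = (Z.length - p0) / M' ∧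
      nmL q.1 = some q.2.2.1 ∧ nmR q.2.1 = some q.2.2.2 := ⟨(t, t', c, c'), hZ.symm, hL, hR⟩
  rw [if_neg hb', dif_pos hex]
  obtain ⟨h1, h2, h3⟩ := hex.choose_spec
  have hb2 : ∃ μ ∈ Ms, μ ∣ t + t' := by
    by_contra hc
    apply hb
    intro μ hμ hd
    exact hc ⟨μ, hμ, hd⟩
  rcases hpair t t' _ _ c c' _ _ (by rw [h1, hZ]) hb2 hL hR h2 h3 with ⟨a, b⟩ | ⟨a, b, d⟩
  · rw [← a, ← b]; abel
  · rw [← a, ← b]
    have d1 : c.2.2.2.2.2 = c'.2.2.2.2.2 := congrArg Prod.fst d
    have d2 : bval act m e F c 1 = bval act m e F c' 1 := congrArg Prod.snd d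
    rw [d2, d1]; abel

end Crest.Agent.R320.Sch2_232
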