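import Mathlib
import Crest.Agent.R320.ExactR_237

/-!
# Row 320: the promise scheme (scheme 2 of 132 #12664 / 671) in abstract word form (helper343)

Places `c 0 < c 1 < .. < c (K-1) <= p0` behind the anchor; the right side tests every hypothesis
`a' = x - c k'` with `badR (c k') Q` and is legal iff exactly one of them is plausible.
`bad` = the anchor of the text is bad (any predicate that is read from the text right of every place).
Sound on every text whose anchor is bad; complete as soon as fewer than `R` places are ambiguous.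
-/

set_option autoImplicit false

namespace Crest.Agent.R320.Sch2_343

open Crest.Agent.R320.ExactR_237

variable {A : Type}

/-- exactly one plausible hypothesis -/
def Uniq (K : ℕ) (c : ℕ → ℕ) (badR : ℕ → List A → Prop) (Q : List A) (k : ℕ) : Prop :=
  k < K ∧ badR (c k) Q ∧ ∀ k' < K, badR (c k') Q → k' = k

theorem promise (A S V : Type) [Monoid S] [Fintype S] [Fintype V] [AddCommGroup V]
    (f : A → S) (act : V → S → V) (R : ℕ) :
    ∃ K : ℕ, ∀ c : ℕ → ℕ, (∀ i j, i < j → j < K → c i < c j) →
      ∀ (p0 : ℕ), (∀ k < K, c k ≤ p0) →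
      ∀ (bad : List A → Prop) (badR : ℕ → List A → Prop) (y : List A → S),
      (∀ k < K, ∀ P Q : List A, P.length = c k → (bad (P ++ Q) ↔ badR (c k) Q)) →
      ∃ (L R2 : List A → Option V) (nu : List A → V),
        (∀ P v, L P = some v → ∃ k < K, P.length = c k) ∧
        (∀ Q b, R2 Q = some b → ∃ k, Uniq K c badR Q k) ∧
        (∀ P Q v b, bad (P ++ Q) → L P = some v → R2 Q = some b →
          b = act v (pr f ((P ++ Q).take p0) * y ((P ++ Q).drop p0)) + nu (P ++ Q)) ∧
        (∀ U, bad U → p0 ≤ U.length →
          ∀ amb : Finset ℕ, amb.card < R →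
          (∀ k < K, k ∉ amb → ∀ k' < K, badR (c k') (U.drop (c k)) → k' = k) →
          ∀ v, ∃ k < K, L (U.take (c k)) = some v ∧ (R2 (U.drop (c k))).isSome) := by
  classical
  obtain ⟨K, hK⟩ := exact_gadget A S V f act R
  refine ⟨K, fun c hc p0 hp0 bad badR y hbad => ?_⟩
  obtain ⟨lam, rho, nu, hs, hcomp⟩ := hK c hc
  have hinj : ∀ i < K, ∀ j < K, c i = c j → i = j := by
    intro i hi j hj h
    rcases lt_trichotomy i j with hlt | heq | hgt
    · exact absurd h (ne_of_lt (hc i j hlt hj))
    · exact heq
    · exact absurd h.symm (ne_of_lt (hc j i hgt hi))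
  refine ⟨fun P => if h : ∃ k, k < K ∧ P.length = c k then lam h.choose P else none,
    fun Q => if h : ∃ k, Uniq K c badR Q k then
      rho h.choose (Q.take (p0 - c h.choose)) (y (Q.drop (p0 - c h.choose))) else none,
    fun U => nu (U.take p0) (y (U.drop p0)), ?_, ?_, ?_, ?_⟩
  · intro P v h
    by_cases hP : ∃ k, k < K ∧ P.length = c k
    · obtain ⟨k, h1, h2⟩ := hP
      exact ⟨k, h1, h2⟩
    · simp only [dif_neg hP] at h
      cases h
  · intro Q b h
    by_cases hQ : ∃ k, Uniq K c badR Q k
    · exact hQ
    · simp only [dif_neg hQ] at h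
      cases h
  · intro P Q v b hb hL hR
    by_cases hP : ∃ k, k < K ∧ P.length = c k
    swap
    · simp only [dif_neg hP] at hL
      cases hL
    by_cases hQ : ∃ k, Uniq K c badR Q k
    swap
    · simp only [dif_neg hQ] at hR
      cases hR
    simp only [dif_pos hP] at hL
    simp only [dif_pos hQ] at hR
    obtain ⟨hk, hlen⟩ := hP.choose_spec
    set k := hP.choose with hkdef
    obtain ⟨hk1, hk2, hk3⟩ := hQ.choose_spec
    set k1 := hQ.choose with hk1def
    have hkk : k = k1 := hk3 k hk ((hbad k hk P Q hlen).1 hb)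
    have hle : c k ≤ p0 := hp0 k hk
    have htake : (P ++ Q).take p0 = P ++ Q.take (p0 - c k) := by
      rw [List.take_append, hlen, List.take_of_length_le (by rw [hlen]; exact hle)]
    have hdrop : (P ++ Q).drop p0 = Q.drop (p0 - c k) := by
      rw [List.drop_append, hlen, List.drop_eq_nil_of_le (by rw [hlen]; exact hle), List.nil_append]
    rw [← hkk] at hR
    show b = act v (pr f ((P ++ Q).take p0) * y ((P ++ Q).drop p0)) +
      nu ((P ++ Q).take p0) (y ((P ++ Q).drop p0))
    rw [htake, hdrop]
    exact hs k hk P (Q.take (p0 - c k)) (y (Q.drop (p0 - c k))) v b hlen hL hR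
  · intro U hb hU amb hamb hun v
    obtain ⟨I, hI, hIk⟩ := hcomp (U.take p0) (y (U.drop p0)) v
      (fun k hk => by rw [List.length_take]; exact le_min (hp0 k hk) ((hp0 k hk).trans hU))
    have hne : ∃ k ∈ I, k ∉ amb := by
      by_contra hcon
      push Not at hcon
      exact absurd (Finset.card_le_card (fun k hk => hcon k hk)) (not_le.2 (lt_of_lt_of_le hamb hI))
    obtain ⟨k, hkI, hkamb⟩ := hne
    obtain ⟨hk, hl, hr⟩ := hIk k hkI
    have hle : c k ≤ p0 := hp0 k hk
    have hlen : (U.take (c k)).length = c k := by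
      rw [List.length_take]; exact min_eq_left (hle.trans hU)
    have hbk : badR (c k) (U.drop (c k)) := by
      refine (hbad k hk (U.take (c k)) (U.drop (c k)) hlen).1 ?_
      rw [List.take_append_drop]; exact hb
    have hP : ∃ k', k' < K ∧ (U.take (c k)).length = c k' := ⟨k, hk, hlen⟩
    have hQ : ∃ k', Uniq K c badR (U.drop (c k)) k' :=
      ⟨k, hk, hbk, fun k' hk' h' => hun k hk hkamb k' hk' h'⟩
    refine ⟨k, hk, ?_, ?_⟩
    · simp only [dif_pos hP]
      have h2 := hP.choose_spec
      have h3 : hP.choose = k := hinj _ h2.1 _ hk (by rw [← h2.2, hlen])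
      rw [h3]
      rw [List.take_take, min_eq_left hle] at hl
      exact hl
    · simp only [dif_pos hQ]
      have h2 := hQ.choose_spec
      have h3 : hQ.choose = k := hun k hk hkamb _ h2.1 h2.2.1
      rw [h3]
      have e1 : (U.take p0).drop (c k) = (U.drop (c k)).take (p0 - c k) := List.drop_take
      have e2 : U.drop p0 = (U.drop (c k)).drop (p0 - c k) := by
        rw [List.drop_drop, Nat.add_sub_cancel' hle]
      rw [← e1, ← e2]
      exact hr

end Crest.Agent.R320.Sch2_343
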