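import Crest.Agent.R320.ExactR_237

/-!
# Row 320: scheme 2 (promise ruler), abstract form

A zone text `t` (from the anchor `a` on) is `X ++ ..` with `|X| = p0`; the promise `Bd`, the step `Nd`
and the second part `m1` of the zone map are read from the text right of `a + p0`.
Places `a + c k`, `k < K`, all `≤ a + p0`.  The right side tests all hypotheses `k` and is legal iff
exactly one of them satisfies the promise.
-/

set_option autoImplicit false

namespace Crest.Agent.R320.Sch2_347

open Crest.Agent.R320.ExactR_237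

/-- the hypothesis `k` is the only plausible one for the right word `r` -/
def Only {α : Type} (K : ℕ) (c : ℕ → ℕ) (p0 : ℕ) (Bd : List α → Prop) (r : List α) (k : ℕ) : Prop :=
  k < K ∧ Bd (r.drop (p0 - c k)) ∧ ∀ k' < K, Bd (r.drop (p0 - c k')) → k' = k

open Classical in
/-- the right label -/
noncomputable def R2 {α V : Type} (K : ℕ) (c : ℕ → ℕ) (p0 : ℕ) (Bd : List α → Prop)
    (Nd : List α → ℕ) (m1 : List α → V → V) (rho : ℕ → List α → Option V) (r : List α) :
    Option (ℕ × V) :=
  if h : ∃ k, Only K c p0 Bd r k then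
    (rho h.choose (r.take (p0 - c h.choose))).map
      (fun w => (p0 - c h.choose + Nd (r.drop (p0 - c h.choose)),
        m1 (r.drop (p0 - c h.choose)) w))
  else none

/-- the left label -/
def L2 {α V : Type} (K : ℕ) (c : ℕ → ℕ) (lam : ℕ → List α → Option V) (u : List α) (v : V) : Prop :=
  ∃ k < K, u.length = c k ∧ lam k u = some v

theorem R2_of_only {α V : Type} {K : ℕ} {c : ℕ → ℕ} {p0 : ℕ} {Bd : List α → Prop}
    {Nd : List α → ℕ} {m1 : List α → V → V} {rho : ℕ → List α → Option V} {r : List α} {k : ℕ}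
    (h : Only K c p0 Bd r k) :
    R2 K c p0 Bd Nd m1 rho r = (rho k (r.take (p0 - c k))).map
      (fun w => (p0 - c k + Nd (r.drop (p0 - c k)), m1 (r.drop (p0 - c k)) w)) := by
  have hex : ∃ k, Only K c p0 Bd r k := ⟨k, h⟩
  have hk : hex.choose = k := h.2.2 _ hex.choose_spec.1 hex.choose_spec.2.1
  unfold R2
  rw [dif_pos hex, hk]

/-- **SCHEME 2.** -/
theorem scheme2 (α S V : Type) [Monoid S] [Fintype S] [Fintype V] [AddCommGroup V]
    (f : α → S) (act : V → S → V) (R : ℕ) :
    ∃ K : ℕ, ∀ (c : ℕ → ℕ) (p0 : ℕ), (∀ i j, i < j → j < K → c i < c j) → (∀ k < K, c k ≤ p0) →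
      ∃ (lam : ℕ → List α → Option V) (rho : ℕ → List α → Option V) (nu2 : List α → V),
      ∀ (Bd : List α → Prop) (Nd : List α → ℕ) (m1 : List α → V → V),
        -- (SC2)
        (∀ (u r : List α) (v : V) (d : ℕ) (b : V), Bd ((u ++ r).drop p0) →
          L2 K c lam u v → R2 K c p0 Bd Nd m1 rho r = some (d, b) →
          p0 + Nd ((u ++ r).drop p0) = u.length + d ∧
          m1 ((u ++ r).drop p0)
            (act v (pr f ((u ++ r).take p0)) + nu2 ((u ++ r).take p0)) = b) ∧
        -- (CP2)
        (∀ (t : List α) (amb : Finset ℕ), p0 ≤ t.length → Bd (t.drop p0) → amb.card ≤ R →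
          (∀ k < K, k ∉ amb → ∀ k' < K, k' ≠ k → ¬ Bd (t.drop (p0 + c k - c k'))) →
          ∀ v : V, ∃ k < K, L2 K c lam (t.take (c k)) v ∧
            (R2 K c p0 Bd Nd m1 rho (t.drop (c k))).isSome) := by
  classical
  obtain ⟨K, hK⟩ := exact_gadget α S V f act (R + 1)
  refine ⟨K, fun c p0 hc hp0 => ?_⟩
  obtain ⟨lam, rho, nu, hs, hcp⟩ := hK c hc
  refine ⟨lam, fun k Q => rho k Q 1, fun X => nu X 1, fun Bd Nd m1 => ⟨?_, ?_⟩⟩
  · rintro u r v d b hB ⟨k, hk, hu, hl⟩ hR
    have hle : c k ≤ p0 := hp0 k hk
    have hdrop : (u ++ r).drop p0 = r.drop (p0 - c k) := by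
      rw [List.drop_append, List.drop_eq_nil_of_le (by omega), List.nil_append, hu]
    have htake : (u ++ r).take p0 = u ++ r.take (p0 - c k) := by
      rw [List.take_append, List.take_of_length_le (by omega), hu]
    -- the claimed hypothesis is the true one
    have hon : Only K c p0 Bd r k := by
      by_cases hex : ∃ k, Only K c p0 Bd r k
      · obtain ⟨k1, h1⟩ := hex
        have : k = k1 := h1.2.2 k hk (by rw [← hdrop]; exact hB)
        rw [this]; exact h1
      · unfold R2 at hR
        rw [dif_neg hex] at hR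
        exact absurd hR (by simp)
    rw [R2_of_only hon] at hR
    cases hw : rho k (r.take (p0 - c k)) 1 with
    | none => rw [hw] at hR; exact absurd hR (by simp)
    | some w =>
      rw [hw] at hR
      simp only [Option.map_some, Option.some.injEq, Prod.mk.injEq] at hR
      obtain ⟨h1, h2⟩ := hR
      have hex := hs k hk u (r.take (p0 - c k)) 1 v w hu hl hw
      rw [hdrop, htake]
      refine ⟨by omega, ?_⟩
      rw [← h2, hex, mul_one]
  · intro t amb hlen hB hamb hun v
    obtain ⟨I, hI, hII⟩ := hcp (t.take p0) 1 v (fun k hk => by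
      rw [List.length_take]; exact le_min (hp0 k hk) ((hp0 k hk).trans hlen))
    have hne : ∃ k ∈ I, k ∉ amb := by
      by_contra hcon
      push Not at hcon
      have : I ⊆ amb := fun x hx => hcon x hx
      have := Finset.card_le_card this
      omega
    obtain ⟨k, hkI, hka⟩ := hne
    obtain ⟨hk, h1, h2⟩ := hII k hkI
    have hle : c k ≤ p0 := hp0 k hk
    rw [List.take_take, min_eq_left hle] at h1
    refine ⟨k, hk, ⟨k, hk, ?_, h1⟩, ?_⟩
    · rw [List.length_take]; exact min_eq_left (hle.trans hlen)
    have hon : Only K c p0 Bd (t.drop (c k)) k := by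
      refine ⟨hk, ?_, ?_⟩
      · rw [List.drop_drop, Nat.add_sub_cancel' hle]; exact hB
      · intro k' hk' hB'
        by_contra hne
        rw [List.drop_drop] at hB'
        have hle' : c k' ≤ p0 := hp0 k' hk'
        have he : c k + (p0 - c k') = p0 + c k - c k' := by omega
        rw [he] at hB'
        exact hun k hk hka k' hk' hne hB'
    rw [R2_of_only hon]
    have htk : (t.drop (c k)).take (p0 - c k) = (t.take p0).drop (c k) := by
      rw [List.take_drop, Nat.add_sub_cancel' hle]
    rw [htk]
    cases hw : rho k ((t.take p0).drop (c k)) 1 with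
    | none => rw [hw] at h2; exact absurd h2 (by simp)
    | some w => simp

end Crest.Agent.R320.Sch2_347
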