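import Crest.Agent.R320.Sch2_92

/-!
Row 320, helper357: the promise scheme (scheme 2) in 961's form, after 92's `Sch2_92`, for a noise
`ν1 Z = F1 (φ Z) (θ (Z.drop p0))` (values at the anchor, names of 420 / 755).
-/

set_option autoImplicit false

namespace Crest.Agent.R320.Sch2_357

open Crest.Agent.R320.Half1_961 Crest.Agent.R320.ExactR_237 Crest.Agent.R320.Sch2_92

/-- right zero band with identity -/
def RZ (Θ : Type) := Option Θ

instance (Θ : Type) [Fintype Θ] : Fintype (RZ Θ) := inferInstanceAs (Fintype (Option Θ))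

instance (Θ : Type) : Monoid (RZ Θ) where
  mul x y := Option.casesOn y x (fun t => some t)
  one := none
  mul_assoc := by
    intro a b c
    cases c <;> cases b <;> rfl
  one_mul := by
    intro a
    cases a <;> rfl
  mul_one := by intro a; rfl

theorem RZ.mul_some {Θ : Type} (x : RZ Θ) (t : Θ) : x * (show RZ Θ from some t) = (show RZ Θ from some t) := rfl

variable {α S Θ : Type} [Monoid S] [Fintype S] [Fintype Θ]

/-- letters -/
def ff (f : α → S) : α → S × RZ Θ := fun a => (f a, 1)

theorem pr_ff (f : α → S) (w : List α) : pr (ff (Θ := Θ) f) w = (pr f w, 1) := by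
  unfold pr ff
  induction w with
  | nil => rfl
  | cons a w ih => simp only [List.map_cons, List.prod_cons, ih, Prod.mk_mul_mk, one_mul]

open Classical in
/-- the zone map of scheme 1 as a function of the product and the right data -/
noncomputable def t1 (F1 : S → Θ → S → ZMod 2) (x : S × RZ Θ) (v : S → ZMod 2) : S → ZMod 2 :=
  match x.2 with
  | none => v
  | some t => actV v x.1 + F1 x.1 t

/-- action on second level tokens -/
noncomputable def actB (F1 : S → Θ → S → ZMod 2) (h : (S → ZMod 2) → ZMod 2) (x : S × RZ Θ) :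
    (S → ZMod 2) → ZMod 2 := push (t1 F1 x) h

theorem T1_eq (f : α → S) (ν1 : List α → S → ZMod 2) (F1 : S → Θ → S → ZMod 2)
    (th : List α → Θ) (p0 : ℕ)
    (hν : ∀ Z, p0 ≤ Z.length → ν1 Z = F1 (pr f Z) (th (Z.drop p0))) (X Y : List α)
    (hX : X.length = p0) (v : S → ZMod 2) :
    T1 (fun w => (w.map f).prod) ν1 (X ++ Y) v =
      t1 F1 (pr (ff (Θ := Θ) f) X * (pr f Y, (show RZ Θ from some (th Y)))) v := by
  have h1 : (X ++ Y).drop p0 = Y := by rw [← hX]; simp
  have h2 : pr f (X ++ Y) = pr f X * pr f Y := by simp [pr]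
  rw [pr_ff, Prod.mk_mul_mk]
  show _ = actV v (pr f X * pr f Y) + F1 (pr f X * pr f Y) (th Y)
  unfold T1 actV
  rw [hν (X ++ Y) (by rw [List.length_append]; omega), h1, ← h2]
  rfl

/-- right letter -/
def yy (f : α → S) (th : List α → Θ) (Y : List α) : S × RZ Θ :=
  (pr f Y, (show RZ Θ from some (th Y)))

/-- **SCHEME 2** (promise scheme), noise of scheme 1 at the anchor. -/
theorem scheme2 (f : α → S) (F1 : S → Θ → S → ZMod 2) (R : ℕ) :
    ∃ K : ℕ, ∀ cc : ℕ → ℕ, (∀ i j, i < j → j < K → cc i < cc j) →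
      ∀ (c : Chain α) (RF Bad : List α → Prop) (ν1 : List α → S → ZMod 2)
        (th : List α → Θ) (p0 n2 D2 : ℕ),
        (∀ k < K, c.n ≤ cc k ∧ cc k ≤ n2 ∧ cc k ≤ p0) → p0 ≤ D2 →
        (∀ Q d, c.nx Q = some d → p0 < d) →
        (∀ Z, p0 ≤ Z.length → ν1 Z = F1 (pr f Z) (th (Z.drop p0))) →
        (∀ Q, RF Q → D2 + n2 ≤ Q.length → Bad Q → ∃ d, d ≤ D2 ∧ p0 ≤ d ∧
          ∃ Amb : Finset ℕ, Amb.card < R ∧
          ∀ k < K, k ∉ Amb → ∀ k' < K, ∀ P' : List α, P'.length = cc k' →
            RF (P' ++ (Q.drop (cc k)).take D2) → Bad (P' ++ (Q.drop (cc k)).take D2) →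
            k' = k ∧ c.nx (P' ++ (Q.drop (cc k)).take D2) = some d) →
        ∃ (ν2 : List α → (S → ZMod 2) → ZMod 2) (al2 : List α → Option ((S → ZMod 2) → ZMod 2))
          (rl2 : List α → Option (ℕ × ((S → ZMod 2) → ZMod 2))),
          Exact c (T2 (T1 (fun w => (w.map f).prod) ν1) ν2) al2 D2 rl2
            (fun P U => RF (P ++ U) ∧ P.length ≤ n2 ∧ Bad (P ++ U)) ∧
          Complete c al2 D2 rl2 c.n n2 (fun Q => RF Q ∧ D2 + n2 ≤ Q.length ∧ Bad Q) := by
  classical
  obtain ⟨K, hK⟩ := exact_gadget α (S × RZ Θ) ((S → ZMod 2) → ZMod 2) (ff f) (actB F1) R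
  refine ⟨K, ?_⟩
  intro cc hcc c RF Bad ν1 th p0 n2 D2 hpos hp0 hlong hν hamb
  obtain ⟨lam, rho, nu, hsound, hcomp⟩ := hK cc hcc
  -- uniqueness of the mark
  have hinj : ∀ k < K, ∀ k' < K, cc k = cc k' → k = k' := by
    intro k hk k' hk' h
    rcases lt_trichotomy k k' with h1 | h1 | h1
    · have := hcc k k' h1 hk'; omega
    · exact h1
    · have := hcc k' k h1 hk; omega
  let al2 : List α → Option ((S → ZMod 2) → ZMod 2) := fun P =>
    if h : ∃ k, k < K ∧ P.length = cc k then lam h.choose P else none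
  let Pr : List α → ℕ × ℕ × ((S → ZMod 2) → ZMod 2) → Prop := fun U t =>
    t.1 < K ∧ (∀ k' < K, ∀ P' : List α, P'.length = cc k' → RF (P' ++ U) → Bad (P' ++ U) →
      k' = t.1 ∧ c.nx (P' ++ U) = some (cc t.1 + t.2.1)) ∧
      rho t.1 (U.take (p0 - cc t.1)) (yy f th ((U.take t.2.1).drop (p0 - cc t.1))) = some t.2.2
  let rl2 : List α → Option (ℕ × ((S → ZMod 2) → ZMod 2)) := fun U =>
    if h : ∃ t, Pr U t then some (h.choose.2.1, h.choose.2.2) else none
  refine ⟨fun Z => nu (Z.take p0) (yy f th (Z.drop p0)), al2, rl2, ?_, ?_⟩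
  · intro P U v b Rt hU hnx hG hal hrl
    obtain ⟨hRF, hPn, hBad⟩ := hG
    simp only [al2] at hal
    split_ifs at hal with h1
    simp only [rl2] at hrl
    split_ifs at hrl with h2
    obtain ⟨hk, hPk⟩ := h1.choose_spec
    obtain ⟨ht1, ht2, ht3⟩ := h2.choose_spec
    set k := h1.choose with hkdef
    set t := h2.choose with htdef
    obtain ⟨hkt, hnxt⟩ := ht2 k hk P hPk hRF hBad
    have hrl' := Option.some.inj hrl
    have hb : t.2.1 = b := congrArg Prod.fst hrl'
    have hRt : t.2.2 = Rt := congrArg Prod.snd hrl'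
    rw [← hkt, hb] at hnxt
    rw [← hkt, hb] at ht3
    obtain ⟨hc1, hc2, hc3⟩ := hpos k hk
    have hlen := hlong _ _ hnxt
    have hvis := (c.vis _ _ hnxt).2
    rw [List.length_append] at hvis
    refine ⟨by rw [hPk]; exact hnxt, ?_⟩
    set Y := (U.take b).drop (p0 - cc k) with hY
    have hs := hsound k hk P (U.take (p0 - cc k)) (yy f th Y) v t.2.2 hPk hal ht3
    have hsplit : P ++ U.take b = (P ++ U.take (p0 - cc k)) ++ Y := by
      rw [List.append_assoc, hY]
      congr 1
      have : U.take (p0 - cc k) = (U.take b).take (p0 - cc k) := by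
        rw [List.take_take]; congr 1; omega
      rw [this, List.take_append_drop]
    rw [hsplit]
    set X := P ++ U.take (p0 - cc k) with hXdef
    have hX : X.length = p0 := by
      rw [hXdef, List.length_append, List.length_take, hPk]; omega
    have h1' : (X ++ Y).drop p0 = Y := by rw [← hX]; simp
    have h2' : (X ++ Y).take p0 = X := by rw [← hX]; simp
    have h3' : T1 (fun w => (w.map f).prod) ν1 (X ++ Y) =
        t1 F1 (pr (ff (Θ := Θ) f) X * yy f th Y) := by
      funext v'
      exact T1_eq f ν1 F1 th p0 hν X Y hX v'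
    unfold T2
    simp only [h1', h2', h3']
    rw [← hRt, hs]
    rfl
  · intro Q hQ v
    obtain ⟨hRF, hlen, hBad⟩ := hQ
    obtain ⟨d, hd1, hd2, Amb, hAmb, hgood⟩ := hamb Q hRF hlen hBad
    obtain ⟨I, hI, hIk⟩ := hcomp (Q.take p0) (yy f th ((Q.take d).drop p0)) v (by
      intro k hk
      rw [List.length_take]
      have := hpos k hk
      omega)
    obtain ⟨k, hkI, hkA⟩ := Finset.exists_mem_notMem_of_card_lt_card (lt_of_lt_of_le hAmb hI)
    obtain ⟨hk, hlamk, hrhok⟩ := hIk k hkI
    have hb := hgood k hk hkA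
    obtain ⟨hc1, hc2, hc3⟩ := hpos k hk
    obtain ⟨w, hw⟩ := Option.isSome_iff_exists.1 hrhok
    have hPlen : (Q.take (cc k)).length = cc k := by rw [List.length_take]; omega
    refine ⟨Q.take (cc k), (Q.drop (cc k)).take D2, (Q.drop (cc k)).drop D2, ?_, ?_, ?_, ?_, ?_,
      ?_, ?_⟩
    · rw [List.take_append_drop, List.take_append_drop]
    · rw [List.length_take, List.length_drop]; omega
    · rw [hPlen]; exact hc1
    · rw [hPlen]; exact hc2
    · cases hn : c.nx (Q.take (cc k)) with
      | none => rfl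
      | some d =>
        exfalso
        have h1 := hlong _ _ hn
        have h2 := (c.vis _ _ hn).2
        omega
    · have hex : ∃ k', k' < K ∧ (Q.take (cc k)).length = cc k' := ⟨k, hk, hPlen⟩
      simp only [al2]
      rw [dif_pos hex]
      have hk' : hex.choose = k := by
        obtain ⟨h1, h2⟩ := hex.choose_spec
        exact (hinj k hk _ h1 (by rw [← h2, hPlen])).symm
      rw [hk']
      rw [List.take_take, min_eq_left hc3] at hlamk
      exact hlamk
    · have hex : ∃ t, Pr ((Q.drop (cc k)).take D2) t := by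
        refine ⟨(k, d - cc k, w), hk, ?_, ?_⟩
        · have e : cc k + (d - cc k) = d := by omega
          intro k' hk' P' h1 h2 h3
          obtain ⟨a1, a2⟩ := hb k' hk' P' h1 h2 h3
          exact ⟨a1, by rw [a2]; exact congrArg some e.symm⟩
        · have h1 : ((Q.drop (cc k)).take D2).take (p0 - cc k) = (Q.take p0).drop (cc k) := by
            rw [List.take_take, List.drop_take]
            congr 1
            omega
          have h2 : (((Q.drop (cc k)).take D2).take (d - cc k)).drop (p0 - cc k) =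
              (Q.take d).drop p0 := by
            rw [List.take_take, List.drop_take, List.drop_take, List.drop_drop]
            congr 1
            · omega
            · congr 1; omega
          show rho k (((Q.drop (cc k)).take D2).take (p0 - cc k))
            (yy f th ((((Q.drop (cc k)).take D2).take (d - cc k)).drop (p0 - cc k))) = some w
          rw [h1, h2]
          exact hw
      simp only [rl2]
      rw [dif_pos hex]
      rfl

end Crest.Agent.R320.Sch2_357
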