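import Mathlib

/-!
Row 320, helper420: combinatorial half of the instance of the two-scheme chain on ALL words
(natural rule: a block ends at the first left-looking wall at or after `z`), in the literal form of
870's TOP (#13394): (s1), (s2), (cc), (ro), prefix code, finiteness.
-/

set_option autoImplicit false
set_option linter.unusedSectionVars false

namespace Crest.Agent.R320.Sch2_420

/-- the data -/
structure Dt (α S V : Type*) where
  φ : List α → S
  act : V → S → V
  Wo : List α → Prop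
  no : ℕ
  z : ℕ
  p0 : ℕ
  N1 : ℕ
  La : ℕ
  BadT : ℕ → Prop
  lam1 : List α → Option V
  rho1 : List α → Option V
  nu1 : List α → V
  K : ℕ
  C0 : ℕ
  c : ℕ → ℕ
  lam2 : List α → Option V
  rho2 : List α → Option V
  nu2 : List α → V

variable {α S V : Type*} [Monoid S] [AddCommGroup V]

namespace Dt

variable (D : Dt α S V)

/-- blocks -/
def XX (X : List α) : Prop :=
  D.Wo X ∧ D.z ≤ X.length ∧ ∀ t, D.z ≤ t → t < X.length → ¬ D.Wo (X.take t)

/-- no prefix is a block -/
def NB (u : List α) : Prop := ∀ t ≤ u.length, ¬ D.XX (u.take t)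

/-- completion of a block from the offset `a` -/
def Cmp (a : ℕ) (Q : List α) : Prop :=
  D.Wo Q ∧ D.z ≤ a + Q.length ∧ ∀ t, D.z ≤ a + t → t < Q.length → ¬ D.Wo (Q.take t)

/-- zone map -/
def T (v : V) (X : List α) : V :=
  D.act (D.act v (D.φ (X.take D.p0)) + D.nu2 (X.take D.p0)) (D.φ (X.drop D.p0)) +
    D.nu1 (X.drop D.p0)

/-- right-visible part of scheme 1 -/
def RB (Q : List α) : Prop :=
  D.Wo Q ∧ D.z ≤ D.p0 + Q.length ∧
    ∀ y < Q.length, D.no ≤ y → D.Wo (Q.take y) → D.p0 + y + D.N1 < D.z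

def LP1 (v : V) (P : List α) : Prop :=
  D.p0 ≤ P.length ∧
    D.lam1 (P.drop D.p0) = some (D.act v (D.φ (P.take D.p0)) + D.nu2 (P.take D.p0))

open Classical in
noncomputable def rq1 (Q : List α) : Option V := if D.RB Q then D.rho1 Q else none

/-- the block which ends at `y` behind the offset `a` is bad: (E) or (B) -/
def BadE (a : ℕ) (Q : List α) : Prop :=
  (a + Q.length < D.z + D.N1 ∨
    ∃ t < Q.length, D.p0 + D.no ≤ a + t ∧ D.z ≤ a + t + D.N1 ∧ D.Wo (Q.take t)) ∨
  D.BadT (a + Q.length - D.p0)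

/-- candidate offset `a` is bad for the future text `Q` -/
def BadAt (a : ℕ) (Q : List α) : Prop :=
  ∃ t ≤ Q.length, D.Cmp a (Q.take t) ∧ D.BadE a (Q.take t)

def LP2 (v : V) (P : List α) : Prop := ∃ k < D.K, P.length = D.c k ∧ D.lam2 P = some v

def R2 (Q : List α) (b : V) : Prop :=
  ∃ k < D.K, ∃ Q1 X2 r, Q = Q1 ++ X2 ∧ D.XX X2 ∧ D.Cmp (D.c k) Q1 ∧
    D.rho2 (Q1.take (D.p0 - D.c k)) = some r ∧
    (∀ k' < D.K, k' ≠ k → ¬ D.BadAt (D.c k') Q) ∧
    b = D.T (D.act r (D.φ (Q1.drop (D.p0 - D.c k))) + D.nu1 (Q1.drop (D.p0 - D.c k))) X2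

open Classical in
noncomputable def rq2 (Q : List α) : Option V :=
  if h : ∃ b, D.R2 Q b then some h.choose else none

end Dt

/-- the hypotheses -/
structure Hy (D : Dt α S V) : Prop where
  nopos : 0 < D.no
  loc : ∀ P Q : List α, D.no ≤ Q.length → (D.Wo (P ++ Q) ↔ D.Wo Q)
  zge : D.p0 + D.N1 + D.La + D.no ≤ D.z
  hφ : ∀ u v, D.φ (u ++ v) = D.φ u * D.φ v
  actm : ∀ v s t, D.act (D.act v s) t = D.act v (s * t)
  acta : ∀ v w s, D.act (v + w) s = D.act v s + D.act w s
  s1 : ∀ P Q v b, D.lam1 P = some v → D.rho1 Q = some b → D.La ≤ Q.length →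
    b = D.act v (D.φ (P ++ Q)) + D.nu1 (P ++ Q)
  len1 : ∀ P v, D.lam1 P = some v → P.length ≤ D.N1
  c1 : ∀ Z, D.La ≤ Z.length → ¬ D.BadT Z.length → ∀ v, ∃ P Q, P ++ Q = Z ∧ D.lam1 P = some v ∧
    (D.rho1 Q).isSome
  hc : ∀ k < D.K, D.c k ≤ D.p0
  s2 : ∀ P Q v b, P.length + Q.length = D.p0 → D.lam2 P = some v → D.rho2 Q = some b →
    b = D.act v (D.φ (P ++ Q)) + D.nu2 (P ++ Q)
  c2 : ∀ X : List α, X.length = D.p0 → ∀ v, ∃ B : Finset ℕ, D.C0 < B.card ∧ ∀ k ∈ B, k < D.K ∧
    D.lam2 (X.take (D.c k)) = some v ∧ (D.rho2 (X.drop (D.c k))).isSome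
  spoil : ∀ X1 X2, D.XX X1 → D.XX X2 → ∃ B : Finset ℕ, B.card ≤ D.C0 ∧
    ∀ k < D.K, (∃ k' < D.K, k' ≠ k ∧ D.BadAt (D.c k') ((X1 ++ X2).drop (D.c k))) → k ∈ B

variable {D : Dt α S V}

theorem Hy.act_sub (H : Hy D) (v w : V) (s : S) : D.act (v - w) s = D.act v s - D.act w s := by
  have := H.acta (v - w) w s
  rw [sub_add_cancel] at this
  rw [this]; abel

/-- (ro) -/
theorem ro (H : Hy D) (v v' : V) (X : List α) :
    D.T v X - D.T v' X = D.act (v - v') (D.φ X) := by
  unfold Dt.T
  have h1 : D.φ X = D.φ (X.take D.p0) * D.φ (X.drop D.p0) := by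
    rw [← H.hφ, List.take_append_drop]
  rw [h1, ← H.actm, H.act_sub v v', H.act_sub, H.acta, H.acta]
  abel

theorem XX_len (X : List α) (h : D.XX X) : D.z ≤ X.length := h.2.1

theorem XX_pre (w : List α) (s t : ℕ) (hs : s ≤ w.length) (ht : t ≤ w.length)
    (h1 : D.XX (w.take s)) (h2 : D.XX (w.take t)) : s = t := by
  have key : ∀ a b : ℕ, a ≤ w.length → b ≤ w.length → D.XX (w.take a) → D.XX (w.take b) →
      ¬ a < b := by
    intro a b ha hb h1 h2 hab
    obtain ⟨x1, x2, -⟩ := h1
    obtain ⟨-, -, x3⟩ := h2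
    have hla : (w.take a).length = a := by rw [List.length_take]; omega
    have hlb : (w.take b).length = b := by rw [List.length_take]; omega
    refine x3 a (by omega) (by omega) ?_
    rw [List.take_take, min_eq_left hab.le]; exact x1
  rcases lt_trichotomy s t with h | h | h
  · exact absurd h (key s t hs ht h1 h2)
  · exact h
  · exact absurd h (key t s ht hs h2 h1)

theorem NB_short (H : Hy D) (u : List α) (h : u.length < D.z) : D.NB u := by
  intro t ht hX
  have := hX.2.1
  rw [List.length_take] at this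
  omega

/-- a completion from the offset `|P|` gives a block -/
theorem XX_of_Cmp (H : Hy D) {P Q : List α} (hP : P.length + D.no ≤ D.z)
    (h : D.Cmp P.length Q) : D.XX (P ++ Q) := by
  obtain ⟨a1, a2, a3⟩ := h
  refine ⟨(H.loc P Q (by omega)).2 a1, by rw [List.length_append]; exact a2, ?_⟩
  intro t ht1 ht2 ht3
  obtain ⟨y, rfl⟩ := Nat.exists_eq_add_of_le (show P.length ≤ t by omega)
  rw [List.length_append] at ht2
  rw [List.take_append, Nat.add_sub_cancel_left, List.take_of_length_le (by omega)] at ht3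
  exact a3 y ht1 (by omega) ((H.loc P (Q.take y) (by rw [List.length_take]; omega)).1 ht3)

theorem Cmp_of_XX (H : Hy D) {P Q : List α} (hP : P.length + D.no ≤ D.z)
    (h : D.XX (P ++ Q)) : D.Cmp P.length Q := by
  obtain ⟨a1, a2, a3⟩ := h
  rw [List.length_append] at a2
  refine ⟨(H.loc P Q (by omega)).1 a1, a2, ?_⟩
  intro t ht1 ht2 ht3
  refine a3 (P.length + t) ht1 (by rw [List.length_append]; omega) ?_
  rw [List.take_append, Nat.add_sub_cancel_left, List.take_of_length_le (by omega)]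
  exact (H.loc P (Q.take t) (by rw [List.length_take]; omega)).2 ht3

/-- (s1) -/
theorem sound1 (H : Hy D) {v : V} {P Q : List α} {b : V} (hP : D.LP1 v P)
    (hQ : D.rq1 Q = some b) : D.XX (P ++ Q) ∧ D.T v (P ++ Q) = b := by
  classical
  unfold Dt.rq1 at hQ
  split_ifs at hQ with hRB
  obtain ⟨hp, hl⟩ := hP
  obtain ⟨a1, a2, a3⟩ := hRB
  have hN := H.len1 _ _ hl
  rw [List.length_drop] at hN
  have hz := H.zge
  constructor
  · refine XX_of_Cmp H (by omega) ⟨a1, by omega, ?_⟩
    intro t ht1 ht2 ht3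
    have := a3 t ht2 (by omega) ht3
    omega
  · have := H.s1 _ _ _ _ hl hQ (by omega)
    unfold Dt.T
    rw [List.take_append_of_le_length hp, List.drop_append_of_le_length hp, ← this]

/-- completeness of scheme 1 off (E), (B) -/
theorem complete1 (H : Hy D) {X : List α} (hX : D.XX X) {a : ℕ} (ha : a ≤ D.p0)
    (hb : ¬ D.BadE a (X.drop a)) (v : V) :
    ∃ P Q, X = P ++ Q ∧ D.p0 ≤ P.length ∧ D.LP1 v P ∧ (D.rq1 Q).isSome := by
  classical
  have hz := H.zge
  obtain ⟨x1, x2, x3⟩ := hX
  unfold Dt.BadE at hb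
  push Not at hb
  obtain ⟨⟨b1, b2⟩, b3⟩ := hb
  rw [List.length_drop] at b1 b3
  have hal : a + (X.length - a) = X.length := by omega
  rw [hal] at b1 b3
  obtain ⟨P', Q, hPQ, hP', hQ⟩ := H.c1 (X.drop D.p0) (by rw [List.length_drop]; omega)
    (by rw [List.length_drop]; exact b3) (D.act v (D.φ (X.take D.p0)) + D.nu2 (X.take D.p0))
  have hN := H.len1 _ _ hP'
  have hX0 : (X.take D.p0).length = D.p0 := by rw [List.length_take]; omega
  have hXe : X = (X.take D.p0 ++ P') ++ Q := by
    rw [List.append_assoc, hPQ, List.take_append_drop]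
  have hPl : (X.take D.p0 ++ P').length = D.p0 + P'.length := by
    rw [List.length_append, hX0]
  have hl : X.length = D.p0 + P'.length + Q.length := by
    conv_lhs => rw [hXe]
    rw [List.length_append, hPl]
  refine ⟨X.take D.p0 ++ P', Q, hXe, by omega, ⟨by omega, ?_⟩, ?_⟩
  · rw [List.drop_append_of_le_length hX0.ge, List.drop_of_length_le hX0.le, List.nil_append,
      List.take_append_of_le_length hX0.ge, List.take_of_length_le hX0.le]
    exact hP'
  · have hRB : D.RB Q := by
      refine ⟨?_, by omega, ?_⟩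
      · rw [hXe] at x1
        exact (H.loc _ _ (by omega)).1 x1
      · intro y hy1 hy2 hy3
        by_contra hlt
        push Not at hlt
        -- the wall at `|P| + y` of `X`
        have hw : D.Wo (X.take (D.p0 + P'.length + y)) := by
          have e0 : X.take (D.p0 + P'.length + y) = (X.take D.p0 ++ P') ++ Q.take y := by
            have e1 : X.take (D.p0 + P'.length + y) =
                ((X.take D.p0 ++ P') ++ Q).take (D.p0 + P'.length + y) := by rw [← hXe]
            rw [e1, ← hPl, List.take_append, Nat.add_sub_cancel_left,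
              List.take_of_length_le (by omega)]
          rw [e0]
          exact (H.loc _ (Q.take y) (by rw [List.length_take]; omega)).2 hy3
        refine b2 (D.p0 + P'.length + y - a) (by rw [List.length_drop]; omega) (by omega)
          (by omega) ?_
        have e : X.take (D.p0 + P'.length + y) =
            X.take a ++ (X.drop a).take (D.p0 + P'.length + y - a) := by
          rw [← List.take_add]; congr 1; omega
        rw [e] at hw
        refine (H.loc _ _ ?_).1 hw
        rw [List.length_take, List.length_drop]; omega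
    unfold Dt.rq1
    rw [if_pos hRB]
    exact hQ

theorem Cmp_take (H : Hy D) {a : ℕ} {Q : List α} (ha : a + D.no ≤ D.z) (hW : D.Wo Q)
    (hz : D.z ≤ a + Q.length) : ∃ t ≤ Q.length, D.Cmp a (Q.take t) := by
  classical
  have hex : ∃ t, D.z ≤ a + t ∧ t ≤ Q.length ∧ D.Wo (Q.take t) :=
    ⟨Q.length, hz, le_rfl, by rwa [List.take_length]⟩
  obtain ⟨h1, h2, h3⟩ := Nat.find_spec hex
  refine ⟨Nat.find hex, h2, h3, by rw [List.length_take]; omega, ?_⟩
  intro t ht1 ht2 ht3
  rw [List.length_take] at ht2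
  refine Nat.find_min hex (m := t) (by omega) ⟨ht1, by omega, ?_⟩
  rwa [List.take_take, min_eq_left (by omega)] at ht3

/-- (s2) -/
theorem sound2 (H : Hy D) {v : V} {P Q : List α} {b : V} (hP : D.LP2 v P)
    (hQ : D.rq2 Q = some b)
    (hun : ∀ P' Q' y, Q = P' ++ Q' ++ y → D.NB (P ++ P') → D.LP1 v (P ++ P') →
      D.rq1 Q' = none) :
    ∃ X1 X2, D.XX X1 ∧ D.XX X2 ∧ P ++ Q = X1 ++ X2 ∧ D.T (D.T v X1) X2 = b := by
  classical
  have hz := H.zge
  obtain ⟨k0, hk0, hPl, hlam⟩ := hP
  have hR : D.R2 Q b := by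
    unfold Dt.rq2 at hQ
    split_ifs at hQ with h
    have := h.choose_spec
    rw [Option.some.injEq] at hQ
    rwa [hQ] at this
  obtain ⟨k, hk, Q1, X2, r, rfl, hX2, hCmp, hrho, huni, rfl⟩ := hR
  have hck0 := H.hc k0 hk0
  have hck := H.hc k hk
  -- the true candidate is bad
  have hbad : D.BadAt (D.c k0) (Q1 ++ X2) := by
    have hW : D.Wo (Q1 ++ X2) := (H.loc Q1 X2 (by have := hX2.2.1; omega)).2 hX2.1
    obtain ⟨t, ht, hC⟩ := Cmp_take H (a := D.c k0) (Q := Q1 ++ X2) (by omega) hW
      (by rw [List.length_append]; have := hX2.2.1; omega)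
    refine ⟨t, ht, hC, ?_⟩
    by_contra hnb
    have hXX : D.XX (P ++ (Q1 ++ X2).take t) := XX_of_Cmp H (by omega) (by rw [hPl]; exact hC)
    have hdr : (P ++ (Q1 ++ X2).take t).drop (D.c k0) = (Q1 ++ X2).take t := by
      rw [← hPl, List.drop_left]
    obtain ⟨P1, Q', h1, h2, h3, h4⟩ := complete1 H hXX hck0 (by rw [hdr]; exact hnb) v
    -- `P` is a prefix of `P1`
    have hpre : P <+: P1 := by
      have e1 : P <+: P1 ++ Q' := by rw [← h1]; exact List.prefix_append _ _
      exact List.prefix_of_prefix_length_le e1 (List.prefix_append _ _) (by omega)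
    obtain ⟨P', rfl⟩ := hpre
    have h5 : (Q1 ++ X2).take t = P' ++ Q' := by
      rw [List.append_assoc] at h1
      exact List.append_cancel_left h1
    have h6 := hun P' Q' ((Q1 ++ X2).drop t) (by rw [← h5, List.take_append_drop]) ?_ h3
    · rw [h6] at h4
      simp at h4
    · refine NB_short H _ ?_
      have := H.len1 _ _ h3.2
      rw [List.length_drop] at this
      have := H.nopos
      omega
  have hkk : k0 = k := by
    by_contra hne
    exact huni k0 hk0 hne hbad
  subst hkk
  have hXX : D.XX (P ++ Q1) := XX_of_Cmp H (by omega) (by rw [hPl]; exact hCmp)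
  refine ⟨P ++ Q1, X2, hXX, hX2, by rw [List.append_assoc], ?_⟩
  congr 1
  unfold Dt.T
  have hl : D.p0 ≤ P.length + Q1.length := by
    have := hCmp.2.1
    omega
  have e1 : (P ++ Q1).take D.p0 = P ++ Q1.take (D.p0 - D.c k0) := by
    rw [List.take_append, List.take_of_length_le (by omega), hPl]
  have e2 : (P ++ Q1).drop D.p0 = Q1.drop (D.p0 - D.c k0) := by
    rw [List.drop_append, List.drop_of_length_le (by omega), hPl, List.nil_append]
  have h7 := H.s2 P (Q1.take (D.p0 - D.c k0)) v r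
    (by rw [List.length_take]; omega) hlam hrho
  rw [e1, e2, ← h7]

/-- (cc) -/
theorem cc (H : Hy D) {X1 X2 : List α} (h1 : D.XX X1) (h2 : D.XX X2) (v : V) :
    (∃ P Q, X1 = P ++ Q ∧ D.LP1 v P ∧ D.rq1 Q ≠ none) ∨
    (∃ P Q, X1 ++ X2 = P ++ Q ∧ P.length < X1.length ∧ D.LP2 v P ∧ D.rq2 Q ≠ none) := by
  classical
  right
  have hz := H.zge
  have hno := H.nopos
  have hX1l := h1.2.1
  obtain ⟨G, hG1, hG2⟩ := H.c2 (X1.take D.p0) (by rw [List.length_take]; omega) v
  obtain ⟨B, hB1, hB2⟩ := H.spoil X1 X2 h1 h2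
  obtain ⟨k, hkG, hkB⟩ : ∃ k ∈ G, k ∉ B := by
    by_contra hcon
    push Not at hcon
    have := Finset.card_le_card (s := G) (t := B) (fun k hk => hcon k hk)
    omega
  obtain ⟨hk, hlam, hrho⟩ := hG2 k hkG
  have hck := H.hc k hk
  have hnsp : ∀ k' < D.K, k' ≠ k → ¬ D.BadAt (D.c k') ((X1 ++ X2).drop (D.c k)) := by
    intro k' hk' hne hb
    exact hkB (hB2 k hk ⟨k', hk', hne, hb⟩)
  have htk : (X1.take (D.c k)).length = D.c k := by rw [List.length_take]; omega
  refine ⟨X1.take (D.c k), X1.drop (D.c k) ++ X2, ?_, by omega, ⟨k, hk, htk, ?_⟩, ?_⟩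
  · rw [← List.append_assoc, List.take_append_drop]
  · rw [List.take_take, min_eq_left hck] at hlam
    exact hlam
  · obtain ⟨r, hr⟩ := Option.isSome_iff_exists.1 hrho
    have hR : ∃ b, D.R2 (X1.drop (D.c k) ++ X2) b := by
      refine ⟨_, k, hk, X1.drop (D.c k), X2, r, rfl, h2, ?_, ?_, ?_, rfl⟩
      · have := Cmp_of_XX H (P := X1.take (D.c k)) (Q := X1.drop (D.c k)) (by omega)
          (by rw [List.take_append_drop]; exact h1)
        rwa [htk] at this
      · rw [← hr]
        congr 1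
        rw [List.drop_take]
      · intro k' hk' hne
        have := hnsp k' hk' hne
        rwa [List.drop_append_of_le_length (by omega)] at this
    unfold Dt.rq2
    rw [dif_pos hR]
    simp

/-- (h3) for scheme 1 -/
theorem fin1 [Finite α] (H : Hy D) (v : V) : {P | D.LP1 v P}.Finite := by
  refine (List.finite_length_le α (D.p0 + D.N1)).subset ?_
  intro P hP
  have := H.len1 _ _ hP.2
  rw [List.length_drop] at this
  change P.length ≤ _
  omega

/-- (h3) for scheme 2 -/
theorem fin2 [Finite α] (H : Hy D) (v : V) : {P | D.LP2 v P}.Finite := by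
  refine (List.finite_length_le α D.p0).subset ?_
  rintro P ⟨k, hk, h1, -⟩
  have := H.hc k hk
  change P.length ≤ _
  omega

theorem LP1_NB (H : Hy D) {v : V} {P : List α} (h : D.LP1 v P) : D.NB P := by
  refine NB_short H P ?_
  have := H.len1 _ _ h.2
  rw [List.length_drop] at this
  have := H.zge
  have := H.nopos
  omega

theorem LP2_NB (H : Hy D) {v : V} {P : List α} (h : D.LP2 v P) : D.NB P := by
  obtain ⟨k, hk, h1, -⟩ := h
  have := H.hc k hk
  have := H.zge
  have := H.nopos
  exact NB_short H P (by omega)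

theorem rq1_nil (H : Hy D) : D.rq1 [] = none := by
  classical
  unfold Dt.rq1
  rw [if_neg]
  rintro ⟨-, h, -⟩
  have := H.zge
  have := H.nopos
  simp at h
  omega

theorem rq2_nil (H : Hy D) : D.rq2 [] = none := by
  classical
  unfold Dt.rq2
  rw [dif_neg]
  rintro ⟨b, k, hk, Q1, X2, r, h, hX2, -⟩
  have h1 := hX2.2.1
  have h2 : X2 = [] := by
    have := congrArg List.length h
    rw [List.length_append, List.length_nil] at this
    exact List.length_eq_zero_iff.1 (by omega)
  rw [h2] at h1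
  have := H.zge
  have := H.nopos
  simp at h1
  omega

end Crest.Agent.R320.Sch2_420
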