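import Crest.Agent.R320.Asm_505
import Crest.Agent.R320.Exact_808

/-!
# Row 320: scheme 2 (promise ruler) on single zones (helper423)

Zones `z = X ++ Y`, `|X| = p0 = B m`, `Y ∈ UT` (prefix code); bad zones: `Y ∈ BT ⊆ UT`.
`Cand x q`: the right word `q`, read at clock `x`, may belong to a bad zone.
From 808's exact gadget (ruler form) and one arithmetic hypothesis (`spoil`: every name has an
unspoiled copy) we get a `Level` in the sense of `Asm_505`.
-/

set_option autoImplicit false

namespace Crest.Agent.R320.Sch2_423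

open Crest.Agent.R320.Asm_505

universe u v w

variable {α : Type u}

/-- the tail code -/
structure TCode (UT : Set (List α)) : Prop where
  ne : [] ∉ UT
  pc : ∀ y ∈ UT, ∀ y' ∈ UT, y <+: y' → y = y'

/-- zones with head length `p0` and tail in `T` -/
def Zn (p0 : ℕ) (T : Set (List α)) : Language α := {z | p0 ≤ z.length ∧ z.drop p0 ∈ T}

/-- `q` read at clock `x` may be the rest of a bad zone -/
def Cand (p0 : ℕ) (UT BT : Set (List α)) (x : ℕ) (q : List α) : Prop :=
  (∃ y ∈ BT, y <+: q.drop (p0 - x)) ∨ ∀ y ∈ UT, ¬ y <+: q.drop (p0 - x)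

theorem Zn_pc {p0 : ℕ} {UT : Set (List α)} (h : TCode UT) : PC (Zn p0 UT) := by
  refine ⟨?_, ?_⟩
  · rintro ⟨_, h2⟩
    rw [List.drop_nil] at h2
    exact h.ne h2
  · rintro z ⟨h1, h2⟩ z' ⟨h1', h2'⟩ hp
    obtain ⟨t, rfl⟩ := hp
    have h3 : z.drop p0 = (z ++ t).drop p0 := by
      refine h.pc _ h2 _ h2' ?_
      rw [List.drop_append_of_le_length h1]
      exact List.prefix_append _ _
    rw [List.drop_append_of_le_length h1] at h3
    have : t = [] := by
      have := congrArg List.length h3
      rw [List.length_append] at this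
      exact List.length_eq_zero_iff.1 (by omega)
    rw [this, List.append_nil]

theorem Zn_mono {p0 : ℕ} {UT BT : Set (List α)} (h : BT ⊆ UT) : ∀ z ∈ Zn p0 BT, z ∈ Zn p0 UT :=
  fun _ hz => ⟨hz.1, h hz.2⟩

/-- **Scheme 2 on single zones.** -/
theorem scheme2 (S : Type v) (V : Type w) [Monoid S] [Finite S] [AddCommGroup V] [Finite V] :
    ∃ m k : ℕ, ∀ (α : Type u) (φ : List α → S), (∀ u v, φ (u ++ v) = φ u * φ v) →
      ∀ (Bd : ℕ → ℕ) (ctx : ℕ → Option (ℕ × Fin k)), Monotone Bd → Bd 0 = 0 →
      (∀ x i c, ctx x = some (i, c) → i < m ∧ Bd i ≤ x ∧ x ≤ Bd (i + 1)) → ctx 0 = none →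
      ∀ (UT BT : Set (List α)), TCode UT → BT ⊆ UT →
      ∀ (bet : List α → V → S → V),
      (∀ z ∈ Zn (Bd m) BT, ∀ i < m, ∀ c : Fin k, ∃ x, ctx x = some (i, c) ∧
        ∀ x', ctx x' ≠ none → Cand (Bd m) UT BT x' (z.drop x) → x' = x) →
      ∃ (nu : List α → List α → V) (P R : V → Language α),
        Level (Zn (Bd m) BT) 0 (fun z v => bet (z.drop (Bd m)) v (φ (z.take (Bd m)))
          + nu (z.drop (Bd m)) (z.take (Bd m))) P R ∧
        (∀ v, ∀ p ∈ P v, ∃ x, ctx x ≠ none ∧ p.length = x) ∧
        (∃ rho : List α → List α → Option V, ∀ v q, q ∈ R v ↔ ∃ x, ctx x ≠ none ∧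
          Cand (Bd m) UT BT x q ∧ (∀ x', ctx x' ≠ none → Cand (Bd m) UT BT x' q → x' = x) ∧
          q.drop (Bd m - x) ∈ BT ∧
          rho (q.drop (Bd m - x)) (q.take (Bd m - x)) = some v) := by
  obtain ⟨m, k, hg⟩ := Crest.Agent.R320.Exact808.exact_gadget.{v, w, u} S V
  refine ⟨m, k, ?_⟩
  intro α φ hφ Bd ctx hBd hB0 hctx hctx0 UT BT hUT hBU bet spoil
  obtain ⟨lam, hlam⟩ := hg α φ hφ Bd ctx hBd hB0 hctx
  choose rho nu hs hc using fun y : List α => hlam (bet y)
  have hle : ∀ x, ctx x ≠ none → x ≤ Bd m := by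
    intro x hx
    obtain ⟨⟨i, c⟩, hic⟩ := Option.ne_none_iff_exists'.1 hx
    obtain ⟨h1, _, h3⟩ := hctx x i c hic
    exact h3.trans (hBd h1)
  refine ⟨nu, fun v => {p | ∃ x, ctx x ≠ none ∧ p.length = x ∧ lam p = some v},
    fun v => {q | ∃ x, ctx x ≠ none ∧
          Cand (Bd m) UT BT x q ∧ (∀ x', ctx x' ≠ none → Cand (Bd m) UT BT x' q → x' = x) ∧
          q.drop (Bd m - x) ∈ BT ∧
          rho (q.drop (Bd m - x)) (q.take (Bd m - x)) = some v}, ⟨?_, ?_, ?_⟩, ?_,
    ⟨rho, fun v q => Iff.rfl⟩⟩
  · rintro v ⟨x, hx, hx0, _⟩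
    have : x = 0 := by simpa using hx0.symm
    exact hx (this ▸ hctx0)
  · rintro z ⟨hz1, hz2⟩ v y p ⟨x, hx, hpx, hp⟩ q ⟨x', hx', hC, huniq, hqB, hq⟩ hcmp
    have hxm := hle x hx
    have hxm' := hle x' hx'
    have hqlen : Bd m - x' < q.length := by
      by_contra hcon
      rw [List.drop_eq_nil_of_le (by omega)] at hqB
      exact hUT.ne (hBU hqB)
    -- `p` is a prefix of `z`
    have hpz : z = p ++ z.drop x := by
      have h1 : p = z.take x := by
        rcases hcmp with h | h
        · obtain ⟨t, ht⟩ := h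
          have h2 : (z ++ t).take x = (p ++ q).take x := by rw [ht]
          rw [List.take_append_of_le_length (by omega), List.take_append_of_le_length (by omega),
            List.take_of_length_le (l := p) (by omega)] at h2
          exact h2.symm
        · obtain ⟨t, ht⟩ := h
          rw [← ht, List.append_assoc, List.take_append_of_le_length (by omega),
            List.take_of_length_le (l := p) (by omega)]
      rw [h1, List.take_append_drop]
    set q0 := z.drop x with hq0
    have hcmp' : q0 <+: q ∨ q <+: q0 := by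
      rcases hcmp with h | h
      · left
        rw [hpz] at h
        exact (List.prefix_append_right_inj p).1 h
      · right
        rw [hpz] at h
        exact (List.prefix_append_right_inj p).1 h
    have hq0d : q0.drop (Bd m - x) = z.drop (Bd m) := by
      rw [hq0, List.drop_drop]
      congr 1
      omega
    have hcomp : ∀ n, q0.drop n <+: q.drop n ∨ q.drop n <+: q0.drop n := by
      intro n
      rcases hcmp' with h | h
      · left; exact h.drop n
      · right; exact h.drop n
    -- the true clock is a candidate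
    have hcand : Cand (Bd m) UT BT x q := by
      rcases hcomp (Bd m - x) with h | h
      · left
        exact ⟨_, hz2, hq0d ▸ h⟩
      · by_cases hex : ∃ y ∈ UT, y <+: q.drop (Bd m - x)
        · obtain ⟨y', hy', hpre⟩ := hex
          left
          have h1 : y' <+: z.drop (Bd m) := by
            rw [← hq0d]; exact hpre.trans h
          have h2 := hUT.pc y' hy' _ (hBU hz2) h1
          exact ⟨y', h2 ▸ hz2, hpre⟩
        · right
          intro y' hy' hpre
          exact hex ⟨y', hy', hpre⟩
    have hxx : x = x' := huniq x hx hcand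
    subst hxx
    have hdd : q.drop (Bd m - x) = z.drop (Bd m) := by
      rcases hcomp (Bd m - x) with h | h
      · rw [hq0d] at h
        exact (hUT.pc _ (hBU hz2) _ (hBU hqB) h).symm
      · rw [hq0d] at h
        exact hUT.pc _ (hBU hqB) _ (hBU hz2) h
    have hq0len : q0.length = z.length - x := by rw [hq0, List.length_drop]
    have htt : q.take (Bd m - x) = q0.take (Bd m - x) := by
      rcases hcmp' with h | h
      · obtain ⟨t, ht⟩ := h
        rw [← ht, List.take_append_of_le_length (by omega)]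
      · obtain ⟨t, ht⟩ := h
        rw [← ht, List.take_append_of_le_length (by omega)]
    have hqq : q = q0 := by
      rw [← List.take_append_drop (Bd m - x) q, ← List.take_append_drop (Bd m - x) q0, htt, hdd,
        hq0d]
    refine ⟨by rw [hqq]; exact hpz, ?_⟩
    have hpt : z.take (Bd m) = p ++ q.take (Bd m - x) := by
      conv_lhs => rw [hpz]
      rw [List.take_append, hqq, List.take_of_length_le (l := p) (by omega), hpx]
    change bet (z.drop (Bd m)) v (φ (z.take (Bd m))) + nu (z.drop (Bd m)) (z.take (Bd m)) = y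
    rw [hpt, ← hdd]
    refine (hs (q.drop (Bd m - x)) p (q.take (Bd m - x)) v y ?_ hp hq).symm
    rw [List.length_take]
    omega
  · rintro z hz - v
    have hz' := hz
    obtain ⟨hz1, hz2⟩ := hz'
    obtain ⟨i, him, c, hall⟩ := hc (z.drop (Bd m)) (z.take (Bd m)) v
      (by rw [List.length_take]; omega)
    obtain ⟨x, hxc, hun⟩ := spoil z hz i him c
    obtain ⟨h1, h2⟩ := hall x hxc
    obtain ⟨b, hb⟩ := Option.isSome_iff_exists.1 h2
    have hxne : ctx x ≠ none := by rw [hxc]; simp
    have hxm := hle x hxne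
    have hp : (z.take (Bd m)).take x = z.take x := by
      rw [List.take_take, Nat.min_eq_left hxm]
    have hq : (z.drop x).take (Bd m - x) = (z.take (Bd m)).drop x := by
      rw [List.drop_take]
    have hd : (z.drop x).drop (Bd m - x) = z.drop (Bd m) := by
      rw [List.drop_drop]; congr 1; omega
    have hsd : b = bet (z.drop (Bd m)) v (φ (z.take (Bd m))) +
        nu (z.drop (Bd m)) (z.take (Bd m)) := by
      have h3 := hs (z.drop (Bd m)) ((z.take (Bd m)).take x) ((z.take (Bd m)).drop x) v b
        (by rw [List.length_take, List.length_drop, List.length_take]; omega) h1 hb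
      rwa [List.take_append_drop] at h3
    refine ⟨z.take x, ⟨x, hxne, by rw [List.length_take]; omega, by rw [← hp]; exact h1⟩,
      z.drop x, ⟨x, hxne, ?_, fun x' hx' hC => hun x' hx' hC, by rw [hd]; exact hz2, ?_⟩,
      (List.take_append_drop x z).symm⟩
    · left
      exact ⟨_, hz2, by rw [hd]⟩
    · rw [hd, hq, hb, hsd]
  · rintro v p ⟨x, hx, hpx, _⟩
    exact ⟨x, hx, hpx⟩

end Crest.Agent.R320.Sch2_423
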