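import Crest.Agent.R320.Half1Def_961
import Crest.Agent.R320.Exact_808

/-!
Row 320, scheme 2 of 132 #12664 (promise ruler + exact gadget) in the interface of `Half1Def_961`:
from insensitivity of `nx`, `Bad` in the first `p0` letters, dependence of the zone map on the first
`p0` letters only through `φ`, and thinness of the bad places, get `Exact` and `Complete`.
-/

set_option autoImplicit false

namespace Crest.Agent.R320.Sch2_455

open Crest.Agent.R320.Half1_961 Crest.Agent.R320.Exact808

variable {α : Type*}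

/-- the place `x` is a possible place of a bad zone, seen from the right text `U`. -/
def Pos (Bad : List α → Prop) {k : ℕ} (ctx : ℕ → Option (ℕ × Fin k)) (lo p0 : ℕ) (U : List α)
    (x : ℕ) : Prop :=
  (ctx x).isSome ∧ lo ≤ x ∧ x ≤ p0 ∧ ∃ P' : List α, P'.length = x ∧ Bad (P' ++ U)

theorem scheme2 (S V1 : Type*) [Monoid S] [Finite S] [Finite V1] :
    ∃ m k : ℕ, ∀ (α : Type*) (φ : List α → S), (∀ u v, φ (u ++ v) = φ u * φ v) →
      ∀ (c : Chain α) (T : List α → V1 → V1) (RF Bad : List α → Prop) (B : ℕ → ℕ)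
        (ctx : ℕ → Option (ℕ × Fin k)) (p0 L D2 : ℕ),
      Monotone B → B 0 = 0 → B m = p0 →
      (∀ x i cc, ctx x = some (i, cc) → i < m ∧ B i ≤ x ∧ x ≤ B (i + 1)) →
      (∀ Q d, c.nx Q = some d → p0 < d) →
      (∀ P P' U, P.length = P'.length → P.length ≤ p0 → c.nx (P ++ U) = c.nx (P' ++ U)) →
      (∀ P P' U, P.length = P'.length → P.length ≤ p0 → (Bad (P ++ U) ↔ Bad (P' ++ U))) →
      (∀ X X' Y : List α, X.length = p0 → X'.length = p0 → φ X = φ X' →
        T (X ++ Y) = T (X' ++ Y)) →
      (∀ Q Q' : List α, L ≤ Q.length → (Bad (Q ++ Q') ↔ Bad Q)) → L ≤ D2 →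
      (∀ Q, RF Q → D2 + p0 ≤ Q.length → Bad Q → ∃ d, c.nx Q = some d ∧ d + c.n ≤ D2) →
      (∀ Q, RF Q → D2 + p0 ≤ Q.length → Bad Q → ∀ i < m, ∀ cc : Fin k, ∃ x,
        ctx x = some (i, cc) ∧ c.n ≤ x ∧ x ≤ p0 ∧
        ∀ x', Pos Bad ctx c.n p0 ((Q.drop x).take D2) x' → x' = x) →
      ∃ (ν2 : List α → V1 → ZMod 2) (al2 : List α → Option (V1 → ZMod 2))
        (rl2 : List α → Option (ℕ × (V1 → ZMod 2))),
        Exact c (T2 T ν2) al2 D2 rl2 (fun P U => RF (P ++ U) ∧ P.length ≤ p0 ∧ Bad (P ++ U)) ∧
        Complete c al2 D2 rl2 c.n p0 (fun Q => RF Q ∧ D2 + p0 ≤ Q.length ∧ Bad Q) := by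
  classical
  obtain ⟨m, k, hG⟩ := exact_gadget S (V1 → ZMod 2)
  refine ⟨m, k, ?_⟩
  intro α φ hφ c T RF Bad B ctx p0 L D2 hB hB0 hBm hctx hfar hnx hBd hT hloc hLD hvis hthin
  obtain ⟨lam, hlam⟩ := hG α φ hφ B ctx hB hB0 hctx
  -- action on the hole content, given the rest of the zone
  let act : List α → (V1 → ZMod 2) → S → (V1 → ZMod 2) := fun Y v s =>
    if h : ∃ X : List α, X.length = p0 ∧ φ X = s then push (T (h.choose ++ Y)) v else v
  have hact : ∀ (X Y : List α) (v : V1 → ZMod 2), X.length = p0 →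
      act Y v (φ X) = push (T (X ++ Y)) v := by
    intro X Y v hX
    have h : ∃ X' : List α, X'.length = p0 ∧ φ X' = φ X := ⟨X, hX, rfl⟩
    simp only [act, dif_pos h]
    rw [hT _ X Y h.choose_spec.1 hX h.choose_spec.2]
  choose rho nu hs hc using fun Y : List α => hlam (act Y)
  let al2 : List α → Option (V1 → ZMod 2) := fun P =>
    if (ctx P.length).isSome ∧ c.n ≤ P.length ∧ P.length ≤ p0 then lam P else none
  let rl2 : List α → Option (ℕ × (V1 → ZMod 2)) := fun U =>
    if h : ∃ x, Pos Bad ctx c.n p0 U x ∧ ∀ x', Pos Bad ctx c.n p0 U x' → x' = x then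
      (c.nx (h.choose_spec.1.2.2.2.choose ++ U)).bind fun d =>
        (rho ((U.take (d - h.choose)).drop (p0 - h.choose)) (U.take (p0 - h.choose))).bind
          fun b => some (d - h.choose, b)
    else none
  -- unfolding of `rl2`
  have hrl : ∀ (P U : List α), Pos Bad ctx c.n p0 U P.length →
      (∀ x', Pos Bad ctx c.n p0 U x' → x' = P.length) →
      rl2 U = (c.nx (P ++ U)).bind fun d =>
        (rho ((U.take (d - P.length)).drop (p0 - P.length)) (U.take (p0 - P.length))).bind
          fun b => some (d - P.length, b) := by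
    intro P U h1 h2
    have h : ∃ x, Pos Bad ctx c.n p0 U x ∧ ∀ x', Pos Bad ctx c.n p0 U x' → x' = x :=
      ⟨P.length, h1, h2⟩
    have hx : h.choose = P.length := h2 _ h.choose_spec.1
    have hl := h.choose_spec.1.2.2.2.choose_spec.1
    have hn : c.nx (h.choose_spec.1.2.2.2.choose ++ U) = c.nx (P ++ U) := by
      refine hnx _ _ _ (hl.trans hx) ?_
      rw [hl, hx]; exact h1.2.2.1
    simp only [rl2, dif_pos h]
    rw [hn, hx]
  refine ⟨fun Z => nu (Z.drop p0) (Z.take p0), al2, rl2, ?_, ?_⟩
  · -- exactness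
    rintro P U v b R hU hP ⟨hRF, hPp, hBad⟩ hal hrlU
    have hal' : ((ctx P.length).isSome ∧ c.n ≤ P.length ∧ P.length ≤ p0) ∧ lam P = some v := by
      by_cases h : (ctx P.length).isSome ∧ c.n ≤ P.length ∧ P.length ≤ p0
      · refine ⟨h, ?_⟩
        simpa only [al2, if_pos h] using hal
      · simp only [al2, if_neg h] at hal
        exact (Option.some_ne_none _ hal.symm).elim
    obtain ⟨⟨hc1, hc2, hc3⟩, hlamP⟩ := hal'
    have hpos : Pos Bad ctx c.n p0 U P.length := ⟨hc1, hc2, hc3, P, rfl, hBad⟩
    have huniq : ∀ x', Pos Bad ctx c.n p0 U x' → x' = P.length := by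
      by_cases h : ∃ x, Pos Bad ctx c.n p0 U x ∧ ∀ x', Pos Bad ctx c.n p0 U x' → x' = x
      · obtain ⟨x, hx1, hx2⟩ := h
        intro x' hx'
        rw [hx2 _ hx', hx2 _ hpos]
      · simp only [rl2, dif_neg h] at hrlU
        exact (Option.some_ne_none _ hrlU.symm).elim
    rw [hrl P U hpos huniq] at hrlU
    obtain ⟨d, hd, hrlU⟩ := Option.bind_eq_some_iff.1 hrlU
    obtain ⟨b', hb', hrlU⟩ := Option.bind_eq_some_iff.1 hrlU
    have hbR : d - P.length = b ∧ b' = R := by
      have := Option.some.inj hrlU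
      exact ⟨congrArg Prod.fst this, congrArg Prod.snd this⟩
    obtain ⟨rfl, rfl⟩ := hbR
    have hfd := hfar _ _ hd
    have hvd := (c.vis _ _ hd).2
    rw [List.length_append] at hvd
    refine ⟨by rw [hd]; congr 1; omega, ?_⟩
    have hq : (U.take (p0 - P.length)).length = p0 - P.length := by
      rw [List.length_take]; omega
    have h := hs ((U.take (d - P.length)).drop (p0 - P.length)) P (U.take (p0 - P.length)) v b'
      (by rw [hBm, hq]; omega) hlamP hb'
    have hXlen : (P ++ U.take (p0 - P.length)).length = p0 := by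
      rw [List.length_append, hq]; omega
    rw [hact _ _ _ hXlen] at h
    have hZt : (P ++ U.take (d - P.length)).take p0 = P ++ U.take (p0 - P.length) := by
      rw [List.take_append, List.take_of_length_le hPp, List.take_take]
      congr 2
      omega
    have hZd : (P ++ U.take (d - P.length)).drop p0 =
        (U.take (d - P.length)).drop (p0 - P.length) := by
      rw [List.drop_append, List.drop_eq_nil_of_le hPp, List.nil_append]
    have hZ : (P ++ U.take (p0 - P.length)) ++ (U.take (d - P.length)).drop (p0 - P.length) =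
        P ++ U.take (d - P.length) := by
      rw [← hZt, ← hZd, List.take_append_drop]
    rw [hZ] at h
    change push (T (P ++ U.take (d - P.length))) v +
      nu ((P ++ U.take (d - P.length)).drop p0) ((P ++ U.take (d - P.length)).take p0) = b'
    rw [hZt, hZd, h]
  · -- completeness
    rintro Q ⟨hRF, hlen, hBad⟩ v
    obtain ⟨d, hd, hdD⟩ := hvis Q hRF hlen hBad
    have hfd := hfar _ _ hd
    have hvd := (c.vis _ _ hd).2
    have hul : (Q.take p0).length = B m := by rw [List.length_take, hBm]; omega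
    obtain ⟨i, him, cc, hx⟩ := hc ((Q.take d).drop p0) (Q.take p0) v hul
    obtain ⟨x, hx1, hx2, hx3, hx4⟩ := hthin Q hRF hlen hBad i him cc
    obtain ⟨hl1, hl2⟩ := hx x hx1
    have hPl : (Q.take x).length = x := by rw [List.length_take]; omega
    have hUl : ((Q.drop x).take D2).length = D2 := by
      rw [List.length_take, List.length_drop]; omega
    have hPU : Q.take x ++ (Q.drop x).take D2 = Q.take (x + D2) := by
      rw [List.take_add]
    have hBadU : Bad (Q.take x ++ (Q.drop x).take D2) := by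
      have h := hloc (Q.take (x + D2)) (Q.drop (x + D2)) (by rw [List.length_take]; omega)
      rw [List.take_append_drop] at h
      rw [hPU]; exact h.1 hBad
    have hpos : Pos Bad ctx c.n p0 ((Q.drop x).take D2) x :=
      ⟨by rw [hx1]; rfl, hx2, hx3, Q.take x, hPl, hBadU⟩
    refine ⟨Q.take x, (Q.drop x).take D2, (Q.drop x).drop D2, ?_, hUl, by rw [hPl]; exact hx2,
      by rw [hPl]; exact hx3, ?_, ?_, ?_⟩
    · rw [List.take_append_drop, List.take_append_drop]
    · by_contra hne
      obtain ⟨d', hd'⟩ := Option.ne_none_iff_exists'.1 hne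
      have h1 := hfar _ _ hd'
      have h2 := (c.vis _ _ hd').2
      rw [hPl] at h2
      omega
    · have h : (ctx (Q.take x).length).isSome ∧ c.n ≤ (Q.take x).length ∧
          (Q.take x).length ≤ p0 := by
        rw [hPl]; exact ⟨by rw [hx1]; rfl, hx2, hx3⟩
      simp only [al2, if_pos h]
      rw [List.take_take, Nat.min_eq_left hx3] at hl1
      exact hl1
    · have hrl' := hrl (Q.take x) ((Q.drop x).take D2) (by rw [hPl]; exact hpos)
        (by rw [hPl]; exact hx4)
      rw [hrl', hPU, hPl]
      have hnxU : c.nx (Q.take (x + D2)) = some d := by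
        refine c.tight (Q.take (x + D2)) (Q.drop (x + D2)) d ?_ ?_
        · rw [List.take_append_drop]; exact hd
        · rw [List.length_take]; omega
      rw [hnxU, Option.bind_some]
      have hq1 : ((Q.drop x).take D2).take (p0 - x) = (Q.take p0).drop x := by
        rw [List.take_take, List.drop_take]
        congr 1
        omega
      have hq2 : (((Q.drop x).take D2).take (d - x)).drop (p0 - x) = (Q.take d).drop p0 := by
        rw [List.take_take, Nat.min_eq_left (by omega), ← List.drop_take, List.drop_drop]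
        congr 1
        omega
      rw [hq1, hq2]
      obtain ⟨r, hr⟩ := Option.isSome_iff_exists.1 hl2
      rw [hr]
      rfl

end Crest.Agent.R320.Sch2_455
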