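import Crest.Agent.R320.Half1Def_961
import Crest.Agent.R320.Noise_513

/-!
# Row 320: scheme 2 (promise scheme) complete, generic in the ruler count (helper620)

Interface of `Half1_961`: `Exact` and `Complete` for the second scheme, from a ruler `C` of `N` places
in the window `[n, q1]` such that every bad zone spoils at most `K` places.
-/

set_option autoImplicit false

namespace Crest.Agent.R320.Sch2_620

open Crest.Agent.R320.Half1_961

/-! ### lists -/

section Lists
variable {α : Type*}

/-- factor `[a, b)` -/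
def seg (X : List α) (a b : ℕ) : List α := (X.drop a).take (b - a)

theorem take_split (X : List α) {a b : ℕ} (h : a ≤ b) : X.take b = X.take a ++ seg X a b := by
  have h1 := (List.take_append_drop a (X.take b)).symm
  rw [List.take_take, List.drop_take, min_eq_left h] at h1
  exact h1

theorem seg_split (X : List α) {a b c : ℕ} (h : a ≤ b) (h' : b ≤ c) :
    seg X a c = seg X a b ++ seg X b c := by
  unfold seg
  have h1 := take_split (X.drop a) (a := b - a) (b := c - a) (by omega)
  rw [h1]
  unfold seg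
  rw [List.drop_drop]
  congr 2
  · omega
  · congr 1; omega

theorem seg_take (X : List α) {a b t : ℕ} (h : b ≤ t) : seg (X.take t) a b = seg X a b := by
  unfold seg
  rw [List.drop_take, List.take_take]
  congr 1; omega

theorem seg_left (P U : List α) {a b : ℕ} (hb : b ≤ P.length) (hab : a ≤ b) :
    seg (P ++ U) a b = seg P a b := by
  unfold seg
  rw [List.drop_append_of_le_length (by omega), List.take_append_of_le_length]
  rw [List.length_drop]; omega

theorem seg_right (P U : List α) {a b c : ℕ} (hc : P.length = c) (ha : c ≤ a) :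
    seg (P ++ U) a b = seg U (a - c) (b - c) := by
  unfold seg
  rw [List.drop_append, List.drop_eq_nil_of_le (by omega), List.nil_append, hc]
  congr 1; omega

end Lists

/-! ### the monoid -/

/-- self-maps of `S ⊕ (V → V)`, product = "first left, then right" -/
def Gam (S V : Type) : Type := (S ⊕ (V → V)) → (S ⊕ (V → V))

instance (S V : Type) : Monoid (Gam S V) where
  mul f g := fun x => g (f x)
  one := fun x => x
  mul_assoc := fun _ _ _ => rfl
  one_mul := fun _ => rfl
  mul_one := fun _ => rfl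

instance (S V : Type) [Finite S] [Finite V] : Finite (Gam S V) :=
  inferInstanceAs (Finite ((S ⊕ (V → V)) → (S ⊕ (V → V))))

/-- right multiplication by `s` -/
def rho {S V : Type} [Monoid S] (s : S) : Gam S V := fun x =>
  match x with
  | Sum.inl x => Sum.inl (x * s)
  | Sum.inr f => Sum.inr f

/-- final map -/
def kap {S V : Type} (h : S → V → V) : Gam S V := fun x =>
  match x with
  | Sum.inl x => Sum.inr (h x)
  | Sum.inr f => Sum.inr f

/-- value -/
def out {S V : Type} [Monoid S] (g : Gam S V) : V → V :=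
  match g (Sum.inl 1) with
  | Sum.inl _ => id
  | Sum.inr f => f

theorem rho_mul {S V : Type} [Monoid S] (s t : S) :
    (rho (s * t) : Gam S V) = rho s * rho t := by
  funext x
  rcases x with x | f
  · show (Sum.inl (x * (s * t)) : S ⊕ (V → V)) = Sum.inl (x * s * t)
    rw [mul_assoc]
  · rfl

theorem out_rho_kap {S V : Type} [Monoid S] (s : S) (h : S → V → V) :
    out (rho s * kap h) = h s := by
  show h (1 * s) = h s
  rw [one_mul]

theorem sum_split {W : Type*} [AddCommGroup W] {m : ℕ} (f : Fin m → W) (i : Fin m) :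
    ∑ k, f k = (∑ k, if k < i then f k else 0) + f i + ∑ k, if i < k then f k else 0 := by
  classical
  have h1 : f i = ∑ k, if k = i then f k else 0 := by simp
  rw [h1, ← Finset.sum_add_distrib, ← Finset.sum_add_distrib]
  refine Finset.sum_congr rfl fun k _ => ?_
  rcases lt_trichotomy k i with h | h | h
  · simp [h, ne_of_lt h, not_lt_of_gt h]
  · simp [h]
  · simp [h, ne_of_gt h, not_lt_of_gt h]

theorem key1 {α : Type*} {S V : Type} [Monoid S] (φ : List α → S)
    (hφ : ∀ u v, φ (u ++ v) = φ u * φ v) (θ : List α → S → V → V) (P U : List α)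
    (cj a b q1 t : ℕ) (hP : P.length = cj) (h1 : a ≤ cj) (h2 : cj < b) (h3 : b ≤ q1)
    (h4 : q1 < t) :
    (rho (φ (((P ++ U).take t).take q1)) * kap (θ (((P ++ U).take t).drop q1)) : Gam S V) =
      rho (φ (P.take a)) * rho (φ (seg (P ++ U) a b)) *
        (rho (φ (seg U (b - cj) (q1 - cj))) * kap (θ ((U.take (t - cj)).drop (q1 - cj)))) := by
  have e1 : ((P ++ U).take t).take q1 = P.take a ++ seg (P ++ U) a b ++
      seg U (b - cj) (q1 - cj) := by
    rw [List.take_take, min_eq_left h4.le, take_split (P ++ U) h3,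
      take_split (P ++ U) (a := a) (b := b) (by omega), seg_right P U hP h2.le,
      List.take_append_of_le_length (by omega)]
  have e2 : ((P ++ U).take t).drop q1 = (U.take (t - cj)).drop (q1 - cj) := by
    rw [List.take_append, List.take_of_length_le (by omega), List.drop_append,
      List.drop_eq_nil_of_le (by omega), List.nil_append, hP]
  rw [e1, e2, hφ, hφ, rho_mul, rho_mul]
  simp only [mul_assoc]

theorem key2 {α : Type*} {W : Type*} [AddCommGroup W] {m : ℕ} (f : Fin m → List α → W)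
    (O : ℕ → ℕ) (hO : Monotone O) (P U : List α) (cj t q1 : ℕ) (i : Fin m)
    (hP : P.length = cj) (h1 : O i ≤ cj) (h2 : cj < O (i + 1)) (h3 : ∀ k : Fin m, O (k + 1) ≤ q1)
    (h4 : q1 < t) :
    ∑ k, f k (seg ((P ++ U).take t) (O k) (O (k + 1))) =
      (∑ k, if k < i then f k (seg P (O k) (O (k + 1))) else 0) +
      f i (seg (P ++ U) (O i) (O (i + 1))) +
      ∑ k, if i < k then f k (seg U (O k - cj) (O (k + 1) - cj)) else 0 := by
  have e0 : ∀ k : Fin m, seg ((P ++ U).take t) (O k) (O (k + 1)) =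
      seg (P ++ U) (O k) (O (k + 1)) := fun k => seg_take _ (le_trans (h3 k) h4.le)
  rw [sum_split _ i]
  congr 1
  · congr 1
    · refine Finset.sum_congr rfl fun k _ => ?_
      split
      · rename_i hk
        have hk' : (k : ℕ) + 1 ≤ (i : ℕ) := hk
        rw [e0, seg_left P U (by rw [hP]; exact le_trans (hO hk') h1) (hO (Nat.le_succ _))]
      · rfl
    · rw [e0]
  · refine Finset.sum_congr rfl fun k _ => ?_
    split
    · rename_i hk
      have hk' : (i : ℕ) + 1 ≤ (k : ℕ) := hk
      rw [e0, seg_right P U hP (le_trans h2.le (hO hk'))]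
    · rfl

/-! ### scheme 2 -/

theorem scheme2 (S V1 V2 : Type) [Monoid S] [Finite S] [Finite V1] [AddCommGroup V2] [Finite V2]
    (act2 : V2 → (V1 → V1) → V2) (K : ℕ) :
    ∃ N : ℕ, ∀ (α : Type) (φ : List α → S) (_ : ∀ u v, φ (u ++ v) = φ u * φ v) (c : Chain α)
      (T : List α → V1 → V1) (θ : List α → S → V1 → V1) (q1 : ℕ)
      (_ : ∀ X0 Y, X0.length = q1 → T (X0 ++ Y) = θ Y (φ X0))
      (Bad RF : List α → Prop) (C : ℕ → ℕ) (B L D2 : ℕ)
      (_ : StrictMono C) (_ : ∀ j ≤ N, c.n ≤ C j) (_ : ∀ j ≤ N, C j ≤ q1)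
      (_ : ∀ Q t, c.nx Q = some t → q1 < t)
      (_ : ∀ X0 X0' Y, X0.length = q1 → X0'.length = q1 → c.nx (X0 ++ Y) = c.nx (X0' ++ Y))
      (_ : ∀ u v, RF (u ++ v) → RF u)
      (_ : ∀ Q, RF Q → B ≤ Q.length → c.nx Q ≠ none)
      (_ : ∀ Q Q', L ≤ Q.length → (Bad (Q ++ Q') ↔ Bad Q))
      (_ : q1 + L + B ≤ D2)
      (_ : ∀ Q, RF Q → D2 + q1 ≤ Q.length → Bad Q →
        {j | j < N ∧ ∃ j' < N, j' ≠ j ∧ ∃ X0 : List α, X0.length = q1 ∧
          Bad (X0 ++ Q.drop (q1 + C j - C j'))}.ncard ≤ K),
      ∃ (ν2 : List α → V2) (al2 : List α → Option V2) (rl2 : List α → Option (ℕ × V2)),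
        Exact c (fun Z v => act2 v (T Z) + ν2 Z) al2 D2 rl2
          (fun P U => P.length ≤ q1 ∧ Bad (P ++ U)) ∧
        Complete c al2 D2 rl2 c.n q1 (fun Q => RF Q ∧ D2 + q1 ≤ Q.length ∧ Bad Q) := by
  classical
  obtain ⟨W, _, _, m, e, F, hF⟩ :=
    Crest.Agent.R320.Noise513.explicit_noise (Gam S V1) V2 (fun v g => act2 v (out g))
  have hfin : Finite (Gam S V1 × W × Gam S V1 × W × V2) := inferInstance
  have : Fintype ((Gam S V1 × W × Gam S V1 × W × V2) × Fin (K + 1)) := Fintype.ofFinite _
  obtain ⟨J, ⟨eqv⟩⟩ : ∃ J : ℕ,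
      Nonempty (((Gam S V1 × W × Gam S V1 × W × V2) × Fin (K + 1)) ≃ Fin J) :=
    ⟨_, ⟨Fintype.equivFin _⟩⟩
  obtain ⟨idx, hidx⟩ : ∃ idx : Fin m → ((Gam S V1 × W × Gam S V1 × W × V2) × Fin (K + 1)) → ℕ,
      ∀ i y, idx i y = (i : ℕ) * J + (eqv y : ℕ) := ⟨_, fun _ _ => rfl⟩
  have idx_lo : ∀ (i : Fin m) y, (i : ℕ) * J ≤ idx i y := fun i y => by rw [hidx]; omega
  have idx_hi : ∀ i y, idx i y < ((i : ℕ) + 1) * J := fun i y => by
    rw [hidx, Nat.add_mul, Nat.one_mul]
    exact Nat.add_lt_add_left (eqv y).isLt _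
  have idx_lt : ∀ i y, idx i y < m * J := fun i y =>
    lt_of_lt_of_le (idx_hi i y) (Nat.mul_le_mul_right _ i.isLt)
  have idx_inj : ∀ i y i' y', idx i y = idx i' y' → i = i' ∧ y = y' := by
    intro i y i' y' h
    have hi : i = i' := by
      rcases lt_trichotomy i i' with hlt | heq | hgt
      · exfalso
        have h1 := idx_hi i y
        have h2 := idx_lo i' y'
        have h3 : ((i : ℕ) + 1) * J ≤ (i' : ℕ) * J := Nat.mul_le_mul_right _ hlt
        omega
      · exact heq
      · exfalso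
        have h1 := idx_hi i' y'
        have h2 := idx_lo i y
        have h3 : ((i' : ℕ) + 1) * J ≤ (i : ℕ) * J := Nat.mul_le_mul_right _ hgt
        omega
    subst hi
    rw [hidx, hidx] at h
    have : (eqv y : ℕ) = (eqv y' : ℕ) := by omega
    exact ⟨rfl, eqv.injective (Fin.ext this)⟩
  refine ⟨m * J, ?_⟩
  intro α φ hφ c T θ q1 hT Bad RF C B L D2 hC hlo hhi hmin hnx hRF hB hloc hD2 hruler
  obtain ⟨O, hOdef⟩ : ∃ O : ℕ → ℕ, ∀ i, O i = C (i * J) := ⟨_, fun _ => rfl⟩
  have hO : Monotone O := fun a b hab => by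
    rw [hOdef, hOdef]; exact hC.monotone (Nat.mul_le_mul_right _ hab)
  have hO1 : ∀ (i : Fin m) y, O i ≤ C (idx i y) := fun i y => by
    rw [hOdef]; exact hC.monotone (idx_lo i y)
  have hO2 : ∀ (i : Fin m) y, C (idx i y) < O (i + 1) := fun i y => by
    rw [hOdef]; exact hC (idx_hi i y)
  have hO3 : ∀ k : Fin m, O (k + 1) ≤ q1 := fun k => by
    rw [hOdef]; exact hhi _ (Nat.mul_le_mul_right _ k.isLt)
  -- left places
  obtain ⟨LeftOK, hLeft⟩ : ∃ p : List α → Fin m →
      ((Gam S V1 × W × Gam S V1 × W × V2) × Fin (K + 1)) → Prop, ∀ P i y, p P i y ↔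
      (P.length = C (idx i y) ∧ rho (φ (P.take (O i))) = y.1.1 ∧
        (∑ k, if k < i then e k (rho (φ (seg P (O k) (O (k + 1))))) else 0) = y.1.2.1) :=
    ⟨_, fun _ _ _ => Iff.rfl⟩
  obtain ⟨RightOK, hRight⟩ : ∃ p : List α → ℕ → V2 → Fin m →
      ((Gam S V1 × W × Gam S V1 × W × V2) × Fin (K + 1)) → Prop, ∀ U b R i y, p U b R i y ↔
      ((∀ j' < m * J, (∃ X0 : List α, X0.length = q1 ∧ Bad (X0 ++ U.drop (q1 - C j'))) →
          j' = idx i y) ∧
        (∃ X0 : List α, X0.length = q1 ∧
          c.nx (X0 ++ U.drop (q1 - C (idx i y))) = some (C (idx i y) + b)) ∧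
        rho (φ (seg U (O (i + 1) - C (idx i y)) (q1 - C (idx i y)))) *
          kap (θ ((U.take b).drop (q1 - C (idx i y)))) = y.1.2.2.1 ∧
        (∑ k, if i < k then e k (rho (φ (seg U (O k - C (idx i y)) (O (k + 1) - C (idx i y)))))
          else 0) = y.1.2.2.2.1 ∧
        ∀ z, F (y.1.1 * z * y.1.2.2.1) (y.1.2.1 + e i z + y.1.2.2.2.1) +
          act2 y.1.2.2.2.2 (out (y.1.1 * z * y.1.2.2.1)) = R) :=
    ⟨_, fun _ _ _ _ _ => Iff.rfl⟩
  obtain ⟨al2, hal⟩ : ∃ al2 : List α → Option V2, (∀ P v, al2 P = some v →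
        ∃ i y, LeftOK P i y ∧ y.1.2.2.2.2 = v) ∧
      (∀ P i y, LeftOK P i y → al2 P = some y.1.2.2.2.2) := by
    refine ⟨fun P => if h : ∃ v, ∃ i y, LeftOK P i y ∧ y.1.2.2.2.2 = v then some h.choose
      else none, ?_, ?_⟩
    · intro P v h
      by_cases hh : ∃ v, ∃ i y, LeftOK P i y ∧ y.1.2.2.2.2 = v
      · simp only [dif_pos hh, Option.some.injEq] at h
        rw [← h]; exact hh.choose_spec
      · simp only [dif_neg hh] at h
        exact absurd h (by simp)
    · intro P i y h
      have hh : ∃ v, ∃ i y, LeftOK P i y ∧ y.1.2.2.2.2 = v := ⟨_, i, y, h, rfl⟩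
      simp only [dif_pos hh, Option.some.injEq]
      obtain ⟨i', y', h1, h2⟩ := hh.choose_spec
      rw [← h2]
      have h3 : C (idx i y) = C (idx i' y') := by
        rw [← ((hLeft _ _ _).1 h).1, ← ((hLeft _ _ _).1 h1).1]
      obtain ⟨_, h5⟩ := idx_inj _ _ _ _ (hC.injective h3)
      rw [h5]
  obtain ⟨rl2, hrl1, hrl2⟩ : ∃ rl2 : List α → Option (ℕ × V2), (∀ U b R, rl2 U = some (b, R) →
        ∃ i y, RightOK U b R i y) ∧
      (∀ U b R i y, RightOK U b R i y → (rl2 U).isSome) := by
    refine ⟨fun U => if h : ∃ bR : ℕ × V2, ∃ i y, RightOK U bR.1 bR.2 i y then some h.choose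
      else none, ?_, ?_⟩
    · intro U b R h
      by_cases hh : ∃ bR : ℕ × V2, ∃ i y, RightOK U bR.1 bR.2 i y
      · simp only [dif_pos hh, Option.some.injEq] at h
        have := hh.choose_spec
        rw [h] at this
        exact this
      · simp only [dif_neg hh] at h
        exact absurd h (by simp)
    · intro U b R i y h
      have hh : ∃ bR : ℕ × V2, ∃ i y, RightOK U bR.1 bR.2 i y := ⟨(b, R), i, y, h⟩
      simp only [dif_pos hh, Option.isSome_some]
  have hTout : ∀ Z : List α, q1 < Z.length →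
      out (rho (φ (Z.take q1)) * kap (θ (Z.drop q1)) : Gam S V1) = T Z := by
    intro Z hZ
    rw [out_rho_kap, ← hT (Z.take q1) (Z.drop q1) (by rw [List.length_take]; omega),
      List.take_append_drop]
  refine ⟨fun Z => F (rho (φ (Z.take q1)) * kap (θ (Z.drop q1)))
    (∑ k, e k (rho (φ (seg Z (O k) (O (k + 1)))))), al2, rl2, ?_, ?_⟩
  · -- exactness
    intro P U v b R hU hnP hG h1 h2
    obtain ⟨hPq, hbad⟩ := hG
    obtain ⟨i, y, hL, hv⟩ := hal.1 P v h1
    obtain ⟨i', y', hR⟩ := hrl1 U b R h2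
    rw [hLeft] at hL
    rw [hRight] at hR
    obtain ⟨hl1, hl2, hl3⟩ := hL
    obtain ⟨hr1, ⟨X0, hX0, hr2⟩, hr3, hr4, hr5⟩ := hR
    have hsplit : ∀ j, j ≤ q1 → P.length = j →
        P ++ U = (P ++ U.take (q1 - j)) ++ U.drop (q1 - j) := by
      intro j _ _
      rw [List.append_assoc, List.take_append_drop]
    have hCq : C (idx i y) ≤ q1 := hhi _ (idx_lt i y).le
    have hj : idx i y = idx i' y' := by
      refine hr1 (idx i y) (idx_lt i y) ⟨P ++ U.take (q1 - C (idx i y)), ?_, ?_⟩
      · rw [List.length_append, List.length_take, hl1]; omega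
      · rw [← hsplit _ hCq hl1]; exact hbad
    obtain ⟨hi, hy⟩ := idx_inj _ _ _ _ hj
    subst hi
    subst hy
    have hnx1 : c.nx (P ++ U) = some (C (idx i y) + b) := by
      rw [hsplit _ hCq hl1, hnx _ X0 _ ?_ hX0]
      · exact hr2
      · rw [List.length_append, List.length_take, hl1]; omega
    have ht : q1 < C (idx i y) + b := hmin _ _ hnx1
    have hvis := (c.vis _ _ hnx1).2
    rw [List.length_append, hl1] at hvis
    refine ⟨by rw [hnx1, hl1], ?_⟩
    have hZ : P ++ U.take b = (P ++ U).take (C (idx i y) + b) := by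
      rw [List.take_append, List.take_of_length_le (l := P) (by omega), hl1]
      congr 2; omega
    have hZl : q1 < (P ++ U.take b).length := by
      rw [List.length_append, List.length_take, hl1]; omega
    have hb : C (idx i y) + b - C (idx i y) = b := by omega
    have k1 := key1 φ hφ θ P U (C (idx i y)) (O i) (O (i + 1)) q1 (C (idx i y) + b) hl1
      (hO1 i y) (hO2 i y) (hO3 i) ht
    have k2 := key2 (fun k X => e k (rho (φ X))) O hO P U (C (idx i y))
      (C (idx i y) + b) q1 i hl1 (hO1 i y) (hO2 i y) hO3 ht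
    rw [hb, ← hZ, hl2, hr3] at k1
    simp only [← hZ] at k2
    rw [hl3, hr4] at k2
    have hT' := hTout _ hZl
    show act2 v (T (P ++ U.take b)) + F _ _ = R
    rw [← hT', k1, k2, ← hv, add_comm]
    exact hr5 _
  · -- completeness
    intro Q hQ v
    obtain ⟨hRFQ, hQl, hbad⟩ := hQ
    -- the next anchor
    obtain ⟨t, ht⟩ : ∃ t, c.nx (Q.take B) = some t := by
      have h1 : RF (Q.take B) := hRF _ (Q.drop B) (by rw [List.take_append_drop]; exact hRFQ)
      have h2 := hB _ h1 (by rw [List.length_take]; omega)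
      exact Option.ne_none_iff_exists'.1 h2
    have htv := (c.vis _ _ ht).2
    rw [List.length_take] at htv
    have htQ : c.nx Q = some t := by
      have := c.ext _ (Q.drop B) _ ht
      rwa [List.take_append_drop] at this
    have hqt : q1 < t := hmin _ _ htQ
    -- the level
    obtain ⟨i, hi⟩ := hF (rho (φ ((Q.take t).take q1)) * kap (θ ((Q.take t).drop q1)))
      (∑ k, e k (rho (φ (seg (Q.take t) (O k) (O (k + 1)))))) v
    -- the segments of the name
    obtain ⟨g, hg⟩ : ∃ g : Gam S V1, g = rho (φ (Q.take (O i))) := ⟨_, rfl⟩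
    obtain ⟨z, hz⟩ : ∃ z : Gam S V1, z = rho (φ (seg Q (O i) (O (i + 1)))) := ⟨_, rfl⟩
    obtain ⟨hh, hhh⟩ : ∃ hh : Gam S V1, hh = rho (φ (seg Q (O (i + 1)) q1)) *
        kap (θ ((Q.take t).drop q1)) := ⟨_, rfl⟩
    obtain ⟨wl, hwl⟩ : ∃ wl : W, wl = ∑ k, if k < i then e k (rho (φ (seg Q (O k) (O (k + 1)))))
        else 0 := ⟨_, rfl⟩
    obtain ⟨wr, hwr⟩ : ∃ wr : W, wr = ∑ k, if i < k then e k (rho (φ (seg Q (O k) (O (k + 1)))))
        else 0 := ⟨_, rfl⟩
    -- an unspoiled copy
    obtain ⟨κ, hκ⟩ : ∃ κ : Fin (K + 1), ∀ j' < m * J, j' ≠ idx i ((g, wl, hh, wr, v), κ) →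
        ¬ ∃ X0 : List α, X0.length = q1 ∧
          Bad (X0 ++ Q.drop (q1 + C (idx i ((g, wl, hh, wr, v), κ)) - C j')) := by
      by_contra hcon
      push Not at hcon
      have hsub : Set.range (fun κ : Fin (K + 1) => idx i ((g, wl, hh, wr, v), κ)) ⊆
          {j | j < m * J ∧ ∃ j' < m * J, j' ≠ j ∧ ∃ X0 : List α, X0.length = q1 ∧
          Bad (X0 ++ Q.drop (q1 + C j - C j'))} := by
        rintro _ ⟨κ, rfl⟩
        obtain ⟨j', h1, h2, h3⟩ := hcon κ
        exact ⟨idx_lt _ _, j', h1, h2, h3⟩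
      have hinj : Function.Injective (fun κ : Fin (K + 1) => idx i ((g, wl, hh, wr, v), κ)) := by
        intro κ κ' h
        have := (idx_inj _ _ _ _ h).2
        exact (Prod.ext_iff.1 this).2
      have h1 := Set.ncard_le_ncard hsub ((Set.finite_lt_nat (m * J)).subset fun j hj => hj.1)
      have h2 : (Set.range (fun κ : Fin (K + 1) => idx i ((g, wl, hh, wr, v), κ))).ncard =
          K + 1 := by
        rw [← Set.image_univ, Set.ncard_image_of_injective _ hinj, Set.ncard_univ, Nat.card_fin]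
      have h3 := hruler Q hRFQ hQl hbad
      omega
    obtain ⟨y, hy⟩ : ∃ y : (Gam S V1 × W × Gam S V1 × W × V2) × Fin (K + 1),
        y = ((g, wl, hh, wr, v), κ) := ⟨_, rfl⟩
    rw [← hy] at hκ
    have hCq : C (idx i y) ≤ q1 := hhi _ (idx_lt i y).le
    obtain ⟨P, hP⟩ : ∃ P, P = Q.take (C (idx i y)) := ⟨_, rfl⟩
    obtain ⟨U, hU⟩ : ∃ U, U = (Q.drop (C (idx i y))).take D2 := ⟨_, rfl⟩
    have hPl : P.length = C (idx i y) := by rw [hP, List.length_take]; omega
    have hUl : U.length = D2 := by rw [hU, List.length_take, List.length_drop]; omega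
    have hPU : P ++ U = Q.take (C (idx i y) + D2) := by
      rw [hP, hU, List.take_add]
    have hQs : Q = P ++ (U ++ Q.drop (C (idx i y) + D2)) := by
      rw [← List.append_assoc, hPU, List.take_append_drop]
    have ht2 : t - C (idx i y) + C (idx i y) = t := by omega
    have htake : (P ++ U).take t = Q.take t := by
      rw [hPU, List.take_take]; congr 1; omega
    have hsegQ : ∀ a b, b ≤ q1 → seg (P ++ U) a b = seg Q a b := by
      intro a b hb
      rw [hPU, seg_take _ (by omega)]
    have hPt : P.take (O i) = Q.take (O i) := by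
      rw [hP, List.take_take, min_eq_left (hO1 i y)]
    have hL : LeftOK P i y := by
      rw [hLeft]
      refine ⟨hPl, ?_, ?_⟩
      · rw [hPt, hy]; exact hg.symm
      · rw [hy]
        show _ = wl
        rw [hwl]
        refine Finset.sum_congr rfl fun k _ => ?_
        split
        · rename_i hk
          have hk' : (k : ℕ) + 1 ≤ (i : ℕ) := hk
          rw [← hsegQ _ _ (hO3 k), seg_left P U (by
            rw [hPl]; exact le_trans (hO hk') (hO1 i y)) (hO (Nat.le_succ _))]
        · rfl
    have hnxPU : c.nx (P ++ U) = some t := by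
      rw [hPU]
      refine c.tight _ (Q.drop (C (idx i y) + D2)) _ ?_ ?_
      · rw [List.take_append_drop]; exact htQ
      · rw [List.length_take]; omega
    have hsplit : P ++ U = (P ++ U.take (q1 - C (idx i y))) ++ U.drop (q1 - C (idx i y)) := by
      rw [List.append_assoc, List.take_append_drop]
    have hR : ∃ R, RightOK U (t - C (idx i y)) R i y := by
      refine ⟨F (rho (φ ((Q.take t).take q1)) * kap (θ ((Q.take t).drop q1)))
        (∑ k, e k (rho (φ (seg (Q.take t) (O k) (O (k + 1)))))) +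
        act2 v (out (rho (φ ((Q.take t).take q1)) * kap (θ ((Q.take t).drop q1)))), ?_⟩
      have k1 := key1 φ hφ θ P U (C (idx i y)) (O i) (O (i + 1)) q1 t hPl
        (hO1 i y) (hO2 i y) (hO3 i) hqt
      have k2 := key2 (fun k X => e k (rho (φ X))) O hO P U (C (idx i y))
        t q1 i hPl (hO1 i y) (hO2 i y) hO3 hqt
      have hu1 : seg U (O (i + 1) - C (idx i y)) (q1 - C (idx i y)) = seg Q (O (i + 1)) q1 := by
        rw [← hsegQ _ _ le_rfl, seg_right P U hPl (hO2 i y).le]
      have hu2 : (U.take (t - C (idx i y))).drop (q1 - C (idx i y)) = (Q.take t).drop q1 := by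
        rw [← htake, List.take_append, List.take_of_length_le (l := P) (by omega),
          List.drop_append, List.drop_eq_nil_of_le (as := P) (by omega), List.nil_append, hPl]
      have hr : (∑ k, if i < k then e k (rho (φ (seg U (O k - C (idx i y))
          (O (k + 1) - C (idx i y))))) else 0) = wr := by
        rw [hwr]
        refine Finset.sum_congr rfl fun k _ => ?_
        split
        · rename_i hk
          have hk' : (i : ℕ) + 1 ≤ (k : ℕ) := hk
          rw [← hsegQ _ _ (hO3 k), seg_right P U hPl (le_trans (hO2 i y).le (hO hk'))]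
        · rfl
      rw [hRight]
      refine ⟨?_, ⟨P ++ U.take (q1 - C (idx i y)), ?_, ?_⟩, ?_, ?_, ?_⟩
      · intro j' hj' hX
        by_contra hne
        refine hκ j' hj' hne ?_
        obtain ⟨X0, hX0, hb⟩ := hX
        refine ⟨X0, hX0, ?_⟩
        have hCj' : C j' ≤ q1 := hhi _ hj'.le
        have h1 : Q.drop (q1 + C (idx i y) - C j') =
            U.drop (q1 - C j') ++ Q.drop (C (idx i y) + D2) := by
          have h2 : Q.drop (C (idx i y)) = U ++ Q.drop (C (idx i y) + D2) := by
            rw [hU, ← List.drop_drop, List.take_append_drop]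
          have h3 : q1 + C (idx i y) - C j' = C (idx i y) + (q1 - C j') := by omega
          rw [h3, ← List.drop_drop, h2, List.drop_append_of_le_length (by omega)]
        rw [h1, ← List.append_assoc, hloc]
        · exact hb
        · rw [List.length_append, List.length_drop, hUl]; omega
      · rw [List.length_append, List.length_take, hPl]; omega
      · rw [← hsplit, hnxPU]; congr 1; omega
      · rw [hu1, hu2, hy]; exact hhh.symm
      · rw [hr, hy]
      · intro x
        have e1 : y.1.1 = g := by rw [hy]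
        have e2 : y.1.2.1 = wl := by rw [hy]
        have e3 : y.1.2.2.1 = hh := by rw [hy]
        have e4 : y.1.2.2.2.1 = wr := by rw [hy]
        have e5 : y.1.2.2.2.2 = v := by rw [hy]
        rw [e1, e2, e3, e4, e5]
        rw [hu1, hu2, hsegQ _ _ (hO3 i), htake, hPt, ← hg, ← hz, ← hhh] at k1
        have hl3 := ((hLeft _ _ _).1 hL).2.2
        simp only [htake] at k2
        rw [hr, hl3, e2, hsegQ _ _ (hO3 i), ← hz] at k2
        have h1 := hi g z hh k1.symm x
        have h2 : (∑ k, e k (rho (φ (seg (Q.take t) (O k) (O (k + 1)))))) - e i z + e i x =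
            wl + e i x + wr := by
          rw [k2]; abel
        rw [h2] at h1
        exact h1
    obtain ⟨R, hR⟩ := hR
    refine ⟨P, U, Q.drop (C (idx i y) + D2), hQs, hUl, ?_, ?_, ?_, ?_, hrl2 _ _ _ _ _ hR⟩
    · rw [hPl]; exact hlo _ (idx_lt i y).le
    · rw [hPl]; exact hCq
    · cases hc : c.nx P with
      | none => rfl
      | some t' =>
        have h1 := hmin _ _ hc
        have h2 := (c.vis _ _ hc).2
        omega
    · have := hal.2 P i y hL
      rw [this, hy]

end Crest.Agent.R320.Sch2_620
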