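import Mathlib
import Crest.Agent.R320.ExactR_237

/-!
# Row 320, scheme 2 of the two scheme chain (132 #12664), the literals (SC2), (CP2) of 131 #13123

`y` = first `Bm` letters after an anchor, zone = `y.take (N y)`, `X = y.take p0`,
`Y = (y.take (N y)).drop p0`.  `N` and `Bad` depend only on the letters right of `p0`:
`N y = Nr (y.drop p0)`, `Bad y ↔ Badr (y.drop p0)`.  The noise of the zone is
`nu y = act (nu2 X) (φ Y) + nu1 Y`.

The right word `r` at a place of scheme 2 computes the set `G r` of all ruler marks `c k` such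
that the zone of the anchor `c k` letters left of it is bad; it is legal iff `G r = {k}`.
-/

set_option autoImplicit false

namespace Crest.Agent.R320.Sch2_623

open Finset Crest.Agent.R320.ExactR_237

section defs

variable {A S V : Type} [Monoid S] [AddCommGroup V]

/-- noise of a zone: both gadgets together -/
def nu (f : A → S) (act : V → S → V) (p0 : ℕ) (N : List A → ℕ) (nu1 nu2 : List A → V)
    (y : List A) : V :=
  act (nu2 (y.take p0)) (pr f ((y.take (N y)).drop p0)) + nu1 ((y.take (N y)).drop p0)

/-- zone map -/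
def zm (f : A → S) (act : V → S → V) (N : List A → ℕ) (nu : List A → V)
    (y : List A) (v : V) : V :=
  act v (pr f (y.take (N y))) + nu y

theorem zm_eq (f : A → S) (act : V → S → V)
    (hadd : ∀ v w s, act (v + w) s = act v s + act w s)
    (hmul : ∀ v s t, act v (s * t) = act (act v s) t)
    (p0 : ℕ) (N : List A → ℕ) (nu1 nu2 : List A → V) (y : List A) (v : V) (hN : p0 ≤ N y) :
    zm f act N (nu f act p0 N nu1 nu2) y v =
      act (act v (pr f (y.take p0)) + nu2 (y.take p0)) (pr f ((y.take (N y)).drop p0)) +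
        nu1 ((y.take (N y)).drop p0) := by
  unfold zm nu
  have h1 : y.take (N y) = y.take p0 ++ (y.take (N y)).drop p0 := by
    conv_lhs => rw [← List.take_append_drop p0 (y.take (N y))]
    rw [List.take_take, min_eq_left hN]
  have h2 : pr f (y.take (N y)) = pr f (y.take p0) * pr f ((y.take (N y)).drop p0) := by
    conv_lhs => rw [h1]
    rw [pr_append]
  rw [h2, hmul, hadd, add_assoc]

/-- the rest of the zone text of the hypothetical anchor `ck` letters left of `r` -/
def rest (p0 Bm : ℕ) (ck : ℕ) (r : List A) : List A := (r.drop (p0 - ck)).take (Bm - p0)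

open Classical in
/-- the candidates -/
noncomputable def G (p0 Bm K : ℕ) (c : ℕ → ℕ) (Badr : List A → Prop) (r : List A) : Finset ℕ :=
  {k ∈ range K | Badr (rest p0 Bm (c k) r)}

/-- left labels of scheme 2 -/
def L2 (K : ℕ) (c : ℕ → ℕ) (lam : ℕ → List A → Option V) (u : List A) (v : V) : Prop :=
  ∃ k < K, u.length = c k ∧ lam k u = some v

open Classical in
/-- right labels of scheme 2 -/
noncomputable def R2 (f : A → S) (act : V → S → V) (p0 Bm K : ℕ) (c : ℕ → ℕ)
    (Nr : List A → ℕ) (Badr : List A → Prop) (nu1 : List A → V)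
    (rho : ℕ → List A → S → Option V) (r : List A) : Option (ℕ × V) :=
  if h : ∃ k, G p0 Bm K c Badr r = {k} then
    (rho h.choose (r.take (p0 - c h.choose)) 1).map (fun b' =>
      (Nr (rest p0 Bm (c h.choose) r) - c h.choose,
        act b' (pr f ((rest p0 Bm (c h.choose) r).take (Nr (rest p0 Bm (c h.choose) r) - p0))) +
          nu1 ((rest p0 Bm (c h.choose) r).take (Nr (rest p0 Bm (c h.choose) r) - p0))))
  else none

theorem R2_of {f : A → S} {act : V → S → V} {p0 Bm K : ℕ} {c : ℕ → ℕ}
    {Nr : List A → ℕ} {Badr : List A → Prop} {nu1 : List A → V}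
    {rho : ℕ → List A → S → Option V} {r : List A} {k : ℕ} (hk : G p0 Bm K c Badr r = {k}) :
    R2 f act p0 Bm K c Nr Badr nu1 rho r =
      (rho k (r.take (p0 - c k)) 1).map (fun b' =>
      (Nr (rest p0 Bm (c k) r) - c k,
        act b' (pr f ((rest p0 Bm (c k) r).take (Nr (rest p0 Bm (c k) r) - p0))) +
          nu1 ((rest p0 Bm (c k) r).take (Nr (rest p0 Bm (c k) r) - p0)))) := by
  have h : ∃ k, G p0 Bm K c Badr r = {k} := ⟨k, hk⟩
  have h1 : h.choose = k := by
    have h2 := h.choose_spec
    have h3 : ({k} : Finset ℕ) = {h.choose} := hk.symm.trans h2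
    exact (Finset.singleton_injective h3).symm
  unfold R2
  rw [dif_pos h]
  simp only [h1]

theorem rest_eq {p0 Bm : ℕ} {u r : List A} (hu : u.length ≤ p0) :
    rest p0 Bm u.length r = ((u ++ r).take Bm).drop p0 := by
  unfold rest
  rw [List.drop_take, List.drop_append, List.drop_of_length_le hu, List.nil_append]

end defs

/-- **scheme 2**: soundness (SC2) and completeness (CP2) from the exact gadget of 237 -/
theorem scheme2 {A S V : Type} [Monoid S] [Fintype S] [Fintype V] [AddCommGroup V]
    (f : A → S) (act : V → S → V)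
    (hadd : ∀ v w s, act (v + w) s = act v s + act w s)
    (hmul : ∀ v s t, act v (s * t) = act (act v s) t) (R : ℕ) :
    ∃ K : ℕ, ∀ c : ℕ → ℕ, (∀ i j, i < j → j < K → c i < c j) →
      ∀ (p0 q0 Bm D₂ : ℕ), (∀ k < K, q0 ≤ c k ∧ c k ≤ p0) → p0 ≤ Bm → Bm ≤ D₂ →
      ∃ nu2 : List A → V,
      ∀ (Cl : List A → Prop) (Nr : List A → ℕ) (Badr : List A → Prop) (nu1 : List A → V),
        (∀ w, p0 ≤ Nr w) →
        (∀ t, Cl t → Bm + D₂ ≤ t.length → Badr ((t.take Bm).drop p0) →
          ∀ I : Finset ℕ, (∀ k ∈ I, k < K ∧ ∃ k' < K, k' ≠ k ∧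
            Badr ((t.drop (c k + (p0 - c k'))).take (Bm - p0))) → I.card < R) →
        ∃ (L₂ : List A → V → Prop) (R₂ : List A → Option (ℕ × V)),
          (∀ u r v d b, Cl (u ++ r) → u.length ≤ p0 → r.length = D₂ → L₂ u v →
            R₂ r = some (d, b) → Badr (((u ++ r).take Bm).drop p0) →
            Nr (((u ++ r).take Bm).drop p0) = u.length + d ∧
            zm f act (fun y => Nr (y.drop p0))
              (nu f act p0 (fun y => Nr (y.drop p0)) nu1 nu2) ((u ++ r).take Bm) v = b) ∧
          (∀ t, Cl t → Bm + D₂ ≤ t.length → Badr ((t.take Bm).drop p0) →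
            ∀ v, ∃ x, q0 ≤ x ∧ x ≤ p0 ∧ L₂ (t.take x) v ∧
              (R₂ ((t.drop x).take D₂)).isSome) := by
  classical
  obtain ⟨K, hK⟩ := exact_gadget A S V f act R
  refine ⟨K, fun c hc p0 q0 Bm D₂ hcp hpB hBD => ?_⟩
  obtain ⟨lam, rho, nug, hsound, hcomp⟩ := hK c hc
  refine ⟨fun X => nug X 1, fun Cl Nr Badr nu1 hNr hspoil => ?_⟩
  refine ⟨L2 K c lam, R2 f act p0 Bm K c Nr Badr nu1 rho, ?_, ?_⟩
  · intro u r v d b _ hu hr hL hR hBad
    obtain ⟨k, hk, huk, hlam⟩ := hL
    -- the true mark is a candidate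
    have hkG : k ∈ G p0 Bm K c Badr r := by
      unfold G
      rw [Finset.mem_filter, Finset.mem_range]
      refine ⟨hk, ?_⟩
      rw [← huk, rest_eq hu]
      exact hBad
    have hex : ∃ k', G p0 Bm K c Badr r = {k'} := by
      by_contra hne
      unfold R2 at hR
      rw [dif_neg hne] at hR
      exact absurd hR (by simp)
    obtain ⟨k', hk'⟩ := hex
    have hkk : k = k' := by
      rw [hk'] at hkG
      exact Finset.mem_singleton.1 hkG
    subst hkk
    rw [R2_of hk'] at hR
    rw [Option.map_eq_some_iff] at hR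
    obtain ⟨b', hrho, hb⟩ := hR
    have hb1 := congrArg Prod.fst hb
    have hb2 := congrArg Prod.snd hb
    simp only at hb1 hb2
    have hs := hsound k hk u (r.take (p0 - c k)) 1 v b' huk hlam hrho
    have hX : u ++ r.take (p0 - c k) = ((u ++ r).take Bm).take p0 := by
      rw [List.take_take, min_eq_left hpB, List.take_append, List.take_of_length_le hu, huk]
    have hrest : rest p0 Bm (c k) r = ((u ++ r).take Bm).drop p0 := by
      rw [← huk]; exact rest_eq hu
    rw [hrest] at hb1 hb2
    have hN := hNr (((u ++ r).take Bm).drop p0)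
    refine ⟨by omega, ?_⟩
    rw [zm_eq f act hadd hmul p0 (fun y => Nr (y.drop p0)) nu1 _ ((u ++ r).take Bm) v hN, ← hb2]
    have hY : (((u ++ r).take Bm).take (Nr (((u ++ r).take Bm).drop p0))).drop p0
        = (((u ++ r).take Bm).drop p0).take (Nr (((u ++ r).take Bm).drop p0) - p0) := by
      rw [List.drop_take]
    rw [hY, hs, ← hX, mul_one]
  · intro t hCl ht hBad v
    obtain ⟨I, hIc, hI⟩ := hcomp (t.take p0) 1 v (by
      intro k hk
      rw [List.length_take]
      have := (hcp k hk).2
      omega)
    -- a mark of `I` which is not spoiled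
    have hns : ∃ k ∈ I, ¬ ∃ k' < K, k' ≠ k ∧
        Badr ((t.drop (c k + (p0 - c k'))).take (Bm - p0)) := by
      by_contra hcon
      push Not at hcon
      have := hspoil t hCl ht hBad I (fun k hk => ⟨(hI k hk).1, hcon k hk⟩)
      omega
    obtain ⟨k, hkI, hk⟩ := hns
    obtain ⟨hkK, hlam, hrho⟩ := hI k hkI
    have hcp' := hcp k hkK
    refine ⟨c k, hcp'.1, hcp'.2, ⟨k, hkK, ?_, ?_⟩, ?_⟩
    · rw [List.length_take]; omega
    · rw [List.take_take, min_eq_left hcp'.2] at hlam
      exact hlam
    · have hG : G p0 Bm K c Badr ((t.drop (c k)).take D₂) = {k} := by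
        ext k'
        unfold G
        rw [Finset.mem_filter, Finset.mem_range, Finset.mem_singleton]
        have hre : k' < K → rest p0 Bm (c k') ((t.drop (c k)).take D₂)
            = (t.drop (c k + (p0 - c k'))).take (Bm - p0) := by
          intro hk'
          have h1 := hcp k' hk'
          unfold rest
          rw [List.drop_take, List.drop_drop, List.take_take, min_eq_left (by omega)]
        constructor
        · rintro ⟨hk', hb⟩
          by_contra hne
          rw [hre hk'] at hb
          exact hk ⟨k', hk', hne, hb⟩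
        · rintro rfl
          refine ⟨hkK, ?_⟩
          rw [hre hkK, show c k' + (p0 - c k') = p0 by omega, ← List.drop_take]
          exact hBad
      rw [R2_of hG, Option.isSome_map]
      have h2 : ((t.drop (c k)).take D₂).take (p0 - c k) = (t.take p0).drop (c k) := by
        rw [List.take_take, min_eq_left (by omega), List.drop_take]
      rw [h2]
      exact hrho

end Crest.Agent.R320.Sch2_623
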