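import Crest.Agent.R320.Asm_505
import Crest.Agent.R320.Exact_355

/-!
# Row 320: scheme 2 (promise ruler) in prefix-code form (helper736)

Zones are `z = X ++ Y`, `|X| = m * l`, `Y` in the prefix code `UY`; bad iff `Y ∈ BY`.
Scheme 2 lives on the prefix code `B * B` (two consecutive bad zones, cut inside the `X`-part of the
first one): every candidate anchor is then completely visible.  Right words are DEFINED as all words
which are sound for every left word, so only completeness has a content.
-/

set_option autoImplicit false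

namespace Crest.Agent.R320.Sch2_736

open Crest.RegLang Crest.Agent.R320.Hk_851 Crest.Agent.R320.Asm_505

universe u v

/-! ## Soundness by definition -/

section maxR

variable {α : Type u} {Ω : Type v}

/-- comparable words -/
def Cmp (z w : List α) : Prop := z <+: w ∨ w <+: z

/-- the largest sound family of right words -/
def MaxR (V : Language α) (eps : List α → Ω → Ω) (P : Ω → Language α) (y : Ω) : Language α :=
  {q | (∃ x, ∃ p ∈ P x, p ++ q ∈ V) ∧
    ∀ x, ∀ p ∈ P x, ∀ z ∈ V, Cmp z (p ++ q) → z = p ++ q ∧ eps z x = y}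

theorem level_of_compl {V B : Language α} {eps : List α → Ω → Ω} {P : Ω → Language α}
    (hne : ∀ x, [] ∉ P x)
    (h : ∀ z ∈ V, z ∉ B → ∀ x, ∃ p q, z = p ++ q ∧ p ∈ P x ∧
      ∀ x', ∀ p' ∈ P x', ∀ z' ∈ V, Cmp z' (p' ++ q) → z' = p' ++ q ∧ eps z' x' = eps z x) :
    Level V B eps P (MaxR V eps P) where
  pne := hne
  sound := by
    intro z hz x y p hp q hq hc
    exact hq.2 x p hp z hz hc
  compl := by
    intro z hz hB x
    obtain ⟨p, q, e, hp, hr⟩ := h z hz hB x
    exact ⟨p, hp, q, ⟨⟨x, p, hp, e ▸ hz⟩, hr⟩, e⟩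

theorem MaxR_finite {V : Language α} (hV : (V : Set (List α)).Finite) (eps : List α → Ω → Ω)
    (P : Ω → Language α) (y : Ω) : (MaxR V eps P y : Set (List α)).Finite := by
  have h : ((fun t : List α × ℕ => t.1.drop t.2) ''
      {t : List α × ℕ | t.1 ∈ V ∧ t.2 ≤ t.1.length}).Finite := by
    apply Set.Finite.image
    obtain ⟨M, hM⟩ : ∃ M : ℕ, ∀ z ∈ (V : Set (List α)), z.length ≤ M := by
      obtain ⟨M, hM⟩ := (hV.image List.length).bddAbove
      exact ⟨M, fun z hz => hM ⟨z, hz, rfl⟩⟩
    refine (hV.prod (Set.finite_Iic M)).subset ?_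
    rintro ⟨z, n⟩ ⟨h1, h2⟩
    exact ⟨h1, h2.trans (hM z h1)⟩
  refine h.subset ?_
  rintro q ⟨⟨x, p, _, hz⟩, _⟩
  exact ⟨(p ++ q, p.length), ⟨hz, by simp⟩, by simp⟩

end maxR

/-! ## Prefix codes -/

section codes

variable {α : Type u}

theorem Cmp.symm {z w : List α} (h : Cmp z w) : Cmp w z := Or.symm h

theorem cmp_left {z z' w : List α} (h : Cmp (z ++ z') w) : Cmp z w := by
  rcases h with h | h
  · exact Or.inl ((List.prefix_append z z').trans h)
  · exact List.prefix_or_prefix_of_prefix (List.prefix_append z z') h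

theorem PC.cmp {V : Language α} (hV : PC V) {z z' : List α} (hz : z ∈ V) (hz' : z' ∈ V)
    (h : Cmp z z') : z = z' := by
  rcases h with h | h
  · exact hV.pc z hz z' hz' h
  · exact (hV.pc z' hz' z hz h).symm

theorem PC.mul {V : Language α} (hV : PC V) : PC (V * V) where
  ne := by
    intro h
    obtain ⟨a, ha, b, hb, e⟩ := Language.mem_mul.1 h
    have : a = [] := (List.append_eq_nil_iff.1 e).1
    exact hV.ne (this ▸ ha)
  pc := by
    intro z hz z' hz' h
    obtain ⟨a, ha, b, hb, rfl⟩ := Language.mem_mul.1 hz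
    obtain ⟨a', ha', b', hb', rfl⟩ := Language.mem_mul.1 hz'
    obtain ⟨t, ht⟩ := h
    have h1 : a ++ (b ++ t) = a' ++ b' := by rw [← ht]; simp
    obtain ⟨h2, h3⟩ := pc_head hV ha ha' h1
    have h4 : b = b' := hV.pc b hb b' hb' ⟨t, h3⟩
    rw [h2, h4]

theorem PC.mono {V B : Language α} (hV : PC V) (h : ∀ z ∈ B, z ∈ V) : PC B :=
  ⟨fun h' => hV.ne (h _ h'), fun z hz z' hz' h' => hV.pc z (h z hz) z' (h z' hz') h'⟩

/-- zones `X ++ Y` with `|X| = p0`, `Y ∈ UY` -/
def ZC (p0 : ℕ) (UY : Language α) : Language α := {z | p0 ≤ z.length ∧ z.drop p0 ∈ UY}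

theorem PC.zc {UY : Language α} (hU : PC UY) (p0 : ℕ) : PC (ZC p0 UY) where
  ne := by
    rintro ⟨_, h⟩
    exact hU.ne (by simpa using h)
  pc := by
    rintro z ⟨h1, h2⟩ z' ⟨h1', h2'⟩ ⟨t, rfl⟩
    have h3 : z.drop p0 ++ t = (z ++ t).drop p0 := by
      rw [List.drop_append_of_le_length h1]
    have h4 : z.drop p0 = (z ++ t).drop p0 := hU.pc _ h2 _ h2' ⟨t, h3⟩
    have h5 : t = [] := by
      rw [← h3] at h4
      simpa using h4
    simp [h5]

end codes

/-! ## Block products -/

section blocks

variable {α S : Type*} [Monoid S]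

/-- products of `k` consecutive blocks of length `l` -/
def blocks (φ : α → S) (l : ℕ) : ℕ → List α → List S
  | 0, _ => []
  | k + 1, w => ((w.take l).map φ).prod :: blocks φ l k (w.drop l)

variable (φ : α → S) (l : ℕ)

@[simp] theorem blocks_length (k : ℕ) (w : List α) : (blocks φ l k w).length = k := by
  induction k generalizing w with
  | zero => rfl
  | succ k ih => simp [blocks, ih]

theorem blocks_add (k k' : ℕ) (w : List α) :
    blocks φ l (k + k') w = blocks φ l k w ++ blocks φ l k' (w.drop (k * l)) := by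
  induction k generalizing w with
  | zero => simp [blocks]
  | succ k ih =>
    have h : k + 1 + k' = (k + k') + 1 := by omega
    rw [h]
    simp only [blocks, List.cons_append]
    rw [ih, List.drop_drop]
    congr 3
    ring_nf

theorem blocks_take (k : ℕ) (w : List α) (n : ℕ) (h : k * l ≤ n) :
    blocks φ l k (w.take n) = blocks φ l k w := by
  induction k generalizing w n with
  | zero => rfl
  | succ k ih =>
    have h1 : l ≤ n := by nlinarith
    simp only [blocks]
    rw [List.take_take, min_eq_left h1]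
    have h2 : (w.take n).drop l = (w.drop l).take (n - l) := by rw [List.drop_take]
    rw [h2, ih]
    have : (k + 1) * l = k * l + l := by ring
    omega

theorem blocks_prod (k : ℕ) (w : List α) :
    (blocks φ l k w).prod = ((w.take (k * l)).map φ).prod := by
  induction k generalizing w with
  | zero => simp [blocks]
  | succ k ih =>
    simp only [blocks, List.prod_cons]
    rw [ih, ← List.prod_append, ← List.map_append]
    congr 2
    have : (k + 1) * l = l + k * l := by ring
    rw [this, List.take_add]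

end blocks

/-! ## Scheme 2 -/

section scheme

variable {α : Type u} {S : Type*} {V : Type v} [Monoid S] [AddCommGroup V]

/-- the zone map: anything behind the first `p0` letters, the exact gadget on the first `p0`. -/
def Eps (φ : α → S) (l m : ℕ) (beta : V → S → V) (nu : List S → V) (G : List α → V → V)
    (z : List α) (v : V) : V :=
  G (z.drop (m * l)) (beta v ((z.take (m * l)).map φ).prod + nu (blocks φ l m (z.take (m * l))))

/-- zone map of a pair of zones -/
noncomputable def Eps2 (B : Language α) (eps : List α → V → V) (z : List α) (v : V) : V :=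
  open Classical in
  if h : ∃ t : List α × List α, t.1 ∈ B ∧ t.2 ∈ B ∧ z = t.1 ++ t.2 then
    eps (Classical.choose h).2 (eps (Classical.choose h).1 v) else v

omit [AddCommGroup V] in
theorem Eps2_apply {B : Language α} (hB : PC B) (eps : List α → V → V) {z1 z2 : List α}
    (h1 : z1 ∈ B) (h2 : z2 ∈ B) (v : V) : Eps2 B eps (z1 ++ z2) v = eps z2 (eps z1 v) := by
  classical
  have h : ∃ t : List α × List α, t.1 ∈ B ∧ t.2 ∈ B ∧ z1 ++ z2 = t.1 ++ t.2 :=
    ⟨(z1, z2), h1, h2, rfl⟩
  obtain ⟨g1, g2, g3⟩ := Classical.choose_spec h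
  obtain ⟨e1, e2⟩ := pc_head hB h1 g1 g3
  unfold Eps2
  rw [dif_pos h, ← e1, ← e2]

/-- left words of scheme 2 -/
def P2 {K C : ℕ} (φ : α → S) (l : ℕ) (idx : Fin K → ℕ) (Lf : Fin K → List S → Prop)
    (lab : Fin K → V) (pl : Fin K → Fin C → ℕ) (x : V) : Language α :=
  {p | ∃ c j, p.length = pl c j ∧ Lf c (blocks φ l (idx c) p) ∧ lab c = x}

theorem scheme2 {K C : ℕ} (φ : α → S) (l m : ℕ) (beta : V → S → V)
    (idx : Fin K → ℕ) (Lf Rt : Fin K → List S → Prop) (lab rlab : Fin K → V) (nu : List S → V)
    (hidx : ∀ c, idx c < m)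
    (hs : ∀ (c : Fin K) (pre post : List S) (z : S), pre.length = idx c →
        (pre ++ z :: post).length = m → Lf c pre → Rt c post →
          rlab c = beta (lab c) (pre ++ z :: post).prod + nu (pre ++ z :: post))
    (hc : ∀ (u : List S) (v : V), u.length = m → ∃ (c : Fin K) (pre post : List S) (z : S),
        u = pre ++ z :: post ∧ pre.length = idx c ∧ Lf c pre ∧ Rt c post ∧ lab c = v)
    (G : List α → V → V) (pl : Fin K → Fin C → ℕ)
    (hpl0 : ∀ c j, 0 < pl c j)
    (hpl1 : ∀ c j, idx c * l ≤ pl c j) (hpl2 : ∀ c j, pl c j ≤ (idx c + 1) * l)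
    {UY BY : Language α} (hU : PC UY) (hBU : ∀ y ∈ BY, y ∈ UY)
    (look : ∀ z1 ∈ ZC (m * l) BY, ∀ z2 ∈ ZC (m * l) BY, ∀ c j c' j',
      ∃ Y ∈ UY, Y <+: (z1 ++ z2).drop (m * l + pl c j - pl c' j'))
    (spoil : ∀ z1 ∈ ZC (m * l) BY, ∀ z2 ∈ ZC (m * l) BY, ∀ c, ∃ j, ∀ c' j', (c', j') ≠ (c, j) →
      ∀ Y ∈ BY, ¬ Y <+: (z1 ++ z2).drop (m * l + pl c j - pl c' j')) :
    Level (ZC (m * l) BY * ZC (m * l) BY) 0
      (Eps2 (ZC (m * l) BY) (Eps φ l m beta nu G))
      (P2 φ l idx Lf lab pl)
      (MaxR (ZC (m * l) BY * ZC (m * l) BY) (Eps2 (ZC (m * l) BY) (Eps φ l m beta nu G))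
        (P2 φ l idx Lf lab pl)) := by
  have hBY : PC BY := PC.mono hU hBU
  have hB : PC (ZC (m * l) BY) := PC.zc hBY _
  have hBB := PC.mul hB
  have hplm : ∀ c j, pl c j ≤ m * l := fun c j =>
    (hpl2 c j).trans (Nat.mul_le_mul_right l (hidx c))
  apply level_of_compl
  · rintro x ⟨c, j, h1, -⟩
    have := hpl0 c j
    simp at h1
    omega
  intro z hz _ x
  obtain ⟨z1, hz1, z2, hz2, rfl⟩ := Language.mem_mul.1 hz
  have hl1 : m * l ≤ z1.length := hz1.1
  obtain ⟨c, pre, post, zz, e1, e2, e3, e4, e5⟩ :=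
    hc (blocks φ l m (z1.take (m * l))) x (by simp)
  obtain ⟨j, hj⟩ := spoil z1 hz1 z2 hz2 c
  have hk : ∃ k, m = idx c + (1 + k) := ⟨m - idx c - 1, by have := hidx c; omega⟩
  obtain ⟨k, hk⟩ := hk
  -- decomposition of the blocks of any word
  have dec : ∀ w : List α, blocks φ l m w = blocks φ l (idx c) w ++
      (((w.drop (idx c * l)).take l).map φ).prod :: blocks φ l k (w.drop ((idx c + 1) * l)) := by
    intro w
    conv_lhs => rw [hk]
    rw [blocks_add, Nat.add_comm 1 k]
    simp only [blocks, List.drop_drop]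
    congr 4
    ring_nf
  have hpre : pre = blocks φ l (idx c) (z1.take (m * l)) := by
    have := dec (z1.take (m * l))
    rw [e1] at this
    exact (List.append_inj this (by simp [e2])).1
  have hpost : post = blocks φ l k ((z1.take (m * l)).drop ((idx c + 1) * l)) := by
    have := dec (z1.take (m * l))
    rw [e1] at this
    have h2 := (List.append_inj this (by simp [e2])).2
    exact (List.cons.inj h2).2
  have hm1 : idx c * l ≤ m * l := Nat.mul_le_mul_right l (hidx c).le
  refine ⟨(z1 ++ z2).take (pl c j), (z1 ++ z2).drop (pl c j), (List.take_append_drop _ _).symm,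
    ?_, ?_⟩
  · refine ⟨c, j, ?_, ?_, e5⟩
    · rw [List.length_take, List.length_append, min_eq_left]
      have := hplm c j
      omega
    · rw [blocks_take φ l _ _ _ (hpl1 c j)]
      have : blocks φ l (idx c) (z1 ++ z2) = pre := by
        rw [hpre, blocks_take φ l _ _ _ hm1, ← blocks_take φ l (idx c) (z1 ++ z2) (m * l) hm1,
          List.take_append_of_le_length hl1, blocks_take φ l _ _ _ hm1]
      rw [this]
      exact e3
  rintro x' p' ⟨c', j', g1, g2, g3⟩ z' hz' hcmp
  obtain ⟨z1', hz1', z2', hz2', rfl⟩ := Language.mem_mul.1 hz'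
  by_cases hne : (c', j') = (c, j)
  · -- the right place
    obtain ⟨rfl, rfl⟩ := Prod.mk.inj hne
    have hx : x' = x := by rw [← g3, ← e5]
    subst hx
    have hp1 : pl c' j' ≤ z1.length := (hplm c' j').trans hl1
    have hq : (z1 ++ z2).drop (pl c' j') = z1.drop (pl c' j') ++ z2 :=
      List.drop_append_of_le_length hp1
    have hlen : m * l ≤ (p' ++ z1.drop (pl c' j')).length := by
      rw [List.length_append, List.length_drop, g1]; omega
    have hdrop : (p' ++ z1.drop (pl c' j')).drop (m * l) = z1.drop (m * l) := by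
      rw [List.drop_append, List.drop_eq_nil_of_le (by rw [g1]; exact hplm c' j'),
        List.nil_append, List.drop_drop, g1]
      congr 1
      have := hplm c' j'
      omega
    have hmem1 : p' ++ z1.drop (pl c' j') ∈ ZC (m * l) BY := ⟨hlen, by rw [hdrop]; exact hz1.2⟩
    have hmem : p' ++ (z1 ++ z2).drop (pl c' j') ∈ (ZC (m * l) BY * ZC (m * l) BY) := by
      rw [hq, ← List.append_assoc]
      exact Language.mem_mul.2 ⟨_, hmem1, z2, hz2, rfl⟩
    have heq : z1' ++ z2' = p' ++ (z1 ++ z2).drop (pl c' j') := PC.cmp hBB hz' hmem hcmp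
    refine ⟨heq, ?_⟩
    rw [heq, hq, ← List.append_assoc, Eps2_apply hB _ hmem1 hz2, Eps2_apply hB _ hz1 hz2]
    congr 1
    unfold Eps
    rw [hdrop]
    congr 1
    -- both are `rlab c`
    have key : ∀ w : List α, m * l ≤ w.length →
        Lf c' (blocks φ l (idx c') (w.take (m * l))) →
        (w.take (m * l)).drop ((idx c' + 1) * l) = (z1.take (m * l)).drop ((idx c' + 1) * l) →
        beta x' ((w.take (m * l)).map φ).prod + nu (blocks φ l m (w.take (m * l))) = rlab c' := by
      intro w hw h1 h2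
      have h3 := hs c' (blocks φ l (idx c') (w.take (m * l)))
        (blocks φ l k ((w.take (m * l)).drop ((idx c' + 1) * l)))
        (((((w.take (m * l)).drop (idx c' * l)).take l).map φ).prod) (by simp)
        (by rw [← dec]; simp) h1 (by rw [h2, ← hpost]; exact e4)
      rw [← dec, blocks_prod, List.take_take, min_self, g3] at h3
      exact h3.symm
    rw [key _ hlen, key z1 hl1]
    · rw [← hpre]; exact e3
    · rfl
    · rw [blocks_take φ l _ _ _ hm1]
      have : blocks φ l (idx c') (p' ++ z1.drop (pl c' j')) = blocks φ l (idx c') p' := by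
        rw [← blocks_take φ l (idx c') (p' ++ z1.drop (pl c' j')) (idx c' * l) le_rfl,
          List.take_append_of_le_length (by rw [g1]; exact hpl1 c' j'),
          blocks_take φ l _ _ _ le_rfl]
      rw [this]; exact g2
    · have h5 : ∀ w : List α, (w.take (m * l)).drop ((idx c' + 1) * l)
          = (w.drop ((idx c' + 1) * l)).take (m * l - (idx c' + 1) * l) := fun w => by
        rw [List.drop_take]
      rw [h5, h5]
      congr 1
      rw [List.drop_append, List.drop_eq_nil_of_le (by rw [g1]; exact hpl2 c' j'),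
        List.nil_append, List.drop_drop, g1]
      congr 1
      have := hpl2 c' j'
      omega
  · -- a wrong place
    exfalso
    have hc1 : Cmp z1' (p' ++ (z1 ++ z2).drop (pl c j)) := cmp_left hcmp
    obtain ⟨Y, hY, hYp⟩ := look z1 hz1 z2 hz2 c j c' j'
    have hp' : p'.length ≤ m * l := by rw [g1]; exact hplm c' j'
    have htxt : (p' ++ (z1 ++ z2).drop (pl c j)).drop (m * l)
        = (z1 ++ z2).drop (m * l + pl c j - pl c' j') := by
      rw [List.drop_append, List.drop_eq_nil_of_le hp', List.nil_append, List.drop_drop, g1]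
      congr 1
      have := hplm c' j'
      omega
    have hdr : ∀ {a b : List α}, a <+: b → a.drop (m * l) <+: b.drop (m * l) := by
      rintro a b ⟨t, rfl⟩
      rw [List.drop_append]
      exact List.prefix_append _ _
    have hY1 : z1'.drop (m * l) ∈ BY := hz1'.2
    have hpref : z1'.drop (m * l) <+: (z1 ++ z2).drop (m * l + pl c j - pl c' j') := by
      rw [← htxt]
      rcases hc1 with h | h
      · exact hdr h
      · have h1 : Y <+: z1'.drop (m * l) := by
          refine List.IsPrefix.trans ?_ (hdr h)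
          rw [htxt]; exact hYp
        have h2 : Y = z1'.drop (m * l) := hU.pc Y hY _ (hBU _ hY1) h1
        rw [← h2, htxt]
        exact hYp
    exact hj c' j' hne _ hY1 hpref

end scheme

end Crest.Agent.R320.Sch2_736
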