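import Crest.Agent.R320.Half1Def_961
import Crest.Agent.R320.ExactR_237

/-!
Row 320, leaves L4 + L5 of the interface `TwoSchemes` (helper961): the promise scheme (scheme 2 of
132 #12664 (3)(5)), abstract in the walls.  The only thing left is the integer count `SPOIL`.
-/

set_option autoImplicit false

namespace Crest.Agent.R320.Sch2_776

open Crest.Agent.R320.Half1_961 Crest.Agent.R320.ExactR_237

/-- the monoid `S` together with right absorbing tails `S → E` -/
inductive SX (S E : Type) : Type
  | inl (s : S) : SX S E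
  | inr (g : S → E) : SX S E

namespace SX

variable {S E : Type}

instance [Monoid S] : Monoid (SX S E) where
  mul x y := match x, y with
    | .inl s, .inl t => .inl (s * t)
    | .inl s, .inr g => .inr (fun x => g (x * s))
    | .inr g, _ => .inr g
  one := .inl 1
  mul_assoc := by
    rintro (a | a) (b | b) (c | c)
    · show (SX.inl (a * b * c) : SX S E) = SX.inl (a * (b * c)); rw [mul_assoc]
    · show (SX.inr (fun x => c (x * (a * b))) : SX S E) = SX.inr (fun x => c (x * a * b))
      simp only [mul_assoc]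
    · rfl
    · rfl
    · rfl
    · rfl
    · rfl
    · rfl
  one_mul := by
    rintro (a | a)
    · show (SX.inl (1 * a) : SX S E) = SX.inl a; rw [one_mul]
    · show (SX.inr (fun x => a (x * 1)) : SX S E) = SX.inr a
      simp only [mul_one]
  mul_one := by
    rintro (a | a)
    · show (SX.inl (a * 1) : SX S E) = SX.inl a; rw [mul_one]
    · rfl

theorem inl_mul_inr [Monoid S] (a : S) (g : S → E) :
    (SX.inl a : SX S E) * SX.inr g = SX.inr (fun x => g (x * a)) := rfl

instance [Finite S] [Finite E] : Finite (SX S E) := by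
  refine Finite.of_injective
    (fun x : SX S E => (match x with
      | .inl s => (Sum.inl s : S ⊕ (S → E))
      | .inr g => Sum.inr g)) ?_
  rintro (a | a) (b | b) h
  · simp only [Sum.inl.injEq] at h; rw [h]
  · simp at h
  · simp at h
  · simp only [Sum.inr.injEq] at h; rw [h]

end SX

theorem pr_inl {A S E : Type} [Monoid S] (f : A → S) (u : List A) :
    pr (fun a => (SX.inl (f a) : SX S E)) u = SX.inl (pr f u) := by
  induction u with
  | nil => rfl
  | cons a u ih =>
    have h1 : pr (fun a => (SX.inl (f a) : SX S E)) (a :: u) =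
        SX.inl (f a) * pr (fun a => (SX.inl (f a) : SX S E)) u := by
      simp [pr]
    have h2 : pr f (a :: u) = f a * pr f u := by simp [pr]
    rw [h1, h2, ih]
    rfl

/-- action of the tails on the tokens of scheme 2 -/
noncomputable def act2 {S V : Type} [Monoid S] [Finite V] (v : V → ZMod 2) :
    SX S (V → V) → (V → ZMod 2)
  | .inl _ => 0
  | .inr g => push (g 1) v

theorem act2_tail {A S V : Type} [Monoid S] [Finite V] (f : A → S) (X : List A)
    (g : S → V → V) (v : V → ZMod 2) :
    act2 v (pr (fun a => (SX.inl (f a) : SX S (V → V))) X * (SX.inr g : SX S (V → V))) =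
      push (g (pr f X)) v := by
  rw [pr_inl, SX.inl_mul_inr]
  show push (g (1 * pr f X)) v = _
  rw [one_mul]

theorem scheme2 (A S V : Type) [Monoid S] [Finite S] [Finite V] (f : A → S) (R0 : ℕ) :
    ∃ K : ℕ, ∀ (c : Chain A) (T : List A → V → V) (RF Bad : List A → Prop) (p0 n2 D2 : ℕ)
      (pl : ℕ → ℕ),
      (∀ i j, i < j → j < K → pl i < pl j) →
      (∀ k, k < K → c.n ≤ pl k ∧ pl k ≤ n2) → n2 ≤ p0 → p0 ≤ D2 →
      (∀ Q Q', RF (Q ++ Q') → RF Q) →
      (∀ Q, RF Q → D2 ≤ Q.length → c.nx Q ≠ none) →
      (∀ P, P.length ≤ p0 → c.nx P = none) →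
      (∀ Q d, c.nx Q = some d → p0 ≤ d) →
      (∀ P P' U : List A, P.length = P'.length → P.length ≤ n2 →
        c.nx (P ++ U) = c.nx (P' ++ U)) →
      (∀ P P' U : List A, P.length = P'.length → P.length ≤ n2 →
        (Bad (P ++ U) ↔ Bad (P' ++ U))) →
      (∀ Q Q', D2 ≤ Q.length → (Bad (Q ++ Q') ↔ Bad Q)) →
      (∀ X X' Y : List A, X.length = p0 → X'.length = p0 → pr f X = pr f X' →
        T (X ++ Y) = T (X' ++ Y)) →
      (∀ Q, RF Q → Bad Q → D2 + n2 ≤ Q.length → ∀ I : Finset ℕ,
        (∀ k ∈ I, k < K ∧ ∃ k' < K, k' ≠ k ∧ ∃ P' : List A, P'.length = pl k' ∧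
          Bad (P' ++ Q.drop (pl k))) → I.card ≤ R0) →
      ∃ (ν2 : List A → V → ZMod 2) (al2 : List A → Option (V → ZMod 2))
        (rl2 : List A → Option (ℕ × (V → ZMod 2))),
        Exact c (T2 T ν2) al2 D2 rl2 (fun P U => RF (P ++ U) ∧ P.length ≤ n2 ∧ Bad (P ++ U)) ∧
        Complete c al2 D2 rl2 c.n n2 (fun Q => RF Q ∧ D2 + n2 ≤ Q.length ∧ Bad Q) := by
  classical
  let _ : Fintype (SX S (V → V)) := Fintype.ofFinite _
  let _ : Fintype V := Fintype.ofFinite _
  obtain ⟨K, hK⟩ := exact_gadget A (SX S (V → V)) (V → ZMod 2)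
    (fun a => (SX.inl (f a) : SX S (V → V))) act2 (R0 + 1)
  refine ⟨K, ?_⟩
  intro c T RF Bad p0 n2 D2 pl hpl hplr hn2 hp0 hRF hnxD hnx0 hnxp hnxl hBadl hBadD hT hsp
  obtain ⟨lam, rho, nu, hex, hco⟩ := hK pl hpl
  have hinj : ∀ i j, i < K → j < K → pl i = pl j → i = j := by
    intro i j hi hj h
    rcases lt_trichotomy i j with h1 | h1 | h1
    · have := hpl i j h1 hj; omega
    · exact h1
    · have := hpl j i h1 hi; omega
  -- the tail map
  let Ψ : List A → S → V → V := fun Y s =>
    if h : ∃ X : List A, X.length = p0 ∧ pr f X = s then T (h.choose ++ Y) else id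
  have hΨ : ∀ X Y : List A, X.length = p0 → Ψ Y (pr f X) = T (X ++ Y) := by
    intro X Y hX
    have h : ∃ X' : List A, X'.length = p0 ∧ pr f X' = pr f X := ⟨X, hX, rfl⟩
    show (if h : ∃ X' : List A, X'.length = p0 ∧ pr f X' = pr f X then T (h.choose ++ Y) else id) = _
    rw [dif_pos h]
    exact hT _ _ _ h.choose_spec.1 hX h.choose_spec.2
  let cand : List A → ℕ → Prop := fun U k => k < K ∧ ∃ P' : List A, P'.length = pl k ∧ Bad (P' ++ U)
  let uniq : List A → ℕ → Prop := fun U k => cand U k ∧ ∀ k', cand U k' → k' = k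
  let RelA : List A → (V → ZMod 2) → Prop := fun P v => ∃ k, k < K ∧ pl k = P.length ∧ lam k P = some v
  let RelR : List A → ℕ × (V → ZMod 2) → Prop := fun U x => ∃ (k : ℕ) (P' : List A) (d : ℕ),
    uniq U k ∧ P'.length = pl k ∧ c.nx (P' ++ U) = some d ∧ x.1 = d - pl k ∧
      rho k (U.take (p0 - pl k)) (SX.inr (Ψ ((U.take (d - pl k)).drop (p0 - pl k)))) = some x.2
  refine ⟨fun Z => nu (Z.take p0) (SX.inr (Ψ (Z.drop p0))),
    fun P => if h : ∃ v, RelA P v then some h.choose else none,
    fun U => if h : ∃ x, RelR U x then some h.choose else none, ?_, ?_⟩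
  · -- exactness
    intro P U v b R hU hnP hG hal hrl
    obtain ⟨hRFPU, hPn2, hBad⟩ := hG
    have hA : RelA P v := by
      by_cases h : ∃ v, RelA P v
      · simp only [dif_pos h, Option.some.injEq] at hal
        rw [← hal]; exact h.choose_spec
      · simp only [dif_neg h] at hal
        exact absurd hal (by simp)
    have hR : RelR U (b, R) := by
      by_cases h : ∃ x, RelR U x
      · simp only [dif_pos h, Option.some.injEq] at hrl
        rw [← hrl]; exact h.choose_spec
      · simp only [dif_neg h] at hrl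
        exact absurd hrl (by simp)
    obtain ⟨k, hk, hkP, hlam⟩ := hA
    obtain ⟨k', P', d, ⟨hc1, hc2⟩, hP', hd, hb, hrho⟩ := hR
    have hkk : k = k' := hc2 k ⟨hk, P, hkP.symm, hBad⟩
    subst hkk
    have hnx : c.nx (P ++ U) = some d := by
      rw [hnxl P P' U (by rw [← hkP, hP']) hPn2]; exact hd
    have hpd : p0 ≤ d := hnxp _ _ hnx
    have hplk := (hplr k hk).2
    have hvis := (c.vis _ _ hnx).2
    rw [List.length_append] at hvis
    simp only at hb
    subst hb
    refine ⟨?_, ?_⟩
    · rw [hnx, ← hkP]; congr 1; omega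
    · -- value
      have hZ1 : (P ++ U.take (d - pl k)).take p0 = P ++ U.take (p0 - pl k) := by
        rw [List.take_append, List.take_of_length_le (by omega), List.take_take]
        congr 2
        omega
      have hZ2 : (P ++ U.take (d - pl k)).drop p0 = (U.take (d - pl k)).drop (p0 - pl k) := by
        rw [List.drop_append, List.drop_of_length_le (by omega), List.nil_append, ← hkP]
      have hX : (P ++ U.take (p0 - pl k)).length = p0 := by
        rw [List.length_append, List.length_take]
        omega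
      have hZ : P ++ U.take (d - pl k) =
          (P ++ U.take (p0 - pl k)) ++ (U.take (d - pl k)).drop (p0 - pl k) := by
        rw [← hZ1, ← hZ2, List.take_append_drop]
      have h := hex k hk P (U.take (p0 - pl k))
        (SX.inr (Ψ ((U.take (d - pl k)).drop (p0 - pl k)))) v R hkP.symm hlam hrho
      rw [act2_tail, hΨ _ _ hX, ← hZ] at h
      rw [h]
      show push (T (P ++ U.take (d - pl k))) v +
        nu ((P ++ U.take (d - pl k)).take p0) (SX.inr (Ψ ((P ++ U.take (d - pl k)).drop p0))) = _
      rw [hZ1, hZ2]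
  · -- completeness
    intro Q hG v
    obtain ⟨hRFQ, hQl, hBad⟩ := hG
    obtain ⟨d, hd⟩ : ∃ d, c.nx Q = some d := by
      cases h : c.nx Q with
      | none => exact absurd h (hnxD Q hRFQ (by omega))
      | some d => exact ⟨d, rfl⟩
    have hpd : p0 ≤ d := hnxp _ _ hd
    have hXl : (Q.take p0).length = p0 := by rw [List.length_take]; omega
    obtain ⟨I, hI, hIk⟩ := hco (Q.take p0) (SX.inr (Ψ ((Q.take d).drop p0))) v
      (fun k hk => by rw [hXl]; have := (hplr k hk).2; omega)
    -- a place which is not spoiled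
    obtain ⟨k, hkI, hns⟩ : ∃ k ∈ I, ¬ ∃ k' < K, k' ≠ k ∧ ∃ P' : List A, P'.length = pl k' ∧
        Bad (P' ++ Q.drop (pl k)) := by
      by_contra hcon
      push Not at hcon
      have := hsp Q hRFQ hBad hQl I (fun k hk => ⟨(hIk k hk).1, by
        obtain ⟨k', h1, h2, P', h3, h4⟩ := hcon k hk
        exact ⟨k', h1, h2, P', h3, h4⟩⟩)
      omega
    obtain ⟨hk, hlam, hrho⟩ := hIk k hkI
    have hplk := hplr k hk
    have hQk : (Q.take (pl k)).length = pl k := by rw [List.length_take]; omega
    have hUl : ((Q.drop (pl k)).take D2).length = D2 := by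
      rw [List.length_take, List.length_drop]; omega
    have hQ : Q = Q.take (pl k) ++ ((Q.drop (pl k)).take D2 ++ (Q.drop (pl k)).drop D2) := by
      rw [List.take_append_drop, List.take_append_drop]
    have hQ2 : Q = (Q.take (pl k) ++ (Q.drop (pl k)).take D2) ++ (Q.drop (pl k)).drop D2 := by
      rw [List.append_assoc]; exact hQ
    have hRFP : RF (Q.take (pl k) ++ (Q.drop (pl k)).take D2) :=
      hRF _ ((Q.drop (pl k)).drop D2) (by rw [← hQ2]; exact hRFQ)
    have hlenP : D2 ≤ (Q.take (pl k) ++ (Q.drop (pl k)).take D2).length := by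
      rw [List.length_append, hUl]; omega
    have hnxP : c.nx (Q.take (pl k) ++ (Q.drop (pl k)).take D2) = some d := by
      cases h : c.nx (Q.take (pl k) ++ (Q.drop (pl k)).take D2) with
      | none => exact absurd h (hnxD _ hRFP hlenP)
      | some d' =>
        have h2 := c.ext _ ((Q.drop (pl k)).drop D2) d' h
        rw [← hQ2, hd] at h2
        rw [h2]
    have hBadP : Bad (Q.take (pl k) ++ (Q.drop (pl k)).take D2) := by
      have := (hBadD (Q.take (pl k) ++ (Q.drop (pl k)).take D2) ((Q.drop (pl k)).drop D2) hlenP).1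
      rw [← hQ2] at this
      exact this hBad
    have huniq : uniq ((Q.drop (pl k)).take D2) k := by
      refine ⟨⟨hk, Q.take (pl k), hQk, hBadP⟩, ?_⟩
      rintro k' ⟨hk', P', hP', hB'⟩
      by_contra hne
      apply hns
      refine ⟨k', hk', hne, P', hP', ?_⟩
      have h3 : D2 ≤ (P' ++ (Q.drop (pl k)).take D2).length := by
        rw [List.length_append, hUl]; omega
      have h4 := (hBadD _ ((Q.drop (pl k)).drop D2) h3).2 hB'
      rw [List.append_assoc, List.take_append_drop] at h4
      exact h4
    have hRA : RelA (Q.take (pl k)) v := by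
      refine ⟨k, hk, hQk.symm, ?_⟩
      rw [List.take_take, min_eq_left (by omega)] at hlam
      exact hlam
    refine ⟨Q.take (pl k), (Q.drop (pl k)).take D2, (Q.drop (pl k)).drop D2, hQ, hUl,
      by rw [hQk]; exact hplk.1, by rw [hQk]; exact hplk.2, hnx0 _ (by rw [hQk]; omega), ?_, ?_⟩
    · have hex' : ∃ v, RelA (Q.take (pl k)) v := ⟨v, hRA⟩
      show (if h : ∃ v, RelA (Q.take (pl k)) v then some h.choose else none) = some v
      rw [dif_pos hex']
      obtain ⟨k1, hk1, hk1P, hlam1⟩ := hex'.choose_spec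
      obtain ⟨k2, hk2, hk2P, hlam2⟩ := hRA
      have : k1 = k2 := hinj _ _ hk1 hk2 (by rw [hk1P, hk2P])
      subst this
      rw [hlam1] at hlam2
      exact hlam2
    · have hvisP := (c.vis _ _ hnxP).2
      rw [List.length_append, hQk, hUl] at hvisP
      have e1 : ((Q.drop (pl k)).take D2).take (p0 - pl k) = (Q.take p0).drop (pl k) := by
        rw [List.take_take, min_eq_left (by omega), List.drop_take]
      have e2 : (((Q.drop (pl k)).take D2).take (d - pl k)).drop (p0 - pl k) =
          (Q.take d).drop p0 := by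
        rw [List.take_take, min_eq_left (by omega), ← List.drop_take, List.drop_drop]
        congr 1
        omega
      obtain ⟨R, hR⟩ := Option.isSome_iff_exists.1 hrho
      have hexR : ∃ x, RelR ((Q.drop (pl k)).take D2) x := by
        refine ⟨(d - pl k, R), k, Q.take (pl k), d, huniq, hQk, hnxP, rfl, ?_⟩
        rw [e1, e2]
        exact hR
      show (if h : ∃ x, RelR ((Q.drop (pl k)).take D2) x then some h.choose else none).isSome
      rw [dif_pos hexR]
      rfl

end Crest.Agent.R320.Sch2_776
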