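import Mathlib

/-!
Row 320, helper889: SCHEME 2 (promise ruler) in the literal buffer form of 131 #13123
(statements (SC2) and (CP2)).

* `lam`, `rho`, `nu2`: an exact gadget on words of length `p0` in ruler form, `C k` the places
  (copies) of the context `k`;
* `B'`, `N'`: badness and next anchor, functions of the text behind `a + p0`;
* `nu1`: the noise of scheme 1 (a function of the word `Y` from `a + p0` to the next anchor).
-/

set_option autoImplicit false
set_option linter.unusedSectionVars false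

namespace Crest.Agent.R320.Sch2_889

open Classical in
/-- The data of scheme 2. -/
structure Dat (α S V K : Type*) [Monoid S] [AddCommGroup V] where
  phi : List α → S
  act : V → S → V
  p0 : ℕ
  q0 : ℕ
  Bm : ℕ
  D2 : ℕ
  lam : List α → Option V
  rho : List α → Option V
  nu2 : List α → V
  nu1 : List α → V
  C : K → Finset ℕ
  CC : Finset ℕ
  B' : List α → Prop
  N' : List α → ℕ

namespace Dat

variable {α S V K : Type*} [Monoid S] [AddCommGroup V] (D : Dat α S V K)

/-- badness of a buffer -/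
def Bad (y : List α) : Prop := D.B' (y.drop D.p0)

/-- next anchor of a buffer -/
def N (y : List α) : ℕ := D.p0 + D.N' (y.drop D.p0)

/-- the word from `a + p0` to the next anchor, read off the text behind `a + p0` -/
def Yw (y' : List α) : List α := y'.take (D.N' y')

/-- total noise of a buffer -/
def nu (y : List α) : V :=
  D.act (D.nu2 (y.take D.p0)) (D.phi (D.Yw (y.drop D.p0))) + D.nu1 (D.Yw (y.drop D.p0))

/-- zone map of a buffer (literal form of 131) -/
def zm (y : List α) (v : V) : V := D.act v (D.phi (y.take (D.N y))) + D.nu y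

/-- zone map, second form: first the word `X` of length `p0`, then `Y` -/
def zm' (y : List α) (v : V) : V :=
  D.act (D.act v (D.phi (y.take D.p0)) + D.nu2 (y.take D.p0)) (D.phi (D.Yw (y.drop D.p0))) +
    D.nu1 (D.Yw (y.drop D.p0))

/-- text behind `a + p0`, for the candidate `c` of the clock, seen by the right side -/
def cand (r : List α) (c : ℕ) : List α := (r.drop (D.p0 - c)).take (D.Bm - D.p0)

/-- left label -/
def L2 (u : List α) (v : V) : Prop := u.length ∈ D.CC ∧ D.lam u = some v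

open Classical in
/-- right label -/
noncomputable def R2 (r : List α) : Option (ℕ × V) :=
  if h : ∃ c, (c ∈ D.CC ∧ D.B' (D.cand r c)) ∧ ∀ c', c' ∈ D.CC → D.B' (D.cand r c') → c' = c then
    (D.rho (r.take (D.p0 - h.choose))).map (fun b2 =>
      (D.p0 - h.choose + D.N' (D.cand r h.choose),
        D.act b2 (D.phi (D.Yw (D.cand r h.choose))) + D.nu1 (D.Yw (D.cand r h.choose))))
  else none

/-- Hypotheses. -/
structure Ok (Cl : List α → Prop) (kappa : ℕ) : Prop where
  phi_app : ∀ u v, D.phi (u ++ v) = D.phi u * D.phi v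
  act_add : ∀ v w s, D.act (v + w) s = D.act v s + D.act w s
  act_mul : ∀ v s t, D.act v (s * t) = D.act (D.act v s) t
  hB : D.p0 < D.Bm
  hD : D.Bm ≤ D.D2
  sub : ∀ k, D.C k ⊆ D.CC
  rng : ∀ x ∈ D.CC, D.q0 ≤ x ∧ x ≤ D.p0
  sound : ∀ (p q : List α) (v b : V), p.length + q.length = D.p0 → D.lam p = some v → D.rho q = some b →
    b = D.act v (D.phi (p ++ q)) + D.nu2 (p ++ q)
  complete : ∀ (X : List α) (v : V), X.length = D.p0 → ∃ k, ∀ x ∈ D.C k,
    D.lam (X.take x) = some v ∧ (D.rho (X.drop x)).isSome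
  copies : ∀ k, kappa ≤ (D.C k).card
  spoil : ∀ t : List α, Cl t → D.Bm + D.D2 ≤ t.length → D.B' ((t.drop D.p0).take (D.Bm - D.p0)) →
    ∀ s : Finset ℕ, s ⊆ D.CC →
      (∀ x ∈ s, ∃ c' ∈ D.CC, c' ≠ x ∧ D.B' ((t.drop (D.p0 + x - c')).take (D.Bm - D.p0))) →
      s.card < kappa

variable {D}

theorem zm_eq {Cl : List α → Prop} {kappa : ℕ} (h : D.Ok Cl kappa) (y : List α) (v : V) :
    D.zm y v = D.zm' y v := by
  have h1 : y.take (D.N y) = y.take D.p0 ++ D.Yw (y.drop D.p0) := by
    unfold N Yw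
    rw [List.take_add]
  unfold zm zm' nu
  rw [h1, h.phi_app, h.act_mul, h.act_add]
  abel

/-- (SC2) of 131 #13123. -/
theorem sc2 {Cl : List α → Prop} {kappa : ℕ} (h : D.Ok Cl kappa) {u r : List α} {v b : V} {d : ℕ}
    (hu : u.length ≤ D.p0) (hr : r.length = D.D2) (hL : D.L2 u v) (hR : D.R2 r = some (d, b))
    (hbad : D.Bad ((u ++ r).take D.Bm)) :
    D.N ((u ++ r).take D.Bm) = u.length + d ∧ D.zm ((u ++ r).take D.Bm) v = b := by
  classical
  have hB := h.hB
  have hD := h.hD
  unfold R2 at hR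
  split_ifs at hR with hex
  obtain ⟨⟨hc1, hc2⟩, hc3⟩ := hex.choose_spec
  set c := hex.choose with hcdef
  have hkey : ((u ++ r).take D.Bm).drop D.p0 = D.cand r u.length := by
    unfold cand
    rw [List.drop_take]
    congr 1
    rw [List.drop_append, List.drop_eq_nil_of_le hu, List.nil_append]
  have hcu : u.length = c := by
    apply hc3 _ hL.1
    have h1 := hbad
    unfold Bad at h1
    rwa [hkey] at h1
  have hX : ((u ++ r).take D.Bm).take D.p0 = u ++ r.take (D.p0 - c) := by
    rw [List.take_take, min_eq_left hB.le, List.take_append, List.take_of_length_le hu, hcu]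
  obtain ⟨b2, hb2, hb3⟩ : ∃ b2, D.rho (r.take (D.p0 - c)) = some b2 ∧
      (D.p0 - c + D.N' (D.cand r c),
        D.act b2 (D.phi (D.Yw (D.cand r c))) + D.nu1 (D.Yw (D.cand r c))) = (d, b) := by
    rcases hq : D.rho (r.take (D.p0 - c)) with _ | b2
    · rw [hq] at hR; simp at hR
    · rw [hq] at hR
      exact ⟨b2, rfl, by simpa using hR⟩
  have h5 : b2 = D.act v (D.phi (u ++ r.take (D.p0 - c))) + D.nu2 (u ++ r.take (D.p0 - c)) := by
    apply h.sound _ _ _ _ _ hL.2 hb2
    rw [List.length_take, hr]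
    omega
  have hd : D.p0 - c + D.N' (D.cand r c) = d := congrArg Prod.fst hb3
  have hb : D.act b2 (D.phi (D.Yw (D.cand r c))) + D.nu1 (D.Yw (D.cand r c)) = b :=
    congrArg Prod.snd hb3
  constructor
  · unfold N
    rw [hkey, hcu]
    omega
  · rw [zm_eq h]
    unfold zm'
    rw [hX, hkey, hcu, ← h5]
    exact hb

/-- (CP2) of 131 #13123. -/
theorem cp2 {Cl : List α → Prop} {kappa : ℕ} (h : D.Ok Cl kappa) {t : List α} (hCl : Cl t)
    (ht : D.Bm + D.D2 ≤ t.length) (hbad : D.Bad (t.take D.Bm)) (v : V) :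
    ∃ x, D.q0 ≤ x ∧ x ≤ D.p0 ∧ D.L2 (t.take x) v ∧ (D.R2 ((t.drop x).take D.D2)).isSome := by
  classical
  have hB := h.hB
  have hD := h.hD
  have hlX : (t.take D.p0).length = D.p0 := by rw [List.length_take]; omega
  obtain ⟨k, hk⟩ := h.complete (t.take D.p0) v hlX
  have hbad' : D.B' ((t.drop D.p0).take (D.Bm - D.p0)) := by
    have h1 := hbad
    unfold Bad at h1
    rwa [List.drop_take] at h1
  -- a copy which is not spoiled
  obtain ⟨x, hxC, hxs⟩ : ∃ x ∈ D.C k, ¬ ∃ c' ∈ D.CC, c' ≠ x ∧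
      D.B' ((t.drop (D.p0 + x - c')).take (D.Bm - D.p0)) := by
    by_contra hcon
    push Not at hcon
    have h1 := h.spoil t hCl ht hbad' (D.C k) (h.sub k) hcon
    have h2 := h.copies k
    omega
  have hxCC := h.sub k hxC
  obtain ⟨hq, hp⟩ := h.rng x hxCC
  obtain ⟨hl, hrho⟩ := hk x hxC
  rw [List.take_take, min_eq_left hp] at hl
  refine ⟨x, hq, hp, ⟨?_, hl⟩, ?_⟩
  · rw [List.length_take, min_eq_left (by omega)]; exact hxCC
  have hcand : ∀ c' ∈ D.CC, D.cand ((t.drop x).take D.D2) c' =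
      (t.drop (D.p0 + x - c')).take (D.Bm - D.p0) := by
    intro c' hc'
    have h1 := (h.rng c' hc').2
    unfold cand
    rw [List.drop_take, List.take_take, List.drop_drop, min_eq_left (by omega)]
    congr 2
    omega
  have hex : ∃ c, (c ∈ D.CC ∧ D.B' (D.cand ((t.drop x).take D.D2) c)) ∧
      ∀ c', c' ∈ D.CC → D.B' (D.cand ((t.drop x).take D.D2) c') → c' = c := by
    refine ⟨x, ⟨hxCC, ?_⟩, ?_⟩
    · rw [hcand x hxCC]
      rwa [show D.p0 + x - x = D.p0 by omega]
    · intro c' hc' hb'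
      by_contra hne
      rw [hcand c' hc'] at hb'
      exact hxs ⟨c', hc', hne, hb'⟩
  unfold R2
  rw [dif_pos hex]
  obtain ⟨⟨hc1, hc2⟩, hc3⟩ := hex.choose_spec
  have hcx : hex.choose = x := by
    symm
    apply hc3 x hxCC
    rw [hcand x hxCC]
    rwa [show D.p0 + x - x = D.p0 by omega]
  rw [hcx]
  have h6 : ((t.drop x).take D.D2).take (D.p0 - x) = (t.take D.p0).drop x := by
    rw [List.take_take, min_eq_left (by omega), List.drop_take]
  rw [h6]
  simpa using hrho

end Dat

end Crest.Agent.R320.Sch2_889
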