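import Crest.Agent.R320.Half1Def_961
import Crest.Agent.R320.ExactR_237

/-!
Row 320, CORE-4: the promise scheme (scheme 2 of 132 #12664) in the form of helper961's `Half1Def_961`.
-/

set_option autoImplicit false

namespace Crest.Agent.R320.Sch2_92

open Crest.Agent.R320.Half1_961 Crest.Agent.R320.ExactR_237

section push
variable {X Y Z : Type} [Finite X] [Finite Y]

theorem push_add (f : X → Y) (h h' : X → ZMod 2) : push f (h + h') = push f h + push f h' := by
  funext y
  simp only [push, Pi.add_apply, Finset.sum_add_distrib]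

theorem push_push (f : X → Y) (g : Y → Z) (h : X → ZMod 2) :
    push g (push f h) = push (fun x => g (f x)) h := by
  classical
  funext z
  simp only [push]
  letI := Fintype.ofFinite X
  letI := Fintype.ofFinite Y
  rw [← Finset.sum_fiberwise_of_maps_to (s := Finset.univ.filter (fun x : X => g (f x) = z))
    (t := Finset.univ.filter (fun y : Y => g y = z)) (g := f)]
  · apply Finset.sum_congr
    · ext y; simp
    · intro y hy
      have hy' : g y = z := by simpa using hy
      apply Finset.sum_congr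
      · ext x
        simp only [Finset.mem_filter, Finset.mem_univ, true_and]
        constructor
        · intro h1; exact ⟨by rw [h1, hy'], h1⟩
        · intro h1; exact h1.2
      · intro x _; rfl
  · intro x hx
    simpa using hx

end push

variable {α S : Type} [Monoid S] [Fintype S]

/-- right multiplication on `S`-tokens. -/
noncomputable def actV (v : S → ZMod 2) (s : S) : S → ZMod 2 := push (fun t => t * s) v

/-- action on second level tokens. -/
noncomputable def act2 (h : (S → ZMod 2) → ZMod 2) (s : S) : (S → ZMod 2) → ZMod 2 :=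
  push (fun v => actV v s) h

/-- zone map of the part `Y`. -/
noncomputable def tY (f : α → S) (dY : List α → S → ZMod 2) (Y : List α) (v : S → ZMod 2) :
    S → ZMod 2 := actV v (pr f Y) + dY Y

theorem T1_split (f : α → S) (ν1 dY : List α → S → ZMod 2) (p0 : ℕ)
    (hν : ∀ Z, p0 ≤ Z.length → ν1 Z = dY (Z.drop p0)) (X Y : List α) (hX : X.length = p0)
    (v : S → ZMod 2) :
    T1 (fun w => (w.map f).prod) ν1 (X ++ Y) v = tY f dY Y (actV v (pr f X)) := by
  unfold T1 tY actV
  rw [push_push, hν (X ++ Y) (by rw [List.length_append]; omega)]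
  have h1 : (X ++ Y).drop p0 = Y := by rw [← hX]; simp
  rw [h1]
  congr 2
  funext s
  simp only [pr, List.map_append, List.prod_append, mul_assoc]

theorem T2_split (f : α → S) (ν1 dY : List α → S → ZMod 2) (nu : List α → (S → ZMod 2) → ZMod 2)
    (p0 : ℕ) (hν : ∀ Z, p0 ≤ Z.length → ν1 Z = dY (Z.drop p0)) (X Y : List α)
    (hX : X.length = p0) (h : (S → ZMod 2) → ZMod 2) :
    T2 (T1 (fun w => (w.map f).prod) ν1)
      (fun Z => push (tY f dY (Z.drop p0)) (nu (Z.take p0))) (X ++ Y) h
      = push (tY f dY Y) (act2 h (pr f X) + nu X) := by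
  unfold T2 act2
  have h1 : (X ++ Y).drop p0 = Y := by rw [← hX]; simp
  have h2 : (X ++ Y).take p0 = X := by rw [← hX]; simp
  rw [push_add, push_push]
  simp only [h1, h2]
  congr 2
  funext v
  exact T1_split f ν1 dY p0 hν X Y hX v

/-- **SCHEME 2** (promise scheme). -/
theorem scheme2 (f : α → S) (R : ℕ) :
    ∃ K : ℕ, ∀ cc : ℕ → ℕ, (∀ i j, i < j → j < K → cc i < cc j) →
      ∀ (c : Chain α) (RF Bad : List α → Prop) (ν1 dY : List α → S → ZMod 2) (p0 n2 D2 : ℕ),
        (∀ k < K, c.n ≤ cc k ∧ cc k ≤ n2 ∧ cc k ≤ p0) → p0 ≤ D2 →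
        (∀ Q d, c.nx Q = some d → p0 < d) →
        (∀ Z, p0 ≤ Z.length → ν1 Z = dY (Z.drop p0)) →
        (∀ Q, RF Q → D2 + n2 ≤ Q.length → Bad Q → ∃ Amb : Finset ℕ, Amb.card < R ∧
          ∀ k < K, k ∉ Amb → ∃ b, ∀ k' < K, ∀ P' : List α, P'.length = cc k' →
            RF (P' ++ (Q.drop (cc k)).take D2) → Bad (P' ++ (Q.drop (cc k)).take D2) →
            k' = k ∧ c.nx (P' ++ (Q.drop (cc k)).take D2) = some (cc k + b)) →
        ∃ (ν2 : List α → (S → ZMod 2) → ZMod 2) (al2 : List α → Option ((S → ZMod 2) → ZMod 2))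
          (rl2 : List α → Option (ℕ × ((S → ZMod 2) → ZMod 2))),
          Exact c (T2 (T1 (fun w => (w.map f).prod) ν1) ν2) al2 D2 rl2
            (fun P U => RF (P ++ U) ∧ P.length ≤ n2 ∧ Bad (P ++ U)) ∧
          Complete c al2 D2 rl2 c.n n2 (fun Q => RF Q ∧ D2 + n2 ≤ Q.length ∧ Bad Q) := by
  classical
  obtain ⟨K, hK⟩ := exact_gadget α S ((S → ZMod 2) → ZMod 2) f act2 R
  refine ⟨K, ?_⟩
  intro cc hcc c RF Bad ν1 dY p0 n2 D2 hpos hp0 hlong hν hamb
  obtain ⟨lam, rho, nu, hsound, hcomp⟩ := hK cc hcc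
  -- uniqueness of the mark
  have hinj : ∀ k < K, ∀ k' < K, cc k = cc k' → k = k' := by
    intro k hk k' hk' h
    rcases lt_trichotomy k k' with h1 | h1 | h1
    · have := hcc k k' h1 hk'; omega
    · exact h1
    · have := hcc k' k h1 hk; omega
  let al2 : List α → Option ((S → ZMod 2) → ZMod 2) := fun P =>
    if h : ∃ k, k < K ∧ P.length = cc k then lam h.choose P else none
  let Pr : List α → ℕ × ℕ × ((S → ZMod 2) → ZMod 2) → Prop := fun U t =>
    t.1 < K ∧ (∀ k' < K, ∀ P' : List α, P'.length = cc k' → RF (P' ++ U) → Bad (P' ++ U) →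
      k' = t.1 ∧ c.nx (P' ++ U) = some (cc t.1 + t.2.1)) ∧
      rho t.1 (U.take (p0 - cc t.1)) 1 = some t.2.2
  let rl2 : List α → Option (ℕ × ((S → ZMod 2) → ZMod 2)) := fun U =>
    if h : ∃ t, Pr U t then
      some (h.choose.2.1, push (tY f dY ((U.take h.choose.2.1).drop (p0 - cc h.choose.1)))
        h.choose.2.2) else none
  refine ⟨fun Z => push (tY f dY (Z.drop p0)) (nu (Z.take p0) 1), al2, rl2, ?_, ?_⟩
  · intro P U v b Rt hU hnx hG hal hrl
    obtain ⟨hRF, hPn, hBad⟩ := hG
    simp only [al2] at hal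
    split_ifs at hal with h1
    simp only [rl2] at hrl
    split_ifs at hrl with h2
    obtain ⟨hk, hPk⟩ := h1.choose_spec
    obtain ⟨ht1, ht2, ht3⟩ := h2.choose_spec
    set k := h1.choose with hkdef
    set t := h2.choose with htdef
    obtain ⟨hkt, hnxt⟩ := ht2 k hk P hPk hRF hBad
    have hrl' := Option.some.inj hrl
    have hb : t.2.1 = b := congrArg Prod.fst hrl'
    have hRt : push (tY f dY ((U.take t.2.1).drop (p0 - cc t.1))) t.2.2 = Rt :=
      congrArg Prod.snd hrl'
    rw [← hkt, hb] at hnxt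
    rw [← hkt, hb] at hRt
    rw [← hkt] at ht3
    obtain ⟨hc1, hc2, hc3⟩ := hpos k hk
    have hlen := hlong _ _ hnxt
    have hvis := (c.vis _ _ hnxt).2
    rw [List.length_append] at hvis
    refine ⟨by rw [hPk]; exact hnxt, ?_⟩
    have hs := hsound k hk P (U.take (p0 - cc k)) 1 v t.2.2 hPk hal ht3
    rw [mul_one] at hs
    have hsplit : P ++ U.take b = (P ++ U.take (p0 - cc k)) ++ (U.take b).drop (p0 - cc k) := by
      rw [List.append_assoc]
      congr 1
      have : U.take (p0 - cc k) = (U.take b).take (p0 - cc k) := by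
        rw [List.take_take]; congr 1; omega
      rw [this, List.take_append_drop]
    rw [hsplit]
    have hX : (P ++ U.take (p0 - cc k)).length = p0 := by
      rw [List.length_append, List.length_take, hPk]; omega
    rw [T2_split f ν1 dY (fun X => nu X 1) p0 hν _ _ hX, ← hs]
    exact hRt
  · intro Q hQ v
    obtain ⟨hRF, hlen, hBad⟩ := hQ
    obtain ⟨Amb, hAmb, hgood⟩ := hamb Q hRF hlen hBad
    obtain ⟨I, hI, hIk⟩ := hcomp (Q.take p0) 1 v (by
      intro k hk
      rw [List.length_take]
      have := hpos k hk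
      omega)
    obtain ⟨k, hkI, hkA⟩ := Finset.exists_mem_notMem_of_card_lt_card (lt_of_lt_of_le hAmb hI)
    obtain ⟨hk, hlamk, hrhok⟩ := hIk k hkI
    obtain ⟨b, hb⟩ := hgood k hk hkA
    obtain ⟨hc1, hc2, hc3⟩ := hpos k hk
    obtain ⟨w, hw⟩ := Option.isSome_iff_exists.1 hrhok
    have hPlen : (Q.take (cc k)).length = cc k := by rw [List.length_take]; omega
    refine ⟨Q.take (cc k), (Q.drop (cc k)).take D2, (Q.drop (cc k)).drop D2, ?_, ?_, ?_, ?_, ?_,
      ?_, ?_⟩
    · rw [List.take_append_drop, List.take_append_drop]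
    · rw [List.length_take, List.length_drop]; omega
    · rw [hPlen]; exact hc1
    · rw [hPlen]; exact hc2
    · cases hn : c.nx (Q.take (cc k)) with
      | none => rfl
      | some d =>
        exfalso
        have h1 := hlong _ _ hn
        have h2 := (c.vis _ _ hn).2
        omega
    · have hex : ∃ k', k' < K ∧ (Q.take (cc k)).length = cc k' := ⟨k, hk, hPlen⟩
      simp only [al2]
      rw [dif_pos hex]
      have hk' : hex.choose = k := by
        obtain ⟨h1, h2⟩ := hex.choose_spec
        exact (hinj k hk _ h1 (by rw [← h2, hPlen])).symm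
      rw [hk']
      rw [List.take_take, min_eq_left hc3] at hlamk
      exact hlamk
    · have hex : ∃ t, Pr ((Q.drop (cc k)).take D2) t := by
        refine ⟨(k, b, w), hk, hb, ?_⟩
        have h1 : ((Q.drop (cc k)).take D2).take (p0 - cc k) = (Q.take p0).drop (cc k) := by
          rw [List.take_take, List.drop_take]
          congr 1
          omega
        show rho k (((Q.drop (cc k)).take D2).take (p0 - cc k)) 1 = some w
        rw [h1]
        exact hw
      simp only [rl2]
      rw [dif_pos hex]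
      rfl

end Crest.Agent.R320.Sch2_92
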