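import Crest.Agent.R320.ExactR_237

/-!
# Row 320, scheme 2 (promise ruler) in the one-token form of helper131's post 13123 (SC2), (CP2)

Zone text `y` of length `Bm` from an anchor; front part `y.take p0`, back part `y.drop p0`.
`zmap y v = act (act v (phi front) + nu2 front) (phi Y) + nu1 Y`, `Y` = the back part up to the
next anchor `N0 (y.drop p0)`.  Everything on the right side is read off from the back part.
-/

set_option autoImplicit false

namespace Crest.Agent.R320.Sch2_965

open Crest.Agent.R320.ExactR_237 (pr pr_append exact_gadget)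

section defs
variable {α S V : Type} [Monoid S] [AddCommGroup V]

/-- the back part of the zone: from `p0` to the next anchor -/
def bk (p0 : ℕ) (N0 : List α → ℕ) (Z : List α) : List α := Z.take (N0 Z - p0)

/-- the zone map -/
def zmap (f : α → S) (act : V → S → V) (p0 : ℕ) (nu2 nu1 : List α → V) (N0 : List α → ℕ)
    (y : List α) (v : V) : V :=
  act (act v (pr f (y.take p0)) + nu2 (y.take p0)) (pr f (bk p0 N0 (y.drop p0)))
    + nu1 (bk p0 N0 (y.drop p0))

/-- total noise of the zone -/
def nuTot (f : α → S) (act : V → S → V) (p0 : ℕ) (nu2 nu1 : List α → V) (N0 : List α → ℕ)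
    (y : List α) : V :=
  act (nu2 (y.take p0)) (pr f (bk p0 N0 (y.drop p0))) + nu1 (bk p0 N0 (y.drop p0))

theorem take_front (p0 N : ℕ) (y : List α) (h : p0 ≤ N) :
    y.take p0 ++ (y.drop p0).take (N - p0) = y.take N := by
  have h1 : N = p0 + (N - p0) := by omega
  conv_rhs => rw [h1]
  rw [List.take_add]

/-- affine form of the zone map: `act v (phi (zone)) + noise` -/
theorem zmap_eq (f : α → S) (act : V → S → V) (ha1 : ∀ v s t, act (act v s) t = act v (s * t))
    (ha2 : ∀ v w s, act (v + w) s = act v s + act w s) (p0 : ℕ) (nu2 nu1 : List α → V)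
    (N0 : List α → ℕ) (hN : ∀ Z, p0 ≤ N0 Z) (y : List α) (v : V) :
    zmap f act p0 nu2 nu1 N0 y v
      = act v (pr f (y.take (N0 (y.drop p0)))) + nuTot f act p0 nu2 nu1 N0 y := by
  unfold zmap nuTot bk
  rw [ha2, ha1, ← pr_append, take_front _ _ _ (hN _), add_assoc]

open Classical in
/-- right label of scheme 2: the index `k` must be the only one whose zone is bad -/
noncomputable def R2 (f : α → S) (act : V → S → V) (K : ℕ) (c : ℕ → ℕ)
    (rho : ℕ → List α → S → Option V) (p0 Bm : ℕ) (N0 : List α → ℕ) (nu1 : List α → V)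
    (BadT : List α → Prop) (r : List α) : Option (ℕ × V) :=
  if h : ∃ k, k < K ∧ BadT ((r.drop (p0 - c k)).take (Bm - p0)) ∧
      ∀ k' < K, BadT ((r.drop (p0 - c k')).take (Bm - p0)) → k' = k then
    (rho h.choose (r.take (p0 - c h.choose)) 1).map fun b2 =>
      (N0 ((r.drop (p0 - c h.choose)).take (Bm - p0)) - c h.choose,
        act b2 (pr f (bk p0 N0 ((r.drop (p0 - c h.choose)).take (Bm - p0)))) +
          nu1 (bk p0 N0 ((r.drop (p0 - c h.choose)).take (Bm - p0))))
  else none

theorem R2_eq (f : α → S) (act : V → S → V) (K : ℕ) (c : ℕ → ℕ)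
    (rho : ℕ → List α → S → Option V) (p0 Bm : ℕ) (N0 : List α → ℕ) (nu1 : List α → V)
    (BadT : List α → Prop) (r : List α) (k : ℕ) (hk : k < K)
    (hb : BadT ((r.drop (p0 - c k)).take (Bm - p0)))
    (hu : ∀ k' < K, BadT ((r.drop (p0 - c k')).take (Bm - p0)) → k' = k) :
    R2 f act K c rho p0 Bm N0 nu1 BadT r = (rho k (r.take (p0 - c k)) 1).map fun b2 =>
      (N0 ((r.drop (p0 - c k)).take (Bm - p0)) - c k,
        act b2 (pr f (bk p0 N0 ((r.drop (p0 - c k)).take (Bm - p0)))) +
          nu1 (bk p0 N0 ((r.drop (p0 - c k)).take (Bm - p0)))) := by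
  classical
  have h : ∃ k, k < K ∧ BadT ((r.drop (p0 - c k)).take (Bm - p0)) ∧
      ∀ k' < K, BadT ((r.drop (p0 - c k')).take (Bm - p0)) → k' = k := ⟨k, hk, hb, hu⟩
  have e : h.choose = k := hu _ h.choose_spec.1 h.choose_spec.2.1
  unfold R2
  rw [dif_pos h, e]

theorem R2_some (f : α → S) (act : V → S → V) (K : ℕ) (c : ℕ → ℕ)
    (rho : ℕ → List α → S → Option V) (p0 Bm : ℕ) (N0 : List α → ℕ) (nu1 : List α → V)
    (BadT : List α → Prop) (r : List α) (db : ℕ × V)
    (h : R2 f act K c rho p0 Bm N0 nu1 BadT r = some db) :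
    ∃ k, k < K ∧ BadT ((r.drop (p0 - c k)).take (Bm - p0)) ∧
      ∀ k' < K, BadT ((r.drop (p0 - c k')).take (Bm - p0)) → k' = k := by
  classical
  by_contra hn
  unfold R2 at h
  rw [dif_neg hn] at h
  exact absurd h (by simp)

end defs

open Classical in
/-- **Scheme 2** : soundness at every bad zone, completeness at every bad zone at which fewer than
`R` places are spoiled. -/
theorem scheme2 {α S V : Type} [Monoid S] [Fintype S] [Fintype V] [AddCommGroup V]
    (f : α → S) (act : V → S → V) (R : ℕ) :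
    ∃ K : ℕ, ∀ c : ℕ → ℕ, (∀ i j, i < j → j < K → c i < c j) →
    ∀ p0 : ℕ, (∀ k < K, c k ≤ p0) →
    ∃ (nu2 : List α → V) (L2 : List α → V → Prop),
      (∀ u v, L2 u v → ∃ k < K, u.length = c k) ∧
      ∀ (Bm D2 : ℕ) (N0 : List α → ℕ) (nu1 : List α → V) (BadT : List α → Prop),
        p0 ≤ Bm → Bm ≤ D2 → (∀ Z, p0 ≤ N0 Z) →
      ∃ R2 : List α → Option (ℕ × V),
        (∀ (u r : List α) (v : V) (d : ℕ) (b : V), r.length = D2 →
          BadT (((u ++ r).take Bm).drop p0) → L2 u v → R2 r = some (d, b) →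
          N0 (((u ++ r).take Bm).drop p0) = u.length + d ∧
            zmap f act p0 nu2 nu1 N0 ((u ++ r).take Bm) v = b) ∧
        (∀ t : List α, Bm + D2 ≤ t.length → BadT ((t.take Bm).drop p0) →
          ((Finset.range K).filter fun k => ∃ k' < K, k' ≠ k ∧
            BadT ((t.drop (p0 + c k - c k')).take (Bm - p0))).card < R →
          ∀ v, ∃ k < K, L2 (t.take (c k)) v ∧ (R2 ((t.drop (c k)).take D2)).isSome) := by
  obtain ⟨K, hK⟩ := exact_gadget α S V f act R
  refine ⟨K, fun c hc p0 hp0 => ?_⟩
  obtain ⟨lam, rho, nu, hsound, hcomp⟩ := hK c hc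
  refine ⟨fun X => nu X 1, fun u v => ∃ k < K, u.length = c k ∧ lam k u = some v, ?_, ?_⟩
  · rintro u v ⟨k, hk, h1, -⟩
    exact ⟨k, hk, h1⟩
  intro Bm D2 N0 nu1 BadT hpB hBD hN
  refine ⟨R2 f act K c rho p0 Bm N0 nu1 BadT, ?_, ?_⟩
  · intro u r v d b hr hbad hL hR
    obtain ⟨k, hk, huk, hlam⟩ := hL
    have hup : u.length ≤ p0 := by rw [huk]; exact hp0 k hk
    have e1 : ((u ++ r).take Bm).drop p0 = (r.drop (p0 - c k)).take (Bm - p0) := by
      rw [List.drop_take, List.drop_append, List.drop_of_length_le hup, List.nil_append, huk]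
    obtain ⟨k0, hk0, hb0, hu0⟩ := R2_some f act K c rho p0 Bm N0 nu1 BadT r (d, b) hR
    have hkk : k = k0 := hu0 k hk (by rw [← e1]; exact hbad)
    subst hkk
    rw [R2_eq f act K c rho p0 Bm N0 nu1 BadT r k hk hb0 hu0] at hR
    rw [Option.map_eq_some_iff] at hR
    obtain ⟨b2, hb2, hpair⟩ := hR
    have hd := congrArg Prod.fst hpair
    have hb := congrArg Prod.snd hpair
    simp only at hd hb
    have hs := hsound k hk u (r.take (p0 - c k)) 1 v b2 huk hlam hb2
    rw [mul_one] at hs
    have e2 : ((u ++ r).take Bm).take p0 = u ++ r.take (p0 - c k) := by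
      rw [List.take_take, min_eq_left hpB, List.take_append, List.take_of_length_le hup, huk]
    constructor
    · rw [e1, ← hd, huk]
      have := hN ((r.drop (p0 - c k)).take (Bm - p0))
      have := hp0 k hk
      omega
    · unfold zmap
      rw [e2, e1, ← hb, ← hs]
  · intro t ht hbad hsp v
    have hlen : (t.take p0).length = p0 := by
      rw [List.length_take]; omega
    obtain ⟨I, hI, hI2⟩ := hcomp (t.take p0) 1 v (fun k hk => by rw [hlen]; exact hp0 k hk)
    have hex : ∃ k ∈ I, k ∉ ((Finset.range K).filter fun k => ∃ k' < K, k' ≠ k ∧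
            BadT ((t.drop (p0 + c k - c k')).take (Bm - p0))) := by
      by_contra hcon
      push Not at hcon
      have := Finset.card_le_card (fun k hk => hcon k hk : I ⊆ _)
      omega
    obtain ⟨k, hkI, hks⟩ := hex
    obtain ⟨hk, hlam, hrho⟩ := hI2 k hkI
    have hck := hp0 k hk
    have hun : ∀ k' < K, BadT ((t.drop (p0 + c k - c k')).take (Bm - p0)) → k' = k := by
      intro k' hk' hb
      by_contra hne
      exact hks (Finset.mem_filter.2 ⟨Finset.mem_range.2 hk, k', hk', hne, hb⟩)
    have e3 : ∀ k' < K, (((t.drop (c k)).take D2).drop (p0 - c k')).take (Bm - p0)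
        = (t.drop (p0 + c k - c k')).take (Bm - p0) := by
      intro k' hk'
      have h1 := hp0 k' hk'
      rw [List.drop_take, List.take_take, List.drop_drop]
      congr 1
      · omega
      · congr 1; omega
    have e4 : (((t.drop (c k)).take D2).drop (p0 - c k)).take (Bm - p0) = (t.take Bm).drop p0 := by
      rw [e3 k hk, List.drop_take]
      congr 2
      omega
    refine ⟨k, hk, ⟨k, hk, ?_, ?_⟩, ?_⟩
    · rw [List.length_take]; omega
    · have h2 : (t.take p0).take (c k) = t.take (c k) := by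
        rw [List.take_take, min_eq_left hck]
      rw [h2] at hlam
      exact hlam
    · rw [R2_eq f act K c rho p0 Bm N0 nu1 BadT _ k hk (by rw [e4]; exact hbad)
        (fun k' hk' hb => hun k' hk' (by rw [← e3 k' hk']; exact hb))]
      rw [Option.isSome_map]
      have h3 : ((t.drop (c k)).take D2).take (p0 - c k) = (t.take p0).drop (c k) := by
        rw [List.take_take, List.drop_take]
        congr 1
        omega
      rw [h3]
      exact hrho

end Crest.Agent.R320.Sch2_965
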