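import Crest.Agent.R320.ExactR_237

/-!
# Row 320, scheme 2 (promise ruler), block-code form (lead's plan 13253, P3)

Blocks `X ∈ XX` (prefix code, unbounded), front part `X.take p0`, back part `X.drop p0`,
zone map `T v X = act (act v (phi front) + nu2 front) (phi back) + nu1 back`.
Cut places `c k` in the front part, right word = rest of the block ++ one more full block.
-/

set_option autoImplicit false

namespace Crest.Agent.R320.Sch2b_965

open Crest.Agent.R320.ExactR_237 (pr pr_append exact_gadget)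

section defs
variable {α S V : Type} [Monoid S] [AddCommGroup V]

/-- the zone map -/
def T (f : α → S) (act : V → S → V) (p0 : ℕ) (nu2 nu1 : List α → V) (v : V) (X : List α) : V :=
  act (act v (pr f (X.take p0)) + nu2 (X.take p0)) (pr f (X.drop p0)) + nu1 (X.drop p0)

/-- total noise of the zone -/
def nuTot (f : α → S) (act : V → S → V) (p0 : ℕ) (nu2 nu1 : List α → V) (X : List α) : V :=
  act (nu2 (X.take p0)) (pr f (X.drop p0)) + nu1 (X.drop p0)

theorem T_eq (f : α → S) (act : V → S → V) (ha1 : ∀ v s t, act (act v s) t = act v (s * t))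
    (ha2 : ∀ v w s, act (v + w) s = act v s + act w s) (p0 : ℕ) (nu2 nu1 : List α → V)
    (v : V) (X : List α) :
    T f act p0 nu2 nu1 v X = act v (pr f X) + nuTot f act p0 nu2 nu1 X := by
  unfold T nuTot
  rw [ha2, ha1, ← pr_append, List.take_append_drop, add_assoc]

/-- remainders of blocks behind a piece of length `j` -/
def XR (XX : Set (List α)) (j : ℕ) : Set (List α) := {Q | ∀ P : List α, P.length = j → P ++ Q ∈ XX}

/-- candidate `k` sees in `Q` a bad block -/
def Cand (XX : Set (List α)) (BadT : List α → Prop) (p0 : ℕ) (c : ℕ → ℕ) (Q : List α) (k : ℕ) :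
    Prop :=
  ∃ Q1, Q1 <+: Q ∧ Q1 ∈ XR XX (c k) ∧ BadT (Q1.drop (p0 - c k))

/-- right words of scheme 2 -/
def RQ2 (f : α → S) (act : V → S → V) (K : ℕ) (c : ℕ → ℕ) (rho : ℕ → List α → S → Option V)
    (p0 : ℕ) (XX : Set (List α)) (nu2 nu1 : List α → V) (BadT : List α → Prop) (b : V) :
    Set (List α) :=
  {Q | ∃ k < K, ∃ Q1 X2 : List α, Q = Q1 ++ X2 ∧ Q1 ∈ XR XX (c k) ∧ X2 ∈ XX ∧
    BadT (Q1.drop (p0 - c k)) ∧ (∀ k' < K, Cand XX BadT p0 c Q k' → k' = k) ∧
    ∃ b2, rho k (Q1.take (p0 - c k)) 1 = some b2 ∧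
      b = T f act p0 nu2 nu1 (act b2 (pr f (Q1.drop (p0 - c k))) + nu1 (Q1.drop (p0 - c k))) X2}

end defs

open Classical in
/-- **Scheme 2, block form.** -/
theorem scheme2b {α S V : Type} [Monoid S] [Fintype S] [Fintype V] [AddCommGroup V]
    (f : α → S) (act : V → S → V) (R : ℕ) :
    ∃ K : ℕ, ∀ c : ℕ → ℕ, (∀ i j, i < j → j < K → c i < c j) →
    ∀ p0 : ℕ, (∀ k < K, c k ≤ p0) →
    ∃ (nu2 : List α → V) (lam : ℕ → List α → Option V) (rho : ℕ → List α → S → Option V),
      ∀ (XX : Set (List α)) (nu1 : List α → V) (BadT : List α → Prop),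
        (∀ X ∈ XX, ∀ Y ∈ XX, X <+: Y → X = Y) → (∀ X ∈ XX, p0 ≤ X.length) →
        (∀ P P' Q : List α, P.length = P'.length → P.length ≤ p0 → P ++ Q ∈ XX → P' ++ Q ∈ XX) →
        (∀ k < K, ∀ k' < K, ∀ Q1 ∈ XR XX (c k), ∀ X2 ∈ XX, ∀ P : List α, P.length = c k' →
          ∃ X ∈ XX, X <+: P ++ (Q1 ++ X2)) →
        -- soundness
        (∀ (P Q : List α) (v b : V) (k : ℕ), k < K → P.length = c k → lam k P = some v →
          Q ∈ RQ2 f act K c rho p0 XX nu2 nu1 BadT b →
          (∀ X ∈ XX, X <+: P ++ Q → BadT (X.drop p0)) →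
          ∃ X ∈ XX, ∃ X2 ∈ XX, P ++ Q = X ++ X2 ∧ P <+: X ∧
            T f act p0 nu2 nu1 (T f act p0 nu2 nu1 v X) X2 = b) ∧
        -- completeness
        (∀ (X X2 : List α), X ∈ XX → X2 ∈ XX → BadT (X.drop p0) →
          ((Finset.range K).filter fun k => ∃ k' < K, k' ≠ k ∧
            Cand XX BadT p0 c (X.drop (c k) ++ X2) k').card < R →
          ∀ v, ∃ k < K, ∃ P Q1, X = P ++ Q1 ∧ P.length = c k ∧ lam k P = some v ∧
            Q1 ++ X2 ∈ RQ2 f act K c rho p0 XX nu2 nu1 BadT
              (T f act p0 nu2 nu1 (T f act p0 nu2 nu1 v X) X2)) := by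
  obtain ⟨K, hK⟩ := exact_gadget α S V f act R
  refine ⟨K, fun c hc p0 hp0 => ?_⟩
  obtain ⟨lam, rho, nu, hsound, hcomp⟩ := hK c hc
  refine ⟨fun X => nu X 1, lam, rho, ?_⟩
  intro XX nu1 BadT hpc hlen hloc hvis
  -- the computation for a cut at place `c k`
  have key : ∀ k < K, ∀ (P Q1 : List α) (v b2 : V), P.length = c k → lam k P = some v →
      rho k (Q1.take (p0 - c k)) 1 = some b2 →
      T f act p0 (fun X => nu X 1) nu1 v (P ++ Q1)
        = act b2 (pr f (Q1.drop (p0 - c k))) + nu1 (Q1.drop (p0 - c k)) := by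
    intro k hk P Q1 v b2 hP hl hr
    have hs := hsound k hk P (Q1.take (p0 - c k)) 1 v b2 hP hl hr
    rw [mul_one] at hs
    have hle : P.length ≤ p0 := by rw [hP]; exact hp0 k hk
    have e1 : (P ++ Q1).take p0 = P ++ Q1.take (p0 - c k) := by
      rw [List.take_append, List.take_of_length_le hle, hP]
    have e2 : (P ++ Q1).drop p0 = Q1.drop (p0 - c k) := by
      rw [List.drop_append, List.drop_of_length_le hle, List.nil_append, hP]
    unfold T
    rw [e1, e2, ← hs]
  refine ⟨?_, ?_⟩
  · intro P Q v b k hk hP hlam hQ hprom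
    obtain ⟨k0, hk0, Q1, X2, rfl, hQ1, hX2, hbad, huniq, b2, hrho, rfl⟩ := hQ
    obtain ⟨X, hX, hXp⟩ := hvis k0 hk0 k hk Q1 hQ1 X2 hX2 P hP
    have hbX := hprom X hX hXp
    have hle : P.length ≤ X.length := by
      have := hlen X hX
      have := hp0 k hk
      omega
    have hPX : P <+: X := List.prefix_of_prefix_length_le (List.prefix_append P _) hXp hle
    obtain ⟨Q1', rfl⟩ := hPX
    have hQ1'p : Q1' <+: Q1 ++ X2 := by
      rwa [List.prefix_append_right_inj] at hXp
    have hplen : P.length ≤ p0 := by rw [hP]; exact hp0 k hk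
    have hQ1' : Q1' ∈ XR XX (c k) := fun P' hP' => hloc P P' Q1' (by rw [hP, hP']) hplen hX
    have e2 : (P ++ Q1').drop p0 = Q1'.drop (p0 - c k) := by
      rw [List.drop_append, List.drop_of_length_le hplen, List.nil_append, hP]
    rw [e2] at hbX
    have hkk : k = k0 := huniq k hk ⟨Q1', hQ1'p, hQ1', hbX⟩
    subst hkk
    have hQQ : Q1' = Q1 := by
      have h1 : P ++ Q1 ∈ XX := hQ1 P hP
      rcases List.prefix_or_prefix_of_prefix hQ1'p (List.prefix_append Q1 X2) with h | h
      · have := hpc _ hX _ h1 (by rwa [List.prefix_append_right_inj])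
        exact List.append_cancel_left this
      · have := hpc _ h1 _ hX (by rwa [List.prefix_append_right_inj])
        exact (List.append_cancel_left this).symm
    subst hQQ
    refine ⟨P ++ Q1', hX, X2, hX2, by rw [List.append_assoc], List.prefix_append P _, ?_⟩
    rw [key k hk P Q1' v b2 hP hlam hrho]
  · intro X X2 hX hX2 hbad hsp v
    have hXl := hlen X hX
    have hlen' : (X.take p0).length = p0 := by
      rw [List.length_take]; omega
    obtain ⟨I, hI, hI2⟩ := hcomp (X.take p0) 1 v (fun k hk => by rw [hlen']; exact hp0 k hk)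
    have hex : ∃ k ∈ I, k ∉ ((Finset.range K).filter fun k => ∃ k' < K, k' ≠ k ∧
            Cand XX BadT p0 c (X.drop (c k) ++ X2) k') := by
      by_contra hcon
      push Not at hcon
      have := Finset.card_le_card (fun k hk => hcon k hk : I ⊆ _)
      omega
    obtain ⟨k, hkI, hks⟩ := hex
    obtain ⟨hk, hlam, hrho⟩ := hI2 k hkI
    have hck := hp0 k hk
    have hun : ∀ k' < K, Cand XX BadT p0 c (X.drop (c k) ++ X2) k' → k' = k := by
      intro k' hk' hb
      by_contra hne
      exact hks (Finset.mem_filter.2 ⟨Finset.mem_range.2 hk, k', hk', hne, hb⟩)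
    have hPl : (X.take (c k)).length = c k := by
      rw [List.length_take]; omega
    have hlam' : lam k (X.take (c k)) = some v := by
      rw [List.take_take, min_eq_left hck] at hlam
      exact hlam
    have hr' : (rho k ((X.drop (c k)).take (p0 - c k)) 1).isSome := by
      have h3 : (X.drop (c k)).take (p0 - c k) = (X.take p0).drop (c k) := by
        rw [List.drop_take]
      rw [h3]
      exact hrho
    obtain ⟨b2, hb2⟩ := Option.isSome_iff_exists.1 hr'
    have hmem : X.drop (c k) ∈ XR XX (c k) := by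
      intro P' hP'
      exact hloc (X.take (c k)) P' (X.drop (c k)) (by rw [hPl, hP']) (by rw [hPl]; exact hck)
        (by rw [List.take_append_drop]; exact hX)
    have hdr : (X.drop (c k)).drop (p0 - c k) = X.drop p0 := by
      rw [List.drop_drop]; congr 1; omega
    refine ⟨k, hk, X.take (c k), X.drop (c k), (List.take_append_drop _ _).symm, hPl, hlam', ?_⟩
    refine ⟨k, hk, X.drop (c k), X2, rfl, hmem, hX2, by rw [hdr]; exact hbad, hun, b2, hb2, ?_⟩
    have hk2 := key k hk (X.take (c k)) (X.drop (c k)) v b2 hPl hlam' hb2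
    rw [List.take_append_drop] at hk2
    rw [hk2]

end Crest.Agent.R320.Sch2b_965
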