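import Crest.Agent.R320.Sch2_232

/-!
# Row 320: scheme 1, completeness off the bad modes (helper232)
-/

set_option autoImplicit false
set_option linter.unusedVariables false
set_option linter.unusedSectionVars false

namespace Crest.Agent.R320.Sch3_232

open Crest.Agent.R320.Half1_961 Crest.Agent.R320.Sch1_232 Crest.Agent.R320.Sch2_232 Finset

variable {α : Type*} {S V W : Type*} [Monoid S] [AddCommGroup V] [AddCommGroup W]

variable (φ : List α → S) (act : V → S → V) (R Ro : List α → Prop) (n no : ℕ) (m : ℕ)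
  (e : ℕ → S → W) (F : S → W → V)
  (nmL nmR : ℕ → Option (Nm m S V W)) (Ms : Finset ℕ) (M' p0 lam kap Mp : ℕ) (thr : ℕ → ℕ)

/-- level ends -/
def AA (M' p0 lam : ℕ) (j : ℕ) : ℕ := p0 + M' * (lam * j)

theorem WL_congr {Q Q' : List α} {A : ℕ → ℕ} {i : ℕ}
    (h : ∀ j < i, blk φ R A Q j = blk φ R A Q' j) : WL φ R A e Q i = WL φ R A e Q' i := by
  unfold WL
  exact Finset.sum_congr rfl fun j hj => by rw [h j (Finset.mem_range.1 hj)]

theorem WR_congr {Q Q' : List α} {A : ℕ → ℕ} {i : ℕ}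
    (h : ∀ j, i < j → j < m → blk φ R A Q j = blk φ R A Q' j) :
    WR φ R A m e Q i = WR φ R A m e Q' i := by
  unfold WR
  refine Finset.sum_congr rfl fun j hj => ?_
  rw [Finset.mem_Ico] at hj
  rw [h j (by omega) hj.2]

/-- the reset step: two legal texts with a common right part -/
theorem reset (hφ : ∀ u v, φ (u ++ v) = φ u * φ v)
    (hR : Rule R n) (hM' : 0 < M') (hlam : kap + 2 * Mp ≤ lam)
    {P P' Y : List α} {t t' : ℕ} {c : Nm m S V W}
    (hP : LL φ act R (AA M' p0 lam) m e F nmL M' p0 lam kap Mp P t c)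
    (hP' : LL φ act R (AA M' p0 lam) m e F nmL M' p0 lam kap Mp P' t' c)
    (hex : ∀ j ≤ m, Fst R (P ++ Y) (AA M' p0 lam j) (fst R (P ++ Y) (AA M' p0 lam j)))
    (hclean : ∀ j ≤ m, ∀ s, R ((P ++ Y).drop s) →
      ¬ (AA M' p0 lam j < s + M' * Mp ∧ s < AA M' p0 lam j + M' * Mp))
    (hh : c.2.2.2.1 = φ ((P ++ Y).drop (fst R (P ++ Y) (AA M' p0 lam (c.1 + 1)))))
    (hwr : c.2.2.2.2.1 = WR φ R (AA M' p0 lam) m e (P ++ Y) c.1) :
    ∃ z, φ (P' ++ Y) = c.2.1 * z * c.2.2.2.1 ∧
      WL φ R (AA M' p0 lam) e (P' ++ Y) m = c.2.2.1 + e c.1 z + c.2.2.2.2.1 := by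
  set A := AA M' p0 lam with hA
  obtain ⟨a1, a2, a3, a4, a5, a6, a7, a8, a9⟩ := hP
  obtain ⟨b1, b2, b3, b4, b5, b6, b7, b8, b9⟩ := hP'
  obtain ⟨i, hi⟩ : ∃ i : ℕ, i = (c.1 : ℕ) := ⟨_, rfl⟩
  have him : i < m := hi ▸ c.1.isLt
  rw [← hi] at a2 a7 a8 a9 b2 b7 b8 b9 hh hwr
  have hlam0 : 0 < lam := by omega
  -- positions
  have ht : t = lam * i + t % lam := by
    have := Nat.div_add_mod t lam; rw [a2] at this; omega
  have ht' : t' = lam * i + t' % lam := by
    have := Nat.div_add_mod t' lam; rw [b2] at this; omega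
  have hcl1 : M' * t < M' * t' + M' * Mp := by
    rw [← Nat.mul_add]; exact Nat.mul_lt_mul_of_pos_left (by omega) hM'
  have hcl2 : M' * t' < M' * t + M' * Mp := by
    rw [← Nat.mul_add]; exact Nat.mul_lt_mul_of_pos_left (by omega) hM'
  have hle : ∀ j, i < j → P.length ≤ A j ∧ P'.length ≤ A j := by
    intro j hj
    have h1 : lam * (i + 1) ≤ lam * j := Nat.mul_le_mul_left _ hj
    have h2 : t ≤ lam * (i + 1) := by rw [Nat.mul_add]; omega
    have h3 : t' ≤ lam * (i + 1) := by rw [Nat.mul_add]; omega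
    have h4 := Nat.mul_le_mul_left M' (h2.trans h1)
    have h5 := Nat.mul_le_mul_left M' (h3.trans h1)
    constructor
    · show P.length ≤ p0 + M' * (lam * j); omega
    · show P'.length ≤ p0 + M' * (lam * j); omega
  -- later level ends
  have hlate : ∀ j, i < j → j ≤ m → Fst R (P' ++ Y) (A j)
      (P'.length + (fst R (P ++ Y) (A j) - P.length)) ∧ P.length ≤ fst R (P ++ Y) (A j) := by
    intro j hj hjm
    have h1 := hex j hjm
    have h2 := hle j hj
    exact ⟨hR.Fst_transfer h1 h2.1 h2.2 (by omega) (by omega) (hclean j hjm),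
      le_trans h2.1 h1.1⟩
  have hblkR : ∀ j, i < j → j < m → blk φ R A (P' ++ Y) j = blk φ R A (P ++ Y) j := by
    intro j hj hjm
    obtain ⟨h1, h2⟩ := hlate j hj hjm.le
    obtain ⟨h3, h4⟩ := hlate (j + 1) (by omega) hjm
    unfold blk
    rw [fst_eq h1, fst_eq h3, seg_right]
    conv_rhs => rw [show fst R (P ++ Y) (A j) = P.length + (fst R (P ++ Y) (A j) - P.length) by omega,
      show fst R (P ++ Y) (A (j + 1)) = P.length + (fst R (P ++ Y) (A (j + 1)) - P.length) by omega,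
      seg_right]
  -- earlier level ends
  have hearly : ∀ j ≤ i, fst R (P' ++ Y) (A j) = fst R P' (A j) := fun j hj =>
    fst_eq (hR.Fst_left (b7 j hj))
  have hvis : ∀ j ≤ i, fst R P' (A j) ≤ P'.length := fun j hj => by
    have := hR.vis (b7 j hj).2.1; omega
  have hmono : ∀ j < i, fst R P' (A j) ≤ fst R P' (A (j + 1)) := by
    intro j hj
    by_contra hc
    push Not at hc
    have h1 := b7 j hj.le
    have h2 := b7 (j + 1) hj
    have h3 : A j ≤ A (j + 1) := by
      show p0 + M' * (lam * j) ≤ p0 + M' * (lam * (j + 1))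
      have := Nat.mul_le_mul_left M' (Nat.mul_le_mul_left lam (Nat.le_add_right j 1))
      omega
    exact h1.2.2 _ (h3.trans h2.1) hc h2.2.1
  have hWLe : WL φ R A e (P' ++ Y) i = WL φ R A e P' i := by
    refine WL_congr φ R e fun j hj => ?_
    unfold blk
    rw [hearly j hj.le, hearly (j + 1) hj, seg_left (hmono j hj) (hvis _ hj)]
  refine ⟨blk φ R A (P' ++ Y) i, ?_, ?_⟩
  · have h1 := hlate (i + 1) (by omega) him
    have h2 : fst R (P' ++ Y) (A i) ≤ fst R (P' ++ Y) (A (i + 1)) := by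
      rw [hearly i le_rfl, fst_eq h1.1]
      have := hvis i le_rfl
      omega
    conv_lhs => rw [split_seg (P' ++ Y) h2, hφ, hφ]
    have e1 : (P' ++ Y).take (fst R (P' ++ Y) (A i)) = P'.take (fst R P' (A i)) := by
      rw [hearly i le_rfl, List.take_append_of_le_length (hvis i le_rfl)]
    have e2 : (P' ++ Y).drop (fst R (P' ++ Y) (A (i + 1))) =
        (P ++ Y).drop (fst R (P ++ Y) (A (i + 1))) := by
      rw [fst_eq h1.1, drop_shift]
      conv_rhs => rw [show fst R (P ++ Y) (A (i + 1)) =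
        P.length + (fst R (P ++ Y) (A (i + 1)) - P.length) by omega, drop_shift]
    rw [e1, e2, b8, hh]
    rfl
  · rw [WL_tot φ R A m e _ him, hWLe, b9, hwr, ← hi]
    rw [WR_congr φ R m e hblkR]


/-- **SCHEME 1, completeness off the bad modes.** -/
theorem complete1 (hφ : ∀ u v, φ (u ++ v) = φ u * φ v)
    (hR : Rule R n) (hRo : Rule Ro no) (hM' : 0 < M') (hMp : 0 < Mp) (hlam : kap + 2 * Mp ≤ lam)
    (hp0 : M' ∣ p0)
    (Gs z0 N1 D Tmax : ℕ) (hkap : Gs + n ≤ M' * kap)
    (hz0 : ∀ r, z0 ≤ thr r) (hz1 : p0 + M' * (lam * m) + Gs + n ≤ z0)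
    (hN1 : M' * (lam * m) ≤ N1) (hD : Tmax + no ≤ D)
    (hF : ∀ (s : S) (w : W) (v : V), ∃ i < m, ∀ g x h : S, g * x * h = s → ∀ z : S,
        F (g * z * h) (w - e i x + e i z) + act v (g * z * h) = F s w + act v s)
    (hmatch : ∀ t t' c c', (∀ μ ∈ Ms, ¬ μ ∣ t + t') → nmL t = some c → nmR t' = some c' → c = c')
    (hplace : ∀ T c s, (∀ μ ∈ Ms, ¬ μ ∣ T) → s + Mp ≤ T + 1 →
        ∃ t, s ≤ t ∧ t < s + Mp ∧ t ≤ T ∧ nmL t = some c ∧ nmR (T - t) = some c)
    (hpair : ∀ t1 t1' t2 t2' c1 c1' c2 c2', t1 + t1' = t2 + t2' → (∃ μ ∈ Ms, μ ∣ t1 + t1') →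
        nmL t1 = some c1 → nmR t1' = some c1' → nmL t2 = some c2 → nmR t2' = some c2' →
        (c1 = c2 ∧ c1' = c2') ∨
          (c1 = c2' ∧ c1' = c2 ∧ col act m e F c1 = col act m e F c1'))
    (G : List α → List α → Prop) {Q : List α} {T : ℕ}
    (hT : nxt Ro no M' thr Q = some T) (hTm : T ≤ Tmax)
    (hQ : p0 + M' * (lam * m) + D ≤ Q.length)
    (hw : ∀ j ≤ m, ∃ s, AA M' p0 lam j ≤ s ∧ s < AA M' p0 lam j + Gs ∧ R (Q.drop s))
    (hE : ∀ s, Ro (Q.drop s) → ¬ (s ≤ thr (s % M') + N1 ∧ thr (s % M') ≤ s + N1))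
    (hB : ∀ μ ∈ Ms, ¬ μ ∣ (T - p0) / M')
    (hDc : ∀ j ≤ m, ∀ s, R (Q.drop s) →
      ¬ (AA M' p0 lam j < s + M' * Mp ∧ s < AA M' p0 lam j + M' * Mp)) (v : V) :
    ∃ P U Q', Q = P ++ (U ++ Q') ∧ U.length = D ∧ p0 ≤ P.length ∧
      P.length ≤ p0 + M' * (lam * m) ∧ nxt Ro no M' thr P = none ∧
      al φ act R (AA M' p0 lam) m e F nmL M' p0 lam kap Mp P = some v ∧
      (crl (chain hRo M' thr) (TT φ act R (AA M' p0 lam) m e F nmL nmR Ms M' p0)
        (al φ act R (AA M' p0 lam) m e F nmL M' p0 lam kap Mp) G U).isSome := by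
  set A := AA M' p0 lam with hA
  have hlam0 : 0 < lam := by omega
  have hAm : ∀ j ≤ m, A j ≤ p0 + M' * (lam * m) := fun j hj => by
    show p0 + M' * (lam * j) ≤ _
    have := Nat.mul_le_mul_left M' (Nat.mul_le_mul_left lam hj)
    omega
  have hTsome := (nxt_eq_some.1 hT)
  have hTz : z0 ≤ T := le_trans (hz0 _) hTsome.1.2.2.2
  have hTl : T + no ≤ Q.length := hTsome.1.2.1
  -- level ends of `Q`
  have hex : ∀ j ≤ m, Fst R Q (A j) (fst R Q (A j)) ∧ fst R Q (A j) < A j + Gs := by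
    intro j hj
    obtain ⟨s, h1, h2, h3⟩ := hw j hj
    obtain ⟨s', h4, h5⟩ := exists_Fst h1 h3
    rw [fst_eq h5]
    exact ⟨h5, by omega⟩
  -- the zone
  set Z := Q.take T with hZ
  have hQZ : Q = Z ++ Q.drop T := (List.take_append_drop T Q).symm
  have hZl : Z.length = T := by rw [hZ, List.length_take]; omega
  obtain ⟨i, him, hi⟩ := hF (φ Z) (WL φ R A e Z m) v
  have hfZ : ∀ j ≤ m, Fst R Z (A j) (fst R Q (A j)) := by
    intro j hj
    have h1 : Fst R (Z ++ Q.drop T) (A j) (fst R Q (A j)) := by rw [← hQZ]; exact (hex j hj).1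
    have h2 := (hex j hj).2
    have h3 := hAm j hj
    exact hR.Fst_left' h1 (by rw [hZl]; omega)
  have hfZ' : ∀ j ≤ m, fst R Z (A j) = fst R Q (A j) := fun j hj => fst_eq (hfZ j hj)
  have hAmono : ∀ j, A j ≤ A (j + 1) := fun j => by
    show p0 + M' * (lam * j) ≤ p0 + M' * (lam * (j + 1))
    have := Nat.mul_le_mul_left M' (Nat.mul_le_mul_left lam (Nat.le_add_right j 1))
    omega
  have hmono : ∀ j < m, fst R Q (A j) ≤ fst R Q (A (j + 1)) := by
    intro j hj
    by_contra hc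
    push Not at hc
    have h1 := (hex j hj.le).1
    have h2 := (hex (j + 1) hj).1
    exact h1.2.2 _ ((hAmono j).trans h2.1) hc h2.2.1
  -- the true name
  let c : Nm m S V W := (⟨i, him⟩, φ (Z.take (fst R Z (A i))), WL φ R A e Z i,
    φ (Z.drop (fst R Z (A (i + 1)))), WR φ R A m e Z i, v)
  have hprod : c.2.1 * blk φ R A Z i * c.2.2.2.1 = φ Z := by
    have h2 : fst R Z (A i) ≤ fst R Z (A (i + 1)) := by
      rw [hfZ' i him.le, hfZ' (i + 1) him]; exact hmono i him
    conv_rhs => rw [split_seg Z h2, hφ, hφ]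
    rfl
  have hbv : ∀ z, bval act m e F c z = F (φ Z) (WL φ R A e Z m) + act v (φ Z) := by
    intro z
    have h1 := hi _ _ _ hprod z
    have h2 : WL φ R A e Z m - e i (blk φ R A Z i) + e i z =
        WL φ R A e Z i + e i z + WR φ R A m e Z i := by
      rw [WL_tot φ R A m e Z him]; abel
    rw [h2] at h1
    exact h1
  -- the place
  set n' := (T - p0) / M' with hn'
  obtain ⟨q0, hq0⟩ := hp0
  have hn'le : lam * m ≤ n' := by
    rw [hn', Nat.le_div_iff_mul_le hM', Nat.mul_comm]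
    omega
  have hi1 : lam * (i + 1) ≤ lam * m := Nat.mul_le_mul_left _ him
  rw [Nat.mul_add, Nat.mul_one] at hi1
  obtain ⟨t, ht1, ht2, ht3, ht4, ht5⟩ := hplace n' c (lam * i + kap) hB (by omega)
  have htm : M' * t ≤ M' * (lam * m) := Nat.mul_le_mul_left _ (by omega)
  have hdiv : t / lam = i := by
    apply Nat.div_eq_of_lt_le
    · rw [Nat.mul_comm]; omega
    · rw [Nat.succ_mul, Nat.mul_comm i lam]; omega
  have hmod : t % lam = t - lam * i := by
    have := Nat.div_add_mod t lam; rw [hdiv] at this; omega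
  have hPl : (Q.take (p0 + M' * t)).length = p0 + M' * t := by
    rw [List.length_take]; omega
  obtain ⟨P, hP⟩ : ∃ P, P = Q.take (p0 + M' * t) := ⟨_, rfl⟩
  obtain ⟨U, hU⟩ : ∃ U, U = (Q.drop (p0 + M' * t)).take D := ⟨_, rfl⟩
  obtain ⟨Q', hQ'⟩ : ∃ Q', Q' = (Q.drop (p0 + M' * t)).drop D := ⟨_, rfl⟩
  rw [← hP] at hPl
  have hQeq : Q = P ++ (U ++ Q') := by
    rw [hP, hU, hQ', List.take_append_drop, List.take_append_drop]
  have hUl : U.length = D := by
    rw [hU, List.length_take, List.length_drop]; omega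
  -- `P` in the zone
  set b := T - P.length with hb
  have hPT : P.length ≤ T := by omega
  have hbD : b ≤ U.length := by omega
  have hZP : Z = P ++ U.take b := by
    rw [hZ]
    conv_lhs => rw [hQeq]
    rw [List.take_append, List.take_of_length_le hPT, ← hb, List.take_append_of_le_length hbD]
  have hYl : (U.take b).length = b := by rw [List.length_take]; omega
  -- left legality of `P`
  have hMt : M' * kap ≤ M' * t - M' * (lam * i) := by
    rw [← Nat.mul_sub]; exact Nat.mul_le_mul_left _ (by omega)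
  have hMi : M' * (lam * i) ≤ M' * t := Nat.mul_le_mul_left _ (by omega)
  have hAi : ∀ j ≤ i, A j ≤ p0 + M' * (lam * i) := fun j hj => by
    show p0 + M' * (lam * j) ≤ _
    have := Nat.mul_le_mul_left M' (Nat.mul_le_mul_left lam hj)
    omega
  have hfP : ∀ j ≤ i, Fst R P (A j) (fst R Q (A j)) := by
    intro j hj
    have h1 : Fst R (P ++ (U ++ Q')) (A j) (fst R Q (A j)) := by
      rw [← hQeq]; exact (hex j (by omega)).1
    have h2 := (hex j (by omega)).2
    have h3 := hAi j hj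
    exact hR.Fst_left' h1 (by omega)
  have hfP' : ∀ j ≤ i, fst R P (A j) = fst R Z (A j) := fun j hj => by
    rw [fst_eq (hfP j hj), hfZ' j (by omega)]
  have hfPl : ∀ j ≤ i, fst R P (A j) ≤ P.length := fun j hj => by
    rw [fst_eq (hfP j hj)]
    have := hR.vis (hfP j hj).2.1
    omega
  have hLL : LL φ act R A m e F nmL M' p0 lam kap Mp P t c := by
    refine ⟨hPl, hdiv, by omega, by omega, ht4, fun z => by rw [hbv, hbv], ?_, ?_, ?_⟩
    · intro j hj
      rw [fst_eq (hfP j hj)]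
      exact hfP j hj
    · show φ (Z.take (fst R Z (A i))) = φ (P.take (fst R P (A i)))
      rw [← hfP' i le_rfl]
      conv_lhs => rw [hZP, List.take_append_of_le_length (hfPl i le_rfl)]
    · show WL φ R A e Z i = WL φ R A e P i
      refine WL_congr φ R e fun j hj => ?_
      have h1 : fst R P (A j) ≤ fst R P (A (j + 1)) := by
        rw [fst_eq (hfP j hj.le), fst_eq (hfP (j + 1) hj)]; exact hmono j (by omega)
      unfold blk
      rw [← hfP' j hj.le, ← hfP' (j + 1) hj]
      conv_lhs => rw [hZP, seg_left h1 (hfPl _ hj)]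
  have hal := al_some φ act R A m e F nmL M' p0 lam kap Mp hM' hLL
  refine ⟨P, U, Q', hQeq, hUl, by omega, by omega, ?_, hal, ?_⟩
  · rw [nxt_eq_none]
    intro s hs
    have h1 := hz0 (s % M')
    have h2 := hs.2.2.2
    have h3 := hs.2.1
    have h4 := hR.pos
    omega
  -- the reset property
  apply crl_isSome
  refine ⟨(b, F (φ Z) (WL φ R A e Z m) + act v (φ Z)), ?_⟩
  intro P' v' hP'n hG hal'
  obtain ⟨t', c', hLL', hv'⟩ := al_exists φ act R A m e F nmL M' p0 lam kap Mp hal'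
  have hP'l := hLL'.1
  have ht'm : t' < lam * m := by
    have h1 := Nat.div_add_mod t' lam
    have h2 := hLL'.2.1
    have h3 := hLL'.2.2.2.1
    have h4 : (c'.1 : ℕ) + 1 ≤ m := c'.1.isLt
    have h5 := Nat.mul_le_mul_left lam h4
    rw [h2] at h1
    rw [Nat.mul_add, Nat.mul_one] at h5
    omega
  have ht'm' : M' * t' ≤ M' * (lam * m) := Nat.mul_le_mul_left _ ht'm.le
  have hnx : nxt Ro no M' thr (P' ++ U) = some (P'.length + b) := by
    have hTPU : nxt Ro no M' thr (P ++ U) = some T := by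
      refine (chain hRo M' thr).tight (P ++ U) Q' T ?_ ?_
      · show nxt Ro no M' thr _ = _
        rw [List.append_assoc, ← hQeq]; exact hT
      · show T + no ≤ _
        rw [List.length_append]; omega
    refine (nxt_transfer hRo (N1 := N1) ?_ ?_ (by omega) (by omega) ?_ hTPU ?_).2
    · rw [hPl, hq0, ← Nat.mul_add]; exact Dvd.intro _ rfl
    · rw [hP'l, hq0, ← Nat.mul_add]; exact Dvd.intro _ rfl
    · intro r; have := hz0 r; have := hR.pos; omega
    · intro s hs
      apply hE s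
      have h1 := hRo.vis hs
      rw [hQeq, ← List.append_assoc]
      exact (hRo.left h1).2 hs
  refine ⟨hnx, ?_⟩
  -- the zone map
  set Z' := P' ++ U.take b with hZ'
  have hZ'l : (Z'.length - p0) / M' = t' + b / M' := by
    rw [hZ', List.length_append, hYl, hP'l, show p0 + M' * t' + b - p0 = M' * t' + b by omega,
      Nat.mul_add_div hM']
  have hn'b : n' = t + b / M' := by
    rw [hn', show T - p0 = M' * t + b by omega, Nat.mul_add_div hM']
  have hnR : nmR (b / M') = some c := by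
    rw [show b / M' = n' - t by omega]; exact ht5
  by_cases hbad : ∀ μ ∈ Ms, ¬ μ ∣ t' + b / M'
  · have hcc : c' = c := hmatch t' (b / M') c' c hbad hLL'.2.2.2.2.1 hnR
    subst hcc
    have hYZ : ∀ j ≤ m, Fst R (P ++ U.take b) (A j) (fst R (P ++ U.take b) (A j)) := by
      intro j hj
      rw [← hZP, hfZ' j hj]; exact hfZ j hj
    obtain ⟨z, hz1, hz2⟩ := reset φ act R n m e F nmL M' p0 lam kap Mp hφ hR hM' hlam hLL hLL' hYZ
      (by
        intro j hj s hs
        apply hDc j hj s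
        rw [← hZP] at hs
        have h1 := hR.vis hs
        rw [hQZ]
        exact (hR.left h1).2 hs)
      (by rw [← hZP]) (by rw [← hZP])
    have hnu : nu φ act R A m e F nmL nmR Ms M' p0 Z' = F (φ Z') (WL φ R A e Z' m) := by
      unfold nu
      rw [if_pos (by rw [hZ'l]; exact hbad)]
    show act v' (φ Z') + nu φ act R A m e F nmL nmR Ms M' p0 Z' = _
    rw [hnu, hz1, hz2, ← hbv z, ← hv']
    show _ = F _ _ + act _ _
    rw [add_comm]
  · rw [← hv']
    have := TT_bad φ act R A m e F nmL nmR Ms M' p0 hpair hZ'l hbad hLL'.2.2.2.2.1 hnR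
    rw [this]
    exact hbv 1

end Crest.Agent.R320.Sch3_232
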