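import Crest.Agent.R320.Geo_410
import Crest.Agent.R320.Main_621

/-!
# Row 320: scheme 1 over natural blocks from a U-gadget on all words (helper410)
-/

set_option autoImplicit false

namespace Crest.Agent.R320.SchA_410

open Crest.Agent.R320.Hk_851 Crest.Agent.R320.Star_621 Crest.Agent.R320.Two_621
  Crest.Agent.R320.Geo_410

/-- all data of scheme 1 -/
structure Cx (α S : Type) [Monoid S] where
  R : Walls α
  z0 : ℕ
  p0 : ℕ
  f : α → S
  lam : List α → Option (Tok S)
  rho : List α → Option (Tok S)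
  nu : List α → Tok S
  N : ℕ
  La : ℕ
  Bad : ℕ → Prop

variable {α S : Type} [Monoid S] (D : Cx α S)

namespace Cx

def ph (w : List α) : S := (w.map D.f).prod

theorem ph_append (a b : List α) : D.ph (a ++ b) = D.ph a * D.ph b := by simp [ph]

noncomputable def fw (z : List α) : ℕ := sInf {t | IsF D.R D.z0 z t}

theorem fw_eq {z : List α} {t : ℕ} (h : IsF D.R D.z0 z t) : D.fw z = t := by
  have : {t | IsF D.R D.z0 z t} = {t} := by
    ext t'
    constructor
    · intro h'; exact (h.unique h').symm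
    · rintro rfl; exact h
  unfold fw
  rw [this]
  exact csInf_singleton t

def Z : Language α := {z | ∃ t, IsZ D.R D.z0 z t}

noncomputable def dA (z : List α) : Tok S :=
  act (D.nu ((z.take (D.fw z)).drop D.p0)) (D.ph (z.drop (D.fw z)))

/-- the zone map of scheme 1 -/
noncomputable def psi (z : List α) (v : Tok S) : Tok S := aff D.ph D.dA z v

def BadZ (z : List α) (t : ℕ) : Prop :=
  (∃ τ, D.z0 ≤ τ + D.N ∧ τ < D.z0 ∧ Wat D.R z τ) ∨ t < D.z0 + D.N ∨ D.Bad (t - D.p0)

def Zc : Language α := {z | ∃ t, IsZ D.R D.z0 z t ∧ D.BadZ z t}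

def LA (v : Tok S) : Language α :=
  {P | D.p0 ≤ P.length ∧ D.lam (P.drop D.p0) = some (act v (D.ph (P.take D.p0)))}

def RA (b : Tok S) : Language α :=
  {Q | ∀ w, ∀ P ∈ D.LA w, P ++ Q ∈ D.Z ∧ aff D.ph D.dA (P ++ Q) w = b}

structure Ok : Prop where
  hp0 : 0 < D.p0
  hlam : ∀ p v, D.lam p = some v → p.length ≤ D.N
  hsound : ∀ p q v r, D.lam p = some v → D.rho q = some r → D.La ≤ q.length →
    r = act v (D.ph (p ++ q)) + D.nu (p ++ q)
  hcomp : ∀ u : List α, D.La ≤ u.length → ¬ D.Bad u.length → ∀ v,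
    ∃ p q, p ++ q = u ∧ D.lam p = some v ∧ (D.rho q).isSome
  hz : D.p0 + D.N + D.R.n + D.N + D.La ≤ D.z0

variable {D}

theorem psi_eq {X Y T : List α} (hX : X.length = D.p0)
    (h : IsF D.R D.z0 (X ++ Y ++ T) (X ++ Y).length) (v : Tok S) :
    aff D.ph D.dA (X ++ Y ++ T) v =
      act (act (act v (D.ph X)) (D.ph Y) + D.nu Y) (D.ph T) := by
  unfold aff dA
  rw [D.fw_eq h, List.take_left, List.drop_left, ← hX, List.drop_left, D.ph_append, D.ph_append,
    act_add, act_mul, act_mul, mul_assoc]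

theorem code : Code D.Z := by
  refine ⟨?_, ?_⟩
  · rintro ⟨t, ht⟩
    exact absurd ht.1 (by simp)
  · rintro z z' x x' ⟨t, h⟩ ⟨t', h'⟩ e
    exact isZ_unique h h' e

theorem zc_sub : ∀ z ∈ D.Zc, z ∈ D.Z := by
  rintro z ⟨t, h, _⟩
  exact ⟨t, h⟩

theorem soundA (h : D.Ok) : Sound D.Z (aff D.ph D.dA) D.LA D.RA := by
  refine ⟨fun ω hn => ?_, ?_⟩
  · have := hn.1
    have h0 := h.hp0
    simp at this
    omega
  · intro ω τ P Q z x y hP hQ hz e
    obtain ⟨h1, h2⟩ := hQ ω P hP
    have he : P ++ Q = z := (code (D := D)).2 (P ++ Q) z x y h1 hz e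
    rw [← he]
    exact ⟨rfl, h2.symm⟩

theorem compA (h : D.Ok) : ∀ z ∈ D.Z, z ∉ D.Zc → ∀ v, Cut D.LA D.RA v z := by
  rintro z ⟨t, hz⟩ hbad v
  have hb : ¬ D.BadZ z t := fun hb => hbad ⟨t, hz, hb⟩
  unfold BadZ at hb
  push Not at hb
  obtain ⟨hb1, hb2, hb3⟩ := hb
  have hzz := h.hz
  have htl : t < z.length := hz.1
  -- decomposition
  set X := z.take D.p0 with hXdef
  set Y := (z.take t).drop D.p0 with hYdef
  set T := z.drop t with hTdef
  have hXl : X.length = D.p0 := by rw [hXdef, List.length_take]; omega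
  have hYl : Y.length = t - D.p0 := by
    rw [hYdef, List.length_drop, List.length_take]; omega
  have hXY : X ++ Y = z.take t := by
    rw [hXdef, hYdef]
    have e : z.take D.p0 = (z.take t).take D.p0 := by
      rw [List.take_take, Nat.min_eq_left (by omega)]
    rw [e, List.take_append_drop]
  have hzeq : z = X ++ Y ++ T := by rw [hXY, hTdef, List.take_append_drop]
  obtain ⟨p, q, hpq, hp, hq⟩ := h.hcomp Y (by omega) (by rw [hYl]; exact hb3) (act v (D.ph X))
  obtain ⟨r, hr⟩ := Option.isSome_iff_exists.1 hq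
  have hpN := h.hlam p _ hp
  have hpl : p.length + q.length = Y.length := by rw [← hpq, List.length_append]
  have hzPQ : z = (X ++ p) ++ (q ++ T) := by rw [hzeq, ← hpq]; simp
  refine ⟨X ++ p, q ++ T, act r (D.ph T), hzPQ, ⟨by rw [List.length_append]; omega, ?_⟩, ?_⟩
  · rw [← hXl, List.drop_left, List.take_left]; exact hp
  · intro w P' hP'
    obtain ⟨hP'0, hP'l⟩ := hP'
    have hP'N := h.hlam _ _ hP'l
    rw [List.length_drop] at hP'N
    have hz' : IsZ D.R D.z0 ((X ++ p) ++ (q ++ T)) t := by rw [← hzPQ]; exact hz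
    have hlXp : (X ++ p).length = D.p0 + p.length := by rw [List.length_append, hXl]
    obtain ⟨hZ', -⟩ := isZ_shift (P := X ++ p) (P' := P') (Q := q ++ T) (t := t)
      (t' := P'.length + q.length) (N := D.N) hz'
      (by rw [hlXp]; omega) (by rw [hlXp]; omega) (by rw [hlXp]; omega) (by rw [hlXp]; omega)
      (by
        intro τ h1 h2 h3
        rw [← hzPQ] at h3
        by_cases hc : τ < D.z0
        · exact hb1 τ h1 hc h3
        · exact hz.2.1.2.2 τ (by omega) (by omega) h3)
    refine ⟨⟨_, hZ'⟩, ?_⟩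
    have e : P' ++ (q ++ T) = P'.take D.p0 ++ (P'.drop D.p0 ++ q) ++ T := by
      rw [← List.append_assoc, ← List.append_assoc, List.take_append_drop]
    have hl1 : (P'.take D.p0).length = D.p0 := by rw [List.length_take]; omega
    have hl2 : (P'.take D.p0 ++ (P'.drop D.p0 ++ q)).length = P'.length + q.length := by
      rw [← List.append_assoc, List.take_append_drop, List.length_append]
    rw [e] at hZ' ⊢
    rw [psi_eq hl1 (by rw [hl2]; exact hZ'.2.1)]
    rw [← h.hsound _ _ _ _ hP'l hr (by omega)]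

end Cx

end Crest.Agent.R320.SchA_410
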