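import Crest.Agent.R320.Geo_429

/-!
# Row 320: outer scheme from an abstract gadget (helper429)
-/

set_option autoImplicit false

namespace Crest.Agent.R320.SchA_429

open Crest.Agent.R320.Geo_429 Crest.Agent.R320.Two_621 Crest.Agent.R320.Star_621

universe u
variable {α : Type u} {S : Type u} [Monoid S]

/-- badness of an anchor `c` letters before the word `U` which ends at its first wall -/
def Mb (Wo : List α → Prop) (z0 N p0 : ℕ) (Bad : ℕ → Prop) (c : ℕ) (U : List α) : Prop :=
  (∃ y, z0 ≤ y + N + c ∧ y + c < z0 + N ∧ y ≤ U.length ∧ Wo (U.take y)) ∨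
    Bad (U.length + c - p0)

def Z (Wo : List α → Prop) (z0 : ℕ) : Language α := {w | ∃ U E, w = U ++ E ∧ Bk Wo z0 U E}

def Zc (Wo : List α → Prop) (z0 N p0 : ℕ) (Bad : ℕ → Prop) : Language α :=
  {w | ∃ U E, w = U ++ E ∧ Bk Wo z0 U E ∧ Mb Wo z0 N p0 Bad 0 U}

open Classical in
/-- noise of the part of a block after its first `p0` letters -/
noncomputable def dR (Wo : List α → Prop) (ph : List α → S) (nu : List α → Tok S) (j : ℕ)
    (R : List α) : Tok S :=
  if h : ∃ UE : List α × List α, R = UE.1 ++ UE.2 ∧ Bk Wo j UE.1 UE.2 then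
    act (nu h.choose.1) (ph h.choose.2) else 0

theorem dR_eq {Wo : List α → Prop} (ph : List α → S) (nu : List α → Tok S) {j : ℕ}
    {U E : List α} (h : Bk Wo j U E) : dR Wo ph nu j (U ++ E) = act (nu U) (ph E) := by
  have hex : ∃ UE : List α × List α, U ++ E = UE.1 ++ UE.2 ∧ Bk Wo j UE.1 UE.2 :=
    ⟨(U, E), rfl, h⟩
  have hs := hex.choose_spec
  have hu := bk_uniq (x := []) (x' := []) h hs.2 (by rw [List.append_nil, List.append_nil]; exact hs.1)
  unfold dR
  rw [dif_pos hex, ← hu.1, ← hu.2]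

variable (Wo : List α → Prop) (ph : List α → S) (z0 N p0 q : ℕ)
  (lam rho : List α → Option (Tok S)) (nu : List α → Tok S)

def LA (v : Tok S) : Language α :=
  {P | p0 ≤ P.length ∧ lam (P.drop p0) = some (act v (ph (P.take p0)))}

def RA (t : Tok S) : Language α :=
  {Q | ∃ U E, Q = U ++ E ∧ Bk Wo q U E ∧ q + N ≤ U.length ∧
    ∃ r, rho U = some r ∧ t = act r (ph E)}

noncomputable def dA (z : List α) : Tok S := dR Wo ph nu (z0 - p0) (z.drop p0)

variable {Wo} {n : ℕ} (loc : ∀ P Q : List α, n ≤ Q.length → (Wo (P ++ Q) ↔ Wo Q))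
  {ph} (hm : ∀ a b, ph (a ++ b) = ph a * ph b)
  {z0 N p0 q} (hz : z0 = p0 + N + q) (hq : n ≤ q)

theorem codeZ : Code (Z Wo z0) := by
  constructor
  · rintro ⟨U, E, h, hb⟩
    have : E = [] := (List.append_eq_nil_iff.1 h.symm).2
    exact hb.2.1 this
  · rintro z z' x x' ⟨U, E, rfl, h⟩ ⟨U', E', rfl, h'⟩ e
    obtain ⟨rfl, rfl⟩ := bk_uniq h h' e
    rfl

include loc hm hz hq

theorem soundA (hp0 : 0 < p0) {lam rho : List α → Option (Tok S)} {nu : List α → Tok S}
    (hbd : ∀ p v, lam p = some v → p.length ≤ N)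
    (hs : ∀ p q v r, lam p = some v → rho q = some r → r = act v (ph (p ++ q)) + nu (p ++ q)) :
    Sound (Z Wo z0) (aff ph (dA Wo ph z0 p0 nu)) (LA ph p0 lam) (RA Wo ph N q rho) := by
  constructor
  · rintro v ⟨h1, -⟩
    simp at h1; omega
  · rintro v t P Q z x y ⟨hP1, hP2⟩ ⟨U, E, rfl, hb, hU, r, hr, rfl⟩ ⟨U', E', rfl, hb'⟩ e
    have hPl := hbd _ _ hP2
    rw [List.length_drop] at hPl
    -- the word P ++ U ++ E is a block
    have hB : Bk Wo z0 (P ++ U) E := by
      refine ⟨⟨by rw [List.length_append]; omega, (loc P U (by omega)).2 hb.1.2.1,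
        fun s hs1 hs2 hw => ?_⟩, (nx_shift loc (by omega)).2 hb.2⟩
      rw [List.length_append] at hs2
      obtain ⟨k, rfl⟩ : ∃ k, s = P.length + k := ⟨s - P.length, by omega⟩
      rw [take_add'] at hw
      exact hb.1.2.2 k (by omega) (by omega) ((loc P _ (by rw [List.length_take]; omega)).1 hw)
    have e' : P ++ U ++ E ++ x = U' ++ E' ++ y := by
      rw [← e]; simp
    obtain ⟨h1, h2⟩ := bk_uniq hB hb' e'
    subst h2
    rw [← h1]
    refine ⟨by simp, ?_⟩
    have hR : Bk Wo (z0 - p0) (P.drop p0 ++ U) E := by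
      have hPeq : P ++ U = P.take p0 ++ (P.drop p0 ++ U) := by
        rw [← List.append_assoc, List.take_append_drop]
      have hl : (P.take p0).length = p0 := by rw [List.length_take]; omega
      have := (bk_shift loc (j := z0) (P := P.take p0) (U := P.drop p0 ++ U) (E := E)
        (by rw [hl]; omega)).1 (hPeq ▸ hB)
      rwa [hl] at this
    have hdA : dA Wo ph z0 p0 nu (P ++ U ++ E) = act (nu (P.drop p0 ++ U)) (ph E) := by
      unfold dA
      have : (P ++ U ++ E).drop p0 = (P.drop p0 ++ U) ++ E := by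
        rw [List.append_assoc, List.drop_append_of_le_length hP1, List.append_assoc]
      rw [this, dR_eq ph nu hR]
    have hg := hs _ _ _ _ hP2 hr
    show act r (ph E) = act v (ph (P ++ U ++ E)) + dA Wo ph z0 p0 nu (P ++ U ++ E)
    rw [hdA, hg, act_add, act_mul, act_mul, ← hm, ← hm]
    congr 2
    rw [← List.append_assoc, ← List.append_assoc, List.take_append_drop]

theorem completeA {Bad : ℕ → Prop} {lam rho : List α → Option (Tok S)}
    (hbd : ∀ p v, lam p = some v → p.length ≤ N)
    (hc : ∀ u : List α, 2 * N ≤ u.length → ¬ Bad u.length → ∀ v, ∃ p q, p ++ q = u ∧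
      lam p = some v ∧ (rho q).isSome) :
    ∀ z ∈ Z Wo z0, z ∉ Zc Wo z0 N p0 Bad → ∀ v, Cut (LA ph p0 lam) (RA Wo ph N q rho) v z := by
  rintro z ⟨U, E, rfl, hb⟩ hnc v
  have hM : ¬ Mb Wo z0 N p0 Bad 0 U := fun h => hnc ⟨U, E, rfl, hb, h⟩
  unfold Mb at hM
  push Not at hM
  obtain ⟨hE, hBd⟩ := hM
  have hlen : z0 + N ≤ U.length := by
    by_contra hlt
    refine hE U.length ?_ (by omega) le_rfl ?_
    · have := hb.1.1; omega
    · rw [List.take_length]; exact hb.1.2.1
  have hYl : (U.drop p0).length = U.length - p0 := List.length_drop ..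
  obtain ⟨p, q', hpq, hlp, hrq⟩ := hc (U.drop p0) (by rw [hYl]; omega)
    (by rw [hYl]; simpa using hBd) (act v (ph (U.take p0)))
  obtain ⟨r, hr⟩ := Option.isSome_iff_exists.1 hrq
  have hpl := hbd _ _ hlp
  have hlq : p.length + q'.length = U.length - p0 := by rw [← hYl, ← hpq, List.length_append]
  have hX : (U.take p0).length = p0 := by rw [List.length_take]; omega
  have hUe : U = (U.take p0 ++ p) ++ q' := by
    rw [List.append_assoc, hpq, List.take_append_drop]
  refine ⟨U.take p0 ++ p, q' ++ E, act r (ph E), ?_, ⟨?_, ?_⟩, ⟨q', E, rfl, ⟨?_, ?_⟩, ?_, r, hr, rfl⟩⟩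
  · rw [← List.append_assoc]; exact congrArg (· ++ E) hUe
  · rw [List.length_append]; omega
  · rw [List.drop_append_of_le_length (by omega), List.take_append_of_le_length (by omega)]
    rw [List.drop_of_length_le (by omega), List.nil_append, List.take_of_length_le (by omega)]
    exact hlp
  · refine ⟨by omega, ?_, fun s hs1 hs2 hw => ?_⟩
    · have := hb.1.2.1
      rw [hUe] at this
      exact (loc _ q' (by omega)).1 this
    · have hw' : Wo (U.take ((U.take p0 ++ p).length + s)) := by
        have h5 := take_add' (U.take p0 ++ p) q' s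
        rw [← hUe] at h5
        rw [h5]
        exact (loc _ _ (by rw [List.length_take]; omega)).2 hw
      rw [List.length_append, hX] at hw'
      rcases Nat.lt_or_ge (p0 + p.length + s) z0 with h | h
      · exact hE _ (by omega) (by omega) (by omega) hw'
      · exact hb.1.2.2 _ h (by omega) hw'
  · have := hb.2
    rw [hUe] at this
    exact (nx_shift loc (by omega)).1 this
  · omega

end Crest.Agent.R320.SchA_429
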