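import Crest.Agent.R320.Blk_717

/-!
# Row 320: the outer scheme on blocks (helper717)
-/

set_option autoImplicit false

namespace Crest.Agent.R320.SchA_717

open Crest.Agent.R320.Hk_851 Crest.Agent.R320.Star_621 Crest.Agent.R320.Two_621
open Crest.Agent.R320.Main_621 Crest.Agent.R320.Blk_717

universe u

/-- the pure gadget -/
structure Gad {α S : Type u} [Monoid S] (ph : List α → S) where
  lam : List α → Option (Tok S)
  rho : List α → Option (Tok S)
  nu : List α → Tok S
  N1 : ℕ
  Bad : ℕ → Prop
  short : ∀ P v, lam P = some v → P.length < N1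
  sound : ∀ P Q v v', N1 ≤ Q.length → lam P = some v → rho Q = some v' →
    v' = act v (ph (P ++ Q)) + nu (P ++ Q)
  compl : ∀ U : List α, 2 * N1 ≤ U.length → ¬ Bad U.length → ∀ v, ∃ P Q, P ++ Q = U ∧
    lam P = some v ∧ (rho Q).isSome

variable {α S : Type u} [Monoid S] {ph : List α → S} (w : Wall α) (g : Gad ph) (p0 z : ℕ)

/-- left parts -/
def LA (v : Tok S) : Language α :=
  {P | p0 ≤ P.length ∧ g.lam (P.drop p0) = some (act v (ph (P.take p0)))}

/-- right parts -/
def RA (τ : Tok S) : Language α :=
  {Q | ∃ t v', Fst w Q (z - p0 - g.N1) t ∧ z - p0 ≤ t ∧ Nxt w Q t Q.length ∧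
    g.rho (Q.take t) = some v' ∧ τ = act v' (ph (Q.drop t))}

open Classical in
/-- noise of the rest of a block -/
noncomputable def dR (Y : List α) : Tok S :=
  if h : ∃ t, Fst w Y (z - p0) t then
    act (g.nu (Y.take h.choose)) (ph (Y.drop h.choose)) else 0

theorem dR_eq {Y : List α} {t : ℕ} (h : Fst w Y (z - p0) t) :
    dR w g p0 z Y = act (g.nu (Y.take t)) (ph (Y.drop t)) := by
  have hh : ∃ t, Fst w Y (z - p0) t := ⟨t, h⟩
  unfold dR
  rw [dif_pos hh]
  rw [hh.choose_spec.unique h]

/-- noise of a block -/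
noncomputable def dA (X : List α) : Tok S := dR w g p0 z (X.drop p0)

/-- bad blocks -/
def BadZ (X : List α) : Prop :=
  ∃ t, Fst w X z t ∧
    ((∃ s, z - g.N1 ≤ s ∧ s < z + g.N1 ∧ s ≤ t ∧ w.W (X.take s)) ∨ g.Bad (t - p0))

variable (hz : p0 + 2 * g.N1 + w.n + 1 ≤ z)
include hz

theorem sound_A (hm : ∀ a b, ph (a ++ b) = ph a * ph b) (hp0 : 0 < p0) :
    Sound (ZZ w z) (aff ph (dA w g p0 z)) (LA g p0) (RA w g p0 z) := by
  refine ⟨fun v h => ?_, ?_⟩
  · have := h.1
    simp at this
    omega
  · intro v τ P Q X x y hP hQ hX he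
    obtain ⟨hp, hl⟩ := hP
    obtain ⟨t, v', h1, h2, h3, h4, rfl⟩ := hQ
    have hs := g.short _ _ hl
    rw [List.length_drop] at hs
    -- the first wall of `P ++ Q`
    have hF : Fst w (P ++ Q) z (P.length + t) := by
      obtain ⟨a1, a2, a3, a4⟩ := h1
      refine ⟨by omega, by rw [List.length_append]; omega,
        (W_shift P Q t (by omega) a2).2 a3, ?_⟩
      intro s hs1 hs2 hW
      obtain ⟨s', rfl⟩ : ∃ s', s = P.length + s' := ⟨s - P.length, by omega⟩
      exact a4 s' (by omega) (by omega) ((W_shift P Q s' (by omega) (by omega)).1 hW)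
    have hN : Nxt w (P ++ Q) (P.length + t) (P ++ Q).length := by
      rw [List.length_append]
      exact h3.shift (by omega)
    have hZ : P ++ Q ∈ ZZ w z := ⟨_, hF, hN⟩
    have heq : P ++ Q = X := code_ZZ.2 _ _ _ _ hZ hX he
    subst heq
    refine ⟨rfl, ?_⟩
    have e0 : (P ++ Q).drop p0 = P.drop p0 ++ Q := List.drop_append_of_le_length hp
    have hd : dA w g p0 z (P ++ Q) =
        act (g.nu (P.drop p0 ++ Q.take t)) (ph (Q.drop t)) := by
      unfold dA
      rw [e0]
      have hlen : (P.drop p0).length = P.length - p0 := List.length_drop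
      have hF' : Fst w (P.drop p0 ++ Q) (z - p0) ((P.drop p0).length + t) := by
        have : P ++ Q = P.take p0 ++ (P.drop p0 ++ Q) := by
          rw [← List.append_assoc, List.take_append_drop]
        rw [this] at hF
        refine Fst.unshift (P := P.take p0) (by omega) ?_
        have e1 : (P.take p0).length = p0 := by rw [List.length_take]; omega
        rw [e1]
        have e2 : p0 + (z - p0) = z := by omega
        have e3 : p0 + ((P.drop p0).length + t) = P.length + t := by omega
        rw [e2, e3]
        exact hF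
      rw [dR_eq w g p0 z hF', List.take_length_add_append, List.drop_length_add_append]
    have hsd := g.sound _ _ _ _ (by rw [List.length_take]; have := h1.2.1; omega) hl h4
    have hX : ph (P ++ Q) = ph (P.take p0) * (ph (P.drop p0 ++ Q.take t) * ph (Q.drop t)) := by
      rw [← hm, ← hm]
      congr 1
      rw [List.append_assoc, List.take_append_drop, ← List.append_assoc,
        List.take_append_drop]
    show _ = act v (ph (P ++ Q)) + dA w g p0 z (P ++ Q)
    rw [hd, hX, hsd, act_add, act_mul, act_mul]

theorem compl_A (X : List α) (hX : X ∈ ZZ w z)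
    (hb : ¬ BadZ w g p0 z X) (v : Tok S) : Cut (LA g p0) (RA w g p0 z) v X := by
  obtain ⟨t, h1, h2⟩ := hX
  have hbad : ¬ ((∃ s, z - g.N1 ≤ s ∧ s < z + g.N1 ∧ s ≤ t ∧ w.W (X.take s)) ∨
      g.Bad (t - p0)) := fun h => hb ⟨t, h1, h⟩
  rw [not_or] at hbad
  obtain ⟨hE, hB⟩ := hbad
  have ht : z + g.N1 ≤ t := by
    by_contra hlt
    exact hE ⟨t, by have := h1.1; omega, by omega, le_refl _, h1.2.2.1⟩
  have hlX := h1.2.1
  have hU : ((X.take t).drop p0).length = t - p0 := by
    rw [List.length_drop, List.length_take]; omega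
  obtain ⟨P, Q, hPQ, hl, hr⟩ := g.compl ((X.take t).drop p0) (by rw [hU]; omega)
    (by rw [hU]; exact hB) (act v (ph (X.take p0)))
  obtain ⟨v', hv'⟩ := Option.isSome_iff_exists.1 hr
  have hs := g.short _ _ hl
  have hlen : P.length + Q.length = t - p0 := by rw [← List.length_append, hPQ, hU]
  have hXe : X = (X.take p0 ++ P) ++ (Q ++ X.drop t) := by
    have a1 : X = X.take t ++ X.drop t := (List.take_append_drop t X).symm
    have a2 : X.take t = X.take p0 ++ (P ++ Q) := by
      rw [hPQ]
      have : X.take p0 = (X.take t).take p0 := by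
        rw [List.take_take, Nat.min_eq_left (by omega)]
      rw [this, List.take_append_drop]
    conv_lhs => rw [a1, a2]
    simp [List.append_assoc]
  have hl0 : (X.take p0).length = p0 := by rw [List.length_take]; omega
  have hPl : (X.take p0 ++ P).length = p0 + P.length := by rw [List.length_append, hl0]
  have hFQ : Fst w (Q ++ X.drop t) (z - p0 - g.N1) Q.length := by
    refine ⟨by omega, by rw [List.length_append]; omega, ?_, ?_⟩
    · have := (W_shift (w := w) (X.take p0 ++ P) (Q ++ X.drop t) Q.length (by omega)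
        (by rw [List.length_append]; omega)).1
      apply this
      rw [← hXe, hPl]
      have : p0 + P.length + Q.length = t := by omega
      rw [this]; exact h1.2.2.1
    · intro s hs1 hs2 hW
      have := (W_shift (w := w) (X.take p0 ++ P) (Q ++ X.drop t) s (by omega)
        (by rw [List.length_append]; omega)).2 hW
      rw [← hXe, hPl] at this
      by_cases hlt : p0 + P.length + s < z
      · exact hE ⟨_, by omega, by omega, by omega, this⟩
      · exact h1.2.2.2 _ (by omega) (by omega) this
  have hNQ : Nxt w (Q ++ X.drop t) Q.length (Q ++ X.drop t).length := by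
    refine Nxt.unshift (P := X.take p0 ++ P) (by omega) ?_
    rw [← hXe, hPl]
    have e1 : p0 + P.length + Q.length = t := by omega
    have e2 : p0 + P.length + (Q ++ X.drop t).length = X.length := by
      rw [List.length_append, List.length_drop]; omega
    rw [e1, e2]; exact h2
  refine ⟨X.take p0 ++ P, Q ++ X.drop t, act v' (ph (X.drop t)), hXe, ⟨by omega, ?_⟩,
    ⟨Q.length, v', hFQ, by omega, hNQ, ?_, ?_⟩⟩
  · have e1 : (X.take p0 ++ P).drop p0 = P := by
      have := List.drop_left (l₁ := X.take p0) (l₂ := P)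
      rwa [hl0] at this
    have e2 : (X.take p0 ++ P).take p0 = X.take p0 := by
      have := List.take_left (l₁ := X.take p0) (l₂ := P)
      rwa [hl0] at this
    rw [e1, e2]; exact hl
  · rw [List.take_left]; exact hv'
  · rw [List.drop_left]

end Crest.Agent.R320.SchA_717
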