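import Mathlib
import Crest.Agent.R320.Blk_670
import Crest.Agent.R320.Two_621
import Crest.Agent.R320.ExactR_237

/-!
Row 320: scheme B (promise ruler) in 621's zone form with 182's blocks.
-/

set_option autoImplicit false

namespace Crest.Agent.R320.SchB2_670

open Crest.Agent.R320.Core1_829 Crest.Agent.R320.Blk_670 Crest.Agent.R320.Star_621
open Crest.Agent.R320.Two_621

variable {α : Type} {T V : Type} [Monoid T] [AddCommGroup V]

/-- candidate `k` is bad, as seen from `Q` -/
def bq (W : List α → Prop) (Z : ℕ → ℕ) (M' : ℕ) (bd : ℕ → List α → Prop) (c : ℕ → ℕ) (k : ℕ)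
    (Q : List α) : Prop :=
  ∃ j, j ≤ Q.length ∧ XO W Z M' (c k) (Q.take j) ∧ bd (c k) (Q.take j)

def LB (K : ℕ) (c : ℕ → ℕ) (lam : ℕ → List α → Option V) (v : V) : Language α :=
  {P | ∃ k, k < K ∧ P.length = c k ∧ lam k P = some v}

def RB (W : List α → Prop) (Z : ℕ → ℕ) (M' : ℕ) (bd : ℕ → List α → Prop) (K : ℕ) (c : ℕ → ℕ)
    (p0 : ℕ) (y : List α → T) (rho : ℕ → List α → T → Option V) (t : V) : Language α :=
  {Q | ∃ k, k < K ∧ (∀ k', k' < K → (bq W Z M' bd c k' Q ↔ k' = k)) ∧
    BO W Z M' (c k) Q ∧ rho k (Q.take (p0 - c k)) (y (Q.drop (p0 - c k))) = some t}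

theorem sound {W : List α → Prop} {Z : ℕ → ℕ} {M' n : ℕ} (hW : LWall W n)
    {Zmin Zmax Wg C K p0 : ℕ} {c : ℕ → ℕ} {bd : ℕ → List α → Prop}
    (hmin : ∀ r, Zmin ≤ Z r) (hmax : ∀ r, Z r ≤ Zmax) (hgap : Zmax + C ≤ Zmin + Wg)
    (hC : p0 + C + n ≤ Zmin) (hc : ∀ k < K, c k ≤ C) (hp0 : ∀ k < K, c k ≤ p0)
    (hcpos : ∀ k < K, 0 < c k)
    (hsep : ∀ (T : List α) (i j : ℕ), i < j → j ≤ T.length → W (T.take i) → W (T.take j) →
      i + Wg ≤ j)
    (hbd : ∀ P Q, P.length ≤ C → (bd 0 (P ++ Q) ↔ bd P.length Q))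
    (f : α → T) (act : V → T → V) (lam : ℕ → List α → Option V) (rho : ℕ → List α → T → Option V)
    (nu : List α → T → V)
    (hex : ∀ k < K, ∀ (P Q : List α) (y : T) (v b : V), P.length = c k →
          lam k P = some v → rho k Q y = some b →
          b = act v (ExactR_237.pr f (P ++ Q) * y) + nu (P ++ Q) y)
    (y : List α → T) (Zc : Language α)
    (hZc : ∀ z ∈ Zc, BO W Z M' 0 z ∧ ∃ j, j ≤ z.length ∧ XO W Z M' 0 (z.take j) ∧ bd 0 (z.take j)) :
    Sound Zc (fun z v => act v (ExactR_237.pr f (z.take p0) * y (z.drop p0)) +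
        nu (z.take p0) (y (z.drop p0)))
      (LB K c lam) (RB W Z M' bd K c p0 y rho) := by
  constructor
  · rintro v ⟨k, hk, hl, -⟩
    have := hcpos k hk
    simp at hl
    omega
  · rintro v t P Q z x y0 ⟨k0, hk0, hPl, hlam⟩ ⟨k, hk, huniq, hBO, hrho⟩ hz heq
    obtain ⟨hzB, j0, hj0, hjX, hjb⟩ := hZc z hz
    have hzlen : Zmin ≤ z.length := by
      obtain ⟨j, hj, hx, -, -⟩ := hzB
      have h1 := hx.1.2
      rw [List.length_take, min_eq_left hj.le] at h1
      have := hmin ((0 + j) % M')
      omega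
    have hPle : P.length ≤ C := by rw [hPl]; exact hc k0 hk0
    have hZP : ∀ r, P.length + n ≤ Z r := fun r => by have := hmin r; omega
    -- split z
    have hzP : z.take P.length = P := by
      have h1 : (z ++ y0).take P.length = P := by
        rw [← heq, List.append_assoc, List.take_left']
        rfl
      rw [List.take_append_of_le_length (by omega)] at h1
      exact h1
    obtain ⟨R, rfl⟩ : ∃ R, z = P ++ R := ⟨z.drop P.length, by
      conv_lhs => rw [← List.take_append_drop P.length z, hzP]⟩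
    have hT : Q ++ x = R ++ y0 := by
      rw [List.append_assoc, List.append_assoc] at heq
      exact List.append_cancel_left heq
    have hRB : BO W Z M' P.length R := (BO_app hW hZP).1 hzB
    have hj0' : P.length ≤ j0 := by
      have h1 := hjX.1.2
      rw [List.length_take, min_eq_left hj0] at h1
      have := hZP ((0 + j0) % M')
      omega
    have htk : (P ++ R).take j0 = P ++ R.take (j0 - P.length) := by
      rw [List.take_append, List.take_of_length_le (by omega)]
    rw [List.length_append] at hj0 hzlen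
    rw [htk] at hjX hjb
    have hjX1 := (XO_app hW hZP).1 hjX
    have hjb1 := (hbd _ _ hPle).1 hjb
    set j1 := j0 - P.length with hj1
    have hj1R : j1 ≤ R.length := by omega
    -- the common text
    have hQT : (Q ++ x).take Q.length = Q := by rw [List.take_left']; rfl
    have hRT : ∀ i ≤ R.length, (Q ++ x).take i = R.take i := by
      intro i hi
      rw [hT, List.take_append_of_le_length hi]
    have hlenT : (Q ++ x).length = R.length + y0.length := by rw [hT, List.length_append]
    have hvis : j1 ≤ Q.length := by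
      refine visible (M' := M') (T := Q ++ x) hmin hmax hgap (fun i j => hsep _ i j) (hc k hk)
        (by rw [List.length_append]; omega) (by omega) (e := Q.length) (j := j1)
        (c' := P.length) ?_ ?_
      · rw [hQT]; exact hBO
      · rw [hRT j1 hj1R]; exact hjX1
    have hQj : Q.take j1 = R.take j1 := by
      rw [← hRT j1 hj1R, List.take_append_of_le_length hvis]
    have hk0k : k0 = k := by
      refine (huniq k0 hk0).1 ⟨j1, hvis, ?_, ?_⟩
      · rw [hQj, ← hPl]; exact hjX1
      · rw [hQj, ← hPl]; exact hjb1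
    subst hk0k
    have hlen : Q.length = R.length := by
      refine BO_unique (W := W) (Z := Z) (M' := M') (T := Q ++ x) (by rw [List.length_append]; omega) (by omega)
        (c := c k0) (by rw [hQT]; exact hBO) ?_
      rw [hRT _ le_rfl, List.take_length, ← hPl]
      exact hRB
    have hQR : Q = R := by
      have h1 := hRT R.length le_rfl
      rw [← hlen, hQT] at h1
      rw [h1, hlen, List.take_length]
    subst hQR
    refine ⟨rfl, ?_⟩
    have h1 := hex k0 hk P (Q.take (p0 - c k0)) (y (Q.drop (p0 - c k0))) v t hPl hlam hrho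
    have hcp := hp0 k0 hk
    have e1 : (P ++ Q).take p0 = P ++ Q.take (p0 - c k0) := by
      rw [List.take_append, List.take_of_length_le (by omega), hPl]
    have e2 : (P ++ Q).drop p0 = Q.drop (p0 - c k0) := by
      rw [List.drop_append, List.drop_of_length_le (by omega), List.nil_append, hPl]
    show t = act v (ExactR_237.pr f ((P ++ Q).take p0) * y ((P ++ Q).drop p0)) +
        nu ((P ++ Q).take p0) (y ((P ++ Q).drop p0))
    rw [e1, e2]
    exact h1

theorem complete {W : List α → Prop} {Z : ℕ → ℕ} {M' n : ℕ} (hW : LWall W n)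
    {Zmin C K p0 R : ℕ} {c : ℕ → ℕ} {bd : ℕ → List α → Prop}
    (hmin : ∀ r, Zmin ≤ Z r)
    (hC : p0 + C + n ≤ Zmin) (hc : ∀ k < K, c k ≤ C) (hp0 : ∀ k < K, c k ≤ p0)
    (hbd : ∀ P Q, P.length ≤ C → (bd 0 (P ++ Q) ↔ bd P.length Q))
    (lam : ℕ → List α → Option V) (rho : ℕ → List α → T → Option V)
    (hex : ∀ (u : List α) (y : T) (v : V), (∀ k < K, c k ≤ u.length) →
          ∃ I : Finset ℕ, R ≤ I.card ∧ ∀ k ∈ I, k < K ∧ lam k (u.take (c k)) = some v ∧
            (rho k (u.drop (c k)) y).isSome)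
    (y : List α → T) {z : List α} (hzB : BO W Z M' 0 z)
    (hzbd : ∃ j, j ≤ z.length ∧ XO W Z M' 0 (z.take j) ∧ bd 0 (z.take j))
    (hsp : ∀ J : Finset ℕ, (∀ k ∈ J, k < K ∧ ∃ k', k' < K ∧ k' ≠ k ∧
      bq W Z M' bd c k' (z.drop (c k))) → J.card < R) (v : V) :
    Cut (LB K c lam) (RB W Z M' bd K c p0 y rho) v z := by
  have hzlen : Zmin ≤ z.length := by
    obtain ⟨j, hj, hx, -, -⟩ := hzB
    have h1 := hx.1.2
    rw [List.length_take, min_eq_left hj.le] at h1
    have := hmin ((0 + j) % M')
    omega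
  obtain ⟨I, hI, hk⟩ := hex (z.take p0) (y (z.drop p0)) v (fun k hk => by
    rw [List.length_take]; have := hp0 k hk; have := hc k hk; omega)
  have hgood : ∃ k ∈ I, ¬ ∃ k', k' < K ∧ k' ≠ k ∧ bq W Z M' bd c k' (z.drop (c k)) := by
    by_contra hcon
    push Not at hcon
    have := hsp I (fun k hkI => ⟨(hk k hkI).1, hcon k hkI⟩)
    omega
  obtain ⟨k, hkI, hns⟩ := hgood
  obtain ⟨hkK, hlam, hrho⟩ := hk k hkI
  have hcp := hp0 k hkK
  have hcC := hc k hkK
  obtain ⟨t, ht⟩ := Option.isSome_iff_exists.1 hrho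
  have hPl : (z.take (c k)).length = c k := by rw [List.length_take]; omega
  have hZP : ∀ r, (z.take (c k)).length + n ≤ Z r := fun r => by have := hmin r; omega
  have hsplit : z.take (c k) ++ z.drop (c k) = z := List.take_append_drop _ _
  refine ⟨z.take (c k), z.drop (c k), t, hsplit.symm, ⟨k, hkK, hPl, ?_⟩,
    ⟨k, hkK, ?_, ?_, ?_⟩⟩
  · rw [List.take_take, min_eq_left hcp] at hlam
    exact hlam
  · intro k' hk'
    constructor
    · intro hb
      by_contra hne
      exact hns ⟨k', hk', hne, hb⟩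
    · rintro rfl
      obtain ⟨j0, hj0, hjX, hjb⟩ := hzbd
      have hj0' : c k' ≤ j0 := by
        have h1 := hjX.1.2
        rw [List.length_take, min_eq_left hj0] at h1
        have := hmin ((0 + j0) % M')
        omega
      have htk : z.take j0 = z.take (c k') ++ (z.drop (c k')).take (j0 - c k') := by
        conv_lhs => rw [← hsplit]
        rw [List.take_append, List.take_of_length_le (by omega), hPl]
      rw [htk] at hjX hjb
      refine ⟨j0 - c k', by rw [List.length_drop]; omega, ?_, ?_⟩
      · have := (XO_app hW hZP).1 hjX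
        rwa [hPl] at this
      · have := (hbd _ _ (by omega)).1 hjb
        rwa [hPl] at this
  · have h1 : BO W Z M' 0 (z.take (c k) ++ z.drop (c k)) := by rw [hsplit]; exact hzB
    have h2 := (BO_app hW hZP).1 h1
    rwa [hPl] at h2
  · have e1 : (z.drop (c k)).take (p0 - c k) = (z.take p0).drop (c k) := by
      rw [List.drop_take]
    have e2 : (z.drop (c k)).drop (p0 - c k) = z.drop p0 := by
      rw [List.drop_drop]; congr 1; omega
    rw [e1, e2]
    exact ht

end Crest.Agent.R320.SchB2_670
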