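import Crest.Agent.R320.SchA_410
import Crest.Agent.R320.ExactR_237

/-!
# Row 320: scheme 2 (promise ruler) over natural blocks (helper410)
-/

set_option autoImplicit false

namespace Crest.Agent.R320.SchB_410

open Crest.Agent.R320.Hk_851 Crest.Agent.R320.Star_621 Crest.Agent.R320.Two_621
  Crest.Agent.R320.Geo_410 Crest.Agent.R320.SchA_410 Crest.Agent.R320.SchA_410.Cx

/-- the inner monoid -/
abbrev Gm (S : Type) : Type := (Function.End (Option (Tok S)))ᵐᵒᵖ

/-- all data of scheme 2 -/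
structure Cb (α S : Type) [Monoid S] extends Cx α S where
  K : ℕ
  c : ℕ → ℕ
  lamB : ℕ → List α → Option (Tok (Gm S))
  rhoB : ℕ → List α → Gm S → Option (Tok (Gm S))
  nuB : List α → Gm S → Tok (Gm S)
  Lm : ℕ
  C0 : ℕ

variable {α S : Type} [Monoid S] (D : Cb α S)

namespace Cb

/-- letters of the inner monoid -/
def gl (a : α) : Gm S := MulOpposite.op fun o => o.map fun v => act v (D.f a)

theorem pr_gl (u : List α) : ExactR_237.pr D.gl u =
    MulOpposite.op (fun o : Option (Tok S) => o.map fun v => act v (D.toCx.ph u)) := by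
  induction u with
  | nil =>
    apply MulOpposite.unop_injective
    funext o
    cases o with
    | none => rfl
    | some v =>
      show some v = some (act v (D.toCx.ph []))
      simp [Cx.ph, act_one]
  | cons a u ih =>
    have e : ExactR_237.pr D.gl (a :: u) = D.gl a * ExactR_237.pr D.gl u := by
      simp [ExactR_237.pr]
    rw [e, ih]
    apply MulOpposite.unop_injective
    funext o
    cases o with
    | none => rfl
    | some v =>
      show some (act (act v (D.f a)) (D.toCx.ph u)) = some (act v (D.toCx.ph (a :: u)))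
      rw [act_mul]
      simp [Cx.ph]

def CutY (v : Tok S) (z : List α) : Prop :=
  ∃ p Q τ, z.drop D.p0 = p ++ Q ∧ D.lam p = some v ∧ Q ∈ D.toCx.RA τ

open Classical in
noncomputable def eta (z : List α) : Gm S :=
  MulOpposite.op fun o => o.bind fun v =>
    if D.CutY v z then none else
      some (act (act v (D.toCx.ph ((z.take (D.toCx.fw z)).drop D.p0)) +
        D.nu ((z.take (D.toCx.fw z)).drop D.p0)) (D.toCx.ph (z.drop (D.toCx.fw z))))

noncomputable def dB (z : List α) : Tok (Gm S) := D.nuB (z.take D.p0) (D.eta z)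

noncomputable def SA (z : List α) : Gm S :=
  stepA (aff D.toCx.ph D.toCx.dA) D.toCx.LA D.toCx.RA z

def LB (w : Tok (Gm S)) : Language α :=
  {P | ∃ k < D.K, P.length = D.c k ∧ D.lamB k P = some w}

def Dead : Language α := {u | ∃ t, IsF D.R D.z0 u t ∧ ¬ D.toCx.BadZ u t}

def RB (b : Tok (Gm S)) : Language α :=
  {Q | ∀ w, ∀ P ∈ D.LB w, (P ++ Q ∈ D.toCx.Zc ∧
    aff (stepA (aff D.toCx.ph D.toCx.dA) D.toCx.LA D.toCx.RA) D.dB (P ++ Q) w = b) ∨
      P ++ Q ∈ D.Dead}

structure OkB : Prop where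
  ok : D.toCx.Ok
  hc0 : ∀ k < D.K, 0 < D.c k
  hcL : ∀ k < D.K, D.c k ≤ D.Lm
  hLp : D.Lm ≤ D.p0
  hW : 2 * (D.Lm + D.N) ≤ D.R.W
  hz : D.p0 + D.R.n + D.Lm + D.N + D.La + D.Lm ≤ D.z0
  hexs : ∀ k < D.K, ∀ (P Q : List α) (y : Gm S) (v b : Tok (Gm S)), P.length = D.c k →
    D.lamB k P = some v → D.rhoB k Q y = some b →
    b = act v (ExactR_237.pr D.gl (P ++ Q) * y) + D.nuB (P ++ Q) y
  hexc : ∀ (u : List α) (y : Gm S) (v : Tok (Gm S)), (∀ k < D.K, D.c k ≤ u.length) →
    ∃ I : Finset ℕ, 2 * D.C0 + 2 ≤ I.card ∧ ∀ k ∈ I, k < D.K ∧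
      D.lamB k (u.take (D.c k)) = some v ∧ (D.rhoB k (u.drop (D.c k)) y).isSome
  hspc : ∀ i j k l, i < D.K → j < D.K → k < D.K → l < D.K → i ≠ j → k ≠ l → (i, j) ≠ (k, l) →
    D.c i + D.c l + 4 * D.N < D.c k + D.c j ∨ D.c k + D.c j + 4 * D.N < D.c i + D.c l
  hN : 0 < D.N
  hspo : ∀ (B : ℕ → Prop), (∀ n, B n ↔ D.Bad n) → ∀ T, D.La ≤ T → ∃ s : Finset (ℕ × ℕ),
    s.card ≤ D.C0 ∧ ∀ i j, i < D.K → j < D.K → i ≠ j → D.Bad (T + D.c j - D.c i) → (i, j) ∈ s

variable {D}

theorem decomp (h : D.OkB) {z : List α} {t : ℕ} (hz : IsZ D.R D.z0 z t) :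
    ∃ X Y T : List α, z = X ++ Y ++ T ∧ X.length = D.p0 ∧ (X ++ Y).length = t ∧
      z.take D.p0 = X ∧ (z.take t).drop D.p0 = Y ∧ z.drop t = T ∧ z.drop D.p0 = Y ++ T := by
  have htl := hz.1
  have ht0 := hz.2.1.2.1
  have hzz := h.hz
  refine ⟨z.take D.p0, (z.take t).drop D.p0, z.drop t, ?_, ?_, ?_, rfl, rfl, rfl, ?_⟩
  · have e : z.take D.p0 = (z.take t).take D.p0 := by
      rw [List.take_take, Nat.min_eq_left (by omega)]
    rw [e, List.take_append_drop, List.take_append_drop]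
  · rw [List.length_take]; omega
  · rw [List.length_append, List.length_drop, List.length_take, List.length_take]; omega
  · have e : z.drop D.p0 = (z.take t ++ z.drop t).drop D.p0 := by rw [List.take_append_drop]
    rw [e, List.drop_append_of_le_length (by rw [List.length_take]; omega)]

theorem stepA_eq (h : D.OkB) {z : List α} {t : ℕ} (hz : IsZ D.R D.z0 z t) :
    stepA (aff D.toCx.ph D.toCx.dA) D.toCx.LA D.toCx.RA z =
      ExactR_237.pr D.gl (z.take D.p0) * D.eta z := by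
  classical
  obtain ⟨X, Y, T, hzeq, hX, hXY, e1, e2, e3, e4⟩ := decomp h hz
  have hfw : D.toCx.fw z = t := D.toCx.fw_eq hz.2.1
  rw [D.pr_gl]
  apply MulOpposite.unop_injective
  funext o
  cases o with
  | none => rfl
  | some v =>
    have hcut : Cut D.toCx.LA D.toCx.RA v z ↔ D.CutY (act v (D.toCx.ph (z.take D.p0))) z := by
      constructor
      · rintro ⟨P, Q, τ, hPQ, ⟨hP1, hP2⟩, hQ⟩
        refine ⟨P.drop D.p0, Q, τ, ?_, ?_, hQ⟩
        · rw [hPQ, List.drop_append_of_le_length hP1]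
        · rw [hPQ, List.take_append_of_le_length hP1]; exact hP2
      · rintro ⟨p, Q, τ, hpQ, hp, hQ⟩
        refine ⟨z.take D.p0 ++ p, Q, τ, ?_, ⟨?_, ?_⟩, hQ⟩
        · rw [List.append_assoc, ← hpQ, List.take_append_drop]
        · rw [List.length_append, e1, hX]; omega
        · rw [e1, ← hX, List.drop_left, List.take_left]
          rw [e1] at hp
          exact hp
    show (if Cut D.toCx.LA D.toCx.RA v z then none else some (aff D.toCx.ph D.toCx.dA z v)) =
      (if D.CutY (act v (D.toCx.ph (z.take D.p0))) z then none else _)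
    by_cases hc : Cut D.toCx.LA D.toCx.RA v z
    · rw [if_pos hc, if_pos (hcut.1 hc)]
    · rw [if_neg hc, if_neg (fun hh => hc (hcut.2 hh))]
      rw [hfw, e1, e2, e3, hzeq]
      rw [psi_eq hX (by rw [hXY, ← hzeq]; exact hz.2.1)]

theorem badZ_append {u x : List α} {t : ℕ} (hf : IsF D.R D.z0 u t) :
    D.toCx.BadZ (u ++ x) t ↔ D.toCx.BadZ u t := by
  have h1 := hf.1.1
  have h2 := hf.2.1
  unfold Cx.BadZ
  constructor
  · rintro (⟨τ, h3, h4, h5⟩ | h3)
    · exact Or.inl ⟨τ, h3, h4, (wat_append D.R (by omega)).1 h5⟩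
    · exact Or.inr h3
  · rintro (⟨τ, h3, h4, h5⟩ | h3)
    · exact Or.inl ⟨τ, h3, h4, (wat_append D.R (by omega)).2 h5⟩
    · exact Or.inr h3

theorem soundB (h : D.OkB) :
    Sound D.toCx.Zc (aff (stepA (aff D.toCx.ph D.toCx.dA) D.toCx.LA D.toCx.RA) D.dB) D.LB D.RB := by
  refine ⟨?_, ?_⟩
  · rintro ω ⟨k, hk, h1, _⟩
    have := h.hc0 k hk
    simp at h1
    omega
  · intro ω τ P Q z x y hP hQ hz e
    rcases hQ ω P hP with ⟨h1, h2⟩ | ⟨t, h1, h2⟩
    · have he : P ++ Q = z :=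
        (code (D := D.toCx)).2 (P ++ Q) z x y (zc_sub _ h1) (zc_sub _ hz) e
      rw [← he]
      exact ⟨rfl, h2.symm⟩
    · exfalso
      obtain ⟨t', hz1, hz2⟩ := hz
      have h3 := h1.append x
      have h4 := hz1.2.1.append y
      rw [← e] at h4
      have h5 := h3.unique h4
      subst h5
      refine h2 ((badZ_append (x := x) h1).1 ?_)
      rw [e]
      exact (badZ_append (x := y) hz1.2.1).2 hz2

theorem compB (h : D.OkB) : ∀ z ∈ D.toCx.Zc, ∀ w, Cut D.LB D.RB w z := by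
  classical
  rintro z ⟨t, hz, hbad⟩ w
  have hzz := h.hz
  have hNN := h.hN
  have hWW := h.hW
  have hLp := h.hLp
  have ht0 := hz.2.1.2.1
  have htl := hz.1
  have hpz : D.p0 ≤ z.length := by omega
  obtain ⟨I, hIc, hI⟩ := h.hexc (z.take D.p0) (D.eta z) w (by
    intro k hk
    have := h.hcL k hk
    rw [List.length_take]; omega)
  -- spoiled pairs: wall band
  let E : Finset (ℕ × ℕ) := ((Finset.range D.K) ×ˢ (Finset.range D.K)).filter (fun ij =>
    ij.1 ≠ ij.2 ∧ ∃ τ, Wat D.R z τ ∧ D.z0 + D.c ij.1 ≤ τ + D.c ij.2 + D.N ∧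
      τ + D.c ij.2 < D.z0 + D.N + D.c ij.1)
  have hE : E.card ≤ 1 := by
    rw [Finset.card_le_one]
    rintro ⟨i, j⟩ h1 ⟨k, l⟩ h2
    simp only [E, Finset.mem_filter, Finset.mem_product, Finset.mem_range] at h1 h2
    obtain ⟨⟨hi, hj⟩, hij, τ, hτ, h3, h4⟩ := h1
    obtain ⟨⟨hk, hl⟩, hkl, τ', hτ', h5, h6⟩ := h2
    have c1 := h.hcL i hi; have c2 := h.hcL j hj; have c3 := h.hcL k hk; have c4 := h.hcL l hl
    have heq : τ = τ' := by
      rcases lt_trichotomy τ τ' with hlt | he | hlt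
      · have := wat_gap D.R hτ hτ' hlt; omega
      · exact he
      · have := wat_gap D.R hτ' hτ hlt; omega
    subst heq
    by_contra hne
    rcases h.hspc i j k l hi hj hk hl hij hkl hne with h7 | h7 <;> omega
  -- the two candidate walls
  obtain ⟨τA, τB, hA, hB, hAB⟩ : ∃ τA τB, D.z0 ≤ τA + D.Lm ∧ D.z0 ≤ τB + D.Lm ∧
      ∀ τ, Wat D.R z τ → D.z0 ≤ τ + D.Lm → (τ = t ∨ τ < D.z0 ∨ (τ = z.length ∧
        ∀ s, D.z0 ≤ s + D.Lm → s < D.z0 → ¬ Wat D.R z s)) → τ = τA ∨ τ = τB := by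
    by_cases hs : ∃ s, D.z0 ≤ s + D.Lm ∧ s < D.z0 ∧ Wat D.R z s
    · obtain ⟨s, h1, h2, h3⟩ := hs
      refine ⟨s, t, h1, by omega, ?_⟩
      rintro τ h4 h5 (h6 | h6 | ⟨h6, h7⟩)
      · exact Or.inr h6
      · left
        rcases lt_trichotomy τ s with hlt | he | hlt
        · have := wat_gap D.R h4 h3 hlt; omega
        · exact he
        · have := wat_gap D.R h3 h4 hlt; omega
      · exact absurd h3 (h7 s h1 h2)
    · refine ⟨t, z.length, by omega, by omega, ?_⟩
      rintro τ h4 h5 (h6 | h6 | ⟨h6, h7⟩)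
      · exact Or.inl h6
      · exact absurd ⟨τ, h5, h6, h4⟩ hs
      · exact Or.inr h6
  obtain ⟨sA, hsA, hsA'⟩ := h.hspo D.Bad (fun _ => Iff.rfl) (τA - D.p0) (by omega)
  obtain ⟨sB, hsB, hsB'⟩ := h.hspo D.Bad (fun _ => Iff.rfl) (τB - D.p0) (by omega)
  -- an unspoiled place
  obtain ⟨k, hkI, hk⟩ : ∃ k ∈ I, ∀ j, (k, j) ∉ E ∪ sA ∪ sB := by
    by_contra hcon
    push Not at hcon
    have hsub : I ⊆ (E ∪ sA ∪ sB).image Prod.fst := by
      intro k hk
      obtain ⟨j, hj⟩ := hcon k hk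
      exact Finset.mem_image.2 ⟨(k, j), hj, rfl⟩
    have h1 := Finset.card_le_card hsub
    have h2 : ((E ∪ sA ∪ sB).image Prod.fst).card ≤ (E ∪ sA ∪ sB).card := Finset.card_image_le
    have h3 := Finset.card_union_le (E ∪ sA) sB
    have h4 := Finset.card_union_le E sA
    omega
  obtain ⟨hkK, hlam, hrho⟩ := hI k hkI
  obtain ⟨b, hb⟩ := Option.isSome_iff_exists.1 hrho
  have hck := h.hcL k hkK
  have hPl : (z.take (D.c k)).length = D.c k := by rw [List.length_take]; omega
  rw [List.take_take, Nat.min_eq_left (by omega)] at hlam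
  refine ⟨z.take (D.c k), z.drop (D.c k), b, (List.take_append_drop _ _).symm,
    ⟨k, hkK, hPl, hlam⟩, ?_⟩
  rintro w' P' ⟨j, hj, hP'l, hlam'⟩
  have hcj := h.hcL j hj
  have hz' : IsZ D.R D.z0 (z.take (D.c k) ++ z.drop (D.c k)) t := by
    rw [List.take_append_drop]; exact hz
  by_cases hjk : j = k
  · left
    subst hjk
    have hZ' : IsZ D.R D.z0 (P' ++ z.drop (D.c j)) t :=
      isZ_same hz' (by omega) (by omega)
    have hdrop : (P' ++ z.drop (D.c j)).drop D.p0 = z.drop D.p0 := by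
      rw [List.drop_append, hP'l, List.drop_drop,
        List.drop_eq_nil_of_le (by omega : P'.length ≤ D.p0), List.nil_append]
      congr 1; omega
    have hlen : (P' ++ z.drop (D.c j)).length = z.length := by
      rw [List.length_append, List.length_drop]; omega
    have hfw : D.toCx.fw z = t := D.toCx.fw_eq hz.2.1
    have hfw' : D.toCx.fw (P' ++ z.drop (D.c j)) = t := D.toCx.fw_eq hZ'.2.1
    have htd : ((P' ++ z.drop (D.c j)).take t).drop D.p0 = (z.take t).drop D.p0 := by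
      rw [List.drop_take, List.drop_take, hdrop]
    have hdt : (P' ++ z.drop (D.c j)).drop t = z.drop t := by
      have e1 : ∀ u : List α, u.drop t = (u.drop D.p0).drop (t - D.p0) := by
        intro u
        rw [List.drop_drop]; congr 1; omega
      rw [e1, e1 z, hdrop]
    have heta : D.eta (P' ++ z.drop (D.c j)) = D.eta z := by
      unfold eta CutY
      rw [hfw, hfw', htd, hdt, hdrop]
    refine ⟨⟨t, hZ', ?_⟩, ?_⟩
    · rcases hbad with ⟨τ, h1, h2, h3⟩ | h1
      · left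
        refine ⟨τ, h1, h2, ?_⟩
        have h4 : Wat D.R (z.take (D.c j) ++ z.drop (D.c j)) τ := by
          rw [List.take_append_drop]; exact h3
        exact (wat_shift D.R (by omega) (by omega)).1 h4
      · exact Or.inr h1
    · show act w' (stepA (aff D.toCx.ph D.toCx.dA) D.toCx.LA D.toCx.RA _) + D.dB _ = b
      rw [stepA_eq h hZ']
      unfold dB
      rw [heta]
      have htk : (P' ++ z.drop (D.c j)).take D.p0 = P' ++ (z.take D.p0).drop (D.c j) := by
        rw [List.take_append, List.take_of_length_le (by omega : P'.length ≤ D.p0), hP'l,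
          List.drop_take]
      rw [htk]
      exact (h.hexs j hj P' _ (D.eta z) w' b hP'l hlam' hb).symm
  · right
    obtain ⟨t', τ, hF, e1, hτ, hτ0, hτc⟩ := isF_shift (P := z.take (D.c k)) (P' := P')
      (Q := z.drop (D.c k)) (L := D.Lm) hz' (by omega) (by omega) (by omega) (by omega)
    rw [List.take_append_drop] at hτ hτc
    have hnot := hk j
    simp only [Finset.mem_union, not_or] at hnot
    obtain ⟨⟨hnE, hnA⟩, hnB⟩ := hnot
    have hnE' : ∀ τ, Wat D.R z τ → D.z0 + D.c k ≤ τ + D.c j + D.N →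
        τ + D.c j < D.z0 + D.N + D.c k → False := by
      intro τ h1 h2 h3
      exact hnE (Finset.mem_filter.2 ⟨Finset.mem_product.2
        ⟨Finset.mem_range.2 hkK, Finset.mem_range.2 hj⟩, fun e => hjk e.symm, τ, h1, h2, h3⟩)
    refine ⟨t', hF, ?_⟩
    rintro (⟨τ', h1, h2, h3⟩ | h1 | h1)
    · have h4 := (wat_shift D.R (P := z.take (D.c k)) (P' := P') (Q := z.drop (D.c k))
        (τ := τ' + D.c k - D.c j) (τ' := τ') (by omega) (by omega)).2 h3
      rw [List.take_append_drop] at h4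
      exact hnE' _ h4 (by omega) (by omega)
    · have := hF.2.1
      exact hnE' τ hτ (by omega) (by omega)
    · have e2 : t' - D.p0 = τ - D.p0 + D.c j - D.c k := by
        have := hF.2.1
        omega
      rw [e2] at h1
      rcases hAB τ hτ hτ0 hτc with rfl | rfl
      · exact hnA (hsA' k j hkK hj (fun e => hjk e.symm) h1)
      · exact hnB (hsB' k j hkK hj (fun e => hjk e.symm) h1)

end Cb

end Crest.Agent.R320.SchB_410
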