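import Crest.Agent.R320.Main_621
import Crest.Agent.R320.Exact_808

/-!
# Row 320: scheme B of `Main_621.Data` in abstract form (helper433)

Soundness, completeness and height one of `LB`, `RB` from 808's exact gadget on words of length
`p0`, the ambiguity count (AMB) and the visibility of the true anchor (VIS).
-/

set_option autoImplicit false

namespace Crest.Agent.R320.SchB_433

open Crest.Agent.R320.Hk_851 Crest.Agent.R320.Star_621 Crest.Agent.R320.Two_621
open Crest.Agent.R320.Exact808

universe u v w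

/-- **Scheme B** (I2 of the plan), abstract form. `m`, `k` depend on `S`, `Γ` only. -/
theorem schemeB (S : Type v) [Monoid S] [Finite S] (Γ : Type w) [Monoid Γ] [Finite Γ] :
    ∃ m k : ℕ, ∀ (α : Type u) [Finite α] (φ : List α → S), (∀ u v, φ (u ++ v) = φ u * φ v) →
      ∀ (B : ℕ → ℕ) (ctx : ℕ → Option (ℕ × Fin k)) (p0 : ℕ),
      Monotone B → B 0 = 0 → B m = p0 →
      (∀ x i e, ctx x = some (i, e) → i < m ∧ B i ≤ x ∧ x ≤ B (i + 1)) →
      (∀ x, (ctx x).isSome = true → 0 < x) →
      ∀ (Zc Vis : Language α) (th : List α → Γ) (G : List α → S → Γ) (C0 : ℕ),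
      Code Zc → HL 1 Zc → HL 1 Vis →
      (∀ z ∈ Zc, p0 < z.length) →
      (∀ P P' U : List α, P.length = P'.length → P.length ≤ p0 → P ++ U ∈ Zc → P' ++ U ∈ Zc) →
      (∀ X Y : List α, X.length = p0 → X ++ Y ∈ Zc → th (X ++ Y) = G Y (φ X)) →
      (∀ g : S → Γ, ∃ E : Language α, HL 1 E ∧
        ∀ X Y : List α, X.length = p0 → X ++ Y ∈ Zc → (Y ∈ E ↔ G Y = g)) →
      (∀ i, i < m → ∀ e : Fin k, ∃ A : Finset ℕ, C0 < A.card ∧ ∀ x ∈ A, ctx x = some (i, e)) →
      -- (VIS) the true anchor is seen to be bad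
      (∀ P P0 Q z x y : List α, (ctx P.length).isSome = true → (ctx P0.length).isSome = true →
        P0 ++ Q ∈ Zc → z ∈ Zc → P ++ Q ++ x = z ++ y → P ++ Q ∈ Vis) →
      -- (AMB) few ambiguous places
      (∀ z ∈ Zc, ∃ A : Finset ℕ, A.card ≤ C0 ∧
        ∀ x, x ∉ A → (ctx x).isSome = true → ∀ P' : List α, (ctx P'.length).isSome = true →
          P'.length ≠ x → P' ++ z.drop x ∉ Vis) →
      ∃ (dB : List α → Tok Γ) (LB RB : Tok Γ → Language α),
        Sound Zc (aff th dB) LB RB ∧ (∀ v, HL 1 (LB v)) ∧ (∀ v, HL 1 (RB v)) ∧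
        (∀ z ∈ Zc, ∀ v, Cut LB RB v z) ∧
        (∀ v, ∀ P ∈ LB v, (ctx P.length).isSome = true) := by
  classical
  obtain ⟨m, k, H⟩ := exact_gadget S (Tok Γ)
  refine ⟨m, k, ?_⟩
  intro α _ φ hφ B ctx p0 hB hB0 hBm hctx hctx0 Zc Vis th G C0 hC hZ hV hZl hZi hstep hG hpl
    hvis hamb
  obtain ⟨lam, Hl⟩ := H α φ hφ B ctx hB hB0 hctx
  choose rho nu hsound hcomp using fun g : S → Γ => Hl (fun v s => act v (g s))
  have hxp : ∀ x, (ctx x).isSome = true → x ≤ p0 := by
    intro x hx
    obtain ⟨⟨i, e⟩, hie⟩ := Option.isSome_iff_exists.1 hx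
    obtain ⟨him, _, h3⟩ := hctx x i e hie
    have : B (i + 1) ≤ B m := hB him
    omega
  let LB : Tok Γ → Language α := fun v => {P | (ctx P.length).isSome = true ∧ lam P = some v}
  let RB : Tok Γ → Language α := fun t => {Q | ∃ P0 : List α, (ctx P0.length).isSome = true ∧
    P0 ++ Q ∈ Zc ∧ (∀ P' : List α, (ctx P'.length).isSome = true → P' ++ Q ∈ Vis →
      P'.length = P0.length) ∧
    rho (G (Q.drop (p0 - P0.length))) (Q.take (p0 - P0.length)) = some t}
  refine ⟨fun z => nu (G (z.drop p0)) (z.take p0), LB, RB, ⟨?_, ?_⟩, ?_, ?_, ?_, ?_⟩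
  · rintro v ⟨h, _⟩
    have := hctx0 _ h
    simp at this
  · rintro v t P Q z x y ⟨hcP, hlam⟩ ⟨P0, hc0, hP0, huniq, hrho⟩ hz hPQ
    have hvisP := hvis P P0 Q z x y hcP hc0 hP0 hz hPQ
    have hlen : P.length = P0.length := huniq P hcP hvisP
    have hPp := hxp _ hcP
    have hPQZ : P ++ Q ∈ Zc := hZi P0 P Q hlen.symm (by omega) hP0
    have hPQe : P ++ Q = z := hC.2 _ _ x y hPQZ hz hPQ
    refine ⟨hPQe, ?_⟩
    have hPQl := hZl _ hPQZ
    rw [List.length_append] at hPQl
    have h1 : (P ++ Q).take p0 = P ++ Q.take (p0 - P.length) := by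
      rw [List.take_append, List.take_of_length_le hPp]
    have h2 : (P ++ Q).drop p0 = Q.drop (p0 - P.length) := by
      rw [List.drop_append, List.drop_of_length_le hPp, List.nil_append]
    have hX : ((P ++ Q).take p0).length = p0 := by
      rw [List.length_take, List.length_append]; omega
    have hth : th (P ++ Q) = G (Q.drop (p0 - P.length)) (φ (P ++ Q.take (p0 - P.length))) := by
      have h3 := hstep ((P ++ Q).take p0) ((P ++ Q).drop p0) hX
        (by rw [List.take_append_drop]; exact hPQZ)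
      rw [List.take_append_drop, h1, h2] at h3
      exact h3
    rw [← hlen] at hrho
    have hs := hsound (G (Q.drop (p0 - P.length))) P (Q.take (p0 - P.length)) v t (by
      rw [List.length_take, hBm]; omega) hlam hrho
    rw [hs, ← hPQe]
    show _ = act v (th (P ++ Q)) + nu (G ((P ++ Q).drop p0)) ((P ++ Q).take p0)
    rw [hth, h1, h2]
  · intro v
    refine HL.finite ((List.finite_length_le α p0).subset ?_)
    rintro P ⟨h, _⟩
    exact hxp _ h
  · intro t
    have : Finite {P : List α // P.length ≤ p0} := (List.finite_length_le α p0).to_subtype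
    choose E hE1 hE2 using hG
    refine (HL.iUnion fun P0 : {P : List α // P.length ≤ p0} =>
      HL.iUnion fun q : {P : List α // P.length ≤ p0} => HL.iUnion fun g : S → Γ =>
      (HL.setOf_and (HL.const ((ctx P0.1.length).isSome = true ∧ q.1.length = p0 - P0.1.length ∧
          rho g q.1 = some t))
        (HL.setOf_and (HL.lquot P0.1 hZ)
          (HL.setOf_and
            (HL.iInter fun P' : {P : List α // P.length ≤ p0} =>
              HL.setOf_imp (HL.const ((ctx P'.1.length).isSome = true ∧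
                P'.1.length ≠ P0.1.length)) (HL.setOf_not (HL.lquot P'.1 hV)))
            ((HL.word q.1).mul (hE1 g)))))).congr fun Q => ?_
    constructor
    · rintro ⟨P0, hc0, hP0, huniq, hrho⟩
      have hPp := hxp _ hc0
      have hPQl := hZl _ hP0
      rw [List.length_append] at hPQl
      have hql : (Q.take (p0 - P0.length)).length = p0 - P0.length := by
        rw [List.length_take]; omega
      refine ⟨⟨P0, hPp⟩, ⟨Q.take (p0 - P0.length), by rw [hql]; omega⟩,
          G (Q.drop (p0 - P0.length)), ⟨hc0, hql, hrho⟩, hP0, ?_, ?_⟩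
      · rintro P' ⟨h1, h2⟩ h3
        exact h2 (huniq P'.1 h1 h3)
      · refine Language.mem_mul.2 ⟨_, rfl, Q.drop (p0 - P0.length), ?_, List.take_append_drop _ _⟩
        refine (hE2 _ (P0 ++ Q.take (p0 - P0.length)) _ ?_ ?_).2 rfl
        · rw [List.length_append, hql]; omega
        · rw [List.append_assoc, List.take_append_drop]; exact hP0
    · rintro ⟨P0, q, g, ⟨hc0, hql, hrho⟩, hP0, huniq, hmul⟩
      obtain ⟨q', hq', Y, hY, rfl⟩ := Language.mem_mul.1 hmul
      have hq'' : q' = q.1 := hq'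
      subst hq''
      have hPp := hxp _ hc0
      have hg : G Y = g := by
        refine (hE2 g (P0.1 ++ q.1) Y ?_ ?_).1 hY
        · rw [List.length_append, hql]; omega
        · rw [List.append_assoc]; exact hP0
      refine ⟨P0.1, hc0, hP0, ?_, ?_⟩
      · intro P' h1 h3
        by_contra hne
        exact huniq ⟨P', hxp _ h1⟩ ⟨h1, hne⟩ h3
      · rw [← hql, List.drop_left, List.take_left, hg]
        exact hrho
  · intro z hz v
    have hzl := hZl z hz
    obtain ⟨A, hA, hA2⟩ := hamb z hz
    obtain ⟨i, him, e, hie⟩ := hcomp (G (z.drop p0)) (z.take p0) v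
      (by rw [List.length_take, hBm]; omega)
    obtain ⟨A', hA', hA'2⟩ := hpl i him e
    have hex : ∃ x ∈ A', x ∉ A := by
      by_contra hcon
      push Not at hcon
      have := Finset.card_le_card (fun x hx => hcon x hx : A' ⊆ A)
      omega
    obtain ⟨x, hxA', hxA⟩ := hex
    have hcx := hA'2 x hxA'
    have hcxs : (ctx x).isSome = true := by rw [hcx]; rfl
    have hxp0 := hxp x hcxs
    obtain ⟨h1, h2⟩ := hie x hcx
    obtain ⟨t, ht⟩ := Option.isSome_iff_exists.1 h2
    have hxl : (z.take x).length = x := by rw [List.length_take]; omega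
    refine ⟨z.take x, z.drop x, t, (List.take_append_drop x z).symm, ⟨?_, ?_⟩,
      ⟨z.take x, ?_, ?_, ?_, ?_⟩⟩
    · rw [hxl]; exact hcxs
    · rw [List.take_take, Nat.min_eq_left hxp0] at h1
      exact h1
    · rw [hxl]; exact hcxs
    · rw [List.take_append_drop]; exact hz
    · intro P' hc' hV'
      rw [hxl]
      by_contra hne
      exact hA2 x hxA hcxs P' hc' hne hV'
    · rw [hxl, List.drop_drop, show x + (p0 - x) = p0 by omega, ← ht, List.drop_take]
  · rintro v P ⟨h, _⟩
    exact h

end Crest.Agent.R320.SchB_433
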