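import Crest.Agent.R320.SchA_717

/-!
# Row 320: the inner (promise) scheme on bad blocks (helper717)
-/

set_option autoImplicit false

namespace Crest.Agent.R320.SchB_717

open Crest.Agent.R320.Hk_851 Crest.Agent.R320.Star_621 Crest.Agent.R320.Two_621
open Crest.Agent.R320.Main_621 Crest.Agent.R320.Blk_717 Crest.Agent.R320.SchA_717

universe u

/-- the monoid of partial maps of tokens -/
abbrev MM (S : Type u) [Monoid S] : Type u := (Function.End (Option (Tok S)))ᵐᵒᵖ

variable {α S : Type u} [Monoid S] {ph : List α → S} (w : Wall α) (g : Gad ph) (p0 z : ℕ)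

/-- cut of a token at `p0` inside the rest of the block -/
def CutR (v : Tok S) (Y : List α) : Prop :=
  ∃ P Q τ, Y = P ++ Q ∧ g.lam P = some v ∧ Q ∈ RA w g p0 z τ

/-- effect of the part before `p0` -/
noncomputable def gX (s : S) : MM S := MulOpposite.op fun o : Option (Tok S) => o.map fun v => act v s

open Classical in
/-- effect of the rest -/
noncomputable def hY (Y : List α) : MM S :=
  MulOpposite.op fun o : Option (Tok S) => o.bind fun v =>
    if CutR w g p0 z v Y then none else some (act v (ph Y) + dR w g p0 z Y)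

theorem gX_one : gX (1 : S) = 1 := by
  unfold gX
  rw [← MulOpposite.op_one]
  congr 1
  funext o
  cases o with
  | none => rfl
  | some v => show some (act v 1) = some v; rw [act_one]

theorem gX_mul (s t : S) : gX (s * t) = gX s * gX t := by
  unfold gX
  rw [← MulOpposite.op_mul]
  congr 1
  funext o
  cases o with
  | none => rfl
  | some v => show some (act v (s * t)) = some (act (act v s) t); rw [act_mul]

theorem stepA_eq (hm : ∀ a b, ph (a ++ b) = ph a * ph b) {X : List α} (hX : p0 ≤ X.length) :
    stepA (aff ph (dA w g p0 z)) (LA g p0) (RA w g p0 z) X =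
      gX (ph (X.take p0)) * hY w g p0 z (X.drop p0) := by
  classical
  unfold stepA gX hY
  rw [← MulOpposite.op_mul]
  congr 1
  funext o
  cases o with
  | none => rfl
  | some v =>
    show (if Cut (LA g p0) (RA w g p0 z) v X then none
      else some (aff ph (dA w g p0 z) X v)) =
      (if CutR w g p0 z (act v (ph (X.take p0))) (X.drop p0) then none
        else some (act (act v (ph (X.take p0))) (ph (X.drop p0)) + dR w g p0 z (X.drop p0)))
    have hl0 : (X.take p0).length = p0 := by rw [List.length_take]; omega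
    have hiff : Cut (LA g p0) (RA w g p0 z) v X ↔
        CutR w g p0 z (act v (ph (X.take p0))) (X.drop p0) := by
      constructor
      · rintro ⟨P, Q, τ, rfl, ⟨hp, hl⟩, hQ⟩
        refine ⟨P.drop p0, Q, τ, List.drop_append_of_le_length hp, ?_, hQ⟩
        rw [List.take_append_of_le_length hp]; exact hl
      · rintro ⟨P, Q, τ, he, hl, hQ⟩
        refine ⟨X.take p0 ++ P, Q, τ, ?_, ⟨by rw [List.length_append]; omega, ?_⟩, hQ⟩
        · rw [List.append_assoc, ← he, List.take_append_drop]
        · have e1 : (X.take p0 ++ P).drop p0 = P := by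
            have := List.drop_left (l₁ := X.take p0) (l₂ := P)
            rwa [hl0] at this
          have e2 : (X.take p0 ++ P).take p0 = X.take p0 := by
            have := List.take_left (l₁ := X.take p0) (l₂ := P)
            rwa [hl0] at this
          rw [e1, e2]; exact hl
    have hval : aff ph (dA w g p0 z) X v =
        act (act v (ph (X.take p0))) (ph (X.drop p0)) + dR w g p0 z (X.drop p0) := by
      show act v (ph X) + dA w g p0 z X = _
      rw [act_mul, ← hm, List.take_append_drop]
      rfl
    by_cases h : Cut (LA g p0) (RA w g p0 z) v X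
    · rw [if_pos h, if_pos (hiff.1 h)]
    · rw [if_neg h, if_neg (fun h' => h (hiff.2 h')), hval]

/-- data of the inner scheme: candidates `c k`, labels -/
structure Inn (α S : Type u) [Monoid S] where
  K : ℕ
  c : ℕ → ℕ
  lam : ℕ → List α → Option (Tok (MM S))
  rho : ℕ → List α → MM S → Option (Tok (MM S))
  nu : List α → MM S → Tok (MM S)

/-- candidate `k` is bad, as seen from the right word `Q` -/
def BadAt (i : Inn α S) (Q : List α) (k : ℕ) : Prop :=
  ∃ t, Fst w Q (z - i.c k) t ∧
    ((∃ s, z - i.c k - g.N1 ≤ s ∧ s < z - i.c k + g.N1 ∧ s ≤ t ∧ w.W (Q.take s)) ∨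
      g.Bad (t + i.c k - p0))

def LB (i : Inn α S) (v : Tok (MM S)) : Language α :=
  {P | ∃ k < i.K, P.length = i.c k ∧ i.lam k P = some v}

def RB (i : Inn α S) (τ : Tok (MM S)) : Language α :=
  {Q | ∃ k < i.K, BadAt w g p0 z i Q k ∧ (∀ j < i.K, BadAt w g p0 z i Q j → j = k) ∧
    ∃ t, Fst w Q (z - i.c k) t ∧ Nxt w Q t Q.length ∧
      i.rho k (Q.take (p0 - i.c k)) (hY w g p0 z (Q.drop (p0 - i.c k))) = some τ}

/-- noise -/
noncomputable def dB (i : Inn α S) (X : List α) : Tok (MM S) :=
  i.nu (X.take p0) (hY w g p0 z (X.drop p0))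

/-- bad blocks -/
def Zc : Language α := {X | X ∈ ZZ w z ∧ BadZ w g p0 z X}

variable (hz : p0 + 2 * g.N1 + w.n + 1 ≤ z)
include hz

theorem badAt_of (i : Inn α S) {k : ℕ} (hk : i.c k ≤ p0) {P Q x X y : List α}
    (hP : P.length = i.c k) (hX : BadZ w g p0 z X) (he : P ++ Q ++ x = X ++ y)
    (ht : ∃ t, Fst w X z t ∧ t ≤ (P ++ Q).length) : BadAt w g p0 z i Q k := by
  obtain ⟨t, h1, h2⟩ := hX
  obtain ⟨t', h1', h2'⟩ := ht
  have := h1.unique h1'
  subst this
  have hF : Fst w (P ++ Q) z t := by
    have : Fst w (P ++ Q ++ x) z t := by rw [he]; exact h1.ext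
    exact this.res h2'
  rw [List.length_append] at h2'
  have hzt := h1.1
  refine ⟨t - i.c k, ?_, ?_⟩
  · refine Fst.unshift (P := P) (by omega) ?_
    have e1 : P.length + (z - i.c k) = z := by omega
    have e2 : P.length + (t - i.c k) = t := by omega
    rw [e1, e2]; exact hF
  · rcases h2 with ⟨s, s1, s2, s3, s4⟩ | hB
    · left
      refine ⟨s - i.c k, by omega, by omega, by omega, ?_⟩
      refine (W_shift (w := w) P Q (s - i.c k) (by omega) (by omega)).1 ?_
      have e1 : P.length + (s - i.c k) = s := by omega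
      rw [e1]
      have e2 : (P ++ Q).take s = X.take s := by
        have a1 : (P ++ Q ++ x).take s = (P ++ Q).take s :=
          List.take_append_of_le_length (by rw [List.length_append]; omega)
        have a2 : (X ++ y).take s = X.take s :=
          List.take_append_of_le_length (by have := h1.2.1; omega)
        rw [← a1, he, a2]
      rw [e2]; exact s4
    · right
      have e1 : t - i.c k + i.c k - p0 = t - p0 := by omega
      rw [e1]; exact hB

theorem sound_B (i : Inn α S) (hm : ∀ a b, ph (a ++ b) = ph a * ph b)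
    (hc0 : ∀ k < i.K, 0 < i.c k ∧ i.c k ≤ p0)
    (hG : ∀ k < i.K, ∀ j < i.K, i.c k ≤ i.c j + w.G)
    (hs : ∀ k < i.K, ∀ (P Q : List α) (y : MM S) (v b : Tok (MM S)), P.length = i.c k →
      i.lam k P = some v → i.rho k Q y = some b →
      b = act v (gX (ph (P ++ Q)) * y) + i.nu (P ++ Q) y) :
    Sound (Zc w g p0 z) (aff (stepA (aff ph (dA w g p0 z)) (LA g p0) (RA w g p0 z))
      (dB w g p0 z i)) (LB i) (RB w g p0 z i) := by
  refine ⟨fun v h => ?_, ?_⟩
  · obtain ⟨k, hk, h1, -⟩ := h
    have := (hc0 k hk).1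
    simp at h1
    omega
  · intro v τ P Q X x y hP hQ hX he
    obtain ⟨k, hk, hPl, hl⟩ := hP
    obtain ⟨k', hk', hb', huniq, t', h1', h2', hr⟩ := hQ
    obtain ⟨⟨t, h1, h2⟩, hXb⟩ := hX
    have hc := hc0 k hk
    have hc' := hc0 k' hk'
    have hFw : Fst w (P ++ Q ++ x) z t := by rw [he]; exact h1.ext
    have ht : t ≤ (P ++ Q).length := by
      by_contra hlt
      rw [List.length_append] at hlt
      -- the wall at the end of `Q`
      have hgap : t' + w.G < Q.length := by
        by_contra hle
        have hd : 0 < Q.length - t' := by have := h2'.1; omega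
        have := w.gap Q (Q.length - t') (by
          have := h2'.2.2.1; rwa [List.take_length] at this) hd (by have := h2'.1; omega)
        apply this
        have e : Q.length - (Q.length - t') = t' := by have := h2'.1; omega
        rw [e]; exact h1'.2.2.1
      have hGk := hG k' hk' k hk
      have hzt' := h1'.1
      refine hFw.2.2.2 (P.length + Q.length) (by omega) (by omega) ?_
      rw [← List.length_append, List.take_append_of_le_length (le_refl _), List.take_length]
      rw [w.app P Q (by omega)]
      have := h2'.2.2.1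
      rwa [List.take_length] at this
    have hbk := badAt_of w g p0 z hz i hc.2 hPl hXb he ⟨t, h1, ht⟩
    have hkk : k = k' := huniq k hk hbk
    subst hkk
    have hFPQ : Fst w (P ++ Q) z t := hFw.res ht
    rw [List.length_append] at ht
    have hzt := h1.1
    have htt : t = P.length + t' := by
      have : Fst w Q (z - i.c k) (t - i.c k) := by
        refine Fst.unshift (P := P) (by omega) ?_
        have e1 : P.length + (z - i.c k) = z := by omega
        have e2 : P.length + (t - i.c k) = t := by omega
        rw [e1, e2]; exact hFPQ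
      have := this.unique h1'
      omega
    have hN : Nxt w (P ++ Q) t (P ++ Q).length := by
      rw [htt, List.length_append]
      exact h2'.shift (by have := h1'.1; omega)
    have hZ : P ++ Q ∈ ZZ w z := ⟨t, hFPQ, hN⟩
    have heq : P ++ Q = X := code_ZZ.2 _ _ _ _ hZ ⟨t, h1, h2⟩ he
    subst heq
    refine ⟨rfl, ?_⟩
    have hlen : p0 ≤ (P ++ Q).length := by rw [List.length_append]; omega
    have e1 : (P ++ Q).take p0 = P ++ Q.take (p0 - i.c k) := by
      have : p0 = P.length + (p0 - i.c k) := by omega
      conv_lhs => rw [this]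
      rw [List.take_length_add_append]
    have e2 : (P ++ Q).drop p0 = Q.drop (p0 - i.c k) := by
      have : p0 = P.length + (p0 - i.c k) := by omega
      conv_lhs => rw [this]
      rw [List.drop_length_add_append]
    have := hs k hk P _ _ _ _ hPl hl hr
    rw [this]
    show _ = act v (stepA _ _ _ (P ++ Q)) + dB w g p0 z i (P ++ Q)
    rw [stepA_eq w g p0 z hm hlen, e2]
    unfold dB
    rw [e1, e2]

theorem compl_B (i : Inn α S) (R : ℕ) (hc0 : ∀ k < i.K, 0 < i.c k ∧ i.c k ≤ p0)
    (hcp : ∀ (u : List α) (y : MM S) (v : Tok (MM S)), (∀ k < i.K, i.c k ≤ u.length) →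
      ∃ I : Finset ℕ, R ≤ I.card ∧ ∀ k ∈ I, k < i.K ∧ i.lam k (u.take (i.c k)) = some v ∧
        (i.rho k (u.drop (i.c k)) y).isSome)
    (X : List α) (hX : X ∈ Zc w g p0 z)
    (hsp : ∃ J : Finset ℕ, J.card < R ∧ ∀ k < i.K,
      (∃ j < i.K, j ≠ k ∧ BadAt w g p0 z i (X.drop (i.c k)) j) → k ∈ J)
    (v : Tok (MM S)) : Cut (LB i) (RB w g p0 z i) v X := by
  obtain ⟨⟨t, h1, h2⟩, hXb⟩ := hX
  have hlX := h1.2.1
  have hzt := h1.1
  have hu : (X.take p0).length = p0 := by rw [List.length_take]; omega
  obtain ⟨I, hI, hIk⟩ := hcp (X.take p0) (hY w g p0 z (X.drop p0)) v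
    (fun k hk => by rw [hu]; exact (hc0 k hk).2)
  obtain ⟨J, hJ, hJk⟩ := hsp
  have : ∃ k ∈ I, k ∉ J := by
    by_contra hcon
    push Not at hcon
    have := Finset.card_le_card (show I ⊆ J from fun a ha => hcon a ha)
    omega
  obtain ⟨k, hkI, hkJ⟩ := this
  obtain ⟨hk, hl, hr⟩ := hIk k hkI
  have hc := hc0 k hk
  obtain ⟨τ, hτ⟩ := Option.isSome_iff_exists.1 hr
  have hPl : (X.take (i.c k)).length = i.c k := by rw [List.length_take]; omega
  have hF : Fst w (X.drop (i.c k)) (z - i.c k) (t - i.c k) := by
    refine Fst.unshift (P := X.take (i.c k)) (by omega) ?_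
    rw [hPl, List.take_append_drop]
    have e1 : i.c k + (z - i.c k) = z := by omega
    have e2 : i.c k + (t - i.c k) = t := by omega
    rw [e1, e2]; exact h1
  have hN : Nxt w (X.drop (i.c k)) (t - i.c k) (X.drop (i.c k)).length := by
    refine Nxt.unshift (P := X.take (i.c k)) (by omega) ?_
    rw [hPl, List.take_append_drop]
    have e2 : i.c k + (t - i.c k) = t := by omega
    have e3 : i.c k + (X.drop (i.c k)).length = X.length := by rw [List.length_drop]; omega
    rw [e2, e3]; exact h2
  refine ⟨X.take (i.c k), X.drop (i.c k), τ, (List.take_append_drop _ _).symm,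
    ⟨k, hk, hPl, ?_⟩, ⟨k, hk, ?_, ?_, t - i.c k, hF, hN, ?_⟩⟩
  · rw [List.take_take, Nat.min_eq_left hc.2] at hl
    exact hl
  · refine badAt_of w g p0 z hz i hc.2 (P := X.take (i.c k)) (Q := X.drop (i.c k)) (x := [])
      (X := X) (y := []) hPl hXb (by simp) ⟨t, h1, ?_⟩
    rw [List.take_append_drop]; exact hlX
  · intro j hj hbj
    by_contra hne
    exact hkJ (hJk k hk ⟨j, hj, hne, hbj⟩)
  · have e1 : (X.drop (i.c k)).take (p0 - i.c k) = (X.take p0).drop (i.c k) := by
      rw [List.drop_take]
    have e2 : (X.drop (i.c k)).drop (p0 - i.c k) = X.drop p0 := by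
      rw [List.drop_drop]
      congr 1
      omega
    rw [e1, e2]; exact hτ

end Crest.Agent.R320.SchB_717
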