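import Mathlib

/-!
Row 320, helper458 (P3): SPOILING COUNT OF THE RULER OF SCHEME 2, left-looking walls, block form,
ALL TEXTS (no run-free promise).  Bad blocks = (E) threshold band, (B) bad length, (D) small wall
near a level.  `spoil_card`: for every text `U` from an anchor at most `1 + 2 * CB + mm` places of
the ruler see another candidate anchor whose block is bad.
-/

set_option autoImplicit false
set_option linter.unusedSectionVars false

namespace Crest.Agent.R320.Spoil_458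

open Finset

variable {α : Type*}

/-- all constants and rules -/
structure Par (α : Type*) where
  /-- outer walls (left-looking: a wall at the END of the word) -/
  Wo : List α → Prop
  no : ℕ
  Wgap : ℕ
  /-- thresholds -/
  thr : ℕ → ℕ
  q : ℕ
  p0 : ℕ
  N1 : ℕ
  Tlo : ℕ
  Thi : ℕ
  /-- bad lengths -/
  B : ℕ → Prop
  CB : ℕ
  /-- small walls -/
  Ws : List α → Prop
  ns : ℕ
  Sgap : ℕ
  /-- levels -/
  mm : ℕ
  A : ℕ → ℕ
  Rr : ℕ
  /-- ruler -/
  K : ℕ
  c : ℕ → ℕ

variable (p : Par α)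

def Par.Adm (X : List α) : Prop := p.Wo X ∧ p.thr (X.length % p.q) ≤ X.length

def Par.XX : Set (List α) := {X | p.Adm X ∧ ∀ t < X.length, ¬ p.Adm (X.take t)}

/-- (E) -/
def Par.E (X : List α) : Prop :=
  X.length < p.thr (X.length % p.q) + p.N1 ∨
    ∃ t < X.length, p.Wo (X.take t) ∧ p.p0 + p.no ≤ t ∧ p.thr (t % p.q) ≤ t + p.N1

/-- (D) -/
def Par.D (X : List α) : Prop :=
  ∃ j < p.mm, ∃ s, s ≤ X.length ∧ p.Ws (X.take s) ∧ p.A j ≤ s + p.Rr ∧ s ≤ p.A j + p.Rr

def Par.BadB (X : List α) : Prop := p.E X ∨ p.B X.length ∨ p.D X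

/-- badness of the anchor at the beginning of the text `U` -/
def Par.Bad (U : List α) : Prop := ∃ X, X <+: U ∧ X ∈ p.XX ∧ p.BadB X

structure Par.Ok : Prop where
  loc : ∀ P Q : List α, p.no ≤ Q.length → (p.Wo (P ++ Q) ↔ p.Wo Q)
  sep : ∀ P Q : List α, p.Wo P → p.Wo (P ++ Q) → Q ≠ [] → p.Wgap < Q.length
  slo : ∀ P Q : List α, p.ns ≤ Q.length → (p.Ws (P ++ Q) ↔ p.Ws Q)
  ssep : ∀ P Q : List α, p.Ws P → p.Ws (P ++ Q) → Q ≠ [] → p.Sgap < Q.length
  tlo : ∀ r, p.Tlo ≤ p.thr r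
  thi : ∀ r, p.thr r ≤ p.Thi
  lo : 2 * p.p0 + 2 * p.N1 + p.no ≤ p.Tlo
  tpos : p.p0 < p.Tlo
  tsep : ∀ r r', r < p.q → r' < p.q → p.thr r ≤ p.thr r' + 2 * p.N1 + 2 * p.p0 →
    p.thr r' ≤ p.thr r + 2 * p.N1 + 2 * p.p0 → r = r'
  qpos : 0 < p.q
  gap : p.Thi + 2 * p.N1 + 2 * p.p0 ≤ p.Tlo + p.Wgap
  alo : ∀ j < p.mm, 2 * p.p0 + p.Rr + p.ns ≤ p.A j
  sgap : 2 * p.p0 + 2 * p.Rr ≤ p.Sgap
  cp : ∀ k < p.K, p.c k ≤ p.p0
  /-- the ruler is Golomb modulo `q` -/
  gol : ∀ i j k l, i < p.K → j < p.K → k < p.K → l < p.K → i ≠ j → k ≠ l →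
    (p.c i + p.c l) % p.q = (p.c k + p.c j) % p.q → i = k ∧ j = l
  /-- differences are more than `2 Rr` apart -/
  golR : ∀ i j k l, i < p.K → j < p.K → k < p.K → l < p.K → i ≠ j → k ≠ l →
    p.c i + p.c l ≤ p.c k + p.c j + 2 * p.Rr → p.c k + p.c j ≤ p.c i + p.c l + 2 * p.Rr →
    i = k ∧ j = l
  /-- bad lengths are thin -/
  hB : ∀ T, p.Tlo ≤ T + p.p0 → ∀ S : Finset (ℕ × ℕ),
    (∀ x ∈ S, x.1 < p.K ∧ x.2 < p.K ∧ x.1 ≠ x.2 ∧ p.B (T + p.c x.2 - p.c x.1)) → S.card ≤ p.CB

variable {p}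

theorem take_app {P Q : List α} {t : ℕ} (h : P.length ≤ t) :
    (P ++ Q).take t = P ++ Q.take (t - P.length) := by
  rw [List.take_append, List.take_of_length_le h]

/-- transport of outer walls between two texts with the same right part -/
theorem wall_tr (h : p.Ok) {P P' Q : List α} {y : ℕ} (hy : p.no ≤ y) (hyQ : y ≤ Q.length) :
    p.Wo ((P ++ Q).take (P.length + y)) ↔ p.Wo ((P' ++ Q).take (P'.length + y)) := by
  have hl : p.no ≤ (Q.take y).length := by rw [List.length_take]; omega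
  rw [take_app (by omega), take_app (by omega), Nat.add_sub_cancel_left, Nat.add_sub_cancel_left,
    h.loc P _ hl, h.loc P' _ hl]

theorem swall_tr (h : p.Ok) {P P' Q : List α} {y : ℕ} (hy : p.ns ≤ y) (hyQ : y ≤ Q.length) :
    p.Ws ((P ++ Q).take (P.length + y)) ↔ p.Ws ((P' ++ Q).take (P'.length + y)) := by
  have hl : p.ns ≤ (Q.take y).length := by rw [List.length_take]; omega
  rw [take_app (by omega), take_app (by omega), Nat.add_sub_cancel_left, Nat.add_sub_cancel_left,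
    h.slo P _ hl, h.slo P' _ hl]

theorem wall_sep (h : p.Ok) {U : List α} {s t : ℕ} (hs : p.Wo (U.take s)) (ht : p.Wo (U.take t))
    (hst : s < t) (htU : t ≤ U.length) : p.Wgap < t - s := by
  have e : U.take t = U.take s ++ (U.drop s).take (t - s) := by
    have : t = s + (t - s) := by omega
    conv_lhs => rw [this]
    rw [List.take_add]
  rw [e] at ht
  have hl : ((U.drop s).take (t - s)).length = t - s := by
    rw [List.length_take, List.length_drop]; omega
  have := h.sep _ _ hs ht (by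
    intro h0
    rw [h0] at hl
    simp at hl
    omega)
  rwa [hl] at this

theorem swall_sep (h : p.Ok) {U : List α} {s t : ℕ} (hs : p.Ws (U.take s)) (ht : p.Ws (U.take t))
    (hst : s < t) (htU : t ≤ U.length) : p.Sgap < t - s := by
  have e : U.take t = U.take s ++ (U.drop s).take (t - s) := by
    have : t = s + (t - s) := by omega
    conv_lhs => rw [this]
    rw [List.take_add]
  rw [e] at ht
  have hl : ((U.drop s).take (t - s)).length = t - s := by
    rw [List.length_take, List.length_drop]; omega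
  have := h.ssep _ _ hs ht (by
    intro h0
    rw [h0] at hl
    simp at hl
    omega)
  rwa [hl] at this

/-- blocks are long -/
theorem len_XX (h : p.Ok) {X : List α} (hX : X ∈ p.XX) : p.Tlo ≤ X.length :=
  le_trans (h.tlo _) hX.1.2

/-- the data of a bad pair, in absolute coordinates of `U` -/
theorem bad_pair (h : p.Ok) {U P' : List α} {a b : ℕ} (ha : a ≤ p.p0) (haU : a ≤ U.length)
    (hb : b ≤ p.p0) (hP' : P'.length = b) (hbad : p.Bad (P' ++ U.drop a)) :
    ∃ T, T ≤ U.length ∧ p.Wo (U.take T) ∧ p.thr ((T + b - a) % p.q) ≤ T + b - a ∧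
      p.Tlo + a ≤ T + b ∧
      (∀ t, t < T → p.Tlo + a ≤ t + b → p.Wo (U.take t) →
        t + b - a < p.thr ((t + b - a) % p.q)) ∧
      ((∃ t, t ≤ T ∧ p.Wo (U.take t) ∧ p.Tlo + a ≤ t + b + p.N1 ∧
          t + b - a ≤ p.thr ((t + b - a) % p.q) + p.N1 ∧
          p.thr ((t + b - a) % p.q) ≤ t + b - a + p.N1) ∨
        p.B (T + b - a) ∨
        (∃ j < p.mm, ∃ s, s ≤ U.length ∧ p.Ws (U.take s) ∧ p.A j + a ≤ s + b + p.Rr ∧
          s + b ≤ p.A j + a + p.Rr)) := by
  obtain ⟨X, hXU, hX, hXb⟩ := hbad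
  have hlo := h.lo
  have hXl := len_XX h hX
  have hUl : (P' ++ U.drop a).length = b + (U.length - a) := by
    rw [List.length_append, List.length_drop, hP']
  have hXU' : X.length ≤ b + (U.length - a) := by rw [← hUl]; exact hXU.length_le
  have hXe : X = (P' ++ U.drop a).take X.length := (List.prefix_iff_eq_take.1 hXU)
  have hUe : U = U.take a ++ U.drop a := (List.take_append_drop _ _).symm
  have hal : (U.take a).length = a := by rw [List.length_take]; omega
  -- transport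
  have tr : ∀ y, p.no ≤ y → y ≤ (U.drop a).length →
      (p.Wo (U.take (a + y)) ↔ p.Wo ((P' ++ U.drop a).take (b + y))) := by
    intro y h1 h2
    have := wall_tr h (P := U.take a) (P' := P') (Q := U.drop a) h1 h2
    rwa [← hUe, hal, hP'] at this
  have trs : ∀ y, p.ns ≤ y → y ≤ (U.drop a).length →
      (p.Ws (U.take (a + y)) ↔ p.Ws ((P' ++ U.drop a).take (b + y))) := by
    intro y h1 h2
    have := swall_tr h (P := U.take a) (P' := P') (Q := U.drop a) h1 h2
    rwa [← hUe, hal, hP'] at this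
  have hdl : (U.drop a).length = U.length - a := List.length_drop
  have tk : ∀ t, t ≤ X.length → X.take t = (P' ++ U.drop a).take t := by
    intro t ht
    conv_lhs => rw [hXe]
    rw [List.take_take, min_eq_left ht]
  obtain ⟨y, hy⟩ := Nat.exists_eq_add_of_le (show b ≤ X.length by omega)
  refine ⟨a + y, by omega, ?_, ?_, by omega, ?_, ?_⟩
  · rw [tr y (by omega) (by omega), ← hy, ← hXe]
    exact hX.1.1
  · have e : a + y + b - a = X.length := by omega
    rw [e]; exact hX.1.2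
  · intro t ht1 ht2 ht3
    obtain ⟨z, rfl⟩ := Nat.exists_eq_add_of_le (show a ≤ t by omega)
    have e : a + z + b - a = b + z := by omega
    rw [e]
    rw [tr z (by omega) (by omega), ← tk (b + z) (by omega)] at ht3
    have h2 := hX.2 (b + z) (by omega)
    by_contra hcon
    push Not at hcon
    apply h2
    refine ⟨ht3, ?_⟩
    rw [List.length_take, min_eq_left (by omega)]
    exact hcon
  · rcases hXb with hE | hB | hD
    · left
      rcases hE with h1 | ⟨t, ht1, ht2, ht3, ht4⟩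
      · have e : a + y + b - a = X.length := by omega
        refine ⟨a + y, le_refl _, ?_, by omega, ?_, ?_⟩
        · rw [tr y (by omega) (by omega), ← hy, ← hXe]
          exact hX.1.1
        · rw [e]; omega
        · rw [e]; have := hX.1.2; omega
      · have h5 := hX.2 t ht1
        have h6 := h.tlo (t % p.q)
        have h7 : t < p.thr (t % p.q) := by
          by_contra hcon
          push Not at hcon
          exact h5 ⟨ht2, by rw [List.length_take, min_eq_left (by omega)]; exact hcon⟩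
        obtain ⟨z, rfl⟩ := Nat.exists_eq_add_of_le (show b ≤ t by omega)
        have e : a + z + b - a = b + z := by omega
        refine ⟨a + z, by omega, ?_, by omega, ?_, ?_⟩
        · rw [tr z (by omega) (by omega), ← tk (b + z) (by omega)]
          exact ht2
        · rw [e]; omega
        · rw [e]; omega
    · right; left
      have e : a + y + b - a = X.length := by omega
      rw [e]; exact hB
    · right; right
      obtain ⟨j, hj, s, hs1, hs2, hs3, hs4⟩ := hD
      have h5 := h.alo j hj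
      obtain ⟨z, rfl⟩ := Nat.exists_eq_add_of_le (show b ≤ s by omega)
      refine ⟨j, hj, a + z, by omega, ?_, by omega, by omega⟩
      rw [trs z (by omega) (by omega), ← tk (b + z) (by omega)]
      exact hs2

/-! ### counting -/

def Par.PE (p : Par α) (U : List α) (x : ℕ × ℕ) : Prop :=
  ∃ t, t ≤ U.length ∧ p.Wo (U.take t) ∧ p.Tlo + p.c x.1 ≤ t + p.c x.2 + p.N1 ∧
    t + p.c x.2 - p.c x.1 ≤ p.thr ((t + p.c x.2 - p.c x.1) % p.q) + p.N1 ∧
    p.thr ((t + p.c x.2 - p.c x.1) % p.q) ≤ t + p.c x.2 - p.c x.1 + p.N1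

def Par.PB1 (p : Par α) (U : List α) (x : ℕ × ℕ) : Prop :=
  ∃ T, T ≤ U.length ∧ p.Wo (U.take T) ∧ p.Tlo ≤ T + p.p0 ∧ T ≤ p.Thi + p.p0 ∧
    p.B (T + p.c x.2 - p.c x.1)

def Par.PB2 (p : Par α) (U : List α) (x : ℕ × ℕ) : Prop :=
  ∃ T, T ≤ U.length ∧ p.Wo (U.take T) ∧ p.Tlo ≤ T + p.p0 ∧ p.Thi + p.p0 < T ∧
    (∀ t, t < T → p.Thi + p.p0 < t → ¬ p.Wo (U.take t)) ∧ p.B (T + p.c x.2 - p.c x.1)

def Par.PD (p : Par α) (U : List α) (j : ℕ) (x : ℕ × ℕ) : Prop :=
  ∃ s, s ≤ U.length ∧ p.Ws (U.take s) ∧ p.A j + p.c x.1 ≤ s + p.c x.2 + p.Rr ∧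
    s + p.c x.2 ≤ p.A j + p.c x.1 + p.Rr

theorem classify (h : p.Ok) {U P' : List α} {x : ℕ × ℕ} (h1 : x.1 < p.K) (h2 : x.2 < p.K)
    (hP' : P'.length = p.c x.2) (hbad : p.Bad (P' ++ U.drop (p.c x.1))) :
    p.PE U x ∨ p.PB1 U x ∨ p.PB2 U x ∨ ∃ j < p.mm, p.PD U j x := by
  have ha := h.cp _ h1
  have hb := h.cp _ h2
  have htp := h.tpos
  have haU : p.c x.1 ≤ U.length := by
    by_contra hcon
    push Not at hcon
    obtain ⟨X, hXU, hX, -⟩ := hbad
    rw [List.drop_eq_nil_of_le hcon.le, List.append_nil] at hXU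
    have h3 := hXU.length_le
    have h4 := len_XX h hX
    omega
  obtain ⟨T, hT, hW, hq, hlo, hmin, hc⟩ := bad_pair h ha haU hb hP' hbad
  rcases hc with ⟨t, ht, e1, e2, e3, e4⟩ | hB | ⟨j, hj, s, e1, e2, e3, e4⟩
  · exact Or.inl ⟨t, by omega, e1, e2, e3, e4⟩
  · right
    rcases Nat.lt_or_ge (p.Thi + p.p0) T with h5 | h5
    · right; left
      refine ⟨T, hT, hW, by omega, h5, ?_, hB⟩
      intro t ht1 ht2 ht3
      have h6 : p.Tlo ≤ p.Thi := le_trans (h.tlo 0) (h.thi 0)
      have h7 := hmin t ht1 (by omega) ht3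
      have h8 := h.thi ((t + p.c x.2 - p.c x.1) % p.q)
      omega
    · left
      exact ⟨T, hT, hW, by omega, h5, hB⟩
  · right; right; right
    exact ⟨j, hj, s, e1, e2, e3, e4⟩

theorem PE_unique (h : p.Ok) {U : List α} {x y : ℕ × ℕ} (hx1 : x.1 < p.K) (hx2 : x.2 < p.K)
    (hy1 : y.1 < p.K) (hy2 : y.2 < p.K) (hx : x.1 ≠ x.2) (hy : y.1 ≠ y.2)
    (ex : p.PE U x) (ey : p.PE U y) : x = y := by
  obtain ⟨t, a1, a2, a3, a4, a5⟩ := ex
  obtain ⟨s, b1, b2, b3, b4, b5⟩ := ey
  have c1 := h.cp _ hx1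
  have c2 := h.cp _ hx2
  have c3 := h.cp _ hy1
  have c4 := h.cp _ hy2
  have d1 := h.thi ((t + p.c x.2 - p.c x.1) % p.q)
  have d2 := h.thi ((s + p.c y.2 - p.c y.1) % p.q)
  have g := h.gap
  have lo := h.lo
  have hts : t = s := by
    rcases lt_trichotomy t s with hlt | heq | hgt
    · have := wall_sep h a2 b2 hlt b1
      omega
    · exact heq
    · have := wall_sep h b2 a2 hgt a1
      omega
  subst hts
  have hr := h.tsep _ _ (Nat.mod_lt (t + p.c x.2 - p.c x.1) h.qpos)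
    (Nat.mod_lt (t + p.c y.2 - p.c y.1) h.qpos) (by omega) (by omega)
  have hmod : p.c x.1 + p.c y.2 ≡ p.c y.1 + p.c x.2 [MOD p.q] := by
    have e : t + p.c x.2 - p.c x.1 + (p.c x.1 + p.c y.2) =
        t + p.c y.2 - p.c y.1 + (p.c y.1 + p.c x.2) := by omega
    have e1 : t + p.c x.2 - p.c x.1 ≡ t + p.c y.2 - p.c y.1 [MOD p.q] := hr
    have e2 : t + p.c x.2 - p.c x.1 + (p.c x.1 + p.c y.2) ≡
        t + p.c y.2 - p.c y.1 + (p.c y.1 + p.c x.2) [MOD p.q] := by rw [e]
    exact Nat.ModEq.add_left_cancel e1 e2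
  have := h.gol x.1 x.2 y.1 y.2 hx1 hx2 hy1 hy2 hx hy hmod
  exact Prod.ext this.1 this.2

theorem PD_unique (h : p.Ok) {U : List α} {j : ℕ} (hj : j < p.mm) {x y : ℕ × ℕ}
    (hx1 : x.1 < p.K) (hx2 : x.2 < p.K)
    (hy1 : y.1 < p.K) (hy2 : y.2 < p.K) (hx : x.1 ≠ x.2) (hy : y.1 ≠ y.2)
    (ex : p.PD U j x) (ey : p.PD U j y) : x = y := by
  obtain ⟨t, a1, a2, a3, a4⟩ := ex
  obtain ⟨s, b1, b2, b3, b4⟩ := ey
  have c1 := h.cp _ hx1
  have c2 := h.cp _ hx2
  have c3 := h.cp _ hy1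
  have c4 := h.cp _ hy2
  have g := h.sgap
  have hts : t = s := by
    rcases lt_trichotomy t s with hlt | heq | hgt
    · have := swall_sep h a2 b2 hlt b1
      omega
    · exact heq
    · have := swall_sep h b2 a2 hgt a1
      omega
  subst hts
  have := h.golR x.1 x.2 y.1 y.2 hx1 hx2 hy1 hy2 hx hy (by omega) (by omega)
  exact Prod.ext this.1 this.2

theorem PB1_T (h : p.Ok) {U : List α} {s t : ℕ} (a1 : t ≤ U.length) (a2 : p.Wo (U.take t))
    (a3 : p.Tlo ≤ t + p.p0) (a4 : t ≤ p.Thi + p.p0) (b1 : s ≤ U.length) (b2 : p.Wo (U.take s))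
    (b3 : p.Tlo ≤ s + p.p0) (b4 : s ≤ p.Thi + p.p0) : t = s := by
  have g := h.gap
  rcases lt_trichotomy t s with hlt | heq | hgt
  · have := wall_sep h a2 b2 hlt b1
    omega
  · exact heq
  · have := wall_sep h b2 a2 hgt a1
    omega

open Classical in
/-- **SPOILING COUNT, pairs form** -/
theorem pairs_card (h : p.Ok) (U : List α) (S : Finset (ℕ × ℕ))
    (hS : ∀ x ∈ S, x.1 < p.K ∧ x.2 < p.K ∧ x.1 ≠ x.2 ∧
      ∃ P' : List α, P'.length = p.c x.2 ∧ p.Bad (P' ++ U.drop (p.c x.1))) :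
    S.card ≤ 1 + 2 * p.CB + p.mm := by
  have hsub : S ⊆ S.filter (fun x => p.PE U x) ∪ (S.filter (fun x => p.PB1 U x) ∪
      (S.filter (fun x => p.PB2 U x) ∪
        (Finset.range p.mm).biUnion (fun j => S.filter (fun x => p.PD U j x)))) := by
    intro x hx
    obtain ⟨h1, h2, h3, P', h4, h5⟩ := hS x hx
    rcases classify h h1 h2 h4 h5 with h6 | h6 | h6 | ⟨j, hj, h6⟩
    · exact Finset.mem_union_left _ (Finset.mem_filter.2 ⟨hx, h6⟩)
    · exact Finset.mem_union_right _ (Finset.mem_union_left _ (Finset.mem_filter.2 ⟨hx, h6⟩))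
    · exact Finset.mem_union_right _ (Finset.mem_union_right _
        (Finset.mem_union_left _ (Finset.mem_filter.2 ⟨hx, h6⟩)))
    · exact Finset.mem_union_right _ (Finset.mem_union_right _ (Finset.mem_union_right _
        (Finset.mem_biUnion.2 ⟨j, Finset.mem_range.2 hj, Finset.mem_filter.2 ⟨hx, h6⟩⟩)))
  have cE : (S.filter (fun x => p.PE U x)).card ≤ 1 := by
    rw [Finset.card_le_one]
    intro x hx y hy
    rw [Finset.mem_filter] at hx hy
    obtain ⟨h1, h2, h3, -⟩ := hS x hx.1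
    obtain ⟨k1, k2, k3, -⟩ := hS y hy.1
    exact PE_unique h h1 h2 k1 k2 h3 k3 hx.2 hy.2
  have cD : ((Finset.range p.mm).biUnion (fun j => S.filter (fun x => p.PD U j x))).card ≤
      p.mm := by
    have := Finset.card_biUnion_le_card_mul (Finset.range p.mm)
      (fun j => S.filter (fun x => p.PD U j x)) 1 (by
        intro j hj
        rw [Finset.card_le_one]
        intro x hx y hy
        rw [Finset.mem_filter] at hx hy
        obtain ⟨h1, h2, h3, -⟩ := hS x hx.1
        obtain ⟨k1, k2, k3, -⟩ := hS y hy.1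
        exact PD_unique h (Finset.mem_range.1 hj) h1 h2 k1 k2 h3 k3 hx.2 hy.2)
    simpa using this
  have cB1 : (S.filter (fun x => p.PB1 U x)).card ≤ p.CB := by
    rcases Finset.eq_empty_or_nonempty (S.filter (fun x => p.PB1 U x)) with h0 | ⟨y, hy⟩
    · rw [h0]; simp
    · have hy2 := (Finset.mem_filter.1 hy).2
      obtain ⟨T, a1, a2, a3, a4, a5⟩ := hy2
      apply h.hB T a3
      intro x hx
      rw [Finset.mem_filter] at hx
      obtain ⟨h1, h2, h3, -⟩ := hS x hx.1
      obtain ⟨T', b1, b2, b3, b4, b5⟩ := hx.2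
      have : T' = T := PB1_T h b1 b2 b3 b4 a1 a2 a3 a4
      subst this
      exact ⟨h1, h2, h3, b5⟩
  have cB2 : (S.filter (fun x => p.PB2 U x)).card ≤ p.CB := by
    rcases Finset.eq_empty_or_nonempty (S.filter (fun x => p.PB2 U x)) with h0 | ⟨y, hy⟩
    · rw [h0]; simp
    · have hy2 := (Finset.mem_filter.1 hy).2
      obtain ⟨T, a1, a2, a3, a4, a5, a6⟩ := hy2
      apply h.hB T a3
      intro x hx
      rw [Finset.mem_filter] at hx
      obtain ⟨h1, h2, h3, -⟩ := hS x hx.1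
      obtain ⟨T', b1, b2, b3, b4, b5, b6⟩ := hx.2
      have : T' = T := by
        rcases lt_trichotomy T' T with hlt | heq | hgt
        · exact absurd b2 (a5 T' hlt b4)
        · exact heq
        · exact absurd a2 (b5 T hgt a4)
      subst this
      exact ⟨h1, h2, h3, b6⟩
  have u1 := Finset.card_le_card hsub
  have u2 := Finset.card_union_le (S.filter (fun x => p.PE U x))
    (S.filter (fun x => p.PB1 U x) ∪ (S.filter (fun x => p.PB2 U x) ∪
      (Finset.range p.mm).biUnion (fun j => S.filter (fun x => p.PD U j x))))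
  have u3 := Finset.card_union_le (S.filter (fun x => p.PB1 U x))
    (S.filter (fun x => p.PB2 U x) ∪
      (Finset.range p.mm).biUnion (fun j => S.filter (fun x => p.PD U j x)))
  have u4 := Finset.card_union_le (S.filter (fun x => p.PB2 U x))
    ((Finset.range p.mm).biUnion (fun j => S.filter (fun x => p.PD U j x)))
  omega

/-- badness of the anchor `c` letters before the text `Q` -/
def Par.BadAt (p : Par α) (c : ℕ) (Q : List α) : Prop :=
  ∃ P' : List α, P'.length = c ∧ p.Bad (P' ++ Q)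

open Classical in
/-- **SPOILING COUNT** (594's hypothesis) -/
theorem spoil_card (h : p.Ok) (U : List α) :
    ((Finset.range p.K).filter
      (fun k => ∃ k' < p.K, k' ≠ k ∧ p.BadAt (p.c k') (U.drop (p.c k)))).card ≤
      1 + 2 * p.CB + p.mm := by
  set F := (Finset.range p.K).filter
      (fun k => ∃ k' < p.K, k' ≠ k ∧ p.BadAt (p.c k') (U.drop (p.c k))) with hF
  have hch : ∀ k, ∃ k', k ∈ F → k' < p.K ∧ k' ≠ k ∧ p.BadAt (p.c k') (U.drop (p.c k)) := by
    intro k
    by_cases hk : k ∈ F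
    · obtain ⟨k', h1, h2, h3⟩ := (Finset.mem_filter.1 hk).2
      exact ⟨k', fun _ => ⟨h1, h2, h3⟩⟩
    · exact ⟨0, fun h0 => absurd h0 hk⟩
  choose g hg using hch
  have h1 : F.card = (F.image (fun k => (k, g k))).card := by
    rw [Finset.card_image_of_injective]
    intro a b hab
    exact (Prod.mk.inj hab).1
  rw [h1]
  apply pairs_card h U
  intro x hx
  rw [Finset.mem_image] at hx
  obtain ⟨k, hk, rfl⟩ := hx
  obtain ⟨h2, h3, h4⟩ := hg k hk
  exact ⟨Finset.mem_range.1 (Finset.mem_filter.1 hk).1, h2, fun e => h3 e.symm, h4⟩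

end Crest.Agent.R320.Spoil_458
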