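import Mathlib
import Crest.Agent.R320.Spoil_458
import Crest.Agent.R320.ExactR_237

/-!
Row 320, helper458: the hypotheses (s1), (s2), (cc) of 163's frozen `top` (#13363) from ANY zone
gadget (scheme 1) + 237's exact gadget (scheme 2) + the spoiling count, left-looking block code.
-/

set_option autoImplicit false
set_option linter.unusedSectionVars false

namespace Crest.Agent.R320.Sch_458

open Crest.Agent.R320.Spoil_458 Crest.Agent.R320.ExactR_237

structure Dat (α S V : Type) where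
  P : Par α
  f : α → S
  act : V → S → V
  /-- scheme 1: zone gadget -/
  lam1 : List α → Option V
  rho1 : List α → Option V
  nu1 : List α → V
  /-- scheme 2: exact gadget on words of length `p0` -/
  lam : ℕ → List α → Option V
  rho : ℕ → List α → Option V
  nu2 : List α → V

variable {α S V : Type} [Monoid S] [AddCommGroup V] (D : Dat α S V)

def Dat.φ (w : List α) : S := pr D.f w

/-- frame of scheme 1: the token at `a + p0` -/
def Dat.fr (v : V) (X : List α) : V :=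
  D.act v (D.φ (X.take D.P.p0)) + D.nu2 (X.take D.P.p0)

/-- zone map -/
def Dat.T (v : V) (X : List α) : V :=
  D.act (D.fr v X) (D.φ (X.drop D.P.p0)) + D.nu1 (X.drop D.P.p0)

def Dat.RB (Q : List α) : Prop :=
  D.P.Wo Q ∧ D.P.no ≤ Q.length ∧ D.P.thr ((D.P.p0 + Q.length) % D.P.q) ≤ D.P.p0 + Q.length ∧
    ∀ y < Q.length, D.P.no ≤ y → D.P.Wo (Q.take y) →
      D.P.p0 + y + D.P.N1 < D.P.thr ((D.P.p0 + y) % D.P.q)

def Dat.LP1 (P : List α) (v : V) : Prop :=
  D.P.p0 ≤ P.length ∧ D.lam1 (P.drop D.P.p0) = some (D.fr v P)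

open Classical in
noncomputable def Dat.R1 (Q : List α) : Option V := if D.RB Q then D.rho1 Q else none

def Dat.LP2 (P : List α) (v : V) : Prop :=
  ∃ k < D.P.K, P.length = D.P.c k ∧ D.lam k P = some v

def Dat.Cand (Q : List α) (k : ℕ) : Prop :=
  k < D.P.K ∧ D.P.BadAt (D.P.c k) Q ∧ ∀ k' < D.P.K, D.P.BadAt (D.P.c k') Q → k' = k

def Dat.R2rel (Q : List α) (b : V) : Prop :=
  ∃ (k : ℕ) (Q1 X2 : List α) (w0 : V), D.Cand Q k ∧ Q = Q1 ++ X2 ∧ X2 ∈ D.P.XX ∧
    (∃ P' : List α, P'.length = D.P.c k ∧ P' ++ Q1 ∈ D.P.XX) ∧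
    D.rho k (Q1.take (D.P.p0 - D.P.c k)) = some w0 ∧
    b = D.T (D.act w0 (D.φ (Q1.drop (D.P.p0 - D.P.c k))) + D.nu1 (Q1.drop (D.P.p0 - D.P.c k))) X2

open Classical in
noncomputable def Dat.R2 (Q : List α) : Option V :=
  if h : ∃ b, D.R2rel Q b then some h.choose else none

/-- the hypotheses on the gadgets -/
structure Dat.Ok : Prop where
  ok : D.P.Ok
  hi2 : D.P.Thi + D.P.p0 ≤ 2 * D.P.Tlo
  nopos : D.P.no ≤ D.P.Tlo
  /-- scheme 1 exact on all pairs -/
  s_sound : ∀ P Q v r, D.lam1 P = some v → D.rho1 Q = some r →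
    r = D.act v (D.φ (P ++ Q)) + D.nu1 (P ++ Q)
  s_len : ∀ P v, D.lam1 P = some v → D.P.q ∣ P.length ∧ P.length ≤ D.P.N1
  /-- scheme 1 complete on blocks which are not bad -/
  s_comp : ∀ X ∈ D.P.XX, ¬ D.P.BadB X → ∀ v, ∃ P Q, X.drop D.P.p0 = P ++ Q ∧
    D.lam1 P = some v ∧ (D.rho1 Q).isSome
  /-- scheme 2 exact -/
  e_sound : ∀ k < D.P.K, ∀ (P Q : List α) (v b : V), P.length = D.P.c k →
    D.lam k P = some v → D.rho k Q = some b → b = D.act v (D.φ (P ++ Q)) + D.nu2 (P ++ Q)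
  e_comp : ∀ (u : List α) (v : V), (∀ k < D.P.K, D.P.c k ≤ u.length) →
    ∃ I : Finset ℕ, 2 + 2 * D.P.CB + D.P.mm ≤ I.card ∧ ∀ k ∈ I, k < D.P.K ∧
      D.lam k (u.take (D.P.c k)) = some v ∧ (D.rho k (u.drop (D.P.c k))).isSome

variable {D}

theorem mod_shift {p x y q : ℕ} (h : q ∣ x) : (p + x + y) % q = (p + y) % q := by
  obtain ⟨k, rfl⟩ := h
  rw [show p + q * k + y = p + y + q * k by ring, Nat.add_mul_mod_self_left]

theorem XX_of_RB (h : D.P.Ok) {P Q : List α} (h1 : D.P.p0 ≤ P.length)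
    (h2 : P.length ≤ D.P.p0 + D.P.N1)
    (h3 : D.P.q ∣ P.length - D.P.p0) (hQ : D.RB Q) : P ++ Q ∈ D.P.XX := by
  obtain ⟨a1, a2, a3, a4⟩ := hQ
  have hP : P.length = D.P.p0 + (P.length - D.P.p0) := by omega
  have hlo := h.lo
  refine ⟨⟨(h.loc P Q a2).2 a1, ?_⟩, ?_⟩
  · rw [List.length_append]
    have : (P.length + Q.length) % D.P.q = (D.P.p0 + Q.length) % D.P.q := by
      rw [hP, mod_shift h3]
    rw [this]
    omega
  · rintro t ht ⟨b1, b2⟩
    rw [List.length_take, min_eq_left ht.le] at b2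
    have b3 := h.tlo (t % D.P.q)
    obtain ⟨y, rfl⟩ := Nat.exists_eq_add_of_le (show P.length ≤ t by omega)
    have hy : D.P.no ≤ y := by omega
    rw [List.length_append] at ht
    have hy2 : y < Q.length := by omega
    rw [take_app (by omega), Nat.add_sub_cancel_left] at b1
    have b4 := (h.loc P (Q.take y) (by rw [List.length_take]; omega)).1 b1
    have b5 := a4 y hy2 hy b4
    have : (P.length + y) % D.P.q = (D.P.p0 + y) % D.P.q := by
      rw [hP, mod_shift h3]
    rw [this] at b2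
    omega

theorem RB_of_XX (h : D.P.Ok) {P Q : List α} (h1 : D.P.p0 ≤ P.length)
    (h2 : P.length ≤ D.P.p0 + D.P.N1)
    (h3 : D.P.q ∣ P.length - D.P.p0) (hX : P ++ Q ∈ D.P.XX) (hE : ¬ D.P.E (P ++ Q)) :
    D.RB Q := by
  obtain ⟨⟨a1, a2⟩, a3⟩ := hX
  have hP : P.length = D.P.p0 + (P.length - D.P.p0) := by omega
  have hlo := h.lo
  unfold Par.E at hE
  push Not at hE
  obtain ⟨e1, e2⟩ := hE
  have b3 := h.tlo ((P ++ Q).length % D.P.q)
  have hl : (P ++ Q).length = P.length + Q.length := List.length_append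
  have hno : D.P.no ≤ Q.length := by omega
  have hm : (P ++ Q).length % D.P.q = (D.P.p0 + Q.length) % D.P.q := by
    rw [hl, hP, mod_shift h3]
  refine ⟨(h.loc P Q hno).1 a1, hno, ?_, ?_⟩
  · rw [hm] at e1
    omega
  · intro y hy hy1 hy2
    have hw : D.P.Wo ((P ++ Q).take (P.length + y)) := by
      rw [take_app (by omega), Nat.add_sub_cancel_left]
      exact (h.loc P (Q.take y) (by rw [List.length_take]; omega)).2 hy2
    have := e2 (P.length + y) (by omega) hw (by omega)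
    have hm2 : (P.length + y) % D.P.q = (D.P.p0 + y) % D.P.q := by
      rw [hP, mod_shift h3]
    rw [hm2] at this
    omega

/-- blocks only depend on the text behind `p0` -/
theorem XX_swap (h : D.P.Ok) {P P' Q : List α} (hl : P.length = P'.length)
    (hp : P.length ≤ D.P.p0) (hX : P ++ Q ∈ D.P.XX) : P' ++ Q ∈ D.P.XX := by
  have h1 := len_XX h hX
  have hlo := h.lo
  have htp := h.tpos
  rw [List.length_append] at h1
  obtain ⟨⟨a1, a2⟩, a3⟩ := hX
  have hlen : (P' ++ Q).length = (P ++ Q).length := by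
    rw [List.length_append, List.length_append, hl]
  have hno : D.P.no ≤ Q.length := by omega
  refine ⟨⟨(h.loc P' Q hno).2 ((h.loc P Q hno).1 a1), by rw [hlen]; exact a2⟩, ?_⟩
  rintro t ht ⟨b1, b2⟩
  rw [hlen] at ht
  have e1 : ((P' ++ Q).take t).length = t := by rw [List.length_take, hlen]; omega
  rw [e1] at b2
  have b3 := h.tlo (t % D.P.q)
  apply a3 t ht
  rw [List.length_append] at ht
  obtain ⟨y, rfl⟩ := Nat.exists_eq_add_of_le (show P.length ≤ t by omega)
  have b4 : D.P.Wo ((P ++ Q).take (P.length + y)) := by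
    rw [wall_tr h (P' := P') (by omega) (by omega), ← hl]
    exact b1
  refine ⟨b4, ?_⟩
  rw [List.length_take, List.length_append, min_eq_left (by omega)]
  exact b2

theorem exists_block {U : List α} (hU : D.P.Adm U) : ∃ X ∈ D.P.XX, X <+: U := by
  classical
  have hex : ∃ t, t ≤ U.length ∧ D.P.Adm (U.take t) :=
    ⟨U.length, le_refl _, by rw [List.take_length]; exact hU⟩
  refine ⟨U.take (Nat.find hex), ⟨(Nat.find_spec hex).2, ?_⟩, List.take_prefix _ _⟩
  intro t ht hA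
  rw [List.length_take] at ht
  have h1 := (Nat.find_spec hex).1
  rw [List.take_take, min_eq_left (by omega)] at hA
  exact Nat.find_min hex (show t < Nat.find hex by omega) ⟨by omega, hA⟩

/-- completeness of scheme 1 -/
theorem comp1 (h : D.Ok) {X : List α} (hX : X ∈ D.P.XX) (hb : ¬ D.P.BadB X) (v : V) :
    ∃ P Q, X = P ++ Q ∧ D.P.p0 ≤ P.length ∧ D.LP1 P v ∧ (D.R1 Q).isSome := by
  have hl := len_XX h.ok hX
  have hlo := h.ok.lo
  have htp := h.ok.tpos
  obtain ⟨P, Q, e, h1, h2⟩ := h.s_comp X hX hb (D.fr v X)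
  obtain ⟨h3, h4⟩ := h.s_len _ _ h1
  have hX0 : (X.take D.P.p0).length = D.P.p0 := by rw [List.length_take]; omega
  have hXe : X = (X.take D.P.p0 ++ P) ++ Q := by
    rw [List.append_assoc, ← e, List.take_append_drop]
  have t1 : (X.take D.P.p0 ++ P).drop D.P.p0 = P := by
    rw [List.drop_append_of_le_length hX0.ge, List.drop_of_length_le hX0.le, List.nil_append]
  have t2 : (X.take D.P.p0 ++ P).take D.P.p0 = X.take D.P.p0 := by
    rw [List.take_append_of_le_length hX0.ge, List.take_of_length_le hX0.le]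
  have hPl : (X.take D.P.p0 ++ P).length = D.P.p0 + P.length := by
    rw [List.length_append, hX0]
  refine ⟨X.take D.P.p0 ++ P, Q, hXe, by omega, ⟨by omega, ?_⟩, ?_⟩
  · rw [t1]
    unfold Dat.fr
    rw [t2]
    exact h1
  · have hRB : D.RB Q := by
      refine RB_of_XX h.ok (P := X.take D.P.p0 ++ P) (by omega) (by omega) ?_ ?_ ?_
      · rw [hPl, Nat.add_sub_cancel_left]; exact h3
      · rw [← hXe]; exact hX
      · rw [← hXe]; exact fun hE => hb (Or.inl hE)
    unfold Dat.R1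
    rw [if_pos hRB]
    exact h2

/-- **(s1)** -/
theorem s1 (h : D.Ok) {P Q : List α} {v b : V} (hP : D.LP1 P v) (hQ : D.R1 Q = some b) :
    P ++ Q ∈ D.P.XX ∧ D.T v (P ++ Q) = b := by
  unfold Dat.R1 at hQ
  split_ifs at hQ with hRB
  obtain ⟨hP0, hP⟩ := hP
  obtain ⟨h1, h2⟩ := h.s_len _ _ hP
  rw [List.length_drop] at h1 h2
  refine ⟨XX_of_RB h.ok hP0 (by omega) h1 hRB, ?_⟩
  have := h.s_sound _ _ _ _ hP hQ
  unfold Dat.T Dat.fr
  rw [List.take_append_of_le_length hP0, List.drop_append_of_le_length hP0]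
  exact this.symm

theorem R2_some {Q : List α} {b : V} (h : D.R2 Q = some b) : D.R2rel Q b := by
  unfold Dat.R2 at h
  split_ifs at h with h1
  have := h1.choose_spec
  rwa [Option.some.inj h] at this

theorem R2_isSome {Q : List α} {b : V} (h : D.R2rel Q b) : (D.R2 Q).isSome := by
  unfold Dat.R2
  rw [dif_pos ⟨b, h⟩]
  rfl

/-- **(s2)** -/
theorem s2 (h : D.Ok) {P Q : List α} {v b : V} (hP : D.LP2 P v) (hQ : D.R2 Q = some b)
    (hun : ∀ X ∈ D.P.XX, X <+: P ++ Q → ∀ P' Q', X = P' ++ Q' → P.length ≤ P'.length →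
      D.LP1 P' v → (D.R1 Q').isSome → False) :
    ∃ Q1 X2, Q = Q1 ++ X2 ∧ Q1 ≠ [] ∧ P ++ Q1 ∈ D.P.XX ∧ X2 ∈ D.P.XX ∧
      D.T (D.T v (P ++ Q1)) X2 = b := by
  obtain ⟨k0, hk0, hPl, hlam⟩ := hP
  obtain ⟨k, Q1, X2, w0, hc, rfl, hX2, ⟨P', hP', hPQ'⟩, hrho, rfl⟩ := R2_some hQ
  have hck := h.ok.cp k hc.1
  have hck0 := h.ok.cp k0 hk0
  have hlo := h.ok.lo
  have htp := h.ok.tpos
  have hhi := h.hi2
  have hnp := h.nopos
  have l1 := len_XX h.ok hPQ'
  have l2 := len_XX h.ok hX2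
  rw [List.length_append] at l1
  -- a block prefix exists
  have hadm : D.P.Adm (P ++ (Q1 ++ X2)) := by
    refine ⟨?_, ?_⟩
    · rw [← List.append_assoc]
      exact (h.ok.loc _ _ (by omega)).2 hX2.1.1
    · have := h.ok.thi ((P ++ (Q1 ++ X2)).length % D.P.q)
      rw [List.length_append, List.length_append] at this ⊢
      omega
  obtain ⟨X, hX, hXp⟩ := exists_block hadm
  have hbad : D.P.BadB X := by
    by_contra hnb
    obtain ⟨A, B, e, h1, h2, h3⟩ := comp1 h hX hnb v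
    exact hun X hX hXp A B e (by omega) h2 h3
  have hk : k0 = k := hc.2.2 k0 hk0 ⟨P, hPl, X, hXp, hX, hbad⟩
  subst hk
  have hblk : P ++ Q1 ∈ D.P.XX := XX_swap h.ok (by rw [hP', hPl]) (by omega) hPQ'
  refine ⟨Q1, X2, rfl, ?_, hblk, hX2, ?_⟩
  · rintro rfl
    simp at l1
    omega
  · have e1 : (P ++ Q1).take D.P.p0 = P ++ Q1.take (D.P.p0 - D.P.c k0) := by
      rw [take_app (by omega), hPl]
    have e2 : (P ++ Q1).drop D.P.p0 = Q1.drop (D.P.p0 - D.P.c k0) := by
      rw [List.drop_append, List.drop_eq_nil_of_le (by omega), List.nil_append, hPl]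
    have e3 := h.e_sound k0 hk0 P _ v w0 hPl hlam hrho
    congr 1
    unfold Dat.T Dat.fr
    rw [e1, e2, ← e3]

/-- **(cc)** -/
theorem cc (h : D.Ok) {X X2 : List α} (hX : X ∈ D.P.XX) (hX2 : X2 ∈ D.P.XX) (v : V) :
    (∃ P Q, X = P ++ Q ∧ D.LP1 P v ∧ (D.R1 Q).isSome) ∨
      (∃ P Q, X ++ X2 = P ++ Q ∧ P.length < X.length ∧ D.LP2 P v ∧ (D.R2 Q).isSome) := by
  classical
  by_cases hb : D.P.BadB X
  · right
    have hl := len_XX h.ok hX
    have htp := h.ok.tpos
    have hpl : (X.take D.P.p0).length = D.P.p0 := by rw [List.length_take]; omega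
    obtain ⟨I, hI, hIk⟩ := h.e_comp (X.take D.P.p0) v
      (fun k hk => by rw [hpl]; exact h.ok.cp k hk)
    have hs := spoil_card h.ok (X ++ X2)
    have : ∃ k ∈ I, k ∉ (Finset.range D.P.K).filter
        (fun k => ∃ k' < D.P.K, k' ≠ k ∧ D.P.BadAt (D.P.c k') ((X ++ X2).drop (D.P.c k))) := by
      by_contra hcon
      push Not at hcon
      have h2 : I.card ≤ _ := Finset.card_le_card hcon
      omega
    obtain ⟨k, hkI, hks⟩ := this
    obtain ⟨hk, hlam, hrho⟩ := hIk k hkI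
    have hck := h.ok.cp k hk
    obtain ⟨w0, hw0⟩ := Option.isSome_iff_exists.1 hrho
    have hPl : (X.take (D.P.c k)).length = D.P.c k := by rw [List.length_take]; omega
    have hdrop : (X ++ X2).drop (D.P.c k) = X.drop (D.P.c k) ++ X2 := by
      rw [List.drop_append_of_le_length (by omega)]
    refine ⟨X.take (D.P.c k), X.drop (D.P.c k) ++ X2, ?_, by omega, ⟨k, hk, hPl, ?_⟩, ?_⟩
    · rw [← List.append_assoc, List.take_append_drop]
    · rwa [List.take_take, min_eq_left hck] at hlam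
    · refine R2_isSome (b := _) ⟨k, X.drop (D.P.c k), X2, w0, ⟨hk, ?_, ?_⟩, rfl, hX2,
        ⟨X.take (D.P.c k), hPl, by rw [List.take_append_drop]; exact hX⟩, ?_, rfl⟩
      · refine ⟨X.take (D.P.c k), hPl, X, ?_, hX, hb⟩
        rw [← List.append_assoc, List.take_append_drop]
        exact List.prefix_append _ _
      · intro k' hk' hB
        by_contra hne
        apply hks
        rw [Finset.mem_filter]
        exact ⟨Finset.mem_range.2 hk, k', hk', hne, by rw [hdrop]; exact hB⟩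
      · rw [← hw0]
        congr 1
        rw [List.drop_take]
  · left
    obtain ⟨P, Q, e, -, h2, h3⟩ := comp1 h hX hb v
    exact ⟨P, Q, e, h2, h3⟩

/-! ### the other hypotheses of `top` -/

theorem nil_XX (h : D.Ok) : [] ∉ D.P.XX := by
  intro h0
  have := len_XX h.ok h0
  have := h.ok.tpos
  simp at *
  omega

theorem prefix_code {X Y : List α} (hX : X ∈ D.P.XX) (hXY : X ++ Y ∈ D.P.XX) : Y = [] := by
  by_contra hY
  have hl : 0 < Y.length := List.length_pos_iff.2 hY
  apply hXY.2 X.length (by rw [List.length_append]; omega)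
  rw [List.take_left]
  exact hX.1

theorem R1_ne (h : D.Ok) {Q : List α} {b : V} (hQ : D.R1 Q = some b) (P : List α)
    (h1 : D.P.p0 ≤ P.length) (h2 : P.length ≤ D.P.p0 + D.P.N1)
    (h3 : D.P.q ∣ P.length - D.P.p0) : Q ≠ [] := by
  unfold Dat.R1 at hQ
  split_ifs at hQ with hRB
  rintro rfl
  have := len_XX h.ok (XX_of_RB h.ok h1 h2 h3 hRB)
  have hlo := h.ok.lo
  have htp := h.ok.tpos
  simp at this
  omega

theorem R2_ne (h : D.Ok) {Q : List α} {b : V} (hQ : D.R2 Q = some b) : Q ≠ [] := by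
  obtain ⟨k, Q1, X2, w0, -, rfl, hX2, -⟩ := R2_some hQ
  have h1 := len_XX h.ok hX2
  have h2 := h.ok.tpos
  intro h3
  rw [List.append_eq_nil_iff] at h3
  rw [h3.2] at h1
  simp at h1
  omega

theorem R1_ne' (h : D.Ok) {Q : List α} {b : V} (hQ : D.R1 Q = some b) : Q ≠ [] := by
  unfold Dat.R1 at hQ
  split_ifs at hQ with hRB
  rintro rfl
  have h1 := hRB.2.2.1
  have h2 := h.ok.tlo ((D.P.p0 + ([] : List α).length) % D.P.q)
  have h3 := h.ok.tpos
  simp at h1 h2
  omega

/-- noise of a block -/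
def Dat.nu (D : Dat α S V) (X : List α) : V :=
  D.act (D.nu2 (X.take D.P.p0)) (D.φ (X.drop D.P.p0)) + D.nu1 (X.drop D.P.p0)

theorem φ_append (D : Dat α S V) (u w : List α) : D.φ (u ++ w) = D.φ u * D.φ w := by
  unfold Dat.φ pr
  rw [List.map_append, List.prod_append]

theorem T_eq (D : Dat α S V) (act_mul : ∀ v s s', D.act (D.act v s) s' = D.act v (s * s'))
    (act_add : ∀ v w s, D.act (v + w) s = D.act v s + D.act w s) (v : V) (X : List α) :
    D.T v X = D.act v (D.φ X) + D.nu X := by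
  unfold Dat.T Dat.fr Dat.nu
  rw [act_add, act_mul, ← φ_append, List.take_append_drop, add_assoc]

/-- the right rule of scheme 2 is functional -/
theorem R2rel_unique (h : D.Ok) {Q : List α} {b b' : V} (hb : D.R2rel Q b)
    (hb' : D.R2rel Q b') : b = b' := by
  obtain ⟨k, Q1, X2, w0, hc, e, hX2, ⟨P', hP', hPQ'⟩, hrho, rfl⟩ := hb
  obtain ⟨k', Q1', X2', w0', hc', e', hX2', ⟨P'', hP'', hPQ''⟩, hrho', rfl⟩ := hb'
  have hk : k' = k := hc.2.2 k' hc'.1 hc'.2.1
  subst hk
  have hck := h.ok.cp _ hc.1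
  have h1 : P' ++ Q1' ∈ D.P.XX := XX_swap h.ok (by rw [hP', hP'']) (by omega) hPQ''
  have hQ : Q1 = Q1' := by
    have hpre : Q1 <+: Q1' ∨ Q1' <+: Q1 := by
      rw [e] at e'
      exact (List.prefix_or_prefix_of_prefix (List.prefix_append Q1 X2)
        (e' ▸ List.prefix_append Q1' X2'))
    rcases hpre with ⟨Z, hZ⟩ | ⟨Z, hZ⟩
    · rw [← hZ, ← List.append_assoc] at h1
      have := prefix_code hPQ' h1
      rw [← hZ, this, List.append_nil]
    · rw [← hZ, ← List.append_assoc] at hPQ'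
      have := prefix_code h1 hPQ'
      rw [← hZ, this, List.append_nil]
  subst hQ
  have hX : X2 = X2' := by
    rw [e] at e'
    exact List.append_cancel_left e'
  subst hX
  rw [hrho] at hrho'
  rw [Option.some.inj hrho']

theorem R2_iff (h : D.Ok) {Q : List α} {b : V} : D.R2 Q = some b ↔ D.R2rel Q b := by
  refine ⟨R2_some, fun hb => ?_⟩
  obtain ⟨b', hb'⟩ := Option.isSome_iff_exists.1 (R2_isSome hb)
  rw [hb', R2rel_unique h hb (R2_some hb')]

end Crest.Agent.R320.Sch_458
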