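import Mathlib

/-! Anchor schemes give cut automata (lead, architecture of row 320).

An ANCHOR SCHEME on words over `α` with values in `V`:
* `step P = some (t, f)`: `P` is the text read since an anchor, the next anchor is `t` letters after it, and
  the value at the next anchor is `f v` when the value at the anchor is `v` (prefix monotone);
* `left P = some v`: a cut of the value `v` is claimed after the text `P` (read since the anchor);
* `right r = some (b, c)` (used on words of length `D` only): the right word claims that the first anchor is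
  `b` letters away and that the value there is `c`.
The automaton keeps `(P, v)` with `P.length ≤ B` (otherwise it falls in the sink). -/

set_option autoImplicit false

namespace Crest.Agent.R320.Sch_780

variable {α V : Type*}

structure Scheme (α V : Type*) where
  step : List α → Option (ℕ × (V → V))
  left : List α → Option V
  right : List α → Option (ℕ × V)
  D : ℕ
  step_mono : ∀ P R q, step P = some q → step (P ++ R) = some q
  /-- the next anchor lies in the text which has been read. -/
  step_le : ∀ P t f, step P = some (t, f) → t ≤ P.length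
  step_pos : ∀ P t f, step P = some (t, f) → 0 < t
  /-- when a step has just been detected, the text behind the new anchor is short. -/
  step_short : ∀ P x t f, step P = none → step (P ++ [x]) = some (t, f) →
    step ((P ++ [x]).drop t) = none
  left_none : ∀ P v, left P = some v → step P = none
  sound : ∀ P v r b c, left P = some v → r.length = D → right r = some (b, c) →
    b ≤ D ∧ step (r.drop b) = none ∧ ∃ f, step (P ++ r) = some (P.length + b, f) ∧ f v = c

namespace Scheme

variable (Sc : Scheme α V)

/-- one letter, on unbounded states `(P, v)`. -/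
def nxt (θ : List α × V) (x : α) : List α × V :=
  match Sc.step (θ.1 ++ [x]) with
  | some (t, f) => ((θ.1 ++ [x]).drop t, f θ.2)
  | none => (θ.1 ++ [x], θ.2)

/-- run. -/
def run (θ : List α × V) (w : List α) : List α × V := w.foldl Sc.nxt θ

@[simp] theorem run_nil (θ : List α × V) : Sc.run θ [] = θ := rfl
theorem run_cons (θ : List α × V) (x : α) (w : List α) :
    Sc.run θ (x :: w) = Sc.run (Sc.nxt θ x) w := rfl
theorem run_append (θ : List α × V) (u w : List α) :
    Sc.run θ (u ++ w) = Sc.run (Sc.run θ u) w := by
  simp [run, List.foldl_append]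

theorem prefix_none {P Q : List α} (h : P <+: Q) (hQ : Sc.step Q = none) : Sc.step P = none := by
  obtain ⟨R, rfl⟩ := h
  by_contra hne
  obtain ⟨q, hq⟩ := Option.ne_none_iff_exists'.1 hne
  rw [Sc.step_mono P R q hq] at hQ
  exact absurd hQ (by simp)

/-- no new anchor is detected. -/
theorem run_of_none (P : List α) (v : V) (w : List α) (h : Sc.step (P ++ w) = none) :
    Sc.run (P, v) w = (P ++ w, v) := by
  induction w generalizing P with
  | nil => simp
  | cons x w ih =>
    rw [run_cons]
    have h1 : Sc.step (P ++ [x]) = none :=
      Sc.prefix_none (Q := P ++ x :: w) ⟨w, by simp⟩ h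
    have h2 : Sc.nxt (P, v) x = (P ++ [x], v) := by
      simp only [nxt, h1]
    rw [h2, ih (P ++ [x]) (by simpa using h)]
    simp

/-- one new anchor is detected. -/
theorem run_of_some (P : List α) (v : V) (w : List α) (t : ℕ) (f : V → V)
    (hP : Sc.step P = none) (h : Sc.step (P ++ w) = some (t, f))
    (h' : Sc.step ((P ++ w).drop t) = none) :
    Sc.run (P, v) w = ((P ++ w).drop t, f v) := by
  induction w generalizing P with
  | nil => simp [hP] at h
  | cons x w ih =>
    rw [run_cons]
    by_cases h1 : Sc.step (P ++ [x]) = none
    · have h2 : Sc.nxt (P, v) x = (P ++ [x], v) := by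
        simp only [nxt, h1]
      rw [h2, ih (P ++ [x]) h1 (by simpa using h) (by simpa using h')]
      simp
    · obtain ⟨⟨t', f'⟩, hq⟩ := Option.ne_none_iff_exists'.1 h1
      have h3 := Sc.step_mono (P ++ [x]) w _ hq
      have h4 : P ++ [x] ++ w = P ++ x :: w := by simp
      rw [h4, h] at h3
      have h5 : t = t' ∧ f = f' := by simpa using h3
      obtain ⟨rfl, rfl⟩ := h5
      have h2 : Sc.nxt (P, v) x = ((P ++ [x]).drop t, f v) := by
        simp only [nxt, hq]
      have hle : t ≤ (P ++ [x]).length := Sc.step_le _ _ _ hq
      have h6 : (P ++ [x]).drop t ++ w = (P ++ x :: w).drop t := by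
        rw [← h4, List.drop_append_of_le_length hle]
      rw [h2, run_of_none Sc _ _ _ (by rw [h6]; exact h'), h6]

/-- SOUNDNESS of a junction. -/
theorem run_right {P : List α} {v : V} {r : List α} {b : ℕ} {c : V}
    (hl : Sc.left P = some v) (hr : r.length = Sc.D) (hR : Sc.right r = some (b, c)) :
    Sc.run (P, v) r = (r.drop b, c) := by
  obtain ⟨hb, hs, f, hf, rfl⟩ := Sc.sound P v r b c hl hr hR
  have hd : (P ++ r).drop (P.length + b) = r.drop b := by
    rw [List.drop_append]
    simp
  rw [Sc.run_of_some P v r (P.length + b) f (Sc.left_none P v hl) hf (by rw [hd]; exact hs), hd]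

/-- Completeness: inside a zone, if the text `P ++ u` is followed by a right claim and the value is the
label, the state `(P, v)` is cut. -/
theorem run_left {P u : List α} {v : V} (hl : Sc.left (P ++ u) = some v) :
    Sc.run (P, v) u = (P ++ u, v) :=
  Sc.run_of_none P v u (Sc.left_none _ _ hl)

/-- detection time: the first prefix of `w` on which the next anchor is visible. -/
theorem exists_detect (P w : List α) (hP : Sc.step P = none) (hw : Sc.step (P ++ w) ≠ none) :
    ∃ w1 x w2 t f, w = w1 ++ x :: w2 ∧ Sc.step (P ++ w1) = none ∧
      Sc.step (P ++ (w1 ++ [x])) = some (t, f) := by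
  induction w generalizing P with
  | nil => exact absurd (by simpa using hP) hw
  | cons x w ih =>
    by_cases h1 : Sc.step (P ++ [x]) = none
    · obtain ⟨w1, y, w2, t, f, e, h2, h3⟩ := ih (P ++ [x]) h1 (by simpa using hw)
      exact ⟨x :: w1, y, w2, t, f, by simp [e], by simpa using h2, by simpa using h3⟩
    · obtain ⟨⟨t, f⟩, hq⟩ := Option.ne_none_iff_exists'.1 h1
      exact ⟨[], x, w, t, f, by simp, by simpa using hP, by simpa using hq⟩

/-- COMPLETENESS: on a factor-closed class in which anchors appear (`G`), are detected early (`n0`) and every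
zone is complete (`G'`), every thread is cut in every long word. -/
theorem exists_cut (C : List α → Prop) (hC : ∀ u w, C (u ++ w) → C w)
    (G G' n0 : ℕ)
    (hG : ∀ Q, C Q → G ≤ Q.length → Sc.step Q ≠ none)
    (hdet : ∀ P x t f, Sc.step P = none → Sc.step (P ++ [x]) = some (t, f) →
      ((P ++ [x]).drop t).length ≤ n0)
    (hcomp : ∀ Q, C Q → G' ≤ Q.length → ∀ v, ∃ P1 r s, Q = P1 ++ r ++ s ∧ n0 ≤ P1.length ∧
      Sc.left P1 = some v ∧ r.length = Sc.D ∧ Sc.right r ≠ none)
    (hGC : ∀ Q Q', C (Q ++ Q') → C Q)
    (P : List α) (v : V) (w : List α) (hP : Sc.step P = none) (hPw : C (P ++ w))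
    (hlen : G + G' ≤ w.length) :
    ∃ p r s, w = p ++ r ++ s ∧ r.length = Sc.D ∧ Sc.right r ≠ none ∧
      Sc.left (Sc.run (P, v) p).1 = some (Sc.run (P, v) p).2 := by
  -- the first `G` letters of `w` contain a detection
  obtain ⟨wa, wb, ew, hla⟩ : ∃ wa wb, w = wa ++ wb ∧ wa.length = G :=
    ⟨w.take G, w.drop G, (List.take_append_drop G w).symm, by
      rw [List.length_take]; omega⟩
  have hCa : C (P ++ wa) := hGC _ wb (by rw [ew] at hPw; simpa using hPw)
  have hstep : Sc.step (P ++ wa) ≠ none := hG _ hCa (by
    rw [List.length_append]; omega)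
  obtain ⟨w1, x, w2, t, f, e1, h1, h2⟩ := Sc.exists_detect P wa hP hstep
  have h2' : Sc.step (P ++ w1 ++ [x]) = some (t, f) := by simpa using h2
  have hshort := Sc.step_short (P ++ w1) x t f h1 h2'
  have hrun : Sc.run (P, v) (w1 ++ [x]) = ((P ++ (w1 ++ [x])).drop t, f v) :=
    Sc.run_of_some P v (w1 ++ [x]) t f hP h2 (by simpa using hshort)
  set P0 := (P ++ (w1 ++ [x])).drop t with hP0
  have hn0 : P0.length ≤ n0 := by
    have := hdet (P ++ w1) x t f h1 h2'
    simpa [hP0] using this
  have hle : t ≤ (P ++ (w1 ++ [x])).length := Sc.step_le _ _ _ h2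
  have hQ : C (P0 ++ (w2 ++ wb)) := by
    have e2 : P ++ w = (P ++ (w1 ++ [x])).take t ++ (P0 ++ (w2 ++ wb)) := by
      rw [← List.append_assoc, hP0, List.take_append_drop, ew, e1]; simp
    rw [e2] at hPw
    exact hC _ _ hPw
  have hQl : G' ≤ (P0 ++ (w2 ++ wb)).length := by
    have : w.length = wa.length + wb.length := by rw [ew, List.length_append]
    simp only [List.length_append]; omega
  obtain ⟨P1, r, s, eQ, hP1, hl, hr, hR⟩ := hcomp _ hQ hQl (f v)
  have hpre : P0 <+: P1 := by
    have ha : P0 <+: P0 ++ (w2 ++ wb) := List.prefix_append _ _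
    have hb : P1 <+: P0 ++ (w2 ++ wb) := by rw [eQ]; exact ⟨r ++ s, by simp⟩
    exact List.prefix_of_prefix_length_le ha hb (hn0.trans hP1)
  obtain ⟨u, rfl⟩ := hpre
  have e3 : w2 ++ wb = u ++ r ++ s := by
    have := eQ
    rw [List.append_assoc, List.append_assoc] at this
    have := List.append_cancel_left this
    simpa using this
  refine ⟨w1 ++ [x] ++ u, r, s, ?_, hr, hR, ?_⟩
  · rw [ew, e1]
    have : w1 ++ x :: w2 ++ wb = w1 ++ [x] ++ (w2 ++ wb) := by simp
    rw [this, e3]; simp
  · rw [run_append, hrun, run_left Sc (P := P0) (u := u) hl]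
    exact hl

/-! ### The finite automaton -/

/-- bounded states and a sink. -/
abbrev Th (α V : Type*) (B : ℕ) := Option ({P : List α // P.length ≤ B} × V)

instance [Finite α] (B : ℕ) : Finite {P : List α // P.length ≤ B} :=
  (List.finite_length_le α B).to_subtype

instance [Finite α] [Finite V] (B : ℕ) : Finite (Th α V B) := inferInstance

open Classical in
/-- embed a state. -/
noncomputable def emb (B : ℕ) (θ : List α × V) : Th α V B :=
  if h : θ.1.length ≤ B then some (⟨θ.1, h⟩, θ.2) else none

noncomputable def delta (B : ℕ) : Th α V B → α → Th α V B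
  | none, _ => none
  | some (P, v), x => emb B (Sc.nxt (P.1, v) x)

def CutL (B : ℕ) : Th α V B → Prop
  | none => False
  | some (P, v) => Sc.left P.1 = some v

noncomputable def rho (B : ℕ) (r : List α) : Option (Th α V B) :=
  match Sc.right r with
  | some (b, c) => if (emb B (r.drop b, c)).isSome then some (emb B (r.drop b, c)) else none
  | none => none

theorem emb_eq_some {B : ℕ} {θ : List α × V} (h : θ.1.length ≤ B) :
    emb B θ = some (⟨θ.1, h⟩, θ.2) := by
  simp [emb, h]

/-- the bounded run agrees with the unbounded one as long as it does not reach the sink. -/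
theorem foldl_none (B : ℕ) (w : List α) : w.foldl (Sc.delta B) none = none := by
  induction w with
  | nil => rfl
  | cons x w ih => simpa [delta] using ih

theorem foldl_delta (B : ℕ) (θ : List α × V) (w : List α)
    (h : ∀ u, u <+: w → (Sc.run θ u).1.length ≤ B) :
    w.foldl (Sc.delta B) (emb B θ) = emb B (Sc.run θ w) := by
  induction w generalizing θ with
  | nil => rfl
  | cons x w ih =>
    have h0 : θ.1.length ≤ B := by simpa using h [] (List.nil_prefix)
    have h1 : Sc.delta B (emb B θ) x = emb B (Sc.nxt θ x) := by
      rw [emb_eq_some h0]; rfl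
    rw [List.foldl_cons, h1, run_cons]
    exact ih _ (fun u hu => by
      have := h (x :: u) (by simpa using hu)
      simpa [run_cons] using this)

/-- lengths grow by at most one per letter. -/
theorem length_nxt (θ : List α × V) (x : α) : (Sc.nxt θ x).1.length ≤ θ.1.length + 1 := by
  unfold nxt
  split
  · simp only [List.length_drop, List.length_append, List.length_singleton]; omega
  · simp

theorem length_run (θ : List α × V) (w : List α) :
    (Sc.run θ w).1.length ≤ θ.1.length + w.length := by
  induction w generalizing θ with
  | nil => simp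
  | cons x w ih =>
    rw [run_cons]
    have := ih (Sc.nxt θ x)
    have := Sc.length_nxt θ x
    simp only [List.length_cons]; omega

/-- SOUND, in the form of the architecture: `B` must exceed every left-legal length by `D`. -/
theorem sound_delta {B : ℕ} (hB : ∀ P v, Sc.left P = some v → P.length + Sc.D ≤ B)
    (θ : Th α V B) (hθ : Sc.CutL B θ) (r : List α) (hr : r.length = Sc.D) (θ' : Th α V B)
    (hρ : Sc.rho B r = some θ') : r.foldl (Sc.delta B) θ = θ' := by
  match θ, hθ with
  | some (⟨P, hP⟩, v), hl =>
    have hl' : Sc.left P = some v := hl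
    unfold rho at hρ
    split at hρ
    · rename_i b c hR
      split at hρ
      · have e : emb B (r.drop b, c) = θ' := by simpa using hρ
        have h1 := Sc.foldl_delta B (P, v) r (fun u hu => by
          have h2 := Sc.length_run (P, v) u
          have h3 := hu.length_le
          have h4 := hB P v hl'
          simp only at h2
          omega)
        rw [emb_eq_some (θ := (P, v)) hP] at h1
        rw [h1, Sc.run_right hl' hr hR, e]
      · simp at hρ
    · simp at hρ

end Scheme

end Crest.Agent.R320.Sch_780
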