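import Mathlib

/-!
Row 320, piece (9): junction systems on words (abstract scheme algebra).

A scheme is given by three predicates on words (positions are offsets from the left end):
* `st u b c` : the word `u` starts at a right-legal place; the first anchor is `b`, the value there `c`;
* `en u a v` : the word `u` ends at a left-legal place; the last anchor is `a`, the value there `v`;
* `step u a v b c` : in `u` the anchor after `a` is `b`, and the value `v` at `a` becomes `c` at `b`.
`n` is the visibility window.  `exact` is the statement that every legal junction is exact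
(818's lemma for the chain + soundness of the gadget).  `K` is the full language of the scheme
(261's remark: no threads are needed); `K_append` is soundness, `not_cut_of_irr` says that an
irreducible word of `K` has no cut in the inner zones of its chain.
-/

set_option autoImplicit false

namespace Crest.Agent.R320.Sch792

structure Sch (α V : Type*) where
  n : ℕ
  st : List α → ℕ → V → Prop
  en : List α → ℕ → V → Prop
  step : List α → ℕ → V → ℕ → V → Prop
  /-- the right data read `b + n` letters only -/
  st_vis : ∀ u b c, st u b c → b + n ≤ u.length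
  st_app : ∀ u w b c, st u b c → st (u ++ w) b c
  st_pre : ∀ u w b c, st (u ++ w) b c → b + n ≤ u.length → st u b c
  /-- the left data read the text from the anchor on -/
  en_vis : ∀ u a v, en u a v → a + n ≤ u.length
  en_app : ∀ w u a v, en u a v ↔ en (w ++ u) (w.length + a) v
  /-- a step is strictly increasing, deterministic, reads the text between `a` and `b + n` -/
  step_lt : ∀ u a v b c, step u a v b c → a < b
  step_vis : ∀ u a v b c, step u a v b c → b + n ≤ u.length
  step_det : ∀ u a v b c b' c', step u a v b c → step u a v b' c' → b = b' ∧ c = c'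
  step_app : ∀ u w a v b c, step u a v b c → step (u ++ w) a v b c
  step_pre : ∀ u w a v b c, step (u ++ w) a v b c → b + n ≤ u.length → step u a v b c
  step_left : ∀ w u a v b c, step u a v b c ↔ step (w ++ u) (w.length + a) v (w.length + b) c
  /-- every legal junction is exact -/
  exact : ∀ u w a v b c, en u a v → st w b c → step (u ++ w) a v (u.length + b) c

variable {α V : Type*} (σ : Sch α V)

/-- reachability along the chain -/
def Sch.Run (u : List α) : ℕ × V → ℕ × V → Prop :=
  Relation.ReflTransGen (fun x y => σ.step u x.1 x.2 y.1 y.2)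

/-- full language of the scheme -/
def Sch.K : Set (List α) :=
  {u | ∃ b c a v, σ.st u b c ∧ σ.en u a v ∧ σ.Run u (b, c) (a, v)}

theorem Sch.Run.le {σ : Sch α V} {u : List α} {x y : ℕ × V} (h : σ.Run u x y) : x.1 ≤ y.1 := by
  induction h with
  | refl => exact le_rfl
  | tail _ h2 ih => exact ih.trans (σ.step_lt _ _ _ _ _ h2).le

theorem Sch.Run.app {σ : Sch α V} {u : List α} {x y : ℕ × V} (h : σ.Run u x y) (w : List α) :
    σ.Run (u ++ w) x y := by
  induction h with
  | refl => exact Relation.ReflTransGen.refl
  | tail _ h2 ih => exact ih.tail (σ.step_app _ _ _ _ _ _ h2)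

theorem Sch.Run.left {σ : Sch α V} {u : List α} {x y : ℕ × V} (h : σ.Run u x y) (w : List α) :
    σ.Run (w ++ u) (w.length + x.1, x.2) (w.length + y.1, y.2) := by
  induction h with
  | refl => exact Relation.ReflTransGen.refl
  | tail _ h2 ih => exact ih.tail ((σ.step_left w _ _ _ _ _).1 h2)

/-- soundness: the full language is closed under concatenation -/
theorem Sch.K_append {u w : List α} (hu : u ∈ σ.K) (hw : w ∈ σ.K) : u ++ w ∈ σ.K := by
  obtain ⟨b, c, a, v, h1, h2, h3⟩ := hu
  obtain ⟨b', c', a', v', h1', h2', h3'⟩ := hw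
  refine ⟨b, c, u.length + a', v', σ.st_app _ _ _ _ h1, (σ.en_app u w a' v').1 h2', ?_⟩
  have e := σ.exact u w a v b' c' h2 h1'
  exact ((h3.app w).tail (b := (a, v)) (c := (u.length + b', c')) e).trans (h3'.left u)

theorem Sch.K_ne_nil (hn : 0 < σ.n) : ([] : List α) ∉ σ.K := by
  rintro ⟨b, c, a, v, h1, -, -⟩
  have := σ.st_vis _ _ _ h1
  simp at this
  omega

/-- runs inside the visible part come from the prefix -/
theorem Sch.Run.pre {σ : Sch α V} {u w : List α} {x y : ℕ × V} (h : σ.Run (u ++ w) x y)
    (hy : y.1 + σ.n ≤ u.length) : σ.Run u x y := by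
  induction h with
  | refl => exact Relation.ReflTransGen.refl
  | @tail y' z' h1 h2 ih =>
    have hlt := σ.step_lt _ _ _ _ _ h2
    exact (ih (by omega)).tail (σ.step_pre _ _ _ _ _ _ h2 hy)

/-- runs to the right of `w.length` come from the suffix -/
theorem Sch.Run.suf {σ : Sch α V} {u w : List α} {p q : ℕ × V} (h : σ.Run (w ++ u) p q) :
    ∀ x : ℕ × V, p = (w.length + x.1, x.2) →
      ∃ y : ℕ × V, q = (w.length + y.1, y.2) ∧ σ.Run u x y := by
  induction h with
  | refl => exact fun x hx => ⟨x, hx, Relation.ReflTransGen.refl⟩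
  | @tail q' r' h1 h2 ih =>
    intro x hx
    obtain ⟨y, hy, hr⟩ := ih x hx
    have hlt := σ.step_lt _ _ _ _ _ h2
    have hle : w.length ≤ r'.1 := by rw [hy] at hlt; simp at hlt; omega
    refine ⟨(r'.1 - w.length, r'.2), ?_, hr.tail ?_⟩
    · ext
      · simp; omega
      · rfl
    · refine (σ.step_left w u _ _ _ _).2 ?_
      have e : w.length + (r'.1 - w.length) = r'.1 := by omega
      simp only [e]
      rw [hy] at h2
      exact h2

/-- a place where the token `val` of the zone of the anchor `x` is cut -/
def Sch.CutAt (u : List α) (x : ℕ × V) (u1 u2 : List α) : Prop :=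
  u = u1 ++ u2 ∧ σ.en u1 x.1 x.2 ∧ ∃ b c, σ.st u2 b c

/-- determinism: from `x` the run to a later point goes through the next anchor -/
theorem Sch.Run.head_step {σ : Sch α V} {u : List α} {x y z : ℕ × V} (h : σ.Run u x y)
    (hs : σ.step u x.1 x.2 z.1 z.2) (hlt : x.1 < y.1) : σ.Run u z y := by
  rcases Relation.ReflTransGen.cases_head h with h | ⟨z', h1, h2⟩
  · rw [h] at hlt; exact absurd hlt (lt_irrefl _)
  · obtain ⟨e1, e2⟩ := σ.step_det _ _ _ _ _ _ _ hs h1
    have : z = z' := Prod.ext e1 e2
    rw [this]; exact h2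

/-- a cut in an inner zone of the chain of `u` splits `u` inside `K` -/
theorem Sch.split_of_cut {u u1 u2 : List α} {b a : ℕ} {c v : V} {x : ℕ × V}
    (h1 : σ.st u b c) (h2 : σ.en u a v) (hbx : σ.Run u (b, c) x) (hxa : σ.Run u x (a, v))
    (hlt : x.1 < a) (hc : σ.CutAt u x u1 u2) : u1 ∈ σ.K ∧ u2 ∈ σ.K := by
  obtain ⟨rfl, hen, b', c', hst⟩ := hc
  have hvis := σ.en_vis _ _ _ hen
  have hbx' := hbx.le
  constructor
  · refine ⟨b, c, x.1, x.2, σ.st_pre _ _ _ _ h1 ?_, hen, hbx.pre hvis⟩
    simp at hbx'; omega
  · have hs := σ.exact u1 u2 x.1 x.2 b' c' hen hst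
    have hr : σ.Run (u1 ++ u2) (u1.length + b', c') (a, v) :=
      hxa.head_step (z := (u1.length + b', c')) hs hlt
    obtain ⟨y, hy, hy2⟩ := hr.suf (b', c') rfl
    have e1 : a = u1.length + y.1 := by simpa using congrArg Prod.fst hy
    have e2 : v = y.2 := by simpa using congrArg Prod.snd hy
    refine ⟨b', c', y.1, y.2, hst, ?_, hy2⟩
    rw [σ.en_app u1 u2, ← e1, ← e2]
    exact h2

/-- irreducible words of `K` have no cut in the inner zones of their chain -/
theorem Sch.not_cut_of_irr {u : List α} (hirr : ∀ p ∈ σ.K, ∀ q ∈ σ.K, p ++ q ≠ u)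
    {b a : ℕ} {c v : V} {x : ℕ × V}
    (h1 : σ.st u b c) (h2 : σ.en u a v) (hbx : σ.Run u (b, c) x) (hxa : σ.Run u x (a, v))
    (hlt : x.1 < a) (u1 u2 : List α) : ¬ σ.CutAt u x u1 u2 := by
  intro hc
  obtain ⟨k1, k2⟩ := σ.split_of_cut h1 h2 hbx hxa hlt hc
  exact hirr _ k1 _ k2 hc.1.symm

end Crest.Agent.R320.Sch792
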