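import Crest.Agent.R320.Main_621
import Crest.Agent.R320.Blk_940

/-!
# Row 320: the two wall schemes on blocks `A zd * A n` over an abstract gadget (helper940)
-/

set_option autoImplicit false

namespace Crest.Agent.R320.Sch_940

open Crest.Agent.R320.Star_621 Crest.Agent.R320.Two_621 Crest.Agent.R320.Blk_940

/-- monoid of the inner scheme -/
abbrev M2 (S : Type) : Type := (Function.End (Option (Tok S)))ᵐᵒᵖ

/-- all parameters -/
structure Pr (α S : Type) [Monoid S] where
  f : α → S
  Wo : List α → Prop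
  n : ℕ
  W : ℕ
  q : ℕ
  N1 : ℕ
  p0 : ℕ
  lam : List α → Option (Tok S)
  rho : List α → Option (Tok S)
  nu : List α → Tok S
  Bad : ℕ → Prop
  K : ℕ
  c : ℕ → ℕ
  lam2 : ℕ → List α → Option (Tok (M2 S))
  rho2 : ℕ → List α → M2 S → Option (Tok (M2 S))
  nu2 : List α → M2 S → Tok (M2 S)

variable {α S : Type} [Monoid S] (p : Pr α S)

def Pr.ph (w : List α) : S := (w.map p.f).prod

theorem ph_append (u w : List α) : p.ph (u ++ w) = p.ph u * p.ph w := by simp [Pr.ph]

def Pr.e : ℕ := p.q + p.N1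
def Pr.zd : ℕ := p.p0 + (p.q + p.N1)
def Pr.AA (o : ℕ) : Language α := A p.Wo o
def Pr.B (o : ℕ) : Language α := BB p.Wo p.N1 (p.q + p.N1) p.Bad o
def Pr.Z : Language α := p.AA p.zd * p.AA p.n
def Pr.Zc : Language α := p.B p.zd * p.AA p.n

def Pr.LA (v : Tok S) : Language α :=
  {P | p.p0 ≤ P.length ∧ p.lam (P.drop p.p0) = some (act v (p.ph (P.take p.p0)))}

def Pr.RA (t : Tok S) : Language α :=
  {Q | ∃ Q1 Q2 w, Q = Q1 ++ Q2 ∧ Q1 ∈ p.AA p.q ∧ p.e ≤ Q1.length ∧ p.rho Q1 = some w ∧
    Q2 ∈ p.AA p.n ∧ t = act w (p.ph Q2)}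

open Classical in
noncomputable def Pr.dY (Y : List α) : Tok S :=
  if h : ∃ Y1 Y2, Y = Y1 ++ Y2 ∧ Y1 ∈ p.AA p.e then
    act (p.nu h.choose) (p.ph h.choose_spec.choose) else 0

noncomputable def Pr.dA (z : List α) : Tok S := p.dY (z.drop p.p0)

def Pr.CutY (v : Tok S) (Y : List α) : Prop :=
  ∃ P Q t, Y = P ++ Q ∧ p.lam P = some v ∧ Q ∈ p.RA t

open Classical in
noncomputable def Pr.hv (Y : List α) (v : Tok S) : Option (Tok S) :=
  if p.CutY v Y then none else some (act v (p.ph Y) + p.dY Y)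

noncomputable def Pr.h (Y : List α) : M2 S := MulOpposite.op fun o => o.bind (p.hv Y)

def gg (s : S) : M2 S := MulOpposite.op fun (o : Option (Tok S)) => o.map fun v => act v s

def Pr.cc (k : ℕ) : ℕ := p.c k + 1

def Pr.LB (v : Tok (M2 S)) : Language α :=
  {P | ∃ k < p.K, P.length = p.cc k ∧ p.lam2 k P = some v}

def Pr.RB (t : Tok (M2 S)) : Language α :=
  {Q | ∃ k < p.K, (∃ Q1 Q2, Q = Q1 ++ Q2 ∧ Q1 ∈ p.B (p.zd - p.cc k) ∧ Q2 ∈ p.AA p.n) ∧
    (∀ k' < p.K, k' ≠ k → ∀ Q1, Q1 <+: Q → Q1 ∉ p.B (p.zd - p.cc k')) ∧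
    p.rho2 k (Q.take (p.p0 - p.cc k)) (p.h (Q.drop (p.p0 - p.cc k))) = some t}

noncomputable def Pr.dB (z : List α) : Tok (M2 S) := p.nu2 (z.take p.p0) (p.h (z.drop p.p0))

/-- hypotheses for soundness -/
structure Ok : Prop where
  loc : Loc p.Wo p.n
  gap : Gap p.Wo p.W
  hn : 0 < p.n
  hq : p.n ≤ p.q
  hp0 : 0 < p.p0
  hcc : ∀ k < p.K, p.cc k ≤ p.p0
  hcW : ∀ k < p.K, p.c k ≤ p.W
  lam_len : ∀ P v, p.lam P = some v → P.length < p.N1
  sound1 : ∀ P Q v b, p.lam P = some v → p.rho Q = some b →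
    b = act v (p.ph (P ++ Q)) + p.nu (P ++ Q)
  sound2 : ∀ k < p.K, ∀ (P Q : List α) (y : M2 S) (v b : Tok (M2 S)), P.length = p.cc k →
    p.lam2 k P = some v → p.rho2 k Q y = some b →
    b = act v (((P ++ Q).map fun a => gg (p.f a)).prod * y) + p.nu2 (P ++ Q) y

variable {p}

theorem dY_eq {Y1 Y2 : List α} (h : Y1 ∈ p.AA p.e) :
    p.dY (Y1 ++ Y2) = act (p.nu Y1) (p.ph Y2) := by
  classical
  have hex : ∃ a b, Y1 ++ Y2 = a ++ b ∧ a ∈ p.AA p.e := ⟨Y1, Y2, rfl, h⟩
  rw [Pr.dY, dif_pos hex]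
  have key : ∀ a b, Y1 ++ Y2 = a ++ b → a ∈ p.AA p.e →
      act (p.nu a) (p.ph b) = act (p.nu Y1) (p.ph Y2) := by
    intro a b h1 h2
    have e1 : Y1 = a := A_code h h2 h1
    subst e1
    rw [List.append_cancel_left h1]
  exact key _ _ hex.choose_spec.choose_spec.1 hex.choose_spec.choose_spec.2

theorem code (hp : Ok p) : Code p.Z := by
  constructor
  · intro h
    obtain ⟨a, -, b, hb, hab⟩ := Language.mem_mul.1 h
    have : b = [] := (List.append_eq_nil_iff.1 hab).2
    subst this
    have := hb.1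
    have := hp.hn
    simp at *
    omega
  · intro z z' x x' hz hz' h
    obtain ⟨a, ha, b, hb, rfl⟩ := Language.mem_mul.1 hz
    obtain ⟨a', ha', b', hb', rfl⟩ := Language.mem_mul.1 hz'
    rw [List.append_assoc, List.append_assoc] at h
    have e1 := A_code ha ha' h
    subst e1
    have h2 := List.append_cancel_left h
    rw [A_code hb hb' h2]

theorem sub (z : List α) (hz : z ∈ p.Zc) : z ∈ p.Z := by
  obtain ⟨a, ha, b, hb, rfl⟩ := Language.mem_mul.1 hz
  exact Language.mem_mul.2 ⟨a, ha.1, b, hb, rfl⟩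

/-- dropping the first `p0` letters of the first half of a block -/
theorem drop_p0 (hp : Ok p) {z1 : List α} (hz : z1 ∈ p.AA p.zd) : z1.drop p.p0 ∈ p.AA p.e := by
  have hl : p.p0 ≤ z1.length := by
    have := hz.1
    unfold Pr.zd at this; omega
  have h1 : (z1.take p.p0).length = p.p0 := by rw [List.length_take]; omega
  have := (A_shift hp.loc (o := p.e) (by have := hp.hq; unfold Pr.e; omega)
    (P := z1.take p.p0) (R := z1.drop p.p0)).1
  rw [List.take_append_drop, h1] at this
  exact this hz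

/-- a left part and the first half of a right part -/
theorem join (hp : Ok p) {P Q1 : List α} {v : Tok S} (hP : P ∈ p.LA v) (h1 : Q1 ∈ p.AA p.q)
    (h2 : p.e ≤ Q1.length) : P ++ Q1 ∈ p.AA p.zd := by
  have hlen := hp.lam_len _ _ hP.2
  rw [List.length_drop] at hlen
  have hl := hP.1
  refine ⟨?_, (hp.loc _ _ ?_).2 h1.2.1, fun s hs hs' hw => ?_⟩
  · rw [List.length_append]; unfold Pr.zd; unfold Pr.e at h2; omega
  · have := hp.hq
    unfold Pr.e at h2; omega
  · rw [List.length_append] at hs'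
    have hs0 : P.length ≤ s := by unfold Pr.zd at hs; omega
    obtain ⟨j, rfl⟩ := Nat.exists_eq_add_of_le hs0
    have hq := hp.hq
    have hj : p.q ≤ j := by unfold Pr.zd at hs; omega
    exact h1.2.2 j hj (by omega) ((wo_shift hp.loc (by omega) (by omega)).1 hw)

theorem soundA (hp : Ok p) : Sound p.Z (aff p.ph p.dA) p.LA p.RA := by
  constructor
  · intro v h
    have := h.1
    have := hp.hp0
    simp at *
    omega
  · intro v t P Q z x y hP hQ hz h
    obtain ⟨Q1, Q2, w, rfl, h1, h2, h3, h4, rfl⟩ := hQ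
    obtain ⟨z1, hz1, z2, hz2, rfl⟩ := Language.mem_mul.1 hz
    have hj := join hp hP h1 h2
    have h' : (P ++ Q1) ++ (Q2 ++ x) = z1 ++ (z2 ++ y) := by simpa using h
    have e1 := A_code hj hz1 h'
    subst e1
    have h'' := List.append_cancel_left h'
    have e2 := A_code h4 hz2 h''
    subst e2
    refine ⟨by simp, ?_⟩
    have hdrop := drop_p0 hp hz1
    have hd1 : (P ++ Q1).drop p.p0 = P.drop p.p0 ++ Q1 := by
      rw [List.drop_append_of_le_length hP.1]
    have hd : ((P ++ Q1) ++ Q2).drop p.p0 = (P.drop p.p0 ++ Q1) ++ Q2 := by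
      rw [List.drop_append_of_le_length (by rw [List.length_append]; have := hP.1; omega), hd1]
    rw [hd1] at hdrop
    have hw := hp.sound1 _ _ _ _ hP.2 h3
    have hph : p.ph (P ++ Q1 ++ Q2) =
        p.ph (P.take p.p0) * (p.ph (P.drop p.p0 ++ Q1) * p.ph Q2) := by
      rw [← ph_append, ← ph_append]
      congr 1
      simp only [← List.append_assoc, List.take_append_drop]
    rw [aff, Pr.dA, hd, dY_eq hdrop, hph, hw, act_add, act_mul, act_mul]

theorem completeA (hp : Ok p) (comp : ∀ Y : List α, p.N1 ≤ Y.length → ¬ p.Bad Y.length → ∀ v,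
    ∃ P Q b, Y = P ++ Q ∧ p.lam P = some v ∧ p.rho Q = some b)
    (z : List α) (hz : z ∈ p.Z) (hzc : z ∉ p.Zc) (v : Tok S) : Cut p.LA p.RA v z := by
  obtain ⟨z1, hz1, z2, hz2, rfl⟩ := Language.mem_mul.1 hz
  have hnb : z1 ∉ p.B p.zd := fun h => hzc (Language.mem_mul.2 ⟨z1, h, z2, hz2, rfl⟩)
  have hnb' : ¬ ((∃ s, p.zd ≤ s + p.N1 ∧ s < p.zd ∧ p.Wo (z1.take s)) ∨
      z1.length < p.zd + p.N1 ∨ p.Bad (z1.length - p.zd + (p.q + p.N1))) :=
    fun h => hnb ⟨hz1, h⟩
  push Not at hnb'
  obtain ⟨n1, n2, n3⟩ := hnb'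
  have hl := hz1.1
  have hzd : p.zd = p.p0 + (p.q + p.N1) := rfl
  have hlen : (z1.drop p.p0).length = z1.length - p.p0 := List.length_drop ..
  have hb : ¬ p.Bad (z1.drop p.p0).length := by
    rw [hlen]
    have : z1.length - p.zd + (p.q + p.N1) = z1.length - p.p0 := by omega
    rwa [this] at n3
  obtain ⟨P, Q, b, h1, h2, h3⟩ := comp (z1.drop p.p0) (by omega) hb (act v (p.ph (z1.take p.p0)))
  have hP := hp.lam_len _ _ h2
  have hX : (z1.take p.p0).length = p.p0 := by rw [List.length_take]; omega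
  have hz1' : z1 = (z1.take p.p0 ++ P) ++ Q := by
    rw [List.append_assoc, ← h1, List.take_append_drop]
  have hPQ : P.length + Q.length = z1.length - p.p0 := by
    rw [← hlen, h1, List.length_append]
  have hloc := hp.loc
  have hq := hp.hq
  have hQw : Q ∈ p.AA p.q := by
    refine ⟨by omega, ?_, fun s hs hs' hw => ?_⟩
    · have := hz1.2.1
      rw [hz1'] at this
      exact (hloc _ _ (by omega)).1 this
    · have hw' : p.Wo (z1.take ((z1.take p.p0 ++ P).length + s)) := by
        conv in z1.take ((z1.take p.p0 ++ P).length + s) => rw [hz1']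
        have e1 : (List.take p.p0 ((List.take p.p0 z1 ++ P) ++ Q) ++ P).length =
            (List.take p.p0 z1 ++ P).length := by rw [← hz1']
        rw [e1]
        exact (wo_shift hloc (by omega) (by omega)).2 hw
      have hl2 : (z1.take p.p0 ++ P).length + s = p.p0 + P.length + s := by
        rw [List.length_append, hX]
      rw [hl2] at hw'
      by_cases hc : p.p0 + P.length + s < p.zd
      · exact n1 _ (by omega) hc hw'
      · exact hz1.2.2 _ (by omega) (by omega) hw'
  refine ⟨z1.take p.p0 ++ P, Q ++ z2, act b (p.ph z2), ?_, ⟨?_, ?_⟩, Q, z2, b, rfl, hQw, ?_, h3, hz2, rfl⟩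
  · rw [← List.append_assoc, ← hz1']
  · rw [List.length_append, hX]; omega
  · have e2 : (z1.take p.p0 ++ P).drop p.p0 = P := by
      exact List.drop_left' hX
    have e3 : (z1.take p.p0 ++ P).take p.p0 = z1.take p.p0 := List.take_left' hX
    rw [e2, e3]; exact h2
  · unfold Pr.e; omega

theorem gg_one : gg (1 : S) = 1 := by
  apply MulOpposite.unop_injective
  funext o
  rcases o with _ | v
  · rfl
  · show some (act v 1) = some v
    rw [act_one]

theorem gg_mul (s t : S) : gg (s * t) = gg s * gg t := by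
  apply MulOpposite.unop_injective
  funext o
  rcases o with _ | v
  · rfl
  · show some (act v (s * t)) = some (act (act v s) t)
    rw [act_mul]

theorem prod_gg (f : α → S) (X : List α) :
    (X.map fun a => gg (f a)).prod = gg ((X.map f).prod) := by
  induction X with
  | nil => simp [gg_one]
  | cons a X ih => rw [List.map_cons, List.prod_cons, ih, List.map_cons, List.prod_cons, gg_mul]

theorem stepA_eq {X Y : List α} (hX : X.length = p.p0) :
    stepA (aff p.ph p.dA) p.LA p.RA (X ++ Y) = gg (p.ph X) * p.h Y := by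
  classical
  have hd : (X ++ Y).drop p.p0 = Y := List.drop_left' hX
  apply MulOpposite.unop_injective
  funext o
  rcases o with _ | v
  · rfl
  · show (if Cut p.LA p.RA v (X ++ Y) then none else some (aff p.ph p.dA (X ++ Y) v)) =
      p.hv Y (act v (p.ph X))
    have hcut : Cut p.LA p.RA v (X ++ Y) ↔ p.CutY (act v (p.ph X)) Y := by
      constructor
      · rintro ⟨P, Q, t, h1, h2, h3⟩
        have hl : X.length ≤ P.length := by rw [hX]; exact h2.1
        obtain ⟨r, h4, h5⟩ := prefix_cases h1 hl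
        have h6 := h2.2
        rw [h4, List.drop_left' hX, List.take_left' hX] at h6
        exact ⟨r, Q, t, h5, h6, h3⟩
      · rintro ⟨P, Q, t, h1, h2, h3⟩
        refine ⟨X ++ P, Q, t, by rw [h1, List.append_assoc], ⟨?_, ?_⟩, h3⟩
        · rw [List.length_append]; omega
        · rw [List.drop_left' hX, List.take_left' hX]; exact h2
    have haff : aff p.ph p.dA (X ++ Y) v = act (act v (p.ph X)) (p.ph Y) + p.dY Y := by
      rw [aff, Pr.dA, hd, ph_append, act_mul]
    unfold Pr.hv
    by_cases hc : Cut p.LA p.RA v (X ++ Y)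
    · rw [if_pos hc, if_pos (hcut.1 hc)]
    · rw [if_neg hc, if_neg (fun h => hc (hcut.2 h)), haff]

theorem zd_sub (hp : Ok p) {k : ℕ} (hk : k < p.K) :
    p.n + p.N1 ≤ p.zd - p.cc k ∧ p.cc k + (p.zd - p.cc k) = p.zd ∧ p.p0 ≤ p.zd := by
  have h1 := hp.hcc k hk
  have h2 := hp.hq
  unfold Pr.zd
  omega

theorem soundB (hp : Ok p) :
    Sound p.Zc (aff (stepA (aff p.ph p.dA) p.LA p.RA) p.dB) p.LB p.RB := by
  constructor
  · rintro v ⟨k, hk, h, -⟩
    unfold Pr.cc at h
    simp at h
  · rintro v t P Q z x y ⟨j, hj, hPl, hlam⟩ ⟨k, hk, ⟨Q1, Q2, rfl, hQ1, hQ2⟩, huniq, hrho⟩ hz h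
    obtain ⟨z1, hz1, z2, hz2, rfl⟩ := Language.mem_mul.1 hz
    obtain ⟨a1, a2, a3⟩ := zd_sub hp hj
    obtain ⟨b1, b2, b3⟩ := zd_sub hp hk
    have hl1 := hz1.1.1
    have hcj := hp.hcc j hj
    have hck := hp.hcc k hk
    have h0 : P ++ (Q1 ++ Q2 ++ x) = z1 ++ (z2 ++ y) := by simpa using h
    obtain ⟨r, rfl, h1⟩ := prefix_cases h0 (by omega)
    have hr : r ∈ p.B (p.zd - p.cc j) := by
      refine (BB_shift hp.loc (by omega) (P := P)).1 ?_
      rw [hPl, a2]; exact hz1
    have hpre : r <+: Q1 ++ Q2 := by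
      rcases Nat.le_total r.length (Q1 ++ Q2).length with hle | hle
      · obtain ⟨s, hs, -⟩ := prefix_cases h1.symm hle
        exact ⟨s, hs.symm⟩
      · by_cases heq : r.length = (Q1 ++ Q2).length
        · obtain ⟨s, hs, -⟩ := prefix_cases h1.symm heq.le
          exact ⟨s, hs.symm⟩
        · exfalso
          obtain ⟨s, hs, -⟩ := prefix_cases h1 hle
          have hW2 : p.Wo (Q1 ++ Q2) := (hp.loc _ _ hQ2.1).2 hQ2.2.1
          have hlt : (Q1 ++ Q2).length < p.zd - p.cc j := by
            by_contra hc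
            push Not at hc
            refine hr.1.2.2 (Q1 ++ Q2).length hc (by omega) ?_
            rw [hs, List.take_left]
            exact hW2
          have hQ2l := hQ2.1
          have hn := hp.hn
          have hg := hp.gap (Q1 ++ Q2) Q1.length (Q1 ++ Q2).length
            (by rw [List.length_append]; omega) le_rfl
            (by rw [List.take_left]; exact hQ1.1.2.1)
            (by rw [List.take_length]; exact hW2)
          have hQ1l := hQ1.1.1
          have hkW := hp.hcW k hk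
          rw [List.length_append] at hg hlt
          have : p.cc k = p.c k + 1 := rfl
          have : p.cc j = p.c j + 1 := rfl
          omega
    have hjk : j = k := by
      by_contra hne
      exact huniq j hj hne r hpre hr
    subst hjk
    have h2 : Q1 ++ (Q2 ++ x) = r ++ (z2 ++ y) := by simpa using h1
    have e1 := A_code hQ1.1 hr.1 h2
    subst e1
    have e2 := A_code hQ2 hz2 (List.append_cancel_left h2)
    subst e2
    refine ⟨by simp, ?_⟩
    have hv := hp.sound2 j hj P _ _ v t hPl hlam hrho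
    have ht : (P ++ Q1 ++ Q2).take p.p0 = P ++ (Q1 ++ Q2).take (p.p0 - p.cc j) := by
      rw [List.append_assoc, List.take_append, List.take_of_length_le (by omega), hPl]
    have hd : (P ++ Q1 ++ Q2).drop p.p0 = (Q1 ++ Q2).drop (p.p0 - p.cc j) := by
      rw [List.append_assoc, List.drop_append, List.drop_eq_nil_of_le (by omega), hPl,
        List.nil_append]
    have hXl : (P ++ (Q1 ++ Q2).take (p.p0 - p.cc j)).length = p.p0 := by
      rw [← ht, List.length_take]
      rw [List.length_append, List.length_append]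
      rw [List.length_append] at hl1
      omega
    have hsplit : P ++ Q1 ++ Q2 = (P ++ (Q1 ++ Q2).take (p.p0 - p.cc j)) ++
        (Q1 ++ Q2).drop (p.p0 - p.cc j) := by
      rw [List.append_assoc, List.append_assoc, List.take_append_drop]
    rw [aff, Pr.dB, ht, hd]
    conv_rhs => rw [hsplit]
    rw [stepA_eq hXl, hv, prod_gg]
    rfl

end Crest.Agent.R320.Sch_940
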