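import Crest.Agent.R320.Hk1_851

/-!
# Row 320, word-level one-chain scheme (helper457)

A scheme on words: anchors (nodes of 818's chain), a noisy zone map, left labels, right labels.
`nx F`   : text `F` starting at an anchor, the distance of the next anchor (if visible);
`ze F v` : the value at the next anchor of the token which has value `v` at the anchor;
`lf P`   : left label of the word `P` since the anchor (word ending at the cut);
`rt Y`   : right label and distance of the first anchor, for the text `Y` starting at the cut;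
`n`      : look-ahead.
`exact` is 818's lemma together with the exactness of the wall gadget.
The theorem `level` is one star of the construction.
-/

set_option autoImplicit false

namespace Crest.Agent.R320.Scheme_457

open Crest.Agent.R320.Hk_851

universe u v

structure Sch (α : Type u) (Q : Type v) where
  n : ℕ
  nx : List α → Option ℕ
  ze : List α → Q → Q
  lf : List α → Option Q
  rt : List α → Option (Q × ℕ)
  nx_pos : ∀ {F m}, nx F = some m → 0 < m
  nx_len : ∀ {F m}, nx F = some m → m + n ≤ F.length
  nx_take : ∀ {F m}, nx F = some m → nx (F.take (m + n)) = some m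
  nx_app : ∀ {F m} (G), nx F = some m → nx (F ++ G) = some m
  ze_take : ∀ {F m} (v), nx F = some m → ze (F.take (m + n)) v = ze F v
  ze_app : ∀ {F m} (G v), nx F = some m → ze (F ++ G) v = ze F v
  rt_pos : ∀ {Y r b}, rt Y = some (r, b) → 0 < b
  rt_len : ∀ {Y r b}, rt Y = some (r, b) → b + n ≤ Y.length
  rt_take : ∀ {Y r b}, rt Y = some (r, b) → rt (Y.take (b + n)) = some (r, b)
  rt_app : ∀ {Y x} (G), rt Y = some x → rt (Y ++ G) = some x
  lf_len : ∀ {P v}, lf P = some v → n ≤ P.length
  lf_nx : ∀ {P v}, lf P = some v → nx P = none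
  exact_nx : ∀ {P Y v r b}, lf P = some v → rt Y = some (r, b) →
    nx (P ++ Y) = some (P.length + b)
  exact_ze : ∀ {P Y v r b}, lf P = some v → rt Y = some (r, b) → ze (P ++ Y) v = r

namespace Sch

variable {α : Type u} {Q : Type v} (S : Sch α Q)

/-- some place of the zone which starts at `F` cuts the token `v` -/
def Cut (F : List α) (v : Q) : Prop := ∃ P Y, P ++ Y = F ∧ S.lf P = some v ∧ (S.rt Y).isSome

/-- the run from an anchor with value `v` ends with `En` at its last anchor -/
inductive Run (En : List α → Q → Prop) : List α → Q → Prop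
  | fin {F v} : En F v → Run En F v
  | step {F v m} : S.nx F = some m → Run En (F.drop m) (S.ze F v) → Run En F v

/-- the same, no zone cuts the token -/
inductive RunU (En : List α → Q → Prop) : List α → Q → Prop
  | fin {F v} : En F v → RunU En F v
  | step {F v m} : S.nx F = some m → ¬ S.Cut F v → RunU En (F.drop m) (S.ze F v) → RunU En F v

/-- left-legal end -/
def Lf (F : List α) (v : Q) : Prop := S.lf F = some v

/-- words starting right-legal whose run ends with `En` -/
def KE (En : List α → Q → Prop) : Language α :=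
  {u | ∃ r b, S.rt u = some (r, b) ∧ S.Run En (u.drop b) r}

def KEU (En : List α → Q → Prop) : Language α :=
  {u | ∃ r b, S.rt u = some (r, b) ∧ S.RunU En (u.drop b) r}

def K : Language α := S.KE S.Lf
def KU : Language α := S.KEU S.Lf

variable {S} {En : List α → Q → Prop}

theorem RunU.run {F : List α} {v : Q} (h : S.RunU En F v) : S.Run En F v := by
  induction h with
  | fin h => exact .fin h
  | step h1 _ _ ih => exact .step h1 ih

theorem KEU_le : S.KEU En ≤ S.KE En := by
  rintro u ⟨r, b, h1, h2⟩
  exact ⟨r, b, h1, h2.run⟩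

theorem Cut.app {F : List α} {v : Q} (h : S.Cut F v) (G : List α) : S.Cut (F ++ G) v := by
  obtain ⟨P, Y, rfl, h1, h2⟩ := h
  refine ⟨P, Y ++ G, by simp, h1, ?_⟩
  obtain ⟨x, hx⟩ := Option.isSome_iff_exists.1 h2
  rw [S.rt_app G hx]; rfl

theorem drop_app {F G : List α} {m : ℕ} (h : m ≤ F.length) : (F ++ G).drop m = F.drop m ++ G := by
  rw [List.drop_append_of_le_length h]

theorem drop_app' (F Y : List α) (b : ℕ) : (F ++ Y).drop (F.length + b) = Y.drop b := by
  rw [List.drop_append]
  simp

/-- a run which ends left-legal, followed by a right-legal word -/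
theorem Run.glue {F Y : List α} {v : Q} (h : S.Run S.Lf F v) (hY : Y ∈ S.KE En) :
    S.Run En (F ++ Y) v := by
  induction h with
  | fin h =>
    obtain ⟨r, b, h1, h2⟩ := hY
    refine .step (S.exact_nx h h1) ?_
    rw [S.exact_ze h h1, drop_app']
    exact h2
  | @step F v m h1 _ ih =>
    have hl := S.nx_len h1
    refine .step (S.nx_app Y h1) ?_
    rw [S.ze_app Y v h1, drop_app (by omega)]
    exact ih

theorem KK {u w : List α} (hu : u ∈ S.K) (hw : w ∈ S.KE En) : u ++ w ∈ S.KE En := by
  obtain ⟨r, b, h1, h2⟩ := hu
  have hl := S.rt_len h1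
  refine ⟨r, b, S.rt_app w h1, ?_⟩
  rw [drop_app (by omega)]
  exact h2.glue hw

theorem RunU.len {P : List α} {v : Q} (h : S.RunU S.Lf P v) : S.n ≤ P.length := by
  induction h with
  | fin h => exact S.lf_len h
  | step h1 _ _ ih => rw [List.length_drop] at ih; omega

theorem nil_notMem : ([] : List α) ∉ S.KE En := by
  rintro ⟨r, b, h1, -⟩
  have h2 := S.rt_len h1
  have h3 := S.rt_pos h1
  simp at h2; omega

theorem take_pre {F P Y : List α} {m n : ℕ} (hP : P ++ Y = F.drop m)
    (hn : n ≤ P.length) : ∃ G, F.take m ++ P = F.take (m + n) ++ G := by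
  refine ⟨P.drop n, ?_⟩
  have h1 : F.take (m + n) = F.take m ++ (F.drop m).take n := by
    rw [List.take_add]
  rw [h1, ← hP, List.take_append_of_le_length hn, List.append_assoc, List.take_append_drop]

/-- first cut of a run -/
theorem Run.split {F : List α} {v : Q}
    (h : S.Run En F v) :
    S.RunU En F v ∨ ∃ P Y, P ++ Y = F ∧ S.RunU S.Lf P v ∧ Y ∈ S.KE En := by
  induction h with
  | fin h => exact .inl (.fin h)
  | @step F v m h1 h2 ih =>
    by_cases hc : S.Cut F v
    · obtain ⟨P, Y, rfl, h3, h4⟩ := hc
      obtain ⟨⟨r, b⟩, h5⟩ := Option.isSome_iff_exists.1 h4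
      refine .inr ⟨P, Y, rfl, .fin h3, r, b, h5, ?_⟩
      have h6 := S.exact_nx h3 h5
      have h7 := S.exact_ze h3 h5
      rw [h1] at h6
      have h8 : m = P.length + b := by simpa using h6
      subst h8
      rw [h7, drop_app'] at h2
      exact h2
    · rcases ih with h3 | ⟨P, Y, h3, h4, h5⟩
      · exact .inl (.step h1 hc h3)
      · right
        have hl := S.nx_len h1
        have hn := h4.len
        have hF : (F.take m ++ P) ++ Y = F := by
          rw [List.append_assoc, h3, List.take_append_drop]
        obtain ⟨G, hG⟩ := take_pre h3 hn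
        have hnx : S.nx (F.take m ++ P) = some m := by
          rw [hG]; exact S.nx_app G (S.nx_take h1)
        have hze : S.ze (F.take m ++ P) v = S.ze F v := by
          rw [hG, S.ze_app G v (S.nx_take h1), S.ze_take v h1]
        have hdr : (F.take m ++ P).drop m = P := by
          have : (F.take m).length = m := by rw [List.length_take]; omega
          rw [List.drop_append, this]
          simp
        refine ⟨F.take m ++ P, Y, hF, .step hnx (fun hc' => hc ?_) ?_, h5⟩
        · have := hc'.app Y
          rwa [hF] at this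
        · rw [hdr, hze]; exact h4

theorem RunU.mem_glue {P Y : List α} {v : Q} (h : S.RunU S.Lf P v) (hY : Y ∈ S.KE En) :
    S.Run En (P ++ Y) v := h.run.glue hY

/-- words of `KE`: uncut, or an uncut word of `K` followed by a word of `KE` -/
theorem KE_split {u : List α} (hu : u ∈ S.KE En) :
    u ∈ S.KEU En ∨ ∃ p q, p ++ q = u ∧ p ∈ S.KU ∧ q ∈ S.KE En := by
  obtain ⟨r, b, h1, h2⟩ := hu
  rcases h2.split with h3 | ⟨P, Y, h3, h4, h5⟩
  · exact .inl ⟨r, b, h1, h3⟩
  · right
    have hl := S.rt_len h1
    obtain ⟨G, hG⟩ := take_pre h3 h4.len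
    refine ⟨u.take b ++ P, Y, by rw [List.append_assoc, h3, List.take_append_drop],
      ⟨r, b, ?_, ?_⟩, h5⟩
    · rw [hG]; exact S.rt_app G (S.rt_take h1)
    · have : (u.take b).length = b := by rw [List.length_take]; omega
      have hdr : (u.take b ++ P).drop b = P := by rw [List.drop_append, this]; simp
      rw [hdr]; exact h4

theorem KE_eq (u : List α) :
    u ∈ KStar.kstar S.KU * S.KEU En ↔ u ∈ S.KE En := by
  constructor
  · rintro ⟨a, ha, b, hb, rfl⟩
    obtain ⟨L, rfl, hL⟩ := ha
    have hb' : b ∈ S.KE En := KEU_le hb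
    clear hb
    induction L with
    | nil => simpa using hb'
    | cons x L ih =>
      have h1 : L.flatten ++ b ∈ S.KE En := ih (fun y hy => hL y (List.mem_cons_of_mem _ hy))
      have h2 := KK (KEU_le (hL x List.mem_cons_self)) h1
      simpa using h2
  · intro hu
    induction hn : u.length using Nat.strong_induction_on generalizing u with
    | _ k ih =>
      subst hn
      rcases KE_split hu with h | ⟨p, q, rfl, hp, hq⟩
      · exact ⟨[], ⟨[], rfl, by simp⟩, u, h, rfl⟩
      · have hpos : 0 < p.length := by
          obtain ⟨r, b, h1, -⟩ := hp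
          have := S.rt_len h1
          have := S.rt_pos h1
          omega
        obtain ⟨a, ⟨L, rfl, hL⟩, b, hb, hab⟩ := ih q.length (by simp; omega) q hq rfl
        refine ⟨(p :: L).flatten, ⟨p :: L, rfl, ?_⟩, b, hb, ?_⟩
        · intro y hy
          rcases List.mem_cons.1 hy with rfl | hy
          · exact hp
          · exact hL y hy
        · simp only at hab ⊢
          rw [← hab]; simp

/-- ONE STAR: run languages one level higher than the uncut run languages -/
theorem level_run {j : ℕ} (v : Q)
    (h1 : HL j S.KU) (h2 : HL j {F | S.RunU S.Lf F v}) (h3 : HL j {F | S.RunU En F v})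
    (h4 : HL j (S.KEU En)) : HL (j + 1) {F | S.Run En F v} := by
  have hK : HL (j + 1) (KStar.kstar S.KU * S.KEU En) := (HL.star h1).mul (h4.mono (Nat.le_succ j))
  refine ((h3.mono (Nat.le_succ j)).add ((h2.mono (Nat.le_succ j)).mul hK)).congr fun F => ?_
  constructor
  · intro h
    rcases Run.split h with h | ⟨P, Y, h5, h6, h7⟩
    · exact .inl h
    · exact .inr ⟨P, h6, Y, (KE_eq Y).2 h7, h5⟩
  · rintro (h | ⟨P, h6, Y, h7, h5⟩)
    · exact RunU.run h
    · have := RunU.mem_glue h6 ((KE_eq Y).1 h7)
      rw [← h5]; exact this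

theorem level_KE {j : ℕ}
    (h1 : HL j S.KU) (h4 : HL j (S.KEU En)) : HL (j + 1) (S.KE En) :=
  ((HL.star h1).mul (h4.mono (Nat.le_succ j))).congr fun u => (KE_eq u).symm

theorem level_K {j : ℕ} (h1 : HL j S.KU) : HL (j + 1) S.K :=
  level_KE h1 h1

end Sch

end Crest.Agent.R320.Scheme_457
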