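import Crest.Agent.R320.Hk2_851

/-!
# Row 320: the scheme language of one wall scheme (helper709)

Right-looking wall rule `R` with window `n` (format of helper291), `z = p + q + N`, `n ≤ p`.
`FW R w y t` : `t` is the first wall `≥ y` of the word `w`.
`Run R z T w a v a' v'` : the noisy run along the chain `N(a) = first wall ≥ a + z` of the text `w`
leads from wall `a` with value `v` to wall `a'` with value `v'`; `T Y m` is the map of the zone
`[a, a + m)` read on `Y = w.drop a` (it may use the `n` letters behind the zone).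
`Start` = right-legal start of a word (818: no wall in `[q, q+N)`, `b` = first wall `≥ q+N`, label `c`),
`Fin` = left-legal end of a word (`x - a = p + j`, `j ≤ N`, label `v`).
`K` = all words from a right-legal start to a left-legal end whose transported start label is the
end label (full language of helper261 / helper360).

Main results: `K_mul_at` (818's lemma + exactness of the zone map at ONE junction gives `u ++ v ∈ K`),
`K_mul`, `K_split` (a legal junction inside a zone of the run splits a word of `K`),
`HL_of_irr` (`K ∈ HL (j+1)` from `Irr K ⊆ X ⊆ K`, `X ∈ HL j`).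
-/

set_option autoImplicit false

namespace Crest.Agent.R320.Scheme_709

open Crest.RegLang Crest.Agent.R320.Hk_851

universe u v

variable {α : Type u} {V : Type v}

/-! ## walls -/

/-- right-looking wall rule with window `n` -/
structure Rule (R : List α → Prop) (n : ℕ) : Prop where
  pos : 0 < n
  loc : ∀ Q Q' : List α, Q.take n = Q'.take n → (R Q → R Q')
  len : ∀ Q, R Q → n ≤ Q.length

/-- `t` is the first wall `≥ y` -/
def FW (R : List α → Prop) (w : List α) (y t : ℕ) : Prop :=
  y ≤ t ∧ R (w.drop t) ∧ ∀ s, y ≤ s → s < t → ¬ R (w.drop s)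

theorem FW.unique {R : List α → Prop} {w : List α} {y t t' : ℕ} (h : FW R w y t) (h' : FW R w y t') :
    t = t' := by
  rcases lt_trichotomy t t' with hlt | heq | hgt
  · exact absurd h.2.1 (h'.2.2 t h.1 hlt)
  · exact heq
  · exact absurd h'.2.1 (h.2.2 t' h'.1 hgt)

/-- existence of the first wall from a wall -/
theorem FW.exists_of {R : List α → Prop} {w : List α} {y t : ℕ} (h1 : y ≤ t) (h2 : R (w.drop t)) :
    ∃ t' ≤ t, FW R w y t' := by
  classical
  have hex : ∃ s, y ≤ s ∧ R (w.drop s) := ⟨t, h1, h2⟩
  refine ⟨Nat.find hex, Nat.find_min' hex ⟨h1, h2⟩, (Nat.find_spec hex).1, (Nat.find_spec hex).2, ?_⟩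
  intro s hs hlt hR
  exact Nat.find_min hex hlt ⟨hs, hR⟩

section

variable {R : List α → Prop} {n : ℕ}

theorem Rule.lt (hR : Rule R n) {u : List α} {t : ℕ} (h : R (u.drop t)) : t + n ≤ u.length := by
  have h1 := hR.len _ h
  have h2 := hR.pos
  simp only [List.length_drop] at h1
  omega

theorem drop_app_le (u u' : List α) {t : ℕ} (ht : t ≤ u.length) :
    (u ++ u').drop t = u.drop t ++ u' := by
  rw [List.drop_append_of_le_length ht]

theorem drop_app_add (u w : List α) (t : ℕ) : (u ++ w).drop (u.length + t) = w.drop t := by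
  simp [List.drop_append]

theorem take_drop_app (u u' : List α) {t m : ℕ} (ht : t + m ≤ u.length) :
    ((u ++ u').drop t).take m = (u.drop t).take m := by
  rw [drop_app_le u u' (by omega), List.take_append_of_le_length]
  simp only [List.length_drop]
  omega

theorem Rule.app_iff (hR : Rule R n) (u u' : List α) {t : ℕ} (ht : t + n ≤ u.length) :
    R ((u ++ u').drop t) ↔ R (u.drop t) :=
  ⟨hR.loc _ _ (take_drop_app u u' ht), hR.loc _ _ (take_drop_app u u' ht).symm⟩

theorem FW.app (hR : Rule R n) {u : List α} {y t : ℕ} (h : FW R u y t) (u' : List α) :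
    FW R (u ++ u') y t := by
  have hl := hR.lt h.2.1
  refine ⟨h.1, (hR.app_iff u u' hl).2 h.2.1, ?_⟩
  intro s hs hlt hc
  exact h.2.2 s hs hlt ((hR.app_iff u u' (by omega)).1 hc)

theorem FW.of_app (hR : Rule R n) {u u' : List α} {y t : ℕ} (h : FW R (u ++ u') y t)
    (hl : t + n ≤ u.length) : FW R u y t := by
  refine ⟨h.1, (hR.app_iff u u' hl).1 h.2.1, ?_⟩
  intro s hs hlt hc
  exact h.2.2 s hs hlt ((hR.app_iff u u' (by omega)).2 hc)

theorem FW.shift {u w : List α} {y t : ℕ} (h : FW R w y t) :
    FW R (u ++ w) (u.length + y) (u.length + t) := by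
  refine ⟨by have := h.1; omega, by rw [drop_app_add]; exact h.2.1, ?_⟩
  intro s hs hlt hc
  obtain ⟨s', rfl⟩ : ∃ s', s = u.length + s' := ⟨s - u.length, by omega⟩
  rw [drop_app_add] at hc
  exact h.2.2 s' (by omega) (by omega) hc

theorem FW.of_shift {u w : List α} {y t : ℕ} (h : FW R (u ++ w) (u.length + y) t) :
    ∃ t', t = u.length + t' ∧ FW R w y t' := by
  obtain ⟨t', rfl⟩ : ∃ t', t = u.length + t' := ⟨t - u.length, by have := h.1; omega⟩
  refine ⟨t', rfl, by have := h.1; omega, by have := h.2.1; rwa [drop_app_add] at this, ?_⟩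
  intro s hs hlt hc
  refine h.2.2 (u.length + s) (by omega) (by omega) ?_
  rwa [drop_app_add]

/-! ## runs along the chain -/

/-- the zone map is local: it reads the zone and the `n` letters behind it -/
def TLoc (n : ℕ) (T : List α → ℕ → V → V) : Prop :=
  ∀ (Y Y' : List α) (m : ℕ), Y.take (m + n) = Y'.take (m + n) → T Y m = T Y' m

/-- noisy run along the chain -/
inductive Run (R : List α → Prop) (z : ℕ) (T : List α → ℕ → V → V) (w : List α) :
    ℕ → V → ℕ → V → Prop
  | refl (a : ℕ) (v : V) : Run R z T w a v a v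
  | step {a : ℕ} {v : V} {b a' : ℕ} {v' : V} (h : FW R w (a + z) b)
      (h' : Run R z T w b (T (w.drop a) (b - a) v) a' v') : Run R z T w a v a' v'

variable {z : ℕ} {T : List α → ℕ → V → V}

theorem Run.mono {w : List α} {a : ℕ} {v : V} {a' : ℕ} {v' : V} (h : Run R z T w a v a' v') :
    a ≤ a' := by
  induction h with
  | refl => exact le_refl _
  | step h _ ih => have := h.1; omega

theorem Run.trans {w : List α} {a : ℕ} {v : V} {a' : ℕ} {v' : V} {a'' : ℕ} {v'' : V}
    (h : Run R z T w a v a' v') (h' : Run R z T w a' v' a'' v'') : Run R z T w a v a'' v'' := by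
  induction h with
  | refl => exact h'
  | step h _ ih => exact .step h (ih h')

/-- value and position reached after a given number of steps are unique: two runs from the same
state are prefixes of one another -/
theorem Run.total {w : List α} {a : ℕ} {v : V} {a' : ℕ} {v' : V} {a'' : ℕ} {v'' : V}
    (h : Run R z T w a v a' v') (h' : Run R z T w a v a'' v'') :
    Run R z T w a' v' a'' v'' ∨ Run R z T w a'' v'' a' v' := by
  induction h with
  | refl => exact .inl h'
  | @step a v b a' v' h hr ih =>
    cases h' with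
    | refl => exact .inr (.step h hr)
    | @step _ _ b' _ _ g gr =>
      have hb : b = b' := h.unique g
      subst hb
      exact ih gr

theorem Run.app (hR : Rule R n) (hT : TLoc n T) {u : List α} {a : ℕ} {v : V} {a' : ℕ} {v' : V}
    (h : Run R z T u a v a' v') (u' : List α) : Run R z T (u ++ u') a v a' v' := by
  induction h with
  | refl => exact .refl _ _
  | @step a v b a' v' h _ ih =>
    have hl := hR.lt h.2.1
    have hab := h.1
    refine .step (h.app hR u') ?_
    have : T ((u ++ u').drop a) (b - a) = T (u.drop a) (b - a) :=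
      hT _ _ _ (take_drop_app u u' (by omega))
    rw [this]
    exact ih

theorem Run.of_app (hR : Rule R n) (hT : TLoc n T) {u u' : List α} {a : ℕ} {v : V} {a' : ℕ} {v' : V}
    (h : Run R z T (u ++ u') a v a' v') (hl : a' + n ≤ u.length) : Run R z T u a v a' v' := by
  induction h with
  | refl => exact .refl _ _
  | @step a v b a' v' h hr ih =>
    have hb := hr.mono
    have hab := h.1
    refine .step (h.of_app hR (by omega)) ?_
    have : T ((u ++ u').drop a) (b - a) = T (u.drop a) (b - a) :=
      hT _ _ _ (take_drop_app u u' (by omega))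
    rw [← this]
    exact ih hl

theorem Run.shift {u w : List α} {a : ℕ} {v : V} {a' : ℕ} {v' : V}
    (h : Run R z T w a v a' v') : Run R z T (u ++ w) (u.length + a) v (u.length + a') v' := by
  induction h with
  | refl => exact .refl _ _
  | @step a v b a' v' h _ ih =>
    have hf : FW R (u ++ w) (u.length + a + z) (u.length + b) := by
      have := h.shift (u := u)
      rwa [← Nat.add_assoc] at this
    refine .step hf ?_
    rw [drop_app_add, show u.length + b - (u.length + a) = b - a by omega]
    exact ih

theorem Run.of_shift {u w : List α} {A : ℕ} {v : V} {A' : ℕ} {v' : V}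
    (h : Run R z T (u ++ w) A v A' v') :
    ∀ a, A = u.length + a → ∃ a', A' = u.length + a' ∧ Run R z T w a v a' v' := by
  induction h with
  | refl => rintro a rfl; exact ⟨a, rfl, .refl _ _⟩
  | @step A v b A' v' h _ ih =>
    rintro a rfl
    have hf : FW R (u ++ w) (u.length + (a + z)) b := by rwa [← Nat.add_assoc]
    obtain ⟨b', rfl, hb'⟩ := hf.of_shift
    obtain ⟨a', rfl, hr⟩ := ih b' rfl
    refine ⟨a', rfl, .step hb' ?_⟩
    rw [drop_app_add, show u.length + b' - (u.length + a) = b' - a by omega] at hr
    exact hr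

/-! ## starts and ends -/

/-- right-legal start: no wall in `[q, q+N)`, `b` = first wall `≥ q+N`, label `c` -/
def Start (R : List α → Prop) (q N : ℕ) (rho : List α → ℕ → Option V) (u : List α) (b : ℕ)
    (c : V) : Prop :=
  (∀ s, q ≤ s → s < q + N → ¬ R (u.drop s)) ∧ FW R u (q + N) b ∧ rho u b = some c

/-- left-legal end: the end `x` of the word satisfies `x = a + p + j`, `j ≤ N`, label `v` -/
def Fin (p N : ℕ) (lam : List α → Option V) (u : List α) (a : ℕ) (v : V) : Prop :=
  ∃ j, j ≤ N ∧ u.length = a + p + j ∧ lam (u.drop a) = some v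

/-- the right label of a start is local -/
def RLoc (n : ℕ) (rho : List α → ℕ → Option V) : Prop :=
  ∀ (Y Y' : List α) (b : ℕ), Y.take (b + n) = Y'.take (b + n) → rho Y b = rho Y' b

variable {p q N : ℕ} {lam : List α → Option V} {rho : List α → ℕ → Option V}

theorem Start.app (hR : Rule R n) (hrho : RLoc n rho) {u : List α} {b : ℕ} {c : V}
    (h : Start R q N rho u b c) (u' : List α) : Start R q N rho (u ++ u') b c := by
  obtain ⟨h1, h2, h3⟩ := h
  have hl := hR.lt h2.2.1
  have hb := h2.1
  refine ⟨?_, h2.app hR u', ?_⟩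
  · intro s hs hlt hc
    exact h1 s hs hlt ((hR.app_iff u u' (by omega)).1 hc)
  · rw [← h3]
    apply hrho
    rw [List.take_append_of_le_length (by omega)]

theorem Start.of_app (hR : Rule R n) (hrho : RLoc n rho) {u u' : List α} {b : ℕ} {c : V}
    (h : Start R q N rho (u ++ u') b c) (hl : b + n ≤ u.length) : Start R q N rho u b c := by
  obtain ⟨h1, h2, h3⟩ := h
  have hb := h2.1
  refine ⟨?_, h2.of_app hR hl, ?_⟩
  · intro s hs hlt hc
    exact h1 s hs hlt ((hR.app_iff u u' (by omega)).2 hc)
  · rw [← h3]
    symm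
    apply hrho
    rw [List.take_append_of_le_length (by omega)]

theorem Start.unique {u : List α} {b b' : ℕ} {c c' : V} (h : Start R q N rho u b c)
    (h' : Start R q N rho u b' c') : b = b' ∧ c = c' := by
  have hb := h.2.1.unique h'.2.1
  subst hb
  have h1 := h.2.2
  rw [h'.2.2] at h1
  exact ⟨rfl, (Option.some.inj h1).symm⟩

/-- the scheme language -/
def K (R : List α → Prop) (p q N : ℕ) (T : List α → ℕ → V → V) (lam : List α → Option V)
    (rho : List α → ℕ → Option V) : Language α :=
  {u | ∃ b c a v, Start R q N rho u b c ∧ Run R (p + q + N) T u b c a v ∧ Fin p N lam u a v}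

/-- **818's lemma**: at a legal junction the wall named by the right word is `N(a)` of the left word.
-/
theorem junction_FW (u1 u2 : List α) {a1 v1 b2 c2} (he : Fin p N lam u1 a1 v1)
    (hs : Start R q N rho u2 b2 (c2 : V)) :
    FW R (u1 ++ u2) (a1 + (p + q + N)) (u1.length + b2) := by
  obtain ⟨j, hj, hlen, _⟩ := he
  obtain ⟨h1, h2, _⟩ := hs
  have hb := h2.1
  refine ⟨by omega, by rw [drop_app_add]; exact h2.2.1, ?_⟩
  intro s hs1 hs2 hc
  obtain ⟨s', rfl⟩ : ∃ s', s = u1.length + s' := ⟨s - u1.length, by omega⟩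
  rw [drop_app_add] at hc
  by_cases hq : s' < q + N
  · exact h1 s' (by omega) hq hc
  · exact h2.2.2 s' (by omega) (by omega) hc

/-- product closure at one exact junction -/
theorem K_mul_at (hR : Rule R n) (hT : TLoc n T) (hrho : RLoc n rho) {u1 u2 : List α}
    (h1 : u1 ∈ K R p q N T lam rho) (h2 : u2 ∈ K R p q N T lam rho)
    (hex : ∀ a v b c, Fin p N lam u1 a v → Start R q N rho u2 b c →
      T ((u1 ++ u2).drop a) (u1.length + b - a) v = c) :
    u1 ++ u2 ∈ K R p q N T lam rho := by
  obtain ⟨b1, c1, a1, v1, hs1, hr1, he1⟩ := h1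
  obtain ⟨b2, c2, a2, v2, hs2, hr2, he2⟩ := h2
  refine ⟨b1, c1, u1.length + a2, v2, hs1.app hR hrho u2, ?_, ?_⟩
  · refine (hr1.app hR hT u2).trans (.step (junction_FW u1 u2 he1 hs2) ?_)
    rw [hex a1 v1 b2 c2 he1 hs2]
    exact hr2.shift
  · obtain ⟨j, hj, hlen, hlam⟩ := he2
    refine ⟨j, hj, by simp only [List.length_append]; omega, ?_⟩
    rw [drop_app_add]
    exact hlam

/-- exactness of the zone map at every legal junction -/
def Exact (R : List α → Prop) (p q N : ℕ) (T : List α → ℕ → V → V) (lam : List α → Option V)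
    (rho : List α → ℕ → Option V) : Prop :=
  ∀ (P Q : List α) (v : V) (b : ℕ) (c : V) (j : ℕ), j ≤ N → P.length = p + j → lam P = some v →
    Start R q N rho Q b c → T (P ++ Q) (P.length + b) v = c

theorem K_mul (hR : Rule R n) (hT : TLoc n T) (hrho : RLoc n rho)
    (hex : Exact R p q N T lam rho) {u1 u2 : List α}
    (h1 : u1 ∈ K R p q N T lam rho) (h2 : u2 ∈ K R p q N T lam rho) :
    u1 ++ u2 ∈ K R p q N T lam rho := by
  refine K_mul_at hR hT hrho h1 h2 ?_
  rintro a v b c ⟨j, hj, hlen, hlam⟩ hs
  rw [drop_app_le u1 u2 (by omega)]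
  have hl : (u1.drop a).length = p + j := by simp only [List.length_drop]; omega
  have := hex (u1.drop a) u2 v b c j hj hl hlam hs
  rw [hl] at this
  rw [show u1.length + b - a = p + j + b by omega]
  exact this

theorem K_ne_nil (hR : Rule R n) : [] ∉ K R p q N T lam rho := by
  rintro ⟨b, c, a, v, hs, _, _⟩
  have := hR.lt hs.2.1.2.1
  have h0 := hR.pos
  simp at this
  omega

/-- **splitting**: a legal junction `x = a1 + p + j` inside a zone `[a1, b1)` of the run of `u ∈ K`
splits `u` into two words of `K`. -/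
theorem K_split (hR : Rule R n) (hT : TLoc n T) (hrho : RLoc n rho) (hp : n ≤ p)
    {u : List α} {b : ℕ} {c : V} {a1 : ℕ} {v1 : V} {b1 : ℕ} {a2 : ℕ} {v2 : V}
    (hs : Start R q N rho u b c) (hr1 : Run R (p + q + N) T u b c a1 v1)
    (hb1 : FW R u (a1 + (p + q + N)) b1)
    (hr2 : Run R (p + q + N) T u b1 (T (u.drop a1) (b1 - a1) v1) a2 v2)
    (he : Fin p N lam u a2 v2) {j : ℕ} (hj : j ≤ N)
    (hlam : lam ((u.drop a1).take (p + j)) = some v1)
    (hst : Start R q N rho (u.drop (a1 + p + j)) (b1 - (a1 + p + j)) (T (u.drop a1) (b1 - a1) v1)) :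
    u.take (a1 + p + j) ∈ K R p q N T lam rho ∧ u.drop (a1 + p + j) ∈ K R p q N T lam rho := by
  have hbu := hR.lt hb1.2.1
  have hb1' := hb1.1
  have hn := hR.pos
  set x := a1 + p + j with hx
  have hxu : x ≤ u.length := by omega
  have hlx : (u.take x).length = x := by simp only [List.length_take]; omega
  have huu : u.take x ++ u.drop x = u := List.take_append_drop x u
  have hba := hr1.mono
  constructor
  · refine ⟨b, c, a1, v1, ?_, ?_, ?_⟩
    · have h := hs
      rw [← huu] at h
      exact h.of_app hR hrho (by omega)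
    · have h := hr1
      rw [← huu] at h
      exact h.of_app hR hT (by omega)
    · refine ⟨j, hj, by omega, ?_⟩
      rw [← hlam, List.drop_take]
      congr 2
      omega
  · have h := hr2
    rw [← huu] at h
    rw [huu] at h
    have h' : Run R (p + q + N) T (u.take x ++ u.drop x) b1 (T (u.drop a1) (b1 - a1) v1) a2 v2 := by
      rw [huu]; exact hr2
    obtain ⟨a', ha', hrun⟩ := h'.of_shift (b1 - x) (by omega)
    refine ⟨b1 - x, _, a', v2, hst, hrun, ?_⟩
    obtain ⟨j', hj', hlen, hl2⟩ := he
    refine ⟨j', hj', by simp only [List.length_drop]; omega, ?_⟩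
    rw [List.drop_drop, ← hl2]
    congr 2
    omega

end

/-! ## the star -/

/-- words of `K` which are not a product of two words of `K` -/
def Irr (K : Language α) : Language α := {u | u ∈ K ∧ ∀ x ∈ K, ∀ y ∈ K, x ++ y ≠ u}

theorem mem_kstar_of_irr {K X : Language α} (h0 : [] ∉ K) (h1 : Irr K ≤ X) :
    ∀ u ∈ K, u ∈ KStar.kstar X := by
  intro u
  induction hn : u.length using Nat.strong_induction_on generalizing u with
  | _ n ih =>
    intro hu
    by_cases hirr : ∀ x ∈ K, ∀ y ∈ K, x ++ y ≠ u
    · have : u ∈ X := h1 ⟨hu, hirr⟩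
      exact Language.mem_kstar.2 ⟨[u], by simp, by simpa using this⟩
    · simp only [not_forall, not_not] at hirr
      obtain ⟨x, hx, y, hy, hxy⟩ := hirr
      have hxy' : x ++ y = u := by simpa using hxy
      subst hxy'
      have hx0 : x ≠ [] := fun h => h0 (h ▸ hx)
      have hy0 : y ≠ [] := fun h => h0 (h ▸ hy)
      have hxl := List.length_pos_iff.2 hx0
      have hyl := List.length_pos_iff.2 hy0
      simp only [List.length_append] at hn
      obtain ⟨L1, hL1, hL1'⟩ := Language.mem_kstar.1 (ih x.length (by omega) x rfl hx)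
      obtain ⟨L2, hL2, hL2'⟩ := Language.mem_kstar.1 (ih y.length (by omega) y rfl hy)
      refine Language.mem_kstar.2 ⟨L1 ++ L2, by rw [hL1, hL2, List.flatten_append], ?_⟩
      intro w hw
      rcases List.mem_append.1 hw with h | h
      · exact hL1' w h
      · exact hL2' w h

theorem kstar_subset_of_mul {K X : Language α} (hX : X ≤ K) (hmul : ∀ x ∈ K, ∀ y ∈ K, x ++ y ∈ K) :
    ∀ u ∈ KStar.kstar X, u = [] ∨ u ∈ K := by
  intro u hu
  obtain ⟨L, rfl, hL⟩ := Language.mem_kstar.1 hu
  clear hu
  induction L with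
  | nil => exact .inl rfl
  | cons x L ih =>
    right
    have hx : x ∈ K := hX (hL x (by simp))
    rcases ih (fun y hy => hL y (by simp [hy])) with h | h
    · rw [List.flatten_cons, h, List.append_nil]; exact hx
    · rw [List.flatten_cons]; exact hmul x hx _ h

/-- relative soundness: products of words of `X` which lie in a class `C` closed under the
needed factors and on which the junctions are exact -/
theorem kstar_subset_of_mul_rel {K X : Language α} (C : List α → Prop) (hX : X ≤ K)
    (hC : ∀ x y : List α, C (x ++ y) → C y)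
    (hmul : ∀ x ∈ K, ∀ y ∈ K, C (x ++ y) → x ++ y ∈ K) :
    ∀ u ∈ KStar.kstar X, C u → u = [] ∨ u ∈ K := by
  intro u hu
  obtain ⟨L, rfl, hL⟩ := Language.mem_kstar.1 hu
  clear hu
  induction L with
  | nil => intro _; exact .inl rfl
  | cons x L ih =>
    intro hc
    right
    have hx : x ∈ K := hX (hL x (by simp))
    rw [List.flatten_cons] at hc ⊢
    rcases ih (fun y hy => hL y (by simp [hy])) (hC _ _ hc) with h | h
    · rw [h, List.append_nil]; exact hx
    · exact hmul x hx _ h hc

/-- **one star from the irreducible words** -/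
theorem HL_of_irr {k : ℕ} {K X : Language α} (h0 : [] ∉ K) (hirr : Irr K ≤ X) (hX : X ≤ K)
    (hmul : ∀ x ∈ K, ∀ y ∈ K, x ++ y ∈ K) (hk : HL k X) : HL (k + 1) K := by
  have h1 : HL (k + 1) (KStar.kstar X \ (1 : Language α)) := hk.star.sdiff HL.one
  refine h1.congr ?_
  intro w
  constructor
  · intro hw
    refine ⟨mem_kstar_of_irr h0 hirr w hw, ?_⟩
    intro h
    have h' : w ∈ (1 : Language α) := h
    rw [Language.mem_one] at h'
    exact h0 (h' ▸ hw)
  · rintro ⟨hw, hne⟩
    rcases kstar_subset_of_mul hX hmul w hw with h | h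
    · refine absurd ?_ hne
      have h' : w ∈ (1 : Language α) := Language.mem_one w |>.2 h
      exact h'
    · exact h

/-- the language `K` of an exact scheme in one star more than its uncut words -/
theorem HL_K {R : List α → Prop} {n p q N k : ℕ} {T : List α → ℕ → V → V}
    {lam : List α → Option V} {rho : List α → ℕ → Option V}
    (hR : Rule R n) (hT : TLoc n T) (hrho : RLoc n rho) (hex : Exact R p q N T lam rho)
    {X : Language α} (hirr : Irr (K R p q N T lam rho) ≤ X) (hX : X ≤ K R p q N T lam rho)
    (hk : HL k X) : HL (k + 1) (K R p q N T lam rho) :=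
  HL_of_irr (K_ne_nil hR) hirr hX (fun _ hx _ hy => K_mul hR hT hrho hex hx hy) hk

end Crest.Agent.R320.Scheme_709
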