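import Mathlib

set_option autoImplicit false

/-! # Concrete wall schemes on words (row 320)

A scheme = chain rule `Nx` (text from an anchor -> distance of the next anchor), right reading `Fs` of
the first anchor, zone action `mv` (noise included), left / right labels, and the two hypotheses
`junc` (818's lemma) and `sound` (soundness of the gadget). `Sch.C` is the full language of the scheme.
-/

namespace Crest.Agent.R320.Scheme_870

variable {α V : Type*}

structure Sch (α V : Type*) where
  /-- lookahead -/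
  n : ℕ
  /-- `Nx Q t` : `Q` is the text from an anchor on, the next anchor is at distance `t` -/
  Nx : List α → ℕ → Prop
  /-- `Fs Q t` : `Q` is the text right of a junction, the first anchor on its right is at distance `t` -/
  Fs : List α → ℕ → Prop
  /-- value at the next anchor -/
  mv : V → List α → ℕ → V
  /-- left label: text from the active anchor to the junction -/
  Lf : List α → Option V
  /-- right label: value at the first anchor -/
  Rt : List α → Option V
  Nx_pos : ∀ {Q t}, Nx Q t → 0 < t
  Nx_len : ∀ {Q t}, Nx Q t → t + n ≤ Q.length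
  Nx_ext : ∀ {Q t} (X : List α), Nx Q t → Nx (Q ++ X) t
  Nx_cut : ∀ {Q t} {X : List α}, Nx (Q ++ X) t → t + n ≤ Q.length → Nx Q t
  Nx_uniq : ∀ {Q t t'}, Nx Q t → Nx Q t' → t = t'
  Fs_len : ∀ {Q t}, Fs Q t → t + n ≤ Q.length
  Fs_ext : ∀ {Q t} (X : List α), Fs Q t → Fs (Q ++ X) t
  Fs_cut : ∀ {Q t} {X : List α}, Fs (Q ++ X) t → t + n ≤ Q.length → Fs Q t
  Fs_uniq : ∀ {Q t t'}, Fs Q t → Fs Q t' → t = t'
  mv_loc : ∀ (v : V) {Q : List α} {t : ℕ} (X : List α), t + n ≤ Q.length → mv v (Q ++ X) t = mv v Q t
  Rt_loc : ∀ {Q : List α} {t : ℕ} (X : List α), Fs Q t → Rt (Q ++ X) = Rt Q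
  Lf_len : ∀ {P v}, Lf P = some v → n ≤ P.length
  Lf_nx : ∀ {P v t}, Lf P = some v → ¬ Nx P t
  junc : ∀ {P Q v r t}, Lf P = some v → Rt Q = some r → Fs Q t → Nx (P ++ Q) (P.length + t)
  sound : ∀ {P Q v r t}, Lf P = some v → Rt Q = some r → Fs Q t →
    mv v (P ++ Q) (P.length + t) = r

namespace Sch

variable (S : Sch α V)

/-- the run of a value along the chain, from the anchor `Q` to the anchor `P` (both are given by the
text right of them) -/
inductive Run : List α → V → List α → V → Prop
  | refl (Q : List α) (v : V) : Run Q v Q v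
  | step {Q : List α} {v : V} {t : ℕ} {P : List α} {v' : V} :
      S.Nx Q t → Run (Q.drop t) (S.mv v Q t) P v' → Run Q v P v'

variable {S}

theorem Run.trans {Q P A : List α} {v w x : V} (h : S.Run Q v P w) (h' : S.Run P w A x) :
    S.Run Q v A x := by
  induction h with
  | refl => exact h'
  | step hn _ ih => exact Run.step hn (ih h')

theorem Run.suffix {Q P : List α} {v w : V} (h : S.Run Q v P w) : P <:+ Q := by
  induction h with
  | refl => exact List.suffix_refl _
  | step hn _ ih => exact ih.trans (List.drop_suffix _ _)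

theorem drop_app {Q : List α} {t : ℕ} (X : List α) (h : t ≤ Q.length) :
    (Q ++ X).drop t = Q.drop t ++ X := by
  rw [List.drop_append_of_le_length h]

theorem Run.ext {Q P : List α} {v w : V} (h : S.Run Q v P w) (X : List α) :
    S.Run (Q ++ X) v (P ++ X) w := by
  induction h with
  | refl => exact Run.refl _ _
  | @step Q v t P v' hn _ ih =>
    have hl := S.Nx_len hn
    refine Run.step (S.Nx_ext X hn) ?_
    rw [drop_app X (by omega), S.mv_loc v X hl]
    exact ih

theorem Run.cut {A B : List α} {v w : V} (h : S.Run A v B w) :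
    ∀ {Q P X : List α}, A = Q ++ X → B = P ++ X → S.n ≤ P.length → S.Run Q v P w := by
  induction h with
  | refl A v =>
    intro Q P X h1 h2 _
    have : Q = P := List.append_cancel_right (h1.symm.trans h2)
    subst this
    exact Run.refl _ _
  | @step A v t B v' hn hr ih =>
    intro Q P X h1 h2 hP
    subst h1
    have hs := hr.suffix.length_le
    rw [List.length_drop, h2] at hs
    have hl := S.Nx_len hn
    simp only [List.length_append] at hs hl
    have ht : t + S.n ≤ Q.length := by
      have : 0 < t := S.Nx_pos hn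
      omega
    refine Run.step (S.Nx_cut hn ht) ?_
    rw [← S.mv_loc v X ht]
    exact ih (drop_app X (by omega)) h2 hP

/-- two maximal runs from the same anchor agree -/
theorem Run.det {Q P P' : List α} {v w w' : V} (h : S.Run Q v P w) (h' : S.Run Q v P' w')
    (hP : ∀ t, ¬ S.Nx P t) (hP' : ∀ t, ¬ S.Nx P' t) : P = P' ∧ w = w' := by
  induction h with
  | refl Q v =>
    cases h' with
    | refl => exact ⟨rfl, rfl⟩
    | step hn _ => exact absurd hn (hP _)
  | step hn hr ih =>
    cases h' with
    | refl => exact absurd hn (hP' _)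
    | step hn' hr' =>
      obtain rfl := S.Nx_uniq hn hn'
      exact ih hr' hP

/-- runs from one anchor are comparable -/
theorem Run.cmp {Q P P' : List α} {v w w' : V} (h : S.Run Q v P w) (h' : S.Run Q v P' w') :
    S.Run P w P' w' ∨ S.Run P' w' P w := by
  induction h with
  | refl Q v => exact Or.inl h'
  | step hn hr ih =>
    cases h' with
    | refl => exact Or.inr (Run.step hn hr)
    | step hn' hr' =>
      obtain rfl := S.Nx_uniq hn hn'
      exact ih hr'

variable (S)

/-- THE FULL LANGUAGE of the scheme: words from a junction to a junction which carry the thread -/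
def C (u : List α) : Prop :=
  ∃ b r P v, S.Fs u b ∧ S.Rt u = some r ∧ S.Run (u.drop b) r P v ∧ S.Lf P = some v

/-- words from an anchor (value `v0`) to a junction -/
def St (v0 : V) (u : List α) : Prop := ∃ P v, S.Run u v0 P v ∧ S.Lf P = some v

/-- words from a junction to the end of the text; last visible anchor `P` (text right of it), value `v` -/
def En (P : List α) (v : V) (u : List α) : Prop :=
  ∃ b r, S.Fs u b ∧ S.Rt u = some r ∧ S.Run (u.drop b) r P v

variable {S}

theorem Run.junction {Q P u A : List α} {v w r x : V} {b : ℕ} (h : S.Run Q v P w)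
    (hL : S.Lf P = some w) (hF : S.Fs u b) (hR : S.Rt u = some r) (h' : S.Run (u.drop b) r A x) :
    S.Run (Q ++ u) v A x := by
  refine (h.ext u).trans ?_
  refine Run.step (S.junc hL hR hF) ?_
  rw [S.sound hL hR hF]
  have : (P ++ u).drop (P.length + b) = u.drop b := by
    rw [List.drop_append]
    simp
  rw [this]
  exact h'

/-- closure of the full language under concatenation = soundness of the star -/
theorem C_mul {u u' : List α} (h : S.C u) (h' : S.C u') : S.C (u ++ u') := by
  obtain ⟨b, r, P, v, hF, hR, hr, hL⟩ := h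
  obtain ⟨b', r', P', v', hF', hR', hr', hL'⟩ := h'
  have hl := S.Fs_len hF
  refine ⟨b, r, P', v', S.Fs_ext _ hF, (S.Rt_loc _ hF).trans hR, ?_, hL'⟩
  rw [drop_app u' (by omega)]
  exact hr.junction hL hF' hR' hr'

theorem St_mul {v0 : V} {u u' : List α} (h : S.St v0 u) (h' : S.C u') : S.St v0 (u ++ u') := by
  obtain ⟨P, v, hr, hL⟩ := h
  obtain ⟨b', r', P', v', hF', hR', hr', hL'⟩ := h'
  exact ⟨P', v', hr.junction hL hF' hR' hr', hL'⟩

theorem St_En {v0 v : V} {P u u' : List α} (h : S.St v0 u) (h' : S.En P v u') :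
    S.Run (u ++ u') v0 P v := by
  obtain ⟨P0, w, hr, hL⟩ := h
  obtain ⟨b', r', hF', hR', hr'⟩ := h'
  exact hr.junction hL hF' hR' hr'

theorem C_En {v : V} {P u u' : List α} (h : S.C u) (h' : S.En P v u') : S.En P v (u ++ u') := by
  obtain ⟨b, r, P0, w, hF, hR, hr, hL⟩ := h
  obtain ⟨b', r', hF', hR', hr'⟩ := h'
  have hl := S.Fs_len hF
  refine ⟨b, r, S.Fs_ext _ hF, (S.Rt_loc _ hF).trans hR, ?_⟩
  rw [drop_app u' (by omega)]
  exact hr.junction hL hF' hR' hr'

/-- a cut of the value `w` in the text `A` right of an anchor -/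
def Cut (S : Sch α V) (w : V) (A1 A2 : List α) : Prop :=
  S.Lf A1 = some w ∧ ∃ r b, S.Rt A2 = some r ∧ S.Fs A2 b

/-- first half of the factorisation: the part of a run left of a cut -/
theorem Run.left {Q A1 A2 : List α} {v w : V} {Q1 : List α}
    (h : S.Run Q v (A1 ++ A2) w) (hc : S.Lf A1 = some w) (hQ : Q = Q1 ++ A2) :
    S.Run Q1 v A1 w :=
  h.cut hQ rfl (S.Lf_len hc)

/-- second half: the part right of a cut, up to a later anchor -/
theorem Run.right {A1 A2 P : List α} {w v r : V} {b : ℕ} (h : S.Run (A1 ++ A2) w P v)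
    (hc : S.Lf A1 = some w) (hR : S.Rt A2 = some r) (hF : S.Fs A2 b) (hne : P ≠ A1 ++ A2) :
    S.Run (A2.drop b) r P v := by
  cases h with
  | refl => exact absurd rfl hne
  | @step _ _ t _ _ hn hr =>
    obtain rfl := S.Nx_uniq hn (S.junc hc hR hF)
    rw [S.sound hc hR hF] at hr
    have : (A1 ++ A2).drop (A1.length + b) = A2.drop b := by
      rw [List.drop_append]
      simp
    rw [this] at hr
    exact hr

/-- FACTORISATION of a word of the full language at a cut of its thread -/
theorem C_factor {u : List α} {b : ℕ} {r v w : V} {P A1 A2 : List α}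
    (hF : S.Fs u b) (hR : S.Rt u = some r) (h1 : S.Run (u.drop b) r (A1 ++ A2) w)
    (h2 : S.Run (A1 ++ A2) w P v) (hL : S.Lf P = some v) (hc : S.Cut w A1 A2) :
    ∃ u1, u = u1 ++ A2 ∧ S.C u1 ∧ S.C A2 ∧ u1 ≠ [] ∧ A2 ≠ [] := by
  obtain ⟨hc1, r2, b2, hR2, hF2⟩ := hc
  have hne : P ≠ A1 ++ A2 := by
    intro h
    subst h
    exact S.Lf_nx hL (S.junc hc1 hR2 hF2)
  have hs := h1.suffix
  obtain ⟨D, hD⟩ := hs
  have hsu : u = (u.take b ++ D ++ A1) ++ A2 := by
    conv_lhs => rw [← List.take_append_drop b u, ← hD]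
    simp [List.append_assoc]
  have hbu : b + S.n ≤ u.length := S.Fs_len hF
  have hn1 := S.Lf_len hc1
  have htk : (u.take b).length = b := by
    rw [List.length_take]
    omega
  set u1 := u.take b ++ D ++ A1 with hu1
  have hlen : b + S.n ≤ u1.length := by
    rw [hu1]
    simp only [List.length_append, htk]
    omega
  have hF1 : S.Fs u1 b := by
    rw [hsu] at hF
    exact S.Fs_cut hF hlen
  have hR1 : S.Rt u1 = some r := by
    have := S.Rt_loc A2 hF1
    rw [← hsu] at this
    rw [← this]
    exact hR
  have hA2 : A2 ≠ [] := by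
    rintro rfl
    have := S.Fs_len hF2
    have hnx := S.Nx_pos (S.junc hc1 hR2 hF2)
    have := S.Nx_len (S.junc hc1 hR2 hF2)
    simp only [List.length_append, List.length_nil] at *
    have hx := S.junc hc1 hR2 hF2
    rw [List.append_nil] at hx
    exact S.Lf_nx hc1 hx
  refine ⟨u1, hsu, ⟨b, r, A1, w, hF1, hR1, ?_, hc1⟩,
    ⟨b2, r2, P, v, hF2, hR2, h2.right hc1 hR2 hF2 hne, hL⟩, ?_, hA2⟩
  · refine h1.left hc1 ?_
    conv_lhs => rw [hsu]
    rw [drop_app A2 (by omega)]
  · intro h0
    have : u1.length = 0 := by rw [h0]; rfl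
    have hn0 : S.n = 0 ∧ b = 0 := by omega
    -- then `A1 = []` and `Fs [] b` at a junction with itself
    have hA1 : A1 = [] := by
      have : A1.length = 0 := by
        rw [hu1] at this
        simp only [List.length_append] at this
        omega
      exact List.length_eq_zero_iff.mp this
    subst hA1
    have h1' : S.Run [] w [] w := Run.refl _ _
    have hx := S.junc hc1 hR1 hF1
    rw [List.nil_append, List.length_nil, zero_add, hn0.2] at hx
    exact absurd (S.Nx_pos hx) (lt_irrefl _)

/-- an anchor (given by the text `A` right of it) is COMPLETE if every value is cut in its zone -/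
def Cmp (S : Sch α V) (A : List α) : Prop := ∀ w, ∃ A1 A2, A = A1 ++ A2 ∧ S.Cut w A1 A2

/-- a word of `C` which is not a product of two words of `C` meets no complete anchor -/
theorem not_cmp_of_irr {u : List α}
    (hirr : ∀ u1 u2, u = u1 ++ u2 → u1 ≠ [] → u2 ≠ [] → S.C u1 → S.C u2 → False)
    {b : ℕ} {r v w : V} {P A : List α}
    (hF : S.Fs u b) (hR : S.Rt u = some r) (h1 : S.Run (u.drop b) r A w)
    (h2 : S.Run A w P v) (hL : S.Lf P = some v) : ¬ S.Cmp A := by
  intro hc
  obtain ⟨A1, A2, rfl, hcut⟩ := hc w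
  obtain ⟨u1, hu, hC1, hC2, hn1, hn2⟩ := C_factor hF hR h1 h2 hL hcut
  exact hirr u1 A2 hu hn1 hn2 hC1 hC2

/-- the anchor, the label and the end of a word of `C` are functions of the word -/
theorem C_unique {u : List α} {b b' : ℕ} {r r' v v' : V} {P P' : List α}
    (hF : S.Fs u b) (hR : S.Rt u = some r) (h : S.Run (u.drop b) r P v) (hL : S.Lf P = some v)
    (hF' : S.Fs u b') (hR' : S.Rt u = some r') (h' : S.Run (u.drop b') r' P' v')
    (hL' : S.Lf P' = some v') : b = b' ∧ r = r' ∧ P = P' ∧ v = v' := by
  obtain rfl := S.Fs_uniq hF hF'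
  have hrr : r = r' := by
    rw [hR] at hR'
    exact Option.some.inj hR'
  subst hrr
  obtain ⟨h1, h2⟩ := h.det h' (fun t => S.Lf_nx hL) (fun t => S.Lf_nx hL')
  exact ⟨rfl, rfl, h1, h2⟩

end Sch

end Crest.Agent.R320.Scheme_870
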