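import Crest.Agent.R320.Hk1_851

/-!
# Row 320, integration of one wall scheme at word level, semigroup form (helper911)

Items (3) + (7) + (9) of the lead's list #12647 meet here.  A *scheme* reads, on both sides of a
place `p | q` of a text, the following data:

* `RR q = some (b, c)`: the place is legal for the right side, the first anchor to its right is
  at distance `b`, its value (token) has to be `c`;
* `LL p = some (k, v)`: the place is legal for the left side, the active anchor lies `k` letters
  back, its value has to be `v`;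
* `step t = some d`: from an anchor with text `t` to its right the next anchor is `d` letters
  further, and the value is moved by `zmap (t.take d)`.

`exact`: at a place legal on both sides the next anchor of the left side is the first anchor of
the right side, with its value (818's lemma and the gadget soundness).

Results: `K` = words whose right reading, run and left reading match.  `K K ⊆ K`, `[] ∉ K`; a
place met by the run splits a word of `K` in two words of `K`; so `Irr(K) ⊆ uncut ⊆ K`, and any
`X` in `HL j` between them gives `HL (j+1) K`.  If long words of `K` always are cut, `HL 1 K`.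
-/

set_option autoImplicit false

namespace Crest.Agent.R320.Scheme_911

open Crest.RegLang Crest.Agent.R320.Hk_851

universe u

/-- one wall scheme -/
structure Scheme (α V : Type u) where
  /-- number of letters to the right of an anchor which are needed to see it -/
  n : ℕ
  /-- right reading -/
  RR : List α → Option (ℕ × V)
  /-- left reading -/
  LL : List α → Option (ℕ × V)
  /-- length of the next zone -/
  step : List α → Option ℕ
  /-- transport of a value along a zone -/
  zmap : List α → V → V
  RR_ext : ∀ {p q : List α} {b : ℕ} {c : V}, RR p = some (b, c) → RR (p ++ q) = some (b, c)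
  RR_res : ∀ {p q : List α} {b : ℕ} {c : V}, RR (p ++ q) = some (b, c) → b + n ≤ p.length →
    RR p = some (b, c)
  RR_le : ∀ {p : List α} {b : ℕ} {c : V}, RR p = some (b, c) → b ≤ p.length
  LL_ext : ∀ {p q : List α} {k : ℕ} {v : V}, LL q = some (k, v) → LL (p ++ q) = some (k, v)
  LL_res : ∀ {p q : List α} {k : ℕ} {v : V}, LL (p ++ q) = some (k, v) → k ≤ q.length →
    LL q = some (k, v)
  LL_le : ∀ {p : List α} {k : ℕ} {v : V}, LL p = some (k, v) → k ≤ p.length
  LL_ge : ∀ {p : List α} {k : ℕ} {v : V}, LL p = some (k, v) → n ≤ k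
  step_ext : ∀ {p q : List α} {d : ℕ}, step p = some d → step (p ++ q) = some d
  step_res : ∀ {p q : List α} {d : ℕ}, step (p ++ q) = some d → d + n ≤ p.length →
    step p = some d
  step_le : ∀ {p : List α} {d : ℕ}, step p = some d → d ≤ p.length
  step_pos : ∀ {p : List α} {d : ℕ}, step p = some d → 0 < d
  exact : ∀ {p q : List α} {k b : ℕ} {v c : V}, LL p = some (k, v) → RR q = some (b, c) →
    step (p.drop (p.length - k) ++ q) = some (k + b) ∧
      zmap ((p.drop (p.length - k) ++ q).take (k + b)) v = c

variable {α V : Type u} (S : Scheme α V)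

/-- one step of the run on the text `u`, from (anchor, value) to (anchor, value) -/
def Scheme.Stp (u : List α) (x y : ℕ × V) : Prop :=
  ∃ d, S.step (u.drop x.1) = some d ∧ y = (x.1 + d, S.zmap ((u.drop x.1).take d) x.2)

/-- the run -/
def Scheme.Run (u : List α) : ℕ × V → ℕ × V → Prop := Relation.ReflTransGen (S.Stp u)

theorem Scheme.stp_unique (u : List α) : Relator.RightUnique (S.Stp u) := by
  rintro x y z ⟨d, hd, rfl⟩ ⟨e, he, rfl⟩
  rw [hd] at he
  cases he
  rfl

theorem Scheme.Stp.lt {S : Scheme α V} {u : List α} {x y : ℕ × V} (h : S.Stp u x y) :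
    x.1 < y.1 := by
  obtain ⟨d, hd, rfl⟩ := h
  have := S.step_pos hd
  simp only
  omega

theorem Scheme.Stp.le {S : Scheme α V} {u : List α} {x y : ℕ × V} (h : S.Stp u x y) :
    y.1 ≤ u.length := by
  obtain ⟨d, hd, rfl⟩ := h
  have h1 := S.step_le hd
  have h2 := S.step_pos hd
  rw [List.length_drop] at h1
  simp only
  omega

theorem Scheme.Run.le {S : Scheme α V} {u : List α} {x y : ℕ × V} (h : S.Run u x y) :
    x.1 ≤ y.1 := by
  induction h with
  | refl => exact le_rfl
  | tail _ h2 ih => exact ih.trans h2.lt.le

theorem Scheme.Run.eq_or {S : Scheme α V} {u : List α} {x y : ℕ × V} (h : S.Run u x y) :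
    x = y ∨ x.1 < y.1 := by
  induction h with
  | refl => exact Or.inl rfl
  | tail h1 h2 _ => exact Or.inr (lt_of_le_of_lt (Scheme.Run.le h1) h2.lt)

/-- runs are deterministic: of two states of the same run the one more to the left comes first -/
theorem Scheme.Run.det {S : Scheme α V} {u : List α} {x y z : ℕ × V} (h1 : S.Run u x y)
    (h2 : S.Run u x z) (h : y.1 ≤ z.1) : S.Run u y z := by
  rcases Relation.ReflTransGen.total_of_right_unique (S.stp_unique u) h1 h2 with h3 | h3
  · exact h3
  · rcases Scheme.Run.eq_or h3 with h4 | h4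
    · rw [h4]; exact Relation.ReflTransGen.refl
    · omega

/-- the same step after appending text on the right -/
theorem Scheme.Stp.append {S : Scheme α V} {u : List α} {x y : ℕ × V} (h : S.Stp u x y)
    (t : List α) : S.Stp (u ++ t) x y := by
  obtain ⟨d, hd, rfl⟩ := h
  have h1 := S.step_le hd
  have h2 := S.step_pos hd
  rw [List.length_drop] at h1
  refine ⟨d, ?_, ?_⟩
  · rw [List.drop_append_of_le_length (by omega)]
    exact S.step_ext hd
  · rw [List.drop_append_of_le_length (by omega), List.take_append_of_le_length
      (by rw [List.length_drop]; omega)]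

theorem Scheme.Run.append {S : Scheme α V} {u : List α} {x y : ℕ × V} (h : S.Run u x y)
    (t : List α) : S.Run (u ++ t) x y := by
  induction h with
  | refl => exact Relation.ReflTransGen.refl
  | tail _ h2 ih => exact Relation.ReflTransGen.tail ih (h2.append t)

/-- the same step after prepending text on the left -/
theorem Scheme.stp_prepend {t u : List α} {a a' : ℕ} {v v' : V} :
    S.Stp (t ++ u) (t.length + a, v) (t.length + a', v') ↔ S.Stp u (a, v) (a', v') := by
  unfold Scheme.Stp
  simp only [List.drop_append, List.drop_eq_nil_of_le (show t.length ≤ t.length + a by omega),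
    Nat.add_sub_cancel_left, List.nil_append, Prod.mk.injEq]
  constructor
  · rintro ⟨d, hd, h1, h2⟩
    exact ⟨d, hd, by omega, h2⟩
  · rintro ⟨d, hd, h1, h2⟩
    exact ⟨d, hd, by omega, h2⟩

theorem Scheme.Run.prepend {S : Scheme α V} {u : List α} {x y : ℕ × V} (h : S.Run u x y)
    (t : List α) : S.Run (t ++ u) (t.length + x.1, x.2) (t.length + y.1, y.2) := by
  induction h with
  | refl => exact Relation.ReflTransGen.refl
  | @tail y z _ h2 ih =>
    exact Relation.ReflTransGen.tail ih ((S.stp_prepend (a := y.1) (v := y.2)).2 h2)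

theorem Scheme.Run.unprepend {S : Scheme α V} {t u : List α} {x y : ℕ × V}
    (h : S.Run (t ++ u) x y) (hx : t.length ≤ x.1) :
    S.Run u (x.1 - t.length, x.2) (y.1 - t.length, y.2) := by
  induction h with
  | refl => exact Relation.ReflTransGen.refl
  | @tail y z h1 h2 ih =>
    refine Relation.ReflTransGen.tail ih ?_
    have hy : t.length ≤ y.1 := hx.trans (Scheme.Run.le h1)
    have hz : t.length ≤ z.1 := hy.trans h2.lt.le
    refine (S.stp_prepend (t := t)).1 ?_
    rw [Nat.add_sub_cancel' hy, Nat.add_sub_cancel' hz]
    exact h2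

/-- restriction of a step to a prefix in which its goal is visible -/
theorem Scheme.Stp.restrict {S : Scheme α V} {p q : List α} {x y : ℕ × V}
    (h : S.Stp (p ++ q) x y) (hy : y.1 + S.n ≤ p.length) : S.Stp p x y := by
  obtain ⟨d, hd, rfl⟩ := h
  simp only at hy
  have h2 := S.step_pos hd
  rw [List.drop_append_of_le_length (by omega)] at hd
  refine ⟨d, ?_, ?_⟩
  · exact S.step_res hd (by rw [List.length_drop]; omega)
  · rw [List.drop_append_of_le_length (by omega), List.take_append_of_le_length
      (by rw [List.length_drop]; omega)]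

theorem Scheme.Run.restrict {S : Scheme α V} {p q : List α} {x y : ℕ × V}
    (h : S.Run (p ++ q) x y) (hy : y.1 + S.n ≤ p.length) : S.Run p x y := by
  induction h with
  | refl => exact Relation.ReflTransGen.refl
  | @tail y z h1 h2 ih =>
    have := h2.lt
    exact Relation.ReflTransGen.tail (ih (by omega)) (h2.restrict hy)

/-- the words whose right reading, run and left reading match -/
def Scheme.K : Language α :=
  {u | ∃ x : ℕ × V, ∃ k : ℕ, ∃ v : V, S.RR u = some x ∧ S.LL u = some (k, v) ∧
    S.Run u x (u.length - k, v)}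

/-- the place `p | q` is met by the run of `p ++ q`: it is legal on both sides, the active anchor
of the left side is reached by the run with the value which the left side asks for, and the
last anchor of the run is not to the left of the place -/
def Scheme.Met (p q : List α) : Prop :=
  ∃ x k v b c k' v', S.RR (p ++ q) = some x ∧ S.LL p = some (k, v) ∧ S.RR q = some (b, c) ∧
    S.Run (p ++ q) x (p.length - k, v) ∧ S.LL (p ++ q) = some (k', v') ∧ k' ≤ q.length

/-- the words of `K` without a met place -/
def Scheme.Unc : Language α := {u | u ∈ S.K ∧ ∀ p q, u = p ++ q → ¬ S.Met p q}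

/-- one step across a place legal on both sides -/
theorem Scheme.cross {p q : List α} {k b : ℕ} {v c : V} (hL : S.LL p = some (k, v))
    (hR : S.RR q = some (b, c)) : S.Stp (p ++ q) (p.length - k, v) (p.length + b, c) := by
  obtain ⟨h1, h2⟩ := S.exact hL hR
  have hk := S.LL_le hL
  refine ⟨k + b, ?_, ?_⟩
  · rw [List.drop_append_of_le_length (by omega)]
    exact h1
  · rw [List.drop_append_of_le_length (by omega), h2, Prod.mk.injEq]
    exact ⟨by simp only; omega, rfl⟩

theorem Scheme.nil_notMem : ([] : List α) ∉ S.K := by
  rintro ⟨⟨b, c⟩, k, v, hR, hL, -⟩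
  have h1 := S.LL_le hL
  have h2 := S.RR_le hR
  have h3 := (S.exact hL hR).1
  have h4 := S.step_pos h3
  simp only [List.length_nil, Nat.le_zero] at h1 h2
  omega

/-- `K K ⊆ K`, and the seam is met -/
theorem Scheme.K_mul {p q : List α} (hp : p ∈ S.K) (hq : q ∈ S.K) :
    p ++ q ∈ S.K ∧ S.Met p q := by
  obtain ⟨x, k, v, hR, hL, hr⟩ := hp
  obtain ⟨⟨b, c⟩, k', v', hR', hL', hr'⟩ := hq
  have hk' := S.LL_le hL'
  have e1 : S.RR (p ++ q) = some x := S.RR_ext (b := x.1) (c := x.2) hR
  have r1 : S.Run (p ++ q) x (p.length - k, v) := hr.append q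
  have r2 : S.Stp (p ++ q) (p.length - k, v) (p.length + b, c) := S.cross hL hR'
  have r3 := hr'.prepend p
  simp only at r3
  have e2 : p.length + (q.length - k') = (p ++ q).length - k' := by
    rw [List.length_append]; omega
  rw [e2] at r3
  exact ⟨⟨x, k', v', e1, S.LL_ext hL', (Relation.ReflTransGen.tail r1 r2).trans r3⟩,
    ⟨x, k, v, b, c, k', v', e1, hL, hR', r1, S.LL_ext hL', hk'⟩⟩

/-- a met place splits a word of `K` in two words of `K` -/
theorem Scheme.K_split {p q : List α} (h : p ++ q ∈ S.K) (hm : S.Met p q) :
    p ∈ S.K ∧ q ∈ S.K := by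
  obtain ⟨x, k', v', hR, hL', hr⟩ := h
  obtain ⟨x2, k, v, b, c, k2, v2, hx2, hL, hRq, hr1, hL2, hk2⟩ := hm
  rw [hR] at hx2
  cases hx2
  rw [hL'] at hL2
  cases hL2
  have hk := S.LL_le hL
  have hn := S.LL_ge hL
  have hn' := S.LL_ge hL'
  constructor
  · have hr2 : S.Run p x (p.length - k, v) := hr1.restrict (by simp only; omega)
    have hx := hr1.le
    simp only at hx
    exact ⟨x, k, v, S.RR_res (b := x.1) (c := x.2) hR (by omega), hL, hr2⟩
  · have hle := S.RR_le hRq
    have r2 : S.Stp (p ++ q) (p.length - k, v) (p.length + b, c) := S.cross hL hRq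
    have e2 : (p ++ q).length - k' = p.length + (q.length - k') := by
      rw [List.length_append]; omega
    rw [e2] at hr
    -- the step across the place is positive, so the last anchor is behind it
    have h3 : S.Run (p ++ q) (p.length - k, v) (p.length + (q.length - k'), v') :=
      hr1.det hr (by simp only; omega)
    have hkb := S.step_pos (S.exact hL hRq).1
    have h4 : S.Run (p ++ q) (p.length + b, c) (p.length + (q.length - k'), v') := by
      rcases Relation.ReflTransGen.cases_head h3 with h5 | ⟨y, h5, h6⟩
      · -- only possible if both anchors sit at the place itself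
        have h51 : p.length - k = p.length + (q.length - k') := (Prod.mk.inj h5).1
        have hk0 : k = 0 := by omega
        have hq0 : q.length = k' := by omega
        have hn0 : k' = 0 ∨ 0 < k' := Nat.eq_zero_or_pos k'
        exfalso
        -- the left reading of `p ++ q` lies at the place: it is a reading of `q`
        have hLq : S.LL q = some (k', v') := S.LL_res hL' hk2
        have := S.exact (p := q) (q := q) hLq hRq
        -- compare the two steps from the place
        have s1 : S.step q = some (0 + b) := by
          have := (S.exact hL hRq).1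
          rw [hk0, Nat.sub_zero, List.drop_length, List.nil_append] at this
          exact this
        have s2 : S.step (q ++ q) = some (k' + b) := by
          have h7 := this.1
          rw [hq0, Nat.sub_self, List.drop_zero] at h7
          exact h7
        have s3 : S.step (q ++ q) = some (0 + b) := S.step_ext s1
        rw [s2] at s3
        have : k' + b = 0 + b := Option.some.inj s3
        omega
      · have : y = (p.length + b, c) := S.stp_unique _ h5 r2
        rw [this] at h6
        exact h6
    have h5 := h4.unprepend (by simp only; omega)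
    simp only [Nat.add_sub_cancel_left] at h5
    exact ⟨(b, c), k', v', hRq, S.LL_res hL' hk2, h5⟩

/-- for words of `K`: cut at a met place iff a product of two words of `K` -/
theorem Scheme.met_iff {p q : List α} (h : p ++ q ∈ S.K) : S.Met p q ↔ p ∈ S.K ∧ q ∈ S.K :=
  ⟨fun hm => S.K_split h hm, fun hm => (S.K_mul hm.1 hm.2).2⟩

/-! ### the height count for a semigroup of words -/

/-- `X* = K ∪ {[]}` for `Irr(K) ⊆ X ⊆ K` -/
theorem mem_kstar_iff_of_between {K X : Language α} (hK : ∀ p ∈ K, ∀ q ∈ K, p ++ q ∈ K)
    (h0 : [] ∉ K) (hX : ∀ w ∈ X, w ∈ K)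
    (hI : ∀ w ∈ K, w ∉ X → ∃ p ∈ K, ∃ q ∈ K, w = p ++ q) (w : List α) :
    w ∈ KStar.kstar X ↔ w ∈ K ∨ w = [] := by
  constructor
  · intro hw
    obtain ⟨L, rfl, hL⟩ := Language.mem_kstar.1 hw
    clear hw
    induction L with
    | nil => right; rfl
    | cons y L ih =>
      left
      have hy : y ∈ K := hX y (hL y (List.mem_cons_self ..))
      rcases ih (fun z hz => hL z (List.mem_cons_of_mem _ hz)) with h | h
      · rw [List.flatten_cons]; exact hK y hy _ h
      · rw [List.flatten_cons, h, List.append_nil]; exact hy
  · rintro (hw | rfl)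
    · obtain ⟨m, hm⟩ : ∃ m, w.length ≤ m := ⟨_, le_rfl⟩
      induction m generalizing w with
      | zero =>
        have : w = [] := List.length_eq_zero_iff.1 (by omega)
        rw [this] at hw
        exact (h0 hw).elim
      | succ m ih =>
        by_cases hwX : w ∈ X
        · exact Language.mem_kstar.2 ⟨[w], by simp, by simpa using hwX⟩
        · obtain ⟨p, hp, q, hq, rfl⟩ := hI w hw hwX
          have hp0 : p ≠ [] := fun e => h0 (e ▸ hp)
          have hq0 : q ≠ [] := fun e => h0 (e ▸ hq)
          have hp1 := List.length_pos_iff.2 hp0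
          have hq1 := List.length_pos_iff.2 hq0
          rw [List.length_append] at hm
          obtain ⟨L1, rfl, hL1⟩ := Language.mem_kstar.1 (ih p hp (by omega))
          obtain ⟨L2, rfl, hL2⟩ := Language.mem_kstar.1 (ih q hq (by omega))
          refine Language.mem_kstar.2 ⟨L1 ++ L2, by rw [List.flatten_append], ?_⟩
          intro y hy
          rcases List.mem_append.1 hy with h | h
          · exact hL1 y h
          · exact hL2 y h
    · exact Language.mem_kstar.2 ⟨[], rfl, by simp⟩

theorem HL_of_between {j : ℕ} {K X : Language α} (hK : ∀ p ∈ K, ∀ q ∈ K, p ++ q ∈ K)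
    (h0 : [] ∉ K) (hX : ∀ w ∈ X, w ∈ K)
    (hI : ∀ w ∈ K, w ∉ X → ∃ p ∈ K, ∃ q ∈ K, w = p ++ q) (h : HL j X) : HL (j + 1) K := by
  have h1 : HL (j + 1) (KStar.kstar X \ ({[]} : Language α)) := h.star.sdiff (HL.word [])
  refine h1.congr fun w => ?_
  constructor
  · intro hw
    refine ⟨(mem_kstar_iff_of_between hK h0 hX hI w).2 (Or.inl hw), fun h2 => ?_⟩
    rw [Set.mem_singleton_iff.1 h2] at hw
    exact h0 hw
  · rintro ⟨hw, hn⟩
    rcases (mem_kstar_iff_of_between hK h0 hX hI w).1 hw with h2 | h2
    · exact h2
    · exact (hn h2).elim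

/-- **main theorem**: a language in `HL j` between the words of `K` without a met place and `K`
gives `K` in `HL (j+1)` -/
theorem Scheme.HL_K {j : ℕ} {X : Language α} (h1 : ∀ w ∈ S.Unc, w ∈ X) (h2 : ∀ w ∈ X, w ∈ S.K)
    (h : HL j X) : HL (j + 1) S.K := by
  refine HL_of_between (fun p hp q hq => (S.K_mul hp hq).1) S.nil_notMem h2 ?_ h
  intro w hw hwX
  by_contra hc
  refine hwX (h1 w ⟨hw, ?_⟩)
  rintro p q rfl hm
  obtain ⟨hp, hq⟩ := S.K_split hw hm
  exact hc ⟨p, hp, q, hq, rfl⟩

/-- the innermost scheme: if every long word of `K` is cut, `K` has height one -/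
theorem Scheme.HL_one [Finite α] (B : ℕ)
    (hc : ∀ w ∈ S.K, B < w.length → ∃ p q, w = p ++ q ∧ S.Met p q) : HL 1 S.K := by
  have hfin : (S.Unc : Set (List α)).Finite := by
    refine (List.finite_length_le α B).subset ?_
    rintro w ⟨hw, hn⟩
    by_contra hB
    obtain ⟨p, q, hpq, hm⟩ := hc w hw (not_le.1 hB)
    exact hn p q hpq hm
  exact S.HL_K (X := S.Unc) (fun w hw => hw) (fun w hw => hw.1) (HL.finite hfin)

/-- if a scheme is cut on all words of `K` outside of a promise class which is caught by a
language `E` of height `j` with `E ⊆ K`, then `K` is in `HL (j+1)` -/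
theorem Scheme.HL_K_promise [Finite α] {j : ℕ} (B : ℕ) {E : Language α} (hE : HL j E)
    (hEK : ∀ w ∈ E, w ∈ S.K)
    (hc : ∀ w ∈ S.K, B < w.length → w ∈ E ∨ ∃ p q, w = p ++ q ∧ S.Met p q) :
    HL (j + 1) S.K := by
  have hfin : ({w | w ∈ S.K ∧ w.length ≤ B} : Set (List α)).Finite :=
    (List.finite_length_le α B).subset fun w hw => hw.2
  have hX : HL j ((({w | w ∈ S.K ∧ w.length ≤ B} : Set (List α)) : Language α) ⊔ E) :=
    (HL.finite hfin).sup hE
  refine S.HL_K ?_ ?_ hX
  · rintro w ⟨hw, hn⟩
    by_cases hB : w.length ≤ B
    · exact Or.inl ⟨hw, hB⟩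
    · rcases hc w hw (not_le.1 hB) with h | ⟨p, q, hpq, hm⟩
      · exact Or.inr h
      · exact (hn p q hpq hm).elim
  · rintro w (hw | hw)
    · exact hw.1
    · exact hEK w hw

/-! ### reading the product off a run -/

/-- the run moves the value by the product of the text between the anchors, as soon as the zones
do -/
theorem Scheme.Run.value {S : Scheme α V} {M : Type u} [Monoid M] (φ : List α → M)
    (hφ1 : φ [] = 1) (hφ : ∀ x y, φ (x ++ y) = φ x * φ y) (act : V → M → V)
    (act1 : ∀ v, act v 1 = v) (actm : ∀ v x y, act v (x * y) = act (act v x) y)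
    (hz : ∀ z v, S.zmap z v = act v (φ z)) {u : List α} {x y : ℕ × V} (h : S.Run u x y) :
    y.2 = act x.2 (φ ((u.drop x.1).take (y.1 - x.1))) := by
  induction h with
  | refl => rw [Nat.sub_self, List.take_zero, hφ1, act1]
  | @tail y z h1 h2 ih =>
    have hle := Scheme.Run.le h1
    obtain ⟨d, hd, rfl⟩ := h2
    simp only
    rw [hz, ih, ← actm, ← hφ]
    congr 2
    have e1 : y.1 + d - x.1 = (y.1 - x.1) + d := by omega
    rw [e1, List.take_add, List.drop_drop, Nat.add_sub_cancel' hle]

end Crest.Agent.R320.Scheme_911
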