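import Mathlib

/-!
# Row 320 (helper916): abstract CHAIN SCHEME on words

Anchors (active walls) form a chain `a -> a + nx (text from a)`.  A thread carries a token `v` from
anchor to anchor by the zone map `zm`.  A junction `p | q` (`p` = text from the active anchor to the
junction, `q` = the text behind it) is legal with left label `v` and right data `(b, c)` iff `LL p v` and
`RL q b c`; `exact` says that then the next anchor is `b` letters behind the junction and that the token
there is `c`.

* `K` = words from a right-legal place to a left-legal place whose thread fits;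
* `K_mul`: `K ++ K ⊆ K` (soundness of every cut);
* `K_split`: if the thread of `u ∈ K` can be cut in a zone (behind the first `D` letters), then `u` is a
  product of two words of `K`;
* `irr_uncut`: irreducible words of `K` are uncut in every zone.
-/

set_option autoImplicit false

namespace Crest.Agent.R320.Scheme_916

open List

/-- abstract chain scheme -/
structure CS (α V : Type*) where
  /-- length of the right view -/
  D : ℕ
  /-- window of the walls -/
  n : ℕ
  /-- next anchor of the anchor at `0` -/
  nx : List α → Option ℕ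
  /-- zone map of the zone which starts at `0` -/
  zm : List α → V → V
  /-- text from the active anchor to the junction, label of the token at this anchor -/
  LL : List α → V → Prop
  /-- text behind the junction, position of the next anchor, label of the token there -/
  RL : List α → ℕ → V → Prop
  nx_pos : ∀ w b, nx w = some b → 0 < b
  nx_app : ∀ w r b, nx w = some b → nx (w ++ r) = some b
  nx_take : ∀ w r b, nx (w ++ r) = some b → b + n ≤ w.length → nx w = some b
  zm_app : ∀ w r b, nx w = some b → zm (w ++ r) = zm w
  LL_len : ∀ p v, LL p v → n ≤ p.length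
  RL_app : ∀ q r b c, RL q b c → RL (q ++ r) b c
  RL_take : ∀ q r b c, RL (q ++ r) b c → D ≤ q.length → RL q b c
  exact : ∀ p q v b c, LL p v → RL q b c → nx (p ++ q) = some (p.length + b) ∧ zm (p ++ q) v = c

variable {α V : Type*} (S : CS α V)

namespace CS

/-- the thread with token `v` at the anchor `a` reaches the anchor `a'` with token `v'` -/
inductive Run (S : CS α V) (u : List α) : ℕ → V → ℕ → V → Prop
  | refl (a : ℕ) (v : V) : Run S u a v a v
  | step {a : ℕ} {v : V} {d a' : ℕ} {v' : V} (h : S.nx (u.drop a) = some d)
      (hr : Run S u (a + d) (S.zm (u.drop a) v) a' v') : Run S u a v a' v'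

variable {S}

theorem Run.trans {u : List α} {a a' a'' : ℕ} {v v' v'' : V} (h : S.Run u a v a' v')
    (h' : S.Run u a' v' a'' v'') : S.Run u a v a'' v'' := by
  induction h with
  | refl a v => exact h'
  | step h _ ih => exact Run.step h (ih h')

theorem Run.le {u : List α} {a a' : ℕ} {v v' : V} (h : S.Run u a v a' v') : a ≤ a' := by
  induction h with
  | refl a v => exact le_rfl
  | step h _ ih => omega

theorem Run.one {u : List α} {a d : ℕ} {v : V} (h : S.nx (u.drop a) = some d) :
    S.Run u a v (a + d) (S.zm (u.drop a) v) := Run.step h (Run.refl _ _)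

/-- appending text -/
theorem Run.app {u r : List α} {a a' : ℕ} {v v' : V} (h : S.Run u a v a' v')
    (ha' : a' ≤ u.length) : S.Run (u ++ r) a v a' v' := by
  induction h with
  | refl a v => exact Run.refl _ _
  | @step a v d a' v' h hr ih =>
    have h1 : a + d ≤ u.length := hr.le.trans ha'
    have h2 : (u ++ r).drop a = u.drop a ++ r := by
      rw [List.drop_append_of_le_length (by omega)]
    refine Run.step (d := d) ?_ ?_
    · rw [h2]; exact S.nx_app _ _ _ h
    · rw [h2, S.zm_app _ _ _ h]; exact ih ha'

/-- putting text in front -/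
theorem Run.shift {u r : List α} {a a' : ℕ} {v v' : V} (h : S.Run u a v a' v') :
    S.Run (r ++ u) (r.length + a) v (r.length + a') v' := by
  induction h with
  | refl a v => exact Run.refl _ _
  | @step a v d a' v' h hr ih =>
    have h2 : (r ++ u).drop (r.length + a) = u.drop a := by
      rw [← List.drop_drop, List.drop_left]
    refine Run.step (d := d) ?_ ?_
    · rw [h2]; exact h
    · rw [h2, Nat.add_assoc]; exact ih

/-- removing text in front -/
theorem Run.unshift {u : List α} {x a a' : ℕ} {v v' : V} (h : S.Run u a v a' v') (hx : x ≤ a) :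
    S.Run (u.drop x) (a - x) v (a' - x) v' := by
  induction h with
  | refl a v => exact Run.refl _ _
  | @step a v d a' v' h hr ih =>
    have h2 : (u.drop x).drop (a - x) = u.drop a := by
      rw [List.drop_drop]; congr 1; omega
    have h3 := ih (by omega)
    refine Run.step (d := d) ?_ ?_
    · rw [h2]; exact h
    · rw [h2]
      have h4 : a - x + d = a + d - x := by omega
      rw [h4]; exact h3

/-- removing text at the end -/
theorem Run.take {u r : List α} {a a' : ℕ} {v v' : V} (h : S.Run (u ++ r) a v a' v')
    (ha' : a' + S.n ≤ u.length) : S.Run u a v a' v' := by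
  induction h with
  | refl a v => exact Run.refl _ _
  | @step a v d a' v' h hr ih =>
    have h1 : a + d ≤ a' := hr.le
    have h2 : (u ++ r).drop a = u.drop a ++ r := by
      rw [List.drop_append_of_le_length (by omega)]
    rw [h2] at h
    have h3 : S.nx (u.drop a) = some d := by
      refine S.nx_take _ _ _ h ?_
      rw [List.length_drop]; omega
    refine Run.step (d := d) h3 ?_
    have h4 := ih ha'
    rw [h2, S.zm_app _ _ _ h3] at h4
    exact h4

/-- two threads of one anchor: determinism -/
theorem Run.det {u : List α} {a a₁ a₂ : ℕ} {v v₁ v₂ : V} (h1 : S.Run u a v a₁ v₁)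
    (h2 : S.Run u a v a₂ v₂) (hle : a₁ ≤ a₂) : S.Run u a₁ v₁ a₂ v₂ := by
  induction h1 with
  | refl a v => exact h2
  | @step a v d a₁ v₁ h hr ih =>
    cases h2 with
    | refl => 
      have := hr.le
      have := S.nx_pos _ _ h
      omega
    | @step _ _ d' _ _ h' hr' =>
      rw [h] at h'
      obtain rfl : d = d' := by simpa using h'
      exact ih hr' hle

theorem Run.det_eq {u : List α} {a a' : ℕ} {v v₁ v₂ : V} (h1 : S.Run u a v a' v₁)
    (h2 : S.Run u a v a' v₂) : v₁ = v₂ := by
  have h := h1.det h2 le_rfl
  cases h with
  | refl => rfl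
  | step h hr =>
    have := hr.le
    have := S.nx_pos _ _ h
    omega

variable (S)

/-- words from a right-legal place to a left-legal place whose thread fits -/
def K : Set (List α) :=
  {u | ∃ b c a v, a ≤ u.length ∧ S.RL u b c ∧ S.Run u b c a v ∧ S.LL (u.drop a) v}

variable {S}

/-- **soundness**: a product of two words of `K` is in `K` -/
theorem K_mul {u u' : List α} (hu : u ∈ S.K) (hu' : u' ∈ S.K) : u ++ u' ∈ S.K := by
  obtain ⟨b, c, a, v, ha, hR, hrun, hL⟩ := hu
  obtain ⟨b', c', a', v', ha', hR', hrun', hL'⟩ := hu'
  obtain ⟨e1, e2⟩ := S.exact _ _ _ _ _ hL hR'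
  have h2 : (u ++ u').drop a = u.drop a ++ u' := by
    rw [List.drop_append_of_le_length ha]
  refine ⟨b, c, u.length + a', v', by simp; omega, S.RL_app _ _ _ _ hR, ?_, ?_⟩
  · refine (hrun.app ha).trans (Run.step (d := (u.drop a).length + b') ?_ ?_)
    · rw [h2]; exact e1
    · rw [h2, e2]
      have h3 : a + ((u.drop a).length + b') = u.length + b' := by
        rw [List.length_drop]; omega
      rw [h3]
      exact hrun'.shift
  · rw [← List.drop_drop, List.drop_left]
    exact hL'

theorem RL_len_of_K {u : List α} {a : ℕ} {v : V} (hL : S.LL (u.drop a) v) :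
    S.n ≤ u.length - a := by
  have := S.LL_len _ _ hL
  rwa [List.length_drop] at this

/-- **splitting**: a thread which can be cut in the zone of the anchor `a₁`, at a place behind the right
view of the first place, splits its word. -/
theorem K_split {u p q : List α} {b c a v a₁ v₁ b' c'} (ha : a ≤ u.length) (hR : S.RL u b c)
    (hrun : S.Run u b c a v) (hL : S.LL (u.drop a) v) (h1 : S.Run u b c a₁ v₁) (h1a : a₁ < a)
    (hpq : u.drop a₁ = p ++ q) (hp : S.LL p v₁) (hq : S.RL q b' c') (hD : S.D ≤ a₁ + p.length) :
    ∃ u₁ ∈ S.K, ∃ u₂ ∈ S.K, u = u₁ ++ u₂ ∧ u₁.length = a₁ + p.length := by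
  have hlen : p.length + q.length = u.length - a₁ := by
    have := congrArg List.length hpq
    rw [List.length_drop, List.length_append] at this
    omega
  have hx : a₁ + p.length ≤ u.length := by omega
  obtain ⟨e1, e2⟩ := S.exact _ _ _ _ _ hp hq
  have hrest : S.Run u a₁ v₁ a v := h1.det hrun h1a.le
  have hdq : u.drop (a₁ + p.length) = q := by
    rw [← List.drop_drop, hpq, List.drop_left]
  have hut : u = u.take (a₁ + p.length) ++ u.drop (a₁ + p.length) := (List.take_append_drop _ _).symm
  have htl : (u.take (a₁ + p.length)).length = a₁ + p.length := by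
    rw [List.length_take]; omega
  refine ⟨u.take (a₁ + p.length), ?_, u.drop (a₁ + p.length), ?_, hut, htl⟩
  · refine ⟨b, c, a₁, v₁, by omega, ?_, ?_, ?_⟩
    · refine S.RL_take _ (u.drop (a₁ + p.length)) _ _ ?_ (by omega)
      rw [List.take_append_drop]; exact hR
    · refine Run.take (r := u.drop (a₁ + p.length)) ?_ ?_
      · rw [List.take_append_drop]; exact h1
      · have := S.LL_len _ _ hp
        omega
    · have : (u.take (a₁ + p.length)).drop a₁ = p := by
        rw [List.drop_take, hpq]
        simp
      rw [this]; exact hp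
  · -- the second half
    cases hrest with
    | refl => omega
    | @step _ _ d _ _ h hr =>
      rw [hpq] at h hr
      rw [e1] at h
      obtain rfl : p.length + b' = d := by simpa using h
      rw [e2] at hr
      have hle := hr.le
      refine ⟨b', c', a - (a₁ + p.length), v, ?_, ?_, ?_, ?_⟩
      · rw [List.length_drop]; omega
      · rw [hdq]; exact hq
      · have := hr.unshift (x := a₁ + p.length) (by omega)
        have h3 : a₁ + (p.length + b') - (a₁ + p.length) = b' := by omega
        rw [h3] at this
        exact this
      · rw [List.drop_drop]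
        have h4 : a₁ + p.length + (a - (a₁ + p.length)) = a := by omega
        rw [h4]; exact hL

variable (S)

/-- the thread with token `v` at the anchor `a` of `u` can be cut in its zone -/
def Cut (u : List α) (a : ℕ) (v : V) : Prop :=
  ∃ p q b' c', u.drop a = p ++ q ∧ S.LL p v ∧ S.RL q b' c'

/-- words of `K` whose thread is uncut in every zone which starts behind the first `D` letters -/
def KU : Set (List α) :=
  {u | ∃ b c a v, a ≤ u.length ∧ S.RL u b c ∧ S.Run u b c a v ∧ S.LL (u.drop a) v ∧
    ∀ a₁ v₁, S.Run u b c a₁ v₁ → a₁ < a → S.D ≤ a₁ → ¬ S.Cut u a₁ v₁}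

variable {S}

theorem KU_subset : S.KU ⊆ S.K := fun _ ⟨b, c, a, v, h1, h2, h3, h4, _⟩ => ⟨b, c, a, v, h1, h2, h3, h4⟩

/-- **irreducible words of `K` are uncut in every zone** -/
theorem irr_uncut {u : List α} (hu : u ∈ S.K)
    (hirr : ∀ u₁ ∈ S.K, ∀ u₂ ∈ S.K, u₁ ++ u₂ ≠ u) : u ∈ S.KU := by
  obtain ⟨b, c, a, v, h1, h2, h3, h4⟩ := hu
  refine ⟨b, c, a, v, h1, h2, h3, h4, fun a₁ v₁ hr hlt hD hcut => ?_⟩
  obtain ⟨p, q, b', c', hpq, hp, hq⟩ := hcut
  obtain ⟨u₁, hu₁, u₂, hu₂, he, _⟩ := K_split h1 h2 h3 h4 hr hlt hpq hp hq (by omega)
  exact hirr u₁ hu₁ u₂ hu₂ he.symm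

end CS

end Crest.Agent.R320.Scheme_916
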