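import Crest.Agent.R320.Sch12_494

/-!
# Row 320: semantic forms of both schemes of `Sch12_494` (for `Top5_120.top5`), helper494
-/

set_option autoImplicit false
set_option linter.unusedSectionVars false

namespace Crest.Agent.R320.Sch12_494

open Crest.Agent.R320.S1blk_494

variable {α S V : Type*} [Monoid S] [AddCommGroup V] {D : Two α S V}

/-- (s2) with the first block -/
theorem Two.Ok.s2' (h : D.Ok) (P : List α) (v : V) (Q : List α) (b : V) (h1 : D.LP2 P v)
    (h2 : D.R2 Q = some b) :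
    ∃ X, D.XX X ∧ X <+: P ++ Q ∧ (D.Bad X → ∃ X2, D.XX X2 ∧ X ++ X2 = P ++ Q ∧
      D.T (D.T v X) X2 = b) := by
  obtain ⟨k, hk, hPl, hlam⟩ := h1
  obtain ⟨k2, hk2, j, b', hv, hvb, hun, hX2, hrho, hb⟩ := D.R2_spec h2
  have hc := h.c_le k hk
  have hj := hv.1
  have hQl : Q.length = j + (Q.drop j).length := by rw [List.length_drop]; omega
  have hQ2 : D.Adm (P ++ Q) := by
    have e : P ++ Q = (P ++ Q.take j) ++ Q.drop j := by
      rw [List.append_assoc, List.take_append_drop]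
    have hX2l := D.XX_len hX2
    constructor
    · rw [e]
      exact (D.rule.app _ _ (by omega)).2 hX2.1.1
    · have z1 := hX2.1.2
      have z2 := hv.2.2.1
      have z3 := h.Zmax ((P ++ Q).length % D.M') ((Q.drop j).length % D.M')
        ((j + D.c k2) % D.M') k2 hk2
      have z4 := h.c_le k2 hk2
      have z5 := D.Zge ((j + D.c k2) % D.M')
      rw [List.length_append, hPl] at z3 ⊢
      omega
  obtain ⟨i, hi, hXi⟩ := exists_block hQ2
  have hil := D.XX_len hXi
  rw [List.length_take] at hil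
  obtain ⟨j1, rfl⟩ : ∃ j1, i = P.length + j1 := ⟨i - P.length, by omega⟩
  rw [take_app] at hXi
  rw [List.length_append] at hi hil
  have hj1 : j1 ≤ Q.length := by omega
  refine ⟨P ++ Q.take j1, hXi, ⟨Q.drop j1, by
    rw [List.append_assoc, List.take_append_drop]⟩, fun hbad => ?_⟩
  have hvk := (h.XX_iff hk hPl hj1).1 hXi
  have hkk : k = k2 := hun k hk ⟨j1, hvk, (h.Bad_iff hk hPl hvk).1 hbad⟩
  subst hkk
  have hjj := vend_unique hv hvk
  subst hjj
  have hn := no_lt h hk hv.2.2.1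
  have hzz := D.Zge ((j + D.c k) % D.M')
  have hz2 := hv.2.2.1
  refine ⟨Q.drop j, hX2, by rw [List.append_assoc, List.take_append_drop], ?_⟩
  rw [hb]
  congr 1
  unfold Two.T
  have e1 : (P ++ Q.take j).take D.p0 = P ++ Q.take (D.p0 - D.c k) := by
    have : D.p0 = P.length + (D.p0 - D.c k) := by omega
    conv_lhs => rw [this]
    rw [take_app, List.take_take, min_eq_left (by omega)]
  have e2 : (P ++ Q.take j).drop D.p0 = (Q.take j).drop (D.p0 - D.c k) := by
    have : D.p0 = P.length + (D.p0 - D.c k) := by omega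
    conv_lhs => rw [this]
    rw [List.drop_append]
    simp
  have e3 := h.ex2 k hk P (Q.take (D.p0 - D.c k)) v b' hPl
    (by rw [List.length_take]; omega) hlam hrho
  rw [e1, e2, ← e3]

/-- completeness of scheme 2 on bad blocks -/
theorem Two.Ok.comp2 (h : D.Ok) {X X2 : List α} (hX : D.XX X) (hX2 : D.XX X2) (hb : D.Bad X)
    (v : V) : ∃ P Q, X ++ X2 = P ++ Q ∧ D.LP2 P v ∧ (D.R2 Q).isSome := by
  have hXl := D.XX_len hX
  obtain ⟨I, hI, hI2⟩ := h.cp2 (X.take D.p0) (by rw [List.length_take]; omega) v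
  obtain ⟨k, hkI, hun⟩ := h.spoil X X2 hX hX2 I hI fun k hk => (hI2 k hk).1
  obtain ⟨hk, hlam, hrho⟩ := hI2 k hkI
  have hc := h.c_le k hk
  obtain ⟨b', hb'⟩ := Option.isSome_iff_exists.1 hrho
  have e0 : (X ++ X2).drop (D.c k) = X.drop (D.c k) ++ X2 :=
    List.drop_append_of_le_length (by omega)
  have hPl : (X.take (D.c k)).length = D.c k := by rw [List.length_take]; omega
  set Q := X.drop (D.c k) ++ X2 with hQ
  have hjl : (X.drop (D.c k)).length = X.length - D.c k := List.length_drop ..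
  have hjQ : X.length - D.c k ≤ Q.length := by
    rw [hQ, List.length_append, hjl]; omega
  have hQt : Q.take (X.length - D.c k) = X.drop (D.c k) := by
    rw [hQ, ← hjl, List.take_left' rfl]
  have hQd : Q.drop (X.length - D.c k) = X2 := by
    rw [hQ, ← hjl, List.drop_left' rfl]
  have hXe : X.take (D.c k) ++ Q.take (X.length - D.c k) = X := by
    rw [hQt, List.take_append_drop]
  have hv : D.vend k Q (X.length - D.c k) :=
    (h.XX_iff hk hPl hjQ).1 (by rw [hXe]; exact hX)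
  have hvb : D.vbad k Q (X.length - D.c k) :=
    (h.Bad_iff hk hPl hv).1 (by rw [hXe]; exact hb)
  refine ⟨X.take (D.c k), Q, ?_, ⟨k, hk, hPl, ?_⟩, ?_⟩
  · rw [hQ, ← List.append_assoc, List.take_append_drop]
  · rw [← hlam, List.take_take, min_eq_left hc]
  · refine D.R2_isSome (b := _) ⟨k, hk, X.length - D.c k, b', hv, hvb, ?_, ?_, ?_, rfl⟩
    · intro k' hk' hG
      exact hun k' hk' (by rw [e0]; exact hG)
    · rw [hQd]; exact hX2
    · rw [← hb']
      congr 1
      have : Q.take (D.p0 - D.c k) = (Q.take (X.length - D.c k)).take (D.p0 - D.c k) := by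
        rw [List.take_take, min_eq_left (by omega)]
      rw [this, hQt, List.drop_take]

/-- semantic completeness of scheme 1 -/
theorem Two.Ok.hcc1 (h : D.Ok) {X : List α} (hX : D.XX X) (hb : ¬ D.Bad X) (v : V) :
    ∃ P Q, P ++ Q = X ∧ D.LP1 P v ∧ ∀ x P', D.LP1 P' x → D.XX (P' ++ Q) ∧
      D.T x (P' ++ Q) = D.T v X := by
  obtain ⟨P, Q, e, -, e3, e4⟩ := h.comp1 hX hb v
  obtain ⟨b, hbb⟩ := Option.isSome_iff_exists.1 e4
  refine ⟨P, Q, e.symm, e3, fun x P' hP' => ?_⟩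
  have h1 := h.s1 P v Q b e3 hbb
  have h2 := h.s1 P' x Q b hP' hbb
  refine ⟨h2.1, ?_⟩
  rw [h2.2, e, h1.2]

/-- semantic completeness of scheme 2 -/
theorem Two.Ok.hcc2 (h : D.Ok) {X Y : List α} (hX : D.XX X) (hY : D.XX Y) (hb : D.Bad X)
    (hbY : D.Bad Y) (v : V) :
    ∃ P Q, P ++ Q = X ++ Y ∧ D.LP2 P v ∧ ∀ x P', D.LP2 P' x →
      (∃ X', (D.XX X' ∧ D.Bad X') ∧ ∃ Y', D.XX Y' ∧ X' ++ Y' = P' ++ Q ∧
        D.T (D.T x X') Y' = D.T (D.T v X) Y) ∨
      (∃ X', D.XX X' ∧ ¬ D.Bad X' ∧ X' <+: P' ++ Q) := by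
  obtain ⟨P, Q, e, e3, e4⟩ := h.comp2 hX hY hb v
  obtain ⟨b, hbb⟩ := Option.isSome_iff_exists.1 e4
  have hval : D.T (D.T v X) Y = b := by
    obtain ⟨X1, a1, a2, a3⟩ := h.s2' P v Q b e3 hbb
    rw [← e] at a2 a3
    have hXX : X1 = X := by
      rcases List.prefix_or_prefix_of_prefix a2 (List.prefix_append X Y) with hp | hp
      · exact D.XX_prefix a1 hX hp
      · exact (D.XX_prefix hX a1 hp).symm
    subst hXX
    obtain ⟨X2, b1, b2, b3⟩ := a3 hb
    have := List.append_cancel_left b2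
    rw [← this]
    exact b3
  refine ⟨P, Q, e.symm, e3, fun x P' hP' => ?_⟩
  obtain ⟨X1, a1, a2, a3⟩ := h.s2' P' x Q b hP' hbb
  by_cases hb1 : D.Bad X1
  · left
    obtain ⟨X2, b1, b2, b3⟩ := a3 hb1
    exact ⟨X1, ⟨a1, hb1⟩, X2, b1, b2, by rw [b3, hval]⟩
  · right
    exact ⟨X1, a1, hb1, a2⟩

end Crest.Agent.R320.Sch12_494
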