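import Crest.Agent.R320.Nest_85

/-!
# Row 320: two nested schemes on one block automaton, semantic right legality (helper442)

`XX` is a prefix code of blocks, the state is `(v, r)` with `r` the content since the last anchor.
Left legality `L1`, `L2` is given, right legality is *defined*: a right word is legal iff all legal
left states (for the second scheme: without a cut of the first scheme inside the right word) have
the same run over it.  So soundness is free and only completeness `comp` has to be proved.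
-/

set_option autoImplicit false

namespace Crest.Agent.R320.Sem2_442

open Crest.RegLang Crest.Agent.R320.Hgt1_903 Crest.Agent.R320.Nest_85

variable {α V : Type*}

open Classical in
/-- the block automaton -/
noncomputable def step (XX : Set (List α)) (T : V → List α → V) (q : V × List α) (c : α) :
    V × List α :=
  if q.2 ++ [c] ∈ XX then (T q.1 (q.2 ++ [c]), []) else (q.1, q.2 ++ [c])

/-- no prefix is a block -/
def NoPre (XX : Set (List α)) (r : List α) : Prop := ∀ X ∈ XX, ¬ X <+: r

variable {XX : Set (List α)} {T : V → List α → V}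

theorem NoPre.left {u v : List α} (h : NoPre XX (u ++ v)) : NoPre XX u := fun X hX hu =>
  h X hX (hu.trans (List.prefix_append u v))

theorem run_cons (q : V × List α) (c : α) (w : List α) :
    run (step XX T) q (c :: w) = run (step XX T) (step XX T q c) w := rfl

/-- reading inside a block -/
theorem run_inside (w : List α) : ∀ (v : V) (r : List α), NoPre XX (r ++ w) →
    run (step XX T) (v, r) w = (v, r ++ w) := by
  classical
  induction w with
  | nil => intro v r _; simp [run]
  | cons c w ih =>
    intro v r h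
    have e : r ++ c :: w = (r ++ [c]) ++ w := by simp
    have h1 : r ++ [c] ∉ XX := fun hh => h _ hh ⟨w, by simp⟩
    have h2 : step XX T (v, r) c = (v, r ++ [c]) := by unfold step; rw [if_neg h1]
    rw [run_cons, h2, ih v (r ++ [c]) (by rw [← e]; exact h), ← e]

/-- reading up to the end of the block -/
theorem run_block (hpc : ∀ X ∈ XX, ∀ Y ∈ XX, X <+: Y → X = Y) (v : V) (r w : List α)
    (hr : NoPre XX r) (h : r ++ w ∈ XX) : run (step XX T) (v, r) w = (T v (r ++ w), []) := by
  classical
  rcases List.eq_nil_or_concat w with rfl | ⟨w', c, rfl⟩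
  · exact absurd (by simp) (hr _ h)
  · rw [List.concat_eq_append] at h
    have h1 : NoPre XX (r ++ w') := by
      intro X hX hp
      have h2 : X = r ++ (w' ++ [c]) := hpc X hX _ h (hp.trans ⟨[c], by simp⟩)
      rw [h2] at hp
      have := hp.length_le
      simp at this
    rw [List.concat_eq_append, run_append, run_inside w' v r h1]
    have e : (r ++ w') ++ [c] = r ++ (w' ++ [c]) := by simp
    show step XX T (v, r ++ w') c = _
    unfold step
    rw [if_pos (by simpa [e] using h)]
    simp

theorem run_suffix (w : List α) : ∀ q : V × List α, (run (step XX T) q w).2 <:+ q.2 ++ w := by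
  classical
  induction w with
  | nil => intro q; simp [run]
  | cons c w ih =>
    intro q
    rw [run_cons]
    refine (ih _).trans ?_
    unfold step
    split_ifs
    · exact ⟨q.2 ++ [c], by simp⟩
    · simp

theorem noPre_run (hnil : [] ∉ XX) (w : List α) : ∀ q : V × List α, NoPre XX q.2 →
    NoPre XX (run (step XX T) q w).2 := by
  classical
  induction w with
  | nil => intro q h; simpa [run] using h
  | cons c w ih =>
    intro q h
    rw [run_cons]
    apply ih
    unfold step
    split_ifs with h1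
    · intro X hX hp
      rw [List.prefix_nil.1 hp] at hX
      exact hnil hX
    · intro X hX hp
      rcases List.prefix_concat_iff.1 hp with h2 | h2
      · rw [h2] at hX; exact h1 hX
      · exact h X hX h2

/-- the data -/
structure Dt (α V : Type*) where
  XX : Set (List α)
  T : V → List α → V
  Cl : List α → Prop
  L1 : V → List α → Prop
  L2 : V → List α → Prop
  D1 : ℕ
  D2 : ℕ

variable (D : Dt α V)

/-- the transition function -/
noncomputable abbrev Dt.st (D : Dt α V) : V × List α → α → V × List α := step D.XX D.T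

/-- right legal words of scheme 1 -/
def Dt.RS1 (D : Dt α V) : Set (List α) := {s | s.length = D.D1 ∧
  ∀ q q' : V × List α, D.L1 q.1 q.2 → D.L1 q'.1 q'.2 → run D.st q s = run D.st q' s}

open Classical in
/-- level 1 -/
noncomputable def Dt.A1 [Nonempty V] (D : Dt α V) : Level α (V × List α) where
  Lg q := D.L1 q.1 q.2
  R := D.RS1
  c s := if h : ∃ q : V × List α, D.L1 q.1 q.2 then run D.st h.choose s
    else (Classical.arbitrary V, [])

/-- right legal words of scheme 2 -/
def Dt.RS2 [Nonempty V] (D : Dt α V) : Set (List α) := {s | s.length = D.D2 ∧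
  ∀ q q' : V × List α, D.L2 q.1 q.2 → D.L2 q'.1 q'.2 → ¬ Cut D.st D.A1 q s →
    ¬ Cut D.st D.A1 q' s → run D.st q s = run D.st q' s}

open Classical in
/-- level 2 -/
noncomputable def Dt.A2 [Nonempty V] (D : Dt α V) : Level α (V × List α) where
  Lg q := D.L2 q.1 q.2
  R := D.RS2
  c s := if h : ∃ q : V × List α, D.L2 q.1 q.2 ∧ ¬ Cut D.st D.A1 q s then run D.st h.choose s
    else (Classical.arbitrary V, [])

/-- the hypotheses -/
structure Dt.Ok [Nonempty V] (D : Dt α V) : Prop where
  nil : [] ∉ D.XX
  pc : ∀ X ∈ D.XX, ∀ Y ∈ D.XX, X <+: Y → X = Y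
  pre : ∀ u v, D.Cl (u ++ v) → D.Cl u
  suf : ∀ u v, D.Cl (u ++ v) → D.Cl v
  blk : ∃ B, ∀ X, D.Cl X → B ≤ X.length → ∃ Z ∈ D.XX, Z <+: X
  lb : ∃ B, ∀ v r, D.L1 v r ∨ D.L2 v r → r.length ≤ B ∧ NoPre D.XX r
  pos1 : 0 < D.D1
  pos2 : 0 < D.D2
  comp : ∃ N, ∀ v X, D.Cl X → N ≤ X.length → ∃ P s u, P ++ (s ++ u) = X ∧ NoPre D.XX P ∧
    ((D.L1 v P ∧ s ∈ D.RS1) ∨ (D.L2 v P ∧ s ∈ D.RS2))

theorem fin_len [Finite α] (n : ℕ) (S : Set (List α)) (h : ∀ s ∈ S, s.length = n) : S.Finite :=
  (List.finite_length_eq α n).subset fun s hs => h s hs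

/-- **the two-level theorem** -/
theorem Dt.Ok.two [Finite α] [Nonempty V] {D : Dt α V} (h : D.Ok) (Q : V × List α → Prop)
    (v : V) : ∃ E : Language α, H 2 E ∧
      ∀ w, D.Cl w → (w ∈ E ↔ Q (run D.st (v, []) w)) := by
  classical
  obtain ⟨Bb, hblk⟩ := h.blk
  obtain ⟨Bl, hlb⟩ := h.lb
  obtain ⟨N, hcomp⟩ := h.comp
  set B0 := Bl + D.D1 + D.D2 with hB0
  let St : V × List α → Prop := fun q => q.2.length ≤ B0 ∧ NoPre D.XX q.2
  let Prom : V × List α → List α → Prop := fun q w => D.Cl (q.2 ++ w)
  have nopre_nil : NoPre D.XX [] := by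
    intro X hX hp
    rw [List.prefix_nil.1 hp] at hX
    exact h.nil hX
  have hPromRun : ∀ q p s u, Prom q (p ++ s ++ u) → Prom (run D.st (run D.st q p) s) u := by
    intro q p s u hP
    have h1 : (run D.st (run D.st q p) s).2 <:+ q.2 ++ (p ++ s) := by
      rw [← run_append]; exact run_suffix _ _
    obtain ⟨t, ht⟩ := h1
    have : D.Cl (t ++ ((run D.st (run D.st q p) s).2 ++ u)) := by
      rw [← List.append_assoc, ht]
      have : q.2 ++ (p ++ s) ++ u = q.2 ++ (p ++ s ++ u) := by simp
      rw [this]; exact hP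
    exact h.suf _ _ this
  have hpre : ∀ q u v, Prom q (u ++ v) → Prom q u := by
    intro q u v hP
    have : D.Cl ((q.2 ++ u) ++ v) := by rw [List.append_assoc]; exact hP
    exact h.pre _ _ this
  have hlen : ∀ (q : V × List α) (s : List α) (n : ℕ), q.2.length ≤ Bl → s.length ≤ n →
      n ≤ D.D1 + D.D2 → (run D.st q s).2.length ≤ B0 := by
    intro q s n hq hs hn
    have := (run_suffix (XX := D.XX) (T := D.T) s q).length_le
    rw [List.length_append] at this
    have h2 : (run D.st q s).2.length = (run (step D.XX D.T) q s).2.length := rfl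
    omega
  have hA1 : D.A1.Ok D.st St Prom := by
    refine ⟨fin_len D.D1 _ fun s hs => hs.1, ?_, ?_, ?_⟩
    · intro s hs h0
      have := hs.1
      rw [h0] at this
      have := h.pos1
      simp at *
      omega
    · intro s hs
      show St (dite _ _ _)
      split_ifs with hh
      · obtain ⟨h1, h2⟩ := hlb _ _ (Or.inl hh.choose_spec)
        exact ⟨hlen _ _ D.D1 h1 hs.1.le (by omega), noPre_run h.nil _ _ h2⟩
      · exact ⟨by simp, nopre_nil⟩
    · intro q hq p s u hP hs hl
      have e : run D.st (run D.st q p) s = D.A1.c s := by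
        have hh : ∃ q : V × List α, D.L1 q.1 q.2 := ⟨_, hl⟩
        show _ = dite _ _ _
        rw [dif_pos hh]
        exact hs.2 _ _ hl hh.choose_spec
      exact ⟨e, by rw [← e]; exact hPromRun q p s u hP⟩
  let Prom' : V × List α → List α → Prop := fun q w => Prom q w ∧ ¬ Cut D.st D.A1 q w
  have hpre' : ∀ q u v, Prom' q (u ++ v) → Prom' q u := fun q u v hP =>
    ⟨hpre q u v hP.1, fun hc => hP.2 hc.append⟩
  have hA2 : D.A2.Ok D.st St Prom' := by
    refine ⟨fin_len D.D2 _ fun s hs => hs.1, ?_, ?_, ?_⟩
    · intro s hs h0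
      have := hs.1
      rw [h0] at this
      have := h.pos2
      simp at *
      omega
    · intro s hs
      show St (dite _ _ _)
      split_ifs with hh
      · obtain ⟨h1, h2⟩ := hlb _ _ (Or.inr hh.choose_spec.1)
        exact ⟨hlen _ _ D.D2 h1 hs.1.le (by omega), noPre_run h.nil _ _ h2⟩
      · exact ⟨by simp, nopre_nil⟩
    · intro q hq p s u hP hs hl
      have hnc : ¬ Cut D.st D.A1 (run D.st q p) s := fun hc =>
        hP.2 (Cut.append (Cut.prepend hc))
      have e : run D.st (run D.st q p) s = D.A2.c s := by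
        have hh : ∃ q : V × List α, D.L2 q.1 q.2 ∧ ¬ Cut D.st D.A1 q s := ⟨_, hl, hnc⟩
        show _ = dite _ _ _
        rw [dif_pos hh]
        exact hs.2 _ _ hl hh.choose_spec.1 hnc hh.choose_spec.2
      refine ⟨e, by rw [← e]; exact hPromRun q p s u hP.1, fun hc => hP.2 ?_⟩
      apply Cut.prepend
      rw [run_append, e]
      exact hc
  -- a long promised word has a cut
  have hbd : ∀ q, St q → ∀ w, Prom q w → ¬ Cut D.st D.A1 q w → ¬ Cut D.st D.A2 q w →
      w.length ≤ B0 + Bb + N := by
    intro q hq w hP h1 h2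
    by_contra hlt
    push Not at hlt
    obtain ⟨hq1, hq2⟩ := hq
    -- the first block
    obtain ⟨Z, hZ, hZp⟩ := hblk ((q.2 ++ w).take (B0 + Bb))
      (by
        have : D.Cl ((q.2 ++ w).take (B0 + Bb) ++ (q.2 ++ w).drop (B0 + Bb)) := by
          rw [List.take_append_drop]; exact hP
        exact h.pre _ _ this)
      (by rw [List.length_take, List.length_append]; omega)
    have hZl : Z.length ≤ B0 + Bb := by
      have := hZp.length_le
      rw [List.length_take] at this
      omega
    have hZq : Z <+: q.2 ++ w := hZp.trans (List.take_prefix _ _)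
    have hqZ : q.2 <+: Z := by
      rcases List.prefix_or_prefix_of_prefix hZq (List.prefix_append q.2 w) with hh | hh
      · exact absurd hh (hq2 Z hZ)
      · exact hh
    obtain ⟨p0, rfl⟩ := hqZ
    obtain ⟨w', hw'⟩ := hZq
    have hw : w = p0 ++ w' := by
      rw [List.append_assoc] at hw'
      exact (List.append_cancel_left hw').symm
    subst hw
    have hrun : run D.st q p0 = (D.T q.1 (q.2 ++ p0), []) :=
      run_block h.pc q.1 q.2 p0 hq2 hZ
    have hw'Cl : D.Cl w' := by
      have : D.Cl ((q.2 ++ p0) ++ w') := by rw [List.append_assoc]; exact hP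
      exact h.suf _ _ this
    obtain ⟨P, s, u, e, hPn, hc⟩ := hcomp (D.T q.1 (q.2 ++ p0)) w' hw'Cl (by
      rw [List.length_append] at hlt hZl
      omega)
    have hrunP : run D.st q (p0 ++ P) = (D.T q.1 (q.2 ++ p0), P) := by
      rw [run_append, hrun, run_inside P _ [] (by simpa using hPn)]
      simp
    rcases hc with ⟨hl, hs⟩ | ⟨hl, hs⟩
    · refine h1 ⟨p0 ++ P, s, u, by rw [← e]; simp, hs, ?_⟩
      rw [hrunP]; exact hl
    · refine h2 ⟨p0 ++ P, s, u, by rw [← e]; simp, hs, ?_⟩
      rw [hrunP]; exact hl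
  have inner := nest D.st St Prom' hpre' D.A2 hA2 0 (fun _ => True) trivial (by
    intro q hq Q' _
    refine ⟨({w | (Prom' q w ∧ ¬ Cut D.st D.A2 q w) ∧ Q' (run D.st q w)} : Language α),
      H.finite 0 ((List.finite_length_le α (B0 + Bb + N)).subset fun w hw =>
        hbd q hq w hw.1.1.1 hw.1.1.2 hw.1.2),
      fun w hw hc => ⟨fun hh => hh.2, fun hh => ⟨⟨hw, hc⟩, hh⟩⟩⟩)
  have outer := nest D.st St Prom hpre D.A1 hA1 (0 + 1) (fun _ => True) trivial (by
    intro q hq Q' _
    obtain ⟨E, h1, h2⟩ := inner q hq Q' trivial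
    exact ⟨E, h1, fun w hw hc => h2 w ⟨hw, hc⟩⟩)
  obtain ⟨E, h1, h2⟩ := outer (v, []) ⟨by simp, nopre_nil⟩ Q trivial
  exact ⟨E, h1, fun w hw => h2 w (by simpa [Prom] using hw)⟩

/-! ### reading the product -/

variable {S : Type*} [Monoid S]

/-- product of a word -/
def pr (f : α → S) (w : List α) : S := (w.map f).prod

theorem pr_append (f : α → S) (u v : List α) : pr f (u ++ v) = pr f u * pr f v := by
  simp [pr]

/-- the module of functions -/
def act (v : S → ZMod 2) (s : S) : S → ZMod 2 := fun t => v (s * t)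

theorem act_mul (v : S → ZMod 2) (s t : S) : act (act v s) t = act v (s * t) := by
  funext x; simp [act, mul_assoc]

theorem act_add (v v' : S → ZMod 2) (s : S) : act (v + v') s = act v s + act v' s := rfl

theorem act_one (v : S → ZMod 2) : act v (1 : S) = v := by funext x; simp [act]

/-- the run is affine -/
theorem run_affine (f : α → S) {XX : Set (List α)} {T : (S → ZMod 2) → List α → S → ZMod 2}
    (nu : List α → S → ZMod 2) (hT : ∀ v, ∀ X ∈ XX, T v X = act v (pr f X) + nu X) (w : List α) :
    ∀ r : List α, ∃ (t : S) (g : S → ZMod 2) (r' : List α), pr f (r ++ w) = t * pr f r' ∧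
      ∀ v, run (step XX T) (v, r) w = (act v t + g, r') := by
  classical
  induction w with
  | nil =>
    intro r
    refine ⟨1, 0, r, by simp, fun v => ?_⟩
    simp [run, act_one]
  | cons c w ih =>
    intro r
    by_cases hc : r ++ [c] ∈ XX
    · obtain ⟨t, g, r', h1, h2⟩ := ih []
      refine ⟨pr f (r ++ [c]) * t, act (nu (r ++ [c])) t + g, r', ?_, fun v => ?_⟩
      · have e : r ++ c :: w = (r ++ [c]) ++ ([] ++ w) := by simp
        rw [e, pr_append, h1, mul_assoc]
      · have : step XX T (v, r) c = (T v (r ++ [c]), []) := by unfold step; rw [if_pos hc]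
        rw [run_cons, this, h2, hT v _ hc, act_add, act_mul, add_assoc]
    · obtain ⟨t, g, r', h1, h2⟩ := ih (r ++ [c])
      refine ⟨t, g, r', ?_, fun v => ?_⟩
      · rw [← h1]; simp
      · have : step XX T (v, r) c = (v, r ++ [c]) := by unfold step; rw [if_neg hc]
        rw [run_cons, this, h2]

/-- **HALF 1 from the completeness of the two schemes** -/
theorem half1 [Finite α] [Finite S] (f : α → S) (D : Dt α (S → ZMod 2)) (h : D.Ok)
    (nu : List α → S → ZMod 2) (hT : ∀ v, ∀ X ∈ D.XX, D.T v X = act v (pr f X) + nu X)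
    (hCl : H 2 ({w | D.Cl w} : Language α)) (s : S) :
    H 2 ({w | D.Cl w ∧ pr f w = s} : Language α) := by
  classical
  have key := fun (Q : (S → ZMod 2) × List α → Prop) (v : S → ZMod 2) => h.two Q v
  choose E hE hEc using key
  let Q1 : ZMod 2 → S → (S → ZMod 2) × List α → Prop := fun b ρ q => q.1 1 = b ∧ pr f q.2 = ρ
  let Q0 : ZMod 2 → (S → ZMod 2) × List α → Prop := fun b q => q.1 1 = b + 1
  let F : S × S × ZMod 2 → Language α := fun x =>
    ({w | w ∈ ({_w | x.1 * x.2.1 = s} : Language α) ∧ w ∈ ({w | w ∈ E (Q1 x.2.2 x.2.1) (Pi.single x.1 1) ∧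
      w ∈ E (Q0 x.2.2) 0} : Language α)} : Language α)
  have hF : ∀ x, H 2 (F x) := fun x =>
    H.inter (H.const 2 _) (H.inter (hE _ _) (hE _ _))
  refine H.congr (H.inter hCl (H.exists_fintype F hF)) fun w => ?_
  constructor
  · rintro ⟨hw, ⟨t, ρ, b⟩, h1, h2, h3⟩
    refine ⟨hw, ?_⟩
    have h2' := (hEc _ _ w hw).1 h2
    have h3' := (hEc _ _ w hw).1 h3
    obtain ⟨t0, g, r', e1, e2⟩ := run_affine f nu hT w []
    rw [show run D.st (Pi.single t 1, []) w = _ from e2 _] at h2'
    rw [show run D.st ((0 : S → ZMod 2), []) w = _ from e2 _] at h3'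
    obtain ⟨h4, h5⟩ := h2'
    have h6 : (Pi.single t (1 : ZMod 2) : S → ZMod 2) t0 + g 1 = b := by
      simpa [act] using h4
    have h7 : g 1 = b + 1 := by simpa [act, Q0] using h3'
    have h8 : t0 = t := by
      by_contra hne
      rw [Pi.single_eq_of_ne hne, zero_add, h7] at h6
      have : ∀ b : ZMod 2, b + 1 ≠ b := by decide
      exact this b h6
    have h9 : pr f r' = ρ := h5
    have h10 : pr f w = t0 * pr f r' := by simpa using e1
    rw [h10, h8, h9]
    exact h1
  · rintro ⟨hw, hs⟩
    obtain ⟨t0, g, r', e1, e2⟩ := run_affine f nu hT w []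
    refine ⟨hw, ⟨t0, pr f r', g 1 + 1⟩, ?_, ?_, ?_⟩
    · show t0 * pr f r' = s
      rw [← hs, ← e1]; simp
    · refine (hEc _ _ w hw).2 ?_
      rw [show run D.st (Pi.single t0 1, []) w = _ from e2 _]
      refine ⟨?_, rfl⟩
      simp only [act, Pi.add_apply, mul_one, Pi.single_eq_same]
      ring
    · refine (hEc _ _ w hw).2 ?_
      rw [show run D.st ((0 : S → ZMod 2), []) w = _ from e2 _]
      simp only [act, Pi.add_apply, Pi.zero_apply, zero_add, Q0]
      have : ∀ b : ZMod 2, b = b + 1 + 1 := by decide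
      exact this _

end Crest.Agent.R320.Sem2_442
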