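import Crest.Agent.R320.SemInst_868

/-!
# Row 320: heights for the instance, and the row from a gadget on words (helper868)
-/

set_option autoImplicit false
set_option linter.unusedSectionVars false
set_option linter.style.haveILetI false

namespace Crest.Agent.R320.SemInst_868

open Crest.RegLang Crest.Agent.R320.Hk_851 Crest.Agent.R320.Blk467 Crest.Agent.R320.SemTop_727
open Crest.R320.Reg_143

section reg
variable {α : Type}

theorem reg_and {P Q : List α → Prop} (hP : (lg P).IsRegular) (hQ : (lg Q).IsRegular) :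
    (lg fun w => P w ∧ Q w).IsRegular :=
  isRegular_congr (hP.inf hQ) fun _ => Iff.rfl

theorem reg_not {P : List α → Prop} (hP : (lg P).IsRegular) : (lg fun w => ¬ P w).IsRegular :=
  isRegular_congr hP.compl fun _ => Iff.rfl

theorem reg_ex {ι : Type*} [Finite ι] {P : ι → List α → Prop} (h : ∀ i, (lg (P i)).IsRegular) :
    (lg fun w => ∃ i, P i w).IsRegular :=
  (RegP.exists_finite (k := 0) fun i => RegP.mem (h i)).close

theorem reg_const (p : Prop) : (lg fun _ : List α => p).IsRegular :=
  (RegP.const (k := 0) p).close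

theorem reg_ge (n : ℕ) : (lg fun w : List α => n ≤ w.length).IsRegular :=
  isRegular_length (fun m => n ≤ m) n 1 (by omega) (fun m hm => by
    constructor <;> intro _ <;> omega)

theorem reg_short [Finite α] (n : ℕ) (R : List α → Prop) :
    (lg fun w : List α => w.length ≤ n ∧ R w).IsRegular := by
  refine isRegular_congr (isRegular_take (n + 1) (fun l => l.length ≤ n ∧ R l)) fun w => ?_
  rw [mem_lg]
  constructor
  · rintro ⟨h1, h2⟩
    rw [List.length_take] at h1
    have h3 : w.length ≤ n := by omega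
    rw [List.take_of_length_le (by omega)] at h2
    exact ⟨h3, h2⟩
  · rintro ⟨h1, h2⟩
    rw [List.take_of_length_le (by omega)]
    exact ⟨h1, h2⟩

theorem reg_prod {S : Type} [Monoid S] [Finite S] (f : α → S) (s : S) :
    (lg fun w : List α => (w.map f).prod = s).IsRegular :=
  isRegular_monoid f (fun t => t = s)

end reg

namespace Dat

variable {α S V : Type} [Finite α] [Monoid S] [Finite S] [AddCommGroup V] [Finite V]
  (D : Dat α S V)

theorem reg_B : (lg fun X : List α => D.z ≤ X.length ∧ D.Wo X).IsRegular := by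
  have hz := D.hz
  have h := reg_and (reg_ge (α := α) D.z) (isRegular_cat (reg_const (α := α) True)
    (reg_short D.n fun v : List α => v.length = D.n ∧ D.Wo v))
  refine isRegular_congr h fun X => ?_
  rw [mem_lg]
  constructor
  · rintro ⟨h1, u, v, rfl, -, -, h2, h3⟩
    exact ⟨h1, (D.wloc _ _ (by omega)).2 h3⟩
  · rintro ⟨h1, h2⟩
    have hl : (X.drop (X.length - D.n)).length = D.n := by rw [List.length_drop]; omega
    refine ⟨h1, X.take (X.length - D.n), X.drop (X.length - D.n), List.take_append_drop _ _,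
      trivial, hl.le, hl, ?_⟩
    rw [← D.wloc (X.take (X.length - D.n)) _ hl.ge, List.take_append_drop]
    exact h2

theorem reg_XX : (lg fun X : List α => X ∈ XX D.Wo D.z).IsRegular := by
  have h := reg_and D.reg_B (reg_not (isRegular_cat D.reg_B (reg_ge (α := α) 1)))
  refine isRegular_congr h fun X => ?_
  rw [mem_lg]
  constructor
  · rintro ⟨⟨h1, h2⟩, h3⟩
    refine ⟨h1, h2, fun t ht1 ht2 hw => h3 ⟨X.take t, X.drop t, List.take_append_drop _ _,
      ⟨?_, hw⟩, ?_⟩⟩
    · rw [List.length_take]; omega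
    · rw [List.length_drop]; omega
  · rintro ⟨h1, h2, h3⟩
    refine ⟨⟨h1, h2⟩, ?_⟩
    rintro ⟨u, v, rfl, ⟨hu1, hu2⟩, hv⟩
    refine h3 u.length hu1 (by rw [List.length_append]; omega) ?_
    rw [List.take_left' rfl]
    exact hu2

theorem reg_fib (hnu : ∀ y, (lg fun w : List α => D.nu1 w = y).IsRegular) (x y : V) :
    (lg fun X : List α => X ∈ XX D.Wo D.z ∧ D.T x X = y).IsRegular := by
  have hz := D.hz
  have hfin : Finite {l : List α // l.length ≤ D.p0} :=
    (List.finite_length_le α D.p0).to_subtype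
  have h1 : ∀ c : V, (lg fun v : List α => D.act c (v.map D.φ).prod + D.nu1 v = y).IsRegular := by
    intro c
    have h := reg_ex (ι := S × V) (P := fun p (v : List α) => D.act c p.1 + p.2 = y ∧
      ((v.map D.φ).prod = p.1 ∧ D.nu1 v = p.2)) (fun p => reg_and (reg_const _)
        (reg_and (reg_prod D.φ p.1) (hnu p.2)))
    refine isRegular_congr h fun v => ?_
    rw [mem_lg]
    constructor
    · rintro ⟨p, h1, h2, h3⟩
      rw [h2, h3]; exact h1
    · intro h
      exact ⟨((v.map D.φ).prod, D.nu1 v), h, rfl, rfl⟩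
  have h2 := reg_and D.reg_XX (reg_ex (ι := {l : List α // l.length ≤ D.p0})
    (P := fun U (X : List α) => ∃ u v, u ++ v = X ∧ (u.length ≤ D.p0 ∧ (u.length = D.p0 ∧ u = U.1)) ∧
      D.act (D.act x (U.1.map D.φ).prod + D.nu2 U.1) (v.map D.φ).prod + D.nu1 v = y)
    (fun U => isRegular_cat (reg_short D.p0 fun u : List α => u.length = D.p0 ∧ u = U.1) (h1 _)))
  refine isRegular_congr h2 fun X => ?_
  rw [mem_lg]
  constructor
  · rintro ⟨h1, U, u, v, rfl, ⟨-, h3, h4⟩, h5⟩
    refine ⟨h1, ?_⟩
    rw [D.T_app _ _ _ h3, h4]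
    exact h5
  · rintro ⟨h1, h3⟩
    have hl := h1.1
    have hl2 : (X.take D.p0).length = D.p0 := by rw [List.length_take]; omega
    exact ⟨h1, ⟨X.take D.p0, hl2.le⟩, X.take D.p0, X.drop D.p0, List.take_append_drop _ _,
      ⟨hl2.le, hl2, rfl⟩, h3⟩

variable (hfew : ∀ (r : ℕ) (L : Language α), L.IsRegular →
  (∀ w ∈ L, ∀ F : Finset ℕ, (∀ x ∈ F, x ≤ w.length ∧ D.Wo (w.take x)) → F.card ≤ r) → HL 1 L)
include hfew

theorem HL_fib (hnu : ∀ y, (lg fun w : List α => D.nu1 w = y).IsRegular) (x y : V) :
    HL 1 (D.sch.fib x y) := by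
  classical
  refine (hfew (D.z + 1) _ (D.reg_fib hnu x y) ?_).congr fun w => Iff.rfl
  rintro w ⟨hw, -⟩ F hF
  have hsub : F ⊆ insert w.length (Finset.range D.z) := by
    intro t ht
    obtain ⟨h1, h2⟩ := hF t ht
    rw [Finset.mem_insert, Finset.mem_range]
    by_contra hcon
    push Not at hcon
    exact hw.2.2 t hcon.2 (by omega) h2
  exact (Finset.card_le_card hsub).trans ((Finset.card_insert_le _ _).trans (by simp))

theorem HL_tail (s : S) : HL 1 ({w | (∀ X ∈ D.sch.XX, ¬ X <+: w) ∧ (w.map D.φ).prod = s} :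
    Language α) := by
  classical
  have hreg : (lg fun w : List α => (∀ X ∈ D.sch.XX, ¬ X <+: w) ∧ (w.map D.φ).prod = s).IsRegular := by
    refine reg_and ?_ (reg_prod D.φ s)
    refine isRegular_congr (reg_not (isRegular_cat D.reg_XX (reg_const (α := α) True)))
      fun w => ?_
    rw [mem_lg]
    constructor
    · rintro h X hX ⟨r, hr⟩
      exact h ⟨X, r, hr, hX, trivial⟩
    · rintro h ⟨X, r, hr, hX, -⟩
      exact h X hX ⟨r, hr⟩
  refine (hfew D.z _ hreg ?_).congr fun w => Iff.rfl
  rintro w ⟨hw, -⟩ F hF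
  have hsub : F ⊆ Finset.range D.z := by
    intro t ht
    obtain ⟨h1, h2⟩ := hF t ht
    rw [Finset.mem_range]
    by_contra hcon
    obtain ⟨X, hX, hpre⟩ := D.exists_block (w.take t) (by rw [List.length_take]; omega) h2
    exact hw X hX (hpre.trans (List.take_prefix _ _))
  exact (Finset.card_le_card hsub).trans (by simp)

omit [Finite S] [Finite V] hfew in
theorem L1_finite (x : V) : (D.sch.L1 x).Finite := by
  refine (List.finite_length_le α (D.p0 + D.N)).subset ?_
  rintro P ⟨X, p, rfl, hX, hp⟩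
  have := D.glen _ _ hp
  show (X ++ p).length ≤ _
  rw [List.length_append]
  omega

omit [Finite S] [Finite V] hfew in
theorem L2_finite (x : V) : (D.sch.L2 x).Finite := by
  refine (List.finite_length_le α D.p0).subset ?_
  rintro P ⟨k, hk, hP, -⟩
  have := D.hc k hk
  show P.length ≤ _
  omega

theorem main (hnu : ∀ y, (lg fun w : List α => D.nu1 w = y).IsRegular)
    (hadd : ∀ a b s, D.act (a + b) s = D.act a s + D.act b s)
    (hone : ∀ v, D.act v 1 = v) (hmul : ∀ v s t, D.act v (s * t) = D.act (D.act v s) t)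
    (hfaith : ∀ s t, (∀ v, D.act v s = D.act v t) → s = t) (s : S) :
    HL 3 ({w | (w.map D.φ).prod = s} : Language α) := by
  have hz := D.hz
  refine SemTop_727.top (k := 1) D.act hadd hone hmul hfaith D.φ
    (fun X => D.act (D.nu2 (X.take D.p0)) ((X.drop D.p0).map D.φ).prod + D.nu1 (X.drop D.p0))
    D.sch ?_ (pcode D.Wo (by omega)) (D.HL_fib hfew hnu) D.L1_finite D.L2_finite D.hC2
    (fun t => (D.HL_tail hfew t).mono (by omega)) s
  intro v X
  show D.act (D.act v _ + _) _ + _ = _
  rw [hadd, ← hmul, ← List.prod_append, ← List.map_append, List.take_append_drop, add_assoc]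

end Dat

open Classical in
/-- the gadget on words which is needed (all types in `Type`) -/
def GadHyp : Prop := ∀ (S V : Type) [Monoid S] [Finite S] [AddCommGroup V] [Finite V]
  (act : V → S → V), ∃ C0 : ℕ, ∀ K : ℕ, ∃ (N : ℕ) (c : ℕ → ℕ) (Bad : ℕ → Prop),
    (∀ i j, i < j → j < K → c i < c j) ∧
    (∀ i j k l, i < K → j < K → k < K → l < K → i ≠ j → k ≠ l →
      |((c i : ℤ) - c j) - ((c k : ℤ) - c l)| ≤ 2 * N → i = k ∧ j = l) ∧
    (∀ T : ℕ, (∀ k < K, c k ≤ T) → ((Finset.range K ×ˢ Finset.range K).filter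
      (fun ab => ab.1 ≠ ab.2 ∧ Bad (T + c ab.1 - c ab.2))).card ≤ C0) ∧
    ∀ (α : Type) [Finite α] (f : α → S), ∃ (lam rho : List α → Option V) (nu : List α → V),
      (∀ p v, lam p = some v → p.length ≤ N) ∧
      (∀ p q v r, lam p = some v → rho q = some r →
        r = act v ((p ++ q).map f).prod + nu (p ++ q)) ∧
      (∀ u : List α, 2 * N ≤ u.length → ¬ Bad u.length → ∀ v, ∃ p q, p ++ q = u ∧
        lam p = some v ∧ (rho q).isSome) ∧
      (∀ y, (lg fun w : List α => nu w = y).IsRegular)

/-- The row (finite monoids, `Type`) from the gadget. -/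
theorem of_gadget (h : GadHyp) (α : Type) [Finite α] (S : Type) [Monoid S] [Finite S] (f : α → S)
    (s : S) : HL 3 ({w | (w.map f).prod = s} : Language α) := by
  classical
  haveI := Fintype.ofFinite S
  obtain ⟨act, hadd, hone, hmul, hfaith⟩ := exists_module S
  obtain ⟨C0, hC0⟩ := h S (S → ZMod 2) act
  obtain ⟨K, hK⟩ := Crest.Agent.R320.ExactR_237.exact_gadget α S (S → ZMod 2) f act (2 * C0 + 2)
  obtain ⟨N, c, Bad, hc, hres, hthin, hG⟩ := hC0 K
  obtain ⟨lam2, rho2, nu2, hex, hco⟩ := hK c hc
  obtain ⟨lam, rho, nu1, g1, g2, g3, g4⟩ := hG α f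
  let p0 : ℕ := (Finset.range K).sup c
  have hp0 : ∀ k < K, c k ≤ p0 := fun k hk => Finset.le_sup (f := c) (Finset.mem_range.2 hk)
  obtain ⟨n, Wo, hn, hlen, hloc, hsep, hfew⟩ :=
    Crest.Agent.R320.OutRule_480.outer_rule_left (α := α) (2 * p0 + 2 * N + 1)
  let D : Dat α S (S → ZMod 2) :=
    { φ := f, act := act, Wo := Wo, n := n, z := 4 * p0 + 4 * N + n + 1, p0 := p0, N := N, K := K,
      C0 := C0, c := c, BadT := Bad, lam := lam, rho := rho, nu1 := nu1,
      nu2 := fun u => nu2 u 1, lam2 := lam2, rho2 := fun k Q => rho2 k Q 1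
      hn := hn
      wloc := hloc
      wsep := by
        intro X a b hab hb hwa hwb
        have h := hsep (X.take b) (b - a) hwb (by omega) (by rw [List.length_take]; omega) (by
          rw [List.length_take, List.take_take]
          have e : min (min b X.length - (b - a)) b = a := by omega
          rw [e]; exact hwa)
        omega
      hz := le_rfl
      hc := hp0
      res := hres
      thin := fun T hT => by
        have := hthin T (fun k hk => (hp0 k hk).trans hT)
        convert this
      glen := g1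
      gsound := g2
      gcomp := g3
      esound := by
        intro k hk P Q v b hP h1 h2
        have := hex k hk P Q 1 v b hP h1 h2
        rwa [mul_one] at this
      ecomp := by
        intro u v hu
        obtain ⟨I, hI1, hI2⟩ := hco u 1 v (fun k hk => by rw [hu]; exact hp0 k hk)
        exact ⟨I, hI1, hI2⟩ }
  exact D.main hfew g4 hadd hone hmul hfaith s

end Crest.Agent.R320.SemInst_868
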