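import Crest.Agent.R320.SemTop_727
import Crest.Agent.R320.OutRule_480
import Crest.Agent.R320.ExactR_237
import Crest.Agent.R320.Reg_143

/-!
# Row 320: instance of the semantic top (helper868)

Natural block code (first left-looking wall at a place `≥ z`), scheme 1 = any gadget on words which
is exact on all words and complete off a set of lengths, scheme 2 = exact gadget on the first `p0`
letters with a ruler. Everything is `Type 0`.
-/

set_option autoImplicit false

namespace Crest.Agent.R320.SemInst_868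

open Crest.RegLang Crest.Agent.R320.Hk_851 Crest.Agent.R320.Blk467 Crest.Agent.R320.SemTop_727

/-- the block code -/
def XX {α : Type} (Wo : List α → Prop) (z : ℕ) : Set (List α) :=
  {X | z ≤ X.length ∧ Wo X ∧ ∀ t, z ≤ t → t < X.length → ¬ Wo (X.take t)}

theorem pcode {α : Type} (Wo : List α → Prop) {z : ℕ} (hz : 0 < z) : PCode (XX Wo z) := by
  constructor
  · intro h
    have := h.1
    simp at this
    omega
  · intro X hX Y hY hXY
    obtain ⟨r, rfl⟩ := hXY
    by_contra hne
    have hr : r ≠ [] := by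
      rintro rfl
      exact hne (by simp)
    have hl : 0 < r.length := List.length_pos_iff.2 hr
    refine hY.2.2 X.length hX.1 (by simp; omega) ?_
    rw [List.take_left']
    · exact hX.2.1
    · rfl

open Classical in
structure Dat (α S V : Type) [Monoid S] [AddCommGroup V] where
  φ : α → S
  act : V → S → V
  Wo : List α → Prop
  (n z p0 N K C0 : ℕ)
  c : ℕ → ℕ
  BadT : ℕ → Prop
  (lam rho : List α → Option V)
  (nu1 nu2 : List α → V)
  (lam2 rho2 : ℕ → List α → Option V)
  hn : 0 < n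
  wloc : ∀ P Q : List α, n ≤ Q.length → (Wo (P ++ Q) ↔ Wo Q)
  wsep : ∀ (X : List α) (s t : ℕ), s < t → t ≤ X.length → Wo (X.take s) → Wo (X.take t) →
    2 * p0 + 2 * N < t - s
  hz : 4 * p0 + 4 * N + n + 1 ≤ z
  hc : ∀ k, k < K → c k ≤ p0
  res : ∀ i j k l, i < K → j < K → k < K → l < K → i ≠ j → k ≠ l →
    |((c i : ℤ) - c j) - ((c k : ℤ) - c l)| ≤ 2 * N → i = k ∧ j = l
  thin : ∀ T : ℕ, p0 ≤ T → ((Finset.range K ×ˢ Finset.range K).filter
    (fun ab => ab.1 ≠ ab.2 ∧ BadT (T + c ab.1 - c ab.2))).card ≤ C0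
  glen : ∀ p v, lam p = some v → p.length ≤ N
  gsound : ∀ p q v r, lam p = some v → rho q = some r →
    r = act v ((p ++ q).map φ).prod + nu1 (p ++ q)
  gcomp : ∀ u : List α, 2 * N ≤ u.length → ¬ BadT u.length → ∀ v, ∃ p q, p ++ q = u ∧
    lam p = some v ∧ (rho q).isSome
  esound : ∀ k < K, ∀ (P Q : List α) (v b : V), P.length = c k → lam2 k P = some v →
    rho2 k Q = some b → b = act v ((P ++ Q).map φ).prod + nu2 (P ++ Q)
  ecomp : ∀ (u : List α) (v : V), u.length = p0 → ∃ I : Finset ℕ, 2 * C0 + 2 ≤ I.card ∧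
    ∀ k ∈ I, k < K ∧ lam2 k (u.take (c k)) = some v ∧ (rho2 k (u.drop (c k))).isSome

namespace Dat

variable {α S V : Type} [Monoid S] [AddCommGroup V] (D : Dat α S V)

def T (v : V) (X : List α) : V :=
  D.act (D.act v ((X.take D.p0).map D.φ).prod + D.nu2 (X.take D.p0)) ((X.drop D.p0).map D.φ).prod +
    D.nu1 (X.drop D.p0)

theorem T_app (v : V) (X Y : List α) (h : X.length = D.p0) :
    D.T v (X ++ Y) = D.act (D.act v (X.map D.φ).prod + D.nu2 X) (Y.map D.φ).prod + D.nu1 Y := by
  unfold T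
  rw [List.take_left' h, List.drop_left' h]

def L1 (v : V) : Set (List α) := {P | ∃ X p : List α, P = X ++ p ∧ X.length = D.p0 ∧
  D.lam p = some (D.act v (X.map D.φ).prod + D.nu2 X)}

def L2 (v : V) : Set (List α) := {P | ∃ k < D.K, P.length = D.c k ∧ D.lam2 k P = some v}

def sch : Sch α V := ⟨XX D.Wo D.z, D.T, D.L1, D.L2⟩

theorem wo_shift (P P' Q : List α) {t : ℕ} (h1 : D.n ≤ t) (h2 : t ≤ Q.length) :
    D.Wo ((P ++ Q).take (P.length + t)) ↔ D.Wo ((P' ++ Q).take (P'.length + t)) := by
  rw [List.take_length_add_append, List.take_length_add_append, D.wloc _ _ (by simp; omega),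
    D.wloc _ _ (by simp; omega)]

/-- a block with other letters in front is a block, if no wall is near `z` -/
theorem XX_shift (P P' Q : List α) (hP : P.length ≤ D.p0 + D.N) (hP' : P'.length ≤ D.p0 + D.N)
    (d : ℕ) (hd : P.length ≤ P'.length + d) (hd' : P'.length ≤ P.length + d)
    (hX : P ++ Q ∈ XX D.Wo D.z)
    (hE : ∀ t, t ≤ (P ++ Q).length → D.Wo ((P ++ Q).take t) → ¬ (D.z ≤ t + d ∧ t < D.z + d)) :
    P' ++ Q ∈ XX D.Wo D.z := by
  have hz := D.hz
  obtain ⟨h1, h2, h3⟩ := hX
  have hl : (P ++ Q).length = P.length + Q.length := List.length_append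
  have hl' : (P' ++ Q).length = P'.length + Q.length := List.length_append
  have hfull : D.Wo ((P ++ Q).take (P ++ Q).length) := by rw [List.take_length]; exact h2
  have hE1 := hE _ le_rfl hfull
  have hge : D.z + d ≤ (P ++ Q).length := by
    by_contra hlt
    exact hE1 ⟨by omega, by omega⟩
  have hQn : D.n ≤ Q.length := by omega
  refine ⟨by omega, ?_, ?_⟩
  · rw [D.wloc _ _ hQn]
    rwa [D.wloc _ _ hQn] at h2
  · intro t ht1 ht2 hw
    have e : t = P'.length + (t - P'.length) := by omega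
    rw [e, D.wo_shift P' P Q (t := t - P'.length) (by omega) (by omega)] at hw
    have hu := hE _ (by omega) hw
    by_cases hlt : P.length + (t - P'.length) < D.z
    · exact hu ⟨by omega, by omega⟩
    · exact h3 _ (by omega) (by omega) hw

theorem good_of_clean {X : List α} (hX : X ∈ XX D.Wo D.z)
    (hE : ∀ t, t ≤ X.length → D.Wo (X.take t) → ¬ (D.z ≤ t + D.N ∧ t ≤ D.z + D.N))
    (hB : ¬ D.BadT (X.length - D.p0)) : X ∈ D.sch.Good := by
  have hz := D.hz
  refine ⟨hX, fun v => ?_⟩
  have hXl := hX.1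
  have hfull : D.Wo (X.take X.length) := by rw [List.take_length]; exact hX.2.1
  have hlen : D.z + D.N < X.length := by
    by_contra hlt
    exact hE _ le_rfl hfull ⟨by omega, by omega⟩
  obtain ⟨p, q, hpq, hp, hq⟩ := D.gcomp (X.drop D.p0) (by rw [List.length_drop]; omega)
    (by rw [List.length_drop]; exact hB)
    (D.act v ((X.take D.p0).map D.φ).prod + D.nu2 (X.take D.p0))
  obtain ⟨r, hr⟩ := Option.isSome_iff_exists.1 hq
  have hXe : (X.take D.p0 ++ p) ++ q = X := by
    rw [List.append_assoc, hpq, List.take_append_drop]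
  have hX1 : (X.take D.p0).length = D.p0 := by rw [List.length_take]; omega
  refine ⟨X.take D.p0 ++ p, ⟨_, p, rfl, hX1, hp⟩, q, ?_, hXe⟩
  intro x' P' hP'
  obtain ⟨X', p', rfl, hX', hp'⟩ := hP'
  have hN := D.glen _ _ hp
  have hN' := D.glen _ _ hp'
  have hTX : D.T v X = r := by
    rw [D.gsound p q _ r hp hr, hpq]
    rfl
  constructor
  · show (X' ++ p') ++ q ∈ XX D.Wo D.z
    refine D.XX_shift (X.take D.p0 ++ p) (X' ++ p') q ?_ ?_ D.N ?_ ?_ ?_ ?_
    · rw [List.length_append]; omega
    · rw [List.length_append]; omega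
    · rw [List.length_append, List.length_append]; omega
    · rw [List.length_append, List.length_append]; omega
    · rw [hXe]; exact hX
    · rw [hXe]
      intro t ht hw hh
      exact hE t ht hw ⟨hh.1, by omega⟩
  · show D.T x' ((X' ++ p') ++ q) = D.T v X
    rw [hTX, List.append_assoc, D.T_app _ _ _ hX']
    exact (D.gsound p' q _ r hp' hr).symm

/-- what a bad block shows -/
theorem of_bad {X : List α} (hX : X ∈ D.sch.Bad) :
    (∃ t, t ≤ X.length ∧ D.Wo (X.take t) ∧ D.z ≤ t + D.N ∧ t ≤ D.z + D.N) ∨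
      D.BadT (X.length - D.p0) := by
  by_contra h
  push Not at h
  obtain ⟨h1, h2⟩ := h
  exact hX.2 (D.good_of_clean hX.1 (fun t ht hw hh => by
    have := h1 t ht hw hh.1
    omega) h2)

/-- every long word ending in a wall has a prefix in `XX` -/
theorem exists_block (U : List α) (hU : D.z ≤ U.length) (hw : D.Wo U) :
    ∃ X ∈ XX D.Wo D.z, X <+: U := by
  classical
  have hex : ∃ t, D.z ≤ t ∧ t ≤ U.length ∧ D.Wo (U.take t) :=
    ⟨U.length, hU, le_rfl, by rw [List.take_length]; exact hw⟩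
  obtain ⟨h1, h2, h3⟩ := Nat.find_spec hex
  refine ⟨U.take (Nat.find hex), ⟨?_, h3, ?_⟩, List.take_prefix _ _⟩
  · rw [List.length_take]; omega
  · intro t ht1 ht2 hw2
    rw [List.length_take] at ht2
    have ht3 : t < Nat.find hex := by omega
    refine Nat.find_min hex ht3 ⟨ht1, by omega, ?_⟩
    rwa [List.take_take, min_eq_left (by omega)] at hw2

theorem cand {k k' : ℕ} (hk : k < D.K) (hk' : k' < D.K) (U P' X'' : List α)
    (hU : D.p0 ≤ U.length) (hP : P'.length = D.c k') (hX : X'' ∈ D.sch.Bad)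
    (hpre : X'' <+: P' ++ U.drop (D.c k)) :
    (∃ u, u ≤ U.length ∧ D.Wo (U.take u) ∧ D.z + D.c k ≤ u + D.c k' + D.N ∧
      u + D.c k' ≤ D.z + D.c k + D.N) ∨
    (∃ e, e ≤ U.length ∧ D.Wo (U.take e) ∧ D.z + D.c k ≤ e + D.c k' ∧
      (∀ u, D.z + D.c k ≤ u + D.c k' → u < e → ¬ D.Wo (U.take u)) ∧
      D.BadT (e + D.c k' - D.c k - D.p0)) := by
  have hz := D.hz
  have hck := D.hc k hk
  have hck' := D.hc k' hk'
  obtain ⟨r, hr⟩ := hpre
  have hlen : X''.length + r.length = D.c k' + (U.length - D.c k) := by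
    have := congrArg List.length hr
    rwa [List.length_append, List.length_append, List.length_drop, hP] at this
  have hXX : X'' ∈ XX D.Wo D.z := hX.1
  have hXl := hXX.1
  have key : ∀ t, D.n + D.c k' ≤ t → t ≤ X''.length →
      (D.Wo (X''.take t) ↔ D.Wo (U.take (t + D.c k - D.c k'))) := by
    intro t ht1 ht2
    have e1 : X''.take t = (P' ++ U.drop (D.c k)).take (P'.length + (t - D.c k')) := by
      rw [← hr, List.take_append_of_le_length (by omega)]
      congr 1
      omega
    have hl : (U.take (D.c k)).length = D.c k := by rw [List.length_take]; omega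
    have e2 : U.take (t + D.c k - D.c k') =
        (U.take (D.c k) ++ U.drop (D.c k)).take ((U.take (D.c k)).length + (t - D.c k')) := by
      rw [List.take_append_drop, hl]
      congr 1
      omega
    rw [e1, e2]
    exact D.wo_shift _ _ _ (by omega) (by rw [List.length_drop]; omega)
  rcases D.of_bad hX with ⟨t, ht1, ht2, ht3, ht4⟩ | hB
  · left
    refine ⟨t + D.c k - D.c k', by omega, (key t (by omega) ht1).1 ht2, by omega, by omega⟩
  · right
    refine ⟨X''.length + D.c k - D.c k', by omega, ?_, by omega, ?_, ?_⟩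
    · refine (key _ (by omega) le_rfl).1 ?_
      rw [List.take_length]
      exact hXX.2.1
    · intro u hu1 hu2 hw
      refine hXX.2.2 (u + D.c k' - D.c k) (by omega) (by omega) ?_
      refine (key _ (by omega) (by omega)).2 ?_
      have e : u + D.c k' - D.c k + D.c k - D.c k' = u := by omega
      rwa [e]
    · have e : X''.length + D.c k - D.c k' + D.c k' - D.c k - D.p0 = X''.length - D.p0 := by
        omega
      rwa [e]

theorem wall_unique (U : List α) {s t : ℕ} (hs : s ≤ U.length) (ht : t ≤ U.length)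
    (hws : D.Wo (U.take s)) (hwt : D.Wo (U.take t)) (h1 : s ≤ t + (2 * D.p0 + 2 * D.N))
    (h2 : t ≤ s + (2 * D.p0 + 2 * D.N)) : s = t := by
  rcases lt_trichotomy s t with h | h | h
  · have := D.wsep U s t h ht hws hwt
    omega
  · exact h
  · have := D.wsep U t s h hs hwt hws
    omega

open Classical in
theorem spoil (U : List α) (hU : D.p0 ≤ U.length) :
    ((Finset.range D.K).filter (fun k => ∃ k', k' < D.K ∧ k' ≠ k ∧ ∃ P' : List α,
      P'.length = D.c k' ∧ ∃ X'' ∈ D.sch.Bad, X'' <+: P' ++ U.drop (D.c k))).card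
      ≤ 1 + (D.C0 + D.C0) := by
  have hz := D.hz
  -- the wall near `z`, the first wall behind
  obtain ⟨e0, he0, he0'⟩ : ∃ e0, D.p0 ≤ e0 - D.p0 ∧ ∀ e, e ≤ U.length → D.Wo (U.take e) →
      D.z ≤ e + D.p0 → e ≤ D.z + D.p0 → e = e0 := by
    by_cases h : ∃ e, e ≤ U.length ∧ D.Wo (U.take e) ∧ D.z ≤ e + D.p0 ∧ e ≤ D.z + D.p0
    · obtain ⟨e0, h1, h2, h3, h4⟩ := h
      exact ⟨e0, by omega, fun e g1 g2 g3 g4 =>
        D.wall_unique U g1 h1 g2 h2 (by omega) (by omega)⟩
    · push Not at h
      refine ⟨2 * D.p0, by omega, fun e g1 g2 g3 g4 => ?_⟩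
      have := h e g1 g2 g3
      omega
  obtain ⟨e1, he1, he1'⟩ : ∃ e1, D.p0 ≤ e1 - D.p0 ∧ ∀ e, e ≤ U.length → D.Wo (U.take e) →
      D.z + D.p0 < e → (∀ u, D.z + D.p0 < u → u < e → ¬ D.Wo (U.take u)) → e = e1 := by
    by_cases h : ∃ e, e ≤ U.length ∧ D.Wo (U.take e) ∧ D.z + D.p0 < e ∧
        (∀ u, D.z + D.p0 < u → u < e → ¬ D.Wo (U.take u))
    · obtain ⟨e1, h1, h2, h3, h4⟩ := h
      refine ⟨e1, by omega, fun e g1 g2 g3 g4 => ?_⟩
      rcases lt_trichotomy e e1 with h | h | h
      · exact absurd g2 (h4 e g3 h)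
      · exact h
      · exact absurd h2 (g4 e1 h3 h)
    · push Not at h
      refine ⟨2 * D.p0, by omega, fun e g1 g2 g3 g4 => ?_⟩
      obtain ⟨u, hu1, hu2, hu3⟩ := h e g1 g2 g3
      exact absurd hu3 (g4 u hu1 hu2)
  let PE : Finset (ℕ × ℕ) := (Finset.range D.K ×ˢ Finset.range D.K).filter (fun ab =>
    ab.1 ≠ ab.2 ∧ ∃ u, u ≤ U.length ∧ D.Wo (U.take u) ∧ D.z + D.c ab.1 ≤ u + D.c ab.2 + D.N ∧
      u + D.c ab.2 ≤ D.z + D.c ab.1 + D.N)
  have hPE : PE.card ≤ 1 := by
    rw [Finset.card_le_one]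
    rintro ⟨a, b⟩ hab ⟨a', b'⟩ hab'
    simp only [PE, Finset.mem_filter, Finset.mem_product, Finset.mem_range] at hab hab'
    obtain ⟨⟨ha, hb⟩, hne, u, hu1, hu2, hu3, hu4⟩ := hab
    obtain ⟨⟨ha', hb'⟩, hne', u', hu1', hu2', hu3', hu4'⟩ := hab'
    have q1 := D.hc a ha
    have q2 := D.hc b hb
    have q3 := D.hc a' ha'
    have q4 := D.hc b' hb'
    have huu : u = u' := D.wall_unique U hu1 hu1' hu2 hu2' (by omega) (by omega)
    subst huu
    have hr := D.res a b a' b' ha hb ha' hb' hne hne' (by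
      rw [abs_le]
      constructor <;> omega)
    exact Prod.ext hr.1 hr.2
  let PB : ℕ → Finset (ℕ × ℕ) := fun T => (Finset.range D.K ×ˢ Finset.range D.K).filter
    (fun ab => ab.1 ≠ ab.2 ∧ D.BadT (T + D.c ab.1 - D.c ab.2))
  have hPB0 : (PB (e0 - D.p0)).card ≤ D.C0 := D.thin _ he0
  have hPB1 : (PB (e1 - D.p0)).card ≤ D.C0 := D.thin _ he1
  have hsub : ((Finset.range D.K).filter (fun k => ∃ k', k' < D.K ∧ k' ≠ k ∧ ∃ P' : List α,
      P'.length = D.c k' ∧ ∃ X'' ∈ D.sch.Bad, X'' <+: P' ++ U.drop (D.c k))) ⊆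
      PE.image Prod.fst ∪ ((PB (e0 - D.p0)).image Prod.snd ∪ (PB (e1 - D.p0)).image Prod.snd) := by
    intro k hk
    rw [Finset.mem_filter, Finset.mem_range] at hk
    obtain ⟨hk, k', hk', hne, P', hP', X'', hX, hpre⟩ := hk
    have q1 := D.hc k hk
    have q2 := D.hc k' hk'
    rw [Finset.mem_union, Finset.mem_union]
    rcases D.cand hk hk' U P' X'' hU hP' hX hpre with ⟨u, h⟩ | ⟨e, h1, h2, h3, h4, h5⟩
    · left
      rw [Finset.mem_image]
      refine ⟨(k, k'), ?_, rfl⟩
      simp only [PE, Finset.mem_filter, Finset.mem_product, Finset.mem_range]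
      exact ⟨⟨hk, hk'⟩, fun h => hne h.symm, u, h⟩
    · right
      by_cases hle : e ≤ D.z + D.p0
      · left
        have he : e = e0 := he0' e h1 h2 (by omega) hle
        rw [Finset.mem_image]
        refine ⟨(k', k), ?_, rfl⟩
        simp only [PB, Finset.mem_filter, Finset.mem_product, Finset.mem_range]
        refine ⟨⟨hk', hk⟩, hne, ?_⟩
        have e' : e0 - D.p0 + D.c k' - D.c k = e + D.c k' - D.c k - D.p0 := by omega
        rw [e']; exact h5
      · right
        have he : e = e1 := he1' e h1 h2 (by omega) (fun u hu1 hu2 => h4 u (by omega) hu2)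
        rw [Finset.mem_image]
        refine ⟨(k', k), ?_, rfl⟩
        simp only [PB, Finset.mem_filter, Finset.mem_product, Finset.mem_range]
        refine ⟨⟨hk', hk⟩, hne, ?_⟩
        have e' : e1 - D.p0 + D.c k' - D.c k = e + D.c k' - D.c k - D.p0 := by omega
        rw [e']; exact h5
  calc _ ≤ _ := Finset.card_le_card hsub
    _ ≤ (PE.image Prod.fst).card + ((PB (e0 - D.p0)).image Prod.snd ∪
          (PB (e1 - D.p0)).image Prod.snd).card := Finset.card_union_le _ _
    _ ≤ PE.card + ((PB (e0 - D.p0)).card + (PB (e1 - D.p0)).card) :=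
        Nat.add_le_add Finset.card_image_le ((Finset.card_union_le _ _).trans
          (Nat.add_le_add Finset.card_image_le Finset.card_image_le))
    _ ≤ _ := Nat.add_le_add hPE (Nat.add_le_add hPB0 hPB1)

/-- completeness of scheme 2 on two bad blocks -/
theorem hC2 : ∀ X1 ∈ D.sch.Bad, ∀ X2 ∈ D.sch.Bad, ∀ x, ∃ P ∈ D.sch.L2 x,
    ∃ Q ∈ D.sch.R2 (D.sch.T (D.sch.T x X1) X2), P ++ Q = X1 ++ X2 := by
  classical
  have hz := D.hz
  intro X hX Y hY v
  have hXX : X ∈ XX D.Wo D.z := hX.1
  have hYY : Y ∈ XX D.Wo D.z := hY.1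
  have hXl := hXX.1
  have hYl := hYY.1
  obtain ⟨I, hI, hI'⟩ := D.ecomp (X.take D.p0) v (by rw [List.length_take]; omega)
  have hsp := D.spoil (X ++ Y) (by rw [List.length_append]; omega)
  obtain ⟨k, hkI, hkS⟩ := Finset.exists_mem_notMem_of_card_lt_card (lt_of_le_of_lt hsp (by omega :
    1 + (D.C0 + D.C0) < I.card))
  obtain ⟨hk, hlam, hrho⟩ := hI' k hkI
  have hck := D.hc k hk
  obtain ⟨b, hb⟩ := Option.isSome_iff_exists.1 hrho
  have htt : (X.take D.p0).take (D.c k) = X.take (D.c k) := by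
    rw [List.take_take, min_eq_left hck]
  rw [htt] at hlam
  have hPl : (X.take (D.c k)).length = D.c k := by rw [List.length_take]; omega
  refine ⟨X.take (D.c k), ⟨k, hk, hPl, hlam⟩, X.drop (D.c k) ++ Y, ?_, by
    rw [← List.append_assoc, List.take_append_drop]⟩
  intro x' P' hP'
  obtain ⟨k', hk', hP'l, hP'lam⟩ := hP'
  have hck' := D.hc k' hk'
  have hdrop : (X ++ Y).drop (D.c k) = X.drop (D.c k) ++ Y :=
    List.drop_append_of_le_length (by omega)
  have hYn : D.n ≤ Y.length := by omega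
  by_cases hkk : k' = k
  · subst hkk
    -- the block of the same shape
    have hX'' : P' ++ X.drop (D.c k') ∈ XX D.Wo D.z := by
      refine D.XX_shift (X.take (D.c k')) P' (X.drop (D.c k')) (by omega) (by omega) 0
        (by omega) (by omega) ?_ ?_
      · rw [List.take_append_drop]; exact hXX
      · intro t _ _ hh
        omega
    by_cases hbad : P' ++ X.drop (D.c k') ∈ D.sch.Bad
    · left
      refine ⟨_, hbad, Y, hY, by rw [List.append_assoc], ?_⟩
      show D.T (D.T x' (P' ++ X.drop (D.c k'))) Y = D.T (D.T v X) Y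
      congr 1
      have hspl : X.drop (D.c k') = (X.take D.p0).drop (D.c k') ++ X.drop D.p0 := by
        have h1 : X.drop (D.c k') = (X.take D.p0 ++ X.drop D.p0).drop (D.c k') := by
          rw [List.take_append_drop]
        rw [h1, List.drop_append_of_le_length (by rw [List.length_take]; omega)]
      have e1 : D.T x' (P' ++ X.drop (D.c k')) =
          D.act b ((X.drop D.p0).map D.φ).prod + D.nu1 (X.drop D.p0) := by
        rw [hspl, ← List.append_assoc, D.T_app _ _ _ (by
          rw [List.length_append, List.length_drop, List.length_take]; omega)]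
        rw [← D.esound k' hk P' ((X.take D.p0).drop (D.c k')) x' b hP'l hP'lam hb]
      have e2 : D.T v X = D.act b ((X.drop D.p0).map D.φ).prod + D.nu1 (X.drop D.p0) := by
        have h := D.esound k' hk (X.take (D.c k')) ((X.take D.p0).drop (D.c k')) v b hPl hlam hb
        have h2 : X.take (D.c k') ++ (X.take D.p0).drop (D.c k') = X.take D.p0 := by
          rw [← htt, List.take_append_drop]
        rw [h2] at h
        show D.act (D.act v ((X.take D.p0).map D.φ).prod + D.nu2 (X.take D.p0)) _ + _ = _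
        rw [← h]
      rw [e1, e2]
    · right; left
      refine ⟨P' ++ X.drop (D.c k'), ?_, ?_⟩
      · by_contra hng
        exact hbad ⟨hX'', hng⟩
      · rw [← List.append_assoc]; exact List.prefix_append _ _
  · -- another clock: the first block is good
    right; left
    obtain ⟨X'', hX'', hpre⟩ := D.exists_block (P' ++ (X.drop (D.c k) ++ Y))
      (by rw [List.length_append, List.length_append, List.length_drop]; omega)
      (by
        rw [← List.append_assoc, D.wloc _ _ hYn]
        exact hYY.2.1)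
    refine ⟨X'', ?_, hpre⟩
    by_contra hng
    refine hkS ?_
    rw [Finset.mem_filter, Finset.mem_range]
    refine ⟨hk, k', hk', hkk, P', hP'l, X'', ⟨hX'', hng⟩, ?_⟩
    rw [hdrop]; exact hpre

end Dat

end Crest.Agent.R320.SemInst_868
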