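import Crest.Agent.R320.Main_517
import Crest.Agent.R320.Hk2_851

/-!
# Row 320: the top with semantic right labels (helper795)

Only the two finite left families and the height one of the fibres of the zone map are needed.
-/

set_option autoImplicit false

namespace Crest.Agent.R320.SemTop_795

open Crest.RegLang Crest.Agent.R320.Hk_851 Crest.Agent.R320.Blk_517 Crest.Agent.R320.Top_517
  Crest.Agent.R320.Fin_517 Crest.Agent.R320.Main_517

universe u

variable {α : Type u} {V : Type*}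

/-- fibres of the zone map -/
def XT (XX : Set (List α)) (T : V → List α → V) (v v' : V) : Language α :=
  {X | X ∈ XX ∧ T v X = v'}

/-- semantic right label of scheme 1 -/
def R1 (XX : Set (List α)) (T : V → List α → V) (L1 : V → Language α) (v' : V) : Language α :=
  {Q | ∀ v, ∀ P ∈ L1 v, P ++ Q ∈ XX ∧ T v (P ++ Q) = v'}

/-- blocks with a token which is not cut by scheme 1 -/
def Bd (XX : Set (List α)) (T : V → List α → V) (L1 : V → Language α) : Set (List α) :=
  BadS XX L1 (R1 XX T L1)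

/-- semantic right label of scheme 2 -/
def R2 (XX : Set (List α)) (T : V → List α → V) (L1 L2 : V → Language α) (v' : V) :
    Language α :=
  {Q | ∀ v, ∀ P ∈ L2 v, (∃ X, (X ∈ XX ∧ X ∉ Bd XX T L1) ∧ X <+: P ++ Q) ∨
    ∃ X1 ∈ XX, ∃ X2 ∈ XX, P ++ Q = X1 ++ X2 ∧ T (T v X1) X2 = v'}

theorem hl_quot {k : ℕ} {A : V → Language α} (L : V → Language α) [Finite V]
    (hL : ∀ v, (L v : Set (List α)).Finite) (hA : ∀ v, HL k (A v)) :
    HL k ({Q | ∀ v, ∀ P ∈ L v, P ++ Q ∈ A v} : Language α) := by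
  refine (HL.iInter (L := fun v : V => ({Q | ∀ P ∈ L v, P ++ Q ∈ A v} : Language α))
    fun v => ?_).congr fun w => Iff.rfl
  exact (HL.biInter (hL v) (L := fun P => ({Q | P ++ Q ∈ A v} : Language α))
    fun P _ => (hA v).lquot P).congr fun w => Iff.rfl

theorem hl_R1 [Finite V] {XX : Set (List α)} {T : V → List α → V} {L1 : V → Language α}
    (hXT : ∀ v v', HL 1 ({X | X ∈ XX ∧ T v X = v'} : Language α))
    (hL : ∀ v, (L1 v : Set (List α)).Finite) (v' : V) : HL 1 (R1 XX T L1 v') :=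
  (hl_quot L1 hL fun v => hXT v v').congr fun _ => Iff.rfl

theorem hl_XX [Finite V] [Nonempty V] {XX : Set (List α)} {T : V → List α → V}
    (hXT : ∀ v v', HL 1 ({X | X ∈ XX ∧ T v X = v'} : Language α)) : HL 1 (XX : Language α) := by
  obtain ⟨v⟩ := ‹Nonempty V›
  refine (HL.iUnion fun v' => hXT v v').congr fun w => ?_
  constructor
  · intro h; exact ⟨T v w, h, rfl⟩
  · rintro ⟨v', h, -⟩; exact h

theorem hl_Bd [Finite V] [Nonempty V] {XX : Set (List α)} {T : V → List α → V}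
    {L1 : V → Language α}
    (hXT : ∀ v v', HL 1 ({X | X ∈ XX ∧ T v X = v'} : Language α))
    (hL : ∀ v, (L1 v : Set (List α)).Finite) : HL 1 (Bd XX T L1 : Language α) :=
  BadS_hl (hl_XX hXT) (fun v => HL.finite (hL v)) (fun v => hl_R1 hXT hL v)

theorem hl_R2 [Finite V] [Nonempty V] {XX : Set (List α)} {T : V → List α → V}
    {L1 L2 : V → Language α}
    (hXT : ∀ v v', HL 1 ({X | X ∈ XX ∧ T v X = v'} : Language α))
    (hL : ∀ v, (L1 v : Set (List α)).Finite) (hL2 : ∀ v, (L2 v : Set (List α)).Finite) (v' : V) :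
    HL 1 (R2 XX T L1 L2 v') := by
  have hG : HL 1 ({X | X ∈ XX ∧ X ∉ Bd XX T L1} : Language α) :=
    (hl_XX hXT).setOf_and (hl_Bd hXT hL).compl
  have h1 := hG.prefix
  have h2 : ∀ v, HL 1 ({w | ∃ v1, w ∈ XT XX T v v1 * XT XX T v1 v'} : Language α) := fun v =>
    HL.iUnion (L := fun v1 : V => XT XX T v v1 * XT XX T v1 v')
      fun v1 => HL.mul (L := XT XX T v v1) (M := XT XX T v1 v') (hXT v v1) (hXT v1 v')
  refine (hl_quot L2 hL2 fun v => h1.setOf_or (h2 v)).congr fun Q => ?_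
  refine forall_congr' fun v => forall_congr' fun P => forall_congr' fun hP => ?_
  refine or_congr Iff.rfl ?_
  constructor
  · rintro ⟨X1, h1, X2, h2, he, hT⟩
    exact ⟨T v X1, Language.mem_mul.2 ⟨X1, ⟨h1, rfl⟩, X2, ⟨h2, hT⟩, he.symm⟩⟩
  · rintro ⟨v1, h⟩
    obtain ⟨X1, ⟨h1, e1⟩, X2, ⟨h2, e2⟩, he⟩ := Language.mem_mul.1 h
    exact ⟨X1, h1, X2, h2, he.symm, by rw [e1, e2]⟩

theorem top [Finite α] {S : Type*} [Monoid S] [Fintype S] [DecidableEq S] (φ : α → S)
    (XX : Set (List α)) (hXX : PCode XX) (T : (S → ZMod 2) → List α → (S → ZMod 2))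
    (nu : List α → (S → ZMod 2)) (hT : ∀ X ∈ XX, ∀ v, T v X = pact v (ev φ X) + nu X)
    (L1 L2 : (S → ZMod 2) → Language α)
    (hXT : ∀ v v', HL 1 ({X | X ∈ XX ∧ T v X = v'} : Language α))
    (hRest : ∀ s, HL 1 (RR φ XX s))
    (hL1 : ∀ v, (L1 v : Set (List α)).Finite) (hL2 : ∀ v, (L2 v : Set (List α)).Finite)
    (hL0 : ∀ v, [] ∉ L2 v)
    (c2 : ∀ X ∈ XX, ∀ Y ∈ XX, ∀ v, ∃ P Q b, X ++ Y = P ++ Q ∧
      P ∈ L2 v ∧ Q ∈ R2 XX T L1 L2 b) (s : S) :
    HL 3 ({w | ev φ w = s} : Language α) := by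
  have hpre : ∀ {X X' w : List α}, X ∈ XX → X' ∈ XX → X <+: w → X' <+: w → X = X' := by
    intro X X' w h h' e e'
    rcases List.prefix_or_prefix_of_prefix e e' with h1 | h1
    · exact hXX.2 X h X' h' h1
    · exact (hXX.2 X' h' X h h1).symm
  refine main_pact φ XX hXX T nu hT L1 (R1 XX T L1) L2 (R2 XX T L1 L2) (hl_XX hXT) hXT hRest
    (fun v => HL.finite (hL1 v)) (fun v => hl_R1 hXT hL1 v) (fun v => HL.finite (hL2 v))
    (fun v => hl_R2 hXT hL1 hL2 v) hL0 ?_ ?_ ?_ ?_ s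
  · intro v v' P Q hP hQ
    exact hQ v P hP
  · intro v v' P Q X hP hQ hX hpr
    rcases hQ v P hP with ⟨X0, ⟨h1, h2⟩, h3⟩ | ⟨X1, h1, X2, h2, he, -⟩
    · have := hpre h1 hX.1 (h3.trans hpr) (List.prefix_refl X)
      exact h2 (this ▸ hX)
    · have h4 : X1 <+: X := (he ▸ List.prefix_append X1 X2 : X1 <+: P ++ Q).trans hpr
      have h5 := hXX.2 X1 h1 X hX.1 h4
      subst h5
      rw [he] at hpr
      have h6 := hpr.length_le
      rw [List.length_append] at h6
      have h7 : X2 = [] := List.length_eq_zero_iff.1 (by omega)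
      exact hXX.1 (h7 ▸ h2)
  · intro v v' P Q X1 X2 hP hQ hX1 hX2 hc
    have hX1' : X1 <+: P ++ Q ∨ P ++ Q <+: X1 ++ X2 := by
      rcases hc with h | h
      · exact Or.inl ((List.prefix_append X1 X2).trans h)
      · exact Or.inr h
    rcases hQ v P hP with ⟨X0, ⟨h1, h2⟩, h3⟩ | ⟨Y1, h1, Y2, h2, he, hT'⟩
    · exfalso
      have : X0 = X1 := by
        rcases hc with h | h
        · exact hpre h1 hX1.1 h3 ((List.prefix_append X1 X2).trans h)
        · exact hpre h1 hX1.1 (h3.trans h) (List.prefix_append X1 X2)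
      exact h2 (this ▸ hX1)
    · have e1 : Y1 = X1 := by
        rcases hc with h | h
        · exact hpre (w := P ++ Q) h1 hX1.1 (he ▸ List.prefix_append Y1 Y2)
            ((List.prefix_append X1 X2).trans h)
        · exact hpre (w := X1 ++ X2) h1 hX1.1
            ((he ▸ List.prefix_append Y1 Y2 : Y1 <+: P ++ Q).trans h) (List.prefix_append X1 X2)
      subst e1
      have e2 : Y2 = X2 := by
        rw [he] at hc
        rcases hc with h | h
        · exact (hXX.2 X2 hX2.1 Y2 h2 ((List.prefix_append_right_inj Y1).1 h)).symm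
        · exact hXX.2 Y2 h2 X2 hX2.1 ((List.prefix_append_right_inj Y1).1 h)
      subst e2
      exact ⟨he.symm, hT'⟩
  · intro X hX Y hY v
    exact c2 X hX.1 Y hY.1 v

end Crest.Agent.R320.SemTop_795
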