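import Crest.Agent.R320.Inst_195
import Crest.Agent.R320.Top5_110

/-!
# Row 320: the natural chain instance over 110's semantic top (helper195)
-/

set_option autoImplicit false
set_option linter.unusedVariables false
set_option linter.unusedSectionVars false

namespace Crest.Agent.R320.Sem_195

open Crest.Agent.R320.Inst_195 Crest.Agent.R320.Code110 Crest.Agent.R320.Hk_851

universe u v

variable {α : Type u} {S : Type*} {V : Type v} [Monoid S] [AddCommGroup V]

/-- **(s2), semantic form** -/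
theorem s2b {Wo : List α → Prop} {n W z p0 N1 : ℕ} (hW : Walls Wo n W)
    (hz : p0 + N1 + n ≤ z) {φ : List α → S} {act : V → S → V}
    {nu1 nu2 : List α → V} {Bad : ℤ → Prop}
    {K : ℕ} {c : ℕ → ℕ} (hc : ∀ k, k < K → c k < p0) {lam2 rho2 : ℕ → List α → Option V}
    (e1 : ∀ k, k < K → ∀ P Q v b, P.length = c k → lam2 k P = some v → rho2 k Q = some b →
      b = act v (φ (P ++ Q)) + nu2 (P ++ Q)) :
    ∀ P v Q b, LP2 K c lam2 P v → R2 Wo z p0 N1 Bad φ act nu1 nu2 K c rho2 Q = some b →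
      (∀ X ∈ XX Wo z, X <+: P ++ Q → BadX Wo z p0 N1 Bad X) →
      ∃ Q1 X2, Q = Q1 ++ X2 ∧ Q1 ≠ [] ∧ P ++ Q1 ∈ XX Wo z ∧ X2 ∈ XX Wo z ∧
        T φ act nu1 nu2 p0 (T φ act nu1 nu2 p0 v (P ++ Q1)) X2 = b := by
  rintro P v Q b ⟨k0, hk0, hPl, hlam⟩ hR hlive
  unfold R2 at hR
  split_ifs at hR with hex
  obtain ⟨k, t, r, hk, hCB, huniq, hEnd, hX2, hrho, hb⟩ := hex.choose_spec
  rw [Option.some.injEq] at hR
  rw [hR] at hb
  have hc0 := hc k0 hk0
  have hck := hc k hk
  -- the true end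
  have hQl : (Q.drop t).length = Q.length - t := List.length_drop
  have hWoQ : Wo Q := by
    have h := (hW.loc (Q.take t) (Q.drop t) (hW.len _ hX2.2.1)).2 hX2.2.1
    rwa [List.take_append_drop] at h
  have hQz : z ≤ Q.length := by have := hX2.1; omega
  classical
  have hex0 : ∃ t0, z ≤ t0 + c k0 ∧ t0 ≤ Q.length ∧ Wo (Q.take t0) :=
    ⟨Q.length, by omega, le_rfl, by rwa [List.take_length]⟩
  obtain ⟨a1, a2, a3⟩ := Nat.find_spec hex0
  have hEnd0 : End Wo z (c k0) Q (Nat.find hex0) := by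
    refine ⟨a1, a2, a3, fun s hs1 hs2 hs3 => ?_⟩
    exact Nat.find_min hex0 hs2 ⟨hs1, by omega, hs3⟩
  set t0 := Nat.find hex0 with ht0
  have hZ0 : P ++ Q.take t0 ∈ XX Wo z := zone_of_end hW hz hc0 hPl hEnd0
  have hbad0 : CB Wo z p0 N1 Bad (c k0) Q := by
    by_contra hnb
    have hnX : ¬ BadX Wo z p0 N1 Bad (P ++ Q.take t0) := by
      rintro (⟨s, s1, s2, s3, s4⟩ | hB)
      · apply hnb
        left
        rw [List.length_append, List.length_take] at s1
        obtain ⟨s', rfl⟩ := Nat.exists_eq_add_of_le (show P.length ≤ s by omega)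
        rw [List.take_length_add_append, List.take_take, Nat.min_eq_left (by omega)] at s2
        have hl : n ≤ (Q.take s').length := by rw [List.length_take]; omega
        exact ⟨s', by omega, (hW.loc _ _ hl).1 s2, by omega, by omega⟩
      · apply hnb
        right
        refine ⟨t0, hEnd0, ?_⟩
        rw [List.length_append, List.length_take, Nat.min_eq_left a2, hPl] at hB
        push_cast at hB
        rwa [add_comm (t0 : ℤ)]
    refine hnX (hlive _ hZ0 ?_)
    exact (List.prefix_append_right_inj P).2 (List.take_prefix _ _)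
  have hkk : k0 = k := by
    by_contra hne
    exact huniq k0 hk0 hne hbad0
  subst hkk
  have hZ : P ++ Q.take t ∈ XX Wo z := zone_of_end hW hz hck hPl hEnd
  obtain ⟨e1', e2', e3', e4'⟩ := hEnd
  have htl : (Q.take t).length = t := by rw [List.length_take]; omega
  refine ⟨Q.take t, Q.drop t, (List.take_append_drop _ _).symm, ?_, hZ, hX2, ?_⟩
  · intro h0
    rw [h0] at htl
    simp at htl
    omega
  · rw [hb]
    congr 1
    have h1 : (P ++ Q.take t).take p0 = P ++ Q.take (p0 - c k0) := by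
      rw [List.take_append, List.take_of_length_le (by omega), hPl, List.take_take,
        Nat.min_eq_left (by omega)]
    have h2 : (P ++ Q.take t).drop p0 = (Q.take t).drop (p0 - c k0) := by
      rw [List.drop_append, List.drop_of_length_le (by omega), hPl, List.nil_append]
    unfold T
    rw [h1, h2, e1 k0 hk P _ v r hPl hlam hrho]


/-- **(cc), semantic form** -/
theorem ccb {Wo : List α → Prop} {n W z p0 N1 r0 Lam R0 : ℕ} (hW : Walls Wo n W)
    (hz : p0 + N1 + n ≤ z) (hWL : 2 * Lam + 2 * N1 ≤ W)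
    (hzL : Lam + N1 + n + p0 ≤ z) {φ : List α → S} {act : V → S → V}
    {nu1 nu2 : List α → V} {Bad : ℤ → Prop}
    {K : ℕ} {c : ℕ → ℕ} (hc : ∀ k, k < K → c k < p0) (hspan : ∀ k, k < K → c k ≤ Lam)
    (hB : ∀ τ : ℤ, ∃ A : Finset ℕ, A.card ≤ r0 ∧ ∀ k, k < K → ∀ k', k' < K → k' ≠ k →
      Bad (τ - ((c k : ℤ) - c k')) → k ∈ A)
    (hE : ∀ τ : ℤ, ∃ A : Finset ℕ, A.card ≤ 1 ∧ ∀ k, k < K → ∀ k', k' < K → k' ≠ k →
      |τ - ((c k : ℤ) - c k')| ≤ N1 → k ∈ A)
    {lam2 rho2 : ℕ → List α → Option V} (hR0 : 2 * r0 + 1 < R0)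
    (e2 : ∀ (u : List α) (v : V), u.length = p0 → ∃ I : Finset ℕ, R0 ≤ I.card ∧ ∀ k ∈ I,
      k < K ∧ lam2 k (u.take (c k)) = some v ∧ (rho2 k (u.drop (c k))).isSome) :
    ∀ X ∈ XX Wo z, BadX Wo z p0 N1 Bad X → ∀ X2 ∈ XX Wo z, ∀ v,
      (∃ P Q, X ++ X2 = P ++ Q ∧ P.length < X.length ∧ LP2 K c lam2 P v ∧
        (R2 Wo z p0 N1 Bad φ act nu1 nu2 K c rho2 Q).isSome) := by
  classical
  intro X hX hb X2 hX2 v
  · have := hX.1
    have hXz := hX.1
    have hX2z := hX2.1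
    have hWX := hX.2.1
    have hWX2 := hX2.2.1
    have hXX2 : Wo (X ++ X2) := (hW.loc _ _ (hW.len _ hWX2)).2 hWX2
    obtain ⟨A, hA, hA'⟩ := spoil (U := X ++ X2) hW hWL hzL hc hspan hB hE
      ⟨(X ++ X2).length, by rw [List.length_append]; omega, le_rfl, by rwa [List.take_length]⟩
    have hul : (X.take p0).length = p0 := by rw [List.length_take]; omega
    obtain ⟨I, hI, hI'⟩ := e2 (X.take p0) v hul
    obtain ⟨k, hkI, hkA⟩ : ∃ k ∈ I, k ∉ A := by
      by_contra hno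
      push Not at hno
      have := Finset.card_le_card (show I ⊆ A from fun x hx => hno x hx)
      omega
    obtain ⟨hk, hl, hr⟩ := hI' k hkI
    have hck := hc k hk
    have ht1 : (X.take p0).take (c k) = X.take (c k) := by
      rw [List.take_take, Nat.min_eq_left hck.le]
    have hPl : (X.take (c k)).length = c k := by rw [List.length_take]; omega
    have hdr : (X ++ X2).drop (c k) = X.drop (c k) ++ X2 :=
      List.drop_append_of_le_length (by omega)
    have hdl : (X.drop (c k)).length = X.length - c k := List.length_drop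
    have htk : ∀ s, s ≤ X.length - c k → ((X ++ X2).drop (c k)).take s = (X.drop (c k)).take s := by
      intro s hs
      rw [hdr, List.take_append_of_le_length (by omega)]
    have hwX : ∀ s, n ≤ s → s ≤ X.length - c k →
        (Wo (((X ++ X2).drop (c k)).take s) ↔ Wo (X.take (c k + s))) := by
      intro s hns hs
      rw [htk s hs]
      have he : X.take (c k + s) = X.take (c k) ++ (X.drop (c k)).take s := List.take_add
      rw [he]
      refine (hW.loc _ _ ?_).symm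
      rw [List.length_take, hdl]; omega
    -- the end of the zone
    have hEnd : End Wo z (c k) ((X ++ X2).drop (c k)) (X.length - c k) := by
      refine ⟨by omega, by rw [hdr, List.length_append, hdl]; omega, ?_, ?_⟩
      · rw [hwX _ (by omega) le_rfl]
        rw [show c k + (X.length - c k) = X.length by omega, List.take_length]
        exact hWX
      · intro s h1 h2 h3
        have hn := hW.len _ h3
        rw [List.length_take] at hn
        rw [hwX s (by omega) h2.le] at h3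
        exact hX.2.2 _ (by omega) (by omega) h3
    have hCB : CB Wo z p0 N1 Bad (c k) ((X ++ X2).drop (c k)) := by
      rcases hb with ⟨s, s1, s2, s3, s4⟩ | hB'
      · left
        refine ⟨s - c k, by rw [hdr, List.length_append, hdl]; omega, ?_, by omega, by omega⟩
        rw [hwX _ (by omega) (by omega)]
        rwa [show c k + (s - c k) = s by omega]
      · right
        refine ⟨_, hEnd, ?_⟩
        rw [Nat.cast_sub (by omega)]
        convert hB' using 1
        ring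
    obtain ⟨r, hr'⟩ := Option.isSome_iff_exists.1 hr
    have hrho : rho2 k (((X ++ X2).drop (c k)).take (p0 - c k)) = some r := by
      rw [htk _ (by omega), ← hr']
      congr 1
      rw [List.drop_take]
    have hdX2 : ((X ++ X2).drop (c k)).drop (X.length - c k) = X2 := by
      rw [List.drop_drop, show c k + (X.length - c k) = X.length by omega, List.drop_left]
    refine ⟨X.take (c k), (X ++ X2).drop (c k), ?_, by omega, ⟨k, hk, hPl, by rw [← ht1]; exact hl⟩, ?_⟩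
    · rw [hdr, ← List.append_assoc, List.take_append_drop]
    · have hex : ∃ b k1 t r, RR2 Wo z p0 N1 Bad φ act nu1 nu2 K c rho2
          ((X ++ X2).drop (c k)) k1 t r b := by
        refine ⟨_, k, X.length - c k, r, hk, hCB, fun k' hk' hne hbad => ?_, hEnd, ?_, hrho, rfl⟩
        · exact hkA (hA' k hk k' hk' hne hbad)
        · rw [hdX2]; exact hX2
      unfold R2
      split_ifs with h
      · rfl

/-- the zones as a language -/
def XL (Wo : List α → Prop) (z : ℕ) : Language α := XX Wo z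

/-- the bad zones -/
def BL (Wo : List α → Prop) (z p0 N1 : ℕ) (Bad : ℤ → Prop) : Language α :=
  {X | X ∈ XX Wo z ∧ BadX Wo z p0 N1 Bad X}

theorem pc_XL {Wo : List α → Prop} {z : ℕ} (hz : 0 < z) : PC (XL Wo z) where
  ne := XX_nil hz
  pf := by
    rintro X hX Y hY ⟨Z, rfl⟩
    rw [XX_pc X hX Z hY, List.append_nil]

theorem BL_sub {Wo : List α → Prop} {z p0 N1 : ℕ} {Bad : ℤ → Prop} :
    ∀ X ∈ BL Wo z p0 N1 Bad, X ∈ XL Wo z := fun X h => h.1

theorem C1 {Wo : List α → Prop} {n W z p0 N1 N2 : ℕ} (hW : Walls Wo n W)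
    (hz : p0 + N1 + n ≤ z) (hz2 : p0 + N2 ≤ z) {φ : List α → S}
    (hφ : ∀ u v, φ (u ++ v) = φ u * φ v) {act : V → S → V}
    {nu1 nu2 : List α → V} {lam1 rho1 : List α → Option V} {Bad : ℤ → Prop}
    (g1 : ∀ P v, lam1 P = some v → P.length < N1)
    (g2 : ∀ P Q v b, lam1 P = some v → rho1 Q = some b → b = act v (φ (P ++ Q)) + nu1 (P ++ Q))
    (g3 : ∀ Y : List α, N2 ≤ Y.length → ¬ Bad (Y.length : ℤ) → ∀ v, ∃ P Q, Y = P ++ Q ∧
      lam1 P = some v ∧ (rho1 Q).isSome) :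
    ∀ u ∈ XL Wo z, u ∉ BL Wo z p0 N1 Bad → ∀ x, ∀ t ∈ (XL Wo z) ^ 0, ∃ p q y,
      u ++ t = p ++ q ∧ p ∈ ({P | LP1 φ act nu2 lam1 p0 P x} : Language α) ∧
      q ∈ Rsem (XL Wo z) (XL Wo z) (fun X v => T φ act nu1 nu2 p0 v X) 0
        (fun x => ({P | LP1 φ act nu2 lam1 p0 P x} : Language α)) y := by
  intro u hu hb x t ht
  rw [pow_zero, Language.mem_one] at ht
  subst ht
  obtain ⟨P, Q, he, -, hl, hr⟩ := complete1 (act := act) (φ := φ) (nu2 := nu2) hW hz hz2 g1 g3 hu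
    (fun h => hb ⟨hu, h⟩) x
  obtain ⟨b, hb'⟩ := Option.isSome_iff_exists.1 hr
  refine ⟨P, Q, b, by rw [List.append_nil, he], hl, ?_⟩
  intro x' P' hP'
  left
  obtain ⟨h1, h2⟩ := s1 hW hz hφ g1 g2 P' x' Q b hP' hb'
  refine ⟨b, Language.mem_mul.2 ⟨P' ++ Q, ⟨h1, h2⟩, [], ⟨rfl, rfl⟩, by simp⟩⟩

theorem C2 {Wo : List α → Prop} {n W z p0 N1 r0 Lam R0 : ℕ} (hW : Walls Wo n W)
    (hz : p0 + N1 + n ≤ z) (hWL : 2 * Lam + 2 * N1 ≤ W)
    (hzL : Lam + N1 + n + p0 ≤ z) {φ : List α → S} {act : V → S → V}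
    {nu1 nu2 : List α → V} {Bad : ℤ → Prop}
    {K : ℕ} {c : ℕ → ℕ} (hc : ∀ k, k < K → c k < p0) (hspan : ∀ k, k < K → c k ≤ Lam)
    (hB : ∀ τ : ℤ, ∃ A : Finset ℕ, A.card ≤ r0 ∧ ∀ k, k < K → ∀ k', k' < K → k' ≠ k →
      Bad (τ - ((c k : ℤ) - c k')) → k ∈ A)
    (hE : ∀ τ : ℤ, ∃ A : Finset ℕ, A.card ≤ 1 ∧ ∀ k, k < K → ∀ k', k' < K → k' ≠ k →
      |τ - ((c k : ℤ) - c k')| ≤ N1 → k ∈ A)
    {lam2 rho2 : ℕ → List α → Option V} (hR0 : 2 * r0 + 1 < R0)
    (e1 : ∀ k, k < K → ∀ P Q v b, P.length = c k → lam2 k P = some v → rho2 k Q = some b →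
      b = act v (φ (P ++ Q)) + nu2 (P ++ Q))
    (e2 : ∀ (u : List α) (v : V), u.length = p0 → ∃ I : Finset ℕ, R0 ≤ I.card ∧ ∀ k ∈ I,
      k < K ∧ lam2 k (u.take (c k)) = some v ∧ (rho2 k (u.drop (c k))).isSome) :
    ∀ u ∈ BL Wo z p0 N1 Bad, ∀ x, ∀ t ∈ (BL Wo z p0 N1 Bad) ^ 1, ∃ p q y,
      u ++ t = p ++ q ∧ p ∈ ({P | LP2 K c lam2 P x} : Language α) ∧
      q ∈ Rsem (XL Wo z) (BL Wo z p0 N1 Bad) (fun X v => T φ act nu1 nu2 p0 v X) 1
        (fun x => ({P | LP2 K c lam2 P x} : Language α)) y := by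
  intro u hu x t ht
  rw [pow_one] at ht
  obtain ⟨P, Q, he, -, hl, hr⟩ := ccb (φ := φ) (act := act) (nu1 := nu1) (nu2 := nu2) hW hz hWL hzL hc hspan hB hE hR0 e2
    u hu.1 hu.2 t ht.1 x
  obtain ⟨b, hb'⟩ := Option.isSome_iff_exists.1 hr
  refine ⟨P, Q, b, he, hl, ?_⟩
  intro x' P' hP'
  by_cases hlive : ∀ X ∈ XX Wo z, X <+: P' ++ Q → BadX Wo z p0 N1 Bad X
  · obtain ⟨Q1, X2, hQ, -, h1, h2, h3⟩ := s2b hW hz hc e1 P' x' Q b hP' hb' hlive
    have hb1 : BadX Wo z p0 N1 Bad (P' ++ Q1) := hlive _ h1 ⟨X2, by rw [hQ, List.append_assoc]⟩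
    by_cases hb2 : BadX Wo z p0 N1 Bad X2
    · left
      refine ⟨T φ act nu1 nu2 p0 x' (P' ++ Q1), Language.mem_mul.2 ⟨P' ++ Q1, ⟨⟨h1, hb1⟩, rfl⟩, X2,
        ⟨b, Language.mem_mul.2 ⟨X2, ⟨⟨h2, hb2⟩, h3⟩, [], ⟨rfl, rfl⟩, by simp⟩⟩, ?_⟩⟩
      rw [hQ, List.append_assoc]
    · right
      right
      refine Language.mem_mul.2 ⟨P' ++ Q1, h1, X2, ⟨X2, h2, fun h => hb2 h.2, List.prefix_rfl⟩, ?_⟩
      rw [hQ, List.append_assoc]
  · push Not at hlive
    obtain ⟨X, hX, hpre, hnb⟩ := hlive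
    right
    left
    exact ⟨X, hX, fun h => hnb h.2, hpre⟩

end Crest.Agent.R320.Sem_195
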