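import Crest.Agent.R320.SemTop_727
import Crest.Agent.R320.ExactR_237

/-!
# Row 320: the two schemes on ALL words, natural chain rule, in the semantic form of 727 (helper302)

Blocks `XX` = first left-looking wall at a place `≥ z`.  Scheme 1 = any word gadget `lam1 rho1 nu1`
(sound on all words, complete off `BadT |Y|`), scheme 2 = an exact gadget on words of length `p0`
with places `c k`.  We prove: a block without a wall near `z` and with `¬ BadT` is `Good`, and the
completeness `hC2` of scheme 2 on two consecutive bad blocks.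
-/

set_option autoImplicit false

namespace Crest.Agent.R320.Sem_302

open Crest.RegLang Crest.Agent.R320.Hk_851 Crest.Agent.R320.SemTop_727 Crest.Agent.R320.Blk467

/-- all data -/
structure Dat (α S V : Type) where
  f : α → S
  act : V → S → V
  Wo : List α → Prop
  n : ℕ
  z : ℕ
  p0 : ℕ
  N1 : ℕ
  La : ℕ
  lam1 : List α → Option V
  rho1 : List α → Option V
  nu1 : List α → V
  BadT : ℕ → Prop
  K : ℕ
  C0 : ℕ
  c : ℕ → ℕ
  lam2 : ℕ → List α → Option V
  rho2 : ℕ → List α → Option V
  nu2 : List α → V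

variable {α S V : Type} [Monoid S] [AddCommGroup V]

def pf (f : α → S) (w : List α) : S := (w.map f).prod

open Classical in
structure Ok (d : Dat α S V) : Prop where
  hloc : ∀ P Q, d.n ≤ Q.length → (d.Wo (P ++ Q) ↔ d.Wo Q)
  hgap : ∀ (X : List α) (s t : ℕ), s < t → t ≤ X.length → d.Wo (X.take s) → d.Wo (X.take t) →
    2 * (d.p0 + d.N1) < t - s
  hz : 3 * d.p0 + 3 * d.N1 + d.n + d.La + 1 ≤ d.z
  hb1 : ∀ P v, d.lam1 P = some v → P.length ≤ d.N1
  hs1 : ∀ P Q v r, d.lam1 P = some v → d.rho1 Q = some r → d.La ≤ Q.length →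
    r = d.act v (pf d.f (P ++ Q)) + d.nu1 (P ++ Q)
  hc1 : ∀ u, d.La ≤ u.length → ¬ d.BadT u.length → ∀ v, ∃ P Q, P ++ Q = u ∧
    d.lam1 P = some v ∧ (d.rho1 Q).isSome
  hcp : ∀ k < d.K, d.c k ≤ d.p0
  hres : ∀ i j k l, i < d.K → j < d.K → k < d.K → l < d.K → i ≠ j → k ≠ l → (i, j) ≠ (k, l) →
    d.c i + d.c l + 2 * d.N1 < d.c k + d.c j ∨ d.c k + d.c j + 2 * d.N1 < d.c i + d.c l
  hspoil : ∀ T, d.La ≤ T → (((Finset.range d.K) ×ˢ (Finset.range d.K)).filter
    (fun q => q.1 ≠ q.2 ∧ d.BadT (T + d.c q.2 - d.c q.1))).card ≤ d.C0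
  hs2 : ∀ k < d.K, ∀ (P Q : List α) (v b : V), P.length = d.c k →
    d.lam2 k P = some v → d.rho2 k Q = some b → b = d.act v (pf d.f (P ++ Q)) + d.nu2 (P ++ Q)
  hc2 : ∀ (u : List α) (v : V), u.length = d.p0 → ∃ I : Finset ℕ, 2 * d.C0 + 2 ≤ I.card ∧
    ∀ k ∈ I, k < d.K ∧ d.lam2 k (u.take (d.c k)) = some v ∧ (d.rho2 k (u.drop (d.c k))).isSome

/-- blocks -/
def XX (d : Dat α S V) : Set (List α) :=
  {X | d.z ≤ X.length ∧ d.Wo X ∧ ∀ t, d.z ≤ t → t < X.length → ¬ d.Wo (X.take t)}

/-- zone map -/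
def T (d : Dat α S V) (v : V) (X : List α) : V :=
  d.act (d.act v (pf d.f (X.take d.p0)) + d.nu2 (X.take d.p0)) (pf d.f (X.drop d.p0)) +
    d.nu1 (X.drop d.p0)

/-- 727's data -/
def D (d : Dat α S V) : Sch α V where
  XX := XX d
  T := T d
  L1 := fun v => {P | d.p0 ≤ P.length ∧
    d.lam1 (P.drop d.p0) = some (d.act v (pf d.f (P.take d.p0)) + d.nu2 (P.take d.p0))}
  L2 := fun v => {P | ∃ k < d.K, P.length = d.c k ∧ d.lam2 k P = some v}

variable {d : Dat α S V}

theorem least (p : ℕ → Prop) (h : ∃ t, p t) : ∃ t, p t ∧ ∀ s, p s → t ≤ s := by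
  classical
  exact ⟨Nat.find h, Nat.find_spec h, fun s hs => Nat.find_min' h hs⟩

theorem wo_shift (h : Ok d) (P P' Q : List α) {s : ℕ} (h1 : d.n ≤ s) (h2 : s ≤ Q.length) :
    d.Wo ((P ++ Q).take (P.length + s)) ↔ d.Wo ((P' ++ Q).take (P'.length + s)) := by
  have hl : d.n ≤ (Q.take s).length := by rw [List.length_take]; omega
  rw [List.take_length_add_append, List.take_length_add_append, h.hloc _ _ hl, h.hloc _ _ hl]

theorem T_eq (h : Ok d) {x : V} {P Q : List α} {r : V} (hP : d.p0 ≤ P.length)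
    (hl : d.lam1 (P.drop d.p0) = some (d.act x (pf d.f (P.take d.p0)) + d.nu2 (P.take d.p0)))
    (hr : d.rho1 Q = some r) (hQ : d.La ≤ Q.length) : T d x (P ++ Q) = r := by
  unfold T
  rw [List.take_append_of_le_length hP, List.drop_append_of_le_length hP]
  exact (h.hs1 _ _ _ _ hl hr hQ).symm

theorem good_of (h : Ok d) {X : List α} (hX : X ∈ XX d)
    (hE : ∀ t, d.z ≤ t + d.N1 → t < d.z + d.N1 → t ≤ X.length → ¬ d.Wo (X.take t))
    (hB : ¬ d.BadT (X.length - d.p0)) : X ∈ (D d).Good := by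
  have hz := h.hz
  obtain ⟨hX1, hX2, hX3⟩ := hX
  have hlong : d.z + d.N1 ≤ X.length := by
    by_contra hc
    exact hE X.length (by omega) (by omega) le_rfl (by rw [List.take_length]; exact hX2)
  refine ⟨⟨hX1, hX2, hX3⟩, fun x => ?_⟩
  have hYl : (X.drop d.p0).length = X.length - d.p0 := List.length_drop
  obtain ⟨P1, Q1, hPQ, hl, hr⟩ := h.hc1 (X.drop d.p0) (by rw [hYl]; omega)
    (by rw [hYl]; exact hB) (d.act x (pf d.f (X.take d.p0)) + d.nu2 (X.take d.p0))
  obtain ⟨r, hr⟩ := Option.isSome_iff_exists.1 hr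
  have hP1 := h.hb1 _ _ hl
  have htl : (X.take d.p0).length = d.p0 := by rw [List.length_take]; omega
  have hsum : P1.length + Q1.length = X.length - d.p0 := by
    rw [← hYl, ← hPQ, List.length_append]
  have hXe : X.take d.p0 ++ P1 ++ Q1 = X := by
    rw [List.append_assoc, hPQ, List.take_append_drop]
  have htk : (X.take d.p0 ++ P1).take d.p0 = X.take d.p0 := by
    rw [List.take_append_of_le_length (by omega), List.take_take, min_self]
  have hdr : (X.take d.p0 ++ P1).drop d.p0 = P1 := by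
    rw [List.drop_append_of_le_length (by omega), List.drop_eq_nil_of_le (by omega),
      List.nil_append]
  have hPl : (X.take d.p0 ++ P1).length = d.p0 + P1.length := by
    rw [List.length_append, htl]
  have hTX : T d x X = r := by
    have := T_eq h (x := x) (P := X.take d.p0 ++ P1) (Q := Q1) (by omega)
      (by rw [htk, hdr]; exact hl) hr (by omega)
    rw [hXe] at this
    exact this
  refine ⟨X.take d.p0 ++ P1, ⟨by omega, by rw [htk, hdr]; exact hl⟩, Q1, ?_, hXe⟩
  intro x' P' hP'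
  obtain ⟨hP'1, hP'2⟩ := hP'
  have hP'3 := h.hb1 _ _ hP'2
  rw [List.length_drop] at hP'3
  have hlen' : (P' ++ Q1).length = P'.length + Q1.length := List.length_append
  have hwall : ∀ s, d.n ≤ s → s ≤ Q1.length →
      (d.Wo ((P' ++ Q1).take (P'.length + s)) ↔ d.Wo (X.take (d.p0 + P1.length + s))) := by
    intro s h1 h2
    have := wo_shift h P' (X.take d.p0 ++ P1) Q1 h1 h2
    rw [hXe, hPl] at this
    exact this
  refine ⟨⟨by omega, ?_, ?_⟩, ?_⟩
  · have h1 := (hwall Q1.length (by omega) le_rfl).2 (by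
      rw [List.take_of_length_le (by omega)]; exact hX2)
    rw [List.take_of_length_le (by omega)] at h1
    exact h1
  · intro t ht1 ht2 hw
    have e : t = P'.length + (t - P'.length) := by omega
    rw [e] at hw
    have h1 := (hwall (t - P'.length) (by omega) (by omega)).1 hw
    by_cases h2 : d.z + d.N1 ≤ d.p0 + P1.length + (t - P'.length)
    · exact hX3 _ (by omega) (by omega) h1
    · exact hE _ (by omega) (by omega) (by omega) h1
  · show T d x' (P' ++ Q1) = T d x X
    rw [hTX]
    exact T_eq h hP'1 hP'2 hr (by omega)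

theorem take_XX {X : List α} {t : ℕ} (h1 : d.z ≤ t) (h2 : t ≤ X.length)
    (hw : d.Wo (X.take t)) (hm : ∀ s, (d.z ≤ s ∧ s ≤ X.length ∧ d.Wo (X.take s)) → t ≤ s) :
    X.take t ∈ XX d := by
  have hl : (X.take t).length = t := by rw [List.length_take]; omega
  refine ⟨by omega, hw, fun s hs1 hs2 hs3 => ?_⟩
  rw [hl] at hs2
  rw [List.take_take, min_eq_left hs2.le] at hs3
  have := hm s ⟨hs1, by omega, hs3⟩
  omega

theorem pcode (h : Ok d) : PCode (XX d) := by
  have hz := h.hz
  refine ⟨fun h0 => ?_, fun X hX Y hY hXY => ?_⟩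
  · obtain ⟨h1, h2, h3⟩ := h0
    have hz0 : d.z = 0 := by simpa using h1
    omega
  · obtain ⟨t, rfl⟩ := hXY
    by_contra hne
    have ht : t ≠ [] := by
      rintro rfl
      simp at hne
    have hlt : X.length < (X ++ t).length := by
      rw [List.length_append]
      have := List.length_pos_iff.2 ht
      omega
    exact hY.2.2 X.length hX.1 hlt (by rw [List.take_left]; exact hX.2.1)

open Classical in
theorem hC2 (h : Ok d) : ∀ X1 ∈ (D d).Bad, ∀ X2 ∈ (D d).Bad, ∀ x, ∃ P ∈ (D d).L2 x,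
    ∃ Q ∈ (D d).R2 ((D d).T ((D d).T x X1) X2), P ++ Q = X1 ++ X2 := by
  intro X1 hX1 X2 hX2 x
  have hz := h.hz
  have hXX1 : X1 ∈ XX d := hX1.1
  have hXX2 : X2 ∈ XX d := hX2.1
  have hl1 : d.z ≤ X1.length := hXX1.1
  have hl2 : d.z ≤ X2.length := hXX2.1
  have hZl : (X1 ++ X2).length = X1.length + X2.length := List.length_append
  have hw1 : d.Wo ((X1 ++ X2).take X1.length) := by rw [List.take_left]; exact hXX1.2.1
  have hw2 : d.Wo ((X1 ++ X2).take (X1 ++ X2).length) := by
    rw [List.take_length]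
    exact (h.hloc X1 X2 (by omega)).2 hXX2.2.1
  obtain ⟨T0, ⟨hT0a, hT0b⟩, hT0m⟩ := least
    (fun t => d.z ≤ t + d.N1 + d.p0 ∧ d.Wo ((X1 ++ X2).take t)) ⟨X1.length, by omega, hw1⟩
  obtain ⟨T1, ⟨hT1a, hT1b⟩, hT1m⟩ := least
    (fun t => d.z ≤ t + d.p0 ∧ d.Wo ((X1 ++ X2).take t)) ⟨X1.length, by omega, hw1⟩
  have hT1l : T1 ≤ X1.length := hT1m _ ⟨by omega, hw1⟩
  have hT0l : T0 ≤ X1.length := hT0m _ ⟨by omega, hw1⟩
  obtain ⟨T2, ⟨hT2a, hT2b, hT2c⟩, hT2m⟩ := least
    (fun t => T1 < t ∧ t ≤ (X1 ++ X2).length ∧ d.Wo ((X1 ++ X2).take t))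
    ⟨(X1 ++ X2).length, by omega, le_rfl, hw2⟩
  have hgap12 := h.hgap (X1 ++ X2) T1 T2 hT2a hT2b hT1b hT2c
  let R2' : Finset (ℕ × ℕ) := (Finset.range d.K) ×ˢ (Finset.range d.K)
  let F0 := R2'.filter (fun q => q.1 ≠ q.2 ∧ (d.z + d.c q.1 ≤ T0 + d.c q.2 + d.N1 ∧
    T0 + d.c q.2 < d.z + d.N1 + d.c q.1))
  let F1 := R2'.filter (fun q => q.1 ≠ q.2 ∧ d.BadT (T1 - d.p0 + d.c q.2 - d.c q.1))
  let F2 := R2'.filter (fun q => q.1 ≠ q.2 ∧ d.BadT (T2 - d.p0 + d.c q.2 - d.c q.1))
  have c0 : F0.card ≤ 1 := by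
    refine Finset.card_le_one.2 ?_
    rintro ⟨i, j⟩ ha ⟨k, l⟩ hb
    simp only [F0, R2', Finset.mem_filter, Finset.mem_product, Finset.mem_range] at ha hb
    by_contra hne
    have := h.hres i j k l ha.1.1 ha.1.2 hb.1.1 hb.1.2 ha.2.1 hb.2.1 hne
    omega
  have c1 : F1.card ≤ d.C0 := h.hspoil (T1 - d.p0) (by omega)
  have c2 : F2.card ≤ d.C0 := h.hspoil (T2 - d.p0) (by omega)
  let B := (F0 ∪ F1 ∪ F2).image Prod.fst
  have cB : B.card ≤ 1 + d.C0 + d.C0 := by
    refine Finset.card_image_le.trans ?_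
    have e1 := Finset.card_union_le (F0 ∪ F1) F2
    have e2 := Finset.card_union_le F0 F1
    omega
  have hX1p : (X1.take d.p0).length = d.p0 := by rw [List.length_take]; omega
  obtain ⟨I, hI, hIk⟩ := h.hc2 (X1.take d.p0) x hX1p
  obtain ⟨k, hkI, hkB⟩ : ∃ k ∈ I, k ∉ B := by
    by_contra hcon
    push Not at hcon
    have := Finset.card_le_card (fun k hk => hcon k hk)
    omega
  obtain ⟨hk, hlam, hrho⟩ := hIk k hkI
  have hck := h.hcp k hk
  obtain ⟨b, hrho⟩ := Option.isSome_iff_exists.1 hrho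
  rw [List.take_take, min_eq_left hck] at hlam
  have hPl : (X1.take (d.c k)).length = d.c k := by rw [List.length_take]; omega
  have hQl : (X1.drop (d.c k) ++ X2).length = X1.length - d.c k + X2.length := by
    rw [List.length_append, List.length_drop]
  have hZe : X1.take (d.c k) ++ (X1.drop (d.c k) ++ X2) = X1 ++ X2 := by
    rw [← List.append_assoc, List.take_append_drop]
  have hTX1 : T d x X1 = d.act b (pf d.f (X1.drop d.p0)) + d.nu1 (X1.drop d.p0) := by
    have e := h.hs2 k hk (X1.take (d.c k)) ((X1.take d.p0).drop (d.c k)) x b hPl hlam hrho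
    have e2 : X1.take (d.c k) ++ (X1.take d.p0).drop (d.c k) = X1.take d.p0 := by
      have := List.take_append_drop (d.c k) (X1.take d.p0)
      rw [List.take_take, min_eq_left hck] at this
      exact this
    rw [e2] at e
    unfold T
    rw [← e]
  refine ⟨X1.take (d.c k), ⟨k, hk, hPl, hlam⟩, X1.drop (d.c k) ++ X2, ?_, hZe⟩
  intro x' P' hP'
  obtain ⟨k', hk', hlen', hlam'⟩ := hP'
  have hck' := h.hcp k' hk'
  have hwall : ∀ s, d.n ≤ s → s ≤ (X1.drop (d.c k) ++ X2).length →
      (d.Wo ((P' ++ (X1.drop (d.c k) ++ X2)).take (d.c k' + s)) ↔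
        d.Wo ((X1 ++ X2).take (d.c k + s))) := by
    intro s h1 h2
    have := wo_shift h P' (X1.take (d.c k)) (X1.drop (d.c k) ++ X2) h1 h2
    rw [hZe, hPl, hlen'] at this
    exact this
  by_cases hkk : k' = k
  · subst hkk
    have hX1'l : (P' ++ X1.drop (d.c k')).length = X1.length := by
      rw [List.length_append, List.length_drop, hlen']; omega
    have hwall1 : ∀ s, d.n ≤ s → s ≤ (X1.drop (d.c k')).length →
      (d.Wo ((P' ++ X1.drop (d.c k')).take (d.c k' + s)) ↔ d.Wo (X1.take (d.c k' + s))) := by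
      intro s h1 h2
      have := wo_shift h P' (X1.take (d.c k')) (X1.drop (d.c k')) h1 h2
      rw [List.take_append_drop, hPl, hlen'] at this
      exact this
    have hX1' : P' ++ X1.drop (d.c k') ∈ XX d := by
      refine ⟨by omega, ?_, ?_⟩
      · have h1 := (hwall1 (X1.drop (d.c k')).length (by rw [List.length_drop]; omega) le_rfl).2
          (by rw [List.take_of_length_le (by rw [List.length_drop]; omega)]; exact hXX1.2.1)
        rw [List.take_of_length_le (by rw [List.length_drop]; omega)] at h1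
        exact h1
      · intro t ht1 ht2 hw
        have e : t = d.c k' + (t - d.c k') := by omega
        rw [e] at hw
        have h1 := (hwall1 (t - d.c k') (by omega) (by rw [List.length_drop]; omega)).1 hw
        exact hXX1.2.2 _ (by omega) (by omega) h1
    have hT' : T d x' (P' ++ X1.drop (d.c k')) = T d x X1 := by
      rw [hTX1]
      have e := h.hs2 k' hk P' ((X1.take d.p0).drop (d.c k')) x' b hlen' hlam' hrho
      have e3 : (P' ++ X1.drop (d.c k')).take d.p0 = P' ++ (X1.take d.p0).drop (d.c k') := by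
        rw [List.drop_take, List.take_append, hlen', List.take_of_length_le (by omega)]
      have e4 : (P' ++ X1.drop (d.c k')).drop d.p0 = X1.drop d.p0 := by
        rw [List.drop_append, hlen', List.drop_eq_nil_of_le (by omega), List.nil_append,
          List.drop_drop]
        congr 1; omega
      unfold T
      rw [e3, e4, ← e]
    by_cases hb : P' ++ X1.drop (d.c k') ∈ (D d).Good
    · refine Or.inr (Or.inl ⟨_, hb, X2, ?_⟩)
      rw [List.append_assoc]
    · refine Or.inl ⟨_, ⟨hX1', hb⟩, X2, hX2, ?_, ?_⟩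
      · rw [List.append_assoc]
      · show T d (T d x' (P' ++ X1.drop (d.c k'))) X2 = T d (T d x X1) X2
        rw [hT']
  · right; left
    have hX'l : (P' ++ (X1.drop (d.c k) ++ X2)).length =
        d.c k' + (X1.length - d.c k + X2.length) := by
      rw [List.length_append, hQl, hlen']
    obtain ⟨t, ⟨ht1, ht2, ht3⟩, htm⟩ := least
      (fun t => d.z ≤ t ∧ t ≤ (P' ++ (X1.drop (d.c k) ++ X2)).length ∧
        d.Wo ((P' ++ (X1.drop (d.c k) ++ X2)).take t))
      ⟨(P' ++ (X1.drop (d.c k) ++ X2)).length, by omega, le_rfl, by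
        have h1 := (hwall (X1.drop (d.c k) ++ X2).length (by omega) le_rfl).2 (by
          rw [List.take_of_length_le (by omega)]
          rw [List.take_length] at hw2
          exact hw2)
        rw [hX'l, ← hQl]
        exact h1⟩
    -- transport of walls
    have tr : ∀ t, d.z ≤ t + d.N1 → t ≤ (P' ++ (X1.drop (d.c k) ++ X2)).length →
        d.Wo ((P' ++ (X1.drop (d.c k) ++ X2)).take t) →
        d.Wo ((X1 ++ X2).take (d.c k + (t - d.c k'))) := by
      intro t h1 h2 hw
      have e : t = d.c k' + (t - d.c k') := by omega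
      rw [e] at hw
      exact (hwall (t - d.c k') (by omega) (by omega)).1 hw
    have hlt : ((P' ++ (X1.drop (d.c k) ++ X2)).take t).length = t := by
      rw [List.length_take]; omega
    refine ⟨(P' ++ (X1.drop (d.c k) ++ X2)).take t, ?_, List.take_prefix _ _⟩
    refine good_of h (take_XX ht1 ht2 ht3 htm) ?_ ?_
    · intro s hs1 hs2 hs3 hs4
      rw [hlt] at hs3
      rw [List.take_take, min_eq_left hs3] at hs4
      have hw := tr s hs1 (by omega) hs4
      have hm := hT0m (d.c k + (s - d.c k')) ⟨by omega, hw⟩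
      have heq : T0 = d.c k + (s - d.c k') := by
        by_contra hne
        have := h.hgap (X1 ++ X2) T0 (d.c k + (s - d.c k')) (by omega) (by omega) hT0b hw
        omega
      apply hkB
      refine Finset.mem_image.2 ⟨(k, k'), ?_, rfl⟩
      refine Finset.mem_union_left _ (Finset.mem_union_left _ ?_)
      simp only [F0, R2', Finset.mem_filter, Finset.mem_product, Finset.mem_range]
      exact ⟨⟨hk, hk'⟩, fun e => hkk e.symm, by omega, by omega⟩
    · rw [hlt]
      intro hbad
      have hw := tr t (by omega) ht2 ht3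
      have hm := hT1m (d.c k + (t - d.c k')) ⟨by omega, hw⟩
      rcases eq_or_lt_of_le hm with heq | hlt1
      · apply hkB
        refine Finset.mem_image.2 ⟨(k, k'), ?_, rfl⟩
        refine Finset.mem_union_left _ (Finset.mem_union_right _ ?_)
        simp only [F1, R2', Finset.mem_filter, Finset.mem_product, Finset.mem_range]
        refine ⟨⟨hk, hk'⟩, fun e => hkk e.symm, ?_⟩
        have e : T1 - d.p0 + d.c k' - d.c k = t - d.p0 := by omega
        rw [e]; exact hbad
      · have hm2 := hT2m (d.c k + (t - d.c k')) ⟨hlt1, by omega, hw⟩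
        have hm3 : t ≤ T2 + d.c k' - d.c k := by
          refine htm _ ⟨by omega, by omega, ?_⟩
          have h1 := (hwall (T2 - d.c k) (by omega) (by omega)).2 (by
            have e : d.c k + (T2 - d.c k) = T2 := by omega
            rw [e]; exact hT2c)
          have e : T2 + d.c k' - d.c k = d.c k' + (T2 - d.c k) := by omega
          rw [e]; exact h1
        apply hkB
        refine Finset.mem_image.2 ⟨(k, k'), ?_, rfl⟩
        refine Finset.mem_union_right _ ?_
        simp only [F2, R2', Finset.mem_filter, Finset.mem_product, Finset.mem_range]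
        refine ⟨⟨hk, hk'⟩, fun e => hkk e.symm, ?_⟩
        have e : T2 - d.p0 + d.c k' - d.c k = t - d.p0 := by omega
        rw [e]; exact hbad

theorem finite_short [Finite α] (N : ℕ) {s : Set (List α)} (hs : ∀ w ∈ s, w.length ≤ N) :
    s.Finite := (List.finite_length_le α N).subset hs

/-- **Main theorem**: everything about the two schemes is discharged. What is left: the gadget
(`Ok`), `HL 1` of the fibres and the tails. -/
theorem main [Finite α] [Finite S] [Finite V] (h : Ok d)
    (hadd : ∀ a b s, d.act (a + b) s = d.act a s + d.act b s)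
    (hone : ∀ v, d.act v 1 = v) (hmul : ∀ v s t, d.act v (s * t) = d.act (d.act v s) t)
    (hfaith : ∀ s t, (∀ v, d.act v s = d.act v t) → s = t)
    (hfib : ∀ x y, HL 1 ({X | X ∈ XX d ∧ T d x X = y} : Language α))
    (htail : ∀ s, HL 3 ({w | (∀ X ∈ XX d, ¬ X <+: w) ∧ (w.map d.f).prod = s} : Language α))
    (s : S) : HL 3 ({w | (w.map d.f).prod = s} : Language α) := by
  refine top (k := 1) d.act hadd hone hmul hfaith d.f
    (fun X => d.act (d.nu2 (X.take d.p0)) (pf d.f (X.drop d.p0)) + d.nu1 (X.drop d.p0))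
    (D d) ?_ (pcode h) hfib ?_ ?_ (hC2 h) htail s
  · intro v X
    show T d v X = _
    unfold T
    rw [hadd, ← hmul, add_assoc]
    congr 2
    unfold pf
    rw [← List.prod_append, ← List.map_append, List.take_append_drop]
  · intro x
    refine finite_short (d.p0 + d.N1) fun w hw => ?_
    have := h.hb1 _ _ hw.2
    rw [List.length_drop] at this
    omega
  · intro x
    refine finite_short d.p0 fun w hw => ?_
    obtain ⟨k, hk, hl, -⟩ := hw
    rw [hl]
    exact h.hcp k hk

end Crest.Agent.R320.Sem_302
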