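import Crest.Agent.R320.SemTop_727
import Crest.Agent.R320.Fib_358

/-!
# Row 320: assembly of the two schemes over 727's semantic top (helper358)
-/

set_option autoImplicit false

namespace Crest.Agent.R320.Sem_358

open Crest.RegLang Crest.Agent.R320.Hk_851 Crest.Agent.R320.FewWalls_228 Crest.Agent.R320.Fib_358
open Crest.Agent.R320.SemTop_727 Crest.Agent.R320.Blk467

universe u v w

theorem endW_app {α : Type u} {n : ℕ} {S : Set (List α)} (P R : List α) (h : n ≤ R.length) :
    EndW n S (P ++ R) ↔ EndW n S R := by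
  unfold EndW
  rw [List.length_append, List.drop_append, List.drop_eq_nil_of_le (by omega), List.nil_append,
    show P.length + R.length - n - P.length = R.length - n by omega]
  constructor
  · rintro ⟨_, h2⟩; exact ⟨h, h2⟩
  · rintro ⟨_, h2⟩; exact ⟨by omega, h2⟩

theorem take_app {α : Type u} (P R : List α) (t : ℕ) (h : P.length ≤ t) :
    (P ++ R).take t = P ++ R.take (t - P.length) := by
  rw [List.take_append, List.take_of_length_le h]

theorem endW_wl {α : Type u} {n : ℕ} {S : Set (List α)} {w : List α} {t : ℕ} (ht : t ≤ w.length)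
    (h : EndW n S (w.take t)) : n ≤ t ∧ (w.drop (t - n)).take n ∈ S := by
  obtain ⟨h1, h2⟩ := h
  rw [List.length_take, min_eq_left ht] at h1 h2
  refine ⟨h1, ?_⟩
  rw [List.drop_take, show t - (t - n) = n by omega] at h2
  exact h2

/-- the data -/
structure Prm {α : Type u} {S : Type v} {V : Type w} [Monoid S] [AddCommGroup V] (φ : α → S)
    (act : V → S → V) where
  n : ℕ
  W : ℕ
  z : ℕ
  p0 : ℕ
  N : ℕ
  Sm : Set (List α)
  hn : 0 < n
  hS : ∀ s ∈ Sm, s.length = n
  hgap : ∀ (u : List α) (x y : ℕ), x < y → y + n ≤ u.length → (u.drop x).take n ∈ Sm →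
    (u.drop y).take n ∈ Sm → x + W ≤ y
  hW : 2 * p0 + 2 * N < W
  hz : 4 * p0 + 2 * N + n ≤ z
  BdT : ℕ → Prop
  lam : List α → Option V
  rho : List α → Option V
  nu1 : List α → V
  lam_len : ∀ P v, lam P = some v → P.length < N
  sound : ∀ P Q v b, lam P = some v → rho Q = some b →
    b = act v ((P ++ Q).map φ).prod + nu1 (P ++ Q)
  complete : ∀ X : List α, N ≤ X.length → ¬ BdT X.length → ∀ v, ∃ P Q, P ++ Q = X ∧
    lam P = some v ∧ (rho Q).isSome
  K : ℕ
  R : ℕ
  C0 : ℕ
  cc : ℕ → ℕ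
  hcp : ∀ k < K, cc k ≤ p0
  lam2 : ℕ → List α → Option V
  rho2 : ℕ → List α → Option V
  nu2 : List α → V
  sound2 : ∀ k < K, ∀ (P Q : List α) (v b : V), P.length = cc k → lam2 k P = some v →
    rho2 k Q = some b → b = act v ((P ++ Q).map φ).prod + nu2 (P ++ Q)
  complete2 : ∀ (u : List α) (v : V), (∀ k < K, cc k ≤ u.length) →
    ∃ I : Finset ℕ, R ≤ I.card ∧ ∀ k ∈ I, k < K ∧ lam2 k (u.take (cc k)) = some v ∧
      (rho2 k (u.drop (cc k))).isSome
  hR : 1 + 2 * C0 < R
  golomb : ∀ a b a' b', a < K → b < K → a' < K → b' < K → a ≠ b → a' ≠ b' →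
    cc a + cc b' < cc a' + cc b + 2 * N → cc a' + cc b < cc a + cc b' + 2 * N → a = a'
  spoil : ∀ T, p0 ≤ T → ∃ F : Finset (ℕ × ℕ), F.card ≤ C0 ∧
    ∀ a b, a < K → b < K → a ≠ b → BdT (T + cc b - cc a) → (a, b) ∈ F

namespace Prm

variable {α : Type u} {S : Type v} {V : Type w} [Monoid S] [AddCommGroup V] {φ : α → S}
  {act : V → S → V} (D : Prm φ act)

/-- the product -/
def ph (φ : α → S) (w : List α) : S := (w.map φ).prod

theorem ph_app (φ : α → S) (u v : List α) : ph φ (u ++ v) = ph φ u * ph φ v := by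
  simp [ph]

/-- the scheme -/
def sch : Sch α V where
  XX := XX D.n D.z D.Sm
  T := TT (ph φ) act D.p0 D.nu1 D.nu2
  L1 := fun x => {P | D.p0 ≤ P.length ∧
    D.lam (P.drop D.p0) = some (act x (ph φ (P.take D.p0)) + D.nu2 (P.take D.p0))}
  L2 := fun x => {P | ∃ k < D.K, P.length = D.cc k ∧ D.lam2 k P = some x}

/-- bad block -/
def bd (X : List α) : Prop :=
  X.length < D.z + D.N ∨ (∃ t, D.z ≤ t + D.N ∧ t < D.z ∧ EndW D.n D.Sm (X.take t)) ∨
    D.BdT (X.length - D.p0)

theorem L1_len {x : V} {P : List α} (h : P ∈ D.sch.L1 x) :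
    D.p0 ≤ P.length ∧ P.length < D.p0 + D.N := by
  obtain ⟨h1, h2⟩ := h
  have := D.lam_len _ _ h2
  rw [List.length_drop] at this
  omega

theorem T_eq (x : V) (A B : List α) (h : A.length = D.p0) :
    D.sch.T x (A ++ B) = act (act x (ph φ A) + D.nu2 A) (ph φ B) + D.nu1 B := by
  show TT _ _ _ _ _ _ _ = _
  unfold TT
  rw [List.take_left' h, List.drop_left' h]

theorem good_of {X : List α} (hX : X ∈ D.sch.XX) (hb : ¬ D.bd X) : X ∈ D.sch.Good := by
  have hz := D.hz
  have hX' := hX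
  obtain ⟨h1, h2, h3⟩ := hX'
  have hb1 : D.z + D.N ≤ X.length := by
    by_contra h
    exact hb (Or.inl (by omega))
  have hb2 : ∀ t, D.z ≤ t + D.N → t < D.z → ¬ EndW D.n D.Sm (X.take t) := fun t a b c =>
    hb (Or.inr (Or.inl ⟨t, a, b, c⟩))
  have hb3 : ¬ D.BdT (X.length - D.p0) := fun h => hb (Or.inr (Or.inr h))
  refine ⟨hX, fun x => ?_⟩
  set A := X.take D.p0 with hA
  set Y := X.drop D.p0 with hY
  have hXA : A ++ Y = X := List.take_append_drop _ _
  have hAl : A.length = D.p0 := by rw [hA, List.length_take]; omega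
  have hYl : Y.length = X.length - D.p0 := by rw [hY, List.length_drop]
  obtain ⟨P', Q, hPQ, hl, hr⟩ := D.complete Y (by omega) (by rw [hYl]; exact hb3)
    (act x (ph φ A) + D.nu2 A)
  obtain ⟨b, hb'⟩ := Option.isSome_iff_exists.1 hr
  have hP'l := D.lam_len _ _ hl
  have hQl : P'.length + Q.length = X.length - D.p0 := by
    rw [← hYl, ← hPQ, List.length_append]
  have hPX : A ++ P' ++ Q = X := by rw [List.append_assoc, hPQ, hXA]
  refine ⟨A ++ P', ⟨?_, ?_⟩, Q, ?_, hPX⟩
  · rw [List.length_append]; omega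
  · rw [List.take_left' hAl, List.drop_left' hAl]; exact hl
  · intro x'' P'' hP''
    obtain ⟨k1, k2⟩ := D.L1_len hP''
    obtain ⟨k3, k4⟩ := hP''
    have hEQ : EndW D.n D.Sm Q := by
      rw [← endW_app (A ++ P') Q (by omega), hPX]
      exact h2
    refine ⟨⟨by rw [List.length_append]; omega, (endW_app _ _ (by omega)).2 hEQ, ?_⟩, ?_⟩
    · intro t t1 t2 t3
      rw [List.length_append] at t2
      rw [take_app _ _ _ (by omega), endW_app _ _ (by rw [List.length_take]; omega)] at t3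
      have hlen : (A ++ P').length = D.p0 + P'.length := by rw [List.length_append, hAl]
      have t4 : EndW D.n D.Sm (X.take ((A ++ P').length + (t - P''.length))) := by
        rw [← hPX, take_app _ _ _ (by omega), endW_app _ _ (by rw [List.length_take]; omega)]
        rw [show (A ++ P').length + (t - P''.length) - (A ++ P').length = t - P''.length by omega]
        exact t3
      rw [hlen] at t4
      by_cases hc : D.z ≤ D.p0 + P'.length + (t - P''.length)
      · exact h3 _ hc (by omega) t4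
      · exact hb2 _ (by omega) (by omega) t4
    · have e1 : P''.take D.p0 ++ (P''.drop D.p0 ++ Q) = P'' ++ Q := by
        rw [← List.append_assoc, List.take_append_drop]
      rw [← e1, D.T_eq _ _ _ (by rw [List.length_take]; omega)]
      have s1 := D.sound _ _ _ _ k4 hb'
      have s2 := D.sound _ _ _ _ hl hb'
      rw [hPQ] at s2
      have e2 : D.sch.T x X = act (act x (ph φ A) + D.nu2 A) (ph φ Y) + D.nu1 Y := by
        rw [← hXA, D.T_eq _ _ _ hAl]
      rw [e2]
      exact s1.symm.trans s2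

/-- the anchor `cc k - cc j` of the text `U` is bad -/
def Spl (U : List α) (k j : ℕ) : Prop :=
  ∃ P' X', P'.length = D.cc j ∧ X' ∈ D.sch.XX ∧ X' <+: P' ++ U.drop (D.cc k) ∧ D.bd X'

/-- replacing a short prefix of the same length in a block -/
theorem XX_replace {P P' Y : List α} (hl : P.length = P'.length) (hP : P.length ≤ D.p0)
    (h : P ++ Y ∈ D.sch.XX) : P' ++ Y ∈ D.sch.XX := by
  have hz := D.hz
  obtain ⟨h1, h2, h3⟩ := h
  rw [List.length_append] at h1
  refine ⟨by rw [List.length_append]; omega, ?_, ?_⟩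
  · rw [endW_app _ _ (by omega)] at h2 ⊢
    exact h2
  · intro t t1 t2 t3
    rw [List.length_append] at t2
    apply h3 t t1 (by rw [List.length_append]; omega)
    rw [take_app _ _ _ (by omega), endW_app _ _ (by rw [List.length_take]; omega)] at t3 ⊢
    rw [hl]; exact t3

theorem hC2_of (hsp : ∀ X1 ∈ D.sch.XX, ∀ X2 ∈ D.sch.XX, ∃ Sp : Finset ℕ, Sp.card < D.R ∧
      ∀ k j, k < D.K → j < D.K → k ≠ j → D.Spl (X1 ++ X2) k j → k ∈ Sp) :
    ∀ X1 ∈ D.sch.Bad, ∀ X2 ∈ D.sch.Bad, ∀ x, ∃ P ∈ D.sch.L2 x,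
      ∃ Q ∈ D.sch.R2 (D.sch.T (D.sch.T x X1) X2), P ++ Q = X1 ++ X2 := by
  intro X1 hX1 X2 hX2 x
  have hz := D.hz
  obtain ⟨g1, g2, g3⟩ := hX1.1
  obtain ⟨f1, f2, f3⟩ := hX2.1
  obtain ⟨Sp, hSp, hsp⟩ := hsp X1 hX1.1 X2 hX2.1
  have hul : (X1.take D.p0).length = D.p0 := by rw [List.length_take]; omega
  obtain ⟨I, hI, hIk⟩ := D.complete2 (X1.take D.p0) x (fun k hk => by rw [hul]; exact D.hcp k hk)
  obtain ⟨k, hkI, hkS⟩ : ∃ k ∈ I, k ∉ Sp := by
    by_contra hcon
    push Not at hcon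
    have := Finset.card_le_card (show I ⊆ Sp from hcon)
    omega
  obtain ⟨hk, hlk, hrk⟩ := hIk k hkI
  obtain ⟨b, hb⟩ := Option.isSome_iff_exists.1 hrk
  have hck := D.hcp k hk
  rw [List.take_take, min_eq_left hck] at hlk
  have hPl : (X1.take (D.cc k)).length = D.cc k := by rw [List.length_take]; omega
  have hdrop : (X1 ++ X2).drop (D.cc k) = X1.drop (D.cc k) ++ X2 := by
    rw [List.drop_append_of_le_length (by omega)]
  refine ⟨X1.take (D.cc k), ⟨k, hk, hPl, hlk⟩, X1.drop (D.cc k) ++ X2, ?_, ?_⟩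
  swap
  · rw [← List.append_assoc, List.take_append_drop]
  intro x' P' hP'
  obtain ⟨j, hj, hjl, hjlam⟩ := hP'
  have hcj := D.hcp j hj
  by_cases hjk : j = k
  · subst hjk
    have hX1' : P' ++ X1.drop (D.cc j) ∈ D.sch.XX :=
      D.XX_replace (P := X1.take (D.cc j)) (by rw [hPl, hjl]) (by omega)
        (by rw [List.take_append_drop]; exact hX1.1)
    by_cases hG : P' ++ X1.drop (D.cc j) ∈ D.sch.Good
    · right; left
      exact ⟨_, hG, ⟨X2, by rw [List.append_assoc]⟩⟩
    · left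
      refine ⟨_, ⟨hX1', hG⟩, X2, hX2, by rw [List.append_assoc], ?_⟩
      congr 1
      -- exactness
      set Q0 := (X1.take D.p0).drop (D.cc j) with hQ0
      have hQ0l : Q0.length = D.p0 - D.cc j := by rw [hQ0, List.length_drop, hul]
      have e1 : X1.drop (D.cc j) = Q0 ++ X1.drop D.p0 := by
        conv_lhs => rw [← List.take_append_drop D.p0 X1]
        rw [List.drop_append_of_le_length (by rw [hul]; exact hcj)]
      have e2 : X1 = (X1.take (D.cc j) ++ Q0) ++ X1.drop D.p0 := by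
        rw [List.append_assoc, ← e1, List.take_append_drop]
      have s1 := D.sound2 j hj _ _ _ _ hjl hjlam hb
      have s2 := D.sound2 j hj _ _ _ _ hPl hlk hb
      rw [e1, ← List.append_assoc]
      conv_rhs => rw [e2]
      rw [D.T_eq _ _ _ (by rw [List.length_append, hQ0l]; omega),
        D.T_eq _ _ _ (by rw [List.length_append, hQ0l, hPl]; omega)]
      have s3 : act x' (ph φ (P' ++ Q0)) + D.nu2 (P' ++ Q0) =
          act x (ph φ (X1.take (D.cc j) ++ Q0)) + D.nu2 (X1.take (D.cc j) ++ Q0) :=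
        s1.symm.trans s2
      rw [s3]
  · right; left
    have hlen : (P' ++ (X1.drop (D.cc k) ++ X2)).length = D.cc j + (X1.length - D.cc k + X2.length) := by
      simp [hjl]
    obtain ⟨X', hX', hpre⟩ := exists_prefix (n := D.n) (z := D.z) (S := D.Sm)
      (P' ++ (X1.drop (D.cc k) ++ X2)) (P' ++ (X1.drop (D.cc k) ++ X2)).length
      (by rw [hlen]; omega) le_rfl
      (by
        rw [List.take_length, ← List.append_assoc, endW_app _ _ (by omega)]
        exact f2)
    refine ⟨X', D.good_of hX' ?_, hpre⟩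
    intro hbd
    exact hkS (hsp k j hk hj (fun h => hjk h.symm) ⟨P', X', hjl, hX', by rw [hdrop]; exact hpre, hbd⟩)

/-- wall of the text `U` -/
def WU (U : List α) (t : ℕ) : Prop := t ≤ U.length ∧ EndW D.n D.Sm (U.take t)

theorem WU_gap {U : List α} {s t : ℕ} (hs : D.WU U s) (ht : D.WU U t) (h : s < t) :
    s + D.W ≤ t := by
  obtain ⟨s1, s2⟩ := endW_wl hs.1 hs.2
  obtain ⟨t1, t2⟩ := endW_wl ht.1 ht.2
  have h1 := ht.1
  have := D.hgap U (s - D.n) (t - D.n) (by omega) (by omega) s2 t2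
  omega

def EE (U : List α) (k j : ℕ) : Prop :=
  ∃ e, D.WU U e ∧ D.z + D.cc k ≤ e + D.cc j + D.N ∧ e + D.cc j < D.z + D.N + D.cc k

def FF (U : List α) (k j e : ℕ) : Prop :=
  D.WU U e ∧ D.z + D.cc k ≤ e + D.cc j ∧ ∀ t, D.WU U t → D.z + D.cc k ≤ t + D.cc j → e ≤ t

theorem walls_iff {U P' X' : List α} {k t : ℕ} (hk : D.cc k ≤ U.length)
    (hp : X' <+: P' ++ U.drop (D.cc k)) (h1 : P'.length + D.n ≤ t) (h2 : t ≤ X'.length) :
    EndW D.n D.Sm (X'.take t) ↔ D.WU U (t - P'.length + D.cc k) := by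
  have hlen := hp.length_le
  rw [List.length_append, List.length_drop] at hlen
  have e1 : X'.take t = P' ++ (U.drop (D.cc k)).take (t - P'.length) := by
    obtain ⟨r, hr⟩ := hp
    have : X'.take t = (X' ++ r).take t := by rw [List.take_append_of_le_length h2]
    rw [this, hr, take_app _ _ _ (by omega)]
  have e2 : U.take (t - P'.length + D.cc k) =
      U.take (D.cc k) ++ (U.drop (D.cc k)).take (t - P'.length) := by
    conv_lhs => rw [← List.take_append_drop (D.cc k) U]
    rw [take_app _ _ _ (by rw [List.length_take]; omega), List.length_take, min_eq_left hk,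
      Nat.add_sub_cancel]
  have e3 : D.n ≤ ((U.drop (D.cc k)).take (t - P'.length)).length := by
    rw [List.length_take, List.length_drop]; omega
  unfold WU
  rw [e1, e2, endW_app _ _ e3, endW_app _ _ e3]
  constructor
  · intro h; exact ⟨by omega, h⟩
  · rintro ⟨_, h⟩; exact h

theorem spl_cases {U : List α} {k j : ℕ} (hk : k < D.K) (hj : j < D.K) (hU : D.p0 ≤ U.length)
    (h : D.Spl U k j) :
    D.EE U k j ∨ ∃ e, D.FF U k j e ∧ D.BdT (e + D.cc j - D.cc k - D.p0) := by
  have hz := D.hz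
  have hn := D.hn
  have hck := D.hcp k hk
  have hcj := D.hcp j hj
  obtain ⟨P', X', hP', hX', hp, hb⟩ := h
  obtain ⟨h1, h2, h3⟩ := hX'
  have hW : D.WU U (X'.length - P'.length + D.cc k) := by
    rw [← D.walls_iff (by omega) hp (by omega) le_rfl, List.take_length]
    exact h2
  rw [hP'] at hW
  rcases hb with hb | ⟨t, t1, t2, t3⟩ | hb
  · left
    exact ⟨_, hW, by omega, by omega⟩
  · left
    have := (D.walls_iff (by omega) hp (by omega) (by omega)).1 t3
    rw [hP'] at this
    exact ⟨_, this, by omega, by omega⟩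
  · right
    refine ⟨_, ⟨hW, by omega, ?_⟩, ?_⟩
    · intro t ht ht'
      by_contra hcon
      have h4 : EndW D.n D.Sm (X'.take (t + D.cc j - D.cc k)) := by
        rw [D.walls_iff (by omega) hp (by omega) (by omega), hP',
          show t + D.cc j - D.cc k - D.cc j + D.cc k = t by omega]
        exact ht
      exact h3 _ (by omega) (by omega) h4
    · rw [show X'.length - D.cc j + D.cc k + D.cc j - D.cc k - D.p0 = X'.length - D.p0 by omega]
      exact hb

theorem two_ends (U : List α) : ∃ e1 e2, ∀ k j e, k < D.K → j < D.K → D.FF U k j e →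
    e = e1 ∨ e = e2 := by
  classical
  have hz := D.hz
  have hW := D.hW
  by_cases hex : ∃ e, D.WU U e ∧ D.z ≤ e + D.p0
  swap
  · refine ⟨0, 0, fun k j e hk hj he => ?_⟩
    exfalso
    have := D.hcp j hj
    exact hex ⟨e, he.1, by have := he.2.1; omega⟩
  obtain ⟨a1, a2⟩ := Nat.find_spec hex
  by_cases hex2 : ∃ e, D.WU U e ∧ Nat.find hex < e
  swap
  · refine ⟨Nat.find hex, 0, fun k j e hk hj he => ?_⟩
    left
    have hcj := D.hcp j hj
    have h1 := Nat.find_min' hex ⟨he.1, by have := he.2.1; omega⟩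
    by_contra hne
    exact hex2 ⟨e, he.1, by omega⟩
  obtain ⟨b1, b2⟩ := Nat.find_spec hex2
  refine ⟨Nat.find hex, Nat.find hex2, fun k j e hk hj he => ?_⟩
  have hcj := D.hcp j hj
  have hck := D.hcp k hk
  obtain ⟨c1, c2, c3⟩ := he
  have h1 := Nat.find_min' hex ⟨c1, by omega⟩
  by_contra hne
  push Not at hne
  have h2 := Nat.find_min' hex2 ⟨c1, by omega⟩
  have h3 := D.WU_gap a1 b1 b2
  have h4 : ¬ (D.z + D.cc k ≤ Nat.find hex2 + D.cc j) := fun h => by
    have := c3 _ b1 h
    omega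
  omega

theorem EE_unique {U : List α} {k j k' j' : ℕ} (hk : k < D.K) (hj : j < D.K) (hk' : k' < D.K)
    (hj' : j' < D.K) (hkj : k ≠ j) (hkj' : k' ≠ j') (h : D.EE U k j) (h' : D.EE U k' j') :
    k = k' := by
  have hz := D.hz
  have hW := D.hW
  obtain ⟨e, e1, e2, e3⟩ := h
  obtain ⟨e', f1, f2, f3⟩ := h'
  have a1 := D.hcp k hk
  have a2 := D.hcp j hj
  have a3 := D.hcp k' hk'
  have a4 := D.hcp j' hj'
  have hee : e = e' := by
    rcases lt_trichotomy e e' with h | h | h
    · have := D.WU_gap e1 f1 h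
      omega
    · exact h
    · have := D.WU_gap f1 e1 h
      omega
  subst hee
  exact D.golomb k j k' j' hk hj hk' hj' hkj hkj' (by omega) (by omega)

theorem hsp : ∀ X1 ∈ D.sch.XX, ∀ X2 ∈ D.sch.XX, ∃ Sp : Finset ℕ, Sp.card < D.R ∧
      ∀ k j, k < D.K → j < D.K → k ≠ j → D.Spl (X1 ++ X2) k j → k ∈ Sp := by
  classical
  intro X1 hX1 X2 hX2
  have hz := D.hz
  have hR := D.hR
  set U := X1 ++ X2 with hU
  have hUl : D.p0 ≤ U.length := by
    have := hX1.1
    rw [hU, List.length_append]; omega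
  obtain ⟨e1, e2, he⟩ := D.two_ends U
  choose F hF hF' using D.spoil
  let G : ℕ → Finset (ℕ × ℕ) := fun e => if h : D.p0 ≤ e - D.p0 then F (e - D.p0) h else ∅
  have hG : ∀ e, (G e).card ≤ D.C0 := by
    intro e
    by_cases h : D.p0 ≤ e - D.p0
    · simp only [G, dif_pos h]; exact hF _ h
    · simp only [G, dif_neg h]; simp
  let SE : Finset ℕ := (Finset.range D.K).filter (fun k => ∃ j, j < D.K ∧ k ≠ j ∧ D.EE U k j)
  have hSE : SE.card ≤ 1 := by
    rw [Finset.card_le_one]
    intro a ha b hb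
    rw [Finset.mem_filter, Finset.mem_range] at ha hb
    obtain ⟨ha, j, hj, hne, h⟩ := ha
    obtain ⟨hb, j', hj', hne', h'⟩ := hb
    exact D.EE_unique ha hj hb hj' hne hne' h h'
  refine ⟨SE ∪ ((G e1).image Prod.fst ∪ (G e2).image Prod.fst), ?_, ?_⟩
  · have h1 := Finset.card_union_le SE ((G e1).image Prod.fst ∪ (G e2).image Prod.fst)
    have h2 := Finset.card_union_le ((G e1).image Prod.fst) ((G e2).image Prod.fst)
    have h3 := (Finset.card_image_le (s := G e1) (f := Prod.fst)).trans (hG e1)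
    have h4 := (Finset.card_image_le (s := G e2) (f := Prod.fst)).trans (hG e2)
    omega
  · intro k j hk hj hkj hspl
    have hck := D.hcp k hk
    have hcj := D.hcp j hj
    rcases D.spl_cases hk hj hUl hspl with h | ⟨e, hFF, hB⟩
    · apply Finset.mem_union_left
      rw [Finset.mem_filter, Finset.mem_range]
      exact ⟨hk, j, hj, hkj, h⟩
    · apply Finset.mem_union_right
      have h1 := hFF.2.1
      have hp : D.p0 ≤ e - D.p0 := by omega
      have hmem : (k, j) ∈ G e := by
        simp only [G, dif_pos hp]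
        apply hF' _ hp k j hk hj hkj
        rw [show e - D.p0 + D.cc j - D.cc k = e + D.cc j - D.cc k - D.p0 by omega]
        exact hB
      rcases he k j e hk hj hFF with rfl | rfl
      · exact Finset.mem_union_left _ (Finset.mem_image.2 ⟨_, hmem, rfl⟩)
      · exact Finset.mem_union_right _ (Finset.mem_image.2 ⟨_, hmem, rfl⟩)

theorem L1_fin [Finite α] (x : V) : (D.sch.L1 x).Finite :=
  (List.finite_length_le α (D.p0 + D.N)).subset fun P hP => by
    have := D.L1_len hP
    show P.length ≤ _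
    omega

theorem L2_fin [Finite α] (x : V) : (D.sch.L2 x).Finite :=
  (List.finite_length_le α D.p0).subset fun P hP => by
    obtain ⟨k, hk, h, _⟩ := hP
    have := D.hcp k hk
    show P.length ≤ _
    omega

/-- **all words** -/
theorem final [Finite α] [Finite S] [Finite V] (hadd : ∀ a b s, act (a + b) s = act a s + act b s)
    (hone : ∀ v, act v 1 = v) (hmul : ∀ v s t, act v (s * t) = act (act v s) t)
    (hfaith : ∀ s t, (∀ v, act v s = act v t) → s = t) {c P K1 M1 : ℕ} (hP : 0 < P) (hM1 : 0 < M1)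
    (hper : PerOff D.n c P D.Sm) (hk : ∀ X Y, SameKey (ph φ) K1 M1 X Y → D.nu1 X = D.nu1 Y)
    (s : S) : HL 3 ({w | (w.map φ).prod = s} : Language α) := by
  refine top (k := 1) act hadd hone hmul hfaith φ
    (fun X => act (D.nu2 (X.take D.p0)) (ph φ (X.drop D.p0)) + D.nu1 (X.drop D.p0)) D.sch ?_ ?_ ?_
    D.L1_fin D.L2_fin (D.hC2_of D.hsp) ?_ s
  · intro v X
    show TT _ _ _ _ _ _ _ = _
    unfold TT
    rw [hadd, ← hmul, ← ph_app, List.take_append_drop, add_assoc]
    rfl
  · refine ⟨nil_notMem D.hn, ?_⟩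
    rintro X hX Y hY ⟨Z, rfl⟩
    rw [XX_pc X hX Z hY, List.append_nil]
  · intro x y
    exact hXT D.hn hP D.hS hper (ph φ) (ph_app φ) act D.p0 K1 M1 hM1 D.nu1 D.nu2 hk x y
  · intro s
    exact (hNP D.hn hP D.hS hper (ph φ) (ph_app φ) s).mono (by omega)

end Prm

end Crest.Agent.R320.Sem_358
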