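import Crest.Agent.R320.Sc2n_937
import Crest.Agent.R320.SemTop_727

/-!
# Row 320: 937's two schemes (natural chain) in 727's semantic top form (helper408)
-/

set_option autoImplicit false

namespace Crest.Agent.R320.Sem_408

open Crest.Agent.R320.Sc2n_937 Crest.Agent.R320.SemTop_727 Crest.Agent.R320.Blk467

universe u v
variable {A : Type u} {V : Type v}

/-- the data of 727 -/
def D (g : Geo A) (pre : List A → V → V) (post : V → List A → V) (lam : List A → Option V)
    (K : ℕ) (c : ℕ → ℕ) (lam2 : ℕ → List A → Option V) : Sch A V where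
  XX := {X | g.XX X}
  T := g.T pre post
  L1 := fun v => {P | g.LP1 pre lam v P}
  L2 := fun v => {P | Geo.LP2 K c lam2 v P}

variable {g : Geo A} {pre : List A → V → V} {post : V → List A → V} {lam rho : List A → Option V}
  {K : ℕ} {c : ℕ → ℕ} {lam2 rho2 : ℕ → List A → Option V} {BadT : ℕ → Prop} {C0 T0 : ℕ}

theorem nil_not (g : Geo A) : ¬ g.XX [] := by
  rintro ⟨h, -, -⟩
  have h1 := g.hz
  have h2 := g.hN
  simp only [List.length_nil] at h
  omega

theorem pcode (g : Geo A) : PCode {X | g.XX X} := by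
  refine ⟨nil_not g, fun X hX Y hY h => ?_⟩
  obtain ⟨t, ht⟩ := h
  exact g.prefix_code (R := t) (R' := []) hX hY (by rw [ht, List.append_nil])

/-- first block -/
theorem first (g : Geo A) {w : List A} (hw : g.Wo w) (hz : g.z ≤ w.length) :
    ∃ X R, g.XX X ∧ X ++ R = w := by
  classical
  have hex : ∃ t, g.z ≤ t ∧ t ≤ w.length ∧ g.Wo (w.take t) :=
    ⟨w.length, hz, le_rfl, by rwa [List.take_length]⟩
  have hs := Nat.find_spec hex
  have hmin : ∀ m, m < Nat.find hex → ¬ (g.z ≤ m ∧ m ≤ w.length ∧ g.Wo (w.take m)) :=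
    fun m hm => Nat.find_min hex hm
  refine ⟨w.take (Nat.find hex), w.drop (Nat.find hex), ⟨?_, hs.2.2, ?_⟩,
    List.take_append_drop _ _⟩
  · rw [List.length_take]; omega
  · intro t ht htl hW
    rw [List.length_take] at htl
    rw [List.take_take, min_eq_left (by omega)] at hW
    exact hmin t (by omega) ⟨ht, by omega, hW⟩

theorem finite_L1 [Finite A] (hlen : ∀ P v, lam P = some v → P.length ≤ g.N1) (v : V) :
    ((D g pre post lam K c lam2).L1 v).Finite := by
  refine (List.finite_length_le A (g.p0 + g.N1)).subset ?_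
  rintro P ⟨hp, hl⟩
  have h1 := hlen _ _ hl
  rw [List.length_drop] at h1
  show P.length ≤ g.p0 + g.N1
  omega

theorem finite_L2 [Finite A] (hc : ∀ k, k < K → c k ≤ g.p0) (v : V) :
    ((D g pre post lam K c lam2).L2 v).Finite := by
  refine (List.finite_length_le A g.p0).subset ?_
  rintro P ⟨k, hk, hl, -⟩
  show P.length ≤ g.p0
  rw [hl]
  exact hc k hk

/-- words which are not in a bad mode are good for scheme 1 -/
theorem good (hlen : ∀ P v, lam P = some v → P.length ≤ g.N1)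
    (hex : ∀ P Q u b, lam P = some u → rho Q = some b → b = post u (P ++ Q))
    (hT0 : T0 ≤ g.N1 + g.q0)
    (hcomp : ∀ Y : List A, T0 ≤ Y.length → ¬ BadT Y.length → ∀ u : V,
      ∃ P Q, Y = P ++ Q ∧ lam P = some u ∧ (rho Q).isSome)
    {X : List A} (hX : g.XX X) (hB : ¬ g.BadX BadT X) :
    X ∈ (D g pre post lam K c lam2).Good := by
  unfold Geo.BadX at hB
  rw [not_or] at hB
  refine ⟨hX, fun x => ?_⟩
  have hXl := hX.1
  have hz := g.hz
  obtain ⟨P, Q, b, e, hP, hQ⟩ := g.complete1 pre hlen hX hB.1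
    (hcomp (X.drop g.p0) (by rw [List.length_drop]; omega)
      (by rw [List.length_drop]; exact hB.2)) x
  have hb := (g.sound1 pre post hlen hex hP hQ).2
  refine ⟨P, hP, Q, ?_, e.symm⟩
  intro x' P' hP'
  have h2 := g.sound1 pre post hlen hex hP' hQ
  refine ⟨h2.1, ?_⟩
  show g.T pre post x' (P' ++ Q) = g.T pre post x X
  rw [h2.2, e, hb]

theorem bad_of_bad (hlen : ∀ P v, lam P = some v → P.length ≤ g.N1)
    (hex : ∀ P Q u b, lam P = some u → rho Q = some b → b = post u (P ++ Q))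
    (hT0 : T0 ≤ g.N1 + g.q0)
    (hcomp : ∀ Y : List A, T0 ≤ Y.length → ¬ BadT Y.length → ∀ u : V,
      ∃ P Q, Y = P ++ Q ∧ lam P = some u ∧ (rho Q).isSome)
    {X : List A} (hX : X ∈ (D g pre post lam K c lam2).Bad) : g.BadX BadT X := by
  by_contra h
  exact hX.2 (good hlen hex hT0 hcomp hX.1 h)

/-- completeness of scheme 2 in 727's form -/
theorem comp2 (hlen : ∀ P v, lam P = some v → P.length ≤ g.N1)
    (hex : ∀ P Q u b, lam P = some u → rho Q = some b → b = post u (P ++ Q))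
    (hT0 : T0 ≤ g.N1 + g.q0)
    (hcomp : ∀ Y : List A, T0 ≤ Y.length → ¬ BadT Y.length → ∀ u : V,
      ∃ P Q, Y = P ++ Q ∧ lam P = some u ∧ (rho Q).isSome)
    (hc : ∀ k, k < K → c k ≤ g.p0)
    (hex2 : ∀ k, k < K → ∀ P Q v u, P.length = c k → Q.length = g.p0 - c k →
      lam2 k P = some v → rho2 k Q = some u → u = pre (P ++ Q) v)
    (hgap : ∀ P Q : List A, g.Wo P → g.Wo (P ++ Q) → Q ≠ [] → 2 * g.p0 + 2 * g.N1 < Q.length)
    (hsp : ∀ k k' l l', k < K → k' < K → l < K → l' < K → k' ≠ k → l' ≠ l →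
      c k + c l' < c l + c k' + 2 * g.N1 → c l + c k' < c k + c l' + 2 * g.N1 → k = l)
    (hthin : ∀ τ, g.z ≤ τ + g.p0 → ∀ J : Finset ℕ, (∀ k ∈ J, k < K ∧
      ∃ k', k' < K ∧ k' ≠ k ∧ BadT (τ + c k' - c k - g.p0)) → J.card ≤ C0)
    (hI : ∀ (u : List A) (v : V), u.length = g.p0 → ∃ I : Finset ℕ, 2 * C0 + 2 ≤ I.card ∧
      ∀ k ∈ I, k < K ∧ lam2 k (u.take (c k)) = some v ∧ (rho2 k (u.drop (c k))).isSome) :
    ∀ X1 ∈ (D g pre post lam K c lam2).Bad, ∀ X2 ∈ (D g pre post lam K c lam2).Bad, ∀ x,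
      ∃ P ∈ (D g pre post lam K c lam2).L2 x,
        ∃ Q ∈ (D g pre post lam K c lam2).R2
          ((D g pre post lam K c lam2).T ((D g pre post lam K c lam2).T x X1) X2),
          P ++ Q = X1 ++ X2 := by
  intro X1 h1 X2 h2 x
  have hX1 : g.XX X1 := h1.1
  have hX2 : g.XX X2 := h2.1
  have hX1l := hX1.1
  have hX2l := hX2.1
  have hz := g.hz
  have hq := g.hq
  have hI' : ∃ I : Finset ℕ, 2 * C0 + 2 ≤ I.card ∧ ∀ k ∈ I, k < K ∧
      lam2 k (X1.take (c k)) = some x ∧ (rho2 k ((X1.take g.p0).drop (c k))).isSome := by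
    obtain ⟨I, hI1, hI2⟩ := hI (X1.take g.p0) x (by rw [List.length_take]; omega)
    refine ⟨I, hI1, fun k hk => ?_⟩
    obtain ⟨a1, a2, a3⟩ := hI2 k hk
    refine ⟨a1, ?_, a3⟩
    rw [List.take_take, min_eq_left (hc k a1)] at a2
    exact a2
  obtain ⟨P, Q, b, e, hP, hQ⟩ := g.complete2 pre post (BadT := BadT) hc hgap hsp hthin hX1 hX2 x hI'
  have hb : g.T pre post (g.T pre post x X1) X2 = b := by
    obtain ⟨Y, hY, e2, h3⟩ := g.sound2 pre post hc hex2 (R := []) (R' := X2) hX1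
      (bad_of_bad hlen hex hT0 hcomp h1) hP hQ (by rw [List.append_nil, e])
    have : Y = X2 := List.append_cancel_left (e2.symm.trans e)
    rw [← this]
    exact h3
  refine ⟨P, hP, Q, ?_, e⟩
  intro x' P' hP'
  -- the first block of `P' ++ Q`
  have hQ' := hQ
  obtain ⟨k, hk, l, hend, -, hXl, -⟩ := hQ'
  have hWQ : g.Wo Q := by
    have := hXl.2.1
    rw [← g.loc (Q.take l) _ (by have := hXl.1; omega), List.take_append_drop] at this
    exact this
  have hQl : g.z ≤ Q.length := by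
    have := hXl.1
    rw [List.length_drop] at this
    omega
  have hW' : g.Wo (P' ++ Q) := (g.loc P' Q (by omega)).2 hWQ
  obtain ⟨X', R', hX', e'⟩ := first g hW' (by rw [List.length_append]; omega)
  by_cases hg : X' ∈ (D g pre post lam K c lam2).Good
  · exact Or.inr (Or.inl ⟨X', hg, R', e'⟩)
  · have hbX' : X' ∈ (D g pre post lam K c lam2).Bad := ⟨hX', hg⟩
    obtain ⟨Y, hY, e2, h3⟩ := g.sound2 pre post hc hex2 (R := []) (R' := R') hX'
      (bad_of_bad hlen hex hT0 hcomp hbX') hP' hQ (by rw [List.append_nil, e'])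
    by_cases hgY : Y ∈ (D g pre post lam K c lam2).Good
    · exact Or.inr (Or.inr ⟨X', hbX', Y, hgY, ⟨[], by rw [List.append_nil, e2]⟩⟩)
    · refine Or.inl ⟨X', hbX', Y, ⟨hY, hgY⟩, e2, ?_⟩
      show g.T pre post (g.T pre post x' X') Y = g.T pre post (g.T pre post x X1) X2
      rw [h3, hb]

end Crest.Agent.R320.Sem_408
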