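import Mathlib.Data.List.Basic
import Mathlib.Data.List.TakeDrop
import Mathlib.Tactic

/-!
# Row 320: semigroup form of one 818-scheme on words (helper418)

Walls are given by a right-looking rule `R` with window `n` (291's format).  `C` is the set of words
which lead from a legal cut to a legal cut and carry a correct thread.  Results:
`C_append` (closure under concatenation = soundness), `C_cut` (a legal place inside a zone of the
thread splits the word inside `C`), `irr_bound` (irreducible words whose zones are all complete have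
no zone at all, so they are short).
-/

set_option autoImplicit false

namespace Crest.Agent.R320.Sem418

variable {α V : Type*}

/-- Data of a scheme: wall rule `R` with window `n`, chain step `z = p + q + N1`, labels, zone map. -/
structure Scheme (α V : Type*) where
  /-- right-looking wall rule -/
  R : List α → Prop
  /-- window of the wall rule -/
  n : ℕ
  /-- first offset of a cut behind the active wall -/
  p : ℕ
  /-- distance after which the right side looks for a wall -/
  q : ℕ
  /-- width of the band of cuts -/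
  N1 : ℕ
  /-- left label of the word from the active wall to the cut -/
  L : List α → Option V
  /-- right label -/
  Rt : List α → Option V
  /-- zone map -/
  T : List α → V → V
  loc : ∀ Q, R Q ↔ R (Q.take n)
  len : ∀ Q, R Q → n ≤ Q.length
  hn : 0 < n
  hnp : n ≤ p

namespace Scheme

variable (S : Scheme α V)

/-- chain step length -/
def z : ℕ := S.p + S.q + S.N1

/-- there is a wall at position `t` of `w` -/
def wall (w : List α) (t : ℕ) : Prop := S.R (w.drop t)

/-- `b` is the first wall of `w` at a position `≥ y` -/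
def First (w : List α) (y b : ℕ) : Prop :=
  y ≤ b ∧ S.wall w b ∧ ∀ t, y ≤ t → t < b → ¬ S.wall w t

theorem wall_len {w : List α} {t : ℕ} (h : S.wall w t) : t + S.n ≤ w.length := by
  have h1 := S.len _ h
  have h2 := S.hn
  rw [List.length_drop] at h1
  omega

theorem wall_append_left {u v : List α} {t : ℕ} (h : t + S.n ≤ u.length) :
    S.wall (u ++ v) t ↔ S.wall u t := by
  unfold wall
  rw [S.loc, S.loc (u.drop t)]
  have h1 : (u ++ v).drop t = u.drop t ++ v := by
    rw [List.drop_append_of_le_length (by omega)]
  rw [h1, List.take_append_of_le_length (by simp; omega)]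

theorem drop_add_append (u v : List α) (t : ℕ) : (u ++ v).drop (u.length + t) = v.drop t := by
  rw [List.drop_append]
  simp

theorem wall_append_right {u v : List α} {t : ℕ} :
    S.wall (u ++ v) (u.length + t) ↔ S.wall v t := by
  unfold wall
  rw [drop_add_append]

theorem First.append_left {u v : List α} {y b : ℕ} {S : Scheme α V} (h : S.First u y b) :
    S.First (u ++ v) y b := by
  obtain ⟨h1, h2, h3⟩ := h
  have hb := S.wall_len h2
  refine ⟨h1, (S.wall_append_left hb).2 h2, fun t ht1 ht2 hw => h3 t ht1 ht2 ?_⟩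
  exact (S.wall_append_left (by omega)).1 hw

theorem First.restrict {u v : List α} {y b : ℕ} {S : Scheme α V} (h : S.First (u ++ v) y b)
    (hb : b + S.n ≤ u.length) : S.First u y b := by
  obtain ⟨h1, h2, h3⟩ := h
  refine ⟨h1, (S.wall_append_left hb).1 h2, fun t ht1 ht2 hw => h3 t ht1 ht2 ?_⟩
  exact (S.wall_append_left (by omega)).2 hw

theorem First.shift {u v : List α} {y b : ℕ} {S : Scheme α V} (h : S.First v y b) :
    S.First (u ++ v) (u.length + y) (u.length + b) := by
  obtain ⟨h1, h2, h3⟩ := h
  refine ⟨by omega, S.wall_append_right.2 h2, fun t ht1 ht2 hw => ?_⟩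
  obtain ⟨s, rfl⟩ : ∃ s, t = u.length + s := ⟨t - u.length, by omega⟩
  exact h3 s (by omega) (by omega) (S.wall_append_right.1 hw)

theorem First.unshift {u v : List α} {y b : ℕ} {S : Scheme α V}
    (h : S.First (u ++ v) (u.length + y) (u.length + b)) : S.First v y b := by
  obtain ⟨h1, h2, h3⟩ := h
  refine ⟨by omega, S.wall_append_right.1 h2, fun t ht1 ht2 hw => ?_⟩
  exact h3 (u.length + t) (by omega) (by omega) (S.wall_append_right.2 hw)

theorem First.unique {w : List α} {y b b' : ℕ} {S : Scheme α V} (h : S.First w y b)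
    (h' : S.First w y b') : b = b' := by
  obtain ⟨h1, h2, h3⟩ := h
  obtain ⟨h1', h2', h3'⟩ := h'
  rcases lt_trichotomy b b' with hlt | heq | hgt
  · exact absurd h2 (h3' b h1 hlt)
  · exact heq
  · exact absurd h2' (h3 b' h1' hgt)

/-- zone data of `[a,b)`: the word from `a` up to the end of the window of the wall `b` -/
def zone (w : List α) (a b : ℕ) : List α := (w.drop a).take (b - a + S.n)

theorem zone_append_left {u v : List α} {a b : ℕ} (hab : a ≤ b) (hb : b + S.n ≤ u.length) :
    S.zone (u ++ v) a b = S.zone u a b := by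
  unfold zone
  rw [List.drop_append_of_le_length (by omega), List.take_append_of_le_length (by simp; omega)]

theorem zone_shift {u v : List α} {a b : ℕ} :
    S.zone (u ++ v) (u.length + a) (u.length + b) = S.zone v a b := by
  unfold zone
  rw [drop_add_append]
  congr 1
  omega

/-- thread from `(a,v)` to `(a',v')` along the chain `N(a) =` first wall `≥ a + z` -/
inductive Thr (w : List α) : ℕ → V → ℕ → V → Prop
  | refl (a : ℕ) (v : V) : Thr w a v a v
  | step {a : ℕ} {v : V} {a' : ℕ} {v' : V} {b : ℕ} (h : Thr w a v a' v')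
      (hb : S.First w (a' + S.z) b) : Thr w a v b (S.T (S.zone w a' b) v')

variable {S}

theorem Thr.le {w : List α} {a a' : ℕ} {v v' : V} (h : S.Thr w a v a' v') : a ≤ a' := by
  induction h with
  | refl => exact le_rfl
  | step h hb ih => exact ih.trans ((Nat.le_add_right _ _).trans hb.1)

theorem Thr.wall {w : List α} {a a' : ℕ} {v v' : V} (h : S.Thr w a v a' v') (ha : S.wall w a) :
    S.wall w a' := by
  induction h with
  | refl => exact ha
  | step h hb ih => exact hb.2.1

theorem Thr.trans {w : List α} {a b c : ℕ} {v v' v'' : V} (h : S.Thr w a v b v')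
    (h' : S.Thr w b v' c v'') : S.Thr w a v c v'' := by
  induction h' with
  | refl => exact h
  | step h1 hb ih => exact Thr.step ih hb

theorem Thr.append_left {u x : List α} {a a' : ℕ} {v v' : V} (h : S.Thr u a v a' v') :
    S.Thr (u ++ x) a v a' v' := by
  induction h with
  | refl => exact Thr.refl _ _
  | step h hb ih =>
    rename_i c vc b
    have h1 := S.wall_len hb.2.1
    have h2 : c ≤ b := (Nat.le_add_right _ _).trans hb.1
    rw [← S.zone_append_left (v := x) h2 h1]
    exact Thr.step ih hb.append_left

theorem Thr.restrict {u x : List α} {a a' : ℕ} {v v' : V} (h : S.Thr (u ++ x) a v a' v')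
    (ha : a' + S.n ≤ u.length) : S.Thr u a v a' v' := by
  induction h with
  | refl => exact Thr.refl _ _
  | step h hb ih =>
    rename_i c vc b
    have h2 : c ≤ b := (Nat.le_add_right _ _).trans hb.1
    rw [S.zone_append_left (v := x) h2 ha]
    exact Thr.step (ih (by omega)) (hb.restrict ha)

theorem Thr.shift {u x : List α} {a a' : ℕ} {v v' : V} (h : S.Thr x a v a' v') :
    S.Thr (u ++ x) (u.length + a) v (u.length + a') v' := by
  induction h with
  | refl => exact Thr.refl _ _
  | step h hb ih =>
    rename_i c vc b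
    rw [← S.zone_shift (u := u)]
    refine Thr.step ih ?_
    have := hb.shift (u := u)
    rwa [← Nat.add_assoc] at this

theorem Thr.unshift {u x : List α} {a c : ℕ} {v v' : V}
    (h : S.Thr (u ++ x) (u.length + a) v c v') :
    ∃ c', c = u.length + c' ∧ S.Thr x a v c' v' := by
  generalize ha : u.length + a = A at h
  induction h with
  | refl =>
    exact ⟨a, ha.symm, Thr.refl _ _⟩
  | step h hb ih =>
    rename_i c0 vc b
    obtain ⟨c', rfl, hc'⟩ := ih
    obtain ⟨b', rfl⟩ : ∃ b', b = u.length + b' := ⟨b - u.length, by have := hb.1; omega⟩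
    refine ⟨b', rfl, ?_⟩
    rw [S.zone_shift]
    refine Thr.step hc' ?_
    rw [Nat.add_assoc] at hb
    exact hb.unshift

variable (S)

/-- right-legal word: label `v` at the first active wall `b` -/
def RL (Q : List α) (v : V) (b : ℕ) : Prop :=
  S.Rt Q = some v ∧ S.First Q S.q b ∧ S.q + S.N1 ≤ b

/-- left-legal word (from the active wall to the cut) -/
def LL (P : List α) (v : V) : Prop :=
  S.p ≤ P.length ∧ P.length ≤ S.p + S.N1 ∧ S.L P = some v

/-- words from a legal cut to a legal cut which carry a correct thread -/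
def C (u : List α) : Prop :=
  ∃ v b a v', S.RL u v b ∧ S.Thr u b v a v' ∧ S.LL (u.drop a) v'

/-- the two hypotheses on the labels: the right label reads up to the window of `b`; one equation
for every junction -/
structure Sound : Prop where
  rt_loc : ∀ Q b, S.First Q S.q b → S.Rt Q = S.Rt (Q.take (b + S.n))
  snd : ∀ P Q v v' b, S.R P → S.LL P v → S.RL Q v' b →
    S.T ((P ++ Q).take (P.length + b + S.n)) v = v'

variable {S}

theorem RL.append (hS : S.Sound) {Q x : List α} {v : V} {b : ℕ} (h : S.RL Q v b) :
    S.RL (Q ++ x) v b := by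
  obtain ⟨h1, h2, h3⟩ := h
  refine ⟨?_, h2.append_left, h3⟩
  have hb := S.wall_len h2.2.1
  rw [hS.rt_loc _ b h2.append_left, List.take_append_of_le_length hb, ← hS.rt_loc _ b h2, h1]

theorem RL.restrict (hS : S.Sound) {Q x : List α} {v : V} {b : ℕ} (h : S.RL (Q ++ x) v b)
    (hb : b + S.n ≤ Q.length) : S.RL Q v b := by
  obtain ⟨h1, h2, h3⟩ := h
  have h2' := h2.restrict hb
  refine ⟨?_, h2', h3⟩
  rw [hS.rt_loc _ b h2', ← h1, hS.rt_loc _ b h2, List.take_append_of_le_length hb]

/-- 818's lemma: at a legal junction the right side names the next node of the chain. -/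
theorem first_junction {u Q : List α} {a b : ℕ} (ha : S.p ≤ u.length - a)
    (ha' : u.length - a ≤ S.p + S.N1) (hau : a ≤ u.length) (h : S.First Q S.q b)
    (hb : S.q + S.N1 ≤ b) : S.First (u ++ Q) (a + S.z) (u.length + b) := by
  obtain ⟨h1, h2, h3⟩ := h
  refine ⟨by unfold z; omega, S.wall_append_right.2 h2, fun t ht1 ht2 hw => ?_⟩
  unfold z at ht1
  obtain ⟨s, rfl⟩ : ∃ s, t = u.length + s := ⟨t - u.length, by omega⟩
  exact h3 s (by omega) (by omega) (S.wall_append_right.1 hw)

/-- the junction zone moves the left value to the right label -/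
theorem zone_junction (hS : S.Sound) {u Q : List α} {a b : ℕ} {v v' : V} (hwa : S.wall u a)
    (hL : S.LL (u.drop a) v) (hR : S.RL Q v' b) :
    S.T (S.zone (u ++ Q) a (u.length + b)) v = v' := by
  have hau : a ≤ u.length := by have := S.wall_len hwa; omega
  have h := hS.snd (u.drop a) Q v v' b hwa hL hR
  have e : S.zone (u ++ Q) a (u.length + b)
      = (u.drop a ++ Q).take ((u.drop a).length + b + S.n) := by
    unfold zone
    rw [List.drop_append_of_le_length hau, List.length_drop]
    congr 1
    omega
  rw [e, h]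

/-- **Soundness in semigroup form**: `C` is closed under concatenation. -/
theorem C_append (hS : S.Sound) {u x : List α} (hu : S.C u) (hx : S.C x) : S.C (u ++ x) := by
  obtain ⟨v, b, a, v', hR, hT, hL⟩ := hu
  obtain ⟨w, c, d, w', hR2, hT2, hL2⟩ := hx
  have hwa : S.wall u a := hT.wall hR.2.1.2.1
  have hau : a ≤ u.length := by have := S.wall_len hwa; omega
  have hLl := hL
  obtain ⟨l1, l2, l3⟩ := hLl
  rw [List.length_drop] at l1 l2
  have hF : S.First (u ++ x) (a + S.z) (u.length + c) :=
    first_junction l1 l2 hau hR2.2.1 hR2.2.2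
  have hz := zone_junction hS hwa hL hR2
  refine ⟨v, b, u.length + d, w', hR.append hS, ?_, ?_⟩
  · have h1 : S.Thr (u ++ x) b v a v' := hT.append_left
    have h2 := Thr.step h1 hF
    rw [hz] at h2
    exact h2.trans hT2.shift
  · rw [drop_add_append]
    exact hL2

/-- **Cut lemma**: a legal place for the token inside a zone of its thread splits the word in `C`. -/
theorem C_cut (hS : S.Sound) {u x : List α} {v : V} {b a1 a2 a : ℕ} {v1 v' : V}
    (hR : S.RL (u ++ x) v b) (hT1 : S.Thr (u ++ x) b v a1 v1)
    (hF : S.First (u ++ x) (a1 + S.z) a2)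
    (hT2 : S.Thr (u ++ x) a2 (S.T (S.zone (u ++ x) a1 a2) v1) a v')
    (hL : S.LL ((u ++ x).drop a) v') (ha1 : a1 ≤ u.length)
    (hl : S.LL (u.drop a1) v1) {w : V} {c : ℕ} (hr : S.RL x w c) : S.C u ∧ S.C x := by
  have hll := hl
  obtain ⟨l1, l2, l3⟩ := hll
  rw [List.length_drop] at l1 l2
  have hnp := S.hnp
  have h1n : a1 + S.n ≤ u.length := by have := S.hn; omega
  have hba : b ≤ a1 := hT1.le
  have hT1' : S.Thr u b v a1 v1 := hT1.restrict h1n
  have hR' : S.RL u v b := hR.restrict hS (by omega)
  have hF' : S.First (u ++ x) (a1 + S.z) (u.length + c) :=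
    first_junction l1 l2 ha1 hr.2.1 hr.2.2
  have he : a2 = u.length + c := hF.unique hF'
  subst he
  have hwa : S.wall u a1 := hT1'.wall hR'.2.1.2.1
  rw [zone_junction hS hwa hl hr] at hT2
  obtain ⟨d, rfl, hd⟩ := hT2.unshift
  rw [drop_add_append] at hL
  exact ⟨⟨v, b, a1, v1, hR', hT1', hl⟩, ⟨w, c, d, v', hr, hd, hL⟩⟩

/-- no proper splitting inside `C` -/
def Irr (S : Scheme α V) (u : List α) : Prop :=
  S.C u ∧ ∀ u1 u2, u = u1 ++ u2 → S.C u1 → ¬ S.C u2

/-- the zone `[a1, a2)` of `u` has a legal place for the token `v1` -/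
def Kills (S : Scheme α V) (u : List α) (a1 : ℕ) (v1 : V) : Prop :=
  ∃ u1 u2 w c, u = u1 ++ u2 ∧ a1 ≤ u1.length ∧ S.LL (u1.drop a1) v1 ∧ S.RL u2 w c

/-- an irreducible word of `C` has no legal place for its token in any zone of its thread -/
theorem irr_zone (hS : S.Sound) {u : List α} (hu : S.Irr u) {v : V} {b a1 a2 a : ℕ} {v1 v' : V}
    (hR : S.RL u v b) (hT1 : S.Thr u b v a1 v1) (hF : S.First u (a1 + S.z) a2)
    (hT2 : S.Thr u a2 (S.T (S.zone u a1 a2) v1) a v') (hL : S.LL (u.drop a) v') :
    ¬ S.Kills u a1 v1 := by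
  rintro ⟨u1, u2, w, c, rfl, h1, h2, h3⟩
  obtain ⟨hc1, hc2⟩ := C_cut hS hR hT1 hF hT2 hL h1 h2 h3
  exact hu.2 u1 u2 rfl hc1 hc2

/-- a nontrivial thread has a first step -/
theorem Thr.cases_head {w : List α} {a c : ℕ} {v v' : V} (h : S.Thr w a v c v') :
    (a = c ∧ v = v') ∨ ∃ b, S.First w (a + S.z) b ∧ S.Thr w b (S.T (S.zone w a b) v) c v' := by
  induction h with
  | refl => exact Or.inl ⟨rfl, rfl⟩
  | step h hb ih =>
    rename_i c0 vc b
    rcases ih with ⟨rfl, rfl⟩ | ⟨b', hb', hT⟩
    · exact Or.inr ⟨b, hb, Thr.refl _ _⟩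
    · exact Or.inr ⟨b', hb', Thr.step hT hb⟩

/-- **Completeness**: if every zone `[b, N(b))` behind the first active wall has a legal place for
every token, an irreducible word of `C` is short: its last active wall is its first active wall. -/
theorem irr_bound (hS : S.Sound) {u : List α} (hu : S.Irr u)
    (hcomp : ∀ b v c, S.First u S.q b → S.First u (b + S.z) c → S.Kills u b v) :
    ∃ v b, S.RL u v b ∧ S.LL (u.drop b) v ∧ u.length ≤ b + S.p + S.N1 := by
  obtain ⟨v, b, a, v', hR, hT, hL⟩ := hu.1
  rcases hT.cases_head with ⟨rfl, rfl⟩ | ⟨c, hF, hT2⟩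
  · refine ⟨v, b, hR, hL, ?_⟩
    have h2 := hL.2.1
    rw [List.length_drop] at h2
    omega
  · exact absurd (hcomp b v c hR.2.1 hF) (irr_zone hS hu hR (Thr.refl _ _) hF hT2 hL)

/-- words of `C` are not empty -/
theorem C_ne_nil {u : List α} (h : S.C u) : u ≠ [] := by
  obtain ⟨v, b, a, v', hR, -, -⟩ := h
  rintro rfl
  have := S.wall_len hR.2.1.2.1
  have := S.hn
  simp at *
  omega

/-- every word of `C` is a product of irreducible words of `C` -/
theorem C_irr_prod {u : List α} (h : S.C u) :
    ∃ l : List (List α), l ≠ [] ∧ (∀ x ∈ l, S.Irr x) ∧ l.flatten = u := by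
  induction hk : u.length using Nat.strong_induction_on generalizing u with
  | _ k ih =>
    by_cases hi : S.Irr u
    · exact ⟨[u], by simp, by simpa using hi, by simp⟩
    · unfold Irr at hi
      simp only [not_and, not_forall, not_not] at hi
      obtain ⟨u1, u2, rfl, h1, h2⟩ := hi h
      have n1 := List.length_pos_iff.2 (C_ne_nil h1)
      have n2 := List.length_pos_iff.2 (C_ne_nil h2)
      rw [List.length_append] at hk
      obtain ⟨l1, -, h12, h13⟩ := ih u1.length (by omega) h1 rfl
      obtain ⟨l2, h21, h22, h23⟩ := ih u2.length (by omega) h2 rfl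
      refine ⟨l1 ++ l2, by simp [h21], ?_, by simp [h13, h23]⟩
      intro x hx
      rcases List.mem_append.1 hx with hx | hx
      · exact h12 x hx
      · exact h22 x hx

/-- conversely a product of words of `C` is in `C` -/
theorem C_flatten (hS : S.Sound) {l : List (List α)} (hl : l ≠ []) (h : ∀ x ∈ l, S.C x) :
    S.C l.flatten := by
  induction l with
  | nil => exact absurd rfl hl
  | cons a l ih =>
    rcases eq_or_ne l [] with rfl | hne
    · simpa using h a (by simp)
    · rw [List.flatten_cons]
      exact C_append hS (h a (by simp)) (ih hne fun x hx => h x (by simp [hx]))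

end Scheme

end Crest.Agent.R320.Sem418
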