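import Crest.Agent.R320.Hk2_851

/-!
Row 320, P4 for 163's `top` (#13363): SEMANTIC right labels (helper445).

`SR1 Q b` : every left-legal pair `(P,v)` of scheme 1 gives the block `P ++ Q` and the value `b`.
`SR2 Q b` : the same for scheme 2 (two blocks), only for left-legal pairs not cut by scheme 1.
So soundness is definitional, and the label languages are finite Boolean combinations of left
quotients and products of the languages `{X | X ∈ XX ∧ T v X = v'}`.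
-/

set_option autoImplicit false

namespace Crest.Agent.R320.Sem_445

open Crest.RegLang Crest.Agent.R320.Hk_851

universe u

variable {α : Type u} {V : Type*} {k : ℕ}

section defs

variable (XX : Set (List α)) (T : V → List α → V) (LP1 LP2 : List α → V → Prop)

/-- semantic label of scheme 1 -/
def SR1 (Q : List α) (b : V) : Prop := ∀ P v, LP1 P v → P ++ Q ∈ XX ∧ T v (P ++ Q) = b

/-- right-legal for scheme 1 -/
def Leg1 (Q : List α) : Prop := Q ≠ [] ∧ (∃ P v, LP1 P v) ∧ ∃ b, SR1 XX T LP1 Q b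

/-- no cut of scheme 1 at or after `P` in a block which is a prefix of `P ++ Q` -/
def NC1 (P : List α) (v : V) (Q : List α) : Prop :=
  ∀ X ∈ XX, X <+: P ++ Q → ∀ P' Q', X = P' ++ Q' → P.length ≤ P'.length → LP1 P' v →
    ¬ Leg1 XX T LP1 Q'

/-- rest of the block and one more block, value `b` -/
def Two (P : List α) (v : V) (Q : List α) (b : V) : Prop :=
  ∃ Q1 X2, Q = Q1 ++ X2 ∧ Q1 ≠ [] ∧ P ++ Q1 ∈ XX ∧ X2 ∈ XX ∧ T (T v (P ++ Q1)) X2 = b

/-- semantic label of scheme 2 -/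
def SR2 (Q : List α) (b : V) : Prop :=
  ∀ P v, LP2 P v → NC1 XX T LP1 P v Q → Two XX T P v Q b

open Classical in
/-- right label of scheme 1 -/
noncomputable def R1 (Q : List α) : Option V :=
  if h : Leg1 XX T LP1 Q then some h.2.2.choose else none

open Classical in
/-- right label of scheme 2 -/
noncomputable def R2 (Q : List α) : Option V :=
  if h : (∃ b, SR2 XX T LP1 LP2 Q b) ∧ ∃ P v, LP2 P v ∧ NC1 XX T LP1 P v Q then
    some h.1.choose else none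

end defs

variable {XX : Set (List α)} {T : V → List α → V} {LP1 LP2 : List α → V → Prop}

theorem R1_iff (Q : List α) (b : V) : R1 XX T LP1 Q = some b ↔
    Q ≠ [] ∧ (∃ P v, LP1 P v) ∧ SR1 XX T LP1 Q b := by
  classical
  unfold R1
  constructor
  · intro h
    split_ifs at h with hl
    have hb : hl.2.2.choose = b := Option.some.inj h
    exact ⟨hl.1, hl.2.1, hb ▸ hl.2.2.choose_spec⟩
  · rintro ⟨h1, ⟨P, v, hP⟩, h3⟩
    have hl : Leg1 XX T LP1 Q := ⟨h1, ⟨P, v, hP⟩, b, h3⟩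
    rw [dif_pos hl]
    congr 1
    have := hl.2.2.choose_spec P v hP
    rw [← this.2, (h3 P v hP).2]

theorem R1_isSome (Q : List α) : (R1 XX T LP1 Q).isSome ↔ Leg1 XX T LP1 Q := by
  classical
  unfold R1
  split_ifs with h <;> simp [h]

/-- two splits of one word -/
theorem Two.unique (hPC : ∀ X ∈ XX, ∀ Y, X ++ Y ∈ XX → Y = []) {P Q : List α} {v b b' : V}
    (h : Two XX T P v Q b) (h' : Two XX T P v Q b') : b = b' := by
  obtain ⟨Q1, X2, e, _, h1, h2, rfl⟩ := h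
  obtain ⟨Q1', X2', e', _, h1', h2', rfl⟩ := h'
  have key : Q1 = Q1' := by
    have e2 : Q1 ++ X2 = Q1' ++ X2' := e ▸ e'
    rcases List.append_eq_append_iff.1 e2 with ⟨a, ha, _⟩ | ⟨a, ha, _⟩
    · have := hPC _ h1 a (by rw [List.append_assoc, ← ha]; exact h1')
      rw [ha, this, List.append_nil]
    · have := hPC _ h1' a (by rw [List.append_assoc, ← ha]; exact h1)
      rw [ha, this, List.append_nil]
  subst key
  have : X2 = X2' := by
    have e2 : Q1 ++ X2 = Q1 ++ X2' := e ▸ e'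
    exact List.append_cancel_left e2
  rw [this]

theorem R2_iff (hPC : ∀ X ∈ XX, ∀ Y, X ++ Y ∈ XX → Y = []) (Q : List α) (b : V) :
    R2 XX T LP1 LP2 Q = some b ↔
      SR2 XX T LP1 LP2 Q b ∧ ∃ P v, LP2 P v ∧ NC1 XX T LP1 P v Q := by
  classical
  unfold R2
  constructor
  · intro h
    split_ifs at h with hl
    have hb : hl.1.choose = b := Option.some.inj h
    exact ⟨hb ▸ hl.1.choose_spec, hl.2⟩
  · rintro ⟨h1, h2⟩
    have hl : (∃ b, SR2 XX T LP1 LP2 Q b) ∧ ∃ P v, LP2 P v ∧ NC1 XX T LP1 P v Q := ⟨⟨b, h1⟩, h2⟩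
    rw [dif_pos hl]
    congr 1
    obtain ⟨P, v, hP, hN⟩ := h2
    exact (hl.1.choose_spec P v hP hN).unique hPC (h1 P v hP hN)

/-! ### heights -/

theorem HL_XX [Finite V] [Nonempty V] (hXT : ∀ v v', HL k {X | X ∈ XX ∧ T v X = v'}) :
    HL k {X | X ∈ XX} := by
  have v0 : V := Classical.arbitrary V
  refine (HL.iUnion (fun v' => hXT v0 v')).congr fun w => Iff.symm ?_
  constructor
  · intro h
    obtain ⟨v', hv⟩ := h
    exact hv.1
  · intro h
    exact ⟨T v0 w, h, rfl⟩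

theorem HL_SR1 (hXT : ∀ v v', HL k {X | X ∈ XX ∧ T v X = v'})
    (hf : {x : List α × V | LP1 x.1 x.2}.Finite) (b : V) : HL k {Q | SR1 XX T LP1 Q b} := by
  have h := HL.biInter (k := k) hf
    (L := fun x => ({Q | x.1 ++ Q ∈ XX ∧ T x.2 (x.1 ++ Q) = b} : Language α))
    (fun x _ => (HL.lquot x.1 (hXT x.2 b)))
  refine h.congr fun w => Iff.symm ?_
  constructor
  · intro h P v hP
    exact h (P, v) hP
  · intro h x hx
    exact h x.1 x.2 hx

theorem HL_Leg1 [Finite V] (hXT : ∀ v v', HL k {X | X ∈ XX ∧ T v X = v'})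
    (hf : {x : List α × V | LP1 x.1 x.2}.Finite) : HL k {Q | Leg1 XX T LP1 Q} := by
  have h1 : HL k {Q : List α | Q ≠ []} := HL.setOf_not (HL.word [])
  have h2 : HL k ({_w | ∃ P v, LP1 P v} : Language α) := HL.const _
  have h3 : HL k {Q : List α | ∃ b, SR1 XX T LP1 Q b} := by
    refine (HL.iUnion (fun b => HL_SR1 hXT hf b)).congr fun w => Iff.symm ?_
    exact Iff.rfl
  exact HL.setOf_and h1 (HL.setOf_and h2 h3)

theorem HL_R1 (hXT : ∀ v v', HL k {X | X ∈ XX ∧ T v X = v'})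
    (hf : {x : List α × V | LP1 x.1 x.2}.Finite) (b : V) :
    HL k {Q | R1 XX T LP1 Q = some b} := by
  have h1 : HL k {Q : List α | Q ≠ []} := HL.setOf_not (HL.word [])
  have h2 : HL k ({_w | ∃ P v, LP1 P v} : Language α) := HL.const _
  refine (HL.setOf_and h1 (HL.setOf_and h2 (HL_SR1 hXT hf b))).congr fun w => Iff.symm ?_
  exact (R1_iff w b).symm

theorem mem_mul' {A B : Language α} {w : List α} : w ∈ A * B ↔ ∃ x y, x ∈ A ∧ y ∈ B ∧ w = x ++ y := by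
  rw [Language.mem_mul]
  constructor
  · rintro ⟨x, hx, y, hy, rfl⟩; exact ⟨x, y, hx, hy, rfl⟩
  · rintro ⟨x, y, hx, hy, rfl⟩; exact ⟨x, hx, y, hy, rfl⟩

theorem HL_NC1 [Finite V] [Nonempty V] (hXT : ∀ v v', HL k {X | X ∈ XX ∧ T v X = v'})
    (hf : {x : List α × V | LP1 x.1 x.2}.Finite) (P : List α) (v : V) :
    HL k {Q | NC1 XX T LP1 P v Q} := by
  have hfP : {P' : List α | LP1 P' v}.Finite := by
    refine (hf.image Prod.fst).subset ?_
    intro P' h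
    exact ⟨(P', v), h, rfl⟩
  have hM : ∀ P' : List α, HL k ({X | X ∈ XX ∧ ∃ Q', X = P' ++ Q' ∧ Leg1 XX T LP1 Q'} : Language α) := by
    intro P'
    refine HL.setOf_and (HL_XX hXT) ?_
    refine ((HL.word P').mul (HL_Leg1 hXT hf)).congr fun w => Iff.symm ?_
    constructor
    · intro h
      obtain ⟨x, y, hx, hy, rfl⟩ := mem_mul'.1 h
      have hx' : x = P' := hx
      exact ⟨y, by rw [hx'], hy⟩
    · rintro ⟨y, rfl, hy⟩
      exact mem_mul'.2 ⟨P', y, rfl, hy, rfl⟩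
  have h1 : ∀ P' : List α, HL k ({Q | P.length ≤ P'.length ∧ ∃ X, (X ∈ XX ∧
      ∃ Q', X = P' ++ Q' ∧ Leg1 XX T LP1 Q') ∧ X <+: P ++ Q} : Language α) := by
    intro P'
    refine HL.setOf_and (HL.const _) ?_
    exact HL.lquot P (HL.prefix (hM P'))
  have h2 := HL.biUnion (k := k) hfP (L := fun P' => ({Q | P.length ≤ P'.length ∧ ∃ X, (X ∈ XX ∧
      ∃ Q', X = P' ++ Q' ∧ Leg1 XX T LP1 Q') ∧ X <+: P ++ Q} : Language α)) (fun P' _ => h1 P')
  refine h2.compl.congr fun w => Iff.symm ?_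
  constructor
  · intro h X hX hp P' Q' e hl hL hLeg
    apply h
    exact ⟨P', hL, hl, X, ⟨hX, Q', e, hLeg⟩, hp⟩
  · intro h h'
    obtain ⟨P', hL, hl, X, ⟨hX, Q', e, hLeg⟩, hp⟩ := h'
    exact h X hX hp P' Q' e hl hL hLeg

/-- rests of the first block -/
def LA (XX : Set (List α)) (T : V → List α → V) (P : List α) (v v1 : V) : Language α :=
  {Q1 | Q1 ≠ [] ∧ (P ++ Q1 ∈ XX ∧ T v (P ++ Q1) = v1)}

/-- blocks with a given move -/
def LB (XX : Set (List α)) (T : V → List α → V) (v1 b : V) : Language α :=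
  {X2 | X2 ∈ XX ∧ T v1 X2 = b}

theorem HL_Two [Finite V] (hXT : ∀ v v', HL k {X | X ∈ XX ∧ T v X = v'}) (P : List α) (v b : V) :
    HL k {Q | Two XX T P v Q b} := by
  have h1 : ∀ v1 : V, HL k (LA XX T P v v1 * LB XX T v1 b) := by
    intro v1
    have hA : HL k (LA XX T P v v1) :=
      HL.setOf_and (HL.setOf_not (HL.word [])) (HL.lquot P (hXT v v1))
    exact hA.mul (hXT v1 b)
  refine (HL.iUnion h1).congr fun w => Iff.symm ?_
  constructor
  · intro h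
    obtain ⟨v1, hv⟩ := h
    obtain ⟨x, y, hx, hy, rfl⟩ := mem_mul'.1 hv
    obtain ⟨hx0, hx1, hx2⟩ := hx
    obtain ⟨hy1, hy2⟩ := hy
    exact ⟨x, y, rfl, hx0, hx1, hy1, by rw [hx2]; exact hy2⟩
  · rintro ⟨Q1, X2, rfl, h0, h1, h2, h3⟩
    exact ⟨T v (P ++ Q1), mem_mul'.2 ⟨Q1, X2, ⟨h0, h1, rfl⟩, ⟨h2, h3⟩, rfl⟩⟩

theorem HL_R2 [Finite V] [Nonempty V] (hPC : ∀ X ∈ XX, ∀ Y, X ++ Y ∈ XX → Y = [])
    (hXT : ∀ v v', HL k {X | X ∈ XX ∧ T v X = v'})
    (hf1 : {x : List α × V | LP1 x.1 x.2}.Finite) (hf2 : {x : List α × V | LP2 x.1 x.2}.Finite)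
    (b : V) : HL k {Q | R2 XX T LP1 LP2 Q = some b} := by
  have h1 : HL k {Q | SR2 XX T LP1 LP2 Q b} := by
    have h := HL.biInter (k := k) hf2
      (L := fun x => ({Q | NC1 XX T LP1 x.1 x.2 Q → Two XX T x.1 x.2 Q b} : Language α))
      (fun x _ => HL.setOf_imp (HL_NC1 hXT hf1 x.1 x.2) (HL_Two hXT x.1 x.2 b))
    refine h.congr fun w => Iff.symm ?_
    constructor
    · intro h P v hP
      exact h (P, v) hP
    · intro h x hx
      exact h x.1 x.2 hx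
  have h2 : HL k {Q | ∃ P v, LP2 P v ∧ NC1 XX T LP1 P v Q} := by
    have h := HL.biUnion (k := k) hf2
      (L := fun x => ({Q | NC1 XX T LP1 x.1 x.2 Q} : Language α))
      (fun x _ => HL_NC1 hXT hf1 x.1 x.2)
    refine h.congr fun w => Iff.symm ?_
    constructor
    · intro h
      obtain ⟨x, hx, hN⟩ := h
      exact ⟨x.1, x.2, hx, hN⟩
    · rintro ⟨P, v, hP, hN⟩
      exact ⟨(P, v), hP, hN⟩
  refine (HL.setOf_and h1 h2).congr fun w => Iff.symm ?_
  exact (R2_iff hPC w b).symm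

theorem HL_LP (hf : {x : List α × V | LP1 x.1 x.2}.Finite) (v : V) : HL k {P | LP1 P v} := by
  refine HL.finite ((hf.image Prod.fst).subset ?_)
  intro P' h
  exact ⟨(P', v), h, rfl⟩

/-! ### soundness -/

theorem s1 : ∀ P v Q b, LP1 P v → R1 XX T LP1 Q = some b → P ++ Q ∈ XX ∧ T v (P ++ Q) = b :=
  fun P v Q b hP hR => ((R1_iff Q b).1 hR).2.2 P v hP

theorem s2 (hPC : ∀ X ∈ XX, ∀ Y, X ++ Y ∈ XX → Y = []) :
    ∀ P v Q b, LP2 P v → R2 XX T LP1 LP2 Q = some b →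
      (∀ X ∈ XX, X <+: P ++ Q → ∀ P' Q', X = P' ++ Q' → P.length ≤ P'.length → LP1 P' v →
        (R1 XX T LP1 Q').isSome → False) →
      ∃ Q1 X2, Q = Q1 ++ X2 ∧ Q1 ≠ [] ∧ P ++ Q1 ∈ XX ∧ X2 ∈ XX ∧ T (T v (P ++ Q1)) X2 = b := by
  intro P v Q b hP hR hN
  refine ((R2_iff hPC Q b).1 hR).1 P v hP ?_
  intro X hX hp P' Q' e hl hL hLeg
  exact hN X hX hp P' Q' e hl hL ((R1_isSome Q').2 hLeg)

theorem R1_ne {Q : List α} {b : V} (h : R1 XX T LP1 Q = some b) : Q ≠ [] := ((R1_iff Q b).1 h).1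

theorem R2_ne (hPC : ∀ X ∈ XX, ∀ Y, X ++ Y ∈ XX → Y = []) {Q : List α} {b : V}
    (h : R2 XX T LP1 LP2 Q = some b) : Q ≠ [] := by
  obtain ⟨h1, P, v, hP, hN⟩ := (R2_iff hPC Q b).1 h
  obtain ⟨Q1, X2, rfl, h0, _⟩ := h1 P v hP hN
  intro h
  exact h0 (List.append_eq_nil_iff.1 h).1

/-- the covering hypothesis of 163's `top` from the semantic one -/
theorem cc (hPC : ∀ X ∈ XX, ∀ Y, X ++ Y ∈ XX → Y = [])
    (h : ∀ X ∈ XX, ∀ X2 ∈ XX, ∀ v,
      (∃ P Q, X = P ++ Q ∧ Q ≠ [] ∧ LP1 P v ∧ ∃ b, SR1 XX T LP1 Q b) ∨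
      (∃ P Q, X ++ X2 = P ++ Q ∧ P.length < X.length ∧ LP2 P v ∧ ∃ b, SR2 XX T LP1 LP2 Q b)) :
    ∀ X ∈ XX, ∀ X2 ∈ XX, ∀ v,
      (∃ P Q, X = P ++ Q ∧ LP1 P v ∧ (R1 XX T LP1 Q).isSome) ∨
      (∃ P Q, X ++ X2 = P ++ Q ∧ P.length < X.length ∧ LP2 P v ∧
        (R2 XX T LP1 LP2 Q).isSome) := by
  intro X hX X2 hX2 v
  by_cases hc : ∃ P Q, X = P ++ Q ∧ LP1 P v ∧ (R1 XX T LP1 Q).isSome
  · exact Or.inl hc
  · right
    rcases h X hX X2 hX2 v with ⟨P, Q, e, h0, hL, hb⟩ | ⟨P, Q, e, hlt, hL, b, hb⟩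
    · exact absurd ⟨P, Q, e, hL, (R1_isSome Q).2 ⟨h0, ⟨P, v, hL⟩, hb⟩⟩ hc
    · refine ⟨P, Q, e, hlt, hL, ?_⟩
      have hN : NC1 XX T LP1 P v Q := by
        intro X' hX' hp P' Q' e' _ hL' hLeg
        rw [← e] at hp
        have hXX : X' = X := by
          rcases List.prefix_or_prefix_of_prefix hp (List.prefix_append X X2) with hq | hq
          · obtain ⟨t, ht⟩ := hq
            have := hPC X' hX' t (by rw [ht]; exact hX)
            rw [← ht, this, List.append_nil]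
          · obtain ⟨t, ht⟩ := hq
            have := hPC X hX t (by rw [ht]; exact hX')
            rw [← ht, this, List.append_nil]
        apply hc
        exact ⟨P', Q', by rw [← hXX]; exact e', hL', (R1_isSome Q').2 hLeg⟩
      rw [(R2_iff hPC Q b).2 ⟨hb, P, v, hL, hN⟩]
      rfl

end Crest.Agent.R320.Sem_445
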