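import Crest.Agent.R320.Top5_110
import Crest.Agent.R320.ExactR_237

/-!
# Row 320: the natural block code of left-looking walls, semantic labels, completeness of the two
schemes (helper543), in the form needed by 110's `top_sem`.
-/

set_option autoImplicit false

namespace Crest.Agent.R320.Sem543

open Crest.Agent.R320.Hk_851 Crest.Agent.R320.Code110 Crest.Agent.R320.ExactR_237

variable {α : Type}

/-- natural blocks: first wall at distance at least `z` -/
def XX (Wo : List α → Prop) (z : ℕ) : Language α :=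
  {X | z ≤ X.length ∧ Wo X ∧ ∀ t, z ≤ t → t < X.length → ¬ Wo (X.take t)}

theorem XX_pc {Wo : List α → Prop} {z : ℕ} (hz : 0 < z) : PC (XX Wo z) := by
  refine ⟨?_, ?_⟩
  · rintro ⟨h, -⟩
    simp at h; omega
  · rintro u ⟨hu1, hu2, hu3⟩ v ⟨hv1, hv2, hv3⟩ ⟨r, rfl⟩
    rcases Nat.eq_zero_or_pos r.length with h0 | h0
    · have : r = [] := List.length_eq_zero_iff.1 h0
      subst this; simp
    · exfalso
      refine hv3 u.length hu1 (by rw [List.length_append]; omega) ?_
      rw [List.take_left']
      · exact hu2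
      · rfl

/-- the first block of a word with a wall far enough -/
theorem exists_block {Wo : List α → Prop} {z : ℕ} {w : List α} (s0 : ℕ) (h1 : z ≤ s0)
    (h2 : s0 ≤ w.length) (h3 : Wo (w.take s0)) :
    ∃ s, z ≤ s ∧ s ≤ s0 ∧ Wo (w.take s) ∧ (∀ t, z ≤ t → t < s → ¬ Wo (w.take t)) ∧
      w.take s ∈ XX Wo z := by
  classical
  have hex : ∃ s, z ≤ s ∧ Wo (w.take s) := ⟨s0, h1, h3⟩
  have hle : Nat.find hex ≤ s0 := Nat.find_min' hex ⟨h1, h3⟩
  obtain ⟨ha, hb⟩ := Nat.find_spec hex
  have hm : ∀ t, z ≤ t → t < Nat.find hex → ¬ Wo (w.take t) := fun t ht1 ht2 h =>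
    Nat.find_min hex ht2 ⟨ht1, h⟩
  refine ⟨Nat.find hex, ha, hle, hb, hm, ?_⟩
  have hl : (w.take (Nat.find hex)).length = Nat.find hex := by
    rw [List.length_take]; omega
  refine ⟨by rw [hl]; exact ha, hb, ?_⟩
  intro t ht1 ht2
  rw [hl] at ht2
  rw [List.take_take, min_eq_left ht2.le]
  exact hm t ht1 ht2

variable {S V : Type} [Monoid S] [AddCommGroup V]

/-- the token map of a block -/
def TT (f : α → S) (act : V → S → V) (p0 : ℕ) (nu2 nu1 : List α → V) (X : List α) (v : V) : V :=
  act (act v (pr f (X.take p0)) + nu2 (X.take p0)) (pr f (X.drop p0)) + nu1 (X.drop p0)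

def L1 (f : α → S) (act : V → S → V) (p0 : ℕ) (nu2 : List α → V) (lam : List α → Option V)
    (v : V) : Language α :=
  {p | p0 ≤ p.length ∧ lam (p.drop p0) = some (act v (pr f (p.take p0)) + nu2 (p.take p0))}

def L2 (K : ℕ) (c : ℕ → ℕ) (lam2 : ℕ → List α → Option V) (v : V) : Language α :=
  {p | ∃ k < K, p.length = c k ∧ lam2 k p = some v}

section one
variable {Wo : List α → Prop} {n z p0 N1 : ℕ} {f : α → S} {act : V → S → V}
  {nu2 nu1 : List α → V} {lam rho : List α → Option V}

/-- scheme 1 is complete at every block without wall band and with a good content length -/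
theorem hc1 (hloc : ∀ P Q : List α, n ≤ Q.length → (Wo (P ++ Q) ↔ Wo Q))
    (hz : p0 + N1 + n ≤ z)
    (lamN : ∀ P v, lam P = some v → P.length ≤ N1)
    (sound : ∀ P Q v b, lam P = some v → rho Q = some b →
      b = act v (pr f (P ++ Q)) + nu1 (P ++ Q))
    (u : List α) (hu : u ∈ XX Wo z)
    (hE : ∀ s ≤ u.length, Wo (u.take s) → z ≤ s + N1 → s < z + N1 → False)
    (hcomp : ∀ v, ∃ P Q, u.drop p0 = P ++ Q ∧ lam P = some v ∧ (rho Q).isSome) (x : V) :
    ∃ p q y, u = p ++ q ∧ p ∈ L1 f act p0 nu2 lam x ∧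
      q ∈ Rsem (XX Wo z) (XX Wo z) (TT f act p0 nu2 nu1) 0 (L1 f act p0 nu2 lam) y := by
  obtain ⟨hu1, hu2, hu3⟩ := hu
  obtain ⟨P, Q, hPQ, hP, hQ⟩ := hcomp (act x (pr f (u.take p0)) + nu2 (u.take p0))
  obtain ⟨b, hb⟩ := Option.isSome_iff_exists.1 hQ
  have hPN := lamN P _ hP
  have hlt : (u.take p0).length = p0 := by rw [List.length_take]; omega
  have hue : u = (u.take p0 ++ P) ++ Q := by
    rw [List.append_assoc, ← hPQ, List.take_append_drop]
  have hul : u.length = p0 + P.length + Q.length := by
    conv_lhs => rw [hue]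
    simp only [List.length_append, hlt]
  refine ⟨u.take p0 ++ P, Q, b, hue, ⟨?_, ?_⟩, ?_⟩
  · rw [List.length_append, hlt]; omega
  · rw [List.drop_left' hlt, List.take_left' hlt]; exact hP
  · intro x'' p'' hp''
    obtain ⟨h1, h2⟩ : p0 ≤ p''.length ∧ lam (p''.drop p0) =
      some (act x'' (pr f (p''.take p0)) + nu2 (p''.take p0)) := hp''
    left
    have hN2 := lamN _ _ h2
    rw [List.length_drop] at hN2
    have hn : n ≤ Q.length := by omega
    refine ⟨b, Language.mem_mul.2 ⟨p'' ++ Q, ⟨⟨?_, ?_, ?_⟩, ?_⟩, [], ⟨rfl, rfl⟩, by simp⟩⟩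
    · by_contra hlt2
      rw [List.length_append] at hlt2
      refine hE u.length le_rfl (by rw [List.take_length]; exact hu2) (by omega) (by omega)
    · rw [hloc _ _ hn]
      have := hu2
      rw [hue, hloc _ _ hn] at this
      exact this
    · intro t ht1 ht2
      rw [List.length_append] at ht2
      have e1 : (p'' ++ Q).take t = p'' ++ Q.take (t - p''.length) := by
        rw [List.take_append, List.take_of_length_le (by omega)]
      have e2 : u.take (p0 + P.length + (t - p''.length)) =
          (u.take p0 ++ P) ++ Q.take (t - p''.length) := by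
        conv_lhs => rw [hue]
        rw [List.take_append, List.take_of_length_le (by
          simp only [List.length_append, hlt]; omega)]
        congr 2
        simp only [List.length_append, hlt]; omega
      have hq : n ≤ (Q.take (t - p''.length)).length := by
        rw [List.length_take]; omega
      rw [e1, hloc _ _ hq]
      intro hw
      have hw2 : Wo (u.take (p0 + P.length + (t - p''.length))) := by
        rw [e2, hloc _ _ hq]; exact hw
      by_cases hs : z ≤ p0 + P.length + (t - p''.length)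
      · exact hu3 _ hs (by omega) hw2
      · exact hE _ (by omega) hw2 (by omega) (by omega)
    · show TT f act p0 nu2 nu1 (p'' ++ Q) x'' = b
      have e3 : (p'' ++ Q).take p0 = p''.take p0 := by
        rw [List.take_append, Nat.sub_eq_zero_of_le h1]; simp
      have e4 : (p'' ++ Q).drop p0 = p''.drop p0 ++ Q := by
        rw [List.drop_append, Nat.sub_eq_zero_of_le h1]; simp
      unfold TT
      rw [e3, e4]
      exact (sound _ _ _ _ h2 hb).symm

end one

section two
variable {Wo : List α → Prop} {n z p0 N1 K C0 : ℕ} {f : α → S} {act : V → S → V}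
  {nu1 : List α → V} {BadT : ℕ → Prop} {c : ℕ → ℕ}
  {lam2 : ℕ → List α → Option V} {rho2 : ℕ → List α → S → Option V} {nuy : List α → S → V}

open Finset in
/-- scheme 2 is complete on two bad blocks -/
theorem hc2 (hloc : ∀ P Q : List α, n ≤ Q.length → (Wo (P ++ Q) ↔ Wo Q))
    (hgap : ∀ (w : List α) (s t : ℕ), s < t → t ≤ w.length → Wo (w.take s) → Wo (w.take t) →
      2 * (N1 + p0) ≤ t - s)
    (hz : 3 * p0 + N1 + n ≤ z) (hz0 : 0 < z)
    (hcm : ∀ i j, i < j → j < K → c i < c j) (hcp : ∀ k < K, c k ≤ p0)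
    (hsp : ∀ a b a' b' : ℕ, a < K → b < K → a' < K → b' < K → a ≠ b → a' ≠ b' →
      c a + c b' < c a' + c b + 2 * N1 → c a' + c b < c a + c b' + 2 * N1 → a = a' ∧ b = b')
    (hthin : ∀ T : ℕ, p0 ≤ T → ∀ I : Finset (ℕ × ℕ), (∀ ab ∈ I, ab.1 < K ∧ ab.2 < K ∧
      ab.1 ≠ ab.2 ∧ BadT (T + c ab.1 - c ab.2)) → I.card ≤ C0)
    (sound2 : ∀ k < K, ∀ (P Q : List α) (y : S) (v b : V), P.length = c k →
      lam2 k P = some v → rho2 k Q y = some b → b = act v (pr f (P ++ Q) * y) + nuy (P ++ Q) y)
    (comp2 : ∀ (u : List α) (y : S) (v : V), (∀ k < K, c k ≤ u.length) →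
      ∃ I : Finset ℕ, 2 * C0 + 2 ≤ I.card ∧ ∀ k ∈ I, k < K ∧ lam2 k (u.take (c k)) = some v ∧
        (rho2 k (u.drop (c k)) y).isSome)
    (Bad : Language α) (hB : ∀ u ∈ Bad, u ∈ XX Wo z)
    (hgood : ∀ u ∈ XX Wo z, (∀ s ≤ u.length, Wo (u.take s) → z ≤ s + N1 → s < z + N1 → False) →
      ¬ BadT (u.length - p0) → u ∉ Bad)
    (u t : List α) (hu : u ∈ Bad) (ht : t ∈ Bad) (x : V) :
    ∃ p q y, u ++ t = p ++ q ∧ p ∈ L2 K c lam2 x ∧
      q ∈ Rsem (XX Wo z) Bad (TT f act p0 (fun X => nuy X 1) nu1) 1 (L2 K c lam2) y := by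
  classical
  obtain ⟨hu1, hu2, hu3⟩ := hB u hu
  obtain ⟨ht1, ht2, ht3⟩ := hB t ht
  set w : List α := u ++ t with hw
  have hwl : w.length = u.length + t.length := by rw [hw, List.length_append]
  have hwend : Wo (w.take w.length) := by
    rw [List.take_length, hw, hloc _ _ (by omega)]; exact ht2
  -- the wall in the inner range
  obtain ⟨s0, hs0⟩ : ∃ s0 : ℕ, ∀ s, s ≤ w.length → Wo (w.take s) → z ≤ s + p0 → s < z + p0 →
      s = s0 := by
    by_cases h : ∃ s, s ≤ w.length ∧ Wo (w.take s) ∧ z ≤ s + p0 ∧ s < z + p0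
    · obtain ⟨s0, h1, h2, h3, h4⟩ := h
      refine ⟨s0, fun s g1 g2 g3 g4 => ?_⟩
      rcases lt_trichotomy s s0 with h | h | h
      · have := hgap w s s0 h h1 g2 h2; omega
      · exact h
      · have := hgap w s0 s h g1 h2 g2; omega
    · push Not at h
      exact ⟨0, fun s g1 g2 g3 g4 => absurd g4 (not_lt.2 (h s g1 g2 g3))⟩
  -- the first wall far out
  obtain ⟨s1, hs1a, hs1b, hs1c, hs1d, -⟩ := exists_block (Wo := Wo) (z := z + p0) (w := w)
    w.length (by omega) le_rfl hwend
  -- spoiled pairs
  let PE : Finset (ℕ × ℕ) := ((range K) ×ˢ (range K)).filter (fun ab => ab.1 ≠ ab.2 ∧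
    ∃ s, s ≤ w.length ∧ Wo (w.take s) ∧ z + c ab.2 ≤ s + c ab.1 + N1 ∧
      s + c ab.1 < z + N1 + c ab.2)
  let PB : ℕ → Finset (ℕ × ℕ) := fun s => ((range K) ×ˢ (range K)).filter (fun ab =>
    ab.1 ≠ ab.2 ∧ p0 ≤ s - p0 ∧ BadT (s - p0 + c ab.1 - c ab.2))
  have hPE : PE.card ≤ 1 := by
    rw [Finset.card_le_one]
    rintro ⟨a, b⟩ ha ⟨a', b'⟩ ha'
    simp only [PE, mem_filter, mem_product, mem_range] at ha ha'
    obtain ⟨⟨haK, hbK⟩, hab, s, g1, g2, g3, g4⟩ := ha
    obtain ⟨⟨haK', hbK'⟩, hab', s', g1', g2', g3', g4'⟩ := ha'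
    have e1 := hcp a haK
    have e2 := hcp b hbK
    have e3 := hcp a' haK'
    have e4 := hcp b' hbK'
    have hss : s = s' := by
      rcases lt_trichotomy s s' with h | h | h
      · have := hgap w s s' h g1' g2 g2'; omega
      · exact h
      · have := hgap w s' s h g1 g2' g2; omega
    subst hss
    obtain ⟨h1, h2⟩ := hsp a b a' b' haK hbK haK' hbK' hab hab' (by omega) (by omega)
    rw [h1, h2]
  have hPB : ∀ s, (PB s).card ≤ C0 := by
    intro s
    by_cases hs : p0 ≤ s - p0
    · refine hthin (s - p0) hs _ ?_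
      rintro ⟨a, b⟩ hab
      simp only [PB, mem_filter, mem_product, mem_range] at hab
      exact ⟨hab.1.1, hab.1.2, hab.2.1, hab.2.2.2⟩
    · have : PB s = ∅ := by
        apply Finset.eq_empty_of_forall_notMem
        rintro ⟨a, b⟩ hab
        simp only [PB, mem_filter, mem_product, mem_range] at hab
        exact hs hab.2.2.1
      rw [this]; simp
  let Sp : Finset ℕ := (PE ∪ PB s0 ∪ PB s1).image Prod.snd
  have hSp : Sp.card < 2 * C0 + 2 := by
    have h1 : Sp.card ≤ (PE ∪ PB s0 ∪ PB s1).card := Finset.card_image_le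
    have h2 : (PE ∪ PB s0 ∪ PB s1).card ≤ PE.card + (PB s0).card + (PB s1).card :=
      (Finset.card_union_le _ _).trans (Nat.add_le_add_right (Finset.card_union_le _ _) _)
    have := hPB s0
    have := hPB s1
    omega
  have hup0 : p0 ≤ u.length := by omega
  have hX1l : (u.take p0).length = p0 := by rw [List.length_take]; omega
  obtain ⟨I, hI1, hI2⟩ := comp2 (u.take p0) 1 x (fun k hk => by rw [hX1l]; exact hcp k hk)
  obtain ⟨k, hkI, hkS⟩ : ∃ k ∈ I, k ∉ Sp := by
    by_contra hcon
    push Not at hcon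
    have : I.card ≤ Sp.card := Finset.card_le_card hcon
    omega
  obtain ⟨hkK, hk1, hk2⟩ := hI2 k hkI
  obtain ⟨b, hb⟩ := Option.isSome_iff_exists.1 hk2
  have hck := hcp k hkK
  have hE' : ∀ k' < K, k' ≠ k → ∀ s, s ≤ w.length → Wo (w.take s) → z + c k ≤ s + c k' + N1 →
      s + c k' < z + N1 + c k → False := by
    intro k' hk' hne s g1 g2 g3 g4
    apply hkS
    refine Finset.mem_image.2 ⟨(k', k), ?_, rfl⟩
    refine Finset.mem_union_left _ (Finset.mem_union_left _ ?_)
    simp only [PE, mem_filter, mem_product, mem_range]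
    exact ⟨⟨hk', hkK⟩, hne, s, g1, g2, g3, g4⟩
  have hB' : ∀ k' < K, k' ≠ k → ∀ s, (s = s0 ∨ s = s1) → p0 ≤ s - p0 →
      ¬ BadT (s - p0 + c k' - c k) := by
    intro k' hk' hne s hs hsp' hbad
    apply hkS
    refine Finset.mem_image.2 ⟨(k', k), ?_, rfl⟩
    rcases hs with rfl | rfl
    · refine Finset.mem_union_left _ (Finset.mem_union_right _ ?_)
      simp only [PB, mem_filter, mem_product, mem_range]
      exact ⟨⟨hk', hkK⟩, hne, hsp', hbad⟩
    · refine Finset.mem_union_right _ ?_
      simp only [PB, mem_filter, mem_product, mem_range]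
      exact ⟨⟨hk', hkK⟩, hne, hsp', hbad⟩
  -- the cut
  have htk : w.take (c k) = (u.take p0).take (c k) := by
    rw [hw, List.take_take, min_eq_left hck, List.take_append_of_le_length (by omega)]
  have htkl : (w.take (c k)).length = c k := by rw [List.length_take]; omega
  have hdr : w.drop (c k) = u.drop (c k) ++ t := by
    rw [hw, List.drop_append_of_le_length (by omega)]
  refine ⟨w.take (c k), w.drop (c k),
    TT f act p0 (fun X => nuy X 1) nu1 t (act b (pr f (u.drop p0)) + nu1 (u.drop p0)),
    (List.take_append_drop _ _).symm, ⟨k, hkK, htkl, by rw [htk]; exact hk1⟩, ?_⟩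
  intro x' p' hp'
  obtain ⟨k', hk', hpl, hlam⟩ : ∃ k' < K, p'.length = c k' ∧ lam2 k' p' = some x' := hp'
  have hck' := hcp k' hk'
  -- walls of `p' ++ q`
  have hwall : ∀ s, c k' + n ≤ s → s + c k ≤ w.length + c k' →
      (Wo ((p' ++ w.drop (c k)).take s) ↔ Wo (w.take (s + c k - c k'))) := by
    intro s hs1' hs2'
    have e1 : (p' ++ w.drop (c k)).take s = p' ++ (w.drop (c k)).take (s - c k') := by
      rw [List.take_append, List.take_of_length_le (by omega), hpl]
    have e2 : w.take (s + c k - c k') = w.take (c k) ++ (w.drop (c k)).take (s - c k') := by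
      have : s + c k - c k' = c k + (s - c k') := by omega
      rw [this, List.take_add]
    have hl : n ≤ ((w.drop (c k)).take (s - c k')).length := by
      rw [List.length_take, List.length_drop]; omega
    rw [e1, e2, hloc _ _ hl, hloc _ _ hl]
  have hql : (p' ++ w.drop (c k)).length = c k' + (w.length - c k) := by
    rw [List.length_append, List.length_drop, hpl]
  by_cases hkk : k' = k
  · subst hkk
    -- same place
    have hpd : p' ++ w.drop (c k') = (p' ++ u.drop (c k')) ++ t := by
      rw [hdr, List.append_assoc]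
    have hul' : (p' ++ u.drop (c k')).length = u.length := by
      rw [List.length_append, List.length_drop, hpl]; omega
    have hmem : p' ++ u.drop (c k') ∈ XX Wo z := by
      refine ⟨by rw [hul']; exact hu1, ?_, ?_⟩
      · have hl : n ≤ (u.drop (c k')).length := by rw [List.length_drop]; omega
        rw [hloc _ _ hl]
        have h := hu2
        rw [← List.take_append_drop (c k') u, hloc _ _ hl] at h
        exact h
      · intro s g1 g2 g3
        rw [hul'] at g2
        have g4 := (hwall s (by omega) (by omega)).1 (by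
          rw [hpd, List.take_append_of_le_length (by rw [hul']; omega)]; exact g3)
        rw [Nat.add_sub_cancel, hw, List.take_append_of_le_length (by omega)] at g4
        exact hu3 s g1 g2 g4
    by_cases hbad : p' ++ u.drop (c k') ∈ Bad
    · left
      rw [hpd]
      have hTT : TT f act p0 (fun X => nuy X 1) nu1 (p' ++ u.drop (c k')) x' =
          act b (pr f (u.drop p0)) + nu1 (u.drop p0) := by
        have e3 : (p' ++ u.drop (c k')).take p0 = p' ++ (u.take p0).drop (c k') := by
          rw [List.take_append, List.take_of_length_le (by omega), hpl, List.drop_take]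
        have e4 : (p' ++ u.drop (c k')).drop p0 = u.drop p0 := by
          rw [List.drop_append, List.drop_of_length_le (by omega), hpl, List.nil_append,
            List.drop_drop]
          congr 1; omega
        unfold TT
        rw [e3, e4]
        have h5 := sound2 k' hk' p' ((u.take p0).drop (c k')) 1 x' b hpl hlam hb
        rw [mul_one] at h5
        rw [← h5]
      refine ⟨act b (pr f (u.drop p0)) + nu1 (u.drop p0), Language.mem_mul.2
        ⟨p' ++ u.drop (c k'), ⟨hbad, hTT⟩, t, ?_, rfl⟩⟩
      refine ⟨_, Language.mem_mul.2 ⟨t, ⟨ht, rfl⟩, [], ⟨rfl, rfl⟩, by simp⟩⟩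
    · right
      left
      exact ⟨p' ++ u.drop (c k'), hmem, hbad, by rw [hpd]; exact List.prefix_append _ _⟩
  · -- different place
    right
    left
    obtain ⟨s, g1, g2, g3, g4, g5⟩ := exists_block (Wo := Wo) (z := z)
      (w := p' ++ w.drop (c k)) (c k' + (w.length - c k)) (by omega) (by rw [hql])
      (by
        rw [hwall _ (by omega) (by omega)]
        have : c k' + (w.length - c k) + c k - c k' = w.length := by omega
        rw [this]; exact hwend)
    refine ⟨_, g5, ?_, List.take_prefix _ _⟩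
    have hsl : ((p' ++ w.drop (c k)).take s).length = s := by
      rw [List.length_take, hql]; omega
    refine hgood _ g5 ?_ ?_
    · intro s' h1 h2 h3 h4
      rw [hsl] at h1
      rw [List.take_take, min_eq_left h1, hwall s' (by omega) (by omega)] at h2
      exact hE' k' hk' hkk _ (by omega) h2 (by omega) (by omega)
    · rw [hsl]
      have hws : Wo (w.take (s + c k - c k')) := (hwall s (by omega) (by omega)).1 g3
      have hcase : s + c k - c k' = s0 ∨ s + c k - c k' = s1 := by
        by_cases hfar : z + p0 ≤ s + c k - c k'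
        · right
          have hle : s1 ≤ s + c k - c k' := by
            by_contra hlt
            push Not at hlt
            exact hs1d _ hfar hlt hws
          rcases hle.lt_or_eq with hlt | he
          · exfalso
            refine g4 (s1 + c k' - c k) (by omega) (by omega) ?_
            rw [hwall _ (by omega) (by omega)]
            have : s1 + c k' - c k + c k - c k' = s1 := by omega
            rw [this]; exact hs1c
          · exact he.symm
        · left
          exact hs0 _ (by omega) hws (by omega) (by omega)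
      have := hB' k' hk' hkk _ hcase (by omega)
      have e6 : s + c k - c k' - p0 + c k' - c k = s - p0 := by omega
      rwa [e6] at this

end two

end Crest.Agent.R320.Sem543
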