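import Mathlib

/-! Row 320: concrete side of the semantic top (727 / 110 form) on ALL words, natural chain rule,
scheme 1 = any length-thin gadget (693 / 638), scheme 2 = exact gadget with redundancy on a ruler. -/

namespace Crest.Agent.R320.Sem_907

universe u

variable {α : Type u} {S V : Type*}

/-- left-looking walls (prefix `P` ends in a wall) -/
structure LRule (Wo : List α → Prop) (n W : ℕ) : Prop where
  loc : ∀ P Q, n ≤ Q.length → (Wo (P ++ Q) ↔ Wo Q)
  len : ∀ Q, Wo Q → n ≤ Q.length
  gap : ∀ P D, Wo P → Wo (P ++ D) → D ≠ [] → W < D.length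

/-- blocks: natural rule, first wall at a distance `≥ z` -/
def XX (Wo : List α → Prop) (z : ℕ) : Set (List α) :=
  {X | Wo X ∧ z ≤ X.length ∧ ∀ t, z ≤ t → t < X.length → ¬ Wo (X.take t)}

/-- zone map of 118: one token system, both noises -/
def zm [Add V] (act : V → S → V) (φ : List α → S) (nu1 nu2 : List α → V) (p0 : ℕ)
    (v : V) (X : List α) : V :=
  act (act v (φ (X.take p0)) + nu2 (X.take p0)) (φ (X.drop p0)) + nu1 (X.drop p0)

theorem wall_shift {Wo : List α → Prop} {n W : ℕ} (h : LRule Wo n W) (P P' Q : List α) (s : ℕ)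
    (hs : n ≤ s) (hn : n ≤ Q.length) :
    Wo ((P ++ Q).take (P.length + s)) ↔ Wo ((P' ++ Q).take (P'.length + s)) := by
  rw [List.take_length_add_append, List.take_length_add_append]
  have hl : n ≤ (Q.take s).length := by
    rw [List.length_take]; exact le_min hs hn
  rw [h.loc P _ hl, h.loc P' _ hl]

/-- two walls in one text are far apart -/
theorem wall_gap {Wo : List α → Prop} {n W : ℕ} (h : LRule Wo n W) (U : List α) (s t : ℕ)
    (hst : s < t) (ht : t ≤ U.length) (hs' : Wo (U.take s)) (ht' : Wo (U.take t)) :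
    W < t - s := by
  have e : U.take t = U.take s ++ (U.drop s).take (t - s) := by
    have : t = s + (t - s) := by omega
    conv_lhs => rw [this]
    rw [List.take_add]
  rw [e] at ht'
  have hl : ((U.drop s).take (t - s)).length = t - s := by
    rw [List.length_take, List.length_drop]; omega
  have := h.gap _ _ hs' ht' (by intro h0; rw [h0] at hl; simp at hl; omega)
  omega

/-- junction lemma: replace the left part `P` of a block by any `P'` of nearly the same length -/
theorem junction {Wo : List α → Prop} {n W : ℕ} (h : LRule Wo n W) (z D : ℕ) (P P' Q : List α)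
    (hX : P ++ Q ∈ XX Wo z) (_hz : P.length + n ≤ z) (hz' : P'.length + n ≤ z)
    (h1 : P.length ≤ P'.length + D) (h2 : P'.length ≤ P.length + D)
    (hE : ∀ t, t ≤ (P ++ Q).length → Wo ((P ++ Q).take t) → z ≤ t + D → t ≤ z + D → False) :
    P' ++ Q ∈ XX Wo z := by
  obtain ⟨hw, hl, hno⟩ := hX
  have hlen : (P ++ Q).length = P.length + Q.length := List.length_append
  have hlen' : (P' ++ Q).length = P'.length + Q.length := List.length_append
  have hfar : z + D < (P ++ Q).length := by
    by_contra hc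
    exact hE (P ++ Q).length le_rfl (by rw [List.take_length]; exact hw) (by omega) (by omega)
  have hnQ : n ≤ Q.length := by omega
  refine ⟨?_, by omega, ?_⟩
  · rw [h.loc P' Q hnQ]; exact (h.loc P Q hnQ).1 hw
  · intro t ht1 ht2 hwt
    obtain ⟨s, rfl⟩ : ∃ s, t = P'.length + s := ⟨t - P'.length, by omega⟩
    have hw2 : Wo ((P ++ Q).take (P.length + s)) :=
      (wall_shift h P P' Q s (by omega) hnQ).2 hwt
    by_cases hc : z ≤ P.length + s
    · exact hno _ hc (by omega) hw2
    · exact hE (P.length + s) (by omega) hw2 (by omega) (by omega)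

section
variable [Add V] (act : V → S → V) (φ : List α → S) (nu1 nu2 : List α → V) (p0 z : ℕ)
  (Wo : List α → Prop) (lam : List α → V → Prop) (lam2 : List α → V → Prop)

/-- left words of scheme 1 -/
def L1 (x : V) : Set (List α) :=
  {P | ∃ X0 P1, P = X0 ++ P1 ∧ X0.length = p0 ∧ lam P1 (act x (φ X0) + nu2 X0)}

/-- left words of scheme 2 -/
def L2 (x : V) : Set (List α) := {P | lam2 P x}

def R1 (L : V → Set (List α)) (C : Set (List α)) (T : V → List α → V) (y : V) : Set (List α) :=
  {Q | ∀ x, ∀ P ∈ L x, P ++ Q ∈ C ∧ T x (P ++ Q) = y}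

def Good (L : V → Set (List α)) (C : Set (List α)) (T : V → List α → V) : Set (List α) :=
  {X | X ∈ C ∧ ∀ x, ∃ P ∈ L x, ∃ Q ∈ R1 L C T (T x X), P ++ Q = X}

def R2 (LA LB : V → Set (List α)) (C : Set (List α)) (T : V → List α → V) (y : V) :
    Set (List α) :=
  {Q | ∀ x, ∀ P ∈ LB x,
    (∃ X1 ∈ C \ Good LA C T, ∃ X2 ∈ C \ Good LA C T, P ++ Q = X1 ++ X2 ∧ T (T x X1) X2 = y) ∨
    (∃ X ∈ Good LA C T, X <+: P ++ Q) ∨
    (∃ X1 ∈ C \ Good LA C T, ∃ X2 ∈ Good LA C T, X1 ++ X2 <+: P ++ Q)}

end

/-- scheme 1 is complete on every block without a wall near `z` and with `¬ Bad` length -/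
theorem good_of [Add V] {act : V → S → V} {φ : List α → S} {nu1 nu2 : List α → V}
    {p0 z n W N1 N2 : ℕ} {Wo : List α → Prop} {lam : List α → V → Prop}
    {rho : List α → Option V} {Bad : ℕ → Prop}
    (h : LRule Wo n W)
    (g1len : ∀ P v, lam P v → P.length ≤ N1)
    (g1sound : ∀ P v Q b, lam P v → rho Q = some b → b = act v (φ (P ++ Q)) + nu1 (P ++ Q))
    (g1compl : ∀ Y : List α, N2 ≤ Y.length → ¬ Bad Y.length → ∀ v, ∃ P Q, P ++ Q = Y ∧
      lam P v ∧ ∃ b, rho Q = some b)
    (hz1 : p0 + N1 + n ≤ z) (hz2 : p0 + N2 ≤ z)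
    (X : List α) (hX : X ∈ XX Wo z)
    (hE : ∀ t, t ≤ X.length → Wo (X.take t) → z ≤ t + N1 → t ≤ z + N1 → False)
    (hB : ¬ Bad (X.length - p0)) :
    X ∈ Good (L1 act φ nu2 p0 lam) (XX Wo z) (zm act φ nu1 nu2 p0) := by
  refine ⟨hX, fun x => ?_⟩
  have hXl : z ≤ X.length := hX.2.1
  have hYl : (X.drop p0).length = X.length - p0 := List.length_drop
  obtain ⟨P1, Q, hPQ, hl, b, hb⟩ := g1compl (X.drop p0) (by omega) (by rw [hYl]; exact hB)
    (act x (φ (X.take p0)) + nu2 (X.take p0))
  have hX0 : (X.take p0).length = p0 := by rw [List.length_take]; omega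
  have hval : b = zm act φ nu1 nu2 p0 x X := by
    have := g1sound _ _ _ _ hl hb
    rw [hPQ] at this
    exact this
  have hXe : (X.take p0 ++ P1) ++ Q = X := by
    rw [List.append_assoc, hPQ, List.take_append_drop]
  refine ⟨X.take p0 ++ P1, ⟨_, _, rfl, hX0, hl⟩, Q, ?_, hXe⟩
  intro x' P' hP'
  obtain ⟨X0', P1', rfl, hX0', hl'⟩ := hP'
  constructor
  · refine junction h z N1 (X.take p0 ++ P1) (X0' ++ P1') Q ?_ ?_ ?_ ?_ ?_ ?_
    · rw [hXe]; exact hX
    · have := g1len _ _ hl; rw [List.length_append, hX0]; omega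
    · have := g1len _ _ hl'; rw [List.length_append, hX0']; omega
    · have := g1len _ _ hl; rw [List.length_append, List.length_append, hX0, hX0']; omega
    · have := g1len _ _ hl'; rw [List.length_append, List.length_append, hX0, hX0']; omega
    · rw [hXe]; exact hE
  · have e1 : ((X0' ++ P1') ++ Q).take p0 = X0' := by
      rw [List.append_assoc, ← hX0', List.take_left]
    have e2 : ((X0' ++ P1') ++ Q).drop p0 = P1' ++ Q := by
      rw [List.append_assoc, ← hX0', List.drop_left]
    have := g1sound _ _ _ _ hl' hb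
    rw [← hval, this]
    unfold zm
    rw [e1, e2]


/-- the two candidate walls near `z` in a text of two blocks -/
theorem two_walls {n W : ℕ} {Wo : List α → Prop} (h : LRule Wo n W) (z D : ℕ) (hW : 2 * D ≤ W)
    (X1 X2 : List α) (h1 : X1 ∈ XX Wo z) (h2 : X2 ∈ XX Wo z) (hzn : n ≤ z) (hz0 : 0 < z) :
    ∃ a1 a2, a1 < a2 ∧ z ≤ a1 + D ∧ z + D ≤ a2 ∧ a2 ≤ (X1 ++ X2).length ∧
      Wo ((X1 ++ X2).take a1) ∧ Wo ((X1 ++ X2).take a2) ∧
      (∀ t, t < a2 → z ≤ t + D → Wo ((X1 ++ X2).take t) → t = a1) := by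
  classical
  have hX1 : Wo ((X1 ++ X2).take X1.length) := by rw [List.take_left]; exact h1.1
  have hl1 : z ≤ X1.length := h1.2.1
  have hl2 : z ≤ X2.length := h2.2.1
  have hlen : (X1 ++ X2).length = X1.length + X2.length := List.length_append
  have hU : Wo ((X1 ++ X2).take (X1 ++ X2).length) := by
    rw [List.take_length, h.loc X1 X2 (by omega)]; exact h2.1
  have ex1 : ∃ t, z ≤ t + D ∧ Wo ((X1 ++ X2).take t) := ⟨X1.length, by omega, hX1⟩
  let a1 := Nat.find ex1
  have ha1 : z ≤ a1 + D ∧ Wo ((X1 ++ X2).take a1) := Nat.find_spec ex1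
  have ha1le : a1 ≤ X1.length := Nat.find_min' ex1 ⟨by omega, hX1⟩
  have ex2 : ∃ t, a1 < t ∧ Wo ((X1 ++ X2).take t) := ⟨(X1 ++ X2).length, by omega, hU⟩
  let a2 := Nat.find ex2
  have ha2 : a1 < a2 ∧ Wo ((X1 ++ X2).take a2) := Nat.find_spec ex2
  have ha2le : a2 ≤ (X1 ++ X2).length := Nat.find_min' ex2 ⟨by omega, hU⟩
  have hg := wall_gap h (X1 ++ X2) a1 a2 ha2.1 ha2le ha1.2 ha2.2
  refine ⟨a1, a2, ha2.1, ha1.1, by omega, ha2le, ha1.2, ha2.2, ?_⟩
  intro t ht hzt hwt
  have h3 : a1 ≤ t := Nat.find_min' ex1 ⟨hzt, hwt⟩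
  by_contra hne
  have h4 : a2 ≤ t := Nat.find_min' ex2 ⟨by omega, hwt⟩
  omega

/-- the first block of the text `P' ++ U.drop p` from a candidate wall `a` of `U` -/
theorem first_block {n W : ℕ} {Wo : List α → Prop} (h : LRule Wo n W) (z p a : ℕ)
    (U P' : List α) (ha : a ≤ U.length) (hw : Wo (U.take a)) (hza : z + p ≤ a + P'.length)
    (hno : ∀ t, t < a → z + p ≤ t + P'.length → ¬ Wo (U.take t))
    (hz : P'.length + n ≤ z) :
    (P' ++ U.drop p).take (a + P'.length - p) ∈ XX Wo z ∧
      ((P' ++ U.drop p).take (a + P'.length - p)).length = a + P'.length - p ∧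
      ∀ t', P'.length + n ≤ t' → t' ≤ a + P'.length - p →
        Wo (((P' ++ U.drop p).take (a + P'.length - p)).take t') →
        Wo (U.take (t' + p - P'.length)) := by
  have hpU : p ≤ U.length := by omega
  have hdl : (U.drop p).length = U.length - p := List.length_drop
  have htl : (U.take p).length = p := by rw [List.length_take]; omega
  have hl : ((P' ++ U.drop p).take (a + P'.length - p)).length = a + P'.length - p := by
    rw [List.length_take, List.length_append, hdl]; omega
  have hsh : ∀ s, n ≤ s → (Wo ((P' ++ U.drop p).take (P'.length + s)) ↔ Wo (U.take (p + s))) := by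
    intro s hs
    have := wall_shift h P' (U.take p) (U.drop p) s hs (by omega)
    rw [List.take_append_drop, htl] at this
    exact this
  refine ⟨⟨?_, by omega, ?_⟩, hl, ?_⟩
  · have := (hsh (a - p) (by omega)).2 (by rw [show p + (a - p) = a by omega]; exact hw)
    rwa [show P'.length + (a - p) = a + P'.length - p by omega] at this
  · intro t ht1 ht2 hwt
    rw [hl] at ht2
    rw [List.take_take, min_eq_left ht2.le] at hwt
    have := (hsh (t - P'.length) (by omega)).1 (by
      rw [show P'.length + (t - P'.length) = t by omega]; exact hwt)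
    exact hno (p + (t - P'.length)) (by omega) (by omega) this
  · intro t' ht1 ht2 hwt
    rw [List.take_take, min_eq_left ht2] at hwt
    have := (hsh (t' - P'.length) (by omega)).1 (by
      rw [show P'.length + (t' - P'.length) = t' by omega]; exact hwt)
    rwa [show p + (t' - P'.length) = t' + p - P'.length by omega] at this

/-- scheme 2 is complete: every pair of blocks has a legal junction in the first one -/
theorem hC2 [Add V] {act : V → S → V} {φ : List α → S} {nu1 nu2 : List α → V}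
    {p0 z n W N1 N2 K R C0 T0 : ℕ} {Wo : List α → Prop} {lam : List α → V → Prop}
    {rho : List α → Option V} {lam2 : List α → V → Prop} {rho2 : List α → Option V}
    {Bad : ℕ → Prop} {c : ℕ → ℕ} [DecidablePred Bad]
    (h : LRule Wo n W)
    (g1len : ∀ P v, lam P v → P.length ≤ N1)
    (g1sound : ∀ P v Q b, lam P v → rho Q = some b → b = act v (φ (P ++ Q)) + nu1 (P ++ Q))
    (g1compl : ∀ Y : List α, N2 ≤ Y.length → ¬ Bad Y.length → ∀ v, ∃ P Q, P ++ Q = Y ∧
      lam P v ∧ ∃ b, rho Q = some b)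
    (g2len : ∀ P v, lam2 P v → ∃ k < K, P.length = c k)
    (g2sound : ∀ P v Q b, P.length + Q.length = p0 → lam2 P v → rho2 Q = some b →
      b = act v (φ (P ++ Q)) + nu2 (P ++ Q))
    (g2compl : ∀ X0 : List α, X0.length = p0 → ∀ v, ∀ Sp : Finset ℕ, Sp.card ≤ R →
      ∃ k < K, k ∉ Sp ∧ lam2 (X0.take (c k)) v ∧ ∃ b, rho2 (X0.drop (c k)) = some b)
    (hc : ∀ k < K, c k ≤ p0)
    (hruler : ∀ a b a' b', a < K → b < K → a' < K → b' < K → a ≠ b → a' ≠ b' →
      c a + c b' ≤ c a' + c b + 2 * N1 → c a' + c b ≤ c a + c b' + 2 * N1 → a = a' ∧ b = b')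
    (hthin : ∀ T, T0 ≤ T → (((Finset.range K ×ˢ Finset.range K).filter
      (fun ab => ab.1 ≠ ab.2 ∧ Bad (T + c ab.1 - c ab.2))).card ≤ C0))
    (hR : 1 + 2 * C0 ≤ R) (hW : 2 * (p0 + N1) ≤ W)
    (hz1 : 2 * p0 + N1 + n + 1 ≤ z) (hz2 : p0 + N2 ≤ z) (hz3 : 2 * p0 + T0 ≤ z)
    (X1 X2 : List α) (hX1 : X1 ∈ XX Wo z) (hX2 : X2 ∈ XX Wo z) (x : V) :
    ∃ P ∈ L2 lam2 x, ∃ Q ∈ R2 (L1 act φ nu2 p0 lam) (L2 lam2) (XX Wo z) (zm act φ nu1 nu2 p0)
      (zm act φ nu1 nu2 p0 (zm act φ nu1 nu2 p0 x X1) X2), P ++ Q = X1 ++ X2 := by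
  classical
  obtain ⟨a1, a2, h12, hza1, hza2, ha2U, hw1, hw2, huniq⟩ :=
    two_walls h z p0 (by omega) X1 X2 hX1 hX2 (by omega) (by omega)
  set U := X1 ++ X2 with hUdef
  have hl1 : z ≤ X1.length := hX1.2.1
  have hlen : U.length = X1.length + X2.length := List.length_append
  let pr := Finset.range K ×ˢ Finset.range K
  let PE := pr.filter (fun ab => ab.1 ≠ ab.2 ∧ ∃ t, t ≤ U.length ∧ Wo (U.take t) ∧
    z + c ab.2 ≤ t + c ab.1 + N1 ∧ t + c ab.1 ≤ z + c ab.2 + N1)
  let PB1 := pr.filter (fun ab => ab.1 ≠ ab.2 ∧ Bad ((a1 - p0) + c ab.1 - c ab.2))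
  let PB2 := pr.filter (fun ab => ab.1 ≠ ab.2 ∧ Bad ((a2 - p0) + c ab.1 - c ab.2))
  have hPE : PE.card ≤ 1 := by
    rw [Finset.card_le_one]
    rintro ⟨a, b⟩ hab ⟨a', b'⟩ hab'
    simp only [PE, pr, Finset.mem_filter, Finset.mem_product, Finset.mem_range] at hab hab'
    obtain ⟨⟨hak, hbk⟩, hne, t, htU, hwt, ht1, ht2⟩ := hab
    obtain ⟨⟨hak', hbk'⟩, hne', s, hsU, hws, hs1, hs2⟩ := hab'
    have c1 := hc a hak
    have c2 := hc b hbk
    have c3 := hc a' hak'
    have c4 := hc b' hbk'
    have hst : s = t := by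
      rcases lt_trichotomy s t with hlt | heq | hlt
      · have := wall_gap h U s t hlt htU hws hwt; omega
      · exact heq
      · have := wall_gap h U t s hlt hsU hwt hws; omega
    subst hst
    have := hruler a b a' b' hak hbk hak' hbk' hne hne' (by omega) (by omega)
    rw [this.1, this.2]
  have hPB1 : PB1.card ≤ C0 := hthin (a1 - p0) (by omega)
  have hPB2 : PB2.card ≤ C0 := hthin (a2 - p0) (by omega)
  let Sp := (PE ∪ PB1 ∪ PB2).image Prod.snd
  have hSp : Sp.card ≤ R := by
    have e1 : Sp.card ≤ (PE ∪ PB1 ∪ PB2).card := Finset.card_image_le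
    have e2 : (PE ∪ PB1 ∪ PB2).card ≤ (PE ∪ PB1).card + PB2.card := Finset.card_union_le _ _
    have e3 : (PE ∪ PB1).card ≤ PE.card + PB1.card := Finset.card_union_le _ _
    omega
  have hX0l : (X1.take p0).length = p0 := by rw [List.length_take]; omega
  obtain ⟨k, hk, hkS, hlk, b0, hb0⟩ := g2compl (X1.take p0) hX0l x Sp hSp
  have hck := hc k hk
  have htk : (X1.take p0).take (c k) = X1.take (c k) := by
    rw [List.take_take, min_eq_left hck]
  have htkl : (X1.take (c k)).length = c k := by rw [List.length_take]; omega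
  rw [htk] at hlk
  have hdk : U.drop (c k) = X1.drop (c k) ++ X2 := by
    rw [hUdef, List.drop_append_of_le_length (by omega)]
  have hsplit : X1.drop (c k) = (X1.take p0).drop (c k) ++ X1.drop p0 := by
    conv_lhs => rw [← List.take_append_drop p0 X1]
    rw [List.drop_append_of_le_length (by omega)]
  have hd0l : ((X1.take p0).drop (c k)).length = p0 - c k := by
    rw [List.length_drop, hX0l]
  -- value of the zone map on every variant of the first block
  have hval : ∀ x' P', lam2 P' x' → P'.length = c k →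
      zm act φ nu1 nu2 p0 x' (P' ++ X1.drop (c k)) = act b0 (φ (X1.drop p0)) + nu1 (X1.drop p0) := by
    intro x' P' hl' hlen'
    have hs := g2sound P' x' ((X1.take p0).drop (c k)) b0 (by omega) hl' hb0
    have e0 : P' ++ X1.drop (c k) = (P' ++ (X1.take p0).drop (c k)) ++ X1.drop p0 := by
      rw [hsplit, List.append_assoc]
    have el : (P' ++ (X1.take p0).drop (c k)).length = p0 := by
      rw [List.length_append, hd0l]; omega
    have e1 : (P' ++ X1.drop (c k)).take p0 = P' ++ (X1.take p0).drop (c k) := by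
      rw [e0]; exact List.take_left' el
    have e2 : (P' ++ X1.drop (c k)).drop p0 = X1.drop p0 := by
      rw [e0]; exact List.drop_left' el
    unfold zm
    rw [e1, e2, ← hs]
  have hvalX : zm act φ nu1 nu2 p0 x X1 = act b0 (φ (X1.drop p0)) + nu1 (X1.drop p0) := by
    have := hval x (X1.take (c k)) hlk htkl
    rwa [List.take_append_drop] at this
  refine ⟨X1.take (c k), hlk, U.drop (c k), ?_, ?_⟩
  swap
  · rw [hdk, ← List.append_assoc, List.take_append_drop]
  intro x' P' hP'
  obtain ⟨k', hk', hl'⟩ := g2len P' x' hP'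
  have hck' := hc k' hk'
  by_cases hkk : k' = k
  · subst hkk
    -- same place
    have hb := first_block h z (c k') X1.length U P' (by omega)
      (by rw [hUdef, List.take_left]; exact hX1.1) (by omega)
      (by
        intro t ht hzt
        rw [hUdef, List.take_append_of_le_length ht.le]
        exact hX1.2.2 t (by omega) ht)
      (by omega)
    have eX : (P' ++ U.drop (c k')).take (X1.length + P'.length - c k') = P' ++ X1.drop (c k') := by
      have el : (P' ++ X1.drop (c k')).length = X1.length + P'.length - c k' := by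
        rw [List.length_append, List.length_drop]; omega
      rw [hdk, ← List.append_assoc, ← el, List.take_left]
    rw [eX] at hb
    have eU : P' ++ U.drop (c k') = (P' ++ X1.drop (c k')) ++ X2 := by
      rw [hdk, List.append_assoc]
    by_cases hg : P' ++ X1.drop (c k') ∈ Good (L1 act φ nu2 p0 lam) (XX Wo z)
        (zm act φ nu1 nu2 p0)
    · right; left
      exact ⟨_, hg, X2, eU.symm⟩
    · by_cases hg2 : X2 ∈ Good (L1 act φ nu2 p0 lam) (XX Wo z) (zm act φ nu1 nu2 p0)
      · right; right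
        exact ⟨_, ⟨hb.1, hg⟩, X2, hg2, by rw [eU]⟩
      · left
        refine ⟨_, ⟨hb.1, hg⟩, X2, ⟨hX2, hg2⟩, eU, ?_⟩
        rw [hval x' P' hP' hl', hvalX]
  · -- a different place: the first block is good
    right; left
    have hnS : ∀ ab : ℕ × ℕ, ab ∈ PE ∪ PB1 ∪ PB2 → ab.2 = k → False := by
      intro ab hab e
      exact hkS (Finset.mem_image.2 ⟨ab, hab, e⟩)
    have hprk : (k', k) ∈ pr := by
      simp only [pr, Finset.mem_product, Finset.mem_range]; exact ⟨hk', hk⟩
    have hnE : ∀ t, t ≤ U.length → Wo (U.take t) → z + c k ≤ t + c k' + N1 →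
        t + c k' ≤ z + c k + N1 → False := by
      intro t h1 h2 h3 h4
      refine hnS (k', k) ?_ rfl
      refine Finset.mem_union_left _ (Finset.mem_union_left _ ?_)
      exact Finset.mem_filter.2 ⟨hprk, hkk, t, h1, h2, h3, h4⟩
    have hnB1 : ¬ Bad ((a1 - p0) + c k' - c k) := by
      intro hb
      refine hnS (k', k) ?_ rfl
      refine Finset.mem_union_left _ (Finset.mem_union_right _ ?_)
      exact Finset.mem_filter.2 ⟨hprk, hkk, hb⟩
    have hnB2 : ¬ Bad ((a2 - p0) + c k' - c k) := by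
      intro hb
      refine hnS (k', k) ?_ rfl
      refine Finset.mem_union_right _ ?_
      exact Finset.mem_filter.2 ⟨hprk, hkk, hb⟩
    -- choose the candidate
    obtain ⟨a, haU, hwa, hza, hnoa, hBa, hap⟩ : ∃ a, a ≤ U.length ∧ Wo (U.take a) ∧
        z + c k ≤ a + P'.length ∧
        (∀ t, t < a → z + c k ≤ t + P'.length → ¬ Wo (U.take t)) ∧
        ¬ Bad ((a - p0) + c k' - c k) ∧ z ≤ a + p0 := by
      by_cases hcase : z + c k ≤ a1 + c k'
      · refine ⟨a1, by omega, hw1, by omega, ?_, hnB1, by omega⟩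
        intro t ht hzt hwt
        have := huniq t (by omega) (by omega) hwt
        omega
      · refine ⟨a2, by omega, hw2, by omega, ?_, hnB2, by omega⟩
        intro t ht hzt hwt
        have := huniq t ht (by omega) hwt
        subst this
        omega
    obtain ⟨hbX, hbl, hbw⟩ := first_block h z (c k) a U P' haU hwa hza hnoa (by omega)
    refine ⟨(P' ++ U.drop (c k)).take (a + P'.length - c k), ?_, List.take_prefix _ _⟩
    refine good_of (rho := rho) (Bad := Bad) (N1 := N1) (N2 := N2) h g1len g1sound g1compl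
      (by omega) (by omega) _ hbX ?_ ?_
    · intro t ht1 ht2 ht3 ht4
      rw [hbl] at ht1
      have := hbw t (by omega) ht1 ht2
      exact hnE _ (by omega) this (by omega) (by omega)
    · rw [hbl]
      have e : a + P'.length - c k - p0 = (a - p0) + c k' - c k := by omega
      rw [e]; exact hBa

end Crest.Agent.R320.Sem_907
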