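import Mathlib
import Crest.Prelude.Def_GRegExp
import Crest.Agent.R320.Hgt_261

set_option autoImplicit false

/-!
The abstract core of the thread calculus: a language `K` closed under concatenation is generated by
its indecomposable words, so its generalized star height is at most one more than the height of any
language between the indecomposable words and `K`.
-/

namespace Crest.Agent.R320.Semi_261

open Crest.RegLang Crest.Agent.R320.Hgt_261

variable {α : Type*}

/-- Kleene star on sets of words -/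
def star (X : Set (List α)) : Set (List α) := @KStar.kstar (Language α) _ X

theorem H_star {k : ℕ} {L : Set (List α)} (hL : (L : Language α) ∈ H α k) :
    (star L : Language α) ∈ H α (k + 1) := H_kstar hL

/-- words of `K` which are not a product of two words of `K` -/
def Irr (K : Set (List α)) : Set (List α) :=
  {u | u ∈ K ∧ ∀ p ∈ K, ∀ q ∈ K, p ++ q ≠ u}

theorem flatten_mem {K : Set (List α)} (hK : ∀ u ∈ K, ∀ v ∈ K, u ++ v ∈ K) :
    ∀ l : List (List α), l ≠ [] → (∀ u ∈ l, u ∈ K) → l.flatten ∈ K := by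
  intro l
  induction l with
  | nil => intro h; exact absurd rfl h
  | cons a l ih =>
    intro _ hl
    by_cases h : l = []
    · subst h
      simpa using hl a (by simp)
    · rw [List.flatten_cons]
      exact hK _ (hl a (by simp)) _ (ih h (fun u hu => hl u (by simp [hu])))

theorem exists_flatten {K X : Set (List α)} (h0 : [] ∉ K)
    (h1 : ∀ u ∈ K, (∀ p ∈ K, ∀ q ∈ K, p ++ q ≠ u) → u ∈ X) :
    ∀ n : ℕ, ∀ u ∈ K, u.length ≤ n → ∃ l : List (List α), l ≠ [] ∧ l.flatten = u ∧ ∀ y ∈ l, y ∈ X := by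
  intro n
  induction n with
  | zero =>
    intro u hu hn
    have : u = [] := List.length_eq_zero_iff.mp (Nat.le_zero.mp hn)
    exact absurd (this ▸ hu) h0
  | succ n ih =>
    intro u hu hn
    by_cases h : ∀ p ∈ K, ∀ q ∈ K, p ++ q ≠ u
    · exact ⟨[u], by simp, by simp, by simpa using h1 u hu h⟩
    · push Not at h
      obtain ⟨p, hp, q, hq, hpq⟩ := h
      have hp0 : p ≠ [] := fun h => h0 (h ▸ hp)
      have hq0 : q ≠ [] := fun h => h0 (h ▸ hq)
      have hlp : 0 < p.length := List.length_pos_iff.mpr hp0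
      have hlq : 0 < q.length := List.length_pos_iff.mpr hq0
      have hl : p.length + q.length = u.length := by rw [← hpq, List.length_append]
      obtain ⟨l1, hl1, hf1, hx1⟩ := ih p hp (by omega)
      obtain ⟨l2, hl2, hf2, hx2⟩ := ih q hq (by omega)
      refine ⟨l1 ++ l2, by simp [hl1], by rw [List.flatten_append, hf1, hf2, hpq], ?_⟩
      intro y hy
      rcases List.mem_append.mp hy with h | h
      · exact hx1 y h
      · exact hx2 y h

theorem kstar_eq {K X : Set (List α)} (hK : ∀ u ∈ K, ∀ v ∈ K, u ++ v ∈ K) (h0 : [] ∉ K)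
    (h1 : ∀ u ∈ K, (∀ p ∈ K, ∀ q ∈ K, p ++ q ≠ u) → u ∈ X) (h2 : X ⊆ K) (w : List α) :
    w ∈ star X ↔ w = [] ∨ w ∈ K := by
  unfold star
  refine Language.mem_kstar.trans ?_
  constructor
  · rintro ⟨l, rfl, hl⟩
    by_cases h : l = []
    · left; simp [h]
    · right; exact flatten_mem hK l h (fun u hu => h2 (hl u hu))
  · rintro (h | h)
    · exact ⟨[], by simp [h], by simp⟩
    · obtain ⟨l, -, hf, hx⟩ := exists_flatten h0 h1 w.length w h le_rfl
      exact ⟨l, hf.symm, hx⟩

/-- **Star height of a concatenation-closed language.** -/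
theorem H_of_between {j : ℕ} {K X : Set (List α)} (hK : ∀ u ∈ K, ∀ v ∈ K, u ++ v ∈ K)
    (h0 : [] ∉ K) (h1 : ∀ u ∈ K, (∀ p ∈ K, ∀ q ∈ K, p ++ q ≠ u) → u ∈ X) (h2 : X ⊆ K)
    (hX : (X : Language α) ∈ H α j) : (K : Language α) ∈ H α (j + 1) := by
  have h := H_star hX
  have h' := H_diff (L := star X) (M := {[]}) h (H_word (j + 1) [])
  have e : ((star X : Set (List α)) \ {[]} : Set (List α)) = K := by
    ext w
    constructor
    · rintro ⟨hw, hne⟩
      rcases (kstar_eq hK h0 h1 h2 w).mp hw with h | h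
      · exact absurd h hne
      · exact h
    · intro hw
      exact ⟨(kstar_eq hK h0 h1 h2 w).mpr (Or.inr hw), fun h => h0 (h ▸ hw)⟩
  rwa [e] at h'

/-- the same without the hypothesis on the empty word -/
theorem H_of_between' {j : ℕ} {K X : Set (List α)} (hK : ∀ u ∈ K, ∀ v ∈ K, u ++ v ∈ K)
    (h1 : ∀ u ∈ K, u ≠ [] → (∀ p ∈ K, ∀ q ∈ K, p ≠ [] → q ≠ [] → p ++ q ≠ u) → u ∈ X)
    (h2 : X ⊆ K) (hX : (X : Language α) ∈ H α j) : (K : Language α) ∈ H α (j + 1) := by
  have h := H_of_between (K := K \ {[]}) (X := X \ {[]}) (j := j)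
    (by
      rintro u ⟨hu, hu0⟩ v ⟨hv, -⟩
      refine ⟨hK u hu v hv, ?_⟩
      intro h
      exact hu0 (List.append_eq_nil_iff.mp h).1)
    (by simp)
    (by
      rintro u ⟨hu, hu0⟩ hirr
      refine ⟨h1 u hu hu0 ?_, hu0⟩
      intro p hp q hq hp0 hq0
      exact hirr p ⟨hp, hp0⟩ q ⟨hq, hq0⟩)
    (fun u hu => ⟨h2 hu.1, hu.2⟩)
    (H_diff hX (H_word j []))
  by_cases h0 : [] ∈ K
  · have h3 := H_union h (H_word (j + 1) [])
    have e : (K \ {[]} ∪ {[]} : Set (List α)) = K := by
      ext w
      by_cases hw : w = []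
      · subst hw; simp [h0]
      · simp [hw]
    rwa [e] at h3
  · have e : (K \ {[]} : Set (List α)) = K := by
      ext w
      constructor
      · exact fun h => h.1
      · exact fun hw => ⟨hw, fun h => h0 (h ▸ hw)⟩
    rwa [e] at h

end Crest.Agent.R320.Semi_261
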