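import Crest.Agent.R320.Hk1_851

/-!
# Row 320: semigroup lemma, nested form, chain words (helper319)

`Val` = the words which are valid flights of a scheme (start label moved to end label); soundness of
the scheme says that `Val` is closed under concatenation, completeness says that long words of `Val`
split. Then `Val` is a star of any language between its irreducible words and itself.

Chain words: a chain is followed by a finite prefix code `J` (one cut per zone, `x' = b(x) + p`).
-/

set_option autoImplicit false

namespace Crest.Agent.R320.Semi_319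

open Crest.RegLang Crest.Agent.R320.Hk_851

universe u

variable {α : Type u} {k : ℕ}

/-- `f` splits inside `Val` -/
def Splits (Val : Set (List α)) (f : List α) : Prop :=
  ∃ f1 f2, f1 ≠ [] ∧ f2 ≠ [] ∧ f1 ∈ Val ∧ f2 ∈ Val ∧ f = f1 ++ f2

theorem append_mem_kstar {K : Language α} {u v : List α} (hu : u ∈ KStar.kstar K)
    (hv : v ∈ KStar.kstar K) : u ++ v ∈ KStar.kstar K := by
  obtain ⟨S, rfl, hS⟩ := Language.mem_kstar.1 hu
  obtain ⟨T, rfl, hT⟩ := Language.mem_kstar.1 hv
  refine Language.mem_kstar.2 ⟨S ++ T, by simp, ?_⟩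
  intro y hy
  rcases List.mem_append.1 hy with h | h
  · exact hS y h
  · exact hT y h

theorem mem_kstar_of_mem {K : Language α} {u : List α} (hu : u ∈ K) : u ∈ KStar.kstar K :=
  Language.mem_kstar.2 ⟨[u], by simp, by simpa using hu⟩

theorem nil_mem_kstar' (K : Language α) : [] ∈ KStar.kstar K :=
  Language.mem_kstar.2 ⟨[], rfl, by simp⟩

/-- semigroup lemma -/
theorem mem_kstar_iff {Val : Set (List α)} {K : Language α}
    (hmul : ∀ f ∈ Val, ∀ g ∈ Val, f ++ g ∈ Val) (hK : ∀ f ∈ K, f ∈ Val)
    (hirr : ∀ f ∈ Val, f ∈ K ∨ Splits Val f) (w : List α) :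
    w ∈ KStar.kstar K ↔ w = [] ∨ w ∈ Val := by
  constructor
  · intro hw
    obtain ⟨S, rfl, hS⟩ := Language.mem_kstar.1 hw
    clear hw
    induction S with
    | nil => exact Or.inl rfl
    | cons x S ih =>
      have hx : x ∈ Val := hK x (hS x (by simp))
      rcases ih (fun y hy => hS y (by simp [hy])) with h | h
      · right
        rw [List.flatten_cons, h, List.append_nil]
        exact hx
      · right
        rw [List.flatten_cons]
        exact hmul _ hx _ h
  · rintro (rfl | hw)
    · exact nil_mem_kstar' K
    · induction hn : w.length using Nat.strong_induction_on generalizing w with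
      | _ n ih =>
        rcases hirr w hw with h | ⟨f1, f2, h1, h2, hf1, hf2, rfl⟩
        · exact mem_kstar_of_mem h
        · have l1 : 0 < f1.length := List.length_pos_of_ne_nil h1
          have l2 : 0 < f2.length := List.length_pos_of_ne_nil h2
          rw [List.length_append] at hn
          exact append_mem_kstar (ih f1.length (by omega) f1 hf1 rfl)
            (ih f2.length (by omega) f2 hf2 rfl)

/-- `Val` is one star higher than any language between its irreducible words and itself -/
theorem HL.val {Val : Set (List α)} {K : Language α} (hKH : HL k K)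
    (hmul : ∀ f ∈ Val, ∀ g ∈ Val, f ++ g ∈ Val) (hK : ∀ f ∈ K, f ∈ Val)
    (hirr : ∀ f ∈ Val, f ∈ K ∨ Splits Val f) : HL (k + 1) ({w | w ∈ Val} : Language α) := by
  have h1 := hKH.star
  have h2 := (h1.setOf_and (HL.one.compl (k := k + 1))).setOf_or
    ((HL.const (([] : List α) ∈ Val)).setOf_and (HL.one (α := α) (k := k + 1)))
  refine h2.congr fun w => ?_
  have h3 := mem_kstar_iff hmul hK hirr w
  constructor
  · intro (hw : w ∈ Val)
    by_cases h : w = []
    · exact Or.inr ⟨h ▸ hw, h⟩
    · exact Or.inl ⟨h3.2 (Or.inr hw), h⟩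
  · rintro (⟨hw, hn⟩ | ⟨hw, hn⟩)
    · rcases h3.1 hw with h | h
      · exact (hn h).elim
      · exact h
    · have : w = [] := hn
      rw [this]; exact hw

/-- all irreducible flights are bounded: height one -/
theorem HL.val_bounded [Finite α] {Val : Set (List α)} (n : ℕ)
    (hmul : ∀ f ∈ Val, ∀ g ∈ Val, f ++ g ∈ Val)
    (hirr : ∀ f ∈ Val, f.length ≤ n ∨ Splits Val f) : HL 1 ({w | w ∈ Val} : Language α) := by
  have h0 : HL 0 ({w | w ∈ Val ∧ w.length ≤ n} : Language α) :=
    HL.finite ((List.finite_length_le α n).subset fun v hv => hv.2)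
  refine HL.val h0 hmul (fun f hf => hf.1) fun f hf => ?_
  rcases hirr f hf with h | h
  · exact Or.inl ⟨hf, h⟩
  · exact Or.inr h

/-- nested form: long irreducible flights lie in `Bad`, where `Val` is described by `E` -/
theorem HL.val_nested [Finite α] {Val : Set (List α)} (n : ℕ) {Bad E : Language α}
    (hBad : HL k Bad) (hE : HL k E) (hmul : ∀ f ∈ Val, ∀ g ∈ Val, f ++ g ∈ Val)
    (hirr : ∀ f ∈ Val, f.length ≤ n ∨ f ∈ Bad ∨ Splits Val f)
    (hagree : ∀ f ∈ Bad, n < f.length → (f ∈ Val ↔ f ∈ E)) :
    HL (k + 1) ({w | w ∈ Val} : Language α) := by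
  have h0 : HL k ({w | w ∈ Val ∧ w.length ≤ n} : Language α) :=
    HL.finite ((List.finite_length_le α n).subset fun v hv => hv.2)
  have h1 := h0.setOf_or ((hBad.setOf_and hE).setOf_and (HL.length_le (α := α) (k := k) n).compl)
  refine HL.val h1 hmul ?_ ?_
  · rintro f (h | ⟨⟨h1, h2⟩, h3⟩)
    · exact h.1
    · exact (hagree f h1 (not_le.1 h3)).2 h2
  · intro f hf
    by_cases hn : f.length ≤ n
    · exact Or.inl (Or.inl ⟨hf, hn⟩)
    · rcases hirr f hf with h | h | h
      · exact (hn h).elim
      · exact Or.inl (Or.inr ⟨⟨h, (hagree f h (not_le.1 hn)).1 hf⟩, hn⟩)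
      · exact Or.inr h

/-! ## chain words -/

/-- `J` is a prefix code of non-empty words of length at most `b` -/
structure Code (J : Language α) (b : ℕ) : Prop where
  ne : ∀ f ∈ J, f ≠ []
  pre : ∀ f ∈ J, ∀ g ∈ J, f <+: g → f = g
  bdd : ∀ f ∈ J, f.length ≤ b

theorem Code.finite [Finite α] {J : Language α} {b : ℕ} (h : Code J b) : J.Finite :=
  (List.finite_length_le α b).subset fun v hv => h.bdd v hv

theorem Code.hl [Finite α] {J : Language α} {b : ℕ} (h : Code J b) :
    HL k (J : Language α) := HL.finite h.finite

theorem Code.star_hl [Finite α] {J : Language α} {b : ℕ} (h : Code J b) :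
    HL 1 (KStar.kstar J) := (h.hl (k := 0)).star

/-- two code words which are prefixes of the same word are equal -/
theorem Code.eq_of_prefix {J : Language α} {b : ℕ} (h : Code J b) {f g w : List α}
    (hf : f ∈ J) (hg : g ∈ J) (h1 : f <+: w) (h2 : g <+: w) : f = g := by
  rcases le_total f.length g.length with hl | hl
  · exact h.pre f hf g hg (List.prefix_of_prefix_length_le h1 h2 hl)
  · exact (h.pre g hg f hf (List.prefix_of_prefix_length_le h2 h1 hl)).symm

/-- left unitary: the chain positions of a chain word cut it into chain words -/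
theorem Code.drop_mem {J : Language α} {b : ℕ} (h : Code J b) {u v : List α}
    (hu : u ∈ KStar.kstar J) (huv : u ++ v ∈ KStar.kstar J) :
    v ∈ KStar.kstar J := by
  obtain ⟨S, rfl, hS⟩ := Language.mem_kstar.1 hu
  clear hu
  induction S with
  | nil => simpa using huv
  | cons f S ih =>
    rw [List.flatten_cons, List.append_assoc] at huv
    obtain ⟨T, hT, hm⟩ := Language.mem_kstar.1 huv
    have hf : f ∈ J := hS f (by simp)
    cases T with
    | nil =>
      simp only [List.flatten_nil, List.append_eq_nil_iff] at hT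
      exact (h.ne f hf hT.1).elim
    | cons g T =>
      have hg : g ∈ J := hm g (by simp)
      rw [List.flatten_cons] at hT
      have hfg : f = g :=
        h.eq_of_prefix (w := f ++ (S.flatten ++ v)) hf hg ⟨_, rfl⟩ ⟨T.flatten, hT.symm⟩
      subst hfg
      have h2 : S.flatten ++ v = T.flatten := List.append_cancel_left hT
      exact ih (fun y hy => hS y (by simp [hy]))
        (h2 ▸ Language.mem_kstar.2 ⟨T, rfl, fun y hy => hm y (by simp [hy])⟩)

/-- some chain position `x` of `w` has `w.drop x ∈ P` -/
theorem HL.someAt [Finite α] {J : Language α} {b : ℕ} (h : Code J b) {P : Language α}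
    (hP : HL (k + 1) P) :
    HL (k + 1) ({w | ∃ x, x ≤ w.length ∧ w.take x ∈ KStar.kstar J ∧
      w.drop x ∈ P} : Language α) := by
  have h1 := (h.star_hl.mono (show 1 ≤ k + 1 by omega)).mul hP
  refine h1.congr fun w => ?_
  constructor
  · rintro ⟨x, -, h1, h2⟩
    exact Language.mem_mul.2 ⟨_, h1, _, h2, List.take_append_drop x w⟩
  · intro hw
    obtain ⟨u, hu, v, hv, rfl⟩ := Language.mem_mul.1 hw
    exact ⟨u.length, by simp, by simpa using hu, by simpa using hv⟩

/-- all chain positions `x` of `w` have `w.drop x ∈ P` (388 (3)'s promise `Y`) -/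
theorem HL.allAt [Finite α] {J : Language α} {b : ℕ} (h : Code J b) {P : Language α}
    (hP : HL (k + 1) P) :
    HL (k + 1) ({w | ∀ x, x ≤ w.length → w.take x ∈ KStar.kstar J →
      w.drop x ∈ P} : Language α) := by
  refine (HL.someAt h hP.compl).compl.congr fun w => ?_
  constructor
  · rintro hw ⟨x, h0, h1, h2⟩
    exact h2 (hw x h0 h1)
  · intro hw x h0 h1
    by_contra h2
    exact hw ⟨x, h0, h1, h2⟩

/-- composite of a map `M` of code words along the chain -/
noncomputable def comp {S : Type*} [Monoid S] (J : Language α) (M : List α → S)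
    (w : List α) : S :=
  open Classical in
  if h : ∃ T : List (List α), T.flatten = w ∧ ∀ f ∈ T, f ∈ J then
    ((Classical.choose h).map M).prod else 1

theorem Code.unique {J : Language α} {b : ℕ} (h : Code J b) :
    ∀ S T : List (List α), (∀ f ∈ S, f ∈ J) → (∀ f ∈ T, f ∈ J) → S.flatten = T.flatten → S = T := by
  intro S
  induction S with
  | nil =>
    intro T _ hT e
    cases T with
    | nil => rfl
    | cons g T =>
      simp only [List.flatten_nil, List.flatten_cons] at e
      have := (List.append_eq_nil_iff.1 e.symm).1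
      exact (h.ne g (hT g (by simp)) this).elim
  | cons f S ih =>
    intro T hS hT e
    cases T with
    | nil =>
      simp only [List.flatten_nil, List.flatten_cons] at e
      have := (List.append_eq_nil_iff.1 e).1
      exact (h.ne f (hS f (by simp)) this).elim
    | cons g T =>
      rw [List.flatten_cons, List.flatten_cons] at e
      have hfg : f = g := h.eq_of_prefix (w := f ++ S.flatten) (hS f (by simp)) (hT g (by simp))
        ⟨_, rfl⟩ ⟨T.flatten, e.symm⟩
      subst hfg
      have h2 := List.append_cancel_left e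
      rw [ih T (fun y hy => hS y (by simp [hy])) (fun y hy => hT y (by simp [hy])) h2]

theorem comp_flatten {S : Type*} [Monoid S] {J : Language α} {b : ℕ} (h : Code J b)
    (M : List α → S) (T : List (List α)) (hT : ∀ f ∈ T, f ∈ J) :
    comp J M T.flatten = (T.map M).prod := by
  have hex : ∃ T' : List (List α), T'.flatten = T.flatten ∧ ∀ f ∈ T', f ∈ J := ⟨T, rfl, hT⟩
  unfold comp
  rw [dif_pos hex]
  have hs := Classical.choose_spec hex
  rw [h.unique _ T hs.2 hT hs.1]

theorem comp_append {S : Type*} [Monoid S] {J : Language α} {b : ℕ} (h : Code J b)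
    (M : List α → S) {u v : List α} (hu : u ∈ KStar.kstar J)
    (hv : v ∈ KStar.kstar J) : comp J M (u ++ v) = comp J M u * comp J M v := by
  obtain ⟨T, rfl, hT⟩ := Language.mem_kstar.1 hu
  obtain ⟨R, rfl, hR⟩ := Language.mem_kstar.1 hv
  have e : T.flatten ++ R.flatten = (T ++ R).flatten := by simp
  rw [e, comp_flatten h M T hT, comp_flatten h M R hR, comp_flatten h M (T ++ R) ?_, List.map_append,
    List.prod_append]
  intro f hf
  rcases List.mem_append.1 hf with h' | h'
  · exact hT f h'
  · exact hR f h'

end Crest.Agent.R320.Semi_319
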