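import Crest.Agent.R320.Hk1_851

/-!
# Row 320, semigroup form of a scheme (helper360)

`P` = all words from legal junction to legal junction (any number of zones) whose transported
right label equals the left label.  Soundness of a scheme = `P` is closed under `++`.
Completeness = every word of `P` is small, or bad all along, or splits into two non-empty
members of `P`.  Then `P` together with the empty word is exactly the star of `Small + Bad`.
-/

set_option autoImplicit false

namespace Crest.Agent.R320.Semi_360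

open Crest.RegLang Crest.Agent.R320.Hk_851

universe u

variable {α : Type u}

/-- membership in the star of a language contained in a semigroup -/
theorem mem_of_star {P K : Language α} (hmul : ∀ u v, u ∈ P → v ∈ P → u ++ v ∈ P)
    (hK : ∀ w, w ∈ K → w ∈ P) (w : List α) (hw : w ∈ KStar.kstar K) : w = [] ∨ w ∈ P := by
  rw [Language.mem_kstar] at hw
  obtain ⟨L, rfl, hL⟩ := hw
  induction L with
  | nil => left; rfl
  | cons a L ih =>
    have ha : a ∈ P := hK a (hL a List.mem_cons_self)
    rcases ih (fun y hy => hL y (List.mem_cons_of_mem _ hy)) with h | h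
    · right
      rw [List.flatten_cons, h, List.append_nil]; exact ha
    · right
      rw [List.flatten_cons]; exact hmul _ _ ha h

theorem star_append {K : Language α} {u v : List α} (hu : u ∈ KStar.kstar K)
    (hv : v ∈ KStar.kstar K) : u ++ v ∈ KStar.kstar K := by
  rw [Language.mem_kstar] at hu hv ⊢
  obtain ⟨L, rfl, hL⟩ := hu
  obtain ⟨M, rfl, hM⟩ := hv
  refine ⟨L ++ M, by rw [List.flatten_append], ?_⟩
  intro y hy
  rcases List.mem_append.1 hy with h | h
  · exact hL y h
  · exact hM y h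

theorem mem_star_of_mem {K : Language α} {u : List α} (hu : u ∈ K) : u ∈ KStar.kstar K := by
  rw [Language.mem_kstar]
  refine ⟨[u], by simp, ?_⟩
  intro y hy
  rw [List.mem_singleton] at hy
  rw [hy]; exact hu

/-- every member of `P` is in the star, if members which are neither small nor bad split -/
theorem star_of_mem {P K : Language α}
    (hsplit : ∀ w, w ∈ P → w ∈ K ∨ ∃ u v, u ≠ [] ∧ v ≠ [] ∧ u ∈ P ∧ v ∈ P ∧ u ++ v = w) :
    ∀ (n : ℕ) (w : List α), w.length ≤ n → w ∈ P → w ∈ KStar.kstar K := by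
  intro n
  induction n with
  | zero =>
    intro w hn hw
    have h0 : w = [] := List.length_eq_zero_iff.1 (Nat.le_zero.1 hn)
    rw [h0]
    rw [Language.mem_kstar]
    exact ⟨[], rfl, fun y hy => absurd hy (by simp)⟩
  | succ n ih =>
    intro w hn hw
    rcases hsplit w hw with h | ⟨u, v, hu, hv, huP, hvP, rfl⟩
    · exact mem_star_of_mem h
    · have hul : 0 < u.length := List.length_pos_iff.2 hu
      have hvl : 0 < v.length := List.length_pos_iff.2 hv
      rw [List.length_append] at hn
      exact star_append (ih u (by omega) huP) (ih v (by omega) hvP)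

/-- **the semigroup form of one level** -/
theorem star_iff {P K : Language α} (hmul : ∀ u v, u ∈ P → v ∈ P → u ++ v ∈ P)
    (hK : ∀ w, w ∈ K → w ∈ P)
    (hsplit : ∀ w, w ∈ P → w ∈ K ∨ ∃ u v, u ≠ [] ∧ v ≠ [] ∧ u ∈ P ∧ v ∈ P ∧ u ++ v = w)
    (w : List α) : w ∈ KStar.kstar K ↔ w = [] ∨ w ∈ P := by
  constructor
  · exact mem_of_star hmul hK w
  · rintro (rfl | h)
    · rw [Language.mem_kstar]
      exact ⟨[], rfl, fun y hy => absurd hy (by simp)⟩
    · exact star_of_mem hsplit w.length w le_rfl h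

/-- one level: `K` in `HL k` gives `P` in `HL (k+1)` -/
theorem level {k : ℕ} {P K : Language α} (hk : HL k K)
    (hmul : ∀ u v, u ∈ P → v ∈ P → u ++ v ∈ P)
    (hK : ∀ w, w ∈ K → w ∈ P)
    (hsplit : ∀ w, w ∈ P → w ∈ K ∨ ∃ u v, u ≠ [] ∧ v ≠ [] ∧ u ∈ P ∧ v ∈ P ∧ u ++ v = w) :
    HL (k + 1) P := by
  have hs : HL (k + 1) (KStar.kstar K) := hk.star
  by_cases h0 : ([] : List α) ∈ P
  · refine hs.congr fun w => ?_
    rw [star_iff hmul hK hsplit]
    constructor
    · intro h; exact Or.inr h
    · rintro (rfl | h)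
      · exact h0
      · exact h
  · have h1 : HL (k + 1) ({w | w ∈ KStar.kstar K ∧ ¬ w ∈ ({[]} : Language α)} : Language α) :=
      HL.setOf_and hs (HL.setOf_not (HL.word []))
    refine h1.congr fun w => ?_
    show w ∈ P ↔ (w ∈ KStar.kstar K ∧ ¬ w ∈ ({[]} : Language α))
    rw [star_iff hmul hK hsplit]
    constructor
    · intro h
      refine ⟨Or.inr h, ?_⟩
      intro h2
      rw [Set.mem_singleton_iff.1 h2] at h
      exact h0 h
    · rintro ⟨h | h, h2⟩
      · exact absurd (Set.mem_singleton_iff.2 h) h2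
      · exact h

/-- **two levels** (the shape of every two-scheme chain).
`Pin` : junction words of the inner (promise) scheme, `Pout` : of the outer one; the long
members of `Pout` which do not split are bad all along and form a language `Bad` which is
`HL (k+1)` as soon as `Pin` is. -/
theorem two_levels {k : ℕ} {Pin Pout Kin Sm Bad : Language α} (hKin : HL k Kin)
    (hmulI : ∀ u v, u ∈ Pin → v ∈ Pin → u ++ v ∈ Pin)
    (hKI : ∀ w, w ∈ Kin → w ∈ Pin)
    (hsI : ∀ w, w ∈ Pin → w ∈ Kin ∨ ∃ u v, u ≠ [] ∧ v ≠ [] ∧ u ∈ Pin ∧ v ∈ Pin ∧ u ++ v = w)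
    (hSm : HL (k + 1) Sm) (hBad : HL (k + 1) Pin → HL (k + 1) Bad)
    (hmulO : ∀ u v, u ∈ Pout → v ∈ Pout → u ++ v ∈ Pout)
    (hSO : ∀ w, w ∈ Sm → w ∈ Pout) (hBO : ∀ w, w ∈ Bad → w ∈ Pout)
    (hsO : ∀ w, w ∈ Pout → w ∈ Sm ∨ w ∈ Bad ∨
      ∃ u v, u ≠ [] ∧ v ≠ [] ∧ u ∈ Pout ∧ v ∈ Pout ∧ u ++ v = w) :
    HL (k + 2) Pout := by
  have h1 : HL (k + 1) Pin := level hKin hmulI hKI hsI
  have h2 : HL (k + 1) (Sm + Bad) := hSm.add (hBad h1)
  refine level h2 hmulO ?_ ?_
  · rintro w (h | h)
    · exact hSO w h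
    · exact hBO w h
  · intro w hw
    rcases hsO w hw with h | h | h
    · exact Or.inl (Or.inl h)
    · exact Or.inl (Or.inr h)
    · exact Or.inr h

end Crest.Agent.R320.Semi_360
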