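import Crest.Agent.R320.Asm3_720

/-!
# Row 320: leaves (SEP) and (BASE) of 932's skeleton (helper204), over 720's `crit` and `crit_long`
`(List.replicate k w).flatten` is literally 932's `rep k w`.
-/

set_option autoImplicit false

namespace Crest.Agent.R320.SepBase_204

open Crest.Agent.R320.Hk_851 Crest.Agent.R320.Asm3_720

universe u

/-- (SEP) -/
theorem sepLang {A : Type u} [Finite A] (h : ℕ) {ι : Type u} [Finite ι] (X : ι → Language A)
    (hX : ∀ i, HL h (X i)) (L : Language A) (hL : L.IsRegular)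
    (hsep : ∀ x w y : List A, (∀ n, ∃ k l, n ≤ k ∧ n ≤ l ∧
        x ++ (List.replicate k w).flatten ++ y ∈ L ∧
        x ++ (List.replicate l w).flatten ++ y ∉ L) →
      ∃ i, ∃ x' y' : List A, ∃ k l : ℕ, 0 < k ∧ 0 < l ∧
        x' ++ (List.replicate k w).flatten ++ y' ∈ X i ∧
        x' ++ (List.replicate l w).flatten ++ y' ∉ X i) : HL h L := by
  refine crit X hX hL ?_
  rintro w ⟨x, y, h1, h2⟩
  obtain ⟨i, x', y', k, l, hk, hl, h3, h4⟩ := hsep x w y (by
    intro n
    obtain ⟨k, hk, hk'⟩ := h1 n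
    obtain ⟨l, hl, hl'⟩ := h2 n
    refine ⟨k, l, hk, hl, ?_, ?_⟩
    · rw [List.append_assoc]; exact hk'
    · rw [List.append_assoc]; exact hl')
  refine ⟨i, x', y', k, l, hk, hl, ?_, ?_⟩
  · rw [List.append_assoc] at h3; exact h3
  · rw [List.append_assoc] at h4; exact h4

/-- (BASE) -/
theorem thin_HL {A : Type u} [Finite A] (W : ℕ) (L : Language A) (hL : L.IsRegular)
    (ht : ∀ x w y : List A, (∀ n, ∃ k, n ≤ k ∧ x ++ (List.replicate k w).flatten ++ y ∈ L) →
      ∃ (v : List A) (j : ℕ), v.length ≤ W ∧ w = (List.replicate j v).flatten) : HL 1 L := by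
  refine crit_long le_rfl W (ι := PEmpty.{u+1}) (fun e => e.elim) (fun e => e.elim) hL ?_
  rintro w hw ⟨x, y, h1, -⟩
  obtain ⟨v, j, hv, hj⟩ := ht x w y (by
    intro n
    obtain ⟨k, hk, hk'⟩ := h1 n
    refine ⟨k, hk, ?_⟩
    rw [List.append_assoc]; exact hk')
  exact absurd hv (not_le.2 (hw v j hj))

end Crest.Agent.R320.SepBase_204
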