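import Crest.Agent.R320.SynFam_370
import Crest.Agent.R320.Straub1_932

/-!
Row 320, helper370.  The periodic separation criterion (932 #13046 (b)), over `Straub1_932` and
`SynFam_370`.
-/

set_option autoImplicit false

namespace Crest.Agent.R320.Sep_370

open Crest.Agent.R320.Hk_851 Crest.Agent.R320.Straub_932 Crest.Agent.R320.SynFam_370

universe u

theorem good_HL {A : Type u} (h : ℕ) : Good (HL h : Language A → Prop) where
  zero := HL.zero
  one := HL.one
  char := HL.char
  add := HL.add
  mul := HL.mul
  compl := HL.compl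

theorem rep_flatten_append {A : Type u} (w : List A) (k l : ℕ) :
    (List.replicate (k + l) w).flatten =
      (List.replicate k w).flatten ++ (List.replicate l w).flatten := by
  rw [List.replicate_add, List.flatten_append]

/-- **Periodic separation criterion.** -/
theorem separation {A M : Type u} [Finite A] [Monoid M] [Finite M] (h : ℕ) {ι : Type u} [Finite ι]
    (X : ι → Language A) (hX : ∀ i, HL h (X i)) (hreg : ∀ i, (X i).IsRegular) (f : A → M)
    (hsep : ∀ w : List A, (∀ n, ev f w ^ n ≠ ev f w ^ (n + 1)) →
      ∃ i, ∃ x y : List A, ∃ k l : ℕ, 0 < k ∧ 0 < l ∧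
        (x ++ (List.replicate k w).flatten ++ y ∈ X i) ∧
        (x ++ (List.replicate l w).flatten ++ y ∉ X i)) (m : M) :
    HL h ({w | ev f w = m} : Language A) := by
  haveI := finite_syn X hreg
  have hidem : ∀ w : List A, ev (tau X) w * ev (tau X) w = ev (tau X) w →
      ∀ k, 0 < k → ev (tau X) w ^ k = ev (tau X) w := by
    intro w hw k hk
    obtain ⟨k, rfl⟩ : ∃ j, k = j + 1 := ⟨k - 1, by omega⟩
    clear hk
    induction k with
    | zero => simp
    | succ k ih => rw [pow_succ, ih, hw]
  refine straubing f (tau X) (good_HL h) ?_ (fun t => class_HL h X hreg hX t) m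
  intro w hw
  by_contra hcon
  push Not at hcon
  obtain ⟨i, x, y, k, l, hk, hl, h1, h2⟩ := hsep w hcon
  apply h2
  have e : ev (tau X) (List.replicate k w).flatten = ev (tau X) (List.replicate l w).flatten := by
    rw [ev_rep, ev_rep, hidem w hw k hk, hidem w hw l hl]
  exact ((prod_tau_eq_iff X _ _).1 e i x y).1 h1

end Crest.Agent.R320.Sep_370
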