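import Crest.Agent.R320.Crit_564
import Crest.Agent.R320.Hk2_851

/-!
Row 320: the periodic separation criterion over 851's `HL` (helper564; statement of 932 #12722).
-/

set_option autoImplicit false

namespace Crest.Agent.R320.Sep564

open Crest.RegLang Crest.Agent.R320.Hk_851 Crest.Agent.R320.Crit564

universe u

variable {α : Type u} {h : ℕ}

theorem sf_hl {T : Type*} {ρ : List α → T} (hρ : ∀ t, HL h ({w | ρ w = t} : Language α))
    {L : Set (List α)} (hL : SF ρ L) : HL h (L : Language α) := by
  induction hL with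
  | letter a => exact HL.char a
  | fibre t => exact hρ t
  | compl _ ih => exact ih.compl
  | union _ _ ih1 ih2 => exact ih1.sup ih2
  | mul _ _ ih1 ih2 =>
    refine (ih1.mul ih2).congr ?_
    intro w
    constructor
    · rintro ⟨u, hu, v, hv, rfl⟩
      exact Language.mem_mul.2 ⟨u, hu, v, hv, rfl⟩
    · intro hw
      obtain ⟨u, hu, v, hv, rfl⟩ := Language.mem_mul.1 hw
      exact ⟨u, hu, v, hv, rfl⟩

/-- syntactic congruence -/
def con (X : Language α) : Con (FreeMonoid α) where
  r w w' := ∀ x y : List α, x ++ w.toList ++ y ∈ X ↔ x ++ w'.toList ++ y ∈ X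
  iseqv := ⟨fun _ _ _ => Iff.rfl, fun h x y => (h x y).symm, fun h1 h2 x y => (h1 x y).trans (h2 x y)⟩
  mul' := by
    intro a b c d h1 h2 x y
    have e1 := h1 x (c.toList ++ y)
    have e2 := h2 (x ++ b.toList) y
    simp only [FreeMonoid.toList_mul, List.append_assoc] at *
    exact e1.trans e2

/-- syntactic monoid -/
def Syn (X : Language α) : Type u := (con X).Quotient

instance (X : Language α) : Monoid (Syn X) := inferInstanceAs (Monoid (con X).Quotient)

/-- class of a word -/
def cl (X : Language α) (w : List α) : Syn X := ((FreeMonoid.ofList w : FreeMonoid α) : (con X).Quotient)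

theorem cl_eq {X : Language α} {w w' : List α} : cl X w = cl X w' ↔
    ∀ x y : List α, x ++ w ++ y ∈ X ↔ x ++ w' ++ y ∈ X := by
  unfold cl
  exact (con X).eq

theorem cl_append (X : Language α) (u v : List α) : cl X (u ++ v) = cl X u * cl X v := rfl

theorem cl_surj (X : Language α) (s : Syn X) : ∃ w, cl X w = s := by
  obtain ⟨w, hw⟩ := Quotient.exists_rep s
  exact ⟨w.toList, hw⟩

theorem P_cl (X : Language α) (w : List α) : P (fun a => cl X [a]) w = cl X w := by
  induction w with
  | nil => rw [P_nil]; rfl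
  | cons a w ih => rw [P_cons, ih, ← cl_append]; rfl

theorem finite_syn {X : Language α} (hX : X.IsRegular) : Finite (Syn X) := by
  obtain ⟨σ, hσ, M, rfl⟩ := hX
  classical
  have hfin : Finite (σ → σ) := inferInstance
  have : Finite {t : σ → σ // ∃ w : List α, t = fun s => M.evalFrom s w} := inferInstance
  refine Finite.of_surjective
    (fun t : {t : σ → σ // ∃ w : List α, t = fun s => M.evalFrom s w} => cl M.accepts t.2.choose) ?_
  intro s
  obtain ⟨w, rfl⟩ := cl_surj _ s
  let t : {t : σ → σ // ∃ w : List α, t = fun s => M.evalFrom s w} :=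
    ⟨fun s => M.evalFrom s w, w, rfl⟩
  refine ⟨t, ?_⟩
  have h1 : (fun s => M.evalFrom s w) = fun s => M.evalFrom s t.2.choose := t.2.choose_spec
  change cl M.accepts t.2.choose = _
  rw [cl_eq]
  intro x y
  simp only [DFA.mem_accepts, DFA.eval, DFA.evalFrom_of_append]
  have h2 : M.evalFrom (M.evalFrom M.start x) w = M.evalFrom (M.evalFrom M.start x) t.2.choose :=
    congrFun h1 (M.evalFrom M.start x)
  rw [h2]

theorem hl_quot [Finite α] {X : Language α} (hX : HL h X) (x y : List α) :
    HL h ({w | x ++ w ++ y ∈ X} : Language α) := by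
  refine ((hX.lquot x).rquot y).congr ?_
  intro w
  change x ++ w ++ y ∈ X ↔ x ++ (w ++ y) ∈ X
  rw [List.append_assoc]

theorem hl_cl [Finite α] {X : Language α} (hr : X.IsRegular) (hX : HL h X) (s : Syn X) :
    HL h ({w | cl X w = s} : Language α) := by
  have := finite_syn hr
  obtain ⟨w0, rfl⟩ := cl_surj X s
  choose rep hrep using cl_surj X
  have h1 : ∀ q : Syn X × Syn X, HL h ({w | (rep q.1 ++ w ++ rep q.2 ∈ X ↔
      rep q.1 ++ w0 ++ rep q.2 ∈ X)} : Language α) := fun q =>
    HL.setOf_iff (hl_quot hX _ _) (HL.const _)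
  refine (HL.iInter h1).congr ?_
  intro w
  constructor
  · intro hw q
    exact cl_eq.1 hw (rep q.1) (rep q.2)
  · intro hw
    refine cl_eq.2 fun x y => ?_
    have h2 : rep (cl X x) ++ w ++ rep (cl X y) ∈ X ↔ rep (cl X x) ++ w0 ++ rep (cl X y) ∈ X :=
      hw (cl X x, cl X y)
    have ex : ∀ v : List α, x ++ v ++ y ∈ X ↔ rep (cl X x) ++ v ++ rep (cl X y) ∈ X := by
      intro v
      have e1 := cl_eq.1 (hrep (cl X x)) [] (v ++ rep (cl X y))
      have e2 := cl_eq.1 (hrep (cl X y)) (x ++ v) []
      simp only [List.nil_append, List.append_nil, List.append_assoc] at e1 e2 ⊢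
      exact e2.symm.trans e1.symm
    rw [ex w, ex w0]
    exact h2

/-- `n`-th power of a word -/
def pw (n : ℕ) (w : List α) : List α := (List.replicate n w).flatten

theorem P_pw {M : Type*} [Monoid M] (f : α → M) (n : ℕ) (w : List α) :
    P f (pw n w) = P f w ^ n := P_flatten_replicate f n w

theorem idem_pow {T : Type*} [Monoid T] {x : T} (hx : x * x = x) : ∀ k : ℕ, x ^ (k + 1) = x
  | 0 => by simp
  | k + 1 => by rw [pow_succ, idem_pow hx k, hx]

/-- **Periodic separation criterion**, monoid form. -/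
theorem criterion_monoid [Finite α] {ι : Type u} [Finite ι] (X : ι → Language α)
    (hX : ∀ i, (X i).IsRegular) (hH : ∀ i, HL h (X i))
    {M : Type u} [Monoid M] [Finite M] (f : α → M)
    (sep : ∀ w : List α, (∀ n, P f w ^ (n + 1) ≠ P f w ^ n) →
      ∃ i, ∃ x y : List α, ∃ k l, 0 < k ∧ 0 < l ∧ x ++ pw k w ++ y ∈ X i ∧ x ++ pw l w ++ y ∉ X i)
    (m : M) : HL h ({w | P f w = m} : Language α) := by
  have hfin : ∀ i, Finite (Syn (X i)) := fun i => finite_syn (hX i)
  let g : α → ∀ i, Syn (X i) := fun a i => cl (X i) [a]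
  have hg : ∀ w i, P g w i = cl (X i) w := by
    intro w i
    induction w with
    | nil => rw [P_nil]; rfl
    | cons a w ih => rw [P_cons, Pi.mul_apply, ih, ← cl_append]; rfl
  have hfib : ∀ t, HL h ({w | P g w = t} : Language α) := by
    intro t
    refine (HL.iInter fun i => hl_cl (hX i) (hH i) (t i)).congr ?_
    intro w
    constructor
    · intro hw i
      exact (hg w i).symm.trans (congrFun hw i)
    · intro hw
      exact funext fun i => (hg w i).trans (hw i)
  refine sf_hl hfib (Crit564.main f g ?_ m)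
  intro w hid
  by_contra hap
  obtain ⟨i, x, y, k, l, hk, hl, h1, h2⟩ := sep w (fun n hn => hap ⟨n, hn⟩)
  have key : ∀ k, 0 < k → cl (X i) (pw k w) = cl (X i) w := by
    intro k hk
    obtain ⟨k, rfl⟩ : ∃ k', k = k' + 1 := ⟨k - 1, by omega⟩
    rw [← hg, ← hg, P_pw, idem_pow hid]
  exact h2 ((cl_eq.1 ((key k hk).trans (key l hl).symm) x y).1 h1)

/-- **Periodic separation criterion** for a regular language `L`. -/
theorem criterion [Finite α] {ι : Type u} [Finite ι] (X : ι → Language α)
    (hX : ∀ i, (X i).IsRegular) (hH : ∀ i, HL h (X i)) (L : Language α) (hL : L.IsRegular)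
    (sep : ∀ w : List α,
      (∀ n, ∃ x y : List α, ¬ (x ++ pw (n + 1) w ++ y ∈ L ↔ x ++ pw n w ++ y ∈ L)) →
      ∃ i, ∃ x y : List α, ∃ k l, 0 < k ∧ 0 < l ∧ x ++ pw k w ++ y ∈ X i ∧ x ++ pw l w ++ y ∉ X i) :
    HL h L := by
  have hfinL := finite_syn hL
  have hm : ∀ m : Syn L, HL h ({w | P (fun a => cl L [a]) w = m} : Language α) := by
    refine fun m => criterion_monoid X hX hH (fun a => cl L [a]) ?_ m
    intro w hw
    refine sep w fun n => ?_
    by_contra hn
    push Not at hn
    apply hw n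
    rw [← P_pw, ← P_pw, P_cl, P_cl]
    exact cl_eq.2 hn
  refine (HL.biUnion (Set.toFinite {m : Syn L | ∃ w ∈ L, cl L w = m}) fun m _ => hm m).congr ?_
  intro w
  constructor
  · intro hw
    exact ⟨cl L w, ⟨w, hw, rfl⟩, P_cl L w⟩
  · rintro ⟨m, ⟨v, hv, rfl⟩, hw⟩
    have h1 : cl L w = cl L v := (P_cl L w).symm.trans hw
    have := cl_eq.1 h1 [] []
    simp only [List.nil_append, List.append_nil] at this
    exact this.2 hv

end Crest.Agent.R320.Sep564
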