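import Mathlib
import Crest.Agent.R320.Grid_219
import Crest.Agent.R320.SpoilGrid_567

/-!
Row 320: constants of scheme 1 (grid gadget of 219/693) together with the ruler of scheme 2,
in the literal form wanted by `Joint_47` (hypotheses hS, hL, hC, hres, hT).
-/

set_option autoImplicit false

namespace Crest.Agent.R320.Setup_567

open Grid219

/-- the starting points of the levels -/
def am (M Γ : ℕ) : ℕ → ℕ
  | 0 => 0
  | j + 1 => am M Γ j + Γ ^ j + M * Γ ^ j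

/-- the concrete parameters -/
def par (m M Γ : ℕ) (hM : 0 < M) (hΓ : 0 < Γ) : Par where
  m := m
  M := M
  G := fun j => Γ ^ j
  Am := am M Γ
  hM := hM
  hG := fun j => pow_pos hΓ j
  hdvd := fun j => pow_dvd_pow _ (Nat.le_succ j)
  hA := fun _ => rfl

theorem am_mono (M Γ : ℕ) {i j : ℕ} (h : i ≤ j) : am M Γ i ≤ am M Γ j := by
  induction j with
  | zero => rw [Nat.le_zero.1 h]
  | succ j ih =>
    rcases Nat.lt_or_ge j i with h' | h'
    · rw [Nat.le_antisymm h (by omega)]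
    · exact (ih h').trans (by show am M Γ j ≤ am M Γ j + Γ ^ j + M * Γ ^ j; omega)

/-- bad totals -/
def Bd (m M Γ : ℕ) (hM : 0 < M) (hΓ : 0 < Γ) (Ms : Finset ℕ) (T : ℕ) : Prop :=
  (∃ p ∈ Ms, p ∣ T) ∨ (par m M Γ hM hΓ).BadG T

theorem bad_cast {m M Γ : ℕ} {hM : 0 < M} {hΓ : 0 < Γ} {Ms : Finset ℕ} {T : ℕ}
    (h : Bd m M Γ hM hΓ Ms T) :
    SpoilGrid_567.BadT Ms M Γ m (fun j => (am M Γ j : ℤ)) (T : ℤ) := by
  rcases h with ⟨p, hp, h⟩ | ⟨j, hj1, hjm, k, h1, h2⟩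
  · exact Or.inl ⟨p, hp, by exact_mod_cast h⟩
  · refine Or.inr ⟨j, hj1, hjm, k, ?_⟩
    have h1' : am M Γ j + Γ ^ j * k ≤ T + M * Γ ^ (j - 1) := h1
    have h2' : T ≤ am M Γ j + Γ ^ j * k + M * Γ ^ (j - 1) := h2
    have h1'' : (am M Γ j : ℤ) + (Γ : ℤ) ^ j * k ≤ T + M * (Γ : ℤ) ^ (j - 1) := by exact_mod_cast h1'
    have h2'' : (T : ℤ) ≤ am M Γ j + (Γ : ℤ) ^ j * k + M * (Γ : ℤ) ^ (j - 1) := by exact_mod_cast h2'
    rw [abs_le]
    constructor <;> nlinarith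

theorem bad_per {m M Γ : ℕ} {hM : 0 < M} {hΓ : 0 < Γ} {Ms : Finset ℕ} {T : ℕ}
    (hMs : ∀ p ∈ Ms, p ∣ M) (hT : am M Γ m + am M Γ m ≤ T) :
    Bd m M Γ hM hΓ Ms (T + M * Γ ^ m) ↔ Bd m M Γ hM hΓ Ms T := by
  unfold Bd
  have key : ∀ j, 1 ≤ j → j ≤ m → ∃ e, M * Γ ^ m = Γ ^ j * e ∧ (0 < Γ → True) := by
    intro j _ hjm
    obtain ⟨e, he⟩ := pow_dvd_pow Γ hjm
    exact ⟨M * e, by rw [he]; ring, fun _ => trivial⟩
  constructor
  · rintro (⟨p, hp, h⟩ | ⟨j, hj1, hjm, k, h1, h2⟩)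
    · exact Or.inl ⟨p, hp, (Nat.dvd_add_left ((hMs p hp).mul_right _)).1 h⟩
    · right
      obtain ⟨e, he, -⟩ := key j hj1 hjm
      have h1' : am M Γ j + Γ ^ j * k ≤ (T + M * Γ ^ m) + M * Γ ^ (j - 1) := h1
      have h2' : (T + M * Γ ^ m) ≤ am M Γ j + Γ ^ j * k + M * Γ ^ (j - 1) := h2
      have hke : e ≤ k := by
        by_contra hlt
        have hlt' : k + 1 ≤ e := by omega
        have hmul : Γ ^ j * (k + 1) ≤ Γ ^ j * e := Nat.mul_le_mul_left _ hlt'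
        have hG1 : 1 ≤ Γ ^ j := Nat.one_le_pow _ _ hΓ
        have hj : am M Γ j ≤ am M Γ m := am_mono M Γ hjm
        -- `M * Γ ^ (j-1) ≤ am j`
        obtain ⟨i, rfl⟩ : ∃ i, j = i + 1 := ⟨j - 1, by omega⟩
        have h5 : am M Γ (i + 1) = am M Γ i + Γ ^ i + M * Γ ^ i := rfl
        have h6 : 1 ≤ Γ ^ i := Nat.one_le_pow _ _ hΓ
        simp only [Nat.add_sub_cancel] at h1' h2'
        have h7 : Γ ^ (i + 1) * (k + 1) = Γ ^ (i + 1) * k + Γ ^ (i + 1) := by ring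
        omega
      obtain ⟨k', rfl⟩ : ∃ k', k = e + k' := ⟨k - e, by omega⟩
      have h3 : Γ ^ j * (e + k') = M * Γ ^ m + Γ ^ j * k' := by rw [he]; ring
      refine ⟨j, hj1, hjm, k', ?_, ?_⟩
      · show am M Γ j + Γ ^ j * k' ≤ T + M * Γ ^ (j - 1)
        omega
      · show T ≤ am M Γ j + Γ ^ j * k' + M * Γ ^ (j - 1)
        omega
  · rintro (⟨p, hp, h⟩ | ⟨j, hj1, hjm, k, h1, h2⟩)
    · exact Or.inl ⟨p, hp, Nat.dvd_add h ((hMs p hp).mul_right _)⟩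
    · right
      obtain ⟨e, he, -⟩ := key j hj1 hjm
      have h1' : am M Γ j + Γ ^ j * k ≤ T + M * Γ ^ (j - 1) := h1
      have h2' : T ≤ am M Γ j + Γ ^ j * k + M * Γ ^ (j - 1) := h2
      have h3 : Γ ^ j * (k + e) = M * Γ ^ m + Γ ^ j * k := by rw [he]; ring
      refine ⟨j, hj1, hjm, k + e, ?_, ?_⟩
      · show am M Γ j + Γ ^ j * (k + e) ≤ (T + M * Γ ^ m) + M * Γ ^ (j - 1)
        omega
      · show (T + M * Γ ^ m) ≤ am M Γ j + Γ ^ j * (k + e) + M * Γ ^ (j - 1)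
        omega

/-- Ruler of scheme 2 for the concrete grid parameters. -/
theorem ruler (m K : ℕ) (Ms : Finset ℕ) (hp : ∀ p ∈ Ms, p.Prime ∧ 4 ^ K + 2 < p) (R : ℕ) :
    ∃ (Γ : ℕ) (hΓ : 0 < Γ) (hM : 0 < ∏ p ∈ Ms, p) (c : ℕ → ℕ),
      (∀ j, Nat.Coprime (Γ ^ j) (∏ p ∈ Ms, p)) ∧ R ≤ Γ ∧
      (∀ i j, i < j → c i < c j) ∧
      (∀ i i' j j', i < K → i' < K → j < K → j' < K → i' ≠ i → j' ≠ j →
        c i + c j' < c j + c i' + 2 * am (∏ p ∈ Ms, p) Γ m →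
        c j + c i' < c i + c j' + 2 * am (∏ p ∈ Ms, p) Γ m → i = j) ∧
      (∀ T : ℕ, (∀ k, k < K → c k ≤ T) → ∀ I : Finset ℕ,
        (∀ k ∈ I, k < K ∧ ∃ k', k' < K ∧ k' ≠ k ∧
          Bd m (∏ p ∈ Ms, p) Γ hM hΓ Ms (T + c k' - c k)) → I.card ≤ Ms.card + m) := by
  classical
  set M := ∏ p ∈ Ms, p with hMdef
  have hM : 0 < M := Finset.prod_pos fun p h => (hp p h).1.pos
  obtain ⟨κ, hκ⟩ : ∃ κ, 16 * (m + 1) * M * 4 ^ K + R ≤ 2 ^ κ :=
    ⟨_, (Nat.lt_two_pow_self).le⟩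
  set Γ := 2 ^ κ with hΓdef
  have hΓ : 0 < Γ := by positivity
  have hodd : ∀ p ∈ Ms, Nat.Coprime p Γ := by
    intro p h
    have h2 : p ≠ 2 := by
      intro h0
      have h1 := (hp p h).2
      have h3 : 1 ≤ 4 ^ K := Nat.one_le_pow _ _ (by norm_num)
      have h4 : 2 < p := lt_of_le_of_lt (by exact Nat.le_add_left 2 (4 ^ K)) h1
      exact absurd h0 (Nat.ne_of_gt h4)
    exact Nat.Coprime.pow_right κ ((Nat.coprime_primes (hp p h).1 Nat.prime_two).2 h2)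
  have hcopM : Nat.Coprime M Γ := Nat.Coprime.prod_left fun p h => hodd p h
  obtain ⟨x, hx1, hx2, hx3⟩ := SpoilGrid_567.spoil_grid K m Ms M Γ (2 * am M Γ m)
    (fun q hq => by have := (hp q hq).2; omega) hodd
    (fun q hq q' hq' hne => (Nat.coprime_primes (hp q hq).1 (hp q' hq').1).2 hne) hM
    ((Nat.le_add_right _ _).trans hκ)
  refine ⟨Γ, hΓ, hM, x, fun j => (Nat.Coprime.pow_right j hcopM).symm,
    (Nat.le_add_left _ _).trans hκ,
    fun i j hij => by have := hx1 i j hij; omega, ?_, ?_⟩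
  · intro i i' j j' hi hi' hj hj' hne hne' h1 h2
    refine (hx2 i i' j j' hi hi' hj hj' (Ne.symm hne) ?_).1
    rw [abs_le]
    constructor <;> push_cast <;> omega
  · intro T hT I hI
    have h4 := hx3 (fun j => (am M Γ j : ℤ)) (T : ℤ)
    refine le_trans ?_ h4
    choose! k' hk' using fun k hk => (hI k hk).2
    refine Finset.card_le_card_of_injOn (fun k => (k' k, k)) ?_ ?_
    · intro k hk
      have hk0 : k ∈ I := hk
      obtain ⟨h5, h6, h7⟩ := hk' k hk0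
      have hkK := (hI k hk0).1
      have hTk := hT k hkK
      rw [Finset.mem_coe, Finset.mem_filter]
      refine ⟨Finset.mem_product.2 ⟨Finset.mem_range.2 h5, Finset.mem_range.2 hkK⟩, h6, ?_⟩
      have h8 := bad_cast h7
      have e : ((T + x (k' k) - x k : ℕ) : ℤ) = (T : ℤ) + x (k' k) - x k := by
        rw [Nat.cast_sub (by omega)]
        push_cast
        ring
      rw [e] at h8
      exact h8
    · intro a _ b _ hab
      exact (Prod.mk.inj hab).2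

end Crest.Agent.R320.Setup_567
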