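import Crest.Agent.R320.Main_621

/-!
# Row 320: two nested stars over prefix-code zones with ONE token system (helper500)
-/

set_option autoImplicit false

namespace Crest.Agent.R320.Shared_500

open Crest.Agent.R320.Hk_851 Crest.Agent.R320.Star_621 Crest.Agent.R320.Two_621
open Crest.Agent.R320.Main_621 Crest.RegLang

universe u v

variable {α : Type u} {Ω : Type v}

theorem uflow_iff' {Z Zc : Language α} {psi : List α → Ω → Ω} {Lf Rt : Ω → Language α}
    (hC : Code Z) (hsub : ∀ z ∈ Zc, z ∈ Z) (hcomp : ∀ z ∈ Z, z ∉ Zc → ∀ v, Cut Lf Rt v z)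
    {w : List α} {ω ω' : Ω} :
    UFlow Z psi Lf Rt ω w ω' ↔ Flow Zc psi ω w ω' ∧
      ¬ ∃ σ, ∃ a, Flow Zc psi ω a σ ∧ ∃ z, (z ∈ Zc ∧ Cut Lf Rt σ z) ∧
        ∃ b, ZS Zc b ∧ a ++ (z ++ b) = w := by
  constructor
  · intro h
    induction h with
    | nil ω =>
      refine ⟨Flow.nil ω, ?_⟩
      rintro ⟨σ, a, -, z, ⟨hz, -⟩, b, -, he⟩
      have h1 := List.append_eq_nil_iff.1 he
      have h2 := (List.append_eq_nil_iff.1 h1.2).1
      exact hC.1 (h2 ▸ hsub z hz)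
    | @cons z w ω ω' hz hc _ ih =>
      have hzc : z ∈ Zc := by
        by_contra hn
        exact hc (hcomp z hz hn ω)
      refine ⟨Flow.cons hzc ih.1, ?_⟩
      rintro ⟨σ, a, ha, z', ⟨hz', hcut⟩, b, hb, he⟩
      cases ha with
      | nil =>
        rw [List.nil_append] at he
        have := hC.2 z' z b w (hsub _ hz') hz he
        subst this
        exact hc hcut
      | @cons z1 a' _ _ hz1 ha' =>
        rw [List.append_assoc] at he
        have := hC.2 z1 z _ w (hsub _ hz1) hz he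
        subst this
        have he' := List.append_cancel_left he
        exact ih.2 ⟨σ, a', ha', z', ⟨hz', hcut⟩, b, hb, he'⟩
  · rintro ⟨h, hn⟩
    induction h with
    | nil ω => exact UFlow.nil ω
    | @cons z w ω ω' hz h ih =>
      refine UFlow.cons (hsub z hz) (fun hc => ?_) (ih fun hex => ?_)
      · exact hn ⟨ω, [], Flow.nil ω, z, ⟨hz, hc⟩, w, h.zs, rfl⟩
      · obtain ⟨σ, a, ha, z', hz', b, hb, he⟩ := hex
        exact hn ⟨σ, z ++ a, Flow.cons hz ha, z', hz', b, hb, by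
          rw [List.append_assoc, he]⟩

/-- **One token system.** -/
theorem row_shared_fibre {S : Type u} [Monoid S] [Finite S] {ph : List α → S}
    (h1 : ph [] = 1) (hm : ∀ a b, ph (a ++ b) = ph a * ph b)
    (Z Zc : Language α) (d : List α → Tok S) (LA RA LB RB : Tok S → Language α)
    (hC : Code Z) (hsub : ∀ z ∈ Zc, z ∈ Z) (hZ : HL 1 Z) (hZc : HL 1 Zc)
    (hSA : Sound Z (aff ph d) LA RA) (hLA : ∀ v, HL 1 (LA v)) (hRA : ∀ v, HL 1 (RA v))
    (hcomp : ∀ z ∈ Z, z ∉ Zc → ∀ v, Cut LA RA v z)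
    (hSB : Sound Zc (aff ph d) LB RB) (hLB : ∀ v, HL 1 (LB v)) (hRB : ∀ v, HL 1 (RB v))
    (hcut : ∀ z ∈ Zc, ∀ v, Cut LB RB v z)
    (hrest : ∀ s : S, HL 3 ({w | (∀ z ∈ Z, ¬ z <+: w) ∧ ph w = s} : Language α)) (s : S) :
    HL 3 ({w | ph w = s} : Language α) := by
  have cat : ∀ {L M : Language α} {k : ℕ}, HL k L → HL k M →
      HL k ({w | ∃ a ∈ L, ∃ b ∈ M, a ++ b = w} : Language α) := by
    intro L M k h1 h2
    exact (h1.mul h2).congr fun w => Language.mem_mul.symm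
  have hCc : Code Zc := ⟨fun hn => hC.1 (hsub _ hn), fun z z' x x' h1 h2 =>
    hC.2 z z' x x' (hsub _ h1) (hsub _ h2)⟩
  have hFB := star_complete hCc hSB hZc hLB hRB hcut
  have hCut : ∀ σ, HL 1 ({z | z ∈ Zc ∧ Cut LA RA σ z} : Language α) := by
    intro σ
    refine (hZc.inf (HL.iUnion fun τ => cat (hLA σ) (hRA τ))).congr fun w => ?_
    constructor
    · rintro ⟨hw, P, Q, τ, rfl, hP, hQ⟩
      exact ⟨hw, τ, P, hP, Q, hQ, rfl⟩
    · rintro ⟨hw, τ, P, hP, Q, hQ, rfl⟩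
      exact ⟨hw, P, Q, τ, rfl, hP, hQ⟩
  have m1 := Nat.le_succ 1
  have hU : ∀ f g, HL 2 ({w | UFlow Z (aff ph d) LA RA f w g} : Language α) := by
    intro f g
    have hbad : HL 2 ({w | ∃ σ, ∃ a ∈ ({w | Flow Zc (aff ph d) f w σ} : Language α),
        ∃ y ∈ ({w | ∃ z ∈ ({z | z ∈ Zc ∧ Cut LA RA σ z} : Language α),
          ∃ b ∈ (KStar.kstar Zc : Language α), z ++ b = w} : Language α), a ++ y = w} :
            Language α) :=
      HL.iUnion fun σ => cat (hFB f σ) (cat ((hCut σ).mono m1) hZc.star)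
    refine ((hFB f g).sdiff hbad).congr fun w => Iff.trans (uflow_iff' hC hsub hcomp) ?_
    constructor
    · rintro ⟨h1, h2⟩
      refine ⟨h1, ?_⟩
      rintro ⟨σ, a, ha, y, ⟨z, hz, b, hb, rfl⟩, he⟩
      exact h2 ⟨σ, a, ha, z, hz, b, zs_iff.2 hb, he⟩
    · rintro ⟨h1, h2⟩
      refine ⟨h1, ?_⟩
      rintro ⟨σ, a, ha, z, hz, b, hb, he⟩
      exact h2 ⟨σ, a, ha, z ++ b, ⟨z, hz, b, zs_iff.1 hb, rfl⟩, he⟩
  have hFA : ∀ f g, HL 3 ({w | Flow Z (aff ph d) f w g} : Language α) := fun f g =>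
    star hC hSA ((hZ.mono m1).star) (fun v => (hLA v).mono m1)
      (fun v => (hRA v).mono m1) hU f g
  have key := fun s => read hC ph d hFA s
  refine (HL.iUnion fun p : {p : S × S // p.1 * p.2 = s} =>
    (key p.1.1).mul (hrest p.1.2)).congr fun w => ?_
  constructor
  · intro hw
    obtain ⟨a, b, t, rfl, ht, he, hb⟩ := split ph hC.1 h1 hm w
    refine ⟨⟨(ph a, ph b), ?_⟩, ?_⟩
    · rw [← hm]; exact hw
    · refine Language.mem_mul.2 ⟨a, ?_, b, ⟨hb, rfl⟩, rfl⟩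
      show TP Z ph a (ph a)
      rw [he]; exact ht
  · rintro ⟨⟨p, hp⟩, hw⟩
    obtain ⟨a, ha, b, ⟨-, hb⟩, rfl⟩ := Language.mem_mul.1 hw
    show ph (a ++ b) = s
    rw [hm, TP.val h1 hm ha, hb]; exact hp

end Crest.Agent.R320.Shared_500
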