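import Crest.Agent.R320.Hk2_851

/-!
# Row 320, helper80: separation of powers of short words in height one
-/

set_option autoImplicit false

namespace Crest.Agent.R320.ShortSep_80

open Crest.RegLang Crest.Agent.R320.Hk_851

universe u

/-- value of a word -/
def ev {A M : Type*} [Monoid M] (f : A → M) (w : List A) : M := (w.map f).prod

theorem ev_append {A M : Type*} [Monoid M] (f : A → M) (u v : List A) :
    ev f (u ++ v) = ev f u * ev f v := by
  simp [ev]

/-- power of a word -/
def pw {A : Type*} (p : List A) (k : ℕ) : List A := (List.replicate k p).flatten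

@[simp] theorem pw_zero {A : Type*} (p : List A) : pw p 0 = [] := rfl

theorem pw_succ {A : Type*} (p : List A) (k : ℕ) : pw p (k + 1) = p ++ pw p k := by
  simp [pw, List.replicate_succ]

theorem pw_add {A : Type*} (p : List A) (k l : ℕ) : pw p (k + l) = pw p k ++ pw p l := by
  unfold pw
  rw [List.replicate_add, List.flatten_append]

theorem pw_mul {A : Type*} (p : List A) (k l : ℕ) : pw (pw p k) l = pw p (k * l) := by
  induction l with
  | zero => simp [pw]
  | succ l ih => rw [pw_succ, ih, Nat.mul_succ, Nat.add_comm, pw_add]

theorem length_pw {A : Type*} (p : List A) (k : ℕ) : (pw p k).length = k * p.length := by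
  induction k with
  | zero => simp
  | succ k ih => rw [pw_succ, List.length_append, ih]; ring

theorem ev_pw {A M : Type*} [Monoid M] (f : A → M) (p : List A) (k : ℕ) :
    ev f (pw p k) = ev f p ^ k := by
  induction k with
  | zero => simp [ev]
  | succ k ih => rw [pw_succ, ev_append, ih, pow_succ']

/-- the words `p ^ j` with `j ≡ r mod m` -/
def Cls {A : Type*} (p : List A) (m r : ℕ) : Language A := {w | ∃ j, w = pw p (r + m * j)}

theorem HL_Cls {A : Type u} (p : List A) (m r : ℕ) : HL 1 (Cls p m r) := by
  have h1 : HL 1 (KStar.kstar ({pw p m} : Language A)) := (HL.word (k := 0) (pw p m)).star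
  have h2 : HL 1 (({pw p r} : Language A) * KStar.kstar ({pw p m} : Language A)) :=
    (HL.word (pw p r)).mul h1
  refine h2.congr fun w => ?_
  constructor
  · rintro ⟨j, rfl⟩
    refine Language.mem_mul.2 ⟨pw p r, rfl, pw p (m * j), ?_, ?_⟩
    · refine Language.mem_kstar.2 ⟨List.replicate j (pw p m), ?_, ?_⟩
      · change pw p (m * j) = pw (pw p m) j
        rw [pw_mul]
      · intro y hy
        exact List.eq_of_mem_replicate hy
    · rw [← pw_add]
  · intro hw
    obtain ⟨a, ha, b, hb, rfl⟩ := Language.mem_mul.1 hw
    have ha' : a = pw p r := ha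
    obtain ⟨L, rfl, hL⟩ := Language.mem_kstar.1 hb
    refine ⟨L.length, ?_⟩
    have : L = List.replicate L.length (pw p m) := List.eq_replicate_length.2 hL
    rw [ha', pw_add]
    congr 1
    conv_lhs => rw [this]
    change pw (pw p m) L.length = _
    rw [pw_mul]

/-- languages of bounded height are regular: enough for `Cls`, by a finite number of quotients -/
theorem reg_Cls {A : Type u} [Finite A] (p : List A) (m r : ℕ) (hm : 0 < m) :
    (Cls p m r).IsRegular := by
  classical
  rcases Nat.eq_zero_or_pos p.length with h0 | h0
  · have hp : p = [] := List.length_eq_zero_iff.1 h0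
    subst hp
    have e : Cls ([] : List A) m r = (1 : Language A) := by
      ext w
      constructor
      · rintro ⟨j, rfl⟩
        have : pw ([] : List A) (r + m * j) = [] := by
          apply List.length_eq_zero_iff.1
          rw [length_pw]; simp
        rw [this]; rfl
      · intro hw
        have : w = [] := hw
        refine ⟨0, ?_⟩
        rw [this]
        symm
        apply List.length_eq_zero_iff.1
        rw [length_pw]; simp
    rw [e]
    rw [Language.isRegular_iff_finite_range_leftQuotient]
    have : (Set.range (Language.leftQuotient (1 : Language A))) ⊆ {(1 : Language A), (0 : Language A)} := by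
      rintro _ ⟨x, rfl⟩
      by_cases hx : x = []
      · left
        subst hx
        ext w; exact Iff.rfl
      · right
        ext w
        constructor
        · intro hw
          have : x ++ w = [] := hw
          exact (hx (List.append_eq_nil_iff.1 this).1).elim
        · intro hw; exact hw.elim
    exact (Set.toFinite _).subset this
  · -- left quotients of `Cls p m r` are determined by a bounded suffix problem
    rw [Language.isRegular_iff_finite_range_leftQuotient]
    -- every left quotient is empty or of the form `{w | s ++ w ∈ Cls p m r'}` with `|s| ≤ |p|`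
    let F : Set (Language A) := Set.range fun q : {s : List A // s.length ≤ p.length} × Fin (r + m + 1) =>
      ({w | ∃ j, q.1.1 ++ w = pw p (q.2.1 + m * j)} : Language A)
    have hF : (F ∪ {(0 : Language A)}).Finite := by
      have : Finite {s : List A // s.length ≤ p.length} := (List.finite_length_le A p.length).to_subtype
      exact (Set.finite_range _).union (Set.finite_singleton _)
    refine hF.subset ?_
    rintro _ ⟨x, rfl⟩
    by_cases hx : ∃ w j, x ++ w = pw p (r + m * j)
    · left
      obtain ⟨w0, j0, hw0⟩ := hx
      -- `x = pw p n ++ s` with `|s| < |p|`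
      have key : ∀ (N : ℕ) (x w : List A), x ++ w = pw p N →
          ∃ n s, x = pw p n ++ s ∧ s.length ≤ p.length ∧ n ≤ N := by
        intro N
        induction N with
        | zero =>
          intro x w h
          have : x = [] := (List.append_eq_nil_iff.1 (by simpa using h)).1
          exact ⟨0, [], by simp [this], by simp, le_rfl⟩
        | succ N ih =>
          intro x w h
          rw [pw_succ] at h
          rcases List.append_eq_append_iff.1 h with ⟨c, h1, h2⟩ | ⟨c, h1, h2⟩
          · refine ⟨0, x, by simp, ?_, by omega⟩
            rw [h1, List.length_append]; omega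
          · obtain ⟨n, s, rfl, hs, hn⟩ := ih c w h2.symm
            refine ⟨n + 1, s, ?_, hs, by omega⟩
            rw [h1, pw_succ, List.append_assoc]
      obtain ⟨n, s, rfl, hs, hn⟩ := key _ x w0 hw0
      -- reduce `n` modulo `m`
      have canc : ∀ n N (s w : List A), pw p n ++ s ++ w = pw p N ↔ n ≤ N ∧ s ++ w = pw p (N - n) := by
        intro n N s w
        constructor
        · intro h
          have hle : n * p.length ≤ N * p.length := by
            have := congrArg List.length h
            rw [List.length_append, List.length_append, length_pw, length_pw] at this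
            omega
          have hnN : n ≤ N := Nat.le_of_mul_le_mul_right hle h0
          refine ⟨hnN, ?_⟩
          have e : pw p N = pw p n ++ pw p (N - n) := by rw [← pw_add]; congr 1; omega
          rw [e, List.append_assoc] at h
          exact List.append_cancel_left h
        · rintro ⟨hnN, h⟩
          rw [List.append_assoc, h, ← pw_add]; congr 1; omega
      by_cases hnr : n ≤ r
      · refine ⟨(⟨s, hs⟩, ⟨r - n, by omega⟩), ?_⟩
        ext w
        change (∃ j, s ++ w = pw p (r - n + m * j)) ↔ ∃ j, (pw p n ++ s) ++ w = pw p (r + m * j)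
        constructor
        · rintro ⟨j, hj⟩
          refine ⟨j, (canc _ _ _ _).2 ⟨by omega, ?_⟩⟩
          rw [hj]; congr 1; omega
        · rintro ⟨j, hj⟩
          obtain ⟨h1, h2⟩ := (canc _ _ _ _).1 hj
          refine ⟨j, ?_⟩
          rw [h2]; congr 1; omega
      · push Not at hnr
        -- residue `r'` with `r' + n ≡ r mod m`, `r' < m`
        let d := n - r
        obtain ⟨r', hr', t, ht⟩ : ∃ r', r' < m ∧ ∃ t, r' + d = m * t := by
          refine ⟨(m - d % m) % m, Nat.mod_lt _ hm, ?_⟩
          by_cases hz : d % m = 0
          · refine ⟨d / m, ?_⟩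
            rw [hz]
            have := Nat.div_add_mod d m
            simp only [Nat.sub_zero, Nat.mod_self, Nat.zero_add]
            omega
          · refine ⟨d / m + 1, ?_⟩
            have h1 := Nat.div_add_mod d m
            have h2 := Nat.mod_lt d hm
            have h3 : (m - d % m) % m = m - d % m := Nat.mod_eq_of_lt (by omega)
            rw [h3, Nat.mul_add, Nat.mul_one]
            omega
        refine ⟨(⟨s, hs⟩, ⟨r', by omega⟩), ?_⟩
        ext w
        change (∃ j, s ++ w = pw p (r' + m * j)) ↔ ∃ j, (pw p n ++ s) ++ w = pw p (r + m * j)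
        constructor
        · rintro ⟨j, hj⟩
          refine ⟨t + j, (canc _ _ _ _).2 ⟨?_, ?_⟩⟩
          · rw [Nat.mul_add]; omega
          · rw [hj]; congr 1; rw [Nat.mul_add]; omega
        · rintro ⟨j, hj⟩
          obtain ⟨h1, h2⟩ := (canc _ _ _ _).1 hj
          -- `r + m j - n ≥ 0`, so `j ≥ t`
          have hjt : t ≤ j := by
            by_contra hlt
            push Not at hlt
            have : m * (j + 1) ≤ m * t := Nat.mul_le_mul_left _ hlt
            rw [Nat.mul_add, Nat.mul_one] at this
            omega
          refine ⟨j - t, ?_⟩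
          rw [h2]; congr 1
          have : m * j = m * t + m * (j - t) := by rw [← Nat.mul_add]; congr 1; omega
          omega
    · right
      push Not at hx
      rw [Set.mem_singleton_iff]
      ext w
      constructor
      · rintro ⟨j, hj⟩
        exact (hx w j hj).elim
      · intro hw; exact hw.elim

/-- every element of a finite monoid has powers of eventual period `m`, uniformly -/
theorem exists_period (M : Type*) [Monoid M] [Finite M] :
    ∃ m n0 : ℕ, 0 < m ∧ ∀ g : M, ∀ n, n0 ≤ n → g ^ (n + m) = g ^ n := by
  classical
  have h1 : ∀ g : M, ∃ a b : ℕ, a < b ∧ g ^ a = g ^ b := by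
    intro g
    obtain ⟨a, b, hab, h⟩ := Finite.exists_ne_map_eq_of_infinite (fun n : ℕ => g ^ n)
    rcases lt_or_gt_of_ne hab with h' | h'
    · exact ⟨a, b, h', h⟩
    · exact ⟨b, a, h', h.symm⟩
  choose a b hab h using h1
  have := Fintype.ofFinite M
  refine ⟨∏ g : M, (b g - a g), ∑ g : M, a g, ?_, ?_⟩
  · exact Finset.prod_pos fun g _ => by have := hab g; omega
  · intro g n hn
    have ha : a g ≤ n := le_trans (Finset.single_le_sum (f := a) (fun _ _ => Nat.zero_le _) (Finset.mem_univ g)) hn
    obtain ⟨c, hc⟩ : (b g - a g) ∣ ∏ g : M, (b g - a g) := Finset.dvd_prod_of_mem _ (Finset.mem_univ g)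
    have step : ∀ n, a g ≤ n → g ^ (n + (b g - a g)) = g ^ n := by
      intro n hn
      have e1 : n + (b g - a g) = b g + (n - a g) := by have := hab g; omega
      have e2 : n = a g + (n - a g) := by omega
      rw [e1, pow_add, ← h g, ← pow_add, ← e2]
    rw [hc]
    clear hc
    induction c with
    | zero => simp
    | succ c ih =>
      rw [Nat.mul_succ, ← Nat.add_assoc, step _ (by omega), ih]

theorem short_sep {A M : Type u} [Finite A] [Monoid M] [Finite M] (f : A → M) (B : ℕ) :
    ∃ (ι : Type u) (_ : Finite ι) (X : ι → Language A), (∀ i, HL 1 (X i)) ∧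
      (∀ i, (X i).IsRegular) ∧
      ∀ (p : List A) (e : ℕ), p.length ≤ B →
        (∀ n, ev f (pw p e) ^ n ≠ ev f (pw p e) ^ (n + 1)) →
        ∃ i, ∃ x y : List A, ∃ k l : ℕ, 0 < k ∧ 0 < l ∧
          (x ++ (List.replicate k (pw p e)).flatten ++ y ∈ X i) ∧
          (x ++ (List.replicate l (pw p e)).flatten ++ y ∉ X i) := by
  obtain ⟨m, n0, hm, hper⟩ := exists_period M
  have hfin : Finite {p : List A // p.length ≤ B} := (List.finite_length_le A B).to_subtype
  refine ⟨{p : List A // p.length ≤ B} × ULift.{u} (Fin m), inferInstance,
    fun q => Cls q.1.1 m q.2.down.1, fun q => HL_Cls _ _ _, fun q => reg_Cls _ _ _ hm, ?_⟩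
  intro p e hp hne
  have hp0 : 0 < p.length := by
    rcases Nat.eq_zero_or_pos p.length with h0 | h0
    · exfalso
      have hp' : p = [] := List.length_eq_zero_iff.1 h0
      have : pw p e = [] := by
        apply List.length_eq_zero_iff.1
        rw [length_pw, h0, Nat.mul_zero]
      apply hne 0
      rw [this]; simp [ev]
    · exact h0
  let n := n0 + 1
  have hk : (List.replicate n (pw p e)).flatten = pw p (e * n) := pw_mul p e n
  have hl : (List.replicate (n + 1) (pw p e)).flatten = pw p (e * (n + 1)) := pw_mul p e (n + 1)
  have he : 0 < e := by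
    rcases Nat.eq_zero_or_pos e with h0 | h0
    · exfalso
      apply hne 0
      rw [h0]; simp [ev]
    · exact h0
  refine ⟨(⟨p, hp⟩, ⟨⟨(e * n) % m, Nat.mod_lt _ hm⟩⟩), [], [], n, n + 1, by omega, by omega, ?_, ?_⟩
  · rw [List.nil_append, List.append_nil, hk]
    refine ⟨(e * n) / m, ?_⟩
    change pw p (e * n) = pw p ((e * n) % m + m * ((e * n) / m))
    rw [Nat.mod_add_div]
  · rw [List.nil_append, List.append_nil, hl]
    rintro ⟨j, hj⟩
    change pw p (e * (n + 1)) = pw p ((e * n) % m + m * j) at hj
    have hlen := congrArg List.length hj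
    rw [length_pw, length_pw] at hlen
    have heq : e * (n + 1) = (e * n) % m + m * j := Nat.eq_of_mul_eq_mul_right hp0 hlen
    -- then `e * (n+1) ≡ e * n mod m`
    have hmod : (e * (n + 1)) % m = (e * n) % m := by
      rw [heq, Nat.add_mul_mod_self_left, Nat.mod_mod]
    obtain ⟨c, hc⟩ : m ∣ e * (n + 1) - e * n := (Nat.modEq_iff_dvd' (by
      exact Nat.mul_le_mul_left _ (by omega))).1 hmod.symm
    apply hne n
    rw [ev_pw, ← pow_mul, ← pow_mul]
    have e1 : e * (n + 1) = e * n + m * c := by
      have : e * n ≤ e * (n + 1) := Nat.mul_le_mul_left _ (by omega)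
      omega
    rw [e1]
    have hn0 : n0 ≤ e * n := by
      have : n ≤ e * n := Nat.le_mul_of_pos_left _ he
      omega
    have key : ∀ (N c : ℕ), n0 ≤ N → ev f p ^ (N + m * c) = ev f p ^ N := by
      intro N c hN
      induction c with
      | zero => simp
      | succ c ih =>
        rw [Nat.mul_succ, ← Nat.add_assoc, hper _ _ (by omega)]
        exact ih
    exact (key _ c hn0).symm

end Crest.Agent.R320.ShortSep_80
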