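import Crest.Agent.R320.Straub1_932
import Crest.Agent.R320.Hk2_851

/-! TEAM 3 skeleton (chief 932): core theorem over the separation criterion. -/

set_option autoImplicit false
set_option linter.all false

namespace Crest.Agent.R320.Skel_932

open scoped Classical
open Crest.Agent.R320.Straub_932 (ev)
open Crest.Agent.R320.Hk_851

universe u

/-- `w^k` -/
def rep {A : Type u} (k : ℕ) (w : List A) : List A := (List.replicate k w).flatten

/-- `w` is a power of a word of length `≤ W` -/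
def Short {A : Type u} (W : ℕ) (w : List A) : Prop := ∃ (x : List A) (j : ℕ), x.length ≤ W ∧ w = rep j x

/-- a language inside which only powers of short words can be pumped -/
def Thin {A : Type u} (W : ℕ) (R : Language A) : Prop :=
  ∀ x w y : List A, (∀ n, ∃ k, n ≤ k ∧ x ++ rep k w ++ y ∈ R) → Short W w

/-- iterate of a block map along a list of blocks -/
def run {A V : Type u} (T : V → List A → V) (v : V) (l : List (List A)) : V := l.foldl T v

/-- blocks of `B` with thread `v → v'` -/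
def fib {A V : Type u} (B : Language A) (T : V → List A → V) (v v' : V) : Language A :=
  {X | X ∈ B ∧ T v X = v'}

/-- words of `B*` with thread `v → v'` -/
def thread {A V : Type u} (B : Language A) (T : V → List A → V) (v v' : V) : Language A :=
  {w | ∃ l : List (List A), w = l.flatten ∧ (∀ X ∈ l, X ∈ B) ∧ run T v l = v'}

/-- THE DATA of 132's two schemes on ALL words, block form (left-looking walls). -/
structure Core (A S : Type u) [Monoid S] (φ : A → S) where
  XX : Language A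
  pref : ∀ X ∈ XX, ∀ Y, X ++ Y ∈ XX → Y = []
  ne : [] ∉ XX
  W : ℕ
  /-- a periodic text without further block has a short period -/
  wf : ∀ r w : List A, (∀ k, ∀ X ∈ XX, ¬ X <+: r ++ rep k w) → Short W w
  V1 : Type u
  fin1 : Finite V1
  T1 : V1 → List A → V1
  faith1 : ∀ l l' : List (List A), (∀ X ∈ l, X ∈ XX) → (∀ X ∈ l', X ∈ XX) →
    (∀ v, run T1 v l = run T1 v l') → ev φ l.flatten = ev φ l'.flatten
  LP1 : V1 → Language A
  RQ1 : V1 → Language A
  Bad : Language A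
  bad_sub : ∀ X ∈ Bad, X ∈ XX
  blk1 : ∀ v v', ∀ P ∈ LP1 v, ∀ Q ∈ RQ1 v', P ++ Q ∈ XX
  snd1 : ∀ v v', ∀ P ∈ LP1 v, ∀ Q ∈ RQ1 v', T1 v (P ++ Q) = v'
  cpl1 : ∀ X ∈ XX, X ∉ Bad → ∀ v, ∃ P Q v', X = P ++ Q ∧ P ∈ LP1 v ∧ Q ∈ RQ1 v'
  V2 : Type u
  fin2 : Finite V2
  T2 : V2 → List A → V2
  faith2 : ∀ l l' : List (List A), (∀ X ∈ l, X ∈ Bad) → (∀ X ∈ l', X ∈ Bad) →
    (∀ t, run T2 t l = run T2 t l') → ∀ v, run T1 v l = run T1 v l'
  LP2 : V2 → Language A
  RQ2 : V2 → Language A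
  blk2 : ∀ v v', ∀ P ∈ LP2 v, ∀ Q ∈ RQ2 v', P ++ Q ∈ XX
  snd2 : ∀ v v', ∀ P ∈ LP2 v, ∀ Q ∈ RQ2 v', P ++ Q ∈ Bad → T2 v (P ++ Q) = v'
  cpl2 : ∀ X ∈ Bad, ∀ v, ∃ P Q v', X = P ++ Q ∧ P ∈ LP2 v ∧ Q ∈ RQ2 v'
  regL1 : ∀ v, (LP1 v).IsRegular
  regR1 : ∀ v, (RQ1 v).IsRegular
  regL2 : ∀ v, (LP2 v).IsRegular
  regR2 : ∀ v, (RQ2 v).IsRegular
  regB : ∀ v v', (fib Bad T1 v v').IsRegular
  thinL1 : ∀ v, Thin W (LP1 v)
  thinR1 : ∀ v, Thin W (RQ1 v)
  thinL2 : ∀ v, Thin W (LP2 v)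
  thinR2 : ∀ v, Thin W (RQ2 v)

/-- (SEP) separation criterion, language form -- 204 / 640 / 792 / 309 -/
theorem sepLang {A : Type u} [Finite A] (h : ℕ) {ι : Type u} [Finite ι] (X : ι → Language A)
    (hX : ∀ i, HL h (X i)) (L : Language A) (hL : L.IsRegular)
    (hsep : ∀ x w y : List A, (∀ n, ∃ k l, n ≤ k ∧ n ≤ l ∧ x ++ rep k w ++ y ∈ L ∧
        x ++ rep l w ++ y ∉ L) →
      ∃ i, ∃ x' y' : List A, ∃ k l : ℕ, 0 < k ∧ 0 < l ∧ x' ++ rep k w ++ y' ∈ X i ∧
        x' ++ rep l w ++ y' ∉ X i) : HL h L := by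
  sorry

/-- (BASE) thin regular languages have height one -- 78 / 813 / 213 -/
theorem thin_HL {A : Type u} [Finite A] (W : ℕ) (L : Language A) (hL : L.IsRegular)
    (ht : Thin W L) : HL 1 L := by
  sorry

/-- (REGB) words over a prefix code with a finite thread: regular -- 461 / 236 / 852 -/
theorem reg_thread {A V : Type u} [Finite A] [Finite V] (T : V → List A → V) (B : Language A)
    (hne : [] ∉ B) (hpref : ∀ X ∈ B, ∀ Y, X ++ Y ∈ B → Y = [])
    (hreg : ∀ v v', (fib B T v v').IsRegular) (v v' : V) : (thread B T v v').IsRegular := by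
  sorry

/-- (CORE) -- 932 -/
theorem core {A S : Type u} [Finite A] [Monoid S] [Finite S] (φ : A → S) (K : Core A S φ)
    (s : S) : HL 3 ({w | ev φ w = s} : Language A) := by
  sorry

/-- (DATA) 132's schemes on all words -/
theorem exists_core {A S : Type u} [Finite A] [Monoid S] [Finite S] (φ : A → S) :
    Nonempty (Core A S φ) := by
  sorry

end Crest.Agent.R320.Skel_932
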