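import Crest.Agent.R320.Def_423

/-!
# Row 320: scheme 2 on two-wall blocks: candidates and the spoiling count (helper423)
-/

set_option autoImplicit false

namespace Crest.Agent.R320.Sp2_423

open Crest.Agent.R320.Hk_851 Crest.Agent.R320.Asm_505 Crest.Agent.R320.Sch2_423
  Crest.Agent.R320.One_423 Crest.Agent.R320.Def_423

universe u

variable {α : Type u}

/-- the true clock is always a candidate -/
theorem cand_true {Wl : List α → Prop} {n gap Zt N1 p0 : ℕ} (hW : Wall Wl n gap) (hN : 0 < N1)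
    (hZ : n + N1 ≤ Zt) {BadN : ℕ → Prop} {z : List α} (hz : z ∈ Zn p0 (BT Wl Zt N1 BadN))
    {x : ℕ} (hx : x ≤ p0) {q : List α} (hcmp : z.drop x <+: q ∨ q <+: z.drop x) :
    Cnd Wl Zt N1 BadN p0 x q := by
  obtain ⟨hz1, t, h1, h2, h3⟩ := hz
  set q0 := z.drop x with hq0
  have hY : q0.drop (p0 - x) = z.drop p0 := by
    rw [hq0, List.drop_drop]; congr 1; omega
  have hlt : (q0.take (p0 - x)).length = p0 - x := by
    rw [List.length_take, hq0, List.length_drop]; omega
  have hq0' : q0 = q0.take (p0 - x) ++ z.drop p0 := by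
    rw [← hY, List.take_append_drop]
  have f1 : FW Wl (p0 - x + Zt) q0 (p0 - x + t) := by
    have := (hW.FW_shift (q0.take (p0 - x)) (z.drop p0) (c := Zt) (t := t) (by omega)).2 h1
    rwa [hlt, ← hq0'] at this
  -- a band wall `≤ t`
  have hband : (∃ s, Zt < s + N1 ∧ s < Zt + N1 ∧ s ≤ (z.drop p0).length ∧
      Wl ((z.drop p0).take s)) → ∃ s, s ≤ t ∧ p0 - x + Zt < p0 - x + s + N1 ∧
        p0 - x + s < p0 - x + Zt + N1 ∧ p0 - x + s ≤ q0.length ∧ Wl (q0.take (p0 - x + s)) := by
    rintro ⟨s, a, b, c, d⟩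
    have hlen : q0.length = p0 - x + (z.drop p0).length := by
      conv_lhs => rw [hq0']
      rw [List.length_append, hlt]
    have key : ∀ s, n ≤ s → s ≤ (z.drop p0).length → Wl ((z.drop p0).take s) →
        Wl (q0.take (p0 - x + s)) := by
      intro s a b c
      have := (hW.shift (q0.take (p0 - x)) (z.drop p0) a b).2 c
      rwa [hlt, ← hq0'] at this
    by_cases hst : s ≤ t
    · exact ⟨s, hst, by omega, by omega, by omega, key s (by omega) c d⟩
    · refine ⟨t, le_rfl, ?_, by omega, ?_, key t ?_ h1.2.1 h1.2.2.1⟩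
      · have := h1.1; omega
      · have := h1.2.1; omega
      · have := h1.1; omega
  rcases hcmp with hp | hp
  · rcases h3 with hE | hB
    · obtain ⟨s, -, a, b, c, d⟩ := hband hE
      refine Or.inr (Or.inl ⟨p0 - x + s, a, b, ?_, ?_⟩)
      · exact c.trans hp.length_le
      · obtain ⟨r, hr⟩ := hp
        rw [← hr, List.take_append_of_le_length c]
        exact d
    · refine Or.inr (Or.inr ⟨p0 - x + t, f1.ext hp, ?_⟩)
      have : p0 - x + t - (p0 - x) = t := by omega
      rw [this]; exact hB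
  · by_cases hex : ∃ t', FW Wl (p0 - x + Zt) q t'
    · obtain ⟨t', ht'⟩ := hex
      have h4 : t' = p0 - x + t := (ht'.ext hp).uniq f1
      subst h4
      rcases h3 with hE | hB
      · obtain ⟨s, a0, a, b, c, d⟩ := hband hE
        have h5 : p0 - x + s ≤ q.length := by have := ht'.2.1; omega
        refine Or.inr (Or.inl ⟨p0 - x + s, a, b, h5, ?_⟩)
        obtain ⟨r, hr⟩ := hp
        rw [← hr, List.take_append_of_le_length h5] at d
        exact d
      · refine Or.inr (Or.inr ⟨_, ht', ?_⟩)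
        have : p0 - x + t - (p0 - x) = t := by omega
        rw [this]; exact hB
    · exact Or.inl hex

open Classical in
/-- **Spoiling count.** -/
theorem spoil_card {Wl : List α → Prop} {n gap Zt N1 p0 Lam La K C0 : ℕ} (hW : Wall Wl n gap)
    (hN : 0 < N1) {BadN : ℕ → Prop} {c : ℕ → ℕ}
    (hc : ∀ i < K, c i ≤ Lam) (hLp : Lam ≤ p0) (hgap : 2 * (Lam + N1) ≤ gap)
    (hZ : n + N1 + 2 * Lam + La ≤ Zt)
    (hG : ∀ i j k l, i < K → j < K → k < K → l < K → i ≠ j → k ≠ l → (i, j) ≠ (k, l) →
      c i + c l + 4 * N1 < c k + c j ∨ c k + c j + 4 * N1 < c i + c l)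
    (hB : ∀ T, La ≤ T → ((Finset.range K ×ˢ Finset.range K).filter
      (fun p => p.1 ≠ p.2 ∧ BadN (T + c p.2 - c p.1))).card ≤ C0)
    {z : List α} (hz : z ∈ Zn p0 (BT Wl Zt N1 BadN)) :
    ((Finset.range K).filter (fun i => ∃ j < K, j ≠ i ∧
      Cnd Wl Zt N1 BadN p0 (c j) (z.drop (c i)))).card ≤ 2 + 3 * C0 := by
  obtain ⟨hz1, t, h1, h2, -⟩ := hz
  have hlt : (z.take p0).length = p0 := by rw [List.length_take]; omega
  have hzz : z = z.take p0 ++ z.drop p0 := (List.take_append_drop p0 z).symm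
  have hzlen : z.length = p0 + (z.drop p0).length := by
    rw [List.length_drop]; omega
  have ht1 := h1.1
  have F1 : FW Wl (p0 + Zt) z (p0 + t) := by
    have := (hW.FW_shift (z.take p0) (z.drop p0) (c := Zt) (t := t) (by omega)).2 h1
    rwa [hlt, ← hzz] at this
  have F2 : FW Wl (p0 + t + 1) z z.length := by
    have := (hW.FW_shift (z.take p0) (z.drop p0) (c := t + 1) (t := (z.drop p0).length)
      (by omega)).2 h2
    rwa [hlt, ← hzz, ← hzlen, ← Nat.add_assoc] at this
  have hg12 : p0 + t + gap < z.length :=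
    hW.gap z (p0 + t) z.length F1.2.1 le_rfl (by omega) (by have := F2.1; omega) F1.2.2.1 F2.2.2.1
  -- the wall before
  obtain ⟨t0, ht0a, ht0⟩ : ∃ t0, p0 + La ≤ t0 ∧ ∀ w, p0 + Zt ≤ w + Lam + N1 → w < p0 + Zt →
      Wl (z.take w) → w = t0 := by
    by_cases hex : ∃ w, p0 + Zt ≤ w + Lam + N1 ∧ w < p0 + Zt ∧ Wl (z.take w)
    · obtain ⟨w0, a, b, d⟩ := hex
      refine ⟨w0, by omega, ?_⟩
      intro w a' b' d'
      rcases lt_trichotomy w w0 with h | h | h
      · have := hW.gap z w w0 (by omega) (by omega) (by omega) h d' d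
        omega
      · exact h
      · have := hW.gap z w0 w (by omega) (by omega) (by omega) h d d'
        omega
    · exact ⟨p0 + t, by omega, fun w a b d => absurd ⟨w, a, b, d⟩ hex⟩
  let E : ℕ → Finset (ℕ × ℕ) := fun w => (Finset.range K ×ˢ Finset.range K).filter
    (fun p => p.1 ≠ p.2 ∧ w < c p.1 + (p0 - c p.2 + Zt) + N1 ∧
      c p.1 + (p0 - c p.2 + Zt) < w + N1)
  let B : ℕ → Finset (ℕ × ℕ) := fun w => (Finset.range K ×ˢ Finset.range K).filter
    (fun p => p.1 ≠ p.2 ∧ BadN ((w - p0) + c p.2 - c p.1))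
  have hE : ∀ w, (E w).card ≤ 1 := by
    intro w
    rw [Finset.card_le_one]
    rintro ⟨i, j⟩ hij ⟨k, l⟩ hkl
    simp only [E, Finset.mem_filter, Finset.mem_product, Finset.mem_range] at hij hkl
    by_contra hne
    have := hG i j k l hij.1.1 hij.1.2 hkl.1.1 hkl.1.2 hij.2.1 hkl.2.1 hne
    have a1 := hc i hij.1.1
    have a2 := hc j hij.1.2
    have a3 := hc k hkl.1.1
    have a4 := hc l hkl.1.2
    omega
  have hBc : ∀ w, p0 + La ≤ w → (B w).card ≤ C0 := fun w hw => hB (w - p0) (by omega)
  have hsub : ((Finset.range K).filter (fun i => ∃ j < K, j ≠ i ∧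
      Cnd Wl Zt N1 BadN p0 (c j) (z.drop (c i)))) ⊆
      (E t0 ∪ E (p0 + t) ∪ (B t0 ∪ B (p0 + t) ∪ B z.length)).image Prod.fst := by
    intro i hi
    rw [Finset.mem_filter, Finset.mem_range] at hi
    obtain ⟨hiK, j, hjK, hji, hC⟩ := hi
    rw [Finset.mem_image]
    refine ⟨(i, j), ?_, rfl⟩
    have a1 := hc i hiK
    have a2 := hc j hjK
    have hlt' : (z.take (c i)).length = c i := by rw [List.length_take]; omega
    have hzz' : z = z.take (c i) ++ z.drop (c i) := (List.take_append_drop (c i) z).symm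
    have hFW : ∀ s, FW Wl (c i + (p0 - c j + Zt)) z (c i + s) ↔
        FW Wl (p0 - c j + Zt) (z.drop (c i)) s := by
      intro s
      have := hW.FW_shift (z.take (c i)) (z.drop (c i)) (c := p0 - c j + Zt) (t := s) (by omega)
      rwa [hlt', ← hzz'] at this
    have hsh : ∀ s, n ≤ s → s ≤ (z.drop (c i)).length →
        (Wl (z.take (c i + s)) ↔ Wl ((z.drop (c i)).take s)) := by
      intro s hs1 hs2
      have := hW.shift (z.take (c i)) (z.drop (c i)) hs1 hs2
      rwa [hlt', ← hzz'] at this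
    have hdl : (z.drop (c i)).length = z.length - c i := List.length_drop
    have memE : ∀ w, (w < c i + (p0 - c j + Zt) + N1 ∧ c i + (p0 - c j + Zt) < w + N1) →
        (i, j) ∈ E w := by
      intro w hw
      simp only [E, Finset.mem_filter, Finset.mem_product, Finset.mem_range]
      exact ⟨⟨hiK, hjK⟩, fun h => hji h.symm, hw.1, hw.2⟩
    have memB : ∀ w, BadN ((w - p0) + c j - c i) → (i, j) ∈ B w := by
      intro w hw
      simp only [B, Finset.mem_filter, Finset.mem_product, Finset.mem_range]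
      exact ⟨⟨hiK, hjK⟩, fun h => hji h.symm, hw⟩
    rcases hC with hC | hC | hC
    · exfalso
      obtain ⟨τ, hτ, -⟩ := FW.exists_of_wall (Wl := Wl) (c := c i + (p0 - c j + Zt)) (Y := z)
        (s := z.length) (by omega) le_rfl F2.2.2.1
      have h3 := hτ.1
      refine hC ⟨τ - c i, (hFW _).1 ?_⟩
      have : c i + (τ - c i) = τ := by omega
      rw [this]; exact hτ
    · obtain ⟨s, b1, b2, b3, b4⟩ := hC
      have h4 : Wl (z.take (c i + s)) := (hsh s (by omega) b3).2 b4
      have hm := memE (c i + s) ⟨by omega, by omega⟩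
      by_cases hw : c i + s < p0 + Zt
      · have := ht0 (c i + s) (by omega) hw h4
        rw [this] at hm
        simp only [Finset.mem_union]
        exact Or.inl (Or.inl hm)
      · have : c i + s = p0 + t := by
          rcases lt_trichotomy (c i + s) (p0 + t) with h | h | h
          · exact absurd h4 (F1.2.2.2 _ (by omega) h)
          · exact h
          · have := hW.gap z (p0 + t) (c i + s) F1.2.1 (by omega) (by omega) h F1.2.2.1 h4
            omega
        rw [this] at hm
        simp only [Finset.mem_union]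
        exact Or.inl (Or.inr hm)
    · obtain ⟨τ, b1, b2⟩ := hC
      have hτ := (hFW τ).2 b1
      have h3 := hτ.1
      have h5 := hτ.2.1
      have hval : ∀ w, w = c i + τ → BadN ((w - p0) + c j - c i) := by
        intro w hw
        have : (w - p0) + c j - c i = τ - (p0 - c j) := by omega
        rw [this]; exact b2
      by_cases hw : c i + τ < p0 + Zt
      · have := ht0 (c i + τ) (by omega) hw hτ.2.2.1
        have hm := memB t0 (hval t0 this.symm)
        simp only [Finset.mem_union]
        exact Or.inr (Or.inl (Or.inl hm))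
      · rcases lt_trichotomy (c i + τ) (p0 + t) with h | h | h
        · exact absurd hτ.2.2.1 (F1.2.2.2 _ (by omega) h)
        · have hm := memB (p0 + t) (hval _ h.symm)
          simp only [Finset.mem_union]
          exact Or.inr (Or.inl (Or.inr hm))
        · have : c i + τ = z.length := by
            by_contra hne
            exact F2.2.2.2 (c i + τ) (by omega) (by omega) hτ.2.2.1
          have hm := memB z.length (hval _ this.symm)
          simp only [Finset.mem_union]
          exact Or.inr (Or.inr hm)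
  refine (Finset.card_le_card hsub).trans (Finset.card_image_le.trans ?_)
  have u1 := Finset.card_union_le (E t0 ∪ E (p0 + t)) (B t0 ∪ B (p0 + t) ∪ B z.length)
  have u2 := Finset.card_union_le (E t0) (E (p0 + t))
  have u3 := Finset.card_union_le (B t0 ∪ B (p0 + t)) (B z.length)
  have u4 := Finset.card_union_le (B t0) (B (p0 + t))
  have e1 := hE t0
  have e2 := hE (p0 + t)
  have b1 := hBc t0 ht0a
  have b2 := hBc (p0 + t) (by omega)
  have b3 := hBc z.length (by omega)
  omega

/-- the dedicated positions: index `(i * k + c) * R + r` carries the name `(i, c)` -/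
noncomputable def ctx (m k R : ℕ) (c : ℕ → ℕ) (x : ℕ) : Option (ℕ × Fin k) :=
  open Classical in
  if h : ∃ l : ℕ × Fin k × ℕ, l.1 < m ∧ l.2.2 < R ∧ x = c ((l.1 * k + l.2.1) * R + l.2.2) then
    some (h.choose.1, h.choose.2.1) else none

theorem idx_lt {m k R i r : ℕ} {a : Fin k} (hi : i < m) (hr : r < R) :
    (i * k + a) * R + r < m * k * R := by
  have h1 : i * k + a + 1 ≤ m * k := by
    have : (i + 1) * k ≤ m * k := Nat.mul_le_mul_right k hi
    have h2 := a.isLt
    nlinarith
  calc (i * k + a) * R + r < (i * k + a) * R + R := by omega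
    _ = (i * k + a + 1) * R := by ring
    _ ≤ m * k * R := Nat.mul_le_mul_right R h1

theorem idx_inj {k R i r i' r' : ℕ} {a a' : Fin k} (hr : r < R) (hr' : r' < R)
    (h : (i * k + a) * R + r = (i' * k + a') * R + r') : i = i' ∧ a = a' ∧ r = r' := by
  have hR : 0 < R := by omega
  have hk : 0 < k := a.pos
  have h1 : i * k + a = i' * k + a' := by
    have e1 : ((i * k + a) * R + r) / R = i * k + a := by
      rw [Nat.mul_comm, Nat.mul_add_div hR, Nat.div_eq_of_lt hr, Nat.add_zero]
    have e2 : ((i' * k + a') * R + r') / R = i' * k + a' := by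
      rw [Nat.mul_comm, Nat.mul_add_div hR, Nat.div_eq_of_lt hr', Nat.add_zero]
    rw [← e1, ← e2, h]
  have h2 : r = r' := by rw [h1] at h; omega
  have h3 : i = i' := by
    have e1 : (i * k + a) / k = i := by
      rw [Nat.mul_comm, Nat.mul_add_div hk, Nat.div_eq_of_lt a.isLt, Nat.add_zero]
    have e2 : (i' * k + a') / k = i' := by
      rw [Nat.mul_comm, Nat.mul_add_div hk, Nat.div_eq_of_lt a'.isLt, Nat.add_zero]
    rw [← e1, ← e2, h1]
  refine ⟨h3, ?_, h2⟩
  ext
  rw [h3] at h1
  omega

theorem ctx_spec {m k R : ℕ} {c : ℕ → ℕ} (hc : ∀ i j, i < m * k * R → j < m * k * R →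
    c i = c j → i = j) {i r : ℕ} {a : Fin k} (hi : i < m) (hr : r < R) :
    ctx m k R c (c ((i * k + a) * R + r)) = some (i, a) := by
  classical
  have hex : ∃ l : ℕ × Fin k × ℕ, l.1 < m ∧ l.2.2 < R ∧
      c ((i * k + a) * R + r) = c ((l.1 * k + l.2.1) * R + l.2.2) := ⟨(i, a, r), hi, hr, rfl⟩
  unfold ctx
  rw [dif_pos hex]
  obtain ⟨h1, h2, h3⟩ := hex.choose_spec
  obtain ⟨e1, e2, -⟩ := idx_inj hr h2 (hc _ _ (idx_lt hi hr) (idx_lt h1 h2) h3)
  rw [← e1, ← e2]

theorem ctx_some {m k R : ℕ} {c : ℕ → ℕ} {x i : ℕ} {a : Fin k} (h : ctx m k R c x = some (i, a)) :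
    i < m ∧ ∃ r < R, x = c ((i * k + a) * R + r) := by
  classical
  unfold ctx at h
  split_ifs at h with hex
  obtain ⟨h1, h2, h3⟩ := hex.choose_spec
  have e := Option.some.inj h
  have e1 : hex.choose.1 = i := (Prod.mk.inj e).1
  have e2 : hex.choose.2.1 = a := (Prod.mk.inj e).2
  rw [e1] at h1 h3
  rw [e2] at h3
  exact ⟨h1, _, h2, h3⟩

end Crest.Agent.R320.Sp2_423
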