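import Mathlib
import Crest.Agent.R320.Sp_485

/-!
Row 320, leaf (C) of helper524 #14156: lead's SPOIL LEAF with the clauses `ruler` and `hB`.
-/

set_option autoImplicit false

namespace Crest.Agent.R320.Sp2_485

open Finset Crest.Agent.R320.Sp_485

/-- leaf (C) of 524 #14156: the ruler for the digit gadget `g1` of lead #13673. -/
theorem spoilC (Ms : Finset ℕ) (M m b K N1 : ℕ) (hM : 0 < M)
    (hMs : ∀ k ∈ Ms, 2 ^ (K + 1) ≤ k ∧ k ∣ M) (hcop : Nat.Coprime b M)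
    (hb : 2 ^ (K + 4) * M + 2 * M ≤ b) :
    ∃ c : ℕ → ℕ, StrictMono c ∧ (∀ i, 4 * N1 < c i) ∧ (∀ i j, i < j → c i + 4 * N1 < c j) ∧
      (∀ i < K, ∀ j < K, ∀ i' < K, ∀ j' < K, i ≠ j → i' ≠ j' →
        |((c j : ℤ) - c i) - ((c j' : ℤ) - c i')| ≤ 2 * N1 → i = i' ∧ j = j') ∧
      (∀ i j i' j', i ≠ j → |((c j : ℤ) - c i) - ((c j' : ℤ) - c i')| ≤ 4 * N1 →
        i = i' ∧ j = j') ∧
      ∀ T : ℤ, {p : ℕ × ℕ | p.1 < K ∧ p.2 < K ∧ p.1 ≠ p.2 ∧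
        ∃ n : ℕ, (n : ℤ) = T + c p.2 - c p.1 ∧
          ((∃ k ∈ Ms, k ∣ n) ∨
            ∃ j < m, ¬ (M ≤ n / b ^ j % b ∧ n / b ^ j % b + M + 1 ≤ b))}.ncard ≤ Ms.card + m := by
  classical
  obtain ⟨c, h1, h2, h3, h4, h5⟩ := spoilZ Ms M m b K N1 hM hMs hcop hb
  refine ⟨c, h1, h2, h3, ?_, ?_, ?_⟩
  · intro i _ j _ i' _ j' _ hij _ hle
    by_contra hne
    have h6 := h4 i j i' j' hij hne
    have h7 : (0 : ℤ) ≤ N1 := by positivity
    linarith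
  · intro i j i' j' hij hle
    by_contra hne
    have h6 := h4 i j i' j' hij hne
    linarith
  · intro T
    have hfin : {p : ℕ × ℕ | p.1 < K ∧ p.2 < K ∧ p.1 ≠ p.2 ∧
        ∃ n : ℕ, (n : ℤ) = T + c p.2 - c p.1 ∧
          ((∃ k ∈ Ms, k ∣ n) ∨
            ∃ j < m, ¬ (M ≤ n / b ^ j % b ∧ n / b ^ j % b + M + 1 ≤ b))}.Finite := by
      refine Set.Finite.subset ((range K ×ˢ range K : Finset (ℕ × ℕ)).finite_toSet) ?_
      rintro p ⟨ha, hb', -⟩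
      simp only [Finset.coe_product, Finset.coe_range, Set.mem_prod, Set.mem_Iio]
      exact ⟨ha, hb'⟩
    rw [Set.ncard_eq_toFinset_card _ hfin]
    apply h5 T
    intro p hp
    rw [Set.Finite.mem_toFinset] at hp
    obtain ⟨ha, hb', hne, n, hn, hbad⟩ := hp
    refine ⟨ha, hb', hne, ?_⟩
    have h6 : T + ((c p.2 : ℤ) - c p.1) = (n : ℤ) := by rw [hn]; ring
    rw [h6, bad_iff]
    exact hbad

end Crest.Agent.R320.Sp2_485
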