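import Crest.Agent.R320.Two_580

/-! Row 320: the spoil count of `Two_580.Dt` from the wide ruler, wall gaps and the thin count. -/

set_option autoImplicit false

namespace Crest.Agent.R320.SpW_580

open Crest.Agent.R320.Two_580

variable {α S V : Type*} [AddCommGroup V]

/-- window mode -/
def P1 (D : Dt α S V) (W0 : List α) (k l u : ℕ) : Prop :=
  l ≠ k ∧ l < D.K ∧ u ≤ W0.length ∧ D.Wl (W0.take u) ∧ D.z + D.c k ≤ D.c l + u + D.N1 ∧
    D.c l + u < D.z + D.N1 + D.c k

/-- arithmetic mode -/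
def P2 (D : Dt α S V) (W0 : List α) (k l u : ℕ) : Prop :=
  l ≠ k ∧ l < D.K ∧ u ≤ W0.length ∧ D.z + D.c k ≤ D.c l + u ∧ D.c k ≤ u ∧ D.Wl (W0.take u) ∧
    (∀ u' < u, D.z + D.c k ≤ D.c l + u' → ¬ D.Wl (W0.take u')) ∧ D.BadN (D.c l + (u - D.c k) - D.p0)

theorem spoil_of (D : Dt α S V) (Cm W C1 : ℕ)
    (loc : ∀ U Q, D.n ≤ Q.length → (D.Wl (U ++ Q) ↔ D.Wl Q))
    (gap : ∀ (X : List α) (s t : ℕ), s < t → t ≤ X.length → D.Wl (X.take s) → D.Wl (X.take t) →
      s + W ≤ t)
    (hnq : D.n ≤ D.q) (hCq : Cm ≤ D.q) (hCp : Cm ≤ D.p0) (hc : ∀ k < D.K, D.c k ≤ Cm)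
    (hW : 2 * Cm + 2 * D.N1 + 1 ≤ W)
    (gol : ∀ i < D.K, ∀ j < D.K, ∀ i' < D.K, ∀ j' < D.K, i ≠ j → i' ≠ j' → ¬ (i = i' ∧ j = j') →
      ((4 * D.N1 : ℕ) : ℤ) < |((D.c j : ℤ) - D.c i) - ((D.c j' : ℤ) - D.c i')|)
    (thin : ∀ (T : ℕ) (s : Finset ℕ) (L : ℕ → ℕ), (∀ k ∈ s, k < D.K ∧ L k < D.K ∧ k ≠ L k ∧
      D.c k ≤ T + D.c (L k) ∧ D.BadN (T + D.c (L k) - D.c k)) → s.card ≤ C1)
    (W0 : List α) (hW0 : D.z ≤ W0.length) (I : Finset ℕ)
    (hI : ∀ k ∈ I, k < D.K ∧ ∃ l, l ≠ k ∧ D.Cand l (W0.drop (D.c k))) : I.card ≤ 2 * C1 + 1 := by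
  classical
  have hz : D.z = D.p0 + D.q + D.N1 := rfl
  have tl : ∀ k t, D.n ≤ t → t ≤ (W0.drop (D.c k)).length →
      (D.Wl ((W0.drop (D.c k)).take t) ↔ D.Wl (W0.take (D.c k + t))) := by
    intro k t hn ht
    have e : W0.take (D.c k + t) = W0.take (D.c k) ++ (W0.drop (D.c k)).take t := List.take_add
    rw [e]
    exact (loc _ _ (by rw [List.length_take]; omega)).symm
  have key : ∀ k ∈ I, k < D.K ∧ ((∃ l u, P1 D W0 k l u) ∨ ∃ l u, P2 D W0 k l u) := by
    intro k hk
    obtain ⟨hkK, l, hlk, hlK, t, ⟨ht1, ht2, ht3, ht4⟩, hB⟩ := hI k hk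
    have hck := hc k hkK
    have hcl := hc l hlK
    have hlen : (W0.drop (D.c k)).length = W0.length - D.c k := List.length_drop
    refine ⟨hkK, ?_⟩
    rcases hB with hB | ⟨t', ht'1, ht'2, ht'3, ht'4⟩
    · refine Or.inr ⟨l, D.c k + t, hlk, hlK, by omega, by omega, by omega, ?_, ?_, ?_⟩
      · exact (tl k t (by omega) ht1).1 ht3
      · intro u' hu' hz' hw
        refine ht4 (u' - D.c k) (by omega) (by omega) ?_
        refine (tl k (u' - D.c k) (by omega) (by omega)).2 ?_
        rw [show D.c k + (u' - D.c k) = u' by omega]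
        exact hw
      · rw [show D.c l + (D.c k + t - D.c k) = D.c l + t by omega]
        exact hB
    · refine Or.inl ⟨l, D.c k + t', hlk, hlK, by omega, ?_, by omega, by omega⟩
      exact (tl k t' (by omega) ht'1).1 ht'2
  set I1 := I.filter (fun k => ∃ l u, P1 D W0 k l u) with hI1
  set I2 := I.filter (fun k => ∃ l u, P2 D W0 k l u) with hI2
  have hsub : I ⊆ I1 ∪ I2 := by
    intro k hk
    rw [Finset.mem_union, hI1, hI2, Finset.mem_filter, Finset.mem_filter]
    rcases (key k hk).2 with h | h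
    · exact Or.inl ⟨hk, h⟩
    · exact Or.inr ⟨hk, h⟩
  -- window mode: at most one
  have c1 : I1.card ≤ 1 := by
    rw [Finset.card_le_one]
    intro k hk k' hk'
    rw [hI1, Finset.mem_filter] at hk hk'
    obtain ⟨hkI, l, u, h1, h2, h3, h4, h5, h6⟩ := hk
    obtain ⟨hkI', l', u', h1', h2', h3', h4', h5', h6'⟩ := hk'
    have hkK := (key k hkI).1
    have hkK' := (key k' hkI').1
    have a1 := hc k hkK
    have a2 := hc l h2
    have a3 := hc k' hkK'
    have a4 := hc l' h2'
    have huu : u = u' := by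
      rcases lt_trichotomy u u' with h | h | h
      · have := gap W0 u u' h h3' h4 h4'
        omega
      · exact h
      · have := gap W0 u' u h h3 h4' h4
        omega
    subst huu
    by_contra hne
    have := gol l h2 k hkK l' h2' k' hkK' h1 h1' (fun h => hne h.2)
    rw [lt_abs] at this
    omega
  -- arithmetic mode
  have c2 : I2.card ≤ 2 * C1 := by
    have hch : ∀ k, ∃ l u, k ∈ I2 → P2 D W0 k l u := by
      intro k
      by_cases hk : k ∈ I2
      · have := hk
        rw [hI2, Finset.mem_filter] at this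
        obtain ⟨-, l, u, h⟩ := this
        exact ⟨l, u, fun _ => h⟩
      · exact ⟨0, 0, fun h => absurd h hk⟩
    choose L U hLU using hch
    have hkK : ∀ k ∈ I2, k < D.K := by
      intro k hk
      rw [hI2, Finset.mem_filter] at hk
      exact (key k hk.1).1
    have one : ∀ x, (I2.filter (fun k => U k = x)).card ≤ C1 := by
      intro x
      refine thin (x - D.p0) _ L fun k hk => ?_
      rw [Finset.mem_filter] at hk
      obtain ⟨hk, rfl⟩ := hk
      obtain ⟨h1, h2, h3, h4, h5, h6, h7, h8⟩ := hLU k hk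
      have a1 := hc k (hkK k hk)
      have a2 := hc _ h2
      refine ⟨hkK k hk, h2, fun h => h1 h.symm, by omega, ?_⟩
      rw [show U k - D.p0 + D.c (L k) - D.c k = D.c (L k) + (U k - D.c k) - D.p0 by omega]
      exact h8
    rcases I2.eq_empty_or_nonempty with h0 | h0
    · rw [h0]; simp
    obtain ⟨k0, hk0, hmin⟩ := Finset.exists_min_image I2 U h0
    have hbig : ∀ k ∈ I2, U k ≠ U k0 → D.z + Cm ≤ U k ∧ U k0 < U k := by
      intro k hk hne
      have hlt : U k0 < U k := lt_of_le_of_ne (hmin k hk) (Ne.symm hne)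
      obtain ⟨h1, h2, h3, h4, h5, h6, h7, h8⟩ := hLU k hk
      obtain ⟨h1', h2', h3', h4', h5', h6', h7', h8'⟩ := hLU k0 hk0
      have a1 := hc k (hkK k hk)
      have a2 := hc _ h2
      have a3 := hc k0 (hkK k0 hk0)
      have a4 := hc _ h2'
      have := gap W0 (U k0) (U k) hlt h3 h6' h6
      constructor
      · omega
      · exact hlt
    rcases (I2.filter (fun k => U k ≠ U k0)).eq_empty_or_nonempty with h1 | ⟨k1, hk1⟩
    · have hs : I2 ⊆ I2.filter (fun k => U k = U k0) := by
        intro k hk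
        rw [Finset.mem_filter]
        refine ⟨hk, ?_⟩
        by_contra hne
        have : k ∈ I2.filter (fun k => U k ≠ U k0) := by
          rw [Finset.mem_filter]; exact ⟨hk, hne⟩
        rw [h1] at this
        exact absurd this (Finset.notMem_empty _)
      have := (Finset.card_le_card hs).trans (one (U k0))
      omega
    · rw [Finset.mem_filter] at hk1
      obtain ⟨hk1, hne1⟩ := hk1
      have hs : I2 ⊆ I2.filter (fun k => U k = U k0) ∪ I2.filter (fun k => U k = U k1) := by
        intro k hk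
        by_cases hne : U k = U k0
        · exact Finset.mem_union.2 (Or.inl (Finset.mem_filter.2 ⟨hk, hne⟩))
        · refine Finset.mem_union.2 (Or.inr (Finset.mem_filter.2 ⟨hk, ?_⟩))
          obtain ⟨b1, -⟩ := hbig k hk hne
          obtain ⟨b2, -⟩ := hbig k1 hk1 hne1
          obtain ⟨h1, h2, h3, h4, h5, h6, h7, h8⟩ := hLU k hk
          obtain ⟨h1', h2', h3', h4', h5', h6', h7', h8'⟩ := hLU k1 hk1
          have a1 := hc k (hkK k hk)
          have a2 := hc _ h2
          have a3 := hc k1 (hkK k1 hk1)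
          have a4 := hc _ h2'
          rcases lt_trichotomy (U k) (U k1) with h | h | h
          · exact absurd h6 (h7' (U k) h (by omega))
          · exact h
          · exact absurd h6' (h7 (U k1) h (by omega))
      have := (Finset.card_le_card hs).trans (Finset.card_union_le _ _)
      have o1 := one (U k0)
      have o2 := one (U k1)
      omega
  have := (Finset.card_le_card hsub).trans (Finset.card_union_le _ _)
  omega

end Crest.Agent.R320.SpW_580
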