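import Mathlib

/-!
Spoil count for the digit gadget `g1` (lead #13673, 852 #13483).
`c l = 2 ^ l * K0`, `K0 = 1 mod M`, `K0 = 4 M (1 + b + .. + b^(m-1)) mod b^m`.
-/

namespace Crest.Agent.R320.Sp_209

/-- Bad lengths, over the integers. -/
def BadZ (Ms : Finset ℕ) (M m b : ℕ) (n : ℤ) : Prop :=
  (∃ k ∈ Ms, (k : ℤ) ∣ n) ∨
    ∃ j < m, ¬ ((M : ℤ) ≤ n / (b : ℤ) ^ j % b ∧ n / (b : ℤ) ^ j % b + M + 1 ≤ b)

/-- Bad lengths, over the naturals (literally as in `g1`). -/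
def BadN (Ms : Finset ℕ) (M m b : ℕ) (n : ℕ) : Prop :=
  (∃ k ∈ Ms, k ∣ n) ∨
    ∃ j < m, ¬ (M ≤ n / b ^ j % b ∧ n / b ^ j % b + M + 1 ≤ b)

theorem badZ_of_badN {Ms : Finset ℕ} {M m b n : ℕ} (h : BadN Ms M m b n) :
    BadZ Ms M m b (n : ℤ) := by
  rcases h with ⟨k, hk, hd⟩ | ⟨j, hj, hn⟩
  · exact Or.inl ⟨k, hk, by exact_mod_cast hd⟩
  · refine Or.inr ⟨j, hj, ?_⟩
    intro h
    apply hn
    obtain ⟨h1, h2⟩ := h
    constructor
    · exact_mod_cast h1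
    · exact_mod_cast h2

/-- a bad digit puts `n` near a multiple of `b * B` -/
theorem near {M b B n : ℤ} (hb : 0 < b) (hB : 0 < B)
    (h : ¬ (M ≤ n / B % b ∧ n / B % b + M + 1 ≤ b)) :
    ∃ q : ℤ, - (M * B) ≤ n - q * (b * B) ∧ n - q * (b * B) < M * B := by
  have e1 : B * (n / B) + n % B = n := Int.mul_ediv_add_emod n B
  have e2 : b * (n / B / b) + n / B % b = n / B := Int.mul_ediv_add_emod (n / B) b
  have r0 : 0 ≤ n % B := Int.emod_nonneg _ (ne_of_gt hB)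
  have r1 : n % B < B := Int.emod_lt_of_pos _ hB
  have d0 : 0 ≤ n / B % b := Int.emod_nonneg _ (ne_of_gt hb)
  have d1 : n / B % b < b := Int.emod_lt_of_pos _ hb
  set d := n / B % b with hd
  set q := n / B / b with hq
  set r := n % B with hr
  have e3 : n = q * (b * B) + (B * d + r) := by
    rw [← e1, ← e2]; ring
  by_cases hdM : d < M
  · refine ⟨q, ?_, ?_⟩
    · have : 0 ≤ B * d := mul_nonneg hB.le d0
      have hM : 0 ≤ M * B := by nlinarith
      nlinarith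
    · have : B * (d + 1) ≤ B * M := mul_le_mul_of_nonneg_left (by omega) hB.le
      nlinarith
  · have h2 : b < d + M + 1 := by
      by_contra hc
      exact h ⟨by omega, by omega⟩
    refine ⟨q + 1, ?_, ?_⟩
    · have : B * (b - M) ≤ B * d := mul_le_mul_of_nonneg_left (by omega) hB.le
      nlinarith
    · have h3 : B * (d + 1) ≤ B * b := mul_le_mul_of_nonneg_left (by omega) hB.le
      have h4 : 0 ≤ M * B := by
        have : 0 ≤ M := by omega
        exact mul_nonneg this hB.le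
      nlinarith

/-- geometric sums: `∑_{i < m} b^i = G + b^(j+1) t` with `b^j ≤ G ≤ 2 b^j` for `j < m` -/
theorem geom_split {b : ℤ} (hb : 2 ≤ b) (j : ℕ) :
    b ^ j ≤ ∑ i ∈ Finset.range (j + 1), b ^ i ∧
      ∑ i ∈ Finset.range (j + 1), b ^ i ≤ 2 * b ^ j - 1 := by
  induction j with
  | zero => simp
  | succ j ih =>
    rw [Finset.sum_range_succ]
    have hp : (1 : ℤ) ≤ b ^ j := one_le_pow₀ (by omega)
    have hs : b ^ (j + 1) = b ^ j * b := pow_succ b j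
    constructor
    · nlinarith [ih.1]
    · nlinarith [ih.2]

theorem geom_mod {b : ℤ} (m j : ℕ) (hj : j < m) :
    b ^ (j + 1) ∣ (∑ i ∈ Finset.range m, b ^ i) - ∑ i ∈ Finset.range (j + 1), b ^ i := by
  induction m with
  | zero => omega
  | succ m ih =>
    rcases Nat.lt_or_ge j m with h | h
    · rw [Finset.sum_range_succ]
      have h1 := ih h
      have h2 : b ^ (j + 1) ∣ b ^ m := pow_dvd_pow b h
      have : (∑ i ∈ Finset.range m, b ^ i) + b ^ m - ∑ i ∈ Finset.range (j + 1), b ^ i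
          = ((∑ i ∈ Finset.range m, b ^ i) - ∑ i ∈ Finset.range (j + 1), b ^ i) + b ^ m := by ring
      rw [this]
      exact dvd_add h1 h2
    · have : m = j := by omega
      subst this
      simp

/-- two bad digits at the same place: the difference coefficient is zero -/
theorem digit_uniq {M m b : ℕ} {K0 E n n' : ℤ} {L : ℤ} (hM : 0 < M) {j : ℕ} (hj : j < m)
    (hL : 0 ≤ L) (hE : |E| ≤ L) (hb : (8 * L + 2) * M ≤ b) (hb2 : 2 ≤ b)
    (hK0 : (b : ℤ) ^ m ∣ K0 - 4 * M * ∑ i ∈ Finset.range m, (b : ℤ) ^ i)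
    (hn : n - n' = E * K0)
    (h : ¬ ((M : ℤ) ≤ n / (b : ℤ) ^ j % b ∧ n / (b : ℤ) ^ j % b + M + 1 ≤ b))
    (h' : ¬ ((M : ℤ) ≤ n' / (b : ℤ) ^ j % b ∧ n' / (b : ℤ) ^ j % b + M + 1 ≤ b)) :
    E = 0 := by
  by_contra hE0
  have hbz : (2 : ℤ) ≤ b := by exact_mod_cast hb2
  have hMz : (0 : ℤ) < M := by exact_mod_cast hM
  have hBp : (0 : ℤ) < (b : ℤ) ^ j := pow_pos (by omega) _
  obtain ⟨q, q1, q2⟩ := near (by omega) hBp h
  obtain ⟨q', q1', q2'⟩ := near (by omega) hBp h'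
  obtain ⟨g1, g2⟩ := geom_split hbz j
  have hmod := geom_mod (b := (b : ℤ)) m j hj
  set Gm := ∑ i ∈ Finset.range m, (b : ℤ) ^ i with hGm
  set G := ∑ i ∈ Finset.range (j + 1), (b : ℤ) ^ i with hG
  have hpow : (b : ℤ) ^ (j + 1) ∣ (b : ℤ) ^ m := pow_dvd_pow _ hj
  obtain ⟨t1, ht1⟩ := hmod
  obtain ⟨t2, ht2⟩ := dvd_trans hpow hK0
  have hps : (b : ℤ) ^ (j + 1) = b * (b : ℤ) ^ j := by rw [pow_succ]; ring
  rw [hps] at ht1 ht2
  set B := (b : ℤ) ^ j with hB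
  -- K0 = 4 M G + (b B) * t
  have hK : K0 = 4 * M * G + (b * B) * (4 * M * t1 + t2) := by
    have : K0 = 4 * M * Gm + (b * B) * t2 := by linarith
    rw [this]
    have : Gm = G + (b * B) * t1 := by linarith
    rw [this]; ring
  set t := 4 * M * t1 + t2 with ht
  -- E * 4 M G - Q (b B) in (-2MB, 2MB)
  have key : ∃ Q : ℤ, -(2 * (M * B)) < E * (4 * M * G) - Q * (b * B) ∧
      E * (4 * M * G) - Q * (b * B) < 2 * (M * B) := by
    refine ⟨q - q' - E * t, ?_, ?_⟩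
    · have : E * (4 * M * G) - (q - q' - E * t) * (b * B) = (n - n') - (q - q') * (b * B) := by
        rw [hn, hK]; ring
      rw [this]
      linarith
    · have : E * (4 * M * G) - (q - q' - E * t) * (b * B) = (n - n') - (q - q') * (b * B) := by
        rw [hn, hK]; ring
      rw [this]
      linarith
  obtain ⟨Q, k1, k2⟩ := key
  have hMB : 0 < (M : ℤ) * B := mul_pos hMz hBp
  have hG0 : 0 < G := by linarith
  have habs : |E| * (4 * M * G) = |E * (4 * M * G)| := by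
    rw [abs_mul, abs_of_pos (a := 4 * M * G) (by positivity)]
  have hE1 : 1 ≤ |E| := Int.one_le_abs hE0
  have low : 4 * (M * B) ≤ |E * (4 * M * G)| := by
    rw [← habs]
    have h1 : (4 * M * G : ℤ) ≤ |E| * (4 * M * G) := by
      have : (0 : ℤ) < 4 * M * G := by positivity
      nlinarith
    have h2 : (4 : ℤ) * (M * B) ≤ 4 * M * G := by nlinarith
    linarith
  have up : |E * (4 * M * G)| ≤ L * (8 * (M * B)) := by
    rw [← habs]
    have h2 : (4 * M * G : ℤ) ≤ 8 * (M * B) := by nlinarith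
    have h3 : (0 : ℤ) ≤ 4 * M * G := by positivity
    calc |E| * (4 * M * G) ≤ L * (4 * M * G) := mul_le_mul_of_nonneg_right hE h3
      _ ≤ L * (8 * (M * B)) := mul_le_mul_of_nonneg_left h2 hL
  have hbB : (8 * L + 2) * (M * B) ≤ b * B := by
    have := mul_le_mul_of_nonneg_right hb hBp.le
    nlinarith
  rcases lt_trichotomy Q 0 with hQ | hQ | hQ
  · have h1 : Q * (b * B) ≤ -(b * B) := by
      have : (0 : ℤ) < b * B := mul_pos (by omega) hBp
      nlinarith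
    have h2 := abs_le.mp (le_refl |E * (4 * M * G)|)
    nlinarith
  · subst hQ
    have h2 : |E * (4 * M * G)| < 2 * (M * B) := by
      rw [abs_lt]; constructor <;> linarith
    linarith
  · have h1 : b * B ≤ Q * (b * B) := by
      have : (0 : ℤ) < b * B := mul_pos (by omega) hBp
      nlinarith
    have h2 := abs_le.mp (le_refl |E * (4 * M * G)|)
    nlinarith

/-- one modulus: the difference coefficient is zero -/
theorem mod_uniq {k M : ℕ} {K0 E n n' L : ℤ} (hkM : k ∣ M) (hk : L < k)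
    (hE : |E| ≤ L) (hK0 : (M : ℤ) ∣ K0 - 1) (hn : n - n' = E * K0)
    (h : (k : ℤ) ∣ n) (h' : (k : ℤ) ∣ n') : E = 0 := by
  have h1 : (k : ℤ) ∣ E * K0 := by rw [← hn]; exact dvd_sub h h'
  have hkM' : (k : ℤ) ∣ (M : ℤ) := by exact_mod_cast hkM
  have h2 : (k : ℤ) ∣ E * (K0 - 1) := Dvd.dvd.mul_left (dvd_trans hkM' hK0) _
  have h3 : (k : ℤ) ∣ E := by
    have := dvd_sub h1 h2
    have e : E * K0 - E * (K0 - 1) = E := by ring
    rwa [e] at this
  exact Int.eq_zero_of_abs_lt_dvd h3 (lt_of_le_of_lt hE hk)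

/-- two different powers of two: differences determine the pair -/
theorem sidon {i j i' j' : ℕ} (h1 : i ≠ j) (h : (2 : ℤ) ^ j - 2 ^ i = 2 ^ j' - 2 ^ i') :
    i = i' ∧ j = j' := by
  have e : 2 ^ j + 2 ^ i' = 2 ^ j' + 2 ^ i := by
    have : (2 : ℤ) ^ j + 2 ^ i' = 2 ^ j' + 2 ^ i := by linarith
    exact_mod_cast this
  -- the smallest exponent decides
  have key : ∀ a b c d : ℕ, a ≤ b → c ≤ d → 2 ^ a + 2 ^ b = 2 ^ c + 2 ^ d → a = c ∧ b = d := by
    intro a b c d hab hcd he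
    have hle : ∀ a b c d : ℕ, a ≤ b → c ≤ d → 2 ^ a + 2 ^ b = 2 ^ c + 2 ^ d → d ≤ b := by
      intro a b c d hab hcd he
      by_contra hc
      have hc' : b + 1 ≤ d := by omega
      have p1 : 2 ^ a ≤ 2 ^ b := Nat.pow_le_pow_right (by norm_num) hab
      have p2 : 2 ^ (b + 1) ≤ 2 ^ d := Nat.pow_le_pow_right (by norm_num) hc'
      have p3 : 0 < 2 ^ c := Nat.pos_of_ne_zero (by positivity)
      rw [pow_succ] at p2
      omega
    have hbd : b = d := le_antisymm (hle c d a b hcd hab he.symm) (hle a b c d hab hcd he)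
    subst hbd
    refine ⟨?_, rfl⟩
    have : 2 ^ a = 2 ^ c := by omega
    exact Nat.pow_right_injective (le_refl 2) this
  rcases le_total j i' with ha | ha <;> rcases le_total j' i with hb | hb
  · obtain ⟨r1, r2⟩ := key j i' j' i ha hb e
    exact ⟨r2.symm, r1⟩
  · obtain ⟨r1, r2⟩ := key j i' i j' ha hb (by rw [e]; ring)
    exact absurd r1.symm h1
  · obtain ⟨r1, r2⟩ := key i' j j' i ha hb (by rw [← e]; ring)
    exact absurd r2.symm h1
  · obtain ⟨r1, r2⟩ := key i' j i j' ha hb (by linarith)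
    exact ⟨r1.symm, r2⟩

theorem abs_pow_diff {K i j : ℕ} (hi : i < K) (hj : j < K) :
    |(2 : ℤ) ^ j - 2 ^ i| ≤ 2 ^ K := by
  have p1 : (2 : ℤ) ^ j ≤ 2 ^ K := pow_le_pow_right₀ (by norm_num) hj.le
  have p2 : (2 : ℤ) ^ i ≤ 2 ^ K := pow_le_pow_right₀ (by norm_num) hi.le
  have p3 : (0 : ℤ) < 2 ^ j := by positivity
  have p4 : (0 : ℤ) < 2 ^ i := by positivity
  rw [abs_le]; constructor <;> linarith

/-- the base step `K0` -/
theorem exists_K0 {M b : ℕ} (m N : ℕ) (hM : 0 < M) (hb : 0 < b) (hcop : Nat.Coprime b M) :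
    ∃ K0 : ℕ, N < K0 ∧ (M : ℤ) ∣ (K0 : ℤ) - 1 ∧
      (b : ℤ) ^ m ∣ (K0 : ℤ) - 4 * M * ∑ i ∈ Finset.range m, (b : ℤ) ^ i := by
  have hc : Nat.Coprime M (b ^ m) := (Nat.Coprime.pow_left m hcop).symm
  obtain ⟨x, hx1, hx2⟩ := Nat.chineseRemainder hc 1 (4 * M * ∑ i ∈ Finset.range m, b ^ i)
  refine ⟨x + M * b ^ m * (N + 1), ?_, ?_, ?_⟩
  · have h1 : 1 ≤ M * b ^ m := Nat.one_le_iff_ne_zero.mpr (by positivity)
    nlinarith
  · have h1 : (M : ℤ) ∣ (x : ℤ) - 1 := by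
      have := (Nat.modEq_iff_dvd.mp hx1.symm)
      push_cast at this
      exact this
    have h2 : (M : ℤ) ∣ (M : ℤ) * ((b : ℤ) ^ m * (N + 1)) := dvd_mul_right _ _
    have h3 := dvd_add h1 h2
    have e : ((x + M * b ^ m * (N + 1) : ℕ) : ℤ) - 1 =
        (x : ℤ) - 1 + (M : ℤ) * ((b : ℤ) ^ m * (N + 1)) := by
      push_cast; ring
    rw [e]; exact h3
  · have h1 : ((b ^ m : ℕ) : ℤ) ∣ (x : ℤ) - ((4 * M * ∑ i ∈ Finset.range m, b ^ i : ℕ) : ℤ) :=
      (Nat.modEq_iff_dvd.mp hx2.symm)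
    push_cast at h1
    have h2 : (b : ℤ) ^ m ∣ (b : ℤ) ^ m * ((M : ℤ) * (N + 1)) := dvd_mul_right _ _
    have h3 := dvd_add h1 h2
    have e : ((x + M * b ^ m * (N + 1) : ℕ) : ℤ) - 4 * M * ∑ i ∈ Finset.range m, (b : ℤ) ^ i =
        ((x : ℤ) - 4 * M * ∑ i ∈ Finset.range m, (b : ℤ) ^ i)
          + (b : ℤ) ^ m * ((M : ℤ) * (N + 1)) := by
      push_cast; ring
    rw [e]; exact h3

open Classical in
/-- **the spoil count** -/
theorem spoil (Ms : Finset ℕ) (M m b K : ℕ) (hM : 0 < M)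
    (hMs : ∀ k ∈ Ms, 2 ^ (K + 1) < k ∧ k ∣ M) (hb : 2 ^ (K + 5) * M ≤ b)
    (hcop : Nat.Coprime b M) (N1 : ℕ) :
    ∃ c : ℕ → ℕ, StrictMono c ∧ (∀ i, 4 * N1 < c i) ∧
      (∀ i j, i < j → c i + 4 * N1 < c j) ∧
      (∀ i j i' j', i ≠ j → (i, j) ≠ (i', j') →
        (4 * N1 : ℤ) < |((c j : ℤ) - c i) - ((c j' : ℤ) - c i')|) ∧
      (∀ T : ℤ, ((Finset.range K ×ˢ Finset.range K).filter
        (fun p => p.1 ≠ p.2 ∧ BadZ Ms M m b (T + c p.2 - c p.1))).card ≤ Ms.card + m) := by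
  have hpK : 0 < 2 ^ (K + 5) := by positivity
  have hb0 : 0 < b := lt_of_lt_of_le (Nat.mul_pos hpK hM) hb
  have hb2 : 2 ≤ b := by
    have : 2 ≤ 2 ^ (K + 5) * M := by
      have h1 : 2 ^ (K + 5) = 2 * 2 ^ (K + 4) := by rw [pow_succ]; ring
      have h2 : 0 < 2 ^ (K + 4) := by positivity
      have h3 : 1 ≤ 2 ^ (K + 4) * M := Nat.mul_pos h2 hM
      rw [h1]
      nlinarith
    omega
  obtain ⟨K0, hK1, hK2, hK3⟩ := exists_K0 m (4 * N1) hM hb0 hcop
  have hK0pos : (0 : ℤ) < K0 := by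
    have : 0 < K0 := by omega
    exact_mod_cast this
  refine ⟨fun l => 2 ^ l * K0, ?_, ?_, ?_, ?_, ?_⟩
  · intro i j hij
    have h1 : 2 ^ i < 2 ^ j := Nat.pow_lt_pow_right (by norm_num) hij
    exact Nat.mul_lt_mul_of_pos_right h1 (by omega)
  · intro i
    have h1 : 1 ≤ 2 ^ i := Nat.one_le_two_pow
    have : 1 * K0 ≤ 2 ^ i * K0 := Nat.mul_le_mul_right _ h1
    show 4 * N1 < 2 ^ i * K0
    omega
  · intro i j hij
    have h1 : 2 ^ i + 1 ≤ 2 ^ j := Nat.pow_lt_pow_right (by norm_num) hij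
    have h2 : (2 ^ i + 1) * K0 ≤ 2 ^ j * K0 := Nat.mul_le_mul_right _ h1
    show 2 ^ i * K0 + 4 * N1 < 2 ^ j * K0
    have h3 : (2 ^ i + 1) * K0 = 2 ^ i * K0 + K0 := by ring
    omega
  · intro i j i' j' hij hne
    have e : ((((2 ^ j * K0 : ℕ) : ℤ) - ((2 ^ i * K0 : ℕ) : ℤ)) -
        (((2 ^ j' * K0 : ℕ) : ℤ) - ((2 ^ i' * K0 : ℕ) : ℤ)))
        = (((2 : ℤ) ^ j - 2 ^ i) - (2 ^ j' - 2 ^ i')) * K0 := by
      push_cast; ring
    show (4 * N1 : ℤ) < _
    rw [e, abs_mul, abs_of_pos hK0pos]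
    have hE : ((2 : ℤ) ^ j - 2 ^ i) - (2 ^ j' - 2 ^ i') ≠ 0 := by
      intro h0
      have h1 : (2 : ℤ) ^ j - 2 ^ i = 2 ^ j' - 2 ^ i' := by linarith
      obtain ⟨r1, r2⟩ := sidon hij h1
      exact hne (by rw [r1, r2])
    have h1 : 1 ≤ |((2 : ℤ) ^ j - 2 ^ i) - (2 ^ j' - 2 ^ i')| := Int.one_le_abs hE
    have h2 : (4 * N1 : ℤ) < K0 := by exact_mod_cast hK1
    nlinarith
  · intro T
    -- map each bad pair to its witness in `Ms ⊕ range m`
    set S := (Finset.range K ×ˢ Finset.range K).filter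
        (fun p => p.1 ≠ p.2 ∧ BadZ Ms M m b (T + ((2 ^ p.2 * K0 : ℕ) : ℤ) - ((2 ^ p.1 * K0 : ℕ) : ℤ)))
      with hS
    have hL : (0 : ℤ) ≤ 2 ^ (K + 1) := by positivity
    have hbL : (8 * (2 : ℤ) ^ (K + 1) + 2) * M ≤ b := by
      have h1 : ((2 ^ (K + 5) * M : ℕ) : ℤ) ≤ (b : ℤ) := by exact_mod_cast hb
      push_cast at h1
      have h2 : (2 : ℤ) ^ (K + 5) = 16 * 2 ^ (K + 1) := by
        rw [show K + 5 = (K + 1) + 4 by ring, pow_add]; norm_num; ring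
      have h3 : (1 : ℤ) ≤ 2 ^ (K + 1) := one_le_pow₀ (by norm_num)
      have h4 : (0 : ℤ) < M := by exact_mod_cast hM
      rw [h2] at h1
      nlinarith
    have hexp : ∀ p ∈ S, ∃ w ∈ Ms.disjSum (Finset.range m),
        Sum.elim (fun k : ℕ => (k : ℤ) ∣ (T + ((2 ^ p.2 * K0 : ℕ) : ℤ) - ((2 ^ p.1 * K0 : ℕ) : ℤ)))
          (fun j : ℕ => ¬ ((M : ℤ) ≤
              (T + ((2 ^ p.2 * K0 : ℕ) : ℤ) - ((2 ^ p.1 * K0 : ℕ) : ℤ)) / (b : ℤ) ^ j % b ∧
              (T + ((2 ^ p.2 * K0 : ℕ) : ℤ) - ((2 ^ p.1 * K0 : ℕ) : ℤ)) / (b : ℤ) ^ j % b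
                + M + 1 ≤ b)) w := by
      intro p hp
      rw [hS, Finset.mem_filter] at hp
      rcases hp.2.2 with ⟨k, hk, hd⟩ | ⟨j, hj, hd⟩
      · exact ⟨Sum.inl k, by simpa using hk, hd⟩
      · exact ⟨Sum.inr j, by simpa using hj, hd⟩
    choose! w hw1 hw2 using hexp
    have hcard : S.card ≤ (Ms.disjSum (Finset.range m)).card := by
      apply Finset.card_le_card_of_injOn w (fun p hp => hw1 p hp)
      intro p hp p' hp' hpp
      have hp0 := hp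
      have hp0' := hp'
      rw [Finset.mem_coe, hS, Finset.mem_filter, Finset.mem_product, Finset.mem_range,
        Finset.mem_range] at hp hp'
      have a1 := hw2 p hp0
      have a2 := hw2 p' hp0'
      have a3 := hw1 p hp0
      rw [← hpp] at a2
      have hn : (T + ((2 ^ p.2 * K0 : ℕ) : ℤ) - ((2 ^ p.1 * K0 : ℕ) : ℤ)) -
          (T + ((2 ^ p'.2 * K0 : ℕ) : ℤ) - ((2 ^ p'.1 * K0 : ℕ) : ℤ)) =
          (((2 : ℤ) ^ p.2 - 2 ^ p.1) - (2 ^ p'.2 - 2 ^ p'.1)) * K0 := by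
        push_cast; ring
      have hE : |((2 : ℤ) ^ p.2 - 2 ^ p.1) - (2 ^ p'.2 - 2 ^ p'.1)| ≤ 2 ^ (K + 1) := by
        have b1 := abs_pow_diff hp.1.1 hp.1.2
        have b2 := abs_pow_diff hp'.1.1 hp'.1.2
        have b3 := abs_sub ((2 : ℤ) ^ p.2 - 2 ^ p.1) (2 ^ p'.2 - 2 ^ p'.1)
        have b4 : (2 : ℤ) ^ (K + 1) = 2 ^ K + 2 ^ K := by rw [pow_succ]; ring
        linarith
      have hz : ((2 : ℤ) ^ p.2 - 2 ^ p.1) - (2 ^ p'.2 - 2 ^ p'.1) = 0 := by
        rcases hwp : w p with k | j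
        · rw [hwp] at a1 a2 a3
          have hkM : k ∈ Ms := by simpa using a3
          obtain ⟨c1, c2⟩ := hMs k hkM
          have c1' : (2 : ℤ) ^ (K + 1) < k := by exact_mod_cast c1
          exact mod_uniq c2 c1' hE hK2 hn a1 a2
        · rw [hwp] at a1 a2 a3
          have hj : j < m := by simpa using a3
          exact digit_uniq hM hj hL hE hbL hb2 hK3 hn a1 a2
      have h1 : (2 : ℤ) ^ p.2 - 2 ^ p.1 = 2 ^ p'.2 - 2 ^ p'.1 := by linarith
      obtain ⟨r1, r2⟩ := sidon hp.2.1 h1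
      exact Prod.ext r1 r2
    rw [Finset.card_disjSum, Finset.card_range] at hcard
    exact hcard

open Classical in
/-- projections of the bad pairs, and the natural number form -/
theorem spoil_all (Ms : Finset ℕ) (M m b K : ℕ) (hM : 0 < M)
    (hMs : ∀ k ∈ Ms, 2 ^ (K + 1) < k ∧ k ∣ M) (hb : 2 ^ (K + 5) * M ≤ b)
    (hcop : Nat.Coprime b M) (N1 : ℕ) :
    ∃ c : ℕ → ℕ, StrictMono c ∧ (∀ i, 4 * N1 < c i) ∧
      (∀ i j, i < j → c i + 4 * N1 < c j) ∧
      (∀ i j i' j', i ≠ j → (i, j) ≠ (i', j') →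
        (4 * N1 : ℤ) < |((c j : ℤ) - c i) - ((c j' : ℤ) - c i')|) ∧
      (∀ T : ℤ, ((Finset.range K ×ˢ Finset.range K).filter
        (fun p => p.1 ≠ p.2 ∧ BadZ Ms M m b (T + c p.2 - c p.1))).card ≤ Ms.card + m) ∧
      (∀ T : ℤ, ((Finset.range K).filter
        (fun j => ∃ i < K, i ≠ j ∧ BadZ Ms M m b (T + c j - c i))).card ≤ Ms.card + m) ∧
      (∀ T : ℤ, ((Finset.range K).filter
        (fun i => ∃ j < K, i ≠ j ∧ BadZ Ms M m b (T + c j - c i))).card ≤ Ms.card + m) ∧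
      (∀ T : ℕ, (∀ i < K, c i ≤ T) → ((Finset.range K ×ˢ Finset.range K).filter
        (fun p => p.1 ≠ p.2 ∧ BadN Ms M m b (T + c p.2 - c p.1))).card ≤ Ms.card + m) ∧
      (∀ T : ℕ, (∀ i < K, c i ≤ T) → ((Finset.range K).filter
        (fun j => ∃ i < K, i ≠ j ∧ BadN Ms M m b (T + c j - c i))).card ≤ Ms.card + m) ∧
      (∀ T : ℕ, (∀ i < K, c i ≤ T) → ((Finset.range K).filter
        (fun i => ∃ j < K, i ≠ j ∧ BadN Ms M m b (T + c j - c i))).card ≤ Ms.card + m) := by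
  obtain ⟨c, h1, h2, h3, h4, h5⟩ := spoil Ms M m b K hM hMs hb hcop N1
  have hj : ∀ T : ℤ, ((Finset.range K).filter
        (fun j => ∃ i < K, i ≠ j ∧ BadZ Ms M m b (T + c j - c i))).card ≤ Ms.card + m := by
    intro T
    refine le_trans (le_trans (Finset.card_le_card ?_)
      (Finset.card_image_le (f := fun p : ℕ × ℕ => p.2))) (h5 T)
    · intro j hj
      rw [Finset.mem_filter, Finset.mem_range] at hj
      obtain ⟨hjK, i, hi, hij, hb⟩ := hj
      rw [Finset.mem_image]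
      exact ⟨(i, j), by
        rw [Finset.mem_filter, Finset.mem_product, Finset.mem_range, Finset.mem_range]
        exact ⟨⟨hi, hjK⟩, hij, hb⟩, rfl⟩
  have hi : ∀ T : ℤ, ((Finset.range K).filter
        (fun i => ∃ j < K, i ≠ j ∧ BadZ Ms M m b (T + c j - c i))).card ≤ Ms.card + m := by
    intro T
    refine le_trans (le_trans (Finset.card_le_card ?_)
      (Finset.card_image_le (f := fun p : ℕ × ℕ => p.1))) (h5 T)
    · intro i hi
      rw [Finset.mem_filter, Finset.mem_range] at hi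
      obtain ⟨hiK, j, hj, hij, hb⟩ := hi
      rw [Finset.mem_image]
      exact ⟨(i, j), by
        rw [Finset.mem_filter, Finset.mem_product, Finset.mem_range, Finset.mem_range]
        exact ⟨⟨hiK, hj⟩, hij, hb⟩, rfl⟩
  have conv : ∀ T : ℕ, (∀ i < K, c i ≤ T) → ∀ i j, i < K →
      BadN Ms M m b (T + c j - c i) → BadZ Ms M m b ((T : ℤ) + c j - c i) := by
    intro T hT i j hi hb
    have := badZ_of_badN hb
    have e : ((T + c j - c i : ℕ) : ℤ) = (T : ℤ) + c j - c i := by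
      have := hT i hi
      have h : c i ≤ T + c j := by omega
      rw [Nat.cast_sub h]; push_cast; ring
    rwa [e] at this
  refine ⟨c, h1, h2, h3, h4, h5, hj, hi, ?_, ?_, ?_⟩
  · intro T hT
    refine le_trans (Finset.card_le_card ?_) (h5 T)
    intro p hp
    rw [Finset.mem_filter, Finset.mem_product, Finset.mem_range, Finset.mem_range] at hp ⊢
    exact ⟨hp.1, hp.2.1, conv T hT p.1 p.2 hp.1.1 hp.2.2⟩
  · intro T hT
    refine le_trans (Finset.card_le_card ?_) (hj T)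
    intro j hj'
    rw [Finset.mem_filter, Finset.mem_range] at hj' ⊢
    obtain ⟨a1, i, a2, a3, a4⟩ := hj'
    exact ⟨a1, i, a2, a3, conv T hT i j a2 a4⟩
  · intro T hT
    refine le_trans (Finset.card_le_card ?_) (hi T)
    intro i hi'
    rw [Finset.mem_filter, Finset.mem_range] at hi' ⊢
    obtain ⟨a1, j, a2, a3, a4⟩ := hi'
    exact ⟨a1, j, a2, a3, conv T hT i j a1 a4⟩

end Crest.Agent.R320.Sp_209
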