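import Mathlib

/-!
Row 320, helper353: SPOIL LEAF (ruler for the digit gadget G1 of 852 #13483, lead #13673).
-/

set_option autoImplicit false

namespace Crest.Agent.R320.Sp_353

/-- bad lengths -/
def Bad (Ms : Finset ℕ) (M b m : ℕ) (n : ℕ) : Prop :=
  (∃ k ∈ Ms, k ∣ n) ∨ ∃ j < m, ¬ (M ≤ n / b ^ j % b ∧ n / b ^ j % b + M + 1 ≤ b)

theorem pow_sum : ∀ a b c d : ℕ, 2 ^ a + 2 ^ b = 2 ^ c + 2 ^ d →
    (a = c ∧ b = d) ∨ (a = d ∧ b = c) := by
  intro a
  induction a with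
  | zero =>
    intro b c d h
    rcases b with _ | b
    · have h1 : 1 ≤ 2 ^ c := Nat.one_le_two_pow
      have h2 : 1 ≤ 2 ^ d := Nat.one_le_two_pow
      rcases c with _ | c
      · rcases d with _ | d
        · left; exact ⟨rfl, rfl⟩
        · have : 1 ≤ 2 ^ d := Nat.one_le_two_pow
          rw [pow_succ] at h; simp only [pow_zero] at h; omega
      · have : 1 ≤ 2 ^ c := Nat.one_le_two_pow
        rw [pow_succ 2 c] at h; simp only [pow_zero] at h; omega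
    · rcases c with _ | c
      · have h3 : (2 : ℕ) ^ (b + 1) = 2 ^ d := by simp only [pow_zero] at h; omega
        left; exact ⟨rfl, Nat.pow_right_injective le_rfl h3⟩
      · rcases d with _ | d
        · have h3 : (2 : ℕ) ^ (b + 1) = 2 ^ (c + 1) := by simp only [pow_zero] at h; omega
          right; exact ⟨rfl, Nat.pow_right_injective le_rfl h3⟩
        · rw [pow_succ, pow_succ, pow_succ] at h; simp only [pow_zero] at h; omega
  | succ a ih =>
    intro b c d h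
    rcases b with _ | b
    · rcases c with _ | c
      · have h3 : (2 : ℕ) ^ (a + 1) = 2 ^ d := by simp only [pow_zero] at h; omega
        right; exact ⟨Nat.pow_right_injective le_rfl h3, rfl⟩
      · rcases d with _ | d
        · have h3 : (2 : ℕ) ^ (a + 1) = 2 ^ (c + 1) := by simp only [pow_zero] at h; omega
          left; exact ⟨Nat.pow_right_injective le_rfl h3, rfl⟩
        · rw [pow_succ, pow_succ, pow_succ] at h; simp only [pow_zero] at h; omega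
    · rcases c with _ | c
      · rcases d with _ | d
        · have h1 : 1 ≤ 2 ^ a := Nat.one_le_two_pow
          have h2 : 1 ≤ 2 ^ b := Nat.one_le_two_pow
          rw [pow_succ, pow_succ] at h; simp only [pow_zero] at h; omega
        · rw [pow_succ, pow_succ, pow_succ] at h; simp only [pow_zero] at h; omega
      · rcases d with _ | d
        · rw [pow_succ, pow_succ, pow_succ] at h; simp only [pow_zero] at h; omega
        · have h' : 2 ^ a + 2 ^ b = 2 ^ c + 2 ^ d := by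
            rw [pow_succ, pow_succ, pow_succ, pow_succ] at h; omega
          rcases ih b c d h' with ⟨e1, e2⟩ | ⟨e1, e2⟩
          · left; omega
          · right; omega

/-- differences of powers of two determine the pair -/
theorem diff_inj {i j i' j' : ℕ} (h : i ≠ j)
    (he : (2 : ℤ) ^ j - 2 ^ i - (2 ^ j' - 2 ^ i') = 0) : i = i' ∧ j = j' := by
  have h1 : (2 : ℤ) ^ j + 2 ^ i' = 2 ^ j' + 2 ^ i := by linarith
  have h2 : 2 ^ j + 2 ^ i' = 2 ^ j' + 2 ^ i := by exact_mod_cast h1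
  rcases pow_sum _ _ _ _ h2 with ⟨e1, e2⟩ | ⟨e1, e2⟩
  · exact ⟨e2.symm, e1⟩
  · exact absurd e1.symm h

theorem eps_lt {K i j i' j' : ℕ} (hi : i < K) (hj : j < K) (hi' : i' < K) (hj' : j' < K) :
    |(2 : ℤ) ^ j - 2 ^ i - (2 ^ j' - 2 ^ i')| < 2 ^ (K + 1) := by
  have key : ∀ l, l < K → (2 : ℤ) ^ l ≤ 2 ^ (K - 1) ∧ (0 : ℤ) < 2 ^ l := fun l hl =>
    ⟨pow_le_pow_right₀ (by norm_num) (by omega), by positivity⟩
  obtain ⟨a1, a2⟩ := key i hi
  obtain ⟨b1, b2⟩ := key j hj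
  obtain ⟨c1, c2⟩ := key i' hi'
  obtain ⟨d1, d2⟩ := key j' hj'
  have hK : (2 : ℤ) ^ (K + 1) = 4 * 2 ^ (K - 1) := by
    rw [show K + 1 = (K - 1) + 2 by omega, pow_add]; ring
  rw [abs_lt]
  constructor <;> linarith

/-- a digit near `0` -/
theorem near_mul {M b j n : ℕ} (hb : 0 < b)
    (h : ¬ (M ≤ n / b ^ j % b ∧ n / b ^ j % b + M + 1 ≤ b)) :
    ∃ q : ℤ, |(n : ℤ) - q * b ^ (j + 1)| ≤ M * b ^ j := by
  set x := n / b ^ j % b with hx
  have hxb : x < b := Nat.mod_lt _ hb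
  have hbj : 0 < b ^ j := pow_pos hb j
  have h1 : n % b ^ (j + 1) = n % b ^ j + b ^ j * x := Nat.mod_pow_succ
  have h2 : n = b ^ (j + 1) * (n / b ^ (j + 1)) + n % b ^ (j + 1) := (Nat.div_add_mod _ _).symm
  have h3 : n % b ^ j < b ^ j := Nat.mod_lt _ hbj
  have h2z : (n : ℤ) = (b : ℤ) ^ (j + 1) * ((n / b ^ (j + 1) : ℕ) : ℤ) +
      (((n % b ^ j : ℕ) : ℤ) + (b : ℤ) ^ j * (x : ℤ)) := by
    have : n = b ^ (j + 1) * (n / b ^ (j + 1)) + (n % b ^ j + b ^ j * x) := by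
      rw [← h1]; exact h2
    exact_mod_cast this
  have h3z : ((n % b ^ j : ℕ) : ℤ) < (b : ℤ) ^ j := by exact_mod_cast h3
  have h4z : (0 : ℤ) ≤ ((n % b ^ j : ℕ) : ℤ) := Int.natCast_nonneg _
  have hbz : (0 : ℤ) < (b : ℤ) ^ j := by exact_mod_cast hbj
  have hxz : (0 : ℤ) ≤ (x : ℤ) := Int.natCast_nonneg _
  have hxbz : (x : ℤ) < b := by exact_mod_cast hxb
  by_cases hM : x < M
  · refine ⟨((n / b ^ (j + 1) : ℕ) : ℤ), ?_⟩
    have hMz : (x : ℤ) + 1 ≤ M := by exact_mod_cast hM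
    rw [abs_le]
    constructor
    · nlinarith [mul_nonneg hbz.le hxz, mul_nonneg (Int.natCast_nonneg M) hbz.le]
    · nlinarith [mul_le_mul_of_nonneg_right hMz hbz.le]
  · have hM' : b ≤ x + M := by
      by_contra hc
      exact h ⟨by omega, by omega⟩
    have hMz : (b : ℤ) - x ≤ M := by
      have : (b : ℤ) ≤ x + M := by exact_mod_cast hM'
      linarith
    refine ⟨((n / b ^ (j + 1) : ℕ) : ℤ) + 1, ?_⟩
    have e : (b : ℤ) ^ (j + 1) = b ^ j * b := pow_succ _ _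
    rw [abs_le]
    constructor
    · nlinarith [mul_le_mul_of_nonneg_right hMz hbz.le]
    · nlinarith [mul_nonneg (Int.natCast_nonneg M) hbz.le, mul_lt_mul_of_pos_left hxbz hbz]

/-- the geometric sums -/
def gs (b n : ℕ) : ℕ := ∑ l ∈ Finset.range n, b ^ l

theorem gs_succ (b n : ℕ) : gs b (n + 1) = gs b n + b ^ n := Finset.sum_range_succ _ _

theorem gs_le {b : ℕ} (hb : 2 ≤ b) (n : ℕ) : gs b n + 1 ≤ b ^ n := by
  induction n with
  | zero => simp [gs]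
  | succ n ih =>
    rw [gs_succ, pow_succ]
    nlinarith [pow_pos (show 0 < b by omega) n]

theorem gs_mod (b : ℕ) {n m : ℕ} (h : n ≤ m) : ∃ t, gs b m = gs b n + b ^ n * t := by
  induction m, h using Nat.le_induction with
  | base => exact ⟨0, by simp⟩
  | succ m hm ih =>
    obtain ⟨t, ht⟩ := ih
    refine ⟨t + b ^ (m - n), ?_⟩
    rw [gs_succ, ht, mul_add, ← pow_add, Nat.add_sub_cancel' hm, add_assoc]

theorem digit_unique {M b m j K K0 : ℕ} (hM : 0 < M) (hb : 2 ^ (K + 6) * M < b) (hj : j < m)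
    (hK0 : K0 ≡ 4 * M * gs b m [MOD b ^ m]) {e : ℤ} (he : |e| < 2 ^ (K + 1)) {q : ℤ}
    (h : |(K0 : ℤ) * e - q * b ^ (j + 1)| ≤ 2 * (M * b ^ j)) : e = 0 := by
  by_contra hne
  have hb2 : 2 ≤ b := by
    have : 1 ≤ 2 ^ (K + 6) := Nat.one_le_two_pow
    nlinarith [Nat.pow_le_pow_right (show 0 < 2 by norm_num) (show 6 ≤ K + 6 by omega)]
  have hbj : (0 : ℤ) < (b : ℤ) ^ j := by positivity
  -- K0 = 4 M gs (j+1) + b^(j+1) s
  obtain ⟨t, ht⟩ := gs_mod b (show j + 1 ≤ m by omega)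
  have h1 : K0 ≡ 4 * M * gs b (j + 1) [MOD b ^ (j + 1)] := by
    have h2 : K0 ≡ 4 * M * gs b m [MOD b ^ (j + 1)] :=
      hK0.of_dvd (pow_dvd_pow b (by omega))
    refine h2.trans ?_
    rw [ht]
    have : 4 * M * (gs b (j + 1) + b ^ (j + 1) * t) =
        4 * M * gs b (j + 1) + b ^ (j + 1) * (4 * M * t) := by ring
    rw [this]
    unfold Nat.ModEq
    rw [Nat.add_mul_mod_self_left]
  have h3 : ∃ s : ℤ, (K0 : ℤ) = 4 * M * (gs b (j + 1) : ℕ) + b ^ (j + 1) * s := by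
    have h4 := (Nat.modEq_iff_dvd.1 h1.symm)
    obtain ⟨s, hs⟩ := h4
    refine ⟨s, ?_⟩
    push_cast at hs ⊢
    linarith
  obtain ⟨s, hs⟩ := h3
  set g : ℤ := ((gs b (j + 1) : ℕ) : ℤ) with hg
  have hg1 : (b : ℤ) ^ j ≤ g := by
    rw [hg]
    have : b ^ j ≤ gs b (j + 1) := by rw [gs_succ]; omega
    exact_mod_cast this
  have hg2 : g ≤ 2 * (b : ℤ) ^ j := by
    rw [hg]
    have h5 := gs_le hb2 j
    have : gs b (j + 1) ≤ 2 * b ^ j := by rw [gs_succ]; omega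
    exact_mod_cast this
  have hMz : (1 : ℤ) ≤ M := by exact_mod_cast hM
  have hbz : (2 : ℤ) ^ (K + 6) * M < b := by exact_mod_cast hb
  have hK6 : (2 : ℤ) ^ (K + 6) = 32 * 2 ^ (K + 1) := by
    rw [show K + 6 = (K + 1) + 5 by omega, pow_add]; ring
  have hP : (0 : ℤ) < 2 ^ (K + 1) := by positivity
  -- the reduced inequality
  have h6 : |4 * (M : ℤ) * g * e - (q - s * e) * b ^ (j + 1)| ≤ 2 * (M * b ^ j) := by
    have : 4 * (M : ℤ) * g * e - (q - s * e) * b ^ (j + 1) = (K0 : ℤ) * e - q * b ^ (j + 1) := by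
      rw [hs]; ring
    rw [this]; exact h
  have habs : |4 * (M : ℤ) * g * e| = 4 * M * g * |e| := by
    rw [abs_mul, abs_of_nonneg (by positivity)]
  have he1 : (1 : ℤ) ≤ |e| := Int.one_le_abs hne
  have hg0 : (0 : ℤ) < g := lt_of_lt_of_le hbj hg1
  by_cases hq : q - s * e = 0
  · rw [hq, zero_mul, sub_zero, habs] at h6
    have : 4 * (M : ℤ) * b ^ j ≤ 4 * M * g * |e| := by
      have a1 : 4 * (M : ℤ) * b ^ j ≤ 4 * M * g := by nlinarith
      have a2 : 4 * (M : ℤ) * g ≤ 4 * M * g * |e| := by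
        have : (0 : ℤ) ≤ 4 * M * g := by positivity
        nlinarith
      linarith
    have h7 : (0 : ℤ) < M * b ^ j := by positivity
    nlinarith
  · have hq1 : (1 : ℤ) ≤ |q - s * e| := Int.one_le_abs hq
    have h8 : |(q - s * e) * (b : ℤ) ^ (j + 1)| ≤ 4 * M * g * |e| + 2 * (M * b ^ j) := by
      have h9 : (q - s * e) * (b : ℤ) ^ (j + 1) = 4 * (M : ℤ) * g * e -
          (4 * (M : ℤ) * g * e - (q - s * e) * b ^ (j + 1)) := by ring
      calc |(q - s * e) * (b : ℤ) ^ (j + 1)| ≤ |4 * (M : ℤ) * g * e| +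
          |4 * (M : ℤ) * g * e - (q - s * e) * b ^ (j + 1)| := by
            rw [h9]; exact (abs_sub _ _).trans (by rw [← h9])
        _ ≤ _ := by rw [habs]; linarith
    have h10 : (b : ℤ) ^ (j + 1) ≤ |(q - s * e) * (b : ℤ) ^ (j + 1)| := by
      rw [abs_mul, abs_of_pos (show (0 : ℤ) < (b : ℤ) ^ (j + 1) by positivity)]
      nlinarith [show (0 : ℤ) < (b : ℤ) ^ (j + 1) by positivity]
    have h11 : 4 * (M : ℤ) * g * |e| ≤ 4 * M * (2 * b ^ j) * 2 ^ (K + 1) := by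
      apply mul_le_mul
      · nlinarith
      · exact he.le
      · exact abs_nonneg _
      · positivity
    have h12 : (b : ℤ) ^ (j + 1) ≤ (8 * M * 2 ^ (K + 1) + 2 * M) * b ^ j := by
      calc (b : ℤ) ^ (j + 1) ≤ 4 * M * (2 * b ^ j) * 2 ^ (K + 1) + 2 * (M * b ^ j) := by
            linarith
        _ = _ := by ring
    rw [pow_succ, mul_comm] at h12
    have h13 : (b : ℤ) ≤ 8 * M * 2 ^ (K + 1) + 2 * M := le_of_mul_le_mul_right h12 hbj
    rw [hK6] at hbz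
    nlinarith [mul_pos hP (show (0 : ℤ) < M by linarith)]

open Classical in
/-- **SPOIL LEAF.** -/
theorem spoil (K m M b N1 : ℕ) (Ms : Finset ℕ) (hM : 0 < M)
    (hk : ∀ k ∈ Ms, 2 ^ (K + 1) < k ∧ k ∣ M) (hb : 2 ^ (K + 6) * M < b)
    (hcop : Nat.Coprime b M) :
    ∃ (K0 : ℕ) (c : ℕ → ℕ), (∀ l, c l = 2 ^ l * K0) ∧ 4 * N1 < K0 ∧
      (∀ i j, i < j → c i + 4 * N1 < c j) ∧
      (∀ i j i' j', i ≠ j → i < K → j < K → i' < K → j' < K → (i ≠ i' ∨ j ≠ j') →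
        (4 * N1 : ℤ) < |((c j : ℤ) - c i) - (c j' - c i')|) ∧
      ∀ T : ℤ, ∃ J : Finset (ℕ × ℕ), J.card ≤ Ms.card + m ∧
        ∀ i j n : ℕ, i < K → j < K → i ≠ j → (n : ℤ) = T + c j - c i → Bad Ms M b m n →
          (i, j) ∈ J := by
  classical
  have hcop' : Nat.Coprime M (b ^ m) := (Nat.Coprime.pow_left m hcop).symm
  obtain ⟨K1, hK1, hK2⟩ := Nat.chineseRemainder hcop' 1 (4 * M * gs b m)
  have hb0 : 0 < b := by omega
  have hbm : 0 < b ^ m := pow_pos hb0 m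
  set K0 := K1 + M * b ^ m * (4 * N1 + 1) with hK0
  have hKM : K0 ≡ 1 [MOD M] := by
    rw [hK0, mul_assoc]
    unfold Nat.ModEq at hK1 ⊢
    rw [Nat.add_mul_mod_self_left]; exact hK1
  have hKb : K0 ≡ 4 * M * gs b m [MOD b ^ m] := by
    rw [hK0, mul_comm M, mul_assoc]
    unfold Nat.ModEq at hK2 ⊢
    rw [Nat.add_mul_mod_self_left]; exact hK2
  have hKN : 4 * N1 < K0 := by
    have h1 : 1 ≤ M * b ^ m := Nat.mul_pos hM hbm
    have : 4 * N1 + 1 ≤ M * b ^ m * (4 * N1 + 1) := Nat.le_mul_of_pos_left _ h1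
    omega
  refine ⟨K0, fun l => 2 ^ l * K0, fun l => rfl, hKN, ?_, ?_, ?_⟩
  · intro i j hij
    have h1 : 2 ^ (i + 1) ≤ 2 ^ j := Nat.pow_le_pow_right (by norm_num) hij
    have h2 : 1 ≤ 2 ^ i := Nat.one_le_two_pow
    have h3 : 2 ^ i * K0 + K0 ≤ 2 ^ j * K0 := by
      rw [pow_succ] at h1
      nlinarith
    show 2 ^ i * K0 + 4 * N1 < 2 ^ j * K0
    omega
  · intro i j i' j' hij hi hj hi' hj' hne
    have h1 : (2 : ℤ) ^ j - 2 ^ i - (2 ^ j' - 2 ^ i') ≠ 0 := by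
      intro h0
      obtain ⟨e1, e2⟩ := diff_inj hij h0
      rcases hne with h | h
      · exact h e1
      · exact h e2
    have h2 : (((2 ^ j * K0 : ℕ) : ℤ) - ((2 ^ i * K0 : ℕ) : ℤ)) -
        (((2 ^ j' * K0 : ℕ) : ℤ) - ((2 ^ i' * K0 : ℕ) : ℤ)) =
        (K0 : ℤ) * ((2 : ℤ) ^ j - 2 ^ i - (2 ^ j' - 2 ^ i')) := by
      push_cast; ring
    rw [h2, abs_mul, abs_of_nonneg (Int.natCast_nonneg K0)]
    have h3 : (1 : ℤ) ≤ |(2 : ℤ) ^ j - 2 ^ i - (2 ^ j' - 2 ^ i')| := Int.one_le_abs h1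
    have h4 : (4 * N1 : ℤ) < K0 := by exact_mod_cast hKN
    nlinarith [Int.natCast_nonneg K0]
  · intro T
    let c : ℕ → ℕ := fun l => 2 ^ l * K0
    let PP : Finset (ℕ × ℕ) := ((Finset.range K) ×ˢ (Finset.range K)).filter (fun p => p.1 ≠ p.2)
    let Ev : (ℕ → Prop) → Finset (ℕ × ℕ) := fun Q =>
      PP.filter (fun p => ∃ n : ℕ, (n : ℤ) = T + c p.2 - c p.1 ∧ Q n)
    have hEv : ∀ Q : ℕ → Prop,
        (∀ p ∈ PP, ∀ p' ∈ PP, ∀ n n' : ℕ, (n : ℤ) = T + c p.2 - c p.1 →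
          (n' : ℤ) = T + c p'.2 - c p'.1 → Q n → Q n' →
          (2 : ℤ) ^ p.2 - 2 ^ p.1 - (2 ^ p'.2 - 2 ^ p'.1) = 0) → (Ev Q).card ≤ 1 := by
      intro Q hQ
      rw [Finset.card_le_one]
      intro p hp p' hp'
      obtain ⟨hp1, n, hn, hq⟩ := Finset.mem_filter.1 hp
      obtain ⟨hp1', n', hn', hq'⟩ := Finset.mem_filter.1 hp'
      have h0 := hQ p hp1 p' hp1' n n' hn hn' hq hq'
      obtain ⟨e1, e2⟩ := diff_inj (Finset.mem_filter.1 hp1).2 h0
      exact Prod.ext e1 e2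
    have hdif : ∀ p p' : ℕ × ℕ, ∀ n n' : ℕ, (n : ℤ) = T + c p.2 - c p.1 →
        (n' : ℤ) = T + c p'.2 - c p'.1 →
        (n : ℤ) - n' = (K0 : ℤ) * ((2 : ℤ) ^ p.2 - 2 ^ p.1 - (2 ^ p'.2 - 2 ^ p'.1)) := by
      intro p p' n n' h1 h2
      rw [h1, h2]
      simp only [c]
      push_cast; ring
    have hEk : ∀ k ∈ Ms, (Ev (fun n => k ∣ n)).card ≤ 1 := by
      intro k hkm
      obtain ⟨hk1, hk2⟩ := hk k hkm
      apply hEv
      intro p hp p' hp' n n' h1 h2 h3 h4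
      have h5 := hdif p p' n n' h1 h2
      have h6 : (k : ℤ) ∣ (K0 : ℤ) * ((2 : ℤ) ^ p.2 - 2 ^ p.1 - (2 ^ p'.2 - 2 ^ p'.1)) := by
        rw [← h5]
        exact dvd_sub (Int.natCast_dvd_natCast.2 h3) (Int.natCast_dvd_natCast.2 h4)
      have h7 : Nat.Coprime k K0 := by
        have h8 : K0 ≡ 1 [MOD k] := hKM.of_dvd hk2
        have h9 : Nat.gcd K0 k = Nat.gcd 1 k := Nat.ModEq.gcd_eq h8
        rw [Nat.gcd_one_left] at h9
        exact (show Nat.Coprime K0 k from h9).symm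
      have h8 : (k : ℤ) ∣ ((2 : ℤ) ^ p.2 - 2 ^ p.1 - (2 ^ p'.2 - 2 ^ p'.1)) :=
        IsCoprime.dvd_of_dvd_mul_left (Nat.isCoprime_iff_coprime.2 h7) h6
      obtain ⟨q1, q2⟩ := Finset.mem_product.1 (Finset.mem_filter.1 hp).1
      obtain ⟨r1, r2⟩ := Finset.mem_product.1 (Finset.mem_filter.1 hp').1
      have h9 := eps_lt (Finset.mem_range.1 q1) (Finset.mem_range.1 q2) (Finset.mem_range.1 r1)
        (Finset.mem_range.1 r2)
      have h10 : (2 : ℤ) ^ (K + 1) < k := by exact_mod_cast hk1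
      exact Int.eq_zero_of_abs_lt_dvd h8 (h9.trans h10)
    have hEd : ∀ j ∈ Finset.range m,
        (Ev (fun n => ¬ (M ≤ n / b ^ j % b ∧ n / b ^ j % b + M + 1 ≤ b))).card ≤ 1 := by
      intro j hj
      apply hEv
      intro p hp p' hp' n n' h1 h2 h3 h4
      obtain ⟨q, hq⟩ := near_mul hb0 h3
      obtain ⟨q', hq'⟩ := near_mul hb0 h4
      obtain ⟨q1, q2⟩ := Finset.mem_product.1 (Finset.mem_filter.1 hp).1
      obtain ⟨r1, r2⟩ := Finset.mem_product.1 (Finset.mem_filter.1 hp').1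
      have h9 := eps_lt (Finset.mem_range.1 q1) (Finset.mem_range.1 q2) (Finset.mem_range.1 r1)
        (Finset.mem_range.1 r2)
      refine digit_unique (q := q - q') hM hb (Finset.mem_range.1 hj) hKb h9 ?_
      rw [← hdif p p' n n' h1 h2]
      have : (n : ℤ) - n' - (q - q') * b ^ (j + 1) =
          ((n : ℤ) - q * b ^ (j + 1)) - ((n' : ℤ) - q' * b ^ (j + 1)) := by ring
      rw [this]
      exact (abs_sub _ _).trans (by linarith)
    refine ⟨(Ms.biUnion fun k => Ev (fun n => k ∣ n)) ∪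
      ((Finset.range m).biUnion fun j =>
        Ev (fun n => ¬ (M ≤ n / b ^ j % b ∧ n / b ^ j % b + M + 1 ≤ b))), ?_, ?_⟩
    · refine (Finset.card_union_le _ _).trans (Nat.add_le_add ?_ ?_)
      · refine (Finset.card_biUnion_le_card_mul _ _ 1 hEk).trans (by simp)
      · refine (Finset.card_biUnion_le_card_mul _ _ 1 hEd).trans (by simp)
    · intro i j n hi hj hij hn hbad
      have hPP : (i, j) ∈ PP := Finset.mem_filter.2
        ⟨Finset.mem_product.2 ⟨Finset.mem_range.2 hi, Finset.mem_range.2 hj⟩, hij⟩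
      rcases hbad with ⟨k, hkm, hkn⟩ | ⟨l, hl, hln⟩
      · refine Finset.mem_union_left _ (Finset.mem_biUnion.2 ⟨k, hkm, ?_⟩)
        exact Finset.mem_filter.2 ⟨hPP, n, hn, hkn⟩
      · refine Finset.mem_union_right _ (Finset.mem_biUnion.2 ⟨l, Finset.mem_range.2 hl, ?_⟩)
        exact Finset.mem_filter.2 ⟨hPP, n, hn, hln⟩

end Crest.Agent.R320.Sp_353
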