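import Mathlib

/-!
helper45, row 320: SPOIL LEAF (ruler) of the plan 13:47Z.
`c l = 2 ^ l * K0`, `K0 = 1` mod `M`, `K0 = 4 M (1 + b + .. + b ^ (m-1))` mod `b ^ m`, `K0` large.
Every modulus `k` in `Ms` and every digit level `l < m` spoils at most one ordered pair.
-/

set_option autoImplicit false

namespace Crest.Agent.R320.Sp_45

def Bad (Ms : Finset ℕ) (M b m : ℕ) (n : ℕ) : Prop :=
  (∃ k ∈ Ms, k ∣ n) ∨ ∃ j < m, ¬ (M ≤ n / b ^ j % b ∧ n / b ^ j % b + M + 1 ≤ b)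

theorem pow_aux {i j i' j' : ℕ} (hij : i < j) (hij' : i' < j')
    (h : (2 : ℤ) ^ j - 2 ^ i = 2 ^ j' - 2 ^ i') : i = i' ∧ j = j' := by
  have key : ∀ {a b a' b' : ℕ}, a < b → a' < b' →
      (2 : ℤ) ^ b - 2 ^ a = 2 ^ b' - 2 ^ a' → ¬ b < b' := by
    intro a b a' b' _ hab' he hlt
    obtain ⟨t, rfl⟩ : ∃ t, b' = t + 1 := ⟨b' - 1, by omega⟩
    have h1 : (2 : ℤ) ^ b ≤ 2 ^ t := pow_le_pow_right₀ (by norm_num) (by omega)
    have h2 : (2 : ℤ) ^ a' ≤ 2 ^ t := pow_le_pow_right₀ (by norm_num) (by omega)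
    have h3 : (0 : ℤ) < 2 ^ a := by positivity
    rw [pow_succ] at he
    linarith
  have hj : j = j' := by
    rcases lt_trichotomy j j' with hlt | heq | hgt
    · exact absurd hlt (key hij hij' h)
    · exact heq
    · exact absurd hgt (key hij' hij h.symm)
  subst hj
  refine ⟨?_, rfl⟩
  have h4 : (2 : ℤ) ^ i = 2 ^ i' := by linarith
  have h5 : (2 : ℕ) ^ i = 2 ^ i' := by exact_mod_cast h4
  exact Nat.pow_right_injective (le_refl 2) h5

theorem golomb {i j i' j' : ℕ} (hij : i ≠ j) (hij' : i' ≠ j')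
    (h : (2 : ℤ) ^ j - 2 ^ i = 2 ^ j' - 2 ^ i') : i = i' ∧ j = j' := by
  have mono : ∀ {a b : ℕ}, a < b → (2 : ℤ) ^ a < 2 ^ b := fun hab =>
    pow_lt_pow_right₀ (by norm_num) hab
  rcases lt_or_gt_of_ne hij with h1 | h1 <;> rcases lt_or_gt_of_ne hij' with h2 | h2
  · exact pow_aux h1 h2 h
  · have := mono h1; have := mono h2; exfalso; linarith
  · have := mono h1; have := mono h2; exfalso; linarith
  · have h3 : (2 : ℤ) ^ i - 2 ^ j = 2 ^ i' - 2 ^ j' := by linarith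
    obtain ⟨ha, hb⟩ := pow_aux h1 h2 h3
    exact ⟨hb, ha⟩

theorem diff_bound {K i j i' j' : ℕ} (hi : i < K) (hj : j < K) (hi' : i' < K) (hj' : j' < K) :
    |((2 : ℤ) ^ j - 2 ^ i) - (2 ^ j' - 2 ^ i')| < 2 ^ (K + 1) := by
  obtain ⟨t, rfl⟩ : ∃ t, K = t + 1 := ⟨K - 1, by omega⟩
  have up : ∀ a, a < t + 1 → (2 : ℤ) ^ a ≤ 2 ^ t := fun a ha =>
    pow_le_pow_right₀ (by norm_num) (by omega)
  have lo : ∀ a : ℕ, (0 : ℤ) < 2 ^ a := fun a => by positivity
  have e : (2 : ℤ) ^ (t + 1 + 1) = 4 * 2 ^ t := by rw [pow_succ, pow_succ]; ring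
  rw [e, abs_lt]
  have := up i hi; have := up j hj; have := up i' hi'; have := up j' hj'
  have := lo i; have := lo j; have := lo i'; have := lo j'
  constructor <;> linarith

/-- a digit outside `[M, b-1-M]` puts `n` within `M b^l` of a multiple of `b^(l+1)` -/
theorem near {M b l n : ℕ} (hb : 0 < b)
    (h : ¬ (M ≤ n / b ^ l % b ∧ n / b ^ l % b + M + 1 ≤ b)) :
    ∃ q : ℤ, |(n : ℤ) - q * (b : ℤ) ^ (l + 1)| ≤ M * (b : ℤ) ^ l := by
  set B := b ^ l with hB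
  have hBpos : 0 < B := by rw [hB]; positivity
  have e1 : n = B * (n / B) + n % B := (Nat.div_add_mod n B).symm
  have e2 : n / B = b * (n / B / b) + n / B % b := (Nat.div_add_mod (n / B) b).symm
  have l1 : n % B < B := Nat.mod_lt _ hBpos
  have l2 : n / B % b < b := Nat.mod_lt _ hb
  generalize hx : n / B = x at *
  generalize hd : x % b = d at *
  generalize hy : x / b = y at *
  generalize hr : n % B = r at *
  have e3 : (n : ℤ) = (y : ℤ) * ((b : ℤ) * B) + d * B + r := by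
    have h0 : n = B * (b * y + d) + r := by rw [← e2]; exact e1
    have : (n : ℤ) = B * (b * y + d) + r := by exact_mod_cast h0
    rw [this]; ring
  have hpow : (b : ℤ) ^ (l + 1) = (b : ℤ) * B := by
    rw [hB]; push_cast; rw [pow_succ]; ring
  have hpow' : (b : ℤ) ^ l = (B : ℤ) := by rw [hB]; push_cast; rfl
  rw [hpow, hpow']
  have hr' : (r : ℤ) < B := by exact_mod_cast l1
  have hr0 : (0 : ℤ) ≤ r := Int.natCast_nonneg _
  have hB0 : (0 : ℤ) < B := by exact_mod_cast hBpos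
  by_cases hdM : d < M
  · refine ⟨y, ?_⟩
    have e4 : (n : ℤ) - y * ((b : ℤ) * B) = d * B + r := by rw [e3]; ring
    rw [e4, abs_of_nonneg (by positivity)]
    have : (d : ℤ) + 1 ≤ M := by exact_mod_cast hdM
    nlinarith
  · have hdb : b < d + M + 1 := by
      by_contra hcon
      exact h ⟨by omega, by omega⟩
    refine ⟨y + 1, ?_⟩
    have e4 : (n : ℤ) - ((y : ℤ) + 1) * ((b : ℤ) * B) = d * B + r - b * B := by rw [e3]; ring
    rw [e4]
    have h1 : (b : ℤ) ≤ d + M := by exact_mod_cast (by omega : b ≤ d + M)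
    have h2 : (d : ℤ) + 1 ≤ b := by exact_mod_cast l2
    rw [abs_le]
    constructor
    · nlinarith
    · nlinarith

/-- geometric sum `1 + b + .. + b^l` -/
def G (b : ℕ) (m : ℕ) : ℕ := ∑ l ∈ Finset.range m, b ^ l

theorem G_lo (b l : ℕ) : b ^ l ≤ G b (l + 1) := by
  unfold G
  rw [Finset.sum_range_succ]
  exact Nat.le_add_left _ _

theorem G_hi {b : ℕ} (hb : 2 ≤ b) (l : ℕ) : G b (l + 1) ≤ 2 * b ^ l := by
  induction l with
  | zero => simp [G]
  | succ l ih =>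
    unfold G at *
    rw [Finset.sum_range_succ]
    have : b ^ (l + 1) = b ^ l * b := pow_succ _ _
    nlinarith [pow_pos (show 0 < b by omega) l]

theorem G_mod {b m l : ℕ} (h : l < m) : ((b : ℤ) ^ (l + 1)) ∣ (G b m : ℤ) - G b (l + 1) := by
  unfold G
  obtain ⟨t, rfl⟩ : ∃ t, m = l + 1 + t := ⟨m - (l + 1), by omega⟩
  rw [Finset.sum_range_add]
  push_cast
  have : (∑ x ∈ Finset.range (l + 1), (b : ℤ) ^ x + ∑ x ∈ Finset.range t, (b : ℤ) ^ (l + 1 + x))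
      - ∑ x ∈ Finset.range (l + 1), (b : ℤ) ^ x
      = (b : ℤ) ^ (l + 1) * ∑ x ∈ Finset.range t, (b : ℤ) ^ x := by
    rw [Finset.mul_sum]
    have : ∀ x ∈ Finset.range t, (b : ℤ) ^ (l + 1 + x) = (b : ℤ) ^ (l + 1) * (b : ℤ) ^ x :=
      fun x _ => pow_add _ _ _
    rw [Finset.sum_congr rfl this]; ring
  rw [this]
  exact dvd_mul_right _ _

theorem exists_K0 {M b m : ℕ} (hM : 0 < M) (hb : 0 < b) (hco : Nat.Coprime b M) (N : ℕ) :
    ∃ K0 : ℕ, N < K0 ∧ (M : ℤ) ∣ (K0 : ℤ) - 1 ∧ ((b : ℤ) ^ m) ∣ (K0 : ℤ) - 4 * M * G b m := by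
  have hco' : Nat.Coprime M (b ^ m) := (Nat.Coprime.pow_left m hco).symm
  obtain ⟨k, hk1, hk2⟩ := Nat.chineseRemainder hco' 1 (4 * M * G b m)
  refine ⟨k + M * b ^ m * (N + 1), ?_, ?_, ?_⟩
  · have : 0 < M * b ^ m := by positivity
    nlinarith
  · have h1 : (M : ℤ) ∣ (k : ℤ) - 1 := by
      have := (Nat.modEq_iff_dvd.mp hk1.symm)
      simpa using this
    have : ((k + M * b ^ m * (N + 1) : ℕ) : ℤ) - 1 = ((k : ℤ) - 1) + M * (b ^ m * (N + 1)) := by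
      push_cast; ring
    rw [this]
    exact dvd_add h1 (dvd_mul_right _ _)
  · have h1 : ((b : ℤ) ^ m) ∣ (k : ℤ) - 4 * M * G b m := by
      have := (Nat.modEq_iff_dvd.mp hk2.symm)
      push_cast at this
      simpa using this
    have : ((k + M * b ^ m * (N + 1) : ℕ) : ℤ) - 4 * M * G b m
        = ((k : ℤ) - 4 * M * G b m) + b ^ m * (M * (N + 1)) := by
      push_cast; ring
    rw [this]
    exact dvd_add h1 (dvd_mul_right _ _)

theorem level_unique {M b m l K K0 : ℕ} (hM : 0 < M) (hb : 2 ^ (K + 6) * M < b) (hl : l < m)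
    (hK0 : ((b : ℤ) ^ m) ∣ (K0 : ℤ) - 4 * M * G b m) (D : ℤ) (hD0 : D ≠ 0)
    (hD : |D| < 2 ^ (K + 1)) (n n' : ℕ) (hn : (n : ℤ) - n' = D * K0)
    (h : ¬ (M ≤ n / b ^ l % b ∧ n / b ^ l % b + M + 1 ≤ b))
    (h' : ¬ (M ≤ n' / b ^ l % b ∧ n' / b ^ l % b + M + 1 ≤ b)) : False := by
  have h2K : 1 ≤ 2 ^ (K + 6) := Nat.one_le_two_pow
  have hbpos : 0 < b := by omega
  have hb2 : 2 ≤ b := by nlinarith
  obtain ⟨q, hq⟩ := near hbpos h
  obtain ⟨q', hq'⟩ := near hbpos h'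
  have hdiv : ((b : ℤ) ^ (l + 1)) ∣ (K0 : ℤ) - 4 * M * G b (l + 1) := by
    have h1 : ((b : ℤ) ^ (l + 1)) ∣ (b : ℤ) ^ m := pow_dvd_pow _ (by omega)
    have h2 := dvd_trans h1 hK0
    have h3 := G_mod (b := b) hl
    have h4 : (K0 : ℤ) - 4 * M * G b (l + 1)
        = ((K0 : ℤ) - 4 * M * G b m) + 4 * M * ((G b m : ℤ) - G b (l + 1)) := by ring
    rw [h4]
    exact dvd_add h2 (dvd_mul_of_dvd_right h3 _)
  obtain ⟨s, hs⟩ := hdiv
  set B : ℤ := (b : ℤ) ^ l with hB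
  have hBpos : 0 < B := by rw [hB]; positivity
  have hpow : (b : ℤ) ^ (l + 1) = b * B := by rw [hB, pow_succ]; ring
  rw [hpow] at hq hq' hs
  have g1 : B ≤ (G b (l + 1) : ℤ) := by
    have := G_lo b l
    rw [hB]; exact_mod_cast this
  have g2 : (G b (l + 1) : ℤ) ≤ 2 * B := by
    have := G_hi hb2 l
    rw [hB]; exact_mod_cast this
  generalize (G b (l + 1) : ℤ) = g at *
  have hg0 : 0 ≤ g := le_trans hBpos.le g1
  -- D * 4 M g = Q * (b B) + err
  have e1 : D * (4 * M * g) = (q - q' - D * s) * (b * B) + (((n : ℤ) - q * (b * B)) - ((n' : ℤ) - q' * (b * B))) := by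
    have : (K0 : ℤ) = 4 * M * g + b * B * s := by linarith
    have e2 : (n : ℤ) - n' = D * (4 * M * g + b * B * s) := by rw [← this]; exact hn
    linear_combination -e2
  set Q : ℤ := q - q' - D * s with hQ
  set err : ℤ := (((n : ℤ) - q * (b * B)) - ((n' : ℤ) - q' * (b * B))) with herr
  have herr_le : |err| ≤ 2 * (M * B) := by
    rw [herr]
    calc _ ≤ |(n : ℤ) - q * (b * B)| + |(n' : ℤ) - q' * (b * B)| := abs_sub _ _
      _ ≤ M * B + M * B := add_le_add hq hq'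
      _ = _ := by ring
  have hM' : (0 : ℤ) < M := by exact_mod_cast hM
  have hMB : 0 < (M : ℤ) * B := by positivity
  have hlow : 4 * (M * B) ≤ |D * (4 * M * g)| := by
    rw [abs_mul]
    have h1 : 1 ≤ |D| := Int.one_le_abs hD0
    have h4 : 0 ≤ 4 * (M : ℤ) * g := mul_nonneg (by positivity) hg0
    have h2 : |4 * (M : ℤ) * g| = 4 * M * g := abs_of_nonneg h4
    rw [h2]
    have h3 : 4 * (M * B) ≤ 4 * (M : ℤ) * g := by nlinarith
    calc 4 * (M * B) ≤ 4 * (M : ℤ) * g := h3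
      _ = 1 * (4 * (M : ℤ) * g) := by ring
      _ ≤ |D| * (4 * M * g) := mul_le_mul_of_nonneg_right h1 h4
  have hhigh : |D * (4 * M * g)| ≤ 2 ^ (K + 1) * (8 * (M * B)) := by
    rw [abs_mul]
    have h4 : 0 ≤ 4 * (M : ℤ) * g := mul_nonneg (by positivity) hg0
    have h2 : |4 * (M : ℤ) * g| = 4 * M * g := abs_of_nonneg h4
    rw [h2]
    have h3 : 4 * (M : ℤ) * g ≤ 8 * (M * B) := by nlinarith
    exact mul_le_mul hD.le h3 h4 (by positivity)
  by_cases hQ0 : Q = 0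
  · rw [hQ0, zero_mul, zero_add] at e1
    rw [e1] at hlow
    linarith
  · have h1 : 1 ≤ |Q| := Int.one_le_abs hQ0
    have h2 : b * B ≤ |Q * (b * B)| := by
      rw [abs_mul, abs_of_pos (show (0 : ℤ) < b * B by positivity)]
      have : (0 : ℤ) < b * B := by positivity
      nlinarith
    have h3 : |Q * (b * B)| ≤ |D * (4 * M * g)| + |err| := by
      have : Q * (b * B) = D * (4 * M * g) - err := by linarith
      rw [this]; exact abs_sub _ _
    have h4 : (b : ℤ) * B ≤ 2 ^ (K + 1) * (8 * (M * B)) + 2 * (M * B) := by linarith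
    have h5 : (2 ^ (K + 6) * M : ℤ) + 1 ≤ b := by exact_mod_cast hb
    have h6 : (2 : ℤ) ^ (K + 6) = 32 * 2 ^ (K + 1) := by
      rw [show K + 6 = (K + 1) + 5 by ring, pow_add]; ring
    have h7 : (1 : ℤ) ≤ 2 ^ (K + 1) := one_le_pow₀ (by norm_num)
    rw [h6] at h5
    generalize (2 : ℤ) ^ (K + 1) = W at *
    have h8 : (32 * W * M : ℤ) * B ≤ b * B :=
      mul_le_mul_of_nonneg_right (by linarith) hBpos.le
    have h9 : (32 * W * M : ℤ) * B = 32 * (W * (M * B)) := by ring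
    have h10 : W * (8 * (M * B)) = 8 * (W * (M * B)) := by ring
    have h11 : M * B ≤ W * (M * B) := le_mul_of_one_le_left hMB.le h7
    generalize W * ((M : ℤ) * B) = Z at *
    rw [h9] at h8
    rw [h10] at h4
    linarith

open Classical in
/-- **SPOIL LEAF.** -/
theorem spoil (K m r : ℕ) (Ms : Finset ℕ) (M : ℕ) (hr : Ms.card ≤ r)
    (hMs : ∀ k ∈ Ms, 4 ^ K < k ∧ k ∣ M) (hM : 0 < M) (b : ℕ) (hb : 2 ^ (K + 6) * M < b)
    (hco : Nat.Coprime b M) (N1 : ℕ) :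
    ∃ c : ℕ → ℕ, (∀ i j, i < j → c i + 4 * N1 < c j) ∧
      (∀ i j i' j', i ≠ j → i' ≠ j' → (i, j) ≠ (i', j') →
        (4 * N1 : ℤ) < |((c j : ℤ) - c i) - ((c j' : ℤ) - c i')|) ∧
      ∀ T : ℤ, ((Finset.range K ×ˢ Finset.range K).filter (fun p => p.1 ≠ p.2 ∧
        ∃ n : ℕ, (n : ℤ) = T + c p.2 - c p.1 ∧ Bad Ms M b m n)).card ≤ r + m := by
  have h2K : 1 ≤ 2 ^ (K + 6) := Nat.one_le_two_pow
  have hbpos : 0 < b := by omega
  obtain ⟨K0, hK0, hKM, hKb⟩ := exists_K0 (m := m) hM hbpos hco (4 * N1)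
  have hdiff : ∀ i j i' j' : ℕ, (((2 ^ j * K0 : ℕ) : ℤ) - (2 ^ i * K0 : ℕ))
      - (((2 ^ j' * K0 : ℕ) : ℤ) - (2 ^ i' * K0 : ℕ))
      = (((2 : ℤ) ^ j - 2 ^ i) - (2 ^ j' - 2 ^ i')) * K0 := by
    intro i j i' j'; push_cast; ring
  refine ⟨fun l => 2 ^ l * K0, ?_, ?_, ?_⟩
  · intro i j hij
    have h1 : 2 ^ i + 1 ≤ 2 ^ j := Nat.pow_lt_pow_right (by norm_num) hij
    show 2 ^ i * K0 + 4 * N1 < 2 ^ j * K0
    nlinarith
  · intro i j i' j' hij hij' hne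
    show (4 * N1 : ℤ) < |(((2 ^ j * K0 : ℕ) : ℤ) - (2 ^ i * K0 : ℕ))
      - (((2 ^ j' * K0 : ℕ) : ℤ) - (2 ^ i' * K0 : ℕ))|
    rw [hdiff, abs_mul]
    have h0 : ((2 : ℤ) ^ j - 2 ^ i) - (2 ^ j' - 2 ^ i') ≠ 0 := by
      intro h
      obtain ⟨ha, hb⟩ := golomb hij hij' (by linarith)
      exact hne (by rw [ha, hb])
    have h1 : 1 ≤ |((2 : ℤ) ^ j - 2 ^ i) - (2 ^ j' - 2 ^ i')| := Int.one_le_abs h0
    have h2 : (4 * N1 : ℤ) < K0 := by exact_mod_cast hK0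
    have h3 : |(K0 : ℤ)| = K0 := abs_of_nonneg (by positivity)
    rw [h3]
    nlinarith
  · intro T
    set P := Finset.range K ×ˢ Finset.range K with hP
    let A : ℕ → Finset (ℕ × ℕ) := fun k => P.filter (fun p => p.1 ≠ p.2 ∧
      ∃ n : ℕ, (n : ℤ) = T + (2 ^ p.2 * K0 : ℕ) - (2 ^ p.1 * K0 : ℕ) ∧ k ∣ n)
    let C : ℕ → Finset (ℕ × ℕ) := fun l => P.filter (fun p => p.1 ≠ p.2 ∧
      ∃ n : ℕ, (n : ℤ) = T + (2 ^ p.2 * K0 : ℕ) - (2 ^ p.1 * K0 : ℕ) ∧
        ¬ (M ≤ n / b ^ l % b ∧ n / b ^ l % b + M + 1 ≤ b))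
    have hsub : (P.filter (fun p => p.1 ≠ p.2 ∧
        ∃ n : ℕ, (n : ℤ) = T + (2 ^ p.2 * K0 : ℕ) - (2 ^ p.1 * K0 : ℕ) ∧ Bad Ms M b m n))
        ⊆ (Ms.biUnion A) ∪ ((Finset.range m).biUnion C) := by
      intro p hp
      rw [Finset.mem_filter] at hp
      obtain ⟨hpP, hne, n, hn, hbad⟩ := hp
      rw [Finset.mem_union, Finset.mem_biUnion, Finset.mem_biUnion]
      rcases hbad with ⟨k, hk, hkn⟩ | ⟨l, hl, hnl⟩
      · left
        exact ⟨k, hk, Finset.mem_filter.mpr ⟨hpP, hne, n, hn, hkn⟩⟩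
      · right
        exact ⟨l, Finset.mem_range.mpr hl, Finset.mem_filter.mpr ⟨hpP, hne, n, hn, hnl⟩⟩
    have memP : ∀ p : ℕ × ℕ, p ∈ P → p.1 < K ∧ p.2 < K := by
      intro p hp
      rw [hP, Finset.mem_product, Finset.mem_range, Finset.mem_range] at hp
      exact hp
    have hsubt : ∀ (p p' : ℕ × ℕ) (n n' : ℕ),
        (n : ℤ) = T + (2 ^ p.2 * K0 : ℕ) - (2 ^ p.1 * K0 : ℕ) →
        (n' : ℤ) = T + (2 ^ p'.2 * K0 : ℕ) - (2 ^ p'.1 * K0 : ℕ) →
        (n : ℤ) - n' = (((2 : ℤ) ^ p.2 - 2 ^ p.1) - (2 ^ p'.2 - 2 ^ p'.1)) * K0 := by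
      intro p p' n n' hn hn'
      rw [hn, hn']; push_cast; ring
    have hA : ∀ k ∈ Ms, (A k).card ≤ 1 := by
      intro k hk
      rw [Finset.card_le_one]
      intro p hp p' hp'
      obtain ⟨hpP, hne, n, hn, hkn⟩ := Finset.mem_filter.mp hp
      obtain ⟨hpP', hne', n', hn', hkn'⟩ := Finset.mem_filter.mp hp'
      obtain ⟨h4K, hkM⟩ := hMs k hk
      have hd := hsubt p p' n n' hn hn'
      set D : ℤ := ((2 : ℤ) ^ p.2 - 2 ^ p.1) - (2 ^ p'.2 - 2 ^ p'.1) with hDdef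
      have hk1 : (k : ℤ) ∣ (n : ℤ) - n' :=
        dvd_sub (Int.natCast_dvd_natCast.mpr hkn) (Int.natCast_dvd_natCast.mpr hkn')
      have hk2 : (k : ℤ) ∣ (K0 : ℤ) - 1 := dvd_trans (Int.natCast_dvd_natCast.mpr hkM) hKM
      have hk3 : (k : ℤ) ∣ D := by
        have : D = ((n : ℤ) - n') - D * ((K0 : ℤ) - 1) := by rw [hd]; ring
        rw [this]
        exact dvd_sub hk1 (dvd_mul_of_dvd_right hk2 _)
      have hbd : |D| < 2 ^ (K + 1) :=
        diff_bound (memP p hpP).1 (memP p hpP).2 (memP p' hpP').1 (memP p' hpP').2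
      have hKpos : 1 ≤ K := by have := (memP p hpP).1; omega
      have h24 : 2 ^ (K + 1) ≤ 4 ^ K := by
        have : (4 : ℕ) ^ K = 2 ^ (2 * K) := by rw [pow_mul]; norm_num
        rw [this]
        exact Nat.pow_le_pow_right (by norm_num) (by omega)
      have hlt : |D| < k := by
        have : ((2 ^ (K + 1) : ℕ) : ℤ) < k := by exact_mod_cast lt_of_le_of_lt h24 h4K
        push_cast at this
        linarith
      have hD0 : D = 0 := Int.eq_zero_of_abs_lt_dvd hk3 hlt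
      obtain ⟨ha, hb⟩ := golomb hne hne' (by rw [hDdef] at hD0; linarith)
      exact Prod.ext ha hb
    have hC : ∀ l ∈ Finset.range m, (C l).card ≤ 1 := by
      intro l hl
      rw [Finset.card_le_one]
      intro p hp p' hp'
      obtain ⟨hpP, hne, n, hn, hkn⟩ := Finset.mem_filter.mp hp
      obtain ⟨hpP', hne', n', hn', hkn'⟩ := Finset.mem_filter.mp hp'
      have hd := hsubt p p' n n' hn hn'
      by_contra hpp
      have hD0 : ((2 : ℤ) ^ p.2 - 2 ^ p.1) - (2 ^ p'.2 - 2 ^ p'.1) ≠ 0 := by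
        intro h
        obtain ⟨ha, hb⟩ := golomb hne hne' (by linarith)
        exact hpp (Prod.ext ha hb)
      have hbd := diff_bound (memP p hpP).1 (memP p hpP).2 (memP p' hpP').1 (memP p' hpP').2
      exact level_unique hM hb (Finset.mem_range.mp hl) hKb _ hD0 hbd n n' hd hkn hkn'
    calc _ ≤ ((Ms.biUnion A) ∪ ((Finset.range m).biUnion C)).card := Finset.card_le_card hsub
      _ ≤ (Ms.biUnion A).card + ((Finset.range m).biUnion C).card := Finset.card_union_le _ _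
      _ ≤ Ms.card * 1 + (Finset.range m).card * 1 :=
          add_le_add (Finset.card_biUnion_le_card_mul _ _ _ hA)
            (Finset.card_biUnion_le_card_mul _ _ _ hC)
      _ ≤ r + m := by rw [Finset.card_range]; omega

end Crest.Agent.R320.Sp_45
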