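import Crest.Agent.R320.Golomb_369

/-!
# Row 320: spoil leaf (ruler against the digit / divisor bad set of 852's gadget) (helper505)
-/

set_option autoImplicit false

namespace Crest.Agent.R320.Sp_505

/-- bad totals of the gadget -/
def BadD (Ms : Finset ℕ) (M b m n : ℕ) : Prop :=
  (∃ k ∈ Ms, k ∣ n) ∨ ∃ j < m, ¬ (M ≤ n / b ^ j % b ∧ n / b ^ j % b + M + 1 ≤ b)

theorem digit_bad {M b j n : ℕ} (hb : 0 < b)
    (h : ¬ (M ≤ n / b ^ j % b ∧ n / b ^ j % b + M + 1 ≤ b)) :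
    ∃ s ρ : ℤ, (n : ℤ) = b ^ (j + 1) * s + ρ ∧ |ρ| ≤ M * b ^ j := by
  have hD : 0 < b ^ j := by positivity
  have h1 : b ^ j * (n / b ^ j) + n % b ^ j = n := Nat.div_add_mod _ _
  have h2 : b * (n / b ^ j / b) + n / b ^ j % b = n / b ^ j := Nat.div_add_mod _ _
  have h3 : n % b ^ j < b ^ j := Nat.mod_lt _ hD
  set q := n / b ^ j % b with hq
  have hqb : q < b := Nat.mod_lt _ hb
  set u := n / b ^ j / b with hu
  set r := n % b ^ j with hr
  have h4 : (n : ℤ) = b ^ (j + 1) * u + (b ^ j * q + r) := by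
    have : n = b ^ (j + 1) * u + (b ^ j * q + r) := by
      calc n = b ^ j * (n / b ^ j) + r := h1.symm
        _ = b ^ j * (b * u + q) + r := by rw [h2]
        _ = _ := by ring
    exact_mod_cast this
  have h3' : (r : ℤ) < b ^ j := by exact_mod_cast h3
  have hr0 : (0 : ℤ) ≤ r := by positivity
  have hD' : (0 : ℤ) < b ^ j := by exact_mod_cast hD
  by_cases hM : M ≤ q
  · -- q + M + 1 > b
    have hc : b ≤ q + M := by
      by_contra hc
      exact h ⟨hM, by omega⟩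
    refine ⟨u + 1, (b : ℤ) ^ j * q + r - b ^ (j + 1), ?_, ?_⟩
    · rw [h4]; ring
    · rw [abs_le]
      have hc' : (b : ℤ) ≤ q + M := by exact_mod_cast hc
      have hqb' : (q : ℤ) + 1 ≤ b := by exact_mod_cast hqb
      constructor
      · have : (b : ℤ) ^ j * b ≤ b ^ j * (q + M) := mul_le_mul_of_nonneg_left hc' hD'.le
        rw [pow_succ]
        linarith
      · have : (b : ℤ) ^ j * (q + 1) ≤ b ^ j * b := mul_le_mul_of_nonneg_left hqb' hD'.le
        have hMD : (0 : ℤ) ≤ M * b ^ j := by positivity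
        rw [pow_succ]
        linarith
  · refine ⟨u, (b : ℤ) ^ j * q + r, h4, ?_⟩
    rw [abs_of_nonneg (by positivity)]
    have hc' : (q : ℤ) + 1 ≤ M := by
      have : q + 1 ≤ M := by omega
      exact_mod_cast this
    have : (b : ℤ) ^ j * (q + 1) ≤ b ^ j * M := mul_le_mul_of_nonneg_left hc' hD'.le
    linarith

theorem e_bound {K i j i' j' : ℕ} (hi : i < K) (hj : j < K) (hi' : i' < K) (hj' : j' < K) :
    |((2 : ℤ) ^ j - 2 ^ i) - (2 ^ j' - 2 ^ i')| < 2 ^ (K + 1) := by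
  have h : ∀ t, t < K → (0 : ℤ) < 2 ^ t ∧ (2 : ℤ) ^ t < 2 ^ K := fun t ht =>
    ⟨by positivity, pow_lt_pow_right₀ (by norm_num) ht⟩
  have h1 := h i hi
  have h2 := h j hj
  have h3 := h i' hi'
  have h4 := h j' hj'
  rw [abs_lt, pow_succ]
  constructor <;> linarith [h1.1, h1.2, h2.1, h2.2, h3.1, h3.2, h4.1, h4.2]

theorem geom_le {b : ℕ} (hb2 : 2 ≤ b) (j : ℕ) : ∑ t ∈ Finset.range (j + 1), b ^ t ≤ 2 * b ^ j := by
  induction j with
  | zero => simp
  | succ j ih =>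
    rw [Finset.sum_range_succ]
    have : 2 * b ^ j ≤ b ^ (j + 1) := by
      rw [pow_succ, mul_comm (b ^ j) b]
      exact Nat.mul_le_mul_right _ hb2
    omega

theorem spoil (m K N1 : ℕ) (Ms : Finset ℕ) (M b : ℕ) (hMs : ∀ k ∈ Ms, 2 ^ (K + 1) ≤ k ∧ k ∣ M)
    (hM : 0 < M) (hb : 2 ^ (K + 5) * M < b) (hcop : Nat.Coprime b M) :
    ∃ c : ℕ → ℕ, (∀ i j, i < j → c i + 4 * N1 < c j) ∧
      (∀ i j i' j', i ≠ j → i' ≠ j' →
        |((c i : ℤ) - c j) - ((c i' : ℤ) - c j')| ≤ 4 * N1 → i = i' ∧ j = j') ∧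
      ∀ T : ℕ, (∀ i < K, c i ≤ T) →
        ∀ S : Finset (ℕ × ℕ), (∀ p ∈ S, p.1 < K ∧ p.2 < K ∧ p.1 ≠ p.2 ∧
          BadD Ms M b m (T + c p.2 - c p.1)) → S.card ≤ Ms.card + m := by
  classical
  have hb0 : 0 < b := lt_of_le_of_lt (Nat.zero_le _) hb
  set G : ℕ := ∑ t ∈ Finset.range m, b ^ t with hG
  obtain ⟨k0, hk1, hk2⟩ := Nat.chineseRemainder (Nat.Coprime.pow_left m hcop) (4 * M * G) 1
  set K0 : ℕ := k0 + b ^ m * M * (4 * N1 + 1) with hK0
  have hbm : 0 < b ^ m := by positivity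
  have hK0pos : 4 * N1 < K0 := by
    have : 1 ≤ b ^ m * M := Nat.mul_pos hbm hM
    have h2 : 1 * (4 * N1 + 1) ≤ b ^ m * M * (4 * N1 + 1) := Nat.mul_le_mul_right _ this
    omega
  have hc1 : K0 ≡ 4 * M * G [MOD b ^ m] := by
    have : K0 ≡ k0 + 0 [MOD b ^ m] := by
      refine Nat.ModEq.add_left _ ?_
      exact (Nat.modEq_zero_iff_dvd).2 ⟨M * (4 * N1 + 1), by ring⟩
    exact this.trans hk1
  have hc2 : K0 ≡ 1 [MOD M] := by
    have : K0 ≡ k0 + 0 [MOD M] := by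
      refine Nat.ModEq.add_left _ ?_
      exact (Nat.modEq_zero_iff_dvd).2 ⟨b ^ m * (4 * N1 + 1), by ring⟩
    exact this.trans hk2
  have hd1 : ((b : ℤ) ^ m) ∣ (K0 : ℤ) - 4 * M * G := by
    have := (Nat.modEq_iff_dvd.1 hc1.symm)
    push_cast at this
    exact this
  have hd2 : (M : ℤ) ∣ (K0 : ℤ) - 1 := by
    have := (Nat.modEq_iff_dvd.1 hc2.symm)
    push_cast at this
    exact this
  have hK0' : (4 * N1 : ℤ) < K0 := by exact_mod_cast hK0pos
  refine ⟨fun l => 2 ^ l * K0, ?_, ?_, ?_⟩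
  · intro i j hij
    have h1 : 2 ^ i + 1 ≤ 2 ^ j := Nat.pow_lt_pow_right (by norm_num) hij
    have h2 : (2 ^ i + 1) * K0 ≤ 2 ^ j * K0 := Nat.mul_le_mul_right _ h1
    have h3 : (2 ^ i + 1) * K0 = 2 ^ i * K0 + K0 := by ring
    simp only
    omega
  · intro i j i' j' hij hij' h
    have he : (((2 ^ i * K0 : ℕ) : ℤ) - ((2 ^ j * K0 : ℕ) : ℤ)) -
        (((2 ^ i' * K0 : ℕ) : ℤ) - ((2 ^ j' * K0 : ℕ) : ℤ)) =
        K0 * (((2 : ℤ) ^ i - 2 ^ j) - (2 ^ i' - 2 ^ j')) := by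
      push_cast; ring
    simp only at h
    rw [he, abs_mul, abs_of_nonneg (by positivity : (0 : ℤ) ≤ (K0 : ℤ))] at h
    have h0 : ((2 : ℤ) ^ i - 2 ^ j) - (2 ^ i' - 2 ^ j') = 0 := by
      by_contra hne
      have h1 : (1 : ℤ) ≤ |((2 : ℤ) ^ i - 2 ^ j) - (2 ^ i' - 2 ^ j')| := Int.one_le_abs hne
      have h2 : (K0 : ℤ) * 1 ≤ K0 * |((2 : ℤ) ^ i - 2 ^ j) - (2 ^ i' - 2 ^ j')| :=
        mul_le_mul_of_nonneg_left h1 (by positivity)
      linarith
    exact G369.pow_diff hij hij' (by linarith)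
  · intro T hT S hS
    -- integer value of the shifted total
    have hval : ∀ p : ℕ × ℕ, p.1 < K →
        ((T + 2 ^ p.2 * K0 - 2 ^ p.1 * K0 : ℕ) : ℤ) = T + K0 * ((2 : ℤ) ^ p.2 - 2 ^ p.1) := by
      intro p hp
      have h1 : 2 ^ p.1 * K0 ≤ T + 2 ^ p.2 * K0 := le_trans (hT _ hp) (Nat.le_add_right _ _)
      rw [Nat.cast_sub h1]
      push_cast; ring
    set A : ℕ → Finset (ℕ × ℕ) := fun k =>
      S.filter fun p => k ∣ (T + 2 ^ p.2 * K0 - 2 ^ p.1 * K0) with hA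
    set Dg : ℕ → Finset (ℕ × ℕ) := fun j =>
      S.filter fun p => ¬ (M ≤ (T + 2 ^ p.2 * K0 - 2 ^ p.1 * K0) / b ^ j % b ∧
        (T + 2 ^ p.2 * K0 - 2 ^ p.1 * K0) / b ^ j % b + M + 1 ≤ b) with hDg
    have hcover : S ⊆ (Ms.biUnion A) ∪ ((Finset.range m).biUnion Dg) := by
      intro p hp
      obtain ⟨_, _, _, hbad⟩ := hS p hp
      rcases hbad with ⟨k, hk, hkd⟩ | ⟨j, hj, hjd⟩
      · refine Finset.mem_union_left _ (Finset.mem_biUnion.2 ⟨k, hk, ?_⟩)
        exact Finset.mem_filter.2 ⟨hp, hkd⟩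
      · refine Finset.mem_union_right _ (Finset.mem_biUnion.2 ⟨j, Finset.mem_range.2 hj, ?_⟩)
        exact Finset.mem_filter.2 ⟨hp, hjd⟩
    have hAone : ∀ k ∈ Ms, (A k).card ≤ 1 := by
      intro k hk
      rw [Finset.card_le_one]
      intro p hp p' hp'
      obtain ⟨hpS, hpd⟩ := Finset.mem_filter.1 hp
      obtain ⟨hpS', hpd'⟩ := Finset.mem_filter.1 hp'
      obtain ⟨h1, h2, h3, _⟩ := hS p hpS
      obtain ⟨h1', h2', h3', _⟩ := hS p' hpS'
      have d1 : (k : ℤ) ∣ T + K0 * ((2 : ℤ) ^ p.2 - 2 ^ p.1) := by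
        rw [← hval p h1]; exact_mod_cast hpd
      have d2 : (k : ℤ) ∣ T + K0 * ((2 : ℤ) ^ p'.2 - 2 ^ p'.1) := by
        rw [← hval p' h1']; exact_mod_cast hpd'
      set e : ℤ := ((2 : ℤ) ^ p.2 - 2 ^ p.1) - (2 ^ p'.2 - 2 ^ p'.1) with he
      have d3 : (k : ℤ) ∣ K0 * e := by
        have := dvd_sub d1 d2
        have h4 : (T + K0 * ((2 : ℤ) ^ p.2 - 2 ^ p.1)) - (T + K0 * ((2 : ℤ) ^ p'.2 - 2 ^ p'.1)) =
            K0 * e := by rw [he]; ring
        rwa [h4] at this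
      have d4 : (k : ℤ) ∣ (K0 - 1) * e :=
        Dvd.dvd.mul_right ((Int.natCast_dvd_natCast.2 (hMs k hk).2).trans hd2) _
      have d5 : (k : ℤ) ∣ e := by
        have := dvd_sub d3 d4
        have h4 : (K0 : ℤ) * e - (K0 - 1) * e = e := by ring
        rwa [h4] at this
      have hk2 : (2 : ℤ) ^ (K + 1) ≤ k := by exact_mod_cast (hMs k hk).1
      have e0 : e = 0 := Int.eq_zero_of_abs_lt_dvd d5 (lt_of_lt_of_le (e_bound h1 h2 h1' h2') hk2)
      have := G369.pow_diff (Ne.symm h3) (Ne.symm h3') (by rw [he] at e0; linarith :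
        (2 : ℤ) ^ p.2 - 2 ^ p.1 = 2 ^ p'.2 - 2 ^ p'.1)
      exact Prod.ext this.2 this.1
    have hDone : ∀ j ∈ Finset.range m, (Dg j).card ≤ 1 := by
      intro j hj
      have hjm : j < m := Finset.mem_range.1 hj
      rw [Finset.card_le_one]
      intro p hp p' hp'
      obtain ⟨hpS, hpd⟩ := Finset.mem_filter.1 hp
      obtain ⟨hpS', hpd'⟩ := Finset.mem_filter.1 hp'
      obtain ⟨h1, h2, h3, _⟩ := hS p hpS
      obtain ⟨h1', h2', h3', _⟩ := hS p' hpS'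
      obtain ⟨s, ρ, hs, hρ⟩ := digit_bad hb0 hpd
      obtain ⟨s', ρ', hs', hρ'⟩ := digit_bad hb0 hpd'
      rw [hval p h1] at hs
      rw [hval p' h1'] at hs'
      set e : ℤ := ((2 : ℤ) ^ p.2 - 2 ^ p.1) - (2 ^ p'.2 - 2 ^ p'.1) with he
      have d1 : (K0 : ℤ) * e = b ^ (j + 1) * (s - s') + (ρ - ρ') := by
        have : (K0 : ℤ) * e = (T + K0 * ((2 : ℤ) ^ p.2 - 2 ^ p.1)) -
            (T + K0 * ((2 : ℤ) ^ p'.2 - 2 ^ p'.1)) := by rw [he]; ring
        rw [this, hs, hs']; ring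
      -- K0 modulo b^(j+1)
      set G' : ℕ := ∑ t ∈ Finset.range (j + 1), b ^ t with hG'
      have hGd : ((b : ℤ) ^ (j + 1)) ∣ (G : ℤ) - G' := by
        have h5 : G = G' + ∑ t ∈ Finset.Ico (j + 1) m, b ^ t := by
          rw [hG, hG', Finset.sum_range_add_sum_Ico _ (by omega : j + 1 ≤ m)]
        rw [h5]
        push_cast
        have h6 : (G' : ℤ) + ∑ t ∈ Finset.Ico (j + 1) m, (b : ℤ) ^ t - G' =
            ∑ t ∈ Finset.Ico (j + 1) m, (b : ℤ) ^ t := by ring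
        rw [h6]
        refine Finset.dvd_sum fun t ht => ?_
        exact pow_dvd_pow _ (Finset.mem_Ico.1 ht).1
      have hKd : ((b : ℤ) ^ (j + 1)) ∣ (K0 : ℤ) - 4 * M * G' := by
        have h5 : ((b : ℤ) ^ (j + 1)) ∣ (K0 : ℤ) - 4 * M * G :=
          (pow_dvd_pow _ (by omega)).trans hd1
        have h6 : ((b : ℤ) ^ (j + 1)) ∣ 4 * M * ((G : ℤ) - G') := Dvd.dvd.mul_left hGd _
        have := dvd_add h5 h6
        have h7 : ((K0 : ℤ) - 4 * M * G) + 4 * M * ((G : ℤ) - G') = K0 - 4 * M * G' := by ring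
        rwa [h7] at this
      have d2 : ((b : ℤ) ^ (j + 1)) ∣ 4 * M * G' * e - (ρ - ρ') := by
        have h5 : ((b : ℤ) ^ (j + 1)) ∣ ((K0 : ℤ) - 4 * M * G') * e := Dvd.dvd.mul_right hKd _
        have h6 : ((b : ℤ) ^ (j + 1)) ∣ b ^ (j + 1) * (s - s') := Dvd.intro _ rfl
        have := dvd_sub h6 h5
        have h7 : (b : ℤ) ^ (j + 1) * (s - s') - ((K0 : ℤ) - 4 * M * G') * e =
            4 * M * G' * e - (ρ - ρ') := by
          have : (b : ℤ) ^ (j + 1) * (s - s') = K0 * e - (ρ - ρ') := by rw [d1]; ring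
          rw [this]; ring
        rwa [h7] at this
      have hG'lo : b ^ j ≤ G' := by
        rw [hG', Finset.sum_range_succ]; omega
      have hb2 : 2 ≤ b := by
        have : 1 ≤ 2 ^ (K + 5) * M := Nat.mul_pos (by positivity) hM
        omega
      have hG'hi : G' ≤ 2 * b ^ j := geom_le hb2 j
      have heb := e_bound (K := K) h1 h2 h1' h2'
      rw [← he] at heb
      have hD' : (0 : ℤ) < b ^ j := by positivity
      have hM' : (0 : ℤ) < M := by exact_mod_cast hM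
      have hGhi' : (G' : ℤ) ≤ 2 * b ^ j := by exact_mod_cast hG'hi
      have hGlo' : (b : ℤ) ^ j ≤ G' := by exact_mod_cast hG'lo
      have hρρ : |ρ - ρ'| ≤ 2 * (M * b ^ j) := by
        calc |ρ - ρ'| ≤ |ρ| + |ρ'| := abs_sub _ _
          _ ≤ _ := by linarith
      have h8 : |4 * M * G' * e - (ρ - ρ')| < b ^ (j + 1) := by
        have h9 : |4 * (M : ℤ) * G' * e| ≤ 4 * M * (2 * b ^ j) * 2 ^ (K + 1) := by
          rw [abs_mul, abs_of_nonneg (by positivity : (0 : ℤ) ≤ 4 * M * G')]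
          exact mul_le_mul (by nlinarith) heb.le (abs_nonneg _) (by positivity)
        have h10 : |4 * (M : ℤ) * G' * e - (ρ - ρ')| ≤ |4 * (M : ℤ) * G' * e| + |ρ - ρ'| :=
          abs_sub _ _
        have hb' : (2 : ℤ) ^ (K + 5) * M + 1 ≤ b := by exact_mod_cast hb
        have h11 : ((2 : ℤ) ^ (K + 5) * M + 1) * b ^ j ≤ b * b ^ j :=
          mul_le_mul_of_nonneg_right hb' hD'.le
        have h12 : (b : ℤ) ^ (j + 1) = b * b ^ j := by ring
        have h13 : (2 : ℤ) ^ (K + 5) = 16 * 2 ^ (K + 1) := by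
          rw [show K + 5 = (K + 1) + 4 by ring, pow_add]; ring
        have h14 : (1 : ℤ) ≤ 2 ^ (K + 1) := one_le_pow₀ (by norm_num)
        have h15 : (M : ℤ) * b ^ j ≤ M * b ^ j * 2 ^ (K + 1) := by
          have : (0 : ℤ) ≤ M * b ^ j := by positivity
          nlinarith
        rw [h12]
        rw [h13] at h11
        nlinarith
      have h9 := Int.eq_zero_of_abs_lt_dvd d2 h8
      have e0 : e = 0 := by
        by_contra hne
        have h1e : (1 : ℤ) ≤ |e| := Int.one_le_abs hne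
        have h10 : 4 * (M : ℤ) * G' * e = ρ - ρ' := by linarith
        have h11 : |4 * (M : ℤ) * G' * e| = |ρ - ρ'| := by rw [h10]
        rw [abs_mul, abs_of_nonneg (by positivity : (0 : ℤ) ≤ 4 * M * G')] at h11
        have h12 : 4 * (M : ℤ) * b ^ j ≤ 4 * M * G' := by nlinarith
        have h13 : 4 * (M : ℤ) * b ^ j * 1 ≤ 4 * M * G' * |e| :=
          mul_le_mul h12 h1e (by norm_num) (by positivity)
        have h14 : (0 : ℤ) < M * b ^ j := by positivity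
        nlinarith
      have := G369.pow_diff (Ne.symm h3) (Ne.symm h3') (by rw [he] at e0; linarith :
        (2 : ℤ) ^ p.2 - 2 ^ p.1 = 2 ^ p'.2 - 2 ^ p'.1)
      exact Prod.ext this.2 this.1
    calc S.card ≤ ((Ms.biUnion A) ∪ ((Finset.range m).biUnion Dg)).card :=
          Finset.card_le_card hcover
      _ ≤ (Ms.biUnion A).card + ((Finset.range m).biUnion Dg).card := Finset.card_union_le _ _
      _ ≤ Ms.card + m := by
          refine add_le_add ?_ ?_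
          · calc (Ms.biUnion A).card ≤ ∑ k ∈ Ms, (A k).card := Finset.card_biUnion_le
              _ ≤ ∑ k ∈ Ms, 1 := Finset.sum_le_sum hAone
              _ = Ms.card := by simp
          · calc ((Finset.range m).biUnion Dg).card ≤ ∑ j ∈ Finset.range m, (Dg j).card :=
                Finset.card_biUnion_le
              _ ≤ ∑ j ∈ Finset.range m, 1 := Finset.sum_le_sum hDone
              _ = m := by simp

end Crest.Agent.R320.Sp_505
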