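import Mathlib

/-!
# Row 320: the ruler for the digit gadget (helper657)

Spoil leaf of lead #13673.  `Bad n` : some prime of `Ms` divides `n`, or some digit `j < m` of `n`
in base `b` is not in `[M, b - 1 - M]`.  For the ruler `c l = 2 ^ l * K0` at most `|Ms| + m` ordered
pairs of different places move a given total into `Bad`.
-/

set_option autoImplicit false

namespace Crest.Agent.R320.Sp_657

open Finset

/-- bad totals of the digit gadget -/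
def Bad (Ms : Finset ℕ) (M b m n : ℕ) : Prop :=
  (∃ k ∈ Ms, k ∣ n) ∨ ∃ j < m, ¬ (M ≤ n / b ^ j % b ∧ n / b ^ j % b + M + 1 ≤ b)

theorem two_pow_add_le {p q r s : ℕ} (h : 2 ^ p + 2 ^ q = 2 ^ r + 2 ^ s) (hpq : p ≤ q)
    (hrs : r ≤ s) : p = r ∧ q = s := by
  have h1 : 2 ^ p ≤ 2 ^ q := Nat.pow_le_pow_right (by norm_num) hpq
  have h2 : 2 ^ r ≤ 2 ^ s := Nat.pow_le_pow_right (by norm_num) hrs
  have hp := Nat.pos_of_ne_zero (pow_ne_zero p (two_ne_zero (α := ℕ)))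
  have hr := Nat.pos_of_ne_zero (pow_ne_zero r (two_ne_zero (α := ℕ)))
  have a1 : q < s + 1 := by
    rw [← Nat.pow_lt_pow_iff_right (a := 2) (by norm_num), pow_succ]; omega
  have a2 : s < q + 1 := by
    rw [← Nat.pow_lt_pow_iff_right (a := 2) (by norm_num), pow_succ]; omega
  have hqs : q = s := by omega
  subst hqs
  refine ⟨?_, rfl⟩
  have : 2 ^ p = 2 ^ r := by omega
  exact Nat.pow_right_injective (le_refl 2) this

theorem two_pow_add {p q r s : ℕ} (h : 2 ^ p + 2 ^ q = 2 ^ r + 2 ^ s) :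
    (p = r ∧ q = s) ∨ (p = s ∧ q = r) := by
  rcases le_total p q with h1 | h1 <;> rcases le_total r s with h2 | h2
  · have := two_pow_add_le h h1 h2; left; exact this
  · have := two_pow_add_le (by rw [h, add_comm]) h1 h2; right; exact this
  · have := two_pow_add_le (by rw [add_comm, h]) h1 h2; right; exact ⟨this.2, this.1⟩
  · have := two_pow_add_le (by rw [add_comm, h, add_comm]) h1 h2; left; exact ⟨this.2, this.1⟩

/-- the differences of the powers of two determine the places -/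
theorem pair_inj {i j i' j' : ℕ} (h : i ≠ j)
    (e : 2 ^ j + 2 ^ i' = 2 ^ j' + 2 ^ i) : i = i' ∧ j = j' := by
  rcases two_pow_add e with ⟨a, b⟩ | ⟨a, b⟩
  · exact ⟨b.symm, a⟩
  · exact absurd a.symm h

/-- repunit -/
def rp (b j : ℕ) : ℕ := ∑ t ∈ range j, b ^ t

theorem rp_succ (b j : ℕ) : rp b (j + 1) = rp b j + b ^ j := by
  rw [rp, sum_range_succ, rp]

theorem rp_lt (b j : ℕ) (hb : 0 < b) : rp b j * (b - 1) + 1 = b ^ j := by
  obtain ⟨a, rfl⟩ : ∃ a, b = a + 1 := ⟨b - 1, by omega⟩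
  induction j with
  | zero => simp [rp]
  | succ j ih =>
    rw [rp_succ, pow_succ, ← ih]
    simp only [Nat.add_sub_cancel]
    ring

theorem rp_split (b j d : ℕ) : rp b (j + d) = rp b j + b ^ j * rp b d := by
  induction d with
  | zero => simp [rp]
  | succ d ih => rw [← add_assoc, rp_succ, ih, rp_succ, pow_add]; ring

/-- one digit cannot be in the band for two totals which differ by `K0 * e` -/
theorem digit {M b m j K0 x e n : ℕ} (hj : j < m) (hK : K0 = 4 * M * rp b m + b ^ m * x)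
    (he : 0 < e) (hb : 4 * M * e + 2 * M + 2 ≤ b) (hM : 0 < M)
    (h1 : ¬ (M ≤ n / b ^ j % b ∧ n / b ^ j % b + M + 1 ≤ b))
    (h2 : ¬ (M ≤ (n + K0 * e) / b ^ j % b ∧ (n + K0 * e) / b ^ j % b + M + 1 ≤ b)) : False := by
  have hb0 : 0 < b := by omega
  obtain ⟨d, rfl⟩ : ∃ d, m = j + 1 + d := ⟨m - (j + 1), by omega⟩
  have hbj : 0 < b ^ j := Nat.pow_pos hb0
  obtain ⟨y, hy⟩ : ∃ y, K0 * e = 4 * M * e * rp b j + b ^ j * (4 * M * e + b * y) := by
    refine ⟨4 * M * e * rp b d + b ^ d * x * e, ?_⟩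
    rw [hK, rp_split, rp_succ, pow_add, pow_succ]
    ring
  have hlt : 4 * M * e * rp b j < b ^ j := by
    have := rp_lt b j hb0
    have h4 : 4 * M * e * rp b j ≤ (b - 1) * rp b j := Nat.mul_le_mul_right _ (by omega)
    rw [mul_comm (b - 1)] at h4
    omega
  obtain ⟨κ, hκ, hq⟩ : ∃ κ, κ ≤ 1 ∧ (n + 4 * M * e * rp b j) / b ^ j = n / b ^ j + κ := by
    have h5 : n / b ^ j ≤ (n + 4 * M * e * rp b j) / b ^ j := Nat.div_le_div_right (by omega)
    have h6 : (n + 4 * M * e * rp b j) / b ^ j ≤ (n + b ^ j) / b ^ j :=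
      Nat.div_le_div_right (by omega)
    rw [Nat.add_div_right _ hbj] at h6
    exact ⟨(n + 4 * M * e * rp b j) / b ^ j - n / b ^ j, by omega, by omega⟩
  have hdiv : (n + K0 * e) / b ^ j = n / b ^ j + κ + (4 * M * e + b * y) := by
    rw [hy, ← add_assoc, Nat.add_mul_div_left _ _ hbj, hq]
  have hmod : (n + K0 * e) / b ^ j % b = (n / b ^ j % b + (κ + 4 * M * e)) % b := by
    rw [hdiv, show n / b ^ j + κ + (4 * M * e + b * y) = (n / b ^ j + (κ + 4 * M * e)) + b * y by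
      ring, Nat.add_mul_mod_self_left, ← Nat.mod_add_mod]
  have hD : n / b ^ j % b < b := Nat.mod_lt _ hb0
  have hE1 : 4 * M ≤ 4 * M * e := Nat.le_mul_of_pos_right _ he
  rw [hmod] at h2
  generalize n / b ^ j % b = D at *
  generalize 4 * M * e = E at *
  by_cases hc : D + (κ + E) < b
  · rw [Nat.mod_eq_of_lt hc] at h2
    apply h2
    constructor
    · omega
    · by_contra h7
      apply h1
      constructor <;> omega
  · have h8 : (D + (κ + E)) % b = D + (κ + E) - b := by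
      rw [Nat.mod_eq_sub_mod (by omega), Nat.mod_eq_of_lt (by omega)]
    rw [h8] at h2
    apply h2
    constructor
    · by_contra h7
      apply h1
      constructor <;> omega
    · omega

/-- the key comparison: two pairs in the same band are equal -/
theorem same {M b m K K0 x T : ℕ} {Ms : Finset ℕ} (hM : 0 < M)
    (hMs : ∀ k ∈ Ms, 2 ^ (K + 1) < k ∧ k ∣ M) (hb : 2 ^ (K + 4) * (M + 1) < b)
    (hK : K0 = 4 * M * rp b m + b ^ m * x) (hK1 : K0 % M = 1 % M)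
    {i j i' j' : ℕ} (hi : i < K) (hj : j < K) (hi' : i' < K) (hj' : j' < K) (h : i ≠ j)
    (hT : ∀ k < K, 2 ^ k * K0 ≤ T)
    (hbad : (∃ k ∈ Ms, k ∣ T + 2 ^ j * K0 - 2 ^ i * K0 ∧ k ∣ T + 2 ^ j' * K0 - 2 ^ i' * K0) ∨
      ∃ l < m, ¬ (M ≤ (T + 2 ^ j * K0 - 2 ^ i * K0) / b ^ l % b ∧
          (T + 2 ^ j * K0 - 2 ^ i * K0) / b ^ l % b + M + 1 ≤ b) ∧
        ¬ (M ≤ (T + 2 ^ j' * K0 - 2 ^ i' * K0) / b ^ l % b ∧
          (T + 2 ^ j' * K0 - 2 ^ i' * K0) / b ^ l % b + M + 1 ≤ b)) :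
    i = i' ∧ j = j' := by
  have hp : ∀ k < K, 2 ^ k * 2 ≤ 2 ^ K := fun k hk => by
    rw [← pow_succ]; exact Nat.pow_le_pow_right (by norm_num) hk
  -- the difference of the two totals
  have key : ∀ e : ℕ, 0 < e → 2 ^ j + 2 ^ i' + e = 2 ^ j' + 2 ^ i →
      T + 2 ^ j' * K0 - 2 ^ i' * K0 = T + 2 ^ j * K0 - 2 ^ i * K0 + K0 * e := by
    intro e _ he
    have a1 := hT i hi
    have a2 := hT i' hi'
    have : (2 ^ j + 2 ^ i' + e) * K0 = (2 ^ j' + 2 ^ i) * K0 := by rw [he]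
    have e1 : (2 ^ j + 2 ^ i' + e) * K0 = 2 ^ j * K0 + 2 ^ i' * K0 + K0 * e := by ring
    have e2 : (2 ^ j' + 2 ^ i) * K0 = 2 ^ j' * K0 + 2 ^ i * K0 := by ring
    omega
  have key' : ∀ e : ℕ, 0 < e → 2 ^ j' + 2 ^ i + e = 2 ^ j + 2 ^ i' →
      T + 2 ^ j * K0 - 2 ^ i * K0 = T + 2 ^ j' * K0 - 2 ^ i' * K0 + K0 * e := by
    intro e _ he
    have a1 := hT i hi
    have a2 := hT i' hi'
    have : (2 ^ j' + 2 ^ i + e) * K0 = (2 ^ j + 2 ^ i') * K0 := by rw [he]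
    have e1 : (2 ^ j' + 2 ^ i + e) * K0 = 2 ^ j' * K0 + 2 ^ i * K0 + K0 * e := by ring
    have e2 : (2 ^ j + 2 ^ i') * K0 = 2 ^ j * K0 + 2 ^ i' * K0 := by ring
    omega
  have bnd : ∀ e : ℕ, (2 ^ j + 2 ^ i' + e = 2 ^ j' + 2 ^ i ∨ 2 ^ j' + 2 ^ i + e = 2 ^ j + 2 ^ i') →
      e ≤ 2 ^ K := by
    intro e he
    have b1 := hp i hi
    have b2 := hp j hj
    have b3 := hp i' hi'
    have b4 := hp j' hj'
    omega
  -- a multiple of a large prime
  have hdvd : ∀ k ∈ Ms, ∀ e n : ℕ, 0 < e → e ≤ 2 ^ K → k ∣ n → k ∣ n + K0 * e → False := by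
    intro k hk e n he heK h1 h2
    have h3 : k ∣ K0 * e := (Nat.dvd_add_right h1).1 h2
    have hc : Nat.Coprime k K0 := by
      have h4 : K0 % k = 1 % k := by
        have := (hMs k hk).2
        have h5 : K0 ≡ 1 [MOD M] := hK1
        exact h5.of_dvd this
      have h6 : K0 ≡ 1 [MOD k] := h4
      have := h6.gcd_eq
      rw [Nat.coprime_iff_gcd_eq_one, Nat.gcd_comm, this, Nat.gcd_one_left]
    have h7 : k ∣ e := hc.dvd_of_dvd_mul_left h3
    have h8 := Nat.le_of_dvd he h7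
    have h9 := (hMs k hk).1
    rw [pow_succ] at h9
    omega
  have hbe : ∀ e : ℕ, e ≤ 2 ^ K → 4 * M * e + 2 * M + 2 ≤ b := by
    intro e he
    have h1 : 4 * M * e ≤ 4 * M * 2 ^ K := Nat.mul_le_mul_left _ he
    have h2 : 2 ^ (K + 4) * (M + 1) = 16 * (M * 2 ^ K) + 16 * 2 ^ K := by
      rw [pow_add]; ring
    have h3 : 0 < 2 ^ K := Nat.pow_pos (by norm_num)
    have h4 : M ≤ M * 2 ^ K := Nat.le_mul_of_pos_right _ h3
    have h5 : 4 * M * 2 ^ K = 4 * (M * 2 ^ K) := by ring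
    omega
  rcases lt_trichotomy (2 ^ j + 2 ^ i') (2 ^ j' + 2 ^ i) with hlt | heq | hlt
  · exfalso
    obtain ⟨e, he⟩ : ∃ e, 2 ^ j + 2 ^ i' + e = 2 ^ j' + 2 ^ i :=
      ⟨2 ^ j' + 2 ^ i - (2 ^ j + 2 ^ i'), by omega⟩
    have he0 : 0 < e := by omega
    have heK := bnd e (Or.inl he)
    have hk := key e he0 he
    rcases hbad with ⟨k, hk1, h1, h2⟩ | ⟨l, hl, h1, h2⟩
    · rw [hk] at h2
      exact hdvd k hk1 e _ he0 heK h1 h2
    · rw [hk] at h2
      exact digit hl hK he0 (hbe e heK) hM h1 h2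
  · exact pair_inj h heq
  · exfalso
    obtain ⟨e, he⟩ : ∃ e, 2 ^ j' + 2 ^ i + e = 2 ^ j + 2 ^ i' :=
      ⟨2 ^ j + 2 ^ i' - (2 ^ j' + 2 ^ i), by omega⟩
    have he0 : 0 < e := by omega
    have heK := bnd e (Or.inr he)
    have hk := key' e he0 he
    rcases hbad with ⟨k, hk1, h1, h2⟩ | ⟨l, hl, h1, h2⟩
    · rw [hk] at h1
      exact hdvd k hk1 e _ he0 heK h2 h1
    · rw [hk] at h1
      exact digit hl hK he0 (hbe e heK) hM h2 h1

open Classical in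
/-- **the ruler** for the digit gadget of #13673 -/
theorem spoil (K N1 M b m : ℕ) (Ms : Finset ℕ) (hM : 0 < M)
    (hMs : ∀ k ∈ Ms, 2 ^ (K + 1) < k ∧ k ∣ M) (hb : 2 ^ (K + 4) * (M + 1) < b)
    (hco : Nat.Coprime b M) :
    ∃ c : ℕ → ℕ, (∀ i, 4 * N1 < c i) ∧ (∀ i j, i < j → c i + 4 * N1 < c j) ∧
      (∀ i j i' j' : ℕ, i ≠ j → (i, j) ≠ (i', j') →
        (4 * N1 : ℤ) < |((c j : ℤ) - c i) - (c j' - c i')|) ∧
      ∀ T : ℕ, (∀ k < K, c k ≤ T) →
        ((range K ×ˢ range K).filter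
          (fun p => p.1 ≠ p.2 ∧ Bad Ms M b m (T + c p.2 - c p.1))).card ≤ Ms.card + m := by
  have hb0 : 0 < b := by omega
  -- the base step
  obtain ⟨K0, hK, hK1, hbig, x, hx⟩ : ∃ K0 : ℕ, K0 ≡ 4 * M * rp b m [MOD b ^ m] ∧
      K0 ≡ 1 [MOD M] ∧ 4 * N1 < K0 ∧ ∃ x, K0 = 4 * M * rp b m + b ^ m * x := by
    have hc : Nat.Coprime (b ^ m) M := Nat.Coprime.pow_left _ hco
    obtain ⟨k, h1, h2⟩ := Nat.chineseRemainder hc (4 * M * rp b m) 1
    have hpos : 0 < b ^ m * M := Nat.mul_pos (Nat.pow_pos hb0) hM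
    set y := 4 * N1 + 1 + 4 * M * rp b m with hy
    have hle : y ≤ b ^ m * M * y := Nat.le_mul_of_pos_left _ hpos
    have e1 : k + b ^ m * M * y ≡ 4 * M * rp b m [MOD b ^ m] := by
      have : b ^ m * M * y ≡ 0 [MOD b ^ m] :=
        (Nat.modEq_zero_iff_dvd).2 ⟨M * y, by ring⟩
      simpa using h1.add this
    have e2 : k + b ^ m * M * y ≡ 1 [MOD M] := by
      have : b ^ m * M * y ≡ 0 [MOD M] :=
        (Nat.modEq_zero_iff_dvd).2 ⟨b ^ m * y, by ring⟩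
      simpa using h2.add this
    refine ⟨k + b ^ m * M * y, e1, e2, by omega, ?_⟩
    have h3 : 4 * M * rp b m ≤ k + b ^ m * M * y := by omega
    obtain ⟨x, hx⟩ := (Nat.modEq_iff_dvd' h3).1 e1.symm
    exact ⟨x, by omega⟩
  have hK0 : 0 < K0 := by omega
  have gap : ∀ i j i' j' : ℕ, i ≠ j → (i, j) ≠ (i', j') →
      (4 * N1 : ℤ) < |(((2 ^ j * K0 : ℕ) : ℤ) - (2 ^ i * K0 : ℕ)) -
        (((2 ^ j' * K0 : ℕ) : ℤ) - (2 ^ i' * K0 : ℕ))| := by
    intro i j i' j' h hne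
    have h1 : (2 ^ j + 2 ^ i' : ℕ) ≠ 2 ^ j' + 2 ^ i := by
      intro e
      obtain ⟨rfl, rfl⟩ := pair_inj h e
      exact hne rfl
    have h2 : (((2 ^ j * K0 : ℕ) : ℤ) - (2 ^ i * K0 : ℕ)) -
        (((2 ^ j' * K0 : ℕ) : ℤ) - (2 ^ i' * K0 : ℕ)) =
        (((2 ^ j + 2 ^ i' : ℕ) : ℤ) - ((2 ^ j' + 2 ^ i : ℕ) : ℤ)) * K0 := by
      push_cast; ring
    rw [h2, abs_mul]
    have h3 : (1 : ℤ) ≤ |((2 ^ j + 2 ^ i' : ℕ) : ℤ) - ((2 ^ j' + 2 ^ i : ℕ) : ℤ)| := by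
      apply Int.one_le_abs
      intro h4
      exact h1 (by exact_mod_cast sub_eq_zero.1 h4)
    have h4 : |(K0 : ℤ)| = K0 := abs_of_nonneg (by positivity)
    rw [h4]
    have h5 : (4 * N1 : ℤ) < K0 := by exact_mod_cast hbig
    nlinarith
  refine ⟨fun l => 2 ^ l * K0, ?_, ?_, gap, ?_⟩
  · intro i
    have : K0 ≤ 2 ^ i * K0 := Nat.le_mul_of_pos_left _ (Nat.pow_pos (by norm_num))
    show 4 * N1 < 2 ^ i * K0
    omega
  · intro i j hij
    have h1 : 2 ^ i * 2 ≤ 2 ^ j := by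
      rw [← pow_succ]; exact Nat.pow_le_pow_right (by norm_num) hij
    have h2 : 2 ^ i * K0 * 2 ≤ 2 ^ j * K0 := by
      have := Nat.mul_le_mul_right K0 h1
      calc 2 ^ i * K0 * 2 = 2 ^ i * 2 * K0 := by ring
        _ ≤ _ := this
    have h3 : K0 ≤ 2 ^ i * K0 := Nat.le_mul_of_pos_left _ (Nat.pow_pos (by norm_num))
    show 2 ^ i * K0 + 4 * N1 < 2 ^ j * K0
    omega
  · intro T hT
    -- events
    let E1 : ℕ → Finset (ℕ × ℕ) := fun k =>
      (range K ×ˢ range K).filter (fun p => p.1 ≠ p.2 ∧ k ∣ T + 2 ^ p.2 * K0 - 2 ^ p.1 * K0)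
    let E2 : ℕ → Finset (ℕ × ℕ) := fun l =>
      (range K ×ˢ range K).filter (fun p => p.1 ≠ p.2 ∧
        ¬ (M ≤ (T + 2 ^ p.2 * K0 - 2 ^ p.1 * K0) / b ^ l % b ∧
          (T + 2 ^ p.2 * K0 - 2 ^ p.1 * K0) / b ^ l % b + M + 1 ≤ b))
    have c1 : ∀ k ∈ Ms, (E1 k).card ≤ 1 := by
      intro k hk
      rw [Finset.card_le_one]
      rintro ⟨i, j⟩ hp ⟨i', j'⟩ hp'
      simp only [E1, mem_filter, mem_product, mem_range] at hp hp'
      obtain ⟨a, c⟩ := same (x := x) (m := m) hM hMs hb hx hK1 hp.1.1 hp.1.2 hp'.1.1 hp'.1.2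
        hp.2.1 hT (Or.inl ⟨k, hk, hp.2.2, hp'.2.2⟩)
      rw [a, c]
    have c2 : ∀ l ∈ range m, (E2 l).card ≤ 1 := by
      intro l hl
      rw [Finset.card_le_one]
      rintro ⟨i, j⟩ hp ⟨i', j'⟩ hp'
      simp only [E2, mem_filter, mem_product, mem_range] at hp hp'
      obtain ⟨a, c⟩ := same (x := x) (m := m) hM hMs hb hx hK1 hp.1.1 hp.1.2 hp'.1.1 hp'.1.2
        hp.2.1 hT (Or.inr ⟨l, mem_range.1 hl, hp.2.2, hp'.2.2⟩)
      rw [a, c]
    have hsub : (range K ×ˢ range K).filter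
        (fun p => p.1 ≠ p.2 ∧ Bad Ms M b m (T + 2 ^ p.2 * K0 - 2 ^ p.1 * K0)) ⊆
        Ms.biUnion E1 ∪ (range m).biUnion E2 := by
      rintro p hp
      rw [mem_filter] at hp
      obtain ⟨h1, h2, h3⟩ := hp
      rw [mem_union, mem_biUnion, mem_biUnion]
      rcases h3 with ⟨k, hk, h3⟩ | ⟨l, hl, h3⟩
      · exact Or.inl ⟨k, hk, mem_filter.2 ⟨h1, h2, h3⟩⟩
      · exact Or.inr ⟨l, mem_range.2 hl, mem_filter.2 ⟨h1, h2, h3⟩⟩
    have hA : (Ms.biUnion E1).card ≤ Ms.card := by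
      have := Finset.card_biUnion_le_card_mul Ms E1 1 c1
      simpa using this
    have hB : ((range m).biUnion E2).card ≤ m := by
      have := Finset.card_biUnion_le_card_mul (range m) E2 1 c2
      simpa using this
    have h4 := (Finset.card_le_card hsub).trans (Finset.card_union_le _ _)
    have h5 : ∀ a b c d e : ℕ, a ≤ b + c → b ≤ d → c ≤ e → a ≤ d + e := by intros; omega
    exact h5 _ _ _ _ _ h4 hA hB

end Crest.Agent.R320.Sp_657
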