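import Crest.Agent.R320.Sc2_679
import Crest.Agent.R320.Ruler2_537

/-!
Row 320, helper679: the spoil count of scheme 2 on words, over helper537's `card_spoiled`.
-/

set_option autoImplicit false
set_option linter.unusedSectionVars false

namespace Crest.Agent.R320.Sp_679

open Finset Crest.Agent.R320.Gad1_420 Crest.Agent.R320.Sc1_679 Crest.Agent.R320.Sc2_679
  Crest.Agent.R320.Ruler2_537 Crest.Agent.R320.ThrChain260

variable {α S V W : Type} [Monoid S] [AddCommGroup V] [AddCommGroup W]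

/-- walls of a text as a set of integers. -/
def WZ (R : List α → Prop) (t : List α) (z : ℤ) : Prop := ∃ i : ℕ, z = i ∧ R (t.drop i)

theorem WZ_gap {R : List α → Prop} {n : ℕ} {g : ℤ} (t : List α)
    (hg : ∀ (Q : List α) (d : ℕ), R Q → 0 < d → (d : ℤ) ≤ g → ¬ R (Q.drop d)) (hR : Rule R n) :
    ∀ x y, WZ R t x → WZ R t y → x < y → g < y - x := by
  rintro x y ⟨i, rfl, hi⟩ ⟨j, rfl, hj⟩ hxy
  by_contra hc
  have hij : i < j := by exact_mod_cast hxy
  obtain ⟨d, rfl⟩ := Nat.exists_eq_add_of_le hij.le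
  have := hg (t.drop i) d hi (by omega) (by push_cast at hc; linarith)
  rw [List.drop_drop] at this
  exact this hj

theorem spoil {O : Outer α} {D : Dat α S V W} {P : Par} {C : Finset ℤ} {mods : ℕ → ℕ} {r K : ℕ}
    {c : ℕ → ℕ} (hO : O.Ok) (hrule : Rule D.R D.n)
    (hM : D.M' = O.M') (hPM : P.M = O.M') (hPp : P.p0 = O.p0) (hPN : P.N1 = O.N1)
    (hz : (O.M' : ℤ) ∣ P.z) (hth : ∀ r : ℕ, (O.th r : ℤ) = P.z + P.s r)
    (hg : ∀ (Q : List α) (d : ℕ), O.Wo Q → 0 < d → (d : ℤ) ≤ 2 * (P.S + P.L) → ¬ O.Wo (Q.drop d))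
    (hgs : ∀ (Q : List α) (d : ℕ), D.R Q → 0 < d → (d : ℤ) ≤ 2 * (((D.M' * D.M : ℕ) : ℤ) + P.L) →
      ¬ D.R (Q.drop d))
    (hC : Ruler2 P ((D.M' * D.M : ℕ) : ℤ) (fun i => (mods i : ℤ)) r C)
    (hCc : ∀ k < K, (c k : ℤ) ∈ C) (hci : ∀ i j, i < j → j < K → c i < c j)
    (hp0 : ∀ k < K, c k ≤ O.p0)
    {good : ℕ → Prop} (hgood : ∀ T, ¬ good T → ∃ i < r, mods i ∣ T)
    (t : List α) (L : ℕ) :
    ∃ J : Finset ℕ, J.card ≤ 1 + (D.m + 1) + 2 * r ∧ ∀ k < K,
      (∃ j < K, j ≠ k ∧ BdL O D good L (t.drop (c k + (O.p0 - c j)))) → k ∈ J := by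
  classical
  set Wl := WZ O.Wo t with hWl
  set Ws := WZ D.R t with hWs
  set A' : ℕ → ℤ := fun k => (O.p0 : ℤ) + D.A k with hA'
  have hcard := card_spoiled (Wl := Wl) (Ws := Ws) (A := A') (K := D.m + 1) hC
    (WZ_gap t hg hO.rule) (WZ_gap t hgs hrule) 0
  refine ⟨(range K).filter fun k =>
    ∃ j < K, j ≠ k ∧ BdL O D good L (t.drop (c k + (O.p0 - c j))), ?_, ?_⟩
  swap
  · intro k hk h
    exact mem_filter.2 ⟨mem_range.2 hk, h⟩
  refine le_trans ?_ hcard
  apply card_le_card_of_injOn (fun k => (c k : ℤ))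
  swap
  · intro i hi j hj hij
    simp only [coe_filter, Set.mem_ofPred_eq, mem_range] at hi hj
    have hij' : c i = c j := by
      have h0 : (c i : ℤ) = (c j : ℤ) := hij
      exact_mod_cast h0
    rcases lt_trichotomy i j with h | h | h
    · have := hci i j h hj.1; omega
    · exact h
    · have := hci j i h hi.1; omega
  intro k hk
  simp only [coe_filter, Set.mem_ofPred_eq, mem_range] at hk
  obtain ⟨hk, j, hj, hjk, e, hN, hB⟩ := hk
  simp only [coe_filter, Set.mem_ofPred_eq]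
  refine ⟨hCc k hk, (c j : ℤ), hCc j hj, ?_, ?_⟩
  · intro h
    have h' : c j = c k := by exact_mod_cast h
    rcases lt_trichotomy j k with h1 | h1 | h1
    · have := hci j k h1 hk; omega
    · exact hjk h1
    · have := hci k j h1 hj; omega
  -- positions
  set b := c k + (O.p0 - c j) with hb
  have hpj := hp0 j hj
  have hbz : (b : ℤ) = (c k : ℤ) - c j + O.p0 := by
    rw [hb]; push_cast [Nat.cast_sub hpj]; ring
  have hfit := NZ_fit hO hN
  set T := (t.drop b).take L with hT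
  have hTd : t.drop b = T ++ (t.drop b).drop L := by rw [hT, List.take_append_drop]
  have hwo : ∀ i, O.Wo (T.drop i) → Wl ((b : ℤ) + i) := by
    intro i hi
    refine ⟨b + i, by push_cast; ring, ?_⟩
    rw [← List.drop_drop, hTd]
    exact (hO.rule.wall_left (hO.rule.wall_fit hi)).2 hi
  have hwo' : ∀ i, i + O.no ≤ T.length → O.Wo (t.drop (b + i)) → O.Wo (T.drop i) := by
    intro i hi h
    rw [← List.drop_drop, hTd] at h
    exact (hO.rule.wall_left hi).1 h
  have hws : ∀ i, D.R (T.drop i) → Ws ((b : ℤ) + i) := by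
    intro i hi
    refine ⟨b + i, by push_cast; ring, ?_⟩
    rw [← List.drop_drop, hTd]
    exact (hrule.wall_left (hrule.wall_fit hi)).2 hi
  have hdist : ∀ i : ℕ, ((b : ℤ) + i) - (0 + ((c k : ℤ) - c j)) = ((i + O.p0 : ℕ) : ℤ) := by
    intro i; rw [hbz]; push_cast; ring
  have hmod : ∀ i : ℕ, (((i + O.p0 : ℕ) : ℤ) - P.z) % P.M = (((i + O.p0) % O.M' : ℕ) : ℤ) := by
    intro i
    obtain ⟨q, hq⟩ := hz
    rw [hPM, hq, Int.sub_mul_emod_self_left, Int.natCast_mod]
  have hths : ∀ i : ℕ, P.s ((((i + O.p0 : ℕ) : ℤ) - P.z) % P.M) =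
      (O.th ((i + O.p0) % O.M') : ℤ) - P.z := by
    intro i
    rw [hmod, hth]; ring
  rcases hB with hE | hG | ⟨l, hl, s, hs1, hs2, hs3⟩
  · left
    obtain ⟨i, -, hw, h1, h2⟩ := hE
    refine ⟨(b : ℤ) + i, hwo i hw, ?_⟩
    rw [hdist, hths, hPN, abs_le]
    constructor
    · have : (O.th ((i + O.p0) % O.M') : ℤ) ≤ ((i + O.p0 + O.N1 : ℕ) : ℤ) := by exact_mod_cast h2
      push_cast at this ⊢
      linarith
    · have : ((i + O.p0 : ℕ) : ℤ) ≤ ((O.th ((i + O.p0) % O.M') + O.N1 : ℕ) : ℤ) := by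
        exact_mod_cast h1
      push_cast at this ⊢
      linarith
  · right; right
    obtain ⟨i, hi, hd⟩ := hgood _ hG
    refine ⟨i, hi, (b : ℤ) + e, ?_, ?_⟩
    · refine ⟨⟨hwo e hN.1, ?_⟩, ?_⟩
      · rw [hdist, hths]
        have : (O.th ((e + O.p0) % O.M') : ℤ) ≤ ((e + O.p0 : ℕ) : ℤ) := by exact_mod_cast hN.2.1
        linarith
      · rintro t' ht' ⟨⟨q, rfl, hq⟩, h2⟩
        rcases lt_or_ge q b with h3 | h3
        · -- left of `a' + p0`
          have h4 : P.s (((q : ℤ) - (0 + ((c k : ℤ) - c j)) - P.z) % P.M) ≤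
              (q : ℤ) - (0 + ((c k : ℤ) - c j)) - P.z := h2
          have hMpos := P.hM
          have h5 := Int.emod_nonneg ((q : ℤ) - (0 + ((c k : ℤ) - c j)) - P.z) hMpos.ne'
          obtain ⟨ρ, hρ⟩ := Int.eq_ofNat_of_zero_le h5
          rw [hρ] at h4
          have h6 := hth ρ
          have h7 := hO.big ρ
          have h8 : (q : ℤ) < b := by exact_mod_cast h3
          have h9 : ((O.p0 + O.N1 : ℕ) : ℤ) < O.th ρ := by exact_mod_cast h7
          push_cast at h9
          rw [hbz] at h8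
          have h10 : (0 : ℤ) ≤ O.N1 := by positivity
          linarith
        · obtain ⟨i', rfl⟩ := Nat.exists_eq_add_of_le h3
          push_cast at ht' h2
          have hi' : i' < e := by
            have : (i' : ℤ) < e := by linarith
            exact_mod_cast this
          have h4 := hN.2.2 i' hi' (hwo' i' (by omega) hq)
          rw [hdist, hths] at h2
          have : ((i' + O.p0 : ℕ) : ℤ) < O.th ((i' + O.p0) % O.M') := by exact_mod_cast h4
          linarith
    · have : (b : ℤ) + e - (0 + ((c k : ℤ) - c j)) - P.p0 = (e : ℤ) := by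
        rw [hbz, hPp]; ring
      rw [this, hPM, ← hM]
      have h1 : ((e : ℤ)) / (D.M' : ℤ) = ((e / D.M' : ℕ) : ℤ) := by push_cast; rfl
      rw [h1]
      show (mods i : ℤ) ∣ ((e / D.M' : ℕ) : ℤ)
      exact Int.natCast_dvd_natCast.2 hd
  · right; left
    refine ⟨l, by omega, (b : ℤ) + s, hws s hs3, ?_⟩
    rw [hdist, hA', abs_le]
    constructor
    · have : (D.A l : ℤ) ≤ ((s + D.M' * D.M : ℕ) : ℤ) := by exact_mod_cast hs1
      push_cast at this ⊢
      linarith
    · have : (s : ℤ) < ((D.A l + D.M' * D.M : ℕ) : ℤ) := by exact_mod_cast hs2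
      push_cast at this ⊢
      linarith

end Crest.Agent.R320.Sp_679
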