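import Mathlib

/-!
# Row 320: the ruler for the digit gadget (spoil leaf of lead #13673)
-/

set_option autoImplicit false

namespace Crest.Agent.R320.Sp_837

open Finset

/-- the bad clock totals of the digit gadget -/
def Bad (Ms : Finset ℕ) (M m b n : ℕ) : Prop :=
  (∃ k ∈ Ms, k ∣ n) ∨ ∃ j < m, ¬ (M ≤ n / b ^ j % b ∧ n / b ^ j % b + M + 1 ≤ b)

theorem two_pow_add {a b c d : ℕ} (h : 2 ^ a + 2 ^ b = 2 ^ c + 2 ^ d) :
    (a = c ∧ b = d) ∨ (a = d ∧ b = c) := by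
  have key : ∀ n a b c d : ℕ, a + b + c + d ≤ n → 2 ^ a + 2 ^ b = 2 ^ c + 2 ^ d →
      (a = c ∧ b = d) ∨ (a = d ∧ b = c) := by
    intro n
    induction n with
    | zero =>
      intro a b c d hn _
      left; omega
    | succ n ih =>
      intro a b c d hn h
      have inj : ∀ x y : ℕ, 2 ^ x = 2 ^ y → x = y := fun x y hxy =>
        Nat.pow_right_injective (le_refl 2) hxy
      have pos : ∀ x : ℕ, 1 ≤ 2 ^ x := fun x => Nat.one_le_two_pow
      rcases Nat.eq_zero_or_pos a with ha | ha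
      · subst ha
        rcases Nat.eq_zero_or_pos c with hc | hc
        · subst hc
          left
          exact ⟨rfl, inj _ _ (by omega)⟩
        · rcases Nat.eq_zero_or_pos d with hd | hd
          · subst hd
            right
            exact ⟨rfl, inj _ _ (by omega)⟩
          · obtain ⟨c, rfl⟩ : ∃ x, c = x + 1 := ⟨c - 1, by omega⟩
            obtain ⟨d, rfl⟩ : ∃ x, d = x + 1 := ⟨d - 1, by omega⟩
            rcases Nat.eq_zero_or_pos b with hb | hb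
            · subst hb
              rw [pow_succ, pow_succ] at h
              have := pos c
              have := pos d
              omega
            · obtain ⟨b, rfl⟩ : ∃ x, b = x + 1 := ⟨b - 1, by omega⟩
              rw [pow_succ, pow_succ, pow_succ] at h
              omega
      · obtain ⟨a, rfl⟩ : ∃ x, a = x + 1 := ⟨a - 1, by omega⟩
        rcases Nat.eq_zero_or_pos b with hb | hb
        · subst hb
          rcases Nat.eq_zero_or_pos c with hc | hc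
          · subst hc
            right
            exact ⟨inj _ _ (by omega), rfl⟩
          · rcases Nat.eq_zero_or_pos d with hd | hd
            · subst hd
              left
              exact ⟨inj _ _ (by omega), rfl⟩
            · obtain ⟨c, rfl⟩ : ∃ x, c = x + 1 := ⟨c - 1, by omega⟩
              obtain ⟨d, rfl⟩ : ∃ x, d = x + 1 := ⟨d - 1, by omega⟩
              rw [pow_succ, pow_succ, pow_succ] at h
              omega
        · obtain ⟨b, rfl⟩ : ∃ x, b = x + 1 := ⟨b - 1, by omega⟩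
          rcases Nat.eq_zero_or_pos c with hc | hc
          · subst hc
            rcases Nat.eq_zero_or_pos d with hd | hd
            · subst hd
              rw [pow_succ, pow_succ] at h
              have := pos a
              have := pos b
              omega
            · obtain ⟨d, rfl⟩ : ∃ x, d = x + 1 := ⟨d - 1, by omega⟩
              rw [pow_succ, pow_succ, pow_succ] at h
              omega
          · obtain ⟨c, rfl⟩ : ∃ x, c = x + 1 := ⟨c - 1, by omega⟩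
            rcases Nat.eq_zero_or_pos d with hd | hd
            · subst hd
              rw [pow_succ, pow_succ, pow_succ] at h
              omega
            · obtain ⟨d, rfl⟩ : ∃ x, d = x + 1 := ⟨d - 1, by omega⟩
              rw [pow_succ, pow_succ, pow_succ, pow_succ] at h
              have := ih a b c d (by omega) (by omega)
              omega
  exact key _ a b c d le_rfl h

/-- signed powers of two: a Golomb ruler -/
theorem golomb {i j k l : ℕ} (hij : i ≠ j) (_hkl : k ≠ l)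
    (h : (2 : ℤ) ^ j - 2 ^ i = 2 ^ l - 2 ^ k) : i = k ∧ j = l := by
  have h' : 2 ^ j + 2 ^ k = 2 ^ l + 2 ^ i := by
    have : ((2 : ℤ) ^ j + 2 ^ k) = 2 ^ l + 2 ^ i := by linarith
    exact_mod_cast this
  rcases two_pow_add h' with ⟨a, b⟩ | ⟨a, b⟩
  · exact ⟨b.symm, a⟩
  · exact (hij a.symm).elim

/-- a bad digit: the number is close to a multiple of `b ^ (j + 1)` -/
theorem near_of_bad {M b j n : ℕ} (hb : 0 < b)
    (h : ¬ (M ≤ n / b ^ j % b ∧ n / b ^ j % b + M + 1 ≤ b)) :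
    ∃ q : ℤ, |(n : ℤ) - q * b ^ (j + 1)| ≤ M * b ^ j := by
  have hbj : 0 < b ^ j := pow_pos hb j
  have h1 : n / b ^ j * b ^ j + n % b ^ j = n := Nat.div_add_mod' n (b ^ j)
  have h2 : n / b ^ j / b * b + n / b ^ j % b = n / b ^ j := Nat.div_add_mod' _ b
  have h3 : n % b ^ j < b ^ j := Nat.mod_lt _ hbj
  have h4 : n / b ^ j % b < b := Nat.mod_lt _ hb
  set D := n / b ^ j with hD
  set q := D / b with hq
  set e := D % b with he
  set r := n % b ^ j with hr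
  set B := b ^ j with hB
  have e1 : (n : ℤ) = ((q : ℤ) * b + e) * B + r := by
    have : n = (q * b + e) * B + r := by rw [h2, h1]
    exact_mod_cast this
  have e2 : ((b : ℤ) ^ (j + 1)) = b * B := by
    rw [pow_succ, hB]; push_cast; ring
  have e3 : ((b : ℤ) ^ j) = B := by rw [hB]; push_cast; ring
  have hr0 : (0 : ℤ) ≤ r := by positivity
  have hrB : (r : ℤ) < B := by exact_mod_cast h3
  have hB0 : (0 : ℤ) < B := by exact_mod_cast hbj
  have he0 : (0 : ℤ) ≤ e := by positivity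
  by_cases hc : M ≤ e
  · -- the digit is close to b
    have hc' : b ≤ e + M := by
      by_contra hcon
      exact h ⟨hc, by omega⟩
    refine ⟨q + 1, ?_⟩
    rw [e2, e3, e1, abs_le]
    have hc2 : (b : ℤ) ≤ e + M := by exact_mod_cast hc'
    have h5 : (e : ℤ) + 1 ≤ b := by exact_mod_cast h4
    constructor
    · have : (0 : ℤ) ≤ (e + M - b) * B := mul_nonneg (by linarith) hB0.le
      nlinarith
    · have : (0 : ℤ) ≤ (b - (e + 1)) * B := mul_nonneg (by linarith) hB0.le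
      have h6 : (0 : ℤ) ≤ M * B := by positivity
      nlinarith
  · refine ⟨q, ?_⟩
    rw [e2, e3, e1, abs_le]
    have hc2 : (e : ℤ) + 1 ≤ M := by
      have : e + 1 ≤ M := by omega
      exact_mod_cast this
    constructor
    · have h6 : (0 : ℤ) ≤ M * B := by positivity
      have h7 : (0 : ℤ) ≤ e * B := by positivity
      nlinarith
    · have : (0 : ℤ) ≤ (M - (e + 1)) * B := mul_nonneg (by linarith) hB0.le
      nlinarith

/-- geometric sums -/
theorem geom_le {b : ℕ} (hb : 2 ≤ b) (j : ℕ) :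
    b ^ j ≤ ∑ i ∈ range (j + 1), b ^ i ∧ ∑ i ∈ range (j + 1), b ^ i ≤ 2 * b ^ j := by
  induction j with
  | zero => simp
  | succ j ih =>
    rw [sum_range_succ]
    refine ⟨Nat.le_add_left _ _, ?_⟩
    have : 2 * b ^ j ≤ b ^ (j + 1) := by
      rw [pow_succ, mul_comm (b ^ j) b]
      exact Nat.mul_le_mul_right _ hb
    omega

theorem geom_split {b m j : ℕ} (hj : j < m) :
    ∃ t : ℕ, ∑ i ∈ range m, b ^ i = (∑ i ∈ range (j + 1), b ^ i) + b ^ (j + 1) * t := by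
  refine ⟨∑ i ∈ range (m - (j + 1)), b ^ i, ?_⟩
  have : m = (j + 1) + (m - (j + 1)) := by omega
  conv_lhs => rw [this, sum_range_add]
  congr 1
  rw [mul_sum]
  exact sum_congr rfl fun i _ => by rw [pow_add]

theorem abs_D {K i j : ℕ} (hi : i < K) (hj : j < K) : |(2 : ℤ) ^ j - 2 ^ i| < 2 ^ K := by
  have h1 : (2 : ℤ) ^ j < 2 ^ K := pow_lt_pow_right₀ (by norm_num) hj
  have h2 : (2 : ℤ) ^ i < 2 ^ K := pow_lt_pow_right₀ (by norm_num) hi
  have h3 : (0 : ℤ) < 2 ^ j := by positivity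
  have h4 : (0 : ℤ) < 2 ^ i := by positivity
  rw [abs_lt]; constructor <;> linarith

/-- one level: two different pairs are not both in the band of level `j` -/
theorem level_inj {K M m b j : ℕ} {K0 : ℕ} (hb : 2 ^ (K + 5) * M < b) (hM : 0 < M) (hj : j < m)
    (hK0 : ∃ t : ℕ, K0 = 4 * M * (∑ i ∈ range m, b ^ i) + b ^ m * t) {E : ℤ}
    (hE : |E| < 2 ^ (K + 1)) {e q : ℤ} (he : |e| ≤ 2 * M * b ^ j)
    (h : (K0 : ℤ) * E = q * b ^ (j + 1) + e) : E = 0 := by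
  by_contra hE0
  have hK1 : 1 ≤ 2 ^ (K + 5) := Nat.one_le_two_pow
  have hb2 : 2 ≤ b := by
    have : 1 * 1 ≤ 2 ^ (K + 5) * M := Nat.mul_le_mul hK1 hM
    omega
  obtain ⟨t, ht⟩ := hK0
  obtain ⟨s, hs⟩ := geom_split (b := b) hj
  obtain ⟨g1, g2⟩ := geom_le hb2 j
  set g := ∑ i ∈ range (j + 1), b ^ i with hg
  obtain ⟨u, hu⟩ : ∃ u : ℕ, b ^ m = b ^ (j + 1) * u :=
    ⟨b ^ (m - (j + 1)), by rw [← pow_add]; congr 1; omega⟩
  set B := b ^ j with hB
  have hBpos : 0 < B := pow_pos (by omega) j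
  have hbj1 : (b : ℤ) ^ (j + 1) = b * B := by rw [pow_succ, hB]; push_cast; ring
  have hbj1' : b ^ (j + 1) = b * B := by rw [pow_succ, hB]; ring
  -- K0 = 4 M g + (b B) w
  have hK0' : (K0 : ℤ) = 4 * M * g + (b * B) * (4 * M * s + u * t) := by
    have : K0 = 4 * M * g + (b * B) * (4 * M * s + u * t) := by
      rw [ht, hs, hu, hbj1']; ring
    exact_mod_cast this
  have h1 : 4 * (M : ℤ) * g * E = (q - (4 * M * s + u * t) * E) * (b * B) + e := by
    rw [hK0', hbj1] at h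
    linear_combination h
  set Q := q - (4 * M * s + u * t) * E with hQ
  have hMz : (0 : ℤ) < M := by exact_mod_cast hM
  have hBz : (0 : ℤ) < B := by exact_mod_cast hBpos
  have hbz : (0 : ℤ) < b := by exact_mod_cast (by omega : 0 < b)
  have g1z : (B : ℤ) ≤ g := by exact_mod_cast g1
  have g2z : (g : ℤ) ≤ 2 * B := by exact_mod_cast g2
  have hgz : (0 : ℤ) < g := lt_of_lt_of_le hBz g1z
  have hE1 : (1 : ℤ) ≤ |E| := Int.one_le_abs hE0
  have heB : |e| ≤ 2 * M * B := by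
    have : ((b : ℤ) ^ j) = B := by rw [hB]; push_cast; ring
    rw [this] at he
    exact he
  have habs : |4 * (M : ℤ) * g * E| = 4 * M * g * |E| := by
    rw [abs_mul, abs_of_pos (by positivity)]
  have hlow : 4 * (M : ℤ) * B ≤ |4 * (M : ℤ) * g * E| := by
    rw [habs]
    calc 4 * (M : ℤ) * B = 4 * M * B * 1 := by ring
      _ ≤ 4 * M * g * |E| := by
        apply mul_le_mul _ hE1 (by norm_num) (by positivity)
        exact mul_le_mul_of_nonneg_left g1z (by positivity)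
  have hup : |4 * (M : ℤ) * g * E| ≤ 2 ^ (K + 4) * M * B := by
    rw [habs]
    calc 4 * (M : ℤ) * g * |E| ≤ 4 * M * (2 * B) * 2 ^ (K + 1) := by
          apply mul_le_mul _ hE.le (abs_nonneg _) (by positivity)
          exact mul_le_mul_of_nonneg_left g2z (by positivity)
      _ = 2 ^ (K + 4) * M * B := by ring
  have hQ0 : Q ≠ 0 := by
    intro h0
    rw [h0, zero_mul, zero_add] at h1
    rw [h1] at hlow
    have := mul_pos hMz hBz
    linarith
  have hQ1 : (1 : ℤ) ≤ |Q| := Int.one_le_abs hQ0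
  have h2 : |Q * (b * B)| ≤ |4 * (M : ℤ) * g * E| + |e| := by
    have : Q * (b * B) = 4 * M * g * E - e := by linarith
    rw [this]
    exact abs_sub _ _
  have h3 : (b : ℤ) * B ≤ |Q * (b * B)| := by
    rw [abs_mul, abs_of_pos (mul_pos hbz hBz)]
    exact le_mul_of_one_le_left (mul_pos hbz hBz).le hQ1
  have h4 : (b : ℤ) * B ≤ (2 ^ (K + 4) * M + 2 * M) * B := by
    have e : ((2 : ℤ) ^ (K + 4) * M + 2 * M) * B = 2 ^ (K + 4) * M * B + 2 * M * B := by ring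
    rw [e]
    linarith
  have h5 : (b : ℤ) ≤ 2 ^ (K + 4) * M + 2 * M := le_of_mul_le_mul_right h4 hBz
  have h6 : (2 : ℤ) ^ (K + 5) * M < b := by exact_mod_cast hb
  have h7 : (1 : ℤ) ≤ 2 ^ K := by
    have : 1 ≤ 2 ^ K := Nat.one_le_two_pow
    exact_mod_cast this
  have h8 : (2 : ℤ) ^ (K + 5) = 32 * 2 ^ K := by ring
  have h9 : (2 : ℤ) ^ (K + 4) = 16 * 2 ^ K := by ring
  have h10 : (M : ℤ) ≤ 2 ^ K * M := le_mul_of_one_le_left hMz.le h7
  rw [h8, mul_assoc] at h6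
  rw [h9, mul_assoc] at h5
  linarith

open Classical in
/-- **SPOIL LEAF** (lead #13673): the wide ruler `c l = 2 ^ l * K0` for the digit gadget. -/
theorem spoil (K N1 M m b r : ℕ) (Ms : Finset ℕ) (hr : Ms.card ≤ r)
    (hMs : ∀ k ∈ Ms, 2 ^ (K + 1) < k ∧ k ∣ M) (hM : 0 < M) (hb : 2 ^ (K + 5) * M < b)
    (hcop : Nat.Coprime b M) :
    ∃ c : ℕ → ℕ, StrictMono c ∧ (∀ i j, i < j → c i + 4 * N1 < c j) ∧ 4 * N1 < c 0 ∧
      (∀ i j k l, i ≠ j → k ≠ l → ¬ (i = k ∧ j = l) →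
        4 * (N1 : ℤ) < |((c j : ℤ) - c i) - ((c l : ℤ) - c k)|) ∧
      (∀ T : ℤ, ((((range K ×ˢ range K).filter fun p => p.1 ≠ p.2 ∧
        ∃ n : ℕ, (n : ℤ) = T + c p.2 - c p.1 ∧ Bad Ms M m b n)).card ≤ r + m)) := by
  classical
  have hK1 : 1 ≤ 2 ^ (K + 5) := Nat.one_le_two_pow
  have hb0 : 0 < b := by
    have : 1 * 1 ≤ 2 ^ (K + 5) * M := Nat.mul_le_mul hK1 hM
    omega
  have hcop' : Nat.Coprime (b ^ m) M := hcop.pow_left m
  obtain ⟨k0, hk1, hk2⟩ := Nat.chineseRemainder hcop' (4 * M * ∑ i ∈ range m, b ^ i) 1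
  -- a representative larger than `4 * N1` and than the geometric value
  set G := 4 * M * ∑ i ∈ range m, b ^ i with hG
  have hbm : 0 < b ^ m := pow_pos hb0 m
  have hbmM : 1 ≤ b ^ m * M := Nat.mul_pos hbm hM
  set K0 := k0 + (4 * N1 + 1 + G) * (b ^ m * M) with hK0
  have hK0big : 4 * N1 + G < K0 := by
    have : 4 * N1 + 1 + G ≤ (4 * N1 + 1 + G) * (b ^ m * M) := Nat.le_mul_of_pos_right _ hbmM
    omega
  have hK0pos : 0 < K0 := by omega
  have m1 : K0 ≡ G [MOD b ^ m] := by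
    have : (4 * N1 + 1 + G) * (b ^ m * M) ≡ 0 [MOD b ^ m] := by
      rw [Nat.modEq_zero_iff_dvd]
      exact ⟨(4 * N1 + 1 + G) * M, by ring⟩
    simpa using hk1.add this
  have m2 : K0 ≡ 1 [MOD M] := by
    have : (4 * N1 + 1 + G) * (b ^ m * M) ≡ 0 [MOD M] := by
      rw [Nat.modEq_zero_iff_dvd]
      exact ⟨(4 * N1 + 1 + G) * b ^ m, by ring⟩
    simpa using hk2.add this
  have hrep : ∃ t : ℕ, K0 = G + b ^ m * t := by
    have hd : b ^ m ∣ K0 - G := (Nat.modEq_iff_dvd' (by omega)).1 m1.symm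
    obtain ⟨t, ht⟩ := hd
    exact ⟨t, by omega⟩
  have hD : ∀ i j : ℕ, ((2 ^ j * K0 : ℕ) : ℤ) - ((2 ^ i * K0 : ℕ) : ℤ)
      = K0 * ((2 : ℤ) ^ j - 2 ^ i) := by
    intro i j; push_cast; ring
  refine ⟨fun l => 2 ^ l * K0, ?_, ?_, ?_, ?_, ?_⟩
  · intro i j hij
    exact Nat.mul_lt_mul_of_pos_right (Nat.pow_lt_pow_right (by norm_num) hij) hK0pos
  · intro i j hij
    have h1 : 2 ^ i + 1 ≤ 2 ^ j := Nat.pow_lt_pow_right (by norm_num) hij
    have h2 : (2 ^ i + 1) * K0 ≤ 2 ^ j * K0 := Nat.mul_le_mul_right _ h1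
    show 2 ^ i * K0 + 4 * N1 < 2 ^ j * K0
    have h3 : (2 ^ i + 1) * K0 = 2 ^ i * K0 + K0 := by ring
    omega
  · show 4 * N1 < 2 ^ 0 * K0
    rw [pow_zero, one_mul]; omega
  · intro i j k l hij hkl hne
    rw [show (((fun l => 2 ^ l * K0) j : ℕ) : ℤ) - (((fun l => 2 ^ l * K0) i : ℕ) : ℤ)
        = K0 * ((2 : ℤ) ^ j - 2 ^ i) from hD i j,
      show (((fun l => 2 ^ l * K0) l : ℕ) : ℤ) - (((fun l => 2 ^ l * K0) k : ℕ) : ℤ)
        = K0 * ((2 : ℤ) ^ l - 2 ^ k) from hD k l, ← mul_sub, abs_mul]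
    have h0 : ((2 : ℤ) ^ j - 2 ^ i) - (2 ^ l - 2 ^ k) ≠ 0 := by
      intro h0
      exact hne (golomb hij hkl (sub_eq_zero.1 h0))
    have h1 : (1 : ℤ) ≤ |((2 : ℤ) ^ j - 2 ^ i) - (2 ^ l - 2 ^ k)| := Int.one_le_abs h0
    have h2 : (4 * (N1 : ℤ)) < |(K0 : ℤ)| := by
      rw [abs_of_nonneg (by positivity)]
      have : 4 * N1 < K0 := by omega
      exact_mod_cast this
    have h3 : (0 : ℤ) ≤ |(K0 : ℤ)| := abs_nonneg _
    nlinarith
  · intro T
    set P := (range K ×ˢ range K).filter fun p : ℕ × ℕ => p.1 ≠ p.2 with hP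
    let A : ℕ → Finset (ℕ × ℕ) := fun k => P.filter fun p =>
      (k : ℤ) ∣ T + (2 ^ p.2 * K0 : ℕ) - (2 ^ p.1 * K0 : ℕ)
    let Bf : ℕ → Finset (ℕ × ℕ) := fun j => P.filter fun p =>
      ∃ q : ℤ, |(T + (2 ^ p.2 * K0 : ℕ) - (2 ^ p.1 * K0 : ℕ)) - q * b ^ (j + 1)| ≤ M * b ^ j
    have hsub : ((range K ×ˢ range K).filter fun p : ℕ × ℕ => p.1 ≠ p.2 ∧
        ∃ n : ℕ, (n : ℤ) = T + ((fun l => 2 ^ l * K0) p.2 : ℕ) - ((fun l => 2 ^ l * K0) p.1 : ℕ)
          ∧ Bad Ms M m b n) ⊆ Ms.biUnion A ∪ (range m).biUnion Bf := by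
      intro p hp
      rw [mem_filter] at hp
      obtain ⟨hp1, hp2, n, hn, hbad⟩ := hp
      have hpP : p ∈ P := mem_filter.2 ⟨hp1, hp2⟩
      rw [mem_union, mem_biUnion, mem_biUnion]
      rcases hbad with ⟨k, hk, hkn⟩ | ⟨j, hj, hjn⟩
      · left
        refine ⟨k, hk, mem_filter.2 ⟨hpP, ?_⟩⟩
        rw [← hn]
        exact_mod_cast hkn
      · right
        refine ⟨j, mem_range.2 hj, mem_filter.2 ⟨hpP, ?_⟩⟩
        obtain ⟨q, hq⟩ := near_of_bad hb0 hjn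
        refine ⟨q, ?_⟩
        rw [← hn]
        exact hq
    have hA : ∀ k ∈ Ms, (A k).card ≤ 1 := by
      intro k hk
      rw [card_le_one]
      intro p hp p' hp'
      rw [mem_filter, mem_filter, mem_product, mem_range, mem_range] at hp hp'
      obtain ⟨⟨⟨a1, a2⟩, a3⟩, a4⟩ := hp
      obtain ⟨⟨⟨b1, b2⟩, b3⟩, b4⟩ := hp'
      have h1 : (k : ℤ) ∣ K0 * (((2 : ℤ) ^ p.2 - 2 ^ p.1) - (2 ^ p'.2 - 2 ^ p'.1)) := by
        have := dvd_sub a4 b4
        have e : (T + ((2 ^ p.2 * K0 : ℕ) : ℤ) - ((2 ^ p.1 * K0 : ℕ) : ℤ))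
            - (T + ((2 ^ p'.2 * K0 : ℕ) : ℤ) - ((2 ^ p'.1 * K0 : ℕ) : ℤ))
            = K0 * (((2 : ℤ) ^ p.2 - 2 ^ p.1) - (2 ^ p'.2 - 2 ^ p'.1)) := by
          push_cast; ring
        rwa [e] at this
      have h2 : (k : ℤ) ∣ ((K0 : ℤ) - 1) := by
        have h3 : (M : ℤ) ∣ (K0 : ℤ) - 1 := by
          have := (Nat.modEq_iff_dvd.1 m2.symm)
          simpa using this
        exact (Int.natCast_dvd_natCast.2 (hMs k hk).2).trans h3
      have h3 : (k : ℤ) ∣ ((2 : ℤ) ^ p.2 - 2 ^ p.1) - (2 ^ p'.2 - 2 ^ p'.1) := by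
        have h4 := dvd_sub h1 (h2.mul_right (((2 : ℤ) ^ p.2 - 2 ^ p.1) - (2 ^ p'.2 - 2 ^ p'.1)))
        have e : (K0 : ℤ) * (((2 : ℤ) ^ p.2 - 2 ^ p.1) - (2 ^ p'.2 - 2 ^ p'.1))
            - ((K0 : ℤ) - 1) * (((2 : ℤ) ^ p.2 - 2 ^ p.1) - (2 ^ p'.2 - 2 ^ p'.1))
            = ((2 : ℤ) ^ p.2 - 2 ^ p.1) - (2 ^ p'.2 - 2 ^ p'.1) := by ring
        rwa [e] at h4
      have h5 := abs_D a1 a2
      have h6 := abs_D b1 b2
      have h7 : |((2 : ℤ) ^ p.2 - 2 ^ p.1) - (2 ^ p'.2 - 2 ^ p'.1)| < k := by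
        have h8 : |((2 : ℤ) ^ p.2 - 2 ^ p.1) - (2 ^ p'.2 - 2 ^ p'.1)|
            ≤ |(2 : ℤ) ^ p.2 - 2 ^ p.1| + |(2 : ℤ) ^ p'.2 - 2 ^ p'.1| := abs_sub _ _
        have h9 : ((2 : ℤ) ^ (K + 1)) < k := by exact_mod_cast (hMs k hk).1
        have h10 : (2 : ℤ) ^ (K + 1) = 2 ^ K + 2 ^ K := by ring
        linarith
      have h11 := Int.eq_zero_of_abs_lt_dvd h3 h7
      obtain ⟨c1, c2⟩ := golomb a3 b3 (sub_eq_zero.1 h11)
      exact Prod.ext c1 c2
    have hB : ∀ j ∈ range m, (Bf j).card ≤ 1 := by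
      intro j hj
      rw [card_le_one]
      intro p hp p' hp'
      rw [mem_filter, mem_filter, mem_product, mem_range, mem_range] at hp hp'
      obtain ⟨⟨⟨a1, a2⟩, a3⟩, q, a4⟩ := hp
      obtain ⟨⟨⟨b1, b2⟩, b3⟩, q', b4⟩ := hp'
      have h5 := abs_D a1 a2
      have h6 := abs_D b1 b2
      have hE : |((2 : ℤ) ^ p.2 - 2 ^ p.1) - (2 ^ p'.2 - 2 ^ p'.1)| < 2 ^ (K + 1) := by
        have h8 : |((2 : ℤ) ^ p.2 - 2 ^ p.1) - (2 ^ p'.2 - 2 ^ p'.1)|
            ≤ |(2 : ℤ) ^ p.2 - 2 ^ p.1| + |(2 : ℤ) ^ p'.2 - 2 ^ p'.1| := abs_sub _ _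
        have h10 : (2 : ℤ) ^ (K + 1) = 2 ^ K + 2 ^ K := by ring
        linarith
      have h0 : ((2 : ℤ) ^ p.2 - 2 ^ p.1) - (2 ^ p'.2 - 2 ^ p'.1) = 0 := by
        refine level_inj (e := ((T + ((2 ^ p.2 * K0 : ℕ) : ℤ) - ((2 ^ p.1 * K0 : ℕ) : ℤ))
            - q * b ^ (j + 1)) - ((T + ((2 ^ p'.2 * K0 : ℕ) : ℤ) - ((2 ^ p'.1 * K0 : ℕ) : ℤ))
            - q' * b ^ (j + 1))) (q := q - q') hb hM (mem_range.1 hj) hrep hE ?_ ?_
        · refine (abs_sub _ _).trans ?_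
          calc _ ≤ (M : ℤ) * b ^ j + M * b ^ j := add_le_add a4 b4
            _ = 2 * M * b ^ j := by ring
        · push_cast; ring
      obtain ⟨c1, c2⟩ := golomb a3 b3 (sub_eq_zero.1 h0)
      exact Prod.ext c1 c2
    calc _ ≤ (Ms.biUnion A ∪ (range m).biUnion Bf).card := card_le_card hsub
      _ ≤ (Ms.biUnion A).card + ((range m).biUnion Bf).card := card_union_le _ _
      _ ≤ Ms.card * 1 + (range m).card * 1 :=
        add_le_add (card_biUnion_le_card_mul _ _ _ hA) (card_biUnion_le_card_mul _ _ _ hB)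
      _ ≤ r + m := by rw [card_range]; omega

open Classical in
/-- the same in natural numbers (UGI form: sums instead of differences). -/
theorem spoil_nat (K N1 M m b r : ℕ) (Ms : Finset ℕ) (hr : Ms.card ≤ r)
    (hMs : ∀ k ∈ Ms, 2 ^ (K + 1) < k ∧ k ∣ M) (hM : 0 < M) (hb : 2 ^ (K + 5) * M < b)
    (hcop : Nat.Coprime b M) :
    ∃ c : ℕ → ℕ, StrictMono c ∧ (∀ i j, i < j → c i + 4 * N1 < c j) ∧ 4 * N1 < c 0 ∧
      (∀ i j k l, i ≠ j → k ≠ l → ¬ (i = k ∧ j = l) →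
        c i + c l + 4 * N1 < c k + c j ∨ c k + c j + 4 * N1 < c i + c l) ∧
      (∀ T : ℕ, (∀ i, i < K → c i ≤ T) →
        (((range K ×ˢ range K).filter fun p => p.1 ≠ p.2 ∧
          Bad Ms M m b (T + c p.2 - c p.1)).card ≤ r + m)) := by
  obtain ⟨c, h1, h2, h3, h4, h5⟩ := spoil K N1 M m b r Ms hr hMs hM hb hcop
  refine ⟨c, h1, h2, h3, ?_, ?_⟩
  · intro i j k l hij hkl hne
    have h := h4 i j k l hij hkl hne
    rcases lt_abs.1 h with h | h
    · left; omega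
    · right; omega
  · intro T hT
    refine le_trans (card_le_card ?_) (h5 T)
    intro p hp
    rw [mem_filter, mem_product, mem_range, mem_range] at hp ⊢
    obtain ⟨⟨a1, a2⟩, a3, a4⟩ := hp
    refine ⟨⟨a1, a2⟩, a3, T + c p.2 - c p.1, ?_, a4⟩
    have := hT p.1 a1
    omega

/-- the bad clock totals are periodic with period `M * b ^ m` -/
theorem bad_period {M m b : ℕ} {Ms : Finset ℕ} (hMs : ∀ k ∈ Ms, k ∣ M) (hb : 0 < b) (n : ℕ) :
    Bad Ms M m b (n + M * b ^ m) ↔ Bad Ms M m b n := by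
  unfold Bad
  have h1 : ∀ k ∈ Ms, (k ∣ n + M * b ^ m ↔ k ∣ n) := fun k hk =>
    (Nat.dvd_add_left ((hMs k hk).mul_right _))
  have h2 : ∀ j < m, (n + M * b ^ m) / b ^ j % b = n / b ^ j % b := by
    intro j hj
    obtain ⟨u, hu⟩ : ∃ u : ℕ, b ^ m = b ^ j * (b * u) :=
      ⟨b ^ (m - (j + 1)), by rw [← mul_assoc, ← pow_succ, ← pow_add]; congr 1; omega⟩
    have : n + M * b ^ m = n + b ^ j * (b * (M * u)) := by rw [hu]; ring
    rw [this, Nat.add_mul_div_left _ _ (pow_pos hb j), Nat.add_mul_mod_self_left]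
  constructor
  · rintro (⟨k, hk, h⟩ | ⟨j, hj, h⟩)
    · exact Or.inl ⟨k, hk, (h1 k hk).1 h⟩
    · exact Or.inr ⟨j, hj, by rwa [h2 j hj] at h⟩
  · rintro (⟨k, hk, h⟩ | ⟨j, hj, h⟩)
    · exact Or.inl ⟨k, hk, (h1 k hk).2 h⟩
    · exact Or.inr ⟨j, hj, by rwa [h2 j hj]⟩

end Crest.Agent.R320.Sp_837
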