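import Mathlib

/-!
Spoil leaf of #13673: the wide ruler `c l = 2 ^ l * K0`.
-/

namespace Crest.Agent.R320.Sp_865

/-- bad totals -/
def Bad (Ms : Finset ℕ) (M m b n : ℕ) : Prop :=
  (∃ k ∈ Ms, k ∣ n) ∨ ∃ j < m, ¬ (M ≤ n / b ^ j % b ∧ n / b ^ j % b + M + 1 ≤ b)

/-- repunit -/
def R (b m : ℕ) : ℕ := ∑ i ∈ Finset.range m, b ^ i

theorem R_succ (b m : ℕ) : R b (m + 1) = R b m + b ^ m := by
  simp [R, Finset.sum_range_succ]

theorem R_add (b j d : ℕ) : R b (j + d) = R b j + b ^ j * R b d := by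
  induction d with
  | zero => simp [R]
  | succ d ih =>
    rw [← Nat.add_assoc, R_succ, R_succ, ih, pow_add]; ring

theorem R_lt (b s j : ℕ) (h : s + 1 ≤ b) : s * R b j < b ^ j := by
  induction j with
  | zero => simp [R]
  | succ j ih =>
    rw [R_succ, Nat.mul_add, pow_succ]
    have h2 : (s + 1) * b ^ j ≤ b * b ^ j := Nat.mul_le_mul_right _ h
    have h3 : (s + 1) * b ^ j = s * b ^ j + b ^ j := by ring
    have h4 : b * b ^ j = b ^ j * b := by ring
    omega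

theorem fin1 (M s cr dd b : ℕ) (hM : 0 < M) (hs4 : 4 * M ≤ s) (hb : s + 2 * M + 2 ≤ b)
    (hcr : cr ≤ 1) (hd : dd < b) (h1 : ¬ (M ≤ dd ∧ dd + M + 1 ≤ b))
    (h2 : ¬ (M ≤ (cr + s + dd) % b ∧ (cr + s + dd) % b + M + 1 ≤ b)) : False := by
  rcases Nat.lt_or_ge (cr + s + dd) b with h | h
  · rw [Nat.mod_eq_of_lt h] at h2
    omega
  · rw [Nat.mod_eq_sub_mod h, Nat.mod_eq_of_lt (by omega)] at h2
    omega

theorem digit (b M m j n e t K0 : ℕ) (hM : 0 < M) (hj : j < m) (he : 0 < e)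
    (hb : 4 * M * e + 2 * M + 2 ≤ b) (hK : K0 = 4 * M * R b m + b ^ m * t)
    (h1 : ¬ (M ≤ n / b ^ j % b ∧ n / b ^ j % b + M + 1 ≤ b))
    (h2 : ¬ (M ≤ (n + e * K0) / b ^ j % b ∧ (n + e * K0) / b ^ j % b + M + 1 ≤ b)) : False := by
  obtain ⟨d, rfl⟩ : ∃ d, m = j + (1 + d) := ⟨m - j - 1, by omega⟩
  have hbpos : 0 < b := by omega
  have hbj : 0 < b ^ j := pow_pos hbpos j
  set s : ℕ := 4 * M * e with hs
  have hs4 : 4 * M ≤ s := by rw [hs]; exact Nat.le_mul_of_pos_right _ he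
  have hR1 : R b 1 = 1 := by simp [R]
  have hRm : R b (j + (1 + d)) = R b j + b ^ j * (1 + b * R b d) := by
    rw [R_add, R_add, hR1, pow_one]
  have hpw : b ^ (j + (1 + d)) = b ^ j * (b * b ^ d) := by
    rw [pow_add, pow_add, pow_one]
  have hn : n = n % b ^ j + b ^ j * (n / b ^ j) := (Nat.mod_add_div n (b ^ j)).symm
  set q : ℕ := n / b ^ j with hq
  set x : ℕ := n % b ^ j with hx
  have hxlt : x < b ^ j := Nat.mod_lt _ hbj
  have hsR : s * R b j < b ^ j := R_lt b s j (by omega)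
  have hsum : n + e * K0 = (x + s * R b j) + b ^ j * ((q + s) + b * (s * R b d + e * t * b ^ d)) := by
    rw [hK, hRm, hpw]
    conv_lhs => rw [hn]
    rw [hs]; ring
  have hdiv : (n + e * K0) / b ^ j
      = (x + s * R b j) / b ^ j + ((q + s) + b * (s * R b d + e * t * b ^ d)) := by
    rw [hsum, Nat.add_mul_div_left _ _ hbj]
  set cr : ℕ := (x + s * R b j) / b ^ j with hcr
  have hcr1 : cr ≤ 1 := by
    have : cr < 2 := by
      rw [hcr, Nat.div_lt_iff_lt_mul hbj]; omega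
    omega
  have hmod : (n + e * K0) / b ^ j % b = (cr + s + q % b) % b := by
    rw [hdiv]
    have : cr + ((q + s) + b * (s * R b d + e * t * b ^ d))
        = (cr + s + q) + b * (s * R b d + e * t * b ^ d) := by ring
    rw [this, Nat.add_mul_mod_self_left, Nat.add_mod (cr + s) q b,
      Nat.add_mod (cr + s) (q % b) b, Nat.mod_mod]
  rw [hmod] at h2
  have hd : q % b < b := Nat.mod_lt _ hbpos
  exact fin1 M s cr (q % b) b hM hs4 hb hcr1 hd h1 h2

theorem pow_sum' {a b c d : ℕ} (h : 2 ^ a + 2 ^ b = 2 ^ c + 2 ^ d) (hab : a ≤ b) (hcd : c ≤ d) :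
    ¬ a < c := by
  intro hac
  obtain ⟨x, rfl⟩ : ∃ x, c = a + (x + 1) := ⟨c - a - 1, by omega⟩
  obtain ⟨y, rfl⟩ := Nat.exists_eq_add_of_le hab
  obtain ⟨z, rfl⟩ := Nat.exists_eq_add_of_le hcd
  have ha : 0 < 2 ^ a := by positivity
  have h' : 2 ^ a * (1 + 2 ^ y) = 2 ^ a * (2 ^ (x + 1) + 2 ^ (x + 1) * 2 ^ z) := by
    rw [pow_add 2 a y, pow_add 2 (a + (x + 1)) z, pow_add 2 a (x + 1)] at h
    linarith [h]
  have h2 := Nat.eq_of_mul_eq_mul_left ha h'
  have hx : 0 < 2 ^ x := by positivity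
  have hz : 0 < 2 ^ z := by positivity
  have hxz : 0 < 2 ^ x * 2 ^ z := by positivity
  have e1 : 2 ^ (x + 1) = 2 * 2 ^ x := by rw [pow_succ]; ring
  have e2 : 2 ^ (x + 1) * 2 ^ z = 2 * (2 ^ x * 2 ^ z) := by rw [pow_succ]; ring
  rw [e2, e1] at h2
  cases y with
  | zero => simp at h2; omega
  | succ y =>
    have e3 : 2 ^ (y + 1) = 2 * 2 ^ y := by rw [pow_succ]; ring
    rw [e3] at h2
    omega

theorem pow_sum {a b c d : ℕ} (h : 2 ^ a + 2 ^ b = 2 ^ c + 2 ^ d) :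
    (a = c ∧ b = d) ∨ (a = d ∧ b = c) := by
  have main : ∀ {a b c d : ℕ}, 2 ^ a + 2 ^ b = 2 ^ c + 2 ^ d → a ≤ b → c ≤ d → a = c ∧ b = d := by
    intro a b c d h hab hcd
    have h1 := pow_sum' h hab hcd
    have h2 := pow_sum' h.symm hcd hab
    have hac : a = c := by omega
    subst hac
    have : 2 ^ b = 2 ^ d := by omega
    exact ⟨rfl, Nat.pow_right_injective (le_refl 2) this⟩
  rcases le_total a b with hab | hab <;> rcases le_total c d with hcd | hcd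
  · exact Or.inl (main h hab hcd)
  · have := main (by omega : 2 ^ a + 2 ^ b = 2 ^ d + 2 ^ c) hab hcd
    exact Or.inr this
  · have := main (by omega : 2 ^ b + 2 ^ a = 2 ^ c + 2 ^ d) hab hcd
    exact Or.inr ⟨this.2, this.1⟩
  · have := main (by omega : 2 ^ b + 2 ^ a = 2 ^ d + 2 ^ c) hab hcd
    exact Or.inl ⟨this.2, this.1⟩

/-- existence of `K0` -/
theorem exists_K0 (m M b N : ℕ) (hM : 0 < M) (hb : 0 < b) (hc : Nat.Coprime b M) :
    ∃ K0 t : ℕ, N < K0 ∧ K0 % M = 1 % M ∧ K0 = 4 * M * R b m + b ^ m * t := by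
  have co : Nat.Coprime M (b ^ m) := (Nat.Coprime.pow_left m hc).symm
  obtain ⟨x, hx1, hx2⟩ := Nat.chineseRemainder co 1 (4 * M * R b m)
  have hbm : 0 < b ^ m := pow_pos hb m
  -- add a large multiple of M * b ^ m
  refine ⟨x + M * b ^ m * (N + 1 + 4 * M * R b m), ?_⟩
  have hMb : 1 ≤ M * b ^ m := Nat.mul_pos hM hbm
  have hbig : N + 1 + 4 * M * R b m ≤ M * b ^ m * (N + 1 + 4 * M * R b m) :=
    Nat.le_mul_of_pos_left _ hMb
  have hle : 4 * M * R b m ≤ x + M * b ^ m * (N + 1 + 4 * M * R b m) := by omega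
  have hmod : 4 * M * R b m ≡ x + M * b ^ m * (N + 1 + 4 * M * R b m) [MOD b ^ m] := by
    have h1 : x + M * b ^ m * (N + 1 + 4 * M * R b m)
        = x + b ^ m * (M * (N + 1 + 4 * M * R b m)) := by ring
    rw [h1]
    exact (hx2.symm).trans (by
      unfold Nat.ModEq
      rw [Nat.add_mul_mod_self_left])
  obtain ⟨t, ht⟩ := (Nat.modEq_iff_dvd' hle).1 hmod
  refine ⟨t, by omega, ?_, by omega⟩
  have h1 : x + M * b ^ m * (N + 1 + 4 * M * R b m)
      = x + M * (b ^ m * (N + 1 + 4 * M * R b m)) := by ring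
  rw [h1, Nat.add_mul_mod_self_left]
  exact hx1

/-- The ruler with all properties. -/
theorem spoil (K N1 m M b : ℕ) (Ms : Finset ℕ) (hM : 0 < M)
    (hk : ∀ k ∈ Ms, k ∣ M ∧ 4 ^ K < k) (hb : 4 * M * 2 ^ (K + 1) + 2 * M + 2 < b)
    (hc : Nat.Coprime b M) :
    ∃ c : ℕ → ℕ, 4 * N1 < c 0 ∧ (∀ i j, i < j → c i + 4 * N1 < c j) ∧
      (∀ i j i' j' : ℕ, (i = i' ∧ j = j') ∨ (i = j ∧ i' = j') ∨
        4 * (N1 : ℤ) < |((c j : ℤ) - c i) - ((c j' : ℤ) - c i')|) ∧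
      ∀ T : ℕ, open Classical in
        ((Finset.range K ×ˢ Finset.range K).filter (fun ij : ℕ × ℕ => ij.1 ≠ ij.2 ∧
          ∃ n, n + c ij.1 = T + c ij.2 ∧ Bad Ms M m b n)).card ≤ Ms.card + m := by
  classical
  obtain ⟨K0, t, hK0, hK1, hKt⟩ := exists_K0 m M b (4 * N1) hM (by omega) hc
  have hstep : ∀ i j, i < j → 2 ^ i * K0 + K0 ≤ 2 ^ j * K0 := by
    intro i j hij
    have h1 : 2 ^ i + 1 ≤ 2 ^ j := Nat.pow_lt_pow_right (by norm_num) hij
    calc 2 ^ i * K0 + K0 = (2 ^ i + 1) * K0 := by ring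
      _ ≤ 2 ^ j * K0 := Nat.mul_le_mul_right _ h1
  refine ⟨fun l => 2 ^ l * K0, by simpa using hK0, ?_, ?_, ?_⟩
  · intro i j hij
    have := hstep i j hij
    show 2 ^ i * K0 + 4 * N1 < 2 ^ j * K0
    omega
  · intro i j i' j'
    by_cases h : (2 : ℤ) ^ j - 2 ^ i = 2 ^ j' - 2 ^ i'
    · have h' : 2 ^ j + 2 ^ i' = 2 ^ j' + 2 ^ i := by
        have : ((2 ^ j + 2 ^ i' : ℕ) : ℤ) = ((2 ^ j' + 2 ^ i : ℕ) : ℤ) := by push_cast; linarith
        exact_mod_cast this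
      rcases pow_sum h' with h1 | h1
      · exact Or.inl ⟨h1.2.symm, h1.1⟩
      · exact Or.inr (Or.inl ⟨h1.1.symm, h1.2⟩)
    · refine Or.inr (Or.inr ?_)
      have e1 : (((2 ^ j * K0 : ℕ) : ℤ) - ((2 ^ i * K0 : ℕ) : ℤ))
          - (((2 ^ j' * K0 : ℕ) : ℤ) - ((2 ^ i' * K0 : ℕ) : ℤ))
          = ((2 : ℤ) ^ j - 2 ^ i - (2 ^ j' - 2 ^ i')) * K0 := by push_cast; ring
      show 4 * (N1 : ℤ) < |(((2 ^ j * K0 : ℕ) : ℤ) - ((2 ^ i * K0 : ℕ) : ℤ))
          - (((2 ^ j' * K0 : ℕ) : ℤ) - ((2 ^ i' * K0 : ℕ) : ℤ))|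
      rw [e1, abs_mul]
      have h3 : (1 : ℤ) ≤ |(2 : ℤ) ^ j - 2 ^ i - (2 ^ j' - 2 ^ i')| :=
        Int.one_le_abs (sub_ne_zero.2 h)
      have h4 : (4 * (N1 : ℤ)) < K0 := by exact_mod_cast hK0
      have h5 : |(K0 : ℤ)| = K0 := abs_of_nonneg (by positivity)
      rw [h5]
      nlinarith
  · intro T
    let r : ℕ × ℕ → ℕ ⊕ ℕ → Prop := fun ij e => ∃ n, n + 2 ^ ij.1 * K0 = T + 2 ^ ij.2 * K0 ∧
      (match e with
        | Sum.inl k => k ∣ n
        | Sum.inr j => ¬ (M ≤ n / b ^ j % b ∧ n / b ^ j % b + M + 1 ≤ b))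
    let tt : Finset (ℕ ⊕ ℕ) := Ms.disjSum (Finset.range m)
    have hcard : tt.card = Ms.card + m := by
      simp [tt, Finset.card_disjSum]
    rw [← hcard]
    refine Finset.card_le_card_of_forall_subsingleton r ?_ ?_
    · intro ij hij
      rw [Finset.mem_filter] at hij
      obtain ⟨_, _, n, hn, hbad⟩ := hij
      rcases hbad with ⟨k, hkM, hkn⟩ | ⟨j, hj, hjn⟩
      · exact ⟨Sum.inl k, by simp [tt, hkM], n, hn, hkn⟩
      · exact ⟨Sum.inr j, by simp [tt, hj], n, hn, hjn⟩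
    · -- uniqueness
      have key : ∀ i j i' j' n n' : ℕ, i < K → j < K → i' < K → j' < K → i ≠ j → i' ≠ j' →
          n + 2 ^ i * K0 = T + 2 ^ j * K0 → n' + 2 ^ i' * K0 = T + 2 ^ j' * K0 →
          ∀ e ∈ tt, (match e with
            | Sum.inl k => k ∣ n
            | Sum.inr j => ¬ (M ≤ n / b ^ j % b ∧ n / b ^ j % b + M + 1 ≤ b)) →
          (match e with
            | Sum.inl k => k ∣ n'
            | Sum.inr j => ¬ (M ≤ n' / b ^ j % b ∧ n' / b ^ j % b + M + 1 ≤ b)) →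
          2 ^ j + 2 ^ i' ≤ 2 ^ j' + 2 ^ i → 2 ^ j + 2 ^ i' = 2 ^ j' + 2 ^ i := by
        intro i j i' j' n n' hi hj hi' hj' hij hij' hn hn' e he h1 h2 hle
        by_contra hne
        obtain ⟨ee, hee⟩ := Nat.exists_eq_add_of_lt (lt_of_le_of_ne hle hne)
        have hpi : 2 ^ i ≤ 2 ^ K := Nat.pow_le_pow_right (by norm_num) hi.le
        have hpj' : 2 ^ j' ≤ 2 ^ K := Nat.pow_le_pow_right (by norm_num) hj'.le
        have hpj : 0 < 2 ^ j := by positivity
        have hpi' : 0 < 2 ^ i' := by positivity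
        have hK2 : 2 ^ (K + 1) = 2 * 2 ^ K := by rw [pow_succ]; ring
        have hK4 : 4 ^ K = 2 ^ K * 2 ^ K := by
          rw [← mul_pow]; norm_num
        have hK1' : 2 ≤ 2 ^ K := by
          calc 2 = 2 ^ 1 := by norm_num
            _ ≤ 2 ^ K := Nat.pow_le_pow_right (by norm_num) (by omega)
        have hK4' : 2 * 2 ^ K ≤ 4 ^ K := by rw [hK4]; exact Nat.mul_le_mul_right _ hK1'
        -- n' = n + (ee + 1) * K0
        have hn2 : n' = n + (ee + 1) * K0 := by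
          have h3 : (2 ^ j' + 2 ^ i) * K0 = (2 ^ j + 2 ^ i' + ee + 1) * K0 := by rw [hee]
          have h4 : 2 ^ j' * K0 + 2 ^ i * K0 = 2 ^ j * K0 + 2 ^ i' * K0 + (ee + 1) * K0 := by
            linarith [h3, (by ring : (2 ^ j' + 2 ^ i) * K0 = 2 ^ j' * K0 + 2 ^ i * K0),
              (by ring : (2 ^ j + 2 ^ i' + ee + 1) * K0
                = 2 ^ j * K0 + 2 ^ i' * K0 + (ee + 1) * K0)]
          omega
        match e, he, h1, h2 with
        | Sum.inl k, he, h1, h2 =>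
          have hkM : k ∈ Ms := by simpa [tt] using he
          obtain ⟨hkd, hkb⟩ := hk k hkM
          rw [hn2] at h2
          have h5 : k ∣ (ee + 1) * K0 := (Nat.dvd_add_right h1).1 h2
          have h6 : Nat.Coprime k K0 := by
            have h7 : Nat.Coprime M K0 := by
              have h8 : K0 ≡ 1 [MOD M] := hK1
              have h9 := h8.gcd_eq
              -- gcd K0 M = gcd 1 M
              have h10 : Nat.gcd K0 M = 1 := by
                rw [h9]; simp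
              rw [Nat.coprime_comm]; exact h10
            exact Nat.Coprime.coprime_dvd_left hkd h7
          have h7 : k ∣ ee + 1 := h6.dvd_of_dvd_mul_right h5
          have h8 := Nat.le_of_dvd (by omega) h7
          omega
        | Sum.inr jj, he, h1, h2 =>
          have hjm : jj < m := by simpa [tt] using he
          rw [hn2] at h2
          refine digit b M m jj n (ee + 1) t K0 hM hjm (by omega) ?_ hKt h1 h2
          have h3 : ee + 1 ≤ 2 ^ (K + 1) := by omega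
          have h4 : 4 * M * (ee + 1) ≤ 4 * M * 2 ^ (K + 1) := Nat.mul_le_mul_left _ h3
          omega
      rintro e he a ⟨ha, n, hn, hae⟩ a' ⟨ha', n', hn', hae'⟩
      have ha1 := (Finset.mem_filter.1 ha)
      have ha1' := (Finset.mem_filter.1 ha')
      rw [Finset.mem_product, Finset.mem_range, Finset.mem_range] at ha1 ha1'
      obtain ⟨i, j⟩ := a
      obtain ⟨i', j'⟩ := a'
      have hij : i ≠ j := ha1.2.1
      have hij' : i' ≠ j' := ha1'.2.1
      have he' : e ∈ tt := he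
      have heq : 2 ^ j + 2 ^ i' = 2 ^ j' + 2 ^ i := by
        rcases le_total (2 ^ j + 2 ^ i') (2 ^ j' + 2 ^ i) with h | h
        · exact key i j i' j' n n' ha1.1.1 ha1.1.2 ha1'.1.1 ha1'.1.2 hij hij' hn hn' e he' hae hae' h
        · exact (key i' j' i j n' n ha1'.1.1 ha1'.1.2 ha1.1.1 ha1.1.2 hij' hij hn' hn e he' hae' hae h).symm
      rcases pow_sum heq with h | h
      · exact Prod.ext h.2.symm h.1
      · exact absurd h.1.symm hij

/-- per element form -/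
theorem spoil_elem {K m M b : ℕ} {Ms : Finset ℕ} {c : ℕ → ℕ} {C T : ℕ}
    (h : open Classical in ((Finset.range K ×ˢ Finset.range K).filter (fun ij : ℕ × ℕ => ij.1 ≠ ij.2 ∧
          ∃ n, n + c ij.1 = T + c ij.2 ∧ Bad Ms M m b n)).card ≤ C) :
    open Classical in
    ((Finset.range K).filter (fun i => ∃ j < K, j ≠ i ∧
      ∃ n, n + c i = T + c j ∧ Bad Ms M m b n)).card ≤ C := by
  classical
  refine le_trans ?_ h
  refine le_trans (Finset.card_le_card ?_)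
    (Finset.card_image_le (f := Prod.fst) (s := ((Finset.range K ×ˢ Finset.range K).filter
      (fun ij : ℕ × ℕ => ij.1 ≠ ij.2 ∧ ∃ n, n + c ij.1 = T + c ij.2 ∧ Bad Ms M m b n))))
  intro i hi
  rw [Finset.mem_filter, Finset.mem_range] at hi
  obtain ⟨hiK, j, hjK, hji, hn⟩ := hi
  rw [Finset.mem_image]
  exact ⟨(i, j), by simp [hiK, hjK, hji.symm, hn], rfl⟩

end Crest.Agent.R320.Sp_865
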