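import Crest.Agent.R320.CoreN_106

/-!
# Row 320: the spoil count for the natural chain rule (helper106)
-/

set_option autoImplicit false

namespace Crest.Agent.R320.SpoilN_106

open Crest.Agent.R320.CoreN_106 Finset

universe u

variable {α : Type u} {S V : Type} [Monoid S] [AddCommGroup V] (D : Dt α S V)

open Classical in
/-- places spoiled through the wall `e` -/
noncomputable def SB (e : ℕ) : Finset ℕ :=
  (range D.K).filter (fun k => ∃ k' < D.K, k' ≠ k ∧ D.BT (e + D.c k' - D.c k - D.p0))

open Classical in
/-- places spoiled by the band -/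
noncomputable def SE (U : List α) : Finset ℕ :=
  (range D.K).filter (fun k => ∃ k' < D.K, k' ≠ k ∧ ∃ s ≤ U.length, D.Wo (U.take s) ∧
    D.z + D.c k ≤ s + D.c k' + D.N1 ∧ s + D.c k' ≤ D.z + D.c k + D.N1)

theorem spoil {W B0 : ℕ}
    (hW : 2 * D.p0 + 2 * D.N1 < W)
    (hgap : ∀ (X : List α) (s t : ℕ), s < t → t ≤ X.length → D.Wo (X.take s) → D.Wo (X.take t) →
      W < t - s)
    (r1 : ∀ k k' l l', k < D.K → k' < D.K → l < D.K → l' < D.K → k' ≠ k → l' ≠ l →
      D.c k + D.c l' ≤ D.c l + D.c k' + 2 * D.N1 → D.c l + D.c k' ≤ D.c k + D.c l' + 2 * D.N1 →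
      k = l ∧ k' = l')
    (r2 : ∀ e, D.z ≤ e + D.p0 → (SB D e).card ≤ B0) (hR : 1 + 3 * B0 < D.R) :
    ∀ u ∈ D.Bad, ∀ t ∈ D.XX, ∃ Sp : Finset ℕ, Sp.card < D.R ∧ ∀ k < D.K, k ∉ Sp →
      ∀ k' < D.K, k' ≠ k → ∀ p' : List α, p'.length = D.c k' →
        ∀ X' ∈ D.XX, X' <+: p' ++ (u.drop (D.c k) ++ t) → X' ∉ D.Bad := by
  classical
  intro u hu t ht
  have hz := D.hz
  obtain ⟨⟨hu1, hu2, hu3⟩, -⟩ := hu
  obtain ⟨ht1, ht2, ht3⟩ := ht
  set U := u ++ t with hU
  have hUl : U.length = u.length + t.length := by rw [hU, List.length_append]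
  have hUu : D.Wo (U.take u.length) := by rw [hU, List.take_left]; exact hu2
  have hUU : D.Wo (U.take U.length) := by
    rw [List.take_length, hU]
    exact (D.hloc _ _ (by omega)).2 ht2
  have hUlt : ∀ s < u.length, D.Wo (U.take s) → s < D.z := by
    intro s hs hw
    rw [hU, List.take_append_of_le_length (by omega)] at hw
    exact hu3 s hs hw
  -- the wall in the band below z
  obtain ⟨w0, hw0z, hw0⟩ : ∃ w0, D.z ≤ w0 + D.p0 ∧ ∀ e, e ≤ U.length → D.Wo (U.take e) →
      D.z ≤ e + D.p0 → e < D.z → e = w0 := by
    by_cases h : ∃ w, w ≤ U.length ∧ D.Wo (U.take w) ∧ D.z ≤ w + D.p0 ∧ w < D.z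
    · obtain ⟨w, h1, h2, h3, h4⟩ := h
      refine ⟨w, h3, fun e he1 he2 he3 he4 => ?_⟩
      rcases lt_trichotomy e w with h5 | h5 | h5
      · have := hgap U e w h5 h1 he2 h2
        omega
      · exact h5
      · have := hgap U w e h5 he1 h2 he2
        omega
    · exact ⟨u.length, by omega, fun e he1 he2 he3 he4 => (h ⟨e, he1, he2, he3, he4⟩).elim⟩
  -- the first wall behind u.length
  have hex : ∃ w, u.length < w ∧ w ≤ U.length ∧ D.Wo (U.take w) :=
    ⟨U.length, by omega, le_rfl, hUU⟩
  obtain ⟨hw21, hw22, hw23⟩ := Nat.find_spec hex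
  have hw2min : ∀ m, u.length < m → m ≤ U.length → D.Wo (U.take m) → Nat.find hex ≤ m :=
    fun m h1 h2 h3 => Nat.find_min' hex ⟨h1, h2, h3⟩
  set w2 := Nat.find hex with hw2
  refine ⟨SE D U ∪ (SB D w0 ∪ (SB D u.length ∪ SB D w2)), ?_, ?_⟩
  · have hE : (SE D U).card ≤ 1 := by
      rw [Finset.card_le_one]
      intro k hk l hl
      rw [SE, mem_filter, mem_range] at hk hl
      obtain ⟨hkK, k', hk', hkk, s, hs1, hs2, hs3, hs4⟩ := hk
      obtain ⟨hlK, l', hl', hll, s', hs1', hs2', hs3', hs4'⟩ := hl
      have a1 := D.hc k hkK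
      have a2 := D.hc k' hk'
      have a3 := D.hc l hlK
      have a4 := D.hc l' hl'
      have hss : s = s' := by
        rcases lt_trichotomy s s' with h5 | h5 | h5
        · have := hgap U s s' h5 hs1' hs2 hs2'
          omega
        · exact h5
        · have := hgap U s' s h5 hs1 hs2' hs2
          omega
      subst hss
      exact (r1 k k' l l' hkK hk' hlK hl' hkk hll (by omega) (by omega)).1
    have h1 := r2 w0 hw0z
    have h2 := r2 u.length (by omega)
    have h3 := r2 w2 (by omega)
    have h4 := card_union_le (SE D U) (SB D w0 ∪ (SB D u.length ∪ SB D w2))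
    have h5 := card_union_le (SB D w0) (SB D u.length ∪ SB D w2)
    have h6 := card_union_le (SB D u.length) (SB D w2)
    omega
  · intro k hk hkS k' hk' hkk p' hp' X' hX' hpre hbad
    apply hkS
    have a1 := D.hc k hk
    have a2 := D.hc k' hk'
    obtain ⟨hX1, hX2, hX3⟩ := hX'
    have hQ : u.drop (D.c k) ++ t = U.drop (D.c k) := by
      rw [hU, List.drop_append_of_le_length (by omega)]
    rw [hQ] at hpre
    have hXe : X' = (p' ++ U.drop (D.c k)).take X'.length := by
      obtain ⟨r, hr⟩ := hpre
      rw [← hr, List.take_left]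
    have hXl : X'.length + D.c k ≤ U.length + D.c k' := by
      have := hpre.length_le
      rw [List.length_append, List.length_drop] at this
      omega
    have htk : (U.take (D.c k)).length = D.c k := by rw [List.length_take]; omega
    -- correspondence of walls
    have key : ∀ s, D.c k' + D.n ≤ s → s + D.c k ≤ U.length + D.c k' →
        (D.Wo ((p' ++ U.drop (D.c k)).take s) ↔ D.Wo (U.take (s - D.c k' + D.c k))) := by
      intro s hs1 hs2
      obtain ⟨r, rfl⟩ : ∃ r, s = p'.length + r := ⟨s - p'.length, by omega⟩
      rw [D.wall_right p' (U.drop (D.c k)) r (by rw [List.length_drop]; omega) (by omega)]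
      have h := D.wall_right (U.take (D.c k)) (U.drop (D.c k)) r
        (by rw [List.length_drop]; omega) (by omega)
      rw [List.take_append_drop, htk] at h
      rw [← h]
      have : p'.length + r - D.c k' + D.c k = D.c k + r := by omega
      rw [this]
    rcases hbad.2 with ⟨s, hs1, hs2, hs3, hs4⟩ | hT
    · apply mem_union_left
      rw [SE, mem_filter, mem_range]
      have hs2' : D.Wo ((p' ++ U.drop (D.c k)).take s) := by
        rw [hXe, List.take_take, min_eq_left hs1] at hs2
        exact hs2
      have h := (key s (by omega) (by omega)).1 hs2'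
      exact ⟨hk, k', hk', hkk, s - D.c k' + D.c k, by omega, h, by omega, by omega⟩
    · apply mem_union_right
      -- the end wall
      set e := X'.length - D.c k' + D.c k with he
      have heU : e ≤ U.length := by omega
      have hew : D.Wo (U.take e) := by
        apply (key X'.length (by omega) hXl).1
        rw [← hXe]
        exact hX2
      have heT : e + D.c k' - D.c k = X'.length := by omega
      have hmem : k ∈ SB D e := by
        rw [SB, mem_filter, mem_range]
        exact ⟨hk, k', hk', hkk, by rw [heT]; exact hT⟩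
      have hXmin : ∀ s, D.c k' + D.n ≤ s → s < X'.length →
          D.Wo (U.take (s - D.c k' + D.c k)) → s < D.z := by
        intro s h1 h2 h3
        apply hX3 s h2
        rw [hXe, List.take_take, min_eq_left (by omega)]
        exact (key s h1 (by omega)).2 h3
      by_cases h1 : e < D.z
      · have := hw0 e heU hew (by omega) h1
        rw [this] at hmem
        exact mem_union_left _ hmem
      · apply mem_union_right
        have h2 : u.length ≤ e := by
          by_contra h3
          have := hUlt e (by omega) hew
          omega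
        rcases Nat.eq_or_lt_of_le h2 with h3 | h3
        · rw [← h3] at hmem
          exact mem_union_left _ hmem
        · apply mem_union_right
          have h4 := hw2min e h3 heU hew
          rcases Nat.eq_or_lt_of_le h4 with h5 | h5
          · rw [← h5] at hmem
            exact hmem
          · exfalso
            have h6 := hXmin (w2 + D.c k' - D.c k) (by omega) (by omega)
              (by
                have : w2 + D.c k' - D.c k - D.c k' + D.c k = w2 := by omega
                rw [this]
                exact hw23)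
            have h7 := hgap U u.length w2 hw21 hw22 hUu hw23
            omega

end Crest.Agent.R320.SpoilN_106
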