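import Mathlib

/-! Row 320, TEAM U, leaf U4 (638 #13273): the spoil count of the ruler. -/

namespace Crest.Agent.R320.SpoilU_625

def PP (R M0 M1 l : ℕ) : ℕ := (R*M0) * (R*M1)^l

def Bad (R M0 M1 m rho : ℕ) (Ms Ms1 : Finset ℕ) (n : ℕ) : Prop :=
  (n % (R*M0) < M0 ∨ R*M0 ≤ n % (R*M0) + M0) ∨ (∃ k ∈ Ms, k ∣ n) ∨
  ∃ l < m, ((n / PP R M0 M1 l) % (R*M1) < M1 ∨ R*M1 ≤ (n / PP R M0 M1 l) % (R*M1) + M1) ∨
    rho ≤ (Ms1.filter (· ∣ n / PP R M0 M1 l)).card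

theorem sid : ∀ a b c d : ℕ, 2^a + 2^d = 2^b + 2^c → (a = c ∧ b = d) ∨ (a = b ∧ c = d) := by
  have inj : ∀ x y : ℕ, 2^x = 2^y → x = y := fun x y h => Nat.pow_right_injective (le_refl 2) h
  have pos : ∀ x : ℕ, 0 < 2^x := fun x => Nat.pos_of_ne_zero (by positivity)
  intro a
  induction a with
  | zero =>
    intro b c d h
    rcases b with _ | b <;> rcases c with _ | c <;> rcases d with _ | d <;>
      simp only [pow_succ, pow_zero] at h
    · right; exact ⟨rfl, rfl⟩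
    · omega
    · have := pos c; omega
    · have : 2^d = 2^c := by omega
      have := inj _ _ this
      right; exact ⟨rfl, by omega⟩
    · have := pos b; omega
    · have : 2^d = 2^b := by omega
      have := inj _ _ this
      left; exact ⟨rfl, by omega⟩
    · have := pos b; have := pos c; omega
    · omega
  | succ a ih =>
    intro b c d h
    rcases b with _ | b <;> rcases c with _ | c <;> rcases d with _ | d <;>
      simp only [pow_succ, pow_zero] at h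
    · omega
    · have := pos a; have := pos d; omega
    · have : 2^a = 2^c := by omega
      have := inj _ _ this
      left; exact ⟨by omega, rfl⟩
    · omega
    · have : 2^a = 2^b := by omega
      have := inj _ _ this
      right; exact ⟨by omega, rfl⟩
    · omega
    · omega
    · have h' : 2^a + 2^d = 2^b + 2^c := by omega
      rcases ih b c d h' with ⟨h1, h2⟩ | ⟨h1, h2⟩
      · left; omega
      · right; omega

theorem quo (W s S u T N : ℕ) (δ : ℤ) (hW : 0 < W) (hS : S = s + W*u) (hs : |δ| * s < W)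
    (hN : (N:ℤ) = T + δ * S) :
    ∃ ε : ℤ, |ε| ≤ 1 ∧ ((N / W : ℕ) : ℤ) = ((T / W : ℕ) : ℤ) + ε + δ * u := by
  have hW' : (0:ℤ) < W := by exact_mod_cast hW
  have e1 : (N:ℤ) = (T + δ * s) + W * (δ * u) := by rw [hN, hS]; push_cast; ring
  have e2 : ((N / W : ℕ) : ℤ) = (T + δ * s) / W + δ * u := by
    rw [Int.natCast_div, e1, Int.add_mul_ediv_left _ _ hW'.ne']
  have hab : |δ * s| < W := by rw [abs_mul]; simpa using hs
  obtain ⟨h1, h2⟩ := abs_lt.mp hab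
  have hT1 : (W:ℤ) * ((T:ℤ) / W) ≤ T := Int.mul_ediv_self_le hW'.ne'
  have hT2 : (T:ℤ) < W * ((T:ℤ) / W) + W := by
    have := Int.lt_mul_ediv_self_add (x := (T:ℤ)) hW'
    linarith
  have l1 : (T:ℤ) / W - 1 ≤ (T + δ * s) / W := by
    rw [Int.le_ediv_iff_mul_le hW']
    nlinarith
  have l2 : (T + δ * s) / W < (T:ℤ) / W + 2 := by
    rw [Int.ediv_lt_iff_lt_mul hW']
    nlinarith
  refine ⟨(T + δ * s) / W - (T:ℤ) / W, ?_, ?_⟩
  · rw [abs_le]; constructor <;> linarith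
  · rw [e2, Int.natCast_div]; ring

theorem near (D RM M : ℕ) (h : D % RM < M ∨ RM ≤ D % RM + M) (hM : 0 < RM) :
    ∃ z : ℤ, |(D:ℤ) - z * RM| ≤ M := by
  have e : (RM:ℤ) * ((D / RM : ℕ) : ℤ) + ((D % RM : ℕ) : ℤ) = D := by exact_mod_cast Nat.div_add_mod D RM
  have hlt : ((D % RM : ℕ) : ℤ) < RM := by exact_mod_cast Nat.mod_lt _ hM
  have h0 : (0:ℤ) ≤ ((D % RM : ℕ) : ℤ) := by positivity
  rcases h with h | h
  · refine ⟨((D / RM : ℕ) : ℤ), ?_⟩
    have h' : ((D % RM : ℕ) : ℤ) < M := by exact_mod_cast h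
    rw [abs_le]; constructor <;> nlinarith
  · refine ⟨((D / RM : ℕ) : ℤ) + 1, ?_⟩
    have h' : (RM:ℤ) ≤ ((D % RM : ℕ) : ℤ) + M := by exact_mod_cast h
    rw [abs_le]; constructor <;> nlinarith

theorem band (E R M w : ℕ) (Q : ℤ) (D D' : ℕ) (ε ε' δ δ' : ℤ) (hE : 0 < E)
    (hM : 1024*E ≤ M) (hR : 1024 * E ≤ R) (he : |ε| ≤ 1) (he' : |ε'| ≤ 1)
    (hD : (D:ℤ) = Q + ε + δ * ((1 + M + R*M*w : ℕ) : ℤ))
    (hD' : (D':ℤ) = Q + ε' + δ' * ((1 + M + R*M*w : ℕ) : ℤ))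
    (h16 : 16 ≤ |δ - δ'|) (h32 : |δ - δ'| ≤ 32 * E)
    (hb : D % (R*M) < M ∨ R*M ≤ D % (R*M) + M) (hb' : D' % (R*M) < M ∨ R*M ≤ D' % (R*M) + M) :
    False := by
  have hMpos : 0 < M := by omega
  have hRpos : 0 < R := by omega
  obtain ⟨z, hz⟩ := near D (R*M) M hb (by positivity)
  obtain ⟨z', hz'⟩ := near D' (R*M) M hb' (by positivity)
  obtain ⟨z1, z2⟩ := abs_le.mp hz
  obtain ⟨z1', z2'⟩ := abs_le.mp hz'
  obtain ⟨e1, e2⟩ := abs_le.mp he
  obtain ⟨e1', e2'⟩ := abs_le.mp he'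
  obtain ⟨d1, d2⟩ := abs_le.mp h32
  set t : ℤ := z - z' - (δ - δ') * w with ht
  set y : ℤ := (δ - δ') - t * R with hy
  have key : (D:ℤ) - z * ((R*M : ℕ) : ℤ) - (D' - z' * ((R*M : ℕ) : ℤ)) = (ε - ε') + (δ - δ') + M * y := by
    rw [hD, hD', hy, ht]; push_cast; ring
  have hEM : (1024:ℤ) * E ≤ M := by exact_mod_cast hM
  have hER : (1024:ℤ) * E ≤ R := by exact_mod_cast hR
  have hE' : (1:ℤ) ≤ E := by exact_mod_cast hE
  have hM' : (0:ℤ) < M := by exact_mod_cast hMpos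
  have b1 : (M:ℤ) * y < M * 3 := by linarith
  have b2 : (M:ℤ) * (-3) < M * y := by linarith
  have y1 : y < 3 := lt_of_mul_lt_mul_left b1 hM'.le
  have y2 : -3 < y := lt_of_mul_lt_mul_left b2 hM'.le
  rcases lt_trichotomy t 0 with h | h | h
  · have : t * R ≤ -1 * (R:ℤ) := by
      apply mul_le_mul_of_nonneg_right (by omega) (by positivity)
    linarith
  · rw [h] at hy
    rcases le_abs.mp h16 with h' | h' <;> linarith
  · have : 1 * (R:ℤ) ≤ t * R := by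
      apply mul_le_mul_of_nonneg_right (by omega) (by positivity)
    linarith

theorem dvdl (E R M w k : ℕ) (Q : ℤ) (D D' : ℕ) (ε ε' δ δ' : ℤ) (hE : 0 < E)
    (he : |ε| ≤ 1) (he' : |ε'| ≤ 1)
    (hD : (D:ℤ) = Q + ε + δ * ((1 + M + R*M*w : ℕ) : ℤ))
    (hD' : (D':ℤ) = Q + ε' + δ' * ((1 + M + R*M*w : ℕ) : ℤ))
    (h16 : 16 ≤ |δ - δ'|) (h32 : |δ - δ'| ≤ 32 * E)
    (hk : 1024*E ≤ k) (hkM : k ∣ M) (hkD : k ∣ D) (hkD' : k ∣ D') : False := by
  obtain ⟨e1, e2⟩ := abs_le.mp he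
  obtain ⟨e1', e2'⟩ := abs_le.mp he'
  obtain ⟨d1, d2⟩ := abs_le.mp h32
  have hEk : (1024:ℤ) * E ≤ k := by exact_mod_cast hk
  have hE' : (1:ℤ) ≤ E := by exact_mod_cast hE
  have h1 : (k:ℤ) ∣ (D:ℤ) - D' := dvd_sub (by exact_mod_cast hkD) (by exact_mod_cast hkD')
  have h2 : (k:ℤ) ∣ (M:ℤ) * ((δ - δ') * (1 + R * w)) := Dvd.dvd.mul_right (by exact_mod_cast hkM) _
  have h3 : (k:ℤ) ∣ (ε - ε') + (δ - δ') := by
    have e : (ε - ε') + (δ - δ') = ((D:ℤ) - D') - (M:ℤ) * ((δ - δ') * (1 + R * w)) := by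
      rw [hD, hD']; push_cast; ring
    rw [e]; exact dvd_sub h1 h2
  have h4 : (ε - ε') + (δ - δ') = 0 := by
    apply Int.eq_zero_of_abs_lt_dvd h3
    rw [abs_lt]; constructor <;> linarith
  rcases le_abs.mp h16 with h' | h' <;> linarith

/-- partial sums of the scales -/
def sc (Mp R M0 M1 : ℕ) : ℕ → ℕ
  | 0 => 1 + Mp * (1 + M0)
  | l+1 => sc Mp R M0 M1 l + Mp * PP R M0 M1 l * (1 + M1)

theorem PP_succ (R M0 M1 l : ℕ) : PP R M0 M1 (l+1) = PP R M0 M1 l * (R * M1) := by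
  unfold PP; rw [pow_succ]; ring

theorem sc_low (Mp R M0 M1 : ℕ) : ∀ m, ∃ w, sc Mp R M0 M1 m = 1 + Mp * (1 + M0 + R*M0*w) := by
  intro m
  induction m with
  | zero => exact ⟨0, by simp [sc]⟩
  | succ m ih =>
    obtain ⟨w, hw⟩ := ih
    refine ⟨w + (R*M1)^m * (1 + M1), ?_⟩
    show sc Mp R M0 M1 m + Mp * PP R M0 M1 m * (1 + M1) = _
    rw [hw]; unfold PP; ring

theorem sc_up (Mp R M0 M1 l : ℕ) : ∀ j, ∃ w, sc Mp R M0 M1 (l+1+j) =
    sc Mp R M0 M1 l + Mp * PP R M0 M1 l * (1 + M1 + R*M1*w) := by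
  intro j
  induction j with
  | zero => exact ⟨0, by simp [sc]⟩
  | succ j ih =>
    obtain ⟨w, hw⟩ := ih
    refine ⟨w + (R*M1)^j * (1 + M1), ?_⟩
    show sc Mp R M0 M1 (l+1+j) + Mp * PP R M0 M1 (l+1+j) * (1 + M1) = _
    have : PP R M0 M1 (l+1+j) = PP R M0 M1 l * (R*M1) * (R*M1)^j := by
      unfold PP; rw [pow_add, pow_succ]; ring
    rw [hw, this]; ring

theorem sc_bound (E Mp R M0 M1 : ℕ) (hE : 0 < E) (hMp : 1024*E ≤ Mp) (hR : 1024*E ≤ R)
    (h0 : 1024*E ≤ M0) (h1 : 1024*E ≤ M1) (l : ℕ) :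
    64 * E * sc Mp R M0 M1 l ≤ Mp * PP R M0 M1 l := by
  have a0 : 1 ≤ Mp := by omega
  have a1 : 1 ≤ M0 := by omega
  have a2 : 1 ≤ M1 := by omega
  induction l with
  | zero =>
    have e1 : sc Mp R M0 M1 0 ≤ 3 * (Mp * M0) := by
      show 1 + Mp * (1 + M0) ≤ _
      have : 1 ≤ Mp * M0 := Nat.one_le_iff_ne_zero.mpr (by positivity)
      have : Mp * 1 ≤ Mp * M0 := Nat.mul_le_mul_left _ a1
      nlinarith
    calc 64 * E * sc Mp R M0 M1 0 ≤ 64 * E * (3 * (Mp * M0)) := Nat.mul_le_mul_left _ e1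
      _ = (192 * E) * (Mp * M0) := by ring
      _ ≤ R * (Mp * M0) := Nat.mul_le_mul_right _ (by omega)
      _ = Mp * PP R M0 M1 0 := by unfold PP; ring
  | succ l ih =>
    set W := Mp * PP R M0 M1 l with hW
    have hle : sc Mp R M0 M1 l ≤ W := by
      calc sc Mp R M0 M1 l = 1 * sc Mp R M0 M1 l := by ring
        _ ≤ 64 * E * sc Mp R M0 M1 l := Nat.mul_le_mul_right _ (by omega)
        _ ≤ W := ih
    have e1 : sc Mp R M0 M1 (l+1) ≤ 3 * (W * M1) := by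
      show sc Mp R M0 M1 l + W * (1 + M1) ≤ _
      have : W * 1 ≤ W * M1 := Nat.mul_le_mul_left _ a2
      nlinarith
    calc 64 * E * sc Mp R M0 M1 (l+1) ≤ 64 * E * (3 * (W * M1)) := Nat.mul_le_mul_left _ e1
      _ = (192 * E) * (W * M1) := by ring
      _ ≤ R * (W * M1) := Nat.mul_le_mul_right _ (by omega)
      _ = Mp * PP R M0 M1 (l+1) := by rw [PP_succ, hW]; ring

def dl (ab : ℕ × ℕ) : ℤ := 16 * (2^ab.1 - 2^ab.2)

theorem dl_abs (K : ℕ) (ab : ℕ × ℕ) (h1 : ab.1 < K) (h2 : ab.2 < K) :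
    |dl ab| ≤ 16 * ((2^K : ℕ) : ℤ) := by
  have p1 : (2:ℤ)^ab.1 ≤ 2^K := pow_le_pow_right₀ (by norm_num) h1.le
  have p2 : (2:ℤ)^ab.2 ≤ 2^K := pow_le_pow_right₀ (by norm_num) h2.le
  have q1 : (0:ℤ) < 2^ab.1 := by positivity
  have q2 : (0:ℤ) < 2^ab.2 := by positivity
  unfold dl
  push_cast
  rw [abs_le]; constructor <;> linarith

theorem dl_diff (ab cd : ℕ × ℕ) (hab : ab.1 ≠ ab.2) (hne : ab ≠ cd) : 16 ≤ |dl ab - dl cd| := by
  have e : dl ab - dl cd = 16 * ((2^ab.1 - 2^ab.2) - (2^cd.1 - 2^cd.2)) := by unfold dl; ring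
  have h0 : ((2:ℤ)^ab.1 - 2^ab.2) - (2^cd.1 - 2^cd.2) ≠ 0 := by
    intro h
    have h' : (2:ℤ)^ab.1 + 2^cd.2 = 2^ab.2 + 2^cd.1 := by linarith
    have h'' : 2^ab.1 + 2^cd.2 = 2^ab.2 + 2^cd.1 := by exact_mod_cast h'
    rcases sid _ _ _ _ h'' with ⟨x, y⟩ | ⟨x, y⟩
    · exact hne (Prod.ext x y)
    · exact hab x
  rw [e, abs_mul]
  have : 1 ≤ |((2:ℤ)^ab.1 - 2^ab.2) - (2^cd.1 - 2^cd.2)| := Int.one_le_abs h0
  have h16 : |(16:ℤ)| = 16 := by norm_num
  rw [h16]; linarith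

/-- One level: the quotients `D p` have the form of `quo`; band and divisor conditions are met once. -/
theorem level_once (K E R M w W s S T : ℕ) (x : ℕ → ℕ) (hE : E = 2^K) (hx : ∀ a, x a = 16 * 2^a * S)
    (hT : 16 * E * S ≤ T) (hW : 0 < W) (hS : S = s + W * (1 + M + R*M*w)) (hs : 16 * E * s < W)
    (hR : 1024 * E ≤ R) (hM : 1024 * E ≤ M) (ab cd : ℕ × ℕ)
    (h1 : ab.1 < K) (h2 : ab.2 < K) (h3 : cd.1 < K) (h4 : cd.2 < K) (hab : ab.1 ≠ ab.2)
    (hne : ab ≠ cd) :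
    (¬ (((T + x ab.1 - x ab.2) / W % (R*M) < M ∨ R*M ≤ (T + x ab.1 - x ab.2) / W % (R*M) + M) ∧
       ((T + x cd.1 - x cd.2) / W % (R*M) < M ∨ R*M ≤ (T + x cd.1 - x cd.2) / W % (R*M) + M))) ∧
    (∀ k, 1024*E ≤ k → k ∣ M → ¬ (k ∣ (T + x ab.1 - x ab.2) / W ∧ k ∣ (T + x cd.1 - x cd.2) / W)) := by
  have hEpos : 0 < E := by rw [hE]; positivity
  have cast : ∀ p : ℕ × ℕ, p.1 < K → p.2 < K → ((T + x p.1 - x p.2 : ℕ) : ℤ) = T + dl p * S := by
    intro p hp1 hp2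
    have : x p.2 ≤ T := by
      rw [hx]
      refine le_trans ?_ hT
      have : 2^p.2 ≤ E := by rw [hE]; exact Nat.pow_le_pow_right (by norm_num) hp2.le
      exact Nat.mul_le_mul_right _ (Nat.mul_le_mul_left _ this)
    rw [Nat.cast_sub (by omega), hx, hx]
    unfold dl; push_cast; ring
  have small : ∀ p : ℕ × ℕ, p.1 < K → p.2 < K → |dl p| * (s:ℤ) < W := by
    intro p hp1 hp2
    have a := dl_abs K p hp1 hp2
    rw [← hE] at a
    have b : |dl p| * (s:ℤ) ≤ (16 * E) * s := mul_le_mul_of_nonneg_right a (by positivity)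
    have c : ((16:ℤ) * E) * s < W := by exact_mod_cast hs
    linarith
  obtain ⟨ε, he, hD⟩ := quo W s S (1 + M + R*M*w) T (T + x ab.1 - x ab.2) (dl ab) hW hS
    (small ab h1 h2) (cast ab h1 h2)
  obtain ⟨ε', he', hD'⟩ := quo W s S (1 + M + R*M*w) T (T + x cd.1 - x cd.2) (dl cd) hW hS
    (small cd h3 h4) (cast cd h3 h4)
  have h16 := dl_diff ab cd hab hne
  have h32 : |dl ab - dl cd| ≤ 32 * (E:ℤ) := by
    have a := dl_abs K ab h1 h2
    have b := dl_abs K cd h3 h4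
    rw [← hE] at a b
    have := abs_sub (dl ab) (dl cd)
    linarith
  constructor
  · rintro ⟨hb, hb'⟩
    exact band E R M w _ _ _ ε ε' _ _ hEpos hM hR he he' hD hD' h16 h32 hb hb'
  · rintro k hk hkM ⟨hkD, hkD'⟩
    exact dvdl E R M w k _ _ _ ε ε' _ _ hEpos he he' hD hD' h16 h32 hk hkM hkD hkD'

theorem card_le_one_of {β : Type*} [DecidableEq β] (F : Finset β) (p : β → Prop) [DecidablePred p]
    (h : ∀ a ∈ F, ∀ b ∈ F, a ≠ b → ¬ (p a ∧ p b)) : (F.filter p).card ≤ 1 := by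
  rw [Finset.card_le_one]
  intro a ha b hb
  rw [Finset.mem_filter] at ha hb
  by_contra hne
  exact h a ha.1 b hb.1 hne ⟨ha.2, hb.2⟩

theorem card_rho {β : Type*} [DecidableEq β] (F : Finset β) (Ms1 : Finset ℕ) (rho : ℕ) (D : β → ℕ)
    (hrho : 0 < rho) (hc : Ms1.card ≤ 32 * rho)
    (h : ∀ k ∈ Ms1, ∀ a ∈ F, ∀ b ∈ F, a ≠ b → ¬ (k ∣ D a ∧ k ∣ D b)) :
    (F.filter (fun a => rho ≤ (Ms1.filter (· ∣ D a)).card)).card ≤ 32 := by
  set G := F.filter (fun a => rho ≤ (Ms1.filter (· ∣ D a)).card) with hG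
  have h1 : G.card * rho ≤ ∑ a ∈ G, (Ms1.filter (· ∣ D a)).card := by
    rw [← smul_eq_mul, ← Finset.sum_const]
    apply Finset.sum_le_sum
    intro a ha
    exact (Finset.mem_filter.mp ha).2
  have h2 : ∑ a ∈ G, (Ms1.filter (· ∣ D a)).card = ∑ k ∈ Ms1, (G.filter (fun a => k ∣ D a)).card := by
    have := Finset.sum_card_bipartiteAbove_eq_sum_card_bipartiteBelow (s := G) (t := Ms1)
      (fun (a : β) (k : ℕ) => k ∣ D a)
    simpa [Finset.bipartiteAbove, Finset.bipartiteBelow] using this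
  have h3 : ∑ k ∈ Ms1, (G.filter (fun a => k ∣ D a)).card ≤ ∑ k ∈ Ms1, 1 := by
    apply Finset.sum_le_sum
    intro k hk
    apply card_le_one_of
    intro a ha b hb
    exact h k hk a (Finset.mem_filter.mp ha).1 b (Finset.mem_filter.mp hb).1
  have h4 : G.card * rho ≤ 32 * rho := by
    rw [h2] at h1
    have : ∑ k ∈ Ms1, 1 = Ms1.card := by simp
    omega
  exact Nat.le_of_mul_le_mul_right h4 hrho

open Classical in
theorem spoil (m r K Mp R M0 M1 rho : ℕ) (Ms Ms1 : Finset ℕ) (hMp : 2^(K+10) ≤ Mp)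
    (hR : 2^(K+10) ≤ R) (h0 : 2^(K+10) ≤ M0) (h1 : 2^(K+10) ≤ M1)
    (hMs : ∀ k ∈ Ms, 2^(K+10) ≤ k ∧ k ∣ M0) (hMs1 : ∀ k ∈ Ms1, 2^(K+10) ≤ k ∧ k ∣ M1)
    (hc : Ms.card ≤ r) (hc1 : Ms1.card ≤ 32*rho) (hrho : 0 < rho) :
    ∃ (x : ℕ → ℕ) (T0 : ℕ),
      (∀ a b c d, a < K → b < K → c < K → d < K →
        (Mp:ℤ) ∣ ((x a:ℤ) - x b) - (x c - x d) → (a = c ∧ b = d) ∨ (a = b ∧ c = d)) ∧
      ∀ T, T0 ≤ T → (((Finset.range K ×ˢ Finset.range K).filter
        (fun ab => ab.1 ≠ ab.2 ∧ Bad R M0 M1 m rho Ms Ms1 ((T + x ab.1 - x ab.2) / Mp))).card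
          ≤ 2 + r + 34*m) := by
  set E := 2^K with hE
  have hpow : 2^(K+10) = 1024 * E := by rw [pow_add, hE]; ring
  rw [hpow] at hMp hR h0 h1
  simp only [hpow] at hMs hMs1
  have hEpos : 0 < E := by rw [hE]; positivity
  set S := sc Mp R M0 M1 m with hSdef
  refine ⟨fun a => 16 * 2^a * S, 16 * E * S, ?_, ?_⟩
  · intro a b c d ha hb hc' hd hdvd
    obtain ⟨w, hw⟩ := sc_low Mp R M0 M1 m
    have e : (((16 * 2^a * S : ℕ):ℤ) - (16 * 2^b * S : ℕ)) - ((16 * 2^c * S : ℕ) - (16 * 2^d * S : ℕ))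
        = 16 * ((2^a + 2^d) - (2^b + 2^c)) + Mp * (16 * ((2^a + 2^d) - (2^b + 2^c)) * (1 + M0 + R*M0*w)) := by
      rw [hSdef, hw]; push_cast; ring
    have h2 : (Mp:ℤ) ∣ 16 * ((2^a + 2^d) - (2^b + 2^c)) := by
      have := hdvd
      beta_reduce at this
      rw [e] at this
      exact (dvd_add_left (Dvd.intro _ rfl)).mp this
    have pa : (2:ℤ)^a ≤ E := by rw [hE]; push_cast; exact pow_le_pow_right₀ (by norm_num) ha.le
    have pb : (2:ℤ)^b ≤ E := by rw [hE]; push_cast; exact pow_le_pow_right₀ (by norm_num) hb.le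
    have pc : (2:ℤ)^c ≤ E := by rw [hE]; push_cast; exact pow_le_pow_right₀ (by norm_num) hc'.le
    have pd : (2:ℤ)^d ≤ E := by rw [hE]; push_cast; exact pow_le_pow_right₀ (by norm_num) hd.le
    have qa : (0:ℤ) < 2^a := by positivity
    have qb : (0:ℤ) < 2^b := by positivity
    have qc : (0:ℤ) < 2^c := by positivity
    have qd : (0:ℤ) < 2^d := by positivity
    have hMp' : (1024:ℤ) * E ≤ Mp := by exact_mod_cast hMp
    have h3 : (16:ℤ) * ((2^a + 2^d) - (2^b + 2^c)) = 0 := by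
      apply Int.eq_zero_of_abs_lt_dvd h2
      rw [abs_lt]; constructor <;> linarith
    have h4 : (2:ℤ)^a + 2^d = 2^b + 2^c := by linarith
    have h5 : 2^a + 2^d = 2^b + 2^c := by exact_mod_cast h4
    exact sid a b c d h5
  · intro T hT
    set x : ℕ → ℕ := fun a => 16 * 2^a * S with hx
    set F := (Finset.range K ×ˢ Finset.range K).filter (fun ab : ℕ × ℕ => ab.1 ≠ ab.2) with hF
    have hFm : ∀ p ∈ F, p.1 < K ∧ p.2 < K ∧ p.1 ≠ p.2 := by
      intro p hp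
      rw [hF, Finset.mem_filter, Finset.mem_product, Finset.mem_range, Finset.mem_range] at hp
      exact ⟨hp.1.1, hp.1.2, hp.2⟩
    have Mp0 : 0 < Mp := by omega
    -- level 0
    obtain ⟨w, hw⟩ := sc_low Mp R M0 M1 m
    have L0 := fun (ab cd : ℕ × ℕ) h1' h2' h3' h4' hab hne =>
      level_once K E R M0 w Mp 1 S T x hE (fun a => rfl) hT Mp0 (by rw [hSdef, hw])
        (by omega) hR h0 ab cd h1' h2' h3' h4' hab hne
    have A1 : (F.filter (fun ab => (T + x ab.1 - x ab.2) / Mp % (R*M0) < M0 ∨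
        R*M0 ≤ (T + x ab.1 - x ab.2) / Mp % (R*M0) + M0)).card ≤ 1 := by
      apply card_le_one_of
      intro a ha b hb hne
      obtain ⟨u1, u2, u3⟩ := hFm a ha
      obtain ⟨v1, v2, v3⟩ := hFm b hb
      exact (L0 a b u1 u2 v1 v2 u3 hne).1
    have A2 : ∀ k ∈ Ms, (F.filter (fun ab => k ∣ (T + x ab.1 - x ab.2) / Mp)).card ≤ 1 := by
      intro k hk
      apply card_le_one_of
      intro a ha b hb hne
      obtain ⟨u1, u2, u3⟩ := hFm a ha
      obtain ⟨v1, v2, v3⟩ := hFm b hb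
      exact (L0 a b u1 u2 v1 v2 u3 hne).2 k (hMs k hk).1 (hMs k hk).2
    -- levels l < m
    have Lm : ∀ l < m, ∀ (ab cd : ℕ × ℕ), ab.1 < K → ab.2 < K → cd.1 < K → cd.2 < K → ab.1 ≠ ab.2 →
        ab ≠ cd →
        (¬ (((T + x ab.1 - x ab.2) / (Mp * PP R M0 M1 l) % (R*M1) < M1 ∨
              R*M1 ≤ (T + x ab.1 - x ab.2) / (Mp * PP R M0 M1 l) % (R*M1) + M1) ∧
            ((T + x cd.1 - x cd.2) / (Mp * PP R M0 M1 l) % (R*M1) < M1 ∨
              R*M1 ≤ (T + x cd.1 - x cd.2) / (Mp * PP R M0 M1 l) % (R*M1) + M1))) ∧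
        (∀ k, 1024*E ≤ k → k ∣ M1 → ¬ (k ∣ (T + x ab.1 - x ab.2) / (Mp * PP R M0 M1 l) ∧
            k ∣ (T + x cd.1 - x cd.2) / (Mp * PP R M0 M1 l))) := by
      intro l hl ab cd h1' h2' h3' h4' hab hne
      obtain ⟨w', hw'⟩ := sc_up Mp R M0 M1 l (m - (l+1))
      have hml : l + 1 + (m - (l+1)) = m := by omega
      rw [hml] at hw'
      have hb := sc_bound E Mp R M0 M1 hEpos hMp hR h0 h1 l
      have hpos : 0 < sc Mp R M0 M1 l := by
        cases l with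
        | zero => show 0 < 1 + Mp * (1 + M0); omega
        | succ l =>
          obtain ⟨w2, hw2⟩ := sc_low Mp R M0 M1 (l+1)
          rw [hw2]; omega
      have hs : 16 * E * sc Mp R M0 M1 l < Mp * PP R M0 M1 l := by
        have : 0 < E * sc Mp R M0 M1 l := by positivity
        nlinarith
      have hWpos : 0 < Mp * PP R M0 M1 l := by omega
      exact level_once K E R M1 w' (Mp * PP R M0 M1 l) (sc Mp R M0 M1 l) S T x hE (fun a => rfl) hT
        hWpos (by rw [hSdef, hw']) hs hR h1 ab cd h1' h2' h3' h4' hab hne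
    have B1 : ∀ l < m, (F.filter (fun ab => (T + x ab.1 - x ab.2) / (Mp * PP R M0 M1 l) % (R*M1) < M1 ∨
              R*M1 ≤ (T + x ab.1 - x ab.2) / (Mp * PP R M0 M1 l) % (R*M1) + M1)).card ≤ 1 := by
      intro l hl
      apply card_le_one_of
      intro a ha b hb hne
      obtain ⟨u1, u2, u3⟩ := hFm a ha
      obtain ⟨v1, v2, v3⟩ := hFm b hb
      exact (Lm l hl a b u1 u2 v1 v2 u3 hne).1
    have B2 : ∀ l < m, (F.filter (fun ab => rho ≤ (Ms1.filter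
        (· ∣ (T + x ab.1 - x ab.2) / (Mp * PP R M0 M1 l))).card)).card ≤ 32 := by
      intro l hl
      apply card_rho F Ms1 rho (fun ab => (T + x ab.1 - x ab.2) / (Mp * PP R M0 M1 l)) hrho hc1
      intro k hk a ha b hb hne
      obtain ⟨u1, u2, u3⟩ := hFm a ha
      obtain ⟨v1, v2, v3⟩ := hFm b hb
      exact (Lm l hl a b u1 u2 v1 v2 u3 hne).2 k (hMs1 k hk).1 (hMs1 k hk).2
    have sub : (Finset.range K ×ˢ Finset.range K).filter
        (fun ab => ab.1 ≠ ab.2 ∧ Bad R M0 M1 m rho Ms Ms1 ((T + x ab.1 - x ab.2) / Mp)) ⊆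
        (F.filter (fun ab => (T + x ab.1 - x ab.2) / Mp % (R*M0) < M0 ∨
          R*M0 ≤ (T + x ab.1 - x ab.2) / Mp % (R*M0) + M0)) ∪
        (Ms.biUnion (fun k => F.filter (fun ab => k ∣ (T + x ab.1 - x ab.2) / Mp))) ∪
        ((Finset.range m).biUnion (fun l =>
          (F.filter (fun ab => (T + x ab.1 - x ab.2) / (Mp * PP R M0 M1 l) % (R*M1) < M1 ∨
              R*M1 ≤ (T + x ab.1 - x ab.2) / (Mp * PP R M0 M1 l) % (R*M1) + M1)) ∪
          (F.filter (fun ab => rho ≤ (Ms1.filter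
            (· ∣ (T + x ab.1 - x ab.2) / (Mp * PP R M0 M1 l))).card)))) := by
      intro p hp
      rw [Finset.mem_filter] at hp
      obtain ⟨hp1, hp2, hp3⟩ := hp
      have hpF : p ∈ F := by rw [hF, Finset.mem_filter]; exact ⟨hp1, hp2⟩
      rw [Finset.mem_union, Finset.mem_union]
      rcases hp3 with h | ⟨k, hk, hkd⟩ | ⟨l, hl, h⟩
      · left; left; rw [Finset.mem_filter]; exact ⟨hpF, h⟩
      · left; right; rw [Finset.mem_biUnion]; exact ⟨k, hk, by rw [Finset.mem_filter]; exact ⟨hpF, hkd⟩⟩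
      · right; rw [Finset.mem_biUnion]
        refine ⟨l, Finset.mem_range.mpr hl, ?_⟩
        rw [Nat.div_div_eq_div_mul] at h
        rcases h with h | h
        · exact Finset.mem_union.mpr (Or.inl (Finset.mem_filter.mpr ⟨hpF, h⟩))
        · exact Finset.mem_union.mpr (Or.inr (Finset.mem_filter.mpr ⟨hpF, h⟩))
    refine (Finset.card_le_card sub).trans ?_
    refine (Finset.card_union_le _ _).trans ?_
    have c1 := (Finset.card_union_le (F.filter (fun ab => (T + x ab.1 - x ab.2) / Mp % (R*M0) < M0 ∨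
          R*M0 ≤ (T + x ab.1 - x ab.2) / Mp % (R*M0) + M0))
        (Ms.biUnion (fun k => F.filter (fun ab => k ∣ (T + x ab.1 - x ab.2) / Mp))))
    have c2 : (Ms.biUnion (fun k => F.filter (fun ab => k ∣ (T + x ab.1 - x ab.2) / Mp))).card ≤ Ms.card * 1 :=
      Finset.card_biUnion_le_card_mul _ _ _ (fun k hk => A2 k hk)
    have c3 : ((Finset.range m).biUnion (fun l =>
          (F.filter (fun ab => (T + x ab.1 - x ab.2) / (Mp * PP R M0 M1 l) % (R*M1) < M1 ∨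
              R*M1 ≤ (T + x ab.1 - x ab.2) / (Mp * PP R M0 M1 l) % (R*M1) + M1)) ∪
          (F.filter (fun ab => rho ≤ (Ms1.filter
            (· ∣ (T + x ab.1 - x ab.2) / (Mp * PP R M0 M1 l))).card)))).card ≤ (Finset.range m).card * 33 := by
      apply Finset.card_biUnion_le_card_mul
      intro l hl
      have hl' := Finset.mem_range.mp hl
      have := B1 l hl'
      have := B2 l hl'
      refine (Finset.card_union_le _ _).trans ?_
      omega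
    rw [Finset.card_range] at c3
    omega

end Crest.Agent.R320.SpoilU_625
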