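import Crest.Agent.R320.Sch1_420
import Crest.Agent.R320.SC2_416
import Crest.Agent.R320.LWall_421
import Crest.Agent.R320.Ruler_302

/-!
Row 320, helper113: constants of 132's two schemes and the spoiling count on words, in the form
`spoiled` of SC2_416, with the walls of Sch1_420.
-/

set_option autoImplicit false

namespace Crest.Agent.R320.Spoil_113

open Crest.Agent.R320.Gad1_420 Crest.Agent.R320.Sch1_420 Crest.Agent.R320.SC2_416

/-- all constants -/
structure Cst (α : Type) where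
  K : ℕ
  Ms : Finset ℕ
  M : ℕ
  M' : ℕ
  U : ℕ
  Lam : ℕ
  m : ℕ
  R : List α → Prop
  n : ℕ
  A : ℕ → ℕ
  N1 : ℕ
  Δ : ℕ
  T0 : ℕ
  Wo : List α → Prop
  no : ℕ
  Go : ℕ
  p0 : ℕ
  q0 : ℕ
  Bm : ℕ
  hM : 0 < M
  hM' : 0 < M'
  h4K : 4 ^ K ≤ M'
  hMs : ∀ k ∈ Ms, 2 * 4 ^ K + 2 ≤ k ∧ k ∣ M
  hU : U = M' * (1 + M * 2) + 1
  hLam : Lam = U * 4 ^ K
  rule : Rule R n
  sep : ∀ Q d, R Q → 0 < d → d ≤ 2 * (M' * M) + 2 * Lam → ¬ R (Q.drop d)
  hΔ : 2 * N1 + 2 * Lam < Δ
  loc : ∀ P Q : List α, no ≤ Q.length → (Wo (P ++ Q) ↔ Wo Q)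
  wlen : ∀ P, Wo P → no ≤ P.length
  sepo : ∀ P Q, Wo P → Wo (P ++ Q) → Q ≠ [] → M' * Δ + 2 * Lam + 2 * N1 < Q.length
  hp0 : p0 = q0 + Lam
  hq0 : q0 = M' * Δ + Go + 1
  hT0 : T0 = p0 + N1 + no + 3 * Lam
  hBm : Bm = T0 + M' * Δ + Go + 1

variable {α : Type} (C : Cst α)

namespace Cst

/-- thresholds -/
def thr (r : ℕ) : ℕ := C.T0 + (r % C.M') * C.Δ

/-- ruler -/
def c (j : ℕ) : ℕ := C.q0 + C.U * 4 ^ j

/-- stop at `s` in `Z`, the text behind `a + p0` -/
def StopZ (Z : List α) (s : ℕ) : Prop :=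
  C.no ≤ s ∧ s ≤ Z.length ∧ C.Wo (Z.take s) ∧ C.thr (C.p0 + s) ≤ C.p0 + s

/-- the first stop -/
noncomputable def NR (Z : List α) : ℕ := sInf {s | C.StopZ Z s}

def EZ (Z : List α) : Prop :=
  ∃ s, C.no ≤ s ∧ s ≤ Z.length ∧ C.Wo (Z.take s) ∧ C.thr (C.p0 + s) ≤ C.p0 + s + C.N1 ∧
    C.p0 + s < C.thr (C.p0 + s) + C.N1

def DZ (k : ℕ) (Z : List α) : Prop :=
  ∃ s, C.R (Z.drop s) ∧ C.A k ≤ s + C.M' * C.M ∧ s < C.A k + C.M' * C.M

def BZ (Z : List α) : Prop := ∃ k ∈ C.Ms, k ∣ C.NR Z / C.M'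

def BadR (Z : List α) : Prop := C.EZ Z ∨ (∃ k ≤ C.m, C.DZ k Z) ∨ C.BZ Z

variable {C}

theorem thr_lb (r : ℕ) : C.T0 ≤ C.thr r := Nat.le_add_right _ _

theorem thr_ub (r : ℕ) : C.thr r ≤ C.T0 + C.M' * C.Δ := by
  unfold thr
  have := Nat.mod_lt r C.hM'
  have : (r % C.M') * C.Δ ≤ C.M' * C.Δ := Nat.mul_le_mul_right _ this.le
  omega

theorem Upos : 0 < C.U := by rw [C.hU]; omega

theorem U4 {j : ℕ} (hj : j < C.K) : C.U * 4 ^ j ≤ C.Lam := by
  rw [C.hLam]
  exact Nat.mul_le_mul_left _ (Nat.pow_le_pow_right (by norm_num) hj.le)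

/-- the place of the view -/
def xx (C : Cst α) (j l : ℕ) : ℕ := C.c j + (C.p0 - C.c l)

theorem xx_eq {j l : ℕ} (hl : l < C.K) :
    ((C.xx j l : ℕ) : ℤ) = C.p0 + ((C.U : ℤ) * (4 ^ j - 4 ^ l)) := by
  have h2 := U4 hl
  have h3 := C.hp0
  unfold xx c
  have h4 : C.q0 + C.U * 4 ^ l ≤ C.p0 := by omega
  push_cast [h4]
  ring

theorem dd_le {j l : ℕ} (hj : j < C.K) (hl : l < C.K) :
    |((C.U : ℤ) * (4 ^ j - 4 ^ l))| ≤ C.Lam := by
  have h1 := U4 hj
  have h2 := U4 hl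
  have h1' : (C.U : ℤ) * 4 ^ j ≤ C.Lam := by exact_mod_cast h1
  have h2' : (C.U : ℤ) * 4 ^ l ≤ C.Lam := by exact_mod_cast h2
  have h3 : (0 : ℤ) ≤ (C.U : ℤ) * 4 ^ j := by positivity
  have h4 : (0 : ℤ) ≤ (C.U : ℤ) * 4 ^ l := by positivity
  rw [mul_sub, abs_le]
  constructor <;> linarith

theorem view_xx (t : List α) (j l : ℕ) :
    view C.p0 C.Bm (C.c l) (t.drop (C.c j)) = (t.drop (C.xx j l)).take (C.Bm - C.p0) := by
  unfold view xx
  rw [List.drop_drop]

/-- outer walls in views are walls of the text -/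
theorem wall_o {t : List α} {x L s : ℕ} (h1 : C.no ≤ s) (h2 : s ≤ L) (h3 : x + s ≤ t.length) :
    C.Wo (((t.drop x).take L).take s) ↔ C.Wo (t.take (x + s)) := by
  rw [List.take_take, min_eq_left h2]
  have e : t.take (x + s) = t.take x ++ (t.drop x).take s := by
    rw [List.take_add]
  rw [e]
  exact (C.loc _ _ (by rw [List.length_take, List.length_drop]; omega)).symm

/-- two outer walls are far apart -/
theorem far_o {t : List α} {τ τ' : ℕ} (h : τ < τ') (h' : τ' ≤ t.length)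
    (hw : C.Wo (t.take τ)) (hw' : C.Wo (t.take τ')) :
    τ + (C.M' * C.Δ + 2 * C.Lam + 2 * C.N1) < τ' := by
  have e : t.take τ' = t.take τ ++ (t.drop τ).take (τ' - τ) := by
    rw [← List.take_add]; congr 1; omega
  rw [e] at hw'
  have hl : ((t.drop τ).take (τ' - τ)).length = τ' - τ := by
    rw [List.length_take, List.length_drop]; omega
  have h1 := C.sepo _ _ hw hw' (by
    intro h0
    rw [h0] at hl
    simp at hl
    omega)
  rw [hl] at h1
  omega

/-- small walls in views are walls of the text -/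
theorem wall_s {t : List α} {x L s : ℕ} (h : C.R (((t.drop x).take L).drop s)) :
    C.R (t.drop (x + s)) := by
  rw [List.drop_take, List.drop_drop] at h
  have h1 := C.rule.len _ h
  have h2 := (C.rule.loc _).1 h
  rw [List.length_take] at h1
  rw [List.take_take, min_eq_left (by omega)] at h2
  exact (C.rule.loc _).2 h2

theorem far_s {t : List α} {σ σ' : ℕ} (h : σ < σ')
    (hw : C.R (t.drop σ)) (hw' : C.R (t.drop σ')) :
    σ + (2 * (C.M' * C.M) + 2 * C.Lam) < σ' := by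
  by_contra hc
  have h1 := C.sep _ (σ' - σ) hw (by omega) (by omega)
  rw [List.drop_drop] at h1
  exact h1 (by rwa [show σ + (σ' - σ) = σ' by omega])

/-- (E): one pair at most -/
theorem uniqE {t : List α} {j l j' l' : ℕ} (hj : j < C.K) (hl : l < C.K) (hj' : j' < C.K)
    (hl' : l' < C.K) (hne : j ≠ l) (ht : C.Bm + C.p0 ≤ t.length)
    (h : C.EZ (view C.p0 C.Bm (C.c l) (t.drop (C.c j))))
    (h' : C.EZ (view C.p0 C.Bm (C.c l') (t.drop (C.c j')))) : j = j' := by
  rw [view_xx] at h h'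
  obtain ⟨s, a1, a2, a3, a4, a5⟩ := h
  obtain ⟨s', b1, b2, b3, b4, b5⟩ := h'
  have hx := xx_eq (C := C) (j := j) hl
  have hx' := xx_eq (C := C) (j := j') hl'
  have hd := abs_le.1 (dd_le hj hl)
  have hd' := abs_le.1 (dd_le hj' hl')
  have c1 := thr_lb (C := C) (C.p0 + s)
  have c2 := thr_ub (C := C) (C.p0 + s)
  have c1' := thr_lb (C := C) (C.p0 + s')
  have c2' := thr_ub (C := C) (C.p0 + s')
  have hp0 := C.hp0
  have hT0 := C.hT0
  have hB := C.hBm
  have hΔ := C.hΔ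
  rw [List.length_take, List.length_drop] at a2 b2
  generalize hX : C.xx j l = x at *
  generalize hX' : C.xx j' l' = x' at *
  generalize hdd : (C.U : ℤ) * (4 ^ j - 4 ^ l) = d at *
  generalize hdd' : (C.U : ℤ) * (4 ^ j' - 4 ^ l') = d' at *
  rw [wall_o a1 (by omega) (by omega)] at a3
  rw [wall_o b1 (by omega) (by omega)] at b3
  have hMΔ : (0 : ℤ) ≤ (C.M' : ℤ) * C.Δ := by positivity
  have hτ : x + s = x' + s' := by
    rcases lt_trichotomy (x + s) (x' + s') with hlt | heq | hgt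
    · have := far_o hlt (by omega) a3 b3
      generalize C.M' * C.Δ = MD at *
      omega
    · exact heq
    · have := far_o hgt (by omega) b3 a3
      generalize C.M' * C.Δ = MD at *
      omega
  -- same residue
  have hr : (C.p0 + s) % C.M' = (C.p0 + s') % C.M' := by
    have h1 : (C.thr (C.p0 + s) : ℤ) - C.thr (C.p0 + s') < C.Δ := by
      generalize C.M' * C.Δ = MD at *
      omega
    have h2 : (C.thr (C.p0 + s') : ℤ) - C.thr (C.p0 + s) < C.Δ := by
      generalize C.M' * C.Δ = MD at *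
      omega
    unfold thr at h1 h2
    push_cast at h1 h2
    generalize hr1 : (C.p0 + s) % C.M' = r1 at *
    generalize hr2 : (C.p0 + s') % C.M' = r2 at *
    have hr1' : (((C.p0 : ℤ) + s) % C.M') = r1 := by rw [← hr1]; push_cast; rfl
    have hr2' : (((C.p0 : ℤ) + s') % C.M') = r2 := by rw [← hr2]; push_cast; rfl
    rw [hr1', hr2'] at h1 h2
    have hΔ0 : (0 : ℤ) < C.Δ := by omega
    have h3 : ((r1 : ℤ) - r2) * C.Δ < 1 * C.Δ := by linarith
    have h4 : ((r2 : ℤ) - r1) * C.Δ < 1 * C.Δ := by linarith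
    have h5 := lt_of_mul_lt_mul_right h3 hΔ0.le
    have h6 := lt_of_mul_lt_mul_right h4 hΔ0.le
    omega
  have hdvd : (C.M' : ℤ) ∣ d - d' := by
    have h1 : ((C.p0 + s : ℕ) : ℤ) ≡ ((C.p0 + s' : ℕ) : ℤ) [ZMOD C.M'] := by
      have : (C.p0 + s) ≡ (C.p0 + s') [MOD C.M'] := hr
      exact (Int.natCast_modEq_iff).2 this
    have h2 := h1.dvd
    have h3 : ((C.p0 + s' : ℕ) : ℤ) - ((C.p0 + s : ℕ) : ℤ) = d - d' := by
      push_cast
      omega
    rwa [h3] at h2
  rw [← hdd, ← hdd'] at hdvd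
  have hUM : (C.M' : ℤ) ∣ (C.U : ℤ) - 1 := by
    rw [C.hU]
    push_cast
    exact ⟨1 + C.M * 2, by ring⟩
  have h4 : (4 : ℤ) ^ C.K ≤ C.M' := by exact_mod_cast C.h4K
  exact (Ruler_302.dist_mod h4 hUM hj hl hj' hl' hne hdvd).1

/-- (D): one pair at most for every level -/
theorem uniqD {t : List α} {k j l j' l' : ℕ} (hj : j < C.K) (hl : l < C.K) (hj' : j' < C.K)
    (hl' : l' < C.K) (hne : j ≠ l)
    (h : C.DZ k (view C.p0 C.Bm (C.c l) (t.drop (C.c j))))
    (h' : C.DZ k (view C.p0 C.Bm (C.c l') (t.drop (C.c j')))) : j = j' := by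
  rw [view_xx] at h h'
  obtain ⟨s, a1, a2, a3⟩ := h
  obtain ⟨s', b1, b2, b3⟩ := h'
  have a1' := wall_s a1
  have b1' := wall_s b1
  have hx := xx_eq (C := C) (j := j) hl
  have hx' := xx_eq (C := C) (j := j') hl'
  have hd := abs_le.1 (dd_le hj hl)
  have hd' := abs_le.1 (dd_le hj' hl')
  generalize hX : C.xx j l = x at *
  generalize hX' : C.xx j' l' = x' at *
  generalize hdd : (C.U : ℤ) * (4 ^ j - 4 ^ l) = d at *
  generalize hdd' : (C.U : ℤ) * (4 ^ j' - 4 ^ l') = d' at *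
  have hU := C.hU
  have hU2 : 2 * (C.M' * C.M) < C.U := by rw [hU]; ring_nf; omega
  have hσ : x + s = x' + s' := by
    rcases lt_trichotomy (x + s) (x' + s') with hlt | heq | hgt
    · have := far_s hlt a1' b1'
      generalize C.M' * C.M = MM at *
      omega
    · exact heq
    · have := far_s hgt b1' a1'
      generalize C.M' * C.M = MM at *
      omega
  have h5 : |(C.U : ℤ) * (4 ^ j - 4 ^ l) - (C.U : ℤ) * (4 ^ j' - 4 ^ l')| < C.U := by
    rw [hdd, hdd', abs_lt]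
    generalize C.M' * C.M = MM at *
    constructor <;> omega
  have hU0 : (0 : ℤ) < C.U := by
    have := Upos (C := C)
    exact_mod_cast this
  exact (Ruler_302.resol hU0 hne h5).1


/-- existence of outer walls on the text -/
def ExO (C : Cst α) (t : List α) : Prop :=
  ∀ i, i + C.Go ≤ t.length → ∃ τ, i < τ ∧ τ ≤ i + C.Go ∧ C.Wo (t.take τ)

theorem stop_ex {t : List α} (ht : C.ExO t) {x : ℕ} (hx : x + C.Bm ≤ t.length + C.p0) :
    ∃ s, C.StopZ ((t.drop x).take (C.Bm - C.p0)) s := by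
  have hp0 := C.hp0
  have hT0 := C.hT0
  have hB := C.hBm
  obtain ⟨τ, h1, h2, h3⟩ := ht (x + (C.T0 + C.M' * C.Δ - C.p0)) (by omega)
  obtain ⟨s, rfl⟩ := Nat.exists_eq_add_of_le (show x ≤ τ by omega)
  refine ⟨s, by omega, ?_, ?_, ?_⟩
  · rw [List.length_take, List.length_drop]; omega
  · rw [wall_o (by omega) (by omega) (by omega)]
    exact h3
  · have := thr_ub (C := C) (C.p0 + s)
    omega

theorem NR_spec {Z : List α} (h : ∃ s, C.StopZ Z s) : C.StopZ Z (C.NR Z) :=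
  Nat.sInf_mem (s := {s | C.StopZ Z s}) h

theorem NR_le {Z : List α} {s : ℕ} (h : C.StopZ Z s) : C.NR Z ≤ s :=
  Nat.sInf_le (s := {s | C.StopZ Z s}) h

theorem NR_le_length (Z : List α) : C.NR Z ≤ Z.length := by
  by_cases h : ∃ s, C.StopZ Z s
  · exact (NR_spec h).2.1
  · have : {s | C.StopZ Z s} = ∅ := by
      ext s
      simp only [Set.mem_setOf_eq, Set.mem_empty_iff_false, iff_false]
      exact fun h' => h ⟨s, h'⟩
    unfold NR
    rw [this]
    simp

/-- event (B) with the modulus `k`, inside (`false`) or behind (`true`) the band -/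
def BK (C : Cst α) (t : List α) (k : ℕ) (i : Bool) (j l : ℕ) : Prop :=
  k ∣ C.NR ((t.drop (C.xx j l)).take (C.Bm - C.p0)) / C.M' ∧
    (i = true ↔ C.T0 + C.M' * C.Δ + C.Lam ≤
      C.xx j l + C.NR ((t.drop (C.xx j l)).take (C.Bm - C.p0)))

theorem uniqB {t : List α} (hex : C.ExO t) {k : ℕ} (hk : k ∈ C.Ms) {i : Bool} {j l j' l' : ℕ}
    (hj : j < C.K) (hl : l < C.K) (hj' : j' < C.K)
    (hl' : l' < C.K) (hne : j ≠ l) (ht : 2 * C.Bm ≤ t.length)
    (h : C.BK t k i j l) (h' : C.BK t k i j' l') : j = j' := by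
  obtain ⟨g1, g2⟩ := h
  obtain ⟨g1', g2'⟩ := h'
  have hx := xx_eq (C := C) (j := j) hl
  have hx' := xx_eq (C := C) (j := j') hl'
  have hd := abs_le.1 (dd_le hj hl)
  have hd' := abs_le.1 (dd_le hj' hl')
  have hp0 := C.hp0
  have hT0 := C.hT0
  have hB := C.hBm
  have hΔ := C.hΔ
  have e1 : C.xx j l + C.Bm ≤ t.length + C.p0 := by
    generalize hdd : (C.U : ℤ) * (4 ^ j - 4 ^ l) = d at *
    omega
  have e2 : C.xx j' l' + C.Bm ≤ t.length + C.p0 := by
    generalize hdd : (C.U : ℤ) * (4 ^ j' - 4 ^ l') = d at *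
    omega
  have hs := NR_spec (stop_ex hex e1)
  have hs' := NR_spec (stop_ex hex e2)
  have hmin := fun s (h : C.StopZ ((t.drop (C.xx j l)).take (C.Bm - C.p0)) s) => NR_le h
  have hmin' := fun s (h : C.StopZ ((t.drop (C.xx j' l')).take (C.Bm - C.p0)) s) => NR_le h
  generalize hS : C.NR ((t.drop (C.xx j l)).take (C.Bm - C.p0)) = s at *
  generalize hS' : C.NR ((t.drop (C.xx j' l')).take (C.Bm - C.p0)) = s' at *
  generalize hX : C.xx j l = x at *
  generalize hX' : C.xx j' l' = x' at *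
  generalize hdd : (C.U : ℤ) * (4 ^ j - 4 ^ l) = d at *
  generalize hdd' : (C.U : ℤ) * (4 ^ j' - 4 ^ l') = d' at *
  obtain ⟨a1, a2, a3, a4⟩ := hs
  obtain ⟨b1, b2, b3, b4⟩ := hs'
  rw [List.length_take, List.length_drop] at a2 b2
  rw [wall_o a1 (by omega) (by omega)] at a3
  rw [wall_o b1 (by omega) (by omega)] at b3
  have c1 := thr_lb (C := C) (C.p0 + s)
  have c1' := thr_lb (C := C) (C.p0 + s')
  -- the same wall
  have hτ : x + s = x' + s' := by
    rcases lt_trichotomy (x + s) (x' + s') with hlt | heq | hgt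
    · exfalso
      by_cases hi : i = true
      · have h1 := g2.1 hi
        -- the wall `x + s` is a stop for the second view
        obtain ⟨u, hu⟩ := Nat.exists_eq_add_of_le (show x' ≤ x + s by omega)
        have h2 : C.StopZ ((t.drop x').take (C.Bm - C.p0)) u := by
          refine ⟨by omega, ?_, ?_, ?_⟩
          · rw [List.length_take, List.length_drop]; omega
          · rw [wall_o (by omega) (by omega) (by omega), ← hu]
            exact a3
          · have := thr_ub (C := C) (C.p0 + u)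
            omega
        have := hmin' u h2
        omega
      · have h1 : ¬ (C.T0 + C.M' * C.Δ + C.Lam ≤ x' + s') := fun h => hi (g2'.2 h)
        have := far_o hlt (by omega) a3 b3
        generalize C.M' * C.Δ = MD at *
        omega
    · exact heq
    · exfalso
      by_cases hi : i = true
      · have h1 := g2'.1 hi
        obtain ⟨u, hu⟩ := Nat.exists_eq_add_of_le (show x ≤ x' + s' by omega)
        have h2 : C.StopZ ((t.drop x).take (C.Bm - C.p0)) u := by
          refine ⟨by omega, ?_, ?_, ?_⟩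
          · rw [List.length_take, List.length_drop]; omega
          · rw [wall_o (by omega) (by omega) (by omega), ← hu]
            exact b3
          · have := thr_ub (C := C) (C.p0 + u)
            omega
        have := hmin u h2
        omega
      · have h1 : ¬ (C.T0 + C.M' * C.Δ + C.Lam ≤ x + s) := fun h => hi (g2.2 h)
        have := far_o hgt (by omega) b3 a3
        generalize C.M' * C.Δ = MD at *
        omega
  -- arithmetic
  obtain ⟨y, hy⟩ := g1
  obtain ⟨y', hy'⟩ := g1'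
  have q1 := Nat.div_add_mod s C.M'
  have q2 := Nat.div_add_mod s' C.M'
  have q3 := Nat.mod_lt s C.hM'
  have q4 := Nat.mod_lt s' C.hM'
  rw [hy] at q1
  rw [hy'] at q2
  generalize s % C.M' = r at *
  generalize s' % C.M' = r' at *
  have h5 : (k : ℤ) * C.M' ∣ d - d' - ((r' : ℤ) - r) := by
    refine ⟨(y' : ℤ) - y, ?_⟩
    have q1' : (C.M' : ℤ) * (k * y) + r = s := by exact_mod_cast q1
    have q2' : (C.M' : ℤ) * (k * y') + r' = s' := by exact_mod_cast q2
    have : d - d' = (s' : ℤ) - s := by omega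
    rw [this, ← q1', ← q2']
    ring
  rw [← hdd, ← hdd'] at h5
  obtain ⟨w1, w2⟩ := C.hMs k hk
  have hM0 : (0 : ℤ) < C.M' := by exact_mod_cast C.hM'
  have hm1 : 2 * (4 : ℤ) ^ C.K + 2 ≤ k := by exact_mod_cast w1
  have hm2 : (k : ℤ) ∣ C.M := by exact_mod_cast w2
  have hU' : (C.U : ℤ) = C.M' * (1 + C.M * 2) + 1 := by exact_mod_cast C.hU
  have hr : |((r' : ℤ) - r)| < C.M' := by
    rw [abs_lt]; constructor <;> omega
  exact (Ruler_302.dist_mod_floor hM0 hm1 hm2 hU' hj hl hj' hl' hne hr h5).1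

open Finset Classical in
/-- **spoiling count** -/
theorem spoiled_card {t : List α} (hex : C.ExO t) (ht : 2 * C.Bm ≤ t.length) :
    (spoiled C.K C.c C.p0 C.Bm C.BadR t).card ≤ 1 + ((C.m + 1) + 2 * C.Ms.card) := by
  let P : Unit ⊕ (Fin (C.m + 1) ⊕ (C.Ms × Bool)) → ℕ → ℕ → Prop := fun μ j l =>
    match μ with
    | Sum.inl _ => C.EZ (view C.p0 C.Bm (C.c l) (t.drop (C.c j)))
    | Sum.inr (Sum.inl k) => C.DZ k (view C.p0 C.Bm (C.c l) (t.drop (C.c j)))
    | Sum.inr (Sum.inr (k, i)) => C.BK t k i j l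
  have hp0 := C.hp0
  have hT0 := C.hT0
  have hB := C.hBm
  have hP : ∀ μ j l j' l', j < C.K → l < C.K → j' < C.K → l' < C.K → j ≠ l → P μ j l →
      P μ j' l' → j = j' := by
    intro μ j l j' l' hj hl hj' hl' hne h h'
    match μ with
    | Sum.inl _ => exact uniqE hj hl hj' hl' hne (by omega) h h'
    | Sum.inr (Sum.inl k) => exact uniqD hj hl hj' hl' hne h h'
    | Sum.inr (Sum.inr (k, i)) => exact uniqB hex k.2 hj hl hj' hl' hne ht h h'
  have hsub : spoiled C.K C.c C.p0 C.Bm C.BadR t ⊆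
      (univ : Finset (Unit ⊕ (Fin (C.m + 1) ⊕ (C.Ms × Bool)))).biUnion
        (fun μ => (range C.K).filter (fun j => ∃ l < C.K, l ≠ j ∧ P μ j l)) := by
    intro j hj
    unfold spoiled at hj
    rw [mem_filter, mem_range] at hj
    obtain ⟨hj, l, hl, hne, hbad⟩ := hj
    rw [mem_biUnion]
    rcases hbad with h | ⟨k, hk, h⟩ | ⟨k, hk, h⟩
    · exact ⟨Sum.inl (), mem_univ _, mem_filter.2 ⟨mem_range.2 hj, l, hl, hne, h⟩⟩
    · exact ⟨Sum.inr (Sum.inl ⟨k, by omega⟩), mem_univ _,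
        mem_filter.2 ⟨mem_range.2 hj, l, hl, hne, h⟩⟩
    · rw [view_xx] at h
      refine ⟨Sum.inr (Sum.inr (⟨k, hk⟩, decide (C.T0 + C.M' * C.Δ + C.Lam ≤
        C.xx j l + C.NR ((t.drop (C.xx j l)).take (C.Bm - C.p0))))), mem_univ _,
        mem_filter.2 ⟨mem_range.2 hj, l, hl, hne, h, by simp⟩⟩
  refine (card_le_card hsub).trans ?_
  refine (card_biUnion_le_card_mul _ _ 1 ?_).trans ?_
  · intro μ _
    rw [card_le_one]
    intro a ha b hb
    rw [mem_filter, mem_range] at ha hb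
    obtain ⟨ha, l, hl, hne, h⟩ := ha
    obtain ⟨hb, l', hl', hne', h'⟩ := hb
    exact hP μ a l b l' ha hl hb hl' hne.symm h h'
  · simp [Fintype.card_sum, Fintype.card_prod]
    omega

end Cst

end Crest.Agent.R320.Spoil_113
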