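import Mathlib

namespace Crest.Agent.R320.Spoil_154

def PP (R M0 M1 l : ℕ) := (R*M0) * (R*M1)^l

def Bad (R M0 M1 m rho : ℕ) (Ms Ms1 : Finset ℕ) (n : ℕ) : Prop :=
  (n % (R*M0) < M0 ∨ R*M0 ≤ n % (R*M0) + M0) ∨ (∃ k ∈ Ms, k ∣ n) ∨
    ∃ l < m, ((n / PP R M0 M1 l) % (R*M1) < M1 ∨ R*M1 ≤ (n / PP R M0 M1 l) % (R*M1) + M1) ∨
      rho ≤ (Ms1.filter (· ∣ n / PP R M0 M1 l)).card

/-- `N` lies within `w` of a multiple of `Q`. -/
def Near (Q w : ℕ) (N : ℤ) : Prop := ∃ z : ℤ, -(w:ℤ) ≤ N - Q * z ∧ N - Q * z < w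

lemma pow_sidon {a b c d : ℕ} (h : (2:ℤ)^a - 2^b = 2^c - 2^d) :
    (a = c ∧ b = d) ∨ (a = b ∧ c = d) := by
  have hN : 2^a + 2^d = 2^c + 2^b := by
    have : (2:ℤ)^a + 2^d = 2^c + 2^b := by linarith
    exact_mod_cast this
  -- compare maxima
  have key : ∀ p q r s : ℕ, p ≤ q → r ≤ s → 2^p + 2^q = 2^r + 2^s → q = s ∧ p = r := by
    intro p q r s hpq hrs h
    have hqs : q = s := by
      rcases lt_trichotomy q s with h1 | h1 | h1
      · exfalso
        have h2 : 2^p ≤ 2^q := Nat.pow_le_pow_right (by norm_num) hpq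
        have h3 : 2^(q+1) ≤ 2^s := Nat.pow_le_pow_right (by norm_num) h1
        have h4 : 0 < 2^r := by positivity
        rw [pow_succ] at h3
        omega
      · exact h1
      · exfalso
        have h2 : 2^r ≤ 2^s := Nat.pow_le_pow_right (by norm_num) hrs
        have h3 : 2^(s+1) ≤ 2^q := Nat.pow_le_pow_right (by norm_num) h1
        have h4 : 0 < 2^p := by positivity
        rw [pow_succ] at h3
        omega
    subst hqs
    refine ⟨rfl, ?_⟩
    have : 2^p = 2^r := by omega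
    exact Nat.pow_right_injective (le_refl 2) this
  rcases le_total a d with h1 | h1 <;> rcases le_total c b with h2 | h2
  · have := key a d c b h1 h2 (by omega)
    omega
  · have := key a d b c h1 h2 (by omega)
    omega
  · have := key d a c b h1 h2 (by omega)
    omega
  · have := key d a b c h1 h2 (by omega)
    omega

lemma delta_bound {K a b c d : ℕ} (ha : a < K) (hb : b < K) (hc : c < K) (hd : d < K) :
    |((2:ℤ)^a - 2^b) - (2^c - 2^d)| ≤ 2 * 2^K := by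
  have h : ∀ t, t < K → (0:ℤ) < 2^t ∧ 2 * (2:ℤ)^t ≤ 2^K := by
    intro t ht
    refine ⟨by positivity, ?_⟩
    have : (2:ℤ)^(t+1) ≤ 2^K := pow_le_pow_right₀ (by norm_num) ht
    rw [pow_succ] at this
    linarith
  have h1 := h a ha
  have h2 := h b hb
  have h3 := h c hc
  have h4 := h d hd
  rw [abs_le]
  constructor <;> linarith [h1.1, h1.2, h2.1, h2.2, h3.1, h3.2, h4.1, h4.2]

lemma one_pair {K Q w Sl Sg : ℕ} (hw : w ≤ Sl) (hw0 : 0 < w) (hQ : 2^(K+7) * Sl ≤ Q)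
    (hS : (Q:ℤ) ∣ (Sg:ℤ) - Sl) {T : ℤ} {a b c d : ℕ} (ha : a < K) (hb : b < K) (hc : c < K)
    (hd : d < K) (hab : a ≠ b)
    (h1 : Near Q w (T + 16*2^a*Sg - 16*2^b*Sg)) (h2 : Near Q w (T + 16*2^c*Sg - 16*2^d*Sg)) :
    a = c ∧ b = d := by
  obtain ⟨z1, h1a, h1b⟩ := h1
  obtain ⟨z2, h2a, h2b⟩ := h2
  obtain ⟨t, ht⟩ := hS
  set δ : ℤ := ((2:ℤ)^a - 2^b) - (2^c - 2^d) with hδ
  have hSg : (Sg:ℤ) = Sl + Q * t := by linarith
  set Z : ℤ := z1 - z2 - 16 * δ * t with hZ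
  have hdiff : 16 * δ * Sl - Q * Z = (T + 16*2^a*Sg - 16*2^b*Sg - Q * z1) - (T + 16*2^c*Sg - 16*2^d*Sg - Q * z2) := by
    rw [hSg, hZ, hδ]; ring
  have hb1 : 16 * δ * Sl - Q * Z < 2 * w := by rw [hdiff]; linarith
  have hb2 : -(2 * (w:ℤ)) < 16 * δ * Sl - Q * Z := by rw [hdiff]; linarith
  have hδb : |δ| ≤ 2 * 2^K := delta_bound ha hb hc hd
  have hSl0 : (0:ℤ) < Sl := by exact_mod_cast lt_of_lt_of_le hw0 hw
  have hwI : (w:ℤ) ≤ Sl := by exact_mod_cast hw
  have hQI : (2:ℤ)^(K+7) * Sl ≤ Q := by exact_mod_cast hQ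
  have h2K : (1:ℤ) ≤ 2^K := one_le_pow₀ (by norm_num)
  have hQI' : 128 * ((2:ℤ)^K * Sl) ≤ Q := by
    have : (2:ℤ)^(K+7) * Sl = 128 * ((2:ℤ)^K * Sl) := by rw [pow_add]; ring
    linarith
  have hKS : (Sl:ℤ) ≤ 2^K * Sl := by nlinarith
  have habs : |16 * δ * Sl| ≤ 32 * (2^K * Sl) := by
    rw [abs_mul, abs_mul, abs_of_pos hSl0]
    have : |(16:ℤ)| = 16 := by norm_num
    rw [this]
    nlinarith [mul_le_mul_of_nonneg_right hδb hSl0.le]
  rw [abs_le] at habs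
  obtain ⟨P, hP⟩ : ∃ P : ℤ, P = 2^K * Sl := ⟨_, rfl⟩
  rw [← hP] at habs hKS hQI'
  obtain ⟨y, hy⟩ : ∃ y : ℤ, y = 16 * δ * Sl := ⟨_, rfl⟩
  rw [← hy] at habs hb1 hb2
  have hQ0 : (0:ℤ) ≤ Q := by positivity
  have hPpos : 0 < P := by linarith
  have hZ0 : Z = 0 := by
    by_contra hne
    rcases lt_or_gt_of_ne hne with hlt | hgt
    · have : (Q:ℤ) * Z ≤ Q * (-1) := mul_le_mul_of_nonneg_left (by omega) hQ0
      linarith [habs.1, habs.2]
    · have : (Q:ℤ) * 1 ≤ Q * Z := mul_le_mul_of_nonneg_left (by omega) hQ0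
      linarith [habs.1, habs.2]
  rw [hZ0] at hb1 hb2
  have hδ0 : δ = 0 := by
    by_contra hne
    rcases lt_or_gt_of_ne hne with hlt | hgt
    · have h1 : δ * Sl ≤ (-1) * Sl := mul_le_mul_of_nonneg_right (by omega) hSl0.le
      linarith
    · have h1 : 1 * (Sl:ℤ) ≤ δ * Sl := mul_le_mul_of_nonneg_right (by omega) hSl0.le
      linarith
  have : (2:ℤ)^a - 2^b = 2^c - 2^d := by linarith
  rcases pow_sidon this with h | h
  · exact h
  · exact absurd h.1 hab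

lemma near_band {P R M N : ℕ} (hP : 0 < P) (hR : 0 < R) (hM : 0 < M)
    (h : (N / P) % (R*M) < M ∨ R*M ≤ (N / P) % (R*M) + M) : Near (P*(R*M)) (P*M) (N:ℤ) := by
  have hRM : 0 < R*M := Nat.mul_pos hR hM
  have e1 : P * (N / P) + N % P = N := Nat.div_add_mod N P
  have e2 : (R*M) * (N / P / (R*M)) + (N/P) % (R*M) = N / P := Nat.div_add_mod _ _
  have hlt : N % P < P := Nat.mod_lt _ hP
  have hlt2 : (N/P) % (R*M) < R*M := Nat.mod_lt _ hRM
  set n := N / P with hn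
  set q := n / (R*M) with hq
  set s := n % (R*M) with hs
  set u := N % P with hu
  have hN : (N:ℤ) = P * (R*M) * q + P * s + u := by
    have : N = P * ((R*M) * q + s) + u := by rw [e2]; exact e1.symm
    rw [this]; push_cast; ring
  have huI : (u:ℤ) < P := by exact_mod_cast hlt
  have hPI : (0:ℤ) < P := by exact_mod_cast hP
  rcases h with h | h
  · refine ⟨q, ?_, ?_⟩
    · rw [hN]; push_cast
      have h0 : (0:ℤ) ≤ P * M := by positivity
      have h1 : (0:ℤ) ≤ P * s := by positivity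
      have h2 : (0:ℤ) ≤ u := by positivity
      nlinarith
    · rw [hN]; push_cast
      have : (s:ℤ) + 1 ≤ M := by exact_mod_cast h
      nlinarith
  · refine ⟨q + 1, ?_, ?_⟩
    · rw [hN]; push_cast
      have : (R:ℤ)*M ≤ s + M := by exact_mod_cast h
      have h2 : (0:ℤ) ≤ u := by positivity
      nlinarith
    · rw [hN]; push_cast
      have : (s:ℤ) + 1 ≤ R*M := by exact_mod_cast hlt2
      have h0 : (0:ℤ) ≤ P * M := by positivity
      nlinarith

lemma near_dvd {P k N : ℕ} (hP : 0 < P) (h : k ∣ N / P) : Near (P*k) P (N:ℤ) := by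
  obtain ⟨q, hq⟩ := h
  have e1 : P * (N / P) + N % P = N := Nat.div_add_mod N P
  have hlt : N % P < P := Nat.mod_lt _ hP
  rw [hq] at e1
  refine ⟨q, ?_, ?_⟩
  · have : (N:ℤ) = P * (k * q) + (N % P : ℕ) := by exact_mod_cast e1.symm
    rw [this]; push_cast
    have h2 : (0:ℤ) ≤ ((N:ℤ) % P) := Int.emod_nonneg _ (by positivity)
    nlinarith
  · have : (N:ℤ) = P * (k * q) + (N % P : ℕ) := by exact_mod_cast e1.symm
    have hI : ((N % P : ℕ):ℤ) < P := by exact_mod_cast hlt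
    rw [this]
    push_cast at hI ⊢
    nlinarith

/-- partial sums of the scales -/
def BS (Mp R M0 M1 : ℕ) : ℕ → ℕ
  | 0 => 1 + Mp + Mp*M0
  | l+1 => BS Mp R M0 M1 l + Mp * PP R M0 M1 l * (1 + M1)

lemma PP_succ (R M0 M1 l : ℕ) : PP R M0 M1 (l+1) = PP R M0 M1 l * (R*M1) := by
  simp [PP, pow_succ]; ring

lemma PP_dvd {R M0 M1 l l' : ℕ} (h : l ≤ l') : PP R M0 M1 l ∣ PP R M0 M1 l' :=
  Nat.mul_dvd_mul_left _ (pow_dvd_pow _ h)

lemma BS_cong (Mp R M0 M1 : ℕ) {l l' : ℕ} (h : l ≤ l') :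
    ((Mp * PP R M0 M1 l : ℕ) : ℤ) ∣ (BS Mp R M0 M1 l' : ℤ) - BS Mp R M0 M1 l := by
  induction l', h using Nat.le_induction with
  | base => simp
  | succ n hn ih =>
    have e : (BS Mp R M0 M1 (n+1) : ℤ) - BS Mp R M0 M1 l
        = ((BS Mp R M0 M1 n : ℤ) - BS Mp R M0 M1 l) + ((Mp * PP R M0 M1 n * (1 + M1) : ℕ) : ℤ) := by
      simp only [BS]; push_cast; ring
    rw [e]
    refine dvd_add ih ?_
    have : Mp * PP R M0 M1 l ∣ Mp * PP R M0 M1 n * (1+M1) :=
      Dvd.dvd.mul_right (Nat.mul_dvd_mul_left _ (PP_dvd hn)) _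
    exact_mod_cast this

lemma BS_le {K Mp R M0 M1 : ℕ} (hMp : 1 ≤ Mp) (hR : 2^(K+10) ≤ R) (h0 : 1 ≤ M0) (h1 : 1 ≤ M1)
    (l : ℕ) : 2^(K+8) * BS Mp R M0 M1 l ≤ Mp * PP R M0 M1 l := by
  have h4 : 2^(K+10) = 4 * 2^(K+8) := by rw [show K+10 = (K+8)+2 by ring, pow_add]; ring
  have hone : 1 ≤ 2^(K+8) := Nat.one_le_two_pow
  induction l with
  | zero =>
    have e : PP R M0 M1 0 = R * M0 := by simp [PP]
    rw [e]
    simp only [BS]
    have a1 : 1 + Mp + Mp*M0 ≤ 3 * (Mp*M0) := by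
      have : Mp ≤ Mp * M0 := Nat.le_mul_of_pos_right _ h0
      omega
    calc 2^(K+8) * (1 + Mp + Mp*M0) ≤ 2^(K+8) * (3 * (Mp*M0)) := Nat.mul_le_mul_left _ a1
      _ ≤ (4 * 2^(K+8)) * (Mp*M0) := by nlinarith [Nat.zero_le (2^(K+8) * (Mp*M0))]
      _ ≤ R * (Mp*M0) := Nat.mul_le_mul_right _ (h4 ▸ hR)
      _ = Mp * (R*M0) := by ring
  | succ n ih =>
    rw [PP_succ]
    simp only [BS]
    set X := Mp * PP R M0 M1 n with hX
    have hB : BS Mp R M0 M1 n ≤ X := le_trans (Nat.le_mul_of_pos_left _ hone) ih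
    have a1 : BS Mp R M0 M1 n + X * (1 + M1) ≤ 3 * (X * M1) := by
      have : X ≤ X * M1 := Nat.le_mul_of_pos_right _ h1
      nlinarith
    calc 2^(K+8) * (BS Mp R M0 M1 n + X * (1+M1)) ≤ 2^(K+8) * (3 * (X*M1)) := Nat.mul_le_mul_left _ a1
      _ ≤ (4 * 2^(K+8)) * (X*M1) := by nlinarith [Nat.zero_le (2^(K+8) * (X*M1))]
      _ ≤ R * (X*M1) := Nat.mul_le_mul_right _ (h4 ▸ hR)
      _ = Mp * (PP R M0 M1 n * (R*M1)) := by rw [hX]; ring

open Classical in
theorem spoil (m r K Mp R M0 M1 rho : ℕ) (Ms Ms1 : Finset ℕ) (hMp : 2^(K+10) ≤ Mp)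
    (hR : 2^(K+10) ≤ R) (h0 : 2^(K+10) ≤ M0) (h1 : 2^(K+10) ≤ M1)
    (hMs : ∀ k ∈ Ms, 2^(K+10) ≤ k ∧ k ∣ M0) (hMs1 : ∀ k ∈ Ms1, 2^(K+10) ≤ k ∧ k ∣ M1)
    (hc : Ms.card ≤ r) (hc1 : Ms1.card ≤ 32*rho) (hrho : 0 < rho) :
    ∃ (x : ℕ → ℕ) (T0 : ℕ), (∀ a b c d, a < K → b < K → c < K → d < K →
      (Mp:ℤ) ∣ ((x a:ℤ) - x b) - (x c - x d) → (a = c ∧ b = d) ∨ (a = b ∧ c = d)) ∧
      ∀ T, T0 ≤ T → (((Finset.range K ×ˢ Finset.range K).filter (fun ab => ab.1 ≠ ab.2 ∧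
        Bad R M0 M1 m rho Ms Ms1 ((T + x ab.1 - x ab.2) / Mp))).card ≤ 2 + r + 34*m) := by
  have hpos : 0 < 2^(K+10) := by positivity
  have hMp0 : 0 < Mp := lt_of_lt_of_le hpos hMp
  have hR0 : 0 < R := lt_of_lt_of_le hpos hR
  have hM00 : 0 < M0 := lt_of_lt_of_le hpos h0
  have hM10 : 0 < M1 := lt_of_lt_of_le hpos h1
  have hPP : ∀ l, 0 < PP R M0 M1 l := fun l => by unfold PP; positivity
  set Sg := BS Mp R M0 M1 m with hSg
  have h48 : 2^(K+10) = 4 * 2^(K+8) := by rw [show K+10 = (K+8)+2 by ring, pow_add]; ring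
  have h87 : 2^(K+8) = 2 * 2^(K+7) := by rw [show K+8 = (K+7)+1 by ring, pow_add]; ring
  have hBl := fun l => BS_le (K := K) (Mp := Mp) (R := R) (M0 := M0) (M1 := M1) hMp0 hR hM00 hM10 l
  have hBl7 : ∀ l, 2^(K+7) * BS Mp R M0 M1 l ≤ Mp * PP R M0 M1 l := fun l => by
    have := hBl l
    rw [h87] at this
    nlinarith [Nat.zero_le (2^(K+7) * BS Mp R M0 M1 l)]
  have hBle : ∀ l, BS Mp R M0 M1 l ≤ Mp * PP R M0 M1 l := fun l =>
    le_trans (Nat.le_mul_of_pos_left _ (by positivity)) (hBl l)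
  refine ⟨fun a => 16 * 2^a * Sg, 16 * 2^K * Sg, ?_, ?_⟩
  · intro a b c d ha hb hc' hd hdvd
    -- Sg ≡ 1 mod Mp
    have hS1 : (Mp:ℤ) ∣ (Sg:ℤ) - 1 := by
      have h := BS_cong Mp R M0 M1 (Nat.zero_le m)
      have h' : (Mp:ℤ) ∣ (Sg:ℤ) - BS Mp R M0 M1 0 := by
        refine dvd_trans ?_ h
        push_cast
        exact Dvd.intro _ rfl
      have h'' : (Mp:ℤ) ∣ (BS Mp R M0 M1 0 : ℤ) - 1 := by
        refine ⟨1 + M0, ?_⟩
        simp only [BS]; push_cast; ring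
      have := dvd_add h' h''
      simpa using this
    have e : ((16 * 2^a * Sg : ℕ) : ℤ) - ((16 * 2^b * Sg : ℕ):ℤ) - (((16 * 2^c * Sg : ℕ):ℤ) - ((16 * 2^d * Sg : ℕ):ℤ))
        = 16 * (((2:ℤ)^a - 2^b) - (2^c - 2^d)) + 16 * (((2:ℤ)^a - 2^b) - (2^c - 2^d)) * ((Sg:ℤ) - 1) := by
      push_cast; ring
    rw [e] at hdvd
    have hd2 : (Mp:ℤ) ∣ 16 * (((2:ℤ)^a - 2^b) - (2^c - 2^d)) :=
      (dvd_add_left (Dvd.dvd.mul_left hS1 _)).1 hdvd
    have hδb := delta_bound ha hb hc' hd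
    have hz : 16 * (((2:ℤ)^a - 2^b) - (2^c - 2^d)) = 0 := by
      apply Int.eq_zero_of_abs_lt_dvd hd2
      rw [abs_mul]
      have : |(16:ℤ)| = 16 := by norm_num
      rw [this]
      have hM : (2:ℤ)^(K+10) ≤ Mp := by exact_mod_cast hMp
      have h2K : (0:ℤ) < 2^K := by positivity
      rw [pow_add] at hM
      nlinarith
    exact pow_sidon (by linarith)
  · intro T hT
    -- cast of the natural number
    have hcast : ∀ a b, a < K → b < K → ((T + 16*2^a*Sg - 16*2^b*Sg : ℕ) : ℤ)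
        = (T:ℤ) + 16*2^a*Sg - 16*2^b*Sg := by
      intro a b ha hb
      have hle : 16*2^b*Sg ≤ T + 16*2^a*Sg := by
        have : 2^b ≤ 2^K := Nat.pow_le_pow_right (by norm_num) hb.le
        calc 16*2^b*Sg ≤ 16*2^K*Sg := by gcongr
          _ ≤ T := hT
          _ ≤ _ := Nat.le_add_right _ _
      push_cast [Nat.cast_sub hle]
      ring
    set D := Finset.range K ×ˢ Finset.range K with hD
    -- generic: at most one pair
    have gen : ∀ (Q w Sl : ℕ) (C : ℕ → Prop) [DecidablePred C], w ≤ Sl → 0 < w → 2^(K+7) * Sl ≤ Q →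
        ((Q:ℤ) ∣ (Sg:ℤ) - Sl) → (∀ N, C N → Near Q w (N:ℤ)) →
        (D.filter (fun ab => ab.1 ≠ ab.2 ∧ C (T + 16*2^ab.1*Sg - 16*2^ab.2*Sg))).card ≤ 1 := by
      intro Q w Sl C _ hw hw0 hQ hS hC
      rw [Finset.card_le_one]
      rintro ⟨a, b⟩ hab ⟨c, d⟩ hcd
      simp only [hD, Finset.mem_filter, Finset.mem_product, Finset.mem_range] at hab hcd
      obtain ⟨⟨ha, hb⟩, hne, h1'⟩ := hab
      obtain ⟨⟨hc', hd⟩, hne', h2'⟩ := hcd
      have n1 := hC _ h1'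
      have n2 := hC _ h2'
      rw [hcast a b ha hb] at n1
      rw [hcast c d hc' hd] at n2
      obtain ⟨e1, e2⟩ := one_pair hw hw0 hQ hS ha hb hc' hd hne n1 n2
      rw [e1, e2]
    let n : ℕ × ℕ → ℕ := fun ab => (T + 16*2^ab.1*Sg - 16*2^ab.2*Sg) / Mp
    -- (i)
    let F0 := D.filter (fun ab => ab.1 ≠ ab.2 ∧ (n ab % (R*M0) < M0 ∨ R*M0 ≤ n ab % (R*M0) + M0))
    have hF0 : F0.card ≤ 1 := by
      have hPP0 : PP R M0 M1 0 = R*M0 := by simp [PP]
      refine gen (Mp*(R*M0)) (Mp*M0) (BS Mp R M0 M1 0)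
        (fun N => (N/Mp) % (R*M0) < M0 ∨ R*M0 ≤ (N/Mp) % (R*M0) + M0) ?_ (by positivity) ?_ ?_ ?_
      · simp only [BS]; omega
      · have := hBl7 0; rwa [hPP0] at this
      · have := BS_cong Mp R M0 M1 (Nat.zero_le m); rwa [hPP0] at this
      · intro N hN; exact near_band hMp0 hR0 hM00 hN
    -- (ii)
    let F1 : ℕ → Finset (ℕ × ℕ) := fun k => D.filter (fun ab => ab.1 ≠ ab.2 ∧ k ∣ n ab)
    have hF1 : ∀ k ∈ Ms, (F1 k).card ≤ 1 := by
      intro k hk
      obtain ⟨hk1, hk2⟩ := hMs k hk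
      refine gen (Mp*k) Mp (1 + Mp) (fun N => k ∣ N/Mp) (by omega) hMp0 ?_ ?_ ?_
      · calc 2^(K+7) * (1 + Mp) ≤ 2^(K+7) * (2*Mp) := Nat.mul_le_mul_left _ (by omega)
          _ ≤ 2^(K+10) * Mp := by rw [h48, h87]; nlinarith [Nat.zero_le (2^(K+7) * Mp)]
          _ ≤ k * Mp := Nat.mul_le_mul_right _ hk1
          _ = Mp * k := by ring
      · have h := BS_cong Mp R M0 M1 (Nat.zero_le m)
        have hPP0 : PP R M0 M1 0 = R*M0 := by simp [PP]
        rw [hPP0] at h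
        have hk3 : (Mp * k : ℕ) ∣ Mp * (R*M0) := Nat.mul_dvd_mul_left _ (Dvd.dvd.mul_left hk2 _)
        have h' : ((Mp*k : ℕ):ℤ) ∣ (Sg:ℤ) - BS Mp R M0 M1 0 := dvd_trans (by exact_mod_cast hk3) h
        have hk4 : (Mp * k : ℕ) ∣ Mp * M0 := Nat.mul_dvd_mul_left _ hk2
        have h'' : ((Mp*k : ℕ):ℤ) ∣ (BS Mp R M0 M1 0 : ℤ) - ((1 + Mp : ℕ):ℤ) := by
          have : (BS Mp R M0 M1 0 : ℤ) - ((1 + Mp : ℕ):ℤ) = ((Mp*M0 : ℕ):ℤ) := by
            simp only [BS]; push_cast; ring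
          rw [this]; exact_mod_cast hk4
        have := dvd_add h' h''
        simpa using this
      · intro N hN; exact near_dvd hMp0 hN
    -- (iii)
    let G : ℕ → Finset (ℕ × ℕ) := fun l => D.filter (fun ab => ab.1 ≠ ab.2 ∧
      ((n ab / PP R M0 M1 l) % (R*M1) < M1 ∨ R*M1 ≤ (n ab / PP R M0 M1 l) % (R*M1) + M1))
    have hG : ∀ l < m, (G l).card ≤ 1 := by
      intro l hl
      have key := gen (Mp * PP R M0 M1 l * (R*M1)) (Mp * PP R M0 M1 l * M1) (BS Mp R M0 M1 (l+1))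
        (fun N => (N / (Mp * PP R M0 M1 l)) % (R*M1) < M1 ∨
          R*M1 ≤ (N / (Mp * PP R M0 M1 l)) % (R*M1) + M1) ?_ ?_ ?_ ?_ ?_
      · simpa only [G, n, Nat.div_div_eq_div_mul] using key
      · simp only [BS]; nlinarith [Nat.zero_le (BS Mp R M0 M1 l), Nat.zero_le (Mp * PP R M0 M1 l)]
      · have := hPP l; positivity
      · have := hBl7 (l+1)
        rw [PP_succ] at this
        calc _ ≤ _ := this
          _ = _ := by ring
      · have := BS_cong Mp R M0 M1 (Nat.succ_le_of_lt hl)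
        rw [Nat.succ_eq_add_one, PP_succ] at this
        rw [show Mp * PP R M0 M1 l * (R*M1) = Mp * (PP R M0 M1 l * (R*M1)) by ring]
        exact this
      · intro N hN
        exact near_band (Nat.mul_pos hMp0 (hPP l)) hR0 hM10 hN
    -- (iv)
    let H : ℕ → Finset (ℕ × ℕ) := fun l => D.filter (fun ab => ab.1 ≠ ab.2 ∧
      rho ≤ (Ms1.filter (· ∣ n ab / PP R M0 M1 l)).card)
    have hH : ∀ l < m, (H l).card ≤ 32 := by
      intro l hl
      have hk : ∀ k ∈ Ms1, ((H l).filter (fun ab => k ∣ n ab / PP R M0 M1 l)).card ≤ 1 := by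
        intro k hk
        obtain ⟨hk1, hk2⟩ := hMs1 k hk
        have key := gen (Mp * PP R M0 M1 l * k) (Mp * PP R M0 M1 l)
          (BS Mp R M0 M1 l + Mp * PP R M0 M1 l)
          (fun N => k ∣ N / (Mp * PP R M0 M1 l)) (by omega) (Nat.mul_pos hMp0 (hPP l)) ?_ ?_ ?_
        · refine le_trans (Finset.card_le_card ?_) key
          intro ab hab
          simp only [H, Finset.mem_filter] at hab ⊢
          refine ⟨hab.1.1, hab.1.2.1, ?_⟩
          have := hab.2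
          simpa only [n, Nat.div_div_eq_div_mul] using this
        · calc 2^(K+7) * (BS Mp R M0 M1 l + Mp * PP R M0 M1 l)
              ≤ 2^(K+7) * (2 * (Mp * PP R M0 M1 l)) := Nat.mul_le_mul_left _ (by have := hBle l; omega)
            _ ≤ 2^(K+10) * (Mp * PP R M0 M1 l) := by
                rw [h48, h87]; nlinarith [Nat.zero_le (2^(K+7) * (Mp * PP R M0 M1 l))]
            _ ≤ k * (Mp * PP R M0 M1 l) := Nat.mul_le_mul_right _ hk1
            _ = _ := by ring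
        · have h := BS_cong Mp R M0 M1 (Nat.succ_le_of_lt hl)
          rw [Nat.succ_eq_add_one, PP_succ] at h
          have hk3 : Mp * PP R M0 M1 l * k ∣ Mp * (PP R M0 M1 l * (R*M1)) := by
            rw [← mul_assoc]; exact Nat.mul_dvd_mul_left _ (Dvd.dvd.mul_left hk2 _)
          have h' : ((Mp * PP R M0 M1 l * k : ℕ):ℤ) ∣ (Sg:ℤ) - BS Mp R M0 M1 (l+1) :=
            dvd_trans (by exact_mod_cast hk3) h
          have hk4 : Mp * PP R M0 M1 l * k ∣ Mp * PP R M0 M1 l * M1 := Nat.mul_dvd_mul_left _ hk2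
          have h'' : ((Mp * PP R M0 M1 l * k : ℕ):ℤ) ∣ (BS Mp R M0 M1 (l+1) : ℤ)
              - ((BS Mp R M0 M1 l + Mp * PP R M0 M1 l : ℕ):ℤ) := by
            have : (BS Mp R M0 M1 (l+1) : ℤ) - ((BS Mp R M0 M1 l + Mp * PP R M0 M1 l : ℕ):ℤ)
                = ((Mp * PP R M0 M1 l * M1 : ℕ):ℤ) := by
              simp only [BS]; push_cast; ring
            rw [this]; exact_mod_cast hk4
          have := dvd_add h' h''
          simpa using this
        · intro N hN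
          exact near_dvd (Nat.mul_pos hMp0 (hPP l)) hN
      have hsum : ∑ ab ∈ H l, (Ms1.filter (· ∣ n ab / PP R M0 M1 l)).card
          = ∑ k ∈ Ms1, ((H l).filter (fun ab => k ∣ n ab / PP R M0 M1 l)).card := by
        simp only [Finset.card_filter]
        exact Finset.sum_comm
      have hlow : rho * (H l).card ≤ ∑ ab ∈ H l, (Ms1.filter (· ∣ n ab / PP R M0 M1 l)).card := by
        calc rho * (H l).card = ∑ _ab ∈ H l, rho := by rw [Finset.sum_const, smul_eq_mul, mul_comm]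
          _ ≤ _ := Finset.sum_le_sum (fun ab hab => by
              simp only [H, Finset.mem_filter] at hab; exact hab.2.2)
      have hup : ∑ k ∈ Ms1, ((H l).filter (fun ab => k ∣ n ab / PP R M0 M1 l)).card ≤ Ms1.card := by
        calc _ ≤ ∑ _k ∈ Ms1, 1 := Finset.sum_le_sum hk
          _ = Ms1.card := by simp
      have : rho * (H l).card ≤ rho * 32 := by
        calc _ ≤ _ := hlow
          _ ≤ Ms1.card := by rw [hsum]; exact hup
          _ ≤ 32 * rho := hc1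
          _ = rho * 32 := by ring
      exact Nat.le_of_mul_le_mul_left this hrho
    have hsub : (D.filter (fun ab => ab.1 ≠ ab.2 ∧ Bad R M0 M1 m rho Ms Ms1 (n ab)))
        ⊆ F0 ∪ (Ms.biUnion F1 ∪ (Finset.range m).biUnion (fun l => G l ∪ H l)) := by
      intro ab hab
      simp only [Finset.mem_filter] at hab
      obtain ⟨hD', hne, hb⟩ := hab
      simp only [Finset.mem_union, Finset.mem_biUnion, Finset.mem_range]
      rcases hb with hb | ⟨k, hk, hb⟩ | ⟨l, hl, hb⟩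
      · left
        simp only [F0, Finset.mem_filter]
        exact ⟨hD', hne, hb⟩
      · right; left
        refine ⟨k, hk, ?_⟩
        simp only [F1, Finset.mem_filter]
        exact ⟨hD', hne, hb⟩
      · right; right
        refine ⟨l, hl, ?_⟩
        rcases hb with hb | hb
        · left
          simp only [G, Finset.mem_filter]
          exact ⟨hD', hne, hb⟩
        · right
          simp only [H, Finset.mem_filter]
          exact ⟨hD', hne, hb⟩
    have hcard1 : (Ms.biUnion F1).card ≤ r := by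
      calc _ ≤ Ms.card * 1 := Finset.card_biUnion_le_card_mul _ _ _ hF1
        _ ≤ r := by omega
    have hcard2 : ((Finset.range m).biUnion (fun l => G l ∪ H l)).card ≤ m * 33 := by
      have := Finset.card_biUnion_le_card_mul (Finset.range m) (fun l => G l ∪ H l) 33 (by
        intro l hl
        have hl' := Finset.mem_range.1 hl
        calc (G l ∪ H l).card ≤ (G l).card + (H l).card := Finset.card_union_le _ _
          _ ≤ 33 := by have := hG l hl'; have := hH l hl'; omega)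
      simpa using this
    have htot : (D.filter (fun ab => ab.1 ≠ ab.2 ∧ Bad R M0 M1 m rho Ms Ms1 (n ab))).card ≤ 2 + r + 34*m := by
      calc _ ≤ _ := Finset.card_le_card hsub
        _ ≤ F0.card + (Ms.biUnion F1 ∪ (Finset.range m).biUnion (fun l => G l ∪ H l)).card := Finset.card_union_le _ _
        _ ≤ F0.card + ((Ms.biUnion F1).card + ((Finset.range m).biUnion (fun l => G l ∪ H l)).card) :=
            Nat.add_le_add_left (Finset.card_union_le _ _) _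
        _ ≤ 2 + r + 34*m := by omega
    convert htot using 2

end Crest.Agent.R320.Spoil_154
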