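import Mathlib

/-! Row 320, TEAM U (helper638 #13273), leaf U4: `spoil`, pure arithmetic. -/

namespace Crest.Agent.R320.Spoil_175

open Finset

def PP (R M0 M1 l : ℕ) := (R*M0) * (R*M1)^l

def Bad (R M0 M1 m rho : ℕ) (Ms Ms1 : Finset ℕ) (n : ℕ) : Prop :=
  (n % (R*M0) < M0 ∨ R*M0 ≤ n % (R*M0) + M0) ∨ (∃ k ∈ Ms, k ∣ n) ∨
    ∃ l < m, ((n / PP R M0 M1 l) % (R*M1) < M1 ∨
      R*M1 ≤ (n / PP R M0 M1 l) % (R*M1) + M1) ∨
      rho ≤ (Ms1.filter (· ∣ n / PP R M0 M1 l)).card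

/-- the scales `1 | Mp | Mp*M0 | Mp*PP 0 | Mp*PP 0*M1 | Mp*PP 1 | ...` -/
def sc (Mp R M0 M1 : ℕ) : ℕ → ℕ
  | 0 => 1
  | 1 => Mp
  | 2 => Mp * M0
  | (j+3) => Mp * PP R M0 M1 (j/2) * (if j % 2 = 0 then 1 else M1)

lemma sidon_aux {a d b c : ℕ} (h : 2^a + 2^d = 2^b + 2^c) (had : d ≤ a) (hbc : c ≤ b) :
    a = b ∧ d = c := by
  have h1 : 2^d ≤ 2^a := Nat.pow_le_pow_right (by norm_num) had
  have h2 : 2^c ≤ 2^b := Nat.pow_le_pow_right (by norm_num) hbc
  have pd : 0 < 2^d := by positivity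
  have pc : 0 < 2^c := by positivity
  have hab : a = b := by
    rcases lt_trichotomy a b with hl | hl | hl
    · have h3 : 2^(a+1) ≤ 2^b := Nat.pow_le_pow_right (by norm_num) hl
      rw [pow_succ] at h3
      omega
    · exact hl
    · have h3 : 2^(b+1) ≤ 2^a := Nat.pow_le_pow_right (by norm_num) hl
      rw [pow_succ] at h3
      omega
  subst hab
  refine ⟨rfl, ?_⟩
  have : 2^d = 2^c := by omega
  exact Nat.pow_right_injective (le_refl 2) this

lemma pow_sidon {a b c d : ℕ} (h : 2^a + 2^d = 2^b + 2^c) :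
    (a = c ∧ b = d) ∨ (a = b ∧ c = d) := by
  rcases le_total d a with h1 | h1 <;> rcases le_total c b with h2 | h2
  · have := sidon_aux h h1 h2; right; exact ⟨this.1, this.2.symm⟩
  · have := sidon_aux (b := c) (c := b) (by rw [h]; ring) h1 h2; left; exact ⟨this.1, this.2.symm⟩
  · have := sidon_aux (a := d) (d := a) (by rw [← h]; ring) h1 h2; left; exact ⟨this.2, this.1.symm⟩
  · have := sidon_aux (a := d) (d := a) (b := c) (c := b) (by linarith) h1 h2
    right; exact ⟨this.2, this.1.symm⟩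

lemma sidon_int {a b c d : ℕ} (h : (2:ℤ)^a - 2^b - (2^c - 2^d) = 0) :
    (a = c ∧ b = d) ∨ (a = b ∧ c = d) := by
  apply pow_sidon
  have : ((2^a + 2^d : ℕ):ℤ) = ((2^b + 2^c : ℕ):ℤ) := by push_cast; linarith
  exact_mod_cast this

lemma partial_le (s : ℕ → ℕ) (hb : ∀ i, 2 * s i ≤ s (i+1)) (i : ℕ) :
    ∑ j ∈ range (i+1), s j ≤ 2 * s i := by
  induction i with
  | zero => simp; omega
  | succ i ih => rw [sum_range_succ]; have := hb i; omega

lemma le_partial (s : ℕ → ℕ) (i : ℕ) : s i ≤ ∑ j ∈ range (i+1), s j := by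
  rw [sum_range_succ]; omega

lemma dvd_up (s : ℕ → ℕ) (hd : ∀ i, s i ∣ s (i+1)) (i j : ℕ) (h : i ≤ j) : s i ∣ s j := by
  induction j, h using Nat.le_induction with
  | base => exact dvd_rfl
  | succ j _ ih => exact ih.trans (hd j)

lemma tail (s : ℕ → ℕ) (hd : ∀ i, s i ∣ s (i+1)) (i D N : ℕ) (hD : D ∣ s (i+1)) (hN : i+1 ≤ N) :
    ∃ j, ∑ t ∈ range N, s t = ∑ t ∈ range (i+1), s t + D * j := by
  induction N, hN using Nat.le_induction with
  | base => exact ⟨0, by simp⟩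
  | succ N hN ih =>
    obtain ⟨j, hj⟩ := ih
    obtain ⟨e, he⟩ := hD.trans (dvd_up s hd (i+1) N hN)
    refine ⟨j + e, ?_⟩
    rw [sum_range_succ, hj, he]; ring

lemma core (E S q P c J r : ℤ) (hE : 1 ≤ E) (hS : 0 < S) (hq : 1024 * E ≤ q) (hP1 : S ≤ P)
    (hP2 : P ≤ 2 * S) (hc : c ≠ 0) (hc1 : c < 2 * E) (hc2 : - (2 * E) < c)
    (hr1 : r < S) (hr2 : -S < r) (h : 16 * c * P = S * q * J + r) : False := by
  have hP0 : 0 < P := lt_of_lt_of_le hS hP1
  have up : 16 * c * P ≤ 64 * E * S := by nlinarith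
  have lo : - (64 * E * S) ≤ 16 * c * P := by nlinarith
  have hSq : S * (1024 * E) ≤ S * q := mul_le_mul_of_nonneg_left hq hS.le
  have hES : S ≤ E * S := by nlinarith
  have hSq0 : 0 < S * q := by nlinarith
  rcases lt_trichotomy J 0 with hJ | hJ | hJ
  · have : S * q * J ≤ - (S * q) := by nlinarith
    nlinarith
  · subst hJ
    rcases lt_or_gt_of_ne hc with h1 | h1
    · have : 16 * c * P ≤ -(16 * P) := by nlinarith
      nlinarith
    · have : 16 * P ≤ 16 * c * P := by nlinarith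
      nlinarith
  · have : S * q ≤ S * q * J := by nlinarith
    nlinarith

/-- A thin condition at scale `s i` with modulus `s i * q` is met by at most one pair. -/
lemma one_pair (K N T : ℕ) (s : ℕ → ℕ) (h0 : 0 < s 0) (hdiv : ∀ i, s i ∣ s (i+1))
    (hbig : ∀ i, 2^(K+10) * s i ≤ s (i+1)) (i q u : ℕ) (hi : i < N) (hq : 2^(K+10) ≤ q)
    (hd : s i * q ∣ s (i+1)) (x : ℕ → ℕ) (hx : ∀ a, x a = 16 * 2^a * ∑ j ∈ range N, s j)
    (hT : x K ≤ T) (F : Finset (ℕ × ℕ))
    (hF : ∀ ab ∈ F, ab.1 < K ∧ ab.2 < K ∧ ab.1 ≠ ab.2 ∧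
      u ≤ (T + x ab.1 - x ab.2) % (s i * q) ∧ (T + x ab.1 - x ab.2) % (s i * q) < u + s i) :
    F.card ≤ 1 := by
  rw [card_le_one]
  rintro ⟨a, b⟩ hab ⟨c, d⟩ hcd
  obtain ⟨ha, hb, hne, hl, hu⟩ := hF _ hab
  obtain ⟨hc, hdd, hne', hl', hu'⟩ := hF _ hcd
  simp only at ha hb hne hl hu hc hdd hne' hl' hu'
  by_contra hcon
  have hpow : 1 ≤ 2^(K+10) := Nat.one_le_two_pow
  have hb2 : ∀ i, 2 * s i ≤ s (i+1) := fun i => le_trans
    (Nat.mul_le_mul_right _ (by
      calc 2 = 2^1 := rfl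
        _ ≤ 2^(K+10) := Nat.pow_le_pow_right (by norm_num) (by omega))) (hbig i)
  have hpos : ∀ i, 0 < s i := by
    intro i
    induction i with
    | zero => exact h0
    | succ i ih => have := hb2 i; omega
  have hC : (2:ℤ)^a - 2^b - (2^c - 2^d) ≠ 0 := by
    intro h
    rcases sidon_int h with ⟨h1, h2⟩ | ⟨h1, h2⟩
    · exact hcon (by rw [h1, h2])
    · exact hne h1
  obtain ⟨j, hj⟩ := tail s hdiv i (s i * q) N hd hi
  set P := ∑ t ∈ range (i+1), s t with hPdef
  have hP1 : s i ≤ P := le_partial s i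
  have hP2 : P ≤ 2 * s i := partial_le s hb2 i
  have xle : ∀ b, b < K → x b ≤ T := by
    intro b hb
    refine le_trans ?_ hT
    rw [hx, hx]
    exact Nat.mul_le_mul_right _ (Nat.mul_le_mul_left _ (Nat.pow_le_pow_right (by norm_num) hb.le))
  have e1 : ((T + x a - x b : ℕ) : ℤ) = T + x a - x b := by
    rw [Nat.cast_sub (by have := xle b hb; omega)]; push_cast; ring
  have e2 : ((T + x c - x d : ℕ) : ℤ) = T + x c - x d := by
    rw [Nat.cast_sub (by have := xle d hdd; omega)]; push_cast; ring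
  set t1 := T + x a - x b with ht1
  set t2 := T + x c - x d with ht2
  have d1 := Nat.div_add_mod t1 (s i * q)
  have d2 := Nat.div_add_mod t2 (s i * q)
  set A1 := t1 / (s i * q)
  set A2 := t2 / (s i * q)
  set r1 := t1 % (s i * q)
  set r2 := t2 % (s i * q)
  have hxi : ∀ a, (x a : ℤ) = 16 * 2^a * (P + s i * q * j) := by
    intro a
    rw [hx, hj]; push_cast; ring
  have d1' : (t1:ℤ) = s i * q * A1 + r1 := by rw [← d1]; push_cast; ring
  have d2' : (t2:ℤ) = s i * q * A2 + r2 := by rw [← d2]; push_cast; ring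
  have hpa : ∀ a, a < K → (1:ℤ) ≤ 2^a ∧ (2:ℤ)^a ≤ 2^K := by
    intro a ha
    exact ⟨one_le_pow₀ (by norm_num), pow_le_pow_right₀ (by norm_num) ha.le⟩
  have qa := hpa a ha
  have qb := hpa b hb
  have qc := hpa c hc
  have qd := hpa d hdd
  refine core (2^K) (s i) q P ((2:ℤ)^a - 2^b - (2^c - 2^d))
    (A1 - A2 - 16 * ((2:ℤ)^a - 2^b - (2^c - 2^d)) * j) (r1 - r2) (one_le_pow₀ (by norm_num))
    (by exact_mod_cast hpos i) ?_ (by exact_mod_cast hP1) (by exact_mod_cast hP2) hC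
    (by linarith) (by linarith) (by
      have : (r1:ℤ) < u + s i := by exact_mod_cast hu
      have : (u:ℤ) ≤ r2 := by exact_mod_cast hl'
      linarith) (by
      have : (r2:ℤ) < u + s i := by exact_mod_cast hu'
      have : (u:ℤ) ≤ r1 := by exact_mod_cast hl
      linarith) ?_
  · have : ((2^(K+10) : ℕ):ℤ) ≤ q := by exact_mod_cast hq
    push_cast at this
    rw [pow_add] at this
    linarith
  · have h1 : (t1:ℤ) - t2 = 16 * ((2:ℤ)^a - 2^b - (2^c - 2^d)) * (P + s i * q * j) := by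
      rw [e1, e2, hxi a, hxi b, hxi c, hxi d]; ring
    rw [d1', d2'] at h1
    linear_combination -h1

lemma dig_lo {t D Q M : ℕ} (h : (t / D) % Q < M) (hD : 0 < D) : t % (D*Q) < D * M := by
  rw [← Nat.mod_mul_right_div_self, Nat.div_lt_iff_lt_mul hD] at h
  rw [mul_comm D M]; exact h

lemma dig_hi {t D Q M : ℕ} (h : Q ≤ (t / D) % Q + M) (hD : 0 < D) (hQ : 0 < Q) (hM : M ≤ Q) :
    D*(Q-M) ≤ t % (D*Q) ∧ t % (D*Q) < D*(Q-M) + D * M := by
  rw [← Nat.mod_mul_right_div_self] at h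
  constructor
  · have : Q - M ≤ t % (D*Q) / D := by omega
    rw [Nat.le_div_iff_mul_le hD] at this
    rw [mul_comm D]; exact this
  · have : t % (D*Q) < D*Q := Nat.mod_lt _ (by positivity)
    rw [← mul_add, Nat.sub_add_cancel hM]; exact this

lemma dig_dvd {t D k : ℕ} (h : k ∣ t / D) (hD : 0 < D) : t % (D*k) < D := by
  have h1 : (t / D) % k = 0 := Nat.mod_eq_zero_of_dvd h
  rw [← Nat.mod_mul_right_div_self] at h1
  rcases (Nat.div_eq_zero_iff).1 h1 with h2 | h2
  · omega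
  · exact h2


lemma sc_two (Mp R M0 M1 : ℕ) : sc Mp R M0 M1 2 = Mp * M0 := rfl

lemma sc_odd (Mp R M0 M1 l : ℕ) : sc Mp R M0 M1 (2*l+3) = Mp * PP R M0 M1 l := by
  have h1 : (2*l) / 2 = l := by omega
  have h2 : (2*l) % 2 = 0 := by omega
  simp only [sc, h1, h2, if_true, mul_one]

lemma sc_even (Mp R M0 M1 l : ℕ) : sc Mp R M0 M1 (2*l+4) = Mp * PP R M0 M1 l * M1 := by
  have h1 : (2*l+1) / 2 = l := by omega
  have h2 : (2*l+1) % 2 = 1 := by omega
  have : 2*l+4 = (2*l+1)+3 := by ring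
  rw [this]
  simp only [sc, h1, h2]
  simp

lemma PP_succ (R M0 M1 l : ℕ) : PP R M0 M1 (l+1) = PP R M0 M1 l * (R * M1) := by
  unfold PP; rw [pow_succ]; ring

lemma sc_step (Mp R M0 M1 B : ℕ) (hMp : B ≤ Mp) (hR : B ≤ R) (h0 : B ≤ M0) (h1 : B ≤ M1) (i : ℕ) :
    sc Mp R M0 M1 i ∣ sc Mp R M0 M1 (i+1) ∧ B * sc Mp R M0 M1 i ≤ sc Mp R M0 M1 (i+1) := by
  have key : ∃ f, B ≤ f ∧ sc Mp R M0 M1 (i+1) = f * sc Mp R M0 M1 i := by
    rcases Nat.lt_or_ge i 3 with hi | hi
    · interval_cases i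
      · exact ⟨Mp, hMp, by simp [sc]⟩
      · exact ⟨M0, h0, by simp [sc, mul_comm]⟩
      · exact ⟨R, hR, by simp [sc, PP]; ring⟩
    · rcases Nat.even_or_odd' i with ⟨t, ht | ht⟩
      · obtain ⟨l, rfl⟩ : ∃ l, i = 2*l+4 := ⟨t-2, by omega⟩
        refine ⟨R, hR, ?_⟩
        rw [show 2*l+4+1 = 2*(l+1)+3 by ring, sc_odd, sc_even, PP_succ]; ring
      · obtain ⟨l, rfl⟩ : ∃ l, i = 2*l+3 := ⟨t-1, by omega⟩
        refine ⟨M1, h1, ?_⟩
        rw [show 2*l+3+1 = 2*l+4 by ring, sc_odd, sc_even]; ring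
  obtain ⟨f, hf, he⟩ := key
  exact ⟨⟨f, by rw [he]; ring⟩, by rw [he]; exact Nat.mul_le_mul_right _ hf⟩

open Classical in
theorem spoil (m r K Mp R M0 M1 rho : ℕ) (Ms Ms1 : Finset ℕ) (hMp : 2^(K+10) ≤ Mp)
    (hR : 2^(K+10) ≤ R) (h0 : 2^(K+10) ≤ M0) (h1 : 2^(K+10) ≤ M1)
    (hMs : ∀ k ∈ Ms, 2^(K+10) ≤ k ∧ k ∣ M0) (hMs1 : ∀ k ∈ Ms1, 2^(K+10) ≤ k ∧ k ∣ M1)
    (hc : Ms.card ≤ r) (hc1 : Ms1.card ≤ 32*rho) (hrho : 0 < rho) :
    ∃ (x : ℕ → ℕ) (T0 : ℕ),
      (∀ a b c d, a < K → b < K → c < K → d < K →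
        (Mp:ℤ) ∣ ((x a:ℤ) - x b) - (x c - x d) → (a = c ∧ b = d) ∨ (a = b ∧ c = d)) ∧
      ∀ T, T0 ≤ T → (((Finset.range K ×ˢ Finset.range K).filter (fun ab => ab.1 ≠ ab.2 ∧
        Bad R M0 M1 m rho Ms Ms1 ((T + x ab.1 - x ab.2) / Mp))).card ≤ 2 + r + 34*m) := by
  have hB : 0 < 2^(K+10) := by positivity
  have hMp0 : 0 < Mp := lt_of_lt_of_le hB hMp
  have hR0 : 0 < R := lt_of_lt_of_le hB hR
  have h00 : 0 < M0 := lt_of_lt_of_le hB h0
  have h10 : 0 < M1 := lt_of_lt_of_le hB h1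
  set s : ℕ → ℕ := sc Mp R M0 M1 with hs
  have hstep := sc_step Mp R M0 M1 (2^(K+10)) hMp hR h0 h1
  have hdiv : ∀ i, s i ∣ s (i+1) := fun i => (hstep i).1
  have hbig : ∀ i, 2^(K+10) * s i ≤ s (i+1) := fun i => (hstep i).2
  have hs0 : s 0 = 1 := rfl
  have hs1 : s 1 = Mp := rfl
  have hs2 : s 2 = Mp * M0 := rfl
  have hso : ∀ l, s (2*l+3) = Mp * PP R M0 M1 l := sc_odd Mp R M0 M1
  have hse : ∀ l, s (2*l+4) = Mp * PP R M0 M1 l * M1 := sc_even Mp R M0 M1
  set N := 2*m+5 with hN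
  set x : ℕ → ℕ := fun a => 16 * 2^a * ∑ j ∈ range N, s j with hxdef
  have hx : ∀ a, x a = 16 * 2^a * ∑ j ∈ range N, s j := fun a => rfl
  refine ⟨x, x K, ?_, ?_⟩
  · intro a b c d ha hb hc' hd' hdvd
    obtain ⟨j, hj⟩ := tail s hdiv 0 Mp N (by rw [← hs1]) (by omega)
    have hj' : ∑ j ∈ range N, s j = 1 + Mp * j := by
      rw [hj]; simp [hs0]
    have e : ((x a:ℤ) - x b) - (x c - x d) =
        16 * ((2:ℤ)^a - 2^b - (2^c - 2^d)) + Mp * (16 * ((2:ℤ)^a - 2^b - (2^c - 2^d)) * j) := by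
      rw [hx, hx, hx, hx, hj']; push_cast; ring
    rw [e, (Int.dvd_add_left (dvd_mul_right _ _) : _)] at hdvd
    have hpa : ∀ a, a < K → (1:ℤ) ≤ 2^a ∧ (2:ℤ)^a ≤ 2^K := by
      intro a ha
      exact ⟨one_le_pow₀ (by norm_num), pow_le_pow_right₀ (by norm_num) ha.le⟩
    have qa := hpa a ha
    have qb := hpa b hb
    have qc := hpa c hc'
    have qd := hpa d hd'
    have hMpz : (1024:ℤ) * 2^K ≤ Mp := by
      have : ((2^(K+10) : ℕ):ℤ) ≤ Mp := by exact_mod_cast hMp
      push_cast at this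
      rw [pow_add] at this
      linarith
    have hz : 16 * ((2:ℤ)^a - 2^b - (2^c - 2^d)) = 0 := by
      apply Int.eq_zero_of_abs_lt_dvd hdvd
      rw [abs_lt]
      constructor <;> linarith
    exact sidon_int (by linarith)
  · intro T hT
    set n : ℕ × ℕ → ℕ := fun ab => (T + x ab.1 - x ab.2) / Mp with hn
    set U : Finset (ℕ × ℕ) := (Finset.range K ×ˢ Finset.range K).filter (fun ab => ab.1 ≠ ab.2)
      with hU
    have memU : ∀ ab ∈ U, ab.1 < K ∧ ab.2 < K ∧ ab.1 ≠ ab.2 := by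
      intro ab hab
      rw [hU, mem_filter, mem_product, mem_range, mem_range] at hab
      exact ⟨hab.1.1, hab.1.2, hab.2⟩
    -- the general thin condition
    have thin : ∀ (i q u : ℕ) (Q : ℕ × ℕ → Prop) [DecidablePred Q], i < N → 2^(K+10) ≤ q → s i * q ∣ s (i+1) →
        (∀ ab, Q ab → u ≤ (T + x ab.1 - x ab.2) % (s i * q) ∧
          (T + x ab.1 - x ab.2) % (s i * q) < u + s i) → (U.filter Q).card ≤ 1 := by
      intro i q u Q _ hi hq hd hQ
      refine one_pair K N T s (by rw [hs0]; exact one_pos) hdiv hbig i q u hi hq hd x hx hT _ ?_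
      intro ab hab
      rw [mem_filter] at hab
      have := memU ab hab.1
      exact ⟨this.1, this.2.1, this.2.2, hQ ab hab.2⟩
    have A1 : (U.filter (fun ab => n ab % (R*M0) < M0)).card ≤ 1 := by
      refine thin 2 R 0 _ (by omega) hR ?_ ?_
      · rw [show (2+1) = 2*0+3 by rfl, hso 0, hs2]; simp [PP]; exact ⟨1, by ring⟩
      · intro ab h
        have := dig_lo (D := Mp) h hMp0
        refine ⟨Nat.zero_le _, ?_⟩
        rw [hs2, zero_add, show Mp * M0 * R = Mp * (R * M0) by ring]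
        exact this
    have A2 : (U.filter (fun ab => R*M0 ≤ n ab % (R*M0) + M0)).card ≤ 1 := by
      refine thin 2 R (Mp * (R*M0 - M0)) _ (by omega) hR ?_ ?_
      · rw [show (2+1) = 2*0+3 by rfl, hso 0, hs2]; simp [PP]; exact ⟨1, by ring⟩
      · intro ab h
        have := dig_hi (D := Mp) h hMp0 (by positivity) (Nat.le_mul_of_pos_left _ hR0)
        rw [hs2, show Mp * M0 * R = Mp * (R * M0) by ring]
        exact this
    have A3 : ∀ k ∈ Ms, (U.filter (fun ab => k ∣ n ab)).card ≤ 1 := by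
      intro k hk
      obtain ⟨hk1, hk2⟩ := hMs k hk
      refine thin 1 k 0 _ (by omega) hk1 ?_ ?_
      · rw [hs1, hs2]; exact Nat.mul_dvd_mul_left _ hk2
      · intro ab h
        refine ⟨Nat.zero_le _, ?_⟩
        rw [hs1, zero_add]
        exact dig_dvd h hMp0
    have hPP : ∀ l, 0 < PP R M0 M1 l := by intro l; unfold PP; positivity
    have A4 : ∀ l < m, (U.filter (fun ab => (n ab / PP R M0 M1 l) % (R*M1) < M1)).card ≤ 1 := by
      intro l hl
      refine thin (2*l+4) R 0 _ (by omega) hR ?_ ?_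
      · rw [show (2*l+4+1) = 2*(l+1)+3 by ring, hso (l+1), hse, PP_succ]; exact ⟨1, by ring⟩
      · intro ab h
        rw [hn] at h
        simp only [Nat.div_div_eq_div_mul] at h
        have := dig_lo (D := Mp * PP R M0 M1 l) h (Nat.mul_pos hMp0 (hPP l))
        refine ⟨Nat.zero_le _, ?_⟩
        rw [hse, zero_add,
          show Mp * PP R M0 M1 l * M1 * R = Mp * PP R M0 M1 l * (R * M1) by ring]
        exact this
    have A5 : ∀ l < m, (U.filter (fun ab => R*M1 ≤ (n ab / PP R M0 M1 l) % (R*M1) + M1)).card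
        ≤ 1 := by
      intro l hl
      refine thin (2*l+4) R (Mp * PP R M0 M1 l * (R*M1 - M1)) _ (by omega) hR ?_ ?_
      · rw [show (2*l+4+1) = 2*(l+1)+3 by ring, hso (l+1), hse, PP_succ]; exact ⟨1, by ring⟩
      · intro ab h
        rw [hn] at h
        simp only [Nat.div_div_eq_div_mul] at h
        have := dig_hi (D := Mp * PP R M0 M1 l) h (Nat.mul_pos hMp0 (hPP l)) (by positivity)
          (Nat.le_mul_of_pos_left _ hR0)
        rw [hse,
          show Mp * PP R M0 M1 l * M1 * R = Mp * PP R M0 M1 l * (R * M1) by ring]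
        exact this
    have A6 : ∀ l < m, (U.filter (fun ab =>
        rho ≤ (Ms1.filter (· ∣ n ab / PP R M0 M1 l)).card)).card ≤ 32 := by
      intro l hl
      set F := U.filter (fun ab => rho ≤ (Ms1.filter (· ∣ n ab / PP R M0 M1 l)).card) with hF
      have hh := Finset.card_mul_le_card_mul (s := F) (t := Ms1) (m := rho) (n := 1)
        (fun (ab : ℕ × ℕ) (k : ℕ) => k ∣ n ab / PP R M0 M1 l) ?_ ?_
      · have : F.card * rho ≤ 32 * rho := by
          calc F.card * rho ≤ Ms1.card * 1 := hh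
            _ ≤ 32 * rho := by omega
        exact Nat.le_of_mul_le_mul_right this hrho
      · intro ab hab
        rw [hF, mem_filter] at hab
        refine le_trans hab.2 (le_of_eq ?_)
        unfold Finset.bipartiteAbove
        congr
      · intro k hk
        obtain ⟨hk1, hk2⟩ := hMs1 k hk
        have hthin : (U.filter (fun ab => k ∣ n ab / PP R M0 M1 l)).card ≤ 1 := by
          refine thin (2*l+3) k 0 _ (by omega) hk1 ?_ ?_
          · rw [show (2*l+3+1) = 2*l+4 by ring, hso l, hse]; exact Nat.mul_dvd_mul_left _ hk2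
          · intro ab h
            refine ⟨Nat.zero_le _, ?_⟩
            rw [hso, zero_add]
            rw [hn] at h
            simp only [Nat.div_div_eq_div_mul] at h
            exact dig_dvd h (Nat.mul_pos hMp0 (hPP l))
        refine le_trans (card_le_card ?_) hthin
        intro ab hab
        unfold Finset.bipartiteBelow at hab
        rw [mem_filter] at hab ⊢
        rw [hF, mem_filter] at hab
        exact ⟨hab.1.1, hab.2⟩
    -- the union bound
    have hsub : ((Finset.range K ×ˢ Finset.range K).filter (fun ab => ab.1 ≠ ab.2 ∧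
        Bad R M0 M1 m rho Ms Ms1 ((T + x ab.1 - x ab.2) / Mp))) ⊆
        (U.filter (fun ab => n ab % (R*M0) < M0) ∪ U.filter (fun ab => R*M0 ≤ n ab % (R*M0) + M0)) ∪
        (Ms.biUnion (fun k => U.filter (fun ab => k ∣ n ab)) ∪
        (range m).biUnion (fun l => (U.filter (fun ab => (n ab / PP R M0 M1 l) % (R*M1) < M1) ∪
          U.filter (fun ab => R*M1 ≤ (n ab / PP R M0 M1 l) % (R*M1) + M1)) ∪
          U.filter (fun ab => rho ≤ (Ms1.filter (· ∣ n ab / PP R M0 M1 l)).card))) := by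
      intro ab hab
      rw [mem_filter] at hab
      obtain ⟨hab1, hab2, hbad⟩ := hab
      have hu : ab ∈ U := by rw [hU, mem_filter]; exact ⟨hab1, hab2⟩
      rcases hbad with (h | h) | h | h
      · exact mem_union_left _ (mem_union_left _ (mem_filter.2 ⟨hu, h⟩))
      · exact mem_union_left _ (mem_union_right _ (mem_filter.2 ⟨hu, h⟩))
      · obtain ⟨k, hk, hkd⟩ := h
        exact mem_union_right _ (mem_union_left _ (mem_biUnion.2 ⟨k, hk, mem_filter.2 ⟨hu, hkd⟩⟩))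
      · obtain ⟨l, hl, h⟩ := h
        refine mem_union_right _ (mem_union_right _ (mem_biUnion.2 ⟨l, mem_range.2 hl, ?_⟩))
        rcases h with (h | h) | h
        · exact mem_union_left _ (mem_union_left _ (mem_filter.2 ⟨hu, h⟩))
        · exact mem_union_left _ (mem_union_right _ (mem_filter.2 ⟨hu, h⟩))
        · refine mem_union_right _ (mem_filter.2 ⟨hu, ?_⟩)
          convert h
    have b1 : (Ms.biUnion (fun k => U.filter (fun ab => k ∣ n ab))).card ≤ Ms.card * 1 :=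
      card_biUnion_le_card_mul _ _ _ A3
    have b2 : ((range m).biUnion (fun l => (U.filter (fun ab =>
          (n ab / PP R M0 M1 l) % (R*M1) < M1) ∪
          U.filter (fun ab => R*M1 ≤ (n ab / PP R M0 M1 l) % (R*M1) + M1)) ∪
          U.filter (fun ab => rho ≤ (Ms1.filter (· ∣ n ab / PP R M0 M1 l)).card))).card
          ≤ (range m).card * 34 := by
      refine card_biUnion_le_card_mul _ _ _ ?_
      intro l hl
      have hl' := mem_range.1 hl
      refine le_trans (card_union_le _ _) ?_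
      have u1 := card_union_le (U.filter (fun ab =>
          (n ab / PP R M0 M1 l) % (R*M1) < M1))
          (U.filter (fun ab => R*M1 ≤ (n ab / PP R M0 M1 l) % (R*M1) + M1))
      have := A4 l hl'
      have := A5 l hl'
      have := A6 l hl'
      omega
    rw [card_range] at b2
    refine le_trans (card_le_card hsub) ?_
    refine le_trans (card_union_le _ _) ?_
    have u1 := card_union_le (U.filter (fun ab => n ab % (R*M0) < M0))
      (U.filter (fun ab => R*M0 ≤ n ab % (R*M0) + M0))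
    have u2 := card_union_le (Ms.biUnion (fun k => U.filter (fun ab => k ∣ n ab)))
      ((range m).biUnion (fun l => (U.filter (fun ab =>
          (n ab / PP R M0 M1 l) % (R*M1) < M1) ∪
          U.filter (fun ab => R*M1 ≤ (n ab / PP R M0 M1 l) % (R*M1) + M1)) ∪
          U.filter (fun ab => rho ≤ (Ms1.filter (· ∣ n ab / PP R M0 M1 l)).card)))
    omega

end Crest.Agent.R320.Spoil_175
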