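import Mathlib

/-!
Row 320, TEAM U (638 #13273), leaf U4: the ruler on many scales.  Every thin condition on the clock
`(T + x a - x b) / Mp` is met by at most one pair `a ≠ b`.
-/

set_option autoImplicit false

namespace Crest.Agent.R320.Spoil_279

def PP (R M0 M1 l : ℕ) := (R*M0) * (R*M1)^l

def Bad (R M0 M1 m rho : ℕ) (Ms Ms1 : Finset ℕ) (n : ℕ) : Prop :=
  (n % (R*M0) < M0 ∨ R*M0 ≤ n % (R*M0) + M0) ∨ (∃ k ∈ Ms, k ∣ n) ∨
    ∃ l < m, ((n / PP R M0 M1 l) % (R*M1) < M1 ∨ R*M1 ≤ (n / PP R M0 M1 l) % (R*M1) + M1) ∨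
      rho ≤ (Ms1.filter (· ∣ n / PP R M0 M1 l)).card

/-- the scales -/
def sc (Mp R M0 M1 : ℕ) : ℕ → ℕ
  | 0 => 1
  | 1 => Mp
  | 2 => Mp * M0
  | (i+3) => if i % 2 = 0 then Mp * PP R M0 M1 (i/2) else Mp * PP R M0 M1 (i/2) * M1

theorem sc_ratio {K Mp R M0 M1 : ℕ} (hMp : 2^(K+10) ≤ Mp) (hR : 2^(K+10) ≤ R)
    (h0 : 2^(K+10) ≤ M0) (h1 : 2^(K+10) ≤ M1) (i : ℕ) :
    ∃ q, 2^(K+10) ≤ q ∧ sc Mp R M0 M1 (i+1) = sc Mp R M0 M1 i * q := by
  match i with
  | 0 => exact ⟨Mp, hMp, by simp [sc]⟩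
  | 1 => exact ⟨M0, h0, by simp [sc]⟩
  | 2 => exact ⟨R, hR, by simp only [sc, PP]; norm_num; ring⟩
  | (j+3) =>
    rcases Nat.mod_two_eq_zero_or_one j with h | h
    · refine ⟨M1, h1, ?_⟩
      have h2 : (j+1) % 2 = 1 := by omega
      have h3 : (j+1) / 2 = j / 2 := by omega
      show (if (j+1) % 2 = 0 then Mp * PP R M0 M1 ((j+1)/2) else Mp * PP R M0 M1 ((j+1)/2) * M1)
        = (if j % 2 = 0 then Mp * PP R M0 M1 (j/2) else Mp * PP R M0 M1 (j/2) * M1) * M1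
      rw [if_neg (by omega), if_pos h, h3]
    · refine ⟨R, hR, ?_⟩
      have h3 : (j+1) / 2 = j / 2 + 1 := by omega
      show (if (j+1) % 2 = 0 then Mp * PP R M0 M1 ((j+1)/2) else Mp * PP R M0 M1 ((j+1)/2) * M1)
        = (if j % 2 = 0 then Mp * PP R M0 M1 (j/2) else Mp * PP R M0 M1 (j/2) * M1) * R
      rw [if_pos (by omega), if_neg (by omega), h3]
      simp only [PP, pow_succ]
      ring

theorem split_aux {f : ℕ → ℕ} (hf : ∀ i, ∃ q, 2 ≤ q ∧ f (i+1) = f i * q) (hf0 : 0 < f 0) :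
    (∀ i, 0 < f i) ∧ (∀ i, f i ≤ ∑ j ∈ Finset.range (i+1), f j ∧
      ∑ j ∈ Finset.range (i+1), f j < 2 * f i) ∧
    (∀ i n, i < n → ∃ τ, ∑ j ∈ Finset.range n, f j = ∑ j ∈ Finset.range (i+1), f j + f (i+1) * τ) := by
  have hpos : ∀ i, 0 < f i := by
    intro i
    induction i with
    | zero => exact hf0
    | succ i ih =>
      obtain ⟨q, hq, e⟩ := hf i
      rw [e]; positivity
  have hstep : ∀ i, 2 * f i ≤ f (i+1) := by
    intro i
    obtain ⟨q, hq, e⟩ := hf i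
    rw [e, mul_comm]; exact Nat.mul_le_mul_left _ hq
  refine ⟨hpos, ?_, ?_⟩
  · intro i
    induction i with
    | zero =>
      have := hpos 0
      simp; omega
    | succ i ih =>
      rw [Finset.sum_range_succ]
      have := hstep i
      omega
  · have hdvd : ∀ i j, f i ∣ f (i + j) := by
      intro i j
      induction j with
      | zero => exact dvd_rfl
      | succ j ih =>
        obtain ⟨q, hq, e⟩ := hf (i+j)
        rw [← add_assoc, e]; exact dvd_mul_of_dvd_left ih _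
    intro i n hin
    obtain ⟨k, rfl⟩ : ∃ k, n = i + 1 + k := ⟨n - (i+1), by omega⟩
    induction k with
    | zero => exact ⟨0, by simp⟩
    | succ k ih =>
      obtain ⟨τ, hτ⟩ := ih (by omega)
      obtain ⟨t, ht⟩ := hdvd (i+1) k
      refine ⟨τ + t, ?_⟩
      rw [← add_assoc, Finset.sum_range_succ, hτ, ht]
      ring

theorem two_pow_sorted {a d b c : ℕ} (h : 2^a+2^d = 2^b+2^c) (h1 : a ≤ d) (h2 : b ≤ c) :
    a = b ∧ d = c := by
  have key : ∀ {a d b c : ℕ}, 2^a+2^d = 2^b+2^c → a ≤ d → b ≤ c → ¬ a < b := by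
    intro a d b c h h1 h2 h3
    obtain ⟨e, rfl⟩ : ∃ e, d = a + e := ⟨d - a, by omega⟩
    obtain ⟨f, rfl⟩ : ∃ f, b = a + (f+1) := ⟨b - a - 1, by omega⟩
    obtain ⟨g, rfl⟩ : ∃ g, c = a + (g+1) := ⟨c - a - 1, by omega⟩
    have h4 : 2^a * (1 + 2^e) = 2^a * (2 * 2^f + 2 * 2^g) := by
      simp only [pow_add] at h; linarith
    have h5 := Nat.eq_of_mul_eq_mul_left (by positivity) h4
    have h6 : 1 ≤ 2^f := Nat.one_le_two_pow
    have h7 : 1 ≤ 2^g := Nat.one_le_two_pow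
    cases e with
    | zero => simp at h5; omega
    | succ e => rw [pow_succ] at h5; omega
  rcases lt_trichotomy a b with h3 | h3 | h3
  · exact absurd h3 (key h h1 h2)
  · subst h3
    refine ⟨rfl, ?_⟩
    have : 2^d = 2^c := by omega
    exact Nat.pow_right_injective (le_refl 2) this
  · exact absurd h3 (key h.symm h2 h1)

theorem two_pow_golomb {a b c d : ℕ} (h : 2^a+2^d = 2^b+2^c) :
    (a = c ∧ b = d) ∨ (a = b ∧ c = d) := by
  rcases le_total a d with h1 | h1 <;> rcases le_total b c with h2 | h2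
  · have := two_pow_sorted h h1 h2; right; omega
  · have := two_pow_sorted (h.trans (add_comm _ _)) h1 h2; left; omega
  · have := two_pow_sorted ((add_comm _ _).trans h) h1 h2; left; omega
  · have := two_pow_sorted ((add_comm _ _).trans (h.trans (add_comm _ _))) h1 h2; right; omega

theorem golomb_int {a b c d : ℕ} (h : ((2:ℤ)^a - 2^b) - (2^c - 2^d) = 0) :
    (a = c ∧ b = d) ∨ (a = b ∧ c = d) := by
  apply two_pow_golomb
  have : ((2^a + 2^d : ℕ) : ℤ) = ((2^b+2^c : ℕ) : ℤ) := by push_cast; linarith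
  exact_mod_cast this

theorem delta_abs {K a b c d : ℕ} (ha : a < K) (hb : b < K) (hc : c < K) (hd : d < K) :
    |((2:ℤ)^a - 2^b) - (2^c - 2^d)| < 2^(K+1) := by
  have h : ∀ {e}, e < K → (2:ℤ)^e ≤ 2^K := fun h => pow_le_pow_right₀ (by norm_num) h.le
  have hp : ∀ e : ℕ, (0:ℤ) < 2^e := fun e => by positivity
  have := h ha; have := h hb; have := h hc; have := h hd
  have := hp a; have := hp b; have := hp c; have := hp d
  rw [abs_lt, pow_succ]
  constructor <;> linarith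

theorem thin {K : ℕ} {s Q σ τ T j j' : ℤ} {a b c d : ℕ} (ha : a < K) (hb : b < K) (hc : c < K)
    (hd : d < K) (hab : a ≠ b) (hs : 0 < s) (h1 : s ≤ σ) (h2 : σ < 2*s)
    (hQ : 2^(K+10) ≤ Q)
    (H : |T + 16*2^a*(σ + Q*s*τ) - 16*2^b*(σ + Q*s*τ) - j*(Q*s)| ≤ s)
    (H' : |T + 16*2^c*(σ + Q*s*τ) - 16*2^d*(σ + Q*s*τ) - j'*(Q*s)| ≤ s) : a = c ∧ b = d := by
  set D : ℤ := ((2:ℤ)^a - 2^b) - (2^c - 2^d) with hD
  have hDa : |D| < 2^(K+1) := delta_abs ha hb hc hd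
  by_cases h0 : D = 0
  · rcases golomb_int (h0 ▸ hD.symm : ((2:ℤ)^a - 2^b) - (2^c - 2^d) = 0) with h | h
    · exact h
    · exact absurd h.1 hab
  · exfalso
    set J : ℤ := j - j' - 16*D*τ with hJ
    have e : 16*D*σ - J*(Q*s) =
        (T + 16*2^a*(σ + Q*s*τ) - 16*2^b*(σ + Q*s*τ) - j*(Q*s)) -
        (T + 16*2^c*(σ + Q*s*τ) - 16*2^d*(σ + Q*s*τ) - j'*(Q*s)) := by
      rw [hJ, hD]; ring
    have h3 : |16*D*σ - J*(Q*s)| ≤ 2*s := by
      rw [e]
      refine (abs_sub _ _).trans ?_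
      linarith
    have hD1 : 1 ≤ |D| := Int.one_le_abs h0
    have hσ : 0 < σ := by linarith
    have hK : (0:ℤ) < 2^K := by positivity
    have hQ0 : 0 < Q := lt_of_lt_of_le (by positivity) hQ
    have hA : |16*D*σ| = 16*(|D|)*σ := by
      rw [abs_mul, abs_mul, abs_of_pos hσ]; norm_num
    have hlow : 16 * s ≤ |16*D*σ| := by
      rw [hA]; nlinarith
    have hup : |16*D*σ| ≤ 2^(K+6) * s := by
      rw [hA]
      have : (|D|) * σ ≤ 2^(K+1) * (2*s) := by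
        apply mul_le_mul hDa.le h2.le hσ.le (by positivity)
      have e6 : (2:ℤ)^(K+6) = 32 * 2^(K+1) := by rw [pow_add, pow_add]; norm_num; ring
      rw [e6]
      nlinarith
    by_cases hJ0 : J = 0
    · rw [hJ0, zero_mul, sub_zero] at h3
      linarith
    · have hJ1 : 1 ≤ |J| := Int.one_le_abs hJ0
      have hJQ : Q * s ≤ |J*(Q*s)| := by
        rw [abs_mul, abs_of_pos (mul_pos hQ0 hs)]
        nlinarith [mul_pos hQ0 hs]
      have h4 : |J*(Q*s)| ≤ |16*D*σ - J*(Q*s)| + |16*D*σ| := by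
        have : J*(Q*s) = 16*D*σ - (16*D*σ - J*(Q*s)) := by ring
        calc |J*(Q*s)| = |16*D*σ - (16*D*σ - J*(Q*s))| := by rw [← this]
          _ ≤ |16*D*σ| + |16*D*σ - J*(Q*s)| := abs_sub _ _
          _ = _ := add_comm _ _
      have h5 : Q * s ≤ 2*s + 2^(K+6)*s := by linarith
      have h6 : (2:ℤ)^(K+10) * s ≤ Q * s := by nlinarith
      have e10 : (2:ℤ)^(K+10) = 1024 * 2^K := by rw [pow_add]; norm_num; ring
      have e6 : (2:ℤ)^(K+6) = 64 * 2^K := by rw [pow_add]; norm_num; ring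
      rw [e10] at h6
      rw [e6] at h5
      have hK1 : (1:ℤ) ≤ 2^K := one_le_pow₀ (by norm_num)
      nlinarith [mul_le_mul_of_nonneg_right hK1 hs.le]

theorem near_digit {y u R M : ℕ} (hu : 0 < u) (hRM : 0 < R*M)
    (h : y/u % (R*M) < M ∨ R*M ≤ y/u % (R*M) + M) :
    ∃ j : ℤ, |(y:ℤ) - j*((R:ℤ)*((u*M : ℕ):ℤ))| ≤ ((u*M : ℕ):ℤ) := by
  set N := y/u with hN
  have e1 : (u:ℤ) * N + (y % u : ℕ) = y := by
    have := Nat.div_add_mod y u
    exact_mod_cast this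
  have hr : ((y % u : ℕ):ℤ) < u := by exact_mod_cast Nat.mod_lt y hu
  have hr0 : (0:ℤ) ≤ ((y % u : ℕ):ℤ) := by positivity
  have e2 : ((R*M : ℕ):ℤ) * ((N/(R*M) : ℕ):ℤ) + ((N % (R*M) : ℕ):ℤ) = N := by
    have := Nat.div_add_mod N (R*M)
    exact_mod_cast this
  set q : ℤ := ((N/(R*M) : ℕ):ℤ)
  set ρ : ℤ := ((N % (R*M) : ℕ):ℤ) with hρ
  have hρ0 : 0 ≤ ρ := by positivity
  have hρ1 : ρ + 1 ≤ ((R*M : ℕ):ℤ) := by
    have := Nat.mod_lt N hRM
    have : N % (R*M) + 1 ≤ R*M := this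
    rw [hρ]; exact_mod_cast this
  have hu' : (0:ℤ) < u := by exact_mod_cast hu
  have hy : (y:ℤ) = u * (((R*M : ℕ):ℤ) * q + ρ) + ((y % u : ℕ):ℤ) := by rw [e2, e1]
  rcases h with h | h
  · refine ⟨q, ?_⟩
    have h' : ρ + 1 ≤ M := by
      have : N % (R*M) + 1 ≤ M := h
      rw [hρ]; exact_mod_cast this
    have e3 : (y:ℤ) - q*((R:ℤ)*((u*M : ℕ):ℤ)) = u*ρ + ((y % u : ℕ):ℤ) := by
      rw [hy]; push_cast; ring
    have hcast : ((u*M : ℕ):ℤ) = u * M := by push_cast; ring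
    rw [e3, abs_of_nonneg (by positivity), hcast]
    nlinarith
  · refine ⟨q+1, ?_⟩
    have h' : ((R*M : ℕ):ℤ) ≤ ρ + M := by rw [hρ]; exact_mod_cast h
    have e3 : (y:ℤ) - (q+1)*((R:ℤ)*((u*M : ℕ):ℤ)) =
        u*(ρ - ((R*M : ℕ):ℤ)) + ((y % u : ℕ):ℤ) := by
      rw [hy]; push_cast; ring
    rw [e3, abs_le]
    have hcast : ((u*M : ℕ):ℤ) = u * M := by push_cast; ring
    rw [hcast]
    constructor
    · nlinarith
    · have : (0:ℤ) ≤ u * M := by positivity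
      nlinarith

theorem near_dvd {y u k : ℕ} (hu : 0 < u) (h : k ∣ y/u) :
    ∃ j : ℤ, |(y:ℤ) - j*((k:ℤ)*(u:ℤ))| ≤ (u:ℤ) := by
  obtain ⟨t, ht⟩ := h
  refine ⟨t, ?_⟩
  have e1 : (u:ℤ) * ((y/u : ℕ):ℤ) + ((y % u : ℕ):ℤ) = y := by
    have := Nat.div_add_mod y u
    exact_mod_cast this
  have hr : ((y % u : ℕ):ℤ) < u := by exact_mod_cast Nat.mod_lt y hu
  have hr0 : (0:ℤ) ≤ ((y % u : ℕ):ℤ) := by positivity
  rw [ht] at e1
  have e3 : (y:ℤ) - t*((k:ℤ)*(u:ℤ)) = ((y % u : ℕ):ℤ) := by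
    rw [← e1]; push_cast; ring
  rw [e3, abs_of_nonneg hr0]
  exact hr.le

/-- the pair `ab` is near a multiple of `Q * s` -/
def Near (T : ℕ) (x : ℕ → ℕ) (s Q : ℕ) (ab : ℕ × ℕ) : Prop :=
  ∃ j : ℤ, |((T + x ab.1 - x ab.2 : ℕ) : ℤ) - j*((Q:ℤ)*(s:ℤ))| ≤ (s:ℤ)

open Classical in
theorem near_unique {K : ℕ} {T Tot s Q : ℕ} (hT : 16*2^K*Tot ≤ T) (hs : 0 < s)
    (hQ : 2^(K+10) ≤ Q) (hsplit : ∃ σ τ, Tot = σ + Q*s*τ ∧ s ≤ σ ∧ σ < 2*s) :
    ((Finset.range K ×ˢ Finset.range K).filter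
      (fun ab => ab.1 ≠ ab.2 ∧ Near T (fun a => 16*2^a*Tot) s Q ab)).card ≤ 1 := by
  obtain ⟨σ, τ, rfl, h1, h2⟩ := hsplit
  rw [Finset.card_le_one]
  rintro ⟨a, b⟩ hab ⟨c, d⟩ hcd
  simp only [Finset.mem_filter, Finset.mem_product, Finset.mem_range] at hab hcd
  obtain ⟨⟨ha, hb⟩, hne, j, hj⟩ := hab
  obtain ⟨⟨hc, hd⟩, -, j', hj'⟩ := hcd
  have hle : ∀ e, e < K → 16*2^e*(σ + Q*s*τ) ≤ T := by
    intro e he
    refine le_trans ?_ hT
    apply Nat.mul_le_mul_right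
    apply Nat.mul_le_mul_left
    exact Nat.pow_le_pow_right (by norm_num) he.le
  have hcast : ∀ a b, b < K → ((T + 16*2^a*(σ + Q*s*τ) - 16*2^b*(σ + Q*s*τ) : ℕ) : ℤ) =
      (T:ℤ) + 16*2^a*((σ:ℤ) + Q*s*τ) - 16*2^b*((σ:ℤ) + Q*s*τ) := by
    intro a b hb
    rw [Nat.cast_sub (le_trans (hle b hb) (Nat.le_add_right _ _))]
    push_cast
    ring
  simp only at hj hj'
  rw [hcast a b hb] at hj
  rw [hcast c d hd] at hj'
  have := thin (σ := (σ:ℤ)) (τ := (τ:ℤ)) (s := (s:ℤ)) (Q := (Q:ℤ)) ha hb hc hd hne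
    (by exact_mod_cast hs) (by exact_mod_cast h1) (by exact_mod_cast h2)
    (by exact_mod_cast hQ) hj hj'
  rw [this.1, this.2]

open Classical in
theorem spoil (m r K Mp R M0 M1 rho : ℕ) (Ms Ms1 : Finset ℕ) (hMp : 2^(K+10) ≤ Mp)
    (hR : 2^(K+10) ≤ R) (h0 : 2^(K+10) ≤ M0) (h1 : 2^(K+10) ≤ M1)
    (hMs : ∀ k ∈ Ms, 2^(K+10) ≤ k ∧ k ∣ M0) (hMs1 : ∀ k ∈ Ms1, 2^(K+10) ≤ k ∧ k ∣ M1)
    (hc : Ms.card ≤ r) (hc1 : Ms1.card ≤ 32*rho) (hrho : 0 < rho) :
    ∃ (x : ℕ → ℕ) (T0 : ℕ),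
      (∀ a b c d, a < K → b < K → c < K → d < K → (Mp:ℤ) ∣ ((x a:ℤ) - x b) - (x c - x d) →
        (a = c ∧ b = d) ∨ (a = b ∧ c = d)) ∧
      ∀ T, T0 ≤ T → (((Finset.range K ×ˢ Finset.range K).filter (fun ab => ab.1 ≠ ab.2 ∧
        Bad R M0 M1 m rho Ms Ms1 ((T + x ab.1 - x ab.2) / Mp))).card ≤ 2 + r + 34*m) := by
  have hf : ∀ i, ∃ q, 2^(K+10) ≤ q ∧ sc Mp R M0 M1 (i+1) = sc Mp R M0 M1 i * q :=
    sc_ratio hMp hR h0 h1
  have h2K : 2 ≤ 2^(K+10) := by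
    calc 2 = 2^1 := rfl
      _ ≤ 2^(K+10) := Nat.pow_le_pow_right (by norm_num) (by omega)
  obtain ⟨hpos, hsum, hsplit⟩ := split_aux (f := sc Mp R M0 M1)
    (fun i => by obtain ⟨q, hq, e⟩ := hf i; exact ⟨q, h2K.trans hq, e⟩) (by simp [sc])
  set n := 2*m+3 with hn
  set Tot := ∑ j ∈ Finset.range n, sc Mp R M0 M1 j with hTot
  have hsp : ∀ i, i < n → ∀ Q, Q * sc Mp R M0 M1 i ∣ sc Mp R M0 M1 (i+1) →
      ∃ σ τ, Tot = σ + Q * sc Mp R M0 M1 i * τ ∧ sc Mp R M0 M1 i ≤ σ ∧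
        σ < 2 * sc Mp R M0 M1 i := by
    intro i hi Q ⟨t, ht⟩
    obtain ⟨τ, hτ⟩ := hsplit i n hi
    refine ⟨∑ j ∈ Finset.range (i+1), sc Mp R M0 M1 j, t * τ, ?_, (hsum i).1, (hsum i).2⟩
    rw [hTot, hτ, ht]; ring
  have hMp0 : 0 < Mp := by have := Nat.pos_of_ne_zero (n := 2^(K+10)) (by positivity); omega
  have hR0 : 0 < R := by have := Nat.pos_of_ne_zero (n := 2^(K+10)) (by positivity); omega
  have hM00 : 0 < M0 := by have := Nat.pos_of_ne_zero (n := 2^(K+10)) (by positivity); omega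
  have hM10 : 0 < M1 := by have := Nat.pos_of_ne_zero (n := 2^(K+10)) (by positivity); omega
  have hPP : ∀ l, 0 < PP R M0 M1 l := fun l => by unfold PP; positivity
  have s3 : ∀ l, sc Mp R M0 M1 (2*l+3) = Mp * PP R M0 M1 l := by
    intro l
    show (if (2*l) % 2 = 0 then Mp * PP R M0 M1 ((2*l)/2) else Mp * PP R M0 M1 ((2*l)/2) * M1) = _
    rw [if_pos (by omega)]
    congr 2; omega
  have s4 : ∀ l, sc Mp R M0 M1 (2*l+4) = Mp * PP R M0 M1 l * M1 := by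
    intro l
    show (if (2*l+1) % 2 = 0 then Mp * PP R M0 M1 ((2*l+1)/2) else
      Mp * PP R M0 M1 ((2*l+1)/2) * M1) = _
    rw [if_neg (by omega)]
    congr 3; omega
  refine ⟨fun a => 16*2^a*Tot, 16*2^K*Tot, ?_, ?_⟩
  · intro a b c d ha hb hc' hd hdvd
    obtain ⟨σ, τ, hσ, hσ1, hσ2⟩ := hsp 0 (by omega) Mp (by simp [sc])
    simp only [sc] at hσ hσ1 hσ2
    have hσ' : σ = 1 := by omega
    subst hσ'
    have e : (((16*2^a*Tot : ℕ):ℤ) - ((16*2^b*Tot : ℕ):ℤ)) - (((16*2^c*Tot : ℕ):ℤ) -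
        ((16*2^d*Tot : ℕ):ℤ)) = 16*(((2:ℤ)^a - 2^b) - (2^c - 2^d)) +
        Mp * (16*(((2:ℤ)^a - 2^b) - (2^c - 2^d))*τ) := by
      rw [hσ]; push_cast; ring
    rw [e] at hdvd
    have h5 : (Mp:ℤ) ∣ 16*(((2:ℤ)^a - 2^b) - (2^c - 2^d)) :=
      (Int.dvd_add_left (Dvd.intro _ rfl)).mp hdvd
    have h6 := delta_abs ha hb hc' hd
    have h7 : (16*(((2:ℤ)^a - 2^b) - (2^c - 2^d))) = 0 := by
      apply Int.eq_zero_of_abs_lt_dvd h5
      rw [abs_mul]
      have e10 : ((2:ℤ)^(K+10)) = 512 * 2^(K+1) := by rw [pow_add, pow_add]; norm_num; ring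
      have : ((2:ℤ)^(K+10)) ≤ Mp := by exact_mod_cast hMp
      have hk : (0:ℤ) < 2^(K+1) := by positivity
      norm_num
      linarith
    exact golomb_int (by linarith)
  · intro T hT
    set x : ℕ → ℕ := fun a => 16*2^a*Tot with hx
    set U := Finset.range K ×ˢ Finset.range K with hU
    have huniq : ∀ i, i < n → ∀ Q, 2^(K+10) ≤ Q → Q * sc Mp R M0 M1 i ∣ sc Mp R M0 M1 (i+1) →
        (U.filter (fun ab => ab.1 ≠ ab.2 ∧ Near T x (sc Mp R M0 M1 i) Q ab)).card ≤ 1 :=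
      fun i hi Q hQ hd => near_unique hT (hpos i) hQ (hsp i hi Q hd)
    -- the four kinds
    let F1 := U.filter (fun ab => ab.1 ≠ ab.2 ∧ Near T x (sc Mp R M0 M1 2) R ab)
    let F2 := Ms.biUnion (fun k => U.filter (fun ab => ab.1 ≠ ab.2 ∧ Near T x (sc Mp R M0 M1 1) k ab))
    let F3 := (Finset.range m).biUnion
      (fun l => U.filter (fun ab => ab.1 ≠ ab.2 ∧ Near T x (sc Mp R M0 M1 (2*l+4)) R ab))
    let G4 : ℕ → Finset (ℕ × ℕ) := fun l => U.filter (fun ab => ab.1 ≠ ab.2 ∧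
      rho ≤ (Ms1.filter (fun k => Near T x (sc Mp R M0 M1 (2*l+3)) k ab)).card)
    let F4 := (Finset.range m).biUnion G4
    have c1 : F1.card ≤ 1 := huniq 2 (by omega) R hR (by
      rw [show (2+1:ℕ) = 2*0+3 from rfl, s3 0]
      simp only [sc, PP, pow_zero, mul_one]
      exact dvd_of_eq (by ring))
    have c2 : F2.card ≤ r := by
      refine (Finset.card_biUnion_le).trans ?_
      refine (Finset.sum_le_card_nsmul Ms _ 1 (fun k hk => ?_)).trans (by simpa using hc)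
      refine huniq 1 (by omega) k (hMs k hk).1 ?_
      obtain ⟨t, ht⟩ := (hMs k hk).2
      simp only [sc]
      exact ⟨t, by rw [ht]; ring⟩
    have c3 : F3.card ≤ m := by
      refine (Finset.card_biUnion_le).trans ?_
      refine (Finset.sum_le_card_nsmul (Finset.range m) _ 1 (fun l hl => ?_)).trans (by simp)
      rw [Finset.mem_range] at hl
      refine huniq (2*l+4) (by omega) R hR ?_
      rw [show 2*l+4+1 = 2*(l+1)+3 by ring, s3, s4]
      refine dvd_of_eq ?_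
      simp only [PP, pow_succ]
      ring
    have c4 : F4.card ≤ 32*m := by
      refine (Finset.card_biUnion_le).trans ?_
      refine (Finset.sum_le_card_nsmul (Finset.range m) _ 32 (fun l hl => ?_)).trans
        (by simp [mul_comm])
      rw [Finset.mem_range] at hl
      have hk1 : ∀ k ∈ Ms1, (U.filter (fun ab => ab.1 ≠ ab.2 ∧
          Near T x (sc Mp R M0 M1 (2*l+3)) k ab)).card ≤ 1 := by
        intro k hk
        refine huniq (2*l+3) (by omega) k (hMs1 k hk).1 ?_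
        obtain ⟨t, ht⟩ := (hMs1 k hk).2
        rw [s3, show 2*l+3+1 = 2*l+4 from rfl, s4]
        exact ⟨t, by rw [ht]; ring⟩
      have h5 : (G4 l).card * rho ≤ 32 * rho := by
        calc (G4 l).card * rho = ∑ _ab ∈ G4 l, rho := by simp
          _ ≤ ∑ ab ∈ G4 l, (Ms1.filter (fun k => Near T x (sc Mp R M0 M1 (2*l+3)) k ab)).card := by
              refine Finset.sum_le_sum (fun ab hab => ?_)
              exact (Finset.mem_filter.mp hab).2.2
          _ = ∑ ab ∈ G4 l, ∑ k ∈ Ms1, (if Near T x (sc Mp R M0 M1 (2*l+3)) k ab then 1 else 0) := by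
              refine Finset.sum_congr rfl (fun ab _ => ?_)
              rw [Finset.card_filter]
          _ = ∑ k ∈ Ms1, ∑ ab ∈ G4 l, (if Near T x (sc Mp R M0 M1 (2*l+3)) k ab then 1 else 0) :=
              Finset.sum_comm
          _ ≤ ∑ _k ∈ Ms1, 1 := by
              refine Finset.sum_le_sum (fun k hk => ?_)
              rw [← Finset.card_filter]
              refine (Finset.card_le_card ?_).trans (hk1 k hk)
              intro ab hab
              rw [Finset.mem_filter] at hab ⊢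
              have := Finset.mem_filter.mp hab.1
              exact ⟨this.1, this.2.1, hab.2⟩
          _ ≤ 32 * rho := by simpa using hc1
      exact Nat.le_of_mul_le_mul_right h5 hrho
    have hsub : (U.filter (fun ab => ab.1 ≠ ab.2 ∧
        Bad R M0 M1 m rho Ms Ms1 ((T + x ab.1 - x ab.2) / Mp))) ⊆ F1 ∪ F2 ∪ F3 ∪ F4 := by
      intro ab hab
      rw [Finset.mem_filter] at hab
      obtain ⟨habU, hne, hbad⟩ := hab
      set y := T + x ab.1 - x ab.2 with hy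
      simp only [Finset.mem_union]
      rcases hbad with hb | hb | ⟨l, hl, hb | hb⟩
      · left; left; left
        refine Finset.mem_filter.mpr ⟨habU, hne, ?_⟩
        exact near_digit hMp0 (by positivity) hb
      · left; left; right
        obtain ⟨k, hk, hkd⟩ := hb
        refine Finset.mem_biUnion.mpr ⟨k, hk, Finset.mem_filter.mpr ⟨habU, hne, ?_⟩⟩
        exact near_dvd hMp0 hkd
      · left; right
        refine Finset.mem_biUnion.mpr ⟨l, Finset.mem_range.mpr hl,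
          Finset.mem_filter.mpr ⟨habU, hne, ?_⟩⟩
        rw [Nat.div_div_eq_div_mul] at hb
        rw [s4]
        exact near_digit (Nat.mul_pos hMp0 (hPP l)) (by positivity) hb
      · right
        refine Finset.mem_biUnion.mpr ⟨l, Finset.mem_range.mpr hl,
          Finset.mem_filter.mpr ⟨habU, hne, hb.trans (Finset.card_le_card ?_)⟩⟩
        intro k hk
        rw [Finset.mem_filter] at hk ⊢
        refine ⟨hk.1, ?_⟩
        have h6 := hk.2
        rw [Nat.div_div_eq_div_mul] at h6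
        rw [s3]
        exact near_dvd (Nat.mul_pos hMp0 (hPP l)) h6
    have h7 := Finset.card_le_card hsub
    have h8 := Finset.card_union_le (F1 ∪ F2 ∪ F3) F4
    have h9 := Finset.card_union_le (F1 ∪ F2) F3
    have h10 := Finset.card_union_le F1 F2
    omega

end Crest.Agent.R320.Spoil_279
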