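import Mathlib

/-!
Row 320, leaf U4 of helper638's post #13273: the repunit ruler spoils at most `2 + r + 34 m`
pairs.
-/

set_option autoImplicit false

namespace Crest.Agent.R320.Spoil_365

def PP (R M0 M1 l : ℕ) : ℕ := (R*M0) * (R*M1)^l

def Bad (R M0 M1 m rho : ℕ) (Ms Ms1 : Finset ℕ) (n : ℕ) : Prop :=
  (n % (R*M0) < M0 ∨ R*M0 ≤ n % (R*M0) + M0) ∨ (∃ k ∈ Ms, k ∣ n) ∨
    ∃ l < m, ((n / PP R M0 M1 l) % (R*M1) < M1 ∨ R*M1 ≤ (n / PP R M0 M1 l) % (R*M1) + M1) ∨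
      rho ≤ (Ms1.filter (· ∣ n / PP R M0 M1 l)).card

theorem pow2_aux {a b c d : ℕ} (hab : b < a) (h : (2:ℤ)^a - 2^b = 2^c - 2^d) :
    a = c ∧ b = d := by
  have h1 : (2:ℤ)^b < 2^a := pow_lt_pow_right₀ (by norm_num) hab
  have h2 : (2:ℤ)^d < 2^c := by linarith
  have hdc : d < c := (pow_lt_pow_iff_right₀ (by norm_num : (1:ℤ) < 2)).1 h2
  have e1 : (2:ℤ)^a = 2 * 2^(a-1) := by
    rw [← pow_succ']
    congr 1
    omega
  have e2 : (2:ℤ)^c = 2 * 2^(c-1) := by
    rw [← pow_succ']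
    congr 1
    omega
  have e3 : (2:ℤ)^b ≤ 2^(a-1) := pow_le_pow_right₀ (by norm_num) (by omega)
  have e4 : (2:ℤ)^d ≤ 2^(c-1) := pow_le_pow_right₀ (by norm_num) (by omega)
  have p1 : (0:ℤ) < 2^b := by positivity
  have p2 : (0:ℤ) < 2^d := by positivity
  have q1 : (2:ℤ)^(a-1) < 2^c := by linarith
  have q2 : (2:ℤ)^(c-1) < 2^a := by linarith
  have r1 : a - 1 < c := (pow_lt_pow_iff_right₀ (by norm_num : (1:ℤ) < 2)).1 q1
  have r2 : c - 1 < a := (pow_lt_pow_iff_right₀ (by norm_num : (1:ℤ) < 2)).1 q2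
  have hac : a = c := by omega
  subst hac
  refine ⟨rfl, ?_⟩
  have : (2:ℤ)^b = 2^d := by linarith
  exact pow_right_injective₀ (by norm_num : (0:ℤ) < 2) (by norm_num) this

theorem pow2 {a b c d : ℕ} (h : (2:ℤ)^a - 2^b = 2^c - 2^d) :
    (a = c ∧ b = d) ∨ (a = b ∧ c = d) := by
  rcases lt_trichotomy a b with hab | hab | hab
  · left
    have := pow2_aux hab (show (2:ℤ)^b - 2^a = 2^d - 2^c by linarith)
    exact ⟨this.2, this.1⟩
  · right
    subst hab
    refine ⟨rfl, ?_⟩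
    have : (2:ℤ)^c = 2^d := by linarith
    exact pow_right_injective₀ (by norm_num : (0:ℤ) < 2) (by norm_num) this
  · left
    exact pow2_aux hab h

theorem sep (K : ℕ) (sc Q lo hi E t : ℤ) (hsc : 0 < sc) (hlo0 : 0 ≤ lo)
    (hlo : 2^(K+5) * lo ≤ sc) (hQ : 2^(K+6) ≤ Q) (hhi : Q * sc ∣ hi) (hE : |E| ≤ 2^(K+1))
    (ht : |16 * E * (lo + sc + hi) - t * (Q * sc)| < 2 * sc) : E = 0 := by
  by_contra hne
  have hE1 : 1 ≤ |E| := Int.one_le_abs hne
  obtain ⟨u, hu⟩ := hhi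
  set v := t - 16 * E * u with hv
  have e1 : 16 * E * (lo + sc + hi) - t * (Q * sc) = 16 * E * lo + (16 * E - v * Q) * sc := by
    rw [hu, hv]; ring
  rw [e1] at ht
  have hpow : (2:ℤ)^(K+5) = 16 * 2^(K+1) := by
    rw [pow_add, pow_add]; ring
  have hpow6 : (2:ℤ)^(K+6) = 2 * 2^(K+5) := by
    rw [pow_add, pow_add]; ring
  have hpow5 : (32:ℤ) ≤ 2^(K+5) := by
    have : (1:ℤ) ≤ 2^K := one_le_pow₀ (by norm_num)
    rw [pow_add]
    nlinarith
  have e2 : |16 * E * lo| ≤ sc := by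
    rw [abs_mul, abs_mul, abs_of_nonneg hlo0]
    have : |(16:ℤ)| = 16 := by norm_num
    rw [this]
    have h1 : 16 * |E| * lo ≤ 16 * 2^(K+1) * lo := by
      apply mul_le_mul_of_nonneg_right _ hlo0
      linarith
    rw [← hpow] at h1
    linarith
  have e3 : |(16 * E - v * Q) * sc| < 3 * sc := by
    have h1 := abs_sub_abs_le_abs_sub ((16 * E - v * Q) * sc) (-(16 * E * lo))
    have h2 : (16 * E - v * Q) * sc - -(16 * E * lo) = 16 * E * lo + (16 * E - v * Q) * sc := by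
      ring
    rw [h2, abs_neg] at h1
    linarith
  rw [abs_mul, abs_of_pos hsc] at e3
  have e4 : |16 * E - v * Q| < 3 := lt_of_mul_lt_mul_right e3 hsc.le
  have e5 : |16 * E| ≤ 2^(K+5) := by
    rw [abs_mul]
    have : |(16:ℤ)| = 16 := by norm_num
    rw [this, hpow]
    linarith
  have e6 : 16 ≤ |16 * E| := by
    rw [abs_mul]
    have : |(16:ℤ)| = 16 := by norm_num
    rw [this]
    linarith
  by_cases hv0 : v = 0
  · rw [hv0, zero_mul, sub_zero] at e4
    linarith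
  · have hv1 : 1 ≤ |v| := Int.one_le_abs hv0
    have hQ0 : 0 < Q := by linarith
    have e7 : Q ≤ |v * Q| := by
      rw [abs_mul, abs_of_pos hQ0]
      nlinarith
    have h1 := abs_sub_abs_le_abs_sub (v * Q) (16 * E)
    rw [abs_sub_comm (v * Q) (16 * E)] at h1
    linarith

/-- near a multiple of `Q * sc` -/
def Nr (T' sc Q : ℤ) : Prop := ∃ t : ℤ, -sc ≤ T' - t * (Q * sc) ∧ T' - t * (Q * sc) < sc

theorem nr_near {P M R T' : ℕ} (hP : 0 < P) (hRM : 0 < R * M)
    (h : (T' / P) % (R * M) < M ∨ R * M ≤ (T' / P) % (R * M) + M) :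
    Nr (T' : ℤ) (P * M : ℕ) (R : ℕ) := by
  have h1 := Nat.div_add_mod T' P
  have h2 := Nat.mod_lt T' hP
  have h3 := Nat.div_add_mod (T' / P) (R * M)
  have h4 := Nat.mod_lt (T' / P) hRM
  set ρ := T' % P
  set n := T' / P
  set r0 := n % (R * M)
  set q := n / (R * M)
  have e : (T' : ℤ) = P * (R * M * q + r0) + ρ := by
    have : T' = P * (R * M * q + r0) + ρ := by rw [h3, h1]
    exact_mod_cast this
  have hρ : (ρ : ℤ) < P := by exact_mod_cast h2
  have hρ0 : (0:ℤ) ≤ ρ := by positivity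
  have hP' : (0:ℤ) < P := by exact_mod_cast hP
  have hr0 : (0:ℤ) ≤ r0 := by positivity
  rcases h with h | h
  · refine ⟨q, ?_, ?_⟩
    · push_cast
      rw [e]
      have : (P:ℤ) * (R * M * q + r0) + ρ - q * (R * (P * M)) = P * r0 + ρ := by ring
      rw [this]
      have : (0:ℤ) ≤ P * M := by positivity
      nlinarith
    · push_cast
      rw [e]
      have : (P:ℤ) * (R * M * q + r0) + ρ - q * (R * (P * M)) = P * r0 + ρ := by ring
      rw [this]
      have h' : (r0 : ℤ) + 1 ≤ M := by exact_mod_cast h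
      nlinarith
  · refine ⟨q + 1, ?_, ?_⟩
    · push_cast
      rw [e]
      have : (P:ℤ) * (R * M * q + r0) + ρ - (q + 1) * (R * (P * M)) = P * (r0 - R * M) + ρ := by
        ring
      rw [this]
      have h' : (R : ℤ) * M ≤ r0 + M := by exact_mod_cast h
      nlinarith
    · push_cast
      rw [e]
      have : (P:ℤ) * (R * M * q + r0) + ρ - (q + 1) * (R * (P * M)) = P * (r0 - R * M) + ρ := by
        ring
      rw [this]
      have h' : (r0 : ℤ) + 1 ≤ R * M := by exact_mod_cast h4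
      have : (0:ℤ) ≤ P * M := by positivity
      nlinarith

theorem nr_dvd {P k T' : ℕ} (hP : 0 < P) (h : k ∣ T' / P) : Nr (T' : ℤ) (P : ℕ) (k : ℕ) := by
  have h1 := Nat.div_add_mod T' P
  have h2 := Nat.mod_lt T' hP
  obtain ⟨q, hq⟩ := h
  have e : (T' : ℤ) = P * (k * q) + (T' % P : ℕ) := by
    have : T' = P * (k * q) + T' % P := by rw [← hq, h1]
    exact_mod_cast this
  have hρ : ((T' % P : ℕ) : ℤ) < P := by exact_mod_cast h2
  have hρ0 : (0:ℤ) ≤ (T' % P : ℕ) := by positivity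
  have hP' : (0:ℤ) < P := by exact_mod_cast hP
  have e2 : (T' : ℤ) - q * (k * P) = (T' % P : ℕ) := by
    rw [e]
    push_cast
    ring
  refine ⟨q, ?_, ?_⟩
  · rw [e2]; linarith
  · rw [e2]; exact hρ

theorem pow_bound {K a b : ℕ} (ha : a < K) (hb : b < K) : |(2:ℤ)^a - 2^b| ≤ 2^K := by
  have h1 : (2:ℤ)^a ≤ 2^K := pow_le_pow_right₀ (by norm_num) ha.le
  have h2 : (2:ℤ)^b ≤ 2^K := pow_le_pow_right₀ (by norm_num) hb.le
  have p1 : (0:ℤ) < 2^a := by positivity
  have p2 : (0:ℤ) < 2^b := by positivity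
  rw [abs_le]
  constructor <;> linarith

theorem uniq (K : ℕ) (T sc Q lo hi : ℤ) (hsc : 0 < sc) (hlo0 : 0 ≤ lo)
    (hlo : 2^(K+5) * lo ≤ sc) (hQ : 2^(K+6) ≤ Q) (hhi : Q * sc ∣ hi)
    {a b c d : ℕ} (ha : a < K) (hb : b < K) (hc : c < K) (hd : d < K) (hab : a ≠ b)
    (h1 : Nr (T + 16 * ((2:ℤ)^a - 2^b) * (lo + sc + hi)) sc Q)
    (h2 : Nr (T + 16 * ((2:ℤ)^c - 2^d) * (lo + sc + hi)) sc Q) : a = c ∧ b = d := by
  obtain ⟨t1, u1, v1⟩ := h1
  obtain ⟨t2, u2, v2⟩ := h2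
  have hE : ((2:ℤ)^a - 2^b) - (2^c - 2^d) = 0 := by
    apply sep K sc Q lo hi _ (t1 - t2) hsc hlo0 hlo hQ hhi
    · have := abs_sub ((2:ℤ)^a - 2^b) (2^c - 2^d)
      have h3 := pow_bound ha hb
      have h4 := pow_bound hc hd
      have e : (2:ℤ)^(K+1) = 2 * 2^K := by rw [pow_succ]; ring
      have h5 : |((2:ℤ)^a - 2^b) - (2^c - 2^d)| ≤ |(2:ℤ)^a - 2^b| + |(2:ℤ)^c - 2^d| := abs_sub _ _
      linarith
    · rw [abs_lt]
      have e : 16 * (((2:ℤ)^a - 2^b) - (2^c - 2^d)) * (lo + sc + hi) - (t1 - t2) * (Q * sc)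
          = (T + 16 * ((2:ℤ)^a - 2^b) * (lo + sc + hi) - t1 * (Q * sc))
            - (T + 16 * ((2:ℤ)^c - 2^d) * (lo + sc + hi) - t2 * (Q * sc)) := by ring
      rw [e]
      constructor <;> linarith
  rcases pow2 (show (2:ℤ)^a - 2^b = 2^c - 2^d by linarith) with h | h
  · exact h
  · exact absurd h.1 hab

/-- sum of the scales below level `l` -/
def LO (Mp R M0 M1 : ℕ) (l : ℕ) : ℕ :=
  1 + Mp + Mp * M0 + ∑ j ∈ Finset.range l, (Mp * PP R M0 M1 j + Mp * PP R M0 M1 j * M1)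

theorem PP_succ (R M0 M1 l : ℕ) : PP R M0 M1 (l+1) = PP R M0 M1 l * (R * M1) := by
  unfold PP; rw [pow_succ]; ring

theorem LO_succ (Mp R M0 M1 l : ℕ) : LO Mp R M0 M1 (l+1) =
    LO Mp R M0 M1 l + Mp * PP R M0 M1 l + Mp * PP R M0 M1 l * M1 := by
  unfold LO; rw [Finset.sum_range_succ]; ring

theorem PP_dvd (R M0 M1 : ℕ) {l j : ℕ} (h : l ≤ j) : PP R M0 M1 l ∣ PP R M0 M1 j := by
  unfold PP
  exact Nat.mul_dvd_mul_left _ (pow_dvd_pow _ h)

theorem PP_pos {R M0 M1 : ℕ} (hR : 0 < R) (h0 : 0 < M0) (h1 : 0 < M1) (l : ℕ) :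
    0 < PP R M0 M1 l := by
  unfold PP; positivity

theorem LO_bound {K Mp R M0 M1 : ℕ} (hMp : 2^(K+10) ≤ Mp) (hR : 2^(K+10) ≤ R)
    (h0 : 2^(K+10) ≤ M0) (h1 : 2^(K+10) ≤ M1) (l : ℕ) :
    2^(K+5) * LO Mp R M0 M1 l ≤ Mp * PP R M0 M1 l := by
  have hK : 1 ≤ 2^K := Nat.one_le_two_pow
  have e10 : 2^(K+10) = 1024 * 2^K := by rw [pow_add]; ring
  have e5 : 2^(K+5) = 32 * 2^K := by rw [pow_add]; ring
  have hMp' : 1 ≤ Mp := by omega
  have hM0' : 1 ≤ M0 := by omega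
  have hM1' : 1 ≤ M1 := by omega
  induction l with
  | zero =>
    have a1 : LO Mp R M0 M1 0 = 1 + Mp + Mp * M0 := by simp [LO]
    have a2 : PP R M0 M1 0 = R * M0 := by simp [PP]
    rw [a1, a2]
    have b1 : 1 ≤ Mp * M0 := Nat.mul_pos hMp' hM0'
    have b2 : Mp ≤ Mp * M0 := Nat.le_mul_of_pos_right _ hM0'
    calc 2^(K+5) * (1 + Mp + Mp * M0) ≤ 2^(K+5) * (3 * (Mp * M0)) :=
          Nat.mul_le_mul_left _ (by omega)
      _ = (96 * 2^K) * (Mp * M0) := by rw [e5]; ring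
      _ ≤ R * (Mp * M0) := Nat.mul_le_mul_right _ (by omega)
      _ = Mp * (R * M0) := by ring
  | succ l ih =>
    rw [LO_succ, PP_succ]
    set X := Mp * PP R M0 M1 l with hX
    have c0 : LO Mp R M0 M1 l ≤ X := by
      refine le_trans ?_ ih
      exact Nat.le_mul_of_pos_left _ (by positivity)
    have c1 : X ≤ X * M1 := Nat.le_mul_of_pos_right _ hM1'
    calc 2^(K+5) * (LO Mp R M0 M1 l + X + X * M1) ≤ 2^(K+5) * (3 * (X * M1)) :=
          Nat.mul_le_mul_left _ (by omega)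
      _ = (96 * 2^K) * (X * M1) := by rw [e5]; ring
      _ ≤ R * (X * M1) := Nat.mul_le_mul_right _ (by omega)
      _ = Mp * (PP R M0 M1 l * (R * M1)) := by rw [hX]; ring

theorem LO_dvd (Mp R M0 M1 : ℕ) {l m : ℕ} (h : l ≤ m) :
    ∃ u, LO Mp R M0 M1 m = LO Mp R M0 M1 l + Mp * PP R M0 M1 l * u := by
  induction m, h using Nat.le_induction with
  | base => exact ⟨0, by simp⟩
  | succ m hm ih =>
    obtain ⟨u, hu⟩ := ih
    obtain ⟨w, hw⟩ := PP_dvd R M0 M1 hm
    refine ⟨u + w + w * M1, ?_⟩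
    rw [LO_succ, hu, hw]
    ring

theorem card_le_one_of {K : ℕ} (p : ℕ × ℕ → Prop) [DecidablePred p]
    (h : ∀ a b c d, a < K → b < K → c < K → d < K → a ≠ b → c ≠ d → p (a, b) → p (c, d) →
      a = c ∧ b = d) :
    (((Finset.range K ×ˢ Finset.range K).filter (fun ab => ab.1 ≠ ab.2)).filter p).card ≤ 1 := by
  rw [Finset.card_le_one]
  rintro ⟨a, b⟩ hab ⟨c, d⟩ hcd
  simp only [Finset.mem_filter, Finset.mem_product, Finset.mem_range] at hab hcd
  obtain ⟨⟨⟨ha, hb⟩, hne⟩, hp⟩ := hab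
  obtain ⟨⟨⟨hc, hd⟩, hne'⟩, hp'⟩ := hcd
  obtain ⟨h1, h2⟩ := h a b c d ha hb hc hd hne hne' hp hp'
  rw [h1, h2]

open Classical in
theorem spoil (m r K Mp R M0 M1 rho : ℕ) (Ms Ms1 : Finset ℕ) (hMp : 2^(K+10) ≤ Mp)
    (hR : 2^(K+10) ≤ R) (h0 : 2^(K+10) ≤ M0) (h1 : 2^(K+10) ≤ M1)
    (hMs : ∀ k ∈ Ms, 2^(K+10) ≤ k ∧ k ∣ M0) (hMs1 : ∀ k ∈ Ms1, 2^(K+10) ≤ k ∧ k ∣ M1)
    (hc : Ms.card ≤ r) (hc1 : Ms1.card ≤ 32*rho) (hrho : 0 < rho) :
    ∃ (x : ℕ → ℕ) (T0 : ℕ),
      (∀ a b c d, a < K → b < K → c < K → d < K →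
        (Mp:ℤ) ∣ ((x a:ℤ) - x b) - (x c - x d) → (a = c ∧ b = d) ∨ (a = b ∧ c = d)) ∧
      ∀ T, T0 ≤ T → (((Finset.range K ×ˢ Finset.range K).filter
        (fun ab => ab.1 ≠ ab.2 ∧
          Bad R M0 M1 m rho Ms Ms1 ((T + x ab.1 - x ab.2) / Mp))).card ≤ 2 + r + 34*m) := by
  have hK : 1 ≤ 2^K := Nat.one_le_two_pow
  have e10 : 2^(K+10) = 1024 * 2^K := by rw [pow_add]; ring
  have e5 : 2^(K+5) = 32 * 2^K := by rw [pow_add]; ring
  have e6 : 2^(K+6) = 64 * 2^K := by rw [pow_add]; ring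
  have e6z : (2:ℤ)^(K+6) = 64 * 2^K := by rw [pow_add]; ring
  have e5z : (2:ℤ)^(K+5) = 32 * 2^K := by rw [pow_add]; ring
  have hKz : (1:ℤ) ≤ 2^K := by exact_mod_cast hK
  have hMp' : 0 < Mp := by omega
  have hR' : 0 < R := by omega
  have hM0' : 0 < M0 := by omega
  have hM1' : 0 < M1 := by omega
  set Sg := LO Mp R M0 M1 m with hSg
  refine ⟨fun a => 16 * 2^a * Sg, 16 * 2^K * Sg, ?_, ?_⟩
  · -- Golomb
    intro a b c d ha hb hc' hd hdvd
    have hS1 : ∃ u, (Sg : ℤ) = 1 + Mp * u := by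
      obtain ⟨u, hu⟩ := LO_dvd Mp R M0 M1 (Nat.zero_le m)
      refine ⟨1 + M0 + PP R M0 M1 0 * u, ?_⟩
      have : LO Mp R M0 M1 0 = 1 + Mp + Mp * M0 := by simp [LO]
      rw [hSg, hu, this]
      push_cast
      ring
    obtain ⟨u, hu⟩ := hS1
    push_cast at hdvd
    have e : (16 * (2:ℤ)^a * Sg - 16 * 2^b * Sg) - (16 * 2^c * Sg - 16 * 2^d * Sg)
        = 16 * (((2:ℤ)^a - 2^b) - (2^c - 2^d)) + Mp * (16 * (((2:ℤ)^a - 2^b) - (2^c - 2^d)) * u) := by
      rw [hu]; ring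
    rw [e] at hdvd
    have hdvd2 : (Mp:ℤ) ∣ 16 * (((2:ℤ)^a - 2^b) - (2^c - 2^d)) :=
      (dvd_add_left (dvd_mul_right _ _)).1 hdvd
    have hz : 16 * (((2:ℤ)^a - 2^b) - (2^c - 2^d)) = 0 := by
      apply Int.eq_zero_of_abs_lt_dvd hdvd2
      rw [abs_mul]
      have h16 : |(16:ℤ)| = 16 := by norm_num
      rw [h16]
      have h5 : |((2:ℤ)^a - 2^b) - (2^c - 2^d)| ≤ |(2:ℤ)^a - 2^b| + |(2:ℤ)^c - 2^d| := abs_sub _ _
      have h3 := pow_bound ha hb
      have h4 := pow_bound hc' hd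
      have hz' : (1024:ℤ) * 2^K ≤ Mp := by
        have := hMp
        rw [e10] at this
        exact_mod_cast this
      linarith
    exact pow2 (by linarith)
  · intro T hT
    set Pr := (Finset.range K ×ˢ Finset.range K).filter (fun ab => ab.1 ≠ ab.2) with hPr
    let n : ℕ × ℕ → ℕ := fun ab => T + 16 * 2^ab.1 * Sg - 16 * 2^ab.2 * Sg
    have hcast : ∀ a b, a < K → b < K →
        ((n (a, b) : ℕ) : ℤ) = (T:ℤ) + 16 * ((2:ℤ)^a - 2^b) * Sg := by
      intro a b ha hb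
      have hle : 16 * 2^b * Sg ≤ T + 16 * 2^a * Sg := by
        have : 16 * 2^b * Sg ≤ 16 * 2^K * Sg :=
          Nat.mul_le_mul_right _ (Nat.mul_le_mul_left _ (Nat.pow_le_pow_right (by norm_num) hb.le))
        omega
      show (((T + 16 * 2^a * Sg - 16 * 2^b * Sg : ℕ)) : ℤ) = _
      rw [Nat.cast_sub hle]
      push_cast
      ring
    -- uniqueness for a scale
    have key : ∀ (sc Q lo hi : ℕ), 0 < sc → 2^(K+5) * lo ≤ sc → 2^(K+6) ≤ Q → Q * sc ∣ hi →
        Sg = lo + sc + hi → ∀ a b c d, a < K → b < K → c < K → d < K → a ≠ b → c ≠ d →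
        Nr (n (a, b)) sc Q → Nr (n (c, d)) sc Q → a = c ∧ b = d := by
      intro sc Q lo hi hsc hlo hQ hhi hS a b c d ha hb hc' hd hab _ hn1 hn2
      rw [hcast a b ha hb] at hn1
      rw [hcast c d hc' hd] at hn2
      have hSz : (Sg : ℤ) = (lo:ℤ) + sc + hi := by rw [hS]; push_cast; ring
      rw [hSz] at hn1 hn2
      exact uniq K T sc Q lo hi (by exact_mod_cast hsc) (by positivity)
        (by exact_mod_cast hlo) (by exact_mod_cast hQ) (by exact_mod_cast hhi)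
        ha hb hc' hd hab hn1 hn2
    -- the decompositions of Sg
    have hLO0 : LO Mp R M0 M1 0 = 1 + Mp + Mp * M0 := by simp [LO]
    have hPP0 : PP R M0 M1 0 = R * M0 := by simp [PP]
    obtain ⟨u0, hu0⟩ := LO_dvd Mp R M0 M1 (Nat.zero_le m)
    rw [hLO0, hPP0] at hu0
    have D1 : ∀ a b c d, a < K → b < K → c < K → d < K → a ≠ b → c ≠ d →
        Nr (n (a, b)) (Mp * M0 : ℕ) (R : ℕ) → Nr (n (c, d)) (Mp * M0 : ℕ) (R : ℕ) →
        a = c ∧ b = d := by
      apply key (Mp * M0) R (1 + Mp) (Mp * (R * M0) * u0) (by positivity) ?_ (by omega) ?_ ?_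
      · calc 2^(K+5) * (1 + Mp) ≤ 2^(K+5) * (2 * Mp) := Nat.mul_le_mul_left _ (by omega)
          _ = (64 * 2^K) * Mp := by rw [e5]; ring
          _ ≤ M0 * Mp := Nat.mul_le_mul_right _ (by omega)
          _ = Mp * M0 := by ring
      · exact ⟨u0, by ring⟩
      · rw [hSg, hu0]
    have D2 : ∀ k ∈ Ms, ∀ a b c d, a < K → b < K → c < K → d < K → a ≠ b → c ≠ d →
        Nr (n (a, b)) (Mp : ℕ) (k : ℕ) → Nr (n (c, d)) (Mp : ℕ) (k : ℕ) →
        a = c ∧ b = d := by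
      intro k hk
      obtain ⟨hk1, w, hw⟩ := hMs k hk
      apply key Mp k 1 (Mp * M0 + Mp * (R * M0) * u0) hMp' ?_ (by omega) ?_ ?_
      · omega
      · refine ⟨w + R * w * u0, ?_⟩
        rw [hw]; ring
      · rw [hSg, hu0]; ring
    have D3 : ∀ l, l < m → ∀ a b c d, a < K → b < K → c < K → d < K → a ≠ b → c ≠ d →
        Nr (n (a, b)) (Mp * PP R M0 M1 l * M1 : ℕ) (R : ℕ) →
        Nr (n (c, d)) (Mp * PP R M0 M1 l * M1 : ℕ) (R : ℕ) →
        a = c ∧ b = d := by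
      intro l hl
      obtain ⟨u, hu⟩ := LO_dvd Mp R M0 M1 (show l + 1 ≤ m from hl)
      rw [LO_succ, PP_succ] at hu
      have hX : 0 < Mp * PP R M0 M1 l := Nat.mul_pos hMp' (PP_pos hR' hM0' hM1' l)
      have hlb := LO_bound hMp hR h0 h1 l
      set X := Mp * PP R M0 M1 l with hXd
      apply key (X * M1) R (LO Mp R M0 M1 l + X) (Mp * (PP R M0 M1 l * (R * M1)) * u)
        (by positivity) ?_ (by omega) ?_ ?_
      · have c0 : LO Mp R M0 M1 l ≤ X := by
          refine le_trans ?_ hlb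
          exact Nat.le_mul_of_pos_left _ (by positivity)
        calc 2^(K+5) * (LO Mp R M0 M1 l + X) ≤ 2^(K+5) * (2 * X) :=
              Nat.mul_le_mul_left _ (by omega)
          _ = (64 * 2^K) * X := by rw [e5]; ring
          _ ≤ M1 * X := Nat.mul_le_mul_right _ (by omega)
          _ = X * M1 := by ring
      · refine ⟨u, ?_⟩
        rw [hXd]; ring
      · rw [hSg, hu]
    have D4 : ∀ l, l < m → ∀ k ∈ Ms1, ∀ a b c d, a < K → b < K → c < K → d < K → a ≠ b → c ≠ d →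
        Nr (n (a, b)) (Mp * PP R M0 M1 l : ℕ) (k : ℕ) →
        Nr (n (c, d)) (Mp * PP R M0 M1 l : ℕ) (k : ℕ) →
        a = c ∧ b = d := by
      intro l hl k hk
      obtain ⟨hk1, w, hw⟩ := hMs1 k hk
      obtain ⟨u, hu⟩ := LO_dvd Mp R M0 M1 (show l + 1 ≤ m from hl)
      rw [LO_succ, PP_succ] at hu
      have hX : 0 < Mp * PP R M0 M1 l := Nat.mul_pos hMp' (PP_pos hR' hM0' hM1' l)
      have hlb := LO_bound hMp hR h0 h1 l
      set X := Mp * PP R M0 M1 l with hXd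
      apply key X k (LO Mp R M0 M1 l) (X * M1 + Mp * (PP R M0 M1 l * (R * M1)) * u)
        hX hlb (by omega) ?_ ?_
      · refine ⟨w + R * w * u, ?_⟩
        rw [hXd, hw]; ring
      · rw [hSg, hu]; ring
    -- the four kinds of bad pairs
    let A1 := Pr.filter (fun ab => Nr (n ab) (Mp * M0 : ℕ) (R : ℕ))
    let A2 := Ms.biUnion (fun k => Pr.filter (fun ab => Nr (n ab) (Mp : ℕ) (k : ℕ)))
    let A3 := (Finset.range m).biUnion
      (fun l => Pr.filter (fun ab => Nr (n ab) (Mp * PP R M0 M1 l * M1 : ℕ) (R : ℕ)))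
    let A4 := (Finset.range m).biUnion
      (fun l => Pr.filter (fun ab =>
        rho ≤ (Ms1.filter (fun k => Nr (n ab) (Mp * PP R M0 M1 l : ℕ) (k : ℕ))).card))
    have c1 : A1.card ≤ 1 := card_le_one_of _ D1
    have c2 : A2.card ≤ r := by
      refine le_trans (Finset.card_biUnion_le) ?_
      refine le_trans (Finset.sum_le_sum (g := fun _ => 1) ?_) ?_
      · intro k hk
        exact card_le_one_of _ (D2 k hk)
      · simpa using hc
    have c3 : A3.card ≤ m := by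
      refine le_trans (Finset.card_biUnion_le) ?_
      refine le_trans (Finset.sum_le_sum (g := fun _ => 1) ?_) ?_
      · intro l hl
        exact card_le_one_of _ (D3 l (Finset.mem_range.1 hl))
      · simp
    have c4 : A4.card ≤ 32 * m := by
      refine le_trans (Finset.card_biUnion_le) ?_
      refine le_trans (Finset.sum_le_sum (g := fun _ => 32) ?_) ?_
      · intro l hl
        set B := Pr.filter (fun ab =>
          rho ≤ (Ms1.filter (fun k => Nr (n ab) (Mp * PP R M0 M1 l : ℕ) (k : ℕ))).card) with hB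
        have h2 : rho * B.card ≤ 32 * rho := by
          calc rho * B.card = ∑ ab ∈ B, rho := by
                rw [Finset.sum_const, smul_eq_mul, mul_comm]
            _ ≤ ∑ ab ∈ B, (Ms1.filter (fun k => Nr (n ab) (Mp * PP R M0 M1 l : ℕ) (k : ℕ))).card := by
                apply Finset.sum_le_sum
                intro ab hab
                exact (Finset.mem_filter.1 hab).2
            _ = ∑ k ∈ Ms1, (B.filter (fun ab => Nr (n ab) (Mp * PP R M0 M1 l : ℕ) (k : ℕ))).card := by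
                simp only [Finset.card_filter]
                rw [Finset.sum_comm]
            _ ≤ ∑ k ∈ Ms1, 1 := by
                apply Finset.sum_le_sum
                intro k hk
                refine le_trans (Finset.card_le_card ?_)
                  (card_le_one_of (K := K)
                    (fun ab => Nr (n ab) (Mp * PP R M0 M1 l : ℕ) (k : ℕ))
                    (D4 l (Finset.mem_range.1 hl) k hk))
                intro ab hab
                rw [Finset.mem_filter] at hab ⊢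
                exact ⟨(Finset.mem_filter.1 hab.1).1, hab.2⟩
            _ = Ms1.card := by simp
            _ ≤ 32 * rho := hc1
        have h3 : rho * B.card ≤ rho * 32 := by linarith
        exact Nat.le_of_mul_le_mul_left h3 hrho
      · simp [mul_comm]
    have hsub : (Finset.range K ×ˢ Finset.range K).filter
        (fun ab => ab.1 ≠ ab.2 ∧
          Bad R M0 M1 m rho Ms Ms1 ((T + 16 * 2^ab.1 * Sg - 16 * 2^ab.2 * Sg) / Mp))
        ⊆ A1 ∪ A2 ∪ A3 ∪ A4 := by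
      intro ab hab
      rw [Finset.mem_filter] at hab
      obtain ⟨hm, hne, hbad⟩ := hab
      have hpr : ab ∈ Pr := by
        rw [hPr, Finset.mem_filter]; exact ⟨hm, hne⟩
      have hRM0 : 0 < R * M0 := Nat.mul_pos hR' hM0'
      have hRM1 : 0 < R * M1 := Nat.mul_pos hR' hM1'
      rcases hbad with hb | hb | ⟨l, hl, hb⟩
      · apply Finset.mem_union_left
        apply Finset.mem_union_left
        apply Finset.mem_union_left
        exact Finset.mem_filter.2 ⟨hpr, nr_near hMp' hRM0 hb⟩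
      · obtain ⟨k, hk, hkd⟩ := hb
        apply Finset.mem_union_left
        apply Finset.mem_union_left
        apply Finset.mem_union_right
        exact Finset.mem_biUnion.2 ⟨k, hk, Finset.mem_filter.2 ⟨hpr, nr_dvd hMp' hkd⟩⟩
      · have hX : 0 < Mp * PP R M0 M1 l := Nat.mul_pos hMp' (PP_pos hR' hM0' hM1' l)
        rw [Nat.div_div_eq_div_mul] at hb
        rcases hb with hb | hb
        · apply Finset.mem_union_left
          apply Finset.mem_union_right
          exact Finset.mem_biUnion.2 ⟨l, Finset.mem_range.2 hl,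
            Finset.mem_filter.2 ⟨hpr, nr_near hX hRM1 hb⟩⟩
        · apply Finset.mem_union_right
          refine Finset.mem_biUnion.2 ⟨l, Finset.mem_range.2 hl,
            Finset.mem_filter.2 ⟨hpr, le_trans hb (Finset.card_le_card ?_)⟩⟩
          intro k hk
          rw [Finset.mem_filter] at hk ⊢
          exact ⟨hk.1, nr_dvd hX hk.2⟩
    refine le_trans (Finset.card_le_card hsub) ?_
    refine le_trans (Finset.card_union_le _ _) ?_
    have u1 := Finset.card_union_le (A1 ∪ A2) A3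
    have u2 := Finset.card_union_le A1 A2
    omega

end Crest.Agent.R320.Spoil_365
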