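import Crest.Agent.R320.Inst_374

/-!
# R320 / Spoil_374: the number of spoiled places (natural chain rule)
-/

set_option autoImplicit false

namespace Crest.Agent.R320.Inst_374

open Finset

open Classical in
theorem spoil_aux (K : ℕ) (c : ℕ → ℕ) (z N1 Lam W p0 C0 : ℕ) (BadT : ℕ → Prop) (w : ℕ → Prop)
    (hc : ∀ k < K, c k ≤ Lam) (hgap : ∀ t1 t2, w t1 → w t2 → t1 < t2 → t1 + W < t2)
    (hW : 2 * (N1 + Lam) ≤ W) (hz : p0 ≤ z)
    (r2 : ∀ a b a2 b2, a < K → b < K → a2 < K → b2 < K → a ≠ b → a2 ≠ b2 →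
      |((c a : ℤ) - c b) - ((c a2 : ℤ) - c b2)| ≤ 2 * (N1 : ℤ) → a = a2 ∧ b = b2)
    (r3 : ∀ T : ℤ, ((range K ×ˢ range K).filter (fun p => p.1 ≠ p.2 ∧ ∃ n : ℕ,
      (n : ℤ) = T - ((c p.1 : ℤ) - c p.2) ∧ BadT n)).card ≤ C0) :
    ∃ Sp : Finset ℕ, Sp.card ≤ 1 + 2 * C0 ∧ ∀ k < K, ∀ k' < K, k' ≠ k →
      ((∃ t, w t ∧ z + c k ≤ t + N1 + c k' ∧ t + c k' < z + N1 + c k) ∨
      (∃ t, w t ∧ z + c k ≤ t + c k' ∧ (∀ t1 < t, w t1 → t1 + c k' < z + c k) ∧
        BadT (t + c k' - c k - p0))) → k ∈ Sp := by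
  let SpE : Finset ℕ := (range K).filter fun k => ∃ k' < K, k' ≠ k ∧
    ∃ t, w t ∧ z + c k ≤ t + N1 + c k' ∧ t + c k' < z + N1 + c k
  let F : ℤ → Finset ℕ := fun T => ((range K ×ˢ range K).filter (fun p => p.1 ≠ p.2 ∧ ∃ n : ℕ,
      (n : ℤ) = T - ((c p.1 : ℤ) - c p.2) ∧ BadT n)).image Prod.fst
  have hF : ∀ T, (F T).card ≤ C0 := fun T => Finset.card_image_le.trans (r3 T)
  have hE : SpE.card ≤ 1 := by
    rw [Finset.card_le_one]
    intro a ha b hb
    obtain ⟨haK, a', ha'K, haa, t, ht1, ht2, ht3⟩ := by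
      simpa only [SpE, mem_filter, mem_range] using ha
    obtain ⟨hbK, b', hb'K, hbb, s, hs1, hs2, hs3⟩ := by
      simpa only [SpE, mem_filter, mem_range] using hb
    have e1 := hc a haK
    have e2 := hc a' ha'K
    have e3 := hc b hbK
    have e4 := hc b' hb'K
    have hts : t = s := by
      rcases lt_trichotomy t s with h | h | h
      · have := hgap t s ht1 hs1 h
        omega
      · exact h
      · have := hgap s t hs1 ht1 h
        omega
    subst hts
    refine (r2 a a' b b' haK ha'K hbK hb'K haa.symm hbb.symm ?_).1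
    rw [abs_le]
    constructor <;> omega
  by_cases h1 : ∃ t, w t ∧ z ≤ t + Lam
  · let t1 := Nat.find h1
    obtain ⟨ht1, ht1'⟩ := Nat.find_spec h1
    have ht1m : ∀ t, w t → z ≤ t + Lam → t1 ≤ t := fun t h2 h3 => Nat.find_min' h1 ⟨h2, h3⟩
    by_cases h2 : ∃ t, w t ∧ t1 < t
    · let t2 := Nat.find h2
      obtain ⟨ht2, ht2'⟩ := Nat.find_spec h2
      have ht2m : ∀ t, w t → t1 < t → t2 ≤ t := fun t h3 h4 => Nat.find_min' h2 ⟨h3, h4⟩
      refine ⟨SpE ∪ (F ((t1 : ℤ) - p0) ∪ F ((t2 : ℤ) - p0)), ?_, ?_⟩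
      · have := hF ((t1 : ℤ) - p0)
        have := hF ((t2 : ℤ) - p0)
        have a1 := Finset.card_union_le SpE (F ((t1 : ℤ) - p0) ∪ F ((t2 : ℤ) - p0))
        have a2 := Finset.card_union_le (F ((t1 : ℤ) - p0)) (F ((t2 : ℤ) - p0))
        omega
      · intro k hk k' hk' hkk hh
        have e1 := hc k hk
        have e2 := hc k' hk'
        rcases hh with h | ⟨t, hw1, hw2, hw3, hw4⟩
        · exact mem_union_left _ (mem_filter.2 ⟨mem_range.2 hk, k', hk', hkk, h⟩)
        · refine mem_union_right _ ?_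
          have htt : t1 ≤ t := ht1m t hw1 (by omega)
          have hmem : ∀ T : ℕ, T = t → k ∈ F ((T : ℤ) - p0) := by
            intro T hT
            subst hT
            refine mem_image.2 ⟨(k, k'), mem_filter.2 ⟨?_, hkk.symm, _, ?_, hw4⟩, rfl⟩
            · exact mem_product.2 ⟨mem_range.2 hk, mem_range.2 hk'⟩
            · simp only
              omega
          rcases Nat.eq_or_lt_of_le htt with h | h
          · exact mem_union_left _ (hmem t1 h)
          · refine mem_union_right _ (hmem t2 ?_)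
            have h3 := ht2m t hw1 h
            by_contra hne
            have h4 : t2 < t := by omega
            have h5 := hw3 t2 h4 ht2
            have h6 : t1 + W < t2 := hgap t1 t2 ht1 ht2 ht2'
            have h7 : z ≤ t1 + Lam := ht1'
            omega
    · refine ⟨SpE ∪ F ((t1 : ℤ) - p0), ?_, ?_⟩
      · have := hF ((t1 : ℤ) - p0)
        have a1 := Finset.card_union_le SpE (F ((t1 : ℤ) - p0))
        omega
      · intro k hk k' hk' hkk hh
        have e1 := hc k hk
        have e2 := hc k' hk'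
        rcases hh with h | ⟨t, hw1, hw2, hw3, hw4⟩
        · exact mem_union_left _ (mem_filter.2 ⟨mem_range.2 hk, k', hk', hkk, h⟩)
        · refine mem_union_right _ ?_
          have htt : t1 ≤ t := ht1m t hw1 (by omega)
          have hte : t = t1 := by
            by_contra hne
            exact h2 ⟨t, hw1, by omega⟩
          subst hte
          refine mem_image.2 ⟨(k, k'), mem_filter.2 ⟨?_, hkk.symm, _, ?_, hw4⟩, rfl⟩
          · exact mem_product.2 ⟨mem_range.2 hk, mem_range.2 hk'⟩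
          · simp only
            omega
  · refine ⟨SpE, by omega, ?_⟩
    intro k hk k' hk' hkk hh
    have e1 := hc k hk
    have e2 := hc k' hk'
    rcases hh with h | ⟨t, hw1, hw2, hw3, hw4⟩
    · exact mem_filter.2 ⟨mem_range.2 hk, k', hk', hkk, h⟩
    · exact absurd ⟨t, hw1, by omega⟩ h1

end Crest.Agent.R320.Inst_374
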