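import Mathlib

/-!
Row 320, TEAM U (638 #13273), leaf U4: at most `2 + r + 34 m` pairs of the ruler are spoiled.
-/

set_option autoImplicit false

namespace Crest.Agent.R320.Spoil_38

open Finset

def PP (R M0 M1 l : ℕ) : ℕ := (R*M0) * (R*M1)^l

def Bad (R M0 M1 m rho : ℕ) (Ms Ms1 : Finset ℕ) (n : ℕ) : Prop :=
  (n % (R*M0) < M0 ∨ R*M0 ≤ n % (R*M0) + M0) ∨ (∃ k ∈ Ms, k ∣ n) ∨
  ∃ l < m, ((n / PP R M0 M1 l) % (R*M1) < M1 ∨ R*M1 ≤ (n / PP R M0 M1 l) % (R*M1) + M1) ∨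
    rho ≤ (Ms1.filter (· ∣ n / PP R M0 M1 l)).card

theorem pow4 {a b c d : ℕ} (h : 2^a + 2^d = 2^c + 2^b) :
    (a = c ∧ b = d) ∨ (a = b ∧ c = d) := by
  have key : ∀ x y : ℕ, x < y → 2 * 2^x ≤ 2^y := fun x y hxy => by
    calc 2 * 2^x = 2^(x+1) := by ring
      _ ≤ 2^y := Nat.pow_le_pow_right (by norm_num) hxy
  have inj : ∀ x y : ℕ, 2^x = 2^y → x = y := fun x y hxy => Nat.pow_right_injective (le_refl 2) hxy
  have tri : ∀ x y : ℕ, x ≠ y → (x < y ∧ 2 * 2^x ≤ 2^y) ∨ (y < x ∧ 2 * 2^y ≤ 2^x) := by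
    intro x y hne
    rcases Nat.lt_or_gt_of_ne hne with h1 | h1
    · exact Or.inl ⟨h1, key _ _ h1⟩
    · exact Or.inr ⟨h1, key _ _ h1⟩
  by_cases e1 : a = c
  · left; refine ⟨e1, ?_⟩
    rw [e1] at h
    exact (inj d b (by omega)).symm
  · by_cases e2 : a = b
    · right; refine ⟨e2, ?_⟩
      rw [e2] at h
      exact (inj d c (by omega)).symm
    · exfalso
      have e3 : d ≠ c := fun hh => e2 (inj a b (by rw [hh] at h; omega))
      have e4 : d ≠ b := fun hh => e1 (inj a c (by rw [hh] at h; omega))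
      have t1 := tri a c e1
      have t2 := tri a b e2
      have t3 := tri d c e3
      have t4 := tri d b e4
      have pa : 0 < 2^a := by positivity
      have pb : 0 < 2^b := by positivity
      have pc : 0 < 2^c := by positivity
      have pd : 0 < 2^d := by positivity
      generalize 2^a = A at *
      generalize 2^b = B at *
      generalize 2^c = C at *
      generalize 2^d = D at *
      rcases t1 with t1 | t1 <;> rcases t2 with t2 | t2 <;> rcases t3 with t3 | t3 <;>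
        rcases t4 with t4 | t4 <;> omega

theorem far {K : ℕ} {s e P hh N t t' z z' : ℤ} (hs : 0 < s) (he0 : 0 ≤ e) (hes : e ≤ s)
    (hP : 2^(K+9) * s ≤ P) (hN : N ≠ 0) (hN' : |N| ≤ 2^(K+1))
    (hd : t - t' = 16 * N * (s + e + P*hh))
    (hz : |t - z*P| ≤ 2*s) (hz' : |t' - z'*P| ≤ 2*s) : False := by
  have hpow : (2:ℤ)^(K+9) = 256 * 2^(K+1) := by
    rw [show K + 9 = (K+1) + 8 by ring, pow_add]; norm_num; ring
  have hp1 : (1:ℤ) ≤ 2^(K+1) := one_le_pow₀ (by norm_num)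
  have hN1 : 1 ≤ |N| := Int.one_le_abs hN
  set y : ℤ := z - z' - 16*N*hh with hy
  have h1 : |16*N*(s+e) - y*P| ≤ 4*s := by
    have : 16*N*(s+e) - y*P = (t - z*P) - (t' - z'*P) := by
      rw [hy]; linear_combination (-1)*hd
    rw [this]
    calc |(t - z*P) - (t' - z'*P)| ≤ |t - z*P| + |t' - z'*P| := abs_sub _ _
      _ ≤ 4*s := by linarith
  have hW : |16*N*(s+e)| = 16 * |N| * (s+e) := by
    rw [abs_mul, abs_mul, abs_of_nonneg (show (0:ℤ) ≤ s+e by linarith)]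
    norm_num
  by_cases hy0 : y = 0
  · rw [hy0, zero_mul, sub_zero, hW] at h1
    nlinarith
  · have hy1 : 1 ≤ |y| := Int.one_le_abs hy0
    have hP0 : 0 < P := lt_of_lt_of_le (by positivity) hP
    have h2 : |y*P| = |y| * P := by rw [abs_mul, abs_of_pos hP0]
    have h3 : P ≤ |y*P| := by rw [h2]; nlinarith
    have h4 : |y*P| ≤ |16*N*(s+e)| + 4*s := by
      have := abs_sub_abs_le_abs_sub (y*P) (16*N*(s+e))
      rw [abs_sub_comm] at this
      linarith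
    rw [hW] at h4
    have h5 : 16 * |N| * (s+e) ≤ 16*2^(K+1)*(2*s) := by
      have a1 : s + e ≤ 2*s := by linarith
      have a2 : 0 ≤ s + e := by linarith
      have a3 : |N| * (s+e) ≤ 2^(K+1)*(2*s) := mul_le_mul hN' a1 a2 (by positivity)
      linarith
    have h6 : 256 * 2^(K+1) * s ≤ 32*2^(K+1)*s + 4*s := by
      rw [hpow] at hP
      linarith
    nlinarith

/-- `t` within `2 s` of a multiple of `P` -/
def near (P s : ℕ) (t : ℕ) : Prop := ∃ z : ℤ, |(t:ℤ) - z*(P:ℤ)| ≤ 2*(s:ℤ)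

theorem nearA (u R M t : ℕ) (hu : 0 < u) (hR : 0 < R) (hM : 0 < M)
    (h : (t/u)%(R*M) < M ∨ R*M ≤ (t/u)%(R*M)+M) : near (u*(R*M)) (u*M) t := by
  have hRM : 0 < R*M := Nat.mul_pos hR hM
  have e1 := Nat.div_add_mod t u
  have e2 := Nat.div_add_mod (t/u) (R*M)
  have l1 := Nat.mod_lt t hu
  have l2 := Nat.mod_lt (t/u) hRM
  generalize t / u = n at *
  generalize t % u = ρ at *
  generalize n % (R*M) = r at *
  generalize n / (R*M) = q at *
  have e3 : (t:ℤ) = u*((R*M)*q + r) + ρ := by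
    rw [← e1, ← e2]; push_cast; ring
  rcases h with h | h
  · refine ⟨q, ?_⟩
    have : (t:ℤ) - q*((u*(R*M) : ℕ):ℤ) = ((u*r + ρ : ℕ) : ℤ) := by
      rw [e3]; push_cast; ring
    rw [this, abs_of_nonneg (Int.natCast_nonneg _)]
    have h1 : u*r + ρ ≤ 2*(u*M) := by
      have a1 : u * (r+1) ≤ u * M := Nat.mul_le_mul_left u h
      have a2 : u * 1 ≤ u * M := Nat.mul_le_mul_left u hM
      nlinarith
    exact_mod_cast h1
  · refine ⟨q+1, ?_⟩
    obtain ⟨c, hc⟩ : ∃ c, R*M = r + c := ⟨R*M - r, by omega⟩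
    have hcM : c ≤ M := by omega
    have hc0 : 1 ≤ c := by omega
    have e4 : ((R:ℤ)*M) = r + c := by exact_mod_cast hc
    have : (t:ℤ) - (q+1)*((u*(R*M) : ℕ):ℤ) = -((u*c : ℕ):ℤ) + ρ := by
      rw [e3]; push_cast; linear_combination (u:ℤ) * (-1) * e4
    rw [this, abs_le]
    have a1 : u * c ≤ u * M := Nat.mul_le_mul_left u hcM
    have a2 : u * 1 ≤ u * c := Nat.mul_le_mul_left u hc0
    have a3 : ((u*c : ℕ):ℤ) ≤ ((u*M : ℕ):ℤ) := by exact_mod_cast a1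
    have a4 : ((u:ℕ):ℤ) ≤ ((u*c : ℕ):ℤ) := by
      have : u ≤ u*c := by omega
      exact_mod_cast this
    have a5 : (ρ:ℤ) < u := by exact_mod_cast l1
    have a6 : (0:ℤ) ≤ ρ := Int.natCast_nonneg _
    have a7 : (0:ℤ) ≤ ((u*M : ℕ):ℤ) := Int.natCast_nonneg _
    constructor <;> linarith

theorem nearB (u k t : ℕ) (hu : 0 < u) (h : k ∣ t/u) : near (u*k) u t := by
  obtain ⟨q, hq⟩ := h
  have e1 := Nat.div_add_mod t u
  have l1 := Nat.mod_lt t hu
  rw [hq] at e1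
  refine ⟨q, ?_⟩
  have : (t:ℤ) - q*((u*k : ℕ):ℤ) = ((t % u : ℕ):ℤ) := by
    have : (t:ℤ) = u*(k*q) + ((t%u : ℕ):ℤ) := by exact_mod_cast e1.symm
    rw [this]; push_cast; ring
  rw [this, abs_of_nonneg (Int.natCast_nonneg _)]
  have : t % u ≤ 2*u := by omega
  exact_mod_cast this

/-- ruler times -/
def tt (Sg T : ℕ) (p : ℕ × ℕ) : ℕ := T + 16*2^p.1*Sg - 16*2^p.2*Sg

theorem one {K s e P hh Sg T : ℕ} (hs : 0 < s) (hes : e ≤ s) (hP : 2^(K+9)*s ≤ P)
    (hSg : Sg = s + e + P*hh) (hT : 16*2^K*Sg ≤ T) (F : Finset (ℕ × ℕ))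
    (hF : ∀ p ∈ F, p.1 < K ∧ p.2 < K ∧ p.1 ≠ p.2 ∧ near P s (tt Sg T p)) : F.card ≤ 1 := by
  rw [Finset.card_le_one]
  intro p hp q hq
  by_contra hne
  obtain ⟨p1, p2, p3, z, hz⟩ := hF p hp
  obtain ⟨q1, q2, q3, z', hz'⟩ := hF q hq
  have cast : ∀ x : ℕ × ℕ, x.2 < K →
      ((tt Sg T x : ℕ):ℤ) = T + 16*(2^x.1 - 2^x.2)*Sg := by
    intro x hx
    have h1 : 16*2^x.2*Sg ≤ T := by
      refine le_trans ?_ hT
      have : 2^x.2 ≤ 2^K := Nat.pow_le_pow_right (by norm_num) hx.le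
      exact Nat.mul_le_mul_right _ (Nat.mul_le_mul_left _ this)
    have h2 : 16*2^x.2*Sg ≤ T + 16*2^x.1*Sg := le_trans h1 (Nat.le_add_right _ _)
    unfold tt
    rw [Nat.cast_sub h2]
    push_cast; ring
  rw [cast p p2] at hz
  rw [cast q q2] at hz'
  have hN : ((2:ℤ)^p.1 - 2^p.2) - (2^q.1 - 2^q.2) ≠ 0 := by
    intro h0
    have h1 : 2^p.1 + 2^q.2 = 2^q.1 + 2^p.2 := by
      have : (2:ℤ)^p.1 + 2^q.2 = 2^q.1 + 2^p.2 := by linarith
      exact_mod_cast this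
    rcases pow4 h1 with ⟨h2, h3⟩ | ⟨h2, h3⟩
    · exact hne (Prod.ext h2 h3)
    · exact p3 h2
  have hpw : ∀ x, x < K → (2:ℤ)^x ≤ 2^K := fun x hx =>
    pow_le_pow_right₀ (by norm_num) hx.le
  have hp0 : ∀ x : ℕ, (0:ℤ) < 2^x := fun x => by positivity
  have hN' : |((2:ℤ)^p.1 - 2^p.2) - (2^q.1 - 2^q.2)| ≤ 2^(K+1) := by
    rw [pow_succ, abs_le]
    have a1 := hpw _ p1
    have a2 := hpw _ p2
    have a3 := hpw _ q1
    have a4 := hpw _ q2
    have b1 := hp0 p.1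
    have b2 := hp0 p.2
    have b3 := hp0 q.1
    have b4 := hp0 q.2
    constructor <;> linarith
  have hSg' : (Sg:ℤ) = s + e + P*hh := by exact_mod_cast hSg
  refine far (K := K) (s := (s:ℤ)) (e := (e:ℤ)) (P := (P:ℤ)) (hh := (hh:ℤ))
    (N := ((2:ℤ)^p.1 - 2^p.2) - (2^q.1 - 2^q.2)) (by exact_mod_cast hs)
    (Int.natCast_nonneg _) (by exact_mod_cast hes) (by exact_mod_cast hP) hN hN' ?_ hz hz'
  rw [hSg']
  ring

theorem double {ι : Type*} (F : Finset ι) (M : Finset ℕ) (rho : ℕ) (hr : 0 < rho) (d : ι → ℕ)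
    (h : ∀ p ∈ F, rho ≤ (M.filter (· ∣ d p)).card)
    (h1 : ∀ k ∈ M, (F.filter (fun p => k ∣ d p)).card ≤ 1)
    (hM : M.card ≤ 32*rho) : F.card ≤ 32 := by
  have key : F.card * rho ≤ M.card := by
    calc F.card * rho = ∑ _p ∈ F, rho := by simp
      _ ≤ ∑ p ∈ F, (M.filter (· ∣ d p)).card := Finset.sum_le_sum h
      _ = ∑ k ∈ M, (F.filter (fun p => k ∣ d p)).card := by
          simp only [Finset.card_filter]
          exact Finset.sum_comm
      _ ≤ ∑ _k ∈ M, 1 := Finset.sum_le_sum h1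
      _ = M.card := by simp
  have : F.card * rho ≤ 32 * rho := le_trans key hM
  exact Nat.le_of_mul_le_mul_right this hr

/-- scales -/
def ff (Mp R M0 M1 l : ℕ) : ℕ := Mp*PP R M0 M1 l + Mp*PP R M0 M1 l*M1

def SS (Mp R M0 M1 m : ℕ) : ℕ := 1 + Mp + Mp*M0 + ∑ l ∈ range m, ff Mp R M0 M1 l

theorem SS_succ (Mp R M0 M1 m : ℕ) : SS Mp R M0 M1 (m+1) = SS Mp R M0 M1 m + ff Mp R M0 M1 m := by
  unfold SS; rw [Finset.sum_range_succ]; ring

theorem PP_add (R M0 M1 l d : ℕ) : PP R M0 M1 (l+1+d) = PP R M0 M1 l * (R*M1) * (R*M1)^d := by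
  unfold PP; rw [pow_add, pow_succ]; ring

theorem split (Mp R M0 M1 l : ℕ) : ∀ m, l < m → ∃ hh, SS Mp R M0 M1 m =
    SS Mp R M0 M1 l + ff Mp R M0 M1 l + (Mp*PP R M0 M1 l*(R*M1))*hh := by
  intro m
  induction m with
  | zero => intro h; omega
  | succ m ih =>
    intro h
    rcases Nat.lt_succ_iff_lt_or_eq.1 h with h' | rfl
    · obtain ⟨hh, e⟩ := ih h'
      obtain ⟨d, rfl⟩ : ∃ d, m = l+1+d := ⟨m - (l+1), by omega⟩
      refine ⟨hh + (R*M1)^d * (1 + M1), ?_⟩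
      rw [SS_succ, e]
      have e2 : ff Mp R M0 M1 (l+1+d) = (Mp*PP R M0 M1 l*(R*M1)) * ((R*M1)^d * (1+M1)) := by
        unfold ff; rw [PP_add]; ring
      rw [e2]; ring
    · exact ⟨0, by rw [SS_succ]; ring⟩

theorem SS_le (Mp R M0 M1 : ℕ) (hMp : 1 ≤ Mp) (hR : 3 ≤ R) (h0 : 1 ≤ M0) (h1 : 1 ≤ M1) :
    ∀ l, SS Mp R M0 M1 l ≤ Mp * PP R M0 M1 l := by
  intro l
  induction l with
  | zero =>
    unfold SS PP
    simp only [Finset.range_zero, Finset.sum_empty, pow_zero, mul_one, add_zero]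
    have a1 : 1 ≤ Mp*M0 := Nat.mul_pos hMp h0
    have a2 : Mp ≤ Mp*M0 := Nat.le_mul_of_pos_right _ h0
    have a3 : 3*(Mp*M0) ≤ R*(Mp*M0) := Nat.mul_le_mul_right _ hR
    have a4 : Mp*(R*M0) = R*(Mp*M0) := by ring
    omega
  | succ l ih =>
    rw [SS_succ]
    have e : PP R M0 M1 (l+1) = PP R M0 M1 l * (R*M1) := by
      have := PP_add R M0 M1 l 0
      simpa using this
    rw [e]
    unfold ff
    generalize PP R M0 M1 l = X at *
    have a1 : Mp*X ≤ Mp*X*M1 := Nat.le_mul_of_pos_right _ h1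
    have a2 : 3*(Mp*X*M1) ≤ R*(Mp*X*M1) := Nat.mul_le_mul_right _ hR
    have a3 : Mp*(X*(R*M1)) = R*(Mp*X*M1) := by ring
    omega

open Classical in
theorem spoil (m r K Mp R M0 M1 rho : ℕ) (Ms Ms1 : Finset ℕ) (hMp : 2^(K+10) ≤ Mp)
    (hR : 2^(K+10) ≤ R) (h0 : 2^(K+10) ≤ M0) (h1 : 2^(K+10) ≤ M1)
    (hMs : ∀ k ∈ Ms, 2^(K+10) ≤ k ∧ k ∣ M0) (hMs1 : ∀ k ∈ Ms1, 2^(K+10) ≤ k ∧ k ∣ M1)
    (hc : Ms.card ≤ r) (hc1 : Ms1.card ≤ 32*rho) (hrho : 0 < rho) :
    ∃ (x : ℕ → ℕ) (T0 : ℕ),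
      (∀ a b c d, a < K → b < K → c < K → d < K →
        (Mp:ℤ) ∣ ((x a:ℤ) - x b) - (x c - x d) → (a = c ∧ b = d) ∨ (a = b ∧ c = d)) ∧
      ∀ T, T0 ≤ T → (((Finset.range K ×ˢ Finset.range K).filter (fun ab => ab.1 ≠ ab.2 ∧
        Bad R M0 M1 m rho Ms Ms1 ((T + x ab.1 - x ab.2) / Mp))).card ≤ 2 + r + 34*m) := by
  classical
  have hbig : 1024 ≤ 2^(K+10) := by
    have : 2^10 ≤ 2^(K+10) := Nat.pow_le_pow_right (by norm_num) (by omega)
    simpa using this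
  have h910 : 2^(K+10) = 2 * 2^(K+9) := by rw [show K+10 = (K+9)+1 by ring, pow_succ]; ring
  set Sg := SS Mp R M0 M1 m with hSg
  refine ⟨fun a => 16*2^a*Sg, 16*2^K*Sg, ?_, ?_⟩
  · intro a b c d ha hb hcK hd hdvd
    have e : (((16*2^a*Sg : ℕ):ℤ) - ((16*2^b*Sg : ℕ):ℤ)) - (((16*2^c*Sg : ℕ):ℤ) - ((16*2^d*Sg : ℕ):ℤ))
        = 16*(2^a - 2^b - 2^c + 2^d) * (Sg:ℤ) := by push_cast; ring
    simp only at hdvd
    rw [e] at hdvd
    obtain ⟨hh, hS⟩ : ∃ hh : ℕ, Sg = 1 + Mp * hh := by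
      refine ⟨1 + M0 + ∑ l ∈ range m, (PP R M0 M1 l + PP R M0 M1 l * M1), ?_⟩
      rw [hSg]; unfold SS ff
      rw [mul_add, mul_add, Finset.mul_sum]
      simp only [mul_one, mul_add, mul_assoc]
      ring
    have hS' : (Sg:ℤ) = 1 + Mp*hh := by exact_mod_cast hS
    rw [hS'] at hdvd
    have hdvd2 : (Mp:ℤ) ∣ 16*(2^a - 2^b - 2^c + 2^d) := by
      have : (16*(2^a - 2^b - 2^c + 2^d) : ℤ) =
        16*(2^a - 2^b - 2^c + 2^d) * (1 + Mp*hh) - Mp*(16*(2^a - 2^b - 2^c + 2^d)*hh) := by ring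
      rw [this]
      exact dvd_sub hdvd (dvd_mul_right _ _)
    have hz : (16*(2^a - 2^b - 2^c + 2^d) : ℤ) = 0 := by
      refine Int.eq_zero_of_abs_lt_dvd hdvd2 ?_
      have hpw : ∀ x, x < K → (2:ℤ)^x ≤ 2^K := fun x hx => pow_le_pow_right₀ (by norm_num) hx.le
      have hp0 : ∀ x : ℕ, (0:ℤ) < 2^x := fun x => by positivity
      have a1 := hpw _ ha
      have a2 := hpw _ hb
      have a3 := hpw _ hcK
      have a4 := hpw _ hd
      have b1 := hp0 a
      have b2 := hp0 b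
      have b3 := hp0 c
      have b4 := hp0 d
      have hM : ((2:ℤ)^(K+10)) ≤ Mp := by exact_mod_cast hMp
      have hM2 : ((2:ℤ)^(K+10)) = 1024 * 2^K := by rw [pow_add]; norm_num; ring
      have b5 := hp0 K
      rw [abs_lt]
      constructor <;> linarith
    have : (2:ℤ)^a + 2^d = 2^c + 2^b := by linarith
    exact pow4 (by exact_mod_cast this)
  · intro T hT
    have hMp0 : 0 < Mp := by omega
    have hR0 : 0 < R := by omega
    have h00 : 0 < M0 := by omega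
    have h10 : 0 < M1 := by omega
    have hPP : ∀ l, 0 < PP R M0 M1 l := fun l => by unfold PP; positivity
    set base := (Finset.range K ×ˢ Finset.range K).filter (fun ab : ℕ × ℕ => ab.1 ≠ ab.2) with hbase
    have hb : ∀ p ∈ base, p.1 < K ∧ p.2 < K ∧ p.1 ≠ p.2 := by
      intro p hp
      simp only [hbase, Finset.mem_filter, Finset.mem_product, Finset.mem_range] at hp
      exact ⟨hp.1.1, hp.1.2, hp.2⟩
    let n : ℕ × ℕ → ℕ := fun p => tt Sg T p / Mp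
    -- type 0
    let F0 := base.filter (fun p => n p % (R*M0) < M0 ∨ R*M0 ≤ n p % (R*M0) + M0)
    have hF0 : F0.card ≤ 1 := by
      refine one (K := K) (s := Mp*M0) (e := 1+Mp) (P := Mp*(R*M0))
        (hh := ∑ l ∈ range m, ((R*M1)^l + (R*M1)^l*M1)) (Nat.mul_pos hMp0 h00) ?_ ?_ ?_ hT F0 ?_
      · have : Mp*2 ≤ Mp*M0 := Nat.mul_le_mul_left _ (by omega)
        omega
      · have : 2^(K+9) * (Mp*M0) ≤ R*(Mp*M0) := Nat.mul_le_mul_right _ (by omega)
        calc 2^(K+9) * (Mp*M0) ≤ R*(Mp*M0) := this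
          _ = Mp*(R*M0) := by ring
      · rw [hSg]; unfold SS ff PP
        rw [Finset.mul_sum]
        have : ∀ l, Mp*((R*M0)*(R*M1)^l) + Mp*((R*M0)*(R*M1)^l)*M1 =
          Mp*(R*M0)*((R*M1)^l + (R*M1)^l*M1) := fun l => by ring
        simp only [this]
        ring
      · intro p hp
        simp only [F0, Finset.mem_filter] at hp
        obtain ⟨q1, q2, q3⟩ := hb p hp.1
        exact ⟨q1, q2, q3, nearA Mp R M0 _ hMp0 hR0 h00 hp.2⟩
    -- type Ms
    let F1 : ℕ → Finset (ℕ × ℕ) := fun k => base.filter (fun p => k ∣ n p)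
    have hF1 : ∀ k ∈ Ms, (F1 k).card ≤ 1 := by
      intro k hk
      obtain ⟨hk1, c, hk2⟩ := hMs k hk
      refine one (K := K) (s := Mp) (e := 1) (P := Mp*k)
        (hh := c + ∑ l ∈ range m, (R*c*(R*M1)^l + R*c*(R*M1)^l*M1)) hMp0 (by omega) ?_ ?_ hT (F1 k) ?_
      · have : 2^(K+9) * Mp ≤ k*Mp := Nat.mul_le_mul_right _ (by omega)
        calc 2^(K+9) * Mp ≤ k*Mp := this
          _ = Mp*k := by ring
      · rw [hSg]; unfold SS ff PP
        rw [mul_add, Finset.mul_sum]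
        have : ∀ l, Mp*((R*M0)*(R*M1)^l) + Mp*((R*M0)*(R*M1)^l)*M1 =
          Mp*k*(R*c*(R*M1)^l + R*c*(R*M1)^l*M1) := fun l => by rw [hk2]; ring
        simp only [this]
        rw [hk2]
        ring
      · intro p hp
        simp only [F1, Finset.mem_filter] at hp
        obtain ⟨q1, q2, q3⟩ := hb p hp.1
        exact ⟨q1, q2, q3, nearB Mp k _ hMp0 hp.2⟩
    -- levels
    have hdiv : ∀ l p, n p / PP R M0 M1 l = tt Sg T p / (Mp * PP R M0 M1 l) := fun l p =>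
      Nat.div_div_eq_div_mul _ _ _
    let F2 : ℕ → Finset (ℕ × ℕ) := fun l => base.filter (fun p =>
      (n p / PP R M0 M1 l) % (R*M1) < M1 ∨ R*M1 ≤ (n p / PP R M0 M1 l) % (R*M1) + M1)
    have hF2 : ∀ l < m, (F2 l).card ≤ 1 := by
      intro l hl
      obtain ⟨hh, hsp⟩ := split Mp R M0 M1 l m hl
      have hle := SS_le Mp R M0 M1 hMp0 (by omega) h00 h10 l
      have hu : 0 < Mp * PP R M0 M1 l := Nat.mul_pos hMp0 (hPP l)
      refine one (K := K) (s := Mp*PP R M0 M1 l*M1) (e := SS Mp R M0 M1 l + Mp*PP R M0 M1 l)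
        (P := Mp*PP R M0 M1 l*(R*M1)) (hh := hh) (Nat.mul_pos hu h10) ?_ ?_ ?_ hT (F2 l) ?_
      · have : (Mp*PP R M0 M1 l)*2 ≤ (Mp*PP R M0 M1 l)*M1 := Nat.mul_le_mul_left _ (by omega)
        omega
      · have : 2^(K+9) * (Mp*PP R M0 M1 l*M1) ≤ R*(Mp*PP R M0 M1 l*M1) :=
          Nat.mul_le_mul_right _ (by omega)
        calc 2^(K+9) * (Mp*PP R M0 M1 l*M1) ≤ R*(Mp*PP R M0 M1 l*M1) := this
          _ = Mp*PP R M0 M1 l*(R*M1) := by ring
      · rw [hSg, hsp]; unfold ff; ring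
      · intro p hp
        simp only [F2, Finset.mem_filter] at hp
        obtain ⟨q1, q2, q3⟩ := hb p hp.1
        refine ⟨q1, q2, q3, nearA _ R M1 _ hu hR0 h10 ?_⟩
        rw [← hdiv]; exact hp.2
    let F3 : ℕ → Finset (ℕ × ℕ) := fun l => base.filter (fun p =>
      rho ≤ (Ms1.filter (· ∣ n p / PP R M0 M1 l)).card)
    have hF3 : ∀ l < m, (F3 l).card ≤ 32 := by
      intro l hl
      obtain ⟨hh, hsp⟩ := split Mp R M0 M1 l m hl
      have hle := SS_le Mp R M0 M1 hMp0 (by omega) h00 h10 l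
      have hu : 0 < Mp * PP R M0 M1 l := Nat.mul_pos hMp0 (hPP l)
      refine double (F3 l) Ms1 rho hrho (fun p => n p / PP R M0 M1 l) ?_ ?_ hc1
      · intro p hp
        simp only [F3, Finset.mem_filter] at hp
        exact hp.2
      · intro k hk
        obtain ⟨hk1, c, hk2⟩ := hMs1 k hk
        refine one (K := K) (s := Mp*PP R M0 M1 l) (e := SS Mp R M0 M1 l)
          (P := Mp*PP R M0 M1 l*k) (hh := c + R*c*hh) hu hle ?_ ?_ hT _ ?_
        · have : 2^(K+9) * (Mp*PP R M0 M1 l) ≤ k*(Mp*PP R M0 M1 l) :=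
            Nat.mul_le_mul_right _ (by omega)
          calc 2^(K+9) * (Mp*PP R M0 M1 l) ≤ k*(Mp*PP R M0 M1 l) := this
            _ = Mp*PP R M0 M1 l*k := by ring
        · rw [hSg, hsp]; unfold ff; rw [hk2]; ring
        · intro p hp
          simp only [F3, Finset.mem_filter] at hp
          obtain ⟨q1, q2, q3⟩ := hb p hp.1.1
          refine ⟨q1, q2, q3, nearB _ k _ hu ?_⟩
          rw [← hdiv]; exact hp.2
    -- union bound
    have hsub : (Finset.range K ×ˢ Finset.range K).filter (fun ab : ℕ × ℕ => ab.1 ≠ ab.2 ∧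
        Bad R M0 M1 m rho Ms Ms1 ((T + 16*2^ab.1*Sg - 16*2^ab.2*Sg) / Mp)) ⊆
        F0 ∪ (Ms.biUnion F1 ∪ ((range m).biUnion F2 ∪ (range m).biUnion F3)) := by
      intro p hp
      simp only [Finset.mem_filter] at hp
      obtain ⟨hp1, hp2, hp3⟩ := hp
      have hpb : p ∈ base := by
        simp only [hbase, Finset.mem_filter]; exact ⟨hp1, hp2⟩
      change Bad R M0 M1 m rho Ms Ms1 (n p) at hp3
      rcases hp3 with h | ⟨k, hk, h⟩ | ⟨l, hl, h | h⟩
      · exact Finset.mem_union_left _ (Finset.mem_filter.2 ⟨hpb, h⟩)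
      · refine Finset.mem_union_right _ (Finset.mem_union_left _ ?_)
        exact Finset.mem_biUnion.2 ⟨k, hk, Finset.mem_filter.2 ⟨hpb, h⟩⟩
      · refine Finset.mem_union_right _ (Finset.mem_union_right _ (Finset.mem_union_left _ ?_))
        exact Finset.mem_biUnion.2 ⟨l, Finset.mem_range.2 hl, Finset.mem_filter.2 ⟨hpb, h⟩⟩
      · refine Finset.mem_union_right _ (Finset.mem_union_right _ (Finset.mem_union_right _ ?_))
        exact Finset.mem_biUnion.2 ⟨l, Finset.mem_range.2 hl, Finset.mem_filter.2 ⟨hpb, h⟩⟩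
    refine le_trans (Finset.card_le_card hsub) ?_
    have c1 : (Ms.biUnion F1).card ≤ r := by
      refine le_trans Finset.card_biUnion_le ?_
      refine le_trans (Finset.sum_le_sum hF1) ?_
      simpa using hc
    have c2 : ((range m).biUnion F2).card ≤ m := by
      refine le_trans Finset.card_biUnion_le ?_
      refine le_trans (Finset.sum_le_sum (fun l hl => hF2 l (Finset.mem_range.1 hl))) ?_
      simp
    have c3 : ((range m).biUnion F3).card ≤ 32*m := by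
      refine le_trans Finset.card_biUnion_le ?_
      refine le_trans (Finset.sum_le_sum (fun l hl => hF3 l (Finset.mem_range.1 hl))) ?_
      simp [mul_comm]
    have u1 := Finset.card_union_le F0 (Ms.biUnion F1 ∪ ((range m).biUnion F2 ∪ (range m).biUnion F3))
    have u2 := Finset.card_union_le (Ms.biUnion F1) ((range m).biUnion F2 ∪ (range m).biUnion F3)
    have u3 := Finset.card_union_le ((range m).biUnion F2) ((range m).biUnion F3)
    omega

end Crest.Agent.R320.Spoil_38
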