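import Mathlib

/-!
LEAF U4 (638): the ruler count `spoil` (pure arithmetic).
-/

set_option autoImplicit false

namespace Crest.Agent.R320.Spoil_384

def PP (R M0 M1 l : ℕ) := (R*M0) * (R*M1)^l

def Bad (R M0 M1 m rho : ℕ) (Ms Ms1 : Finset ℕ) (n : ℕ) : Prop :=
  (n % (R*M0) < M0 ∨ R*M0 ≤ n % (R*M0) + M0) ∨ (∃ k ∈ Ms, k ∣ n) ∨
  ∃ l < m, ((n / PP R M0 M1 l) % (R*M1) < M1 ∨ R*M1 ≤ (n / PP R M0 M1 l) % (R*M1) + M1) ∨
    rho ≤ (Ms1.filter (· ∣ n / PP R M0 M1 l)).card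

lemma sidon2 : ∀ a e c b : ℕ, 2^a + 2^e = 2^c + 2^b → (a = c ∧ e = b) ∨ (a = b ∧ e = c) := by
  intro a
  induction a with
  | zero =>
    intro e c b h
    rcases Nat.eq_zero_or_pos e with he | he
    · subst he
      have h1 : 0 < 2^c := Nat.two_pow_pos _
      have h2 : 0 < 2^b := Nat.two_pow_pos _
      simp only [pow_zero] at h
      have hc : 2^c = 2^0 := by simp only [pow_zero]; omega
      have hb : 2^b = 2^0 := by simp only [pow_zero]; omega
      have hc' := Nat.pow_right_injective (le_refl 2) hc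
      have hb' := Nat.pow_right_injective (le_refl 2) hb
      left; exact ⟨hc'.symm, hb'.symm⟩
    · obtain ⟨e', rfl⟩ : ∃ e', e = e' + 1 := ⟨e - 1, by omega⟩
      rcases Nat.eq_zero_or_pos c with hc | hc
      · subst hc
        have : 2^(e'+1) = 2^b := by omega
        have h' := Nat.pow_right_injective (le_refl 2) this
        left; exact ⟨rfl, h'⟩
      · rcases Nat.eq_zero_or_pos b with hb | hb
        · subst hb
          have : 2^(e'+1) = 2^c := by omega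
          have h' := Nat.pow_right_injective (le_refl 2) this
          right; exact ⟨rfl, h'⟩
        · obtain ⟨c', rfl⟩ : ∃ c', c = c' + 1 := ⟨c - 1, by omega⟩
          obtain ⟨b', rfl⟩ : ∃ b', b = b' + 1 := ⟨b - 1, by omega⟩
          simp only [pow_zero, pow_succ] at h
          omega
  | succ a ih =>
    intro e c b h
    rcases Nat.eq_zero_or_pos e with he | he
    · subst he
      rcases Nat.eq_zero_or_pos c with hc | hc
      · subst hc
        have : 2^(a+1) = 2^b := by omega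
        have h' := Nat.pow_right_injective (le_refl 2) this
        right; exact ⟨h', rfl⟩
      · rcases Nat.eq_zero_or_pos b with hb | hb
        · subst hb
          have : 2^(a+1) = 2^c := by omega
          have h' := Nat.pow_right_injective (le_refl 2) this
          left; exact ⟨h', rfl⟩
        · obtain ⟨c', rfl⟩ : ∃ c', c = c' + 1 := ⟨c - 1, by omega⟩
          obtain ⟨b', rfl⟩ : ∃ b', b = b' + 1 := ⟨b - 1, by omega⟩
          simp only [pow_zero, pow_succ] at h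
          omega
    · obtain ⟨e', rfl⟩ : ∃ e', e = e' + 1 := ⟨e - 1, by omega⟩
      have hpa : 0 < 2^a := Nat.two_pow_pos _
      have hpe : 0 < 2^e' := Nat.two_pow_pos _
      rcases Nat.eq_zero_or_pos c with hc | hc
      · subst hc
        rcases Nat.eq_zero_or_pos b with hb | hb
        · subst hb
          simp only [pow_zero, pow_succ] at h
          omega
        · obtain ⟨b', rfl⟩ : ∃ b', b = b' + 1 := ⟨b - 1, by omega⟩
          simp only [pow_zero, pow_succ] at h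
          omega
      · rcases Nat.eq_zero_or_pos b with hb | hb
        · subst hb
          obtain ⟨c', rfl⟩ : ∃ c', c = c' + 1 := ⟨c - 1, by omega⟩
          simp only [pow_zero, pow_succ] at h
          omega
        · obtain ⟨c', rfl⟩ : ∃ c', c = c' + 1 := ⟨c - 1, by omega⟩
          obtain ⟨b', rfl⟩ : ∃ b', b = b' + 1 := ⟨b - 1, by omega⟩
          simp only [pow_succ] at h
          have h' : 2^a + 2^e' = 2^c' + 2^b' := by omega
          rcases ih e' c' b' h' with ⟨h1, h2⟩ | ⟨h1, h2⟩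
          · left; omega
          · right; omega

lemma pow_diff {a b c e : ℕ} (h : (2:ℤ)^a - 2^b = 2^c - 2^e) :
    (a = c ∧ b = e) ∨ (a = b ∧ c = e) := by
  have h' : 2^a + 2^e = 2^c + 2^b := by
    have : (2:ℤ)^a + 2^e = 2^c + 2^b := by linarith
    exact_mod_cast this
  rcases sidon2 a e c b h' with ⟨h1, h2⟩ | ⟨h1, h2⟩
  · left; exact ⟨h1, h2.symm⟩
  · right; exact ⟨h1, h2.symm⟩

lemma delta_bound {K a b c e : ℕ} (ha : a < K) (hb : b < K) (hc : c < K) (he : e < K) :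
    |((2:ℤ)^a - 2^b) - (2^c - 2^e)| < 2^(K+1) := by
  have key : ∀ i, i < K → (0:ℤ) < 2^i ∧ (2:ℤ)^i < 2^K := by
    intro i hi
    refine ⟨by positivity, ?_⟩
    exact pow_lt_pow_right₀ (by norm_num) hi
  obtain ⟨a1, a2⟩ := key a ha
  obtain ⟨b1, b2⟩ := key b hb
  obtain ⟨c1, c2⟩ := key c hc
  obtain ⟨e1, e2⟩ := key e he
  rw [abs_lt, pow_succ]
  constructor <;> linarith

lemma uniq {K P S X w T : ℕ} (u : ℤ) (hX : (P:ℤ) ∣ (X:ℤ) - S) (hw : w < 16 * S)
    (hP : 2^(K+5) * S + w ≤ P) {a b c e : ℕ} (ha : a < K) (hb : b < K) (hc : c < K) (he : e < K)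
    (hab : a ≠ b) {N1 N2 : ℕ} (hN1 : (N1:ℤ) = T + 16*(2^a-2^b)*X)
    (hN2 : (N2:ℤ) = T + 16*(2^c-2^e)*X)
    (h1 : u ≤ ((N1 % P : ℕ) : ℤ)) (h1' : ((N1 % P : ℕ) : ℤ) < u + w)
    (h2 : u ≤ ((N2 % P : ℕ) : ℤ)) (h2' : ((N2 % P : ℕ) : ℤ) < u + w) : a = c ∧ b = e := by
  set δ : ℤ := ((2:ℤ)^a - 2^b) - (2^c - 2^e) with hδ
  have hSpos : 0 < S := by omega
  have e1 : (N1:ℤ) = P * (N1 / P : ℕ) + (N1 % P : ℕ) := by
    exact_mod_cast (Nat.div_add_mod N1 P).symm
  have e2 : (N2:ℤ) = P * (N2 / P : ℕ) + (N2 % P : ℕ) := by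
    exact_mod_cast (Nat.div_add_mod N2 P).symm
  have d1 : (P:ℤ) ∣ 16 * δ * S - (((N1 % P : ℕ) : ℤ) - ((N2 % P : ℕ) : ℤ)) := by
    obtain ⟨t, ht⟩ := hX
    refine ⟨((N1 / P : ℕ) : ℤ) - (N2 / P : ℕ) - 16 * δ * t, ?_⟩
    have hXS : (X:ℤ) = S + P * t := by linarith
    have : 16 * δ * X = (N1:ℤ) - N2 := by rw [hN1, hN2, hδ]; ring
    have h3 : 16 * δ * X = 16 * δ * S + 16 * δ * (P * t) := by rw [hXS]; ring
    have h4 : (N1:ℤ) - N2 = P * (((N1 / P : ℕ) : ℤ) - (N2 / P : ℕ)) +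
        (((N1 % P : ℕ) : ℤ) - ((N2 % P : ℕ) : ℤ)) := by rw [e1, e2]; push_cast; ring_nf
    linarith
  have hb1 := delta_bound ha hb hc he
  rw [← hδ] at hb1
  have hS0 : (0:ℤ) < S := by exact_mod_cast hSpos
  have hPz : ((2:ℤ)^(K+5)) * S + w ≤ P := by exact_mod_cast hP
  have h16 : |16 * δ * S| < 2^(K+5) * S := by
    rw [abs_mul, abs_mul, abs_of_pos hS0]
    have : |(16:ℤ)| = 16 := by norm_num
    rw [this]
    have : (2:ℤ)^(K+5) = 16 * 2^(K+1) := by ring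
    rw [this]
    exact mul_lt_mul_of_pos_right (by linarith) hS0
  have hr : |(((N1 % P : ℕ) : ℤ) - ((N2 % P : ℕ) : ℤ))| < w := by
    rw [abs_lt]; constructor <;> linarith
  have hz : 16 * δ * S - (((N1 % P : ℕ) : ℤ) - ((N2 % P : ℕ) : ℤ)) = 0 := by
    apply Int.eq_zero_of_abs_lt_dvd d1
    calc _ ≤ |16 * δ * S| + |(((N1 % P : ℕ) : ℤ) - ((N2 % P : ℕ) : ℤ))| := abs_sub _ _
      _ < P := by linarith
  have hlt : |16 * δ * S| < w := by
    have : 16 * δ * S = (((N1 % P : ℕ) : ℤ) - ((N2 % P : ℕ) : ℤ)) := by linarith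
    rw [this]; exact hr
  have hδ0 : δ = 0 := by
    by_contra hne
    have h1δ : 1 ≤ |δ| := Int.one_le_abs hne
    rw [abs_mul, abs_mul, abs_of_pos hS0] at hlt
    have h16' : |(16:ℤ)| = 16 := by norm_num
    rw [h16'] at hlt
    have hwz : (w:ℤ) < 16 * S := by exact_mod_cast hw
    nlinarith
  have hfin : (2:ℤ)^a - 2^b = 2^c - 2^e := by rw [hδ] at hδ0; linarith
  rcases pow_diff hfin with h | h
  · exact h
  · exact absurd h.1 hab

lemma win1 {q Q v N : ℕ} (hq : 0 < q) (h : (N / q) % Q < v) : N % (q * Q) < q * v := by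
  rw [← Nat.mod_mul_right_div_self] at h
  rw [Nat.div_lt_iff_lt_mul hq] at h
  rw [mul_comm q v]; exact h

lemma win2 {q Q v N : ℕ} (hq : 0 < q) (h : Q ≤ (N / q) % Q + v) :
    q * Q ≤ N % (q * Q) + q * v := by
  rw [← Nat.mod_mul_right_div_self] at h
  have h2 : q * (N % (q * Q) / q) ≤ N % (q * Q) := Nat.mul_div_le _ _
  have h3 : q * Q ≤ q * (N % (q * Q) / q + v) := Nat.mul_le_mul_left q h
  rw [mul_add] at h3
  omega

def AA (R M0 M1 Mp : ℕ) : ℕ → ℕ
  | 0 => 1 + Mp + Mp * M0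
  | l+1 => AA R M0 M1 Mp l + Mp * PP R M0 M1 l + Mp * PP R M0 M1 l * M1

lemma PP_succ (R M0 M1 l : ℕ) : PP R M0 M1 (l+1) = PP R M0 M1 l * (R * M1) := by
  unfold PP; rw [pow_succ]; ring

lemma PP_zero (R M0 M1 : ℕ) : PP R M0 M1 0 = R * M0 := by
  unfold PP; simp

lemma PP_pos {R M0 M1 : ℕ} (hR : 0 < R) (h0 : 0 < M0) (h1 : 0 < M1) (l : ℕ) :
    0 < PP R M0 M1 l := by
  unfold PP; positivity

lemma AA_le {R M0 M1 Mp : ℕ} (hR : 4 ≤ R) (h0 : 4 ≤ M0) (h1 : 4 ≤ M1) (hMp : 4 ≤ Mp) (l : ℕ) :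
    AA R M0 M1 Mp l ≤ Mp * PP R M0 M1 l := by
  induction l with
  | zero =>
    rw [PP_zero]
    show 1 + Mp + Mp * M0 ≤ Mp * (R * M0)
    have h2 : Mp * (R * M0) = R * (Mp * M0) := by ring
    rw [h2]
    have h3 : 4 * (Mp * M0) ≤ R * (Mp * M0) := Nat.mul_le_mul_right _ hR
    have h4 : Mp * 4 ≤ Mp * M0 := Nat.mul_le_mul_left _ h0
    omega
  | succ l ih =>
    show AA R M0 M1 Mp l + Mp * PP R M0 M1 l + Mp * PP R M0 M1 l * M1 ≤ _
    rw [PP_succ]
    set q := Mp * PP R M0 M1 l with hq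
    have h2 : Mp * (PP R M0 M1 l * (R * M1)) = R * (q * M1) := by rw [hq]; ring
    rw [h2]
    have h3 : 4 * (q * M1) ≤ R * (q * M1) := Nat.mul_le_mul_right _ hR
    have h4 : q * 4 ≤ q * M1 := Nat.mul_le_mul_left _ h1
    omega

lemma AA_ext {R M0 M1 Mp : ℕ} (l m : ℕ) (hlm : l ≤ m) :
    ∃ t, AA R M0 M1 Mp m = AA R M0 M1 Mp l + Mp * PP R M0 M1 l * t := by
  induction m, hlm using Nat.le_induction with
  | base => exact ⟨0, by simp⟩
  | succ m hm ih =>
    obtain ⟨t, ht⟩ := ih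
    obtain ⟨j, rfl⟩ := Nat.exists_eq_add_of_le hm
    refine ⟨t + (R*M1)^j * (1 + M1), ?_⟩
    show AA R M0 M1 Mp (l+j) + Mp * PP R M0 M1 (l+j) + Mp * PP R M0 M1 (l+j) * M1 = _
    have : PP R M0 M1 (l+j) = PP R M0 M1 l * (R*M1)^j := by unfold PP; rw [pow_add]; ring
    rw [ht, this]; ring

theorem spoil (m r K Mp R M0 M1 rho : ℕ) (Ms Ms1 : Finset ℕ) (hMp : 2^(K+10) ≤ Mp)
    (hR : 2^(K+10) ≤ R) (h0 : 2^(K+10) ≤ M0) (h1 : 2^(K+10) ≤ M1)
    (hMs : ∀ k ∈ Ms, 2^(K+10) ≤ k ∧ k ∣ M0) (hMs1 : ∀ k ∈ Ms1, 2^(K+10) ≤ k ∧ k ∣ M1)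
    (hc : Ms.card ≤ r) (hc1 : Ms1.card ≤ 32*rho) (hrho : 0 < rho) :
    ∃ (x : ℕ → ℕ) (T0 : ℕ),
      (∀ a b c d, a < K → b < K → c < K → d < K →
        (Mp:ℤ) ∣ ((x a:ℤ) - x b) - (x c - x d) → (a = c ∧ b = d) ∨ (a = b ∧ c = d)) ∧
      ∀ T, T0 ≤ T → by classical exact (((Finset.range K ×ˢ Finset.range K).filter (fun ab => ab.1 ≠ ab.2 ∧
        Bad R M0 M1 m rho Ms Ms1 ((T + x ab.1 - x ab.2) / Mp))).card ≤ 2 + r + 34*m) := by
  classical
  have hK : 1024 ≤ 2^(K+10) := by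
    rw [pow_add]; have : 0 < 2^K := Nat.two_pow_pos _; omega
  have hK5 : 2^(K+10) = 32 * 2^(K+5) := by rw [show K + 10 = (K+5) + 5 by ring, pow_add]; omega
  set X := AA R M0 M1 Mp m with hXdef
  refine ⟨fun a => 16 * 2^a * X, 16 * 2^K * X, ?_, ?_⟩
  · -- Golomb
    intro a b c d ha hb hc' hd hdvd
    have hX1 : (Mp:ℤ) ∣ (X:ℤ) - 1 := by
      obtain ⟨t, ht⟩ := AA_ext (R := R) (M0 := M0) (M1 := M1) (Mp := Mp) 0 m (Nat.zero_le _)
      refine ⟨1 + M0 + PP R M0 M1 0 * t, ?_⟩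
      rw [hXdef, ht]
      show ((1 + Mp + Mp * M0 + Mp * PP R M0 M1 0 * t : ℕ) : ℤ) - 1 = _
      push_cast; ring
    set δ : ℤ := ((2:ℤ)^a - 2^b) - (2^c - 2^d) with hδ
    have h2 : (Mp:ℤ) ∣ 16 * δ := by
      obtain ⟨s, hs⟩ := hdvd
      obtain ⟨t, ht⟩ := hX1
      refine ⟨s - 16 * δ * t, ?_⟩
      push_cast at hs
      have : 16 * δ * X = Mp * s := by rw [← hs, hδ]; ring
      have h3 : (X:ℤ) = 1 + Mp * t := by linarith
      rw [h3] at this
      linarith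
    have hb1 := delta_bound ha hb hc' hd
    rw [← hδ] at hb1
    have h3 : 16 * δ = 0 := by
      apply Int.eq_zero_of_abs_lt_dvd h2
      rw [abs_mul]
      have h16' : |(16:ℤ)| = 16 := by norm_num
      rw [h16']
      have h4 : (2:ℤ)^(K+10) ≤ Mp := by exact_mod_cast hMp
      have h5 : (2:ℤ)^(K+10) = 512 * 2^(K+1) := by ring
      have h6 : (0:ℤ) < 2^(K+1) := by positivity
      linarith
    have hfin : (2:ℤ)^a - 2^b = 2^c - 2^d := by
      have : δ = 0 := by linarith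
      rw [hδ] at this; linarith
    exact pow_diff hfin
  · intro T hT
    have hcast : ∀ a b, a < K → b < K →
        ((T + 16 * 2^a * X - 16 * 2^b * X : ℕ) : ℤ) = T + 16*(2^a-2^b)*X := by
      intro a b ha hb
      have h2 : 16 * 2^b * X ≤ 16 * 2^K * X := by
        apply Nat.mul_le_mul_right; apply Nat.mul_le_mul_left
        exact Nat.pow_le_pow_right (by norm_num) hb.le
      rw [Nat.cast_sub (by omega)]
      push_cast; ring
    -- generic count lemma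
    have one : ∀ (q Q v S : ℕ), 0 < q → ((q * Q : ℕ) : ℤ) ∣ (X:ℤ) - S → q * v < 16 * S →
        2^(K+5) * S + q * v ≤ q * Q →
        ((Finset.range K ×ˢ Finset.range K).filter (fun ab : ℕ × ℕ => ab.1 ≠ ab.2 ∧
          ((T + 16 * 2^ab.1 * X - 16 * 2^ab.2 * X) / q) % Q < v)).card ≤ 1 := by
      intro q Q v S hq hX hw hP
      rw [Finset.card_le_one]
      rintro ⟨a, b⟩ hab ⟨c, e⟩ hce
      simp only [Finset.mem_filter, Finset.mem_product, Finset.mem_range] at hab hce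
      obtain ⟨⟨ha, hb⟩, hne, hA⟩ := hab
      obtain ⟨⟨hc', he⟩, hne', hB⟩ := hce
      have wA := win1 hq hA
      have wB := win1 hq hB
      have := uniq (K := K) (P := q * Q) (S := S) (X := X) (w := q * v) (T := T) 0 hX hw hP
        ha hb hc' he hne (hcast a b ha hb) (hcast c e hc' he)
        (by positivity) (by rw [zero_add]; exact_mod_cast wA) (by positivity)
        (by rw [zero_add]; exact_mod_cast wB)
      exact Prod.ext this.1 this.2
    have two : ∀ (q Q v S : ℕ), 0 < q → ((q * Q : ℕ) : ℤ) ∣ (X:ℤ) - S → q * v < 16 * S →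
        2^(K+5) * S + q * v ≤ q * Q →
        ((Finset.range K ×ˢ Finset.range K).filter (fun ab : ℕ × ℕ => ab.1 ≠ ab.2 ∧
          Q ≤ ((T + 16 * 2^ab.1 * X - 16 * 2^ab.2 * X) / q) % Q + v)).card ≤ 1 := by
      intro q Q v S hq hX hw hP
      have hS0 : 0 < S := by omega
      have hS1 : 0 < 2^(K+5) * S := Nat.mul_pos (Nat.two_pow_pos _) hS0
      have hQ : 0 < q * Q := by omega
      rw [Finset.card_le_one]
      rintro ⟨a, b⟩ hab ⟨c, e⟩ hce
      simp only [Finset.mem_filter, Finset.mem_product, Finset.mem_range] at hab hce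
      obtain ⟨⟨ha, hb⟩, hne, hA⟩ := hab
      obtain ⟨⟨hc', he⟩, hne', hB⟩ := hce
      have wA := win2 hq hA
      have wB := win2 hq hB
      have lA := Nat.mod_lt (T + 16 * 2^a * X - 16 * 2^b * X) hQ
      have lB := Nat.mod_lt (T + 16 * 2^c * X - 16 * 2^e * X) hQ
      have := uniq (K := K) (P := q * Q) (S := S) (X := X) (w := q * v) (T := T)
        ((q * Q : ℕ) - (q * v : ℕ) : ℤ) hX hw hP
        ha hb hc' he hne (hcast a b ha hb) (hcast c e hc' he)
        (by have : ((q * Q : ℕ) : ℤ) ≤ ((T + 16 * 2^a * X - 16 * 2^b * X) % (q * Q) : ℕ) + (q * v : ℕ) := by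
              exact_mod_cast wA
            linarith)
        (by have : (((T + 16 * 2^a * X - 16 * 2^b * X) % (q * Q) : ℕ) : ℤ) < (q * Q : ℕ) := by
              exact_mod_cast lA
            linarith)
        (by have : ((q * Q : ℕ) : ℤ) ≤ ((T + 16 * 2^c * X - 16 * 2^e * X) % (q * Q) : ℕ) + (q * v : ℕ) := by
              exact_mod_cast wB
            linarith)
        (by have : (((T + 16 * 2^c * X - 16 * 2^e * X) % (q * Q) : ℕ) : ℤ) < (q * Q : ℕ) := by
              exact_mod_cast lB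
            linarith)
      exact Prod.ext this.1 this.2
    -- parameters
    have hR4 : 4 ≤ R := by omega
    have h04 : 4 ≤ M0 := by omega
    have h14 : 4 ≤ M1 := by omega
    have hMp4 : 4 ≤ Mp := by omega
    obtain ⟨t0, ht0⟩ := AA_ext (R := R) (M0 := M0) (M1 := M1) (Mp := Mp) 0 m (Nat.zero_le _)
    have hAA0 : AA R M0 M1 Mp 0 = 1 + Mp + Mp * M0 := rfl
    -- case 1
    have S0 : Mp * M0 < 16 * (1 + Mp + Mp * M0) := by omega
    have S0' : 2^(K+5) * (1 + Mp + Mp * M0) + Mp * M0 ≤ Mp * (R * M0) := by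
      have e1 : 1 + Mp + Mp * M0 ≤ 2 * (Mp * M0) := by
        have : Mp * 4 ≤ Mp * M0 := Nat.mul_le_mul_left _ h04
        omega
      have e2 : 2^(K+5) * (1 + Mp + Mp * M0) ≤ 2^(K+5) * (2 * (Mp * M0)) :=
        Nat.mul_le_mul_left _ e1
      have e3 : 2^(K+10) * (Mp * M0) ≤ R * (Mp * M0) := Nat.mul_le_mul_right _ hR
      have e4 : Mp * (R * M0) = R * (Mp * M0) := by ring
      rw [e4]
      have e5 : 0 < 2^(K+5) := by positivity
      have e6 : 2^(K+10) * (Mp * M0) = 32 * (2^(K+5) * (Mp * M0)) := by rw [hK5]; ring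
      have e7 : 2^(K+5) * (2 * (Mp * M0)) = 2 * (2^(K+5) * (Mp * M0)) := by ring
      have e8 : 1 * (Mp * M0) ≤ 2^(K+5) * (Mp * M0) := Nat.mul_le_mul_right _ e5
      omega
    have X0 : ((Mp * (R * M0) : ℕ) : ℤ) ∣ (X:ℤ) - (1 + Mp + Mp * M0 : ℕ) := by
      refine ⟨t0, ?_⟩
      rw [hXdef, ht0, hAA0, PP_zero]
      push_cast; ring
    have c1 := one Mp (R * M0) M0 (1 + Mp + Mp * M0) (by omega) X0 S0 S0'
    have c2 := two Mp (R * M0) M0 (1 + Mp + Mp * M0) (by omega) X0 S0 S0'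
    -- case 2
    have c3 : ∀ k ∈ Ms, ((Finset.range K ×ˢ Finset.range K).filter (fun ab : ℕ × ℕ => ab.1 ≠ ab.2 ∧
          k ∣ ((T + 16 * 2^ab.1 * X - 16 * 2^ab.2 * X) / Mp))).card ≤ 1 := by
      intro k hk
      obtain ⟨hk1, hk2⟩ := hMs k hk
      have hXk : ((Mp * k : ℕ) : ℤ) ∣ (X:ℤ) - (1 + Mp : ℕ) := by
        obtain ⟨s, hs⟩ := hk2
        refine ⟨s * (1 + R * t0), ?_⟩
        rw [hXdef, ht0, hAA0, PP_zero]
        have : (M0:ℤ) = k * s := by exact_mod_cast hs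
        push_cast
        rw [this]; ring
      have hle : 2^(K+5) * (1 + Mp) + Mp * 1 ≤ Mp * k := by
        have e1 : 2^(K+5) * (1 + Mp) ≤ 2^(K+5) * (2 * Mp) := Nat.mul_le_mul_left _ (by omega)
        have e3 : 2^(K+10) * Mp ≤ k * Mp := Nat.mul_le_mul_right _ hk1
        have e4 : Mp * k = k * Mp := by ring
        rw [e4]
        have e5 : 0 < 2^(K+5) := by positivity
        have e6 : 2^(K+10) * Mp = 32 * (2^(K+5) * Mp) := by rw [hK5]; ring
        have e7 : 2^(K+5) * (2 * Mp) = 2 * (2^(K+5) * Mp) := by ring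
        have e8 : 1 * Mp ≤ 2^(K+5) * Mp := Nat.mul_le_mul_right _ e5
        omega
      have := one Mp k 1 (1 + Mp) (by omega) hXk (by omega) hle
      refine le_trans (Finset.card_le_card ?_) this
      intro ab hab
      simp only [Finset.mem_filter] at hab ⊢
      refine ⟨hab.1, hab.2.1, ?_⟩
      rw [Nat.mod_eq_zero_of_dvd hab.2.2]; norm_num
    -- levels
    have hq : ∀ l, 0 < Mp * PP R M0 M1 l := fun l =>
      Nat.mul_pos (by omega) (PP_pos (by omega) (by omega) (by omega) l)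
    have hdd : ∀ N l, N / Mp / PP R M0 M1 l = N / (Mp * PP R M0 M1 l) := fun N l =>
      Nat.div_div_eq_div_mul _ _ _
    have lev : ∀ l, l < m →
        (Mp * PP R M0 M1 l * M1 < 16 * AA R M0 M1 Mp (l+1)) ∧
        (2^(K+5) * AA R M0 M1 Mp (l+1) + Mp * PP R M0 M1 l * M1 ≤
          Mp * PP R M0 M1 l * (R * M1)) ∧
        (((Mp * PP R M0 M1 l * (R * M1) : ℕ) : ℤ) ∣ (X:ℤ) - (AA R M0 M1 Mp (l+1) : ℕ)) := by
      intro l hl
      have hA : AA R M0 M1 Mp (l+1) =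
        AA R M0 M1 Mp l + Mp * PP R M0 M1 l + Mp * PP R M0 M1 l * M1 := rfl
      have hAl := AA_le hR4 h04 h14 hMp4 l
      have hql := hq l
      set q := Mp * PP R M0 M1 l with hqdef
      have e1 : q * 4 ≤ q * M1 := Nat.mul_le_mul_left _ h14
      refine ⟨by omega, ?_, ?_⟩
      · have e2 : AA R M0 M1 Mp (l+1) ≤ 2 * (q * M1) := by omega
        have e3 : 2^(K+5) * AA R M0 M1 Mp (l+1) ≤ 2^(K+5) * (2 * (q * M1)) :=
          Nat.mul_le_mul_left _ e2
        have e4 : 2^(K+10) * (q * M1) ≤ R * (q * M1) := Nat.mul_le_mul_right _ hR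
        have e5 : q * (R * M1) = R * (q * M1) := by ring
        rw [e5]
        have e6 : 0 < 2^(K+5) := by positivity
        have e7 : 2^(K+10) * (q * M1) = 32 * (2^(K+5) * (q * M1)) := by rw [hK5]; ring
        have e8 : 2^(K+5) * (2 * (q * M1)) = 2 * (2^(K+5) * (q * M1)) := by ring
        have e9 : 1 * (q * M1) ≤ 2^(K+5) * (q * M1) := Nat.mul_le_mul_right _ e6
        omega
      · obtain ⟨t, ht⟩ := AA_ext (R := R) (M0 := M0) (M1 := M1) (Mp := Mp) (l+1) m (by omega)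
        refine ⟨t, ?_⟩
        rw [hXdef, ht, PP_succ, hqdef]
        push_cast; ring
    have c4 : ∀ l, l < m → ((Finset.range K ×ˢ Finset.range K).filter (fun ab : ℕ × ℕ => ab.1 ≠ ab.2 ∧
          ((T + 16 * 2^ab.1 * X - 16 * 2^ab.2 * X) / Mp / PP R M0 M1 l) % (R * M1) < M1)).card ≤ 1 := by
      intro l hl
      obtain ⟨x1, x2, x3⟩ := lev l hl
      simp only [hdd]
      exact one _ (R * M1) M1 _ (hq l) x3 x1 x2
    have c5 : ∀ l, l < m → ((Finset.range K ×ˢ Finset.range K).filter (fun ab : ℕ × ℕ => ab.1 ≠ ab.2 ∧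
          R * M1 ≤ ((T + 16 * 2^ab.1 * X - 16 * 2^ab.2 * X) / Mp / PP R M0 M1 l) % (R * M1) + M1)).card ≤ 1 := by
      intro l hl
      obtain ⟨x1, x2, x3⟩ := lev l hl
      simp only [hdd]
      exact two _ (R * M1) M1 _ (hq l) x3 x1 x2
    have c6 : ∀ l, l < m → ∀ k ∈ Ms1,
        ((Finset.range K ×ˢ Finset.range K).filter (fun ab : ℕ × ℕ => ab.1 ≠ ab.2 ∧
          k ∣ ((T + 16 * 2^ab.1 * X - 16 * 2^ab.2 * X) / Mp / PP R M0 M1 l))).card ≤ 1 := by
      intro l hl k hk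
      obtain ⟨hk1, hk2⟩ := hMs1 k hk
      have hA : AA R M0 M1 Mp (l+1) =
        AA R M0 M1 Mp l + Mp * PP R M0 M1 l + Mp * PP R M0 M1 l * M1 := rfl
      have hAl := AA_le hR4 h04 h14 hMp4 l
      have hql := hq l
      obtain ⟨x1, x2, x3⟩ := lev l hl
      simp only [hdd]
      set q := Mp * PP R M0 M1 l with hqdef
      have hXk : ((q * k : ℕ) : ℤ) ∣ (X:ℤ) - (AA R M0 M1 Mp l + q : ℕ) := by
        obtain ⟨s, hs⟩ := hk2
        obtain ⟨t, ht⟩ := x3
        refine ⟨s * (1 + R * t), ?_⟩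
        have hs' : (M1:ℤ) = k * s := by exact_mod_cast hs
        have hXe : (X:ℤ) = (AA R M0 M1 Mp (l+1) : ℕ) + ((q * (R * M1) : ℕ) : ℤ) * t := by linarith
        rw [hXe, hA]
        push_cast
        rw [hs']; ring
      have hle : 2^(K+5) * (AA R M0 M1 Mp l + q) + q * 1 ≤ q * k := by
        have e1 : 2^(K+5) * (AA R M0 M1 Mp l + q) ≤ 2^(K+5) * (2 * q) :=
          Nat.mul_le_mul_left _ (by omega)
        have e3 : 2^(K+10) * q ≤ k * q := Nat.mul_le_mul_right _ hk1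
        have e4 : q * k = k * q := by ring
        rw [e4]
        have e5 : 0 < 2^(K+5) := by positivity
        have e6 : 2^(K+10) * q = 32 * (2^(K+5) * q) := by rw [hK5]; ring
        have e7 : 2^(K+5) * (2 * q) = 2 * (2^(K+5) * q) := by ring
        have e8 : 1 * q ≤ 2^(K+5) * q := Nat.mul_le_mul_right _ e5
        omega
      have := one q k 1 (AA R M0 M1 Mp l + q) hql hXk (by omega) hle
      refine le_trans (Finset.card_le_card ?_) this
      intro ab hab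
      simp only [Finset.mem_filter] at hab ⊢
      refine ⟨hab.1, hab.2.1, ?_⟩
      rw [Nat.mod_eq_zero_of_dvd hab.2.2]; norm_num
    have c7 : ∀ l, l < m →
        ((Finset.range K ×ˢ Finset.range K).filter (fun ab : ℕ × ℕ => ab.1 ≠ ab.2 ∧
          rho ≤ (Ms1.filter (· ∣ (T + 16 * 2^ab.1 * X - 16 * 2^ab.2 * X) / Mp / PP R M0 M1 l)).card)).card
          ≤ 32 := by
      intro l hl
      set E := (Finset.range K ×ˢ Finset.range K).filter (fun ab : ℕ × ℕ => ab.1 ≠ ab.2 ∧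
          rho ≤ (Ms1.filter (· ∣ (T + 16 * 2^ab.1 * X - 16 * 2^ab.2 * X) / Mp / PP R M0 M1 l)).card) with hE
      have s1 : E.card * rho ≤ ∑ ab ∈ E,
          (Ms1.filter (· ∣ (T + 16 * 2^ab.1 * X - 16 * 2^ab.2 * X) / Mp / PP R M0 M1 l)).card := by
        rw [← smul_eq_mul]
        apply Finset.card_nsmul_le_sum
        intro ab hab
        rw [hE, Finset.mem_filter] at hab
        exact hab.2.2
      have s2 : ∑ ab ∈ E,
          (Ms1.filter (· ∣ (T + 16 * 2^ab.1 * X - 16 * 2^ab.2 * X) / Mp / PP R M0 M1 l)).card =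
          ∑ k ∈ Ms1, (E.filter (fun ab : ℕ × ℕ =>
            k ∣ (T + 16 * 2^ab.1 * X - 16 * 2^ab.2 * X) / Mp / PP R M0 M1 l)).card := by
        simp only [Finset.card_filter]
        rw [Finset.sum_comm]
      have s3 : ∑ k ∈ Ms1, (E.filter (fun ab : ℕ × ℕ =>
            k ∣ (T + 16 * 2^ab.1 * X - 16 * 2^ab.2 * X) / Mp / PP R M0 M1 l)).card ≤ ∑ k ∈ Ms1, 1 := by
        apply Finset.sum_le_sum
        intro k hk
        refine le_trans (Finset.card_le_card ?_) (c6 l hl k hk)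
        intro ab hab
        rw [Finset.mem_filter] at hab
        rw [hE, Finset.mem_filter] at hab
        rw [Finset.mem_filter]
        exact ⟨hab.1.1, hab.1.2.1, hab.2⟩
      rw [Finset.sum_const, smul_eq_mul, mul_one] at s3
      have s4 : E.card * rho ≤ 32 * rho := by rw [s2] at s1; omega
      exact Nat.le_of_mul_le_mul_right s4 hrho
    -- union
    have hsub : ((Finset.range K ×ˢ Finset.range K).filter (fun ab : ℕ × ℕ => ab.1 ≠ ab.2 ∧
        Bad R M0 M1 m rho Ms Ms1 ((T + 16 * 2^ab.1 * X - 16 * 2^ab.2 * X) / Mp))) ⊆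
        ((Finset.range K ×ˢ Finset.range K).filter (fun ab : ℕ × ℕ => ab.1 ≠ ab.2 ∧
          ((T + 16 * 2^ab.1 * X - 16 * 2^ab.2 * X) / Mp) % (R * M0) < M0)) ∪
        ((Finset.range K ×ˢ Finset.range K).filter (fun ab : ℕ × ℕ => ab.1 ≠ ab.2 ∧
          R * M0 ≤ ((T + 16 * 2^ab.1 * X - 16 * 2^ab.2 * X) / Mp) % (R * M0) + M0)) ∪
        (Ms.biUnion fun k => (Finset.range K ×ˢ Finset.range K).filter (fun ab : ℕ × ℕ => ab.1 ≠ ab.2 ∧
          k ∣ ((T + 16 * 2^ab.1 * X - 16 * 2^ab.2 * X) / Mp))) ∪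
        ((Finset.range m).biUnion fun l =>
          ((Finset.range K ×ˢ Finset.range K).filter (fun ab : ℕ × ℕ => ab.1 ≠ ab.2 ∧
          ((T + 16 * 2^ab.1 * X - 16 * 2^ab.2 * X) / Mp / PP R M0 M1 l) % (R * M1) < M1)) ∪
          ((Finset.range K ×ˢ Finset.range K).filter (fun ab : ℕ × ℕ => ab.1 ≠ ab.2 ∧
          R * M1 ≤ ((T + 16 * 2^ab.1 * X - 16 * 2^ab.2 * X) / Mp / PP R M0 M1 l) % (R * M1) + M1)) ∪
          ((Finset.range K ×ˢ Finset.range K).filter (fun ab : ℕ × ℕ => ab.1 ≠ ab.2 ∧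
          rho ≤ (Ms1.filter (· ∣ (T + 16 * 2^ab.1 * X - 16 * 2^ab.2 * X) / Mp / PP R M0 M1 l)).card))) := by
      intro ab hab
      rw [Finset.mem_filter] at hab
      obtain ⟨hm, hne, hB⟩ := hab
      simp only [Finset.mem_union, Finset.mem_biUnion, Finset.mem_filter, Finset.mem_range]
      rcases hB with (hB | hB) | ⟨k, hk, hB⟩ | ⟨l, hl, (hB | hB) | hB⟩
      · exact Or.inl (Or.inl (Or.inl ⟨hm, hne, hB⟩))
      · exact Or.inl (Or.inl (Or.inr ⟨hm, hne, hB⟩))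
      · exact Or.inl (Or.inr ⟨k, hk, hm, hne, hB⟩)
      · exact Or.inr ⟨l, hl, Or.inl (Or.inl ⟨hm, hne, hB⟩)⟩
      · exact Or.inr ⟨l, hl, Or.inl (Or.inr ⟨hm, hne, hB⟩)⟩
      · exact Or.inr ⟨l, hl, Or.inr ⟨hm, hne, hB⟩⟩
    refine le_trans (Finset.card_le_card hsub) ?_
    refine le_trans (Finset.card_union_le _ _) ?_
    have u1 := Finset.card_union_le
      (((Finset.range K ×ˢ Finset.range K).filter (fun ab : ℕ × ℕ => ab.1 ≠ ab.2 ∧
          ((T + 16 * 2^ab.1 * X - 16 * 2^ab.2 * X) / Mp) % (R * M0) < M0)) ∪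
        ((Finset.range K ×ˢ Finset.range K).filter (fun ab : ℕ × ℕ => ab.1 ≠ ab.2 ∧
          R * M0 ≤ ((T + 16 * 2^ab.1 * X - 16 * 2^ab.2 * X) / Mp) % (R * M0) + M0)))
      (Ms.biUnion fun k => (Finset.range K ×ˢ Finset.range K).filter (fun ab : ℕ × ℕ => ab.1 ≠ ab.2 ∧
          k ∣ ((T + 16 * 2^ab.1 * X - 16 * 2^ab.2 * X) / Mp)))
    have u2 := Finset.card_union_le
      ((Finset.range K ×ˢ Finset.range K).filter (fun ab : ℕ × ℕ => ab.1 ≠ ab.2 ∧
          ((T + 16 * 2^ab.1 * X - 16 * 2^ab.2 * X) / Mp) % (R * M0) < M0))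
      ((Finset.range K ×ˢ Finset.range K).filter (fun ab : ℕ × ℕ => ab.1 ≠ ab.2 ∧
          R * M0 ≤ ((T + 16 * 2^ab.1 * X - 16 * 2^ab.2 * X) / Mp) % (R * M0) + M0))
    have u3 : (Ms.biUnion fun k => (Finset.range K ×ˢ Finset.range K).filter (fun ab : ℕ × ℕ => ab.1 ≠ ab.2 ∧
          k ∣ ((T + 16 * 2^ab.1 * X - 16 * 2^ab.2 * X) / Mp))).card ≤ Ms.card * 1 :=
      Finset.card_biUnion_le_card_mul _ _ _ c3
    have u4 : ((Finset.range m).biUnion fun l =>
          ((Finset.range K ×ˢ Finset.range K).filter (fun ab : ℕ × ℕ => ab.1 ≠ ab.2 ∧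
          ((T + 16 * 2^ab.1 * X - 16 * 2^ab.2 * X) / Mp / PP R M0 M1 l) % (R * M1) < M1)) ∪
          ((Finset.range K ×ˢ Finset.range K).filter (fun ab : ℕ × ℕ => ab.1 ≠ ab.2 ∧
          R * M1 ≤ ((T + 16 * 2^ab.1 * X - 16 * 2^ab.2 * X) / Mp / PP R M0 M1 l) % (R * M1) + M1)) ∪
          ((Finset.range K ×ˢ Finset.range K).filter (fun ab : ℕ × ℕ => ab.1 ≠ ab.2 ∧
          rho ≤ (Ms1.filter (· ∣ (T + 16 * 2^ab.1 * X - 16 * 2^ab.2 * X) / Mp / PP R M0 M1 l)).card))).card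
          ≤ (Finset.range m).card * 34 := by
      apply Finset.card_biUnion_le_card_mul
      intro l hl
      rw [Finset.mem_range] at hl
      refine le_trans (Finset.card_union_le _ _) ?_
      have v1 := Finset.card_union_le
        ((Finset.range K ×ˢ Finset.range K).filter (fun ab : ℕ × ℕ => ab.1 ≠ ab.2 ∧
          ((T + 16 * 2^ab.1 * X - 16 * 2^ab.2 * X) / Mp / PP R M0 M1 l) % (R * M1) < M1))
        ((Finset.range K ×ˢ Finset.range K).filter (fun ab : ℕ × ℕ => ab.1 ≠ ab.2 ∧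
          R * M1 ≤ ((T + 16 * 2^ab.1 * X - 16 * 2^ab.2 * X) / Mp / PP R M0 M1 l) % (R * M1) + M1))
      have v2 := c4 l hl
      have v3 := c5 l hl
      have v4 := c7 l hl
      omega
    rw [Finset.card_range] at u4
    omega

end Crest.Agent.R320.Spoil_384
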