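import Mathlib

set_option autoImplicit false

namespace Crest.Agent.R320.Spoil_387

def PP (R M0 M1 l : ℕ) : ℕ := (R*M0) * (R*M1)^l

def Bad (R M0 M1 m rho : ℕ) (Ms Ms1 : Finset ℕ) (n : ℕ) : Prop :=
  (n % (R*M0) < M0 ∨ R*M0 ≤ n % (R*M0) + M0) ∨ (∃ k ∈ Ms, k ∣ n) ∨
  ∃ l < m, ((n / PP R M0 M1 l) % (R*M1) < M1 ∨ R*M1 ≤ (n / PP R M0 M1 l) % (R*M1) + M1) ∨
    rho ≤ (Ms1.filter (· ∣ n / PP R M0 M1 l)).card

theorem pow2_aux {a b c d : ℕ} (had : a ≤ d) (hbc : b ≤ c) (h : 2^a + 2^d = 2^b + 2^c) :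
    a = b ∧ c = d := by
  have key : ∀ a b c d : ℕ, a ≤ d → b ≤ c → 2^a + 2^d = 2^b + 2^c → ¬ a < b := by
    intro a b c d had hbc h hab
    rcases Nat.lt_or_ge a d with hd | hd
    · have h1 : 2^(a+1) ∣ 2^d := pow_dvd_pow 2 hd
      have h2 : 2^(a+1) ∣ 2^b := pow_dvd_pow 2 hab
      have h3 : 2^(a+1) ∣ 2^c := pow_dvd_pow 2 (lt_of_lt_of_le hab hbc)
      have h4 : 2^(a+1) ∣ 2^a + 2^d := by rw [h]; exact dvd_add h2 h3
      have h5 : 2^(a+1) ∣ 2^a := (Nat.dvd_add_left h1).mp h4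
      have h6 := Nat.le_of_dvd (by positivity) h5
      have h7 : 2^a < 2^(a+1) := Nat.pow_lt_pow_right (by norm_num) (by omega)
      omega
    · have hda : d = a := le_antisymm hd had
      subst hda
      have h2 : 2^(d+1) ≤ 2^b := Nat.pow_le_pow_right (by norm_num) hab
      have h3 : 0 < 2^c := by positivity
      have h4 : 2^(d+1) = 2^d + 2^d := by ring
      omega
  have h1 := key a b c d had hbc h
  have h2 := key b a d c hbc had h.symm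
  have hab : a = b := by omega
  subst hab
  have h3 : 2^d = 2^c := by omega
  exact ⟨rfl, (Nat.pow_right_injective (le_refl 2) h3).symm⟩

theorem pow2 {a b c d : ℕ} (h : 2^a + 2^d = 2^b + 2^c) :
    (a = b ∧ c = d) ∨ (a = c ∧ b = d) := by
  rcases le_total a d with had | had <;> rcases le_total b c with hbc | hbc
  · left; exact pow2_aux had hbc h
  · right
    have h' : 2^a + 2^d = 2^c + 2^b := by omega
    have := pow2_aux had hbc h'
    exact ⟨this.1, this.2⟩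
  · right
    have h' : 2^d + 2^a = 2^b + 2^c := by omega
    have := pow2_aux had hbc h'
    exact ⟨this.2.symm, this.1.symm⟩
  · left
    have h' : 2^d + 2^a = 2^c + 2^b := by omega
    have := pow2_aux had hbc h'
    exact ⟨this.2.symm, this.1.symm⟩

/-- at most one pair meets a thin window -/
theorem one_pair {K : ℕ} {Q Sg Wd lo T : ℤ} {x : ℕ → ℕ}
    (hx : ∀ a, Q ∣ (x a : ℤ) - 16 * 2^a * Sg) (hWd : Wd ≤ 16 * Sg)
    (hS : 0 < Sg) (hQ : 2^(K+6) * Sg + Wd ≤ Q)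
    {a b c d : ℕ} (ha : a < K) (hb : b < K) (hc : c < K) (hd : d < K) (hab : a ≠ b)
    {u u' : ℤ} (hu : lo ≤ u) (hu2 : u < lo + Wd) (hu' : lo ≤ u') (hu2' : u' < lo + Wd)
    (h1 : Q ∣ (T + x a - x b) - u) (h2 : Q ∣ (T + x c - x d) - u') : a = c ∧ b = d := by
  have hpos : ∀ n : ℕ, (0:ℤ) < 2^n := fun n => by positivity
  have hle : ∀ n : ℕ, n < K → (2:ℤ)^n ≤ 2^K := fun n hn =>
    pow_le_pow_right₀ (by norm_num) hn.le
  set D : ℤ := (2^a - 2^b) - (2^c - 2^d) with hD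
  have hdiv : Q ∣ 16 * D * Sg - (u - u') := by
    have e : 16 * D * Sg - (u - u') = ((T + x a - x b) - u) - ((T + x c - x d) - u')
        - ((x a : ℤ) - 16 * 2^a * Sg) + ((x b : ℤ) - 16 * 2^b * Sg)
        + ((x c : ℤ) - 16 * 2^c * Sg) - ((x d : ℤ) - 16 * 2^d * Sg) := by
      rw [hD]; ring
    rw [e]
    exact dvd_sub (dvd_add (dvd_add (dvd_sub (dvd_sub h1 h2) (hx a)) (hx b)) (hx c)) (hx d)
  have hDb : |D| < 2 * 2^K := by
    rw [abs_lt]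
    have := hpos a; have := hpos b; have := hpos c; have := hpos d
    have := hle a ha; have := hle b hb; have := hle c hc; have := hle d hd
    constructor <;> linarith
  have hK6 : (2:ℤ)^(K+6) = 64 * 2^K := by rw [pow_add]; norm_num; ring
  have habs : |16 * D * Sg - (u - u')| < Q := by
    have h3 : |16 * D * Sg| ≤ 32 * 2^K * Sg := by
      rw [abs_mul, abs_mul, abs_of_pos hS]
      have : |(16:ℤ)| = 16 := by norm_num
      rw [this]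
      have : 16 * |D| ≤ 32 * 2^K := by linarith
      exact mul_le_mul_of_nonneg_right this hS.le
    have h4 : |u - u'| < Wd := by rw [abs_lt]; constructor <;> linarith
    have h5 : |16 * D * Sg - (u - u')| ≤ |16 * D * Sg| + |u - u'| := abs_sub _ _
    have h6 : (0:ℤ) < 2^K * Sg := mul_pos (hpos K) hS
    rw [hK6] at hQ
    nlinarith
  have hzero : 16 * D * Sg - (u - u') = 0 := Int.eq_zero_of_abs_lt_dvd hdiv habs
  have hD0 : D = 0 := by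
    by_contra hne
    have h7 : 1 ≤ |D| := Int.one_le_abs hne
    have h8 : |16 * D * Sg| = 16 * |D| * Sg := by
      rw [abs_mul, abs_mul, abs_of_pos hS]; norm_num
    have h9 : |u - u'| < Wd := by rw [abs_lt]; constructor <;> linarith
    have h10 : 16 * D * Sg = u - u' := by linarith
    rw [h10] at h8
    have : 16 * Sg ≤ 16 * |D| * Sg := by nlinarith
    linarith
  have hsum : (2:ℤ)^a + 2^d = 2^b + 2^c := by rw [hD] at hD0; linarith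
  have hsum' : (2:ℕ)^a + 2^d = 2^b + 2^c := by exact_mod_cast hsum
  rcases pow2 hsum' with h | h
  · exact absurd h.1 hab
  · exact h

theorem win_div {N W0 k : ℕ} (hW : 0 < W0) (h : k ∣ N / W0) :
    ∃ u : ℤ, 0 ≤ u ∧ u < 0 + (W0 : ℤ) ∧ ((W0 * k : ℕ) : ℤ) ∣ (N : ℤ) - u := by
  obtain ⟨q, hq⟩ := h
  have h1 := Nat.div_add_mod N W0
  rw [hq] at h1
  have h3 := Nat.mod_lt N hW
  generalize N % W0 = r at h1 h3
  refine ⟨(r : ℤ), by positivity, by omega, ⟨(q : ℤ), ?_⟩⟩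
  have h2 : ((W0 * (k * q) + r : ℕ) : ℤ) = N := by exact_mod_cast h1
  push_cast at h2 ⊢
  linarith

theorem win_star {N W0 Rr M : ℕ} (hW : 0 < W0) (hRM : 0 < Rr * M)
    (h : (N / W0) % (Rr * M) < M ∨ Rr * M ≤ (N / W0) % (Rr * M) + M) :
    ∃ u : ℤ, -((W0 * M : ℕ) : ℤ) ≤ u ∧ u < -((W0 * M : ℕ) : ℤ) + ((2 * (W0 * M) : ℕ) : ℤ) ∧
      ((W0 * (Rr * M) : ℕ) : ℤ) ∣ (N : ℤ) - u := by
  have h1 := Nat.div_add_mod N W0
  have h3 := Nat.mod_lt N hW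
  generalize N % W0 = r at h1 h3
  have h4 := Nat.div_add_mod (N / W0) (Rr * M)
  have h5 := Nat.mod_lt (N / W0) hRM
  generalize (N / W0) % (Rr * M) = v at h h4 h5
  generalize (N / W0) / (Rr * M) = q at h4
  rw [← h4] at h1
  have h2 : ((W0 * (Rr * M * q + v) + r : ℕ) : ℤ) = N := by exact_mod_cast h1
  rcases h with h | h
  · refine ⟨((W0 * v + r : ℕ) : ℤ), ?_, ?_, ⟨(q : ℤ), ?_⟩⟩
    · have : (0:ℤ) ≤ ((W0 * v + r : ℕ) : ℤ) := by positivity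
      have : (0:ℤ) ≤ ((W0 * M : ℕ) : ℤ) := by positivity
      linarith
    · have : W0 * v + r < W0 * M := by
        calc W0 * v + r < W0 * v + W0 := by omega
          _ = W0 * (v + 1) := by ring
          _ ≤ W0 * M := Nat.mul_le_mul_left _ h
      push_cast
      have h6 : ((W0 * v + r : ℕ) : ℤ) < ((W0 * M : ℕ) : ℤ) := by exact_mod_cast this
      push_cast at h6
      linarith
    · push_cast at h2 ⊢
      linarith
  · refine ⟨((W0 * v + r : ℕ) : ℤ) - ((W0 * (Rr * M) : ℕ) : ℤ), ?_, ?_, ⟨(q : ℤ) + 1, ?_⟩⟩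
    · have : W0 * (Rr * M) ≤ W0 * v + W0 * M := by
        rw [← mul_add]; exact Nat.mul_le_mul_left _ h
      have h6 : ((W0 * (Rr * M) : ℕ) : ℤ) ≤ ((W0 * v + W0 * M : ℕ) : ℤ) := by exact_mod_cast this
      push_cast at h6 ⊢
      have : (0:ℤ) ≤ (r:ℤ) := by positivity
      linarith
    · have : W0 * v + r < W0 * (Rr * M) := by
        calc W0 * v + r < W0 * v + W0 := by omega
          _ = W0 * (v + 1) := by ring
          _ ≤ W0 * (Rr * M) := Nat.mul_le_mul_left _ h5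
      have h6 : ((W0 * v + r : ℕ) : ℤ) < ((W0 * (Rr * M) : ℕ) : ℤ) := by exact_mod_cast this
      have h7 : (0:ℤ) ≤ ((W0 * M : ℕ) : ℤ) := by positivity
      push_cast at h6 h7 ⊢
      linarith
    · push_cast at h2 ⊢
      linarith

def Ssum (Mp R M0 M1 l : ℕ) : ℕ :=
  1 + Mp + Mp*M0 + ∑ j ∈ Finset.range l, (Mp * PP R M0 M1 j + Mp * PP R M0 M1 j * M1)

def xx (Mp R M0 M1 m a : ℕ) : ℕ := 16 * 2^a * Ssum Mp R M0 M1 m

theorem PP_succ (R M0 M1 l : ℕ) : PP R M0 M1 (l+1) = PP R M0 M1 l * (R * M1) := by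
  unfold PP; ring

theorem Ssum_succ (Mp R M0 M1 l : ℕ) : Ssum Mp R M0 M1 (l+1)
    = Ssum Mp R M0 M1 l + (Mp * PP R M0 M1 l + Mp * PP R M0 M1 l * M1) := by
  unfold Ssum; rw [Finset.sum_range_succ]; ring

theorem PP_dvd {R M0 M1 l k : ℕ} (h : l ≤ k) : PP R M0 M1 l ∣ PP R M0 M1 k := by
  unfold PP; exact mul_dvd_mul_left _ (pow_dvd_pow _ h)

theorem Ssum_rest {Mp R M0 M1 l m : ℕ} (h : l ≤ m) :
    ∃ t, Ssum Mp R M0 M1 m = Ssum Mp R M0 M1 l + Mp * PP R M0 M1 l * t := by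
  induction m, h using Nat.le_induction with
  | base => exact ⟨0, by simp⟩
  | succ m hm ih =>
    obtain ⟨t, ht⟩ := ih
    obtain ⟨c, hc⟩ := PP_dvd (R := R) (M0 := M0) (M1 := M1) hm
    refine ⟨t + c + c * M1, ?_⟩
    rw [Ssum_succ, ht, hc]; ring

theorem PP_pos {R M0 M1 l : ℕ} (hR : 4 ≤ R) (h0 : 4 ≤ M0) (h1 : 4 ≤ M1) :
    0 < PP R M0 M1 l := by
  unfold PP
  have : 0 < R * M0 := by positivity
  have : 0 < R * M1 := by positivity
  positivity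

theorem Ssum_le {Mp R M0 M1 : ℕ} (hMp : 4 ≤ Mp) (hR : 4 ≤ R) (h0 : 4 ≤ M0) (h1 : 4 ≤ M1)
    (l : ℕ) : Ssum Mp R M0 M1 l ≤ Mp * PP R M0 M1 l := by
  induction l with
  | zero =>
    unfold Ssum PP
    simp only [Finset.range_zero, Finset.sum_empty, add_zero, pow_zero, mul_one]
    have e1 : Mp * 4 ≤ Mp * M0 := Nat.mul_le_mul_left _ h0
    have e2 : (Mp * M0) * 4 ≤ (Mp * M0) * R := Nat.mul_le_mul_left _ hR
    have e3 : Mp * (R * M0) = (Mp * M0) * R := by ring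
    rw [e3]; omega
  | succ l ih =>
    rw [Ssum_succ, PP_succ]
    have e : Mp * (PP R M0 M1 l * (R * M1)) = (Mp * PP R M0 M1 l) * (R * M1) := by ring
    rw [e]
    have h2 : 2 + M1 ≤ R * M1 := by nlinarith
    have h3 := Nat.mul_le_mul_left (Mp * PP R M0 M1 l) h2
    have h4 : (Mp * PP R M0 M1 l) * (2 + M1) = (Mp * PP R M0 M1 l)
      + ((Mp * PP R M0 M1 l) + (Mp * PP R M0 M1 l) * M1) := by ring
    omega

theorem hx_of {Mp R M0 M1 m Sg Q : ℕ} (h : ∃ t, Ssum Mp R M0 M1 m = Sg + Q * t) (a : ℕ) :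
    (Q : ℤ) ∣ (xx Mp R M0 M1 m a : ℤ) - 16 * 2^a * (Sg : ℤ) := by
  obtain ⟨t, ht⟩ := h
  refine ⟨16 * 2^a * t, ?_⟩
  unfold xx
  rw [ht]; push_cast; ring

theorem xx_mono {Mp R M0 M1 m a b : ℕ} (h : a ≤ b) :
    xx Mp R M0 M1 m a ≤ xx Mp R M0 M1 m b := by
  unfold xx
  exact Nat.mul_le_mul_right _ (Nat.mul_le_mul_left _ (Nat.pow_le_pow_right (by norm_num) h))

section main

variable {m r K Mp R M0 M1 rho : ℕ} {Ms Ms1 : Finset ℕ}

theorem k10 {K : ℕ} : 2^(K+10) = 1024 * 2^K := by rw [pow_add]; norm_num; ring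

theorem ineqQ {K S Y k W : ℕ} (hS : S ≤ 2 * Y) (hW : W ≤ 2 * Y) (hk : 2^(K+10) ≤ k) :
    (2:ℤ)^(K+6) * (S : ℤ) + (W : ℤ) ≤ ((Y * k : ℕ) : ℤ) := by
  have h : 2^(K+6) * S + W ≤ Y * k := by
    have e6 : 2^(K+6) = 64 * 2^K := by rw [pow_add]; norm_num; ring
    have hK1 : 1 ≤ 2^K := Nat.one_le_two_pow
    rw [k10] at hk
    calc 2^(K+6) * S + W ≤ 2^(K+6) * (2 * Y) + 2 * Y :=
          Nat.add_le_add (Nat.mul_le_mul_left _ hS) hW
      _ = 128 * (2^K * Y) + 2 * Y := by rw [e6]; ring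
      _ ≤ 128 * (2^K * Y) + 2 * (2^K * Y) := by nlinarith
      _ ≤ 1024 * (2^K * Y) := by omega
      _ = Y * (1024 * 2^K) := by ring
      _ ≤ Y * k := Nat.mul_le_mul_left _ hk
  exact_mod_cast h

theorem golomb (hMp : 2^(K+10) ≤ Mp) {a b c d : ℕ} (ha : a < K) (hb : b < K) (hc : c < K)
    (hd : d < K)
    (h : (Mp : ℤ) ∣ ((xx Mp R M0 M1 m a : ℤ) - xx Mp R M0 M1 m b)
      - (xx Mp R M0 M1 m c - xx Mp R M0 M1 m d)) : (a = c ∧ b = d) ∨ (a = b ∧ c = d) := by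
  have hx : ∀ a, (Mp : ℤ) ∣ (xx Mp R M0 M1 m a : ℤ) - 16 * 2^a * ((1 : ℕ) : ℤ) := by
    apply hx_of
    obtain ⟨t, ht⟩ := Ssum_rest (Mp := Mp) (R := R) (M0 := M0) (M1 := M1) (Nat.zero_le m)
    refine ⟨1 + M0 + PP R M0 M1 0 * t, ?_⟩
    rw [ht]; unfold Ssum; simp; ring
  have hK : (1:ℤ) ≤ 2^K := one_le_pow₀ (by norm_num)
  have hMp' : (1024 : ℤ) * 2^K ≤ Mp := by
    have := hMp; rw [k10] at this; exact_mod_cast this
  have hQ : (2:ℤ)^(K+6) * ((1 : ℕ) : ℤ) + 1 ≤ (Mp : ℤ) := by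
    have : (2:ℤ)^(K+6) = 64 * 2^K := by rw [pow_add]; norm_num; ring
    rw [this]; push_cast; linarith
  by_cases hab : a = b
  · right
    refine ⟨hab, ?_⟩
    by_contra hcd
    subst hab
    have h2 : (Mp : ℤ) ∣ ((0:ℤ) + xx Mp R M0 M1 m c - xx Mp R M0 M1 m d) - 0 := by
      have e : ((0:ℤ) + xx Mp R M0 M1 m c - xx Mp R M0 M1 m d) - 0
        = -(((xx Mp R M0 M1 m a : ℤ) - xx Mp R M0 M1 m a)
          - (xx Mp R M0 M1 m c - xx Mp R M0 M1 m d)) := by ring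
      rw [e]; exact (dvd_neg).mpr h
    have h3 : (Mp : ℤ) ∣ ((0:ℤ) + xx Mp R M0 M1 m a - xx Mp R M0 M1 m a) - 0 := by simp
    have := one_pair (lo := 0) (Wd := 1) (T := 0) hx (by norm_num) (by norm_num) hQ hc hd ha ha hcd
      (le_refl 0) (by norm_num) (le_refl 0) (by norm_num) h2 h3
    exact hcd (this.1.trans this.2.symm)
  · left
    have h2 : (Mp : ℤ) ∣ (-((xx Mp R M0 M1 m a : ℤ) - xx Mp R M0 M1 m b)
        + xx Mp R M0 M1 m a - xx Mp R M0 M1 m b) - 0 := by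
      have e : (-((xx Mp R M0 M1 m a : ℤ) - xx Mp R M0 M1 m b)
        + xx Mp R M0 M1 m a - xx Mp R M0 M1 m b) - 0 = 0 := by ring
      rw [e]; exact dvd_zero _
    have h3 : (Mp : ℤ) ∣ (-((xx Mp R M0 M1 m a : ℤ) - xx Mp R M0 M1 m b)
        + xx Mp R M0 M1 m c - xx Mp R M0 M1 m d) - 0 := by
      have e : (-((xx Mp R M0 M1 m a : ℤ) - xx Mp R M0 M1 m b)
        + xx Mp R M0 M1 m c - xx Mp R M0 M1 m d) - 0
        = -(((xx Mp R M0 M1 m a : ℤ) - xx Mp R M0 M1 m b)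
          - (xx Mp R M0 M1 m c - xx Mp R M0 M1 m d)) := by ring
      rw [e]; exact (dvd_neg).mpr h
    exact one_pair (lo := 0) (Wd := 1) hx (by norm_num) (by norm_num) hQ ha hb hc hd hab
      (le_refl 0) (by norm_num) (le_refl 0) (by norm_num) h2 h3

theorem card_le_one_of (F : Finset (ℕ × ℕ)) (h : ∀ p ∈ F, ∀ q ∈ F, p.1 = q.1 ∧ p.2 = q.2) :
    F.card ≤ 1 := by
  rw [Finset.card_le_one]
  intro p hp q hq
  exact Prod.ext (h p hp q hq).1 (h p hp q hq).2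

/-- for one level divisor at most one pair -/
theorem one_div (hMp : 2^(K+10) ≤ Mp) (hR : 2^(K+10) ≤ R) (h0 : 2^(K+10) ≤ M0)
    (h1 : 2^(K+10) ≤ M1) {l k : ℕ} (hl : l < m) (hk : 2^(K+10) ≤ k) (hk1 : k ∣ M1)
    {T : ℕ} (hT : xx Mp R M0 M1 m K ≤ T) {a b c d : ℕ} (ha : a < K) (hb : b < K) (hc : c < K)
    (hd : d < K) (hab : a ≠ b)
    (hp : k ∣ ((T + xx Mp R M0 M1 m a - xx Mp R M0 M1 m b) / Mp) / PP R M0 M1 l)
    (hq : k ∣ ((T + xx Mp R M0 M1 m c - xx Mp R M0 M1 m d) / Mp) / PP R M0 M1 l) :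
    a = c ∧ b = d := by
  have hK1 : 1 ≤ 2^K := Nat.one_le_two_pow
  have hMp4 : 4 ≤ Mp := by rw [k10] at hMp; omega
  have hR4 : 4 ≤ R := by rw [k10] at hR; omega
  have h04 : 4 ≤ M0 := by rw [k10] at h0; omega
  have h14 : 4 ≤ M1 := by rw [k10] at h1; omega
  rw [Nat.div_div_eq_div_mul] at hp hq
  have hY : 0 < Mp * PP R M0 M1 l := Nat.mul_pos (by omega) (PP_pos hR4 h04 h14)
  obtain ⟨u, hu1, hu2, hu3⟩ := win_div hY hp
  obtain ⟨u', hu1', hu2', hu3'⟩ := win_div hY hq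
  have hb' := (xx_mono (Mp := Mp) (R := R) (M0 := M0) (M1 := M1) (m := m) hb.le).trans hT
  have hd' := (xx_mono (Mp := Mp) (R := R) (M0 := M0) (M1 := M1) (m := m) hd.le).trans hT
  rw [Nat.cast_sub (by omega), Nat.cast_add] at hu3 hu3'
  have hx : ∀ a, ((Mp * PP R M0 M1 l * k : ℕ) : ℤ) ∣ (xx Mp R M0 M1 m a : ℤ)
      - 16 * 2^a * ((Ssum Mp R M0 M1 l + Mp * PP R M0 M1 l : ℕ) : ℤ) := by
    apply hx_of
    obtain ⟨t, ht⟩ := Ssum_rest (Mp := Mp) (R := R) (M0 := M0) (M1 := M1) (Nat.succ_le_of_lt hl)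
    obtain ⟨c, hc⟩ := hk1
    refine ⟨c + R * c * t, ?_⟩
    rw [ht, Nat.succ_eq_add_one, Ssum_succ, PP_succ]
    generalize PP R M0 M1 l = P
    generalize Ssum Mp R M0 M1 l = S
    rw [hc]; ring
  have hSle := Ssum_le (Mp := Mp) (R := R) (M0 := M0) (M1 := M1) hMp4 hR4 h04 h14 l
  have hQ := ineqQ (K := K) (S := Ssum Mp R M0 M1 l + Mp * PP R M0 M1 l)
    (Y := Mp * PP R M0 M1 l) (k := k) (W := Mp * PP R M0 M1 l) (by omega) (by omega) hk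
  refine one_pair (lo := 0) hx ?_ ?_ hQ ha hb hc hd hab hu1 hu2 hu1' hu2' hu3 hu3'
  · have : Mp * PP R M0 M1 l ≤ 16 * (Ssum Mp R M0 M1 l + Mp * PP R M0 M1 l) := by omega
    exact_mod_cast this
  · have : 0 < Ssum Mp R M0 M1 l + Mp * PP R M0 M1 l := by omega
    exact_mod_cast this

/-- star divisors -/
theorem one_div0 (hMp : 2^(K+10) ≤ Mp) {k : ℕ} (hk : 2^(K+10) ≤ k) (hk1 : k ∣ M0)
    {T : ℕ} (hT : xx Mp R M0 M1 m K ≤ T) {a b c d : ℕ} (ha : a < K) (hb : b < K) (hc : c < K)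
    (hd : d < K) (hab : a ≠ b)
    (hp : k ∣ (T + xx Mp R M0 M1 m a - xx Mp R M0 M1 m b) / Mp)
    (hq : k ∣ (T + xx Mp R M0 M1 m c - xx Mp R M0 M1 m d) / Mp) :
    a = c ∧ b = d := by
  have hK1 : 1 ≤ 2^K := Nat.one_le_two_pow
  have hMp4 : 4 ≤ Mp := by rw [k10] at hMp; omega
  have hY : 0 < Mp := by omega
  obtain ⟨u, hu1, hu2, hu3⟩ := win_div hY hp
  obtain ⟨u', hu1', hu2', hu3'⟩ := win_div hY hq
  have hb' := (xx_mono (Mp := Mp) (R := R) (M0 := M0) (M1 := M1) (m := m) hb.le).trans hT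
  have hd' := (xx_mono (Mp := Mp) (R := R) (M0 := M0) (M1 := M1) (m := m) hd.le).trans hT
  rw [Nat.cast_sub (by omega), Nat.cast_add] at hu3 hu3'
  have hx : ∀ a, ((Mp * k : ℕ) : ℤ) ∣ (xx Mp R M0 M1 m a : ℤ)
      - 16 * 2^a * ((1 + Mp : ℕ) : ℤ) := by
    apply hx_of
    obtain ⟨t, ht⟩ := Ssum_rest (Mp := Mp) (R := R) (M0 := M0) (M1 := M1) (Nat.zero_le m)
    obtain ⟨c, hc⟩ := hk1
    refine ⟨c + R * c * t, ?_⟩
    rw [ht]; unfold Ssum PP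
    simp only [Finset.range_zero, Finset.sum_empty, add_zero, pow_zero, mul_one]
    rw [hc]; ring
  have hQ := ineqQ (K := K) (S := 1 + Mp) (Y := Mp) (k := k) (W := Mp) (by omega) (by omega) hk
  refine one_pair (lo := 0) hx ?_ ?_ hQ ha hb hc hd hab hu1 hu2 hu1' hu2' hu3 hu3'
  · have : Mp ≤ 16 * (1 + Mp) := by omega
    exact_mod_cast this
  · have : 0 < 1 + Mp := by omega
    exact_mod_cast this

/-- star digit -/
theorem one_star (hMp : 2^(K+10) ≤ Mp) (hR : 2^(K+10) ≤ R) (h0 : 2^(K+10) ≤ M0)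
    {T : ℕ} (hT : xx Mp R M0 M1 m K ≤ T) {a b c d : ℕ} (ha : a < K) (hb : b < K) (hc : c < K)
    (hd : d < K) (hab : a ≠ b)
    (hp : ((T + xx Mp R M0 M1 m a - xx Mp R M0 M1 m b) / Mp) % (R*M0) < M0 ∨
      R*M0 ≤ ((T + xx Mp R M0 M1 m a - xx Mp R M0 M1 m b) / Mp) % (R*M0) + M0)
    (hq : ((T + xx Mp R M0 M1 m c - xx Mp R M0 M1 m d) / Mp) % (R*M0) < M0 ∨
      R*M0 ≤ ((T + xx Mp R M0 M1 m c - xx Mp R M0 M1 m d) / Mp) % (R*M0) + M0) :
    a = c ∧ b = d := by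
  have hK1 : 1 ≤ 2^K := Nat.one_le_two_pow
  have hMp4 : 4 ≤ Mp := by rw [k10] at hMp; omega
  have hR4 : 4 ≤ R := by rw [k10] at hR; omega
  have h04 : 4 ≤ M0 := by rw [k10] at h0; omega
  have hY : 0 < Mp := by omega
  have hRM : 0 < R * M0 := by positivity
  obtain ⟨u, hu1, hu2, hu3⟩ := win_star hY hRM hp
  obtain ⟨u', hu1', hu2', hu3'⟩ := win_star hY hRM hq
  have hb' := (xx_mono (Mp := Mp) (R := R) (M0 := M0) (M1 := M1) (m := m) hb.le).trans hT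
  have hd' := (xx_mono (Mp := Mp) (R := R) (M0 := M0) (M1 := M1) (m := m) hd.le).trans hT
  rw [Nat.cast_sub (by omega), Nat.cast_add] at hu3 hu3'
  have e : Mp * (R * M0) = (Mp * M0) * R := by ring
  rw [e] at hu3 hu3'
  have hx : ∀ a, ((Mp * M0 * R : ℕ) : ℤ) ∣ (xx Mp R M0 M1 m a : ℤ)
      - 16 * 2^a * ((1 + Mp + Mp * M0 : ℕ) : ℤ) := by
    apply hx_of
    obtain ⟨t, ht⟩ := Ssum_rest (Mp := Mp) (R := R) (M0 := M0) (M1 := M1) (Nat.zero_le m)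
    refine ⟨t, ?_⟩
    rw [ht]; unfold Ssum PP
    simp only [Finset.range_zero, Finset.sum_empty, add_zero, pow_zero, mul_one]
    ring
  have h5 : Mp * 4 ≤ Mp * M0 := Nat.mul_le_mul_left _ h04
  have hQ := ineqQ (K := K) (S := 1 + Mp + Mp * M0) (Y := Mp * M0) (k := R)
    (W := 2 * (Mp * M0)) (by omega) (by omega) hR
  refine one_pair hx ?_ ?_ hQ ha hb hc hd hab hu1 hu2 hu1' hu2' hu3 hu3'
  · have : 2 * (Mp * M0) ≤ 16 * (1 + Mp + Mp * M0) := by omega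
    exact_mod_cast this
  · have : 0 < 1 + Mp + Mp * M0 := by omega
    exact_mod_cast this

/-- level digit -/
theorem one_level (hMp : 2^(K+10) ≤ Mp) (hR : 2^(K+10) ≤ R) (h0 : 2^(K+10) ≤ M0)
    (h1 : 2^(K+10) ≤ M1) {l : ℕ} (hl : l < m)
    {T : ℕ} (hT : xx Mp R M0 M1 m K ≤ T) {a b c d : ℕ} (ha : a < K) (hb : b < K) (hc : c < K)
    (hd : d < K) (hab : a ≠ b)
    (hp : (((T + xx Mp R M0 M1 m a - xx Mp R M0 M1 m b) / Mp) / PP R M0 M1 l) % (R*M1) < M1 ∨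
      R*M1 ≤ (((T + xx Mp R M0 M1 m a - xx Mp R M0 M1 m b) / Mp) / PP R M0 M1 l) % (R*M1) + M1)
    (hq : (((T + xx Mp R M0 M1 m c - xx Mp R M0 M1 m d) / Mp) / PP R M0 M1 l) % (R*M1) < M1 ∨
      R*M1 ≤ (((T + xx Mp R M0 M1 m c - xx Mp R M0 M1 m d) / Mp) / PP R M0 M1 l) % (R*M1) + M1) :
    a = c ∧ b = d := by
  have hK1 : 1 ≤ 2^K := Nat.one_le_two_pow
  have hMp4 : 4 ≤ Mp := by rw [k10] at hMp; omega
  have hR4 : 4 ≤ R := by rw [k10] at hR; omega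
  have h04 : 4 ≤ M0 := by rw [k10] at h0; omega
  have h14 : 4 ≤ M1 := by rw [k10] at h1; omega
  rw [Nat.div_div_eq_div_mul] at hp hq
  have hY : 0 < Mp * PP R M0 M1 l := Nat.mul_pos (by omega) (PP_pos hR4 h04 h14)
  have hRM : 0 < R * M1 := by positivity
  obtain ⟨u, hu1, hu2, hu3⟩ := win_star hY hRM hp
  obtain ⟨u', hu1', hu2', hu3'⟩ := win_star hY hRM hq
  have hb' := (xx_mono (Mp := Mp) (R := R) (M0 := M0) (M1 := M1) (m := m) hb.le).trans hT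
  have hd' := (xx_mono (Mp := Mp) (R := R) (M0 := M0) (M1 := M1) (m := m) hd.le).trans hT
  rw [Nat.cast_sub (by omega), Nat.cast_add] at hu3 hu3'
  have e : Mp * PP R M0 M1 l * (R * M1) = (Mp * PP R M0 M1 l * M1) * R := by ring
  rw [e] at hu3 hu3'
  have hx : ∀ a, ((Mp * PP R M0 M1 l * M1 * R : ℕ) : ℤ) ∣ (xx Mp R M0 M1 m a : ℤ)
      - 16 * 2^a * ((Ssum Mp R M0 M1 (l+1) : ℕ) : ℤ) := by
    apply hx_of
    obtain ⟨t, ht⟩ := Ssum_rest (Mp := Mp) (R := R) (M0 := M0) (M1 := M1) (Nat.succ_le_of_lt hl)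
    refine ⟨t, ?_⟩
    rw [ht, Nat.succ_eq_add_one, PP_succ]; ring
  have hSle := Ssum_le (Mp := Mp) (R := R) (M0 := M0) (M1 := M1) hMp4 hR4 h04 h14 l
  have hSs := Ssum_succ Mp R M0 M1 l
  have h5 : Mp * PP R M0 M1 l * 4 ≤ Mp * PP R M0 M1 l * M1 := Nat.mul_le_mul_left _ h14
  have hQ := ineqQ (K := K) (S := Ssum Mp R M0 M1 (l+1)) (Y := Mp * PP R M0 M1 l * M1) (k := R)
    (W := 2 * (Mp * PP R M0 M1 l * M1)) (by omega) (by omega) hR
  refine one_pair hx ?_ ?_ hQ ha hb hc hd hab hu1 hu2 hu1' hu2' hu3 hu3'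
  · have : 2 * (Mp * PP R M0 M1 l * M1) ≤ 16 * (Ssum Mp R M0 M1 (l+1)) := by omega
    exact_mod_cast this
  · have : 0 < Ssum Mp R M0 M1 (l+1) := by omega
    exact_mod_cast this

open Classical in
/-- the count, for any finite set of bad pairs -/
theorem count (hMp : 2^(K+10) ≤ Mp) (hR : 2^(K+10) ≤ R) (h0 : 2^(K+10) ≤ M0)
    (h1 : 2^(K+10) ≤ M1) (hMs : ∀ k ∈ Ms, 2^(K+10) ≤ k ∧ k ∣ M0)
    (hMs1 : ∀ k ∈ Ms1, 2^(K+10) ≤ k ∧ k ∣ M1) (hr : Ms.card ≤ r) (hr1 : Ms1.card ≤ 32*rho)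
    (hrho : 0 < rho) {T : ℕ} (hT : xx Mp R M0 M1 m K ≤ T) (F : Finset (ℕ × ℕ))
    (hF : ∀ ab ∈ F, ab.1 < K ∧ ab.2 < K ∧ ab.1 ≠ ab.2 ∧ Bad R M0 M1 m rho Ms Ms1
      ((T + xx Mp R M0 M1 m ab.1 - xx Mp R M0 M1 m ab.2)/Mp)) :
    F.card ≤ 2 + r + 34*m := by
  let n : ℕ × ℕ → ℕ := fun ab => (T + xx Mp R M0 M1 m ab.1 - xx Mp R M0 M1 m ab.2)/Mp
  let A := F.filter (fun ab => n ab % (R*M0) < M0 ∨ R*M0 ≤ n ab % (R*M0) + M0)
  let B : ℕ → Finset (ℕ×ℕ) := fun k => F.filter (fun ab => k ∣ n ab)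
  let C : ℕ → Finset (ℕ×ℕ) := fun l => F.filter (fun ab =>
    (n ab / PP R M0 M1 l) % (R*M1) < M1 ∨ R*M1 ≤ (n ab / PP R M0 M1 l) % (R*M1) + M1)
  let D : ℕ → Finset (ℕ×ℕ) := fun l => F.filter (fun ab =>
    rho ≤ (Ms1.filter (· ∣ n ab / PP R M0 M1 l)).card)
  have hsub : F ⊆ A ∪ (Ms.biUnion B ∪ (Finset.range m).biUnion (fun l => C l ∪ D l)) := by
    intro ab hab
    obtain ⟨_, _, _, hbad⟩ := hF ab hab
    simp only [Finset.mem_union, Finset.mem_biUnion, Finset.mem_range]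
    rcases hbad with h | ⟨k, hk, h⟩ | ⟨l, hl, h | h⟩
    · left; exact Finset.mem_filter.mpr ⟨hab, h⟩
    · right; left; exact ⟨k, hk, Finset.mem_filter.mpr ⟨hab, h⟩⟩
    · right; right; exact ⟨l, hl, Or.inl (Finset.mem_filter.mpr ⟨hab, h⟩)⟩
    · right; right
      refine ⟨l, hl, Or.inr (Finset.mem_filter.mpr ⟨hab, ?_⟩)⟩
      convert h using 2
  have hA : A.card ≤ 1 := by
    apply card_le_one_of
    intro p hp q hq
    obtain ⟨hpF, hp2⟩ := Finset.mem_filter.mp hp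
    obtain ⟨hqF, hq2⟩ := Finset.mem_filter.mp hq
    obtain ⟨p1, p2, p3, _⟩ := hF p hpF
    obtain ⟨q1, q2, q3, _⟩ := hF q hqF
    exact one_star hMp hR h0 hT p1 p2 q1 q2 p3 hp2 hq2
  have hB : ∀ k ∈ Ms, (B k).card ≤ 1 := by
    intro k hk
    apply card_le_one_of
    intro p hp q hq
    obtain ⟨hpF, hp2⟩ := Finset.mem_filter.mp hp
    obtain ⟨hqF, hq2⟩ := Finset.mem_filter.mp hq
    obtain ⟨p1, p2, p3, _⟩ := hF p hpF
    obtain ⟨q1, q2, q3, _⟩ := hF q hqF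
    exact one_div0 hMp (hMs k hk).1 (hMs k hk).2 hT p1 p2 q1 q2 p3 hp2 hq2
  have hC : ∀ l < m, (C l).card ≤ 1 := by
    intro l hl
    apply card_le_one_of
    intro p hp q hq
    obtain ⟨hpF, hp2⟩ := Finset.mem_filter.mp hp
    obtain ⟨hqF, hq2⟩ := Finset.mem_filter.mp hq
    obtain ⟨p1, p2, p3, _⟩ := hF p hpF
    obtain ⟨q1, q2, q3, _⟩ := hF q hqF
    exact one_level hMp hR h0 h1 hl hT p1 p2 q1 q2 p3 hp2 hq2
  have hD : ∀ l < m, (D l).card ≤ 32 := by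
    intro l hl
    have key : (D l).card * rho ≤ Ms1.card * 1 := by
      apply Finset.card_mul_le_card_mul (fun ab k => k ∣ n ab / PP R M0 M1 l)
      · intro ab hab
        have := (Finset.mem_filter.mp hab).2
        unfold Finset.bipartiteAbove
        convert this using 2
      · intro k hk
        apply card_le_one_of
        intro p hp q hq
        unfold Finset.bipartiteBelow at hp hq
        obtain ⟨hpD, hp2⟩ := Finset.mem_filter.mp hp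
        obtain ⟨hqD, hq2⟩ := Finset.mem_filter.mp hq
        obtain ⟨p1, p2, p3, _⟩ := hF p (Finset.mem_filter.mp hpD).1
        obtain ⟨q1, q2, q3, _⟩ := hF q (Finset.mem_filter.mp hqD).1
        exact one_div hMp hR h0 h1 hl (hMs1 k hk).1 (hMs1 k hk).2 hT p1 p2 q1 q2 p3 hp2 hq2
    have h2 : (D l).card * rho ≤ 32 * rho := by omega
    exact Nat.le_of_mul_le_mul_right h2 hrho
  calc F.card ≤ (A ∪ (Ms.biUnion B ∪ (Finset.range m).biUnion (fun l => C l ∪ D l))).card :=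
        Finset.card_le_card hsub
    _ ≤ A.card + (Ms.biUnion B ∪ (Finset.range m).biUnion (fun l => C l ∪ D l)).card :=
        Finset.card_union_le _ _
    _ ≤ A.card + ((Ms.biUnion B).card + ((Finset.range m).biUnion (fun l => C l ∪ D l)).card) :=
        Nat.add_le_add_left (Finset.card_union_le _ _) _
    _ ≤ 1 + (r + m * 33) := by
        have e1 : (Ms.biUnion B).card ≤ Ms.card * 1 := Finset.card_biUnion_le_card_mul _ _ _ hB
        have e2 : ((Finset.range m).biUnion (fun l => C l ∪ D l)).card ≤ (Finset.range m).card * 33 := by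
          apply Finset.card_biUnion_le_card_mul
          intro l hl
          have hl' := Finset.mem_range.mp hl
          have := Finset.card_union_le (C l) (D l)
          have := hC l hl'
          have := hD l hl'
          omega
        rw [Finset.card_range] at e2
        omega
    _ ≤ 2 + r + 34*m := by omega

open Classical in
/-- helper638 #13273, leaf U4 -/
theorem spoil (hMp : 2^(K+10) ≤ Mp) (hR : 2^(K+10) ≤ R) (h0 : 2^(K+10) ≤ M0)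
    (h1 : 2^(K+10) ≤ M1) (hMs : ∀ k ∈ Ms, 2^(K+10) ≤ k ∧ k ∣ M0)
    (hMs1 : ∀ k ∈ Ms1, 2^(K+10) ≤ k ∧ k ∣ M1) (hr : Ms.card ≤ r) (hr1 : Ms1.card ≤ 32*rho)
    (hrho : 0 < rho) :
    ∃ (x : ℕ → ℕ) (T0 : ℕ),
      (∀ a b c d, a < K → b < K → c < K → d < K →
        (Mp:ℤ) ∣ ((x a:ℤ) - x b) - (x c - x d) → (a = c ∧ b = d) ∨ (a = b ∧ c = d)) ∧
      ∀ T, T0 ≤ T → (((Finset.range K) ×ˢ (Finset.range K)).filter (fun ab : ℕ × ℕ =>
        ab.1 ≠ ab.2 ∧ Bad R M0 M1 m rho Ms Ms1 ((T + x ab.1 - x ab.2) / Mp))).card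
          ≤ 2 + r + 34*m := by
  refine ⟨xx Mp R M0 M1 m, xx Mp R M0 M1 m K, ?_, ?_⟩
  · intro a b c d ha hb hc hd h
    exact golomb hMp ha hb hc hd h
  · intro T hT
    apply count hMp hR h0 h1 hMs hMs1 hr hr1 hrho hT
    intro ab hab
    rw [Finset.mem_filter, Finset.mem_product, Finset.mem_range, Finset.mem_range] at hab
    exact ⟨hab.1.1, hab.1.2, hab.2.1, hab.2.2⟩

/-- Golomb clause in the mod form: `a ≠ b` and `x a + x d ≡ x c + x b` give `a = c, b = d` -/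
theorem golomb_mod (hMp : 2^(K+10) ≤ Mp) {a b c d : ℕ} (ha : a < K) (hb : b < K) (hc : c < K)
    (hd : d < K) (hab : a ≠ b)
    (h : (xx Mp R M0 M1 m a + xx Mp R M0 M1 m d) % Mp
      = (xx Mp R M0 M1 m c + xx Mp R M0 M1 m b) % Mp) : a = c ∧ b = d := by
  have h2 : (Mp : ℤ) ∣ ((xx Mp R M0 M1 m a : ℤ) - xx Mp R M0 M1 m b)
      - (xx Mp R M0 M1 m c - xx Mp R M0 M1 m d) := by
    have h3 : (xx Mp R M0 M1 m c + xx Mp R M0 M1 m b) ≡ (xx Mp R M0 M1 m a + xx Mp R M0 M1 m d)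
      [MOD Mp] := h.symm
    have h4 := (Nat.modEq_iff_dvd).mp h3
    push_cast at h4
    have e : ((xx Mp R M0 M1 m a : ℤ) - xx Mp R M0 M1 m b)
      - (xx Mp R M0 M1 m c - xx Mp R M0 M1 m d)
      = (xx Mp R M0 M1 m a + xx Mp R M0 M1 m d : ℤ) - (xx Mp R M0 M1 m c + xx Mp R M0 M1 m b) := by
      ring
    rw [e]; exact h4
  rcases golomb hMp ha hb hc hd h2 with h5 | h5
  · exact h5
  · exact absurd h5.1 hab

/-- the full packaged form: the ruler, its bound and both clauses -/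
theorem spoil' (hMp : 2^(K+10) ≤ Mp) (hR : 2^(K+10) ≤ R) (h0 : 2^(K+10) ≤ M0)
    (h1 : 2^(K+10) ≤ M1) (hMs : ∀ k ∈ Ms, 2^(K+10) ≤ k ∧ k ∣ M0)
    (hMs1 : ∀ k ∈ Ms1, 2^(K+10) ≤ k ∧ k ∣ M1) (hr : Ms.card ≤ r) (hr1 : Ms1.card ≤ 32*rho)
    (hrho : 0 < rho) :
    ∃ (x : ℕ → ℕ) (N : ℕ), (∀ a ≤ K, x a ≤ N) ∧ StrictMono x ∧ (∀ a, 0 < x a) ∧
      (∀ a b c d, a < K → b < K → c < K → d < K → a ≠ b →
        (x a + x d) % Mp = (x c + x b) % Mp → a = c ∧ b = d) ∧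
      ∀ T, N ≤ T → ∀ F : Finset (ℕ × ℕ), (∀ ab ∈ F, ab.1 < K ∧ ab.2 < K ∧ ab.1 ≠ ab.2 ∧
        Bad R M0 M1 m rho Ms Ms1 ((T + x ab.1 - x ab.2) / Mp)) → F.card ≤ 2 + r + 34*m := by
  refine ⟨xx Mp R M0 M1 m, xx Mp R M0 M1 m K, fun a ha => xx_mono ha, ?_, ?_, ?_, ?_⟩
  · apply strictMono_nat_of_lt_succ
    intro n
    unfold xx
    have hS : 0 < Ssum Mp R M0 M1 m := by unfold Ssum; omega
    have : 16 * 2^(n+1) * Ssum Mp R M0 M1 m = 2 * (16 * 2^n * Ssum Mp R M0 M1 m) := by ring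
    have h3 : 0 < 16 * 2^n * Ssum Mp R M0 M1 m := by positivity
    omega
  · intro a
    unfold xx
    have hS : 0 < Ssum Mp R M0 M1 m := by unfold Ssum; omega
    positivity
  · intro a b c d ha hb hc hd hab h
    exact golomb_mod hMp ha hb hc hd hab h
  · intro T hT F hF
    exact count hMp hR h0 h1 hMs hMs1 hr hr1 hrho hT F hF

/-- periodicity of Bad -/
theorem bad_periodic (hR : 0 < R) (h0 : 0 < M0) (h1 : 0 < M1) (hMs : ∀ k ∈ Ms, k ∣ M0)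
    (hMs1 : ∀ k ∈ Ms1, k ∣ M1) (n : ℕ) :
    Bad R M0 M1 m rho Ms Ms1 (n + PP R M0 M1 m) ↔ Bad R M0 M1 m rho Ms Ms1 n := by
  have hP : ∀ l, 0 < PP R M0 M1 l := by
    intro l; unfold PP; positivity
  obtain ⟨c0, hc0⟩ : ∃ c, PP R M0 M1 m = (R * M0) * c := ⟨(R*M1)^m, rfl⟩
  have e0 : (n + PP R M0 M1 m) % (R*M0) = n % (R*M0) := by
    rw [hc0, Nat.add_mul_mod_self_left]
  have e1 : ∀ k ∈ Ms, (k ∣ n + PP R M0 M1 m ↔ k ∣ n) := by
    intro k hk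
    obtain ⟨c, hc⟩ := hMs k hk
    have : k ∣ PP R M0 M1 m := ⟨R * c * c0, by rw [hc0, hc]; ring⟩
    exact (Nat.dvd_add_left this)
  have e2 : ∀ l < m, ∃ c, (n + PP R M0 M1 m) / PP R M0 M1 l = n / PP R M0 M1 l + (R*M1) * c := by
    intro l hl
    obtain ⟨c, hc⟩ := PP_dvd (R := R) (M0 := M0) (M1 := M1) (Nat.succ_le_of_lt hl)
    refine ⟨c, ?_⟩
    rw [hc, Nat.succ_eq_add_one, PP_succ, mul_assoc, Nat.add_mul_div_left _ _ (hP l)]
  unfold Bad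
  rw [e0]
  refine or_congr Iff.rfl (or_congr ?_ ?_)
  · constructor
    · rintro ⟨k, hk, h⟩; exact ⟨k, hk, (e1 k hk).mp h⟩
    · rintro ⟨k, hk, h⟩; exact ⟨k, hk, (e1 k hk).mpr h⟩
  · refine exists_congr fun l => and_congr_right fun hl => ?_
    obtain ⟨c, hc⟩ := e2 l hl
    rw [hc, Nat.add_mul_mod_self_left]
    refine or_congr Iff.rfl ?_
    have e3 : (Ms1.filter (· ∣ n / PP R M0 M1 l + R * M1 * c))
        = (Ms1.filter (· ∣ n / PP R M0 M1 l)) := by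
      apply Finset.filter_congr
      intro k hk
      obtain ⟨c', hc'⟩ := hMs1 k hk
      have : k ∣ R * M1 * c := ⟨R * c' * c, by rw [hc']; ring⟩
      exact (Nat.dvd_add_left this)
    rw [e3]

end main

end Crest.Agent.R320.Spoil_387
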