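import Crest.Agent.R320.Inst_399

/-!
Row 320: the spoil hypothesis `hG` of `Inst_399.Ok.cc` from (a) an exact gadget with many copies,
(b) outer walls more than `2 (N1 + p0)` apart, (c) a ruler (`hE`, `hthin`).
-/

set_option autoImplicit false

namespace Crest.Agent.R320.Inst_399

variable {α S V : Type*} {D : Dat α S V}

section
variable [Monoid S] [AddCommGroup V]

open Classical in
theorem card_le_of_labels {L : Type*} [Fintype L] (J : Finset ℕ) (Ev : L → ℕ → Prop)
    (h1 : ∀ j ∈ J, ∃ l, Ev l j) (h2 : ∀ l j j', j ∈ J → j' ∈ J → Ev l j → Ev l j' → j = j') :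
    J.card ≤ Fintype.card L := by
  classical
  rcases J.eq_empty_or_nonempty with hJ | ⟨j0, hj0⟩
  · rw [hJ, Finset.card_empty]; exact Nat.zero_le _
  haveI : Nonempty L := ⟨(h1 j0 hj0).choose⟩
  choose! g hg using h1
  rw [← Finset.card_univ]
  refine Finset.card_le_card_of_injOn g (fun _ _ => Finset.mem_coe.2 (Finset.mem_univ _)) ?_
  intro j hj j' hj' e
  have hj0 := Finset.mem_coe.1 hj
  have hj0' := Finset.mem_coe.1 hj'
  refine h2 (g j) j j' hj0 hj0' (hg j hj0) ?_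
  rw [e]; exact hg j' hj0'

open Classical in
/-- the number of spoiled places -/
theorem Ok.spoil (h : Ok D) (nf : ℕ) (Bf : ℕ → ℕ → Prop)
    (hBf : ∀ T, D.BadT T → ∃ f < nf, Bf f T)
    (hW : ∀ (w : List α) (s t : ℕ), D.Wo (w.take s) → D.Wo (w.take t) → s < t → t ≤ w.length →
      s + 2 * (D.N1 + D.p0) < t)
    (hE : ∀ i < D.K, ∀ j < D.K, ∀ i' < D.K, ∀ j' < D.K, i ≠ j → i' ≠ j' →
      D.x i + D.x j' < D.x i' + D.x j + 2 * D.N1 → D.x i' + D.x j < D.x i + D.x j' + 2 * D.N1 → j = j')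
    (hthin : ∀ f < nf, ∀ T1 T2, ∀ i < D.K, ∀ j < D.K, ∀ i' < D.K, ∀ j' < D.K, i ≠ j → i' ≠ j' →
      Bf f T1 → Bf f T2 → T1 + D.x j + D.x i' = T2 + D.x j' + D.x i → j = j')
    {X X2 : List α} (hX : X ∈ XX D) (hX2 : X2 ∈ XX D) :
    ((Finset.range D.K).filter fun j => ∃ i < D.K, i ≠ j ∧
      St D (D.x i) (X.drop (D.x j) ++ X2)).card ≤ 1 + 2 * nf := by
  classical
  set w := X ++ X2 with hw
  have hz := h.hz
  have hn := h.npos
  obtain ⟨x1, x2, x3⟩ := hX
  obtain ⟨y1, y2, y3⟩ := hX2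
  have hwl : w.length = X.length + X2.length := by rw [hw, List.length_append]
  have hQ : ∀ j < D.K, w = X.take (D.x j) ++ (X.drop (D.x j) ++ X2) := by
    intro j _
    rw [← List.append_assoc, List.take_append_drop]
  have hl : ∀ j < D.K, (X.take (D.x j)).length = D.x j := by
    intro j hj
    have := h.xlt j hj
    rw [List.length_take]; omega
  have hQl : ∀ j < D.K, (X.drop (D.x j) ++ X2).length = w.length - D.x j := by
    intro j hj
    have := h.xlt j hj
    rw [List.length_append, List.length_drop]; omega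
  -- walls of `Q_j` are walls of `w`
  have hwall : ∀ j < D.K, ∀ s, D.n ≤ s → s ≤ (X.drop (D.x j) ++ X2).length →
      (D.Wo ((X.drop (D.x j) ++ X2).take s) ↔ D.Wo (w.take (D.x j + s))) := by
    intro j hj s s1 s2
    have := h.wo_right (X.take (D.x j)) (X.drop (D.x j) ++ X2) s1 s2
    rw [← hQ j hj, hl j hj] at this
    exact this.symm
  have hex0 : ∃ t, D.z ≤ t + D.p0 ∧ t ≤ w.length ∧ D.Wo (w.take t) :=
    ⟨X.length, by omega, by omega, by rw [hw, List.take_left' rfl]; exact x2⟩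
  obtain ⟨p1, p2, p3⟩ := Nat.find_spec hex0
  have hmin0 : ∀ t, D.z ≤ t + D.p0 → t ≤ w.length → D.Wo (w.take t) → Nat.find hex0 ≤ t :=
    fun t a b c => Nat.find_min' hex0 ⟨a, b, c⟩
  set t0 := Nat.find hex0 with ht0
  have ht0X : t0 ≤ X.length := hmin0 _ (by omega) (by omega) (by
    rw [hw, List.take_left' rfl]; exact x2)
  have hex1 : ∃ t, t0 < t ∧ t ≤ w.length ∧ D.Wo (w.take t) := by
    refine ⟨w.length, by omega, le_rfl, ?_⟩
    rw [List.take_length, hw]
    exact (h.wo_all X X2 (h.won _ y2)).2 y2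
  obtain ⟨r1, r2, r3⟩ := Nat.find_spec hex1
  have hmin1 : ∀ t, t0 < t → t ≤ w.length → D.Wo (w.take t) → Nat.find hex1 ≤ t :=
    fun t a b c => Nat.find_min' hex1 ⟨a, b, c⟩
  set t1 := Nat.find hex1 with ht1
  have h01 := hW w t0 t1 p3 r3 r1 r2
  -- ends of virtual blocks
  have hend : ∀ j < D.K, ∀ i < D.K, ∀ s, End D (D.x i) (X.drop (D.x j) ++ X2) s →
      D.x j + s = t0 ∨ D.x j + s = t1 := by
    intro j hj i hi s hs
    obtain ⟨a, b, c, d, e⟩ := hs
    have xi := h.xlt i hi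
    have xj := h.xlt j hj
    have c' := (hwall j hj s a b).1 c
    have hb : D.x j + s ≤ w.length := by
      rw [hQl j hj] at b
      have : D.x j ≤ w.length := by omega
      omega
    have g0 := hmin0 (D.x j + s) (by omega) hb c'
    rcases Nat.eq_or_lt_of_le g0 with g | g
    · exact Or.inl g.symm
    right
    have g1 := hmin1 _ g hb c'
    rcases Nat.eq_or_lt_of_le g1 with g' | g'
    · exact g'.symm
    exfalso
    refine e (t1 - D.x j) (by omega) (by omega) (by omega) ?_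
    refine (hwall j hj _ (by omega) (by omega)).2 ?_
    rw [show D.x j + (t1 - D.x j) = t1 by omega]
    exact r3
  have key := card_le_of_labels (L := Unit ⊕ (Bool × Fin nf))
    ((Finset.range D.K).filter fun j => ∃ i < D.K, i ≠ j ∧
      St D (D.x i) (X.drop (D.x j) ++ X2))
    (fun l j => match l with
      | Sum.inl _ => ∃ i < D.K, i ≠ j ∧ EE D (D.x i) (X.drop (D.x j) ++ X2)
      | Sum.inr (bb, f) => ∃ i < D.K, i ≠ j ∧ ∃ s, End D (D.x i) (X.drop (D.x j) ++ X2) s ∧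
          Bf f (D.x i + s - D.p0) ∧ D.x j + s = if bb then t0 else t1) ?_ ?_
  · refine key.trans (le_of_eq ?_)
    simp
  · intro j hj
    obtain ⟨hj1, i, hi, hij, hs⟩ := Finset.mem_filter.1 hj
    have hj2 := Finset.mem_range.1 hj1
    rcases hs with hs | ⟨s, hs, hb⟩
    · exact ⟨Sum.inl (), i, hi, hij, hs⟩
    · obtain ⟨f, hf, hb'⟩ := hBf _ hb
      rcases hend j hj2 i hi s hs with he | he
      · exact ⟨Sum.inr (true, ⟨f, hf⟩), i, hi, hij, s, hs, hb', by simpa using he⟩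
      · exact ⟨Sum.inr (false, ⟨f, hf⟩), i, hi, hij, s, hs, hb', by simpa using he⟩
  · intro l j j' hj hj' e e'
    have hj2 := Finset.mem_range.1 (Finset.mem_filter.1 hj).1
    have hj2' := Finset.mem_range.1 (Finset.mem_filter.1 hj').1
    have xj := h.xlt j hj2
    have xj' := h.xlt j' hj2'
    match l, e, e' with
    | Sum.inl _, ⟨i, hi, hij, s, a1, a2, a3, a4, a5⟩, ⟨i', hi', hij', s', b1, b2, b3, b4, b5⟩ =>
      have xi := h.xlt i hi
      have xi' := h.xlt i' hi'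
      have a3' := (hwall j hj2 s a1 a2).1 a3
      have b3' := (hwall j' hj2' s' b1 b2).1 b3
      rw [hQl j hj2] at a2
      rw [hQl j' hj2'] at b2
      have heq : D.x j + s = D.x j' + s' := by
        rcases lt_trichotomy (D.x j + s) (D.x j' + s') with g | g | g
        · have := hW w _ _ a3' b3' g (by omega)
          omega
        · exact g
        · have := hW w _ _ b3' a3' g (by omega)
          omega
      exact hE i hi j hj2 i' hi' j' hj2' hij hij' (by omega) (by omega)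
    | Sum.inr (bb, f), ⟨i, hi, hij, s, a1, a2, a3⟩, ⟨i', hi', hij', s', b1, b2, b3⟩ =>
      have xi := h.xlt i hi
      have xi' := h.xlt i' hi'
      have c1 := a1.2.2.2.1
      have c2 := b1.2.2.2.1
      exact hthin f f.2 _ _ i hi j hj2 i' hi' j' hj2' hij hij' a2 b2 (by
        rw [← b3] at a3
        omega)

open Classical in
/-- the hypothesis `hG` of `Ok.cc` -/
theorem Ok.hG (h : Ok D) (nf : ℕ) (Bf : ℕ → ℕ → Prop)
    (hBf : ∀ T, D.BadT T → ∃ f < nf, Bf f T)
    (hW : ∀ (w : List α) (s t : ℕ), D.Wo (w.take s) → D.Wo (w.take t) → s < t → t ≤ w.length →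
      s + 2 * (D.N1 + D.p0) < t)
    (hE : ∀ i < D.K, ∀ j < D.K, ∀ i' < D.K, ∀ j' < D.K, i ≠ j → i' ≠ j' →
      D.x i + D.x j' < D.x i' + D.x j + 2 * D.N1 → D.x i' + D.x j < D.x i + D.x j' + 2 * D.N1 → j = j')
    (hthin : ∀ f < nf, ∀ T1 T2, ∀ i < D.K, ∀ j < D.K, ∀ i' < D.K, ∀ j' < D.K, i ≠ j → i' ≠ j' →
      Bf f T1 → Bf f T2 → T1 + D.x j + D.x i' = T2 + D.x j' + D.x i → j = j')
    (hcomp2 : ∀ (u : List α) (v : V), u.length = D.p0 → ∃ I : Finset ℕ, 2 + 2 * nf ≤ I.card ∧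
      ∀ k ∈ I, k < D.K ∧ D.lam k (u.take (D.x k)) v ∧ (D.rho k (u.drop (D.x k))).isSome) :
    ∀ X X2 v, X ∈ XX D → X2 ∈ XX D → St D 0 X → ∃ j < D.K, D.lam j (X.take (D.x j)) v ∧
      (D.rho j ((X.drop (D.x j)).take (D.p0 - D.x j))).isSome ∧
      ∀ i < D.K, St D (D.x i) (X.drop (D.x j) ++ X2) → i = j := by
  classical
  intro X X2 v hX hX2 _
  have hsp := h.spoil nf Bf hBf hW hE hthin hX hX2
  have hz := h.hz
  have hXl := hX.1
  obtain ⟨I, hI, hI2⟩ := hcomp2 (X.take D.p0) v (by rw [List.length_take]; omega)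
  obtain ⟨j, hjI, hj⟩ : ∃ j ∈ I, j ∉ (Finset.range D.K).filter fun j => ∃ i < D.K, i ≠ j ∧
      St D (D.x i) (X.drop (D.x j) ++ X2) := by
    by_contra hc
    push Not at hc
    have := Finset.card_le_card (fun j hj => hc j hj)
    omega
  obtain ⟨hjK, h1, h2⟩ := hI2 j hjI
  have xj := h.xlt j hjK
  refine ⟨j, hjK, ?_, ?_, ?_⟩
  · rwa [List.take_take, min_eq_left (by omega)] at h1
  · have e : (X.take D.p0).drop (D.x j) = (X.drop (D.x j)).take (D.p0 - D.x j) := by
      rw [List.drop_take]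
    rwa [e] at h2
  · intro i hi hs
    by_contra hij
    exact hj (Finset.mem_filter.2 ⟨Finset.mem_range.2 hjK, i, hi, hij, hs⟩)

end

end Crest.Agent.R320.Inst_399
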