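import Mathlib

/-! Row 320, leaf U4 of helper638 (#13273): the ruler of powers of two and the spoil count. -/

namespace Crest.Agent.R320.Spoil_421

def PP (R M0 M1 l : ℕ) := (R*M0) * (R*M1)^l

def Bad (R M0 M1 m rho : ℕ) (Ms Ms1 : Finset ℕ) (n : ℕ) : Prop :=
  (n % (R*M0) < M0 ∨ R*M0 ≤ n % (R*M0) + M0) ∨ (∃ k ∈ Ms, k ∣ n) ∨
    ∃ l < m, ((n / PP R M0 M1 l) % (R*M1) < M1 ∨ R*M1 ≤ (n / PP R M0 M1 l) % (R*M1) + M1) ∨
      rho ≤ (Ms1.filter (· ∣ n / PP R M0 M1 l)).card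

theorem sid : ∀ a b c d : ℕ, 2^a + 2^d = 2^b + 2^c → (a = b ∧ d = c) ∨ (a = c ∧ d = b)
  | 0, 0, c, d, h => by
      left; refine ⟨rfl, ?_⟩
      have : 2^d = 2^c := by omega
      exact Nat.pow_right_injective (le_refl 2) this
  | 0, b+1, 0, d, h => by
      right; refine ⟨rfl, ?_⟩
      have : 2^d = 2^(b+1) := by omega
      exact Nat.pow_right_injective (le_refl 2) this
  | 0, b+1, c+1, 0, h => by
      exfalso
      have h1 := Nat.two_pow_pos b
      have h2 := Nat.two_pow_pos c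
      rw [pow_succ, pow_succ, pow_zero] at h
      omega
  | 0, b+1, c+1, d+1, h => by
      exfalso
      rw [pow_succ, pow_succ, pow_succ, pow_zero] at h
      omega
  | a+1, 0, 0, 0, h => by
      exfalso
      rw [pow_succ, pow_zero] at h
      omega
  | a+1, 0, 0, d+1, h => by
      exfalso
      have h1 := Nat.two_pow_pos a
      have h2 := Nat.two_pow_pos d
      rw [pow_succ, pow_succ, pow_zero] at h
      omega
  | a+1, 0, c+1, 0, h => by
      right; refine ⟨?_, rfl⟩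
      have : 2^(a+1) = 2^(c+1) := by omega
      exact Nat.pow_right_injective (le_refl 2) this
  | a+1, 0, c+1, d+1, h => by
      exfalso
      rw [pow_succ, pow_succ, pow_succ, pow_zero] at h
      omega
  | a+1, b+1, 0, 0, h => by
      left; refine ⟨?_, rfl⟩
      have : 2^(a+1) = 2^(b+1) := by omega
      exact Nat.pow_right_injective (le_refl 2) this
  | a+1, b+1, 0, d+1, h => by
      exfalso
      rw [pow_succ, pow_succ, pow_succ, pow_zero] at h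
      omega
  | a+1, b+1, c+1, 0, h => by
      exfalso
      rw [pow_succ, pow_succ, pow_succ, pow_zero] at h
      omega
  | a+1, b+1, c+1, d+1, h => by
      have h' : 2^a + 2^d = 2^b + 2^c := by
        rw [pow_succ, pow_succ, pow_succ, pow_succ] at h
        omega
      rcases sid a b c d h' with ⟨e1, e2⟩ | ⟨e1, e2⟩
      · left; omega
      · right; omega

theorem absD {K a b c d : ℕ} (ha : a < K) (hb : b < K) (hc : c < K) (hd : d < K) :
    |(2:ℤ)^a - 2^b - 2^c + 2^d| ≤ 2^(K+1) := by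
  have h1 : (2:ℤ)^a ≤ 2^K := pow_le_pow_right₀ (by norm_num) ha.le
  have h2 : (2:ℤ)^b ≤ 2^K := pow_le_pow_right₀ (by norm_num) hb.le
  have h3 : (2:ℤ)^c ≤ 2^K := pow_le_pow_right₀ (by norm_num) hc.le
  have h4 : (2:ℤ)^d ≤ 2^K := pow_le_pow_right₀ (by norm_num) hd.le
  have p1 : (0:ℤ) < 2^a := by positivity
  have p2 : (0:ℤ) < 2^b := by positivity
  have p3 : (0:ℤ) < 2^c := by positivity
  have p4 : (0:ℤ) < 2^d := by positivity
  rw [abs_le, pow_succ]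
  constructor <;> linarith

theorem key {K : ℕ} {A B Mo w T : ℤ} (hA : 0 < A) (hw0 : 0 ≤ w) (hw : 2 * w < 16 * A)
    (hM : 2^(K+6) * A + 2*w < Mo)
    {a b c d : ℕ} (ha : a < K) (hb : b < K) (hc : c < K) (hd : d < K) (hab : a ≠ b)
    {j1 j2 : ℤ} (h1 : |T + 16*2^a*(A+Mo*B) - 16*2^b*(A+Mo*B) - Mo*j1| ≤ w)
    (h2 : |T + 16*2^c*(A+Mo*B) - 16*2^d*(A+Mo*B) - Mo*j2| ≤ w) : a = c ∧ b = d := by
  obtain ⟨D, hDdef⟩ : ∃ D : ℤ, D = 2^a - 2^b - 2^c + 2^d := ⟨_, rfl⟩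
  have hD : |D| ≤ 2^(K+1) := hDdef ▸ absD ha hb hc hd
  obtain ⟨j, hj⟩ : ∃ j : ℤ, j = 16*D*B - j1 + j2 := ⟨_, rfl⟩
  have e : 16*D*A + Mo*j = (T + 16*2^a*(A+Mo*B) - 16*2^b*(A+Mo*B) - Mo*j1)
      - (T + 16*2^c*(A+Mo*B) - 16*2^d*(A+Mo*B) - Mo*j2) := by
    rw [hj, hDdef]; ring
  have h3 : |16*D*A + Mo*j| ≤ 2*w := by
    rw [e]
    refine (abs_sub _ _).trans ?_
    linarith
  have hp : (0:ℤ) < 2^(K+6) := by positivity
  have hMo : 0 < Mo := by nlinarith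
  have h5 : |16*D*A| = 16 * |D| * A := by
    rw [abs_mul, abs_mul, abs_of_pos hA]; norm_num
  have h6 : |16*D*A| ≤ 2^(K+6)*A := by
    rw [h5]
    have : (2:ℤ)^(K+6) = 32 * 2^(K+1) := by
      rw [pow_add, pow_add]; norm_num; ring
    rw [this]
    have h7 : (0:ℤ) ≤ |D| := abs_nonneg D
    nlinarith
  have hj0 : j = 0 := by
    by_contra hjne
    have h1j : 1 ≤ |j| := Int.one_le_abs hjne
    have h8 : |Mo*j| ≤ |16*D*A + Mo*j| + |16*D*A| := by
      have := abs_sub (16*D*A + Mo*j) (16*D*A)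
      have e2 : 16*D*A + Mo*j - 16*D*A = Mo*j := by ring
      rwa [e2] at this
    rw [abs_mul, abs_of_pos hMo] at h8
    nlinarith
  rw [hj0, mul_zero, add_zero, h5] at h3
  have hD0 : D = 0 := by
    by_contra hne
    have h1D : 1 ≤ |D| := Int.one_le_abs hne
    nlinarith
  have h9 : (2:ℕ)^a + 2^d = 2^b + 2^c := by
    have : (2:ℤ)^a + 2^d = 2^b + 2^c := by linarith
    exact_mod_cast this
  rcases sid a b c d h9 with ⟨e1, _⟩ | ⟨e1, e2⟩
  · exact absurd e1 hab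
  · exact ⟨e1, e2.symm⟩

/-- window condition at the scale `P`. -/
theorem win {P R M y : ℕ} (hP : 0 < P) (hRM : 0 < R * M)
    (h : (y / P) % (R*M) < M ∨ R*M ≤ (y / P) % (R*M) + M) :
    ∃ j : ℤ, |(y:ℤ) - ((P * (R*M) : ℕ) : ℤ) * j| ≤ ((P * M : ℕ) : ℤ) := by
  have e1 := Nat.div_add_mod y P
  have e2 := Nat.div_add_mod (y/P) (R*M)
  have l1 := Nat.mod_lt y hP
  have l2 := Nat.mod_lt (y/P) hRM
  set r := (y/P) % (R*M) with hr
  set q := (y/P) / (R*M) with hq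
  set s := y % P with hs
  have ey : y = P * (R*M) * q + P * r + s := by
    rw [← e1, ← e2]; ring
  rcases h with h | h
  · refine ⟨q, ?_⟩
    have e3 : (y:ℤ) - ((P * (R*M) : ℕ) : ℤ) * q = ((P * r + s : ℕ) : ℤ) := by
      rw [ey]; push_cast; ring
    rw [e3, abs_of_nonneg (by positivity)]
    have : P * r + s ≤ P * M := by nlinarith
    exact_mod_cast this
  · refine ⟨q + 1, ?_⟩
    obtain ⟨t, ht⟩ := Nat.exists_eq_add_of_lt l2
    have e3 : (y:ℤ) - ((P * (R*M) : ℕ) : ℤ) * (q+1) = (s:ℤ) - ((P * (t+1) : ℕ) : ℤ) := by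
      have e4 : ((R*M : ℕ) : ℤ) = r + t + 1 := by exact_mod_cast ht
      have e5 : ((P * (R*M) : ℕ) : ℤ) = P * (r + t + 1) := by rw [Nat.cast_mul, e4]
      have e6 : (y : ℤ) = ((P * (R*M) : ℕ) : ℤ) * q + P * r + s := by exact_mod_cast ey
      rw [e6, e5]; push_cast; ring
    rw [e3, abs_le]
    have h1 : t + 1 ≤ M := by omega
    have h2 : P * (t+1) ≤ P * M := Nat.mul_le_mul_left _ h1
    have h3 : s ≤ P * (t+1) := by nlinarith
    have h2' : ((P * (t+1) : ℕ) : ℤ) ≤ ((P * M : ℕ) : ℤ) := by exact_mod_cast h2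
    have h3' : (s : ℤ) ≤ ((P * (t+1) : ℕ) : ℤ) := by exact_mod_cast h3
    have h4' : (0:ℤ) ≤ s := by positivity
    have h5' : (0:ℤ) ≤ ((P * M : ℕ) : ℤ) := by positivity
    constructor <;> linarith

theorem dvdwin {P k y : ℕ} (hP : 0 < P) (h : k ∣ y / P) :
    ∃ j : ℤ, |(y:ℤ) - ((P * k : ℕ) : ℤ) * j| ≤ (P : ℤ) := by
  obtain ⟨q, hq⟩ := h
  have e1 := Nat.div_add_mod y P
  have l1 := Nat.mod_lt y hP
  refine ⟨q, ?_⟩
  have e3 : (y:ℤ) - ((P * k : ℕ) : ℤ) * q = ((y % P : ℕ) : ℤ) := by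
    have : (y:ℤ) = ((P * (k * q) + y % P : ℕ) : ℤ) := by
      rw [← hq, e1]
    rw [this]; push_cast
    ring_nf
  rw [e3, abs_of_nonneg (by positivity)]
  exact_mod_cast l1.le

def SS (R M0 M1 Mp : ℕ) : ℕ → ℕ
  | 0 => 1 + Mp + Mp*M0
  | l+1 => SS R M0 M1 Mp l + Mp * PP R M0 M1 l + Mp * PP R M0 M1 l * M1

theorem PP_succ (R M0 M1 l : ℕ) : PP R M0 M1 (l+1) = PP R M0 M1 l * (R*M1) := by
  unfold PP; rw [pow_succ]; ring

theorem PP_pos {R M0 M1 : ℕ} (hR : 0 < R) (h0 : 0 < M0) (h1 : 0 < M1) (l : ℕ) :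
    0 < PP R M0 M1 l := by
  unfold PP; positivity

theorem SS_le {R M0 M1 Mp : ℕ} (hp : 1 ≤ Mp) (hR : 3 ≤ R) (h0 : 1 ≤ M0) (h1 : 1 ≤ M1) :
    ∀ l, SS R M0 M1 Mp l ≤ Mp * PP R M0 M1 l
  | 0 => by
      have e : PP R M0 M1 0 = R * M0 := by unfold PP; ring
      rw [SS, e]
      have a1 : Mp ≤ Mp * M0 := Nat.le_mul_of_pos_right _ h0
      have a2 : 3 * (Mp * M0) ≤ R * (Mp * M0) := Nat.mul_le_mul_right _ hR
      have a3 : Mp * (R * M0) = R * (Mp * M0) := by ring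
      rw [a3]; omega
  | l+1 => by
      have ih := SS_le hp hR h0 h1 l
      rw [SS, PP_succ]
      set P := Mp * PP R M0 M1 l with hP
      have a1 : P ≤ P * M1 := Nat.le_mul_of_pos_right _ h1
      have a2 : 3 * (P * M1) ≤ R * (P * M1) := Nat.mul_le_mul_right _ hR
      have a3 : Mp * (PP R M0 M1 l * (R * M1)) = R * (P * M1) := by rw [hP]; ring
      rw [a3]; omega

theorem SS_add (R M0 M1 Mp l : ℕ) : ∀ n, ∃ B, SS R M0 M1 Mp (l + n) =
    SS R M0 M1 Mp l + Mp * PP R M0 M1 l * B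
  | 0 => ⟨0, by simp⟩
  | n+1 => by
      obtain ⟨B, hB⟩ := SS_add R M0 M1 Mp l n
      refine ⟨B + (R*M1)^n + (R*M1)^n * M1, ?_⟩
      have e : PP R M0 M1 (l+n) = PP R M0 M1 l * (R*M1)^n := by
        unfold PP; rw [pow_add]; ring
      rw [← add_assoc, SS, hB, e]; ring


theorem xdiff {K A B Mo S a b T y : ℕ} (hS : S = A + Mo * B) (hy : y = T + 16*2^a*S - 16*2^b*S)
    (hT : 16*2^K*S ≤ T) (hb : b < K) :
    (y:ℤ) = T + 16*2^a*(A+Mo*B) - 16*2^b*(A+Mo*B) := by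
  have h1 : 16*2^b*S ≤ T := by
    refine le_trans ?_ hT
    have : 2^b ≤ 2^K := Nat.pow_le_pow_right (by norm_num) hb.le
    exact Nat.mul_le_mul_right _ (Nat.mul_le_mul_left _ this)
  have h2 : 16*2^b*S ≤ T + 16*2^a*S := by omega
  rw [hy, Nat.cast_sub h2, hS]; push_cast; ring

/-- at most one pair satisfies a thin condition. -/
theorem one {K A B Mo S w T : ℕ} (hS : S = A + Mo * B) (hA : 0 < A) (hw : 2 * w < 16 * A)
    (hM : 2^(K+6) * A + 2*w < Mo) (hT : 16*2^K*S ≤ T) (p : ℕ → Prop)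
    (hp : ∀ y, p y → ∃ j : ℤ, |(y:ℤ) - (Mo:ℤ) * j| ≤ (w:ℤ)) (s : Finset (ℕ × ℕ))
    (hs : ∀ ab ∈ s, ab.1 < K ∧ ab.2 < K ∧ ab.1 ≠ ab.2 ∧ p (T + 16*2^ab.1*S - 16*2^ab.2*S)) :
    s.card ≤ 1 := by
  rw [Finset.card_le_one]
  rintro ⟨a, b⟩ h1 ⟨c, d⟩ h2
  obtain ⟨ha, hb, hab, q1⟩ := hs _ h1
  obtain ⟨hc, hd, hcd, q2⟩ := hs _ h2
  obtain ⟨j1, r1⟩ := hp _ q1
  obtain ⟨j2, r2⟩ := hp _ q2
  rw [xdiff hS rfl hT hb] at r1
  rw [xdiff hS rfl hT hd] at r2
  have := key (K := K) (A := A) (B := B) (Mo := Mo) (w := w) (T := T) (by exact_mod_cast hA)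
    (by positivity) (by exact_mod_cast hw) (by exact_mod_cast hM) ha hb hc hd hab r1 r2
  exact Prod.ext this.1 this.2

theorem dcount {ι : Type*} [DecidableEq ι] (s : Finset ι) (Ms : Finset ℕ) (n : ι → ℕ) (rho : ℕ)
    (hrho : 0 < rho) (hc : Ms.card ≤ 32 * rho) (h : ∀ i ∈ s, rho ≤ (Ms.filter (· ∣ n i)).card)
    (h1 : ∀ k ∈ Ms, (s.filter (fun i => k ∣ n i)).card ≤ 1) : s.card ≤ 32 := by
  have e1 : ∑ i ∈ s, (Ms.filter (· ∣ n i)).card = ∑ k ∈ Ms, (s.filter (fun i => k ∣ n i)).card := by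
    simp only [Finset.card_filter]
    exact Finset.sum_comm
  have e2 : s.card * rho ≤ ∑ i ∈ s, (Ms.filter (· ∣ n i)).card := by
    rw [← smul_eq_mul]
    exact Finset.card_nsmul_le_sum _ _ _ h
  have e3 : ∑ k ∈ Ms, (s.filter (fun i => k ∣ n i)).card ≤ Ms.card := by
    have := Finset.sum_le_card_nsmul Ms (fun k => (s.filter (fun i => k ∣ n i)).card) 1 h1
    simpa using this
  have e4 : s.card * rho ≤ 32 * rho := by omega
  exact Nat.le_of_mul_le_mul_right e4 hrho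

open Classical in
set_option maxHeartbeats 2000000 in
theorem spoil' (m r K Mp R M0 M1 rho : ℕ) (Ms Ms1 : Finset ℕ) (hMp : 2^(K+10) ≤ Mp)
    (hR : 2^(K+10) ≤ R) (h0 : 2^(K+10) ≤ M0) (h1 : 2^(K+10) ≤ M1)
    (hMs : ∀ k ∈ Ms, 2^(K+10) ≤ k ∧ k ∣ M0) (hMs1 : ∀ k ∈ Ms1, 2^(K+10) ≤ k ∧ k ∣ M1)
    (hc : Ms.card ≤ r) (hc1 : Ms1.card ≤ 32*rho) (hrho : 0 < rho) :
    ∃ (x : ℕ → ℕ) (T0 : ℕ), (∀ a < K, x a ≤ T0) ∧
    (∀ a b c d, a < K → b < K → c < K → d < K →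
      (Mp:ℤ) ∣ ((x a:ℤ) - x b) - (x c - x d) → (a = c ∧ b = d) ∨ (a = b ∧ c = d)) ∧
    ∀ T, T0 ≤ T → (((Finset.range K ×ˢ Finset.range K).filter (fun ab => ab.1 ≠ ab.2 ∧
      Bad R M0 M1 m rho Ms Ms1 ((T + x ab.1 - x ab.2) / Mp))).card ≤ 2 + r + 34*m) := by
  have hK : 1024 ≤ 2^(K+10) := by
    rw [pow_add]
    have := Nat.one_le_two_pow (n := K)
    omega
  have e10 : 2^(K+10) = 16 * 2^(K+6) := by rw [pow_add, pow_add]; ring
  have hK6 : 64 ≤ 2^(K+6) := by omega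
  have pMp : 1 ≤ Mp := by omega
  have pR : 3 ≤ R := by omega
  have p0 : 1 ≤ M0 := by omega
  have p1 : 1 ≤ M1 := by omega
  set S := SS R M0 M1 Mp m with hS
  obtain ⟨B0, hB0⟩ := SS_add R M0 M1 Mp 0 m
  rw [zero_add, ← hS] at hB0
  have eP0 : PP R M0 M1 0 = R * M0 := by unfold PP; ring
  rw [eP0, SS] at hB0
  have hE : 2^(K+6) * (3 * 1) ≤ 2^(K+6) * 3 := le_of_eq (by ring)
  refine ⟨fun a => 16*2^a*S, 16*2^K*S, ?_, ?_, ?_⟩
  · intro a ha
    have : 2^a ≤ 2^K := Nat.pow_le_pow_right (by norm_num) ha.le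
    exact Nat.mul_le_mul_right _ (Nat.mul_le_mul_left _ this)
  · intro a b c d ha hb hc' hd hdvd
    obtain ⟨D, hDdef⟩ : ∃ D : ℤ, D = 2^a - 2^b - 2^c + 2^d := ⟨_, rfl⟩
    have hD : |D| ≤ 2^(K+1) := hDdef ▸ absD ha hb hc' hd
    have e1 : (((16*2^a*S : ℕ):ℤ) - ((16*2^b*S : ℕ):ℤ)) - (((16*2^c*S : ℕ):ℤ) - ((16*2^d*S : ℕ):ℤ))
        = 16 * D + Mp * (16 * D * (1 + M0 + R * M0 * B0)) := by
      rw [hB0, hDdef]; push_cast; ring
    rw [e1] at hdvd
    have h2 : (Mp:ℤ) ∣ 16 * D := (dvd_add_left (dvd_mul_right _ _)).1 hdvd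
    have h3 : (16:ℤ) * D = 0 := by
      refine Int.eq_zero_of_abs_lt_dvd h2 ?_
      rw [abs_mul]
      have h4 : |(16:ℤ)| = 16 := by norm_num
      rw [h4]
      have h5 : ((2:ℤ)^(K+10)) ≤ Mp := by exact_mod_cast hMp
      have h6 : (2:ℤ)^(K+10) = 512 * 2^(K+1) := by
        rw [pow_add, pow_add]; norm_num; ring
      have h7 : (0:ℤ) < 2^(K+1) := by positivity
      linarith
    have hD0 : D = 0 := by linarith
    have h9 : (2:ℕ)^a + 2^d = 2^b + 2^c := by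
      have : (2:ℤ)^a + 2^d = 2^b + 2^c := by linarith
      exact_mod_cast this
    rcases sid a b c d h9 with ⟨q1, q2⟩ | ⟨q1, q2⟩
    · exact Or.inr ⟨q1, q2.symm⟩
    · exact Or.inl ⟨q1, q2.symm⟩
  · intro T hT
    set U := (Finset.range K ×ˢ Finset.range K).filter (fun ab => ab.1 ≠ ab.2) with hU
    set y : ℕ × ℕ → ℕ := fun ab => T + 16*2^ab.1*S - 16*2^ab.2*S with hy
    have hUm : ∀ ab ∈ U, ab.1 < K ∧ ab.2 < K ∧ ab.1 ≠ ab.2 := by
      intro ab hab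
      rw [hU, Finset.mem_filter, Finset.mem_product, Finset.mem_range, Finset.mem_range] at hab
      exact ⟨hab.1.1, hab.1.2, hab.2⟩
    -- the pieces
    set F0 := U.filter (fun ab => ((y ab / Mp) % (R*M0) < M0 ∨ R*M0 ≤ (y ab / Mp) % (R*M0) + M0))
      with hF0
    set F1 : ℕ → Finset (ℕ × ℕ) := fun k => U.filter (fun ab => k ∣ y ab / Mp) with hF1
    set F2 : ℕ → Finset (ℕ × ℕ) := fun l => U.filter (fun ab =>
      ((y ab / Mp / PP R M0 M1 l) % (R*M1) < M1 ∨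
        R*M1 ≤ (y ab / Mp / PP R M0 M1 l) % (R*M1) + M1)) with hF2
    set F3 : ℕ → Finset (ℕ × ℕ) := fun l => U.filter (fun ab =>
      rho ≤ (Ms1.filter (· ∣ y ab / Mp / PP R M0 M1 l)).card) with hF3
    have hsub : ((Finset.range K ×ˢ Finset.range K).filter (fun ab => ab.1 ≠ ab.2 ∧
        Bad R M0 M1 m rho Ms Ms1 ((T + 16*2^ab.1*S - 16*2^ab.2*S) / Mp))) ⊆
        (F0 ∪ Ms.biUnion F1) ∪ (Finset.range m).biUnion (fun l => F2 l ∪ F3 l) := by
      intro ab hab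
      rw [Finset.mem_filter] at hab
      obtain ⟨h1', h2', h3'⟩ := hab
      have hUab : ab ∈ U := Finset.mem_filter.2 ⟨h1', h2'⟩
      rw [Finset.mem_union, Finset.mem_union, Finset.mem_biUnion, Finset.mem_biUnion]
      rcases h3' with h | ⟨k, hk, hkd⟩ | ⟨l, hl, h | h⟩
      · exact Or.inl (Or.inl (Finset.mem_filter.2 ⟨hUab, h⟩))
      · exact Or.inl (Or.inr ⟨k, hk, Finset.mem_filter.2 ⟨hUab, hkd⟩⟩)
      · exact Or.inr ⟨l, Finset.mem_range.2 hl, Finset.mem_union_left _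
          (Finset.mem_filter.2 ⟨hUab, h⟩)⟩
      · exact Or.inr ⟨l, Finset.mem_range.2 hl, Finset.mem_union_right _
          (Finset.mem_filter.2 ⟨hUab, h⟩)⟩
    have c0 : F0.card ≤ 1 := by
      refine one (K := K) (A := 1 + Mp + Mp*M0) (B := B0) (Mo := Mp * (R*M0)) (S := S)
        (w := Mp * M0) (T := T) hB0 (by omega) ?_ ?_ hT
        (fun y => (y / Mp) % (R*M0) < M0 ∨ R*M0 ≤ (y / Mp) % (R*M0) + M0) ?_ F0 ?_
      · omega
      · have a1 : Mp ≤ Mp * M0 := Nat.le_mul_of_pos_right _ p0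
        have a2 : 2^(K+6) * (1 + Mp + Mp*M0) ≤ 2^(K+6) * (3 * (Mp*M0)) :=
          Nat.mul_le_mul_left _ (by omega)
        have a3 : 2^(K+10) * (Mp*M0) ≤ R * (Mp*M0) := Nat.mul_le_mul_right _ hR
        have a4 : Mp * (R*M0) = R * (Mp*M0) := by ring
        have a5 : 0 < Mp*M0 := by positivity
        rw [a4]; rw [e10] at a3
        nlinarith
      · intro y hy'
        exact win (by omega) (by positivity) hy'
      · intro ab hab
        rw [hF0, Finset.mem_filter] at hab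
        obtain ⟨q1, q2, q3⟩ := hUm _ hab.1
        exact ⟨q1, q2, q3, hab.2⟩
    have c1 : ∀ k ∈ Ms, (F1 k).card ≤ 1 := by
      intro k hk
      obtain ⟨hk1, ⟨t, ht⟩⟩ := hMs k hk
      refine one (K := K) (A := 1 + Mp) (B := t + R * t * B0) (Mo := Mp * k) (S := S)
        (w := Mp) (T := T) (by rw [hB0, ht]; ring) (by omega) ?_ ?_ hT
        (fun y => k ∣ y / Mp) ?_ (F1 k) ?_
      · omega
      · have a2 : 2^(K+6) * (1 + Mp) ≤ 2^(K+6) * (2 * Mp) := Nat.mul_le_mul_left _ (by omega)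
        have a3 : Mp * 2^(K+10) ≤ Mp * k := Nat.mul_le_mul_left _ hk1
        rw [e10] at a3
        nlinarith
      · intro y hy'
        exact dvdwin (by omega) hy'
      · intro ab hab
        rw [hF1, Finset.mem_filter] at hab
        obtain ⟨q1, q2, q3⟩ := hUm _ hab.1
        exact ⟨q1, q2, q3, hab.2⟩
    have c2 : ∀ l < m, (F2 l).card ≤ 1 := by
      intro l hl
      obtain ⟨B, hB⟩ := SS_add R M0 M1 Mp (l+1) (m - (l+1))
      have e1 : l + 1 + (m - (l+1)) = m := by omega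
      rw [e1, ← hS, PP_succ, SS] at hB
      have hle := SS_le pMp pR p0 p1 l
      set P := Mp * PP R M0 M1 l with hP
      have hPpos : 0 < P := Nat.mul_pos (by omega) (PP_pos (by omega) (by omega) (by omega) l)
      refine one (K := K) (A := SS R M0 M1 Mp l + P + P * M1) (B := B) (Mo := P * (R*M1)) (S := S)
        (w := P * M1) (T := T) (by rw [hB, hP]; ring) (by omega) ?_ ?_ hT
        (fun y => (y / P) % (R*M1) < M1 ∨ R*M1 ≤ (y / P) % (R*M1) + M1) ?_ (F2 l) ?_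
      · have a5 : 0 < P*M1 := by positivity
        omega
      · have a1 : P ≤ P * M1 := Nat.le_mul_of_pos_right _ p1
        have a2 : 2^(K+6) * (SS R M0 M1 Mp l + P + P * M1) ≤ 2^(K+6) * (3 * (P*M1)) :=
          Nat.mul_le_mul_left _ (by omega)
        have a3 : 2^(K+10) * (P*M1) ≤ R * (P*M1) := Nat.mul_le_mul_right _ hR
        have a4 : P * (R*M1) = R * (P*M1) := by ring
        have a5 : 0 < P*M1 := by positivity
        rw [a4]; rw [e10] at a3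
        nlinarith
      · intro y hy'
        exact win hPpos (by positivity) hy'
      · intro ab hab
        rw [hF2, Finset.mem_filter] at hab
        obtain ⟨q1, q2, q3⟩ := hUm _ hab.1
        refine ⟨q1, q2, q3, ?_⟩
        have := hab.2
        rw [Nat.div_div_eq_div_mul] at this
        exact this
    have c3 : ∀ l < m, (F3 l).card ≤ 32 := by
      intro l hl
      obtain ⟨B, hB⟩ := SS_add R M0 M1 Mp (l+1) (m - (l+1))
      have e1 : l + 1 + (m - (l+1)) = m := by omega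
      rw [e1, ← hS, PP_succ, SS] at hB
      have hle := SS_le pMp pR p0 p1 l
      set P := Mp * PP R M0 M1 l with hP
      have hPpos : 0 < P := Nat.mul_pos (by omega) (PP_pos (by omega) (by omega) (by omega) l)
      refine dcount (F3 l) Ms1 (fun ab => y ab / Mp / PP R M0 M1 l) rho hrho hc1 ?_ ?_
      · intro ab hab
        rw [hF3, Finset.mem_filter] at hab
        exact hab.2
      · intro k hk
        obtain ⟨hk1, ⟨t, ht⟩⟩ := hMs1 k hk
        refine one (K := K) (A := SS R M0 M1 Mp l + P) (B := t + R * t * B) (Mo := P * k) (S := S)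
          (w := P) (T := T) (by rw [hB, hP, ht]; ring) (by omega) ?_ ?_ hT
          (fun y => k ∣ y / P) ?_ _ ?_
        · omega
        · have a2 : 2^(K+6) * (SS R M0 M1 Mp l + P) ≤ 2^(K+6) * (2 * P) :=
            Nat.mul_le_mul_left _ (by omega)
          have a3 : P * 2^(K+10) ≤ P * k := Nat.mul_le_mul_left _ hk1
          rw [e10] at a3
          nlinarith
        · intro y hy'
          exact dvdwin hPpos hy'
        · intro ab hab
          rw [Finset.mem_filter, hF3, Finset.mem_filter] at hab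
          obtain ⟨q1, q2, q3⟩ := hUm _ hab.1.1
          refine ⟨q1, q2, q3, ?_⟩
          have := hab.2
          rw [Nat.div_div_eq_div_mul] at this
          exact this
    refine (Finset.card_le_card hsub).trans ?_
    refine (Finset.card_union_le _ _).trans ?_
    have b1 : (F0 ∪ Ms.biUnion F1).card ≤ 1 + r := by
      refine (Finset.card_union_le _ _).trans ?_
      have : (Ms.biUnion F1).card ≤ Ms.card * 1 := Finset.card_biUnion_le_card_mul _ _ _ c1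
      omega
    have b2 : ((Finset.range m).biUnion (fun l => F2 l ∪ F3 l)).card ≤ m * 33 := by
      have := Finset.card_biUnion_le_card_mul (Finset.range m) (fun l => F2 l ∪ F3 l) 33 (by
        intro l hl
        have hl' := Finset.mem_range.1 hl
        refine (Finset.card_union_le _ _).trans ?_
        have u1 := c2 l hl'
        have u2 := c3 l hl'
        omega)
      rwa [Finset.card_range] at this
    omega

open Classical in
/-- Leaf U4 of #13273, literal. -/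
theorem spoil (m r K Mp R M0 M1 rho : ℕ) (Ms Ms1 : Finset ℕ) (hMp : 2^(K+10) ≤ Mp)
    (hR : 2^(K+10) ≤ R) (h0 : 2^(K+10) ≤ M0) (h1 : 2^(K+10) ≤ M1)
    (hMs : ∀ k ∈ Ms, 2^(K+10) ≤ k ∧ k ∣ M0) (hMs1 : ∀ k ∈ Ms1, 2^(K+10) ≤ k ∧ k ∣ M1)
    (hc : Ms.card ≤ r) (hc1 : Ms1.card ≤ 32*rho) (hrho : 0 < rho) :
    ∃ (x : ℕ → ℕ) (T0 : ℕ),
    (∀ a b c d, a < K → b < K → c < K → d < K →
      (Mp:ℤ) ∣ ((x a:ℤ) - x b) - (x c - x d) → (a = c ∧ b = d) ∨ (a = b ∧ c = d)) ∧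
    ∀ T, T0 ≤ T → (((Finset.range K ×ˢ Finset.range K).filter (fun ab => ab.1 ≠ ab.2 ∧
      Bad R M0 M1 m rho Ms Ms1 ((T + x ab.1 - x ab.2) / Mp))).card ≤ 2 + r + 34*m) := by
  obtain ⟨x, T0, _, h2, h3⟩ := spoil' m r K Mp R M0 M1 rho Ms Ms1 hMp hR h0 h1 hMs hMs1 hc hc1 hrho
  exact ⟨x, T0, h2, h3⟩

end Crest.Agent.R320.Spoil_421
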