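import Mathlib

/-!
# Row 320, TEAM U, leaf U4 (helper430): the spoil count of the promise ruler
-/

set_option autoImplicit false

namespace Crest.Agent.R320.Spoil_430

open Finset

def PP (R M0 M1 l : ℕ) := (R*M0) * (R*M1)^l

def Bad (R M0 M1 m rho : ℕ) (Ms Ms1 : Finset ℕ) (n : ℕ) : Prop :=
  (n % (R*M0) < M0 ∨ R*M0 ≤ n % (R*M0) + M0) ∨ (∃ k ∈ Ms, k ∣ n) ∨
  ∃ l < m, ((n / PP R M0 M1 l) % (R*M1) < M1 ∨ R*M1 ≤ (n / PP R M0 M1 l) % (R*M1) + M1) ∨
    rho ≤ (Ms1.filter (· ∣ n / PP R M0 M1 l)).card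

/-! ### powers of two -/

theorem sidon_aux {a b c d : ℕ} (h : 2^a + 2^d = 2^b + 2^c) (had : a ≤ d) (hbc : b ≤ c) :
    a = b ∧ d = c := by
  have key : ∀ {a b c d : ℕ}, 2^a + 2^d = 2^b + 2^c → a ≤ d → b ≤ c → a < b → False := by
    intro a b c d h had hbc hab
    obtain ⟨d', rfl⟩ := Nat.exists_eq_add_of_le had
    obtain ⟨b', rfl⟩ : ∃ b', b = a + (b' + 1) := ⟨b - a - 1, by omega⟩
    obtain ⟨c', rfl⟩ : ∃ c', c = a + (c' + 1) := ⟨c - a - 1, by omega⟩
    have hp : 0 < 2^a := by positivity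
    have h2 : 1 + 2^d' = 2 * 2^b' + 2 * 2^c' := by
      have : 2^a * (1 + 2^d') = 2^a * (2 * 2^b' + 2 * 2^c') := by
        have e1 : 2^(a + d') = 2^a * 2^d' := by rw [pow_add]
        have e2 : 2^(a + (b' + 1)) = 2^a * (2 * 2^b') := by rw [pow_add, pow_succ]; ring
        have e3 : 2^(a + (c' + 1)) = 2^a * (2 * 2^c') := by rw [pow_add, pow_succ]; ring
        rw [e1, e2, e3] at h
        linarith
      exact Nat.eq_of_mul_eq_mul_left hp this
    rcases Nat.eq_zero_or_pos d' with h0 | h0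
    · subst h0
      have hb : 0 < 2^b' := by positivity
      have hc : 0 < 2^c' := by positivity
      omega
    · obtain ⟨e, rfl⟩ : ∃ e, d' = e + 1 := ⟨d' - 1, by omega⟩
      rw [pow_succ] at h2
      omega
  rcases lt_trichotomy a b with h1 | h1 | h1
  · exact (key h had hbc h1).elim
  · subst h1
    have : 2^d = 2^c := by omega
    exact ⟨rfl, Nat.pow_right_injective (le_refl 2) this⟩
  · exact (key h.symm hbc had h1).elim

theorem sidon {a b c d : ℕ} (h : (2:ℤ)^a - 2^b - (2^c - 2^d) = 0) :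
    (a = c ∧ b = d) ∨ (a = b ∧ c = d) := by
  have h' : 2^a + 2^d = 2^b + 2^c := by
    have : (2:ℤ)^a + 2^d = 2^b + 2^c := by linarith
    exact_mod_cast this
  rcases le_total a d with h1 | h1 <;> rcases le_total b c with h2 | h2
  · obtain ⟨e1, e2⟩ := sidon_aux h' h1 h2
    exact Or.inr ⟨e1, e2.symm⟩
  · obtain ⟨e1, e2⟩ := sidon_aux (h'.trans (add_comm _ _)) h1 h2
    exact Or.inl ⟨e1, e2.symm⟩
  · obtain ⟨e1, e2⟩ := sidon_aux ((add_comm _ _).trans h') h1 h2
    exact Or.inl ⟨e2, e1.symm⟩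
  · obtain ⟨e1, e2⟩ := sidon_aux ((add_comm _ _).trans (h'.trans (add_comm _ _))) h1 h2
    exact Or.inr ⟨e2, e1.symm⟩

theorem pow_diff_bound {K a b c d : ℕ} (ha : a < K) (hb : b < K) (hc : c < K) (hd : d < K) :
    |(2:ℤ)^a - 2^b - (2^c - 2^d)| ≤ 2^(K+1) := by
  have hle : ∀ e, e < K → (2:ℤ)^e ≤ 2^K := fun e he =>
    pow_le_pow_right₀ (by norm_num) he.le
  have hpos : ∀ e : ℕ, (0:ℤ) < 2^e := fun e => by positivity
  have := hle a ha; have := hle b hb; have := hle c hc; have := hle d hd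
  have := hpos a; have := hpos b; have := hpos c; have := hpos d
  rw [pow_succ, abs_le]
  constructor <;> linarith

set_option maxHeartbeats 800000 in
/-- two different pairs are never both near the multiples of `Q` -/
theorem near_unique {K : ℕ} {lowv s Q h σ : ℤ} (hs : 0 < s) (hl0 : 0 ≤ lowv)
    (hlow : 2^(K+9) * lowv ≤ s) (hQ : 2^(K+9) * s ≤ Q) (hσ : σ = lowv + s + Q * h)
    {a b c d : ℕ} (ha : a < K) (hb : b < K) (hc : c < K) (hd : d < K) (hab : a ≠ b)
    {N N' T : ℤ} (hN : N = T + 16 * 2^a * σ - 16 * 2^b * σ)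
    (hN' : N' = T + 16 * 2^c * σ - 16 * 2^d * σ)
    (h1 : ∃ j, |N - Q * j| ≤ s) (h2 : ∃ j, |N' - Q * j| ≤ s) : a = c ∧ b = d := by
  obtain ⟨j, hj⟩ := h1
  obtain ⟨j', hj'⟩ := h2
  set C : ℤ := 2^a - 2^b - (2^c - 2^d) with hC
  have hp9 : (512 : ℤ) ≤ 2^(K+9) := by
    have : (2:ℤ)^9 ≤ 2^(K+9) := pow_le_pow_right₀ (by norm_num) (by omega)
    norm_num at this
    exact this
  have hK9 : (2:ℤ)^(K+9) = 256 * 2^(K+1) := by
    rw [show K + 9 = (K + 1) + 8 by ring, pow_add]; ring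
  have hK1 : (0:ℤ) < 2^(K+1) := by positivity
  by_cases hC0 : C = 0
  · rcases sidon hC0 with h | h
    · exact h
    · exact (hab h.1).elim
  exfalso
  have hCb : |C| ≤ 2^(K+1) := pow_diff_bound ha hb hc hd
  have hC1 : 1 ≤ |C| := Int.one_le_abs hC0
  -- the difference
  have hd' : N - N' = 16 * C * (lowv + s) + Q * (16 * C * h) := by
    rw [hN, hN', hσ, hC]; ring
  set J : ℤ := j - j' - 16 * C * h with hJ
  have hle : |16 * C * (lowv + s) - Q * J| ≤ 2 * s := by
    have e : 16 * C * (lowv + s) - Q * J = (N - Q * j) - (N' - Q * j') := by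
      rw [hJ]; linear_combination -hd'
    rw [e]
    calc |(N - Q * j) - (N' - Q * j')| ≤ |N - Q * j| + |N' - Q * j'| := abs_sub _ _
      _ ≤ 2 * s := by linarith
  have hlow' : lowv ≤ s := by nlinarith
  have hA : |16 * C * (lowv + s)| = 16 * |C| * (lowv + s) := by
    rw [abs_mul, abs_mul, abs_of_nonneg (by linarith : 0 ≤ lowv + s)]
    norm_num
  have hAlo : 16 * s ≤ |16 * C * (lowv + s)| := by
    rw [hA]; nlinarith
  have hAhi : |16 * C * (lowv + s)| ≤ 32 * 2^(K+1) * s := by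
    rw [hA]
    have : |C| * (lowv + s) ≤ 2^(K+1) * (2 * s) :=
      mul_le_mul hCb (by linarith) (by linarith) hK1.le
    nlinarith
  have hQs : 256 * 2^(K+1) * s ≤ Q := by rw [← hK9]; exact hQ
  have hQpos : 0 < Q := by nlinarith
  by_cases hJ0 : J = 0
  · rw [hJ0, mul_zero, sub_zero] at hle
    linarith
  · have hJ1 : 1 ≤ |J| := Int.one_le_abs hJ0
    have h3 : |Q * J| ≤ |16 * C * (lowv + s)| + 2 * s := by
      have : |Q * J| ≤ |16 * C * (lowv + s)| + |16 * C * (lowv + s) - Q * J| := by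
        have e : Q * J = 16 * C * (lowv + s) - (16 * C * (lowv + s) - Q * J) := by ring
        calc |Q * J| = |16 * C * (lowv + s) - (16 * C * (lowv + s) - Q * J)| := by rw [← e]
          _ ≤ _ := abs_sub _ _
      linarith
    rw [abs_mul, abs_of_pos hQpos] at h3
    have h4 : Q ≤ Q * |J| := le_mul_of_one_le_right hQpos.le hJ1
    have hp1 : (1:ℤ) ≤ 2^(K+1) := Int.add_one_le_iff.2 hK1
    have h5 : s ≤ 2^(K+1) * s := by
      have := mul_le_mul_of_nonneg_right hp1 hs.le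
      linarith
    have h6 : 256 * 2^(K+1) * s = 256 * (2^(K+1) * s) := by ring
    have h7 : 32 * 2^(K+1) * s = 32 * (2^(K+1) * s) := by ring
    rw [h6] at hQs
    rw [h7] at hAhi
    linarith

/-! ### digits -/

theorem near_digit {A X Y N : ℕ} (hA : 0 < A)
    (h : (N / A) % Y < X ∨ Y ≤ (N / A) % Y + X) (hY : 0 < Y) :
    ∃ j : ℤ, |(N : ℤ) - (A * Y : ℕ) * j| ≤ (A * X : ℕ) := by
  have h1 : N = A * (N / A) + N % A := (Nat.div_add_mod N A).symm
  have h2 : N / A = Y * (N / A / Y) + (N / A) % Y := (Nat.div_add_mod _ _).symm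
  have h3 : N % A < A := Nat.mod_lt _ hA
  have h4 : (N / A) % Y < Y := Nat.mod_lt _ hY
  set r := N % A with hr
  set t := (N / A) % Y with ht
  set u := N / A / Y with hu
  have hN : (N : ℤ) = A * (Y * u + t) + r := by
    have : N = A * (Y * u + t) + r := by rw [← h2]; exact h1
    exact_mod_cast this
  rcases h with h | h
  · refine ⟨u, ?_⟩
    have e : (N : ℤ) - (A * Y : ℕ) * (u : ℤ) = A * t + r := by rw [hN]; push_cast; ring
    rw [e, abs_of_nonneg (by positivity)]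
    have : A * t + r ≤ A * X := by
      have : A * (t + 1) ≤ A * X := Nat.mul_le_mul_left A h
      nlinarith
    exact_mod_cast this
  · refine ⟨u + 1, ?_⟩
    have e : (N : ℤ) - (A * Y : ℕ) * ((u : ℤ) + 1) = A * t + r - A * Y := by
      rw [hN]; push_cast; ring
    rw [e, abs_le]
    have h5 : A * Y ≤ A * t + A * X := by
      have : A * Y ≤ A * (t + X) := Nat.mul_le_mul_left A h
      nlinarith
    have h6 : A * t + r ≤ A * Y := by
      have : A * (t + 1) ≤ A * Y := Nat.mul_le_mul_left A h4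
      nlinarith
    zify at h5 h6
    push_cast
    constructor
    · linarith [Int.natCast_nonneg r]
    · have : (0:ℤ) ≤ A * X := by positivity
      linarith

theorem near_dvd {A k N : ℕ} (hA : 0 < A) (h : k ∣ N / A) :
    ∃ j : ℤ, |(N : ℤ) - (A * k : ℕ) * j| ≤ (A : ℕ) := by
  obtain ⟨u, hu⟩ := h
  have h1 : N = A * (N / A) + N % A := (Nat.div_add_mod N A).symm
  have h3 : N % A < A := Nat.mod_lt _ hA
  refine ⟨u, ?_⟩
  have hN : (N : ℤ) = A * (k * u) + (N % A : ℕ) := by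
    have : N = A * (k * u) + N % A := by rw [← hu]; exact h1
    exact_mod_cast this
  have e : (N : ℤ) - (A * k : ℕ) * (u : ℤ) = (N % A : ℕ) := by
    rw [hN]; push_cast; ring_nf
  rw [e, abs_of_nonneg (by positivity)]
  exact_mod_cast h3.le

/-! ### the scales -/

/-- sum of all scales below level `l` -/
def Sc (Mp R M0 M1 : ℕ) : ℕ → ℕ
  | 0 => 1 + Mp + Mp * M0
  | l + 1 => Sc Mp R M0 M1 l + Mp * PP R M0 M1 l + Mp * PP R M0 M1 l * M1

theorem PP_succ (R M0 M1 l : ℕ) : PP R M0 M1 (l+1) = PP R M0 M1 l * (R * M1) := by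
  unfold PP; rw [pow_succ]; ring

theorem PP_zero (R M0 M1 : ℕ) : PP R M0 M1 0 = R * M0 := by unfold PP; simp

theorem Sc_tail (Mp R M0 M1 l : ℕ) : ∀ d, ∃ h, Sc Mp R M0 M1 (l + d) =
    Sc Mp R M0 M1 l + Mp * PP R M0 M1 l * h := by
  intro d
  induction d with
  | zero => exact ⟨0, by simp⟩
  | succ d ih =>
    obtain ⟨h, hh⟩ := ih
    have hP : PP R M0 M1 (l + d) = PP R M0 M1 l * (R * M1)^d := by
      unfold PP; rw [pow_add]; ring
    refine ⟨h + (R*M1)^d * (1 + M1), ?_⟩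
    rw [← add_assoc, Sc, hh, hP]; ring

theorem Sc_bound {K Mp R M0 M1 : ℕ} (hMp : 2^(K+10) ≤ Mp) (hR : 2^(K+10) ≤ R)
    (h0 : 2^(K+10) ≤ M0) (h1 : 2^(K+10) ≤ M1) :
    ∀ l, 2^(K+9) * Sc Mp R M0 M1 l ≤ Mp * PP R M0 M1 l := by
  have hp : 2^(K+10) = 2 * 2^(K+9) := by rw [show K + 10 = (K+9)+1 by ring, pow_succ]; ring
  have hp1 : 512 ≤ 2^(K+9) := by
    have : 2^9 ≤ 2^(K+9) := Nat.pow_le_pow_right (by norm_num) (by omega)
    norm_num at this
    exact this
  intro l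
  induction l with
  | zero =>
    rw [PP_zero, Sc]
    have e1 : 1 + Mp + Mp * M0 ≤ 2 * (Mp * M0) := by nlinarith
    calc 2^(K+9) * (1 + Mp + Mp * M0) ≤ 2^(K+9) * (2 * (Mp * M0)) := Nat.mul_le_mul_left _ e1
      _ = (2 * 2^(K+9)) * (Mp * M0) := by ring
      _ ≤ R * (Mp * M0) := Nat.mul_le_mul_right _ (hp ▸ hR)
      _ = Mp * (R * M0) := by ring
  | succ l ih =>
    rw [PP_succ, Sc]
    set P := PP R M0 M1 l with hP
    have e0 : Sc Mp R M0 M1 l ≤ Mp * P := by
      calc Sc Mp R M0 M1 l ≤ 2^(K+9) * Sc Mp R M0 M1 l := Nat.le_mul_of_pos_left _ (by positivity)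
        _ ≤ Mp * P := ih
    have e1 : Sc Mp R M0 M1 l + Mp * P + Mp * P * M1 ≤ 2 * (Mp * P * M1) := by
      have : 2 ≤ M1 := by omega
      have : Mp * P * 2 ≤ Mp * P * M1 := Nat.mul_le_mul_left _ this
      omega
    calc 2^(K+9) * (Sc Mp R M0 M1 l + Mp * P + Mp * P * M1)
        ≤ 2^(K+9) * (2 * (Mp * P * M1)) := Nat.mul_le_mul_left _ e1
      _ = (2 * 2^(K+9)) * (Mp * P * M1) := by ring
      _ ≤ R * (Mp * P * M1) := Nat.mul_le_mul_right _ (hp ▸ hR)
      _ = Mp * (P * (R * M1)) := by ring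

open Classical in
theorem spoil (m r K Mp R M0 M1 rho : ℕ) (Ms Ms1 : Finset ℕ) (hMp : 2^(K+10) ≤ Mp)
    (hR : 2^(K+10) ≤ R) (h0 : 2^(K+10) ≤ M0) (h1 : 2^(K+10) ≤ M1)
    (hMs : ∀ k ∈ Ms, 2^(K+10) ≤ k ∧ k ∣ M0) (hMs1 : ∀ k ∈ Ms1, 2^(K+10) ≤ k ∧ k ∣ M1)
    (hc : Ms.card ≤ r) (hc1 : Ms1.card ≤ 32*rho) (hrho : 0 < rho) :
    ∃ (x : ℕ → ℕ) (T0 : ℕ),
      (∀ a b c d, a < K → b < K → c < K → d < K →
        (Mp:ℤ) ∣ ((x a:ℤ) - x b) - (x c - x d) → (a = c ∧ b = d) ∨ (a = b ∧ c = d)) ∧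
      ∀ T, T0 ≤ T → (((Finset.range K ×ˢ Finset.range K).filter (fun ab => ab.1 ≠ ab.2 ∧
        Bad R M0 M1 m rho Ms Ms1 ((T + x ab.1 - x ab.2) / Mp))).card ≤ 2 + r + 34*m) := by
  set σ := Sc Mp R M0 M1 m with hσ
  have hp10 : 1024 ≤ 2^(K+10) := by
    have : 2^10 ≤ 2^(K+10) := Nat.pow_le_pow_right (by norm_num) (by omega)
    norm_num at this
    exact this
  have hp : 2^(K+10) = 2 * 2^(K+9) := by rw [show K + 10 = (K+9)+1 by ring, pow_succ]; ring
  have hMp0 : 0 < Mp := by omega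
  have hR0 : 0 < R := by omega
  have hM00 : 0 < M0 := by omega
  have hM10 : 0 < M1 := by omega
  have hPP : ∀ l, 0 < PP R M0 M1 l := fun l => by unfold PP; positivity
  have hSb := Sc_bound hMp hR h0 h1
  refine ⟨fun a => 16 * 2^a * σ, 16 * 2^K * σ, ?_, ?_⟩
  · intro a b c d ha hb hc' hd hdiv
    obtain ⟨h, hh⟩ := Sc_tail Mp R M0 M1 0 m
    rw [zero_add, ← hσ, Sc, PP_zero] at hh
    have hCb := pow_diff_bound ha hb hc' hd
    set C : ℤ := 2^a - 2^b - (2^c - 2^d) with hC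
    have hdiv' : (Mp:ℤ) ∣ 16 * C := by
      have e : (((16 * 2^a * σ : ℕ) : ℤ) - ((16 * 2^b * σ : ℕ) : ℤ)) -
          (((16 * 2^c * σ : ℕ) : ℤ) - ((16 * 2^d * σ : ℕ) : ℤ)) = 16 * C +
          Mp * (16 * C * (1 + M0 + R * M0 * h)) := by
        rw [hC, hh]; push_cast; ring
      rw [e] at hdiv
      exact (Int.dvd_iff_dvd_of_dvd_add (c := 16 * C) (by
        have := dvd_sub hdiv (Dvd.intro (16 * C * (1 + (M0:ℤ) + R * M0 * h)) rfl :
          (Mp:ℤ) ∣ Mp * (16 * C * (1 + M0 + R * M0 * h)))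
        rw [add_sub_cancel_right] at this
        exact this.add this)).1 (by
        have := dvd_sub hdiv (Dvd.intro (16 * C * (1 + (M0:ℤ) + R * M0 * h)) rfl :
          (Mp:ℤ) ∣ Mp * (16 * C * (1 + M0 + R * M0 * h)))
        rw [add_sub_cancel_right] at this
        exact this)
    have hC0 : C = 0 := by
      by_contra hne
      have h2 : (Mp:ℤ) ≤ |16 * C| := Int.le_of_dvd (abs_pos.2 (by omega)) ((dvd_abs _ _).2 hdiv')
      rw [abs_mul] at h2
      have h3 : (2:ℤ)^(K+10) ≤ Mp := by exact_mod_cast hMp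
      have h4 : (2:ℤ)^(K+10) = 512 * 2^(K+1) := by
        rw [show K + 10 = (K+1)+9 by ring, pow_add]; ring
      have h5 : (0:ℤ) < 2^(K+1) := by positivity
      have h6 : |(16:ℤ)| = 16 := by norm_num
      rw [h6] at h2
      linarith
    exact sidon hC0
  · intro T hT
    have hx : ∀ a, a < K → 16 * 2^a * σ ≤ T := by
      intro a ha
      refine le_trans ?_ hT
      have : 2^a ≤ 2^K := Nat.pow_le_pow_right (by norm_num) ha.le
      exact Nat.mul_le_mul_right _ (Nat.mul_le_mul_left _ this)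
    set N : ℕ × ℕ → ℕ := fun ab => T + 16 * 2^ab.1 * σ - 16 * 2^ab.2 * σ with hNdef
    have hNz : ∀ ab : ℕ × ℕ, ab.2 < K → ((N ab : ℕ) : ℤ) = (T:ℤ) + 16 * 2^ab.1 * (σ:ℤ) -
        16 * 2^ab.2 * (σ:ℤ) := by
      intro ab hb
      have := hx ab.2 hb
      simp only [hNdef]
      rw [Nat.cast_sub (by omega)]
      push_cast
      ring
    set U := (Finset.range K ×ˢ Finset.range K).filter (fun ab => ab.1 ≠ ab.2) with hU
    have hUm : ∀ ab, ab ∈ U ↔ ab.1 < K ∧ ab.2 < K ∧ ab.1 ≠ ab.2 := by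
      intro ab
      simp only [hU, mem_filter, mem_product, mem_range]
      tauto
    -- at most one pair near the multiples of `Q`
    have one : ∀ (p : ℕ × ℕ → Prop) [DecidablePred p] (lowv s Q h : ℕ), 0 < s → 2^(K+9) * lowv ≤ s →
        2^(K+9) * s ≤ Q → σ = lowv + s + Q * h →
        (∀ ab, p ab → ∃ j : ℤ, |((N ab : ℕ) : ℤ) - (Q : ℕ) * j| ≤ (s : ℕ)) →
        (U.filter p).card ≤ 1 := by
      intro p _ lowv s Q h hs hlow hQ hσ' hp'
      rw [Finset.card_le_one]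
      intro ab hab cd hcd
      rw [mem_filter, hUm] at hab hcd
      have hz : (σ:ℤ) = (lowv:ℤ) + s + Q * h := by exact_mod_cast hσ'
      obtain ⟨e1, e2⟩ := near_unique (K := K) (lowv := (lowv:ℤ)) (s := (s:ℤ)) (Q := (Q:ℤ))
        (h := (h:ℤ)) (σ := (σ:ℤ)) (by exact_mod_cast hs) (by positivity)
        (by exact_mod_cast hlow) (by exact_mod_cast hQ) hz hab.1.1 hab.1.2.1 hcd.1.1 hcd.1.2.1
        hab.1.2.2 (hNz ab hab.1.2.1) (hNz cd hcd.1.2.1) (hp' ab hab.2) (hp' cd hcd.2)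
      exact Prod.ext e1 e2
    -- (A)
    have hA : (U.filter (fun ab => (N ab / Mp) % (R*M0) < M0 ∨
        R*M0 ≤ (N ab / Mp) % (R*M0) + M0)).card ≤ 1 := by
      obtain ⟨h, hh⟩ := Sc_tail Mp R M0 M1 0 m
      rw [zero_add, ← hσ, Sc, PP_zero] at hh
      refine one _ (1 + Mp) (Mp * M0) (Mp * (R * M0)) h (by positivity) ?_ ?_ (by rw [hh]) ?_
      · calc 2^(K+9) * (1 + Mp) ≤ 2^(K+9) * (2 * Mp) := Nat.mul_le_mul_left _ (by omega)
          _ = (2 * 2^(K+9)) * Mp := by ring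
          _ ≤ M0 * Mp := Nat.mul_le_mul_right _ (hp ▸ h0)
          _ = Mp * M0 := by ring
      · calc 2^(K+9) * (Mp * M0) ≤ R * (Mp * M0) := Nat.mul_le_mul_right _ (by omega)
          _ = Mp * (R * M0) := by ring
      · intro ab hab
        exact near_digit hMp0 hab (by positivity)
    -- (B)
    have hB : ∀ k ∈ Ms, (U.filter (fun ab => k ∣ N ab / Mp)).card ≤ 1 := by
      intro k hk
      obtain ⟨hk1, ⟨q, hq⟩⟩ := hMs k hk
      obtain ⟨h, hh⟩ := Sc_tail Mp R M0 M1 0 m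
      rw [zero_add, ← hσ, Sc, PP_zero] at hh
      refine one _ 1 Mp (Mp * k) (q + R * q * h) hMp0 (by omega) ?_ ?_ ?_
      · calc 2^(K+9) * Mp ≤ k * Mp := Nat.mul_le_mul_right _ (by omega)
          _ = Mp * k := by ring
      · rw [hh, hq]; ring
      · intro ab hab
        exact near_dvd hMp0 hab
    -- (C)
    have hC : ∀ l, l < m → (U.filter (fun ab => ((N ab / Mp) / PP R M0 M1 l) % (R*M1) < M1 ∨
        R*M1 ≤ ((N ab / Mp) / PP R M0 M1 l) % (R*M1) + M1)).card ≤ 1 := by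
      intro l hl
      obtain ⟨h, hh⟩ := Sc_tail Mp R M0 M1 (l+1) (m - (l+1))
      rw [show l + 1 + (m - (l+1)) = m by omega, ← hσ, Sc, PP_succ] at hh
      have hb := hSb l
      have hPl := hPP l
      set P := PP R M0 M1 l with hP
      have hS1 : Sc Mp R M0 M1 l ≤ Mp * P := le_trans (Nat.le_mul_of_pos_left _ (by positivity)) hb
      refine one _ (Sc Mp R M0 M1 l + Mp * P) (Mp * P * M1) (Mp * P * (R * M1)) h
        (by positivity) ?_ ?_ (by rw [hh]; ring) ?_
      · calc 2^(K+9) * (Sc Mp R M0 M1 l + Mp * P) ≤ 2^(K+9) * (2 * (Mp * P)) :=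
            Nat.mul_le_mul_left _ (by omega)
          _ = (2 * 2^(K+9)) * (Mp * P) := by ring
          _ ≤ M1 * (Mp * P) := Nat.mul_le_mul_right _ (hp ▸ h1)
          _ = Mp * P * M1 := by ring
      · calc 2^(K+9) * (Mp * P * M1) ≤ R * (Mp * P * M1) := Nat.mul_le_mul_right _ (by omega)
          _ = Mp * P * (R * M1) := by ring
      · intro ab hab
        rw [Nat.div_div_eq_div_mul] at hab
        exact near_digit (by positivity) hab (by positivity)
    -- (D)
    have hD1 : ∀ l, l < m → ∀ k ∈ Ms1, (U.filter (fun ab => k ∣ (N ab / Mp) / PP R M0 M1 l)).card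
        ≤ 1 := by
      intro l hl k hk
      obtain ⟨hk1, ⟨q, hq⟩⟩ := hMs1 k hk
      obtain ⟨h, hh⟩ := Sc_tail Mp R M0 M1 (l+1) (m - (l+1))
      rw [show l + 1 + (m - (l+1)) = m by omega, ← hσ, Sc, PP_succ] at hh
      have hb := hSb l
      have hPl := hPP l
      set P := PP R M0 M1 l with hP
      refine one _ (Sc Mp R M0 M1 l) (Mp * P) (Mp * P * k) (q + R * q * h)
        (by positivity) hb ?_ (by rw [hh, hq]; ring) ?_
      · calc 2^(K+9) * (Mp * P) ≤ k * (Mp * P) := Nat.mul_le_mul_right _ (by omega)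
          _ = Mp * P * k := by ring
      · intro ab hab
        rw [Nat.div_div_eq_div_mul] at hab
        exact near_dvd (by positivity) hab
    have hD : ∀ l, l < m → (U.filter (fun ab =>
        rho ≤ (Ms1.filter (· ∣ (N ab / Mp) / PP R M0 M1 l)).card)).card ≤ 32 := by
      intro l hl
      set F := U.filter (fun ab =>
        rho ≤ (Ms1.filter (· ∣ (N ab / Mp) / PP R M0 M1 l)).card) with hF
      have e1 : F.card * rho ≤ ∑ ab ∈ F, (Ms1.filter (· ∣ (N ab / Mp) / PP R M0 M1 l)).card := by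
        rw [← smul_eq_mul]
        refine Finset.card_nsmul_le_sum _ _ _ ?_
        intro ab hab
        exact (mem_filter.1 hab).2
      have e2 : ∑ ab ∈ F, (Ms1.filter (· ∣ (N ab / Mp) / PP R M0 M1 l)).card
          = ∑ k ∈ Ms1, (F.filter (fun ab => k ∣ (N ab / Mp) / PP R M0 M1 l)).card := by
        simp only [Finset.card_filter]
        exact Finset.sum_comm
      have e3 : ∑ k ∈ Ms1, (F.filter (fun ab => k ∣ (N ab / Mp) / PP R M0 M1 l)).card
          ≤ ∑ k ∈ Ms1, 1 := by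
        refine Finset.sum_le_sum fun k hk => ?_
        refine le_trans (Finset.card_le_card ?_) (hD1 l hl k hk)
        exact Finset.filter_subset_filter _ (Finset.filter_subset _ _)
      rw [Finset.sum_const, smul_eq_mul, mul_one] at e3
      have e4 : F.card * rho ≤ 32 * rho := by omega
      exact Nat.le_of_mul_le_mul_right e4 hrho
    -- the union
    have hsub : (Finset.range K ×ˢ Finset.range K).filter (fun ab => ab.1 ≠ ab.2 ∧
        Bad R M0 M1 m rho Ms Ms1 ((T + 16 * 2^ab.1 * σ - 16 * 2^ab.2 * σ) / Mp)) ⊆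
        (U.filter (fun ab => (N ab / Mp) % (R*M0) < M0 ∨ R*M0 ≤ (N ab / Mp) % (R*M0) + M0)) ∪
        (Ms.biUnion (fun k => U.filter (fun ab => k ∣ N ab / Mp))) ∪
        ((Finset.range m).biUnion (fun l =>
          (U.filter (fun ab => ((N ab / Mp) / PP R M0 M1 l) % (R*M1) < M1 ∨
            R*M1 ≤ ((N ab / Mp) / PP R M0 M1 l) % (R*M1) + M1)) ∪
          (U.filter (fun ab =>
            rho ≤ (Ms1.filter (· ∣ (N ab / Mp) / PP R M0 M1 l)).card)))) := by
      intro ab hab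
      rw [mem_filter, mem_product, mem_range, mem_range] at hab
      obtain ⟨⟨ha, hb⟩, hne, hbad⟩ := hab
      have hu : ab ∈ U := (hUm ab).2 ⟨ha, hb, hne⟩
      rcases hbad with h | ⟨k, hk, h⟩ | ⟨l, hl, h | h⟩
      · exact mem_union_left _ (mem_union_left _ (mem_filter.2 ⟨hu, h⟩))
      · exact mem_union_left _ (mem_union_right _ (mem_biUnion.2 ⟨k, hk, mem_filter.2 ⟨hu, h⟩⟩))
      · exact mem_union_right _ (mem_biUnion.2 ⟨l, mem_range.2 hl,
          mem_union_left _ (mem_filter.2 ⟨hu, h⟩)⟩)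
      · exact mem_union_right _ (mem_biUnion.2 ⟨l, mem_range.2 hl,
          mem_union_right _ (mem_filter.2 ⟨hu, h⟩)⟩)
    refine le_trans (Finset.card_le_card hsub) ?_
    refine le_trans (Finset.card_union_le _ _) ?_
    have c1 : (Ms.biUnion (fun k => U.filter (fun ab => k ∣ N ab / Mp))).card ≤ r := by
      refine le_trans Finset.card_biUnion_le ?_
      refine le_trans (Finset.sum_le_sum hB) ?_
      rw [Finset.sum_const, smul_eq_mul, mul_one]
      exact hc
    have c2 : ((Finset.range m).biUnion (fun l =>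
          (U.filter (fun ab => ((N ab / Mp) / PP R M0 M1 l) % (R*M1) < M1 ∨
            R*M1 ≤ ((N ab / Mp) / PP R M0 M1 l) % (R*M1) + M1)) ∪
          (U.filter (fun ab =>
            rho ≤ (Ms1.filter (· ∣ (N ab / Mp) / PP R M0 M1 l)).card)))).card ≤ 33 * m := by
      refine le_trans Finset.card_biUnion_le ?_
      have : ∀ l ∈ Finset.range m, ((U.filter (fun ab =>
          ((N ab / Mp) / PP R M0 M1 l) % (R*M1) < M1 ∨
            R*M1 ≤ ((N ab / Mp) / PP R M0 M1 l) % (R*M1) + M1)) ∪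
          (U.filter (fun ab =>
            rho ≤ (Ms1.filter (· ∣ (N ab / Mp) / PP R M0 M1 l)).card))).card ≤ 33 := by
        intro l hl
        have := hC l (mem_range.1 hl)
        have := hD l (mem_range.1 hl)
        refine le_trans (Finset.card_union_le _ _) ?_
        omega
      refine le_trans (Finset.sum_le_sum this) ?_
      rw [Finset.sum_const, Finset.card_range, smul_eq_mul]
      omega
    have c3 := Finset.card_union_le (U.filter (fun ab => (N ab / Mp) % (R*M0) < M0 ∨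
      R*M0 ≤ (N ab / Mp) % (R*M0) + M0)) (Ms.biUnion (fun k => U.filter (fun ab => k ∣ N ab / Mp)))
    omega

end Crest.Agent.R320.Spoil_430
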