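import Crest.Agent.R320.Sch12_494

/-!
# Row 320: the spoiling count for `Sch12_494` (natural chain rule: `M' = 1`, `Z = z`), helper494
-/

set_option autoImplicit false
set_option linter.unusedSectionVars false

namespace Crest.Agent.R320.Spoil_494

open Crest.Agent.R320.S1blk_494 Crest.Agent.R320.Sch12_494 Finset

variable {α S V : Type*} [Monoid S] [AddCommGroup V]

/-- hypotheses of the count -/
structure Hyp (D : Two α S V) (z W C0 : ℕ) : Prop where
  Z : ∀ r, D.Z r = z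
  gap : ∀ (Y : List α) (i j : ℕ), i < j → j ≤ Y.length → D.Wo (Y.take i) → D.Wo (Y.take j) →
    i + W < j
  W_ge : 2 * (D.p0 + D.N1) ≤ W
  c_le : ∀ k < D.K, D.c k ≤ D.p0
  ruler : ∀ a < D.K, ∀ b < D.K, ∀ a' < D.K, ∀ b' < D.K, a ≠ b →
    |((D.c a : ℤ) - D.c b) - ((D.c a' : ℤ) - D.c b')| ≤ 2 * D.N1 → a = a' ∧ b = b'
  spB : ∀ (T : ℤ) (J : Finset ℕ), (∀ a ∈ J, a < D.K ∧ ∃ b < D.K, b ≠ a ∧
    D.UBad (T - ((D.c a : ℤ) - D.c b)).toNat) → J.card ≤ C0
  hR : 2 * C0 + 2 ≤ D.R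

variable {D : Two α S V} {z W C0 : ℕ}

/-- translation of a plausible wrong candidate into positions of `Y` -/
theorem pos_of_G (h : Hyp D z W C0) {Y : List α} {k k' : ℕ} (hk : k < D.K) (hk' : k' < D.K)
    (hG : D.Gk k' (Y.drop (D.c k))) :
    (∃ w ≤ Y.length, D.Wo (Y.take w) ∧ |(w : ℤ) - z - ((D.c k : ℤ) - D.c k')| ≤ D.N1) ∨
    (∃ w ≤ Y.length, D.Wo (Y.take w) ∧ (z : ℤ) + ((D.c k : ℤ) - D.c k') ≤ w ∧
      (∀ i < w, D.Wo (Y.take i) → (i : ℤ) < z + ((D.c k : ℤ) - D.c k')) ∧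
      D.UBad (((w : ℤ) - D.p0 - ((D.c k : ℤ) - D.c k')).toNat)) := by
  obtain ⟨j, ⟨hj, hw, hz, hf⟩, hb⟩ := hG
  have hc := h.c_le k hk
  have hc' := h.c_le k' hk'
  have hZ := D.Zge 0
  rw [h.Z] at hZ hz
  rw [List.length_drop] at hj
  have hjpos : D.p0 + D.N1 + D.no < j + D.c k' := by omega
  have hcY : D.c k ≤ Y.length := by omega
  have hPl : (Y.take (D.c k)).length = D.c k := by rw [List.length_take]; omega
  have htk : ∀ i, Y.take (D.c k + i) = Y.take (D.c k) ++ (Y.drop (D.c k)).take i := by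
    intro i
    rw [List.take_add]
  have hWY : ∀ i, D.Wo ((Y.drop (D.c k)).take i) → D.Wo (Y.take (D.c k + i)) := by
    intro i hi
    rw [htk]
    exact (D.rule.app _ _ (D.rule.len _ hi)).2 hi
  rcases hb with hb | hb
  · left
    by_cases h1 : D.Z ((j + D.c k') % D.M') + D.N1 ≤ j + D.c k'
    · have h2 : ¬ ∀ i < j, D.Wo ((Y.drop (D.c k)).take i) → i + D.c k' + D.N1 <
          D.Z ((i + D.c k') % D.M') := fun hh => hb ⟨h1, hh⟩
      push Not at h2
      obtain ⟨i, hi, hwi, hzi⟩ := h2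
      rw [h.Z] at hzi
      have hfi := hf i hi hwi
      rw [h.Z] at hfi
      refine ⟨D.c k + i, by omega, hWY i hwi, ?_⟩
      rw [abs_le]
      push_cast
      constructor <;> omega
    · rw [h.Z] at h1
      refine ⟨D.c k + j, by omega, hWY j hw, ?_⟩
      rw [abs_le]
      push_cast
      constructor <;> omega
  · right
    refine ⟨D.c k + j, by omega, hWY j hw, by push_cast; omega, ?_, ?_⟩
    · intro i hi hwi
      by_contra hcon
      push Not at hcon
      have hik : D.c k + D.no < i := by omega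
      obtain ⟨i', rfl⟩ : ∃ i', i = D.c k + i' := ⟨i - D.c k, by omega⟩
      rw [htk] at hwi
      have hil : ((Y.drop (D.c k)).take i').length = i' := by
        rw [List.length_take, List.length_drop]; omega
      have hwi' := (D.rule.app _ _ (by rw [hil]; omega)).1 hwi
      have := hf i' (by omega) hwi'
      rw [h.Z] at this
      push_cast at hcon
      omega
    · have e : (((D.c k + j : ℕ) : ℤ) - D.p0 - ((D.c k : ℤ) - D.c k')).toNat =
          j + D.c k' - D.p0 := by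
        push_cast
        omega
      rw [e]
      exact hb

theorem wall_unique (h : Hyp D z W C0) {Y : List α} {w w' : ℕ} (hw : w ≤ Y.length)
    (hw' : w' ≤ Y.length) (h1 : D.Wo (Y.take w)) (h2 : D.Wo (Y.take w'))
    (h3 : |(w : ℤ) - w'| ≤ 2 * (D.p0 + D.N1)) : w = w' := by
  have hW := h.W_ge
  rw [abs_le] at h3
  rcases lt_trichotomy w w' with hlt | hlt | hlt
  · have := h.gap Y w w' hlt hw' h1 h2
    omega
  · exact hlt
  · have := h.gap Y w' w hlt hw h2 h1
    omega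

/-- **spoil** -/
theorem spoil (h : Hyp D z W C0) (Y : List α) (I : Finset ℕ)
    (hI : D.R ≤ I.card) (hIK : ∀ k ∈ I, k < D.K) :
    ∃ k ∈ I, ∀ k' < D.K, D.Gk k' (Y.drop (D.c k)) → k' = k := by
  classical
  by_contra hcon
  push Not at hcon
  -- the two possible end walls
  have hw0 : ∃ w0 : ℕ, ∀ w ≤ Y.length, D.Wo (Y.take w) → (z : ℤ) - D.p0 ≤ w →
      (w : ℤ) < z + D.p0 → w = w0 := by
    by_cases hex : ∃ w ≤ Y.length, D.Wo (Y.take w) ∧ (z : ℤ) - D.p0 ≤ w ∧ (w : ℤ) < z + D.p0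
    · obtain ⟨w0, a1, a2, a3, a4⟩ := hex
      refine ⟨w0, fun w b1 b2 b3 b4 => wall_unique h b1 a1 b2 a2 ?_⟩
      rw [abs_le]
      constructor <;> omega
    · push Not at hex
      refine ⟨0, fun w b1 b2 b3 b4 => ?_⟩
      have := hex w b1 b2 b3
      omega
  obtain ⟨w0, hw0⟩ := hw0
  have hw1 : ∃ w1 : ℕ, ∀ w ≤ Y.length, D.Wo (Y.take w) → (z : ℤ) + D.p0 ≤ w →
      (∀ i < w, D.Wo (Y.take i) → (i : ℤ) < z + D.p0) → w = w1 := by
    by_cases hex : ∃ w ≤ Y.length, D.Wo (Y.take w) ∧ (z : ℤ) + D.p0 ≤ w ∧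
        ∀ i < w, D.Wo (Y.take i) → (i : ℤ) < z + D.p0
    · obtain ⟨w1, a1, a2, a3, a4⟩ := hex
      refine ⟨w1, fun w b1 b2 b3 b4 => ?_⟩
      rcases lt_trichotomy w w1 with hlt | hlt | hlt
      · have := a4 w hlt b2
        omega
      · exact hlt
      · have := b4 w1 hlt a2
        omega
    · push Not at hex
      refine ⟨0, fun w b1 b2 b3 b4 => ?_⟩
      obtain ⟨i, c1, c2, c3⟩ := hex w b1 b2 b3
      have := b4 i c1 c2
      omega
  obtain ⟨w1, hw1⟩ := hw1
  set A0 := (range D.K).filter (fun a => ∃ b < D.K, b ≠ a ∧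
    D.UBad (((w0 : ℤ) - D.p0) - ((D.c a : ℤ) - D.c b)).toNat) with hA0
  set A1 := (range D.K).filter (fun a => ∃ b < D.K, b ≠ a ∧
    D.UBad (((w1 : ℤ) - D.p0) - ((D.c a : ℤ) - D.c b)).toNat) with hA1
  set AE := (range D.K).filter (fun a => ∃ b < D.K, b ≠ a ∧ ∃ w ≤ Y.length,
    D.Wo (Y.take w) ∧ |(w : ℤ) - z - ((D.c a : ℤ) - D.c b)| ≤ D.N1) with hAE
  have hsub : I ⊆ AE ∪ (A0 ∪ A1) := by
    intro k hk
    obtain ⟨k', hk', hG, hne⟩ := hcon k hk
    have hkK := hIK k hk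
    have hc := h.c_le k hkK
    have hc' := h.c_le k' hk'
    rw [mem_union, mem_union]
    rcases pos_of_G h hkK hk' hG with ⟨w, b1, b2, b3⟩ | ⟨w, b1, b2, b3, b4, b5⟩
    · left
      rw [hAE, mem_filter, mem_range]
      exact ⟨hkK, k', hk', hne, w, b1, b2, b3⟩
    · right
      rcases lt_or_ge (w : ℤ) (z + D.p0) with hlt | hge
      · left
        have := hw0 w b1 b2 (by omega) hlt
        subst this
        rw [hA0, mem_filter, mem_range]
        exact ⟨hkK, k', hk', hne, b5⟩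
      · right
        have := hw1 w b1 b2 hge (fun i hi hwi => by have := b4 i hi hwi; omega)
        subst this
        rw [hA1, mem_filter, mem_range]
        exact ⟨hkK, k', hk', hne, b5⟩
  have hE1 : AE.card ≤ 1 := by
    rw [card_le_one]
    intro a ha b hb
    rw [hAE, mem_filter, mem_range] at ha hb
    obtain ⟨haK, a', haK', hane, w, e1, e2, e3⟩ := ha
    obtain ⟨hbK, b', hbK', hbne, w', f1, f2, f3⟩ := hb
    have g1 := h.c_le a haK
    have g2 := h.c_le a' haK'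
    have g3 := h.c_le b hbK
    have g4 := h.c_le b' hbK'
    rw [abs_le] at e3 f3
    have hww : w = w' := wall_unique h e1 f1 e2 f2 (by rw [abs_le]; constructor <;> omega)
    subst hww
    exact (h.ruler a haK a' haK' b hbK b' hbK' (Ne.symm hane) (by
      rw [abs_le]; constructor <;> omega)).1
  have h0' : A0.card ≤ C0 := h.spB ((w0 : ℤ) - D.p0) A0 (fun a ha => by
    rw [hA0, mem_filter, mem_range] at ha
    exact ha)
  have h1' : A1.card ≤ C0 := h.spB ((w1 : ℤ) - D.p0) A1 (fun a ha => by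
    rw [hA1, mem_filter, mem_range] at ha
    exact ha)
  have hc1 := card_le_card hsub
  have hc2 := card_union_le AE (A0 ∪ A1)
  have hc3 := card_union_le A0 A1
  have hR := h.hR
  omega

end Crest.Agent.R320.Spoil_494
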