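import Mathlib

set_option autoImplicit false

namespace Crest.Agent.R320.Spoil_498

/-- scales (units = comb steps), literally as in #13273 -/
def PP (R M0 M1 l : ℕ) : ℕ := (R*M0) * (R*M1)^l

def Bad (R M0 M1 m rho : ℕ) (Ms Ms1 : Finset ℕ) (n : ℕ) : Prop :=
  (n % (R*M0) < M0 ∨ R*M0 ≤ n % (R*M0) + M0) ∨ (∃ k ∈ Ms, k ∣ n) ∨
  ∃ l < m, ((n / PP R M0 M1 l) % (R*M1) < M1 ∨ R*M1 ≤ (n / PP R M0 M1 l) % (R*M1) + M1) ∨
    rho ≤ (Ms1.filter (· ∣ n / PP R M0 M1 l)).card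

lemma two_pow_aux {a d b c : ℕ} (h1 : d ≤ a) (h2 : c ≤ b) (h : 2^a + 2^d = 2^b + 2^c) :
    a = b ∧ d = c := by
  have p1 : 2^d ≤ 2^a := Nat.pow_le_pow_right (by norm_num) h1
  have p2 : 2^c ≤ 2^b := Nat.pow_le_pow_right (by norm_num) h2
  have q1 : 0 < 2^d := by positivity
  have q2 : 0 < 2^c := by positivity
  have e1 : 2^a < 2^(b+1) := by rw [pow_succ]; omega
  have e2 : 2^b < 2^(a+1) := by rw [pow_succ]; omega
  have f1 : a < b+1 := (Nat.pow_lt_pow_iff_right (by norm_num)).1 e1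
  have f2 : b < a+1 := (Nat.pow_lt_pow_iff_right (by norm_num)).1 e2
  have f3 : a = b := by omega
  subst f3
  have : 2^d = 2^c := by omega
  exact ⟨rfl, Nat.pow_right_injective (le_refl 2) this⟩

lemma two_pow_sidon {a b c d : ℕ} (h : 2^a + 2^d = 2^b + 2^c) :
    (a = c ∧ b = d) ∨ (a = b ∧ c = d) := by
  rcases le_total d a with h1 | h1 <;> rcases le_total c b with h2 | h2
  · obtain ⟨e1, e2⟩ := two_pow_aux h1 h2 h
    exact Or.inr ⟨e1, e2.symm⟩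
  · obtain ⟨e1, e2⟩ := two_pow_aux h1 h2 (by omega)
    exact Or.inl ⟨e1, e2.symm⟩
  · obtain ⟨e1, e2⟩ := two_pow_aux h1 h2 (by omega)
    exact Or.inl ⟨e2, e1.symm⟩
  · obtain ⟨e1, e2⟩ := two_pow_aux h1 h2 (by omega)
    exact Or.inr ⟨e2, e1.symm⟩

/-- The heart: two pairs whose clocks are both within `s` of a multiple of `Q*s` are equal. -/
lemma one_pair (K s Q Lw Sg h : ℕ) (hSg : Sg = Lw + s + Q*s*h) (hs : 0 < s)
    (hQ : 2^(K+10) ≤ Q) (hL : 2^(K+9)*Lw ≤ s) (T : ℤ) (a b c d : ℕ)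
    (ha : a < K) (hb : b < K) (hc : c < K) (hd : d < K) (q1 q2 : ℤ)
    (h1 : -(s:ℤ) ≤ T + 16*2^a*Sg - 16*2^b*Sg - Q*s*q1)
    (h1' : T + 16*2^a*Sg - 16*2^b*Sg - Q*s*q1 < s)
    (h2 : -(s:ℤ) ≤ T + 16*2^c*Sg - 16*2^d*Sg - Q*s*q2)
    (h2' : T + 16*2^c*Sg - 16*2^d*Sg - Q*s*q2 < s) :
    (a = c ∧ b = d) ∨ (a = b ∧ c = d) := by
  apply two_pow_sidon
  set P : ℤ := 2^K with hP
  have hPpos : 0 < P := by positivity
  have bd : ∀ i, i < K → (0:ℤ) < 2^i ∧ (2:ℤ)*2^i ≤ P := by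
    intro i hi
    refine ⟨by positivity, ?_⟩
    have : (2:ℤ)^(i+1) ≤ 2^K := pow_le_pow_right₀ (by norm_num) hi
    rw [hP]
    calc (2:ℤ)*2^i = 2^(i+1) := by ring
      _ ≤ 2^K := this
  obtain ⟨a0, a1⟩ := bd a ha
  obtain ⟨b0, b1⟩ := bd b hb
  obtain ⟨c0, c1⟩ := bd c hc
  obtain ⟨d0, d1⟩ := bd d hd
  set D : ℤ := 2^a - 2^b - 2^c + 2^d with hD
  have hD1 : D < P := by rw [hD]; linarith
  have hD2 : -P < D := by rw [hD]; linarith
  have hsZ : (0:ℤ) < s := by exact_mod_cast hs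
  have hQZ : 1024 * P ≤ (Q:ℤ) := by
    have : ((2^(K+10) : ℕ):ℤ) ≤ (Q:ℤ) := by exact_mod_cast hQ
    have e : ((2^(K+10) : ℕ):ℤ) = 1024 * P := by push_cast; rw [hP]; ring
    linarith
  have hLZ : 512 * P * (Lw:ℤ) ≤ (s:ℤ) := by
    have : ((2^(K+9)*Lw : ℕ):ℤ) ≤ (s:ℤ) := by exact_mod_cast hL
    have e : ((2^(K+9)*Lw : ℕ):ℤ) = 512 * P * Lw := by push_cast; rw [hP]; ring
    linarith
  have hLw0 : (0:ℤ) ≤ Lw := by positivity
  have hSgZ : (Sg:ℤ) = Lw + s + Q*s*h := by rw [hSg]; push_cast; ring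
  -- difference
  set q : ℤ := q1 - q2 - 16*D*h with hq
  have key : (T + 16*2^a*Sg - 16*2^b*Sg - Q*s*q1) - (T + 16*2^c*Sg - 16*2^d*Sg - Q*s*q2)
      = (16*D - Q*q)*s + 16*D*Lw := by
    rw [hSgZ, hq, hD]; ring
  have k1 : (16*D - Q*q)*s + 16*D*Lw < 2*s := by rw [← key]; linarith
  have k2 : -(2*s:ℤ) < (16*D - Q*q)*s + 16*D*Lw := by rw [← key]; linarith
  have pl : (0:ℤ) ≤ P*Lw := by positivity
  have dl1 : D*(Lw:ℤ) ≤ P*Lw := mul_le_mul_of_nonneg_right hD1.le hLw0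
  have dl2 : (-P)*(Lw:ℤ) ≤ D*Lw := mul_le_mul_of_nonneg_right hD2.le hLw0
  have m1 : 16*D*(Lw:ℤ) ≤ s := by linarith
  have m2 : -(s:ℤ) ≤ 16*D*(Lw:ℤ) := by linarith
  have n1 : (16*D - Q*q) < 3 := by
    have : (16*D - Q*q)*s < 3*s := by linarith
    exact lt_of_mul_lt_mul_right this hsZ.le
  have n2 : -3 < (16*D - Q*q) := by
    have : (-3)*(s:ℤ) < (16*D - Q*q)*s := by linarith
    exact lt_of_mul_lt_mul_right this hsZ.le
  have hQ0 : (0:ℤ) ≤ Q := by positivity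
  have hP1 : (1:ℤ) ≤ P := by linarith
  have hq0 : q = 0 := by
    by_contra hne
    rcases lt_or_gt_of_ne hne with hlt | hgt
    · have h5 : q ≤ -1 := by omega
      have h6 : (Q:ℤ)*q ≤ Q*(-1) := mul_le_mul_of_nonneg_left h5 hQ0
      linarith
    · have h5 : 1 ≤ q := by omega
      have h6 : (Q:ℤ)*1 ≤ Q*q := mul_le_mul_of_nonneg_left h5 hQ0
      linarith
  rw [hq0] at n1 n2
  have hD0 : D = 0 := by omega
  have : ((2^a + 2^d : ℕ):ℤ) = ((2^b + 2^c : ℕ):ℤ) := by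
    push_cast
    have := hD0
    rw [hD] at this
    linarith
  exact_mod_cast this

/-- digit condition => interval -/
lemma digit_int (Y S R M : ℕ) (hS : 0 < S) (hM : 0 < M) (hR : 0 < R)
    (h : (Y / S) % (R*M) < M ∨ R*M ≤ (Y / S) % (R*M) + M) :
    ∃ q : ℤ, -((S*M : ℕ):ℤ) ≤ (Y:ℤ) - R*((S*M:ℕ):ℤ)*q ∧ (Y:ℤ) - R*((S*M:ℕ):ℤ)*q < ((S*M:ℕ):ℤ) := by
  set n := Y / S with hn
  set t := n % (R*M) with ht
  set j := n / (R*M) with hj
  have e1 : S * n + Y % S = Y := Nat.div_add_mod Y S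
  have e2 : (R*M) * j + t = n := Nat.div_add_mod n (R*M)
  have l1 : Y % S < S := Nat.mod_lt _ hS
  have l2 : t < R*M := Nat.mod_lt _ (by positivity)
  have E1 : (Y:ℤ) = S * n + ((Y % S : ℕ):ℤ) := by exact_mod_cast e1.symm
  have E2 : (n:ℤ) = (R*M) * j + t := by exact_mod_cast e2.symm
  have L1 : (((Y % S : ℕ)):ℤ) < S := by exact_mod_cast l1
  have L0 : (0:ℤ) ≤ ((Y % S : ℕ):ℤ) := by positivity
  have L2 : (t:ℤ) + 1 ≤ R*M := by exact_mod_cast l2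
  have T0 : (0:ℤ) ≤ t := by positivity
  have SS : (0:ℤ) < S := by exact_mod_cast hS
  rcases h with h | h
  · have H : (t:ℤ) + 1 ≤ M := by exact_mod_cast h
    refine ⟨j, ?_, ?_⟩
    · rw [E1, E2]; push_cast; nlinarith
    · rw [E1, E2]; push_cast; nlinarith
  · have H : (R:ℤ)*M ≤ t + M := by exact_mod_cast h
    refine ⟨j+1, ?_, ?_⟩
    · rw [E1, E2]; push_cast; nlinarith
    · rw [E1, E2]; push_cast; nlinarith

lemma dvd_int (Y S k : ℕ) (hS : 0 < S) (h : k ∣ Y / S) :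
    ∃ q : ℤ, -(S:ℤ) ≤ (Y:ℤ) - k*S*q ∧ (Y:ℤ) - k*S*q < (S:ℤ) := by
  obtain ⟨j, hj⟩ := h
  have e1 : S * (Y/S) + Y % S = Y := Nat.div_add_mod Y S
  have l1 : Y % S < S := Nat.mod_lt _ hS
  rw [hj] at e1
  have E1 : (Y:ℤ) = S * (k*j) + ((Y % S : ℕ):ℤ) := by exact_mod_cast e1.symm
  have L1 : (((Y % S : ℕ)):ℤ) < S := by exact_mod_cast l1
  have L0 : (0:ℤ) ≤ ((Y % S : ℕ):ℤ) := by positivity
  refine ⟨j, ?_, ?_⟩
  · rw [E1]; linarith
  · rw [E1]; linarith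

/-- sum of the scales below level `l` -/
def G (Mp R M0 M1 : ℕ) : ℕ → ℕ
  | 0 => 1 + Mp + Mp*M0
  | (l+1) => G Mp R M0 M1 l + Mp * PP R M0 M1 l + Mp * PP R M0 M1 l * M1

lemma PP_succ (R M0 M1 l : ℕ) : PP R M0 M1 (l+1) = PP R M0 M1 l * (R*M1) := by
  unfold PP; ring

lemma PP_pos {R M0 M1 : ℕ} (l : ℕ) (hR : 0 < R) (h0 : 0 < M0) (h1 : 0 < M1) : 0 < PP R M0 M1 l := by
  unfold PP; positivity

lemma G_bound (K Mp R M0 M1 : ℕ) (hMp : 2^(K+10) ≤ Mp) (hR : 2^(K+10) ≤ R)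
    (h0 : 2^(K+10) ≤ M0) (h1 : 2^(K+10) ≤ M1) (l : ℕ) :
    2^(K+9) * G Mp R M0 M1 l ≤ Mp * PP R M0 M1 l := by
  have two : 2 ≤ 2^(K+10) := by
    calc 2 = 2^1 := by norm_num
      _ ≤ 2^(K+10) := Nat.pow_le_pow_right (by norm_num) (by omega)
  have dbl : 2^(K+10) = 2 * 2^(K+9) := by ring
  have pos9 : 1 ≤ 2^(K+9) := Nat.one_le_two_pow
  induction l with
  | zero =>
    simp only [G, PP, pow_zero, mul_one]
    have a1 : 1 + Mp + Mp*M0 ≤ 2*(Mp*M0) := by nlinarith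
    calc 2^(K+9) * (1 + Mp + Mp*M0) ≤ 2^(K+9) * (2*(Mp*M0)) := Nat.mul_le_mul_left _ a1
      _ = 2^(K+10) * (Mp*M0) := by rw [dbl]; ring
      _ ≤ R * (Mp*M0) := Nat.mul_le_mul_right _ hR
      _ = Mp * (R*M0) := by ring
  | succ l ih =>
    rw [PP_succ]
    show 2^(K+9) * (G Mp R M0 M1 l + Mp * PP R M0 M1 l + Mp * PP R M0 M1 l * M1) ≤ _
    set s := Mp * PP R M0 M1 l with hs
    have gl : G Mp R M0 M1 l ≤ s := by
      calc G Mp R M0 M1 l = 1 * G Mp R M0 M1 l := by ring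
        _ ≤ 2^(K+9) * G Mp R M0 M1 l := Nat.mul_le_mul_right _ pos9
        _ ≤ s := ih
    have a1 : G Mp R M0 M1 l + s + s*M1 ≤ 2*(s*M1) := by
      have : 2 ≤ M1 := le_trans two h1
      nlinarith
    calc 2^(K+9) * (G Mp R M0 M1 l + s + s*M1) ≤ 2^(K+9) * (2*(s*M1)) := Nat.mul_le_mul_left _ a1
      _ = 2^(K+10) * (s*M1) := by rw [dbl]; ring
      _ ≤ R * (s*M1) := Nat.mul_le_mul_right _ hR
      _ = Mp * (PP R M0 M1 l * (R*M1)) := by rw [hs]; ring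

lemma G_ext (Mp R M0 M1 : ℕ) (l n : ℕ) :
    ∃ h, G Mp R M0 M1 (l+n) = G Mp R M0 M1 l + Mp * PP R M0 M1 l * h := by
  induction n with
  | zero => exact ⟨0, by simp⟩
  | succ n ih =>
    obtain ⟨h, hh⟩ := ih
    refine ⟨h + (R*M1)^n * (1 + M1), ?_⟩
    show G Mp R M0 M1 (l+n) + Mp * PP R M0 M1 (l+n) + Mp * PP R M0 M1 (l+n) * M1 = _
    rw [hh]
    unfold PP
    ring

lemma near_card (K s Q Lw Sg h : ℕ) (hSg : Sg = Lw + s + Q*s*h) (hs : 0 < s)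
    (hQ : 2^(K+10) ≤ Q) (hL : 2^(K+9)*Lw ≤ s) (T : ℤ) (P : Finset (ℕ × ℕ))
    (hP : ∀ ab ∈ P, ab.1 < K ∧ ab.2 < K ∧ ab.1 ≠ ab.2 ∧ ∃ q : ℤ,
      -(s:ℤ) ≤ T + 16*2^ab.1*Sg - 16*2^ab.2*Sg - Q*s*q ∧
      T + 16*2^ab.1*Sg - 16*2^ab.2*Sg - Q*s*q < s) : P.card ≤ 1 := by
  rw [Finset.card_le_one]
  intro p hp p' hp'
  obtain ⟨ha, hb, hne, q1, h1, h1'⟩ := hP p hp
  obtain ⟨hc, hd, hne', q2, h2, h2'⟩ := hP p' hp'
  rcases one_pair K s Q Lw Sg h hSg hs hQ hL T _ _ _ _ ha hb hc hd q1 q2 h1 h1' h2 h2' with h | h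
  · exact Prod.ext h.1 h.2
  · exact absurd h.1 hne

/-- instance-free form of #13273 U4 -/
theorem spoil_set (m r K Mp R M0 M1 rho : ℕ) (Ms Ms1 : Finset ℕ)
    (hMp : 2^(K+10) ≤ Mp) (hR : 2^(K+10) ≤ R) (h0 : 2^(K+10) ≤ M0) (h1 : 2^(K+10) ≤ M1)
    (hMs : ∀ k ∈ Ms, 2^(K+10) ≤ k ∧ k ∣ M0) (hMs1 : ∀ k ∈ Ms1, 2^(K+10) ≤ k ∧ k ∣ M1)
    (hc : Ms.card ≤ r) (hc1 : Ms1.card ≤ 32*rho) (hrho : 0 < rho) :
    ∃ (x : ℕ → ℕ) (T0 : ℕ), StrictMono x ∧ (∀ a, a ≤ K → x a ≤ T0) ∧ (∀ a, Mp ≤ x a) ∧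
      (∀ a b c d, a < K → b < K → c < K → d < K →
        (Mp:ℤ) ∣ ((x a:ℤ) - x b) - (x c - x d) → (a = c ∧ b = d) ∨ (a = b ∧ c = d)) ∧
      ∀ T, T0 ≤ T → ∀ P : Finset (ℕ × ℕ),
        (∀ ab ∈ P, ab.1 < K ∧ ab.2 < K ∧ ab.1 ≠ ab.2 ∧
          Bad R M0 M1 m rho Ms Ms1 ((T + x ab.1 - x ab.2) / Mp)) → P.card ≤ 2 + r + 34*m := by
  classical
  have pos10 : 0 < 2^(K+10) := by positivity
  have pMp : 0 < Mp := lt_of_lt_of_le pos10 hMp
  have pR : 0 < R := lt_of_lt_of_le pos10 hR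
  have p0 : 0 < M0 := lt_of_lt_of_le pos10 h0
  have p1 : 0 < M1 := lt_of_lt_of_le pos10 h1
  have dbl : 2^(K+10) = 2 * 2^(K+9) := by ring
  have pos9 : 1 ≤ 2^(K+9) := Nat.one_le_two_pow
  set Sg := G Mp R M0 M1 m with hSgdef
  obtain ⟨hh0, hG0⟩ := G_ext Mp R M0 M1 0 m
  rw [Nat.zero_add] at hG0
  have hG0' : Sg = 1 + Mp + Mp*M0 + Mp*(R*M0)*hh0 := by
    rw [hSgdef, hG0]; simp only [G, PP, pow_zero, mul_one]
  have hSgMp : Mp ≤ Sg := by rw [hG0']; nlinarith [Nat.zero_le (Mp*M0), Nat.zero_le (Mp*(R*M0)*hh0)]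
  have hSgpos : 0 < Sg := lt_of_lt_of_le pMp hSgMp
  refine ⟨fun a => 16*2^a*Sg, 16*2^K*Sg, ?_, ?_, ?_, ?_, ?_⟩
  · intro a b hab
    have : 2^a < 2^b := Nat.pow_lt_pow_right (by norm_num) hab
    show 16*2^a*Sg < 16*2^b*Sg
    exact Nat.mul_lt_mul_of_pos_right (by omega) hSgpos
  · intro a ha
    have : 2^a ≤ 2^K := Nat.pow_le_pow_right (by norm_num) ha
    exact Nat.mul_le_mul_right _ (Nat.mul_le_mul_left _ this)
  · intro a
    have : 1 ≤ 2^a := Nat.one_le_two_pow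
    calc Mp ≤ Sg := hSgMp
      _ = 1 * Sg := (Nat.one_mul _).symm
      _ ≤ 16*2^a*Sg := Nat.mul_le_mul_right _ (by omega)
  · intro a b c d ha hb hc' hd hdvd
    apply two_pow_sidon
    have bd : ∀ i, i < K → (0:ℤ) < 2^i ∧ (2:ℤ)*2^i ≤ 2^K := by
      intro i hi
      refine ⟨by positivity, ?_⟩
      have : (2:ℤ)^(i+1) ≤ 2^K := pow_le_pow_right₀ (by norm_num) hi
      calc (2:ℤ)*2^i = 2^(i+1) := by ring
        _ ≤ 2^K := this
    obtain ⟨a0, a1⟩ := bd a ha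
    obtain ⟨b0, b1⟩ := bd b hb
    obtain ⟨c0, c1⟩ := bd c hc'
    obtain ⟨d0, d1⟩ := bd d hd
    have hMpZ : 1024 * (2:ℤ)^K ≤ (Mp:ℤ) := by
      have : ((2^(K+10) : ℕ):ℤ) ≤ (Mp:ℤ) := by exact_mod_cast hMp
      have e : ((2^(K+10) : ℕ):ℤ) = 1024 * 2^K := by push_cast; ring
      linarith
    have hd2 : (Mp:ℤ) ∣ 16*(2^a - 2^b - 2^c + 2^d) := by
      have e : ((((16*2^a*Sg : ℕ):ℤ) - ((16*2^b*Sg : ℕ):ℤ)) - (((16*2^c*Sg : ℕ):ℤ) - ((16*2^d*Sg : ℕ):ℤ)))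
          = 16*(2^a - 2^b - 2^c + 2^d) + Mp * (16*(2^a - 2^b - 2^c + 2^d)*(1 + M0 + (R*M0)*hh0)) := by
        rw [hG0']; push_cast; ring
      have h5 := hdvd
      simp only at h5
      rw [e] at h5
      exact (Int.dvd_add_left (Dvd.intro _ rfl)).1 h5
    have hz : (16*(2^a - 2^b - 2^c + 2^d) : ℤ) = 0 := by
      apply Int.eq_zero_of_abs_lt_dvd hd2
      rw [abs_lt]
      constructor <;> linarith
    have : ((2^a + 2^d : ℕ):ℤ) = ((2^b + 2^c : ℕ):ℤ) := by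
      push_cast; linarith
    exact_mod_cast this
  · intro T hT P hP
    have hY : ∀ ab : ℕ × ℕ, ab.1 < K → ab.2 < K →
        ((T + 16*2^ab.1*Sg - 16*2^ab.2*Sg : ℕ):ℤ) = (T:ℤ) + 16*2^ab.1*Sg - 16*2^ab.2*Sg := by
      intro ab ha hb
      have : 2^ab.2 ≤ 2^K := Nat.pow_le_pow_right (by norm_num) hb.le
      have h5 : 16*2^ab.2*Sg ≤ 16*2^K*Sg := Nat.mul_le_mul_right _ (Nat.mul_le_mul_left _ this)
      rw [Nat.cast_sub (by omega)]
      push_cast; ring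
    set Y : ℕ × ℕ → ℕ := fun ab => T + 16*2^ab.1*Sg - 16*2^ab.2*Sg with hYdef
    -- the pieces
    set P1 := P.filter (fun ab => (Y ab / Mp) % (R*M0) < M0 ∨ R*M0 ≤ (Y ab / Mp) % (R*M0) + M0) with hP1
    set P2 : ℕ → Finset (ℕ × ℕ) := fun k => P.filter (fun ab => k ∣ Y ab / Mp) with hP2
    set A : ℕ → Finset (ℕ × ℕ) := fun l => P.filter (fun ab =>
      (Y ab / Mp / PP R M0 M1 l) % (R*M1) < M1 ∨ R*M1 ≤ (Y ab / Mp / PP R M0 M1 l) % (R*M1) + M1) with hA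
    set B : ℕ → Finset (ℕ × ℕ) := fun l => P.filter (fun ab =>
      rho ≤ (Ms1.filter (· ∣ Y ab / Mp / PP R M0 M1 l)).card) with hB
    have cover : P ⊆ (P1 ∪ Ms.biUnion P2) ∪ (Finset.range m).biUnion (fun l => A l ∪ B l) := by
      intro ab hab
      obtain ⟨_, _, _, hbad⟩ := hP ab hab
      simp only [Finset.mem_union, Finset.mem_biUnion, Finset.mem_range]
      rcases hbad with hbad | ⟨k, hk, hk2⟩ | ⟨l, hl, hbad | hbad⟩
      · left; left; rw [hP1, Finset.mem_filter]; exact ⟨hab, hbad⟩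
      · left; right; exact ⟨k, hk, by rw [hP2]; exact Finset.mem_filter.2 ⟨hab, hk2⟩⟩
      · right; exact ⟨l, hl, Or.inl (by rw [hA]; exact Finset.mem_filter.2 ⟨hab, hbad⟩)⟩
      · right; exact ⟨l, hl, Or.inr (by rw [hB]; exact Finset.mem_filter.2 ⟨hab, hbad⟩)⟩
    have cP1 : P1.card ≤ 1 := by
      apply near_card K (Mp*M0) R (1+Mp) Sg hh0 (by rw [hG0']; ring) (by positivity) hR ?_ (T:ℤ)
      · intro ab hab
        rw [hP1, Finset.mem_filter] at hab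
        obtain ⟨hab, hcond⟩ := hab
        obtain ⟨ha, hb, hne, _⟩ := hP ab hab
        refine ⟨ha, hb, hne, ?_⟩
        obtain ⟨q, hq1, hq2⟩ := digit_int (Y ab) Mp R M0 pMp p0 pR hcond
        refine ⟨q, ?_, ?_⟩
        · rw [← hY ab ha hb]; exact hq1
        · rw [← hY ab ha hb]; exact hq2
      · calc 2^(K+9) * (1 + Mp) ≤ 2^(K+9) * (2*Mp) := Nat.mul_le_mul_left _ (by omega)
          _ = 2^(K+10) * Mp := by rw [dbl]; ring
          _ ≤ M0 * Mp := Nat.mul_le_mul_right _ h0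
          _ = Mp * M0 := by ring
    have cP2 : ∀ k ∈ Ms, (P2 k).card ≤ 1 := by
      intro k hk
      obtain ⟨hk1, j, hj⟩ := hMs k hk
      apply near_card K Mp k 1 Sg (j + R*j*hh0) (by rw [hG0', hj]; ring) pMp hk1 (by omega) (T:ℤ)
      intro ab hab
      rw [hP2] at hab
      obtain ⟨hab, hcond⟩ := Finset.mem_filter.1 hab
      obtain ⟨ha, hb, hne, _⟩ := hP ab hab
      refine ⟨ha, hb, hne, ?_⟩
      obtain ⟨q, hq1, hq2⟩ := dvd_int (Y ab) Mp k pMp hcond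
      refine ⟨q, ?_, ?_⟩
      · rw [← hY ab ha hb]; exact hq1
      · rw [← hY ab ha hb]; exact hq2
    have ext : ∀ l, l < m → ∃ h, Sg = G Mp R M0 M1 l + Mp * PP R M0 M1 l + Mp * PP R M0 M1 l * M1
        + R * (Mp * PP R M0 M1 l * M1) * h := by
      intro l hl
      obtain ⟨h, hh⟩ := G_ext Mp R M0 M1 (l+1) (m - (l+1))
      refine ⟨h, ?_⟩
      have e : l + 1 + (m - (l+1)) = m := by omega
      rw [e] at hh
      rw [hSgdef, hh, PP_succ]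
      show G Mp R M0 M1 l + Mp * PP R M0 M1 l + Mp * PP R M0 M1 l * M1 + _ = _
      ring
    have cA : ∀ l, l < m → (A l).card ≤ 1 := by
      intro l hl
      obtain ⟨h, hh⟩ := ext l hl
      have pPP := PP_pos (M0 := M0) (M1 := M1) l pR p0 p1
      have gb := G_bound K Mp R M0 M1 hMp hR h0 h1 l
      apply near_card K (Mp * PP R M0 M1 l * M1) R (G Mp R M0 M1 l + Mp * PP R M0 M1 l) Sg h
        (by rw [hh]) (by positivity) hR ?_ (T:ℤ)
      · intro ab hab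
        rw [hA] at hab
        obtain ⟨hab, hcond⟩ := Finset.mem_filter.1 hab
        obtain ⟨ha, hb, hne, _⟩ := hP ab hab
        refine ⟨ha, hb, hne, ?_⟩
        rw [Nat.div_div_eq_div_mul] at hcond
        obtain ⟨q, hq1, hq2⟩ := digit_int (Y ab) (Mp * PP R M0 M1 l) R M1 (by positivity) p1 pR hcond
        refine ⟨q, ?_, ?_⟩
        · rw [← hY ab ha hb]; exact hq1
        · rw [← hY ab ha hb]; exact hq2
      · set s := Mp * PP R M0 M1 l with hs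
        calc 2^(K+9) * (G Mp R M0 M1 l + s) = 2^(K+9) * G Mp R M0 M1 l + 2^(K+9)*s := by ring
          _ ≤ s + 2^(K+9)*s := Nat.add_le_add_right gb _
          _ ≤ 2^(K+9)*s + 2^(K+9)*s := Nat.add_le_add_right (Nat.le_mul_of_pos_left _ (by positivity)) _
          _ = 2^(K+10) * s := by rw [dbl]; ring
          _ ≤ M1 * s := Nat.mul_le_mul_right _ h1
          _ = s * M1 := by ring
    have cBk : ∀ l, l < m → ∀ k ∈ Ms1,
        (P.filter (fun ab => k ∣ Y ab / Mp / PP R M0 M1 l)).card ≤ 1 := by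
      intro l hl k hk
      obtain ⟨h, hh⟩ := ext l hl
      obtain ⟨hk1, j, hj⟩ := hMs1 k hk
      have pPP := PP_pos (M0 := M0) (M1 := M1) l pR p0 p1
      have gb := G_bound K Mp R M0 M1 hMp hR h0 h1 l
      have hh2 : Sg = G Mp R M0 M1 l + Mp * PP R M0 M1 l + k * (Mp * PP R M0 M1 l) * (j + R*j*h) := by
        rw [hh]
        have : Mp * PP R M0 M1 l * M1 = Mp * PP R M0 M1 l * (k*j) := by rw [← hj]
        rw [this]; ring
      apply near_card K (Mp * PP R M0 M1 l) k (G Mp R M0 M1 l) Sg (j + R*j*h) hh2 (by positivity) hk1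
        gb (T:ℤ)
      intro ab hab
      obtain ⟨hab, hcond⟩ := Finset.mem_filter.1 hab
      obtain ⟨ha, hb, hne, _⟩ := hP ab hab
      refine ⟨ha, hb, hne, ?_⟩
      rw [Nat.div_div_eq_div_mul] at hcond
      obtain ⟨q, hq1, hq2⟩ := dvd_int (Y ab) (Mp * PP R M0 M1 l) k (by positivity) hcond
      refine ⟨q, ?_, ?_⟩
      · rw [← hY ab ha hb]; exact hq1
      · rw [← hY ab ha hb]; exact hq2
    have cB : ∀ l, l < m → (B l).card ≤ 32 := by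
      intro l hl
      have e1 : (B l).card * rho ≤ ∑ ab ∈ B l, (Ms1.filter (· ∣ Y ab / Mp / PP R M0 M1 l)).card := by
        rw [← smul_eq_mul]
        apply Finset.card_nsmul_le_sum
        intro ab hab
        rw [hB] at hab
        exact (Finset.mem_filter.1 hab).2
      have e2 : ∑ ab ∈ B l, (Ms1.filter (· ∣ Y ab / Mp / PP R M0 M1 l)).card
          = ∑ k ∈ Ms1, ((B l).filter (fun ab => k ∣ Y ab / Mp / PP R M0 M1 l)).card := by
        simp only [Finset.card_filter]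
        exact Finset.sum_comm
      have e3 : ∑ k ∈ Ms1, ((B l).filter (fun ab => k ∣ Y ab / Mp / PP R M0 M1 l)).card ≤ Ms1.card := by
        calc _ ≤ ∑ k ∈ Ms1, 1 := by
              apply Finset.sum_le_sum
              intro k hk
              refine le_trans (Finset.card_le_card ?_) (cBk l hl k hk)
              intro ab hab
              obtain ⟨hab, hcond⟩ := Finset.mem_filter.1 hab
              rw [hB] at hab
              exact Finset.mem_filter.2 ⟨(Finset.mem_filter.1 hab).1, hcond⟩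
          _ = Ms1.card := by simp
      have e4 : (B l).card * rho ≤ 32 * rho := by
        rw [e2] at e1
        exact le_trans e1 (le_trans e3 hc1)
      exact Nat.le_of_mul_le_mul_right e4 hrho
    calc P.card ≤ ((P1 ∪ Ms.biUnion P2) ∪ (Finset.range m).biUnion (fun l => A l ∪ B l)).card :=
          Finset.card_le_card cover
      _ ≤ (P1 ∪ Ms.biUnion P2).card + ((Finset.range m).biUnion (fun l => A l ∪ B l)).card :=
          Finset.card_union_le _ _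
      _ ≤ (P1.card + (Ms.biUnion P2).card) + ((Finset.range m).biUnion (fun l => A l ∪ B l)).card :=
          Nat.add_le_add_right (Finset.card_union_le _ _) _
      _ ≤ (1 + r) + 33*m := by
          have b1 : (Ms.biUnion P2).card ≤ Ms.card * 1 := Finset.card_biUnion_le_card_mul _ _ _ cP2
          have b2 : ((Finset.range m).biUnion (fun l => A l ∪ B l)).card ≤ (Finset.range m).card * 33 := by
            apply Finset.card_biUnion_le_card_mul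
            intro l hl
            have hl' := Finset.mem_range.1 hl
            have := Finset.card_union_le (A l) (B l)
            have h5 := cA l hl'
            have h6 := cB l hl'
            omega
          rw [Finset.card_range] at b2
          omega
      _ ≤ 2 + r + 34*m := by omega

open Classical in
/-- LEAF U4 of #13273, literal -/
theorem spoil (m r K Mp R M0 M1 rho : ℕ) (Ms Ms1 : Finset ℕ)
    (hMp : 2^(K+10) ≤ Mp) (hR : 2^(K+10) ≤ R) (h0 : 2^(K+10) ≤ M0) (h1 : 2^(K+10) ≤ M1)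
    (hMs : ∀ k ∈ Ms, 2^(K+10) ≤ k ∧ k ∣ M0) (hMs1 : ∀ k ∈ Ms1, 2^(K+10) ≤ k ∧ k ∣ M1)
    (hc : Ms.card ≤ r) (hc1 : Ms1.card ≤ 32*rho) (hrho : 0 < rho) :
    ∃ (x : ℕ → ℕ) (T0 : ℕ),
      (∀ a b c d, a < K → b < K → c < K → d < K →
        (Mp:ℤ) ∣ ((x a:ℤ) - x b) - (x c - x d) → (a = c ∧ b = d) ∨ (a = b ∧ c = d)) ∧
      ∀ T, T0 ≤ T → (((Finset.range K ×ˢ Finset.range K).filter (fun ab => ab.1 ≠ ab.2 ∧
        Bad R M0 M1 m rho Ms Ms1 ((T + x ab.1 - x ab.2) / Mp))).card ≤ 2 + r + 34*m) := by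
  obtain ⟨x, T0, _, _, _, hx, hT⟩ := spoil_set m r K Mp R M0 M1 rho Ms Ms1 hMp hR h0 h1 hMs hMs1 hc hc1 hrho
  refine ⟨x, T0, hx, fun T hT' => hT T hT' _ ?_⟩
  intro ab hab
  rw [Finset.mem_filter, Finset.mem_product, Finset.mem_range, Finset.mem_range] at hab
  exact ⟨hab.1.1, hab.1.2, hab.2.1, hab.2.2⟩

end Crest.Agent.R320.Spoil_498
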