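import Mathlib

/-!
Row 320, TEAM U, leaf U4 (`spoil`) of helper638 #13273: pure arithmetic.
-/

set_option autoImplicit false

namespace Crest.Agent.R320.Spoil_552

def PP (R M0 M1 l : ℕ) := (R*M0) * (R*M1)^l
def beta (R M0 M1 m n l : ℕ) := PP R M0 M1 m * (3*l+2) + n % PP R M0 M1 l
def Bad (R M0 M1 m rho : ℕ) (Ms Ms1 : Finset ℕ) (n : ℕ) : Prop :=
  (n % (R*M0) < M0 ∨ R*M0 ≤ n % (R*M0) + M0) ∨ (∃ k ∈ Ms, k ∣ n) ∨
    ∃ l < m, ((n / PP R M0 M1 l) % (R*M1) < M1 ∨ R*M1 ≤ (n / PP R M0 M1 l) % (R*M1) + M1) ∨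
      rho ≤ (Ms1.filter (· ∣ n / PP R M0 M1 l)).card

theorem pow_sub_inj_aux {a b c d : ℕ} (hab : a < b) (h : (2:ℤ)^a - 2^b = 2^c - 2^d) :
    a = c ∧ b = d := by
  have h1 : (2:ℕ)^a + 2^d = 2^c + 2^b := by
    have : (2:ℤ)^a + 2^d = 2^c + 2^b := by linarith
    exact_mod_cast this
  have hcd : c < d := by
    by_contra hh
    push Not at hh
    have e1 : (2:ℕ)^a < 2^b := Nat.pow_lt_pow_right (by norm_num) hab
    have e2 : (2:ℕ)^d ≤ 2^c := Nat.pow_le_pow_right (by norm_num) hh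
    omega
  have hac : a = c := by
    rcases lt_trichotomy a c with h2 | h2 | h2
    · exfalso
      -- 2^(a+1) divides 2^d, 2^c, 2^b
      have d1 : (2:ℕ)^(a+1) ∣ 2^d := pow_dvd_pow _ (by omega)
      have d2 : (2:ℕ)^(a+1) ∣ 2^c := pow_dvd_pow _ (by omega)
      have d3 : (2:ℕ)^(a+1) ∣ 2^b := pow_dvd_pow _ (by omega)
      have d4 : (2:ℕ)^(a+1) ∣ 2^a := by
        have : (2:ℕ)^(a+1) ∣ 2^a + 2^d := by rw [h1]; exact Dvd.dvd.add d2 d3
        exact (Nat.dvd_add_left d1).1 this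
      have := Nat.le_of_dvd (by positivity) d4
      have e1 : (2:ℕ)^a < 2^(a+1) := Nat.pow_lt_pow_right (by norm_num) (by omega)
      omega
    · exact h2
    · exfalso
      have d1 : (2:ℕ)^(c+1) ∣ 2^d := pow_dvd_pow _ (by omega)
      have d2 : (2:ℕ)^(c+1) ∣ 2^a := pow_dvd_pow _ (by omega)
      have d3 : (2:ℕ)^(c+1) ∣ 2^b := pow_dvd_pow _ (by omega)
      have d4 : (2:ℕ)^(c+1) ∣ 2^c := by
        have : (2:ℕ)^(c+1) ∣ 2^c + 2^b := by rw [← h1]; exact Dvd.dvd.add d2 d1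
        exact (Nat.dvd_add_left d3).1 this
      have := Nat.le_of_dvd (by positivity) d4
      have e1 : (2:ℕ)^c < 2^(c+1) := Nat.pow_lt_pow_right (by norm_num) (by omega)
      omega
  subst hac
  refine ⟨rfl, ?_⟩
  have : (2:ℕ)^d = 2^b := by omega
  exact (Nat.pow_right_injective (le_refl 2) this).symm

/-- Sidon property of powers of two. -/
theorem pow_sub_inj {a b c d : ℕ} (h : (2:ℤ)^a - 2^b = 2^c - 2^d) :
    (a = c ∧ b = d) ∨ (a = b ∧ c = d) := by
  rcases lt_trichotomy a b with hab | hab | hab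
  · exact Or.inl (pow_sub_inj_aux hab h)
  · subst hab
    right
    refine ⟨rfl, ?_⟩
    have : (2:ℤ)^c = 2^d := by linarith
    have : (2:ℕ)^c = 2^d := by exact_mod_cast this
    exact Nat.pow_right_injective (le_refl 2) this
  · left
    have h' : (2:ℤ)^b - 2^a = 2^d - 2^c := by linarith
    obtain ⟨h1, h2⟩ := pow_sub_inj_aux hab h'
    exact ⟨h2, h1⟩

/-- the thin condition -/
def Near (s Q N : ℤ) : Prop := ∃ q : ℤ, -s ≤ N - q * (Q * s) ∧ N - q * (Q * s) < s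

theorem key (K : ℕ) (Q s lo hi T u1 u2 : ℤ) (hs : 0 < s) (hQ : 2^(K+10) ≤ Q) (hlo : 0 ≤ lo)
    (hlo2 : lo ≤ s) (hhi : Q * s ∣ hi) (hu1 : |u1| ≤ 2^K) (hu2 : |u2| ≤ 2^K)
    (h1 : Near s Q (T + 16 * u1 * (lo + s + hi))) (h2 : Near s Q (T + 16 * u2 * (lo + s + hi))) :
    u1 = u2 := by
  obtain ⟨q1, a1, b1⟩ := h1
  obtain ⟨q2, a2, b2⟩ := h2
  obtain ⟨h, rfl⟩ := hhi
  by_contra hne
  set δ := u1 - u2 with hδ
  have hδ0 : δ ≠ 0 := sub_ne_zero.2 hne
  have hδb : |δ| ≤ 2^(K+1) := by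
    rw [hδ]
    calc |u1 - u2| ≤ |u1| + |u2| := abs_sub _ _
      _ ≤ 2^K + 2^K := add_le_add hu1 hu2
      _ = 2^(K+1) := by ring
  set j : ℤ := q1 - q2 - 16 * δ * h with hj
  -- the equation
  have e : (T + 16 * u1 * (lo + s + Q * s * h)) - q1 * (Q * s) -
      ((T + 16 * u2 * (lo + s + Q * s * h)) - q2 * (Q * s)) = 16 * δ * (lo + s) - j * (Q * s) := by
    rw [hj, hδ]; ring
  have l1 : -(2 * s) < 16 * δ * (lo + s) - j * (Q * s) := by rw [← e]; linarith
  have l2 : 16 * δ * (lo + s) - j * (Q * s) < 2 * s := by rw [← e]; linarith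
  have hP : (0:ℤ) < 2^K := by positivity
  have e1 : (2:ℤ)^(K+1) = 2 * 2^K := by ring
  have e10 : (2:ℤ)^(K+10) = 1024 * 2^K := by ring
  rw [e1] at hδb
  rw [e10] at hQ
  obtain ⟨hd1, hd2⟩ := abs_le.1 hδb
  have hs2 : 0 < lo + s := by linarith
  have hs3 : lo + s ≤ 2 * s := by linarith
  have m1 : 16 * δ * (lo + s) ≤ 64 * 2^K * s := by
    have t1 : δ * (lo + s) ≤ (2 * 2^K) * (lo + s) := mul_le_mul_of_nonneg_right hd2 hs2.le
    have t2 : (2 * 2^K) * (lo + s) ≤ (2 * 2^K) * (2 * s) :=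
      mul_le_mul_of_nonneg_left hs3 (by positivity)
    linarith
  have m2 : -(64 * 2^K * s) ≤ 16 * δ * (lo + s) := by
    have t1 : -(2 * 2^K) * (lo + s) ≤ δ * (lo + s) := mul_le_mul_of_nonneg_right hd1 hs2.le
    have t2 : (2 * 2^K) * (lo + s) ≤ (2 * 2^K) * (2 * s) :=
      mul_le_mul_of_nonneg_left hs3 (by positivity)
    linarith
  have hQs : 1024 * 2^K * s ≤ Q * s := mul_le_mul_of_nonneg_right hQ hs.le
  have hPs : 1 * s ≤ 2^K * s :=
    mul_le_mul_of_nonneg_right (by exact_mod_cast Nat.one_le_two_pow) hs.le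
  have hQs0 : 0 ≤ Q * s := by linarith
  have hj0 : j = 0 := by
    rcases lt_trichotomy j 0 with h3 | h3 | h3
    · exfalso
      have h4 : j ≤ -1 := by omega
      have : j * (Q * s) ≤ -1 * (Q * s) := mul_le_mul_of_nonneg_right h4 hQs0
      linarith
    · exact h3
    · exfalso
      have h4 : 1 ≤ j := by omega
      have : 1 * (Q * s) ≤ j * (Q * s) := mul_le_mul_of_nonneg_right h4 hQs0
      linarith
  rw [hj0] at l1 l2
  rcases lt_or_gt_of_ne hδ0 with h3 | h3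
  · have h4 : δ ≤ -1 := by omega
    have : δ * (lo + s) ≤ -1 * (lo + s) := mul_le_mul_of_nonneg_right h4 hs2.le
    linarith
  · have h4 : 1 ≤ δ := by omega
    have : 1 * (lo + s) ≤ δ * (lo + s) := mul_le_mul_of_nonneg_right h4 hs2.le
    linarith

theorem near_of_mod (N W R M : ℕ) (hW : 0 < W) (hM : 0 < M) (hR : 0 < R)
    (h : (N / W) % (R * M) < M ∨ R * M ≤ (N / W) % (R * M) + M) :
    Near ((W * M : ℕ) : ℤ) (R : ℤ) (N : ℤ) := by
  set n := N / W with hn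
  have h1 : W * n + N % W = N := Nat.div_add_mod N W
  have h2 : N % W < W := Nat.mod_lt _ hW
  have h3 : (R * M) * (n / (R * M)) + n % (R * M) = n := Nat.div_add_mod n (R * M)
  have h4 : n % (R * M) < R * M := Nat.mod_lt _ (Nat.mul_pos hR hM)
  set q := n / (R * M)
  set ρ := n % (R * M)
  set t := N % W
  have eN : (N : ℤ) = W * ((R * M) * q + ρ) + t := by
    have : N = W * ((R * M) * q + ρ) + t := by rw [h3, h1]
    exact_mod_cast this
  have hWz : (0:ℤ) < W := by exact_mod_cast hW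
  have ht0 : (0:ℤ) ≤ t := by positivity
  have htW : (t:ℤ) < W := by exact_mod_cast h2
  have hρ0 : (0:ℤ) ≤ ρ := by positivity
  rcases h with h | h
  · refine ⟨q, ?_, ?_⟩
    · have : (N : ℤ) - q * (R * ((W * M : ℕ) : ℤ)) = W * ρ + t := by
        rw [eN]; push_cast; ring
      rw [this]
      have : (0:ℤ) ≤ W * ρ := by positivity
      have : (0:ℤ) ≤ ((W * M : ℕ) : ℤ) := by positivity
      linarith
    · have : (N : ℤ) - q * (R * ((W * M : ℕ) : ℤ)) = W * ρ + t := by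
        rw [eN]; push_cast; ring
      rw [this]
      have h5 : (ρ : ℤ) + 1 ≤ M := by exact_mod_cast h
      have h6 : (W:ℤ) * (ρ + 1) ≤ W * M := mul_le_mul_of_nonneg_left h5 hWz.le
      push_cast
      linarith
  · refine ⟨q + 1, ?_, ?_⟩
    · have : (N : ℤ) - (q + 1) * (R * ((W * M : ℕ) : ℤ)) = W * ρ + t - W * (R * M) := by
        rw [eN]; push_cast; ring
      rw [this]
      have h5 : (R:ℤ) * M ≤ ρ + M := by exact_mod_cast h
      have h6 : (W:ℤ) * (R * M) ≤ W * (ρ + M) := mul_le_mul_of_nonneg_left h5 hWz.le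
      push_cast
      linarith
    · have : (N : ℤ) - (q + 1) * (R * ((W * M : ℕ) : ℤ)) = W * ρ + t - W * (R * M) := by
        rw [eN]; push_cast; ring
      rw [this]
      have h5 : (ρ:ℤ) + 1 ≤ R * M := by exact_mod_cast h4
      have h6 : (0:ℤ) < ((W * M : ℕ) : ℤ) := by exact_mod_cast Nat.mul_pos hW hM
      have h7 : (W:ℤ) * (ρ + 1) ≤ W * (R * M) := mul_le_mul_of_nonneg_left h5 hWz.le
      linarith

theorem near_of_dvd (N W k : ℕ) (hW : 0 < W) (h : k ∣ N / W) :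
    Near (W : ℤ) (k : ℤ) (N : ℤ) := by
  obtain ⟨q, hq⟩ := h
  have h1 : W * (N / W) + N % W = N := Nat.div_add_mod N W
  have h2 : N % W < W := Nat.mod_lt _ hW
  rw [hq] at h1
  set t := N % W
  have eN : (N : ℤ) = W * (k * q) + t := by exact_mod_cast h1.symm
  have hWz : (0:ℤ) < W := by exact_mod_cast hW
  have ht0 : (0:ℤ) ≤ t := by positivity
  have htW : (t:ℤ) < W := by exact_mod_cast h2
  refine ⟨q, ?_, ?_⟩
  · have : (N : ℤ) - q * (k * W) = t := by rw [eN]; ring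
    rw [this]; linarith
  · have : (N : ℤ) - q * (k * W) = t := by rw [eN]; ring
    rw [this]; exact htW


/-- the scales below level `l` -/
def low (Mp R M0 M1 : ℕ) : ℕ → ℕ
  | 0 => 1 + Mp + Mp * M0
  | l+1 => low Mp R M0 M1 l + Mp * PP R M0 M1 l + Mp * PP R M0 M1 l * M1

theorem PP_succ (R M0 M1 l : ℕ) : PP R M0 M1 (l+1) = PP R M0 M1 l * (R * M1) := by
  unfold PP; rw [pow_succ]; ring

theorem PP_pos {R M0 M1 : ℕ} (hR : 0 < R) (h0 : 0 < M0) (h1 : 0 < M1) (l : ℕ) :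
    0 < PP R M0 M1 l := by unfold PP; positivity

theorem low_le {Mp R M0 M1 : ℕ} (hMp : 4 ≤ Mp) (hR : 4 ≤ R) (h0 : 4 ≤ M0) (h1 : 4 ≤ M1) (l : ℕ) :
    low Mp R M0 M1 l ≤ Mp * PP R M0 M1 l := by
  induction l with
  | zero =>
    have e : PP R M0 M1 0 = R * M0 := by simp [PP]
    rw [e]
    show 1 + Mp + Mp * M0 ≤ _
    have a1 : Mp * 4 ≤ Mp * M0 := Nat.mul_le_mul_left _ h0
    have a2 : Mp * (4 * M0) ≤ Mp * (R * M0) := Nat.mul_le_mul_left _ (Nat.mul_le_mul_right _ hR)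
    have a3 : Mp * (4 * M0) = 4 * (Mp * M0) := by ring
    omega
  | succ l ih =>
    show low Mp R M0 M1 l + Mp * PP R M0 M1 l + Mp * PP R M0 M1 l * M1 ≤ _
    rw [PP_succ]
    set X := Mp * PP R M0 M1 l with hX
    have a1 : X * 4 ≤ X * M1 := Nat.mul_le_mul_left _ h1
    have a2 : X * (4 * M1) ≤ X * (R * M1) := Nat.mul_le_mul_left _ (Nat.mul_le_mul_right _ hR)
    have a3 : X * (4 * M1) = 4 * (X * M1) := by ring
    have a4 : Mp * (PP R M0 M1 l * (R * M1)) = X * (R * M1) := by rw [hX]; ring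
    rw [a4]
    omega

theorem dvd_PP (R M0 M1 : ℕ) {l l' : ℕ} (h : l ≤ l') : PP R M0 M1 l ∣ PP R M0 M1 l' := by
  induction h with
  | refl => exact dvd_rfl
  | step _ ih => rw [PP_succ]; exact ih.mul_right _

/-- scales above: `low l' = low l + (multiple of Mp * PP l)`. -/
theorem low_split (Mp R M0 M1 : ℕ) {l l' : ℕ} (h : l ≤ l') :
    ∃ z, low Mp R M0 M1 l' = low Mp R M0 M1 l + Mp * PP R M0 M1 l * z := by
  induction h with
  | refl => exact ⟨0, by simp⟩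
  | @step n hn ih =>
    obtain ⟨z, hz⟩ := ih
    obtain ⟨y, hy⟩ := dvd_PP R M0 M1 hn
    refine ⟨z + y + y * M1, ?_⟩
    show low Mp R M0 M1 n + Mp * PP R M0 M1 n + Mp * PP R M0 M1 n * M1 = _
    rw [hz]
    have : PP R M0 M1 n = PP R M0 M1 l * y := hy
    rw [this]
    ring

theorem pow_diff_abs {K a b : ℕ} (ha : a < K) (hb : b < K) : |(2:ℤ)^a - 2^b| ≤ 2^K := by
  have h1 : (2:ℤ)^a ≤ 2^K := pow_le_pow_right₀ (by norm_num) ha.le
  have h2 : (2:ℤ)^b ≤ 2^K := pow_le_pow_right₀ (by norm_num) hb.le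
  have h3 : (0:ℤ) < 2^a := by positivity
  have h4 : (0:ℤ) < 2^b := by positivity
  rw [abs_le]
  constructor <;> linarith

/-- the difference as an integer. -/
theorem cast_diff {K S T a b : ℕ} (hb : b < K) (hT : 16 * 2^K * S ≤ T) :
    ((T + 16 * 2^a * S - 16 * 2^b * S : ℕ) : ℤ) = T + 16 * ((2:ℤ)^a - 2^b) * S := by
  have h1 : (2:ℕ)^b ≤ 2^K := Nat.pow_le_pow_right (by norm_num) hb.le
  have h2 : 16 * 2^b * S ≤ 16 * 2^K * S :=
    Nat.mul_le_mul_right _ (Nat.mul_le_mul_left _ h1)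
  rw [Nat.cast_sub (by omega)]
  push_cast
  ring

theorem card_le_one (K S T s Q : ℕ) (lo hi : ℤ) (hS : (S:ℤ) = lo + s + hi) (hs : 0 < s)
    (hQ : 2^(K+10) ≤ Q) (hlo : 0 ≤ lo) (hlo2 : lo ≤ s) (hhi : (Q:ℤ) * s ∣ hi)
    (hT : 16 * 2^K * S ≤ T) (P : ℕ × ℕ → Prop)
    [DecidablePred (fun ab : ℕ × ℕ => ab.1 ≠ ab.2 ∧ P ab)]
    (hP : ∀ a b, a < K → b < K → P (a, b) →
      Near (s:ℤ) (Q:ℤ) ((T + 16 * 2^a * S - 16 * 2^b * S : ℕ) : ℤ)) :
    ((Finset.range K ×ˢ Finset.range K).filter (fun ab => ab.1 ≠ ab.2 ∧ P ab)).card ≤ 1 := by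
  rw [Finset.card_le_one]
  rintro ⟨a, b⟩ h1 ⟨c, d⟩ h2
  simp only [Finset.mem_filter, Finset.mem_product, Finset.mem_range] at h1 h2
  obtain ⟨⟨ha, hb⟩, hab, hp1⟩ := h1
  obtain ⟨⟨hc, hd⟩, hcd, hp2⟩ := h2
  have n1 := hP a b ha hb hp1
  have n2 := hP c d hc hd hp2
  rw [cast_diff hb hT, hS] at n1
  rw [cast_diff hd hT, hS] at n2
  have := key K Q s lo hi T _ _ (by exact_mod_cast hs) (by exact_mod_cast hQ) hlo hlo2 hhi
    (pow_diff_abs ha hb) (pow_diff_abs hc hd) n1 n2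
  rcases pow_sub_inj this with ⟨e1, e2⟩ | ⟨e1, _⟩
  · rw [e1, e2]
  · exact absurd e1 hab

open Classical in
theorem spoil (m r K Mp R M0 M1 rho : ℕ) (Ms Ms1 : Finset ℕ) (hMp : 2^(K+10) ≤ Mp)
    (hR : 2^(K+10) ≤ R) (h0 : 2^(K+10) ≤ M0) (h1 : 2^(K+10) ≤ M1)
    (hMs : ∀ k ∈ Ms, 2^(K+10) ≤ k ∧ k ∣ M0) (hMs1 : ∀ k ∈ Ms1, 2^(K+10) ≤ k ∧ k ∣ M1)
    (hc : Ms.card ≤ r) (hc1 : Ms1.card ≤ 32*rho) (hrho : 0 < rho) :
    ∃ (x : ℕ → ℕ) (T0 : ℕ),
      (∀ a b c d, a < K → b < K → c < K → d < K →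
        (Mp:ℤ) ∣ ((x a:ℤ) - x b) - (x c - x d) → (a = c ∧ b = d) ∨ (a = b ∧ c = d)) ∧
      ∀ T, T0 ≤ T → (((Finset.range K ×ˢ Finset.range K).filter (fun ab => ab.1 ≠ ab.2 ∧
        Bad R M0 M1 m rho Ms Ms1 ((T + x ab.1 - x ab.2) / Mp))).card ≤ 2 + r + 34*m) := by
  have hP10 : 1024 ≤ 2^(K+10) := by
    have : 1 ≤ 2^K := Nat.one_le_two_pow
    rw [pow_add]; omega
  have hMp4 : 4 ≤ Mp := by omega
  have hR4 : 4 ≤ R := by omega
  have h04 : 4 ≤ M0 := by omega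
  have h14 : 4 ≤ M1 := by omega
  set S := low Mp R M0 M1 m with hSdef
  refine ⟨fun a => 16 * 2^a * S, 16 * 2^K * S, ?_, ?_⟩
  · -- Golomb modulo Mp
    intro a b c d ha hb hc' hd hdiv
    obtain ⟨z, hz⟩ := low_split Mp R M0 M1 (Nat.zero_le m)
    have hS1 : ∃ y : ℤ, (S:ℤ) = 1 + Mp * y := by
      refine ⟨1 + M0 + PP R M0 M1 0 * z, ?_⟩
      rw [hSdef, hz]
      show ((1 + Mp + Mp * M0 + Mp * PP R M0 M1 0 * z : ℕ) : ℤ) = _
      push_cast; ring
    obtain ⟨y, hy⟩ := hS1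
    set δ : ℤ := ((2:ℤ)^a - 2^b) - (2^c - 2^d) with hδ
    have e : (((16 * 2^a * S : ℕ):ℤ) - ((16 * 2^b * S : ℕ):ℤ)) -
        (((16 * 2^c * S : ℕ):ℤ) - ((16 * 2^d * S : ℕ):ℤ)) = 16 * δ + Mp * (16 * δ * y) := by
      push_cast
      rw [hy, hδ]; ring
    have hdiv' : (Mp:ℤ) ∣ 16 * δ + Mp * (16 * δ * y) := by rw [← e]; exact hdiv
    have hdiv2 : (Mp:ℤ) ∣ 16 * δ := (dvd_add_left (Dvd.intro _ rfl)).1 hdiv'
    have hb1 := abs_le.1 (pow_diff_abs ha hb)
    have hb2 := abs_le.1 (pow_diff_abs hc' hd)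
    have hMpz : (1024:ℤ) * 2^K ≤ Mp := by
      have : 1024 * 2^K ≤ Mp := by rw [pow_add] at hMp; omega
      exact_mod_cast this
    have hpos : (0:ℤ) < 2^K := by positivity
    have h16 : 16 * δ = 0 := by
      apply Int.eq_zero_of_abs_lt_dvd hdiv2
      rw [abs_lt]
      constructor <;> linarith [hb1.1, hb1.2, hb2.1, hb2.2]
    have hδ0 : δ = 0 := by omega
    exact pow_sub_inj (by linarith)
  · intro T hT
    set n : ℕ × ℕ → ℕ := fun ab => (T + 16 * 2^ab.1 * S - 16 * 2^ab.2 * S) / Mp with hn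
    set E := (Finset.range K ×ˢ Finset.range K) with hE
    -- family 0
    have hF0 : (E.filter (fun ab => ab.1 ≠ ab.2 ∧
        ((n ab) % (R*M0) < M0 ∨ R*M0 ≤ (n ab) % (R*M0) + M0))).card ≤ 1 := by
      obtain ⟨z, hz⟩ := low_split Mp R M0 M1 (Nat.zero_le m)
      have e0 : PP R M0 M1 0 = R * M0 := by simp [PP]
      refine card_le_one K S T (Mp * M0) R (1 + Mp) (Mp * (R * M0) * z) ?_ (by positivity) hR
        (by positivity) ?_ ⟨z, by push_cast; ring⟩ hT _ ?_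
      · rw [hSdef, hz, e0]
        show ((1 + Mp + Mp * M0 + Mp * (R * M0) * z : ℕ) : ℤ) = _
        push_cast; ring
      · have : 1 + Mp ≤ Mp * M0 := by
          have : Mp * 4 ≤ Mp * M0 := Nat.mul_le_mul_left _ h04
          omega
        exact_mod_cast this
      · intro a b _ _ h
        exact near_of_mod _ Mp R M0 (by omega) (by omega) (by omega) h
    -- family Ms
    have hF1 : ∀ k ∈ Ms, (E.filter (fun ab => ab.1 ≠ ab.2 ∧ k ∣ n ab)).card ≤ 1 := by
      intro k hk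
      obtain ⟨hk1, y, hy⟩ := hMs k hk
      obtain ⟨z, hz⟩ := low_split Mp R M0 M1 (Nat.zero_le m)
      have e0 : PP R M0 M1 0 = R * M0 := by simp [PP]
      refine card_le_one K S T Mp k 1 (Mp * M0 + Mp * (R * M0) * z) ?_ (by omega) hk1
        (by positivity) ?_ ⟨y + R * y * z, by rw [hy]; push_cast; ring⟩ hT _ ?_
      · rw [hSdef, hz, e0]
        show ((1 + Mp + Mp * M0 + Mp * (R * M0) * z : ℕ) : ℤ) = _
        push_cast; ring
      · have : 1 ≤ Mp := by omega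
        exact_mod_cast this
      · intro a b _ _ h
        exact near_of_dvd _ Mp k (by omega) h
    -- family A l
    have hGA : ∀ l < m, (E.filter (fun ab => ab.1 ≠ ab.2 ∧
        ((n ab / PP R M0 M1 l) % (R*M1) < M1 ∨
          R*M1 ≤ (n ab / PP R M0 M1 l) % (R*M1) + M1))).card ≤ 1 := by
      intro l hl
      obtain ⟨z, hz⟩ := low_split Mp R M0 M1 (show l + 1 ≤ m from hl)
      have hpp : 0 < PP R M0 M1 l := PP_pos (by omega) (by omega) (by omega) l
      have hll := low_le hMp4 hR4 h04 h14 l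
      refine card_le_one K S T (Mp * PP R M0 M1 l * M1) R
        (low Mp R M0 M1 l + Mp * PP R M0 M1 l : ℕ) (Mp * PP R M0 M1 (l+1) * z) ?_
        (by positivity) hR (by positivity) ?_ ⟨z, by rw [PP_succ]; push_cast; ring⟩ hT _ ?_
      · rw [hSdef, hz]
        show ((low Mp R M0 M1 l + Mp * PP R M0 M1 l + Mp * PP R M0 M1 l * M1 +
          Mp * PP R M0 M1 (l+1) * z : ℕ) : ℤ) = _
        push_cast; ring
      · have : low Mp R M0 M1 l + Mp * PP R M0 M1 l ≤ Mp * PP R M0 M1 l * M1 := by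
          have : Mp * PP R M0 M1 l * 4 ≤ Mp * PP R M0 M1 l * M1 := Nat.mul_le_mul_left _ h14
          omega
        exact_mod_cast this
      · intro a b _ _ h
        refine near_of_mod _ (Mp * PP R M0 M1 l) R M1 (by positivity) (by omega) (by omega) ?_
        rw [← Nat.div_div_eq_div_mul]
        exact h
    -- family B l
    have hHk : ∀ l < m, ∀ k ∈ Ms1, (E.filter (fun ab => ab.1 ≠ ab.2 ∧
        k ∣ n ab / PP R M0 M1 l)).card ≤ 1 := by
      intro l hl k hk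
      obtain ⟨hk1, y, hy⟩ := hMs1 k hk
      obtain ⟨z, hz⟩ := low_split Mp R M0 M1 (show l + 1 ≤ m from hl)
      have hpp : 0 < PP R M0 M1 l := PP_pos (by omega) (by omega) (by omega) l
      have hll := low_le hMp4 hR4 h04 h14 l
      refine card_le_one K S T (Mp * PP R M0 M1 l) k
        (low Mp R M0 M1 l : ℕ) (Mp * PP R M0 M1 l * M1 + Mp * PP R M0 M1 (l+1) * z) ?_
        (by positivity) hk1 (by positivity) (by exact_mod_cast hll)
        ⟨y + R * y * z, by rw [PP_succ, hy]; push_cast; ring⟩ hT _ ?_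
      · rw [hSdef, hz]
        show ((low Mp R M0 M1 l + Mp * PP R M0 M1 l + Mp * PP R M0 M1 l * M1 +
          Mp * PP R M0 M1 (l+1) * z : ℕ) : ℤ) = _
        push_cast; ring
      · intro a b _ _ h
        refine near_of_dvd _ (Mp * PP R M0 M1 l) k (by positivity) ?_
        rw [← Nat.div_div_eq_div_mul]
        exact h
    have hHB : ∀ l < m, (E.filter (fun ab => ab.1 ≠ ab.2 ∧
        rho ≤ (Ms1.filter (· ∣ n ab / PP R M0 M1 l)).card)).card ≤ 32 := by
      intro l hl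
      set B := E.filter (fun ab => ab.1 ≠ ab.2 ∧
        rho ≤ (Ms1.filter (· ∣ n ab / PP R M0 M1 l)).card) with hB
      have c1 : B.card * rho ≤ ∑ ab ∈ B, (Ms1.filter (· ∣ n ab / PP R M0 M1 l)).card := by
        rw [← smul_eq_mul, ← Finset.sum_const]
        refine Finset.sum_le_sum fun ab hab => ?_
        rw [hB, Finset.mem_filter] at hab
        exact hab.2.2
      have c2 : ∑ ab ∈ B, (Ms1.filter (· ∣ n ab / PP R M0 M1 l)).card =
          ∑ k ∈ Ms1, (B.filter (fun ab => k ∣ n ab / PP R M0 M1 l)).card := by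
        simp only [Finset.card_filter]
        exact Finset.sum_comm
      have c3 : ∑ k ∈ Ms1, (B.filter (fun ab => k ∣ n ab / PP R M0 M1 l)).card ≤
          ∑ k ∈ Ms1, 1 := by
        refine Finset.sum_le_sum fun k hk => ?_
        refine le_trans (Finset.card_le_card ?_) (hHk l hl k hk)
        intro ab hab
        rw [Finset.mem_filter] at hab
        obtain ⟨hab1, hab2⟩ := hab
        rw [hB, Finset.mem_filter] at hab1
        rw [Finset.mem_filter]
        exact ⟨hab1.1, hab1.2.1, hab2⟩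
      have c4 : ∑ k ∈ Ms1, 1 = Ms1.card := by simp
      have c5 : B.card * rho ≤ 32 * rho := by
        rw [c2] at c1
        omega
      exact Nat.le_of_mul_le_mul_right c5 hrho
    -- union
    have hsub : (E.filter (fun ab => ab.1 ≠ ab.2 ∧ Bad R M0 M1 m rho Ms Ms1 (n ab))) ⊆
        (E.filter (fun ab => ab.1 ≠ ab.2 ∧
          ((n ab) % (R*M0) < M0 ∨ R*M0 ≤ (n ab) % (R*M0) + M0))) ∪
        ((Ms.biUnion fun k => E.filter (fun ab => ab.1 ≠ ab.2 ∧ k ∣ n ab)) ∪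
        ((Finset.range m).biUnion fun l =>
          (E.filter (fun ab => ab.1 ≠ ab.2 ∧
            ((n ab / PP R M0 M1 l) % (R*M1) < M1 ∨
              R*M1 ≤ (n ab / PP R M0 M1 l) % (R*M1) + M1))) ∪
          (E.filter (fun ab => ab.1 ≠ ab.2 ∧
            rho ≤ (Ms1.filter (· ∣ n ab / PP R M0 M1 l)).card)))) := by
      intro ab hab
      rw [Finset.mem_filter] at hab
      obtain ⟨hab1, hab2, hbad⟩ := hab
      rcases hbad with h | ⟨k, hk, h⟩ | ⟨l, hl, h | h⟩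
      · exact Finset.mem_union_left _ (Finset.mem_filter.2 ⟨hab1, hab2, h⟩)
      · refine Finset.mem_union_right _ (Finset.mem_union_left _ ?_)
        exact Finset.mem_biUnion.2 ⟨k, hk, Finset.mem_filter.2 ⟨hab1, hab2, h⟩⟩
      · refine Finset.mem_union_right _ (Finset.mem_union_right _ ?_)
        exact Finset.mem_biUnion.2 ⟨l, Finset.mem_range.2 hl,
          Finset.mem_union_left _ (Finset.mem_filter.2 ⟨hab1, hab2, h⟩)⟩
      · refine Finset.mem_union_right _ (Finset.mem_union_right _ ?_)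
        exact Finset.mem_biUnion.2 ⟨l, Finset.mem_range.2 hl,
          Finset.mem_union_right _ (Finset.mem_filter.2 ⟨hab1, hab2, h⟩)⟩
    have hcard := Finset.card_le_card hsub
    refine hcard.trans ?_
    refine (Finset.card_union_le _ _).trans ?_
    have u1 : (Ms.biUnion fun k => E.filter (fun ab => ab.1 ≠ ab.2 ∧ k ∣ n ab)).card ≤ r := by
      refine Finset.card_biUnion_le.trans ?_
      refine (Finset.sum_le_sum fun k hk => hF1 k hk).trans ?_
      simpa using hc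
    have u2 : ((Finset.range m).biUnion fun l =>
          (E.filter (fun ab => ab.1 ≠ ab.2 ∧
            ((n ab / PP R M0 M1 l) % (R*M1) < M1 ∨
              R*M1 ≤ (n ab / PP R M0 M1 l) % (R*M1) + M1))) ∪
          (E.filter (fun ab => ab.1 ≠ ab.2 ∧
            rho ≤ (Ms1.filter (· ∣ n ab / PP R M0 M1 l)).card))).card ≤ 33 * m := by
      refine Finset.card_biUnion_le.trans ?_
      refine (Finset.sum_le_sum (g := fun _ => 33) fun l hl => ?_).trans ?_
      · refine (Finset.card_union_le _ _).trans ?_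
        have := hGA l (Finset.mem_range.1 hl)
        have := hHB l (Finset.mem_range.1 hl)
        omega
      · simp [mul_comm]
    have u3 := Finset.card_union_le
      (Ms.biUnion fun k => E.filter (fun ab => ab.1 ≠ ab.2 ∧ k ∣ n ab))
      ((Finset.range m).biUnion fun l =>
          (E.filter (fun ab => ab.1 ≠ ab.2 ∧
            ((n ab / PP R M0 M1 l) % (R*M1) < M1 ∨
              R*M1 ≤ (n ab / PP R M0 M1 l) % (R*M1) + M1))) ∪
          (E.filter (fun ab => ab.1 ≠ ab.2 ∧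
            rho ≤ (Ms1.filter (· ∣ n ab / PP R M0 M1 l)).card)))
    omega

end Crest.Agent.R320.Spoil_552
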