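import Mathlib

namespace Crest.Agent.R320.Spoil_56

def PP (R M0 M1 l : ℕ) := (R*M0) * (R*M1)^l

def Bad (R M0 M1 m rho : ℕ) (Ms Ms1 : Finset ℕ) (n : ℕ) : Prop :=
  (n % (R*M0) < M0 ∨ R*M0 ≤ n % (R*M0) + M0) ∨ (∃ k ∈ Ms, k ∣ n) ∨
  ∃ l < m, ((n / PP R M0 M1 l) % (R*M1) < M1 ∨ R*M1 ≤ (n / PP R M0 M1 l) % (R*M1) + M1) ∨
    rho ≤ (Ms1.filter (· ∣ n / PP R M0 M1 l)).card

/-- sum of the scales below level `l` -/
def ZZ (Mp R M0 M1 : ℕ) : ℕ → ℕ
  | 0 => 1 + Mp + Mp * M0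
  | l + 1 => ZZ Mp R M0 M1 l + Mp * PP R M0 M1 l + Mp * PP R M0 M1 l * M1

/-- `2^a - 2^b = 2^c - 2^d` -/
lemma two_pow_pair {a b c d : ℕ} (h : 2^a + 2^d = 2^b + 2^c) : (a = c ∧ b = d) ∨ (a = b ∧ c = d) := by
  have inj : ∀ {i j : ℕ}, (2:ℕ)^i = 2^j → i = j := fun h => Nat.pow_right_injective (le_refl 2) h
  -- compare max
  have key : ∀ {i j k l : ℕ}, (2:ℕ)^i + 2^j = 2^k + 2^l → i ≤ j → k ≤ l → i = k ∧ j = l := by
    intro i j k l h hij hkl
    have hjl : j = l := by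
      rcases lt_trichotomy j l with hlt | heq | hgt
      · exfalso
        have h1 : (2:ℕ)^i ≤ 2^j := Nat.pow_le_pow_right (by norm_num) hij
        have h2 : (2:ℕ)^(j+1) ≤ 2^l := Nat.pow_le_pow_right (by norm_num) hlt
        have h3 : (2:ℕ)^(j+1) = 2^j + 2^j := by ring
        have h4 : 0 < (2:ℕ)^k := by positivity
        omega
      · exact heq
      · exfalso
        have h1 : (2:ℕ)^k ≤ 2^l := Nat.pow_le_pow_right (by norm_num) hkl
        have h2 : (2:ℕ)^(l+1) ≤ 2^j := Nat.pow_le_pow_right (by norm_num) hgt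
        have h3 : (2:ℕ)^(l+1) = 2^l + 2^l := by ring
        have h4 : 0 < (2:ℕ)^i := by positivity
        omega
    subst hjl
    exact ⟨inj (by omega), rfl⟩
  rcases le_total a d with h1 | h1 <;> rcases le_total b c with h2 | h2
  · obtain ⟨h3, h4⟩ := key h h1 h2
    right; exact ⟨h3, h4.symm⟩
  · obtain ⟨h3, h4⟩ := key (by omega : 2^a + 2^d = 2^c + 2^b) h1 h2
    left; exact ⟨h3, h4.symm⟩
  · obtain ⟨h3, h4⟩ := key (by omega : 2^d + 2^a = 2^b + 2^c) h1 h2
    left; exact ⟨h4, h3.symm⟩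
  · obtain ⟨h3, h4⟩ := key (by omega : 2^d + 2^a = 2^c + 2^b) h1 h2
    right; exact ⟨h4, h3.symm⟩

/-- the key estimate -/
lemma key (K s P t Z : ℕ) (T : ℕ) (hs : 0 < s) (hP : 2^(K+10) * s ≤ P) (ht1 : s ≤ t) (ht2 : t ≤ 2 * s)
    (hZ : ∃ z : ℤ, (Z : ℤ) = t + P * z) {a b c d : ℕ} (ha : a < K) (hb : b < K) (hc : c < K) (hd : d < K)
    (hab : a ≠ b) 
    (h1 : ∃ q : ℤ, -(s:ℤ) ≤ ((T:ℤ) + 16 * 2^a * Z - 16 * 2^b * Z) - P * q ∧ ((T:ℤ) + 16 * 2^a * Z - 16 * 2^b * Z) - P * q ≤ s)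
    (h2 : ∃ q : ℤ, -(s:ℤ) ≤ ((T:ℤ) + 16 * 2^c * Z - 16 * 2^d * Z) - P * q ∧ ((T:ℤ) + 16 * 2^c * Z - 16 * 2^d * Z) - P * q ≤ s) :
    a = c ∧ b = d := by
  obtain ⟨z, hz⟩ := hZ
  obtain ⟨q1, h1a, h1b⟩ := h1
  obtain ⟨q2, h2a, h2b⟩ := h2
  set e : ℤ := 2^a - 2^b - 2^c + 2^d with he
  have hpow : ∀ i, i < K → (2:ℤ)^i ≤ 2^K := fun i hi => pow_le_pow_right₀ (by norm_num) hi.le
  have hpos : ∀ i : ℕ, (0:ℤ) < 2^i := fun i => by positivity
  have hea : e ≤ 2 * 2^K := by
    have := hpow a ha; have := hpow d hd; have := hpos b; have := hpos c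
    omega
  have heb : -(2 * 2^K) ≤ e := by
    have := hpow b hb; have := hpow c hc; have := hpos a; have := hpos d
    omega
  -- difference
  have hdiff : ∃ y : ℤ, -(2 * (s:ℤ)) ≤ 16 * e * t + P * y ∧ 16 * e * t + P * y ≤ 2 * s := by
    refine ⟨16 * e * z - q1 + q2, ?_, ?_⟩
    · have : 16 * e * (t:ℤ) + P * (16 * e * z - q1 + q2)
        = (((T:ℤ) + 16 * 2^a * Z - 16 * 2^b * Z) - P * q1) - (((T:ℤ) + 16 * 2^c * Z - 16 * 2^d * Z) - P * q2) := by
        rw [hz, he]; ring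
      rw [this]; linarith
    · have : 16 * e * (t:ℤ) + P * (16 * e * z - q1 + q2)
        = (((T:ℤ) + 16 * 2^a * Z - 16 * 2^b * Z) - P * q1) - (((T:ℤ) + 16 * 2^c * Z - 16 * 2^d * Z) - P * q2) := by
        rw [hz, he]; ring
      rw [this]; linarith
  obtain ⟨y, hy1, hy2⟩ := hdiff
  have hPz : (1024:ℤ) * 2^K * s ≤ P := by
    have : ((2^(K+10) * s : ℕ) : ℤ) ≤ P := by exact_mod_cast hP
    push_cast at this
    have h10 : (2:ℤ)^(K+10) = 1024 * 2^K := by rw [pow_add]; norm_num; ring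
    rw [h10] at this; exact this
  have hsz : (0:ℤ) < s := by exact_mod_cast hs
  have ht1z : (s:ℤ) ≤ t := by exact_mod_cast ht1
  have ht2z : (t:ℤ) ≤ 2 * s := by exact_mod_cast ht2
  have hKpos : (1:ℤ) ≤ 2^K := one_le_pow₀ (by norm_num)
  -- |16 e t| ≤ 64 * 2^K * s
  have hbound1 : 16 * e * t ≤ 64 * (2^K * s) := by
    have h1 : e * t ≤ (2 * 2^K) * t := mul_le_mul_of_nonneg_right hea (by linarith)
    have h2 : (2 * 2^K) * (t:ℤ) ≤ (2 * 2^K) * (2 * s) := mul_le_mul_of_nonneg_left ht2z (by positivity)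
    calc 16 * e * (t:ℤ) = 16 * (e * t) := by ring
      _ ≤ 16 * ((2 * 2^K) * (2 * s)) := by linarith
      _ = 64 * (2^K * s) := by ring
  have hbound2 : -(64 * (2^K * s)) ≤ 16 * e * (t:ℤ) := by
    have h1 : -(2 * 2^K) * (t:ℤ) ≤ e * t := mul_le_mul_of_nonneg_right heb (by linarith)
    have h2 : (2 * 2^K) * (t:ℤ) ≤ (2 * 2^K) * (2 * s) := mul_le_mul_of_nonneg_left ht2z (by positivity)
    calc -(64 * (2^K * (s:ℤ))) = -(16 * ((2 * 2^K) * (2 * s))) := by ring
      _ ≤ 16 * (e * t) := by linarith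
      _ = 16 * e * t := by ring
  have hKs : (s:ℤ) ≤ 2^K * s := le_mul_of_one_le_left hsz.le hKpos
  have hKs0 : (0:ℤ) < 2^K * s := by positivity
  have hPz' : 1024 * (2^K * (s:ℤ)) ≤ P := by rw [← mul_assoc]; exact hPz
  clear hPz
  generalize (2:ℤ)^K * s = A at *
  have hPpos : (0:ℤ) < P := by linarith
  clear_value e
  have hy0 : y = 0 := by
    by_contra hne
    rcases lt_or_gt_of_ne hne with hneg | hpos'
    · have hy : y ≤ -1 := by omega
      have : (P:ℤ) * y ≤ P * (-1) := mul_le_mul_of_nonneg_left hy hPpos.le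
      linarith
    · have hy : 1 ≤ y := by omega
      have : (P:ℤ) * 1 ≤ P * y := mul_le_mul_of_nonneg_left hy hPpos.le
      linarith
  subst hy0
  simp only [mul_zero, add_zero] at hy1 hy2
  have he0 : e = 0 := by
    by_contra hne
    rcases lt_or_gt_of_ne hne with hneg | hpos'
    · have hy : e ≤ -1 := by omega
      have h9 : e * (t:ℤ) ≤ (-1) * t := mul_le_mul_of_nonneg_right hy (by linarith)
      have h8 : 16 * e * (t:ℤ) = 16 * (e * t) := by ring
      linarith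
    · have hy : 1 ≤ e := by omega
      have h9 : 1 * (t:ℤ) ≤ e * t := mul_le_mul_of_nonneg_right hy (by linarith)
      have h8 : 16 * e * (t:ℤ) = 16 * (e * t) := by ring
      linarith
  have hnat : 2^a + 2^d = 2^b + 2^c := by
    have : (2:ℤ)^a + 2^d = 2^b + 2^c := by rw [he] at he0; linarith
    exact_mod_cast this
  rcases two_pow_pair hnat with h | ⟨h, _⟩
  · exact h
  · exact absurd h hab

lemma PP_pos {R M0 M1 : ℕ} (hR : 0 < R) (h0 : 0 < M0) (h1 : 0 < M1) (l : ℕ) : 0 < PP R M0 M1 l := by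
  unfold PP; positivity

lemma PP_succ (R M0 M1 l : ℕ) : PP R M0 M1 (l+1) = PP R M0 M1 l * (R * M1) := by
  unfold PP; ring

lemma PP_dvd (R M0 M1 : ℕ) {i j : ℕ} (h : i ≤ j) : PP R M0 M1 i ∣ PP R M0 M1 j := by
  unfold PP; exact Nat.mul_dvd_mul_left _ (pow_dvd_pow _ h)

lemma ZZ_le {Mp R M0 M1 : ℕ} (hMp : 1024 ≤ Mp) (hR : 1024 ≤ R) (h0 : 1024 ≤ M0) (h1 : 1024 ≤ M1) (l : ℕ) :
    ZZ Mp R M0 M1 l ≤ Mp * PP R M0 M1 l := by
  induction l with
  | zero =>
    simp only [ZZ, PP, pow_zero, mul_one]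
    have h2 : 1 * Mp ≤ M0 * Mp := Nat.mul_le_mul_right _ (by omega)
    have h3 : 1024 * (Mp * M0) ≤ R * (Mp * M0) := Nat.mul_le_mul_right _ hR
    have h4 : R * (Mp * M0) = Mp * (R * M0) := by ring
    have h5 : M0 * Mp = Mp * M0 := by ring
    omega
  | succ l ih =>
    rw [PP_succ]
    simp only [ZZ]
    set A := Mp * PP R M0 M1 l
    have h2 : Mp * (PP R M0 M1 l * (R * M1)) = R * (A * M1) := by simp only [A]; ring
    rw [h2]
    have h3 : 1024 * (A * M1) ≤ R * (A * M1) := Nat.mul_le_mul_right _ hR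
    have h4 : A * 1024 ≤ A * M1 := Nat.mul_le_mul_left _ h1
    omega

/-- `ZZ` at a higher level is congruent modulo `Mp * PP l` -/
lemma ZZ_congr {Mp R M0 M1 : ℕ} {l j : ℕ} (h : l ≤ j) : ∃ z : ℕ, ZZ Mp R M0 M1 j = ZZ Mp R M0 M1 l + Mp * PP R M0 M1 l * z := by
  induction j, h using Nat.le_induction with
  | base => exact ⟨0, by ring⟩
  | succ j hj ih =>
    obtain ⟨z, hz⟩ := ih
    obtain ⟨w, hw⟩ := PP_dvd R M0 M1 hj
    refine ⟨z + w + w * M1, ?_⟩
    simp only [ZZ]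
    rw [hz, hw]; ring

open Classical in
theorem spoil (m r K Mp R M0 M1 rho : ℕ) (Ms Ms1 : Finset ℕ) (hMp : 2^(K+10) ≤ Mp) (hR : 2^(K+10) ≤ R)
    (h0 : 2^(K+10) ≤ M0) (h1 : 2^(K+10) ≤ M1) (hMs : ∀ k ∈ Ms, 2^(K+10) ≤ k ∧ k ∣ M0)
    (hMs1 : ∀ k ∈ Ms1, 2^(K+10) ≤ k ∧ k ∣ M1) (hc : Ms.card ≤ r) (hc1 : Ms1.card ≤ 32*rho) (hrho : 0 < rho) :
    ∃ (x : ℕ → ℕ) (T0 : ℕ),
      (∀ a b c d, a < K → b < K → c < K → d < K → (Mp:ℤ) ∣ ((x a:ℤ) - x b) - (x c - x d) →
        (a = c ∧ b = d) ∨ (a = b ∧ c = d)) ∧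
      ∀ T, T0 ≤ T → (((Finset.range K ×ˢ Finset.range K).filter (fun ab => ab.1 ≠ ab.2 ∧
        Bad R M0 M1 m rho Ms Ms1 ((T + x ab.1 - x ab.2) / Mp))).card ≤ 2 + r + 34*m) := by
  have h1024 : 1024 ≤ 2^(K+10) := by
    have : (2:ℕ)^10 ≤ 2^(K+10) := Nat.pow_le_pow_right (by norm_num) (by omega)
    simpa using this
  have hMp' : 1024 ≤ Mp := h1024.trans hMp
  have hR' : 1024 ≤ R := h1024.trans hR
  have h0' : 1024 ≤ M0 := h1024.trans h0
  have h1' : 1024 ≤ M1 := h1024.trans h1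
  set Z : ℕ := ZZ Mp R M0 M1 m with hZdef
  refine ⟨fun a => 16 * 2^a * Z, 16 * 2^K * Z, ?_, ?_⟩
  · -- Golomb modulo Mp
    intro a b c d ha hb hc' hd hdvd
    -- Z ≡ 1 mod Mp
    obtain ⟨z, hz⟩ := ZZ_congr (Mp := Mp) (R := R) (M0 := M0) (M1 := M1) (Nat.zero_le m)
    have hZ1 : (Z:ℤ) = 1 + Mp * (1 + M0 + PP R M0 M1 0 * z) := by
      rw [hZdef, hz]; simp only [ZZ]; push_cast; ring
    set e : ℤ := 2^a - 2^b - 2^c + 2^d with he
    have hpow : ∀ i, i < K → (2:ℤ)^i ≤ 2^K := fun i hi => pow_le_pow_right₀ (by norm_num) hi.le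
    have hpos : ∀ i : ℕ, (0:ℤ) < 2^i := fun i => by positivity
    have hea : e ≤ 2 * 2^K := by
      have := hpow a ha; have := hpow d hd; have := hpos b; have := hpos c
      omega
    have heb : -(2 * 2^K) ≤ e := by
      have := hpow b hb; have := hpow c hc'; have := hpos a; have := hpos d
      omega
    have hd2 : (Mp:ℤ) ∣ 16 * e := by
      have h2 : (((16 * 2^a * Z : ℕ):ℤ) - ((16 * 2^b * Z : ℕ):ℤ)) - (((16 * 2^c * Z : ℕ):ℤ) - ((16 * 2^d * Z : ℕ):ℤ))
          = 16 * e + Mp * (16 * e * (1 + M0 + PP R M0 M1 0 * z)) := by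
        push_cast
        rw [hZ1, he]; ring
      rw [h2] at hdvd
      exact (Int.dvd_add_left (Dvd.intro _ rfl)).mp hdvd
    have hMpz : (1024:ℤ) * 2^K ≤ Mp := by
      have : ((2^(K+10) : ℕ) : ℤ) ≤ Mp := by exact_mod_cast hMp
      push_cast at this
      have h10 : (2:ℤ)^(K+10) = 1024 * 2^K := by rw [pow_add]; norm_num; ring
      rw [h10] at this; exact this
    have hKp : (0:ℤ) < 2^K := by positivity
    have he0 : 16 * e = 0 := by
      apply Int.eq_zero_of_abs_lt_dvd hd2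
      rw [abs_lt]; constructor <;> linarith
    have hnat : 2^a + 2^d = 2^b + 2^c := by
      have : (2:ℤ)^a + 2^d = 2^b + 2^c := by rw [he] at he0; linarith
      exact_mod_cast this
    exact two_pow_pair hnat
  · intro T hT
    -- abbreviation
    set D := (Finset.range K ×ˢ Finset.range K).filter (fun ab : ℕ × ℕ => ab.1 ≠ ab.2) with hD
    let Y : ℕ × ℕ → ℕ := fun ab => T + 16 * 2^ab.1 * Z - 16 * 2^ab.2 * Z
    have hY : ∀ ab ∈ D, ((Y ab : ℕ) : ℤ) = (T:ℤ) + 16 * 2^ab.1 * Z - 16 * 2^ab.2 * Z := by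
      intro ab hab
      rw [hD, Finset.mem_filter, Finset.mem_product, Finset.mem_range, Finset.mem_range] at hab
      have h2 : 16 * 2^ab.2 * Z ≤ 16 * 2^K * Z := by
        apply Nat.mul_le_mul_right
        apply Nat.mul_le_mul_left
        exact Nat.pow_le_pow_right (by norm_num) hab.1.2.le
      have h3 : 16 * 2^ab.2 * Z ≤ T + 16 * 2^ab.1 * Z := by omega
      simp only [Y]
      rw [Nat.cast_sub h3]; push_cast; ring
    -- the general counting statement
    have one : ∀ (s P t : ℕ) (C : ℕ → Prop) (inst : DecidablePred (fun ab : ℕ × ℕ => C (Y ab))), 0 < s → 2^(K+10) * s ≤ P → s ≤ t → t ≤ 2 * s →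
        (∃ z : ℤ, (Z : ℤ) = t + P * z) →
        (∀ y, C y → ∃ q : ℤ, -(s:ℤ) ≤ (y:ℤ) - P * q ∧ (y:ℤ) - P * q ≤ s) →
        (@Finset.filter _ (fun ab => C (Y ab)) inst D).card ≤ 1 := by
      intro s P t C inst hs hP ht1 ht2 hz hC
      rw [Finset.card_le_one]
      intro p hp q hq
      rw [Finset.mem_filter] at hp hq
      have hp1 := hY p hp.1
      have hq1 := hY q hq.1
      have hp2 := hC _ hp.2
      have hq2 := hC _ hq.2
      rw [hp1] at hp2
      rw [hq1] at hq2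
      have hpD := hp.1
      have hqD := hq.1
      rw [hD, Finset.mem_filter, Finset.mem_product, Finset.mem_range, Finset.mem_range] at hpD hqD
      obtain ⟨h3, h4⟩ := key K s P t Z T hs hP ht1 ht2 hz hpD.1.1 hpD.1.2 hqD.1.1 hqD.1.2 hpD.2 hp2 hq2
      exact Prod.ext h3 h4
    have hMp0 : 0 < Mp := by omega
    have hPPpos : ∀ l, 0 < PP R M0 M1 l := fun l => PP_pos (by omega) (by omega) (by omega) l
    -- decomposition of y
    have hdiv : ∀ (y A : ℕ), 0 < A → ∃ ρ : ℤ, 0 ≤ ρ ∧ ρ < A ∧ (y:ℤ) = A * ((y / A : ℕ):ℤ) + ρ := by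
      intro y A hA
      refine ⟨((y % A : ℕ):ℤ), by positivity, by exact_mod_cast Nat.mod_lt y hA, ?_⟩
      exact_mod_cast (Nat.div_add_mod y A).symm
    -- general window lemma
    have win : ∀ (y A k : ℕ) (c : ℤ), 0 < A → 0 < k → 0 ≤ c →
        ((((y / A) % k : ℕ):ℤ) < c ∨ (k:ℤ) ≤ (((y / A) % k : ℕ):ℤ) + c) →
        ∃ q : ℤ, -((A:ℤ) * c) ≤ (y:ℤ) - (A * k) * q ∧ (y:ℤ) - (A * k) * q ≤ A * c := by
      intro y A k c hA hk hc0 hy
      obtain ⟨ρ, hρ0, hρ1, hρ⟩ := hdiv y A hA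
      have hmod := Nat.div_add_mod (y / A) k
      have h3 : (k:ℤ) * ((y/A/k : ℕ):ℤ) + (((y / A) % k : ℕ):ℤ) = ((y/A : ℕ):ℤ) := by exact_mod_cast hmod
      have hlt : (((y / A) % k : ℕ):ℤ) < k := by exact_mod_cast Nat.mod_lt _ hk
      have hge : (0:ℤ) ≤ (((y / A) % k : ℕ):ℤ) := by positivity
      generalize (((y / A) % k : ℕ):ℤ) = σ at *
      generalize ((y/A/k : ℕ):ℤ) = u at *
      rw [← h3] at hρ
      have hAz : (0:ℤ) < A := by exact_mod_cast hA
      rcases hy with hy | hy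
      · refine ⟨u, ?_, ?_⟩
        · have h5 : (y:ℤ) - (A * k) * u = A * σ + ρ := by rw [hρ]; ring
          rw [h5]
          have : (0:ℤ) ≤ A * σ := by positivity
          have : (0:ℤ) ≤ A * c := by positivity
          linarith
        · have h5 : (y:ℤ) - (A * k) * u = A * σ + ρ := by rw [hρ]; ring
          rw [h5]
          have : (A:ℤ) * (σ + 1) ≤ A * c := mul_le_mul_of_nonneg_left (by omega) hAz.le
          linarith
      · refine ⟨u + 1, ?_, ?_⟩
        · have h5 : (y:ℤ) - (A * k) * (u + 1) = A * (σ - k) + ρ := by rw [hρ]; ring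
          rw [h5]
          have : (A:ℤ) * (-c) ≤ A * (σ - k) := mul_le_mul_of_nonneg_left (by omega) hAz.le
          linarith
        · have h5 : (y:ℤ) - (A * k) * (u + 1) = A * (σ - k) + ρ := by rw [hρ]; ring
          rw [h5]
          have : (A:ℤ) * (σ - k) ≤ A * (-1) := mul_le_mul_of_nonneg_left (by omega) hAz.le
          have : (0:ℤ) ≤ A * c := by positivity
          linarith
    have hPPS : ∀ l, PP R M0 M1 (l+1) = PP R M0 M1 l * (R * M1) := PP_succ R M0 M1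
    have hZle : ∀ l, ZZ Mp R M0 M1 l ≤ Mp * PP R M0 M1 l := ZZ_le hMp' hR' h0' h1'
    -- (i)
    have ci : (D.filter (fun ab => ((Y ab / Mp) % (R*M0) < M0 ∨ R*M0 ≤ (Y ab / Mp) % (R*M0) + M0))).card ≤ 1 :=
      one (Mp * M0) (Mp * PP R M0 M1 0) (ZZ Mp R M0 M1 0)
        (fun y => ((y / Mp) % (R*M0) < M0 ∨ R*M0 ≤ (y / Mp) % (R*M0) + M0)) _ (by positivity)
        (by
          have : Mp * PP R M0 M1 0 = R * (Mp * M0) := by unfold PP; ring
          rw [this]; exact Nat.mul_le_mul_right _ hR)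
        (by simp only [ZZ]; omega)
        (by
          simp only [ZZ]
          have h2 : Mp * 1024 ≤ Mp * M0 := Nat.mul_le_mul_left _ h0'
          omega)
        (by
          obtain ⟨z, hz⟩ := ZZ_congr (Mp := Mp) (R := R) (M0 := M0) (M1 := M1) (Nat.zero_le m)
          exact ⟨z, by rw [hZdef, hz]; push_cast; ring⟩)
        (by
          intro y hy
          obtain ⟨q, hq1, hq2⟩ := win y Mp (R*M0) M0 hMp0 (by positivity) (by positivity)
            (by rcases hy with hy | hy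
                · left; exact_mod_cast hy
                · right; exact_mod_cast hy)
          refine ⟨q, ?_, ?_⟩
          · have h6 : ((Mp * PP R M0 M1 0 : ℕ):ℤ) = (Mp:ℤ) * ((R*M0 : ℕ):ℤ) := by unfold PP; push_cast; ring
            rw [h6]; push_cast at hq1 ⊢; linarith
          · have h6 : ((Mp * PP R M0 M1 0 : ℕ):ℤ) = (Mp:ℤ) * ((R*M0 : ℕ):ℤ) := by unfold PP; push_cast; ring
            rw [h6]; push_cast at hq2 ⊢; linarith)
    -- (ii)
    have cii : ∀ k ∈ Ms, (D.filter (fun ab => k ∣ Y ab / Mp)).card ≤ 1 := by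
      intro k hk
      obtain ⟨hk1, hk2⟩ := hMs k hk
      have hkpos : 0 < k := by omega
      refine one Mp (Mp * k) (1 + Mp) (fun y => k ∣ y / Mp) _ hMp0 ?_ (by omega) (by omega) ?_ ?_
      · rw [mul_comm Mp k]; exact Nat.mul_le_mul_right _ hk1
      · obtain ⟨z, hz⟩ := ZZ_congr (Mp := Mp) (R := R) (M0 := M0) (M1 := M1) (Nat.zero_le m)
        obtain ⟨w, hw⟩ := hk2
        refine ⟨w + R * w * z, ?_⟩
        rw [hZdef, hz]; simp only [ZZ, PP, pow_zero]; rw [hw]; push_cast; ring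
      · intro y hy
        obtain ⟨q, hq1, hq2⟩ := win y Mp k 1 hMp0 hkpos (by norm_num)
            (by left; rw [Nat.mod_eq_zero_of_dvd hy]; norm_num)
        refine ⟨q, ?_, ?_⟩
        · push_cast; linarith
        · push_cast; linarith
    -- (iii)
    have ciii : ∀ l < m, (D.filter (fun ab => ((Y ab / Mp) / PP R M0 M1 l) % (R*M1) < M1 ∨
        R*M1 ≤ ((Y ab / Mp) / PP R M0 M1 l) % (R*M1) + M1)).card ≤ 1 := by
      intro l hl
      refine one (Mp * PP R M0 M1 l * M1) (Mp * PP R M0 M1 (l+1)) (ZZ Mp R M0 M1 (l+1))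
        (fun y => ((y / Mp) / PP R M0 M1 l) % (R*M1) < M1 ∨
        R*M1 ≤ ((y / Mp) / PP R M0 M1 l) % (R*M1) + M1) _ (by have := hPPpos l; positivity) ?_ ?_ ?_ ?_ ?_
      · have : Mp * PP R M0 M1 (l+1) = R * (Mp * PP R M0 M1 l * M1) := by rw [hPPS]; ring
        rw [this]; exact Nat.mul_le_mul_right _ hR
      · simp only [ZZ]; omega
      · simp only [ZZ]
        have h2 := hZle l
        have h3 : Mp * PP R M0 M1 l * 1024 ≤ Mp * PP R M0 M1 l * M1 := Nat.mul_le_mul_left _ h1'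
        omega
      · obtain ⟨z, hz⟩ := ZZ_congr (Mp := Mp) (R := R) (M0 := M0) (M1 := M1) (show l + 1 ≤ m from hl)
        exact ⟨z, by rw [hZdef, hz]; push_cast; ring⟩
      · intro y hy
        obtain ⟨q, hq1, hq2⟩ := win y (Mp * PP R M0 M1 l) (R*M1) M1 (by have := hPPpos l; positivity)
            (by positivity) (by positivity)
            (by rw [← Nat.div_div_eq_div_mul]
                rcases hy with hy | hy
                · left; exact_mod_cast hy
                · right; exact_mod_cast hy)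
        have h6 : ((Mp * PP R M0 M1 (l+1) : ℕ):ℤ) = ((Mp * PP R M0 M1 l : ℕ):ℤ) * ((R*M1 : ℕ):ℤ) := by
          rw [hPPS]; push_cast; ring
        refine ⟨q, ?_, ?_⟩
        · rw [h6]; push_cast at hq1 ⊢; linarith
        · rw [h6]; push_cast at hq2 ⊢; linarith
    -- (iv) one divisor
    have civ1 : ∀ l < m, ∀ k ∈ Ms1, (D.filter (fun ab => k ∣ (Y ab / Mp) / PP R M0 M1 l)).card ≤ 1 := by
      intro l hl k hk
      obtain ⟨hk1, hk2⟩ := hMs1 k hk
      have hkpos : 0 < k := by omega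
      have hApos : 0 < Mp * PP R M0 M1 l := by have := hPPpos l; positivity
      refine one (Mp * PP R M0 M1 l) (Mp * PP R M0 M1 l * k) (ZZ Mp R M0 M1 l + Mp * PP R M0 M1 l)
        (fun y => k ∣ (y / Mp) / PP R M0 M1 l) _ hApos ?_ (by omega) (by have := hZle l; omega) ?_ ?_
      · rw [mul_comm (Mp * PP R M0 M1 l) k]; exact Nat.mul_le_mul_right _ hk1
      · obtain ⟨z, hz⟩ := ZZ_congr (Mp := Mp) (R := R) (M0 := M0) (M1 := M1) (show l + 1 ≤ m from hl)
        obtain ⟨w, hw⟩ := hk2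
        refine ⟨w + R * w * z, ?_⟩
        rw [hZdef, hz, hPPS]; simp only [ZZ]; 
        rw [hw]; push_cast; ring
      · intro y hy
        obtain ⟨q, hq1, hq2⟩ := win y (Mp * PP R M0 M1 l) k 1 hApos hkpos (by norm_num)
            (by left; rw [← Nat.div_div_eq_div_mul, Nat.mod_eq_zero_of_dvd hy]; norm_num)
        refine ⟨q, ?_, ?_⟩
        · push_cast at hq1 ⊢; linarith
        · push_cast at hq2 ⊢; linarith
    -- (iv) double counting
    have civ : ∀ l < m, (D.filter (fun ab => rho ≤ (Ms1.filter (· ∣ (Y ab / Mp) / PP R M0 M1 l)).card)).card ≤ 32 := by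
      intro l hl
      set E := D.filter (fun ab => rho ≤ (Ms1.filter (· ∣ (Y ab / Mp) / PP R M0 M1 l)).card) with hE
      have hsum : E.card * rho ≤ Ms1.card := by
        calc E.card * rho = ∑ ab ∈ E, rho := by rw [Finset.sum_const, smul_eq_mul]
          _ ≤ ∑ ab ∈ E, (Ms1.filter (· ∣ (Y ab / Mp) / PP R M0 M1 l)).card := by
              apply Finset.sum_le_sum
              intro ab hab
              rw [hE, Finset.mem_filter] at hab
              exact hab.2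
          _ = ∑ ab ∈ E, ∑ k ∈ Ms1, (if k ∣ (Y ab / Mp) / PP R M0 M1 l then 1 else 0) := by
              apply Finset.sum_congr rfl
              intro ab _
              rw [Finset.card_filter]
          _ = ∑ k ∈ Ms1, ∑ ab ∈ E, (if k ∣ (Y ab / Mp) / PP R M0 M1 l then 1 else 0) := Finset.sum_comm
          _ = ∑ k ∈ Ms1, (E.filter (fun ab => k ∣ (Y ab / Mp) / PP R M0 M1 l)).card := by
              apply Finset.sum_congr rfl
              intro k _
              rw [Finset.card_filter]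
          _ ≤ ∑ k ∈ Ms1, 1 := by
              apply Finset.sum_le_sum
              intro k hk
              refine le_trans (Finset.card_le_card ?_) (civ1 l hl k hk)
              intro ab hab
              rw [Finset.mem_filter] at hab ⊢
              exact ⟨(Finset.mem_filter.mp hab.1).1, hab.2⟩
          _ = Ms1.card := by simp
      have h3 : E.card * rho ≤ 32 * rho := hsum.trans hc1
      exact Nat.le_of_mul_le_mul_right h3 hrho
    -- union bound
    have hsub : ((Finset.range K ×ˢ Finset.range K).filter (fun ab : ℕ × ℕ => ab.1 ≠ ab.2 ∧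
        Bad R M0 M1 m rho Ms Ms1 ((T + 16 * 2^ab.1 * Z - 16 * 2^ab.2 * Z) / Mp))) ⊆
        (D.filter (fun ab => ((Y ab / Mp) % (R*M0) < M0 ∨ R*M0 ≤ (Y ab / Mp) % (R*M0) + M0))) ∪
        ((Ms.biUnion (fun k => D.filter (fun ab => k ∣ Y ab / Mp))) ∪
        ((Finset.range m).biUnion (fun l => (D.filter (fun ab => ((Y ab / Mp) / PP R M0 M1 l) % (R*M1) < M1 ∨
        R*M1 ≤ ((Y ab / Mp) / PP R M0 M1 l) % (R*M1) + M1)) ∪
        (D.filter (fun ab => rho ≤ (Ms1.filter (· ∣ (Y ab / Mp) / PP R M0 M1 l)).card))))) := by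
      intro ab hab
      rw [Finset.mem_filter] at hab
      obtain ⟨hab1, hab2, hab3⟩ := hab
      have habD : ab ∈ D := by rw [hD, Finset.mem_filter]; exact ⟨hab1, hab2⟩
      simp only [Finset.mem_union, Finset.mem_biUnion, Finset.mem_filter, Finset.mem_range]
      rcases hab3 with h | ⟨k, hk, h⟩ | ⟨l, hl, h | h⟩
      · left; exact ⟨habD, h⟩
      · right; left; exact ⟨k, hk, habD, h⟩
      · right; right; exact ⟨l, hl, Or.inl ⟨habD, h⟩⟩
      · right; right; exact ⟨l, hl, Or.inr ⟨habD, h⟩⟩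
    refine le_trans (Finset.card_le_card hsub) ?_
    refine le_trans (Finset.card_union_le _ _) ?_
    have b2 : (Ms.biUnion (fun k => D.filter (fun ab => k ∣ Y ab / Mp))).card ≤ r := by
      refine le_trans Finset.card_biUnion_le ?_
      refine le_trans (Finset.sum_le_sum cii) ?_
      simpa using hc
    have b3 : ((Finset.range m).biUnion (fun l => (D.filter (fun ab => ((Y ab / Mp) / PP R M0 M1 l) % (R*M1) < M1 ∨
        R*M1 ≤ ((Y ab / Mp) / PP R M0 M1 l) % (R*M1) + M1)) ∪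
        (D.filter (fun ab => rho ≤ (Ms1.filter (· ∣ (Y ab / Mp) / PP R M0 M1 l)).card)))).card ≤ 33 * m := by
      refine le_trans Finset.card_biUnion_le ?_
      have : ∀ l ∈ Finset.range m, ((D.filter (fun ab => ((Y ab / Mp) / PP R M0 M1 l) % (R*M1) < M1 ∨
        R*M1 ≤ ((Y ab / Mp) / PP R M0 M1 l) % (R*M1) + M1)) ∪
        (D.filter (fun ab => rho ≤ (Ms1.filter (· ∣ (Y ab / Mp) / PP R M0 M1 l)).card))).card ≤ 33 := by
        intro l hl
        rw [Finset.mem_range] at hl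
        refine le_trans (Finset.card_union_le _ _) ?_
        have h5 := ciii l hl
        have h6 := civ l hl
        omega
      refine le_trans (Finset.sum_le_sum this) ?_
      simp [mul_comm]
    have b4 := Finset.card_union_le (Ms.biUnion (fun k => D.filter (fun ab => k ∣ Y ab / Mp)))
      ((Finset.range m).biUnion (fun l => (D.filter (fun ab => ((Y ab / Mp) / PP R M0 M1 l) % (R*M1) < M1 ∨
        R*M1 ≤ ((Y ab / Mp) / PP R M0 M1 l) % (R*M1) + M1)) ∪
        (D.filter (fun ab => rho ≤ (Ms1.filter (· ∣ (Y ab / Mp) / PP R M0 M1 l)).card))))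
    omega

end Crest.Agent.R320.Spoil_56
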