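import Mathlib

/-!
LEAF U4 of row 320 (638 #13273): `spoil`, pure arithmetic.
-/

set_option autoImplicit false

namespace Crest.Agent.R320.Spoil_601

open Finset

def PP (R M0 M1 l : ℕ) := (R * M0) * (R * M1) ^ l

def Bad (R M0 M1 m rho : ℕ) (Ms Ms1 : Finset ℕ) (n : ℕ) : Prop :=
  (n % (R * M0) < M0 ∨ R * M0 ≤ n % (R * M0) + M0) ∨ (∃ k ∈ Ms, k ∣ n) ∨
    ∃ l < m, ((n / PP R M0 M1 l) % (R * M1) < M1 ∨
      R * M1 ≤ (n / PP R M0 M1 l) % (R * M1) + M1) ∨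
      rho ≤ (Ms1.filter (· ∣ n / PP R M0 M1 l)).card

/-- powers of two are a Sidon set. -/
theorem pow_aux (a d c b : ℕ) (had : a ≤ d) (hcb : c ≤ b) (hac : a < c) :
    2 ^ a + 2 ^ d ≠ 2 ^ c + 2 ^ b := by
  intro h
  have h1 : 2 ^ (a + 1) ∣ 2 ^ c := pow_dvd_pow 2 (by omega)
  have h2 : 2 ^ (a + 1) ∣ 2 ^ b := pow_dvd_pow 2 (by omega)
  have h3 : 2 ^ (a + 1) ∣ 2 ^ a + 2 ^ d := h ▸ dvd_add h1 h2
  rcases Nat.eq_or_lt_of_le had with e | hlt
  · subst e
    have e1 : 2 ^ (a + 1) ≤ 2 ^ c := Nat.pow_le_pow_right (by norm_num) (by omega)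
    have e2 : 2 ^ (a + 1) ≤ 2 ^ b := Nat.pow_le_pow_right (by norm_num) (by omega)
    have e3 : 2 ^ (a + 1) = 2 ^ a + 2 ^ a := by ring
    have e4 : 0 < 2 ^ a := by positivity
    omega
  · have h4 : 2 ^ (a + 1) ∣ 2 ^ d := pow_dvd_pow 2 (by omega)
    have h5 : 2 ^ (a + 1) ∣ 2 ^ a := (Nat.dvd_add_left h4).1 h3
    have h6 := (Nat.pow_dvd_pow_iff_le_right (by norm_num : 1 < 2)).1 h5
    omega

theorem pow_aux2 (a d c b : ℕ) (had : a ≤ d) (hcb : c ≤ b) (h : 2 ^ a + 2 ^ d = 2 ^ c + 2 ^ b) :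
    a = c ∧ d = b := by
  have hac : a = c := by
    rcases lt_trichotomy a c with hlt | e | hgt
    · exact (pow_aux a d c b had hcb hlt h).elim
    · exact e
    · exact (pow_aux c b a d hcb had hgt h.symm).elim
  subst hac
  refine ⟨rfl, ?_⟩
  have : 2 ^ d = 2 ^ b := by omega
  exact Nat.pow_right_injective (le_refl 2) this

theorem sidon (a d c b : ℕ) (h : 2 ^ a + 2 ^ d = 2 ^ c + 2 ^ b) :
    (a = c ∧ d = b) ∨ (a = b ∧ d = c) := by
  rcases le_total a d with h1 | h1 <;> rcases le_total c b with h2 | h2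
  · exact Or.inl (pow_aux2 a d c b h1 h2 h)
  · have := pow_aux2 a d b c h1 h2 (by omega)
    exact Or.inr this
  · have := pow_aux2 d a c b h1 h2 (by omega)
    exact Or.inr ⟨this.2, this.1⟩
  · have := pow_aux2 d a b c h1 h2 (by omega)
    exact Or.inl ⟨this.2, this.1⟩

/-- near residue `0` modulo `P`, within `A`. -/
def Near (P A : ℕ) (y : ℕ) : Prop := ∃ e : ℤ, -(A : ℤ) ≤ e ∧ e < A ∧ (P : ℤ) ∣ (y : ℤ) - e

theorem near_unique {K P A Lo Hi X : ℕ} (hA : 0 < A) (hLo1 : A ≤ Lo) (hLo3 : Lo ≤ 3 * A)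
    (hX : X = Lo + P * Hi) (hP : 2 ^ (K + 10) * A ≤ P) {y y' : ℕ} {u : ℤ}
    (hu : |u| ≤ 2 ^ (K + 1)) (hy : (y : ℤ) - y' = 16 * u * X) (h : Near P A y) (h' : Near P A y') :
    u = 0 := by
  obtain ⟨e, he1, he2, hed⟩ := h
  obtain ⟨e', he1', he2', hed'⟩ := h'
  by_contra hne
  have hdv : (P : ℤ) ∣ 16 * u * Lo - (e - e') := by
    have h1 : (P : ℤ) ∣ ((y : ℤ) - e) - ((y' : ℤ) - e') := dvd_sub hed hed'
    have h2 : ((y : ℤ) - e) - ((y' : ℤ) - e') = (16 * u * Lo - (e - e')) + P * (16 * u * Hi) := by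
      have : ((y : ℤ) - e) - ((y' : ℤ) - e') = ((y : ℤ) - y') - (e - e') := by ring
      rw [this, hy, hX]
      push_cast
      ring
    rw [h2] at h1
    exact (dvd_add_left (Dvd.intro _ rfl)).1 h1
  have hPZ : (2 : ℤ) ^ (K + 10) * A ≤ P := by exact_mod_cast hP
  have hLoZ : (A : ℤ) ≤ Lo := by exact_mod_cast hLo1
  have hLo3Z : (Lo : ℤ) ≤ 3 * A := by exact_mod_cast hLo3
  have hAZ : (0 : ℤ) < A := by exact_mod_cast hA
  have hpow : (2 : ℤ) ^ (K + 10) = 512 * 2 ^ (K + 1) := by ring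
  have hp1 : (1 : ℤ) ≤ 2 ^ (K + 1) := one_le_pow₀ (by norm_num)
  have hLo0 : (0 : ℤ) ≤ Lo := by linarith
  have habs : |16 * u * (Lo : ℤ)| ≤ 48 * 2 ^ (K + 1) * A := by
    rw [abs_mul, abs_mul, abs_of_nonneg hLo0]
    have h16 : |(16 : ℤ)| = 16 := by norm_num
    rw [h16]
    calc 16 * |u| * (Lo : ℤ) ≤ 16 * 2 ^ (K + 1) * (3 * A) := by
            apply mul_le_mul _ hLo3Z hLo0 (by positivity)
            linarith
      _ = 48 * 2 ^ (K + 1) * A := by ring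
  have hee : |e - e'| < 2 * A := by
    rw [abs_lt]
    constructor <;> linarith
  have hlt : |16 * u * (Lo : ℤ) - (e - e')| < P := by
    have h1 : |16 * u * (Lo : ℤ) - (e - e')| ≤ |16 * u * (Lo : ℤ)| + |e - e'| := abs_sub _ _
    have h2 : 48 * 2 ^ (K + 1) * (A : ℤ) + 2 * A ≤ 512 * 2 ^ (K + 1) * A := by
      nlinarith
    rw [hpow] at hPZ
    linarith
  have hz : 16 * u * (Lo : ℤ) - (e - e') = 0 := Int.eq_zero_of_abs_lt_dvd hdv hlt
  have hge : 16 * (A : ℤ) ≤ |16 * u * (Lo : ℤ)| := by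
    rw [abs_mul, abs_mul, abs_of_nonneg hLo0]
    have h16 : |(16 : ℤ)| = 16 := by norm_num
    rw [h16]
    have hu1 : 1 ≤ |u| := Int.one_le_abs hne
    nlinarith
  have : 16 * u * (Lo : ℤ) = e - e' := by linarith
  rw [this] at hge
  linarith

/-- `k ∣ (y / s)` is a near condition. -/
theorem near_of_dvd {k s y : ℕ} (hs : 0 < s) (h : k ∣ y / s) : Near (k * s) s y := by
  obtain ⟨q, hq⟩ := h
  refine ⟨((y % s : ℕ) : ℤ), ?_, ?_, ?_⟩
  · have : (0 : ℤ) ≤ ((y % s : ℕ) : ℤ) := Int.natCast_nonneg _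
    linarith [Int.natCast_nonneg s]
  · exact_mod_cast Nat.mod_lt y hs
  · have h1 : y = s * (y / s) + y % s := (Nat.div_add_mod y s).symm
    refine ⟨(q : ℤ), ?_⟩
    have h2 : (y : ℤ) = s * ((y / s : ℕ) : ℤ) + ((y % s : ℕ) : ℤ) := by exact_mod_cast h1
    rw [h2, hq]
    push_cast
    ring

/-- an extreme digit is a near condition. -/
theorem near_of_digit {Q s M y : ℕ} (hs : 0 < s)
    (hQ : (y / s) % (Q * M) < M ∨ Q * M ≤ (y / s) % (Q * M) + M) (hQM : 0 < Q * M) :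
    Near (Q * M * s) (M * s) y := by
  have h1 : y = s * (y / s) + y % s := (Nat.div_add_mod y s).symm
  have h3 : y / s = (Q * M) * ((y / s) / (Q * M)) + (y / s) % (Q * M) := (Nat.div_add_mod _ _).symm
  have hm : y % s < s := Nat.mod_lt y hs
  have hd : (y / s) % (Q * M) < Q * M := Nat.mod_lt _ hQM
  set d := (y / s) % (Q * M) with hdd
  set q2 := (y / s) / (Q * M) with hq2
  set r := y % s with hr
  have hyz : (y : ℤ) = s * ((Q * M : ℤ) * q2 + d) + r := by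
    have : y = s * ((Q * M) * q2 + d) + r := by rw [← h3]; exact h1
    exact_mod_cast this
  have hmz : (r : ℤ) < s := by exact_mod_cast hm
  have hr0 : (0 : ℤ) ≤ r := Int.natCast_nonneg _
  have hs0 : (0 : ℤ) < s := by exact_mod_cast hs
  rcases hQ with h | h
  · refine ⟨(s : ℤ) * d + r, ?_, ?_, ?_⟩
    · have : (0 : ℤ) ≤ (s : ℤ) * d + r := by positivity
      have h0 : (0 : ℤ) ≤ ((M * s : ℕ) : ℤ) := Int.natCast_nonneg _
      linarith
    · have hdz : (d : ℤ) + 1 ≤ M := by exact_mod_cast h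
      push_cast
      nlinarith
    · refine ⟨(q2 : ℤ), ?_⟩
      rw [hyz]
      push_cast
      ring
  · refine ⟨(s : ℤ) * d + r - (Q * M : ℤ) * s, ?_, ?_, ?_⟩
    · have hz : (Q * M : ℤ) ≤ d + M := by exact_mod_cast h
      push_cast
      nlinarith
    · have hdz : (d : ℤ) + 1 ≤ Q * M := by exact_mod_cast hd
      have h0 : (0 : ℤ) ≤ ((M * s : ℕ) : ℤ) := Int.natCast_nonneg _
      have : (s : ℤ) * d + r - (Q * M : ℤ) * s < 0 := by nlinarith
      linarith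
    · refine ⟨(q2 : ℤ) + 1, ?_⟩
      rw [hyz]
      push_cast
      ring


theorem uniq {K P A Lo Hi X T : ℕ} (hA : 0 < A) (hLo1 : A ≤ Lo) (hLo3 : Lo ≤ 3 * A)
    (hX : X = Lo + P * Hi) (hP : 2 ^ (K + 10) * A ≤ P) (hT : ∀ b < K, 16 * 2 ^ b * X ≤ T)
    {a b a' b' : ℕ} (ha : a < K) (hb : b < K) (ha' : a' < K) (hb' : b' < K) (hab : a ≠ b)
    (h : Near P A (T + 16 * 2 ^ a * X - 16 * 2 ^ b * X))
    (h' : Near P A (T + 16 * 2 ^ a' * X - 16 * 2 ^ b' * X)) : a = a' ∧ b = b' := by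
  have hu : |((2 : ℤ) ^ a - 2 ^ b) - (2 ^ a' - 2 ^ b')| ≤ 2 ^ (K + 1) := by
    have e : ∀ c < K, (2 : ℤ) ^ c ≤ 2 ^ K ∧ (0 : ℤ) < 2 ^ c := fun c hc =>
      ⟨pow_le_pow_right₀ (by norm_num) hc.le, by positivity⟩
    have h1 := e a ha
    have h2 := e b hb
    have h3 := e a' ha'
    have h4 := e b' hb'
    have h5 : (2 : ℤ) ^ (K + 1) = 2 * 2 ^ K := by ring
    rw [abs_le, h5]
    constructor <;> linarith
  have hy : (((T + 16 * 2 ^ a * X - 16 * 2 ^ b * X : ℕ)) : ℤ) -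
      ((T + 16 * 2 ^ a' * X - 16 * 2 ^ b' * X : ℕ) : ℤ) =
        16 * (((2 : ℤ) ^ a - 2 ^ b) - (2 ^ a' - 2 ^ b')) * X := by
    have t1 := hT b hb
    have t2 := hT b' hb'
    rw [Nat.cast_sub (by omega), Nat.cast_sub (by omega)]
    push_cast
    ring
  have hz := near_unique hA hLo1 hLo3 hX hP hu hy h h'
  have hs : 2 ^ a + 2 ^ b' = 2 ^ a' + 2 ^ b := by
    have : (2 : ℤ) ^ a + 2 ^ b' = 2 ^ a' + 2 ^ b := by linarith
    exact_mod_cast this
  rcases sidon a b' a' b hs with ⟨e1, e2⟩ | ⟨e1, e2⟩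
  · exact ⟨e1, e2.symm⟩
  · exact (hab e1).elim

def LoL (R M0 M1 Mp : ℕ) : ℕ → ℕ
  | 0 => 1 + Mp + Mp * M0
  | l + 1 => LoL R M0 M1 Mp l + Mp * PP R M0 M1 l * (1 + M1)

theorem PP_succ (R M0 M1 l : ℕ) : PP R M0 M1 (l + 1) = PP R M0 M1 l * (R * M1) := by
  unfold PP; ring

theorem PP_pos {R M0 M1 : ℕ} (hR : 0 < R) (h0 : 0 < M0) (h1 : 0 < M1) (l : ℕ) :
    0 < PP R M0 M1 l := by
  unfold PP; positivity

theorem LoL_le {R M0 M1 Mp : ℕ} (hR : 3 ≤ R) (h0 : 0 < M0) (h1 : 0 < M1) (hp : 0 < Mp) (l : ℕ) :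
    LoL R M0 M1 Mp l ≤ Mp * PP R M0 M1 l := by
  induction l with
  | zero =>
    show 1 + Mp + Mp * M0 ≤ Mp * ((R * M0) * (R * M1) ^ 0)
    rw [pow_zero, mul_one]
    have e1 : 1 ≤ Mp * M0 := Nat.mul_pos hp h0
    have e2 : Mp ≤ Mp * M0 := Nat.le_mul_of_pos_right _ h0
    calc 1 + Mp + Mp * M0 ≤ 3 * (Mp * M0) := by omega
      _ ≤ R * (Mp * M0) := Nat.mul_le_mul_right _ hR
      _ = Mp * (R * M0) := by ring
  | succ l ih =>
    show LoL R M0 M1 Mp l + Mp * PP R M0 M1 l * (1 + M1) ≤ Mp * PP R M0 M1 (l + 1)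
    rw [PP_succ]
    have e1 : Mp * PP R M0 M1 l ≤ Mp * PP R M0 M1 l * M1 := Nat.le_mul_of_pos_right _ h1
    calc LoL R M0 M1 Mp l + Mp * PP R M0 M1 l * (1 + M1)
          ≤ Mp * PP R M0 M1 l + Mp * PP R M0 M1 l * (1 + M1) := Nat.add_le_add_right ih _
      _ = 2 * (Mp * PP R M0 M1 l) + Mp * PP R M0 M1 l * M1 := by ring
      _ ≤ 3 * (Mp * PP R M0 M1 l * M1) := by omega
      _ ≤ R * (Mp * PP R M0 M1 l * M1) := Nat.mul_le_mul_right _ hR
      _ = Mp * (PP R M0 M1 l * (R * M1)) := by ring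

theorem LoL_rest (R M0 M1 Mp l d : ℕ) :
    ∃ H, LoL R M0 M1 Mp (l + d) = LoL R M0 M1 Mp l + Mp * PP R M0 M1 l * H := by
  induction d with
  | zero => exact ⟨0, by simp⟩
  | succ d ih =>
    obtain ⟨H, hH⟩ := ih
    refine ⟨H + (R * M1) ^ d * (1 + M1), ?_⟩
    show LoL R M0 M1 Mp (l + d) + Mp * PP R M0 M1 (l + d) * (1 + M1) = _
    rw [hH]
    unfold PP
    rw [pow_add]
    ring

theorem LoL_pos (R M0 M1 Mp l : ℕ) : 0 < LoL R M0 M1 Mp l := by
  induction l with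
  | zero => show 0 < 1 + Mp + Mp * M0; omega
  | succ l ih => show 0 < LoL R M0 M1 Mp l + _; omega

open Classical in
theorem spoil_ext (m r K Mp R M0 M1 rho : ℕ) (Ms Ms1 : Finset ℕ)
    (hMp : 2 ^ (K + 10) ≤ Mp) (hR : 2 ^ (K + 10) ≤ R) (h0 : 2 ^ (K + 10) ≤ M0)
    (h1 : 2 ^ (K + 10) ≤ M1) (hMs : ∀ k ∈ Ms, 2 ^ (K + 10) ≤ k ∧ k ∣ M0)
    (hMs1 : ∀ k ∈ Ms1, 2 ^ (K + 10) ≤ k ∧ k ∣ M1) (hc : Ms.card ≤ r)
    (hc1 : Ms1.card ≤ 32 * rho) (hrho : 0 < rho) :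
    ∃ (x : ℕ → ℕ) (T0 : ℕ), (∀ i j, i < j → x i < x j) ∧ (∀ a < K, x a ≤ T0) ∧
      (∀ a b c d, a < K → b < K → c < K → d < K →
        (Mp : ℤ) ∣ ((x a : ℤ) - x b) - (x c - x d) → (a = c ∧ b = d) ∨ (a = b ∧ c = d)) ∧
      ∀ T, T0 ≤ T → (((Finset.range K ×ˢ Finset.range K).filter (fun ab => ab.1 ≠ ab.2 ∧
        Bad R M0 M1 m rho Ms Ms1 ((T + x ab.1 - x ab.2) / Mp))).card ≤ 2 + r + 34 * m) := by
  have hbig : 1024 ≤ 2 ^ (K + 10) := by
    calc 1024 = 2 ^ 10 := by norm_num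
      _ ≤ 2 ^ (K + 10) := Nat.pow_le_pow_right (by norm_num) (by omega)
  have hMpp : 0 < Mp := by omega
  have hRp : 0 < R := by omega
  have h0p : 0 < M0 := by omega
  have h1p : 0 < M1 := by omega
  have hR3 : 3 ≤ R := by omega
  obtain ⟨X, hX⟩ : ∃ X, X = LoL R M0 M1 Mp m := ⟨_, rfl⟩
  have hXp : 0 < X := hX ▸ LoL_pos R M0 M1 Mp m
  obtain ⟨H0, hH0⟩ : ∃ H, X = LoL R M0 M1 Mp 0 + Mp * PP R M0 M1 0 * H := by
    have := LoL_rest R M0 M1 Mp 0 m
    rw [zero_add] at this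
    rw [hX]; exact this
  have hX0 : X = 1 + Mp + Mp * M0 + Mp * (R * M0) * H0 := by
    rw [hH0]
    show 1 + Mp + Mp * M0 + Mp * ((R * M0) * (R * M1) ^ 0) * H0 = _
    rw [pow_zero, mul_one]
  refine ⟨fun a => 16 * 2 ^ a * X, 16 * 2 ^ K * X, ?_, ?_, ?_, ?_⟩
  · intro i j hij
    exact Nat.mul_lt_mul_of_pos_right
      (Nat.mul_lt_mul_of_pos_left (Nat.pow_lt_pow_right (by norm_num) hij) (by norm_num)) hXp
  · intro a ha
    exact Nat.mul_le_mul_right _ (Nat.mul_le_mul_left _ (Nat.pow_le_pow_right (by norm_num) ha.le))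
  · -- Golomb
    intro a b c d ha hb hc' hd hdv
    have hdv2 : (Mp : ℤ) ∣ 16 * (((2 : ℤ) ^ a - 2 ^ b) - (2 ^ c - 2 ^ d)) := by
      have e : ((((16 * 2 ^ a * X : ℕ)) : ℤ) - ((16 * 2 ^ b * X : ℕ) : ℤ)) -
          (((16 * 2 ^ c * X : ℕ) : ℤ) - ((16 * 2 ^ d * X : ℕ) : ℤ)) =
          16 * (((2 : ℤ) ^ a - 2 ^ b) - (2 ^ c - 2 ^ d)) +
            Mp * ((16 * (((2 : ℤ) ^ a - 2 ^ b) - (2 ^ c - 2 ^ d))) *
              (1 + M0 + (R * M0) * H0)) := by
        have hXZ : (X : ℤ) = 1 + Mp + Mp * M0 + Mp * (R * M0) * H0 := by exact_mod_cast hX0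
        push_cast
        rw [hXZ]
        ring
      have hdv' := hdv
      simp only [] at hdv'
      rw [e] at hdv'
      exact (dvd_add_left (Dvd.intro _ rfl)).1 hdv'
    have hlt : |16 * (((2 : ℤ) ^ a - 2 ^ b) - (2 ^ c - 2 ^ d))| < Mp := by
      have e : ∀ c < K, (2 : ℤ) ^ c ≤ 2 ^ K ∧ (0 : ℤ) < 2 ^ c := fun c hc =>
        ⟨pow_le_pow_right₀ (by norm_num) hc.le, by positivity⟩
      have h1 := e a ha
      have h2 := e b hb
      have h3 := e c hc'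
      have h4 := e d hd
      have h5 : (2 : ℤ) ^ (K + 10) = 1024 * 2 ^ K := by ring
      have h6 : (2 : ℤ) ^ (K + 10) ≤ Mp := by exact_mod_cast hMp
      have h7 : (0 : ℤ) < 2 ^ K := by positivity
      rw [abs_lt]
      constructor <;> linarith
    have hz := Int.eq_zero_of_abs_lt_dvd hdv2 hlt
    have hs : 2 ^ a + 2 ^ d = 2 ^ c + 2 ^ b := by
      have : (2 : ℤ) ^ a + 2 ^ d = 2 ^ c + 2 ^ b := by linarith
      exact_mod_cast this
    rcases sidon a d c b hs with ⟨e1, e2⟩ | ⟨e1, e2⟩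
    · exact Or.inl ⟨e1, e2.symm⟩
    · exact Or.inr ⟨e1, e2.symm⟩
  · intro T hT
    have hTb : ∀ b < K, 16 * 2 ^ b * X ≤ T := by
      intro b hb
      refine le_trans ?_ hT
      apply Nat.mul_le_mul_right
      apply Nat.mul_le_mul_left
      exact Nat.pow_le_pow_right (by norm_num) hb.le
    let n : ℕ × ℕ → ℕ := fun ab => T + 16 * 2 ^ ab.1 * X - 16 * 2 ^ ab.2 * X
    let Pr := (range K ×ˢ range K).filter (fun ab => ab.1 ≠ ab.2)
    -- one pair per elementary condition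
    have key : ∀ P A Lo Hi : ℕ, 0 < A → A ≤ Lo → Lo ≤ 3 * A → X = Lo + P * Hi →
        2 ^ (K + 10) * A ≤ P → ∀ S : Finset (ℕ × ℕ), S ⊆ Pr → (∀ p ∈ S, Near P A (n p)) →
          S.card ≤ 1 := by
      intro P A Lo Hi hA hLo1 hLo3 hXX hP S hS hN
      rw [Finset.card_le_one]
      intro p hp q hq
      have hp' := Finset.mem_filter.1 (hS hp)
      have hq' := Finset.mem_filter.1 (hS hq)
      have hp2 := Finset.mem_product.1 hp'.1
      have hq2 := Finset.mem_product.1 hq'.1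
      have := uniq hA hLo1 hLo3 hXX hP hTb (Finset.mem_range.1 hp2.1) (Finset.mem_range.1 hp2.2)
        (Finset.mem_range.1 hq2.1) (Finset.mem_range.1 hq2.2) hp'.2 (hN p hp) (hN q hq)
      exact Prod.ext this.1 this.2
    -- the pieces
    let S0 := Pr.filter (fun ab => Near (R * M0 * Mp) (M0 * Mp) (n ab))
    let Sk : ℕ → Finset (ℕ × ℕ) := fun k => Pr.filter (fun ab => Near (k * Mp) Mp (n ab))
    let Sd : ℕ → Finset (ℕ × ℕ) := fun l => Pr.filter (fun ab =>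
      Near (R * M1 * (Mp * PP R M0 M1 l)) (M1 * (Mp * PP R M0 M1 l)) (n ab))
    let Se : ℕ → Finset (ℕ × ℕ) := fun l => Pr.filter (fun ab =>
      rho ≤ (Ms1.filter (· ∣ n ab / Mp / PP R M0 M1 l)).card)
    have c0 : S0.card ≤ 1 := by
      refine key (R * M0 * Mp) (M0 * Mp) (1 + Mp + Mp * M0) H0 (Nat.mul_pos h0p hMpp) ?_ ?_ ?_ ?_
        S0 (Finset.filter_subset _ _) (fun p hp => (Finset.mem_filter.1 hp).2)
      · rw [mul_comm M0 Mp]; omega
      · have e1 : 1 ≤ Mp * M0 := Nat.mul_pos hMpp h0p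
        have e2 : Mp ≤ Mp * M0 := Nat.le_mul_of_pos_right _ h0p
        rw [mul_comm M0 Mp]; omega
      · rw [hX0]; ring
      · calc 2 ^ (K + 10) * (M0 * Mp) ≤ R * (M0 * Mp) := Nat.mul_le_mul_right _ hR
          _ = R * M0 * Mp := by ring
    have ck : ∀ k ∈ Ms, (Sk k).card ≤ 1 := by
      intro k hk
      obtain ⟨hk1, c, hkc⟩ := hMs k hk
      refine key (k * Mp) Mp (1 + Mp) (c + R * c * H0) hMpp (by omega) (by omega) ?_ ?_
        (Sk k) (Finset.filter_subset _ _) (fun p hp => (Finset.mem_filter.1 hp).2)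
      · rw [hX0, hkc]; ring
      · exact Nat.mul_le_mul_right _ hk1
    have hlev : ∀ l < m, ∃ H, X = LoL R M0 M1 Mp l + Mp * PP R M0 M1 l * (1 + M1) +
        Mp * (PP R M0 M1 l * (R * M1)) * H := by
      intro l hl
      obtain ⟨H, hH⟩ := LoL_rest R M0 M1 Mp (l + 1) (m - (l + 1))
      refine ⟨H, ?_⟩
      rw [hX, ← PP_succ]
      have e : l + 1 + (m - (l + 1)) = m := by omega
      rw [e] at hH
      exact hH
    have cd : ∀ l < m, (Sd l).card ≤ 1 := by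
      intro l hl
      obtain ⟨H, hH⟩ := hlev l hl
      have hs : 0 < Mp * PP R M0 M1 l := Nat.mul_pos hMpp (PP_pos hRp h0p h1p l)
      have hLl := LoL_le hR3 h0p h1p hMpp l
      have e1 : Mp * PP R M0 M1 l ≤ Mp * PP R M0 M1 l * M1 := Nat.le_mul_of_pos_right _ h1p
      refine key (R * M1 * (Mp * PP R M0 M1 l)) (M1 * (Mp * PP R M0 M1 l))
        (LoL R M0 M1 Mp l + Mp * PP R M0 M1 l * (1 + M1)) H (Nat.mul_pos h1p hs) ?_ ?_ ?_ ?_
        (Sd l) (Finset.filter_subset _ _) (fun p hp => (Finset.mem_filter.1 hp).2)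
      · rw [mul_comm M1, mul_add, mul_one]; omega
      · rw [mul_comm M1, mul_add, mul_one]; omega
      · rw [hH]; ring
      · calc 2 ^ (K + 10) * (M1 * (Mp * PP R M0 M1 l)) ≤ R * (M1 * (Mp * PP R M0 M1 l)) :=
              Nat.mul_le_mul_right _ hR
          _ = R * M1 * (Mp * PP R M0 M1 l) := by ring
    have ce : ∀ l < m, (Se l).card ≤ 32 := by
      intro l hl
      obtain ⟨H, hH⟩ := hlev l hl
      have hs : 0 < Mp * PP R M0 M1 l := Nat.mul_pos hMpp (PP_pos hRp h0p h1p l)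
      have hLl := LoL_le hR3 h0p h1p hMpp l
      have hone : ∀ k ∈ Ms1, ((Se l).filter (fun ab => k ∣ n ab / Mp / PP R M0 M1 l)).card ≤ 1 := by
        intro k hk
        obtain ⟨hk1, c, hkc⟩ := hMs1 k hk
        refine key (k * (Mp * PP R M0 M1 l)) (Mp * PP R M0 M1 l)
          (LoL R M0 M1 Mp l + Mp * PP R M0 M1 l) (c + R * c * H) hs (by omega) (by omega) ?_ ?_
          _ ((Finset.filter_subset _ _).trans (Finset.filter_subset _ _)) ?_
        · rw [hH, hkc]; ring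
        · exact Nat.mul_le_mul_right _ hk1
        · intro p hp
          have := (Finset.mem_filter.1 hp).2
          rw [Nat.div_div_eq_div_mul] at this
          exact near_of_dvd hs this
      have hdc : ∑ ab ∈ Se l, (Ms1.filter (fun k => k ∣ n ab / Mp / PP R M0 M1 l)).card =
          ∑ k ∈ Ms1, ((Se l).filter (fun ab => k ∣ n ab / Mp / PP R M0 M1 l)).card := by
        simp only [Finset.card_filter]
        exact Finset.sum_comm
      have hlow : (Se l).card * rho ≤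
          ∑ ab ∈ Se l, (Ms1.filter (fun k => k ∣ n ab / Mp / PP R M0 M1 l)).card := by
        rw [← smul_eq_mul]
        exact Finset.card_nsmul_le_sum _ _ _ (fun p hp => (Finset.mem_filter.1 hp).2)
      have hup : ∑ k ∈ Ms1, ((Se l).filter (fun ab => k ∣ n ab / Mp / PP R M0 M1 l)).card ≤
          Ms1.card := by
        calc _ ≤ ∑ k ∈ Ms1, 1 := Finset.sum_le_sum hone
          _ = Ms1.card := by simp
      have : (Se l).card * rho ≤ 32 * rho := by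
        calc (Se l).card * rho ≤ _ := hlow
          _ = _ := hdc
          _ ≤ Ms1.card := hup
          _ ≤ 32 * rho := hc1
      exact Nat.le_of_mul_le_mul_right this hrho
    have hsub : ((Finset.range K ×ˢ Finset.range K).filter (fun ab => ab.1 ≠ ab.2 ∧
        Bad R M0 M1 m rho Ms Ms1 ((T + 16 * 2 ^ ab.1 * X - 16 * 2 ^ ab.2 * X) / Mp))) ⊆
        S0 ∪ Ms.biUnion Sk ∪ (range m).biUnion (fun l => Sd l ∪ Se l) := by
      intro p hp
      obtain ⟨hpr, hne, hbad⟩ := Finset.mem_filter.1 hp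
      have hpP : p ∈ Pr := Finset.mem_filter.2 ⟨hpr, hne⟩
      rcases hbad with hb | ⟨k, hk, hkd⟩ | ⟨l, hl, hb | hb⟩
      · apply Finset.mem_union_left
        apply Finset.mem_union_left
        exact Finset.mem_filter.2 ⟨hpP, near_of_digit hMpp hb (Nat.mul_pos hRp h0p)⟩
      · apply Finset.mem_union_left
        apply Finset.mem_union_right
        exact Finset.mem_biUnion.2 ⟨k, hk, Finset.mem_filter.2 ⟨hpP, near_of_dvd hMpp hkd⟩⟩
      · apply Finset.mem_union_right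
        refine Finset.mem_biUnion.2 ⟨l, Finset.mem_range.2 hl, Finset.mem_union_left _ ?_⟩
        refine Finset.mem_filter.2 ⟨hpP, ?_⟩
        rw [Nat.div_div_eq_div_mul] at hb
        exact near_of_digit (Nat.mul_pos hMpp (PP_pos hRp h0p h1p l)) hb (Nat.mul_pos hRp h1p)
      · apply Finset.mem_union_right
        refine Finset.mem_biUnion.2 ⟨l, Finset.mem_range.2 hl, Finset.mem_union_right _ ?_⟩
        exact Finset.mem_filter.2 ⟨hpP, hb⟩
    calc _ ≤ (S0 ∪ Ms.biUnion Sk ∪ (range m).biUnion (fun l => Sd l ∪ Se l)).card :=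
          Finset.card_le_card hsub
      _ ≤ (S0 ∪ Ms.biUnion Sk).card + ((range m).biUnion (fun l => Sd l ∪ Se l)).card :=
          Finset.card_union_le _ _
      _ ≤ (S0.card + (Ms.biUnion Sk).card) + ((range m).biUnion (fun l => Sd l ∪ Se l)).card :=
          Nat.add_le_add_right (Finset.card_union_le _ _) _
      _ ≤ (1 + r) + 33 * m := by
          have a1 : (Ms.biUnion Sk).card ≤ r := by
            calc (Ms.biUnion Sk).card ≤ ∑ k ∈ Ms, (Sk k).card := Finset.card_biUnion_le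
              _ ≤ ∑ k ∈ Ms, 1 := Finset.sum_le_sum ck
              _ = Ms.card := by simp
              _ ≤ r := hc
          have a2 : ((range m).biUnion (fun l => Sd l ∪ Se l)).card ≤ 33 * m := by
            calc ((range m).biUnion (fun l => Sd l ∪ Se l)).card
                  ≤ ∑ l ∈ range m, (Sd l ∪ Se l).card := Finset.card_biUnion_le
              _ ≤ ∑ l ∈ range m, 33 := by
                  apply Finset.sum_le_sum
                  intro l hl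
                  have hl' := Finset.mem_range.1 hl
                  have b1 := Finset.card_union_le (Sd l) (Se l)
                  have b2 := cd l hl'
                  have b3 := ce l hl'
                  omega
              _ = 33 * m := by simp [mul_comm]
          omega
      _ ≤ 2 + r + 34 * m := by omega

open Classical in
theorem spoil (m r K Mp R M0 M1 rho : ℕ) (Ms Ms1 : Finset ℕ)
    (hMp : 2 ^ (K + 10) ≤ Mp) (hR : 2 ^ (K + 10) ≤ R) (h0 : 2 ^ (K + 10) ≤ M0)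
    (h1 : 2 ^ (K + 10) ≤ M1) (hMs : ∀ k ∈ Ms, 2 ^ (K + 10) ≤ k ∧ k ∣ M0)
    (hMs1 : ∀ k ∈ Ms1, 2 ^ (K + 10) ≤ k ∧ k ∣ M1) (hc : Ms.card ≤ r)
    (hc1 : Ms1.card ≤ 32 * rho) (hrho : 0 < rho) :
    ∃ (x : ℕ → ℕ) (T0 : ℕ),
      (∀ a b c d, a < K → b < K → c < K → d < K →
        (Mp : ℤ) ∣ ((x a : ℤ) - x b) - (x c - x d) → (a = c ∧ b = d) ∨ (a = b ∧ c = d)) ∧
      ∀ T, T0 ≤ T → (((Finset.range K ×ˢ Finset.range K).filter (fun ab => ab.1 ≠ ab.2 ∧
        Bad R M0 M1 m rho Ms Ms1 ((T + x ab.1 - x ab.2) / Mp))).card ≤ 2 + r + 34 * m) := by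
  obtain ⟨x, T0, -, -, h2, h3⟩ :=
    spoil_ext m r K Mp R M0 M1 rho Ms Ms1 hMp hR h0 h1 hMs hMs1 hc hc1 hrho
  exact ⟨x, T0, h2, h3⟩

end Crest.Agent.R320.Spoil_601
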