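import Crest.Agent.R320.Conc_67

/-!
Row 320 (helper67): word-level spoil count for the natural block code.
-/

set_option autoImplicit false

namespace Crest.Agent.R320.Conc_67

open Crest.Agent.R320.Zone2_594 Finset

variable {α : Type} {Wo : List α → Prop} {n z N1 p0 K W T0 C0 : ℕ} {BadT : ℕ → Prop} {c : ℕ → ℕ}

theorem gap_eq (hgap : ∀ (P : List α) (d : ℕ), Wo P → 0 < d → d ≤ W → ¬ Wo (P.take (P.length - d)))
    (U : List α) {s t : ℕ} (hs : s ≤ U.length) (ht : t ≤ U.length) (h1 : Wo (U.take s))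
    (h2 : Wo (U.take t)) (h3 : s ≤ t + W) (h4 : t ≤ s + W) : s = t := by
  have key : ∀ s t : ℕ, s ≤ U.length → t ≤ U.length → Wo (U.take s) → Wo (U.take t) →
      t ≤ s + W → ¬ s < t := by
    intro s t hs ht h1 h2 h4 hlt
    have := hgap (U.take t) (t - s) h2 (by omega) (by omega)
    rw [List.length_take, Nat.min_eq_left ht, show t - (t - s) = s by omega, List.take_take,
      Nat.min_eq_left hlt.le] at this
    exact this h1
  rcases lt_trichotomy s t with h | h | h
  · exact absurd h (key s t hs ht h1 h2 h4)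
  · exact h
  · exact absurd h (key t s ht hs h2 h1 h3)

open Classical in
theorem spoil (hloc : ∀ P Q : List α, n ≤ Q.length → (Wo (P ++ Q) ↔ Wo Q))
    (hgap : ∀ (P : List α) (d : ℕ), Wo P → 0 < d → d ≤ W → ¬ Wo (P.take (P.length - d)))
    (hz : 2 * p0 + n + N1 + N1 + T0 + 1 ≤ z) (hW : 2 * (N1 + p0) ≤ W)
    (hcp : ∀ k < K, c k ≤ p0)
    (hR2 : ∀ i j i' j', i < K → j < K → i' < K → j' < K → i ≠ j → i' ≠ j' →
      c i + c j' ≤ c i' + c j + 2 * N1 → c i' + c j ≤ c i + c j' + 2 * N1 → i = i' ∧ j = j')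
    (hR3 : ∀ T, T0 ≤ T → ((range K ×ˢ range K).filter
      (fun q => q.1 ≠ q.2 ∧ BadT (T + c q.1 - c q.2))).card ≤ C0)
    (U : List α) : (spoiled K c (BadAt Wo z N1 p0 BadT) U).card ≤ 1 + 2 * C0 := by
  set pairs := (range K ×ˢ range K).filter
    (fun q => q.1 ≠ q.2 ∧ BadAt Wo z N1 p0 BadT (c q.1) (U.drop (c q.2))) with hpairs
  have hsub : spoiled K c (BadAt Wo z N1 p0 BadT) U ⊆ pairs.image Prod.snd := by
    intro k hk
    unfold spoiled at hk
    obtain ⟨hk1, k', hk', hne, hb⟩ := Finset.mem_filter.1 hk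
    rw [Finset.mem_image]
    exact ⟨(k', k), Finset.mem_filter.2 ⟨Finset.mem_product.2 ⟨Finset.mem_range.2 hk', hk1⟩,
      hne, hb⟩, rfl⟩
  refine (Finset.card_le_card hsub).trans (Finset.card_image_le.trans ?_)
  -- the low wall and the high wall
  obtain ⟨tl, htl⟩ : ∃ tl, T0 + p0 ≤ tl ∧ ∀ t, t ≤ U.length → Wo (U.take t) → z ≤ t + p0 →
      t < z + p0 → t = tl := by
    by_cases h : ∃ t, t ≤ U.length ∧ Wo (U.take t) ∧ z ≤ t + p0 ∧ t < z + p0
    · obtain ⟨t, h1, h2, h3, h4⟩ := h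
      exact ⟨t, by omega, fun s g1 g2 g3 g4 => gap_eq hgap U g1 h1 g2 h2 (by omega) (by omega)⟩
    · exact ⟨z, by omega, fun s g1 g2 g3 g4 => absurd ⟨s, g1, g2, g3, g4⟩ h⟩
  obtain ⟨th, hth⟩ : ∃ th, T0 + p0 ≤ th ∧ ∀ t, t ≤ U.length → Wo (U.take t) → z + p0 ≤ t →
      (∀ s, s < t → z + p0 ≤ s → ¬ Wo (U.take s)) → t = th := by
    by_cases h : ∃ t, t ≤ U.length ∧ Wo (U.take t) ∧ z + p0 ≤ t ∧
      (∀ s, s < t → z + p0 ≤ s → ¬ Wo (U.take s))
    · obtain ⟨t, h1, h2, h3, h4⟩ := h
      refine ⟨t, by omega, fun s g1 g2 g3 g4 => ?_⟩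
      rcases lt_trichotomy s t with h | h | h
      · exact absurd g2 (h4 s h g3)
      · exact h
      · exact absurd h2 (g4 t h h3)
    · exact ⟨z, by omega, fun s g1 g2 g3 g4 => absurd ⟨s, g1, g2, g3, g4⟩ h⟩
  set AE := (range K ×ˢ range K).filter (fun q => q.1 ≠ q.2 ∧ ∃ t, t ≤ U.length ∧ Wo (U.take t) ∧
    z + c q.2 ≤ t + c q.1 + N1 ∧ t + c q.1 < z + N1 + c q.2) with hAE
  set A1 := (range K ×ˢ range K).filter
      (fun q => q.1 ≠ q.2 ∧ BadT ((tl - p0) + c q.1 - c q.2)) with hA1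
  set A2 := (range K ×ˢ range K).filter
      (fun q => q.1 ≠ q.2 ∧ BadT ((th - p0) + c q.1 - c q.2)) with hA2
  have hcard1 : A1.card ≤ C0 := hR3 _ (by omega)
  have hcard2 : A2.card ≤ C0 := hR3 _ (by omega)
  have hcardE : AE.card ≤ 1 := by
    rw [Finset.card_le_one]
    rintro ⟨i, j⟩ h1 ⟨i', j'⟩ h2
    obtain ⟨m1, ne1, t, t1, t2, t3, t4⟩ := Finset.mem_filter.1 h1
    obtain ⟨m2, ne2, s, s1, s2, s3, s4⟩ := Finset.mem_filter.1 h2
    obtain ⟨hi, hj⟩ := Finset.mem_product.1 m1
    obtain ⟨hi', hj'⟩ := Finset.mem_product.1 m2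
    have hi := Finset.mem_range.1 hi
    have hj := Finset.mem_range.1 hj
    have hi' := Finset.mem_range.1 hi'
    have hj' := Finset.mem_range.1 hj'
    have c1 := hcp _ hi
    have c2 := hcp _ hj
    have c3 := hcp _ hi'
    have c4 := hcp _ hj'
    simp only at *
    have hts : t = s := gap_eq hgap U t1 s1 t2 s2 (by omega) (by omega)
    subst hts
    obtain ⟨e1, e2⟩ := hR2 i j i' j' hi hj hi' hj' ne1 ne2 (by omega) (by omega)
    rw [e1, e2]
  have hsub2 : pairs ⊆ AE ∪ (A1 ∪ A2) := by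
    rintro ⟨k', k⟩ hq
    obtain ⟨m1, hne, y, hy1, hy2, hy3, hy4, hy5⟩ := Finset.mem_filter.1 hq
    obtain ⟨hk', hk⟩ := Finset.mem_product.1 m1
    have hk' := Finset.mem_range.1 hk'
    have hk := Finset.mem_range.1 hk
    have c1 := hcp _ hk'
    have c2 := hcp _ hk
    simp only at hne hy1 hy2 hy3 hy4 hy5 c1 c2 hk hk'
    rw [List.length_drop] at hy1
    have hUl : c k ≤ U.length := by omega
    have hPl : (U.take (c k)).length = c k := by rw [List.length_take]; omega
    have hconv : ∀ t, n ≤ t → c k + t ≤ U.length →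
        (Wo ((U.drop (c k)).take t) ↔ Wo (U.take (c k + t))) := by
      intro t ht1 ht2
      have := wo_take hloc (U.take (c k)) (U.drop (c k)) (c k + t) (by rw [hPl]; omega)
        (by rw [hPl, List.length_drop]; omega)
      rw [List.take_append_drop, hPl, show c k + t - c k = t by omega] at this
      exact this.symm
    rw [Finset.mem_union, Finset.mem_union]
    rcases hy5 with ⟨t, ht1, ht2, ht3, ht4⟩ | hB
    · left
      refine Finset.mem_filter.2 ⟨m1, hne, c k + t, by omega,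
        (hconv t (by omega) (by omega)).1 ht4, ?_, ?_⟩
      · show z + c k ≤ c k + t + c k' + N1
        omega
      · show c k + t + c k' < z + N1 + c k
        omega
    · right
      have hw : Wo (U.take (c k + y)) := (hconv y (by omega) (by omega)).1 hy3
      rcases Nat.lt_or_ge (c k + y) (z + p0) with hlo | hhi
      · left
        have e := htl.2 (c k + y) (by omega) hw (by omega) hlo
        refine Finset.mem_filter.2 ⟨m1, hne, ?_⟩
        show BadT ((tl - p0) + c k' - c k)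
        rw [← e, show c k + y - p0 + c k' - c k = c k' + y - p0 by omega]
        exact hB
      · right
        have e := hth.2 (c k + y) (by omega) hw hhi (by
          intro s hs1 hs2 hs3
          have hs4 : c k ≤ s := by omega
          obtain ⟨s, rfl⟩ := Nat.exists_eq_add_of_le hs4
          exact hy4 s (by omega) (by omega) ((hconv s (by omega) (by omega)).2 hs3))
        refine Finset.mem_filter.2 ⟨m1, hne, ?_⟩
        show BadT ((th - p0) + c k' - c k)
        rw [← e, show c k + y - p0 + c k' - c k = c k' + y - p0 by omega]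
        exact hB
  have h1 := Finset.card_le_card hsub2
  have h2 := Finset.card_union_le AE (A1 ∪ A2)
  have h3 := Finset.card_union_le A1 A2
  omega

end Crest.Agent.R320.Conc_67
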