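import Mathlib
import Crest.Agent.R320.SchB2_670

/-!
Row 320: spoil count of scheme B for the natural chain rule (`Z` constant), modes (E) and (B).
-/

set_option autoImplicit false

namespace Crest.Agent.R320.Spoil_670

open Crest.Agent.R320.Core1_829 Crest.Agent.R320.Blk_670 Crest.Agent.R320.SchB2_670

variable {α : Type}

/-- bad block, `c` hidden letters, `Q` ends at `t(a)` -/
def bd (W : List α → Prop) (z N1 p0 : ℕ) (Bad : ℕ → Prop) (c : ℕ) (Q : List α) : Prop :=
  (∃ i, i ≤ Q.length ∧ W (Q.take i) ∧ c + i ≤ z + N1 ∧ z ≤ c + i + N1) ∨ Bad (c + Q.length - p0)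

theorem bd_app {W : List α → Prop} {n : ℕ} (hW : LWall W n) {z N1 p0 C : ℕ} {Bad : ℕ → Prop}
    (hz : C + n + N1 ≤ z) (P Q : List α) (hP : P.length ≤ C) :
    bd W z N1 p0 Bad 0 (P ++ Q) ↔ bd W z N1 p0 Bad P.length Q := by
  unfold bd
  rw [List.length_append, Nat.zero_add]
  refine or_congr ?_ Iff.rfl
  constructor
  · rintro ⟨i, hi, hw, h1, h2⟩
    rw [W_app hW (by omega) (by omega)] at hw
    exact ⟨i - P.length, by omega, hw, by omega, by omega⟩
  · rintro ⟨i, hi, hw, h1, h2⟩
    refine ⟨P.length + i, by omega, ?_, by omega, by omega⟩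
    rw [W_app hW (by omega) (by omega), Nat.add_sub_cancel_left]
    exact hw

theorem card_le_two_mul {J : Finset ℕ} {tt : ℕ → ℕ} {Th : ℕ}
    (hfib : ∀ w, (J.filter fun k => tt k = w).card ≤ Th)
    (h3 : ∀ k ∈ J, ∀ l ∈ J, ∀ m ∈ J, tt k < tt l → tt l < tt m → False) : J.card ≤ 2 * Th := by
  classical
  have himg : (J.image tt).card ≤ 2 := by
    by_contra h
    push Not at h
    obtain ⟨a, ha, b, hb, c, hc, hab, hac, hbc⟩ := Finset.two_lt_card.1 h
    obtain ⟨k, hk, rfl⟩ := Finset.mem_image.1 ha
    obtain ⟨l, hl, rfl⟩ := Finset.mem_image.1 hb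
    obtain ⟨m, hm, rfl⟩ := Finset.mem_image.1 hc
    rcases lt_or_gt_of_ne hab with h1 | h1 <;> rcases lt_or_gt_of_ne hac with h2 | h2 <;>
      rcases lt_or_gt_of_ne hbc with h4 | h4 <;>
      first
        | omega
        | exact h3 k hk l hl m hm h1 h4
        | exact h3 k hk m hm l hl h2 h4
        | exact h3 l hl k hk m hm h1 h2
        | exact h3 l hl m hm k hk h4 h2
        | exact h3 m hm k hk l hl h2 h1
        | exact h3 m hm l hl k hk h4 h1
  have h := Finset.card_le_mul_card_image (f := tt) J Th (fun a _ => hfib a)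
  calc J.card ≤ Th * (J.image tt).card := h
    _ ≤ Th * 2 := Nat.mul_le_mul_left _ himg
    _ = 2 * Th := Nat.mul_comm _ _

/-- SPOIL COUNT. -/
theorem spoil {W : List α → Prop} {n : ℕ} (hW : LWall W n) {z N1 p0 C K Wg Th : ℕ} {c : ℕ → ℕ}
    {Bad : ℕ → Prop} (hc : ∀ k < K, c k ≤ C) (hz : p0 + C + C + n + N1 ≤ z)
    (hsep : ∀ (T : List α) (i j : ℕ), i < j → j ≤ T.length → W (T.take i) → W (T.take j) →
      i + Wg ≤ j) (hWg : 2 * N1 + 2 * C < Wg)
    (hE : ∀ k l k' l' : ℕ, k < K → l < K → k' < K → l' < K → k ≠ k' → l ≠ l' →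
      c k + c l' ≤ c l + c k' + 2 * N1 → c l + c k' ≤ c k + c l' + 2 * N1 → k = l)
    (hthin : ∀ e, C ≤ e → ∀ J : Finset ℕ, (∀ k ∈ J, k < K ∧ ∃ k', k' < K ∧ k' ≠ k ∧
      Bad (e + c k' - c k)) → J.card ≤ Th)
    {z0 : List α} (hz0 : z ≤ z0.length) :
    ∀ J : Finset ℕ, (∀ k ∈ J, k < K ∧ ∃ k', k' < K ∧ k' ≠ k ∧
      bq W (fun _ => z) 1 (bd W z N1 p0 Bad) c k' (z0.drop (c k))) → J.card < 2 * Th + 2 := by
  classical
  intro J hJ
  choose! g hg using fun k (hk : k ∈ J) => (hJ k hk).2
  have hg3 : ∀ k ∈ J, ∃ j, j ≤ (z0.drop (c k)).length ∧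
      XO W (fun _ => z) 1 (c (g k)) ((z0.drop (c k)).take j) ∧
      bd W z N1 p0 Bad (c (g k)) ((z0.drop (c k)).take j) := fun k hk => (hg k hk).2.2
  choose! jj hjj using hg3
  have hKl : ∀ k ∈ J, k < K := fun k hk => (hJ k hk).1
  let E : ℕ → Prop := fun k => ∃ i, i ≤ ((z0.drop (c k)).take (jj k)).length ∧
    W (((z0.drop (c k)).take (jj k)).take i) ∧ c (g k) + i ≤ z + N1 ∧ z ≤ c (g k) + i + N1
  -- walls of the block in absolute position
  have hwall : ∀ k ∈ J, ∀ i, i ≤ jj k → n ≤ i → W (((z0.drop (c k)).take (jj k)).take i) →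
      W (z0.take (c k + i)) := by
    intro k hk i hi hni hw
    rw [List.take_take, min_eq_left hi] at hw
    have hkc := hc k (hKl k hk)
    have h1 := (hjj k hk).1
    rw [List.length_drop] at h1
    have hsplit : z0.take (c k) ++ z0.drop (c k) = z0 := List.take_append_drop _ _
    have hl : (z0.take (c k)).length = c k := by rw [List.length_take]; omega
    have h2 := (W_app hW (P := z0.take (c k)) (Q := z0.drop (c k)) (t := c k + i)
      (by omega) (by rw [hl, List.length_drop]; omega)).2 (by
        rw [hl, Nat.add_sub_cancel_left]; exact hw)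
    rwa [hsplit] at h2
  -- (E) part
  have hEcard : (J.filter E).card ≤ 1 := by
    rw [Finset.card_le_one]
    intro k hk l hl
    obtain ⟨hkJ, i, hi, hwi, hi1, hi2⟩ := Finset.mem_filter.1 hk
    obtain ⟨hlJ, i', hi', hwi', hi1', hi2'⟩ := Finset.mem_filter.1 hl
    have hkc := hc k (hKl k hkJ)
    have hlc := hc l (hKl l hlJ)
    have hgk := hc _ (hg k hkJ).1
    have hgl := hc _ (hg l hlJ).1
    have hjk := (hjj k hkJ).1
    have hjl := (hjj l hlJ).1
    rw [List.length_drop] at hjk hjl
    rw [List.length_take, List.length_drop] at hi hi'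
    have w1 := hwall k hkJ i (by omega) (by omega) hwi
    have w2 := hwall l hlJ i' (by omega) (by omega) hwi'
    have heq : c k + i = c l + i' := by
      rcases lt_trichotomy (c k + i) (c l + i') with h | h | h
      · have := hsep z0 _ _ h (by omega) w1 w2
        omega
      · exact h
      · have := hsep z0 _ _ h (by omega) w2 w1
        omega
    exact hE k l (g k) (g l) (hKl k hkJ) (hKl l hlJ) (hg k hkJ).1 (hg l hlJ).1
      (Ne.symm (hg k hkJ).2.1) (Ne.symm (hg l hlJ).2.1) (by omega) (by omega)
  -- (B) part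
  have hBcard : (J.filter fun k => ¬ E k).card ≤ 2 * Th := by
    have hjz : ∀ k ∈ J, z ≤ c (g k) + jj k := by
      intro k hk
      have h1 := (hjj k hk).2.1.1.2
      have h2 := (hjj k hk).1
      rw [List.length_take, min_eq_left h2] at h1
      exact h1
    refine card_le_two_mul (tt := fun k => c k + jj k) ?_ ?_
    · intro w
      by_cases hne : ((J.filter fun k => ¬ E k).filter fun k => c k + jj k = w).Nonempty
      · have hwC : C ≤ w - p0 := by
          obtain ⟨k, hk⟩ := hne
          obtain ⟨hk1, hk2⟩ := Finset.mem_filter.1 hk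
          obtain ⟨hkJ, -⟩ := Finset.mem_filter.1 hk1
          have h1 := hjz k hkJ
          have h2 := hc _ (hg k hkJ).1
          omega
        refine hthin (w - p0) hwC _ ?_
        intro k hk
        obtain ⟨hk1, hk2⟩ := Finset.mem_filter.1 hk
        obtain ⟨hkJ, hkE⟩ := Finset.mem_filter.1 hk1
        refine ⟨hKl k hkJ, g k, (hg k hkJ).1, (hg k hkJ).2.1, ?_⟩
        rcases (hjj k hkJ).2.2 with h | h
        · exact absurd h hkE
        · have h2 := (hjj k hkJ).1
          rw [List.length_take, min_eq_left h2] at h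
          have h3 := hjz k hkJ
          have h4 := hc k (hKl k hkJ)
          have h5 := hc _ (hg k hkJ).1
          have e : w - p0 + c (g k) - c k = c (g k) + jj k - p0 := by omega
          rw [e]
          exact h
      · rw [Finset.not_nonempty_iff_eq_empty.1 hne]
        simp
    · intro k hk l hl m hm h1 h2
      obtain ⟨hkJ, -⟩ := Finset.mem_filter.1 hk
      obtain ⟨hlJ, -⟩ := Finset.mem_filter.1 hl
      obtain ⟨hmJ, -⟩ := Finset.mem_filter.1 hm
      have hkc := hc k (hKl k hkJ)
      have hlc := hc l (hKl l hlJ)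
      have hmc := hc m (hKl m hmJ)
      have hgk := hc _ (hg k hkJ).1
      have hgl := hc _ (hg l hlJ).1
      have hgm := hc _ (hg m hmJ).1
      have hjk := (hjj k hkJ).1
      have hjl := (hjj l hlJ).1
      have hjm := (hjj m hmJ).1
      rw [List.length_drop] at hjk hjl hjm
      have zk := hjz k hkJ
      have zl := hjz l hlJ
      have zm := hjz m hmJ
      have w1 := hwall k hkJ (jj k) le_rfl (by omega) (by
        rw [List.take_take, min_self]; exact (hjj k hkJ).2.1.1.1)
      have w2 := hwall l hlJ (jj l) le_rfl (by omega) (by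
        rw [List.take_take, min_self]; exact (hjj l hlJ).2.1.1.1)
      have h1' : c k + jj k < c l + jj l := h1
      have h2' : c l + jj l < c m + jj m := h2
      have hs : c k + jj k + Wg ≤ c l + jj l := hsep z0 _ _ h1' (by omega) w1 w2
      -- the wall of `l` qualifies for `m`
      have hn := (hjj m hmJ).2.1.2 (c l + jj l - c m) (by
        rw [List.length_take, List.length_drop]; omega)
      apply hn
      constructor
      · rw [List.take_take, min_eq_left (by omega)]
        have hsplit : z0.take (c m) ++ z0.drop (c m) = z0 := List.take_append_drop _ _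
        have hlm : (z0.take (c m)).length = c m := by rw [List.length_take]; omega
        have h5 := (W_app hW (P := z0.take (c m)) (Q := z0.drop (c m)) (t := c l + jj l)
          (by omega) (by rw [hlm, List.length_drop]; omega)).1 (by rw [hsplit]; exact w2)
        rwa [hlm] at h5
      · rw [List.take_take, min_eq_left (by omega), List.length_take, List.length_drop]
        show z ≤ c (g m) + min (c l + jj l - c m) (z0.length - c m)
        omega
  have hsum : (J.filter E).card + (J.filter fun k => ¬ E k).card = J.card :=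
    Finset.card_filter_add_card_filter_not E
  omega

end Crest.Agent.R320.Spoil_670
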