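import Mathlib

/-!
# Leaf U4 (638 #13273): the spoil count of the U-gadget (pure arithmetic)

`spoil` is 638's literal statement, `spoil'` is the same with the extra conjuncts asked for by
845 (#13293): `x a ≤ T0`, the Golomb property in `Nat` form, and `bad_period` is the periodicity
of `Bad`.
-/

namespace Crest.Agent.R320.Spoil_683

def PP (R M0 M1 l : ℕ) : ℕ := (R*M0) * (R*M1)^l

def Bad (R M0 M1 m rho : ℕ) (Ms Ms1 : Finset ℕ) (n : ℕ) : Prop :=
  (n % (R*M0) < M0 ∨ R*M0 ≤ n % (R*M0) + M0) ∨ (∃ k ∈ Ms, k ∣ n) ∨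
  ∃ l < m, ((n / PP R M0 M1 l) % (R*M1) < M1 ∨ R*M1 ≤ (n / PP R M0 M1 l) % (R*M1) + M1) ∨
    rho ≤ (Ms1.filter (· ∣ n / PP R M0 M1 l)).card

/-! ### Powers of two form a Golomb ruler -/

theorem pow_pair {a b c d : ℕ} (h : (2:ℤ)^a - 2^b = 2^c - 2^d) :
    (a = c ∧ b = d) ∨ (a = b ∧ c = d) := by
  have pos : ∀ n : ℕ, (0:ℤ) < 2^n := fun n => by positivity
  have half : ∀ {p q : ℕ}, p < q → (2:ℤ) * 2^p ≤ 2^q := by
    intro p q hpq
    calc (2:ℤ) * 2^p = 2^(p+1) := by ring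
      _ ≤ 2^q := pow_le_pow_right₀ (by norm_num) hpq
  have inj : ∀ {p q : ℕ}, (2:ℤ)^p = 2^q → p = q := by
    intro p q hpq
    rcases lt_trichotomy p q with h1 | h1 | h1
    · have := half h1; have := pos p; linarith
    · exact h1
    · have := half h1; have := pos q; linarith
  rcases lt_trichotomy a b with hab | hab | hab
  · have hcd : c < d := by
      by_contra hcd
      have h1 : (2:ℤ)^d ≤ 2^c := pow_le_pow_right₀ (by norm_num) (not_lt.mp hcd)
      have h2 := half hab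
      have h3 := pos a
      linarith
    have h1 := half hab
    have h2 := half hcd
    have h4 := pos a
    have h5 := pos c
    have hbd : b = d := by
      rcases lt_trichotomy b d with h3 | h3 | h3
      · have := half h3; linarith
      · exact h3
      · have := half h3; linarith
    subst hbd
    exact Or.inl ⟨inj (by linarith), rfl⟩
  · subst hab
    right
    exact ⟨rfl, inj (by linarith)⟩
  · have hcd : d < c := by
      by_contra hcd
      have h1 : (2:ℤ)^c ≤ 2^d := pow_le_pow_right₀ (by norm_num) (not_lt.mp hcd)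
      have h2 := half hab
      have h3 := pos b
      linarith
    have h1 := half hab
    have h2 := half hcd
    have h4 := pos b
    have h5 := pos d
    have hac : a = c := by
      rcases lt_trichotomy a c with h3 | h3 | h3
      · have := half h3; linarith
      · exact h3
      · have := half h3; linarith
    subst hac
    exact Or.inl ⟨rfl, inj (by linarith)⟩

/-! ### At most one pair per thin condition -/

/-- `N` is within `w` of a multiple of `D`. -/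
def Near (D w N : ℤ) : Prop := ∃ j : ℤ, |N - j * D| ≤ w

theorem one {K : ℕ} {D s w : ℤ} {x : ℕ → ℤ} (hx : ∀ a, D ∣ x a - 16 * 2^a * s)
    (hs0 : 0 < s) (hs : 2*w < 16*s) (hD : 32 * 2^K * s + 2*w < D) {T : ℤ} {a b c d : ℕ}
    (ha : a < K) (hb : b < K) (hc : c < K) (hd : d < K) (hab : a ≠ b)
    (h1 : Near D w (T + x a - x b)) (h2 : Near D w (T + x c - x d)) : a = c ∧ b = d := by
  obtain ⟨j, hj⟩ := h1
  obtain ⟨i, hi⟩ := h2
  set e : ℤ := (T + x a - x b - j * D) - (T + x c - x d - i * D) with he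
  have hew : |e| ≤ 2*w := by
    calc |e| ≤ |T + x a - x b - j * D| + |T + x c - x d - i * D| := abs_sub _ _
      _ ≤ w + w := add_le_add hj hi
      _ = 2*w := by ring
  set δ : ℤ := 2^a - 2^b - 2^c + 2^d with hδ
  have hdvd : D ∣ e - 16 * s * δ := by
    have hsum : e - 16 * s * δ = (x a - 16*2^a*s) - (x b - 16*2^b*s) - (x c - 16*2^c*s)
        + (x d - 16*2^d*s) + (i - j) * D := by
      rw [he, hδ]; ring
    rw [hsum]
    exact dvd_add (dvd_add (dvd_sub (dvd_sub (hx a) (hx b)) (hx c)) (hx d)) (dvd_mul_left _ _)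
  have pw : ∀ {p : ℕ}, p < K → (2:ℤ)^p ≤ 2^K := fun hp =>
    pow_le_pow_right₀ (by norm_num) hp.le
  have pos : ∀ n : ℕ, (0:ℤ) < 2^n := fun n => by positivity
  have hδb : |δ| ≤ 2 * 2^K := by
    rw [abs_le]
    constructor
    · have := pw hb; have := pw hc; have := pos a; have := pos d
      rw [hδ]; linarith
    · have := pw ha; have := pw hd; have := pos b; have := pos c
      rw [hδ]; linarith
  have habs : |e - 16 * s * δ| < D := by
    calc |e - 16 * s * δ| ≤ |e| + |16 * s * δ| := abs_sub _ _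
      _ = |e| + 16 * s * |δ| := by
          rw [abs_mul (16 * s) δ, abs_of_pos (by linarith : (0:ℤ) < 16 * s)]
      _ ≤ 2*w + 16 * s * (2 * 2^K) := by
          have : 16 * s * |δ| ≤ 16 * s * (2 * 2^K) :=
            mul_le_mul_of_nonneg_left hδb (by linarith)
          linarith
      _ = 32 * 2^K * s + 2 * w := by ring
      _ < D := hD
  have h0 : e - 16 * s * δ = 0 := Int.eq_zero_of_abs_lt_dvd hdvd habs
  have hδ0 : δ = 0 := by
    by_contra hne
    have h1 : 1 ≤ |δ| := Int.one_le_abs hne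
    have h2 : |e| = 16 * s * |δ| := by
      have : e = 16 * s * δ := by linarith
      rw [this, abs_mul (16 * s) δ, abs_of_pos (by linarith : (0:ℤ) < 16 * s)]
    have h3 : 16 * s * 1 ≤ 16 * s * |δ| := mul_le_mul_of_nonneg_left h1 (by linarith)
    linarith
  rcases pow_pair (a := a) (b := b) (c := c) (d := d) (by rw [hδ] at hδ0; linarith) with h | h
  · exact h
  · exact absurd h.1 hab

/-! ### Quotients near a multiple -/

theorem near_of_digit {N X Q M : ℕ} (hX : 0 < X) (hQ : 0 < Q)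
    (h : (N / X) % Q < M ∨ Q ≤ (N / X) % Q + M) :
    Near ((Q * X : ℕ) : ℤ) (((M + 1) * X : ℕ) : ℤ) (N : ℤ) := by
  have h1 := Nat.div_add_mod N X
  have h2 := Nat.div_add_mod (N / X) Q
  have h3 := Nat.mod_lt N hX
  have h4 := Nat.mod_lt (N / X) hQ
  set q := N / X
  set r := N % X
  set p := q % Q
  set t := q / Q
  have hN : (N : ℤ) = X * (Q * t + p) + r := by
    rw [← h1, ← h2]; push_cast; ring
  have hr0 : (0:ℤ) ≤ r := by positivity
  have hrX : (r:ℤ) < X := by exact_mod_cast h3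
  have hX0 : (0:ℤ) < X := by exact_mod_cast hX
  have hp0 : (0:ℤ) ≤ p := by positivity
  have hM0 : (0:ℤ) ≤ M := by positivity
  rcases h with h | h
  · refine ⟨t, ?_⟩
    have hpM : (p:ℤ) + 1 ≤ M := by exact_mod_cast h
    have h5 : (N:ℤ) - t * ((Q * X : ℕ) : ℤ) = X * p + r := by rw [hN]; push_cast; ring
    rw [h5, abs_le]
    push_cast
    constructor <;> nlinarith
  · refine ⟨t + 1, ?_⟩
    have hpM : (Q:ℤ) ≤ p + M := by exact_mod_cast h
    have hpQ : (p:ℤ) + 1 ≤ Q := by exact_mod_cast h4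
    have h5 : (N:ℤ) - (t + 1) * ((Q * X : ℕ) : ℤ) = X * p + r - Q * X := by
      rw [hN]; push_cast; ring
    rw [h5, abs_le]
    push_cast
    constructor <;> nlinarith

theorem near_of_dvd {N X k : ℕ} (hX : 0 < X) (h : k ∣ N / X) :
    Near ((k * X : ℕ) : ℤ) ((X : ℕ) : ℤ) (N : ℤ) := by
  obtain ⟨j, hj⟩ := h
  have h1 := Nat.div_add_mod N X
  have h3 := Nat.mod_lt N hX
  refine ⟨j, ?_⟩
  have hN : (N : ℤ) = X * (k * j) + (N % X : ℕ) := by
    conv_lhs => rw [← h1, hj]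
    push_cast; ring
  have h5 : (N:ℤ) - j * ((k * X : ℕ) : ℤ) = (N % X : ℕ) := by
    rw [hN]; push_cast; ring
  rw [h5, abs_of_nonneg (by positivity)]
  exact_mod_cast h3.le

/-! ### The scales -/

/-- The sum of the scales up to level `l`. -/
def A (Mp R M0 M1 : ℕ) : ℕ → ℕ
  | 0 => 1 + Mp + Mp * M0
  | l + 1 => A Mp R M0 M1 l + Mp * PP R M0 M1 l + Mp * PP R M0 M1 l * M1

theorem PP_succ (R M0 M1 l : ℕ) : PP R M0 M1 (l+1) = PP R M0 M1 l * (R * M1) := by
  unfold PP; rw [pow_succ]; ring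

theorem PP_zero (R M0 M1 : ℕ) : PP R M0 M1 0 = R * M0 := by
  unfold PP; simp

theorem PP_dvd {R M0 M1 l k : ℕ} (h : l ≤ k) : PP R M0 M1 l ∣ PP R M0 M1 k := by
  unfold PP
  exact mul_dvd_mul_left _ (pow_dvd_pow _ h)

theorem PP_pos {R M0 M1 : ℕ} (hR : 0 < R) (h0 : 0 < M0) (h1 : 0 < M1) (l : ℕ) :
    0 < PP R M0 M1 l := by
  unfold PP; positivity

theorem A_tail (Mp R M0 M1 l d : ℕ) :
    ∃ t, A Mp R M0 M1 (l + d) = A Mp R M0 M1 l + Mp * PP R M0 M1 l * t := by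
  induction d with
  | zero => exact ⟨0, by simp⟩
  | succ d ih =>
    obtain ⟨t, ht⟩ := ih
    obtain ⟨u, hu⟩ := PP_dvd (R := R) (M0 := M0) (M1 := M1) (Nat.le_add_right l d)
    refine ⟨t + u + u * M1, ?_⟩
    have : A Mp R M0 M1 (l + (d + 1)) = A Mp R M0 M1 (l + d) + Mp * PP R M0 M1 (l + d)
      + Mp * PP R M0 M1 (l + d) * M1 := rfl
    rw [this, ht, hu]; ring

theorem A_le {Mp R M0 M1 : ℕ} (hMp : 0 < Mp) (hR : 3 ≤ R) (h0 : 0 < M0) (h1 : 0 < M1) (l : ℕ) :
    A Mp R M0 M1 l ≤ Mp * PP R M0 M1 l := by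
  induction l with
  | zero =>
    rw [PP_zero]
    show 1 + Mp + Mp * M0 ≤ Mp * (R * M0)
    have h2 : 1 ≤ Mp * M0 := Nat.mul_pos hMp h0
    have h3 : Mp ≤ Mp * M0 := Nat.le_mul_of_pos_right _ h0
    calc 1 + Mp + Mp * M0 ≤ 3 * (Mp * M0) := by omega
      _ ≤ R * (Mp * M0) := Nat.mul_le_mul_right _ hR
      _ = Mp * (R * M0) := by ring
  | succ l ih =>
    rw [PP_succ]
    show A Mp R M0 M1 l + Mp * PP R M0 M1 l + Mp * PP R M0 M1 l * M1 ≤ _
    set X := Mp * PP R M0 M1 l with hX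
    have h3 : X ≤ X * M1 := Nat.le_mul_of_pos_right _ h1
    calc A Mp R M0 M1 l + X + X * M1 ≤ 3 * (X * M1) := by omega
      _ ≤ R * (X * M1) := Nat.mul_le_mul_right _ hR
      _ = Mp * (PP R M0 M1 l * (R * M1)) := by rw [hX]; ring

theorem A_pos (Mp R M0 M1 l : ℕ) : 0 < A Mp R M0 M1 l := by
  induction l with
  | zero => show 0 < 1 + Mp + Mp * M0; omega
  | succ l ih => show 0 < A Mp R M0 M1 l + _ + _; omega

/-! ### The four kinds of thin conditions -/

section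
variable {K Mp R M0 M1 m : ℕ}

/-- the ruler -/
def xr (Mp R M0 M1 m a : ℕ) : ℕ := 16 * 2^a * A Mp R M0 M1 m

theorem xr_dvd {D s t : ℕ} (h : A Mp R M0 M1 m = s + D * t) (a : ℕ) :
    (D : ℤ) ∣ ((xr Mp R M0 M1 m a : ℕ) : ℤ) - 16 * 2^a * (s : ℤ) := by
  refine ⟨16 * 2^a * t, ?_⟩
  unfold xr
  rw [h]; push_cast; ring

/-- digit conditions -/
theorem one_digit {X M s Q t : ℕ} (hA : A Mp R M0 M1 m = s + (Q * X) * t)
    (hX : 0 < X) (hM : 0 < M) (hs1 : X * M ≤ s) (hs2 : s ≤ 3 * (X * M))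
    (hQ : 2^(K+10) * M ≤ Q)
    {T a b c d : ℕ} (ha : a < K) (hb : b < K) (hc : c < K) (hd : d < K) (hab : a ≠ b)
    (hTb : xr Mp R M0 M1 m b ≤ T) (hTd : xr Mp R M0 M1 m d ≤ T)
    (h1 : ((T + xr Mp R M0 M1 m a - xr Mp R M0 M1 m b) / X) % Q < M ∨
      Q ≤ ((T + xr Mp R M0 M1 m a - xr Mp R M0 M1 m b) / X) % Q + M)
    (h2 : ((T + xr Mp R M0 M1 m c - xr Mp R M0 M1 m d) / X) % Q < M ∨
      Q ≤ ((T + xr Mp R M0 M1 m c - xr Mp R M0 M1 m d) / X) % Q + M) : a = c ∧ b = d := by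
  have hQ0 : 0 < Q := lt_of_lt_of_le (by positivity) hQ
  have k1 := near_of_digit hX hQ0 h1
  have k2 := near_of_digit hX hQ0 h2
  rw [Nat.cast_sub (by omega), Nat.cast_add] at k1 k2
  have hXM : X ≤ X * M := Nat.le_mul_of_pos_right _ hM
  refine one (K := K) (D := ((Q * X : ℕ) : ℤ)) (s := (s:ℤ)) (w := (((M + 1) * X : ℕ) : ℤ))
    (x := fun a => ((xr Mp R M0 M1 m a : ℕ) : ℤ)) (fun a => xr_dvd hA a) ?_ ?_ ?_
    ha hb hc hd hab k1 k2
  · have : 0 < s := lt_of_lt_of_le (by positivity) hs1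
    exact_mod_cast this
  · have : 2 * ((M + 1) * X) < 16 * s := by nlinarith
    exact_mod_cast this
  · have h3 : 32 * 2^K * s + 2 * ((M + 1) * X) < Q * X := by
      have h4 : 32 * 2^K * s ≤ 32 * 2^K * (3 * (X * M)) := Nat.mul_le_mul_left _ hs2
      have h5 : 2^(K+10) * M * X ≤ Q * X := Nat.mul_le_mul_right _ hQ
      have h6 : 2^(K+10) * M * X = 1024 * (2^K * (X * M)) := by rw [pow_add]; ring
      have h7 : 32 * 2^K * (3 * (X * M)) = 96 * (2^K * (X * M)) := by ring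
      have h8 : X * M ≤ 2^K * (X * M) := Nat.le_mul_of_pos_left _ (by positivity)
      have h9 : (M + 1) * X = X * M + X := by ring
      have h10 : 0 < X * M := by positivity
      omega
    exact_mod_cast h3

/-- divisor conditions -/
theorem one_dvd {X s k t : ℕ} (hA : A Mp R M0 M1 m = s + (k * X) * t)
    (hX : 0 < X) (hs1 : X ≤ s) (hs2 : s ≤ 2 * X)
    (hk : 2^(K+10) ≤ k)
    {T a b c d : ℕ} (ha : a < K) (hb : b < K) (hc : c < K) (hd : d < K) (hab : a ≠ b)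
    (hTb : xr Mp R M0 M1 m b ≤ T) (hTd : xr Mp R M0 M1 m d ≤ T)
    (h1 : k ∣ (T + xr Mp R M0 M1 m a - xr Mp R M0 M1 m b) / X)
    (h2 : k ∣ (T + xr Mp R M0 M1 m c - xr Mp R M0 M1 m d) / X) : a = c ∧ b = d := by
  have k1 := near_of_dvd hX h1
  have k2 := near_of_dvd hX h2
  rw [Nat.cast_sub (by omega), Nat.cast_add] at k1 k2
  refine one (K := K) (D := ((k * X : ℕ) : ℤ)) (s := (s:ℤ)) (w := ((X : ℕ) : ℤ))
    (x := fun a => ((xr Mp R M0 M1 m a : ℕ) : ℤ)) (fun a => xr_dvd hA a) ?_ ?_ ?_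
    ha hb hc hd hab k1 k2
  · have : 0 < s := lt_of_lt_of_le hX hs1
    exact_mod_cast this
  · have : 2 * X < 16 * s := by omega
    exact_mod_cast this
  · have h3 : 32 * 2^K * s + 2 * X < k * X := by
      have h4 : 32 * 2^K * s ≤ 32 * 2^K * (2 * X) := Nat.mul_le_mul_left _ hs2
      have h5 : 2^(K+10) * X ≤ k * X := Nat.mul_le_mul_right _ hk
      have h6 : 2^(K+10) * X = 1024 * (2^K * X) := by rw [pow_add]; ring
      have h7 : 32 * 2^K * (2 * X) = 64 * (2^K * X) := by ring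
      have h8 : X ≤ 2^K * X := Nat.le_mul_of_pos_left _ (by positivity)
      omega
    exact_mod_cast h3

/-- Golomb property modulo `Mp`, over `ℤ`. -/
theorem golomb {t : ℕ} (hA : A Mp R M0 M1 m = 1 + Mp * t) (hMp : 2^(K+10) ≤ Mp)
    {a b c d : ℕ} (ha : a < K) (hb : b < K) (hc : c < K) (hd : d < K)
    (h : (Mp:ℤ) ∣ ((xr Mp R M0 M1 m a:ℕ):ℤ) - (xr Mp R M0 M1 m b:ℕ)
      - ((xr Mp R M0 M1 m c:ℕ) - (xr Mp R M0 M1 m d:ℕ))) :
    (a = c ∧ b = d) ∨ (a = b ∧ c = d) := by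
  by_cases hab : a = b
  · by_cases hcd : c = d
    · exact Or.inr ⟨hab, hcd⟩
    · subst hab
      have := one (K := K) (D := (Mp : ℤ)) (s := 1) (w := 0) (T := 0)
        (x := fun a => ((xr Mp R M0 M1 m a : ℕ) : ℤ))
        (fun a => by simpa using xr_dvd hA a) (by norm_num) (by norm_num)
        (by
          have h5 : 32 * 2^K < Mp := lt_of_lt_of_le
            (by rw [pow_add]; have : 0 < 2^K := by positivity
                omega) hMp
          have : (32:ℤ) * 2^K < Mp := by exact_mod_cast h5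
          linarith) hc hd ha ha hcd
        (by
          obtain ⟨j, hj⟩ := h
          refine ⟨-j, ?_⟩
          have e1 : (0:ℤ) + ((xr Mp R M0 M1 m c:ℕ):ℤ) - (xr Mp R M0 M1 m d:ℕ) - (-j) * Mp = 0 := by
            linarith
          simp only [e1]; simp)
        ⟨0, by simp⟩
      right; exact ⟨rfl, by omega⟩
  · left
    obtain ⟨j, hj⟩ := h
    refine one (K := K) (D := (Mp : ℤ)) (s := 1) (w := 0)
      (T := - (((xr Mp R M0 M1 m c:ℕ):ℤ) - (xr Mp R M0 M1 m d:ℕ)))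
      (x := fun a => ((xr Mp R M0 M1 m a : ℕ) : ℤ))
      (fun a => by simpa using xr_dvd hA a) (by norm_num) (by norm_num)
      (by
        have h5 : 32 * 2^K < Mp := lt_of_lt_of_le
          (by rw [pow_add]; have : 0 < 2^K := by positivity
              omega) hMp
        have : (32:ℤ) * 2^K < Mp := by exact_mod_cast h5
        linarith) ha hb hc hd hab
      ⟨j, ?_⟩ ⟨0, ?_⟩
    · have e1 : -(((xr Mp R M0 M1 m c:ℕ):ℤ) - (xr Mp R M0 M1 m d:ℕ)) + ((xr Mp R M0 M1 m a:ℕ):ℤ)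
          - (xr Mp R M0 M1 m b:ℕ) - j * Mp = 0 := by linarith
      simp only [e1]; simp
    · have e1 : -(((xr Mp R M0 M1 m c:ℕ):ℤ) - (xr Mp R M0 M1 m d:ℕ)) + ((xr Mp R M0 M1 m c:ℕ):ℤ)
          - (xr Mp R M0 M1 m d:ℕ) - 0 * Mp = 0 := by ring
      simp only [e1]; simp

end

/-! ### Periodicity of `Bad` (845 (a)) -/

theorem div_PP_mod {R M0 M1 m l Q : ℕ} (hl : l < m) (hQ : Q ∣ R * M1)
    (hP : 0 < PP R M0 M1 l) (n : ℕ) :
    ∃ j, (n + PP R M0 M1 m) / PP R M0 M1 l = n / PP R M0 M1 l + Q * j := by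
  obtain ⟨u, hu⟩ := PP_dvd (R := R) (M0 := M0) (M1 := M1) (Nat.succ_le_of_lt hl)
  obtain ⟨v, hv⟩ := hQ
  refine ⟨v * u, ?_⟩
  rw [hu, PP_succ, hv]
  have : n + PP R M0 M1 l * (Q * v) * u = n + PP R M0 M1 l * (Q * (v * u)) := by ring
  rw [this, Nat.add_mul_div_left _ _ hP]

theorem bad_period (R M0 M1 m rho : ℕ) (Ms Ms1 : Finset ℕ) (hR : 0 < R) (h0 : 0 < M0)
    (h1 : 0 < M1) (hMs : ∀ k ∈ Ms, k ∣ M0) (hMs1 : ∀ k ∈ Ms1, k ∣ M1) (n : ℕ) :
    Bad R M0 M1 m rho Ms Ms1 (n + PP R M0 M1 m) ↔ Bad R M0 M1 m rho Ms Ms1 n := by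
  have e0 : (n + PP R M0 M1 m) % (R * M0) = n % (R * M0) := by
    unfold PP
    exact Nat.add_mul_mod_self_left _ _ _
  have e1 : ∀ k ∈ Ms, (k ∣ n + PP R M0 M1 m ↔ k ∣ n) := by
    intro k hk
    have : k ∣ PP R M0 M1 m := by
      unfold PP
      exact Dvd.dvd.mul_right ((hMs k hk).mul_left R) _
    exact (Nat.dvd_add_iff_left this).symm
  have e2 : ∀ l < m, ((n + PP R M0 M1 m) / PP R M0 M1 l) % (R * M1)
      = (n / PP R M0 M1 l) % (R * M1) := by
    intro l hl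
    obtain ⟨j, hj⟩ := div_PP_mod (Q := R * M1) hl (dvd_refl _) (PP_pos hR h0 h1 l) n
    rw [hj, Nat.add_mul_mod_self_left]
  have e3 : ∀ l < m, Ms1.filter (· ∣ (n + PP R M0 M1 m) / PP R M0 M1 l)
      = Ms1.filter (· ∣ n / PP R M0 M1 l) := by
    intro l hl
    apply Finset.filter_congr
    intro k hk
    obtain ⟨j, hj⟩ := div_PP_mod (Q := k) hl ((hMs1 k hk).mul_left R) (PP_pos hR h0 h1 l) n
    rw [hj]
    exact (Nat.dvd_add_iff_left (dvd_mul_right k j)).symm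
  unfold Bad
  rw [e0]
  refine or_congr Iff.rfl (or_congr ?_ ?_)
  · exact exists_congr fun k => and_congr_right fun hk => e1 k hk
  · refine exists_congr fun l => and_congr_right fun hl => ?_
    rw [e2 l hl, e3 l hl]

/-! ### The count -/

open Classical in
theorem spoil' (m r K Mp R M0 M1 rho : ℕ) (Ms Ms1 : Finset ℕ) (hMp : 2^(K+10) ≤ Mp)
    (hR : 2^(K+10) ≤ R) (h0 : 2^(K+10) ≤ M0) (h1 : 2^(K+10) ≤ M1)
    (hMs : ∀ k ∈ Ms, 2^(K+10) ≤ k ∧ k ∣ M0) (hMs1 : ∀ k ∈ Ms1, 2^(K+10) ≤ k ∧ k ∣ M1)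
    (hc : Ms.card ≤ r) (hc1 : Ms1.card ≤ 32*rho) (hrho : 0 < rho) :
    ∃ (x : ℕ → ℕ) (T0 : ℕ), (∀ a < K, x a ≤ T0) ∧
      (∀ a b c d, a < K → b < K → c < K → d < K →
        (Mp:ℤ) ∣ ((x a:ℤ) - x b) - (x c - x d) → (a = c ∧ b = d) ∨ (a = b ∧ c = d)) ∧
      (∀ a b c d, a < K → b < K → c < K → d < K → a ≠ b →
        (x a + x d) % Mp = (x c + x b) % Mp → a = c ∧ b = d) ∧
      ∀ T, T0 ≤ T → (((Finset.range K ×ˢ Finset.range K).filter (fun ab => ab.1 ≠ ab.2 ∧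
        Bad R M0 M1 m rho Ms Ms1 ((T + x ab.1 - x ab.2) / Mp))).card ≤ 1 + r + 33*m) := by
  have p2 : ∀ n : ℕ, 0 < 2^n := fun n => by positivity
  have hMp0 : 0 < Mp := lt_of_lt_of_le (p2 _) hMp
  have hR0 : 0 < R := lt_of_lt_of_le (p2 _) hR
  have h00 : 0 < M0 := lt_of_lt_of_le (p2 _) h0
  have h10 : 0 < M1 := lt_of_lt_of_le (p2 _) h1
  have hR3 : 3 ≤ R := by
    have : 2^2 ≤ 2^(K+10) := Nat.pow_le_pow_right (by norm_num) (by omega)
    omega
  have hPP : ∀ l, 0 < PP R M0 M1 l := PP_pos hR0 h00 h10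
  -- decompositions
  obtain ⟨t0, ht0⟩ := A_tail Mp R M0 M1 0 m
  rw [Nat.zero_add, PP_zero] at ht0
  have hA0 : A Mp R M0 M1 0 = 1 + Mp + Mp * M0 := rfl
  have hG : A Mp R M0 M1 m = 1 + Mp * (1 + M0 + R * M0 * t0) := by
    rw [ht0, hA0]; ring
  have hgol : ∀ a b c d, a < K → b < K → c < K → d < K →
      (Mp:ℤ) ∣ ((xr Mp R M0 M1 m a:ℤ) - xr Mp R M0 M1 m b)
        - (xr Mp R M0 M1 m c - xr Mp R M0 M1 m d) → (a = c ∧ b = d) ∨ (a = b ∧ c = d) :=
    fun a b c d ha hb hc hd h => golomb hG hMp ha hb hc hd h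
  refine ⟨xr Mp R M0 M1 m, xr Mp R M0 M1 m K, ?_, hgol, ?_, ?_⟩
  · intro a ha
    unfold xr
    exact Nat.mul_le_mul_right _ (Nat.mul_le_mul_left _ (Nat.pow_le_pow_right (by norm_num) ha.le))
  · intro a b c d ha hb hc hd hab h
    have h2 : (Mp:ℤ) ∣ ((xr Mp R M0 M1 m a:ℤ) - xr Mp R M0 M1 m b)
        - (xr Mp R M0 M1 m c - xr Mp R M0 M1 m d) := by
      have h3 : ((xr Mp R M0 M1 m c + xr Mp R M0 M1 m b : ℕ) : ℤ)
          ≡ ((xr Mp R M0 M1 m a + xr Mp R M0 M1 m d : ℕ) : ℤ) [ZMOD (Mp:ℤ)] :=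
        (Int.natCast_modEq_iff.2 h).symm
      have h4 := h3.dvd
      have h5 : ((xr Mp R M0 M1 m a:ℤ) - xr Mp R M0 M1 m b)
        - (xr Mp R M0 M1 m c - xr Mp R M0 M1 m d)
        = ((xr Mp R M0 M1 m a + xr Mp R M0 M1 m d : ℕ) : ℤ)
          - ((xr Mp R M0 M1 m c + xr Mp R M0 M1 m b : ℕ) : ℤ) := by push_cast; ring
      rw [h5]; exact h4
    rcases hgol a b c d ha hb hc hd h2 with h6 | h6
    · exact h6
    · exact absurd h6.1 hab
  · intro T hT
    set x := xr Mp R M0 M1 m with hx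
    have hxT : ∀ a < K, x a ≤ T := by
      intro a ha
      refine le_trans ?_ hT
      rw [hx]; unfold xr
      exact Nat.mul_le_mul_right _
        (Nat.mul_le_mul_left _ (Nat.pow_le_pow_right (by norm_num) ha.le))
    set G : Finset (ℕ × ℕ) :=
      (Finset.range K ×ˢ Finset.range K).filter (fun ab => ab.1 ≠ ab.2) with hGd
    have hGm : ∀ ab ∈ G, ab.1 < K ∧ ab.2 < K ∧ ab.1 ≠ ab.2 := by
      intro ab hab
      rw [hGd, Finset.mem_filter, Finset.mem_product, Finset.mem_range, Finset.mem_range] at hab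
      exact ⟨hab.1.1, hab.1.2, hab.2⟩
    have uniq : ∀ (P : ℕ × ℕ → Prop) [DecidablePred P],
        (∀ a b c d, a < K → b < K → c < K → d < K → a ≠ b → P (a, b) → P (c, d) →
          a = c ∧ b = d) → (G.filter P).card ≤ 1 := by
      intro P _ hP
      rw [Finset.card_le_one]
      rintro ⟨a, b⟩ hab ⟨c, d⟩ hcd
      rw [Finset.mem_filter] at hab hcd
      obtain ⟨g1, g2, g3⟩ := hGm _ hab.1
      obtain ⟨g4, g5, _⟩ := hGm _ hcd.1
      obtain ⟨e1, e2⟩ := hP a b c d g1 g2 g4 g5 g3 hab.2 hcd.2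
      rw [e1, e2]
    let N : ℕ × ℕ → ℕ := fun ab => T + x ab.1 - x ab.2
    let S0 := G.filter (fun ab => (N ab / Mp) % (R*M0) < M0 ∨ R*M0 ≤ (N ab / Mp) % (R*M0) + M0)
    let S1 : ℕ → Finset (ℕ × ℕ) := fun k => G.filter (fun ab => k ∣ N ab / Mp)
    let S2 : ℕ → Finset (ℕ × ℕ) := fun l => G.filter (fun ab =>
      (N ab / (Mp * PP R M0 M1 l)) % (R*M1) < M1 ∨
        R*M1 ≤ (N ab / (Mp * PP R M0 M1 l)) % (R*M1) + M1)
    let S3 : ℕ → Finset (ℕ × ℕ) := fun l => G.filter (fun ab =>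
      rho ≤ (Ms1.filter (· ∣ N ab / (Mp * PP R M0 M1 l))).card)
    have c0 : S0.card ≤ 1 := by
      apply uniq
      intro a b c d ha hb hc hd hab k1 k2
      refine one_digit (K := K) (X := Mp) (M := M0) (s := A Mp R M0 M1 0) (Q := R*M0) (t := t0)
        (by rw [ht0]; ring) hMp0 h00 ?_ ?_ (Nat.mul_le_mul_right _ hR) ha hb hc hd hab
        (hxT b hb) (hxT d hd) k1 k2
      · rw [hA0]; omega
      · rw [hA0]
        have h2 : 1 ≤ Mp * M0 := Nat.mul_pos hMp0 h00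
        have h3 : Mp ≤ Mp * M0 := Nat.le_mul_of_pos_right _ h00
        omega
    have c1 : ∀ k ∈ Ms, (S1 k).card ≤ 1 := by
      intro k hk
      obtain ⟨hk1, u, hu⟩ := hMs k hk
      apply uniq
      intro a b c d ha hb hc hd hab k1 k2
      refine one_dvd (K := K) (X := Mp) (s := 1 + Mp) (k := k) (t := u + R * u * t0)
        (by rw [ht0, hA0, hu]; ring) hMp0 (by omega) (by omega) hk1 ha hb hc hd hab
        (hxT b hb) (hxT d hd) k1 k2
    have hlev : ∀ l < m, ∃ t, A Mp R M0 M1 m = A Mp R M0 M1 (l+1) + Mp * PP R M0 M1 (l+1) * t := by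
      intro l hl
      obtain ⟨t, ht⟩ := A_tail Mp R M0 M1 (l+1) (m - (l+1))
      rw [show l + 1 + (m - (l+1)) = m by omega] at ht
      exact ⟨t, ht⟩
    have hAs : ∀ l, A Mp R M0 M1 (l+1) = A Mp R M0 M1 l + Mp * PP R M0 M1 l
      + Mp * PP R M0 M1 l * M1 := fun l => rfl
    have c2 : ∀ l < m, (S2 l).card ≤ 1 := by
      intro l hl
      obtain ⟨t, ht⟩ := hlev l hl
      have hX : 0 < Mp * PP R M0 M1 l := Nat.mul_pos hMp0 (hPP l)
      have hAl := A_le (Mp := Mp) hMp0 hR3 h00 h10 l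
      apply uniq
      intro a b c d ha hb hc hd hab k1 k2
      refine one_digit (K := K) (X := Mp * PP R M0 M1 l) (M := M1) (s := A Mp R M0 M1 (l+1))
        (Q := R*M1) (t := t)
        (by rw [ht, PP_succ]; ring) hX h10 ?_ ?_ (Nat.mul_le_mul_right _ hR) ha hb hc hd hab
        (hxT b hb) (hxT d hd) k1 k2
      · rw [hAs]; omega
      · rw [hAs]
        have h3 : Mp * PP R M0 M1 l ≤ Mp * PP R M0 M1 l * M1 := Nat.le_mul_of_pos_right _ h10
        omega
    have c3 : ∀ l < m, (S3 l).card ≤ 32 := by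
      intro l hl
      obtain ⟨t, ht⟩ := hlev l hl
      have hX : 0 < Mp * PP R M0 M1 l := Nat.mul_pos hMp0 (hPP l)
      have hAl := A_le (Mp := Mp) hMp0 hR3 h00 h10 l
      have key := Finset.card_mul_le_card_mul (s := S3 l) (t := Ms1) (m := rho) (n := 1)
        (fun (ab : ℕ × ℕ) (k : ℕ) => k ∣ N ab / (Mp * PP R M0 M1 l))
        (by
          intro ab hab
          have := (Finset.mem_filter.1 hab).2
          exact this)
        (by
          intro k hk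
          obtain ⟨hk1, u, hu⟩ := hMs1 k hk
          refine le_trans (Finset.card_le_card ?_)
            (uniq (fun ab => k ∣ N ab / (Mp * PP R M0 M1 l)) ?_)
          · intro ab hab
            rw [Finset.mem_bipartiteBelow] at hab
            exact Finset.mem_filter.2 ⟨(Finset.mem_filter.1 hab.1).1, hab.2⟩
          · intro a b c d ha hb hc hd hab k1 k2
            refine one_dvd (K := K) (X := Mp * PP R M0 M1 l)
              (s := A Mp R M0 M1 l + Mp * PP R M0 M1 l) (k := k) (t := u + R * u * t)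
              (by rw [ht, PP_succ, hAs, hu]; ring) hX (by omega) (by omega) hk1 ha hb hc hd hab
              (hxT b hb) (hxT d hd) k1 k2)
      have : (S3 l).card * rho ≤ 32 * rho := by
        calc (S3 l).card * rho ≤ Ms1.card * 1 := key
          _ ≤ 32 * rho := by omega
      exact Nat.le_of_mul_le_mul_right this hrho
    -- union bound
    have hsub : (Finset.range K ×ˢ Finset.range K).filter (fun ab => ab.1 ≠ ab.2 ∧
        Bad R M0 M1 m rho Ms Ms1 ((T + x ab.1 - x ab.2) / Mp)) ⊆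
        S0 ∪ (Ms.biUnion S1 ∪ (Finset.range m).biUnion (fun l => S2 l ∪ S3 l)) := by
      intro ab hab
      rw [Finset.mem_filter] at hab
      obtain ⟨hab1, hab2, hbad⟩ := hab
      have hGab : ab ∈ G := Finset.mem_filter.2 ⟨hab1, hab2⟩
      rcases hbad with hb | ⟨k, hk, hb⟩ | ⟨l, hl, hb⟩
      · exact Finset.mem_union_left _ (Finset.mem_filter.2 ⟨hGab, hb⟩)
      · refine Finset.mem_union_right _ (Finset.mem_union_left _ ?_)
        exact Finset.mem_biUnion.2 ⟨k, hk, Finset.mem_filter.2 ⟨hGab, hb⟩⟩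
      · refine Finset.mem_union_right _ (Finset.mem_union_right _ ?_)
        refine Finset.mem_biUnion.2 ⟨l, Finset.mem_range.2 hl, ?_⟩
        rw [Nat.div_div_eq_div_mul] at hb
        rcases hb with hb | hb
        · exact Finset.mem_union_left _ (Finset.mem_filter.2 ⟨hGab, hb⟩)
        · exact Finset.mem_union_right _ (Finset.mem_filter.2 ⟨hGab, hb⟩)
    have u1 : (Ms.biUnion S1).card ≤ Ms.card * 1 := Finset.card_biUnion_le_card_mul _ _ _ c1
    have u2 : ((Finset.range m).biUnion (fun l => S2 l ∪ S3 l)).card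
        ≤ (Finset.range m).card * 33 := by
      apply Finset.card_biUnion_le_card_mul
      intro l hl
      have hl' := Finset.mem_range.1 hl
      refine le_trans (Finset.card_union_le _ _) ?_
      have := c2 l hl'
      have := c3 l hl'
      omega
    rw [Finset.card_range] at u2
    calc _ ≤ _ := Finset.card_le_card hsub
      _ ≤ S0.card + ((Ms.biUnion S1).card
          + ((Finset.range m).biUnion (fun l => S2 l ∪ S3 l)).card) :=
        le_trans (Finset.card_union_le _ _) (Nat.add_le_add_left (Finset.card_union_le _ _) _)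
      _ ≤ 1 + r + 33 * m := by omega

open Classical in
/-- 638's literal statement of leaf U4. -/
theorem spoil (m r K Mp R M0 M1 rho : ℕ) (Ms Ms1 : Finset ℕ) (hMp : 2^(K+10) ≤ Mp)
    (hR : 2^(K+10) ≤ R) (h0 : 2^(K+10) ≤ M0) (h1 : 2^(K+10) ≤ M1)
    (hMs : ∀ k ∈ Ms, 2^(K+10) ≤ k ∧ k ∣ M0) (hMs1 : ∀ k ∈ Ms1, 2^(K+10) ≤ k ∧ k ∣ M1)
    (hc : Ms.card ≤ r) (hc1 : Ms1.card ≤ 32*rho) (hrho : 0 < rho) :
    ∃ (x : ℕ → ℕ) (T0 : ℕ),
      (∀ a b c d, a < K → b < K → c < K → d < K →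
        (Mp:ℤ) ∣ ((x a:ℤ) - x b) - (x c - x d) → (a = c ∧ b = d) ∨ (a = b ∧ c = d)) ∧
      ∀ T, T0 ≤ T → (((Finset.range K ×ˢ Finset.range K).filter (fun ab => ab.1 ≠ ab.2 ∧
        Bad R M0 M1 m rho Ms Ms1 ((T + x ab.1 - x ab.2) / Mp))).card ≤ 2 + r + 34*m) := by
  obtain ⟨x, T0, -, hg, -, hs⟩ := spoil' m r K Mp R M0 M1 rho Ms Ms1 hMp hR h0 h1 hMs hMs1 hc hc1
    hrho
  exact ⟨x, T0, hg, fun T hT => le_trans (hs T hT) (by omega)⟩

end Crest.Agent.R320.Spoil_683
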