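import Mathlib

/-!
Row 320, TEAM U, leaf U4 (helper638 #13273): the spoil count of the U-gadget.
-/
namespace Crest.Agent.R320.Spoil_716

def PP (R M0 M1 l : ℕ) : ℕ := (R*M0) * (R*M1)^l
def beta (R M0 M1 m n l : ℕ) : ℕ := PP R M0 M1 m * (3*l+2) + n % PP R M0 M1 l
def Bad (R M0 M1 m rho : ℕ) (Ms Ms1 : Finset ℕ) (n : ℕ) : Prop :=
  (n % (R*M0) < M0 ∨ R*M0 ≤ n % (R*M0) + M0) ∨ (∃ k ∈ Ms, k ∣ n) ∨
    ∃ l < m, ((n / PP R M0 M1 l) % (R*M1) < M1 ∨ R*M1 ≤ (n / PP R M0 M1 l) % (R*M1) + M1) ∨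
      rho ≤ (Ms1.filter (· ∣ n / PP R M0 M1 l)).card

/-- Powers of two form a Golomb ruler. -/
theorem pow_golomb {a b c d : ℕ} (h : ((2:ℤ)^a - 2^b) = 2^c - 2^d) :
    (a = c ∧ b = d) ∨ (a = b ∧ c = d) := by
  have h1 : (2:ℕ)^a + 2^d = 2^c + 2^b := by
    have : (2:ℤ)^a + 2^d = 2^c + 2^b := by linarith
    exact_mod_cast this
  have mono : ∀ {u v : ℕ}, u < v → (2:ℕ)^u < 2^v := fun h => Nat.pow_lt_pow_right (by norm_num) h
  have dbl : ∀ {u v : ℕ}, u < v → 2 * (2:ℕ)^u ≤ 2^v := fun {u v} h => by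
    calc 2 * (2:ℕ)^u = 2^(u+1) := by ring
      _ ≤ 2^v := Nat.pow_le_pow_right (by norm_num) h
  have pos : ∀ u : ℕ, 0 < (2:ℕ)^u := fun u => by positivity
  have pa := pos a
  have pb := pos b
  have pc := pos c
  have pd := pos d
  rcases lt_trichotomy a c with hac | hac | hac
  · -- a < c
    rcases lt_trichotomy d b with hdb | hdb | hdb
    · have := mono hac; have := mono hdb; omega
    · subst hdb; have := mono hac; omega
    · -- b < d
      rcases lt_trichotomy c d with hcd | hcd | hcd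
      · -- c < d, b < d:  2^c + 2^b ≤ 2^d < 2^a + 2^d
        have := dbl hcd; have := dbl hdb; omega
      · subst hcd
        -- 2^a = 2^b
        right
        refine ⟨?_, rfl⟩
        have : (2:ℕ)^a = 2^b := by omega
        exact Nat.pow_right_injective (le_refl 2) this
      · -- d < c, a < c
        have := dbl hcd; have := dbl hac; omega
  · subst hac
    left
    refine ⟨rfl, ?_⟩
    have : (2:ℕ)^b = 2^d := by omega
    exact Nat.pow_right_injective (le_refl 2) this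
  · -- c < a
    rcases lt_trichotomy b d with hbd | hbd | hbd
    · have := mono hac; have := mono hbd; omega
    · subst hbd; have := mono hac; omega
    · -- d < b
      rcases lt_trichotomy a b with hab | hab | hab
      · have := dbl hab; have := dbl hbd; omega
      · subst hab
        right
        refine ⟨rfl, ?_⟩
        have : (2:ℕ)^c = 2^d := by omega
        exact Nat.pow_right_injective (le_refl 2) this
      · have := dbl hab; have := dbl hac; omega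

/-- `S l` = sum of all scales below `Mp * PP l`. -/
def S (Mp R M0 M1 l : ℕ) : ℕ :=
  1 + Mp + Mp * M0 + ∑ j ∈ Finset.range l, (Mp * PP R M0 M1 j + Mp * PP R M0 M1 j * M1)

theorem S_succ (Mp R M0 M1 l : ℕ) : S Mp R M0 M1 (l+1) =
    S Mp R M0 M1 l + (Mp * PP R M0 M1 l + Mp * PP R M0 M1 l * M1) := by
  unfold S
  rw [Finset.sum_range_succ]
  ring

theorem PP_succ (R M0 M1 l : ℕ) : PP R M0 M1 (l+1) = PP R M0 M1 l * (R * M1) := by
  unfold PP
  ring

theorem S_le (Mp R M0 M1 : ℕ) (hMp : 2 ≤ Mp) (hR : 2 ≤ R) (h0 : 2 ≤ M0) (h1 : 2 ≤ M1) (l : ℕ) :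
    S Mp R M0 M1 l ≤ Mp * PP R M0 M1 l := by
  induction l with
  | zero =>
    simp only [S, PP, Finset.range_zero, Finset.sum_empty, pow_zero, mul_one, add_zero]
    have h2 : 2 * Mp ≤ Mp * M0 := by nlinarith
    have h3 : 2 * (Mp * M0) ≤ Mp * (R * M0) := by
      have : Mp * (R * M0) = R * (Mp * M0) := by ring
      rw [this]
      exact Nat.mul_le_mul_right _ hR
    omega
  | succ l ih =>
    rw [S_succ, PP_succ]
    set P := Mp * PP R M0 M1 l with hP
    have h2 : 2 * P ≤ P * M1 := by nlinarith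
    have h3 : 2 * (P * M1) ≤ Mp * (PP R M0 M1 l * (R * M1)) := by
      have : Mp * (PP R M0 M1 l * (R * M1)) = R * (P * M1) := by rw [hP]; ring
      rw [this]
      exact Nat.mul_le_mul_right _ hR
    omega

theorem S_dvd (Mp R M0 M1 : ℕ) {l m : ℕ} (h : l ≤ m) :
    ∃ q, S Mp R M0 M1 m = S Mp R M0 M1 l + Mp * PP R M0 M1 l * q := by
  induction m, h using Nat.le_induction with
  | base => exact ⟨0, by simp⟩
  | succ m hm ih =>
    obtain ⟨q, hq⟩ := ih
    rw [S_succ, hq]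
    obtain ⟨p, hp⟩ : ∃ p, PP R M0 M1 m = PP R M0 M1 l * p := by
      refine ⟨(R*M1)^(m-l), ?_⟩
      show (R*M0) * (R*M1)^m = (R*M0) * (R*M1)^l * (R*M1)^(m-l)
      rw [mul_assoc (R*M0), ← pow_add, Nat.add_sub_cancel' hm]
    rw [hp]
    exact ⟨q + (p + p * M1), by ring⟩

/-- Two pairs which are both `w`-close to `0` modulo `Q` are equal. -/
theorem pair_unique {K w Q σ Sg : ℕ} (hσ : w ≤ σ) (hQ : 2^(K+6) * σ ≤ Q) (hw : 0 < w)
    (hS : ∃ q, Sg = σ + Q * q) {a b c d T : ℕ} (ha : a < K) (hb : b < K) (hc : c < K) (hd : d < K)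
    (hab : a ≠ b)
    (hT : ∀ e < K, 16 * 2^e * Sg ≤ T)
    (h1 : ∃ j : ℤ, |((T + 16*2^a*Sg - 16*2^b*Sg : ℕ) : ℤ) - Q * j| ≤ w)
    (h2 : ∃ j : ℤ, |((T + 16*2^c*Sg - 16*2^d*Sg : ℕ) : ℤ) - Q * j| ≤ w) :
    a = c ∧ b = d := by
  obtain ⟨q, hq⟩ := hS
  obtain ⟨j1, hj1⟩ := h1
  obtain ⟨j2, hj2⟩ := h2
  have hb' := hT b hb
  have hd' := hT d hd
  rw [Nat.cast_sub (by omega)] at hj1 hj2
  push_cast at hj1 hj2
  set δ : ℤ := ((2:ℤ)^a - 2^b) - (2^c - 2^d) with hδ
  have hpow : ∀ e < K, (2:ℤ)^e ≤ 2^K := fun e he =>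
    pow_le_pow_right₀ (by norm_num) he.le
  have hpos : ∀ e : ℕ, (0:ℤ) < 2^e := fun e => by positivity
  have hδb : |δ| ≤ 2 * 2^K := by
    have := hpow a ha; have := hpow b hb; have := hpow c hc; have := hpow d hd
    have := hpos a; have := hpos b; have := hpos c; have := hpos d
    rw [abs_le]
    constructor <;> omega
  have hkey : |16 * δ * σ - Q * (j1 - j2 - 16 * δ * q)| ≤ 2 * w := by
    have e : 16 * δ * σ - Q * (j1 - j2 - 16 * δ * q) =
        ((T:ℤ) + 16*2^a*Sg - 16*2^b*Sg - Q * j1) - ((T:ℤ) + 16*2^c*Sg - 16*2^d*Sg - Q * j2) := by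
      rw [hδ, hq]
      push_cast
      ring
    rw [e]
    have := abs_sub ((T:ℤ) + 16*2^a*Sg - 16*2^b*Sg - Q * j1) ((T:ℤ) + 16*2^c*Sg - 16*2^d*Sg - Q * j2)
    linarith
  have hδσ : |16 * δ * (σ:ℤ)| ≤ 2^(K+5) * σ := by
    rw [abs_mul, abs_mul, Nat.abs_cast]
    have : (16:ℤ) * |δ| ≤ 2^(K+5) := by
      have e : (2:ℤ)^(K+5) = 16 * (2 * 2^K) := by ring
      rw [e]
      linarith
    have h16 : |(16:ℤ)| = 16 := by norm_num
    rw [h16]
    exact mul_le_mul_of_nonneg_right this (by positivity)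
  have hσ0 : (0:ℤ) < σ := by exact_mod_cast lt_of_lt_of_le hw hσ
  have hQ' : (2:ℤ)^(K+6) * σ ≤ Q := by exact_mod_cast hQ
  have hwσ : (w:ℤ) ≤ σ := by exact_mod_cast hσ
  set J : ℤ := j1 - j2 - 16 * δ * q with hJ
  have hQJ : |(Q:ℤ) * J| < Q := by
    have h1 : |(Q:ℤ) * J| ≤ |16 * δ * (σ:ℤ)| + |16 * δ * σ - Q * J| := by
      have : (Q:ℤ) * J = 16 * δ * σ - (16 * δ * σ - Q * J) := by ring
      calc |(Q:ℤ) * J| = |16 * δ * σ - (16 * δ * σ - Q * J)| := by rw [← this]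
        _ ≤ _ := abs_sub _ _
    have h2 : (2:ℤ)^(K+6) = 2 * 2^(K+5) := by ring
    have h3 : (32:ℤ) ≤ 2^(K+5) := by
      have : (2:ℤ)^(K+5) = 32 * 2^K := by ring
      rw [this]
      have := hpos K
      have : (1:ℤ) ≤ 2^K := by omega
      linarith
    have h4 : (2:ℤ)^(K+5) * σ + 2 * σ < 2^(K+6) * σ := by
      rw [h2]
      nlinarith
    linarith
  have hJ0 : J = 0 := by
    by_contra hne
    have h1 : (1:ℤ) ≤ |J| := Int.one_le_abs hne
    rw [abs_mul, Nat.abs_cast] at hQJ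
    have : (0:ℤ) ≤ Q := by positivity
    nlinarith
  rw [hJ0, mul_zero, sub_zero, abs_mul, abs_mul, Nat.abs_cast] at hkey
  have hδ0 : δ = 0 := by
    by_contra hne
    have h1 : (1:ℤ) ≤ |δ| := Int.one_le_abs hne
    have h16 : |(16:ℤ)| = 16 := by norm_num
    rw [h16] at hkey
    nlinarith
  have hfin : (2:ℤ)^a - 2^b = 2^c - 2^d := by
    rw [hδ] at hδ0
    linarith
  rcases pow_golomb hfin with h | h
  · exact h
  · exact absurd h.1 hab

/-- A thin digit condition on `y / D` = closeness of `y` to a multiple of `D * Md`. -/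
theorem near {D Md t y : ℕ} (hD : 0 < D) (hM : 0 < Md) (ht : 0 < t)
    (h : (y / D) % Md < t ∨ Md ≤ (y / D) % Md + t) :
    ∃ j : ℤ, |(y : ℤ) - (D * Md : ℕ) * j| ≤ (D * t : ℕ) := by
  set n := y / D with hn
  set s := y % D with hs
  have hy : y = D * n + s := (Nat.div_add_mod y D).symm
  have hsD : s < D := Nat.mod_lt _ hD
  set q := n / Md with hq
  set r := n % Md with hr
  have hnn : n = Md * q + r := (Nat.div_add_mod n Md).symm
  have hrM : r < Md := Nat.mod_lt _ hM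
  have hyy : (y:ℤ) = D * (Md * q + r) + s := by
    rw [hy]
    push_cast
    rw [hnn]
    push_cast
    ring
  have hs' : (s:ℤ) < D := by exact_mod_cast hsD
  have hs0 : (0:ℤ) ≤ s := by positivity
  have hD' : (0:ℤ) < D := by exact_mod_cast hD
  rcases h with h | h
  · refine ⟨q, ?_⟩
    have h' : (r:ℤ) + 1 ≤ t := by exact_mod_cast h
    have hr0 : (0:ℤ) ≤ r := by positivity
    have e : (y:ℤ) - (D * Md : ℕ) * q = D * r + s := by
      rw [hyy]; push_cast; ring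
    rw [e]
    push_cast
    rw [abs_le]
    constructor
    · nlinarith
    · nlinarith
  · refine ⟨q + 1, ?_⟩
    have h' : (Md:ℤ) ≤ r + t := by exact_mod_cast h
    have h'' : (r:ℤ) + 1 ≤ Md := by exact_mod_cast hrM
    have e : (y:ℤ) - (D * Md : ℕ) * (q + 1) = D * r + s - D * Md := by
      rw [hyy]; push_cast; ring
    rw [e]
    push_cast
    rw [abs_le]
    constructor
    · nlinarith
    · nlinarith

/-- The ruler. -/
def xs (Mp R M0 M1 m a : ℕ) : ℕ := 16 * 2^a * S Mp R M0 M1 m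

theorem S_pos (Mp R M0 M1 m : ℕ) : 0 < S Mp R M0 M1 m := by
  unfold S
  positivity

/-- **U4, set form.** -/
theorem spoil_set (m r K Mp R M0 M1 rho : ℕ) (Ms Ms1 : Finset ℕ) (hMp : 2^(K+10) ≤ Mp)
    (hR : 2^(K+10) ≤ R) (h0 : 2^(K+10) ≤ M0) (h1 : 2^(K+10) ≤ M1)
    (hMs : ∀ k ∈ Ms, 2^(K+10) ≤ k ∧ k ∣ M0) (hMs1 : ∀ k ∈ Ms1, 2^(K+10) ≤ k ∧ k ∣ M1)
    (hc : Ms.card ≤ r) (hc1 : Ms1.card ≤ 32*rho) (hrho : 0 < rho)
    (T : ℕ) (hT : 16 * 2^K * S Mp R M0 M1 m ≤ T) (F : Finset (ℕ × ℕ))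
    (hF : ∀ ab ∈ F, ab.1 < K ∧ ab.2 < K ∧ ab.1 ≠ ab.2 ∧
      Bad R M0 M1 m rho Ms Ms1 ((T + xs Mp R M0 M1 m ab.1 - xs Mp R M0 M1 m ab.2) / Mp)) :
    F.card ≤ 1 + r + 33 * m := by
  classical
  have hbig : (1024:ℕ) ≤ 2^(K+10) := by
    calc (1024:ℕ) = 2^10 := by norm_num
      _ ≤ 2^(K+10) := Nat.pow_le_pow_right (by norm_num) (by omega)
  have hMp2 : 2 ≤ Mp := by omega
  have hR2 : 2 ≤ R := by omega
  have h02 : 2 ≤ M0 := by omega
  have h12 : 2 ≤ M1 := by omega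
  have hPP : ∀ l, 0 < PP R M0 M1 l := fun l => by unfold PP; positivity
  have hT' : ∀ e < K, 16 * 2^e * S Mp R M0 M1 m ≤ T := fun e he => le_trans
    (Nat.mul_le_mul_right _ (Nat.mul_le_mul_left _ (Nat.pow_le_pow_right (by norm_num) he.le))) hT
  have hpw : (2:ℕ)^(K+10) = 16 * 2^(K+6) := by ring
  let Y : ℕ × ℕ → ℕ := fun ab => T + xs Mp R M0 M1 m ab.1 - xs Mp R M0 M1 m ab.2
  -- generic uniqueness
  have uniq : ∀ (D Md t σ : ℕ), 0 < D → 0 < Md → 0 < t → D * t ≤ σ → σ ≤ 2 * (D * t) →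
      2^(K+10) * t ≤ Md → (∃ q, S Mp R M0 M1 m = σ + (D * Md) * q) →
      (F.filter (fun ab => (Y ab / D) % Md < t ∨ Md ≤ (Y ab / D) % Md + t)).card ≤ 1 := by
    intro D Md t σ hD hM ht hs1 hs2 hMd hq
    rw [Finset.card_le_one]
    rintro ⟨a, b⟩ hab ⟨c, d⟩ hcd
    rw [Finset.mem_filter] at hab hcd
    obtain ⟨hab, hab'⟩ := hab
    obtain ⟨hcd, hcd'⟩ := hcd
    obtain ⟨ha, hb, hne, -⟩ := hF _ hab
    obtain ⟨hc, hd, hne', -⟩ := hF _ hcd
    have hQ : 2^(K+6) * σ ≤ D * Md := by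
      calc 2^(K+6) * σ ≤ 2^(K+6) * (2 * (D * t)) := Nat.mul_le_mul_left _ hs2
        _ ≤ D * (2^(K+10) * t) := by
            rw [hpw]
            have : D * (16 * 2^(K+6) * t) = 8 * (2^(K+6) * (2 * (D * t))) := by ring
            rw [this]
            omega
        _ ≤ D * Md := Nat.mul_le_mul_left _ hMd
    have := pair_unique (w := D * t) (Q := D * Md) hs1 hQ (by positivity) hq ha hb hc hd hne hT'
      (near hD hM ht hab') (near hD hM ht hcd')
    exact Prod.ext this.1 this.2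
  have dv1 : ∀ {k n : ℕ}, k ∣ n → n % k < 1 ∨ k ≤ n % k + 1 := fun h => by
    left
    rw [Nat.mod_eq_zero_of_dvd h]
    exact one_pos
  -- the four families
  set FA := F.filter (fun ab => (Y ab / Mp) % (R*M0) < M0 ∨ R*M0 ≤ (Y ab / Mp) % (R*M0) + M0) with hFA
  let FB : ℕ → Finset (ℕ × ℕ) := fun k => F.filter (fun ab => (Y ab / Mp) % k < 1 ∨ k ≤ (Y ab / Mp) % k + 1)
  let FC : ℕ → Finset (ℕ × ℕ) := fun l => F.filter (fun ab =>
    (Y ab / (Mp * PP R M0 M1 l)) % (R*M1) < M1 ∨ R*M1 ≤ (Y ab / (Mp * PP R M0 M1 l)) % (R*M1) + M1)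
  let FD : ℕ → Finset (ℕ × ℕ) := fun l => F.filter (fun ab =>
    rho ≤ (Ms1.filter (· ∣ Y ab / (Mp * PP R M0 M1 l))).card)
  have hcA : FA.card ≤ 1 := by
    refine uniq Mp (R*M0) M0 (S Mp R M0 M1 0) (by omega) (by positivity) (by omega) ?_ ?_ ?_ ?_
    · simp [S]
    · simp only [S, Finset.range_zero, Finset.sum_empty, add_zero]
      have : 2 * Mp ≤ Mp * M0 := by nlinarith
      omega
    · exact Nat.mul_le_mul_right _ hR
    · obtain ⟨q, hq⟩ := S_dvd Mp R M0 M1 (Nat.zero_le m)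
      exact ⟨q, by rw [hq]; simp [PP]⟩
  have hcB : ∀ k ∈ Ms, (FB k).card ≤ 1 := by
    intro k hk
    obtain ⟨hk1, p, hp⟩ := hMs k hk
    refine uniq Mp k 1 (1 + Mp) (by omega) (by omega) (by omega) (by omega) (by omega) (by omega) ?_
    obtain ⟨q, hq⟩ := S_dvd Mp R M0 M1 (Nat.zero_le m)
    refine ⟨p * (1 + R * q), ?_⟩
    rw [hq]
    simp only [S, PP, Finset.range_zero, Finset.sum_empty, pow_zero, mul_one, add_zero]
    rw [hp]
    ring
  have hcC : ∀ l ∈ Finset.range m, (FC l).card ≤ 1 := by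
    intro l hl
    rw [Finset.mem_range] at hl
    have hPl := hPP l
    have hSl := S_le Mp R M0 M1 hMp2 hR2 h02 h12 l
    refine uniq (Mp * PP R M0 M1 l) (R*M1) M1 (S Mp R M0 M1 (l+1)) (by positivity) (by positivity)
      (by omega) ?_ ?_ ?_ ?_
    · rw [S_succ]; omega
    · rw [S_succ]
      have : 2 * (Mp * PP R M0 M1 l) ≤ (Mp * PP R M0 M1 l) * M1 := by nlinarith
      omega
    · exact Nat.mul_le_mul_right _ hR
    · obtain ⟨q, hq⟩ := S_dvd Mp R M0 M1 (show l+1 ≤ m by omega)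
      exact ⟨q, by rw [hq, PP_succ]; ring⟩
  have hcDk : ∀ l ∈ Finset.range m, ∀ k ∈ Ms1, (F.filter (fun ab =>
      (Y ab / (Mp * PP R M0 M1 l)) % k < 1 ∨ k ≤ (Y ab / (Mp * PP R M0 M1 l)) % k + 1)).card ≤ 1 := by
    intro l hl k hk
    rw [Finset.mem_range] at hl
    obtain ⟨hk1, p, hp⟩ := hMs1 k hk
    have hPl := hPP l
    have hSl := S_le Mp R M0 M1 hMp2 hR2 h02 h12 l
    refine uniq (Mp * PP R M0 M1 l) k 1 (S Mp R M0 M1 l + Mp * PP R M0 M1 l) (by positivity)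
      (by omega) (by omega) (by omega) (by omega) (by omega) ?_
    obtain ⟨q, hq⟩ := S_dvd Mp R M0 M1 (show l+1 ≤ m by omega)
    refine ⟨p * (1 + R * q), ?_⟩
    rw [hq, S_succ, PP_succ]
    rw [hp]
    ring
  have hcD : ∀ l ∈ Finset.range m, (FD l).card ≤ 32 := by
    intro l hl
    have key : (FD l).card * rho ≤ Ms1.card * 1 := by
      refine Finset.card_mul_le_card_mul (fun (ab : ℕ × ℕ) (k : ℕ) => k ∣ Y ab / (Mp * PP R M0 M1 l)) ?_ ?_
      · intro ab hab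
        exact (Finset.mem_filter.1 hab).2
      · intro k hk
        refine le_trans (Finset.card_le_card ?_) (hcDk l hl k hk)
        intro ab hab
        rw [Finset.mem_bipartiteBelow] at hab
        exact Finset.mem_filter.2 ⟨(Finset.mem_filter.1 hab.1).1, dv1 hab.2⟩
    have : (FD l).card * rho ≤ 32 * rho := by omega
    exact Nat.le_of_mul_le_mul_right this hrho
  have hsub : F ⊆ FA ∪ (Ms.biUnion FB ∪ (Finset.range m).biUnion (fun l => FC l ∪ FD l)) := by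
    intro ab hab
    obtain ⟨-, -, -, hbad⟩ := hF ab hab
    rcases hbad with h | ⟨k, hk, hkd⟩ | ⟨l, hl, h⟩
    · exact Finset.mem_union_left _ (Finset.mem_filter.2 ⟨hab, h⟩)
    · refine Finset.mem_union_right _ (Finset.mem_union_left _ ?_)
      exact Finset.mem_biUnion.2 ⟨k, hk, Finset.mem_filter.2 ⟨hab, dv1 hkd⟩⟩
    · refine Finset.mem_union_right _ (Finset.mem_union_right _ ?_)
      refine Finset.mem_biUnion.2 ⟨l, Finset.mem_range.2 hl, ?_⟩
      rw [Nat.div_div_eq_div_mul] at h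
      rcases h with h | h
      · exact Finset.mem_union_left _ (Finset.mem_filter.2 ⟨hab, h⟩)
      · exact Finset.mem_union_right _ (Finset.mem_filter.2 ⟨hab, h⟩)
  calc F.card ≤ _ := Finset.card_le_card hsub
    _ ≤ FA.card + (Ms.biUnion FB ∪ (Finset.range m).biUnion (fun l => FC l ∪ FD l)).card :=
        Finset.card_union_le _ _
    _ ≤ 1 + ((Ms.biUnion FB).card + ((Finset.range m).biUnion (fun l => FC l ∪ FD l)).card) :=
        Nat.add_le_add hcA (Finset.card_union_le _ _)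
    _ ≤ 1 + (Ms.card * 1 + (Finset.range m).card * 33) := by
        refine Nat.add_le_add_left (Nat.add_le_add ?_ ?_) _
        · exact Finset.card_biUnion_le_card_mul _ _ _ hcB
        · refine Finset.card_biUnion_le_card_mul _ _ _ ?_
          intro l hl
          have := Finset.card_union_le (FC l) (FD l)
          have := hcC l hl
          have := hcD l hl
          omega
    _ ≤ 1 + r + 33 * m := by
        rw [Finset.card_range]
        omega

open Classical in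
/-- **U4** (helper638 #13273, literal; the filter is classical). -/
theorem spoil (m r K Mp R M0 M1 rho : ℕ) (Ms Ms1 : Finset ℕ) (hMp : 2^(K+10) ≤ Mp)
    (hR : 2^(K+10) ≤ R) (h0 : 2^(K+10) ≤ M0) (h1 : 2^(K+10) ≤ M1)
    (hMs : ∀ k ∈ Ms, 2^(K+10) ≤ k ∧ k ∣ M0) (hMs1 : ∀ k ∈ Ms1, 2^(K+10) ≤ k ∧ k ∣ M1)
    (hc : Ms.card ≤ r) (hc1 : Ms1.card ≤ 32*rho) (hrho : 0 < rho) :
    ∃ (x : ℕ → ℕ) (T0 : ℕ), StrictMono x ∧ (∀ a ≤ K, x a ≤ T0) ∧
      (∀ a b c d, a < K → b < K → c < K → d < K →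
        (Mp:ℤ) ∣ ((x a:ℤ) - x b) - (x c - x d) → (a = c ∧ b = d) ∨ (a = b ∧ c = d)) ∧
      ∀ T, T0 ≤ T → (((Finset.range K ×ˢ Finset.range K).filter (fun ab => ab.1 ≠ ab.2 ∧
        Bad R M0 M1 m rho Ms Ms1 ((T + x ab.1 - x ab.2) / Mp))).card ≤ 2 + r + 34*m) := by
  have hSp := S_pos Mp R M0 M1 m
  refine ⟨xs Mp R M0 M1 m, 16 * 2^K * S Mp R M0 M1 m, ?_, ?_, ?_, ?_⟩
  · intro a b hab
    unfold xs
    have : (2:ℕ)^a < 2^b := Nat.pow_lt_pow_right (by norm_num) hab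
    exact Nat.mul_lt_mul_of_pos_right (by omega) hSp
  · intro a ha
    unfold xs
    exact Nat.mul_le_mul_right _ (Nat.mul_le_mul_left _ (Nat.pow_le_pow_right (by norm_num) ha))
  · intro a b c d ha hb hc hd hdv
    apply pow_golomb
    set δ : ℤ := ((2:ℤ)^a - 2^b) - (2^c - 2^d) with hδ
    have hS : ∃ q, S Mp R M0 M1 m = 1 + Mp * q := by
      obtain ⟨q, hq⟩ := S_dvd Mp R M0 M1 (Nat.zero_le m)
      refine ⟨1 + M0 + PP R M0 M1 0 * q, ?_⟩
      rw [hq]
      simp only [S, Finset.range_zero, Finset.sum_empty, add_zero]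
      ring
    obtain ⟨q, hq⟩ := hS
    have e : ((xs Mp R M0 M1 m a:ℕ):ℤ) - (xs Mp R M0 M1 m b:ℕ) -
        ((xs Mp R M0 M1 m c:ℕ) - (xs Mp R M0 M1 m d:ℕ)) = 16 * δ + Mp * (16 * δ * q) := by
      unfold xs
      rw [hq, hδ]
      push_cast
      ring
    rw [e] at hdv
    have hdv' : (Mp:ℤ) ∣ 16 * δ := (dvd_add_left (Dvd.intro _ rfl)).1 hdv
    have hpow : ∀ e < K, (2:ℤ)^e ≤ 2^K := fun e he =>
      pow_le_pow_right₀ (by norm_num) he.le
    have hpos : ∀ e : ℕ, (0:ℤ) < 2^e := fun e => by positivity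
    have hδb : |δ| ≤ 2 * 2^K := by
      have := hpow a ha; have := hpow b hb; have := hpow c hc; have := hpow d hd
      have := hpos a; have := hpos b; have := hpos c; have := hpos d
      rw [abs_le]
      constructor <;> omega
    have hMp' : (2:ℤ)^(K+10) ≤ Mp := by exact_mod_cast hMp
    have h10 : (2:ℤ)^(K+10) = 1024 * 2^K := by ring
    have hlt : |16 * δ| < Mp := by
      rw [abs_mul]
      have h16 : |(16:ℤ)| = 16 := by norm_num
      rw [h16]
      have := hpos K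
      linarith
    have h0' : 16 * δ = 0 := Int.eq_zero_of_abs_lt_dvd hdv' hlt
    have : δ = 0 := by omega
    rw [hδ] at this
    linarith
  · intro T hT
    refine le_trans (spoil_set m r K Mp R M0 M1 rho Ms Ms1 hMp hR h0 h1 hMs hMs1 hc hc1 hrho T hT _ ?_)
      (by omega)
    intro ab hab
    rw [Finset.mem_filter, Finset.mem_product, Finset.mem_range, Finset.mem_range] at hab
    exact ⟨hab.1.1, hab.1.2, hab.2.1, hab.2.2⟩

end Crest.Agent.R320.Spoil_716
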