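import Crest.Agent.R320.Thresh_997

/-!
Row 320: the promise ruler of 132 #12664 (3): at most `1 + 2 |ms| + (mm + 1)` elements of the
ruler are spoiled.  Pure integers.
-/

set_option autoImplicit false

namespace Crest.Agent.R320.Spoil_724

open Crest.Agent.R320.Thresh997

/-- badness of the base point `β` -/
def BadZ (Wo Ws : ℤ → Prop) (th : ℤ → ℤ) (M z N1 RR : ℤ) (mm : ℕ) (A : ℕ → ℤ) (ms : Finset ℤ)
    (β : ℤ) : Prop :=
  Ebad Wo th M z N1 β ∨ (∃ k, k ≤ mm ∧ ∃ w, Ws w ∧ |w - (β + A k)| ≤ RR) ∨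
    (∃ N, IsN Wo th M z β N ∧ ∃ m ∈ ms, m ∣ (N - β) / M)

theorem mod_lt_of_dvd {M m y : ℤ} (hM : 0 < M) (hm : 0 < m) (h : m ∣ y / M) :
    y % (m * M) < M := by
  obtain ⟨q, hq⟩ := h
  have e1 := Int.mul_ediv_add_emod y M
  have p1 := Int.emod_nonneg y hM.ne'
  have p2 := Int.emod_lt_of_pos y hM
  rw [hq] at e1
  have e2 : y = y % M + (m * M) * q := by
    have e3 : M * (m * q) = (m * M) * q := by ring
    linarith
  have hmM : M ≤ m * M := by nlinarith
  have e4 : y % (m * M) = y % M := by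
    calc y % (m * M) = (y % M + (m * M) * q) % (m * M) := by rw [← e2]
      _ = y % M := by
        rw [Int.add_mul_emod_self_left, Int.emod_eq_of_lt p1 (lt_of_lt_of_le p2 hmM)]
  rw [e4]
  exact p2

theorem spoil_card {Wo Ws : ℤ → Prop} {th : ℤ → ℤ} {M z N1 S Lam RR : ℤ} {mm : ℕ} {A : ℕ → ℤ}
    {ms : Finset ℤ} (hM : 0 < M) (hms : ∀ m ∈ ms, 0 < m)
    (hlo : ∀ r, -S + N1 ≤ th r) (hhi : ∀ r, th r ≤ S - N1) (hN1 : 0 ≤ N1)
    (hsep : ∀ t t' : ℤ, |th (t % M) - th (t' % M)| ≤ 2 * N1 + 2 * Lam → t % M = t' % M)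
    (hgapo : Gap Wo (2 * S + 2 * Lam)) (hgaps : Gap Ws (2 * Lam + 2 * RR))
    {K : ℕ} (c : Fin K → ℤ) (hspan : ∀ i j, |c i - c j| ≤ Lam)
    (hE : ∀ i j i' j', i ≠ j → M ∣ (c i - c j) - (c i' - c j') → i = i' ∧ j = j')
    (hB : ∀ m ∈ ms, ∀ y i j i' j', i ≠ j → (y - (c i - c j)) % (m * M) < M →
        (y - (c i' - c j')) % (m * M) < M → i = i' ∧ j = j')
    (hD : ∀ y i j i' j', i ≠ j → |y - (c i - c j)| ≤ 2 * RR → |y - (c i' - c j')| ≤ 2 * RR →
        i = i' ∧ j = j')
    {a t1 : ℤ} (ht1 : Wo t1) (ht1' : a + z + S + Lam ≤ t1)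
    (hfirst : ∀ t, Wo t → a + z + S + Lam ≤ t → t1 ≤ t)
    [DecidablePred fun i : Fin K => ∃ j, j ≠ i ∧ BadZ Wo Ws th M z N1 RR mm A ms (a + (c i - c j))] :
    (Finset.univ.filter fun i : Fin K =>
      ∃ j, j ≠ i ∧ BadZ Wo Ws th M z N1 RR mm A ms (a + (c i - c j))).card
      ≤ 1 + 2 * ms.card + (mm + 1) := by
  classical
  have hlo' : ∀ r, -S ≤ th r := fun r => by have := hlo r; linarith
  have hhi' : ∀ r, th r ≤ S := fun r => by have := hhi r; linarith
  -- the reasons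
  let Rs : Unit ⊕ (Bool × ms) ⊕ Fin (mm + 1) → Fin K → Fin K → Prop := fun r i j =>
    match r with
    | Sum.inl _ => Ebad Wo th M z N1 (a + (c i - c j))
    | Sum.inr (Sum.inl (true, m)) => ∃ N, N = t1 ∧ (m : ℤ) ∣ (N - (a + (c i - c j))) / M
    | Sum.inr (Sum.inl (false, m)) => ∃ N, Wo N ∧ a + z - S - Lam ≤ N ∧ N < a + z + S + Lam ∧
        (m : ℤ) ∣ (N - (a + (c i - c j))) / M
    | Sum.inr (Sum.inr k) => ∃ w, Ws w ∧ |w - (a + (c i - c j) + A k)| ≤ RR
  have huniq : ∀ r i j i' j', i ≠ j → Rs r i j → Rs r i' j' → i = i' := by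
    intro r i j i' j' hij h h'
    match r, h, h' with
    | Sum.inl _, h, h' =>
      have h1 : Ebad Wo th M z N1 (a - (c j - c i)) := by
        have e : a - (c j - c i) = a + (c i - c j) := by ring
        rw [e]; exact h
      have h2 : Ebad Wo th M z N1 (a - (c j' - c i')) := by
        have e : a - (c j' - c i') = a + (c i' - c j') := by ring
        rw [e]; exact h'
      have h3 := Ebad_near hlo hhi hsep hgapo (hspan j i) (hspan j' i') h1 h2
      refine (hE i j i' j' hij ?_).1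
      have h4 : M ∣ (c j - c i) - (c j' - c i') := Int.dvd_of_emod_eq_zero h3
      have e : (c i - c j) - (c i' - c j') = -((c j - c i) - (c j' - c i')) := by ring
      rw [e]
      exact (dvd_neg).2 h4
    | Sum.inr (Sum.inl (true, m)), ⟨N, hN, hh⟩, ⟨N', hN', hh'⟩ =>
      rw [hN] at hh
      rw [hN', ← hN] at hh'
      rw [← hN] at hh
      have h1 := mod_lt_of_dvd hM (hms m m.2) hh
      have h2 := mod_lt_of_dvd hM (hms m m.2) hh'
      refine (hB m m.2 (N - a) i j i' j' hij ?_ ?_).1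
      · have e : N - a - (c i - c j) = N - (a + (c i - c j)) := by ring
        rw [e]; exact h1
      · have e : N - a - (c i' - c j') = N - (a + (c i' - c j')) := by ring
        rw [e]; exact h2
    | Sum.inr (Sum.inl (false, m)), ⟨N, w1, w2, w3, h⟩, ⟨N', w1', w2', w3', h'⟩ =>
      have hNN : N = N' := by
        rcases lt_trichotomy N N' with hlt | heq | hgt
        · have := hgapo N N' w1 w1' hlt
          linarith
        · exact heq
        · have := hgapo N' N w1' w1 hgt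
          linarith
      subst hNN
      have h1 := mod_lt_of_dvd hM (hms m m.2) h
      have h2 := mod_lt_of_dvd hM (hms m m.2) h'
      refine (hB m m.2 (N - a) i j i' j' hij ?_ ?_).1
      · have e : N - a - (c i - c j) = N - (a + (c i - c j)) := by ring
        rw [e]; exact h1
      · have e : N - a - (c i' - c j') = N - (a + (c i' - c j')) := by ring
        rw [e]; exact h2
    | Sum.inr (Sum.inr k), ⟨w, hw, h⟩, ⟨w', hw', h'⟩ =>
      have h1 : |w - (a - (c j - c i) + A k)| ≤ RR := by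
        have e : a - (c j - c i) + A k = a + (c i - c j) + A k := by ring
        rw [e]; exact h
      have h2 : |w' - (a - (c j' - c i') + A k)| ≤ RR := by
        have e : a - (c j' - c i') + A k = a + (c i' - c j') + A k := by ring
        rw [e]; exact h'
      have h3 := small_near hgaps (hspan j i) (hspan j' i') hw hw' h1 h2
      have hRR : 0 ≤ RR := le_trans (abs_nonneg _) h
      refine (hD (c i - c j) i j i' j' hij ?_ ?_).1
      · rw [sub_self, abs_zero]; linarith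
      · have e : c i - c j - (c i' - c j') = -((c j - c i) - (c j' - c i')) := by ring
        rw [e, abs_neg]
        exact h3
  have hex : ∀ i j, BadZ Wo Ws th M z N1 RR mm A ms (a + (c i - c j)) → ∃ r, Rs r i j := by
    intro i j h
    rcases h with h | ⟨k, hk, w, hw, h⟩ | ⟨N, hN, m, hm, h⟩
    · exact ⟨Sum.inl (), h⟩
    · exact ⟨Sum.inr (Sum.inr ⟨k, by omega⟩), w, hw, h⟩
    · have hN' : IsN Wo th M z (a - (c j - c i)) N := by
        have e : a - (c j - c i) = a + (c i - c j) := by ring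
        rw [e]; exact hN
      rcases isN_near hlo' hhi' (hspan j i) ht1 ht1' hfirst hN' with h1 | ⟨h1, h2⟩
      · exact ⟨Sum.inr (Sum.inl (true, ⟨m, hm⟩)), N, h1, h⟩
      · exact ⟨Sum.inr (Sum.inl (false, ⟨m, hm⟩)), N, hN.1.1, h1, h2, h⟩
  -- choice of a reason
  have hch : ∀ i : Fin K, ∃ r : Unit ⊕ (Bool × ms) ⊕ Fin (mm + 1),
      (∃ j, j ≠ i ∧ BadZ Wo Ws th M z N1 RR mm A ms (a + (c i - c j))) →
        ∃ j, j ≠ i ∧ Rs r i j := by
    intro i
    by_cases h : ∃ j, j ≠ i ∧ BadZ Wo Ws th M z N1 RR mm A ms (a + (c i - c j))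
    · obtain ⟨j, hj, hb⟩ := h
      obtain ⟨r, hr⟩ := hex i j hb
      exact ⟨r, fun _ => ⟨j, hj, hr⟩⟩
    · exact ⟨Sum.inl (), fun h' => absurd h' h⟩
  choose g hg using hch
  have hcard : Fintype.card (Unit ⊕ (Bool × ms) ⊕ Fin (mm + 1)) = 1 + 2 * ms.card + (mm + 1) := by
    simp [Fintype.card_sum, Fintype.card_prod]
    ring
  rw [← hcard, ← Finset.card_univ]
  refine Finset.card_le_card_of_injOn g (fun _ _ => Finset.mem_univ _) ?_
  intro i hi i' hi' heq
  simp only [Finset.coe_filter, Finset.mem_univ, true_and, Set.mem_ofPred_eq] at hi hi'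
  obtain ⟨j, hj, hr⟩ := hg i hi
  obtain ⟨j', hj', hr'⟩ := hg i' hi'
  rw [heq] at hr
  exact huniq _ i j i' j' hj.symm hr hr'

end Crest.Agent.R320.Spoil_724
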