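import Mathlib

set_option autoImplicit false

namespace Crest.Agent.R320.Spoil_744

def PP (R M0 M1 l : ℕ) : ℕ := (R*M0) * (R*M1)^l

def Bad (R M0 M1 m rho : ℕ) (Ms Ms1 : Finset ℕ) (n : ℕ) : Prop :=
  (n % (R*M0) < M0 ∨ R*M0 ≤ n % (R*M0) + M0) ∨ (∃ k ∈ Ms, k ∣ n) ∨
  ∃ l < m, ((n / PP R M0 M1 l) % (R*M1) < M1 ∨ R*M1 ≤ (n / PP R M0 M1 l) % (R*M1) + M1) ∨
    rho ≤ (Ms1.filter (· ∣ n / PP R M0 M1 l)).card

def sg (ρ : ℕ → ℕ) (n : ℕ) : ℕ := ∏ i ∈ Finset.range n, ρ i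

lemma sg_succ (ρ : ℕ → ℕ) (n : ℕ) : sg ρ (n+1) = sg ρ n * ρ n := Finset.prod_range_succ _ _

lemma sg_zero (ρ : ℕ → ℕ) : sg ρ 0 = 1 := by simp [sg]

lemma sg_dvd (ρ : ℕ → ℕ) {i n : ℕ} (h : i ≤ n) : sg ρ i ∣ sg ρ n := by
  apply Finset.prod_dvd_prod_of_subset
  intro x hx
  simp only [Finset.mem_range] at hx ⊢
  omega

lemma sum_small (ρ : ℕ → ℕ) (B : ℕ) (hB : ∀ i, 2 * B ≤ ρ i) (hB1 : 1 ≤ B) (n : ℕ) :
    (∑ i ∈ Finset.range n, sg ρ i) * B ≤ sg ρ n := by
  induction n with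
  | zero => simp
  | succ n ih =>
    rw [Finset.sum_range_succ, sg_succ]
    have h1 := hB n
    have h2 : sg ρ n * (2 * B) ≤ sg ρ n * ρ n := Nat.mul_le_mul_left _ h1
    have h3 : sg ρ n ≤ sg ρ n * B := Nat.le_mul_of_pos_right _ hB1
    have h4 : (∑ i ∈ Finset.range n, sg ρ i + sg ρ n) * B
        = (∑ i ∈ Finset.range n, sg ρ i) * B + sg ρ n * B := by ring
    have h5 : sg ρ n * (2 * B) = sg ρ n * B + sg ρ n * B := by ring
    omega

lemma core (ρ : ℕ → ℕ) (K : ℕ) (hρ : ∀ i, 2^(K+10) ≤ ρ i) (N i Q : ℕ) (hi : i < N)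
    (hQ : 2^(K+10) ≤ Q) (hd : Q * sg ρ i ∣ sg ρ (i+1)) (E : ℤ) (hE : E ≠ 0)
    (hE2 : |E| ≤ 2^(K+1)) (c : ℤ) :
    2 * (sg ρ i : ℤ) ≤ |16 * E * ((∑ j ∈ Finset.range N, sg ρ j : ℕ) : ℤ) - c * ((Q * sg ρ i : ℕ) : ℤ)| := by
  obtain ⟨h, hh⟩ : Q * sg ρ i ∣ ∑ j ∈ Finset.Ico (i+1) N, sg ρ j := by
    apply Finset.dvd_sum
    intro j hj
    rw [Finset.mem_Ico] at hj
    exact hd.trans (sg_dvd ρ hj.1)
  have hS : ∑ j ∈ Finset.range N, sg ρ j
      = ∑ j ∈ Finset.range i, sg ρ j + sg ρ i + Q * sg ρ i * h := by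
    rw [← hh, ← Finset.sum_range_succ, Finset.sum_range_add_sum_Ico _ (by omega : i+1 ≤ N)]
  have hsmall := sum_small ρ (2^(K+9)) (fun j => by
    have := hρ j
    calc 2 * 2^(K+9) = 2^(K+10) := by ring
      _ ≤ ρ j := this) (Nat.one_le_two_pow) i
  have hpos : 1 ≤ sg ρ i := by
    apply Nat.one_le_iff_ne_zero.mpr
    apply Finset.prod_ne_zero_iff.mpr
    intro j _
    have := hρ j
    have h2 : 0 < 2^(K+10) := by positivity
    omega
  rw [hS]
  generalize hLd : ∑ j ∈ Finset.range i, sg ρ j = L at *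
  generalize hsd : sg ρ i = s at *
  -- integers
  set P : ℤ := 2^(K+5) with hP
  have hP1 : (1:ℤ) ≤ P := by
    rw [hP]; exact one_le_pow₀ (by norm_num)
  have hsmallZ : (L:ℤ) * (16 * P) ≤ s := by
    have : ((L * 2^(K+9) : ℕ) : ℤ) ≤ (s:ℤ) := by exact_mod_cast hsmall
    push_cast at this
    have e : (2:ℤ)^(K+9) = 16 * P := by rw [hP]; ring
    rw [e] at this
    exact this
  have hQZ : 32 * P ≤ (Q:ℤ) := by
    have : ((2^(K+10) : ℕ) : ℤ) ≤ (Q:ℤ) := by exact_mod_cast hQ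
    push_cast at this
    have e : (2:ℤ)^(K+10) = 32 * P := by rw [hP]; ring
    rw [e] at this
    exact this
  have hE3 : 16 * |E| ≤ P := by
    have e : (16:ℤ) * 2^(K+1) = P := by rw [hP]; ring
    rw [← e]
    linarith
  have hs1 : (1:ℤ) ≤ s := by exact_mod_cast hpos
  have hL0 : (0:ℤ) ≤ L := by positivity
  have hEabs : 1 ≤ |E| := Int.one_le_abs hE
  have key : 16 * E * ((L + s + Q * s * h : ℕ) : ℤ) - c * ((Q * s : ℕ) : ℤ)
      = 16 * E * (L + s) + (16 * E * h - c) * (Q * s) := by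
    push_cast; ring
  rw [key]
  have hA : |16 * E * ((L:ℤ) + s)| = 16 * |E| * (L + s) := by
    rw [abs_mul, abs_mul, abs_of_nonneg (by linarith : (0:ℤ) ≤ (L:ℤ) + s)]
    norm_num
  have hLs : (0:ℤ) ≤ (L:ℤ) + s := by linarith
  by_cases hc : 16 * E * h - c = 0
  · rw [hc, zero_mul, add_zero, hA]
    have h16 : 16 * 1 * ((L:ℤ) + s) ≤ 16 * |E| * (L + s) :=
      mul_le_mul_of_nonneg_right (by linarith) hLs
    linarith
  · have hc1 : 1 ≤ |16 * E * h - c| := Int.one_le_abs hc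
    have hB : |(16 * E * h - c) * ((Q:ℤ) * s)| = |16 * E * h - c| * (Q * s) := by
      rw [abs_mul, abs_of_nonneg (by positivity : (0:ℤ) ≤ (Q:ℤ) * s)]
    have hB2 : (Q:ℤ) * s ≤ |(16 * E * h - c) * ((Q:ℤ) * s)| := by
      rw [hB]
      have h0 : (0:ℤ) ≤ (Q:ℤ) * s := by positivity
      have := mul_le_mul_of_nonneg_right hc1 h0
      linarith
    have hQs : 32 * P * s ≤ (Q:ℤ) * s := mul_le_mul_of_nonneg_right hQZ (by linarith)
    have hA2 : |16 * E * ((L:ℤ) + s)| ≤ P * (L + s) := by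
      rw [hA]
      exact mul_le_mul_of_nonneg_right hE3 hLs
    have hPL : P * (L:ℤ) ≤ s := by
      have h1 : (L:ℤ) * (1 * P) ≤ (L:ℤ) * (16 * P) := by
        apply mul_le_mul_of_nonneg_left _ hL0
        linarith
      have h2 : P * (L:ℤ) = L * (1 * P) := by ring
      linarith
    have htri : |(16 * E * h - c) * ((Q:ℤ) * s)| - |16 * E * ((L:ℤ) + s)|
        ≤ |16 * E * (L + s) + (16 * E * h - c) * (Q * s)| := by
      have := abs_sub_abs_le_abs_sub ((16 * E * h - c) * ((Q:ℤ) * s)) (-(16 * E * ((L:ℤ) + s)))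
      rw [abs_neg, sub_neg_eq_add, add_comm] at this
      rw [add_comm (16 * E * ((L:ℤ) + s))]
      rw [add_comm] at this
      linarith
    have hPs : 1 * (s:ℤ) ≤ P * s := mul_le_mul_of_nonneg_right hP1 (by linarith)
    have hPd : P * ((L:ℤ) + s) = P * L + P * s := by ring
    have hQd : 32 * P * (s:ℤ) = 32 * (P * s) := by ring
    linarith

def Thin (Qs s N : ℤ) : Prop := ∃ c : ℤ, -s ≤ N - c * Qs ∧ N - c * Qs < s

lemma thin_unique (ρ : ℕ → ℕ) (K : ℕ) (hρ : ∀ i, 2^(K+10) ≤ ρ i) (N i Q : ℕ) (hi : i < N)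
    (hQ : 2^(K+10) ≤ Q) (hd : Q * sg ρ i ∣ sg ρ (i+1)) (E : ℤ) (hE : E ≠ 0)
    (hE2 : |E| ≤ 2^(K+1)) (x y : ℤ)
    (hxy : x - y = 16 * E * ((∑ j ∈ Finset.range N, sg ρ j : ℕ) : ℤ))
    (hx : Thin ((Q * sg ρ i : ℕ) : ℤ) (sg ρ i) x) (hy : Thin ((Q * sg ρ i : ℕ) : ℤ) (sg ρ i) y) :
    False := by
  obtain ⟨c, hc1, hc2⟩ := hx
  obtain ⟨d, hd1, hd2⟩ := hy
  have := core ρ K hρ N i Q hi hQ hd E hE hE2 (c - d)
  rw [← hxy] at this
  have h2 : |x - y - (c - d) * ((Q * sg ρ i : ℕ) : ℤ)| < 2 * (sg ρ i : ℤ) := by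
    have e : x - y - (c - d) * ((Q * sg ρ i : ℕ) : ℤ)
        = (x - c * ((Q * sg ρ i : ℕ) : ℤ)) - (y - d * ((Q * sg ρ i : ℕ) : ℤ)) := by ring
    rw [e, abs_lt]
    constructor <;> linarith
  linarith

lemma thin_of_mod (U R M N : ℕ) (hU : 0 < U) (hR : 0 < R) (hM : 0 < M)
    (h : (N / U) % (R*M) < M ∨ R*M ≤ (N/U) % (R*M) + M) :
    Thin ((R * (U * M) : ℕ) : ℤ) ((U * M : ℕ) : ℤ) N := by
  have h1 : U * (N / U) + N % U = N := Nat.div_add_mod N U
  have h2 : N % U < U := Nat.mod_lt _ hU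
  have h3 : R * M * (N / U / (R*M)) + (N/U) % (R*M) = N / U := Nat.div_add_mod _ _
  have h4 : (N/U) % (R*M) < R*M := Nat.mod_lt _ (by positivity)
  generalize N / U / (R*M) = c0 at *
  generalize (N/U) % (R*M) = r0 at *
  generalize N / U = n at *
  generalize N % U = t at *
  have h1Z : (U:ℤ) * n + t = N := by exact_mod_cast h1
  have h3Z : (R:ℤ) * M * c0 + r0 = n := by exact_mod_cast h3
  have ht0 : (0:ℤ) ≤ t := by positivity
  have h2Z : (t:ℤ) < U := by exact_mod_cast h2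
  have h4Z : (r0:ℤ) < R * M := by exact_mod_cast h4
  have hr0 : (0:ℤ) ≤ r0 := by positivity
  have hUZ : (0:ℤ) < U := by exact_mod_cast hU
  rcases h with h | h
  · refine ⟨c0, ?_, ?_⟩
    · push_cast
      have hh : (r0:ℤ) < M := by exact_mod_cast h
      have e : (N:ℤ) - c0 * (R * (U * M)) = U * r0 + t := by rw [← h1Z, ← h3Z]; ring
      rw [e]
      have : (0:ℤ) ≤ (U:ℤ) * M := by positivity
      have : (0:ℤ) ≤ (U:ℤ) * r0 := by positivity
      linarith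
    · push_cast
      have hh : (r0:ℤ) + 1 ≤ M := by exact_mod_cast h
      have e : (N:ℤ) - c0 * (R * (U * M)) = U * r0 + t := by rw [← h1Z, ← h3Z]; ring
      rw [e]
      have : (U:ℤ) * (r0 + 1) ≤ U * M := by apply mul_le_mul_of_nonneg_left hh hUZ.le
      linarith
  · refine ⟨c0 + 1, ?_, ?_⟩
    · push_cast
      have hh : (R:ℤ) * M ≤ r0 + M := by exact_mod_cast h
      have e : (N:ℤ) - (c0 + 1) * (R * (U * M)) = U * (r0 - R * M) + t := by
        rw [← h1Z, ← h3Z]; ring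
      rw [e]
      have : (U:ℤ) * (-M) ≤ U * (r0 - R * M) := by
        apply mul_le_mul_of_nonneg_left _ hUZ.le
        linarith
      linarith
    · push_cast
      have e : (N:ℤ) - (c0 + 1) * (R * (U * M)) = U * (r0 - R * M) + t := by
        rw [← h1Z, ← h3Z]; ring
      rw [e]
      have : (U:ℤ) * (r0 - R * M) ≤ U * (-1) := by
        apply mul_le_mul_of_nonneg_left _ hUZ.le
        linarith
      have : (0:ℤ) ≤ (U:ℤ) * M := by positivity
      linarith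

lemma thin_of_dvd (U k N : ℕ) (hU : 0 < U) (h : k ∣ N / U) :
    Thin ((k * U : ℕ) : ℤ) (U : ℤ) N := by
  obtain ⟨j, hj⟩ := h
  have h1 : U * (N / U) + N % U = N := Nat.div_add_mod N U
  have h2 : N % U < U := Nat.mod_lt _ hU
  rw [hj] at h1
  refine ⟨j, ?_, ?_⟩
  · have h1Z : (U:ℤ) * (k * j) + (N % U : ℕ) = N := by exact_mod_cast h1
    have e : (N:ℤ) - j * ((k * U : ℕ) : ℤ) = (N % U : ℕ) := by
      rw [← h1Z]; push_cast; ring
    rw [e]
    have : (0:ℤ) ≤ ((N % U : ℕ) : ℤ) := by positivity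
    have : (0:ℤ) ≤ (U:ℤ) := by positivity
    linarith
  · have h1Z : (U:ℤ) * (k * j) + (N % U : ℕ) = N := by exact_mod_cast h1
    have e : (N:ℤ) - j * ((k * U : ℕ) : ℤ) = (N % U : ℕ) := by
      rw [← h1Z]; push_cast; ring
    rw [e]
    exact_mod_cast h2

lemma pow_aux {a b c d : ℕ} (hab : a ≤ d) (hbc : b ≤ c) (hlt : a < b)
    (h : 2^a + 2^d = 2^b + 2^c) : False := by
  have hb : 2^(a+1) ∣ 2^b + 2^c :=
    dvd_add (pow_dvd_pow 2 (by omega)) (pow_dvd_pow 2 (by omega))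
  rcases Nat.eq_or_lt_of_le hab with e | e
  · subst e
    have h1 : 2^(a+1) ≤ 2^b := Nat.pow_le_pow_right (by norm_num) (by omega)
    have h2 : 2^(a+1) ≤ 2^c := Nat.pow_le_pow_right (by norm_num) (by omega)
    have h3 : 2^(a+1) = 2^a + 2^a := by ring
    have h4 : 0 < 2^a := by positivity
    omega
  · rw [← h] at hb
    have h1 : 2^(a+1) ∣ 2^d := pow_dvd_pow 2 (by omega)
    have h2 : 2^(a+1) ∣ 2^a := (Nat.dvd_add_left h1).mp hb
    have h3 := Nat.le_of_dvd (by positivity) h2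
    have h4 : 2^(a+1) = 2^a + 2^a := by ring
    have h5 : 0 < 2^a := by positivity
    omega

lemma pow_two_sum' {a b c d : ℕ} (had : a ≤ d) (hbc : b ≤ c)
    (h : 2^a + 2^d = 2^b + 2^c) : a = b ∧ d = c := by
  rcases lt_trichotomy a b with hlt | heq | hgt
  · exact (pow_aux had hbc hlt h).elim
  · subst heq
    have : 2^d = 2^c := by omega
    exact ⟨rfl, Nat.pow_right_injective (le_refl 2) this⟩
  · exact (pow_aux hbc had hgt h.symm).elim

lemma pow_two_sum {a b c d : ℕ} (h : 2^a + 2^d = 2^b + 2^c) :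
    (a = b ∧ d = c) ∨ (a = c ∧ d = b) := by
  rcases le_total a d with had | had <;> rcases le_total b c with hbc | hbc
  · exact Or.inl (pow_two_sum' had hbc h)
  · have := pow_two_sum' had hbc (by omega : 2^a + 2^d = 2^c + 2^b)
    exact Or.inr this
  · have := pow_two_sum' had hbc (by omega : 2^d + 2^a = 2^b + 2^c)
    exact Or.inr ⟨this.2, this.1⟩
  · have := pow_two_sum' had hbc (by omega : 2^d + 2^a = 2^c + 2^b)
    exact Or.inl ⟨this.2, this.1⟩

lemma golomb {a b c d : ℕ} (h : ((2:ℤ)^a - 2^b) - (2^c - 2^d) = 0) :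
    (a = c ∧ b = d) ∨ (a = b ∧ c = d) := by
  have h1 : (2:ℤ)^a + 2^d = 2^b + 2^c := by linarith
  have h2 : 2^a + 2^d = 2^b + 2^c := by exact_mod_cast h1
  rcases pow_two_sum h2 with ⟨h3, h4⟩ | ⟨h3, h4⟩
  · exact Or.inr ⟨h3, h4.symm⟩
  · exact Or.inl ⟨h3, h4.symm⟩

lemma E_bound {K a b c d : ℕ} (ha : a < K) (hb : b < K) (hc : c < K) (hd : d < K) :
    |((2:ℤ)^a - 2^b) - (2^c - 2^d)| ≤ 2^(K+1) := by
  have h : ∀ t, t < K → (0:ℤ) < 2^t ∧ (2:ℤ)^t ≤ 2^K := fun t ht =>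
    ⟨by positivity, pow_le_pow_right₀ (by norm_num) ht.le⟩
  have e : (2:ℤ)^(K+1) = 2^K + 2^K := by ring
  obtain ⟨h1, h2⟩ := h a ha
  obtain ⟨h3, h4⟩ := h b hb
  obtain ⟨h5, h6⟩ := h c hc
  obtain ⟨h7, h8⟩ := h d hd
  rw [abs_le, e]
  constructor <;> linarith

def rat (Mp R M0 M1 : ℕ) : ℕ → ℕ
  | 0 => Mp
  | 1 => M0
  | 2 => R
  | (i+3) => if i % 2 = 0 then M1 else R

lemma sg_one (Mp R M0 M1 : ℕ) : sg (rat Mp R M0 M1) 1 = Mp := by
  simp [sg, rat]

lemma sg_two (Mp R M0 M1 : ℕ) : sg (rat Mp R M0 M1) 2 = Mp * M0 := by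
  simp [sg, rat, Finset.prod_range_succ]

lemma sg_odd (Mp R M0 M1 l : ℕ) : sg (rat Mp R M0 M1) (2*l+3) = Mp * PP R M0 M1 l := by
  induction l with
  | zero =>
    simp [sg, rat, Finset.prod_range_succ, PP]
    ring
  | succ l ih =>
    have e : 2 * (l+1) + 3 = (2*l+3) + 1 + 1 := by ring
    rw [e, sg_succ, sg_succ, ih]
    have h1 : rat Mp R M0 M1 (2*l+3) = M1 := by simp [rat]
    have h2 : rat Mp R M0 M1 (2*l+3+1) = R := by
      have : 2*l+3+1 = (2*l+1)+3 := by ring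
      rw [this]
      have : (2*l+1) % 2 = 1 := by omega
      simp [rat]
    rw [h1, h2, PP, PP, pow_succ]
    ring

lemma sg_even (Mp R M0 M1 l : ℕ) : sg (rat Mp R M0 M1) (2*l+4) = Mp * PP R M0 M1 l * M1 := by
  have e : 2 * l + 4 = (2*l+3) + 1 := by ring
  rw [e, sg_succ, sg_odd]
  have h1 : rat Mp R M0 M1 (2*l+3) = M1 := by simp [rat]
  rw [h1]

lemma rat_ge (Mp R M0 M1 B : ℕ) (h1 : B ≤ Mp) (h2 : B ≤ R) (h3 : B ≤ M0) (h4 : B ≤ M1) (i : ℕ) :
    B ≤ rat Mp R M0 M1 i := by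
  match i with
  | 0 => exact h1
  | 1 => exact h3
  | 2 => exact h2
  | (i+3) =>
    simp only [rat]
    split
    · exact h4
    · exact h2

open scoped Classical in
theorem spoil (m r K Mp R M0 M1 rho : ℕ) (Ms Ms1 : Finset ℕ) (hMp : 2^(K+10) ≤ Mp)
    (hR : 2^(K+10) ≤ R) (h0 : 2^(K+10) ≤ M0) (h1 : 2^(K+10) ≤ M1)
    (hMs : ∀ k ∈ Ms, 2^(K+10) ≤ k ∧ k ∣ M0) (hMs1 : ∀ k ∈ Ms1, 2^(K+10) ≤ k ∧ k ∣ M1)
    (hc : Ms.card ≤ r) (hc1 : Ms1.card ≤ 32*rho) (hrho : 0 < rho) :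
    ∃ (x : ℕ → ℕ) (T0 : ℕ),
      (∀ a b c d, a < K → b < K → c < K → d < K →
        (Mp:ℤ) ∣ ((x a:ℤ) - x b) - (x c - x d) → (a = c ∧ b = d) ∨ (a = b ∧ c = d)) ∧
      ∀ T, T0 ≤ T → (((Finset.range K ×ˢ Finset.range K).filter
        (fun ab => ab.1 ≠ ab.2 ∧
          Bad R M0 M1 m rho Ms Ms1 ((T + x ab.1 - x ab.2) / Mp))).card ≤ 2 + r + 34*m) := by
  set ρ := rat Mp R M0 M1 with hρd
  have hρ : ∀ i, 2^(K+10) ≤ ρ i := rat_ge Mp R M0 M1 _ hMp hR h0 h1
  have hB : 0 < 2^(K+10) := by positivity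
  set NN := 2*m+5 with hNN
  set S := ∑ j ∈ Finset.range NN, sg ρ j with hS
  have hMp0 : 0 < Mp := by omega
  have hR0 : 0 < R := by omega
  have hM00 : 0 < M0 := by omega
  have hM10 : 0 < M1 := by omega
  have hPP0 : ∀ l, 0 < PP R M0 M1 l := fun l => by unfold PP; positivity
  refine ⟨fun a => 16 * 2^a * S, 16 * 2^K * S, ?_, ?_⟩
  · intro a b c d ha hb hc' hd hdvd
    by_contra hne
    have hE : ((2:ℤ)^a - 2^b) - (2^c - 2^d) ≠ 0 := fun h => hne (golomb h)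
    obtain ⟨q, hq⟩ := hdvd
    have hcore := core ρ K hρ NN 0 Mp (by omega) hMp
      (by rw [sg_zero, sg_one, mul_one]) _ hE (E_bound ha hb hc' hd) q
    have e : 16 * (((2:ℤ)^a - 2^b) - (2^c - 2^d)) * (S : ℤ) - q * ((Mp * sg ρ 0 : ℕ) : ℤ) = 0 := by
      rw [sg_zero, mul_one]
      have : (((16 * 2^a * S : ℕ) : ℤ) - ((16 * 2^b * S : ℕ) : ℤ))
          - (((16 * 2^c * S : ℕ) : ℤ) - ((16 * 2^d * S : ℕ) : ℤ)) = (Mp:ℤ) * q := hq
      push_cast at this
      linarith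
    rw [e, sg_zero] at hcore
    simp at hcore
  · intro T hT
    -- thin sets
    set N : ℕ × ℕ → ℕ := fun ab => T + 16 * 2^ab.1 * S - 16 * 2^ab.2 * S with hN
    set Om := ((Finset.range K ×ˢ Finset.range K).filter (fun ab : ℕ × ℕ => ab.1 ≠ ab.2)) with hOm
    have hNZ : ∀ ab ∈ Om, (N ab : ℤ) = T + 16 * 2^ab.1 * S - 16 * 2^ab.2 * S := by
      intro ab hab
      rw [hOm, Finset.mem_filter, Finset.mem_product, Finset.mem_range, Finset.mem_range] at hab
      have h2 : 16 * 2^ab.2 * S ≤ T + 16 * 2^ab.1 * S := by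
        have : 2^ab.2 ≤ 2^K := Nat.pow_le_pow_right (by norm_num) hab.1.2.le
        have : 16 * 2^ab.2 * S ≤ 16 * 2^K * S := by gcongr
        omega
      rw [hN]
      simp only
      rw [Nat.cast_sub h2]
      push_cast
      ring
    have thin1 : ∀ (i Q : ℕ), i < NN → 2^(K+10) ≤ Q → Q * sg ρ i ∣ sg ρ (i+1) →
        (Om.filter (fun ab => Thin ((Q * sg ρ i : ℕ) : ℤ) (sg ρ i) (N ab))).card ≤ 1 := by
      intro i Q hi hQ hdv
      rw [Finset.card_le_one]
      intro ab hab cd hcd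
      rw [Finset.mem_filter] at hab hcd
      by_contra hne
      have hab1 := hab.1
      have hcd1 := hcd.1
      rw [hOm, Finset.mem_filter, Finset.mem_product, Finset.mem_range, Finset.mem_range] at hab1 hcd1
      have hE : ((2:ℤ)^ab.1 - 2^ab.2) - (2^cd.1 - 2^cd.2) ≠ 0 := by
        intro h
        rcases golomb h with ⟨h1, h2⟩ | ⟨h1, _⟩
        · exact hne (Prod.ext h1 h2)
        · exact hab1.2 h1
      refine thin_unique ρ K hρ NN i Q hi hQ hdv _ hE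
        (E_bound hab1.1.1 hab1.1.2 hcd1.1.1 hcd1.1.2) (N ab) (N cd) ?_ hab.2 hcd.2
      rw [hNZ ab hab.1, hNZ cd hcd.1]
      ring
    -- the pieces
    set A0 := Om.filter (fun ab => Thin ((R * sg ρ 2 : ℕ) : ℤ) (sg ρ 2) (N ab)) with hA0
    set Ak : ℕ → Finset (ℕ × ℕ) := fun k =>
      Om.filter (fun ab => Thin ((k * sg ρ 1 : ℕ) : ℤ) (sg ρ 1) (N ab)) with hAk
    set Bl : ℕ → Finset (ℕ × ℕ) := fun l =>
      Om.filter (fun ab => Thin ((R * sg ρ (2*l+4) : ℕ) : ℤ) (sg ρ (2*l+4)) (N ab)) with hBl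
    set Ck : ℕ → ℕ → Finset (ℕ × ℕ) := fun l k =>
      Om.filter (fun ab => Thin ((k * sg ρ (2*l+3) : ℕ) : ℤ) (sg ρ (2*l+3)) (N ab)) with hCk
    set Cl : ℕ → Finset (ℕ × ℕ) := fun l =>
      Om.filter (fun ab => rho ≤ (Ms1.filter (fun k => ab ∈ Ck l k)).card) with hCl
    have cA0 : A0.card ≤ 1 := thin1 2 R (by omega) hR (by rw [sg_succ ρ 2]; simp [hρd, rat, mul_comm])
    have cAk : ∀ k ∈ Ms, (Ak k).card ≤ 1 := by
      intro k hk
      refine thin1 1 k (by omega) (hMs k hk).1 ?_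
      rw [sg_succ ρ 1, mul_comm k]
      exact Nat.mul_dvd_mul_left _ (by simpa [hρd, rat] using (hMs k hk).2)
    have cBl : ∀ l < m, (Bl l).card ≤ 1 := by
      intro l hl
      refine thin1 (2*l+4) R (by omega) hR ?_
      rw [sg_succ ρ (2*l+4), mul_comm R]
      have : ρ (2*l+4) = R := by
        have e : 2*l+4 = (2*l+1)+3 := by ring
        rw [hρd, e]
        simp [rat]
      rw [this]
    have cCk : ∀ l < m, ∀ k ∈ Ms1, (Ck l k).card ≤ 1 := by
      intro l hl k hk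
      refine thin1 (2*l+3) k (by omega) (hMs1 k hk).1 ?_
      rw [sg_succ ρ (2*l+3), mul_comm k]
      have : ρ (2*l+3) = M1 := by
        rw [hρd]; simp [rat]
      rw [this]
      exact Nat.mul_dvd_mul_left _ (hMs1 k hk).2
    have cCl : ∀ l < m, (Cl l).card ≤ 32 := by
      intro l hl
      have h2 : rho * (Cl l).card ≤ ∑ ab ∈ Cl l, (Ms1.filter (fun k => ab ∈ Ck l k)).card := by
        rw [mul_comm, ← smul_eq_mul]
        apply Finset.card_nsmul_le_sum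
        intro ab hab
        rw [hCl] at hab
        simp only [Finset.mem_filter] at hab
        exact hab.2
      have h3 : ∑ ab ∈ Cl l, (Ms1.filter (fun k => ab ∈ Ck l k)).card
          = ∑ k ∈ Ms1, ((Cl l).filter (fun ab => ab ∈ Ck l k)).card := by
        simp only [Finset.card_filter]
        rw [Finset.sum_comm]
      have h4 : ∑ k ∈ Ms1, ((Cl l).filter (fun ab => ab ∈ Ck l k)).card ≤ ∑ k ∈ Ms1, 1 := by
        apply Finset.sum_le_sum
        intro k hk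
        refine le_trans (Finset.card_le_card ?_) (cCk l hl k hk)
        intro ab hab
        rw [Finset.mem_filter] at hab
        exact hab.2
      have h5 : ∑ k ∈ Ms1, 1 = Ms1.card := by simp
      have h6 : rho * (Cl l).card ≤ rho * 32 := by
        calc rho * (Cl l).card ≤ _ := h2
          _ = _ := h3
          _ ≤ _ := h4
          _ = Ms1.card := h5
          _ ≤ 32 * rho := hc1
          _ = rho * 32 := by ring
      exact Nat.le_of_mul_le_mul_left h6 hrho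
    have hsub : ((Finset.range K ×ˢ Finset.range K).filter
        (fun ab : ℕ × ℕ => ab.1 ≠ ab.2 ∧ Bad R M0 M1 m rho Ms Ms1 (N ab / Mp)))
        ⊆ A0 ∪ Ms.biUnion Ak ∪ (Finset.range m).biUnion (fun l => Bl l ∪ Cl l) := by
      intro ab hab
      rw [Finset.mem_filter] at hab
      have hOmab : ab ∈ Om := by
        rw [hOm, Finset.mem_filter]
        exact ⟨hab.1, hab.2.1⟩
      simp only [Finset.mem_union, Finset.mem_biUnion, Finset.mem_range]
      rcases hab.2.2 with h | ⟨k, hk, hkd⟩ | ⟨l, hl, h⟩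
      · left; left
        rw [hA0, Finset.mem_filter]
        refine ⟨hOmab, ?_⟩
        have := thin_of_mod Mp R M0 (N ab) hMp0 hR0 hM00 h
        rw [hρd, sg_two]
        exact this
      · left; right
        refine ⟨k, hk, ?_⟩
        rw [hAk]
        simp only [Finset.mem_filter]
        refine ⟨hOmab, ?_⟩
        have := thin_of_dvd Mp k (N ab) hMp0 hkd
        rw [hρd, sg_one]
        exact this
      · right
        refine ⟨l, hl, ?_⟩
        rw [Nat.div_div_eq_div_mul] at h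
        rcases h with h | h
        · left
          rw [hBl]
          simp only [Finset.mem_filter]
          refine ⟨hOmab, ?_⟩
          have := thin_of_mod (Mp * PP R M0 M1 l) R M1 (N ab) (Nat.mul_pos hMp0 (hPP0 l)) hR0 hM10 h
          rw [hρd, sg_even]
          exact this
        · right
          rw [hCl]
          simp only [Finset.mem_filter]
          refine ⟨hOmab, le_trans h (Finset.card_le_card ?_)⟩
          intro k hk
          rw [Finset.mem_filter] at hk ⊢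
          refine ⟨hk.1, ?_⟩
          rw [hCk]
          simp only [Finset.mem_filter]
          refine ⟨hOmab, ?_⟩
          have := thin_of_dvd (Mp * PP R M0 M1 l) k (N ab) (Nat.mul_pos hMp0 (hPP0 l)) hk.2
          rw [hρd, sg_odd]
          exact this
    refine le_trans (Finset.card_le_card hsub) ?_
    refine le_trans (Finset.card_union_le _ _) ?_
    have u1 : (A0 ∪ Ms.biUnion Ak).card ≤ 1 + r := by
      refine le_trans (Finset.card_union_le _ _) ?_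
      have : (Ms.biUnion Ak).card ≤ Ms.card * 1 := Finset.card_biUnion_le_card_mul _ _ _ cAk
      omega
    have u2 : ((Finset.range m).biUnion (fun l => Bl l ∪ Cl l)).card ≤ (Finset.range m).card * 33 := by
      apply Finset.card_biUnion_le_card_mul
      intro l hl
      rw [Finset.mem_range] at hl
      refine le_trans (Finset.card_union_le _ _) ?_
      have := cBl l hl
      have := cCl l hl
      omega
    rw [Finset.card_range] at u2
    omega

end Crest.Agent.R320.Spoil_744
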