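import Mathlib

/-!
# Row 320, TEAM U, leaf U4 (helper638 #13273): the spoil count (pure arithmetic)

`x a := 2^a * (16 * SS m)`, `SS m = 1 + Mp + Mp*M0 + ∑_{l<m} (Mp*PP l + Mp*PP l*M1)`.
Every thin condition (a divisor, or a digit near `0`) is met by at most one pair `a ≠ b`.
-/

namespace Crest.Agent.R320.Spoil_747

def PP (R M0 M1 l : ℕ) : ℕ := (R*M0) * (R*M1)^l

def beta (R M0 M1 m n l : ℕ) : ℕ := PP R M0 M1 m * (3*l+2) + n % PP R M0 M1 l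

def Bad (R M0 M1 m rho : ℕ) (Ms Ms1 : Finset ℕ) (n : ℕ) : Prop :=
  (n % (R*M0) < M0 ∨ R*M0 ≤ n % (R*M0) + M0) ∨ (∃ k ∈ Ms, k ∣ n) ∨
    ∃ l < m, ((n / PP R M0 M1 l) % (R*M1) < M1 ∨ R*M1 ≤ (n / PP R M0 M1 l) % (R*M1) + M1) ∨
      rho ≤ (Ms1.filter (· ∣ n / PP R M0 M1 l)).card

theorem two_pow_add {b c d : ℕ} (h1 : b < d) (h2 : c < d) : 2^b + 2^c ≤ 2^d := by
  obtain ⟨e, rfl⟩ : ∃ e, d = e + 1 := ⟨d - 1, by omega⟩
  have e1 : 2^b ≤ 2^e := Nat.pow_le_pow_right (by norm_num) (by omega)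
  have e2 : 2^c ≤ 2^e := Nat.pow_le_pow_right (by norm_num) (by omega)
  rw [pow_succ]; omega

theorem two_pow_sum {a b c d : ℕ} (h : 2^a + 2^d = 2^b + 2^c) :
    (a = b ∧ d = c) ∨ (a = c ∧ d = b) := by
  have inj : ∀ i j : ℕ, 2^i = 2^j → i = j := fun i j hij =>
    Nat.pow_right_injective (le_refl 2) hij
  by_cases h1 : a = b
  · subst h1; exact Or.inl ⟨rfl, inj _ _ (by omega)⟩
  by_cases h2 : a = c
  · subst h2; exact Or.inr ⟨rfl, inj _ _ (by omega)⟩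
  exfalso
  have h3 : d ≠ b := by
    rintro rfl
    exact h2 (inj _ _ (by omega))
  have h4 : d ≠ c := by
    rintro rfl
    exact h1 (inj _ _ (by omega))
  have pos : ∀ i : ℕ, 0 < 2^i := fun i => pow_pos (by norm_num) i
  have pa := pos a
  have pb := pos b
  have pc := pos c
  have pd := pos d
  rcases (by omega : (b < d ∧ c < d) ∨ (b < a ∧ c < a) ∨ (a < b ∧ d < b) ∨ (a < c ∧ d < c)) with
    ⟨u, v⟩ | ⟨u, v⟩ | ⟨u, v⟩ | ⟨u, v⟩
  · have := two_pow_add u v; omega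
  · have := two_pow_add u v; omega
  · have := two_pow_add u v; omega
  · have := two_pow_add u v; omega

/-- the heart: two points in the window around `0` modulo `Q*s` cannot differ by
`16 E (low + s + Q s hi)`. -/
theorem thin (K Q s low hi : ℕ) (hQ : 2^(K+10) ≤ Q) (hs : 0 < s) (hlow : low ≤ s)
    (E : ℤ) (hE0 : E ≠ 0) (hE : |E| ≤ 2^K) (y y' : ℤ)
    (hy : ∃ t : ℤ, |y - ((Q:ℤ)*s)*t| ≤ s) (hy' : ∃ t : ℤ, |y' - ((Q:ℤ)*s)*t| ≤ s)
    (hd : y - y' = 16*E*(low + s + (Q:ℤ)*s*hi)) : False := by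
  obtain ⟨t, ht⟩ := hy
  obtain ⟨t', ht'⟩ := hy'
  have hsZ : (0:ℤ) < s := by exact_mod_cast hs
  have hlZ : (low:ℤ) ≤ s := by exact_mod_cast hlow
  have hl0 : (0:ℤ) ≤ low := by positivity
  have hQZ : (1024:ℤ) * 2^K ≤ Q := by
    have : (2:ℤ)^(K+10) ≤ Q := by exact_mod_cast hQ
    calc (1024:ℤ) * 2^K = 2^(K+10) := by rw [pow_add]; norm_num; ring
      _ ≤ Q := this
  have hK1 : (1:ℤ) ≤ 2^K := one_le_pow₀ (by norm_num)
  have hE1 : 1 ≤ |E| := Int.one_le_abs hE0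
  set e := y - ((Q:ℤ)*s)*t with he
  set e' := y' - ((Q:ℤ)*s)*t' with he'
  -- the key identity
  have key : 16*E*(low + s) - (e - e') = ((Q:ℤ)*s) * (t - t' - 16*E*hi) := by
    have : y - y' = ((Q:ℤ)*s)*t - ((Q:ℤ)*s)*t' + (e - e') := by rw [he, he']; ring
    have h2 := hd
    rw [this] at h2
    linear_combination (-1) * h2
  have hee : |e - e'| ≤ 2*s := by
    have := abs_sub e e'
    have h3 : |e - e'| ≤ |e| + |e'| := abs_sub e e'
    linarith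
  have hA : |16*E*((low:ℤ) + s)| = 16 * |E| * (low + s) := by
    rw [abs_mul, abs_mul, abs_of_nonneg (by positivity : (0:ℤ) ≤ low + s)]
    norm_num
  have hlo : 16*(s:ℤ) ≤ |16*E*((low:ℤ) + s)| := by
    rw [hA]; nlinarith
  have hhi : |16*E*((low:ℤ) + s)| ≤ 32*2^K*s := by
    rw [hA]
    have : |E| * ((low:ℤ) + s) ≤ 2^K * (2*s) := by
      apply mul_le_mul hE (by linarith) (by positivity) (by positivity)
    nlinarith
  have hne : t - t' - 16*E*hi ≠ 0 := by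
    intro h0
    rw [h0, mul_zero] at key
    have h5 : 16*E*((low:ℤ) + s) = e - e' := by linarith
    rw [h5] at hlo
    linarith
  have hu1 : 1 ≤ |t - t' - 16*E*hi| := Int.one_le_abs hne
  have hbig : (Q:ℤ)*s ≤ |16*E*(low + s) - (e - e')| := by
    rw [key, abs_mul, abs_of_nonneg (by positivity : (0:ℤ) ≤ (Q:ℤ)*s)]
    have : (0:ℤ) ≤ (Q:ℤ)*s := by positivity
    nlinarith
  have hsm : |16*E*((low:ℤ) + s) - (e - e')| ≤ 32*2^K*s + 2*s := by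
    have := abs_sub (16*E*((low:ℤ) + s)) (e - e')
    linarith
  have h7 : (1024:ℤ) * 2^K * s ≤ (Q:ℤ) * s := mul_le_mul_of_nonneg_right hQZ hsZ.le
  have h8 : (s:ℤ) ≤ 2^K * s := by nlinarith
  nlinarith

/-- at most one ordered pair `a ≠ b` falls into a thin window. -/
theorem one_pair (K c T Q s low hi : ℕ) (hQ : 2^(K+10) ≤ Q) (hs : 0 < s) (hlow : low ≤ s)
    (hc : c = 16*(low + s + Q*s*hi)) (hT : 2^K*c ≤ T) (Pr : ℕ → Prop)
    (hPr : ∀ y, Pr y → ∃ t : ℤ, |(y:ℤ) - ((Q:ℤ)*s)*t| ≤ s) (F : Finset (ℕ × ℕ))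
    (hF : ∀ ab ∈ F, ab.1 < K ∧ ab.2 < K ∧ ab.1 ≠ ab.2 ∧ Pr (T + 2^ab.1*c - 2^ab.2*c)) :
    F.card ≤ 1 := by
  rw [Finset.card_le_one]
  rintro ⟨a, b⟩ h1 ⟨a', b'⟩ h2
  obtain ⟨ha, hb, hab, hp⟩ := hF _ h1
  obtain ⟨ha', hb', hab', hp'⟩ := hF _ h2
  simp only at ha hb hab hp ha' hb' hab' hp'
  by_contra hne
  have hle : ∀ i, i < K → 2^i*c ≤ T := fun i hi' =>
    le_trans (Nat.mul_le_mul_right _ (Nat.pow_le_pow_right (by norm_num) hi'.le)) hT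
  have hcast : ∀ i j, j < K → ((T + 2^i*c - 2^j*c : ℕ) : ℤ) = T + 2^i*c - 2^j*c := by
    intro i j hj
    have := hle j hj
    rw [Nat.cast_sub (by omega)]
    push_cast
    ring
  have hcZ : (c:ℤ) = 16*(low + s + (Q:ℤ)*s*hi) := by exact_mod_cast hc
  refine thin K Q s low hi hQ hs hlow ((2:ℤ)^a - 2^b - 2^a' + 2^b') ?_ ?_ _ _ (hPr _ hp) (hPr _ hp') ?_
  · intro h0
    have h3 : (2:ℤ)^a + 2^b' = 2^b + 2^a' := by linarith
    have h4 : 2^a + 2^b' = 2^b + 2^a' := by exact_mod_cast h3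
    rcases two_pow_sum h4 with ⟨u, v⟩ | ⟨u, v⟩
    · exact hab u
    · exact hne (by rw [u, v])
  · have h5 : 2^a + 2^b' ≤ 2^K := two_pow_add ha hb'
    have h6 : 2^b + 2^a' ≤ 2^K := two_pow_add hb ha'
    have h5' : (2:ℤ)^a + 2^b' ≤ 2^K := by exact_mod_cast h5
    have h6' : (2:ℤ)^b + 2^a' ≤ 2^K := by exact_mod_cast h6
    have p1 : (0:ℤ) < 2^a := by positivity
    have p2 : (0:ℤ) < 2^b := by positivity
    have p3 : (0:ℤ) < 2^a' := by positivity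
    have p4 : (0:ℤ) < 2^b' := by positivity
    rw [abs_le]; constructor <;> linarith
  · rw [hcast a b hb, hcast a' b' hb', hcZ]
    ring

/-- divisor window -/
theorem win_dvd {k P y : ℕ} (hP : 0 < P) (h : k ∣ y / P) :
    ∃ t : ℤ, |(y:ℤ) - ((k:ℤ)*P)*t| ≤ P := by
  obtain ⟨t, ht⟩ := h
  refine ⟨t, ?_⟩
  have h1 := Nat.div_add_mod y P
  have h2 := Nat.mod_lt y hP
  rw [ht] at h1
  have h3 : (y:ℤ) = (P:ℤ)*(k*t) + (y % P : ℕ) := by exact_mod_cast h1.symm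
  have h4 : ((y % P : ℕ) : ℤ) < P := by exact_mod_cast h2
  have h5 : (0:ℤ) ≤ ((y % P : ℕ) : ℤ) := by positivity
  rw [abs_le]
  constructor
  · rw [h3]; nlinarith
  · rw [h3]; nlinarith

/-- digit window -/
theorem win_dig {R M P y : ℕ} (hP : 0 < P) (hRM : 0 < R*M)
    (h : (y / P) % (R*M) < M ∨ R*M ≤ (y / P) % (R*M) + M) :
    ∃ t : ℤ, |(y:ℤ) - ((R:ℤ)*(P*M : ℕ))*t| ≤ (P*M : ℕ) := by
  have h1 := Nat.div_add_mod y P
  have h2 := Nat.mod_lt y hP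
  have h3 := Nat.div_add_mod (y / P) (R*M)
  have h4 := Nat.mod_lt (y / P) hRM
  set n := y / P
  set q := n / (R*M)
  set g := n % (R*M)
  set e := y % P
  have e1 : (y:ℤ) = P * ((R*M)*q + g) + e := by
    have : y = P * ((R*M)*q + g) + e := by rw [h3]; exact h1.symm
    exact_mod_cast this
  have e2 : (e:ℤ) < P := by exact_mod_cast h2
  have e3 : (0:ℤ) ≤ e := by positivity
  have e4 : (0:ℤ) ≤ g := by positivity
  have e5 : (0:ℤ) < P := by exact_mod_cast hP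
  rcases h with h | h
  · refine ⟨q, ?_⟩
    have e6 : (g:ℤ) + 1 ≤ M := by exact_mod_cast h
    push_cast
    have e7 : (P:ℤ) * (g + 1) ≤ P * M := mul_le_mul_of_nonneg_left e6 e5.le
    have e8 : (0:ℤ) ≤ P * g := by positivity
    rw [abs_le]; constructor
    · rw [e1]; nlinarith
    · rw [e1]; nlinarith
  · refine ⟨q + 1, ?_⟩
    have e6 : (R:ℤ)*M ≤ g + M := by exact_mod_cast h
    have e6' : (g:ℤ) + 1 ≤ R*M := by exact_mod_cast h4
    push_cast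
    have e7 : (P:ℤ) * (R*M) ≤ P * (g + M) := mul_le_mul_of_nonneg_left e6 e5.le
    have e8 : (P:ℤ) * (g + 1) ≤ P * (R*M) := mul_le_mul_of_nonneg_left e6' e5.le
    have e9 : (0:ℤ) ≤ P * M := by positivity
    rw [abs_le]; constructor
    · rw [e1]; nlinarith
    · rw [e1]; nlinarith

/-- the sum of the scales -/
def SS (Mp R M0 M1 : ℕ) : ℕ → ℕ
  | 0 => 1 + Mp + Mp*M0
  | l+1 => SS Mp R M0 M1 l + Mp*PP R M0 M1 l + Mp*PP R M0 M1 l*M1

theorem PP_succ (R M0 M1 l : ℕ) : PP R M0 M1 (l+1) = PP R M0 M1 l * (R*M1) := by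
  unfold PP; rw [pow_succ]; ring

theorem PP_pos {R M0 M1 : ℕ} (hR : 0 < R) (h0 : 0 < M0) (h1 : 0 < M1) (l : ℕ) :
    0 < PP R M0 M1 l := by unfold PP; positivity

theorem SS_le {Mp R M0 M1 : ℕ} (hMp : 0 < Mp) (hR : 3 ≤ R) (h0 : 0 < M0) (h1 : 0 < M1) (l : ℕ) :
    SS Mp R M0 M1 l ≤ Mp * PP R M0 M1 l := by
  induction l with
  | zero =>
    have : PP R M0 M1 0 = R*M0 := by simp [PP]
    rw [this]
    have a1 : 1 ≤ Mp*M0 := Nat.mul_pos hMp h0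
    have a2 : Mp ≤ Mp*M0 := Nat.le_mul_of_pos_right _ h0
    have a3 : 3*(Mp*M0) ≤ R*(Mp*M0) := Nat.mul_le_mul_right _ hR
    have a4 : Mp*(R*M0) = R*(Mp*M0) := by ring
    simp only [SS]
    omega
  | succ l ih =>
    rw [PP_succ]
    have p := PP_pos (R := R) (M0 := M0) (M1 := M1) (by omega) h0 h1 l
    set P := Mp * PP R M0 M1 l with hP
    have a2 : P ≤ P*M1 := Nat.le_mul_of_pos_right _ h1
    have a3 : 3*(P*M1) ≤ R*(P*M1) := Nat.mul_le_mul_right _ hR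
    have a4 : Mp*(PP R M0 M1 l*(R*M1)) = R*(P*M1) := by rw [hP]; ring
    have a5 : SS Mp R M0 M1 (l+1) = SS Mp R M0 M1 l + P + P*M1 := rfl
    omega

theorem SS_tail (Mp R M0 M1 l : ℕ) (j : ℕ) :
    ∃ h, SS Mp R M0 M1 (l + j) = SS Mp R M0 M1 l + Mp * PP R M0 M1 l * h := by
  induction j with
  | zero => exact ⟨0, by simp⟩
  | succ j ih =>
    obtain ⟨h, hh⟩ := ih
    refine ⟨h + (R*M1)^j + (R*M1)^j*M1, ?_⟩
    have a5 : SS Mp R M0 M1 (l + (j+1)) = SS Mp R M0 M1 (l+j) + Mp*PP R M0 M1 (l+j)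
        + Mp*PP R M0 M1 (l+j)*M1 := rfl
    have a6 : PP R M0 M1 (l+j) = PP R M0 M1 l * (R*M1)^j := by
      unfold PP; rw [pow_add]; ring
    rw [a5, hh, a6]; ring

theorem SS_split {m l : ℕ} (Mp R M0 M1 : ℕ) (hl : l < m) :
    ∃ h, SS Mp R M0 M1 m = SS Mp R M0 M1 l + Mp * PP R M0 M1 l + Mp * PP R M0 M1 l * M1
      + R * (Mp * PP R M0 M1 l * M1) * h := by
  obtain ⟨j, rfl⟩ : ∃ j, m = (l+1) + j := ⟨m - (l+1), by omega⟩
  obtain ⟨h, hh⟩ := SS_tail Mp R M0 M1 (l+1) j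
  refine ⟨h, ?_⟩
  rw [hh, PP_succ]
  have a5 : SS Mp R M0 M1 (l + 1) = SS Mp R M0 M1 l + Mp*PP R M0 M1 l
        + Mp*PP R M0 M1 l*M1 := rfl
  rw [a5]; ring

/-- instance-free form. -/
theorem spoil' (m r K Mp R M0 M1 rho : ℕ) (Ms Ms1 : Finset ℕ) (hMp : 2^(K+10) ≤ Mp)
    (hR : 2^(K+10) ≤ R) (h0 : 2^(K+10) ≤ M0) (h1 : 2^(K+10) ≤ M1)
    (hMs : ∀ k ∈ Ms, 2^(K+10) ≤ k ∧ k ∣ M0) (hMs1 : ∀ k ∈ Ms1, 2^(K+10) ≤ k ∧ k ∣ M1)
    (hc : Ms.card ≤ r) (hc1 : Ms1.card ≤ 32*rho) (hrho : 0 < rho) (T : ℕ)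
    (hT : 2^K*(16*SS Mp R M0 M1 m) ≤ T) (F : Finset (ℕ × ℕ))
    (hF : ∀ ab ∈ F, ab.1 < K ∧ ab.2 < K ∧ ab.1 ≠ ab.2 ∧ Bad R M0 M1 m rho Ms Ms1
      ((T + 2^ab.1*(16*SS Mp R M0 M1 m) - 2^ab.2*(16*SS Mp R M0 M1 m)) / Mp)) :
    F.card ≤ 1 + r + 33*m := by
  classical
  have hpos : 0 < 2^(K+10) := by positivity
  have h1024 : 1024 ≤ 2^(K+10) := by
    have : 2^10 ≤ 2^(K+10) := Nat.pow_le_pow_right (by norm_num) (by omega)
    simpa using this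
  have hMp0 : 0 < Mp := by omega
  have hR0 : 0 < R := by omega
  have hM0 : 0 < M0 := by omega
  have hM1 : 0 < M1 := by omega
  set c := 16*SS Mp R M0 M1 m with hcdef
  set Y : ℕ × ℕ → ℕ := fun ab => T + 2^ab.1*c - 2^ab.2*c with hY
  let A : Finset (ℕ × ℕ) := F.filter (fun ab =>
    (Y ab / Mp) % (R*M0) < M0 ∨ R*M0 ≤ (Y ab / Mp) % (R*M0) + M0)
  let B : ℕ → Finset (ℕ × ℕ) := fun k => F.filter (fun ab => k ∣ Y ab / Mp)
  let C : ℕ → Finset (ℕ × ℕ) := fun l => F.filter (fun ab =>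
    ((Y ab / Mp / PP R M0 M1 l) % (R*M1) < M1 ∨
      R*M1 ≤ (Y ab / Mp / PP R M0 M1 l) % (R*M1) + M1))
  let D : ℕ → Finset (ℕ × ℕ) := fun l => F.filter (fun ab =>
    rho ≤ (Ms1.filter (· ∣ Y ab / Mp / PP R M0 M1 l)).card)
  have hsub : F ⊆ A ∪ Ms.biUnion B ∪ (Finset.range m).biUnion (fun l => C l ∪ D l) := by
    intro ab hab
    obtain ⟨_, _, _, hbad⟩ := hF ab hab
    simp only [Finset.mem_union, Finset.mem_biUnion, Finset.mem_range, A, B, C, D,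
      Finset.mem_filter]
    rcases hbad with h | ⟨k, hk, hkn⟩ | ⟨l, hl, h | h⟩
    · exact Or.inl (Or.inl ⟨hab, h⟩)
    · exact Or.inl (Or.inr ⟨k, hk, hab, hkn⟩)
    · exact Or.inr ⟨l, hl, Or.inl ⟨hab, h⟩⟩
    · exact Or.inr ⟨l, hl, Or.inr ⟨hab, h⟩⟩
  -- the sizes
  have hA : A.card ≤ 1 := by
    obtain ⟨h, hh⟩ := SS_tail Mp R M0 M1 0 m
    rw [zero_add] at hh
    refine one_pair K c T R (Mp*M0) (1 + Mp) h hR (Nat.mul_pos hMp0 hM0) ?_ ?_ hT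
      (fun y => (y / Mp) % (R*M0) < M0 ∨ R*M0 ≤ (y / Mp) % (R*M0) + M0) ?_ A ?_
    · have : Mp*2 ≤ Mp*M0 := Nat.mul_le_mul_left _ (by omega)
      omega
    · rw [hcdef, hh]
      have : PP R M0 M1 0 = R*M0 := by simp [PP]
      rw [this]; simp only [SS]; ring
    · intro y hy
      exact win_dig hMp0 (Nat.mul_pos hR0 hM0) hy
    · intro ab hab
      obtain ⟨hab, hpr⟩ := Finset.mem_filter.1 hab
      obtain ⟨g1, g2, g3, _⟩ := hF ab hab
      exact ⟨g1, g2, g3, hpr⟩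
  have hB : ∀ k ∈ Ms, (B k).card ≤ 1 := by
    intro k hk
    obtain ⟨hk1, q, hq⟩ := hMs k hk
    obtain ⟨h, hh⟩ := SS_tail Mp R M0 M1 0 m
    rw [zero_add] at hh
    refine one_pair K c T k Mp 1 (q + R*q*h) hk1 hMp0 hMp0 ?_ hT
      (fun y => k ∣ y / Mp) ?_ (B k) ?_
    · rw [hcdef, hh]
      have : PP R M0 M1 0 = R*M0 := by simp [PP]
      rw [this]; simp only [SS]; rw [hq]; ring
    · intro y hy
      exact win_dvd hMp0 hy
    · intro ab hab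
      obtain ⟨hab, hpr⟩ := Finset.mem_filter.1 hab
      obtain ⟨g1, g2, g3, _⟩ := hF ab hab
      exact ⟨g1, g2, g3, hpr⟩
  have hC : ∀ l < m, (C l).card ≤ 1 := by
    intro l hl
    have p := PP_pos (R := R) (M0 := M0) (M1 := M1) hR0 hM0 hM1 l
    have p' : 0 < Mp * PP R M0 M1 l := Nat.mul_pos hMp0 p
    obtain ⟨h, hh⟩ := SS_split Mp R M0 M1 hl
    refine one_pair K c T R (Mp * PP R M0 M1 l * M1) (SS Mp R M0 M1 l + Mp * PP R M0 M1 l) h hR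
      (Nat.mul_pos p' hM1) ?_ ?_ hT
      (fun y => (y / Mp / PP R M0 M1 l) % (R*M1) < M1 ∨
        R*M1 ≤ (y / Mp / PP R M0 M1 l) % (R*M1) + M1) ?_ (C l) ?_
    · have a1 := SS_le (R := R) hMp0 (by omega) hM0 hM1 l
      have a2 : Mp * PP R M0 M1 l * 2 ≤ Mp * PP R M0 M1 l * M1 := Nat.mul_le_mul_left _ (by omega)
      omega
    · rw [hcdef, hh]
    · intro y hy
      rw [Nat.div_div_eq_div_mul] at hy
      exact win_dig p' (Nat.mul_pos hR0 hM1) hy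
    · intro ab hab
      obtain ⟨hab, hpr⟩ := Finset.mem_filter.1 hab
      obtain ⟨g1, g2, g3, _⟩ := hF ab hab
      exact ⟨g1, g2, g3, hpr⟩
  have hD : ∀ l < m, (D l).card ≤ 32 := by
    intro l hl
    have p := PP_pos (R := R) (M0 := M0) (M1 := M1) hR0 hM0 hM1 l
    have p' : 0 < Mp * PP R M0 M1 l := Nat.mul_pos hMp0 p
    obtain ⟨h, hh⟩ := SS_split Mp R M0 M1 hl
    have key : ∀ k ∈ Ms1,
        ((D l).filter (fun ab => k ∣ Y ab / Mp / PP R M0 M1 l)).card ≤ 1 := by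
      intro k hk
      obtain ⟨hk1, q, hq⟩ := hMs1 k hk
      refine one_pair K c T k (Mp * PP R M0 M1 l) (SS Mp R M0 M1 l) (q + R*q*h) hk1 p' 
        (SS_le (R := R) hMp0 (by omega) hM0 hM1 l) ?_ hT
        (fun y => k ∣ y / Mp / PP R M0 M1 l) ?_ _ ?_
      · rw [hcdef, hh, hq]; ring
      · intro y hy
        rw [Nat.div_div_eq_div_mul] at hy
        exact win_dvd p' hy
      · intro ab hab
        obtain ⟨hab, hpr⟩ := Finset.mem_filter.1 hab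
        obtain ⟨hab, _⟩ := Finset.mem_filter.1 hab
        obtain ⟨g1, g2, g3, _⟩ := hF ab hab
        exact ⟨g1, g2, g3, hpr⟩
    have dc : ∑ ab ∈ D l, (Ms1.filter (· ∣ Y ab / Mp / PP R M0 M1 l)).card
        = ∑ k ∈ Ms1, ((D l).filter (fun ab => k ∣ Y ab / Mp / PP R M0 M1 l)).card :=
      Finset.sum_card_bipartiteAbove_eq_sum_card_bipartiteBelow
        (fun (ab : ℕ × ℕ) (k : ℕ) => k ∣ Y ab / Mp / PP R M0 M1 l)
    have lo : (D l).card * rho ≤ ∑ ab ∈ D l, (Ms1.filter (· ∣ Y ab / Mp / PP R M0 M1 l)).card := by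
      have := Finset.card_nsmul_le_sum (D l)
        (fun ab => (Ms1.filter (· ∣ Y ab / Mp / PP R M0 M1 l)).card) rho
        (fun ab hab => (Finset.mem_filter.1 hab).2)
      simpa using this
    have up : ∑ k ∈ Ms1, ((D l).filter (fun ab => k ∣ Y ab / Mp / PP R M0 M1 l)).card
        ≤ Ms1.card := by
      have := Finset.sum_le_card_nsmul Ms1
        (fun k => ((D l).filter (fun ab => k ∣ Y ab / Mp / PP R M0 M1 l)).card) 1 key
      simpa using this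
    have fin : (D l).card * rho ≤ 32 * rho := by
      rw [dc] at lo
      omega
    exact Nat.le_of_mul_le_mul_right fin hrho
  have cB : (Ms.biUnion B).card ≤ r := by
    refine le_trans (Finset.card_biUnion_le_card_mul Ms B 1 hB) (by omega)
  have cCD : ((Finset.range m).biUnion (fun l => C l ∪ D l)).card ≤ m * 33 := by
    refine le_trans (Finset.card_biUnion_le_card_mul (Finset.range m) _ 33 ?_) (by simp)
    intro l hl
    have hl' := Finset.mem_range.1 hl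
    have u := Finset.card_union_le (C l) (D l)
    have v := hC l hl'
    have w := hD l hl'
    omega
  have t1 := Finset.card_le_card hsub
  have t2 := Finset.card_union_le (A ∪ Ms.biUnion B) ((Finset.range m).biUnion (fun l => C l ∪ D l))
  have t3 := Finset.card_union_le A (Ms.biUnion B)
  omega

open Classical in
/-- **U4 of helper638 #13273**, literal. -/
theorem spoil (m r K Mp R M0 M1 rho : ℕ) (Ms Ms1 : Finset ℕ) (hMp : 2^(K+10) ≤ Mp)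
    (hR : 2^(K+10) ≤ R) (h0 : 2^(K+10) ≤ M0) (h1 : 2^(K+10) ≤ M1)
    (hMs : ∀ k ∈ Ms, 2^(K+10) ≤ k ∧ k ∣ M0) (hMs1 : ∀ k ∈ Ms1, 2^(K+10) ≤ k ∧ k ∣ M1)
    (hc : Ms.card ≤ r) (hc1 : Ms1.card ≤ 32*rho) (hrho : 0 < rho) :
    ∃ (x : ℕ → ℕ) (T0 : ℕ),
      (∀ a b c d, a < K → b < K → c < K → d < K →
        (Mp:ℤ) ∣ ((x a:ℤ) - x b) - (x c - x d) → (a = c ∧ b = d) ∨ (a = b ∧ c = d)) ∧
      ∀ T, T0 ≤ T → (((Finset.range K ×ˢ Finset.range K).filter (fun ab =>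
        ab.1 ≠ ab.2 ∧ Bad R M0 M1 m rho Ms Ms1 ((T + x ab.1 - x ab.2) / Mp))).card
          ≤ 2 + r + 34*m) := by
  refine ⟨fun a => 2^a*(16*SS Mp R M0 M1 m), 2^K*(16*SS Mp R M0 M1 m), ?_, ?_⟩
  · intro a b c d ha hb hc' hd hdv
    obtain ⟨h, hh⟩ := SS_tail Mp R M0 M1 0 m
    rw [zero_add] at hh
    have hS : ∃ g, SS Mp R M0 M1 m = 1 + Mp*g := by
      refine ⟨1 + M0 + PP R M0 M1 0 * h, ?_⟩
      rw [hh]; simp only [SS]; ring
    obtain ⟨g, hg⟩ := hS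
    have hgZ : (SS Mp R M0 M1 m : ℤ) = 1 + Mp*g := by exact_mod_cast hg
    set E : ℤ := (2:ℤ)^a - 2^b - 2^c + 2^d with hEdef
    have hdv2 : (Mp:ℤ) ∣ 16*E := by
      have e1 : (((2^a*(16*SS Mp R M0 M1 m) : ℕ):ℤ) - ((2^b*(16*SS Mp R M0 M1 m) : ℕ):ℤ))
          - (((2^c*(16*SS Mp R M0 M1 m) : ℕ):ℤ) - ((2^d*(16*SS Mp R M0 M1 m) : ℕ):ℤ))
          = 16*E + Mp*(16*E*g) := by
        push_cast
        rw [hgZ, hEdef]; ring
      simp only at hdv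
      rw [e1] at hdv
      exact (Int.dvd_add_left (Dvd.intro _ rfl)).1 hdv
    have hE0 : E = 0 := by
      by_contra hne
      have h5 : 2^a + 2^d ≤ 2^K := two_pow_add ha hd
      have h6 : 2^b + 2^c ≤ 2^K := two_pow_add hb hc'
      have h5' : (2:ℤ)^a + 2^d ≤ 2^K := by exact_mod_cast h5
      have h6' : (2:ℤ)^b + 2^c ≤ 2^K := by exact_mod_cast h6
      have p1 : (0:ℤ) < 2^a := by positivity
      have p2 : (0:ℤ) < 2^b := by positivity
      have p3 : (0:ℤ) < 2^c := by positivity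
      have p4 : (0:ℤ) < 2^d := by positivity
      have hEabs : |E| ≤ 2^K := by
        rw [abs_le, hEdef]; constructor <;> linarith
      have hne' : 16*E ≠ 0 := by
        intro h0; apply hne; linarith
      have h7 : (Mp:ℤ) ≤ |16*E| := by
        have := Int.le_of_dvd (abs_pos.2 hne') ((dvd_abs _ _).2 hdv2)
        exact this
      have h8 : |16*E| = 16*|E| := by rw [abs_mul]; norm_num
      have h9 : (1024:ℤ) * 2^K ≤ Mp := by
        have : (2:ℤ)^(K+10) ≤ Mp := by exact_mod_cast hMp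
        calc (1024:ℤ) * 2^K = 2^(K+10) := by rw [pow_add]; norm_num; ring
          _ ≤ Mp := this
      have hK1 : (1:ℤ) ≤ 2^K := one_le_pow₀ (by norm_num)
      rw [h8] at h7
      linarith
    have h3 : (2:ℤ)^a + 2^d = 2^b + 2^c := by rw [hEdef] at hE0; linarith
    have h4 : 2^a + 2^d = 2^b + 2^c := by exact_mod_cast h3
    rcases two_pow_sum h4 with ⟨u, v⟩ | ⟨u, v⟩
    · exact Or.inr ⟨u, v.symm⟩
    · exact Or.inl ⟨u, v.symm⟩
  · intro T hT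
    have := spoil' m r K Mp R M0 M1 rho Ms Ms1 hMp hR h0 h1 hMs hMs1 hc hc1 hrho T hT
      ((Finset.range K ×ˢ Finset.range K).filter (fun ab =>
        ab.1 ≠ ab.2 ∧ Bad R M0 M1 m rho Ms Ms1
          ((T + 2^ab.1*(16*SS Mp R M0 M1 m) - 2^ab.2*(16*SS Mp R M0 M1 m)) / Mp))) ?_
    · exact le_trans this (by omega)
    · intro ab hab
      simp only [Finset.mem_filter, Finset.mem_product, Finset.mem_range] at hab
      exact ⟨hab.1.1, hab.1.2, hab.2.1, hab.2.2⟩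

end Crest.Agent.R320.Spoil_747
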