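import Crest.Agent.R320.HalfB_853
import Crest.Agent.R320.Ruler_853

/-! Row 320, helper853: the spoiling lemma. -/

set_option autoImplicit false
set_option linter.unusedSectionVars false

namespace Crest.Agent.R320.Half853

open Crest.Agent.R320.Gad1_420 (Rule)

/-- powers of two: differences determine the pair. -/
theorem pow_pair {a b a' b' : ℕ} (h1 : a ≠ b)
    (h : (2:ℤ) ^ a - 2 ^ b = 2 ^ a' - 2 ^ b') : a = a' ∧ b = b' := by
  have h' : 2 ^ a + 2 ^ b' = 2 ^ a' + (2:ℤ) ^ b := by linarith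
  rcases Ruler_853.two_pow_sum h' with ⟨h3, h4⟩ | ⟨h3, h4⟩
  · exact absurd h3 h1
  · exact ⟨h3, h4.symm⟩

/-- gap in position form. -/
theorem gap_eq {α : Type*} {R : List α → Prop} {W : ℕ}
    (hW : ∀ Q d, R Q → 0 < d → d ≤ W → ¬ R (Q.drop d)) {U : List α} {s t : ℕ}
    (hs : R (U.drop s)) (ht : R (U.drop t)) (h1 : s ≤ t + W) (h2 : t ≤ s + W) : s = t := by
  rcases lt_trichotomy s t with h | h | h
  · exfalso
    refine hW (U.drop s) (t - s) hs (by omega) (by omega) ?_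
    rw [List.drop_drop]
    have : s + (t - s) = t := by omega
    rw [this]; exact ht
  · exact h
  · exfalso
    refine hW (U.drop t) (s - t) ht (by omega) (by omega) ?_
    rw [List.drop_drop]
    have : t + (s - t) = s := by omega
    rw [this]; exact hs

namespace Dt

variable {α S V : Type*} [Monoid S] [AddCommGroup V] {D : Dt α S V}

/-- the numbers used by the spoiling lemma. -/
structure Sp (D : Dt α S V) (Ms : Finset ℕ) (κ X M Lam W g : ℕ) : Prop where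
  hgood : ∀ T, ¬ D.good T → ∃ q ∈ Ms, q ∣ T
  hK : ∀ x ∈ D.K, ∃ j, j < κ ∧ x = D.C.n + 2 ^ j * X
  hc : 2 ^ (κ + 2) < D.C.c
  hq : ∀ q ∈ Ms, 2 ^ (κ + 5) < q
  hqM : ∀ q ∈ Ms, q ∣ M
  hX : X = 1 + 3 * D.C.c + 3 * D.C.c * M
  hw : D.w = D.C.c * M
  hLam : Lam = 2 ^ κ * X
  hW : ∀ Q d, D.C.R Q → 0 < d → d ≤ W → ¬ D.C.R (Q.drop d)
  hW' : D.z2 + 2 * D.N1 + 2 * Lam ≤ D.C.z1 + W
  hg : ∀ Q d, D.Rs Q → 0 < d → d ≤ g → ¬ D.Rs (Q.drop d)
  hg' : 2 * Lam + 2 * D.w ≤ g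
  hτ : ∀ ρ ρ', ρ < D.C.c → ρ' < D.C.c → ρ ≠ ρ' → D.C.τ ρ + (2 * D.N1 + 2 * Lam) < D.C.τ ρ' ∨
    D.C.τ ρ' + (2 * D.N1 + 2 * Lam) < D.C.τ ρ

variable (H : D.Hy) {Ms : Finset ℕ} {κ X M Lam W g : ℕ} (Hs : Sp D Ms κ X M Lam W g)
include H Hs

/-- the key: a small multiple of `X`. -/
theorem delta {x y x' y' : ℕ} (hx : x ∈ D.K) (hy : y ∈ D.K) (hx' : x' ∈ D.K) (hy' : y' ∈ D.K)
    (hxy : y ≠ x) :
    ∃ δ : ℤ, ((x:ℤ) - y) - ((x':ℤ) - y') = δ * X ∧ |δ| ≤ 2 ^ (κ + 1) ∧ (δ = 0 → x = x') ∧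
      (x:ℤ) - y ≤ Lam ∧ (y:ℤ) - x ≤ Lam ∧ (x':ℤ) - y' ≤ Lam ∧ (y':ℤ) - x' ≤ Lam := by
  obtain ⟨a, ha, rfl⟩ := Hs.hK x hx
  obtain ⟨b, hb, rfl⟩ := Hs.hK y hy
  obtain ⟨a', ha', rfl⟩ := Hs.hK x' hx'
  obtain ⟨b', hb', rfl⟩ := Hs.hK y' hy'
  have hp : ∀ j, j < κ → (2:ℤ) ^ j ≤ 2 ^ κ := fun j hj =>
    pow_le_pow_right₀ (by norm_num) hj.le
  have hp0 : ∀ j : ℕ, (0:ℤ) < 2 ^ j := fun j => by positivity
  have hab : a ≠ b := by
    rintro rfl; exact hxy rfl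
  have hX0 : (0:ℤ) ≤ X := by positivity
  have hL : (Lam:ℤ) = 2 ^ κ * X := by rw [Hs.hLam]; push_cast; ring
  refine ⟨((2:ℤ) ^ a - 2 ^ b) - (2 ^ a' - 2 ^ b'), ?_, ?_, ?_, ?_, ?_, ?_, ?_⟩
  · push_cast; ring
  · have h1 := hp a ha
    have h2 := hp b hb
    have h3 := hp a' ha'
    have h4 := hp b' hb'
    have h5 := hp0 a
    have h6 := hp0 b
    have h7 := hp0 a'
    have h8 := hp0 b'
    rw [abs_le, pow_succ]
    constructor <;> linarith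
  · intro h
    have := (pow_pair (a := a) (b := b) (a' := a') (b' := b') hab (by linarith)).1
    rw [this]
  · rw [hL]; push_cast; nlinarith [hp a ha, hp0 b, hp0 a]
  · rw [hL]; push_cast; nlinarith [hp b hb, hp0 b, hp0 a]
  · rw [hL]; push_cast; nlinarith [hp a' ha', hp0 b', hp0 a']
  · rw [hL]; push_cast; nlinarith [hp b' hb', hp0 b', hp0 a']

/-- same threshold event. -/
theorem same_E {U : List α} {x y x' y' : ℕ} (hx : x ∈ D.K) (hy : y ∈ D.K) (hx' : x' ∈ D.K)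
    (hy' : y' ∈ D.K) (hxy : y ≠ x) (h : D.EB (U.drop (x + (D.p0 - y))))
    (h' : D.EB (U.drop (x' + (D.p0 - y')))) : x = x' := by
  obtain ⟨δ, e, hδ, h0, l1, l2, l3, l4⟩ := delta H Hs hx hy hx' hy' hxy
  obtain ⟨t, t1, t2, t3⟩ := h
  obtain ⟨t', t1', t2', t3'⟩ := h'
  rw [List.drop_drop] at t1 t1'
  have hyp := H.Kp y hy
  have hyp' := H.Kp y' hy'
  have hz1 := D.C.z1le ((D.p0 + t) % D.C.c)
  have hz1' := D.C.z1le ((D.p0 + t') % D.C.c)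
  have hz2 := H.τ2 ((D.p0 + t) % D.C.c)
  have hz2' := H.τ2 ((D.p0 + t') % D.C.c)
  have hW := Hs.hW'
  have hpos : x + (D.p0 - y) + t = x' + (D.p0 - y') + t' :=
    gap_eq Hs.hW t1 t1' (by omega) (by omega)
  have hcp := H.cpos
  have hres : (D.p0 + t) % D.C.c = (D.p0 + t') % D.C.c := by
    by_contra hne
    rcases Hs.hτ _ _ (Nat.mod_lt _ hcp) (Nat.mod_lt _ hcp) hne with h5 | h5 <;> omega
  apply h0
  have hd : ((D.C.c : ℤ)) ∣ δ := by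
    have h6 : ((D.p0 + t : ℕ) : ℤ) ≡ ((D.p0 + t' : ℕ) : ℤ) [ZMOD D.C.c] := by
      exact (Int.natCast_modEq_iff).2 hres
    have h7 := h6.symm.dvd
    have h8 : ((D.p0 + t : ℕ) : ℤ) - ((D.p0 + t' : ℕ) : ℤ) = - (δ * X) := by
      rw [← e]; push_cast; omega
    rw [h8, Hs.hX] at h7
    have h9 : δ = -(-(δ * ((1 + 3 * D.C.c + 3 * D.C.c * M : ℕ) : ℤ))) -
        D.C.c * (3 * δ + 3 * M * δ) := by push_cast; ring
    rw [h9]
    exact dvd_sub (dvd_neg.2 h7) (Dvd.intro _ rfl)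
  have hc := Hs.hc
  have hc' : (2:ℤ) ^ (κ + 1) < D.C.c := by
    have : ((2 ^ (κ + 2) : ℕ) : ℤ) < D.C.c := by exact_mod_cast hc
    push_cast at this
    have h10 : (2:ℤ) ^ (κ + 1) ≤ 2 ^ (κ + 2) := pow_le_pow_right₀ (by norm_num) (by omega)
    linarith
  exact Int.eq_zero_of_abs_lt_dvd hd (by linarith)

/-- same level. -/
theorem same_D {U : List α} {x y x' y' : ℕ} (hx : x ∈ D.K) (hy : y ∈ D.K) (hx' : x' ∈ D.K)
    (hy' : y' ∈ D.K) (hxy : y ≠ x) {k s s' : ℕ}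
    (h1 : D.Ak k ≤ s + D.w) (h2 : s < D.Ak k + D.w) (h3 : D.Rs ((U.drop (x + (D.p0 - y))).drop s))
    (h1' : D.Ak k ≤ s' + D.w) (h2' : s' < D.Ak k + D.w)
    (h3' : D.Rs ((U.drop (x' + (D.p0 - y'))).drop s')) : x = x' := by
  obtain ⟨δ, e, hδ, h0, l1, l2, l3, l4⟩ := delta H Hs hx hy hx' hy' hxy
  rw [List.drop_drop] at h3 h3'
  have hyp := H.Kp y hy
  have hyp' := H.Kp y' hy'
  have hg := Hs.hg'
  have hpos : x + (D.p0 - y) + s = x' + (D.p0 - y') + s' :=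
    gap_eq Hs.hg h3 h3' (by omega) (by omega)
  apply h0
  have h4 : |δ * X| < 2 * D.w := by
    rw [← e, abs_lt]; constructor <;> omega
  have hXw : 2 * (D.w : ℤ) ≤ X := by
    rw [Hs.hw, Hs.hX]; push_cast
    have : (0:ℤ) ≤ D.C.c * M := by positivity
    have : (0:ℤ) ≤ D.C.c := by positivity
    nlinarith
  by_contra hne
  have h5 : 1 ≤ |δ| := Int.one_le_abs hne
  rw [abs_mul] at h4
  have h6 : |(X:ℤ)| = X := abs_of_nonneg (by positivity)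
  rw [h6] at h4
  nlinarith [show (0:ℤ) ≤ X by positivity]

/-- same modulus and same wall. -/
theorem same_B {x y x' y' : ℕ} (hx : x ∈ D.K) (hy : y ∈ D.K) (hx' : x' ∈ D.K)
    (hy' : y' ∈ D.K) (hxy : y ≠ x) {b b' q : ℕ} (hq : q ∈ Ms) (h1 : q ∣ b / D.C.c)
    (h1' : q ∣ b' / D.C.c) (hpos : x + (D.p0 - y) + b = x' + (D.p0 - y') + b') : x = x' := by
  obtain ⟨δ, e, hδ, h0, l1, l2, l3, l4⟩ := delta H Hs hx hy hx' hy' hxy
  have hyp := H.Kp y hy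
  have hyp' := H.Kp y' hy'
  obtain ⟨k, hk⟩ := h1
  obtain ⟨k', hk'⟩ := h1'
  obtain ⟨M', hM'⟩ := Hs.hqM q hq
  have hcp := H.cpos
  have hb := Nat.div_add_mod b D.C.c
  have hb' := Nat.div_add_mod b' D.C.c
  have hr := Nat.mod_lt b hcp
  have hr' := Nat.mod_lt b' hcp
  rw [hk] at hb
  rw [hk'] at hb'
  set r := b % D.C.c
  set r' := b' % D.C.c
  apply h0
  -- δ (1 + 3c) ≡ r' - r mod qc
  have hZ : δ * (1 + 3 * D.C.c) - ((r':ℤ) - r) =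
      (D.C.c * q) * ((k':ℤ) - k - 3 * M' * δ) := by
    have h5 : (x:ℤ) + (D.p0 - y) + b = x' + (D.p0 - y') + b' := by
      have := congrArg (Nat.cast : ℕ → ℤ) hpos
      push_cast [Nat.cast_sub hyp, Nat.cast_sub hyp'] at this
      exact this
    have h6 : (b:ℤ) = D.C.c * (q * k) + r := by
      have := congrArg (Nat.cast : ℕ → ℤ) hb
      push_cast at this
      linarith
    have h7 : (b':ℤ) = D.C.c * (q * k') + r' := by
      have := congrArg (Nat.cast : ℕ → ℤ) hb'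
      push_cast at this
      linarith
    have h8 : δ * (X:ℤ) = b' - b := by rw [← e]; linarith
    have h9 : (X:ℤ) = 1 + 3 * D.C.c + 3 * D.C.c * (q * M') := by
      rw [Hs.hX, hM']; push_cast; ring
    rw [h6, h7, h9] at h8
    linarith
  have hqb : (2:ℤ) ^ (κ + 5) < q := by exact_mod_cast Hs.hq q hq
  have hc0 : (0:ℤ) < D.C.c := by exact_mod_cast hcp
  have h32 : (2:ℤ) ^ (κ + 5) = 16 * 2 ^ (κ + 1) := by rw [pow_add, pow_add]; ring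
  have hpp : (0:ℤ) < 2 ^ (κ + 1) := by positivity
  have hrr : |(r':ℤ) - r| < D.C.c := by
    rw [abs_lt]; constructor <;> omega
  have hzero : (k':ℤ) - k - 3 * M' * δ = 0 := by
    by_contra hne
    have h10 : 1 ≤ |(k':ℤ) - k - 3 * M' * δ| := Int.one_le_abs hne
    have h11 : |(D.C.c * q : ℤ) * ((k':ℤ) - k - 3 * M' * δ)| =
        (D.C.c * q) * |(k':ℤ) - k - 3 * M' * δ| := by
      rw [abs_mul, abs_of_nonneg (by positivity)]
    have h12 : |δ * (1 + 3 * (D.C.c:ℤ)) - ((r':ℤ) - r)| ≤ 2 ^ (κ + 1) * (1 + 3 * D.C.c) + D.C.c := by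
      calc _ ≤ |δ * (1 + 3 * (D.C.c:ℤ))| + |(r':ℤ) - r| := abs_sub _ _
        _ ≤ _ := by
          rw [abs_mul, abs_of_nonneg (show (0:ℤ) ≤ 1 + 3 * (D.C.c:ℤ) by positivity)]
          have : |δ| * (1 + 3 * (D.C.c:ℤ)) ≤ 2 ^ (κ + 1) * (1 + 3 * D.C.c) :=
            mul_le_mul_of_nonneg_right hδ (by positivity)
          linarith
    rw [hZ, h11] at h12
    have h13 : (D.C.c * q : ℤ) ≤ (D.C.c * q) * |(k':ℤ) - k - 3 * M' * δ| :=
      le_mul_of_one_le_right (by positivity) h10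
    have h14 : (D.C.c : ℤ) * (16 * 2 ^ (κ + 1)) < D.C.c * q := by
      rw [← h32]; exact mul_lt_mul_of_pos_left hqb hc0
    have h15 : (1:ℤ) ≤ D.C.c := hc0
    nlinarith
  rw [hzero, mul_zero, sub_eq_zero] at hZ
  rw [← hZ, abs_mul, abs_of_nonneg (show (0:ℤ) ≤ 1 + 3 * (D.C.c:ℤ) by positivity)] at hrr
  by_contra hne
  have h16 : 1 ≤ |δ| := Int.one_le_abs hne
  nlinarith

end Dt

end Crest.Agent.R320.Half853
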