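import Mathlib

/-!
Row 320, TEAM U, leaf U4 (helper638 #13273): the ruler and the thin set of totals.
-/

set_option autoImplicit false
set_option linter.all false

namespace Crest.Agent.R320.Spoil_891

def PP (R M0 M1 l : ℕ) := (R*M0) * (R*M1)^l

def beta (R M0 M1 m n l : ℕ) := PP R M0 M1 m * (3*l+2) + n % PP R M0 M1 l

def Bad (R M0 M1 m rho : ℕ) (Ms Ms1 : Finset ℕ) (n : ℕ) : Prop :=
  (n % (R*M0) < M0 ∨ R*M0 ≤ n % (R*M0) + M0) ∨ (∃ k ∈ Ms, k ∣ n) ∨
    ∃ l < m, ((n / PP R M0 M1 l) % (R*M1) < M1 ∨ R*M1 ≤ (n / PP R M0 M1 l) % (R*M1) + M1) ∨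
      rho ≤ (Ms1.filter (· ∣ n / PP R M0 M1 l)).card

/-! ### binary ruler -/

theorem two_pow_pair {a b c d : ℕ} (h : (2:ℤ)^a + 2^d = 2^c + 2^b) :
    (a = c ∧ b = d) ∨ (a = b ∧ c = d) := by
  have h' : (2:ℕ)^a + 2^d = 2^c + 2^b := by exact_mod_cast h
  clear h
  -- wlog argument by comparing sizes
  have key : ∀ a b c d : ℕ, a ≤ d → c ≤ b → (2:ℕ)^a + 2^d = 2^c + 2^b → a = c ∧ d = b := by
    intro a b c d had hcb h
    have hdb : d = b := by
      rcases lt_trichotomy d b with hlt | heq | hgt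
      · exfalso
        have h1 : (2:ℕ)^a ≤ 2^d := Nat.pow_le_pow_right (by norm_num) had
        have h2 : (2:ℕ)^(d+1) ≤ 2^b := Nat.pow_le_pow_right (by norm_num) hlt
        have h3 : (0:ℕ) < 2^c := by positivity
        rw [pow_succ] at h2
        omega
      · exact heq
      · exfalso
        have h1 : (2:ℕ)^c ≤ 2^b := Nat.pow_le_pow_right (by norm_num) hcb
        have h2 : (2:ℕ)^(b+1) ≤ 2^d := Nat.pow_le_pow_right (by norm_num) hgt
        have h3 : (0:ℕ) < 2^a := by positivity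
        rw [pow_succ] at h2
        omega
    subst hdb
    have : (2:ℕ)^a = 2^c := by omega
    exact ⟨Nat.pow_right_injective (le_refl 2) this, rfl⟩
  rcases le_total a d with h1 | h1 <;> rcases le_total c b with h2 | h2
  · have := key a b c d h1 h2 h'; omega
  · have := key a c b d h1 h2 (by rw [h']; ring); omega
  · have := key d b c a h1 h2 (by rw [← h']; ring); omega
  · have := key d c b a h1 h2 (by linarith [h']); omega

/-- uniqueness of the pair near `0` modulo `q * s` -/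
theorem near_unique {K q s X Y T : ℕ} (hs : 0 < s) (hq : 2^(K+10) ≤ q) (h1 : s ≤ X)
    (h2 : X ≤ 2*s) (hY : q * s ∣ Y) {a b c d : ℕ} (ha : a < K) (hb : b < K) (hc : c < K)
    (hd : d < K) (hab : a ≠ b) (hcd : c ≠ d) {z z' e e' : ℤ}
    (hv : (T:ℤ) + 16*2^a*(X+Y) - 16*2^b*(X+Y) = z * (q*s) + e)
    (hv' : (T:ℤ) + 16*2^c*(X+Y) - 16*2^d*(X+Y) = z' * (q*s) + e')
    (he : -(s:ℤ) ≤ e) (he1 : e < s) (he' : -(s:ℤ) ≤ e') (he1' : e' < s) : a = c ∧ b = d := by
  obtain ⟨y, hy⟩ := hY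
  have hyz : (Y:ℤ) = q*s*y := by exact_mod_cast hy
  set δ : ℤ := (2^a - 2^b) - (2^c - 2^d) with hδ
  have hp : ∀ i, i < K → (2:ℤ)^i ≤ 2^K := fun i hi =>
    pow_le_pow_right₀ (by norm_num) hi.le
  have hp0 : ∀ i : ℕ, (0:ℤ) < 2^i := fun i => by positivity
  have hK : (2:ℤ)^(K+10) = 1024 * 2^K := by rw [pow_add]; norm_num; ring
  have hqz : 1024 * 2^K ≤ (q:ℤ) := by rw [← hK]; exact_mod_cast hq
  have hsz : (0:ℤ) < s := by exact_mod_cast hs
  have h1z : (s:ℤ) ≤ X := by exact_mod_cast h1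
  have h2z : (X:ℤ) ≤ 2*s := by exact_mod_cast h2
  by_cases h0 : δ = 0
  · have : (2:ℤ)^a + 2^d = 2^c + 2^b := by rw [hδ] at h0; linarith
    rcases two_pow_pair this with h | h
    · exact h
    · exact absurd h.1 hab
  · exfalso
    -- difference
    set t : ℤ := z - z' - 16 * δ * y with ht
    have hd1 : 16 * δ * X = t * (q*s) + (e - e') := by
      have h3 : ((T:ℤ) + 16*2^a*(X+Y) - 16*2^b*(X+Y)) - ((T:ℤ) + 16*2^c*(X+Y) - 16*2^d*(X+Y))
          = (z * (q*s) + e) - (z' * (q*s) + e') := by rw [hv, hv']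
      rw [ht]
      have h4 : 16 * δ * (X + Y) = (z - z') * (q*s) + (e - e') := by
        rw [hδ]; linarith
      rw [hyz] at h4
      linarith
    have habs : |δ| ≤ 2 * 2^K := by
      rw [abs_le, hδ]
      have := hp a ha; have := hp b hb; have := hp c hc; have := hp d hd
      have := hp0 a; have := hp0 b; have := hp0 c; have := hp0 d
      constructor <;> linarith
    have hδ1 : 1 ≤ |δ| := Int.one_le_abs h0
    have hX : |16 * δ * X| = 16 * |δ| * X := by
      rw [abs_mul, abs_mul]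
      simp
    have hlow : 16 * (s:ℤ) ≤ |16 * δ * X| := by
      rw [hX]
      have h31 : (s:ℤ) ≤ |δ| * X := h1z.trans (le_mul_of_one_le_left (hsz.le.trans h1z) hδ1)
      calc 16 * (s:ℤ) ≤ 16 * (|δ| * X) := by linarith
        _ = 16 * |δ| * X := by ring
    have hup : |16 * δ * X| ≤ 64 * 2^K * s := by
      rw [hX]
      have h30 : |δ| * X ≤ (2 * 2^K) * (2*s) := mul_le_mul habs h2z (by positivity) (by positivity)
      calc 16 * |δ| * (X:ℤ) = 16 * (|δ| * X) := by ring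
        _ ≤ 16 * ((2 * 2^K) * (2*s)) := by linarith
        _ = 64 * 2^K * s := by ring
    have hee : |e - e'| < 2 * s := by rw [abs_lt]; constructor <;> linarith
    by_cases ht0 : t = 0
    · rw [ht0, zero_mul, zero_add] at hd1
      rw [hd1] at hlow
      linarith
    · have ht1 : 1 ≤ |t| := Int.one_le_abs ht0
      have h5 : t * (q*s) = 16 * δ * X - (e - e') := by linarith
      have h6 : |t * (q*s)| ≤ |16 * δ * X| + |e - e'| := by
        rw [h5]; exact abs_sub _ _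
      have h7 : |t * ((q:ℤ)*s)| = |t| * (q*s) := by
        rw [abs_mul, abs_of_nonneg (a := (q:ℤ)*s) (by positivity)]
      have h8 : (q:ℤ)*s ≤ |t| * (q*s) :=
        le_mul_of_one_le_left (mul_nonneg (Int.natCast_nonneg q) hsz.le) ht1
      have h9 : 1024 * (2^K * (s:ℤ)) ≤ q * s := by
        have h9' := mul_le_mul_of_nonneg_right hqz hsz.le
        rw [mul_assoc] at h9'
        exact h9'
      have h12 : (1:ℤ) ≤ 2^K := Int.add_one_le_iff.2 (hp0 K)
      have h10 : (s:ℤ) ≤ 2^K * s := le_mul_of_one_le_left hsz.le h12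
      have h13 : |16 * δ * X| ≤ 64 * (2^K * (s:ℤ)) := by rw [← mul_assoc]; exact hup
      rw [h7] at h6
      clear hv hv' hd1 h5 hp hp0 hyz h7 ht hX
      generalize (2:ℤ)^K * (s:ℤ) = P at *
      generalize |16 * δ * (X:ℤ)| = P2 at *
      generalize |t| * ((q:ℤ) * s) = P3 at *
      generalize (q:ℤ) * s = P4 at *
      linarith

/-- digit near `0` -/
theorem near_of_mod {v D Q M : ℕ} (hD : 0 < D) (hQ : 0 < Q) (hM : 0 < M)
    (h : (v / D) % (Q*M) < M ∨ Q*M ≤ (v / D) % (Q*M) + M) :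
    ∃ z e : ℤ, (v:ℤ) = z * ((Q:ℤ)*((D*M : ℕ):ℤ)) + e ∧ -((D*M : ℕ):ℤ) ≤ e ∧ e < ((D*M : ℕ):ℤ) := by
  set n := v / D with hn
  have h1 := Nat.div_add_mod v D
  have h2 := Nat.mod_lt v hD
  have h3 := Nat.div_add_mod n (Q*M)
  have hQM : 0 < Q*M := Nat.mul_pos hQ hM
  have h4 := Nat.mod_lt n hQM
  set z0 := n / (Q*M) with hz0
  set e0 := n % (Q*M) with he0
  set e1 := v % D with he1
  rw [← hn] at h1
  have hv : (v:ℤ) = D * (Q*M*z0 + e0) + e1 := by
    rw [← h1, ← h3]; push_cast; ring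
  have h2z : (e1:ℤ) < D := by exact_mod_cast h2
  have h20 : (0:ℤ) ≤ e1 := by positivity
  have hDz : (0:ℤ) < D := by exact_mod_cast hD
  rcases h with h | h
  · refine ⟨z0, D*e0 + e1, ?_, ?_, ?_⟩
    · rw [hv]; push_cast; ring
    · have : (0:ℤ) ≤ D*e0 := by positivity
      have : (0:ℤ) ≤ ((D*M:ℕ):ℤ) := by positivity
      linarith
    · have h5 : (e0:ℤ) + 1 ≤ M := by exact_mod_cast h
      push_cast
      nlinarith
  · refine ⟨z0 + 1, D*e0 + e1 - D*(Q*M), ?_, ?_, ?_⟩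
    · rw [hv]; push_cast; ring
    · have h5 : (Q:ℤ)*M ≤ e0 + M := by exact_mod_cast h
      push_cast
      nlinarith
    · have h5 : (e0:ℤ) + 1 ≤ Q*M := by exact_mod_cast h4
      have h6 : (0:ℤ) < ((D*M:ℕ):ℤ) := by positivity
      nlinarith

theorem near_of_dvd {v D k : ℕ} (hD : 0 < D) (h : k ∣ v / D) :
    ∃ z e : ℤ, (v:ℤ) = z * ((k:ℤ)*(D:ℤ)) + e ∧ -(D:ℤ) ≤ e ∧ e < (D:ℤ) := by
  obtain ⟨y, hy⟩ := h
  have h1 := Nat.div_add_mod v D
  have h2 := Nat.mod_lt v hD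
  refine ⟨y, (v % D : ℕ), ?_, ?_, ?_⟩
  · rw [hy] at h1
    have : (v:ℤ) = D * (k*y) + (v % D : ℕ) := by exact_mod_cast h1.symm
    rw [this]; ring
  · have : (0:ℤ) ≤ ((v % D : ℕ):ℤ) := by positivity
    have : (0:ℤ) < D := by exact_mod_cast hD
    linarith
  · exact_mod_cast h2

/-! ### the sum of scales -/

def A (R M0 M1 Mp : ℕ) : ℕ → ℕ
  | 0 => 1 + Mp + Mp*M0
  | l+1 => A R M0 M1 Mp l + Mp * PP R M0 M1 l + Mp * PP R M0 M1 l * M1

theorem PP_zero (R M0 M1 : ℕ) : PP R M0 M1 0 = R*M0 := by simp [PP]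
theorem PP_succ (R M0 M1 l : ℕ) : PP R M0 M1 (l+1) = PP R M0 M1 l * (R*M1) := by
  simp [PP, pow_succ, mul_assoc]

theorem PP_dvd (R M0 M1 : ℕ) {l m : ℕ} (h : l ≤ m) : PP R M0 M1 l ∣ PP R M0 M1 m := by
  unfold PP
  exact mul_dvd_mul_left _ (pow_dvd_pow _ h)

/-- the part of the sum above level `l` is a multiple of `Mp * PP l` -/
theorem A_diff (R M0 M1 Mp : ℕ) {l m : ℕ} (h : l ≤ m) :
    ∃ Y, A R M0 M1 Mp m = A R M0 M1 Mp l + Mp * PP R M0 M1 l * Y := by
  induction m, h using Nat.le_induction with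
  | base => exact ⟨0, by simp⟩
  | succ m hm ih =>
    obtain ⟨Y, hY⟩ := ih
    obtain ⟨c, hc⟩ := PP_dvd R M0 M1 hm
    refine ⟨Y + c + c*M1, ?_⟩
    rw [A, hY, hc]
    ring

theorem A_le {R M0 M1 Mp : ℕ} (hMp : 2 ≤ Mp) (hR : 2 ≤ R) (h0 : 2 ≤ M0) (h1 : 2 ≤ M1) (l : ℕ) :
    A R M0 M1 Mp l ≤ Mp * PP R M0 M1 l := by
  induction l with
  | zero =>
    rw [A, PP_zero]
    have h2 : 2 * (Mp * M0) ≤ R * (Mp * M0) := Nat.mul_le_mul_right _ hR
    have h3 : Mp * 2 ≤ Mp * M0 := Nat.mul_le_mul_left _ h0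
    have h4 : R * (Mp*M0) = Mp * (R*M0) := by ring
    omega
  | succ l ih =>
    rw [A, PP_succ]
    set P := Mp * PP R M0 M1 l with hP
    have h2 : P * 2 ≤ P * M1 := Nat.mul_le_mul_left _ h1
    have h3 : 2 * (P * M1) ≤ R * (P * M1) := Nat.mul_le_mul_right _ hR
    have h4 : R * (P * M1) = Mp * (PP R M0 M1 l * (R * M1)) := by rw [hP]; ring
    omega

open scoped Classical in
theorem spoil (m r K Mp R M0 M1 rho : ℕ) (Ms Ms1 : Finset ℕ) (hMp : 2^(K+10) ≤ Mp)
    (hR : 2^(K+10) ≤ R) (h0 : 2^(K+10) ≤ M0) (h1 : 2^(K+10) ≤ M1)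
    (hMs : ∀ k ∈ Ms, 2^(K+10) ≤ k ∧ k ∣ M0) (hMs1 : ∀ k ∈ Ms1, 2^(K+10) ≤ k ∧ k ∣ M1)
    (hc : Ms.card ≤ r) (hc1 : Ms1.card ≤ 32*rho) (hrho : 0 < rho) :
    ∃ (x : ℕ → ℕ) (T0 : ℕ), (∀ a b c d, a < K → b < K → c < K → d < K →
      (Mp:ℤ) ∣ ((x a:ℤ) - x b) - (x c - x d) → (a = c ∧ b = d) ∨ (a = b ∧ c = d)) ∧
      ∀ T, T0 ≤ T → (((Finset.range K ×ˢ Finset.range K).filter (fun ab => ab.1 ≠ ab.2 ∧
        Bad R M0 M1 m rho Ms Ms1 ((T + x ab.1 - x ab.2) / Mp))).card ≤ 2 + r + 34*m) := by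
  have hK1 : 2 ≤ 2^(K+10) := by
    have : (2:ℕ)^1 ≤ 2^(K+10) := Nat.pow_le_pow_right (by norm_num) (by omega)
    simpa using this
  have hMp2 : 2 ≤ Mp := hK1.trans hMp
  have hR2 : 2 ≤ R := hK1.trans hR
  have h02 : 2 ≤ M0 := hK1.trans h0
  have h12 : 2 ≤ M1 := hK1.trans h1
  set Tot := A R M0 M1 Mp m with hTot
  refine ⟨fun a => 16 * 2^a * Tot, 16 * 2^K * Tot, ?_, ?_⟩
  · -- ruler
    intro a b c d ha hb hcK hd hdvd
    obtain ⟨Y, hY⟩ := A_diff R M0 M1 Mp (Nat.zero_le m)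
    rw [← hTot, A] at hY
    have hp : ∀ i, i < K → (2:ℤ)^i ≤ 2^K := fun i hi => pow_le_pow_right₀ (by norm_num) hi.le
    have hp0 : ∀ i : ℕ, (0:ℤ) < 2^i := fun i => by positivity
    have hTz : (Tot:ℤ) = 1 + Mp * (1 + M0 + PP R M0 M1 0 * Y) := by
      rw [hY]; push_cast; ring
    have hK : (2:ℤ)^(K+10) = 1024 * 2^K := by rw [pow_add]; norm_num; ring
    have hMpz : 1024 * 2^K ≤ (Mp:ℤ) := by rw [← hK]; exact_mod_cast hMp
    have hdv : (Mp:ℤ) ∣ 16 * (((2:ℤ)^a - 2^b) - (2^c - 2^d)) := by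
      have h2 : (((16 * 2^a * Tot : ℕ):ℤ) - ((16 * 2^b * Tot : ℕ):ℤ)) -
          (((16 * 2^c * Tot : ℕ):ℤ) - ((16 * 2^d * Tot : ℕ):ℤ)) =
          16 * (((2:ℤ)^a - 2^b) - (2^c - 2^d)) +
          Mp * (16 * (((2:ℤ)^a - 2^b) - (2^c - 2^d)) * (1 + M0 + PP R M0 M1 0 * Y)) := by
        push_cast
        rw [hTz]; ring
      have h3 : (Mp:ℤ) ∣ 16 * (((2:ℤ)^a - 2^b) - (2^c - 2^d)) +
          Mp * (16 * (((2:ℤ)^a - 2^b) - (2^c - 2^d)) * (1 + M0 + PP R M0 M1 0 * Y)) := by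
        rw [← h2]; exact hdvd
      exact (Int.dvd_add_left (dvd_mul_right _ _)).1 h3
    have hzero : 16 * (((2:ℤ)^a - 2^b) - (2^c - 2^d)) = 0 := by
      apply Int.eq_zero_of_abs_lt_dvd hdv
      rw [abs_lt]
      have := hp a ha; have := hp b hb; have := hp c hcK; have := hp d hd
      have := hp0 a; have := hp0 b; have := hp0 c; have := hp0 d; have := hp0 K
      constructor <;> linarith
    exact two_pow_pair (by linarith)
  · intro T hT
    have hxK : ∀ b, b < K → 16 * 2^b * Tot ≤ T := by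
      intro b hb
      refine le_trans ?_ hT
      exact Nat.mul_le_mul_right _ (Nat.mul_le_mul_left _ (Nat.pow_le_pow_right (by norm_num) hb.le))
    -- value of a pair
    set v : ℕ × ℕ → ℕ := fun ab => T + 16 * 2^ab.1 * Tot - 16 * 2^ab.2 * Tot with hv
    have hvz : ∀ ab : ℕ × ℕ, ab.2 < K →
        ((v ab : ℕ):ℤ) = (T:ℤ) + 16*2^ab.1*Tot - 16*2^ab.2*Tot := by
      intro ab hb
      have := hxK _ hb
      rw [hv]
      simp only
      rw [Nat.cast_sub (by omega)]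
      push_cast
      ring
    set PR := (Finset.range K ×ˢ Finset.range K).filter (fun ab => ab.1 ≠ ab.2) with hPR
    have hmem : ∀ ab ∈ PR, ab.1 < K ∧ ab.2 < K ∧ ab.1 ≠ ab.2 := by
      intro ab h
      rw [hPR, Finset.mem_filter, Finset.mem_product, Finset.mem_range, Finset.mem_range] at h
      exact ⟨h.1.1, h.1.2, h.2⟩
    -- general uniqueness
    have uniq : ∀ (q s X Y : ℕ), 0 < s → 2^(K+10) ≤ q → s ≤ X → X ≤ 2*s → q*s ∣ Y → Tot = X + Y →
        ∀ (C : ℕ × ℕ → Prop) [DecidablePred C], (∀ ab ∈ PR, C ab →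
          ∃ z e : ℤ, ((v ab : ℕ):ℤ) = z * ((q:ℤ)*(s:ℤ)) + e ∧ -(s:ℤ) ≤ e ∧ e < (s:ℤ)) →
        (PR.filter C).card ≤ 1 := by
      intro q s X Y hs hq hsX hX hY hT' C _ hC
      rw [Finset.card_le_one]
      intro p hp p' hp'
      rw [Finset.mem_filter] at hp hp'
      obtain ⟨z, e, h2, h3, h4⟩ := hC p hp.1 hp.2
      obtain ⟨z', e', h2', h3', h4'⟩ := hC p' hp'.1 hp'.2
      obtain ⟨a1, a2, a3⟩ := hmem p hp.1
      obtain ⟨b1, b2, b3⟩ := hmem p' hp'.1
      rw [hvz p a2, hT'] at h2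
      rw [hvz p' b2, hT'] at h2'
      push_cast at h2 h2'
      have := near_unique hs hq hsX hX hY a1 a2 b1 b2 a3 b3 h2 h2' h3 h4 h3' h4'
      exact Prod.ext this.1 this.2
    -- the pieces
    set S0 := PR.filter (fun ab => (v ab / Mp) % (R*M0) < M0 ∨ R*M0 ≤ (v ab / Mp) % (R*M0) + M0)
      with hS0
    set S1 : ℕ → Finset (ℕ × ℕ) := fun k => PR.filter (fun ab => k ∣ v ab / Mp) with hS1
    set S2 : ℕ → Finset (ℕ × ℕ) := fun l => PR.filter (fun ab =>
      (v ab / Mp / PP R M0 M1 l) % (R*M1) < M1 ∨ R*M1 ≤ (v ab / Mp / PP R M0 M1 l) % (R*M1) + M1)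
      with hS2
    set S3 : ℕ → Finset (ℕ × ℕ) := fun l => PR.filter (fun ab =>
      rho ≤ (Ms1.filter (· ∣ v ab / Mp / PP R M0 M1 l)).card) with hS3
    have hPPpos : ∀ l, 0 < PP R M0 M1 l := by
      intro l; unfold PP; positivity
    have c0 : S0.card ≤ 1 := by
      obtain ⟨Y, hY⟩ := A_diff R M0 M1 Mp (Nat.zero_le m)
      rw [← hTot, A, PP_zero] at hY
      refine uniq R (Mp*M0) (1 + Mp + Mp*M0) (Mp * (R*M0) * Y) (by positivity) hR (by omega)
        ?_ ⟨Y, by ring⟩ hY _ ?_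
      · have h3 : Mp * 2 ≤ Mp * M0 := Nat.mul_le_mul_left _ h02
        omega
      · intro ab _ hC
        exact near_of_mod (by omega) (by omega) (by omega) hC
    have c1 : ∀ k ∈ Ms, (S1 k).card ≤ 1 := by
      intro k hk
      obtain ⟨hk1, c, hkc⟩ := hMs k hk
      obtain ⟨Y, hY⟩ := A_diff R M0 M1 Mp (Nat.zero_le m)
      rw [← hTot, A, PP_zero] at hY
      refine uniq k Mp (1 + Mp) (Mp*M0 + Mp * (R*M0) * Y) (by omega) hk1 (by omega)
        (by omega) ⟨c + R*c*Y, by rw [hkc]; ring⟩ (by rw [hY]; ring) _ ?_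
      intro ab _ hC
      exact near_of_dvd (by omega) hC
    have c2 : ∀ l, l < m → (S2 l).card ≤ 1 := by
      intro l hl
      obtain ⟨Y, hY⟩ := A_diff R M0 M1 Mp (Nat.succ_le_of_lt hl)
      rw [← hTot] at hY
      have hA := A_le hMp2 hR2 h02 h12 l
      have hAs : A R M0 M1 Mp (l+1) = A R M0 M1 Mp l + Mp * PP R M0 M1 l + Mp * PP R M0 M1 l * M1 :=
        rfl
      have h3 : Mp * PP R M0 M1 l * 2 ≤ Mp * PP R M0 M1 l * M1 := Nat.mul_le_mul_left _ h12
      have hpos : 0 < Mp * PP R M0 M1 l := Nat.mul_pos (by omega) (hPPpos l)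
      refine uniq R (Mp * PP R M0 M1 l * M1) (A R M0 M1 Mp (l+1))
        (Mp * PP R M0 M1 (l+1) * Y) (Nat.mul_pos hpos (by omega)) hR (by omega) (by omega)
        ⟨Y, by rw [PP_succ]; ring⟩ hY _ ?_
      intro ab _ hC
      rw [Nat.div_div_eq_div_mul] at hC
      exact near_of_mod hpos (by omega) (by omega) hC
    have c3 : ∀ l, l < m → (S3 l).card ≤ 32 := by
      intro l hl
      obtain ⟨Y, hY⟩ := A_diff R M0 M1 Mp (Nat.succ_le_of_lt hl)
      rw [← hTot] at hY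
      have hA := A_le hMp2 hR2 h02 h12 l
      have hAs : A R M0 M1 Mp (l+1) = A R M0 M1 Mp l + Mp * PP R M0 M1 l + Mp * PP R M0 M1 l * M1 :=
        rfl
      have hpos : 0 < Mp * PP R M0 M1 l := Nat.mul_pos (by omega) (hPPpos l)
      have hone : ∀ k ∈ Ms1, (PR.filter (fun ab => k ∣ v ab / Mp / PP R M0 M1 l)).card ≤ 1 := by
        intro k hk
        obtain ⟨hk1, c, hkc⟩ := hMs1 k hk
        refine uniq k (Mp * PP R M0 M1 l) (A R M0 M1 Mp l + Mp * PP R M0 M1 l)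
          (Mp * PP R M0 M1 l * M1 + Mp * PP R M0 M1 (l+1) * Y) hpos hk1 (by omega) (by omega)
          ⟨c + R*c*Y, by rw [PP_succ, hkc]; ring⟩ (by rw [hY, hAs]; ring) _ ?_
        intro ab _ hC
        rw [Nat.div_div_eq_div_mul] at hC
        exact near_of_dvd hpos hC
      have hsum : (S3 l).card * rho ≤ Ms1.card := by
        calc (S3 l).card * rho = ∑ ab ∈ S3 l, rho := by rw [Finset.sum_const, smul_eq_mul]
          _ ≤ ∑ ab ∈ S3 l, (Ms1.filter (· ∣ v ab / Mp / PP R M0 M1 l)).card := by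
              apply Finset.sum_le_sum
              intro ab hab
              rw [hS3] at hab
              exact (Finset.mem_filter.1 hab).2
          _ = ∑ ab ∈ S3 l, ∑ k ∈ Ms1, (if k ∣ v ab / Mp / PP R M0 M1 l then 1 else 0) := by
              apply Finset.sum_congr rfl
              intro ab _
              rw [Finset.card_filter]
          _ = ∑ k ∈ Ms1, ∑ ab ∈ S3 l, (if k ∣ v ab / Mp / PP R M0 M1 l then 1 else 0) :=
              Finset.sum_comm
          _ ≤ ∑ k ∈ Ms1, 1 := by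
              apply Finset.sum_le_sum
              intro k hk
              rw [← Finset.card_filter]
              refine le_trans (Finset.card_le_card ?_) (hone k hk)
              intro ab hab
              rw [Finset.mem_filter] at hab ⊢
              exact ⟨(Finset.mem_filter.1 hab.1).1, hab.2⟩
          _ = Ms1.card := by simp
      have h4 : (S3 l).card * rho ≤ 32 * rho := hsum.trans hc1
      exact Nat.le_of_mul_le_mul_right h4 hrho
    have hsub : ((Finset.range K ×ˢ Finset.range K).filter (fun ab => ab.1 ≠ ab.2 ∧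
        Bad R M0 M1 m rho Ms Ms1 ((T + (fun a => 16 * 2^a * Tot) ab.1 -
          (fun a => 16 * 2^a * Tot) ab.2) / Mp))) ⊆
        S0 ∪ (Ms.biUnion S1 ∪ (Finset.range m).biUnion (fun l => S2 l ∪ S3 l)) := by
      intro ab hab
      rw [Finset.mem_filter] at hab
      obtain ⟨hab1, hne, hbad⟩ := hab
      have hP : ab ∈ PR := by rw [hPR, Finset.mem_filter]; exact ⟨hab1, hne⟩
      rw [Finset.mem_union, Finset.mem_union, Finset.mem_biUnion, Finset.mem_biUnion]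
      rcases hbad with h | ⟨k, hk, h⟩ | ⟨l, hl, h | h⟩
      · left; rw [hS0, Finset.mem_filter]; exact ⟨hP, h⟩
      · right; left; exact ⟨k, hk, Finset.mem_filter.2 ⟨hP, h⟩⟩
      · right; right
        exact ⟨l, Finset.mem_range.2 hl, Finset.mem_union_left _ (Finset.mem_filter.2 ⟨hP, h⟩)⟩
      · right; right
        exact ⟨l, Finset.mem_range.2 hl, Finset.mem_union_right _ (Finset.mem_filter.2 ⟨hP, h⟩)⟩
    refine (Finset.card_le_card hsub).trans ?_
    have e1 : (Ms.biUnion S1).card ≤ r := by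
      have := Finset.card_biUnion_le_card_mul Ms S1 1 c1
      omega
    have e2 : ((Finset.range m).biUnion (fun l => S2 l ∪ S3 l)).card ≤ m * 33 := by
      have := Finset.card_biUnion_le_card_mul (Finset.range m) (fun l => S2 l ∪ S3 l) 33 (by
        intro l hl
        have hl' := Finset.mem_range.1 hl
        have := Finset.card_union_le (S2 l) (S3 l)
        have := c2 l hl'
        have := c3 l hl'
        omega)
      rwa [Finset.card_range] at this
    have e3 := Finset.card_union_le S0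
      (Ms.biUnion S1 ∪ (Finset.range m).biUnion (fun l => S2 l ∪ S3 l))
    have e4 := Finset.card_union_le (Ms.biUnion S1)
      ((Finset.range m).biUnion (fun l => S2 l ∪ S3 l))
    omega

end Crest.Agent.R320.Spoil_891
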