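import Mathlib

/-!
Row 320, leaf U4 of helper638's team U (post 13273): the spoiling count of the repunit ruler.
Pure arithmetic.
-/

set_option autoImplicit false

namespace Crest.Agent.R320.Spoil_902

def PP (R M0 M1 l : ℕ) : ℕ := (R*M0) * (R*M1)^l

def Bad (R M0 M1 m rho : ℕ) (Ms Ms1 : Finset ℕ) (n : ℕ) : Prop :=
  (n % (R*M0) < M0 ∨ R*M0 ≤ n % (R*M0) + M0) ∨ (∃ k ∈ Ms, k ∣ n) ∨
  ∃ l < m, ((n / PP R M0 M1 l) % (R*M1) < M1 ∨ R*M1 ≤ (n / PP R M0 M1 l) % (R*M1) + M1) ∨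
    rho ≤ (Ms1.filter (· ∣ n / PP R M0 M1 l)).card

/-- Powers of two form a Sidon set. -/
theorem pow_sidon {a b c d : ℕ} (hab : a ≠ b)
    (h : (2:ℤ)^a - 2^b = 2^c - 2^d) : a = c ∧ b = d := by
  have h1 : (2:ℕ)^a + 2^d = 2^c + 2^b := by
    have : (2:ℤ)^a + 2^d = 2^c + 2^b := by linarith
    exact_mod_cast this
  have key : ∀ {x y z t : ℕ}, x ≤ y → z ≤ t → (2:ℕ)^x + 2^y = 2^z + 2^t → y ≤ t := by
    intro x y z t hxy hzt h
    by_contra hne
    have hlt : t + 1 ≤ y := by omega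
    have e1 : (2:ℕ)^z ≤ 2^t := Nat.pow_le_pow_right (by norm_num) hzt
    have e2 : (2:ℕ)^(t+1) ≤ 2^y := Nat.pow_le_pow_right (by norm_num) hlt
    have e3 : (2:ℕ)^(t+1) = 2^t + 2^t := by ring
    have e4 : (0:ℕ) < 2^x := by positivity
    omega
  have key2 : ∀ {x y z t : ℕ}, x ≤ y → z ≤ t → (2:ℕ)^x + 2^y = 2^z + 2^t → x = z ∧ y = t := by
    intro x y z t hxy hzt h
    have e1 := key hxy hzt h
    have e2 := key hzt hxy h.symm
    have e3 : y = t := le_antisymm e1 e2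
    subst e3
    have e4 : (2:ℕ)^x = 2^z := by omega
    exact ⟨Nat.pow_right_injective (le_refl 2) e4, rfl⟩
  rcases le_total a d with h2 | h2 <;> rcases le_total c b with h3 | h3
  · have := key2 h2 h3 h1; omega
  · have := key2 h2 h3 (by omega); omega
  · have := key2 h2 h3 (by omega); omega
  · have := key2 h2 h3 (by omega); omega

theorem diff_lt {k a b : ℕ} (ha : a < k) (hb : b < k) : |(2:ℤ)^a - 2^b| < 2^k := by
  have h1 : (2:ℤ)^a < 2^k := pow_lt_pow_right₀ (by norm_num) ha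
  have h2 : (2:ℤ)^b < 2^k := pow_lt_pow_right₀ (by norm_num) hb
  have h3 : (0:ℤ) < 2^a := by positivity
  have h4 : (0:ℤ) < 2^b := by positivity
  rw [abs_lt]; constructor <;> linarith

/-- `y` is within `s` of a multiple of `Q * s`. -/
def Thin (Q s : ℤ) (y : ℤ) : Prop := ∃ t : ℤ, |y - t * (Q * s)| ≤ s

theorem core {K : ℕ} {Sg low s Q H : ℤ} (hS : Sg = low + s + H) (hH : Q * s ∣ H)
    (hlow0 : 0 ≤ low) (hlow : 2^(K+9) * low ≤ s) (hs : 0 < s) (hQ : (2:ℤ)^(K+10) ≤ Q)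
    {a b c d : ℕ} (ha : a < K) (hb : b < K) (hc : c < K) (hd : d < K) (hab : a ≠ b) {T : ℤ}
    (h1 : Thin Q s (T + 16 * 2^a * Sg - 16 * 2^b * Sg))
    (h2 : Thin Q s (T + 16 * 2^c * Sg - 16 * 2^d * Sg)) : a = c ∧ b = d := by
  obtain ⟨t1, h1⟩ := h1
  obtain ⟨t2, h2⟩ := h2
  obtain ⟨hi, rfl⟩ := hH
  set E : ℤ := ((2:ℤ)^a - 2^b) - (2^c - 2^d) with hE
  have hp : (0:ℤ) < 2^K := by positivity
  have hEb : |E| ≤ 2 * 2^K := by
    have h3 := diff_lt ha hb
    have h4 := diff_lt hc hd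
    rw [abs_lt] at h3 h4
    rw [abs_le]
    constructor <;> linarith [h3.1, h3.2, h4.1, h4.2]
  have hlowE : |16 * E * low| ≤ s := by
    have e16 : |(16:ℤ)| = 16 := by norm_num
    rw [abs_mul, abs_mul, abs_of_nonneg hlow0, e16]
    calc 16 * |E| * low ≤ 16 * (2 * 2^K) * low := by gcongr
      _ ≤ 2^(K+9) * low := by
        have h5 : (2:ℤ)^(K+9) = 512 * 2^K := by ring
        rw [h5]
        have : 0 ≤ 2^K * low := by positivity
        nlinarith
      _ ≤ s := hlow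
  set t := t1 - t2 - 16 * E * hi with ht
  have key : (16 * E - t * Q) * s
      = (T + 16*2^a*Sg - 16*2^b*Sg - t1*(Q*s)) - (T + 16*2^c*Sg - 16*2^d*Sg - t2*(Q*s))
        - 16*E*low := by
    rw [hS, ht, hE]; ring
  have hk : |(16 * E - t * Q) * s| ≤ 3 * s := by
    rw [key]
    have g1 := abs_le.mp h1
    have g2 := abs_le.mp h2
    have g3 := abs_le.mp hlowE
    rw [abs_le]
    constructor <;> linarith [g1.1, g1.2, g2.1, g2.2, g3.1, g3.2]
  have hk' : |16 * E - t * Q| ≤ 3 := by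
    rw [abs_mul, abs_of_pos hs] at hk
    exact le_of_mul_le_mul_right hk hs
  have h9 : (2:ℤ)^(K+10) = 1024 * 2^K := by ring
  have h10 : (1:ℤ) ≤ 2^K := one_le_pow₀ (by norm_num)
  have ht0 : t = 0 := by
    by_contra hne
    have h5 : 1 ≤ |t| := Int.one_le_abs hne
    have hQ0 : 0 < Q := by linarith
    have h6 : Q ≤ |t * Q| := by
      rw [abs_mul, abs_of_pos hQ0]; nlinarith
    have h7 : |t * Q| ≤ |16 * E| + 3 := by
      have h71 := abs_sub_abs_le_abs_sub (t*Q) (16*E)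
      rw [abs_sub_comm] at h71
      linarith
    have h8 : |16 * E| ≤ 32 * 2^K := by
      rw [abs_mul]
      have e16 : |(16:ℤ)| = 16 := by norm_num
      rw [e16]; linarith
    linarith
  have hE0 : E = 0 := by
    rw [ht0] at hk'
    have g := abs_le.mp hk'
    have g1 := g.1
    have g2 := g.2
    simp only [zero_mul, sub_zero] at g1 g2
    omega
  apply pow_sidon hab
  linarith

/-- A digit near `0` modulo `R`. -/
theorem thin_digit {y D M R : ℕ} (hD : 0 < D) (hRM : 0 < R * M)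
    (h : (y / D) % (R*M) < M ∨ R*M ≤ (y / D) % (R*M) + M) : Thin R ((D * M : ℕ)) y := by
  set n := y / D with hn
  have e1 : D * n + y % D = y := Nat.div_add_mod y D
  have e2 : y % D < D := Nat.mod_lt _ hD
  have e3 : (R*M) * (n / (R*M)) + n % (R*M) = n := Nat.div_add_mod n (R*M)
  have e4 : n % (R*M) < R*M := Nat.mod_lt _ hRM
  set q := n / (R*M)
  set r := n % (R*M)
  set ρ := y % D
  have z1 : (D:ℤ) * n + ρ = y := by exact_mod_cast e1
  have z3 : ((R:ℤ)*M) * q + r = n := by exact_mod_cast e3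
  have z2 : (ρ:ℤ) < D := by exact_mod_cast e2
  have z2' : (0:ℤ) ≤ ρ := by positivity
  have z4 : (r:ℤ) + 1 ≤ (R:ℤ)*M := by exact_mod_cast e4
  have z5 : (0:ℤ) ≤ r := by positivity
  have zD : (0:ℤ) < D := by exact_mod_cast hD
  have zM : (0:ℤ) ≤ M := by positivity
  rcases h with h | h
  · refine ⟨q, ?_⟩
    have z6 : (r:ℤ) + 1 ≤ M := by exact_mod_cast h
    have z7 : (y:ℤ) - q * (R * ((D*M : ℕ):ℤ)) = D * r + ρ := by
      rw [← z1, ← z3]; push_cast; ring
    rw [z7, abs_le]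
    push_cast
    constructor
    · nlinarith [mul_nonneg zD.le z5, mul_nonneg zD.le zM]
    · nlinarith [mul_le_mul_of_nonneg_left z6 zD.le]
  · refine ⟨q + 1, ?_⟩
    have z6 : (R:ℤ)*M ≤ r + M := by exact_mod_cast h
    have z7 : (y:ℤ) - (q+1) * (R * ((D*M : ℕ):ℤ)) = D * r + ρ - D * (R * M) := by
      rw [← z1, ← z3]; push_cast; ring
    rw [z7, abs_le]
    push_cast
    constructor
    · nlinarith [mul_le_mul_of_nonneg_left z6 zD.le]
    · nlinarith [mul_le_mul_of_nonneg_left z4 zD.le, mul_nonneg zD.le zM]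

/-- A divisor of a quotient. -/
theorem thin_dvd {y D k : ℕ} (hD : 0 < D) (h : k ∣ y / D) : Thin k D y := by
  obtain ⟨j, hj⟩ := h
  have e1 : D * (y / D) + y % D = y := Nat.div_add_mod y D
  have e2 : y % D < D := Nat.mod_lt _ hD
  rw [hj] at e1
  set ρ := y % D
  have z1 : (D:ℤ) * (k * j) + ρ = y := by exact_mod_cast e1
  have z2 : (ρ:ℤ) < D := by exact_mod_cast e2
  have z2' : (0:ℤ) ≤ ρ := by positivity
  refine ⟨j, ?_⟩
  have z7 : (y:ℤ) - j * (k * D) = ρ := by rw [← z1]; ring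
  rw [z7, abs_le]
  constructor <;> linarith

section main

variable (Mp R M0 M1 : ℕ)

/-- The sum of the scales below level `l`. -/
def L : ℕ → ℕ
  | 0 => 1 + Mp + Mp * M0
  | l+1 => L l + (Mp * PP R M0 M1 l + Mp * PP R M0 M1 l * M1)

theorem PP_succ (l : ℕ) : PP R M0 M1 (l+1) = R * (PP R M0 M1 l * M1) := by
  unfold PP; ring

theorem PP_dvd {l j : ℕ} (h : l ≤ j) : PP R M0 M1 l ∣ PP R M0 M1 j := by
  unfold PP
  exact Nat.mul_dvd_mul_left _ (pow_dvd_pow _ h)

theorem decomp {l j : ℕ} (h : l ≤ j) :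
    ∃ H, L Mp R M0 M1 j = L Mp R M0 M1 l + H ∧ Mp * PP R M0 M1 l ∣ H := by
  induction j, h using Nat.le_induction with
  | base => exact ⟨0, rfl, dvd_zero _⟩
  | succ j hj ih =>
    obtain ⟨H, h1, h2⟩ := ih
    refine ⟨H + (Mp * PP R M0 M1 j + Mp * PP R M0 M1 j * M1), ?_, ?_⟩
    · show L Mp R M0 M1 j + _ = _
      rw [h1]; ring
    · have h3 : Mp * PP R M0 M1 l ∣ Mp * PP R M0 M1 j := Nat.mul_dvd_mul_left _ (PP_dvd _ _ _ hj)
      exact dvd_add h2 (dvd_add h3 (Dvd.dvd.mul_right h3 _))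

theorem L_bound {K : ℕ} (hMp : 2^(K+10) ≤ Mp) (hR : 2^(K+10) ≤ R) (h0 : 2^(K+10) ≤ M0)
    (h1 : 2^(K+10) ≤ M1) (l : ℕ) : 2^(K+9) * L Mp R M0 M1 l ≤ Mp * PP R M0 M1 l := by
  have hB : 2^(K+10) = 2 * 2^(K+9) := by ring
  have hB1 : 1 ≤ 2^(K+9) := Nat.one_le_two_pow
  induction l with
  | zero =>
    show 2^(K+9) * (1 + Mp + Mp * M0) ≤ Mp * ((R*M0) * (R*M1)^0)
    have e1 : 1 + Mp + Mp * M0 ≤ 2 * (Mp * M0) := by
      have : Mp * 2 ≤ Mp * M0 := Nat.mul_le_mul_left _ (by omega)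
      omega
    calc 2^(K+9) * (1 + Mp + Mp * M0) ≤ 2^(K+9) * (2 * (Mp * M0)) := Nat.mul_le_mul_left _ e1
      _ = 2^(K+10) * (Mp * M0) := by rw [hB]; ring
      _ ≤ R * (Mp * M0) := Nat.mul_le_mul_right _ hR
      _ = Mp * ((R*M0) * (R*M1)^0) := by ring
  | succ l ih =>
    have e1 : L Mp R M0 M1 l ≤ Mp * PP R M0 M1 l :=
      le_trans (Nat.le_mul_of_pos_left _ (by omega)) ih
    have e2 : L Mp R M0 M1 (l+1) ≤ 2 * (Mp * PP R M0 M1 l * M1) := by
      show L Mp R M0 M1 l + (Mp * PP R M0 M1 l + Mp * PP R M0 M1 l * M1) ≤ _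
      have : Mp * PP R M0 M1 l * 2 ≤ Mp * PP R M0 M1 l * M1 := Nat.mul_le_mul_left _ (by omega)
      omega
    calc 2^(K+9) * L Mp R M0 M1 (l+1) ≤ 2^(K+9) * (2 * (Mp * PP R M0 M1 l * M1)) :=
          Nat.mul_le_mul_left _ e2
      _ = 2^(K+10) * (Mp * PP R M0 M1 l * M1) := by rw [hB]; ring
      _ ≤ R * (Mp * PP R M0 M1 l * M1) := Nat.mul_le_mul_right _ hR
      _ = Mp * PP R M0 M1 (l+1) := by rw [PP_succ]; ring

end main

/-- At most one ordered pair satisfies a thin condition. -/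
theorem card_thin {K : ℕ} {Sg low s Q H : ℤ} (hS : Sg = low + s + H) (hH : Q * s ∣ H)
    (hlow0 : 0 ≤ low) (hlow : 2^(K+9) * low ≤ s) (hs : 0 < s) (hQ : (2:ℤ)^(K+10) ≤ Q)
    {T : ℤ} {A : Finset (ℕ × ℕ)}
    (hA : ∀ ab ∈ A, ab.1 < K ∧ ab.2 < K ∧ ab.1 ≠ ab.2 ∧
      Thin Q s (T + 16 * 2^ab.1 * Sg - 16 * 2^ab.2 * Sg)) : A.card ≤ 1 := by
  rw [Finset.card_le_one]
  intro x hx y hy
  obtain ⟨hx1, hx2, hx3, hx4⟩ := hA x hx
  obtain ⟨hy1, hy2, hy3, hy4⟩ := hA y hy
  have := core hS hH hlow0 hlow hs hQ hx1 hx2 hy1 hy2 hx3 hx4 hy4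
  exact Prod.ext this.1 this.2

theorem card_thin_nat {K Sg low s Q H : ℕ} (hS : Sg = low + s + H) (hH : Q * s ∣ H)
    (hlow : 2^(K+9) * low ≤ s) (hs : 0 < s) (hQ : 2^(K+10) ≤ Q)
    {T : ℕ} (hT : 16 * 2^K * Sg ≤ T) {A : Finset (ℕ × ℕ)}
    (hA : ∀ ab ∈ A, ab.1 < K ∧ ab.2 < K ∧ ab.1 ≠ ab.2 ∧
      Thin Q s ((T + 16 * 2^ab.1 * Sg - 16 * 2^ab.2 * Sg : ℕ) : ℤ)) : A.card ≤ 1 := by
  have hS' : (Sg:ℤ) = (low:ℤ) + s + H := by exact_mod_cast hS
  have hH' : (Q:ℤ) * s ∣ H := by exact_mod_cast hH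
  have hlow' : (2:ℤ)^(K+9) * low ≤ s := by exact_mod_cast hlow
  have hQ' : (2:ℤ)^(K+10) ≤ Q := by exact_mod_cast hQ
  have hs' : (0:ℤ) < s := by exact_mod_cast hs
  refine card_thin (T := (T:ℤ)) hS' hH' (by positivity) hlow' hs' hQ' ?_
  intro ab hab
  obtain ⟨g1, g2, g3, g4⟩ := hA ab hab
  refine ⟨g1, g2, g3, ?_⟩
  have e1 : 16 * 2^ab.2 * Sg ≤ 16 * 2^K * Sg := by
    have : 2^ab.2 ≤ 2^K := Nat.pow_le_pow_right (by norm_num) g2.le
    gcongr
  have e2 : 16 * 2^ab.2 * Sg ≤ T + 16 * 2^ab.1 * Sg := by omega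
  rw [Nat.cast_sub e2] at g4
  push_cast at g4
  exact g4

open Classical in
theorem spoil (m r K Mp R M0 M1 rho : ℕ) (Ms Ms1 : Finset ℕ) (hMp : 2^(K+10) ≤ Mp)
    (hR : 2^(K+10) ≤ R) (h0 : 2^(K+10) ≤ M0) (h1 : 2^(K+10) ≤ M1)
    (hMs : ∀ k ∈ Ms, 2^(K+10) ≤ k ∧ k ∣ M0) (hMs1 : ∀ k ∈ Ms1, 2^(K+10) ≤ k ∧ k ∣ M1)
    (hc : Ms.card ≤ r) (hc1 : Ms1.card ≤ 32*rho) (hrho : 0 < rho) :
    ∃ (x : ℕ → ℕ) (T0 : ℕ),
      (∀ a b c d, a < K → b < K → c < K → d < K →
        (Mp:ℤ) ∣ ((x a:ℤ) - x b) - (x c - x d) → (a = c ∧ b = d) ∨ (a = b ∧ c = d)) ∧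
      ∀ T, T0 ≤ T → (((Finset.range K ×ˢ Finset.range K).filter (fun ab => ab.1 ≠ ab.2 ∧
        Bad R M0 M1 m rho Ms Ms1 ((T + x ab.1 - x ab.2) / Mp))).card ≤ 2 + r + 34*m) := by
  set Sg := L Mp R M0 M1 m with hSg
  have hp : 1 ≤ 2^K := Nat.one_le_two_pow
  have hB : 2^(K+10) = 1024 * 2^K := by ring
  have hB9 : 2^(K+9) = 512 * 2^K := by ring
  have hPP : ∀ l, 0 < PP R M0 M1 l := by
    intro l; unfold PP
    have : 0 < R := by omega
    have : 0 < M0 := by omega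
    have : 0 < M1 := by omega
    positivity
  have hMp0 : 0 < Mp := by omega
  obtain ⟨H0, hH0, hH0d⟩ := decomp Mp R M0 M1 (Nat.zero_le m)
  have hPP0 : PP R M0 M1 0 = R * M0 := by simp [PP]
  have hL0 : L Mp R M0 M1 0 = 1 + Mp + Mp * M0 := rfl
  rw [hL0] at hH0
  rw [hPP0] at hH0d
  refine ⟨fun a => 16 * 2^a * Sg, 16 * 2^K * Sg, ?_, ?_⟩
  · intro a b c d ha hb hc hd hdvd
    set E : ℤ := ((2:ℤ)^a - 2^b) - (2^c - 2^d) with hE
    have hEb : |E| ≤ 2 * 2^K := by
      have h3 := abs_lt.mp (diff_lt ha hb)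
      have h4 := abs_lt.mp (diff_lt hc hd)
      rw [abs_le]
      constructor <;> linarith [h3.1, h3.2, h4.1, h4.2]
    have e1 : (Mp:ℤ) ∣ 16 * E := by
      obtain ⟨u, hu⟩ := hH0d
      have e2 : (Sg:ℤ) = 1 + Mp * (1 + M0 + R * M0 * u) := by
        have : Sg = 1 + Mp * (1 + M0 + R * M0 * u) := by rw [hSg, hH0, hu]; ring
        exact_mod_cast this
      have e3 : ((16 * 2^a * Sg : ℕ):ℤ) - ((16 * 2^b * Sg : ℕ):ℤ)
          - (((16 * 2^c * Sg : ℕ):ℤ) - ((16 * 2^d * Sg : ℕ):ℤ))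
          = 16 * E + Mp * (16 * E * (1 + M0 + R * M0 * u)) := by
        push_cast
        rw [e2, hE]; ring
      have e4 : (Mp:ℤ) ∣ 16 * E + Mp * (16 * E * (1 + M0 + R * M0 * u)) := by
        rw [← e3]; exact hdvd
      exact (Int.dvd_add_left (Dvd.intro _ rfl)).mp e4
    have hpz : (1:ℤ) ≤ 2^K := one_le_pow₀ (by norm_num)
    have hMpz : (1024:ℤ) * 2^K ≤ Mp := by
      have : 1024 * 2^K ≤ Mp := by omega
      exact_mod_cast this
    have e5 : |16 * E| < Mp := by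
      rw [abs_mul]
      have e16 : |(16:ℤ)| = 16 := by norm_num
      rw [e16]; linarith
    have e6 : 16 * E = 0 := Int.eq_zero_of_abs_lt_dvd e1 e5
    have e7 : E = 0 := by omega
    by_cases hab : a = b
    · right
      refine ⟨hab, ?_⟩
      have e8 : (2:ℤ)^c = 2^d := by
        rw [hE, hab] at e7; linarith
      have e9 : (2:ℕ)^c = 2^d := by exact_mod_cast e8
      exact Nat.pow_right_injective (le_refl 2) e9
    · left
      exact pow_sidon hab (by rw [hE] at e7; linarith)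
  · intro T hT
    set P := (Finset.range K ×ˢ Finset.range K).filter (fun ab => ab.1 ≠ ab.2 ∧
        Bad R M0 M1 m rho Ms Ms1 ((T + 16 * 2^ab.1 * Sg - 16 * 2^ab.2 * Sg) / Mp)) with hP
    set y : ℕ × ℕ → ℕ := fun ab => T + 16 * 2^ab.1 * Sg - 16 * 2^ab.2 * Sg with hy
    have hPm : ∀ ab ∈ P, ab.1 < K ∧ ab.2 < K ∧ ab.1 ≠ ab.2 ∧
        Bad R M0 M1 m rho Ms Ms1 (y ab / Mp) := by
      intro ab hab
      rw [hP, Finset.mem_filter, Finset.mem_product, Finset.mem_range, Finset.mem_range] at hab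
      exact ⟨hab.1.1, hab.1.2, hab.2.1, hab.2.2⟩
    have thin1 : ∀ {low s Q H : ℕ}, Sg = low + s + H → Q * s ∣ H → 2^(K+9) * low ≤ s → 0 < s →
        2^(K+10) ≤ Q → (P.filter (fun ab => Thin Q s (y ab))).card ≤ 1 := by
      intro low s Q H a1 a2 a3 a4 a5
      refine card_thin_nat a1 a2 a3 a4 a5 hT ?_
      intro ab hab
      rw [Finset.mem_filter] at hab
      obtain ⟨b1, b2, b3, b4⟩ := hPm ab hab.1
      exact ⟨b1, b2, b3, hab.2⟩
    have c0 : (P.filter (fun ab => Thin R ((Mp * M0 : ℕ)) (y ab))).card ≤ 1 := by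
      refine thin1 (low := 1 + Mp) (s := Mp * M0) (Q := R) (H := H0) hH0 ?_ ?_ ?_ hR
      · have : R * (Mp * M0) = Mp * (R * M0) := by ring
        rw [this]; exact hH0d
      · have : 2^(K+9) * (1 + Mp) ≤ 2^(K+9) * (2 * Mp) := Nat.mul_le_mul_left _ (by omega)
        have e2 : 2^(K+9) * (2 * Mp) = 2^(K+10) * Mp := by ring
        have e3 : 2^(K+10) * Mp ≤ M0 * Mp := Nat.mul_le_mul_right _ h0
        rw [Nat.mul_comm Mp M0]; omega
      · have : 0 < M0 := by omega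
        positivity
    have c1 : ∀ k ∈ Ms, (P.filter (fun ab => Thin k Mp (y ab))).card ≤ 1 := by
      intro k hk
      obtain ⟨k1, k2⟩ := hMs k hk
      refine thin1 (low := 1) (s := Mp) (Q := k) (H := Mp * M0 + H0) (by rw [hSg, hH0]; ring)
        ?_ ?_ hMp0 k1
      · have e1 : k * Mp ∣ Mp * M0 := by
          rw [Nat.mul_comm k Mp]; exact Nat.mul_dvd_mul_left _ k2
        have e2 : k * Mp ∣ H0 := by
          refine dvd_trans ?_ hH0d
          rw [Nat.mul_comm k Mp]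
          exact Nat.mul_dvd_mul_left _ (Dvd.dvd.mul_left k2 _)
        exact dvd_add e1 e2
      · omega
    have c2 : ∀ l < m, (P.filter (fun ab => Thin R ((Mp * PP R M0 M1 l * M1 : ℕ)) (y ab))).card
        ≤ 1 := by
      intro l hl
      obtain ⟨H, hH, hHd⟩ := decomp Mp R M0 M1 (Nat.succ_le_of_lt hl)
      have hb := L_bound Mp R M0 M1 hMp hR h0 h1 l
      refine thin1 (low := L Mp R M0 M1 l + Mp * PP R M0 M1 l) (s := Mp * PP R M0 M1 l * M1)
        (Q := R) (H := H) ?_ ?_ ?_ ?_ hR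
      · rw [hSg, hH]
        show L Mp R M0 M1 l + (Mp * PP R M0 M1 l + Mp * PP R M0 M1 l * M1) + H = _
        ring
      · have : R * (Mp * PP R M0 M1 l * M1) = Mp * PP R M0 M1 (l+1) := by rw [PP_succ]; ring
        rw [this]; exact hHd
      · have e1 : L Mp R M0 M1 l ≤ Mp * PP R M0 M1 l :=
          le_trans (Nat.le_mul_of_pos_left _ (by omega)) hb
        calc 2^(K+9) * (L Mp R M0 M1 l + Mp * PP R M0 M1 l)
            ≤ 2^(K+9) * (2 * (Mp * PP R M0 M1 l)) := Nat.mul_le_mul_left _ (by omega)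
          _ = 2^(K+10) * (Mp * PP R M0 M1 l) := by ring
          _ ≤ M1 * (Mp * PP R M0 M1 l) := Nat.mul_le_mul_right _ h1
          _ = Mp * PP R M0 M1 l * M1 := by ring
      · have := hPP l
        have : 0 < M1 := by omega
        positivity
    have c3 : ∀ l < m, ∀ k ∈ Ms1,
        (P.filter (fun ab => Thin k ((Mp * PP R M0 M1 l : ℕ)) (y ab))).card ≤ 1 := by
      intro l hl k hk
      obtain ⟨k1, k2⟩ := hMs1 k hk
      obtain ⟨H, hH, hHd⟩ := decomp Mp R M0 M1 (Nat.succ_le_of_lt hl)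
      have hb := L_bound Mp R M0 M1 hMp hR h0 h1 l
      refine thin1 (low := L Mp R M0 M1 l) (s := Mp * PP R M0 M1 l)
        (Q := k) (H := Mp * PP R M0 M1 l * M1 + H) ?_ ?_ hb ?_ k1
      · rw [hSg, hH]
        show L Mp R M0 M1 l + (Mp * PP R M0 M1 l + Mp * PP R M0 M1 l * M1) + H = _
        ring
      · have e1 : k * (Mp * PP R M0 M1 l) ∣ Mp * PP R M0 M1 l * M1 := by
          rw [Nat.mul_comm k]; exact Nat.mul_dvd_mul_left _ k2
        refine dvd_add e1 (dvd_trans ?_ hHd)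
        rw [PP_succ]
        have : Mp * (R * (PP R M0 M1 l * M1)) = (Mp * PP R M0 M1 l * M1) * R := by ring
        rw [this]
        exact Dvd.dvd.mul_right e1 _
      · have := hPP l
        positivity
    have c4 : ∀ l < m, (P.filter (fun ab =>
        rho ≤ (Ms1.filter (· ∣ (y ab / Mp) / PP R M0 M1 l)).card)).card ≤ 32 := by
      intro l hl
      set A := P.filter (fun ab => rho ≤ (Ms1.filter (· ∣ (y ab / Mp) / PP R M0 M1 l)).card)
        with hA
      have d1 : A.card * rho ≤ ∑ ab ∈ A, (Ms1.filter (· ∣ (y ab / Mp) / PP R M0 M1 l)).card := by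
        rw [← smul_eq_mul]
        apply Finset.card_nsmul_le_sum
        intro ab hab
        rw [hA, Finset.mem_filter] at hab
        exact hab.2
      have d2 : ∑ ab ∈ A, (Ms1.filter (· ∣ (y ab / Mp) / PP R M0 M1 l)).card
          = ∑ k ∈ Ms1, (A.filter (fun ab => k ∣ (y ab / Mp) / PP R M0 M1 l)).card :=
        Finset.sum_card_bipartiteAbove_eq_sum_card_bipartiteBelow
          (fun ab k => k ∣ (y ab / Mp) / PP R M0 M1 l)
      have d3 : ∑ k ∈ Ms1, (A.filter (fun ab => k ∣ (y ab / Mp) / PP R M0 M1 l)).card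
          ≤ ∑ k ∈ Ms1, 1 := by
        apply Finset.sum_le_sum
        intro k hk
        refine le_trans (Finset.card_le_card ?_) (c3 l hl k hk)
        intro ab hab
        rw [Finset.mem_filter] at hab
        rw [Finset.mem_filter]
        refine ⟨(Finset.mem_filter.mp hab.1).1, ?_⟩
        apply thin_dvd
        · have := hPP l
          positivity
        · rw [← Nat.div_div_eq_div_mul]; exact hab.2
      rw [Finset.sum_const, smul_eq_mul, mul_one] at d3
      have d4 : A.card * rho ≤ 32 * rho := by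
        rw [d2] at d1
        exact le_trans d1 (le_trans d3 hc1)
      exact Nat.le_of_mul_le_mul_right d4 hrho
    have hsub : P ⊆ (P.filter (fun ab => Thin R ((Mp * M0 : ℕ)) (y ab)) ∪
        Ms.biUnion (fun k => P.filter (fun ab => Thin k Mp (y ab)))) ∪
        (Finset.range m).biUnion (fun l =>
          P.filter (fun ab => Thin R ((Mp * PP R M0 M1 l * M1 : ℕ)) (y ab)) ∪
          P.filter (fun ab => rho ≤ (Ms1.filter (· ∣ (y ab / Mp) / PP R M0 M1 l)).card)) := by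
      intro ab hab
      obtain ⟨b1, b2, b3, b4⟩ := hPm ab hab
      rcases b4 with h | ⟨k, hk, hkd⟩ | ⟨l, hl, h⟩
      · apply Finset.mem_union_left
        apply Finset.mem_union_left
        rw [Finset.mem_filter]
        refine ⟨hab, thin_digit hMp0 ?_ h⟩
        have : 0 < R := by omega
        have : 0 < M0 := by omega
        positivity
      · apply Finset.mem_union_left
        apply Finset.mem_union_right
        rw [Finset.mem_biUnion]
        exact ⟨k, hk, Finset.mem_filter.mpr ⟨hab, thin_dvd hMp0 hkd⟩⟩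
      · apply Finset.mem_union_right
        rw [Finset.mem_biUnion]
        refine ⟨l, Finset.mem_range.mpr hl, ?_⟩
        rcases h with h | h
        · apply Finset.mem_union_left
          rw [Finset.mem_filter]
          rw [Nat.div_div_eq_div_mul] at h
          refine ⟨hab, thin_digit ?_ ?_ h⟩
          · have := hPP l
            positivity
          · have : 0 < R := by omega
            have : 0 < M1 := by omega
            positivity
        · apply Finset.mem_union_right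
          rw [Finset.mem_filter]
          exact ⟨hab, h⟩
    calc P.card ≤ _ := Finset.card_le_card hsub
      _ ≤ (1 + r * 1) + m * 33 := by
        refine le_trans (Finset.card_union_le _ _) (add_le_add ?_ ?_)
        · refine le_trans (Finset.card_union_le _ _) (add_le_add c0 ?_)
          refine le_trans (Finset.card_biUnion_le_card_mul _ _ 1 c1) ?_
          exact Nat.mul_le_mul_right _ hc
        · refine le_trans (Finset.card_biUnion_le_card_mul _ _ 33 ?_) ?_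
          · intro l hl
            have hl' := Finset.mem_range.mp hl
            refine le_trans (Finset.card_union_le _ _) ?_
            have := c2 l hl'
            have := c4 l hl'
            omega
          · rw [Finset.card_range]
      _ ≤ 2 + r + 34 * m := by omega

end Crest.Agent.R320.Spoil_902
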