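import Crest.Agent.R320.Ruler2_537

/-!
# Row 320, scheme 2 of 132 #12664: the spoil count at word level (helper911)

Hypothesis (SP) of the SC2 + CP2 files.  `R`, `Rs`: outer / small right-looking wall rules.
`BadY Y`: the zone whose text from `anchor + p0` on is `Y` is bad: (E) an outer wall in the band of
a threshold, (D) a small wall near a level, (B) a modulus divides the clock value.
If `c 0, c 1, ..` is a ruler (537's `Ruler2`), then for every text `t` (read from the true anchor)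
at most `1 + K + 2 r` of the places `c k` have a `k' ≠ k` such that the wrong anchor `c k - c k'`
is bad, as seen from the right of `c k`.
-/

set_option autoImplicit false

namespace Crest.Agent.R320.Spoil_911

open Crest.Agent.R320.ThrChain260 Crest.Agent.R320.Ruler2_537

variable {α : Type*}

/-- the walls of the text `t` as a set of integers -/
def WS (R : List α → Prop) (t : List α) (u : ℤ) : Prop := 0 ≤ u ∧ R (t.drop u.toNat)

/-- `e` is the first qualifying wall of the text `Y` from `anchor + p0` on -/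
def NxY (P : Par) (R : List α → Prop) (Y : List α) (e : ℕ) : Prop :=
  R (Y.drop e) ∧ P.s (((e : ℤ) + P.p0 - P.z) % P.M) ≤ (e : ℤ) + P.p0 - P.z ∧
    ∀ e' : ℕ, e' < e → R (Y.drop e') →
      ¬ P.s (((e' : ℤ) + P.p0 - P.z) % P.M) ≤ (e' : ℤ) + P.p0 - P.z

/-- failure modes of scheme 1 in the zone, `Y` = text from `anchor + p0` on -/
def BadY (P : Par) (R Rs : List α → Prop) (A : ℕ → ℤ) (D : ℤ) (K : ℕ) (m : ℕ → ℤ) (r : ℕ)
    (Y : List α) : Prop :=
  (∃ e : ℕ, R (Y.drop e) ∧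
    |(e : ℤ) + P.p0 - P.z - P.s (((e : ℤ) + P.p0 - P.z) % P.M)| ≤ P.N1) ∨
  (∃ k < K, ∃ e : ℕ, Rs (Y.drop e) ∧ |(e : ℤ) - A k| ≤ D) ∨
  (∃ i < r, ∃ e : ℕ, NxY P R Y e ∧ m i ∣ (e : ℤ) / P.M)

/-- integer walls are `> W` apart -/
theorem WS_gap {R : List α → Prop} {W : ℕ} (hg : ∀ Q d, R Q → 0 < d → d ≤ W → ¬ R (Q.drop d))
    {G : ℤ} (hG : G ≤ W) (t : List α) (u u' : ℤ) (h : WS R t u) (h' : WS R t u') (hlt : u < u') :
    G < u' - u := by
  by_contra hc
  have h0 := h.1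
  refine hg (t.drop u.toNat) (u' - u).toNat h.2 (by omega) (by omega) ?_
  rw [List.drop_drop]
  have : u.toNat + (u' - u).toNat = u'.toNat := by omega
  rw [this]
  exact h'.2

theorem WS_of_drop {R : List α → Prop} {t : List α} {y e : ℕ} {a : ℤ}
    (hy : (y : ℤ) = a) (h : R ((t.drop y).drop e)) : WS R t (a + e) := by
  refine ⟨by omega, ?_⟩
  rw [List.drop_drop] at h
  have : (a + e).toNat = y + e := by omega
  rw [this]
  exact h

/-- badness of a text seen from `y = a + p0` implies badness of the integer anchor `a` -/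
theorem bad_of_badY {P : Par} {R Rs : List α → Prop} {A : ℕ → ℤ} {D : ℤ} {K : ℕ} {m : ℕ → ℤ}
    {r : ℕ} (hz : P.p0 + P.S ≤ P.z) {t : List α} {y : ℕ} {a : ℤ} (hy : (y : ℤ) = a + P.p0)
    (h : BadY P R Rs A D K m r (t.drop y)) :
    Bad P (WS R t) (WS Rs t) (fun k => A k + P.p0) D K m r a := by
  rcases h with ⟨e, h1, h2⟩ | ⟨k, hk, e, h1, h2⟩ | ⟨i, hi, e, ⟨h1, h2, h3⟩, h4⟩
  · left
    refine ⟨a + P.p0 + e, WS_of_drop hy h1, ?_⟩
    have e1 : a + P.p0 + (e : ℤ) - a - P.z = (e : ℤ) + P.p0 - P.z := by ring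
    rw [e1]
    exact h2
  · right; left
    refine ⟨k, hk, a + P.p0 + e, WS_of_drop hy h1, ?_⟩
    have e1 : a + P.p0 + (e : ℤ) - a - (A k + P.p0) = (e : ℤ) - A k := by ring
    simp only
    rw [e1]
    exact h2
  · right; right
    refine ⟨i, hi, a + P.p0 + e, ⟨⟨WS_of_drop hy h1, ?_⟩, ?_⟩, ?_⟩
    · have e1 : a + P.p0 + (e : ℤ) - a - P.z = (e : ℤ) + P.p0 - P.z := by ring
      rw [e1]
      exact h2
    · intro t' ht' hq
      have h5 := qual_ge hq
      have h6 := P.hN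
      have h7 : 0 ≤ t' - (a + P.p0) := by linarith
      obtain ⟨e', he'⟩ := Int.eq_ofNat_of_zero_le h7
      have h8 : t' = a + P.p0 + e' := by omega
      subst h8
      refine h3 e' (by omega) ?_ ?_
      · have := hq.1.2
        have e1 : (a + P.p0 + (e' : ℤ)).toNat = y + e' := by omega
        rw [e1] at this
        rw [List.drop_drop]
        exact this
      · have := hq.2
        have e1 : a + P.p0 + (e' : ℤ) - a - P.z = (e' : ℤ) + P.p0 - P.z := by ring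
        rw [e1] at this
        exact this
    · have e1 : a + P.p0 + (e : ℤ) - a - P.p0 = (e : ℤ) := by ring
      rw [e1]
      exact h4

/-- **Spoil count**, whole text form -/
theorem spoil {P : Par} {R Rs : List α → Prop} {A : ℕ → ℤ} {D : ℤ} {K : ℕ} {m : ℕ → ℤ} {r : ℕ}
    (hz : P.p0 + P.S ≤ P.z) {W Ws : ℕ}
    (hg : ∀ Q d, R Q → 0 < d → d ≤ W → ¬ R (Q.drop d)) (hW : 2 * (P.S + P.L) ≤ W)
    (hgs : ∀ Q d, Rs Q → 0 < d → d ≤ Ws → ¬ Rs (Q.drop d)) (hWs : 2 * (D + P.L) ≤ Ws)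
    (Kc : ℕ) (c : ℕ → ℕ) (hinj : ∀ i < Kc, ∀ j < Kc, c i = c j → i = j) (p0 : ℕ)
    (hp0 : (p0 : ℤ) = P.p0) (hc : ∀ k < Kc, c k ≤ p0)
    (hC : Ruler2 P D m r ((Finset.range Kc).image fun k => (c k : ℤ))) (t : List α)
    [DecidablePred fun k => ∃ k' < Kc, k' ≠ k ∧
      BadY P R Rs A D K m r ((t.drop (c k)).drop (p0 - c k'))] :
    ((Finset.range Kc).filter fun k => ∃ k' < Kc, k' ≠ k ∧
      BadY P R Rs A D K m r ((t.drop (c k)).drop (p0 - c k'))).card ≤ 1 + K + 2 * r := by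
  classical
  set C := (Finset.range Kc).image fun k => (c k : ℤ) with hCdef
  have hmain := card_spoiled (Wl := WS R t) (Ws := WS Rs t) (A := fun k => A k + P.p0) (K := K) hC
    (WS_gap hg hW t) (WS_gap hgs hWs t) 0
  refine le_trans ?_ hmain
  refine Finset.card_le_card_of_injOn (fun k => (c k : ℤ)) ?_ ?_
  · intro k hk
    have hk' := Finset.mem_filter.1 (Finset.mem_coe.1 hk)
    obtain ⟨hk1, k', hk2, hne, hb⟩ := hk'
    have hk1' := Finset.mem_range.1 hk1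
    refine Finset.mem_coe.2 (Finset.mem_filter.2 ⟨?_, (c k' : ℤ), ?_, ?_, ?_⟩)
    · exact Finset.mem_image.2 ⟨k, hk1, rfl⟩
    · exact Finset.mem_image.2 ⟨k', Finset.mem_range.2 hk2, rfl⟩
    · intro he
      have he' : (c k' : ℤ) = (c k : ℤ) := he
      exact hne (hinj k' hk2 k hk1' (by exact_mod_cast he'))
    · rw [List.drop_drop] at hb
      have h1 := hc k' hk2
      refine bad_of_badY hz (y := c k + (p0 - c k')) ?_ hb
      push_cast [Nat.cast_sub h1]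
      rw [hp0]
      ring
  · intro k hk j hj he
    have hk' := (Finset.mem_filter.1 (Finset.mem_coe.1 hk)).1
    have hj' := (Finset.mem_filter.1 (Finset.mem_coe.1 hj)).1
    simp only at he
    exact hinj k (Finset.mem_range.1 hk') j (Finset.mem_range.1 hj') (by exact_mod_cast he)

/-! ### locality -/

section Local

variable {R : List α → Prop} {n : ℕ}

theorem rule_take (h1 : ∀ Q, R Q ↔ R (Q.take n)) (h2 : ∀ Q, R Q → n ≤ Q.length) {Y : List α}
    {B e : ℕ} (h : R ((Y.take B).drop e)) : R (Y.drop e) := by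
  have h3 := h2 _ h
  rw [h1] at h ⊢
  rw [List.drop_take, List.take_take] at h
  rw [List.length_drop, List.length_take] at h3
  rw [min_eq_left (by omega)] at h
  exact h

theorem take_rule (h1 : ∀ Q, R Q ↔ R (Q.take n)) {Y : List α}
    {B e : ℕ} (hB : e + n ≤ B) (h : R (Y.drop e)) : R ((Y.take B).drop e) := by
  rw [h1] at h ⊢
  rw [List.drop_take, List.take_take, min_eq_left (by omega)]
  exact h

end Local

/-- a bad truncated text is bad -/
theorem BadY.of_take {P : Par} {R Rs : List α → Prop} {n ns : ℕ}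
    (h1 : ∀ Q, R Q ↔ R (Q.take n)) (h2 : ∀ Q, R Q → n ≤ Q.length) (hn : 0 < n)
    (h1s : ∀ Q, Rs Q ↔ Rs (Q.take ns)) (h2s : ∀ Q, Rs Q → ns ≤ Q.length)
    {A : ℕ → ℤ} {D : ℤ} {K : ℕ} {m : ℕ → ℤ} {r : ℕ} {Y : List α} {B : ℕ}
    (h : BadY P R Rs A D K m r (Y.take B)) : BadY P R Rs A D K m r Y := by
  rcases h with ⟨e, h3, h4⟩ | ⟨k, hk, e, h3, h4⟩ | ⟨i, hi, e, ⟨h3, h4, h5⟩, h6⟩
  · exact Or.inl ⟨e, rule_take h1 h2 h3, h4⟩
  · exact Or.inr (Or.inl ⟨k, hk, e, rule_take h1s h2s h3, h4⟩)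
  · refine Or.inr (Or.inr ⟨i, hi, e, ⟨rule_take h1 h2 h3, h4, ?_⟩, h6⟩)
    intro e' he' hR
    have h7 := h2 _ h3
    rw [List.length_drop, List.length_take] at h7
    exact h5 e' he' (take_rule h1 (by omega) hR)

/-- a bad text is bad as soon as the deciding walls are visible: `B` above the levels, and above
the last place where an outer wall can be in a band or be the first qualifying one -/
theorem BadY.take {P : Par} {R Rs : List α → Prop} {n ns : ℕ}
    (h1 : ∀ Q, R Q ↔ R (Q.take n)) (h2 : ∀ Q, R Q → n ≤ Q.length)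
    (h1s : ∀ Q, Rs Q ↔ Rs (Q.take ns))
    {A : ℕ → ℤ} {D : ℤ} {K : ℕ} {m : ℕ → ℤ} {r : ℕ} {Y : List α} {B : ℕ}
    (hE : P.z + P.S - P.p0 + n ≤ B) (hD : ∀ k < K, A k + D + ns ≤ B)
    (hN : ∀ e, NxY P R Y e → e + n ≤ B)
    (h : BadY P R Rs A D K m r Y) : BadY P R Rs A D K m r (Y.take B) := by
  rcases h with ⟨e, h3, h4⟩ | ⟨k, hk, e, h3, h4⟩ | ⟨i, hi, e, hx, h6⟩
  · refine Or.inl ⟨e, take_rule h1 ?_ h3, h4⟩
    have h5 := (abs_le.1 h4).2
    have h6 := s_le (P := P) (((e : ℤ) + P.p0 - P.z) % P.M)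
    omega
  · refine Or.inr (Or.inl ⟨k, hk, e, take_rule h1s ?_ h3, h4⟩)
    have h5 := (abs_le.1 h4).2
    have := hD k hk
    omega
  · have hB := hN e hx
    obtain ⟨h3, h4, h5⟩ := hx
    exact Or.inr (Or.inr ⟨i, hi, e, ⟨take_rule h1 hB h3, h4, fun e' he' hR =>
      h5 e' he' (rule_take h1 h2 hR)⟩, h6⟩)

/-- **Spoil count**, truncated form: (SP) of the SC2 + CP2 files -/
theorem spoil_take {P : Par} {R Rs : List α → Prop} {n ns : ℕ}
    (h1 : ∀ Q, R Q ↔ R (Q.take n)) (h2 : ∀ Q, R Q → n ≤ Q.length) (hn : 0 < n)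
    (h1s : ∀ Q, Rs Q ↔ Rs (Q.take ns)) (h2s : ∀ Q, Rs Q → ns ≤ Q.length)
    {A : ℕ → ℤ} {D : ℤ} {K : ℕ} {m : ℕ → ℤ} {r : ℕ}
    (hz : P.p0 + P.S ≤ P.z) {W Ws : ℕ}
    (hg : ∀ Q d, R Q → 0 < d → d ≤ W → ¬ R (Q.drop d)) (hW : 2 * (P.S + P.L) ≤ W)
    (hgs : ∀ Q d, Rs Q → 0 < d → d ≤ Ws → ¬ Rs (Q.drop d)) (hWs : 2 * (D + P.L) ≤ Ws)
    (Kc : ℕ) (c : ℕ → ℕ) (hinj : ∀ i < Kc, ∀ j < Kc, c i = c j → i = j) (p0 : ℕ)
    (hp0 : (p0 : ℤ) = P.p0) (hc : ∀ k < Kc, c k ≤ p0)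
    (hC : Ruler2 P D m r ((Finset.range Kc).image fun k => (c k : ℤ))) (t : List α) (B0 : ℕ)
    [DecidablePred fun k => ∃ k' < Kc, k' ≠ k ∧
      BadY P R Rs A D K m r (((t.drop (c k)).drop (p0 - c k')).take B0)] :
    ((Finset.range Kc).filter fun k => ∃ k' < Kc, k' ≠ k ∧
      BadY P R Rs A D K m r (((t.drop (c k)).drop (p0 - c k')).take B0)).card
        ≤ 1 + K + 2 * r := by
  classical
  refine le_trans (Finset.card_le_card ?_)
    (spoil (A := A) (K := K) (R := R) (Rs := Rs) hz hg hW hgs hWs Kc c hinj p0 hp0 hc hC t)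
  intro k hk
  obtain ⟨hk1, k', hk2, hne, hb⟩ := Finset.mem_filter.1 hk
  exact Finset.mem_filter.2 ⟨hk1, k', hk2, hne, hb.of_take h1 h2 hn h1s h2s⟩

end Crest.Agent.R320.Spoil_911
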