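import Crest.Agent.R320.Def_915

/-!
# Row 320: at most `1 + 2 * C0` places of the ruler are spoiled (helper912)
-/

set_option autoImplicit false

namespace Crest.Agent.R320.Spoil_912

open Crest.Agent.R320.Def_915

variable {α V S : Type} [AddCommGroup V] [Monoid S]

theorem wo_drop {p : Par α V S} {N2 C0 R : ℕ} (h : p.Ok N2 C0 R) (Y : List α) (c t : ℕ)
    (hc : c + t ≤ Y.length) (ht : p.n ≤ t) :
    p.Wo ((Y.drop c).take t) ↔ p.Wo (Y.take (c + t)) := by
  have e : Y.take (c + t) = Y.take c ++ (Y.drop c).take t := by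
    rw [List.take_add]
  rw [e, h.wo_app _ _ (by rw [List.length_take, List.length_drop]; omega)]

theorem gap' {p : Par α V S} {N2 C0 R : ℕ} (h : p.Ok N2 C0 R) (Y : List α) {a b : ℕ}
    (hab : a < b) (hb : b ≤ Y.length) (ha : p.Wo (Y.take a)) (hbw : p.Wo (Y.take b)) :
    2 * (p.N1 + p.p0) < b - a := by
  by_contra hlt
  have hlt' : b - a ≤ 2 * (p.N1 + p.p0) := by omega
  refine h.gap (Y.take b) (b - a) hbw (by omega) hlt' ?_
  rw [List.take_take, List.length_take]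
  have e : min (min b Y.length - (b - a)) b = a := by omega
  rw [e]; exact ha

theorem decode {p : Par α V S} {N2 C0 R : ℕ} (h : p.Ok N2 C0 R) (Y : List α) (c o : ℕ)
    (hc : c ≤ p.p0) (ho : o ≤ p.p0) (hcY : c ≤ Y.length) (hb : p.BadAt o (Y.drop c)) :
    ∃ y, y ≤ Y.length ∧ p.Wo (Y.take y) ∧ p.z + c ≤ y + o ∧
      (∀ s, p.z + c ≤ s + o → s < y → ¬ p.Wo (Y.take s)) ∧
      ((∃ s, s ≤ Y.length ∧ p.Wo (Y.take s) ∧ p.z + c ≤ s + o + p.N1 ∧
        s + o < p.z + c + p.N1) ∨ p.BadT (y - p.p0 + o - c)) := by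
  have hz := h.hz
  obtain ⟨t, ⟨h1, h2, h3, h4⟩, h5⟩ := hb
  rw [List.length_drop] at h2
  have ht : p.n ≤ t := by omega
  have htY : c + t ≤ Y.length := by omega
  refine ⟨c + t, htY, (wo_drop h Y c t htY ht).1 h3, by omega, ?_, ?_⟩
  · intro s hs1 hs2 hw
    obtain ⟨s', rfl⟩ : ∃ s', s = c + s' := ⟨s - c, by omega⟩
    refine h4 s' (by omega) (by omega) ((wo_drop h Y c s' (by omega) (by omega)).2 hw)
  · rcases h5 with h5 | ⟨s, hs1, hs2, hs3⟩ | h5
    · exact Or.inl ⟨c + t, htY, (wo_drop h Y c t htY ht).1 h3, by omega, by omega⟩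
    · refine Or.inl ⟨c + s, by omega, (wo_drop h Y c s (by omega) (by omega)).1 hs3,
        by omega, by omega⟩
    · right
      have e : c + t - p.p0 + o - c = t + o - p.p0 := by omega
      rw [e]; exact h5

theorem spoil (p : Par α V S) {N2 C0 R : ℕ} (h : p.Ok N2 C0 R) (X X2 : List α)
    (hX : X ∈ p.XX) (_hX2 : X2 ∈ p.XX) (I : Finset ℕ)
    (hI : ∀ k ∈ I, k < p.K ∧ ∃ k' < p.K, k' ≠ k ∧ p.BadAt (p.c k') (X.drop (p.c k) ++ X2)) :
    I.card ≤ 1 + 2 * C0 := by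
  classical
  have hz := h.hz
  obtain ⟨hXz, hXw, -⟩ := hX
  set Y := X ++ X2 with hY
  have hYX : X.length ≤ Y.length := by rw [hY, List.length_append]; omega
  have hwX : p.Wo (Y.take X.length) := by
    rw [hY, List.take_left]; exact hXw
  have hI' : ∀ k ∈ I, ∃ k', k < p.K ∧ k' < p.K ∧ k' ≠ k ∧ p.BadAt (p.c k') (Y.drop (p.c k)) := by
    intro k hk
    obtain ⟨h1, k', h2, h3, h4⟩ := hI k hk
    refine ⟨k', h1, h2, h3, ?_⟩
    have := h.hc k h1
    rw [hY, List.drop_append_of_le_length (by omega)]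
    exact h4
  choose! f hf1 hf2 hf3 hf4 using hI'
  -- the first wall
  have hex : ∃ y, p.z ≤ y + p.p0 ∧ y ≤ Y.length ∧ p.Wo (Y.take y) :=
    ⟨X.length, by omega, hYX, hwX⟩
  obtain ⟨y0, ⟨hy1, hy2, hy3⟩, hy4⟩ : ∃ y0, (p.z ≤ y0 + p.p0 ∧ y0 ≤ Y.length ∧ p.Wo (Y.take y0)) ∧
      ∀ y, (p.z ≤ y + p.p0 ∧ y ≤ Y.length ∧ p.Wo (Y.take y)) → y0 ≤ y :=
    ⟨Nat.find hex, Nat.find_spec hex, fun y hy => Nat.find_min' hex hy⟩
  -- the second wall
  obtain ⟨y1, hy1z, hy5⟩ : ∃ y1, p.z ≤ y1 + p.p0 ∧ ∀ y, y0 < y → y ≤ Y.length →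
      p.Wo (Y.take y) → (∀ s, y0 < s → s < y → ¬ p.Wo (Y.take s)) → y = y1 := by
    by_cases hex2 : ∃ y, y0 < y ∧ y ≤ Y.length ∧ p.Wo (Y.take y)
    · refine ⟨Nat.find hex2, ?_, ?_⟩
      · have := (Nat.find_spec hex2).1
        omega
      · intro y a1 a2 a3 a4
        have b1 : Nat.find hex2 ≤ y := Nat.find_min' hex2 ⟨a1, a2, a3⟩
        rcases Nat.lt_or_ge (Nat.find hex2) y with b2 | b2
        · exact absurd (Nat.find_spec hex2).2.2 (a4 _ (Nat.find_spec hex2).1 b2)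
        · omega
    · refine ⟨y0, hy1, ?_⟩
      intro y a1 a2 a3 _
      exact absurd ⟨y, a1, a2, a3⟩ hex2
  -- the three classes
  have key : ∀ k ∈ I, (∃ s, s ≤ Y.length ∧ p.Wo (Y.take s) ∧ p.z + p.c k ≤ s + p.c (f k) + p.N1 ∧
        s + p.c (f k) < p.z + p.c k + p.N1) ∨ p.BadT (y0 - p.p0 + p.c (f k) - p.c k) ∨
        p.BadT (y1 - p.p0 + p.c (f k) - p.c k) := by
    intro k hk
    have c1 := h.hc k (hf1 k hk)
    have c2 := h.hc (f k) (hf2 k hk)
    obtain ⟨y, a1, a2, a3, a4, a5⟩ := decode h Y (p.c k) (p.c (f k)) c1 c2 (by omega) (hf4 k hk)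
    rcases a5 with a5 | a5
    · exact Or.inl a5
    · right
      have b0 : y0 ≤ y := hy4 y ⟨by omega, a1, a2⟩
      rcases Nat.lt_or_ge y0 y with b1 | b1
      · right
        have : y = y1 := by
          refine hy5 y b1 a1 a2 ?_
          intro s s1 s2 hs
          have g := gap' h Y s1 (by omega) hy3 hs
          exact a4 s (by omega) s2 hs
        rw [← this]; exact a5
      · left
        have : y = y0 := by omega
        rw [← this]; exact a5
  -- counting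
  have thinC : ∀ y, p.z ≤ y + p.p0 → (I.filter (fun k => p.BadT (y - p.p0 + p.c (f k) - p.c k))).card ≤ C0 := by
    intro y hy
    have hinj : Function.Injective (fun k : ℕ => (f k, k)) := by
      intro a b hab
      exact (Prod.mk.injEq _ _ _ _ ▸ hab : f a = f b ∧ a = b).2
    rw [← Finset.card_image_of_injective _ hinj]
    refine h.thin (y - p.p0) (by omega) _ ?_
    intro ab hab
    obtain ⟨k, hk, rfl⟩ := Finset.mem_image.1 hab
    obtain ⟨hkI, hkb⟩ := Finset.mem_filter.1 hk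
    exact ⟨hf2 k hkI, hf1 k hkI, hf3 k hkI, hkb⟩
  have hE : (I.filter (fun k => ∃ s, s ≤ Y.length ∧ p.Wo (Y.take s) ∧
      p.z + p.c k ≤ s + p.c (f k) + p.N1 ∧ s + p.c (f k) < p.z + p.c k + p.N1)).card ≤ 1 := by
    rw [Finset.card_le_one]
    intro k hk l hl
    obtain ⟨hkI, s, s1, s2, s3, s4⟩ := Finset.mem_filter.1 hk
    obtain ⟨hlI, s', s1', s2', s3', s4'⟩ := Finset.mem_filter.1 hl
    have c1 := h.hc k (hf1 k hkI)
    have c2 := h.hc (f k) (hf2 k hkI)
    have c3 := h.hc l (hf1 l hlI)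
    have c4 := h.hc (f l) (hf2 l hlI)
    have hss : s = s' := by
      rcases lt_trichotomy s s' with hlt | heq | hgt
      · have := gap' h Y hlt s1' s2 s2'
        omega
      · exact heq
      · have := gap' h Y hgt s1 s2' s2
        omega
    subst hss
    exact (h.ruler k (f k) l (f l) (hf1 k hkI) (hf2 k hkI) (hf1 l hlI) (hf2 l hlI)
      (fun e => hf3 k hkI e.symm) (fun e => hf3 l hlI e.symm) (by omega) (by omega)).1
  have hsub : I ⊆ (I.filter (fun k => ∃ s, s ≤ Y.length ∧ p.Wo (Y.take s) ∧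
      p.z + p.c k ≤ s + p.c (f k) + p.N1 ∧ s + p.c (f k) < p.z + p.c k + p.N1)) ∪
      (I.filter (fun k => p.BadT (y0 - p.p0 + p.c (f k) - p.c k)) ∪
      I.filter (fun k => p.BadT (y1 - p.p0 + p.c (f k) - p.c k))) := by
    intro k hk
    rcases key k hk with a | a | a
    · exact Finset.mem_union_left _ (Finset.mem_filter.2 ⟨hk, a⟩)
    · exact Finset.mem_union_right _ (Finset.mem_union_left _ (Finset.mem_filter.2 ⟨hk, a⟩))
    · exact Finset.mem_union_right _ (Finset.mem_union_right _ (Finset.mem_filter.2 ⟨hk, a⟩))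
  have e1 := Finset.card_le_card hsub
  have e2 := Finset.card_union_le (I.filter (fun k => ∃ s, s ≤ Y.length ∧ p.Wo (Y.take s) ∧
      p.z + p.c k ≤ s + p.c (f k) + p.N1 ∧ s + p.c (f k) < p.z + p.c k + p.N1))
      (I.filter (fun k => p.BadT (y0 - p.p0 + p.c (f k) - p.c k)) ∪
      I.filter (fun k => p.BadT (y1 - p.p0 + p.c (f k) - p.c k)))
  have e3 := Finset.card_union_le (I.filter (fun k => p.BadT (y0 - p.p0 + p.c (f k) - p.c k)))
      (I.filter (fun k => p.BadT (y1 - p.p0 + p.c (f k) - p.c k)))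
  have e4 := thinC y0 hy1
  have e5 := thinC y1 hy1z
  omega

end Crest.Agent.R320.Spoil_912
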