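import Crest.Agent.R320.Ruler_265

/-!
# Row 320, leaf U4 of 638 #13273 (helper929): every thin condition on the digits of the length
spoils at most one pair of the ruler
-/

set_option autoImplicit false

namespace Crest.Agent.R320.Spoil_929

open Finset

def PP (R M0 M1 l : ℕ) : ℕ := (R*M0) * (R*M1)^l

def Bad (R M0 M1 m rho : ℕ) (Ms Ms1 : Finset ℕ) (n : ℕ) : Prop :=
  (n % (R*M0) < M0 ∨ R*M0 ≤ n % (R*M0) + M0) ∨ (∃ k ∈ Ms, k ∣ n) ∨
    ∃ l < m, ((n / PP R M0 M1 l) % (R*M1) < M1 ∨ R*M1 ≤ (n / PP R M0 M1 l) % (R*M1) + M1) ∨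
      rho ≤ (Ms1.filter (· ∣ n / PP R M0 M1 l)).card

/-- sum of the scales below level `l` -/
def SS (Mp R M0 M1 : ℕ) : ℕ → ℕ
  | 0 => 1 + Mp + Mp * M0
  | (l+1) => SS Mp R M0 M1 l + Mp * PP R M0 M1 l * (1 + M1)

theorem abs_dd {K a b : ℕ} (ha : a < K) (hb : b < K) : |(2:ℤ)^a - 2^b| < 2^K := by
  have ha' : (2:ℤ)^a < 2^K := pow_lt_pow_right₀ (by norm_num) ha
  have hb' : (2:ℤ)^b < 2^K := pow_lt_pow_right₀ (by norm_num) hb
  have h3 : (0:ℤ) < 2^a := by positivity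
  have h4 : (0:ℤ) < 2^b := by positivity
  rw [abs_lt]; constructor <;> linarith

/-- a thin condition is met by at most one pair -/
theorem thin {K : ℕ} {s Q w u T lo : ℤ} (hs : w ≤ 16*s) (hs0 : 0 < s)
    (hQ : 2^(K+5)*s + w ≤ Q) {a b c d : ℕ} (ha : a < K) (hb : b < K) (hc : c < K) (hd : d < K)
    (hab : a ≠ b) {p p' : ℤ}
    (h1 : lo ≤ T + 16*(2^a-2^b)*(s+Q*u) - Q*p) (h2 : T + 16*(2^a-2^b)*(s+Q*u) - Q*p < lo + w)
    (h3 : lo ≤ T + 16*(2^c-2^d)*(s+Q*u) - Q*p') (h4 : T + 16*(2^c-2^d)*(s+Q*u) - Q*p' < lo + w) :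
    a = c ∧ b = d := by
  apply Crest.Agent.R320.Ruler265.pow_sidon hab
  set δ : ℤ := ((2:ℤ)^a - 2^b) - (2^c - 2^d) with hδ
  by_contra hne
  have hδ0 : δ ≠ 0 := fun h => hne (by linarith)
  have hab' := abs_dd ha hb
  have hcd' := abs_dd hc hd
  have hδlt : |δ| < 2^(K+1) := by
    calc |δ| ≤ |(2:ℤ)^a - 2^b| + |(2:ℤ)^c - 2^d| := abs_sub _ _
      _ < 2^K + 2^K := by linarith
      _ = 2^(K+1) := by ring
  -- 16 δ s = Q j + r
  set j : ℤ := p - p' - 16*δ*u with hj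
  set r : ℤ := 16*δ*s - Q*j with hr
  have hr1 : |r| < w := by
    rw [abs_lt]
    constructor
    · have : r = (T + 16*(2^a-2^b)*(s+Q*u) - Q*p) - (T + 16*(2^c-2^d)*(s+Q*u) - Q*p') := by
        rw [hr, hj, hδ]; ring
      linarith
    · have : r = (T + 16*(2^a-2^b)*(s+Q*u) - Q*p) - (T + 16*(2^c-2^d)*(s+Q*u) - Q*p') := by
        rw [hr, hj, hδ]; ring
      linarith
  have hbig : |16*δ*s| < 2^(K+5)*s := by
    rw [abs_mul, abs_mul, abs_of_pos hs0]
    have : |(16:ℤ)| = 16 := by norm_num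
    rw [this]
    have h5 : (2:ℤ)^(K+5) = 16 * 2^(K+1) := by ring
    rw [h5]
    have := mul_lt_mul_of_pos_right hδlt hs0
    nlinarith
  have hj0 : j = 0 := by
    by_contra hj0
    have h6 : 1 ≤ |j| := Int.one_le_abs hj0
    have hQ0 : 0 < Q := by
      have : 0 ≤ |r| := abs_nonneg _
      have h7 : (0:ℤ) < 2^(K+5)*s := by positivity
      linarith
    have h7 : Q ≤ |Q*j| := by
      rw [abs_mul, abs_of_pos hQ0]; nlinarith
    have h8 : |Q*j| ≤ |16*δ*s| + |r| := by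
      have : Q*j = 16*δ*s - r := by rw [hr]; ring
      rw [this]; exact abs_sub _ _
    linarith
  have h9 : |16*δ*s| < w := by
    have : r = 16*δ*s := by rw [hr, hj0]; ring
    rw [← this]; exact hr1
  rw [abs_mul, abs_mul, abs_of_pos hs0] at h9
  have h10 : |(16:ℤ)| = 16 := by norm_num
  rw [h10] at h9
  have h11 : 1 ≤ |δ| := Int.one_le_abs hδ0
  nlinarith

theorem ev_digit {A C D N : ℕ} (hC : 0 < C) (hA : 0 < A)
    (h : (N/A) % C < D ∨ C ≤ (N/A) % C + D) :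
    ∃ p : ℤ, -((A:ℤ)*D) ≤ N - (A*C)*p ∧ (N:ℤ) - (A*C)*p < -((A:ℤ)*D) + 2*(A*D) := by
  have e1 : (A:ℤ) * ((N/A : ℕ):ℤ) + ((N % A : ℕ):ℤ) = N := by exact_mod_cast Nat.div_add_mod N A
  have e2 : (C:ℤ) * ((N/A/C : ℕ):ℤ) + ((N/A % C : ℕ):ℤ) = ((N/A : ℕ):ℤ) := by
    exact_mod_cast Nat.div_add_mod (N/A) C
  have e3 : ((N % A : ℕ):ℤ) < A := by exact_mod_cast Nat.mod_lt N hA
  have e4 : ((N/A % C : ℕ):ℤ) < C := by exact_mod_cast Nat.mod_lt (N/A) hC
  have e5 : (0:ℤ) ≤ ((N % A : ℕ):ℤ) := by positivity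
  have e6 : (0:ℤ) ≤ ((N/A % C : ℕ):ℤ) := by positivity
  have hA' : (0:ℤ) < A := by exact_mod_cast hA
  generalize ((N/A/C : ℕ):ℤ) = q at *
  generalize ((N % A : ℕ):ℤ) = r0 at *
  rcases h with h | h
  · have h' : ((N/A % C : ℕ):ℤ) + 1 ≤ D := by exact_mod_cast h
    generalize ((N/A % C : ℕ):ℤ) = r2 at *
    refine ⟨q, ?_, ?_⟩
    · have : (N:ℤ) - (A*C)*q = A*r2 + r0 := by rw [← e1, ← e2]; ring
      rw [this]
      have h1 : (0:ℤ) ≤ A * r2 := by positivity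
      have h2 : (0:ℤ) ≤ A * D := by positivity
      linarith
    · have : (N:ℤ) - (A*C)*q = A*r2 + r0 := by rw [← e1, ← e2]; ring
      rw [this]
      have h1 : (A:ℤ) * (r2 + 1) ≤ A * D := by nlinarith
      nlinarith
  · have h' : (C:ℤ) ≤ ((N/A % C : ℕ):ℤ) + D := by exact_mod_cast h
    generalize ((N/A % C : ℕ):ℤ) = r2 at *
    refine ⟨q+1, ?_, ?_⟩
    · have : (N:ℤ) - (A*C)*(q+1) = A*r2 + r0 - A*C := by rw [← e1, ← e2]; ring
      rw [this]
      have h1 : (A:ℤ) * C ≤ A * (r2 + D) := by nlinarith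
      nlinarith
    · have : (N:ℤ) - (A*C)*(q+1) = A*r2 + r0 - A*C := by rw [← e1, ← e2]; ring
      rw [this]
      have h1 : (A:ℤ) * (r2 + 1) ≤ A * C := by nlinarith
      have h2 : (0:ℤ) ≤ A * D := by positivity
      nlinarith

theorem ev_dvd {A k N : ℕ} (hA : 0 < A) (h : k ∣ N/A) :
    ∃ p : ℤ, 0 ≤ (N:ℤ) - (A*k)*p ∧ (N:ℤ) - (A*k)*p < 0 + A := by
  obtain ⟨j, hj⟩ := h
  have e1 : (A:ℤ) * ((N/A : ℕ):ℤ) + ((N % A : ℕ):ℤ) = N := by exact_mod_cast Nat.div_add_mod N A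
  have e3 : ((N % A : ℕ):ℤ) < A := by exact_mod_cast Nat.mod_lt N hA
  have e5 : (0:ℤ) ≤ ((N % A : ℕ):ℤ) := by positivity
  have e7 : ((N/A : ℕ):ℤ) = k * j := by rw [hj]; push_cast; ring
  refine ⟨j, ?_, ?_⟩
  · rw [← e1, e7]; linarith
  · rw [← e1, e7]; linarith

section main

variable {Mp R M0 M1 : ℕ}

theorem SS_split {l m : ℕ} (h : l ≤ m) :
    ∃ u : ℕ, SS Mp R M0 M1 m = SS Mp R M0 M1 l + Mp * PP R M0 M1 l * u := by
  induction m, h using Nat.le_induction with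
  | base => exact ⟨0, by simp⟩
  | succ m hm ih =>
    obtain ⟨u, hu⟩ := ih
    refine ⟨u + (R*M1)^(m-l) * (1 + M1), ?_⟩
    have h1 : PP R M0 M1 m = PP R M0 M1 l * (R*M1)^(m-l) := by
      unfold PP
      rw [mul_assoc (R*M0), ← pow_add]
      congr 2; omega
    show SS Mp R M0 M1 m + Mp * PP R M0 M1 m * (1 + M1) = _
    rw [hu, h1]; ring

theorem PP_succ (l : ℕ) : PP R M0 M1 (l+1) = PP R M0 M1 l * (R * M1) := by
  unfold PP; rw [pow_succ]; ring

theorem SS_le (hMp : 1 ≤ Mp) (hR : 4 ≤ R) (h0 : 1 ≤ M0) (h1 : 2 ≤ M1) (l : ℕ) :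
    SS Mp R M0 M1 l ≤ Mp * PP R M0 M1 l := by
  induction l with
  | zero =>
    show 1 + Mp + Mp * M0 ≤ Mp * ((R*M0) * (R*M1)^0)
    rw [pow_zero, mul_one]
    have h2 : Mp ≤ Mp * M0 := Nat.le_mul_of_pos_right _ h0
    have h3 : Mp * M0 * 4 ≤ Mp * M0 * R := Nat.mul_le_mul_left _ hR
    have h4 : Mp * (R * M0) = Mp * M0 * R := by ring
    omega
  | succ l ih =>
    show SS Mp R M0 M1 l + Mp * PP R M0 M1 l * (1 + M1) ≤ Mp * PP R M0 M1 (l+1)
    rw [PP_succ]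
    have h5 : Mp * (PP R M0 M1 l * (R * M1)) = Mp * PP R M0 M1 l * (R * M1) := by ring
    rw [h5]
    have h6 : 4 * M1 ≤ R * M1 := Nat.mul_le_mul_right _ hR
    have h7 : Mp * PP R M0 M1 l * (2 + M1) ≤ Mp * PP R M0 M1 l * (R * M1) :=
      Nat.mul_le_mul_left _ (by omega)
    have h8 : Mp * PP R M0 M1 l * (2 + M1)
        = Mp * PP R M0 M1 l + Mp * PP R M0 M1 l * (1 + M1) := by ring
    omega

theorem lem {K s X R : ℕ} (hs : s ≤ 3*X) (hR : 2^(K+10) ≤ R) : 2^(K+5)*s + 2*X ≤ X*R := by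
  have h1 : (2:ℕ)^(K+10) = 1024 * 2^K := by ring
  have h2 : (2:ℕ)^(K+5) = 32 * 2^K := by ring
  have h3 : 1 ≤ (2:ℕ)^K := Nat.one_le_two_pow
  have h4 : 2^(K+5)*s ≤ 2^(K+5)*(3*X) := Nat.mul_le_mul_left _ hs
  have h5 : X * 2^(K+10) ≤ X * R := Nat.mul_le_mul_left _ hR
  have h6 : 1 * X ≤ 2^K * X := Nat.mul_le_mul_right _ h3
  rw [h2] at h4 ⊢
  rw [h1] at h5
  have h7 : 32 * 2^K * (3*X) = 96 * (2^K * X) := by ring
  have h8 : X * (1024 * 2^K) = 1024 * (2^K * X) := by ring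
  omega

/-- two pairs in the same thin condition are equal -/
theorem ev_eq {K : ℕ} {S s Q w lo T : ℤ} {u : ℤ} (hS : S = s + Q*u) (hs : w ≤ 16*s) (hs0 : 0 < s)
    (hQ : 2^(K+5)*s + w ≤ Q) {x y : ℕ × ℕ} (hx1 : x.1 < K) (hx2 : x.2 < K) (hy1 : y.1 < K)
    (hy2 : y.2 < K) (hx : x.1 ≠ x.2)
    (h1 : ∃ p : ℤ, lo ≤ T + 16*(2^x.1-2^x.2)*S - Q*p ∧ T + 16*(2^x.1-2^x.2)*S - Q*p < lo + w)
    (h2 : ∃ p : ℤ, lo ≤ T + 16*(2^y.1-2^y.2)*S - Q*p ∧ T + 16*(2^y.1-2^y.2)*S - Q*p < lo + w) :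
    x = y := by
  obtain ⟨p, h1, h1'⟩ := h1
  obtain ⟨p', h2, h2'⟩ := h2
  rw [hS] at h1 h1' h2 h2'
  obtain ⟨e1, e2⟩ := thin hs hs0 hQ hx1 hx2 hy1 hy2 hx h1 h1' h2 h2'
  exact Prod.ext e1 e2

open Classical in
theorem spoil (m r K Mp R M0 M1 rho : ℕ) (Ms Ms1 : Finset ℕ) (hMp : 2^(K+10) ≤ Mp)
    (hR : 2^(K+10) ≤ R) (h0 : 2^(K+10) ≤ M0) (h1 : 2^(K+10) ≤ M1)
    (hMs : ∀ k ∈ Ms, 2^(K+10) ≤ k ∧ k ∣ M0) (hMs1 : ∀ k ∈ Ms1, 2^(K+10) ≤ k ∧ k ∣ M1)
    (hc : Ms.card ≤ r) (hc1 : Ms1.card ≤ 32*rho) (hrho : 0 < rho) :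
    ∃ (x : ℕ → ℕ) (T0 : ℕ), (∀ a b c d, a < K → b < K → c < K → d < K →
      (Mp:ℤ) ∣ ((x a:ℤ) - x b) - (x c - x d) → (a = c ∧ b = d) ∨ (a = b ∧ c = d)) ∧
      ∀ T, T0 ≤ T → (((Finset.range K ×ˢ Finset.range K).filter
        (fun ab => ab.1 ≠ ab.2 ∧ Bad R M0 M1 m rho Ms Ms1 ((T + x ab.1 - x ab.2) / Mp))).card
          ≤ 2 + r + 34*m) := by
  have hK : (2:ℕ)^(K+10) = 1024 * 2^K := by ring
  have hK1 : 1 ≤ (2:ℕ)^K := Nat.one_le_two_pow
  set S : ℕ := SS Mp R M0 M1 m with hSdef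
  refine ⟨fun a => 16 * 2^a * S, 16 * 2^K * S, ?_, ?_⟩
  · -- Golomb modulo `Mp`
    intro a b c d ha hb hc' hd hdvd
    obtain ⟨u, hu⟩ := SS_split (Mp := Mp) (R := R) (M0 := M0) (M1 := M1) (Nat.zero_le m)
    set δ : ℤ := ((2:ℤ)^a - 2^b) - (2^c - 2^d) with hδ
    have hab' := abs_dd ha hb
    have hcd' := abs_dd hc' hd
    have hδlt : |δ| < 2^(K+1) := by
      calc |δ| ≤ |(2:ℤ)^a - 2^b| + |(2:ℤ)^c - 2^d| := abs_sub _ _
        _ < 2^K + 2^K := by linarith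
        _ = 2^(K+1) := by ring
    have hS : (S:ℤ) = 1 + Mp * (1 + M0 + PP R M0 M1 0 * u) := by
      rw [hSdef, hu]
      show ((1 + Mp + Mp * M0 + Mp * PP R M0 M1 0 * u : ℕ) : ℤ) = _
      push_cast; ring
    have h3 : (Mp:ℤ) ∣ 16 * δ := by
      have h4 : (16*δ : ℤ) = (((16 * 2^a * S : ℕ):ℤ) - ((16 * 2^b * S : ℕ):ℤ))
          - (((16 * 2^c * S : ℕ):ℤ) - ((16 * 2^d * S : ℕ):ℤ))
          - Mp * (16 * δ * (1 + M0 + PP R M0 M1 0 * u)) := by
        push_cast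
        rw [hS, hδ]; ring
      rw [h4]
      exact dvd_sub hdvd (Dvd.intro _ rfl)
    have hδ0 : δ = 0 := by
      by_contra hne
      have h5 : (Mp:ℤ) ≤ |16*δ| := Int.le_of_dvd (by positivity) ((dvd_abs _ _).2 h3)
      rw [abs_mul, show |(16:ℤ)| = 16 by norm_num] at h5
      have h6 : ((2:ℤ)^(K+10)) ≤ Mp := by exact_mod_cast hMp
      have h7 : (2:ℤ)^(K+10) = 512 * 2^(K+1) := by ring
      have h8 : (0:ℤ) < 2^(K+1) := by positivity
      linarith
    by_cases hab : a = b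
    · right
      refine ⟨hab, ?_⟩
      subst hab
      have h9 : (2:ℤ)^c = 2^d := by
        rw [hδ] at hδ0; linarith
      have h10 : (2:ℕ)^c = 2^d := by exact_mod_cast h9
      exact Nat.pow_right_injective (le_refl 2) h10
    · left
      exact Crest.Agent.R320.Ruler265.pow_sidon hab (by rw [hδ] at hδ0; linarith)
  · intro T hT
    set P := (Finset.range K ×ˢ Finset.range K).filter (fun ab => ab.1 ≠ ab.2) with hP
    set N : ℕ × ℕ → ℕ := fun ab => T + 16 * 2^ab.1 * S - 16 * 2^ab.2 * S with hNdef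
    have hmem : ∀ ab ∈ P, ab.1 < K ∧ ab.2 < K ∧ ab.1 ≠ ab.2 := by
      intro ab hab
      rw [hP, Finset.mem_filter, Finset.mem_product, Finset.mem_range, Finset.mem_range] at hab
      exact ⟨hab.1.1, hab.1.2, hab.2⟩
    have hN : ∀ ab ∈ P, ((N ab : ℕ):ℤ) = (T:ℤ) + 16*(2^ab.1 - 2^ab.2)*(S:ℤ) := by
      intro ab hab
      obtain ⟨_, h2, _⟩ := hmem ab hab
      have h3 : 16 * 2^ab.2 * S ≤ 16 * 2^K * S :=
        Nat.mul_le_mul_right _ (Nat.mul_le_mul_left _ (Nat.pow_le_pow_right (by norm_num) h2.le))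
      have h4 : 16 * 2^ab.2 * S ≤ T + 16 * 2^ab.1 * S := by omega
      show ((T + 16 * 2^ab.1 * S - 16 * 2^ab.2 * S : ℕ):ℤ) = _
      rw [Nat.cast_sub h4]
      push_cast; ring
    have key : ∀ (A C D s u : ℕ), S = s + A*C*u → 0 < A → 0 < C → 0 < s → 2*(A*D) ≤ 16*s →
        2^(K+5)*s + 2*(A*D) ≤ A*C →
        (P.filter (fun ab => (N ab / A) % C < D ∨ C ≤ (N ab / A) % C + D)).card ≤ 1 := by
      intro A C D s u hS hA hC hs h2 h3
      rw [Finset.card_le_one]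
      intro x hx y hy
      rw [Finset.mem_filter] at hx hy
      obtain ⟨hx1, hx2, hx3⟩ := hmem x hx.1
      obtain ⟨hy1, hy2, hy3⟩ := hmem y hy.1
      have ex := ev_digit hC hA hx.2
      have ey := ev_digit hC hA hy.2
      rw [hN x hx.1] at ex
      rw [hN y hy.1] at ey
      exact ev_eq (K := K) (S := (S:ℤ)) (s := s) (Q := (A:ℤ)*C) (w := 2*((A:ℤ)*D)) (u := u)
        (by rw [hS]; push_cast; ring) (by exact_mod_cast h2) (by exact_mod_cast hs)
        (by exact_mod_cast h3) hx1 hx2 hy1 hy2 hx3 ex ey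
    have key2 : ∀ (A k s u : ℕ), S = s + A*k*u → 0 < A → 0 < s → A ≤ 16*s →
        2^(K+5)*s + A ≤ A*k → (P.filter (fun ab => k ∣ N ab / A)).card ≤ 1 := by
      intro A k s u hS hA hs h2 h3
      rw [Finset.card_le_one]
      intro x hx y hy
      rw [Finset.mem_filter] at hx hy
      obtain ⟨hx1, hx2, hx3⟩ := hmem x hx.1
      obtain ⟨hy1, hy2, hy3⟩ := hmem y hy.1
      have ex := ev_dvd hA hx.2
      have ey := ev_dvd hA hy.2
      rw [hN x hx.1] at ex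
      rw [hN y hy.1] at ey
      exact ev_eq (K := K) (S := (S:ℤ)) (s := s) (Q := (A:ℤ)*k) (w := (A:ℤ)) (u := u)
        (by rw [hS]; push_cast; ring) (by exact_mod_cast h2) (by exact_mod_cast hs)
        (by exact_mod_cast h3) hx1 hx2 hy1 hy2 hx3 ex ey
    have hMp1 : 1 ≤ Mp := by omega
    have hR4 : 4 ≤ R := by omega
    have h01 : 1 ≤ M0 := by omega
    have h12 : 2 ≤ M1 := by omega
    have hPPpos : ∀ l, 0 < PP R M0 M1 l := by
      intro l
      unfold PP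
      have : 0 < R := by omega
      positivity
    have hXpos : ∀ l, 0 < Mp * PP R M0 M1 l := fun l => Nat.mul_pos (by omega) (hPPpos l)
    have hPP0 : PP R M0 M1 0 = R * M0 := by unfold PP; ring
    have hSS0 : SS Mp R M0 M1 0 = 1 + Mp + Mp * M0 := rfl
    obtain ⟨u0, hu0⟩ := SS_split (Mp := Mp) (R := R) (M0 := M0) (M1 := M1) (Nat.zero_le m)
    -- digit 0
    have hE0 : (P.filter (fun ab => (N ab / Mp) % (R*M0) < M0 ∨
        R*M0 ≤ (N ab / Mp) % (R*M0) + M0)).card ≤ 1 := by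
      have hX : Mp ≤ Mp * M0 := Nat.le_mul_of_pos_right _ h01
      refine key Mp (R*M0) M0 (1 + Mp + Mp * M0) u0 ?_ (by omega) (by positivity) (by omega)
        (by omega) ?_
      · rw [hSdef, hu0, hSS0, hPP0]
      · have h3 := lem (K := K) (s := 1 + Mp + Mp * M0) (X := Mp * M0) (by omega) hR
        have h4 : Mp * (R * M0) = Mp * M0 * R := by ring
        rw [h4]; exact h3
    have hEk : ∀ k ∈ Ms, (P.filter (fun ab => k ∣ N ab / Mp)).card ≤ 1 := by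
      intro k hk
      obtain ⟨hk1, t0, ht0⟩ := hMs k hk
      refine key2 Mp k (1 + Mp) (t0 + R * t0 * u0) ?_ (by omega) (by omega) (by omega) ?_
      · rw [hSdef, hu0, hSS0, hPP0]
        have : M0 = k * t0 := ht0
        rw [this]; ring
      · have h3 := lem (K := K) (s := 1 + Mp) (X := Mp) (by omega) hk1
        omega
    have hD : ∀ l < m, (P.filter (fun ab => ((N ab / Mp) / PP R M0 M1 l) % (R*M1) < M1 ∨
        R*M1 ≤ ((N ab / Mp) / PP R M0 M1 l) % (R*M1) + M1)).card ≤ 1 := by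
      intro l hl
      obtain ⟨u, hu⟩ := SS_split (Mp := Mp) (R := R) (M0 := M0) (M1 := M1)
        (show l + 1 ≤ m by omega)
      have hSl := SS_le (Mp := Mp) (R := R) (M0 := M0) (M1 := M1) hMp1 hR4 h01 h12 l
      have hss : SS Mp R M0 M1 (l+1)
          = SS Mp R M0 M1 l + Mp * PP R M0 M1 l * (1 + M1) := rfl
      have hX := hXpos l
      have hXM : Mp * PP R M0 M1 l ≤ Mp * PP R M0 M1 l * M1 :=
        Nat.le_mul_of_pos_right _ (by omega)
      have hexp : Mp * PP R M0 M1 l * (1 + M1)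
          = Mp * PP R M0 M1 l + Mp * PP R M0 M1 l * M1 := by ring
      simp only [Nat.div_div_eq_div_mul]
      refine key (Mp * PP R M0 M1 l) (R*M1) M1 (SS Mp R M0 M1 (l+1)) u ?_ hX ?_ (by omega)
        (by omega) ?_
      · rw [hSdef, hu, PP_succ]; ring
      · have : 0 < R := by omega
        positivity
      · have h3 := lem (K := K) (s := SS Mp R M0 M1 (l+1)) (X := Mp * PP R M0 M1 l * M1)
          (by omega) hR
        have h4 : Mp * PP R M0 M1 l * (R * M1) = Mp * PP R M0 M1 l * M1 * R := by ring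
        rw [h4]; exact h3
    have hG : ∀ l < m, ∀ k ∈ Ms1,
        (P.filter (fun ab => k ∣ (N ab / Mp) / PP R M0 M1 l)).card ≤ 1 := by
      intro l hl k hk
      obtain ⟨hk1, t1, ht1⟩ := hMs1 k hk
      obtain ⟨u, hu⟩ := SS_split (Mp := Mp) (R := R) (M0 := M0) (M1 := M1)
        (show l + 1 ≤ m by omega)
      have hSl := SS_le (Mp := Mp) (R := R) (M0 := M0) (M1 := M1) hMp1 hR4 h01 h12 l
      have hss : SS Mp R M0 M1 (l+1)
          = SS Mp R M0 M1 l + Mp * PP R M0 M1 l * (1 + M1) := rfl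
      have hX := hXpos l
      simp only [Nat.div_div_eq_div_mul]
      refine key2 (Mp * PP R M0 M1 l) k (SS Mp R M0 M1 l + Mp * PP R M0 M1 l)
        (t1 + R * t1 * u) ?_ hX (by omega) (by omega) ?_
      · rw [hSdef, hu, PP_succ, hss]
        have : M1 = k * t1 := ht1
        generalize PP R M0 M1 l = Y
        generalize SS Mp R M0 M1 l = Z
        rw [this]; ring
      · have h3 := lem (K := K) (s := SS Mp R M0 M1 l + Mp * PP R M0 M1 l)
          (X := Mp * PP R M0 M1 l) (by omega) hk1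
        omega
    have hG2 : ∀ l < m, (P.filter (fun ab =>
        rho ≤ (Ms1.filter (· ∣ (N ab / Mp) / PP R M0 M1 l)).card)).card ≤ 32 := by
      intro l hl
      have e1 : (P.filter (fun ab =>
          rho ≤ (Ms1.filter (· ∣ (N ab / Mp) / PP R M0 M1 l)).card)).card * rho
          ≤ ∑ ab ∈ P, (Ms1.filter (· ∣ (N ab / Mp) / PP R M0 M1 l)).card := by
        calc _ = ∑ ab ∈ P.filter (fun ab =>
              rho ≤ (Ms1.filter (· ∣ (N ab / Mp) / PP R M0 M1 l)).card), rho := by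
              rw [Finset.sum_const, smul_eq_mul]
          _ ≤ ∑ ab ∈ P.filter (fun ab =>
              rho ≤ (Ms1.filter (· ∣ (N ab / Mp) / PP R M0 M1 l)).card),
              (Ms1.filter (· ∣ (N ab / Mp) / PP R M0 M1 l)).card := by
              apply Finset.sum_le_sum
              intro ab hab
              exact (Finset.mem_filter.1 hab).2
          _ ≤ _ := Finset.sum_le_sum_of_subset (Finset.filter_subset _ _)
      have e2 : ∑ ab ∈ P, (Ms1.filter (· ∣ (N ab / Mp) / PP R M0 M1 l)).card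
          = ∑ k ∈ Ms1, (P.filter (fun ab => k ∣ (N ab / Mp) / PP R M0 M1 l)).card := by
        simp only [Finset.card_filter]
        exact Finset.sum_comm
      have e3 : ∑ k ∈ Ms1, (P.filter (fun ab => k ∣ (N ab / Mp) / PP R M0 M1 l)).card
          ≤ Ms1.card := by
        calc _ ≤ ∑ k ∈ Ms1, 1 := Finset.sum_le_sum fun k hk => hG l hl k hk
          _ = Ms1.card := by simp
      have e4 := (e1.trans (e2.le.trans e3)).trans hc1
      exact Nat.le_of_mul_le_mul_right e4 hrho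
    -- the union bound
    have hsub : (Finset.range K ×ˢ Finset.range K).filter
        (fun ab => ab.1 ≠ ab.2 ∧ Bad R M0 M1 m rho Ms Ms1 (N ab / Mp)) ⊆
        P.filter (fun ab => (N ab / Mp) % (R*M0) < M0 ∨ R*M0 ≤ (N ab / Mp) % (R*M0) + M0) ∪
        Ms.biUnion (fun k => P.filter (fun ab => k ∣ N ab / Mp)) ∪
        (Finset.range m).biUnion (fun l =>
          P.filter (fun ab => ((N ab / Mp) / PP R M0 M1 l) % (R*M1) < M1 ∨
            R*M1 ≤ ((N ab / Mp) / PP R M0 M1 l) % (R*M1) + M1) ∪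
          P.filter (fun ab => rho ≤ (Ms1.filter (· ∣ (N ab / Mp) / PP R M0 M1 l)).card)) := by
      intro ab hab
      rw [Finset.mem_filter] at hab
      obtain ⟨ha, hne, hbad⟩ := hab
      have hPm : ab ∈ P := by rw [hP, Finset.mem_filter]; exact ⟨ha, hne⟩
      rcases hbad with h | ⟨k, hk, h⟩ | ⟨l, hl, h | h⟩
      · exact Finset.mem_union_left _ (Finset.mem_union_left _ (Finset.mem_filter.2 ⟨hPm, h⟩))
      · exact Finset.mem_union_left _ (Finset.mem_union_right _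
          (Finset.mem_biUnion.2 ⟨k, hk, Finset.mem_filter.2 ⟨hPm, h⟩⟩))
      · exact Finset.mem_union_right _ (Finset.mem_biUnion.2 ⟨l, Finset.mem_range.2 hl,
          Finset.mem_union_left _ (Finset.mem_filter.2 ⟨hPm, h⟩)⟩)
      · exact Finset.mem_union_right _ (Finset.mem_biUnion.2 ⟨l, Finset.mem_range.2 hl,
          Finset.mem_union_right _ (Finset.mem_filter.2 ⟨hPm, h⟩)⟩)
    refine (Finset.card_le_card hsub).trans ?_
    refine (Finset.card_union_le _ _).trans ?_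
    have c1 := Finset.card_union_le
      (P.filter (fun ab => (N ab / Mp) % (R*M0) < M0 ∨ R*M0 ≤ (N ab / Mp) % (R*M0) + M0))
      (Ms.biUnion (fun k => P.filter (fun ab => k ∣ N ab / Mp)))
    have c2 : (Ms.biUnion (fun k => P.filter (fun ab => k ∣ N ab / Mp))).card ≤ Ms.card := by
      refine Finset.card_biUnion_le.trans ?_
      calc _ ≤ ∑ k ∈ Ms, 1 := Finset.sum_le_sum fun k hk => hEk k hk
        _ = Ms.card := by simp
    have c3 : ((Finset.range m).biUnion (fun l =>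
          P.filter (fun ab => ((N ab / Mp) / PP R M0 M1 l) % (R*M1) < M1 ∨
            R*M1 ≤ ((N ab / Mp) / PP R M0 M1 l) % (R*M1) + M1) ∪
          P.filter (fun ab => rho ≤ (Ms1.filter (· ∣ (N ab / Mp) / PP R M0 M1 l)).card))).card
        ≤ m * 33 := by
      refine Finset.card_biUnion_le.trans ?_
      calc _ ≤ ∑ l ∈ Finset.range m, 33 := by
            apply Finset.sum_le_sum
            intro l hl
            have hl' := Finset.mem_range.1 hl
            refine (Finset.card_union_le _ _).trans ?_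
            have a1 := hD l hl'
            have a2 := hG2 l hl'
            omega
        _ = m * 33 := by simp
    omega

end main

end Crest.Agent.R320.Spoil_929
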