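import Mathlib

/-!
Row 320, helper94: geometry of the promise scheme (scheme 2) in block form.

Outer walls are left-looking (`Wo`, window `no`), blocks `XX` by residue thresholds (132 / 420),
small walls right-looking (`Rs`).  `Bad X` = one of the three thin bands (E), (B), (D).
`few_spoiled`: for a text `w`, all but `1 + (m+1) + 2 |Ms|` clocks `c` of the ruler `C` have the
property that every other clock `c'` claims a block which is not bad.
-/

set_option autoImplicit false

namespace Crest.Agent.R320.Spoil_94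

variable {α : Type*}

/-- parameters -/
structure Par (α : Type*) where
  Wo : List α → Prop
  no : ℕ
  Wg : ℕ
  Rs : List α → Prop
  g : ℕ
  M' : ℕ
  M : ℕ
  N1 : ℕ
  Lam : ℕ
  p0 : ℕ
  m : ℕ
  thr : ℕ → ℕ
  zlo : ℕ
  zhi : ℕ
  A : ℕ → ℕ
  Ms : Finset ℕ
  C : Finset ℕ

variable (D : Par α)

/-- a place `t` qualifies as end of the block -/
def Par.qual (t : ℕ) : Prop := D.thr (t % D.M') ≤ t

/-- blocks -/
def Par.XX (X : List α) : Prop :=
  D.Wo X ∧ D.qual X.length ∧ ∀ t, t < X.length → D.Wo (X.take t) → ¬ D.qual t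

def Par.BE (X : List α) : Prop :=
  ∃ t, t ≤ X.length ∧ D.Wo (X.take t) ∧ t ≤ D.thr (t % D.M') + D.N1 ∧
    D.thr (t % D.M') ≤ t + D.N1

def Par.BB (X : List α) : Prop := ∃ q ∈ D.Ms, q ∣ (X.length - D.p0) / D.M'

def Par.BD (X : List α) : Prop :=
  ∃ k, k ≤ D.m ∧ ∃ s, D.Rs (X.drop (D.p0 + s)) ∧ D.A k < s + D.M' * D.M ∧
    s < D.A k + D.M' * D.M

def Par.Bad (X : List α) : Prop := D.XX X ∧ (D.BE X ∨ D.BB X ∨ D.BD X)

/-- hypotheses -/
structure Ok (D : Par α) : Prop where
  M'pos : 0 < D.M'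
  hWo : ∀ P Q : List α, D.no ≤ Q.length → (D.Wo (P ++ Q) ↔ D.Wo Q)
  sepW : ∀ (P : List α) (t t' : ℕ), t < t' → t' ≤ P.length → D.Wo (P.take t) →
    D.Wo (P.take t') → t + D.Wg < t'
  /-- a small wall is a local right-looking event inside the word -/
  sepS : ∀ (Q : List α) (d : ℕ), D.Rs Q → 0 < d → d ≤ D.g → ¬ D.Rs (Q.drop d)
  monS : ∀ (P Q : List α), D.Rs P → D.Rs (P ++ Q)
  lo : ∀ r, r < D.M' → D.zlo ≤ D.thr r
  hi : ∀ r, r < D.M' → D.thr r ≤ D.zhi
  sepT : ∀ r r', r < D.M' → r' < D.M' → r ≠ r' →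
    D.thr r + 2 * D.N1 + 2 * D.Lam < D.thr r' ∨ D.thr r' + 2 * D.N1 + 2 * D.Lam < D.thr r
  gap : D.zhi + 2 * D.N1 + 2 * D.Lam ≤ D.zlo + D.Wg
  gapS : 2 * (D.M' * D.M) + 2 * D.Lam ≤ D.g
  lam : ∀ c ∈ D.C, ∀ c' ∈ D.C, c ≤ c' + D.Lam
  cp0 : ∀ c ∈ D.C, c ≤ D.p0
  far : D.p0 + D.no + D.N1 + D.Lam ≤ D.zlo
  two : D.zhi + D.Lam ≤ 2 * D.zlo
  G1 : ∀ c ∈ D.C, ∀ c' ∈ D.C, ∀ d ∈ D.C, ∀ d' ∈ D.C, c' ≠ c → d' ≠ d →
    (D.M' : ℤ) ∣ ((c : ℤ) - c') - (d - d') → c = d
  G2 : ∀ c ∈ D.C, ∀ c' ∈ D.C, ∀ d ∈ D.C, ∀ d' ∈ D.C, c' ≠ c → d' ≠ d →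
    |((c : ℤ) - c') - (d - d')| < 2 * (D.M' * D.M : ℕ) → c = d
  G3 : ∀ q ∈ D.Ms, ∀ c ∈ D.C, ∀ c' ∈ D.C, ∀ d ∈ D.C, ∀ d' ∈ D.C, c' ≠ c → d' ≠ d →
    ∀ l : ℤ, |((c : ℤ) - c') - (d - d') - l * (q * D.M' : ℕ)| < D.M' → c = d

variable {D}

/-- trigger (E) -/
def TrE (D : Par α) (w : List α) (c c' : ℕ) : Prop :=
  ∃ t τ, t + c = τ + c' ∧ D.Wo (w.take τ) ∧ τ ≤ w.length ∧ t ≤ D.thr (t % D.M') + D.N1 ∧
    D.thr (t % D.M') ≤ t + D.N1

/-- trigger (D) -/
def TrD (D : Par α) (w : List α) (k c c' : ℕ) : Prop :=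
  ∃ u s, u + c' = D.p0 + s + c ∧ D.Rs (w.drop u) ∧ D.A k < s + D.M' * D.M ∧
    s < D.A k + D.M' * D.M

/-- first wall at or after `zlo - Lam` -/
def W1 (D : Par α) (w : List α) (τ : ℕ) : Prop :=
  τ ≤ w.length ∧ D.Wo (w.take τ) ∧ D.zlo ≤ τ + D.Lam ∧
    ∀ σ, σ < τ → D.Wo (w.take σ) → ¬ D.zlo ≤ σ + D.Lam

/-- second wall -/
def W2 (D : Par α) (w : List α) (τ : ℕ) : Prop :=
  τ ≤ w.length ∧ D.Wo (w.take τ) ∧ ∃ τ1, W1 D w τ1 ∧ τ1 < τ ∧
    ∀ σ, τ1 < σ → σ < τ → ¬ D.Wo (w.take σ)

/-- trigger (B) -/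
def TrB (D : Par α) (w : List α) (q : ℕ) (b : Bool) (c c' : ℕ) : Prop :=
  ∃ t τ, t + c = τ + c' ∧ (if b then W1 D w τ else W2 D w τ) ∧ D.p0 ≤ t ∧
    q ∣ (t - D.p0) / D.M'

theorem W1_unique {w : List α} {τ σ : ℕ} (h : W1 D w τ) (h' : W1 D w σ) : τ = σ := by
  rcases lt_trichotomy τ σ with hlt | he | hlt
  · exact absurd h.2.2.1 (h'.2.2.2 _ hlt h.2.1)
  · exact he
  · exact absurd h'.2.2.1 (h.2.2.2 _ hlt h'.2.1)

theorem W2_unique {w : List α} {τ σ : ℕ} (h : W2 D w τ) (h' : W2 D w σ) : τ = σ := by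
  obtain ⟨_, h2, a, ha, h3, h4⟩ := h
  obtain ⟨_, g2, b, hb, g3, g4⟩ := h'
  have := W1_unique ha hb
  subst this
  rcases lt_trichotomy τ σ with hlt | he | hlt
  · exact absurd h2 (g4 _ h3 hlt)
  · exact he
  · exact absurd g2 (h4 _ g3 hlt)

theorem wall_unique (hD : Ok D) {w : List α} {τ σ : ℕ} (h1 : D.Wo (w.take τ))
    (h2 : τ ≤ w.length) (g1 : D.Wo (w.take σ)) (g2 : σ ≤ w.length) (h : τ ≤ σ + D.Wg)
    (h' : σ ≤ τ + D.Wg) : τ = σ := by
  rcases lt_trichotomy τ σ with hlt | he | hlt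
  · have := hD.sepW w τ σ hlt g2 h1 g1; omega
  · exact he
  · have := hD.sepW w σ τ hlt h2 g1 h1; omega

theorem trE_unique (hD : Ok D) {w : List α} {c c' d d' : ℕ} (hc : c ∈ D.C) (hc' : c' ∈ D.C)
    (hd : d ∈ D.C) (hd' : d' ∈ D.C) (hcc : c' ≠ c) (hdd : d' ≠ d) (h : TrE D w c c')
    (g : TrE D w d d') : c = d := by
  obtain ⟨t, τ, h1, h2, h3, h4, h5⟩ := h
  obtain ⟨s, σ, g1, g2, g3, g4, g5⟩ := g
  have l1 := hD.lam c hc c' hc'
  have l2 := hD.lam c' hc' c hc
  have l3 := hD.lam d hd d' hd'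
  have l4 := hD.lam d' hd' d hd
  have r1 := Nat.mod_lt t hD.M'pos
  have r2 := Nat.mod_lt s hD.M'pos
  have b1 := hD.lo _ r1
  have b2 := hD.hi _ r1
  have b3 := hD.lo _ r2
  have b4 := hD.hi _ r2
  have gp := hD.gap
  have he : τ = σ := wall_unique hD h2 h3 g2 g3 (by omega) (by omega)
  subst he
  have hr : t % D.M' = s % D.M' := by
    by_contra hne
    rcases hD.sepT _ _ r1 r2 hne with h6 | h6 <;> omega
  apply hD.G1 c hc c' hc' d hd d' hd' hcc hdd
  have e1 : ((c : ℤ) - c') - (d - d') = (s : ℤ) - t := by omega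
  rw [e1]
  exact (Nat.modEq_iff_dvd (n := D.M') (a := t) (b := s)).1 hr

theorem trD_unique (hD : Ok D) {w : List α} {k c c' d d' : ℕ} (hc : c ∈ D.C) (hc' : c' ∈ D.C)
    (hd : d ∈ D.C) (hd' : d' ∈ D.C) (hcc : c' ≠ c) (hdd : d' ≠ d) (h : TrD D w k c c')
    (g : TrD D w k d d') : c = d := by
  obtain ⟨u, s, h1, h2, h3, h4⟩ := h
  obtain ⟨v, r, g1, g2, g3, g4⟩ := g
  have l1 := hD.lam c hc c' hc'
  have l2 := hD.lam c' hc' c hc
  have l3 := hD.lam d hd d' hd'
  have l4 := hD.lam d' hd' d hd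
  have gp := hD.gapS
  have key : ∀ a b : ℕ, a < b → b ≤ a + D.g → D.Rs (w.drop a) → D.Rs (w.drop b) → False := by
    intro a b hab hb ha hb'
    have := hD.sepS (w.drop a) (b - a) ha (by omega) (by omega)
    rw [List.drop_drop, show a + (b - a) = b by omega] at this
    exact this hb'
  have he : u = v := by
    rcases lt_trichotomy u v with hlt | he | hlt
    · exact (key u v hlt (by omega) h2 g2).elim
    · exact he
    · exact (key v u hlt (by omega) g2 h2).elim
  subst he
  apply hD.G2 c hc c' hc' d hd d' hd' hcc hdd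
  rw [abs_lt]
  constructor <;> push_cast <;> omega

theorem trB_unique (hD : Ok D) {w : List α} {q : ℕ} (hq : q ∈ D.Ms) {b : Bool}
    {c c' d d' : ℕ} (hc : c ∈ D.C) (hc' : c' ∈ D.C)
    (hd : d ∈ D.C) (hd' : d' ∈ D.C) (hcc : c' ≠ c) (hdd : d' ≠ d) (h : TrB D w q b c c')
    (g : TrB D w q b d d') : c = d := by
  obtain ⟨t, τ, h1, h2, h3, h4⟩ := h
  obtain ⟨s, σ, g1, g2, g3, g4⟩ := g
  have he : τ = σ := by
    cases b
    · exact W2_unique (by simpa using h2) (by simpa using g2)
    · exact W1_unique (by simpa using h2) (by simpa using g2)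
  subst he
  obtain ⟨x, hx⟩ := h4
  obtain ⟨y, hy⟩ := g4
  have a1 := Nat.div_add_mod (t - D.p0) D.M'
  have a2 := Nat.mod_lt (t - D.p0) hD.M'pos
  have a3 := Nat.div_add_mod (s - D.p0) D.M'
  have a4 := Nat.mod_lt (s - D.p0) hD.M'pos
  rw [hx] at a1
  rw [hy] at a3
  apply hD.G3 q hq c hc c' hc' d hd d' hd' hcc hdd ((y : ℤ) - x)
  have a1' : (D.M' : ℤ) * (q * x) + ((t - D.p0) % D.M' : ℕ) = (t : ℤ) - D.p0 := by
    have : ((D.M' * (q * x) + (t - D.p0) % D.M' : ℕ) : ℤ) = ((t - D.p0 : ℕ) : ℤ) := by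
      rw [a1]
    push_cast at this ⊢
    omega
  have a3' : (D.M' : ℤ) * (q * y) + ((s - D.p0) % D.M' : ℕ) = (s : ℤ) - D.p0 := by
    have : ((D.M' * (q * y) + (s - D.p0) % D.M' : ℕ) : ℤ) = ((s - D.p0 : ℕ) : ℤ) := by
      rw [a3]
    push_cast at this ⊢
    omega
  have e1 : ((c : ℤ) - c') - (d - d') = (s : ℤ) - t := by omega
  have e2 : ((c : ℤ) - c') - (d - d') - ((y : ℤ) - x) * (q * D.M' : ℕ) =
      ((s - D.p0) % D.M' : ℕ) - ((t - D.p0) % D.M' : ℕ) := by
    rw [e1]
    push_cast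
    have : (s : ℤ) - t = ((D.M' : ℤ) * (q * y) + ((s - D.p0) % D.M' : ℕ)) -
        ((D.M' : ℤ) * (q * x) + ((t - D.p0) % D.M' : ℕ)) := by
      rw [a1', a3']; ring
    rw [this]
    push_cast
    ring
  rw [e2, abs_lt]
  constructor <;> omega

/-- some trigger -/
def Trig (D : Par α) (w : List α) (c c' : ℕ) : Prop :=
  TrE D w c c' ∨ (∃ k, k ≤ D.m ∧ TrD D w k c c') ∨ ∃ q ∈ D.Ms, ∃ b, TrB D w q b c c'

def Spoiled (D : Par α) (w : List α) (c : ℕ) : Prop := ∃ c' ∈ D.C, c' ≠ c ∧ Trig D w c c'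

open Classical in
theorem card_spoiled (hD : Ok D) (w : List α) :
    (D.C.filter (Spoiled D w)).card ≤ 1 + (D.m + 1) + 2 * D.Ms.card := by
  classical
  let E := Unit ⊕ (Fin (D.m + 1) ⊕ (D.Ms × Bool))
  -- the event of a spoiled clock
  let R : ℕ → ℕ → E → Prop := fun c c' e => match e with
    | Sum.inl _ => TrE D w c c'
    | Sum.inr (Sum.inl k) => TrD D w k c c'
    | Sum.inr (Sum.inr p) => TrB D w p.1 p.2 c c'
  have hex : ∀ c ∈ D.C.filter (Spoiled D w), ∃ e : E, ∃ c' ∈ D.C, c' ≠ c ∧ R c c' e := by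
    intro c hc
    obtain ⟨_, c', hc', hne, h⟩ := Finset.mem_filter.1 hc
    rcases h with h | ⟨k, hk, h⟩ | ⟨q, hq, b, h⟩
    · exact ⟨Sum.inl (), c', hc', hne, h⟩
    · exact ⟨Sum.inr (Sum.inl ⟨k, by omega⟩), c', hc', hne, h⟩
    · exact ⟨Sum.inr (Sum.inr (⟨q, hq⟩, b)), c', hc', hne, h⟩
  choose! f hf using hex
  have hcard : (D.C.filter (Spoiled D w)).card ≤ (Finset.univ : Finset E).card := by
    refine Finset.card_le_card_of_injOn f (fun _ _ => Finset.mem_coe.2 (Finset.mem_univ _)) ?_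
    intro c hc d hd he
    obtain ⟨c', hc', hcc, h⟩ := hf c hc
    obtain ⟨d', hd', hdd, g⟩ := hf d hd
    have hcC := (Finset.mem_filter.1 (Finset.mem_coe.1 hc)).1
    have hdC := (Finset.mem_filter.1 (Finset.mem_coe.1 hd)).1
    rw [← he] at g
    revert h g
    rcases f c with x | k | p
    · intro h g
      exact trE_unique hD hcC hc' hdC hd' hcc hdd h g
    · intro h g
      exact trD_unique hD hcC hc' hdC hd' hcc hdd h g
    · intro h g
      exact trB_unique hD p.1.2 hcC hc' hdC hd' hcc hdd h g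
  refine hcard.trans (le_of_eq ?_)
  simp [E, Finset.card_univ]
  ring

/-! ### transfer between the texts `P' ++ w.drop c` and `w` -/

theorem wall_transfer (hD : Ok D) {w P' : List α} {c t τ : ℕ} (h : t + c = τ + P'.length)
    (hτ : τ ≤ w.length) (ht : P'.length + D.no ≤ t) :
    D.Wo ((P' ++ w.drop c).take t) ↔ D.Wo (w.take τ) := by
  have hlen : ((w.drop c).take (t - P'.length)).length = t - P'.length := by
    rw [List.length_take, List.length_drop]; omega
  have e1 : (P' ++ w.drop c).take t = P' ++ (w.drop c).take (t - P'.length) := by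
    rw [List.take_append, List.take_of_length_le (by omega)]
  have e2 : w.take τ = w.take c ++ (w.drop c).take (t - P'.length) := by
    have hc : τ = c + (t - P'.length) := by omega
    rw [hc, List.take_add]
  rw [e1, e2, hD.hWo _ _ (by omega), hD.hWo _ _ (by omega)]

theorem XX.len (hD : Ok D) {X : List α} (h : D.XX X) : D.zlo ≤ X.length :=
  (hD.lo _ (Nat.mod_lt _ hD.M'pos)).trans h.2.1

theorem qual_of_hi (hD : Ok D) {t : ℕ} (h : D.zhi ≤ t) : D.qual t :=
  (hD.hi _ (Nat.mod_lt _ hD.M'pos)).trans h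

theorem zlo_of_qual (hD : Ok D) {t : ℕ} (h : D.qual t) : D.zlo ≤ t :=
  (hD.lo _ (Nat.mod_lt _ hD.M'pos)).trans h

/-- first block of a text that has a qualifying wall -/
theorem first_block {T' : List α} {t : ℕ} (ht : t ≤ T'.length) (h1 : D.Wo (T'.take t))
    (h2 : D.qual t) : ∃ s, s ≤ t ∧ D.XX (T'.take s) := by
  classical
  have hex : ∃ s, D.Wo (T'.take s) ∧ D.qual s := ⟨t, h1, h2⟩
  have hle : Nat.find hex ≤ t := Nat.find_min' hex ⟨h1, h2⟩
  have hl : (T'.take (Nat.find hex)).length = Nat.find hex := by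
    rw [List.length_take]; omega
  refine ⟨Nat.find hex, hle, ?_⟩
  obtain ⟨h3, h4⟩ := Nat.find_spec hex
  refine ⟨h3, by rw [hl]; exact h4, ?_⟩
  intro s hs hw hq
  rw [hl] at hs
  rw [List.take_take, min_eq_left (by omega)] at hw
  exact Nat.find_min hex hs ⟨hw, hq⟩

/-- the first block of `P' ++ w.drop c` exists inside the two blocks `X ++ M1`. -/
theorem block_exists (hD : Ok D) {X M1 R P' : List α} {c : ℕ} (hX : D.XX X) (hM : D.XX M1)
    (hc : c ∈ D.C) (hP : P'.length ∈ D.C) :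
    ∃ s, s + c ≤ X.length + M1.length ∧
      D.XX (P' ++ ((X ++ M1 ++ R).drop c).take s) := by
  have l1 := hD.lam c hc _ hP
  have l2 := hD.lam _ hP c hc
  have l3 := hD.cp0 c hc
  have l4 := hD.cp0 _ hP
  have x1 := XX.len hD hX
  have x2 := XX.len hD hM
  have hf := hD.far
  have h2 := hD.two
  set w := X ++ M1 ++ R with hw
  have hwl : w.length = X.length + M1.length + R.length := by
    rw [hw, List.length_append, List.length_append]
  have hτ : D.Wo (w.take (X.length + M1.length)) := by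
    have : w.take (X.length + M1.length) = X ++ M1 := by
      rw [hw, List.take_append_of_le_length (by rw [List.length_append])]
      exact List.take_of_length_le (by rw [List.length_append])
    rw [this, hD.hWo _ _ (by omega)]
    exact hM.1
  have ht0 : X.length + M1.length + P'.length - c + c = X.length + M1.length + P'.length := by
    omega
  have hwall := (wall_transfer hD (w := w) (P' := P') (c := c)
    (t := X.length + M1.length + P'.length - c) (τ := X.length + M1.length) ht0 (by omega)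
    (by omega)).2 hτ
  obtain ⟨s, hs, hb⟩ := first_block (D := D) (T' := P' ++ w.drop c) (by
    rw [List.length_append, List.length_drop]; omega) hwall (qual_of_hi hD (by omega))
  have hsl : D.zlo ≤ s := by
    have := XX.len hD hb
    rw [List.length_take] at this
    omega
  refine ⟨s - P'.length, by omega, ?_⟩
  have e : (P' ++ w.drop c).take s = P' ++ (w.drop c).take (s - P'.length) := by
    rw [List.take_append, List.take_of_length_le (by omega)]
  rw [← e]
  exact hb

/-- a bad claimed block triggers an event. -/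
theorem trig_of_bad (hD : Ok D) {w P' : List α} {c s : ℕ} (hc : c ∈ D.C)
    (hP : P'.length ∈ D.C) (hs : s + c ≤ w.length)
    (hb : D.Bad (P' ++ (w.drop c).take s)) : Trig D w c P'.length := by
  have l1 := hD.lam c hc _ hP
  have l2 := hD.lam _ hP c hc
  have l3 := hD.cp0 c hc
  have l4 := hD.cp0 _ hP
  have hf := hD.far
  have hsl : ((w.drop c).take s).length = s := by
    rw [List.length_take, List.length_drop]; omega
  set X' := P' ++ (w.drop c).take s with hX'
  have hXl : X'.length = P'.length + s := by rw [hX', List.length_append, hsl]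
  have htk : ∀ t, t ≤ X'.length → X'.take t = (P' ++ w.drop c).take t := by
    intro t ht
    have : X' = (P' ++ w.drop c).take (P'.length + s) := by
      rw [List.take_append, List.take_of_length_le (by omega), Nat.add_sub_cancel_left]
    rw [this, List.take_take, min_eq_left (by omega)]
  obtain ⟨hxx, hcase⟩ := hb
  have hx0 := XX.len hD hxx
  rcases hcase with hE | hB | hDD
  · left
    obtain ⟨t, h1, h2, h3, h4⟩ := hE
    have h5 := hD.lo _ (Nat.mod_lt t hD.M'pos)
    refine ⟨t, t + c - P'.length, by omega, ?_, by omega, h3, h4⟩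
    rw [htk t h1] at h2
    exact (wall_transfer hD (by omega) (by omega) (by omega)).1 h2
  · right; right
    obtain ⟨q, hq, hdv⟩ := hB
    refine ⟨q, hq, ?_⟩
    have hτw : D.Wo (w.take (X'.length + c - P'.length)) := by
      have h2 := hxx.1
      have h3 := htk X'.length le_rfl
      rw [List.take_of_length_le le_rfl] at h3
      rw [h3] at h2
      exact (wall_transfer hD (by omega) (by omega) (by omega)).1 h2
    classical
    have hex : ∃ σ, D.Wo (w.take σ) ∧ D.zlo ≤ σ + D.Lam :=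
      ⟨X'.length + c - P'.length, hτw, by omega⟩
    obtain ⟨f1, f2⟩ := Nat.find_spec hex
    have f3 : Nat.find hex ≤ X'.length + c - P'.length := Nat.find_min' hex ⟨hτw, by omega⟩
    have hW1 : W1 D w (Nat.find hex) := by
      refine ⟨by omega, f1, f2, ?_⟩
      intro σ hσ hw hz
      exact Nat.find_min hex hσ ⟨hw, hz⟩
    rcases Nat.eq_or_lt_of_le f3 with he | hlt
    · refine ⟨true, X'.length, X'.length + c - P'.length, by omega, ?_, by omega, hdv⟩
      simp only [if_true]
      rw [← he]; exact hW1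
    · refine ⟨false, X'.length, X'.length + c - P'.length, by omega, ?_, by omega, hdv⟩
      simp only [Bool.false_eq_true, if_false]
      refine ⟨by omega, hτw, Nat.find hex, hW1, hlt, ?_⟩
      intro σ h1 h2 hw
      have h3 := hD.sepW w _ σ h1 (by omega) f1 hw
      have h4 := hD.gap
      have h5 : D.Wo ((P' ++ w.drop c).take (σ + P'.length - c)) :=
        (wall_transfer hD (τ := σ) (by omega) (by omega) (by omega)).2 hw
      rw [← htk _ (by omega)] at h5
      exact hxx.2.2 _ (by omega) h5 (qual_of_hi hD (by omega))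
  · right; left
    obtain ⟨k, hk, s1, h1, h2, h3⟩ := hDD
    refine ⟨k, hk, D.p0 + s1 + c - P'.length, s1, by omega, ?_, h2, h3⟩
    have e1 : X' ++ (w.drop c).drop s = P' ++ w.drop c := by
      rw [hX', List.append_assoc, List.take_append_drop]
    have e2 : (X' ++ (w.drop c).drop s).drop (D.p0 + s1) =
        w.drop (D.p0 + s1 + c - P'.length) := by
      rw [e1, List.drop_append, List.drop_of_length_le (by omega), List.nil_append,
        List.drop_drop]
      congr 1
      omega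
    rw [List.drop_append] at e2
    rw [← e2]
    exact hD.monS _ _ h1

/-- same clock: the status of a block does not depend on its first `|P| ≤ p0` letters. -/
theorem XX.congr (hD : Ok D) {P P' Y : List α} (hl : P'.length = P.length)
    (hp : P.length ≤ D.p0) (h : D.XX (P ++ Y)) : D.XX (P' ++ Y) := by
  have hf := hD.far
  have x1 := XX.len hD h
  rw [List.length_append] at x1
  have hlen : (P' ++ Y).length = (P ++ Y).length := by simp [hl]
  obtain ⟨h1, h2, h3⟩ := h
  refine ⟨?_, by rw [hlen]; exact h2, ?_⟩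
  · rw [hD.hWo _ _ (by omega)] at h1 ⊢
    exact h1
  · intro t ht hw hq
    have hz := zlo_of_qual hD hq
    rw [hlen] at ht
    refine h3 t ht ?_ hq
    rw [List.length_append] at ht
    rw [List.take_append, List.take_of_length_le (by omega)] at hw ⊢
    have hY : (Y.take (t - P.length)).length = t - P.length := by
      rw [List.length_take]; omega
    rw [hl, hD.hWo _ _ (by omega)] at hw
    rw [hD.hWo _ _ (by omega)]
    exact hw

theorem Bad.congr (hD : Ok D) {P P' Y : List α} (hl : P'.length = P.length)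
    (hp : P.length ≤ D.p0) (h : D.Bad (P ++ Y)) : D.Bad (P' ++ Y) := by
  have hf := hD.far
  have x1 := XX.len hD h.1
  rw [List.length_append] at x1
  have hlen : (P' ++ Y).length = (P ++ Y).length := by simp [hl]
  refine ⟨XX.congr hD hl hp h.1, ?_⟩
  rcases h.2 with hE | hB | hDD
  · left
    obtain ⟨t, h1, h2, h3, h4⟩ := hE
    have h5 := hD.lo _ (Nat.mod_lt t hD.M'pos)
    refine ⟨t, by rw [hlen]; exact h1, ?_, h3, h4⟩
    rw [List.length_append] at h1
    rw [List.take_append, List.take_of_length_le (by omega)] at h2 ⊢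
    have hY : (Y.take (t - P.length)).length = t - P.length := by
      rw [List.length_take]; omega
    rw [hD.hWo _ _ (by omega)] at h2
    rw [hl, hD.hWo _ _ (by omega)]
    exact h2
  · right; left
    obtain ⟨q, hq, hdv⟩ := hB
    exact ⟨q, hq, by rw [hlen]; exact hdv⟩
  · right; right
    obtain ⟨k, hk, s1, h1, h2, h3⟩ := hDD
    refine ⟨k, hk, s1, ?_, h2, h3⟩
    rw [List.drop_append, List.drop_of_length_le (by omega)] at h1 ⊢
    rw [hl]
    exact h1

/-- **few clocks are spoiled**: all but `1 + (m+1) + 2|Ms|` clocks `c` of the ruler are such that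
every other clock claims a block which exists inside the two blocks and is not bad. -/
theorem few_spoiled (hD : Ok D) {X M1 R : List α} (hX : D.XX X) (hM : D.XX M1)
    (C' : Finset ℕ) (hC' : C' ⊆ D.C) (hcard : 1 + (D.m + 1) + 2 * D.Ms.card < C'.card) :
    ∃ c ∈ C', ∀ P' : List α, P'.length ∈ D.C → P'.length ≠ c →
      ∃ s, s + c ≤ X.length + M1.length ∧ D.XX (P' ++ ((X ++ M1 ++ R).drop c).take s) ∧
        ¬ D.Bad (P' ++ ((X ++ M1 ++ R).drop c).take s) := by
  classical
  have h1 := card_spoiled hD (X ++ M1 ++ R)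
  have h2 : ∃ c ∈ C', ¬ Spoiled D (X ++ M1 ++ R) c := by
    by_contra hcon
    push Not at hcon
    have : C' ⊆ D.C.filter (Spoiled D (X ++ M1 ++ R)) := by
      intro c hc
      exact Finset.mem_filter.2 ⟨hC' hc, hcon c hc⟩
    have := Finset.card_le_card this
    omega
  obtain ⟨c, hc, hsp⟩ := h2
  refine ⟨c, hc, ?_⟩
  intro P' hP hne
  obtain ⟨s, hs, hb⟩ := block_exists hD (R := R) hX hM (hC' hc) hP
  refine ⟨s, hs, hb, ?_⟩
  intro hbad
  exact hsp ⟨P'.length, hP, hne, trig_of_bad hD (hC' hc) hP (by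
    rw [List.length_append, List.length_append]; omega) hbad⟩

/-- **promise scheme, one point** (semantic right label, 110 / 812): zone map
`T v X = post (pre v (X.take p0)) (X.drop p0)`; exact gadget `lam, rho` on `X.take p0`. -/
theorem promise_point (hD : Ok D) {V : Type*} (pre : V → List α → V) (post : V → List α → V)
    (lam rho : List α → Option V)
    (hlam : ∀ p v, lam p = some v → p.length ∈ D.C)
    (hex : ∀ p q v b, p.length + q.length = D.p0 → lam p = some v → rho q = some b →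
      b = pre v (p ++ q))
    {X M1 R : List α} (hX : D.Bad X) (hM : D.XX M1) (v : V) (C' : Finset ℕ) (hC' : C' ⊆ D.C)
    (hcard : 1 + (D.m + 1) + 2 * D.Ms.card < C'.card)
    (hcomp : ∀ c ∈ C', lam (X.take c) = some v ∧ (rho ((X.take D.p0).drop c)).isSome = true) :
    ∃ c ∈ C', lam (X.take c) = some v ∧
      ∀ P' v', lam P' = some v' →
        (D.Bad (P' ++ X.drop c) ∧
          post (pre v' ((P' ++ X.drop c).take D.p0)) ((P' ++ X.drop c).drop D.p0) =
            post (pre v (X.take D.p0)) (X.drop D.p0)) ∨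
        (∃ s, s + c ≤ X.length + M1.length ∧ D.XX (P' ++ ((X ++ M1 ++ R).drop c).take s) ∧
          ¬ D.Bad (P' ++ ((X ++ M1 ++ R).drop c).take s)) := by
  obtain ⟨c, hc, hsp⟩ := few_spoiled hD (R := R) hX.1 hM C' hC' hcard
  obtain ⟨h1, h2⟩ := hcomp c hc
  refine ⟨c, hc, h1, ?_⟩
  intro P' v' hP'
  have hPC := hlam P' v' hP'
  by_cases hne : P'.length = c
  · left
    have hf := hD.far
    have hcp := hD.cp0 c (hC' hc)
    have hxl := XX.len hD hX.1
    have hXs : X.take c ++ X.drop c = X := List.take_append_drop c X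
    have hcl : (X.take c).length = c := by rw [List.length_take]; omega
    constructor
    · refine Bad.congr hD (P := X.take c) (by rw [hcl]; exact hne) (by rw [hcl]; exact hcp) ?_
      rw [hXs]; exact hX
    · obtain ⟨b, hb⟩ := Option.isSome_iff_exists.1 h2
      have hq : (X.take D.p0).drop c = (X.drop c).take (D.p0 - c) := by
        rw [List.drop_take]
      have e1 : (P' ++ X.drop c).take D.p0 = P' ++ (X.take D.p0).drop c := by
        rw [List.take_append, List.take_of_length_le (by omega), hq, hne]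
      have e2 : (P' ++ X.drop c).drop D.p0 = X.drop D.p0 := by
        rw [List.drop_append, List.drop_of_length_le (by omega), List.nil_append,
          List.drop_drop, hne]
        congr 1; omega
      have e3 : X.take D.p0 = X.take c ++ (X.take D.p0).drop c := by
        conv_lhs => rw [← List.take_append_drop c (X.take D.p0)]
        rw [List.take_take, min_eq_left hcp]
      have hql : ((X.take D.p0).drop c).length = D.p0 - c := by
        rw [List.length_drop, List.length_take]; omega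
      rw [e1, e2]
      congr 1
      rw [← hex P' _ v' b (by omega) hP' hb]
      conv_rhs => rw [e3]
      exact hex _ _ v b (by omega) h1 hb
  · right
    exact hsp P' hPC hne

end Crest.Agent.R320.Spoil_94
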