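import Crest.Agent.R320.Inst_946

/-!
Row 320: the spoiling bound of `Inst_946` (field `spoil`): a ruler `c`, walls more than `W` apart,
thin set `BadT`. At most `1 + 2 * rB` places are ambiguous.
-/

set_option autoImplicit false

namespace Crest.R320.Inst946

open Classical

variable {α V S : Type*} [AddCommGroup V] [Monoid S]

/-- wall gaps give: two walls of `w` are more than `W` apart -/
theorem wall_gap {Wo : List α → Prop} {W : ℕ}
    (gap : ∀ P E, Wo (P ++ E) → 0 < E.length → E.length ≤ W → ¬ Wo P)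
    {w : List α} {u u' : ℕ} (hu : Wo (w.take u)) (hu' : Wo (w.take u')) (hlt : u < u')
    (hle : u' ≤ w.length) : W < u' - u := by
  by_contra hcon
  have h1 : w.take u' = w.take u ++ (w.take u').drop u := by
    conv_lhs => rw [← List.take_append_drop u (w.take u')]
    rw [List.take_take, min_eq_left (by omega)]
  rw [h1] at hu'
  have h2 : ((w.take u').drop u).length = u' - u := by
    rw [List.length_drop, List.length_take]; omega
  exact gap _ _ hu' (by omega) (by omega) hu

theorem spoil_bound {D : Par α V S} {W Lam rB : ℕ}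
    (wo : ∀ P Q, D.n ≤ Q.length → (D.Wo (P ++ Q) ↔ D.Wo Q)) (nq : D.n ≤ D.q)
    (gap : ∀ P E, D.Wo (P ++ E) → 0 < E.length → E.length ≤ W → ¬ D.Wo P)
    (c_lt : ∀ k, k < D.K → D.c k < D.p0) (c_le : ∀ k, k < D.K → D.c k ≤ Lam)
    (hW : 2 * D.N1 + 2 * Lam ≤ W)
    (ruler : ∀ k k' l l', k < D.K → k' < D.K → l < D.K → l' < D.K → k ≠ k' → l ≠ l' →
      ((D.c k : ℤ) - D.c k') - (D.c l - D.c l') < 2 * D.N1 →
      ((D.c l : ℤ) - D.c l') - (D.c k - D.c k') < 2 * D.N1 → k = l)
    (thin : ∀ u : ℕ, ((Finset.range D.K).filter (fun k => ∃ k', k' < D.K ∧ k' ≠ k ∧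
      D.BadT (u - D.c k + D.c k' - D.p0))).card ≤ rB) :
    ∀ X ∈ D.XX, ∀ X2 ∈ D.XX,
    ((Finset.range D.K).filter (fun k => ∃ k', k' < D.K ∧ k' ≠ k ∧
      D.cand k' (X.drop (D.c k) ++ X2))).card ≤ 1 + 2 * rB := by
  intro X hX X2 hX2
  have hzd : D.z = D.p0 + D.q + D.N1 := rfl
  have hXl := hX.2.1
  set w := X ++ X2 with hw
  have hwl : w.length = X.length + X2.length := by rw [hw, List.length_append]
  -- the right word of the place `k`
  have hQ : ∀ k, k < D.K → X.drop (D.c k) ++ X2 = w.drop (D.c k) := by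
    intro k hk
    have := c_lt k hk
    rw [hw, List.drop_append_of_le_length (by omega)]
  have hwall : ∀ k, k < D.K → ∀ s, D.n ≤ s → s ≤ (w.drop (D.c k)).length →
      (D.Wo ((w.drop (D.c k)).take s) ↔ D.Wo (w.take (D.c k + s))) := by
    intro k hk s hs hs'
    have := c_lt k hk
    have h1 : w.take (D.c k + s) = w.take (D.c k) ++ (w.drop (D.c k)).take s := by
      rw [List.take_add]
    rw [h1]
    exact (wo _ _ (by rw [List.length_take]; omega)).symm
  have hdl : ∀ k, (w.drop (D.c k)).length = w.length - D.c k := fun k => List.length_drop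
  -- band part
  set EB : Finset ℕ := (Finset.range D.K).filter (fun k => ∃ k', k' < D.K ∧ k' ≠ k ∧
    ∃ t, D.z - D.N1 - D.c k' ≤ t ∧ t < D.z + D.N1 - D.c k' ∧ t ≤ (w.drop (D.c k)).length ∧
      D.Wo ((w.drop (D.c k)).take t)) with hEB
  have hE : EB.card ≤ 1 := by
    rw [Finset.card_le_one]
    intro k hk l hl
    rw [hEB, Finset.mem_filter, Finset.mem_range] at hk hl
    obtain ⟨hkK, k', hk', hkk, t, ht1, ht2, ht3, ht4⟩ := hk
    obtain ⟨hlK, l', hl', hll, s, hs1, hs2, hs3, hs4⟩ := hl
    have a1 := c_lt k hkK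
    have a2 := c_lt k' hk'
    have a3 := c_lt l hlK
    have a4 := c_lt l' hl'
    have b1 := c_le k hkK
    have b2 := c_le k' hk'
    have b3 := c_le l hlK
    have b4 := c_le l' hl'
    rw [hdl] at ht3 hs3
    rw [hwall k hkK t (by omega) (by rw [hdl]; omega)] at ht4
    rw [hwall l hlK s (by omega) (by rw [hdl]; omega)] at hs4
    have hsame : D.c k + t = D.c l + s := by
      rcases lt_trichotomy (D.c k + t) (D.c l + s) with hlt | heq | hgt
      · have := wall_gap gap ht4 hs4 hlt (by omega)
        omega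
      · exact heq
      · have := wall_gap gap hs4 ht4 hgt (by omega)
        omega
    exact ruler k k' l l' hkK hk' hlK hl' hkk.symm hll.symm (by omega) (by omega)
  -- two end walls
  have hends : ∃ ua ub : ℕ, ∀ k, k < D.K → ∀ k', k' < D.K → ∀ e,
      D.FE (D.z - D.c k') (w.drop (D.c k)) e → D.c k + e = ua ∨ D.c k + e = ub := by
    by_cases hex : ∃ u, D.z - Lam ≤ u ∧ u ≤ w.length ∧ D.n ≤ u ∧ D.Wo (w.take u) ∧
        ∃ k, k < D.K ∧ ∃ k', k' < D.K ∧ D.z + D.c k ≤ u + D.c k'
    swap
    · refine ⟨0, 0, fun k hk k' hk' e he => (hex ?_).elim⟩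
      obtain ⟨h1, h2, h3, h4⟩ := he
      have a1 := c_lt k hk
      have a2 := c_lt k' hk'
      have b1 := c_le k hk
      have b2 := c_le k' hk'
      rw [hdl] at h1
      rw [hwall k hk e (by omega) (by rw [hdl]; omega)] at h3
      exact ⟨D.c k + e, by omega, by omega, by omega, h3, k, hk, k', hk', by omega⟩
    · -- first wall `≥ z - Lam`, in the weak sense
      have hex1 : ∃ u, D.z - Lam ≤ u ∧ D.n ≤ u ∧ u ≤ w.length ∧ D.Wo (w.take u) := by
        obtain ⟨u, h1, h2, h3, h4, _⟩ := hex
        exact ⟨u, h1, h3, h2, h4⟩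
      set ua := Nat.find hex1 with hua
      have hua_spec := Nat.find_spec hex1
      have hua_min : ∀ t, t < ua → ¬ (D.z - Lam ≤ t ∧ D.n ≤ t ∧ t ≤ w.length ∧ D.Wo (w.take t)) :=
        fun t ht => Nat.find_min hex1 ht
      rw [← hua] at hua_spec
      by_cases hex2 : ∃ u, ua < u ∧ u ≤ w.length ∧ D.Wo (w.take u)
      · set ub := Nat.find hex2 with hub
        have hub_spec := Nat.find_spec hex2
        have hub_min : ∀ t, t < ub → ¬ (ua < t ∧ t ≤ w.length ∧ D.Wo (w.take t)) :=
          fun t ht => Nat.find_min hex2 ht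
        rw [← hub] at hub_spec
        refine ⟨ua, ub, fun k hk k' hk' e he => ?_⟩
        obtain ⟨h1, h2, h3, h4⟩ := he
        have a1 := c_lt k hk
        have a2 := c_lt k' hk'
        have b1 := c_le k hk
        have b2 := c_le k' hk'
        rw [hdl] at h1
        rw [hwall k hk e (by omega) (by rw [hdl]; omega)] at h3
        have hge : ua ≤ D.c k + e := by
          by_contra hlt
          exact hua_min _ (by omega) ⟨by omega, by omega, by omega, h3⟩
        rcases Nat.eq_or_lt_of_le hge with heq | hlt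
        · exact Or.inl heq.symm
        · right
          have hge2 : ub ≤ D.c k + e := by
            by_contra hlt2
            exact hub_min _ (by omega) ⟨hlt, by omega, h3⟩
          by_contra hne
          have hlt3 : ub < D.c k + e := by omega
          -- `ub` is a wall `≥ z - c k'` seen from `k`
          have hg := wall_gap gap hua_spec.2.2.2 hub_spec.2.2 hub_spec.1 hub_spec.2.1
          have h5 : D.z - D.c k' ≤ ub - D.c k := by omega
          have h6 : D.c k + (ub - D.c k) = ub := by omega
          refine h4 (ub - D.c k) h5 (by omega) ?_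
          rw [hwall k hk _ (by omega) (by rw [hdl]; omega), h6]
          exact hub_spec.2.2
      · refine ⟨ua, ua, fun k hk k' hk' e he => ?_⟩
        obtain ⟨h1, h2, h3, h4⟩ := he
        have a1 := c_lt k hk
        have a2 := c_lt k' hk'
        have b1 := c_le k hk
        have b2 := c_le k' hk'
        rw [hdl] at h1
        rw [hwall k hk e (by omega) (by rw [hdl]; omega)] at h3
        have hge : ua ≤ D.c k + e := by
          by_contra hlt
          exact hua_min _ (by omega) ⟨by omega, by omega, by omega, h3⟩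
        left
        by_contra hne
        exact hex2 ⟨_, by omega, by omega, h3⟩
  obtain ⟨ua, ub, hab⟩ := hends
  have hsub : ((Finset.range D.K).filter (fun k => ∃ k', k' < D.K ∧ k' ≠ k ∧
      D.cand k' (X.drop (D.c k) ++ X2))) ⊆
      EB ∪ (((Finset.range D.K).filter (fun k => ∃ k', k' < D.K ∧ k' ≠ k ∧
      D.BadT (ua - D.c k + D.c k' - D.p0))) ∪
      ((Finset.range D.K).filter (fun k => ∃ k', k' < D.K ∧ k' ≠ k ∧
      D.BadT (ub - D.c k + D.c k' - D.p0)))) := by
    intro k hk
    rw [Finset.mem_filter, Finset.mem_range] at hk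
    obtain ⟨hkK, k', hk', hkk, hc⟩ := hk
    rw [hQ k hkK] at hc
    rw [Finset.mem_union, Finset.mem_union]
    rcases hc with ⟨t, ht⟩ | ⟨e, he, hB⟩
    · left
      rw [hEB, Finset.mem_filter, Finset.mem_range]
      exact ⟨hkK, k', hk', hkk, t, ht⟩
    · right
      rcases hab k hkK k' hk' e he with hu | hu
      · left
        rw [Finset.mem_filter, Finset.mem_range]
        refine ⟨hkK, k', hk', hkk, ?_⟩
        have : ua - D.c k + D.c k' - D.p0 = e + D.c k' - D.p0 := by omega
        rw [this]; exact hB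
      · right
        rw [Finset.mem_filter, Finset.mem_range]
        refine ⟨hkK, k', hk', hkk, ?_⟩
        have : ub - D.c k + D.c k' - D.p0 = e + D.c k' - D.p0 := by omega
        rw [this]; exact hB
  refine (Finset.card_le_card hsub).trans ?_
  refine (Finset.card_union_le _ _).trans ?_
  have h1 := Finset.card_union_le ((Finset.range D.K).filter (fun k => ∃ k', k' < D.K ∧ k' ≠ k ∧
      D.BadT (ua - D.c k + D.c k' - D.p0)))
      ((Finset.range D.K).filter (fun k => ∃ k', k' < D.K ∧ k' ≠ k ∧
      D.BadT (ub - D.c k + D.c k' - D.p0)))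
  have h2 := thin ua
  have h3 := thin ub
  omega

end Crest.R320.Inst946
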