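import Mathlib

/-!
Row 320, TEAM U, leaf U4 (638 #13273): spoiling count of the U-gadget's ruler (helper959).
-/

set_option autoImplicit false

namespace Crest.Agent.R320.Spoil_959

open Finset

def PP (R M0 M1 l : ℕ) : ℕ := (R*M0) * (R*M1)^l

def Bad (R M0 M1 m rho : ℕ) (Ms Ms1 : Finset ℕ) (n : ℕ) : Prop :=
  (n % (R*M0) < M0 ∨ R*M0 ≤ n % (R*M0) + M0) ∨ (∃ k ∈ Ms, k ∣ n) ∨
  ∃ l < m, ((n / PP R M0 M1 l) % (R*M1) < M1 ∨ R*M1 ≤ (n / PP R M0 M1 l) % (R*M1) + M1) ∨
    rho ≤ (Ms1.filter (· ∣ n / PP R M0 M1 l)).card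

theorem two_pow_sidon : ∀ a d c b : ℕ, 2^a + 2^d = 2^c + 2^b → (a = c ∧ d = b) ∨ (a = b ∧ d = c) := by
  intro a
  induction a with
  | zero =>
    intro d c b h
    rcases d with _ | d
    · rcases c with _ | c
      · rcases b with _ | b
        · simp
        · simp [pow_succ] at h
          have : 0 < 2^b := by positivity
          omega
      · have : 0 < 2^c := by positivity
        have : 0 < 2^b := by positivity
        simp [pow_succ] at h
        omega
    · rcases c with _ | c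
      · left
        refine ⟨rfl, ?_⟩
        have : 2^(d+1) = 2^b := by simpa using h
        exact Nat.pow_right_injective le_rfl this
      · rcases b with _ | b
        · right
          refine ⟨rfl, ?_⟩
          have : 2^(d+1) = 2^(c+1) := by
            have h' : (2:ℕ)^0 = 1 := rfl
            omega
          exact Nat.pow_right_injective le_rfl this
        · simp [pow_succ] at h
          omega
  | succ a ih =>
    intro d c b h
    rcases d with _ | d
    · rcases c with _ | c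
      · right
        have : 2^(a+1) = 2^b := by
          have h' : (2:ℕ)^0 = 1 := rfl
          omega
        exact ⟨Nat.pow_right_injective le_rfl this, rfl⟩
      · rcases b with _ | b
        · left
          have : 2^(a+1) = 2^(c+1) := by
            have h' : (2:ℕ)^0 = 1 := rfl
            omega
          exact ⟨Nat.pow_right_injective le_rfl this, rfl⟩
        · simp [pow_succ] at h
          omega
    · rcases c with _ | c
      · rcases b with _ | b
        · simp [pow_succ] at h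
          have : 0 < 2^a := by positivity
          have : 0 < 2^d := by positivity
          omega
        · simp [pow_succ] at h
          omega
      · rcases b with _ | b
        · simp [pow_succ] at h
          omega
        · have h2 : 2^a + 2^d = 2^c + 2^b := by
            simp [pow_succ] at h
            omega
          rcases ih d c b h2 with ⟨h3, h4⟩ | ⟨h3, h4⟩
          · left; exact ⟨by omega, by omega⟩
          · right; exact ⟨by omega, by omega⟩

theorem sidon {a b c d : ℕ} (h : (2:ℤ)^a - 2^b = 2^c - 2^d) : (a = c ∧ b = d) ∨ (a = b ∧ c = d) := by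
  have h1 : (2:ℤ)^a + 2^d = 2^c + 2^b := by linarith
  have h2 : 2^a + 2^d = 2^c + 2^b := by exact_mod_cast h1
  rcases two_pow_sidon a d c b h2 with ⟨h3, h4⟩ | ⟨h3, h4⟩
  · left; exact ⟨h3, h4.symm⟩
  · right; exact ⟨h3, h4.symm⟩

/-- difference bound -/
theorem D_bound {K a b c d : ℕ} (ha : a < K) (hb : b < K) (hc : c < K) (hd : d < K) :
    |((2:ℤ)^a - 2^b) - (2^c - 2^d)| ≤ 2^(K+1) := by
  have e : ∀ t : ℕ, t < K → (0:ℤ) < 2^t ∧ (2:ℤ)^t ≤ 2^K := by
    intro t ht
    exact ⟨by positivity, pow_le_pow_right₀ (by norm_num) ht.le⟩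
  obtain ⟨a1, a2⟩ := e a ha
  obtain ⟨b1, b2⟩ := e b hb
  obtain ⟨c1, c2⟩ := e c hc
  obtain ⟨d1, d2⟩ := e d hd
  rw [pow_succ, abs_le]
  constructor <;> linarith

/-- the key lemma -/
theorem key {K a b c d : ℕ} (ha : a < K) (hb : b < K) (hc : c < K) (hd : d < K)
    {T S Q X low h : ℤ} (hS : S = low + X + Q * X * h) (hX : 0 < X) (hl0 : 0 ≤ low)
    (hlow : 2^(K+8) * low ≤ X) (hQ : 2^(K+10) ≤ Q)
    {y y' t t' : ℤ} (hy : y = T + 16 * 2^a * S - 16 * 2^b * S)
    (hy' : y' = T + 16 * 2^c * S - 16 * 2^d * S)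
    (h1 : -X ≤ y - t * (Q * X)) (h2 : y - t * (Q * X) < X)
    (h1' : -X ≤ y' - t' * (Q * X)) (h2' : y' - t' * (Q * X) < X) :
    (2:ℤ)^a - 2^b = 2^c - 2^d := by
  have hD := D_bound ha hb hc hd
  set D : ℤ := ((2:ℤ)^a - 2^b) - (2^c - 2^d) with hDdef
  have hp : (0:ℤ) < 2^K := by positivity
  have e1 : (2:ℤ)^(K+1) = 2 * 2^K := by ring
  have e8 : (2:ℤ)^(K+8) = 256 * 2^K := by ring
  have e10 : (2:ℤ)^(K+10) = 1024 * 2^K := by ring
  rw [e1] at hD
  rw [e8] at hlow
  rw [e10] at hQ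
  have hdl : |16 * D * low| < X := by
    rw [abs_mul, abs_mul, abs_of_nonneg hl0]
    have h3 : |(16:ℤ)| = 16 := by norm_num
    rw [h3]
    have h4 : 16 * |D| * low ≤ 32 * 2^K * low := by
      have : 16 * |D| ≤ 32 * 2^K := by linarith
      exact mul_le_mul_of_nonneg_right this hl0
    nlinarith
  obtain ⟨l1, l2⟩ := abs_lt.mp hdl
  set s : ℤ := 16 * D * h - (t - t') with hs
  have hdiff : (y - t * (Q * X)) - (y' - t' * (Q * X)) = 16 * D * low + (16 * D + s * Q) * X := by
    rw [hy, hy', hS, hs, hDdef]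
    ring
  have u1 : (16 * D + s * Q) * X < 3 * X := by linarith
  have u2 : (-3) * X < (16 * D + s * Q) * X := by linarith
  have v1 : 16 * D + s * Q < 3 := lt_of_mul_lt_mul_right u1 hX.le
  have v2 : -3 < 16 * D + s * Q := lt_of_mul_lt_mul_right u2 hX.le
  obtain ⟨d1, d2⟩ := abs_le.mp hD
  have hs0 : s = 0 := by
    by_contra hne
    rcases lt_or_gt_of_ne hne with hlt | hgt
    · have : s * Q ≤ (-1) * Q := mul_le_mul_of_nonneg_right (by omega) (by linarith)
      linarith
    · have : 1 * Q ≤ s * Q := mul_le_mul_of_nonneg_right (by omega) (by linarith)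
      linarith
  rw [hs0] at v1 v2
  have : D = 0 := by omega
  rw [hDdef] at this
  linarith

theorem dig {y Z R M : ℕ} (hZ : 0 < Z) (h : y / Z % (R*M) < M ∨ R*M ≤ y / Z % (R*M) + M)
    (hRM : 0 < R * M) :
    ∃ t : ℤ, -((M:ℤ) * Z) ≤ y - t * (R * (M * Z)) ∧ (y:ℤ) - t * (R * (M * Z)) < M * Z := by
  have e1 := Nat.div_add_mod y Z
  have e2 := Nat.div_add_mod (y / Z) (R * M)
  have r1 := Nat.mod_lt y hZ
  have r2 := Nat.mod_lt (y / Z) hRM
  set q := y / Z / (R * M) with hq
  set ρ := y / Z % (R * M) with hρ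
  set e := y % Z with he
  have ey : (y:ℤ) = Z * ((R * M) * q + ρ) + e := by
    rw [← e2] at e1
    exact_mod_cast e1.symm
  have hZ' : (0:ℤ) < Z := by exact_mod_cast hZ
  have r1' : (e:ℤ) < Z := by exact_mod_cast r1
  have r2' : (ρ:ℤ) + 1 ≤ R * M := by exact_mod_cast r2
  have e0 : (0:ℤ) ≤ e := by positivity
  rcases h with h | h
  · refine ⟨q, ?_, ?_⟩
    · have h3 : (y:ℤ) - q * (R * (M * Z)) = ρ * Z + e := by rw [ey]; ring
      rw [h3]
      have : (0:ℤ) ≤ (M:ℤ) * Z := by positivity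
      have : (0:ℤ) ≤ ρ * Z := by positivity
      linarith
    · have h3 : (y:ℤ) - q * (R * (M * Z)) = ρ * Z + e := by rw [ey]; ring
      rw [h3]
      have h4 : (ρ:ℤ) + 1 ≤ M := by exact_mod_cast h
      nlinarith
  · refine ⟨q + 1, ?_, ?_⟩
    · have h3 : (y:ℤ) - (q + 1) * (R * (M * Z)) = (ρ - R * M) * Z + e := by rw [ey]; ring
      rw [h3]
      have h4 : (R:ℤ) * M ≤ ρ + M := by exact_mod_cast h
      nlinarith
    · have h3 : (y:ℤ) - (q + 1) * (R * (M * Z)) = (ρ - R * M) * Z + e := by rw [ey]; ring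
      rw [h3]
      have : (0:ℤ) ≤ (M:ℤ) * Z := by positivity
      nlinarith

theorem dv {y Z k : ℕ} (hZ : 0 < Z) (h : k ∣ y / Z) :
    ∃ t : ℤ, -(Z:ℤ) ≤ y - t * (k * Z) ∧ (y:ℤ) - t * (k * Z) < Z := by
  obtain ⟨j, hj⟩ := h
  have e1 := Nat.div_add_mod y Z
  have r1 := Nat.mod_lt y hZ
  rw [hj] at e1
  have e2 : (y:ℤ) = Z * (k * j) + (y % Z : ℕ) := by exact_mod_cast e1.symm
  have r2 : ((y % Z : ℕ):ℤ) < Z := by exact_mod_cast r1
  have r3 : (0:ℤ) ≤ ((y % Z : ℕ):ℤ) := by positivity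
  have r4 : (0:ℤ) ≤ (Z:ℤ) := by positivity
  have h3 : (y:ℤ) - j * (k * Z) = (y % Z : ℕ) := by linear_combination e2
  exact ⟨j, by rw [h3]; linarith, by rw [h3]; exact r2⟩

/-- the scales up to level `l` -/
def low (R M0 M1 Mp : ℕ) : ℕ → ℕ
  | 0 => 1 + Mp + Mp * M0
  | l + 1 => low R M0 M1 Mp l + Mp * PP R M0 M1 l + Mp * PP R M0 M1 l * M1

theorem PP_succ (R M0 M1 l : ℕ) : PP R M0 M1 (l + 1) = PP R M0 M1 l * (R * M1) := by
  unfold PP
  rw [pow_succ]
  ring

theorem low_split (R M0 M1 Mp l i : ℕ) :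
    ∃ H, low R M0 M1 Mp (l + i) = low R M0 M1 Mp l + Mp * PP R M0 M1 l * H := by
  induction i with
  | zero => exact ⟨0, by simp⟩
  | succ i ih =>
    obtain ⟨H, hH⟩ := ih
    refine ⟨H + (R * M1)^i * (1 + M1), ?_⟩
    have h1 : PP R M0 M1 (l + i) = PP R M0 M1 l * (R * M1)^i := by
      unfold PP
      rw [pow_add]
      ring
    have h2 : low R M0 M1 Mp (l + (i + 1)) = low R M0 M1 Mp (l + i) + Mp * PP R M0 M1 (l + i)
        + Mp * PP R M0 M1 (l + i) * M1 := rfl
    rw [h2, hH, h1]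
    ring

theorem low_bd {R M0 M1 Mp B : ℕ} (hB : 4 ≤ B) (hMp : B ≤ Mp) (hR : B ≤ R) (h0 : B ≤ M0)
    (h1 : B ≤ M1) (l : ℕ) : B * low R M0 M1 Mp l ≤ 2 * (Mp * PP R M0 M1 l) := by
  induction l with
  | zero =>
    have e : 1 + Mp ≤ Mp * M0 := by nlinarith
    have e2 : low R M0 M1 Mp 0 ≤ 2 * (Mp * M0) := by
      change 1 + Mp + Mp * M0 ≤ _
      omega
    calc B * low R M0 M1 Mp 0 ≤ R * (2 * (Mp * M0)) := Nat.mul_le_mul hR e2
      _ = 2 * (Mp * PP R M0 M1 0) := by unfold PP; ring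
  | succ l ih =>
    set Y := Mp * PP R M0 M1 l with hY
    have e1 : low R M0 M1 Mp (l + 1) = low R M0 M1 Mp l + Y + Y * M1 := rfl
    have e2 : 2 + B ≤ B * M1 := by nlinarith
    have e3 : B * low R M0 M1 Mp (l + 1) ≤ Y * (2 + B) + B * (Y * M1) := by
      rw [e1]
      nlinarith
    have e4 : Y * (2 + B) ≤ Y * (B * M1) := Nat.mul_le_mul_left _ e2
    calc B * low R M0 M1 Mp (l + 1) ≤ Y * (2 + B) + B * (Y * M1) := e3
      _ ≤ Y * (B * M1) + B * (Y * M1) := by omega
      _ = B * (2 * (Y * M1)) := by ring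
      _ ≤ R * (2 * (Y * M1)) := Nat.mul_le_mul_right _ hR
      _ = 2 * (Mp * PP R M0 M1 (l + 1)) := by rw [PP_succ, hY]; ring

open Classical in
theorem spoil (m r K Mp R M0 M1 rho : ℕ) (Ms Ms1 : Finset ℕ) (hMp : 2^(K+10) ≤ Mp)
    (hR : 2^(K+10) ≤ R) (h0 : 2^(K+10) ≤ M0) (h1 : 2^(K+10) ≤ M1)
    (hMs : ∀ k ∈ Ms, 2^(K+10) ≤ k ∧ k ∣ M0) (hMs1 : ∀ k ∈ Ms1, 2^(K+10) ≤ k ∧ k ∣ M1)
    (hc : Ms.card ≤ r) (hc1 : Ms1.card ≤ 32*rho) (hrho : 0 < rho) :
    ∃ (x : ℕ → ℕ) (T0 : ℕ),
      (∀ a b c d, a < K → b < K → c < K → d < K →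
        (Mp:ℤ) ∣ ((x a:ℤ) - x b) - (x c - x d) → (a = c ∧ b = d) ∨ (a = b ∧ c = d)) ∧
      (∀ a < K, x a ≤ T0) ∧
      ∀ T, T0 ≤ T → (((Finset.range K ×ˢ Finset.range K).filter
        (fun ab => ab.1 ≠ ab.2 ∧
          Bad R M0 M1 m rho Ms Ms1 ((T + x ab.1 - x ab.2) / Mp))).card ≤ 2 + r + 34*m) := by
  set S : ℕ := low R M0 M1 Mp m with hS
  have hB4 : 4 ≤ 2^(K+10) := by
    calc 4 ≤ 2^10 := by norm_num
      _ ≤ 2^(K+10) := Nat.pow_le_pow_right (by norm_num) (by omega)
  have hMp0 : 0 < Mp := by omega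
  have hR0 : 0 < R := by omega
  have h00 : 0 < M0 := by omega
  have h10 : 0 < M1 := by omega
  have hPP : ∀ l, 0 < PP R M0 M1 l := by
    intro l
    unfold PP
    positivity
  have hlb := low_bd hB4 hMp hR h0 h1
  have e10 : (2:ℕ)^(K+10) = 4 * 2^(K+8) := by ring
  -- the pair lemma
  let x : ℕ → ℕ := fun a => 16 * 2^a * S
  have hx : ∀ a < K, x a ≤ 16 * 2^K * S := by
    intro a ha
    have : 2^a ≤ 2^K := Nat.pow_le_pow_right (by norm_num) ha.le
    exact Nat.mul_le_mul_right _ (Nat.mul_le_mul_left _ this)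
  refine ⟨x, 16 * 2^K * S, ?_, hx, ?_⟩
  · intro a b c d ha hb hc' hd hdvd
    have hD := D_bound ha hb hc' hd
    obtain ⟨H, hH⟩ := low_split R M0 M1 Mp 0 m
    rw [zero_add] at hH
    have hS1 : (S:ℤ) = 1 + Mp * (1 + M0 + PP R M0 M1 0 * H) := by
      rw [hS, hH]
      change ((1 + Mp + Mp * M0 + Mp * PP R M0 M1 0 * H : ℕ) : ℤ) = _
      push_cast
      ring
    have e : ((x a:ℤ) - x b) - (x c - x d) = 16 * (((2:ℤ)^a - 2^b) - (2^c - 2^d)) * S := by
      simp only [x]
      push_cast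
      ring
    rw [e] at hdvd
    have h2 : (Mp:ℤ) ∣ 16 * (((2:ℤ)^a - 2^b) - (2^c - 2^d)) := by
      have h3 : (Mp:ℤ) ∣ 16 * (((2:ℤ)^a - 2^b) - (2^c - 2^d)) * S
          - Mp * (16 * (((2:ℤ)^a - 2^b) - (2^c - 2^d)) * (1 + M0 + PP R M0 M1 0 * H)) :=
        dvd_sub hdvd (Dvd.intro _ rfl)
      have h4 : 16 * (((2:ℤ)^a - 2^b) - (2^c - 2^d)) * S
          - Mp * (16 * (((2:ℤ)^a - 2^b) - (2^c - 2^d)) * (1 + M0 + PP R M0 M1 0 * H))
          = 16 * (((2:ℤ)^a - 2^b) - (2^c - 2^d)) := by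
        rw [hS1]; ring
      rwa [h4] at h3
    have h5 : 16 * (((2:ℤ)^a - 2^b) - (2^c - 2^d)) = 0 := by
      apply Int.eq_zero_of_abs_lt_dvd h2
      rw [abs_mul]
      have h6 : |(16:ℤ)| = 16 := by norm_num
      have h7 : (2:ℤ)^(K+1) = 2 * 2^K := by ring
      have h8 : (2:ℤ)^(K+10) = 1024 * 2^K := by ring
      have h9 : (2:ℤ)^(K+10) ≤ Mp := by exact_mod_cast hMp
      have hp : (0:ℤ) < 2^K := by positivity
      rw [h6]
      rw [h7] at hD
      rw [h8] at h9
      linarith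
    exact sidon (by linarith)
  · intro T hT
    have hcast : ∀ a b, a < K → b < K →
        ((T + x a - x b : ℕ) : ℤ) = (T:ℤ) + 16 * 2^a * (S:ℤ) - 16 * 2^b * (S:ℤ) := by
      intro a b ha hb
      have := hx b hb
      have h3 : x b ≤ T + x a := by omega
      rw [Nat.cast_sub h3]
      simp only [x]
      push_cast
      ring
    -- uniqueness for a condition described by `key`
    have uniq : ∀ (X Q lw H : ℕ), S = lw + X + Q * X * H → 0 < X → 2^(K+8) * lw ≤ X →
        2^(K+10) ≤ Q → ∀ a b c d, a < K → b < K → c < K → d < K → a ≠ b → c ≠ d →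
        (∃ t : ℤ, -(X:ℤ) ≤ (T + x a - x b : ℕ) - t * (Q * X) ∧
          ((T + x a - x b : ℕ):ℤ) - t * (Q * X) < X) →
        (∃ t : ℤ, -(X:ℤ) ≤ (T + x c - x d : ℕ) - t * (Q * X) ∧
          ((T + x c - x d : ℕ):ℤ) - t * (Q * X) < X) → a = c ∧ b = d := by
      intro X Q lw H hS' hX hlw hQ a b c d ha hb hc' hd hab hcd ⟨t, t1, t2⟩ ⟨t', t1', t2'⟩
      have := key (S := (S:ℤ)) (X := (X:ℤ)) (Q := (Q:ℤ)) (low := (lw:ℤ)) (h := (H:ℤ))
        (T := (T:ℤ)) ha hb hc' hd
        (by rw [hS']; push_cast; ring) (by exact_mod_cast hX) (by positivity)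
        (by exact_mod_cast hlw) (by exact_mod_cast hQ) (hcast a b ha hb) (hcast c d hc' hd)
        t1 t2 t1' t2'
      rcases sidon this with h | h
      · exact h
      · exact absurd h.1 hab
    let P := (Finset.range K ×ˢ Finset.range K)
    let n : ℕ × ℕ → ℕ := fun ab => (T + x ab.1 - x ab.2) / Mp
    -- the four families
    let F1 : Finset (ℕ × ℕ) := P.filter (fun ab => ab.1 ≠ ab.2 ∧
      (n ab % (R*M0) < M0 ∨ R*M0 ≤ n ab % (R*M0) + M0))
    let F2 : ℕ → Finset (ℕ × ℕ) := fun k => P.filter (fun ab => ab.1 ≠ ab.2 ∧ k ∣ n ab)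
    let F3 : ℕ → Finset (ℕ × ℕ) := fun l => P.filter (fun ab => ab.1 ≠ ab.2 ∧
      ((n ab / PP R M0 M1 l) % (R*M1) < M1 ∨ R*M1 ≤ (n ab / PP R M0 M1 l) % (R*M1) + M1))
    let F4 : ℕ → Finset (ℕ × ℕ) := fun l => P.filter (fun ab => ab.1 ≠ ab.2 ∧
      rho ≤ (Ms1.filter (· ∣ n ab / PP R M0 M1 l)).card)
    have dd : ∀ ab l, n ab / PP R M0 M1 l = (T + x ab.1 - x ab.2) / (Mp * PP R M0 M1 l) := by
      intro ab l
      exact Nat.div_div_eq_div_mul _ _ _
    have c1 : F1.card ≤ 1 := by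
      rw [Finset.card_le_one]
      rintro ⟨a, b⟩ hab ⟨c, d⟩ hcd
      simp only [F1, P, Finset.mem_filter, Finset.mem_product, Finset.mem_range] at hab hcd
      obtain ⟨⟨ha, hb⟩, hne, hab⟩ := hab
      obtain ⟨⟨hc', hd⟩, hne', hcd⟩ := hcd
      obtain ⟨H, hH⟩ := low_split R M0 M1 Mp 0 m
      rw [zero_add] at hH
      have := uniq (M0 * Mp) R (1 + Mp) H
        (by rw [hS, hH]; change 1 + Mp + Mp * M0 + Mp * ((R*M0) * (R*M1)^0) * H = _; ring)
        (by positivity)
        (by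
          have : 1 + Mp ≤ 4 * Mp := by omega
          calc 2^(K+8) * (1 + Mp) ≤ 2^(K+8) * (4 * Mp) := Nat.mul_le_mul_left _ this
            _ = 2^(K+10) * Mp := by rw [e10]; ring
            _ ≤ M0 * Mp := Nat.mul_le_mul_right _ h0)
        hR a b c d ha hb hc' hd hne hne'
        (by have := dig hMp0 hab (by positivity); push_cast; exact this)
        (by have := dig hMp0 hcd (by positivity); push_cast; exact this)
      exact Prod.ext this.1 this.2
    have c2 : ∀ k ∈ Ms, (F2 k).card ≤ 1 := by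
      intro k hk
      obtain ⟨hk1, q, hq⟩ := hMs k hk
      rw [Finset.card_le_one]
      rintro ⟨a, b⟩ hab ⟨c, d⟩ hcd
      simp only [F2, P, Finset.mem_filter, Finset.mem_product, Finset.mem_range] at hab hcd
      obtain ⟨⟨ha, hb⟩, hne, hab⟩ := hab
      obtain ⟨⟨hc', hd⟩, hne', hcd⟩ := hcd
      obtain ⟨H, hH⟩ := low_split R M0 M1 Mp 0 m
      rw [zero_add] at hH
      have := uniq Mp k 1 (q + R * q * H)
        (by
          rw [hS, hH]
          change 1 + Mp + Mp * M0 + Mp * ((R*M0) * (R*M1)^0) * H = _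
          rw [hq]
          ring)
        hMp0 (by omega) hk1 a b c d ha hb hc' hd hne hne' (dv hMp0 hab) (dv hMp0 hcd)
      exact Prod.ext this.1 this.2
    have hsplit : ∀ l < m, ∃ H, S = low R M0 M1 Mp l + Mp * PP R M0 M1 l
        + Mp * PP R M0 M1 l * M1 + Mp * PP R M0 M1 l * (R * M1) * H := by
      intro l hl
      obtain ⟨H, hH⟩ := low_split R M0 M1 Mp (l + 1) (m - (l + 1))
      rw [show l + 1 + (m - (l + 1)) = m by omega] at hH
      refine ⟨H, ?_⟩
      rw [hS, hH, PP_succ]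
      change low R M0 M1 Mp l + Mp * PP R M0 M1 l + Mp * PP R M0 M1 l * M1 + _ = _
      ring
    have c3 : ∀ l < m, (F3 l).card ≤ 1 := by
      intro l hl
      rw [Finset.card_le_one]
      rintro ⟨a, b⟩ hab ⟨c, d⟩ hcd
      simp only [F3, P, Finset.mem_filter, Finset.mem_product, Finset.mem_range] at hab hcd
      obtain ⟨⟨ha, hb⟩, hne, hab⟩ := hab
      obtain ⟨⟨hc', hd⟩, hne', hcd⟩ := hcd
      rw [dd] at hab hcd
      obtain ⟨H, hH⟩ := hsplit l hl
      have hZ : 0 < Mp * PP R M0 M1 l := Nat.mul_pos hMp0 (hPP l)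
      have := uniq (M1 * (Mp * PP R M0 M1 l)) R (low R M0 M1 Mp l + Mp * PP R M0 M1 l) H
        (by rw [hH]; ring) (by positivity)
        (by
          have h5 := hlb l
          set Y := Mp * PP R M0 M1 l
          have h6 : 2^(K+10) * Y ≤ M1 * Y := Nat.mul_le_mul_right _ h1
          have h7 : Y ≤ M1 * Y := Nat.le_mul_of_pos_left _ h10
          rw [e10] at h5 h6
          have h8 : 2^(K+8) * (low R M0 M1 Mp l + Y) = 2^(K+8) * low R M0 M1 Mp l + 2^(K+8) * Y := by
            ring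
          have h9 : 4 * (2^(K+8) * low R M0 M1 Mp l) ≤ 2 * Y := by
            rw [← mul_assoc]; exact h5
          have h10' : 4 * (2^(K+8) * Y) ≤ M1 * Y := by
            rw [← mul_assoc]; exact h6
          rw [h8]
          omega)
        hR a b c d ha hb hc' hd hne hne'
        (by have := dig hZ hab (by positivity); push_cast at this ⊢; exact this)
        (by have := dig hZ hcd (by positivity); push_cast at this ⊢; exact this)
      exact Prod.ext this.1 this.2
    have c4 : ∀ l < m, (F4 l).card ≤ 32 := by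
      intro l hl
      have hZ : 0 < Mp * PP R M0 M1 l := Nat.mul_pos hMp0 (hPP l)
      have key4 : (F4 l).card * rho ≤ Ms1.card * 1 := by
        apply Finset.card_mul_le_card_mul (fun ab k => k ∣ n ab / PP R M0 M1 l)
        · intro ab hab
          simp only [F4, Finset.mem_filter] at hab
          exact hab.2.2
        · intro k hk
          obtain ⟨hk1, q, hq⟩ := hMs1 k hk
          rw [Finset.card_le_one]
          rintro ⟨a, b⟩ hab ⟨c, d⟩ hcd
          simp only [Finset.bipartiteBelow, F4, P, Finset.mem_filter, Finset.mem_product,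
            Finset.mem_range] at hab hcd
          obtain ⟨⟨⟨ha, hb⟩, hne, -⟩, hab⟩ := hab
          obtain ⟨⟨⟨hc', hd⟩, hne', -⟩, hcd⟩ := hcd
          rw [dd] at hab hcd
          obtain ⟨H, hH⟩ := hsplit l hl
          have := uniq (Mp * PP R M0 M1 l) k (low R M0 M1 Mp l) (q + R * q * H)
            (by rw [hH, hq]; ring) hZ
            (by
              have h5 := hlb l
              rw [e10, mul_assoc] at h5
              omega)
            hk1 a b c d ha hb hc' hd hne hne'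
            (by have := dv hZ hab; push_cast at this ⊢; exact this)
            (by have := dv hZ hcd; push_cast at this ⊢; exact this)
          exact Prod.ext this.1 this.2
      have : (F4 l).card * rho ≤ 32 * rho := by omega
      exact Nat.le_of_mul_le_mul_right this hrho
    have hsub : (P.filter (fun ab => ab.1 ≠ ab.2 ∧
        Bad R M0 M1 m rho Ms Ms1 ((T + x ab.1 - x ab.2) / Mp))) ⊆
        F1 ∪ Ms.biUnion F2 ∪ ((Finset.range m).biUnion F3 ∪ (Finset.range m).biUnion F4) := by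
      intro ab hab
      rw [Finset.mem_filter] at hab
      obtain ⟨hP, hne, hbad⟩ := hab
      rcases hbad with h | ⟨k, hk, h⟩ | ⟨l, hl, h | h⟩
      · exact Finset.mem_union_left _ (Finset.mem_union_left _
          (Finset.mem_filter.mpr ⟨hP, hne, h⟩))
      · exact Finset.mem_union_left _ (Finset.mem_union_right _
          (Finset.mem_biUnion.mpr ⟨k, hk, Finset.mem_filter.mpr ⟨hP, hne, h⟩⟩))
      · exact Finset.mem_union_right _ (Finset.mem_union_left _
          (Finset.mem_biUnion.mpr ⟨l, Finset.mem_range.mpr hl,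
            Finset.mem_filter.mpr ⟨hP, hne, h⟩⟩))
      · exact Finset.mem_union_right _ (Finset.mem_union_right _
          (Finset.mem_biUnion.mpr ⟨l, Finset.mem_range.mpr hl,
            Finset.mem_filter.mpr ⟨hP, hne, h⟩⟩))
    have s2 : (Ms.biUnion F2).card ≤ r := by
      refine Finset.card_biUnion_le.trans ?_
      calc ∑ k ∈ Ms, (F2 k).card ≤ ∑ _k ∈ Ms, 1 := Finset.sum_le_sum c2
        _ = Ms.card := by simp
        _ ≤ r := hc
    have s3 : ((Finset.range m).biUnion F3).card ≤ m := by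
      refine Finset.card_biUnion_le.trans ?_
      calc ∑ l ∈ Finset.range m, (F3 l).card ≤ ∑ _l ∈ Finset.range m, 1 :=
            Finset.sum_le_sum fun l hl => c3 l (Finset.mem_range.mp hl)
        _ = m := by simp
    have s4 : ((Finset.range m).biUnion F4).card ≤ 32 * m := by
      refine Finset.card_biUnion_le.trans ?_
      calc ∑ l ∈ Finset.range m, (F4 l).card ≤ ∑ _l ∈ Finset.range m, 32 :=
            Finset.sum_le_sum fun l hl => c4 l (Finset.mem_range.mp hl)
        _ = 32 * m := by simp [mul_comm]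
    have f1 := Finset.card_le_card hsub
    have f2 := Finset.card_union_le (F1 ∪ Ms.biUnion F2)
      ((Finset.range m).biUnion F3 ∪ (Finset.range m).biUnion F4)
    have f3 := Finset.card_union_le F1 (Ms.biUnion F2)
    have f4 := Finset.card_union_le ((Finset.range m).biUnion F3) ((Finset.range m).biUnion F4)
    change (P.filter (fun ab => ab.1 ≠ ab.2 ∧
        Bad R M0 M1 m rho Ms Ms1 ((T + x ab.1 - x ab.2) / Mp))).card ≤ _
    omega

end Crest.Agent.R320.Spoil_959
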