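import Crest.Agent.R320.Sch2b_965

/-!
# Row 320, scheme 2: block code of left-looking walls and the spoiling count, Bad = (E) or (B)
-/

set_option autoImplicit false

namespace Crest.Agent.R320.Spoil_965

open Crest.Agent.R320.Sch2b_965 (XR Cand)

variable {α : Type}

/-- blocks: the first wall at a place `≥ z` -/
def XX (W : List α → Prop) (z : ℕ) : Set (List α) :=
  {X | z ≤ X.length ∧ W X ∧ ∀ t, z ≤ t → t < X.length → ¬ W (X.take t)}

/-- failure modes, read off from the back part `Y` of the block -/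
def BadT (W : List α → Prop) (z N1 p0 r : ℕ) (B : ℕ → ℕ → Prop) (Y : List α) : Prop :=
  (∃ y, y ≤ Y.length ∧ z ≤ p0 + y + N1 ∧ p0 + y < z + N1 ∧ W (Y.take y)) ∨
    ∃ i < r, B i Y.length

theorem XX_code {W : List α → Prop} {z : ℕ} : ∀ X ∈ XX W z, ∀ Y ∈ XX W z, X <+: Y → X = Y := by
  rintro X ⟨hX1, hX2, -⟩ Y ⟨-, -, hY3⟩ hXY
  by_contra hne
  have hlt : X.length < Y.length := by
    rcases lt_or_eq_of_le hXY.length_le with h | h
    · exact h
    · exact absurd (hXY.eq_of_length h) hne
  apply hY3 X.length hX1 hlt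
  rw [← List.prefix_iff_eq_take.1 hXY]
  exact hX2

theorem take_add' (U : List α) (a s : ℕ) (h : a ≤ s) :
    U.take s = U.take a ++ (U.drop a).take (s - a) := by
  have h1 : s = a + (s - a) := by omega
  conv_lhs => rw [h1]
  rw [List.take_add]

section
variable {W : List α → Prop} {n : ℕ} (hW : ∀ P Q : List α, n ≤ Q.length → (W (P ++ Q) ↔ W Q))
include hW

/-- walls can be read behind any earlier place -/
theorem W_drop (U : List α) (a s : ℕ) (h : a + n ≤ s) (hs : s ≤ U.length) :
    W (U.take s) ↔ W ((U.drop a).take (s - a)) := by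
  rw [take_add' U a s (by omega)]
  apply hW
  rw [List.length_take, List.length_drop]
  omega

theorem XX_loc {z p0 : ℕ} (hz : p0 + n ≤ z) (P P' Q : List α) (hl : P.length = P'.length)
    (hp : P.length ≤ p0) (h : P ++ Q ∈ XX W z) : P' ++ Q ∈ XX W z := by
  obtain ⟨h1, h2, h3⟩ := h
  rw [List.length_append] at h1
  have hQ : n ≤ Q.length := by omega
  refine ⟨by rw [List.length_append]; omega, ?_, ?_⟩
  · rw [hW _ _ hQ] at h2 ⊢
    exact h2
  · intro t ht1 ht2 hc
    rw [List.length_append] at ht2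
    apply h3 t ht1 (by rw [List.length_append]; omega)
    rw [W_drop hW (P' ++ Q) P'.length t (by omega) (by rw [List.length_append]; omega)] at hc
    rw [W_drop hW (P ++ Q) P.length t (by omega) (by rw [List.length_append]; omega)]
    rw [List.drop_left] at hc ⊢
    rw [hl]
    exact hc

/-- a word of length `≥ z` which ends with a wall has a block as a prefix -/
theorem exists_block {z : ℕ} (w : List α) (hz : z ≤ w.length) (hw : W w) :
    ∃ X ∈ XX W z, X <+: w := by
  classical
  have hex : ∃ t, z ≤ t ∧ t ≤ w.length ∧ W (w.take t) :=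
    ⟨w.length, hz, le_rfl, by rw [List.take_length]; exact hw⟩
  obtain ⟨h1, h2, h3⟩ := Nat.find_spec hex
  refine ⟨w.take (Nat.find hex), ⟨by rw [List.length_take]; omega, h3, ?_⟩,
    List.take_prefix _ _⟩
  intro t ht1 ht2 hc
  rw [List.length_take] at ht2
  rw [List.take_take, min_eq_left (by omega)] at hc
  exact Nat.find_min hex (by omega) ⟨ht1, by omega, hc⟩

theorem XX_vis {z : ℕ} (hz : n ≤ z) (P Q1 X2 : List α) (hX2 : X2 ∈ XX W z) :
    ∃ X ∈ XX W z, X <+: P ++ (Q1 ++ X2) := by
  apply exists_block hW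
  · have := hX2.1
    rw [List.length_append, List.length_append]; omega
  · rw [← List.append_assoc, hW _ _ (hz.trans hX2.1)]
    exact hX2.2.1

/-- wall positions of a text -/
def Wp (W : List α → Prop) (n : ℕ) (U : List α) (t : ℕ) : Prop :=
  n ≤ t ∧ t ≤ U.length ∧ W (U.take t)

omit hW in
theorem Wp_gap {G : ℕ} (hG : ∀ P Q : List α, n ≤ P.length → W P → W (P ++ Q) → Q ≠ [] →
    G < Q.length) {U : List α} {s t : ℕ} (hs : Wp W n U s) (ht : Wp W n U t) (hst : s < t) :
    s + G < t := by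
  have h1 := hs.2.1
  have h2 := ht.2.1
  have h := hG (U.take s) ((U.drop s).take (t - s))
    (by rw [List.length_take]; have := hs.1; omega) hs.2.2
    (by rw [← take_add' U s t hst.le]; exact ht.2.2)
    (by
      intro h0
      have := congrArg List.length h0
      rw [List.length_take, List.length_drop, List.length_nil] at this
      omega)
  rw [List.length_take, List.length_drop] at h
  omega

omit hW in
/-- event (E) for the pair `(k, k')` in the text `U` -/
def EvE (W : List α → Prop) (n z N1 : ℕ) (c : ℕ → ℕ) (U : List α) (k k' : ℕ) : Prop :=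
  ∃ s, Wp W n U s ∧ z + c k ≤ s + N1 + c k' ∧ s + c k' < z + N1 + c k

/-- event (B) for the pair `(k, k')` in the text `U` -/
def EvB (W : List α → Prop) (n z p0 L : ℕ) (B : ℕ → ℕ → Prop) (c : ℕ → ℕ) (U : List α) (i : ℕ)
    (near : Bool) (k k' : ℕ) : Prop :=
  ∃ t, Wp W n U t ∧ z + c k ≤ t + c k' ∧ (∀ s, Wp W n U s → z + c k ≤ s + c k' → t ≤ s) ∧
    (near = true ↔ t ≤ z + L) ∧ ∃ l : ℕ, B i l ∧ l + p0 + c k = t + c k'

theorem cand_ev {z N1 p0 r L K : ℕ} {B : ℕ → ℕ → Prop} {c : ℕ → ℕ}
    (hc : ∀ k < K, c k ≤ p0) (hz : p0 + n + N1 ≤ z) (X X2 : List α) (hX : X ∈ XX W z)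
    {k k' : ℕ} (hk : k < K) (hk' : k' < K)
    (h : Cand (XX W z) (BadT W z N1 p0 r B) p0 c (X.drop (c k) ++ X2) k') :
    EvE W n z N1 c (X ++ X2) k k' ∨ ∃ i < r, ∃ near, EvB W n z p0 L B c (X ++ X2) i near k k' := by
  classical
  have hck := hc k hk
  have hck' := hc k' hk'
  have hXl := hX.1
  obtain ⟨Q1, hQp, hQ, hbad⟩ := h
  set U := X ++ X2 with hU
  have hUX : X.length ≤ U.length := by rw [hU, List.length_append]; omega
  have hQU : X.drop (c k) ++ X2 = U.drop (c k) := by
    rw [hU, List.drop_append_of_le_length (by omega)]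
  rw [hQU] at hQp
  have hQ1l : Q1.length ≤ U.length - c k := by
    have := hQp.length_le
    rwa [List.length_drop] at this
  have hQ1e : Q1 = (U.drop (c k)).take Q1.length := List.prefix_iff_eq_take.1 hQp
  -- the block of the candidate
  have hPl : (X.take (c k')).length = c k' := by rw [List.length_take]; omega
  obtain ⟨b1, b2, b3⟩ := hQ (X.take (c k')) hPl
  rw [List.length_append, hPl] at b1
  have hQn : n + N1 + (p0 - c k') ≤ Q1.length := by omega
  have hwall : ∀ s, n ≤ s → s ≤ Q1.length → (W (U.take (c k + s)) ↔ W (Q1.take s)) := by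
    intro s hs1 hs2
    rw [W_drop hW U (c k) (c k + s) (by omega) (by omega)]
    have e : (U.drop (c k)).take (c k + s - c k) = Q1.take s := by
      conv_rhs => rw [hQ1e]
      rw [List.take_take, min_eq_left hs2]
      congr 1; omega
    rw [e]
  rcases hbad with ⟨y, hy1, hy2, hy3, hy4⟩ | ⟨i, hi, hB⟩
  · left
    rw [List.length_drop] at hy1
    refine ⟨c k + ((p0 - c k') + y), ⟨by omega, by omega, ?_⟩, by omega, by omega⟩
    rw [hwall ((p0 - c k') + y) (by omega) (by omega)]
    rw [W_drop hW Q1 (p0 - c k') ((p0 - c k') + y) (by omega) (by omega)]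
    rw [Nat.add_sub_cancel_left]
    exact hy4
  · right
    refine ⟨i, hi, decide (c k + Q1.length ≤ z + L), c k + Q1.length, ⟨by omega, by omega, ?_⟩,
      by omega, ?_, by simp, Q1.length - (p0 - c k'), ?_, by omega⟩
    · rw [hwall Q1.length (by omega) le_rfl, List.take_length]
      exact (hW _ _ (by omega)).1 b2
    · intro s hs hs2
      by_contra hlt
      push Not at hlt
      have h3 := b3 (s + c k' - c k) (by omega) (by rw [List.length_append, hPl]; omega)
      apply h3
      rw [W_drop hW (X.take (c k') ++ Q1) (c k') (s + c k' - c k) (by omega)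
        (by rw [List.length_append, hPl]; omega)]
      have e5 : (X.take (c k') ++ Q1).drop (c k') = Q1 := by
        have h0 := List.drop_left (l₁ := X.take (c k')) (l₂ := Q1)
        rwa [hPl] at h0
      rw [e5]
      have e6 : s + c k' - c k - c k' = s - c k := by omega
      rw [e6, ← hwall (s - c k) (by omega) (by omega)]
      have e7 : c k + (s - c k) = s := by omega
      rw [e7]
      exact hs.2.2
    · rw [List.length_drop] at hB
      exact hB

omit hW in
theorem EvE_unique {z N1 L G : ℕ} {c : ℕ → ℕ} {K : ℕ} (hspan : ∀ k < K, ∀ k' < K, c k ≤ c k' + L)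
    (hG : ∀ P Q : List α, n ≤ P.length → W P → W (P ++ Q) → Q ≠ [] → G < Q.length)
    (hGL : 2 * (N1 + L) ≤ G)
    (uE : ∀ k < K, ∀ k' < K, ∀ l < K, ∀ l' < K, k ≠ k' → l ≠ l' →
      c k + c l' < c k' + c l + 2 * N1 → c k' + c l < c k + c l' + 2 * N1 → k = l)
    {U : List α} {k k' l l' : ℕ} (hk : k < K) (hk' : k' < K) (hl : l < K) (hl' : l' < K)
    (hne : k ≠ k') (hne' : l ≠ l')
    (h : EvE W n z N1 c U k k') (h' : EvE W n z N1 c U l l') : k = l := by
  obtain ⟨s, hs, a1, a2⟩ := h
  obtain ⟨t, ht, b1, b2⟩ := h'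
  have s1 := hspan k hk k' hk'
  have s2 := hspan k' hk' k hk
  have s3 := hspan l hl l' hl'
  have s4 := hspan l' hl' l hl
  have hst : s = t := by
    rcases lt_trichotomy s t with hlt | heq | hgt
    · have := Wp_gap hG hs ht hlt
      omega
    · exact heq
    · have := Wp_gap hG ht hs hgt
      omega
  subst hst
  exact uE k hk k' hk' l hl l' hl' hne hne' (by omega) (by omega)

omit hW in
theorem EvB_unique {z p0 L G : ℕ} {B : ℕ → ℕ → Prop} {c : ℕ → ℕ} {K r : ℕ}
    (hspan : ∀ k < K, ∀ k' < K, c k ≤ c k' + L)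
    (hG : ∀ P Q : List α, n ≤ P.length → W P → W (P ++ Q) → Q ≠ [] → G < Q.length)
    (hGL : 2 * L ≤ G)
    (uB : ∀ i < r, ∀ k < K, ∀ k' < K, ∀ l < K, ∀ l' < K, k ≠ k' → l ≠ l' →
      ∀ x y : ℕ, B i x → B i y → x + c k + c l' = y + c k' + c l → k = l)
    {U : List α} {i : ℕ} (hi : i < r) {near : Bool} {k k' l l' : ℕ}
    (hk : k < K) (hk' : k' < K) (hl : l < K) (hl' : l' < K)
    (hne : k ≠ k') (hne' : l ≠ l')
    (h : EvB W n z p0 L B c U i near k k') (h' : EvB W n z p0 L B c U i near l l') : k = l := by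
  obtain ⟨s, hs, a1, a2, a3, x, hx, a4⟩ := h
  obtain ⟨t, ht, b1, b2, b3, y, hy, b4⟩ := h'
  have s1 := hspan k hk k' hk'
  have s2 := hspan k' hk' k hk
  have s3 := hspan l hl l' hl'
  have s4 := hspan l' hl' l hl
  have hst : s = t := by
    by_cases hn : near = true
    · have c1 := a3.1 hn
      have c2 := b3.1 hn
      rcases lt_trichotomy s t with hlt | heq | hgt
      · have := Wp_gap hG hs ht hlt
        omega
      · exact heq
      · have := Wp_gap hG ht hs hgt
        omega
    · have c1 : ¬ s ≤ z + L := fun h => hn (a3.2 h)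
      have c2 : ¬ t ≤ z + L := fun h => hn (b3.2 h)
      have d1 := a2 t ht (by omega)
      have d2 := b2 s hs (by omega)
      omega
  subst hst
  exact uB i hi k hk k' hk' l hl l' hl' hne hne' x y hx hy (by omega)

open Classical in
/-- **Spoiling count**: at most `1 + 2 r` places are spoiled. -/
theorem spoil {z N1 p0 r L G K : ℕ} {B : ℕ → ℕ → Prop} {c : ℕ → ℕ}
    (hc : ∀ k < K, c k ≤ p0) (hz : p0 + n + N1 ≤ z)
    (hspan : ∀ k < K, ∀ k' < K, c k ≤ c k' + L)
    (hG : ∀ P Q : List α, n ≤ P.length → W P → W (P ++ Q) → Q ≠ [] → G < Q.length)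
    (hGL : 2 * (N1 + L) ≤ G)
    (uE : ∀ k < K, ∀ k' < K, ∀ l < K, ∀ l' < K, k ≠ k' → l ≠ l' →
      c k + c l' < c k' + c l + 2 * N1 → c k' + c l < c k + c l' + 2 * N1 → k = l)
    (uB : ∀ i < r, ∀ k < K, ∀ k' < K, ∀ l < K, ∀ l' < K, k ≠ k' → l ≠ l' →
      ∀ x y : ℕ, B i x → B i y → x + c k + c l' = y + c k' + c l → k = l)
    (X X2 : List α) (hX : X ∈ XX W z) :
    ((Finset.range K).filter fun k => ∃ k' < K, k' ≠ k ∧
      Cand (XX W z) (BadT W z N1 p0 r B) p0 c (X.drop (c k) ++ X2) k').card ≤ 1 + 2 * r := by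
  set Sp := (Finset.range K).filter fun k => ∃ k' < K, k' ≠ k ∧
      Cand (XX W z) (BadT W z N1 p0 r B) p0 c (X.drop (c k) ++ X2) k' with hSp
  -- events
  let F0 : Finset ℕ := (Finset.range K).filter fun k => ∃ k' < K, k' ≠ k ∧
    EvE W n z N1 c (X ++ X2) k k'
  let F1 : ℕ → Bool → Finset ℕ := fun i near => (Finset.range K).filter fun k => ∃ k' < K, k' ≠ k ∧
    EvB W n z p0 L B c (X ++ X2) i near k k'
  have h0 : F0.card ≤ 1 := by
    rw [Finset.card_le_one]
    intro k hk l hl
    simp only [F0, Finset.mem_filter, Finset.mem_range] at hk hl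
    obtain ⟨hk1, k', hk2, hk3, hk4⟩ := hk
    obtain ⟨hl1, l', hl2, hl3, hl4⟩ := hl
    exact EvE_unique hspan hG hGL uE hk1 hk2 hl1 hl2 hk3.symm hl3.symm hk4 hl4
  have h1 : ∀ i < r, ∀ near, (F1 i near).card ≤ 1 := by
    intro i hi near
    rw [Finset.card_le_one]
    intro k hk l hl
    simp only [F1, Finset.mem_filter, Finset.mem_range] at hk hl
    obtain ⟨hk1, k', hk2, hk3, hk4⟩ := hk
    obtain ⟨hl1, l', hl2, hl3, hl4⟩ := hl
    exact EvB_unique hspan hG (by omega) uB hi hk1 hk2 hl1 hl2 hk3.symm hl3.symm hk4 hl4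
  have hsub : Sp ⊆ F0 ∪ ((Finset.range r).biUnion fun i => F1 i true ∪ F1 i false) := by
    intro k hk
    rw [hSp, Finset.mem_filter, Finset.mem_range] at hk
    obtain ⟨hk1, k', hk2, hk3, hk4⟩ := hk
    rcases cand_ev (L := L) hW hc hz X X2 hX hk1 hk2 hk4 with hE | ⟨i, hi, near, hB⟩
    · apply Finset.mem_union_left
      exact Finset.mem_filter.2 ⟨Finset.mem_range.2 hk1, k', hk2, hk3, hE⟩
    · apply Finset.mem_union_right
      refine Finset.mem_biUnion.2 ⟨i, Finset.mem_range.2 hi, ?_⟩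
      cases near
      · exact Finset.mem_union_right _ (Finset.mem_filter.2 ⟨Finset.mem_range.2 hk1, k', hk2, hk3, hB⟩)
      · exact Finset.mem_union_left _ (Finset.mem_filter.2 ⟨Finset.mem_range.2 hk1, k', hk2, hk3, hB⟩)
  refine (Finset.card_le_card hsub).trans ((Finset.card_union_le _ _).trans ?_)
  have h2 : ((Finset.range r).biUnion fun i => F1 i true ∪ F1 i false).card ≤ r * 2 := by
    refine (Finset.card_biUnion_le_card_mul _ _ 2 ?_).trans (by simp)
    intro i hi
    have := Finset.card_union_le (F1 i true) (F1 i false)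
    have a := h1 i (Finset.mem_range.1 hi) true
    have b := h1 i (Finset.mem_range.1 hi) false
    omega
  omega

end

end Crest.Agent.R320.Spoil_965
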