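import Mathlib

set_option autoImplicit false

/-!
Row 320, TEAM U (638 #13273), leaf U4 = `spoil` (pure arithmetic): a ruler `x` of `K` marks, Golomb
modulo `Mp`, such that for every large `T` at most `2 + r + 34 m` ordered pairs `a ≠ b` of marks have
`(T + x a - x b) / Mp` bad.
-/

namespace Crest.Agent.R320.Spoil_969

def PP (R M0 M1 l : ℕ) : ℕ := (R*M0) * (R*M1)^l

def Bad (R M0 M1 m rho : ℕ) (Ms Ms1 : Finset ℕ) (n : ℕ) : Prop :=
  (n % (R*M0) < M0 ∨ R*M0 ≤ n % (R*M0) + M0) ∨ (∃ k ∈ Ms, k ∣ n) ∨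
  ∃ l < m, ((n / PP R M0 M1 l) % (R*M1) < M1 ∨ R*M1 ≤ (n / PP R M0 M1 l) % (R*M1) + M1) ∨
    rho ≤ (Ms1.filter (· ∣ n / PP R M0 M1 l)).card

theorem pow_sidon (a : ℕ) : ∀ b c d : ℕ, 2^a + 2^d = 2^b + 2^c →
    (a = b ∧ d = c) ∨ (a = c ∧ d = b) := by
  induction a with
  | zero =>
    intro b c d h
    by_cases hb : b = 0
    · left
      subst hb
      exact ⟨rfl, Nat.pow_right_injective (le_refl 2) (Nat.add_left_cancel h)⟩
    by_cases hc : c = 0
    · right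
      subst hc
      refine ⟨rfl, Nat.pow_right_injective (le_refl 2) ?_⟩
      show 2 ^ d = 2 ^ b
      omega
    exfalso
    obtain ⟨b', rfl⟩ := Nat.exists_eq_succ_of_ne_zero hb
    obtain ⟨c', rfl⟩ := Nat.exists_eq_succ_of_ne_zero hc
    have h1 : 1 ≤ 2 ^ b' := Nat.one_le_two_pow
    have h2 : 1 ≤ 2 ^ c' := Nat.one_le_two_pow
    rw [Nat.pow_succ, Nat.pow_succ] at h
    rcases d with _ | d
    · simp at h; omega
    · rw [Nat.pow_succ] at h; simp at h; omega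
  | succ a ih =>
    intro b c d h
    have h0 : 1 ≤ 2 ^ a := Nat.one_le_two_pow
    rcases d with _ | d
    · by_cases hb : b = 0
      · right
        subst hb
        refine ⟨Nat.pow_right_injective (le_refl 2) ?_, rfl⟩
        show 2 ^ (a+1) = 2 ^ c
        omega
      by_cases hc : c = 0
      · left
        subst hc
        refine ⟨Nat.pow_right_injective (le_refl 2) ?_, rfl⟩
        show 2 ^ (a+1) = 2 ^ b
        omega
      exfalso
      obtain ⟨b', rfl⟩ := Nat.exists_eq_succ_of_ne_zero hb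
      obtain ⟨c', rfl⟩ := Nat.exists_eq_succ_of_ne_zero hc
      rw [Nat.pow_succ, Nat.pow_succ, Nat.pow_succ] at h
      simp at h; omega
    · have h3 : 1 ≤ 2 ^ d := Nat.one_le_two_pow
      rcases b with _ | b
      · rcases c with _ | c
        · exfalso; rw [Nat.pow_succ, Nat.pow_succ] at h; simp at h; omega
        · exfalso; rw [Nat.pow_succ, Nat.pow_succ, Nat.pow_succ] at h; simp at h; omega
      · rcases c with _ | c
        · exfalso; rw [Nat.pow_succ, Nat.pow_succ, Nat.pow_succ] at h; simp at h; omega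
        · have h' : 2^a + 2^d = 2^b + 2^c := by
            rw [Nat.pow_succ, Nat.pow_succ, Nat.pow_succ, Nat.pow_succ] at h; omega
          rcases ih b c d h' with ⟨h4, h5⟩ | ⟨h4, h5⟩
          · left; exact ⟨by omega, by omega⟩
          · right; exact ⟨by omega, by omega⟩

/-- the algebra of one thin event -/
theorem thin_int (p A Q S e t z : ℤ) (hp : 1 ≤ p) (hA : 0 < A) (hQ : 1024 * p * A ≤ Q)
    (hS1 : A ≤ S) (hS2 : S ≤ 2 * A) (he1 : -(2 * p) ≤ e) (he2 : e ≤ 2 * p)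
    (hz : z = 16 * e * S + Q * t) (h1 : -A < z) (h2 : z < A) : e = 0 := by
  have hS0 : 0 ≤ S := by linarith
  have hu : e * S ≤ 4 * (p * A) := by nlinarith
  have hl : -(4 * (p * A)) ≤ e * S := by nlinarith
  have hpA : A ≤ p * A := by nlinarith
  have hpA0 : 0 < p * A := by nlinarith
  have hQ0 : 0 < Q := by nlinarith
  have ht : t = 0 := by
    by_contra hne
    rcases lt_or_gt_of_ne hne with h | h
    · have : Q * t ≤ - Q := by nlinarith
      nlinarith
    · have : Q ≤ Q * t := by nlinarith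
      nlinarith
  subst ht
  by_contra hne
  rcases lt_or_gt_of_ne hne with h | h
  · have : e * S ≤ - S := by nlinarith
    nlinarith
  · have : S ≤ e * S := by nlinarith
    nlinarith

theorem thin (K W N M' Slow H T : ℕ) (x : ℕ → ℕ) (hx : ∀ a, x a = 16 * 2^a * (Slow + W*N*H))
    (h1 : W*M' ≤ Slow) (h2 : Slow ≤ 2*(W*M')) (h3 : 2^(K+10)*M' ≤ N) (hW : 0 < W) (hM : 0 < M')
    (o : ℤ) {a b c d : ℕ} (ha : a < K) (hb : b < K) (hc : c < K) (hd : d < K) (hab : a ≠ b)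
    (j j' : ℤ)
    (e1 : o ≤ (T:ℤ) + x a - x b - j*(W*N)) (e2 : (T:ℤ) + x a - x b - j*(W*N) < o + W*M')
    (e3 : o ≤ (T:ℤ) + x c - x d - j'*(W*N)) (e4 : (T:ℤ) + x c - x d - j'*(W*N) < o + W*M') :
    a = c ∧ b = d := by
  have pw : ∀ i, i < K → ((2:ℤ)^i ≤ 2^K ∧ (0:ℤ) < 2^i) := fun i hi =>
    ⟨pow_le_pow_right₀ (by norm_num) hi.le, by positivity⟩
  obtain ⟨a1, a2⟩ := pw a ha
  obtain ⟨b1, b2⟩ := pw b hb
  obtain ⟨c1, c2⟩ := pw c hc
  obtain ⟨d1, d2⟩ := pw d hd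
  have hQ : (1024:ℤ) * 2^K * (W*M') ≤ W*N := by
    have h3' : ((2:ℤ)^(K+10))*M' ≤ N := by exact_mod_cast h3
    have hW' : (0:ℤ) < W := by exact_mod_cast hW
    have : (2:ℤ)^(K+10) = 1024 * 2^K := by rw [pow_add]; norm_num; ring
    rw [this] at h3'
    nlinarith
  have hxa : ∀ i, (x i : ℤ) = 16 * 2^i * (Slow + W*N*H) := fun i => by
    have := hx i
    rw [this]; push_cast; ring
  have key := thin_int ((2:ℤ)^K) ((W:ℤ)*M') ((W:ℤ)*N) (Slow:ℤ) (2^a - 2^b - (2^c - 2^d))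
    (16 * (2^a - 2^b - (2^c - 2^d)) * H - j + j')
    (((T:ℤ) + x a - x b - j*(W*N)) - ((T:ℤ) + x c - x d - j'*(W*N)))
    (one_le_pow₀ (by norm_num)) (by positivity) (by linarith) (by exact_mod_cast h1)
    (by exact_mod_cast h2) (by linarith) (by linarith)
    (by rw [hxa a, hxa b, hxa c, hxa d]; ring) (by linarith) (by linarith)
  have hk : (2:ℤ)^a + 2^d = 2^b + 2^c := by linarith
  have hk' : 2^a + 2^d = 2^b + 2^c := by exact_mod_cast hk
  rcases pow_sidon a b c d hk' with ⟨h4, h5⟩ | ⟨h4, h5⟩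
  · exact absurd h4 hab
  · exact ⟨h4, h5.symm⟩

theorem evA (Y W N M' : ℕ) (h : (Y / W) % N < M') (hW : 0 < W) :
    ∃ j : ℤ, (0:ℤ) ≤ (Y:ℤ) - j*(W*N) ∧ (Y:ℤ) - j*(W*N) < 0 + W*M' := by
  refine ⟨((Y / W / N : ℕ) : ℤ), ?_, ?_⟩
  · have h1 := Nat.div_add_mod Y W
    have h2 := Nat.div_add_mod (Y / W) N
    have h3 : Y = (Y / W / N) * (W * N) + W * ((Y/W) % N) + Y % W := by
      conv_lhs => rw [← h1, ← h2]
      ring
    have h4 : (Y:ℤ) = ((Y / W / N : ℕ) : ℤ) * (W * N) + W * (((Y/W) % N : ℕ):ℤ) + ((Y % W : ℕ):ℤ) := by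
      exact_mod_cast h3
    have h5 : (0:ℤ) ≤ W * (((Y/W) % N : ℕ):ℤ) := by positivity
    have h6 : (0:ℤ) ≤ ((Y % W : ℕ):ℤ) := by positivity
    linarith
  · have h1 := Nat.div_add_mod Y W
    have h2 := Nat.div_add_mod (Y / W) N
    have h3 : Y = (Y / W / N) * (W * N) + W * ((Y/W) % N) + Y % W := by
      conv_lhs => rw [← h1, ← h2]
      ring
    have h4 : (Y:ℤ) = ((Y / W / N : ℕ) : ℤ) * (W * N) + W * (((Y/W) % N : ℕ):ℤ) + ((Y % W : ℕ):ℤ) := by
      exact_mod_cast h3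
    have h5 : Y % W < W := Nat.mod_lt _ hW
    have h6 : W * ((Y/W) % N) + Y % W < W * M' := by
      have : W * ((Y/W) % N + 1) ≤ W * M' := Nat.mul_le_mul_left _ h
      rw [Nat.mul_add] at this
      omega
    have h7 : (W:ℤ) * (((Y/W) % N : ℕ):ℤ) + ((Y % W : ℕ):ℤ) < W * M' := by exact_mod_cast h6
    linarith

theorem evB (Y W N M' : ℕ) (h : N ≤ (Y / W) % N + M') (hW : 0 < W) (hN : 0 < N) :
    ∃ j : ℤ, (-(W*M') : ℤ) ≤ (Y:ℤ) - j*(W*N) ∧ (Y:ℤ) - j*(W*N) < -(W*M') + W*M' := by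
  refine ⟨((Y / W / N + 1: ℕ) : ℤ), ?_, ?_⟩
  · have h1 := Nat.div_add_mod Y W
    have h2 := Nat.div_add_mod (Y / W) N
    have h3 : Y = (Y / W / N) * (W * N) + W * ((Y/W) % N) + Y % W := by
      conv_lhs => rw [← h1, ← h2]
      ring
    have h4 : (Y:ℤ) = ((Y / W / N : ℕ) : ℤ) * (W * N) + W * (((Y/W) % N : ℕ):ℤ) + ((Y % W : ℕ):ℤ) := by
      exact_mod_cast h3
    have h6 : (0:ℤ) ≤ ((Y % W : ℕ):ℤ) := by positivity
    have h7 : W * N ≤ W * ((Y/W) % N) + W * M' := by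
      rw [← Nat.mul_add]; exact Nat.mul_le_mul_left _ h
    have h8 : (W:ℤ) * N ≤ W * (((Y/W) % N : ℕ):ℤ) + W * M' := by exact_mod_cast h7
    push_cast at h4 h6 h8 ⊢
    linarith
  · have h1 := Nat.div_add_mod Y W
    have h2 := Nat.div_add_mod (Y / W) N
    have h3 : Y = (Y / W / N) * (W * N) + W * ((Y/W) % N) + Y % W := by
      conv_lhs => rw [← h1, ← h2]
      ring
    have h4 : (Y:ℤ) = ((Y / W / N : ℕ) : ℤ) * (W * N) + W * (((Y/W) % N : ℕ):ℤ) + ((Y % W : ℕ):ℤ) := by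
      exact_mod_cast h3
    have h5 : Y % W < W := Nat.mod_lt _ hW
    have h6 : W * ((Y/W) % N) + Y % W < W * N := by
      have : W * ((Y/W) % N + 1) ≤ W * N := Nat.mul_le_mul_left _ (Nat.mod_lt _ hN)
      rw [Nat.mul_add] at this
      omega
    have h7 : (W:ℤ) * (((Y/W) % N : ℕ):ℤ) + ((Y % W : ℕ):ℤ) < W * N := by exact_mod_cast h6
    push_cast at h4 h7 ⊢
    linarith

open Classical in
/-- ordered pairs of different marks whose shifted value satisfies `P` -/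
noncomputable def FF (K T : ℕ) (x : ℕ → ℕ) (P : ℕ → Prop) : Finset (ℕ × ℕ) :=
  (Finset.range K ×ˢ Finset.range K).filter (fun ab => ab.1 ≠ ab.2 ∧ P (T + x ab.1 - x ab.2))

open Classical in
theorem mem_FF (K T : ℕ) (x : ℕ → ℕ) (P : ℕ → Prop) (p : ℕ × ℕ) :
    p ∈ FF K T x P ↔ ((p.1 < K ∧ p.2 < K) ∧ p.1 ≠ p.2 ∧ P (T + x p.1 - x p.2)) := by
  unfold FF
  rw [Finset.mem_filter, Finset.mem_product, Finset.mem_range, Finset.mem_range]

/-- one thin event meets at most one ordered pair -/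
theorem card_one (K W N M' Slow H T : ℕ) (x : ℕ → ℕ)
    (hx : ∀ a, x a = 16 * 2^a * (Slow + W*N*H))
    (h1 : W*M' ≤ Slow) (h2 : Slow ≤ 2*(W*M')) (h3 : 2^(K+10)*M' ≤ N) (hW : 0 < W) (hM : 0 < M')
    (hT : ∀ b < K, x b ≤ T) (o : ℤ) (P : ℕ → Prop)
    (hP : ∀ Y : ℕ, P Y → ∃ j : ℤ, o ≤ (Y:ℤ) - j*(W*N) ∧ (Y:ℤ) - j*(W*N) < o + W*M') :
    (FF K T x P).card ≤ 1 := by
  rw [Finset.card_le_one]
  rintro ⟨a, b⟩ hab ⟨c, d⟩ hcd
  rw [mem_FF] at hab hcd
  simp only at hab hcd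
  obtain ⟨⟨ha, hb⟩, hne, hp⟩ := hab
  obtain ⟨⟨hc, hd⟩, hne', hp'⟩ := hcd
  obtain ⟨j, e1, e2⟩ := hP _ hp
  obtain ⟨j', e3, e4⟩ := hP _ hp'
  have hb' := hT b hb
  have hd' := hT d hd
  have c1 : ((T + x a - x b : ℕ) : ℤ) = (T:ℤ) + x a - x b := by
    rw [Nat.cast_sub (by omega)]; push_cast; ring
  have c2 : ((T + x c - x d : ℕ) : ℤ) = (T:ℤ) + x c - x d := by
    rw [Nat.cast_sub (by omega)]; push_cast; ring
  rw [c1] at e1 e2
  rw [c2] at e3 e4
  obtain ⟨h4, h5⟩ := thin K W N M' Slow H T x hx h1 h2 h3 hW hM o ha hb hc hd hne j j' e1 e2 e3 e4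
  rw [h4, h5]

/-- sum of the scales below `Mp * PP l` -/
def CC (Mp R M0 M1 : ℕ) : ℕ → ℕ
  | 0 => 1 + Mp + Mp*M0
  | (l+1) => CC Mp R M0 M1 l + Mp * PP R M0 M1 l + Mp * PP R M0 M1 l * M1

theorem PP_zero (R M0 M1 : ℕ) : PP R M0 M1 0 = R*M0 := by simp [PP]

theorem PP_succ (R M0 M1 l : ℕ) : PP R M0 M1 (l+1) = PP R M0 M1 l * (R*M1) := by
  simp only [PP, pow_succ]; ring

theorem PP_pos {R M0 M1 : ℕ} (hR : 0 < R) (h0 : 0 < M0) (h1 : 0 < M1) (l : ℕ) :
    0 < PP R M0 M1 l := by unfold PP; positivity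

theorem CC_le {Mp R M0 M1 : ℕ} (hMp : 4 ≤ Mp) (hR : 4 ≤ R) (h0 : 4 ≤ M0) (h1 : 4 ≤ M1) (l : ℕ) :
    CC Mp R M0 M1 l ≤ Mp * PP R M0 M1 l := by
  induction l with
  | zero =>
    rw [PP_zero]
    show 1 + Mp + Mp*M0 ≤ Mp * (R*M0)
    have e1 : 4 * (Mp * M0) ≤ R * (Mp * M0) := Nat.mul_le_mul_right _ hR
    have e2 : Mp * 4 ≤ Mp * M0 := Nat.mul_le_mul_left _ h0
    have e3 : Mp * (R*M0) = R * (Mp*M0) := by ring
    rw [e3]; omega
  | succ l ih =>
    rw [PP_succ]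
    show CC Mp R M0 M1 l + Mp * PP R M0 M1 l + Mp * PP R M0 M1 l * M1 ≤ _
    set X := Mp * PP R M0 M1 l with hX
    have e1 : 4 * (X * M1) ≤ R * (X * M1) := Nat.mul_le_mul_right _ hR
    have e2 : X * 4 ≤ X * M1 := Nat.mul_le_mul_left _ h1
    have e3 : Mp * (PP R M0 M1 l * (R*M1)) = R * (X * M1) := by rw [hX]; ring
    rw [e3]; omega

theorem CC_split (Mp R M0 M1 l : ℕ) : ∀ m, l ≤ m →
    ∃ H, CC Mp R M0 M1 m = CC Mp R M0 M1 l + Mp * PP R M0 M1 l * H := by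
  intro m hm
  induction m, hm using Nat.le_induction with
  | base => exact ⟨0, by ring⟩
  | succ m hm ih =>
    obtain ⟨H, hH⟩ := ih
    have hd : PP R M0 M1 m = PP R M0 M1 l * (R*M1)^(m-l) := by
      unfold PP
      rw [mul_assoc (R*M0) ((R*M1)^l) ((R*M1)^(m-l)), ← pow_add, Nat.add_sub_cancel' hm]
    refine ⟨H + (R*M1)^(m-l) * (1 + M1), ?_⟩
    show CC Mp R M0 M1 m + Mp * PP R M0 M1 m + Mp * PP R M0 M1 m * M1 = _
    rw [hH, hd]; ring

theorem dcount {β : Type*} (G : Finset β) (S : Finset ℕ) (rel : ℕ → β → Prop)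
    [∀ k p, Decidable (rel k p)] (rho : ℕ)
    (h1 : ∀ p ∈ G, rho ≤ (S.filter (fun k => rel k p)).card)
    (h2 : ∀ k ∈ S, (G.filter (fun p => rel k p)).card ≤ 1) : G.card * rho ≤ S.card := by
  calc G.card * rho = ∑ p ∈ G, rho := by rw [Finset.sum_const, smul_eq_mul]
    _ ≤ ∑ p ∈ G, (S.filter (fun k => rel k p)).card := Finset.sum_le_sum h1
    _ = ∑ k ∈ S, (G.filter (fun p => rel k p)).card := by
        simp only [Finset.card_filter]
        rw [Finset.sum_comm]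
    _ ≤ ∑ k ∈ S, 1 := Finset.sum_le_sum h2
    _ = S.card := by rw [Finset.sum_const, smul_eq_mul, mul_one]

open Classical in
theorem spoil (m r K Mp R M0 M1 rho : ℕ) (Ms Ms1 : Finset ℕ) (hMp : 2^(K+10) ≤ Mp)
    (hR : 2^(K+10) ≤ R) (h0 : 2^(K+10) ≤ M0) (h1 : 2^(K+10) ≤ M1)
    (hMs : ∀ k ∈ Ms, 2^(K+10) ≤ k ∧ k ∣ M0) (hMs1 : ∀ k ∈ Ms1, 2^(K+10) ≤ k ∧ k ∣ M1)
    (hc : Ms.card ≤ r) (hc1 : Ms1.card ≤ 32*rho) (hrho : 0 < rho) :
    ∃ (x : ℕ → ℕ) (T0 : ℕ),
      (∀ a b c d, a < K → b < K → c < K → d < K →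
        (Mp:ℤ) ∣ ((x a:ℤ) - x b) - (x c - x d) → (a = c ∧ b = d) ∨ (a = b ∧ c = d)) ∧
      ∀ T, T0 ≤ T → (((Finset.range K ×ˢ Finset.range K).filter (fun ab => ab.1 ≠ ab.2 ∧
        Bad R M0 M1 m rho Ms Ms1 ((T + x ab.1 - x ab.2) / Mp))).card ≤ 2 + r + 34*m) := by
  have hK : 1024 ≤ 2^(K+10) := by
    rw [pow_add]
    have : 1 ≤ 2^K := Nat.one_le_two_pow
    omega
  have hMp4 : 1024 ≤ Mp := le_trans hK hMp
  have hR4 : 1024 ≤ R := le_trans hK hR
  have h04 : 1024 ≤ M0 := le_trans hK h0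
  have h14 : 1024 ≤ M1 := le_trans hK h1
  set C := CC Mp R M0 M1 with hC
  set X : ℕ → ℕ := fun l => Mp * PP R M0 M1 l with hX
  have hXpos : ∀ l, 0 < X l := fun l => by
    have := PP_pos (R := R) (M0 := M0) (M1 := M1) (by omega) (by omega) (by omega) l
    simp only [hX]; positivity
  have hCle : ∀ l, C l ≤ X l := fun l => CC_le (by omega) (by omega) (by omega) (by omega) l
  have hC0 : C 0 = 1 + Mp + Mp*M0 := rfl
  have hCs : ∀ l, C (l+1) = C l + X l + X l * M1 := fun l => rfl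
  have hX0 : X 0 = Mp * (R*M0) := by simp only [hX, PP_zero]
  have hXs : ∀ l, X (l+1) = X l * (R*M1) := fun l => by simp only [hX, PP_succ]; ring
  set x : ℕ → ℕ := fun a => 16 * 2^a * C m with hxdef
  have hmono : ∀ b < K, x b ≤ x K := fun b hb => by
    simp only [hxdef]
    exact Nat.mul_le_mul_right _ (Nat.mul_le_mul_left _ (Nat.pow_le_pow_right (by norm_num) hb.le))
  refine ⟨x, x K, ?_, ?_⟩
  · -- ruler
    intro a b c d ha hb hcc hd hdiv
    obtain ⟨H, hH⟩ := CC_split Mp R M0 M1 0 m (Nat.zero_le _)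
    have hCm : (C m : ℤ) = 1 + Mp * (1 + M0 + (R*M0)*H) := by
      have : C m = 1 + Mp * (1 + M0 + (R*M0)*H) := by
        show CC Mp R M0 M1 m = _
        rw [hH, PP_zero]
        show 1 + Mp + Mp*M0 + _ = _
        ring
      exact_mod_cast this
    have pw : ∀ i, i < K → ((2:ℤ)^i ≤ 2^K ∧ (0:ℤ) < 2^i) := fun i hi =>
      ⟨pow_le_pow_right₀ (by norm_num) hi.le, by positivity⟩
    obtain ⟨a1, a2⟩ := pw a ha
    obtain ⟨b1, b2⟩ := pw b hb
    obtain ⟨c1, c2⟩ := pw c hcc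
    obtain ⟨d1, d2⟩ := pw d hd
    set e : ℤ := 2^a - 2^b - (2^c - 2^d) with he
    have hxi : ∀ i, (x i : ℤ) = 16 * 2^i * C m := fun i => by
      simp only [hxdef]; push_cast; ring
    have h5 : (Mp:ℤ) ∣ 16 * e := by
      have h6 : ((x a:ℤ) - x b) - (x c - x d) = 16 * e + Mp * (16 * e * (1 + M0 + (R*M0)*H)) := by
        rw [hxi a, hxi b, hxi c, hxi d, hCm, he]; ring
      rw [h6] at hdiv
      exact (Int.dvd_add_left (dvd_mul_right _ _)).1 hdiv
    have hMpz : (1024:ℤ) * 2^K ≤ Mp := by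
      have : (2:ℤ)^(K+10) ≤ Mp := by exact_mod_cast hMp
      have h7 : (2:ℤ)^(K+10) = 1024 * 2^K := by rw [pow_add]; norm_num; ring
      linarith
    have he0 : e = 0 := by
      by_contra hne
      have h8 := Int.le_of_dvd (a := (Mp:ℤ)) (b := |16 * e|) (by
        rw [abs_pos]; omega) ((dvd_abs _ _).2 h5)
      have h9 : |16 * e| ≤ 32 * 2^K := by
        rw [abs_le]; constructor <;> · rw [he]; linarith
      have h10 : (0:ℤ) < 2^K := by positivity
      linarith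
    have hk : (2:ℤ)^a + 2^d = 2^b + 2^c := by rw [he] at he0; linarith
    have hk' : 2^a + 2^d = 2^b + 2^c := by exact_mod_cast hk
    rcases pow_sidon a b c d hk' with ⟨h4, h5⟩ | ⟨h4, h5⟩
    · right; exact ⟨h4, h5.symm⟩
    · left; exact ⟨h4, h5.symm⟩
  · intro T hT
    have hTb : ∀ b < K, x b ≤ T := fun b hb => le_trans (hmono b hb) hT
    -- level 0
    have hdata0 : ∃ H, C m = C 0 + Mp * (R*M0) * H := by
      obtain ⟨H, hH⟩ := CC_split Mp R M0 M1 0 m (Nat.zero_le _)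
      exact ⟨H, by rw [PP_zero] at hH; exact hH⟩
    obtain ⟨H0, hH0⟩ := hdata0
    have hC0a : Mp * M0 ≤ C 0 := by rw [hC0]; omega
    have hC0b : C 0 ≤ 2 * (Mp * M0) := by
      rw [hC0]
      have e2 : Mp * 1024 ≤ Mp * M0 := Nat.mul_le_mul_left _ h04
      omega
    have F1a : (FF K T x (fun Y => (Y / Mp) % (R*M0) < M0)).card ≤ 1 :=
      card_one K Mp (R*M0) M0 (C 0) H0 T x (fun a => by simp only [hxdef]; rw [hH0])
        hC0a hC0b (Nat.mul_le_mul_right _ hR) (by omega) (by omega) hTb 0 _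
        (fun Y hY => by
          obtain ⟨j, e1, e2⟩ := evA Y Mp (R*M0) M0 hY (by omega)
          exact ⟨j, by exact_mod_cast e1, by exact_mod_cast e2⟩)
    have F1b : (FF K T x (fun Y => R*M0 ≤ (Y / Mp) % (R*M0) + M0)).card ≤ 1 :=
      card_one K Mp (R*M0) M0 (C 0) H0 T x (fun a => by simp only [hxdef]; rw [hH0])
        hC0a hC0b (Nat.mul_le_mul_right _ hR) (by omega) (by omega) hTb (-(Mp*M0)) _
        (fun Y hY => by
          obtain ⟨j, e1, e2⟩ := evB Y Mp (R*M0) M0 hY (by omega) (by positivity)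
          exact ⟨j, by exact_mod_cast e1, by exact_mod_cast e2⟩)
    have F2 : ∀ k ∈ Ms, (FF K T x (fun Y => k ∣ Y / Mp)).card ≤ 1 := fun k hk => by
      obtain ⟨hk1, c, hck⟩ := hMs k hk
      refine card_one K Mp k 1 (1 + Mp) (c + R*c*H0) T x (fun a => ?_) (by omega) (by omega)
        (by omega) (by omega) (by omega) hTb 0 (fun Y => k ∣ Y / Mp) (fun Y hY => ?_)
      · simp only [hxdef]
        rw [hH0, hC0, hck]; ring
      · have : (Y / Mp) % k < 1 := by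
          rw [Nat.mod_eq_zero_of_dvd hY]; omega
        obtain ⟨j, e1, e2⟩ := evA Y Mp k 1 this (by omega)
        exact ⟨j, by exact_mod_cast e1, by exact_mod_cast e2⟩
    have F3a : ∀ l < m, (FF K T x (fun Y => (Y / X l) % (R*M1) < M1)).card ≤ 1 := fun l hl => by
      obtain ⟨H, hH⟩ := CC_split Mp R M0 M1 (l+1) m hl
      have hH' : C m = C (l+1) + X l * (R*M1) * H := by
        rw [← hXs]; exact hH
      refine card_one K (X l) (R*M1) M1 (C (l+1)) H T x (fun a => by simp only [hxdef]; rw [hH'])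
        (by rw [hCs]; omega) ?_ (Nat.mul_le_mul_right _ hR) (hXpos l) (by omega) hTb 0
        (fun Y => (Y / X l) % (R*M1) < M1) (fun Y hY => ?_)
      · rw [hCs]
        have e1 := hCle l
        have e2 : X l * 1024 ≤ X l * M1 := Nat.mul_le_mul_left _ h14
        omega
      · obtain ⟨j, e1, e2⟩ := evA Y (X l) (R*M1) M1 hY (hXpos l)
        exact ⟨j, by exact_mod_cast e1, by exact_mod_cast e2⟩
    have F3b : ∀ l < m, (FF K T x (fun Y => R*M1 ≤ (Y / X l) % (R*M1) + M1)).card ≤ 1 := fun l hl => by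
      obtain ⟨H, hH⟩ := CC_split Mp R M0 M1 (l+1) m hl
      have hH' : C m = C (l+1) + X l * (R*M1) * H := by
        rw [← hXs]; exact hH
      refine card_one K (X l) (R*M1) M1 (C (l+1)) H T x (fun a => by simp only [hxdef]; rw [hH'])
        (by rw [hCs]; omega) ?_ (Nat.mul_le_mul_right _ hR) (hXpos l) (by omega) hTb
        (-((X l : ℕ)*M1)) (fun Y => R*M1 ≤ (Y / X l) % (R*M1) + M1) (fun Y hY => ?_)
      · rw [hCs]
        have e1 := hCle l
        have e2 : X l * 1024 ≤ X l * M1 := Nat.mul_le_mul_left _ h14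
        omega
      · obtain ⟨j, e1, e2⟩ := evB Y (X l) (R*M1) M1 hY (hXpos l) (by positivity)
        exact ⟨j, by exact_mod_cast e1, by exact_mod_cast e2⟩
    have F4k : ∀ l < m, ∀ k ∈ Ms1, (FF K T x (fun Y => k ∣ Y / X l)).card ≤ 1 := fun l hl k hk => by
      obtain ⟨hk1, c, hck⟩ := hMs1 k hk
      obtain ⟨H, hH⟩ := CC_split Mp R M0 M1 (l+1) m hl
      have hH' : C m = C l + X l + X l * M1 + X l * (R*M1) * H := by
        rw [← hXs, ← hCs]; exact hH
      refine card_one K (X l) k 1 (C l + X l) (c + R*c*H) T x (fun a => ?_) (by omega) ?_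
        (by omega) (hXpos l) (by omega) hTb 0 (fun Y => k ∣ Y / X l) (fun Y hY => ?_)
      · simp only [hxdef]
        rw [hH', hck]; ring
      · have e1 := hCle l
        omega
      · have : (Y / X l) % k < 1 := by
          rw [Nat.mod_eq_zero_of_dvd hY]; omega
        obtain ⟨j, e1, e2⟩ := evA Y (X l) k 1 this (hXpos l)
        exact ⟨j, by exact_mod_cast e1, by exact_mod_cast e2⟩
    have F4 : ∀ l < m, (FF K T x (fun Y => rho ≤ (Ms1.filter (· ∣ Y / X l)).card)).card ≤ 32 :=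
      fun l hl => by
      have e4 := dcount (FF K T x (fun Y => rho ≤ (Ms1.filter (· ∣ Y / X l)).card)) Ms1
        (fun k p => k ∣ (T + x p.1 - x p.2) / X l) rho
        (fun p hp => ((mem_FF K T x _ p).1 hp).2.2)
        (fun k hk => by
          refine le_trans (Finset.card_le_card ?_) (F4k l hl k hk)
          intro p hp
          rw [Finset.mem_filter] at hp
          have hp1 := (mem_FF K T x _ p).1 hp.1
          exact (mem_FF K T x _ p).2 ⟨hp1.1, hp1.2.1, hp.2⟩)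
      exact Nat.le_of_mul_le_mul_right (le_trans e4 hc1) hrho
    -- total
    have hsub : (Finset.range K ×ˢ Finset.range K).filter (fun ab => ab.1 ≠ ab.2 ∧
        Bad R M0 M1 m rho Ms Ms1 ((T + x ab.1 - x ab.2) / Mp)) ⊆
        (FF K T x (fun Y => (Y / Mp) % (R*M0) < M0) ∪ FF K T x (fun Y => R*M0 ≤ (Y / Mp) % (R*M0) + M0)) ∪
        (Ms.biUnion fun k => FF K T x (fun Y => k ∣ Y / Mp)) ∪
        ((Finset.range m).biUnion fun l =>
          (FF K T x (fun Y => (Y / X l) % (R*M1) < M1) ∪ FF K T x (fun Y => R*M1 ≤ (Y / X l) % (R*M1) + M1)) ∪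
            FF K T x (fun Y => rho ≤ (Ms1.filter (· ∣ Y / X l)).card)) := by
      intro p hp
      rw [Finset.mem_filter, Finset.mem_product, Finset.mem_range, Finset.mem_range] at hp
      obtain ⟨hp1, hne, hbad⟩ := hp
      rcases hbad with (h | h) | ⟨k, hk, h⟩ | ⟨l, hl, h⟩
      · exact Finset.mem_union_left _ (Finset.mem_union_left _ (Finset.mem_union_left _ ((mem_FF K T x _ p).2 ⟨hp1, hne, h⟩)))
      · exact Finset.mem_union_left _ (Finset.mem_union_left _ (Finset.mem_union_right _ ((mem_FF K T x _ p).2 ⟨hp1, hne, h⟩)))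
      · exact Finset.mem_union_left _ (Finset.mem_union_right _
          (Finset.mem_biUnion.2 ⟨k, hk, (mem_FF K T x _ p).2 ⟨hp1, hne, h⟩⟩))
      · rw [Nat.div_div_eq_div_mul] at h
        refine Finset.mem_union_right _ (Finset.mem_biUnion.2 ⟨l, Finset.mem_range.2 hl, ?_⟩)
        rcases h with (h | h) | h
        · exact Finset.mem_union_left _ (Finset.mem_union_left _ ((mem_FF K T x _ p).2 ⟨hp1, hne, h⟩))
        · exact Finset.mem_union_left _ (Finset.mem_union_right _ ((mem_FF K T x _ p).2 ⟨hp1, hne, h⟩))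
        · exact Finset.mem_union_right _ ((mem_FF K T x _ p).2 ⟨hp1, hne, h⟩)
    refine le_trans (Finset.card_le_card hsub) ?_
    have b1 := Finset.card_union_le
      ((FF K T x (fun Y => (Y / Mp) % (R*M0) < M0) ∪ FF K T x (fun Y => R*M0 ≤ (Y / Mp) % (R*M0) + M0)) ∪
        (Ms.biUnion fun k => FF K T x (fun Y => k ∣ Y / Mp)))
        ((Finset.range m).biUnion fun l =>
          (FF K T x (fun Y => (Y / X l) % (R*M1) < M1) ∪ FF K T x (fun Y => R*M1 ≤ (Y / X l) % (R*M1) + M1)) ∪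
            FF K T x (fun Y => rho ≤ (Ms1.filter (· ∣ Y / X l)).card))
    have b2 := Finset.card_union_le
      (FF K T x (fun Y => (Y / Mp) % (R*M0) < M0) ∪ FF K T x (fun Y => R*M0 ≤ (Y / Mp) % (R*M0) + M0))
        (Ms.biUnion fun k => FF K T x (fun Y => k ∣ Y / Mp))
    have b3 := Finset.card_union_le
      (FF K T x (fun Y => (Y / Mp) % (R*M0) < M0)) (FF K T x (fun Y => R*M0 ≤ (Y / Mp) % (R*M0) + M0))
    have b4 := Finset.card_biUnion_le_card_mul Ms (fun k => FF K T x (fun Y => k ∣ Y / Mp)) 1 F2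
    have b5 := Finset.card_biUnion_le_card_mul (Finset.range m) (fun l =>
          (FF K T x (fun Y => (Y / X l) % (R*M1) < M1) ∪ FF K T x (fun Y => R*M1 ≤ (Y / X l) % (R*M1) + M1)) ∪
            FF K T x (fun Y => rho ≤ (Ms1.filter (· ∣ Y / X l)).card)) 34 (fun l hl => by
        rw [Finset.mem_range] at hl
        have u1 := Finset.card_union_le
          (FF K T x (fun Y => (Y / X l) % (R*M1) < M1) ∪ FF K T x (fun Y => R*M1 ≤ (Y / X l) % (R*M1) + M1))
            (FF K T x (fun Y => rho ≤ (Ms1.filter (· ∣ Y / X l)).card))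
        have u2 := Finset.card_union_le
          (FF K T x (fun Y => (Y / X l) % (R*M1) < M1)) (FF K T x (fun Y => R*M1 ≤ (Y / X l) % (R*M1) + M1))
        have u3 := F3a l hl
        have u4 := F3b l hl
        have u5 := F4 l hl
        omega)
    rw [Finset.card_range] at b5
    omega

end Crest.Agent.R320.Spoil_969
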