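import Crest.Agent.R320.Step2_778

/-! # Row 320: the star theorem with an abstract promise (helper778) -/

set_option autoImplicit false

namespace Crest.Agent.R320.StarPr_778

open Crest.RegLang Crest.Agent.R320.Hk_851 Crest.Agent.R320.Step_778

universe u

variable {α : Type u} {Q : Type u}

/-- **one star**, abstract promise `Pr` -/
theorem star_pr {h : ℕ} [Finite Q] (δ : Q → α → Q) (Ok LL : Set Q) (Pr : Q → List α → Prop)
    (RR : Q → Language α)
    (ok : ∀ q ∈ Ok, ∀ a, δ q a ∈ Ok)
    (pre : ∀ q x y, Pr q (x ++ y) → Pr q x)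
    (suf : ∀ q x y, Pr q (x ++ y) → Pr (run δ q x) y)
    (hRR : ∀ q, HL h (RR q)) (ne : ∀ q, ∀ t ∈ RR q, t ≠ [])
    (sound : ∀ q ∈ Ok, ∀ x t q', run δ q x ∈ LL → t ∈ RR q' → Pr q (x ++ t) →
      run δ q (x ++ t) = q')
    (hE0 : ∀ p ∈ Ok, ∀ p', ∃ E : Language α, HL h E ∧ (∀ w ∈ E, run δ p w = p') ∧
      ∀ w, run δ p w = p' → Pr p w →
        (∀ x t y q', x ++ t ++ y = w → run δ p x ∈ LL → t ∉ RR q') → w ∈ E) :
    ∃ W : Q → Q → Language α, (∀ p p', HL (h + 1) (W p p')) ∧
      ∀ p ∈ Ok, ∀ w, Pr p w → ∀ p', w ∈ W p p' ↔ run δ p w = p' := by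
  classical
  have okr : ∀ (w : List α), ∀ q ∈ Ok, run δ q w ∈ Ok := by
    intro w
    induction w with
    | nil => intro q hq; exact hq
    | cons a w ih => intro q hq; exact ih _ (ok q hq a)
  have hE : ∀ p p' : Q, ∃ E : Language α, HL h E ∧ (∀ w ∈ E, run δ p w = p') ∧
      (p ∈ Ok → ∀ w, run δ p w = p' → Pr p w →
        (∀ x t y q', x ++ t ++ y = w → run δ p x ∈ LL → t ∉ RR q') → w ∈ E) := by
    intro p p'
    by_cases hp : p ∈ Ok
    · obtain ⟨E, h1, h2, h3⟩ := hE0 p hp p'
      exact ⟨E, h1, h2, fun _ => h3⟩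
    · exact ⟨0, HL.zero, fun w hw => hw.elim, fun h => absurd h hp⟩
  choose E hE1 hE2 hE3 using hE
  have hLLf : LL.Finite := Set.toFinite LL
  let K : Language α := {w | ∃ r : Q, w ∈ ({w | ∃ p ∈ LL, w ∈ RR r * E r p} : Language α)}
  have hK : HL h K := HL.iUnion fun r => HL.biUnion hLLf fun p _ => (hRR r).mul (hE1 r p)
  let F : Q → Language α := fun p => {w | ∃ p' ∈ LL, w ∈ E p p'}
  have hF : ∀ p, HL h (F p) := fun p => HL.biUnion hLLf fun p' _ => hE1 p p'
  let Z : Q → Language α := fun p => {w | ∃ r : Q, w ∈ RR r * E r p}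
  have hZ : ∀ p, HL h (Z p) := fun p => HL.iUnion fun r => (hRR r).mul (hE1 r p)
  let W : Q → Q → Language α := fun p p' =>
    {w | w ∈ E p p' ∨ w ∈ F p * (KStar.kstar K * Z p')}
  have hW : ∀ p p', HL (h + 1) (W p p') := fun p p' =>
    HL.setOf_or ((hE1 p p').mono (Nat.le_succ h))
      (((hF p).mono (Nat.le_succ h)).mul (hK.star.mul ((hZ p').mono (Nat.le_succ h))))
  have hstar : ∀ (S : List (List α)), (∀ u ∈ S, u ∈ K) → ∀ p ∈ Ok, ∀ x, run δ p x ∈ LL →
      Pr p (x ++ S.flatten) → run δ p (x ++ S.flatten) ∈ LL := by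
    intro S
    induction S with
    | nil => intro _ p _ x hx _; simpa using hx
    | cons v S ih =>
      intro hS p hp x hx hl
      obtain ⟨r, p', hp', hv⟩ := hS v (by simp)
      obtain ⟨t, ht, e, he, rfl⟩ := Language.mem_mul.1 hv
      have e1 : x ++ (((t ++ e) :: S).flatten) = (x ++ t) ++ (e ++ S.flatten) := by
        simp [List.append_assoc]
      have e2 : x ++ (((t ++ e) :: S).flatten) = (x ++ (t ++ e)) ++ S.flatten := by
        simp [List.append_assoc]
      have h1 : run δ p (x ++ t) = r := by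
        rw [e1] at hl
        exact sound p hp x t r hx ht (pre _ _ _ hl)
      have h2 : run δ p (x ++ (t ++ e)) = p' := by
        rw [← List.append_assoc, run_append, h1]
        exact hE2 r p' e he
      rw [e2] at hl ⊢
      exact ih (fun u hu => hS u (by simp [hu])) p hp _ (by rw [h2]; exact hp') hl
  have hsound : ∀ p ∈ Ok, ∀ p' w, w ∈ W p p' → Pr p w → run δ p w = p' := by
    intro p hp p' w hw hl
    rcases hw with hw | hw
    · exact hE2 p p' w hw
    · obtain ⟨f, ⟨r, hr, hf⟩, kz, hkz, rfl⟩ := Language.mem_mul.1 hw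
      obtain ⟨k, hk, z, ⟨r', hz⟩, rfl⟩ := Language.mem_mul.1 hkz
      obtain ⟨t, ht, e, he, rfl⟩ := Language.mem_mul.1 hz
      obtain ⟨S, rfl, hS⟩ := Language.mem_kstar.1 hk
      have h0 : run δ p f ∈ LL := by rw [hE2 p r f hf]; exact hr
      have e1 : f ++ (S.flatten ++ (t ++ e)) = (f ++ S.flatten) ++ (t ++ e) := by
        simp [List.append_assoc]
      rw [e1] at hl ⊢
      have h1 := hstar S hS p hp f h0 (pre _ _ _ hl)
      rw [← List.append_assoc] at hl ⊢
      have h2 := sound p hp (f ++ S.flatten) t r' h1 ht (pre _ _ _ hl)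
      rw [run_append, h2]
      exact hE2 r' p' e he
  have hcomp : ∀ (n : ℕ) (p : Q) (w : List α), w.length ≤ n → p ∈ Ok → Pr p w →
      w ∈ W p (run δ p w) := by
    intro n
    induction n with
    | zero =>
      intro p w hn hp hl
      have hw : w = [] := List.length_eq_zero_iff.1 (Nat.le_zero.1 hn)
      subst hw
      left
      refine hE3 p _ hp [] rfl hl ?_
      intro x t y q' hxy _ ht
      have : t = [] := by
        have h1 := (List.append_eq_nil_iff.1 hxy).1
        exact (List.append_eq_nil_iff.1 h1).2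
      exact ne q' t ht this
    | succ n ih =>
      intro p w hn hp hl
      by_cases hc : ∃ m, ∃ x t y q', x ++ t ++ y = w ∧ run δ p x ∈ LL ∧ t ∈ RR q' ∧
          x.length + t.length = m
      · have hmin := fun m (hm : m < Nat.find hc) => Nat.find_min hc hm
        obtain ⟨x, t, y, q', hw, hx, ht, hlen⟩ := Nat.find_spec hc
        have htne := ne q' t ht
        have htl : 0 < t.length := List.length_pos_iff.2 htne
        subst hw
        have hlx : Pr p (x ++ t) := pre _ _ _ hl
        have hxE : x ∈ E p (run δ p x) := by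
          refine hE3 p _ hp x rfl (pre _ _ _ hlx) ?_
          intro x1 t1 y1 q1 h1 h2 h3
          refine hmin (x1.length + t1.length) ?_ ⟨x1, t1, y1 ++ t ++ y, q1, ?_, h2, h3, rfl⟩
          · rw [← hlen, ← h1]
            simp only [List.length_append]
            omega
          · rw [← h1]; simp [List.append_assoc]
        have hq' : run δ p (x ++ t) = q' := sound p hp x t q' hx ht hlx
        have hly : Pr q' y := by
          have := suf _ _ _ hl
          rwa [hq'] at this
        have hq'ok : q' ∈ Ok := hq' ▸ okr (x ++ t) p hp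
        have hyW := ih q' y (by
          simp only [List.length_append] at hn
          omega) hq'ok hly
        have hrun : run δ p (x ++ t ++ y) = run δ q' y := by rw [run_append, hq']
        rw [hrun]
        right
        rcases hyW with hy | hy
        · refine Language.mem_mul.2 ⟨x, ⟨_, hx, hxE⟩, t ++ y, ?_, by simp [List.append_assoc]⟩
          refine Language.mem_mul.2 ⟨[], ?_, t ++ y, ⟨q', Language.mem_mul.2 ⟨t, ht, y, hy, rfl⟩⟩, rfl⟩
          exact Language.mem_kstar.2 ⟨[], rfl, by simp⟩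
        · obtain ⟨f, ⟨r, hr, hf⟩, kz, hkz, rfl⟩ := Language.mem_mul.1 hy
          obtain ⟨k, hk, z, hz, rfl⟩ := Language.mem_mul.1 hkz
          obtain ⟨S, rfl, hS⟩ := Language.mem_kstar.1 hk
          refine Language.mem_mul.2 ⟨x, ⟨_, hx, hxE⟩, (t ++ f) ++ S.flatten ++ z, ?_,
            by simp [List.append_assoc]⟩
          refine Language.mem_mul.2 ⟨(t ++ f) ++ S.flatten, ?_, z, hz, rfl⟩
          refine Language.mem_kstar.2 ⟨(t ++ f) :: S, by simp, ?_⟩
          intro v hv
          rcases List.mem_cons.1 hv with rfl | hv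
          · exact ⟨q', r, hr, Language.mem_mul.2 ⟨t, ht, f, hf, rfl⟩⟩
          · exact hS v hv
      · left
        refine hE3 p _ hp w rfl hl ?_
        intro x t y q' h1 h2 h3
        exact hc ⟨_, x, t, y, q', h1, h2, h3, rfl⟩
  refine ⟨W, hW, fun p hp w hw p' => ⟨fun h => hsound p hp p' w h hw, ?_⟩⟩
  rintro rfl
  exact hcomp _ p w le_rfl hp hw

end Crest.Agent.R320.StarPr_778
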