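import Crest.Agent.R320.Step_778

/-!
# Row 320: the composition step with regular starting languages (helper778)

As `HasCut` of `Step_778`, but the starting words form regular languages inside `G'` (needed when
zones are unbounded, i.e. in texts with long runs), and words of `G'` itself need not be covered.
-/

set_option autoImplicit false

namespace Crest.Agent.R320.Step2_778

open Crest.RegLang Crest.Agent.R320.Hk_851 Crest.Agent.R320.Step_778

universe u

variable {α : Type u}

theorem regular_fibre (S : Type u) [Monoid S] [Finite S] (φ : α → S) (P : Set S) :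
    Language.IsRegular ({w | (w.map φ).prod ∈ P} : Language α) := by
  have key : ∀ (w : List α) (s : S), run (fun (s : S) a => s * φ a) s w = s * (w.map φ).prod := by
    intro w
    induction w with
    | nil => intro s; simp
    | cons a w ih =>
      intro s
      have h1 : run (fun (s : S) a => s * φ a) s (a :: w)
          = run (fun (s : S) a => s * φ a) (s * φ a) w := rfl
      rw [h1, ih, List.map_cons, List.prod_cons, mul_assoc]
  have h := regular_run (fun (s : S) (a : α) => s * φ a) 1 P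
  have e : ({w | run (fun (s : S) a => s * φ a) 1 w ∈ P} : Language α)
      = {w | (w.map φ).prod ∈ P} := by
    ext w
    change run (fun (s : S) a => s * φ a) 1 w ∈ P ↔ (w.map φ).prod ∈ P
    rw [key, one_mul]
  rwa [e] at h

/-- general form: starting words in regular languages inside `G'` -/
def HasCut2 (G G' : Language α) : Prop :=
  ∀ (S : Type u) [Monoid S] [Finite S] (φ : α → S),
    ∃ (Q : Type u) (_ : Finite Q) (δ : Q → α → Q) (Ok Dead LL : Set Q) (RR : Q → Language α)
      (ι : Type u) (_ : Finite ι) (J : Type u) (_ : Finite J) (T : J → Language α)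
      (init : J → ι → Q),
      IsCut G' δ Ok Dead LL RR ∧
      (∀ j, (T j).IsRegular) ∧ (∀ j, ∀ t ∈ T j, t ∈ G') ∧
      (∀ j i, init j i ∈ Ok) ∧
      (∀ w ∈ G, w ∈ G' ∨ ∃ j, ∃ t ∈ T j, ∃ w', t ++ w' = w ∧ ∀ i, LiveP δ Dead (init j i) w') ∧
      (∀ j, ∀ w₁ w₂, (∀ i, LiveP δ Dead (init j i) w₁) → (∀ i, LiveP δ Dead (init j i) w₂) →
        (∀ i, run δ (init j i) w₁ = run δ (init j i) w₂) →
        (w₁.map φ).prod = (w₂.map φ).prod)

theorem solv_step2 {h : ℕ} {G G' : Language α} (hG' : Solv h G') (hc : HasCut2 G G') :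
    Solv (h + 1) G := by
  classical
  intro L hL
  obtain ⟨S, _, _, φ, P, hP⟩ := exists_monoid L hL
  obtain ⟨Q, _, δ, Ok, Dead, LL, RR, ι, _, J, _, T, init, H, hTr, hTG, hok, hcov, hread⟩ := hc S φ
  obtain ⟨E', hE'1, hE'2, hE'3⟩ := hG' L hL
  have hst : ∀ (j : J) (i : ι) (q : Q),
      HL (h + 1) ({w | LiveP δ Dead (init j i) w ∧ run δ (init j i) w = q} : Language α) :=
    fun j i q => step hG' δ Ok Dead LL RR H (init j i) (hok j i) q
  -- starting languages
  have hTs : ∀ (j : J) (s : S), HL h ({w | w ∈ T j ∧ (w.map φ).prod = s} : Language α) := by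
    intro j s
    obtain ⟨E, h1, h2, h3⟩ := hG' _ ((hTr j).inf (regular_fibre S φ {s}))
    exact h1.congr fun w => ⟨fun hw => h3 w ⟨hw.1, hw.2⟩ (hTG j w hw.1), fun hw => h2 w hw⟩
  let good : J → S → (ι → Q) → Prop := fun j s σ =>
    ∃ w₀, (∀ i, LiveP δ Dead (init j i) w₀) ∧ (∀ i, run δ (init j i) w₀ = σ i) ∧
      s * (w₀.map φ).prod ∈ P
  let X : J → (ι → Q) → Language α := fun j σ =>
    {w | ∀ i, w ∈ ({w | LiveP δ Dead (init j i) w ∧ run δ (init j i) w = σ i} : Language α)}
  have hX : ∀ j σ, HL (h + 1) (X j σ) := fun j σ => HL.iInter fun i => hst j i (σ i)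
  let Y : J × S → Language α := fun p => {w | ∃ σ ∈ {σ | good p.1 p.2 σ}, w ∈ X p.1 σ}
  have hY : ∀ p, HL (h + 1) (Y p) := fun p =>
    HL.biUnion (Set.toFinite _) fun σ _ => hX p.1 σ
  let B : J × S → Language α := fun p => {w | w ∈ T p.1 ∧ (w.map φ).prod = p.2}
  have hB : ∀ p, HL (h + 1) (B p) := fun p => (hTs p.1 p.2).mono (Nat.le_succ h)
  refine ⟨{w | w ∈ E' ∨ w ∈ ({w | ∃ p : J × S, w ∈ B p * Y p} : Language α)},
    HL.setOf_or (hE'1.mono (Nat.le_succ h)) (HL.iUnion fun p => (hB p).mul (hY p)), ?_, ?_⟩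
  · rintro w (hw | ⟨⟨j, s⟩, hw⟩)
    · exact hE'2 w hw
    · obtain ⟨t, ht, w', ⟨σ, ⟨w₀, h1, h2, h3⟩, hσ⟩, rfl⟩ := Language.mem_mul.1 hw
      have e := hread j w' w₀ (fun i => (hσ i).1) h1 (fun i => ((hσ i).2).trans (h2 i).symm)
      rw [hP, List.map_append, List.prod_append, e]
      have : (t.map φ).prod = s := ht.2
      rwa [this]
  · intro w hwL hwG
    rcases hcov w hwG with hw | ⟨j, t, ht, w', rfl, hl⟩
    · exact Or.inl (hE'3 w hwL hw)
    · right
      refine ⟨(j, (t.map φ).prod), Language.mem_mul.2 ⟨t, ⟨ht, rfl⟩, w', ?_, rfl⟩⟩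
      refine ⟨fun i => run δ (init j i) w', ⟨w', hl, fun i => rfl, ?_⟩, fun i => ⟨hl i, rfl⟩⟩
      rw [hP, List.map_append, List.prod_append] at hwL
      exact hwL

theorem row2 (G1 G2 : Language α) (h1 : HasCut2 (⊤ : Language α) G1) (h2 : HasCut2 G1 G2)
    (h3 : Solv 1 G2) (L : Language α) (hL : L.IsRegular) :
    ∃ e : GRegExp α, e.height ≤ 3 ∧ e.lang = L := by
  obtain ⟨E, hE, hE1, hE2⟩ := solv_step2 (solv_step2 h3 h2) h1 L hL
  have : HL 3 L := hE.congr fun w => ⟨fun hw => hE2 w hw trivial, fun hw => hE1 w hw⟩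
  exact this

end Crest.Agent.R320.Step2_778
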