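import Crest.Agent.R320.Hk1_851

/-!
# Row 320, BOX C: the star step in block form, relative soundness (helper403)
-/

set_option autoImplicit false

namespace Crest.Agent.R320.StepC_403

open Crest.RegLang Crest.Agent.R320.Hk_851

universe u

variable {α : Type u} {V : Type*}

/-- `M` is read as initial blocks of every admissible list with value `v → v'` -/
def Snd (Ok : List (List α) → Prop) (T : V → List α → V) (F : V → V → Language α) : Prop :=
  ∀ v v' M Y L, Ok L → M ∈ F v v' → M ++ Y = L.flatten →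
    ∃ L1 L2, L = L1 ++ L2 ∧ L1.flatten = M ∧ L1.foldl T v = v'

theorem step {k : ℕ} [Finite V] (T : V → List α → V) (Ok : List (List α) → Prop)
    (hpre : ∀ L1 L2, Ok (L1 ++ L2) → Ok L1) (hsuf : ∀ L1 L2, Ok (L1 ++ L2) → Ok L2)
    (LP RQ : V → Language α) (hLP : ∀ v, HL k (LP v)) (hRQ : ∀ v, HL k (RQ v))
    (sound : ∀ v v' P Q Y L, Ok L → P ∈ LP v → Q ∈ RQ v' → P ++ Q ++ Y = L.flatten →
      ∃ L1 L2, L = L1 ++ L2 ∧ L1.flatten = P ++ Q ∧ L1.foldl T v = v')
    (unc : V → V → Language α) (hunc : ∀ v v', HL k (unc v v')) (usnd : Snd Ok T unc)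
    (compl : ∀ L v, Ok L → (L.flatten ∈ unc v (L.foldl T v)) ∨
      ∃ L1 L2 L3 P Q, L = L1 ++ (L2 ++ L3) ∧ L2 ≠ [] ∧ L1.flatten ∈ unc v (L1.foldl T v) ∧
        P ∈ LP (L1.foldl T v) ∧ Q ∈ RQ (L2.foldl T (L1.foldl T v)) ∧ P ++ Q = L2.flatten) :
    ∃ F : V → V → Language α, (∀ v v', HL (k + 1) (F v v')) ∧ Snd Ok T F ∧
      (∀ L v, Ok L → L.flatten ∈ F v (L.foldl T v)) := by
  classical
  let K : Language α := {w | ∃ p : V × V, w ∈ RQ p.1 * unc p.1 p.2 * LP p.2}
  have hK : HL k K := HL.iUnion fun p => ((hRQ p.1).mul (hunc _ _)).mul (hLP _)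
  let A : V → Language α := fun v => {w | ∃ v1, w ∈ unc v v1 * LP v1}
  let B : V → Language α := fun v' => {w | ∃ v2, w ∈ RQ v2 * unc v2 v'}
  have hA : ∀ v, HL (k + 1) (A v) := fun v =>
    (HL.iUnion fun v1 => (hunc v v1).mul (hLP v1)).mono (Nat.le_succ k)
  have hB : ∀ v, HL (k + 1) (B v) := fun v =>
    (HL.iUnion fun v1 => (hRQ v1).mul (hunc v1 v)).mono (Nat.le_succ k)
  let F : V → V → Language α := fun v v' => unc v v' + A v * KStar.kstar K * B v'
  -- the core of soundness
  have core : ∀ (ks : List (List α)), (∀ x ∈ ks, x ∈ K) → ∀ v v2 P Q Y L, Ok L → P ∈ LP v →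
      Q ∈ RQ v2 → P ++ (ks.flatten ++ (Q ++ Y)) = L.flatten →
      ∃ L1 L2, L = L1 ++ L2 ∧ L1.flatten = P ++ (ks.flatten ++ Q) ∧ L1.foldl T v = v2 := by
    intro ks
    induction ks with
    | nil =>
      intro _ v v2 P Q Y L hL hP hQ e
      have e' : P ++ Q ++ Y = L.flatten := by simpa using e
      obtain ⟨L1, L2, h1, h2, h3⟩ := sound v v2 P Q Y L hL hP hQ e'
      exact ⟨L1, L2, h1, by simpa using h2, h3⟩
    | cons x ks ih =>
      intro hks v v2 P Q Y L hL hP hQ e
      obtain ⟨p, hx⟩ := hks x (by simp)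
      obtain ⟨qm, hqm, P2, hP2, rfl⟩ := Language.mem_mul.1 hx
      obtain ⟨Q1, hQ1, M, hM, rfl⟩ := Language.mem_mul.1 hqm
      have e1 : P ++ Q1 ++ (M ++ (P2 ++ (ks.flatten ++ (Q ++ Y)))) = L.flatten := by
        rw [← e]; simp
      obtain ⟨L1, L2, h1, h2, h3⟩ := sound v p.1 P Q1 _ L hL hP hQ1 e1
      have hL2 : Ok L2 := hsuf L1 L2 (h1 ▸ hL)
      have e2 : M ++ (P2 ++ (ks.flatten ++ (Q ++ Y))) = L2.flatten := by
        rw [h1, List.flatten_append, h2] at e1
        exact List.append_cancel_left e1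
      obtain ⟨L3, L4, h4, h5, h6⟩ := usnd p.1 p.2 M _ L2 hL2 hM e2
      have hL4 : Ok L4 := hsuf L3 L4 (h4 ▸ hL2)
      have e3 : P2 ++ (ks.flatten ++ (Q ++ Y)) = L4.flatten := by
        rw [h4, List.flatten_append, h5] at e2
        exact List.append_cancel_left e2
      obtain ⟨L5, L6, h7, h8, h9⟩ := ih (fun y hy => hks y (by simp [hy])) p.2 v2 P2 Q Y L4 hL4 hP2 hQ e3
      refine ⟨L1 ++ (L3 ++ L5), L6, ?_, ?_, ?_⟩
      · rw [h1, h4, h7]; simp
      · rw [List.flatten_append, List.flatten_append, h2, h5, h8]; simp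
      · rw [List.foldl_append, List.foldl_append, h3, h6, h9]
  refine ⟨F, fun v v' => ((hunc v v').mono (Nat.le_succ k)).add (((hA v).mul hK.star).mul (hB v')), ?_, ?_⟩
  · intro v v' M Y L hL hM e
    rcases hM with hM | hM
    · exact usnd v v' M Y L hL hM e
    · obtain ⟨x, hx, b, hb, rfl⟩ := Language.mem_mul.1 hM
      obtain ⟨a, ha, z, hz, rfl⟩ := Language.mem_mul.1 hx
      obtain ⟨v1, ha⟩ := ha
      obtain ⟨M0, hM0, P, hP, rfl⟩ := Language.mem_mul.1 ha
      obtain ⟨v2, hb⟩ := hb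
      obtain ⟨Q, hQ, M1, hM1, rfl⟩ := Language.mem_mul.1 hb
      obtain ⟨ks, rfl, hks⟩ := Language.mem_kstar.1 hz
      have e1 : M0 ++ (P ++ (ks.flatten ++ (Q ++ (M1 ++ Y)))) = L.flatten := by rw [← e]; simp
      obtain ⟨L1, L2, h1, h2, h3⟩ := usnd v v1 M0 _ L hL hM0 e1
      have hL2 : Ok L2 := hsuf L1 L2 (h1 ▸ hL)
      have e2 : P ++ (ks.flatten ++ (Q ++ (M1 ++ Y))) = L2.flatten := by
        rw [h1, List.flatten_append, h2] at e1
        exact List.append_cancel_left e1
      obtain ⟨L3, L4, h4, h5, h6⟩ := core ks hks v1 v2 P Q _ L2 hL2 hP hQ e2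
      have hL4 : Ok L4 := hsuf L3 L4 (h4 ▸ hL2)
      have e3 : M1 ++ Y = L4.flatten := by
        rw [h4, List.flatten_append, h5] at e2
        have e2' : (P ++ (ks.flatten ++ Q)) ++ (M1 ++ Y) = (P ++ (ks.flatten ++ Q)) ++ L4.flatten := by
          rw [← e2]; simp
        exact List.append_cancel_left e2'
      obtain ⟨L5, L6, h7, h8, h9⟩ := usnd v2 v' M1 Y L4 hL4 hM1 e3
      refine ⟨L1 ++ (L3 ++ L5), L6, ?_, ?_, ?_⟩
      · rw [h1, h4, h7]; simp
      · rw [List.flatten_append, List.flatten_append, h2, h5, h8]; simp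
      · rw [List.foldl_append, List.foldl_append, h3, h6, h9]
  · -- completeness
    have key : ∀ (n : ℕ) (L : List (List α)), L.length ≤ n → ∀ v, Ok L →
        L.flatten ∈ F v (L.foldl T v) := by
      intro n
      induction n with
      | zero =>
        intro L hn v hL
        rcases compl L v hL with h | ⟨L1, L2, L3, P, Q, h1, h2, -⟩
        · exact Or.inl h
        · exfalso
          have hLn : L = [] := List.length_eq_zero_iff.1 (Nat.le_zero.1 hn)
          rw [hLn] at h1
          have := (List.append_eq_nil_iff.1 h1.symm).2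
          exact h2 (List.append_eq_nil_iff.1 this).1
      | succ n ih =>
        intro L hn v hL
        rcases compl L v hL with h | ⟨L1, L2, L3, P, Q, h1, h2, h3, h4, h5, h6⟩
        · exact Or.inl h
        · have hL23 : Ok (L2 ++ L3) := hsuf L1 _ (h1 ▸ hL)
          have hL3 : Ok L3 := hsuf L2 L3 hL23
          have hlen : L3.length ≤ n := by
            have : 0 < L2.length := List.length_pos_iff.2 h2
            have : L.length = L1.length + (L2.length + L3.length) := by rw [h1]; simp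
            omega
          set v1 := L1.foldl T v with hv1
          set v2 := L2.foldl T v1 with hv2
          have hv3 : L.foldl T v = L3.foldl T v2 := by
            rw [h1, List.foldl_append, List.foldl_append]
          have hfl : L.flatten = L1.flatten ++ (P ++ Q ++ L3.flatten) := by
            rw [h1, List.flatten_append, List.flatten_append, h6]
          have ih3 := ih L3 hlen v2 hL3
          rw [hv3, hfl]
          right
          have hA1 : L1.flatten ++ P ∈ A v := ⟨v1, Language.mem_mul.2 ⟨_, h3, P, h4, rfl⟩⟩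
          rcases ih3 with h | h
          · have hB1 : Q ++ L3.flatten ∈ B (L3.foldl T v2) :=
              ⟨v2, Language.mem_mul.2 ⟨Q, h5, _, h, rfl⟩⟩
            refine Language.mem_mul.2 ⟨L1.flatten ++ P, Language.mem_mul.2 ⟨_, hA1, [], ?_, by simp⟩,
              Q ++ L3.flatten, hB1, by simp⟩
            exact Language.nil_mem_kstar K
          · obtain ⟨x, hx, b, hb, hxb⟩ := Language.mem_mul.1 h
            obtain ⟨a, ha, z, hz, rfl⟩ := Language.mem_mul.1 hx
            obtain ⟨v4, ha⟩ := ha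
            obtain ⟨M0, hM0, P2, hP2, rfl⟩ := Language.mem_mul.1 ha
            have hKx : Q ++ M0 ++ P2 ∈ K :=
              ⟨(v2, v4), Language.mem_mul.2 ⟨Q ++ M0, Language.mem_mul.2 ⟨Q, h5, M0, hM0, rfl⟩, P2, hP2, rfl⟩⟩
            obtain ⟨ks, rfl, hks⟩ := Language.mem_kstar.1 hz
            have hz2 : (Q ++ M0 ++ P2) ++ ks.flatten ∈ KStar.kstar K := by
              refine Language.mem_kstar.2 ⟨(Q ++ M0 ++ P2) :: ks, by simp, ?_⟩
              intro y hy
              rcases List.mem_cons.1 hy with rfl | hy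
              · exact hKx
              · exact hks y hy
            refine Language.mem_mul.2 ⟨L1.flatten ++ P ++ ((Q ++ M0 ++ P2) ++ ks.flatten),
              Language.mem_mul.2 ⟨_, hA1, _, hz2, rfl⟩, b, hb, ?_⟩
            rw [← hxb]; simp
    exact fun L v hL => key L.length L le_rfl v hL

end Crest.Agent.R320.StepC_403
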