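import Crest.Agent.R320.Hk2_851

/-!
# Row 320, piece (9): the step theorem of the thread calculus (helper162)

A chain is given by a right-looking step relation `St r l` (`r` = the text from the node on,
`l` = distance to the next node), decided by the first `l + m` letters of `r`.
`Solved k Z` : every finite automaton which reads the zones of the chain letter by letter, on
words whose chain (started at the beginning) runs through zones of class `Z` only and reaches the
place `m` letters before the end, is of height `≤ k`.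
The step theorem: a cut scheme which is sound at the junctions inside `Z`-zones and complete in
all zones of `Z` outside `Z'` gives `Solved k Z' → Solved (k + 1) Z`.
-/

set_option autoImplicit false

namespace Crest.Agent.R320.Step_162

open Crest.RegLang Crest.Agent.R320.Hk_851

universe u

variable {α : Type u}

/-- a right-looking chain rule -/
structure Chain (α : Type u) where
  St : List α → ℕ → Prop
  m : ℕ
  hmax : ℕ
  mpos : 0 < m
  pos : ∀ r l, St r l → 0 < l
  le : ∀ r l, St r l → l ≤ hmax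
  len : ∀ r l, St r l → l + m ≤ r.length
  det : ∀ r l l', St r l → St r l' → l = l'
  mono : ∀ r q l, St r l → St (r ++ q) l
  loc : ∀ r q l, St (r ++ q) l → l + m ≤ r.length → St r l

/-- runs of the chain through zones of class `Z`, with the list of zone views -/
inductive Run (C : Chain α) (Z : List α → Prop) : List α → List α → List (List α) → Prop
  | refl (r : List α) : Run C Z r r []
  | step {r r' : List α} {l : ℕ} {L : List (List α)} (h : C.St r l)
      (hz : Z (r.take (l + C.m))) (t : Run C Z (r.drop l) r' L) :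
      Run C Z r r' (r.take (l + C.m) :: L)

/-- evolution of a token along a list of zones -/
def ev {V : Type*} (σ : List α → V → V) (v : V) (L : List (List α)) : V :=
  L.foldl (fun v z => σ z v) v

theorem ev_append {V : Type*} (σ : List α → V → V) (v : V) (L L' : List (List α)) :
    ev σ v (L ++ L') = ev σ (ev σ v L) L' := by
  simp [ev, List.foldl_append]

theorem ev_cons {V : Type*} (σ : List α → V → V) (v : V) (z : List α) (L : List (List α)) :
    ev σ v (z :: L) = ev σ (σ z v) L := rfl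

theorem ev_nil {V : Type*} (σ : List α → V → V) (v : V) : ev σ v [] = v := rfl

variable {C : Chain α} {Z Z' : List α → Prop}

theorem Run.suffix {r r' : List α} {L : List (List α)} (h : Run C Z r r' L) :
    ∃ p, r = p ++ r' := by
  induction h with
  | refl r => exact ⟨[], rfl⟩
  | @step r r' l L h hz t ih =>
    obtain ⟨p, hp⟩ := ih
    refine ⟨r.take l ++ p, ?_⟩
    rw [List.append_assoc, ← hp, List.take_append_drop]

theorem Run.length_le {r r' : List α} {L : List (List α)} (h : Run C Z r r' L) :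
    r'.length ≤ r.length := by
  obtain ⟨p, hp⟩ := h.suffix
  rw [hp, List.length_append]; omega

theorem Run.mono_Z (hZ : ∀ z, Z' z → Z z) {r r' : List α} {L : List (List α)}
    (h : Run C Z' r r' L) : Run C Z r r' L := by
  induction h with
  | refl r => exact .refl r
  | step h hz t ih => exact .step h (hZ _ hz) ih

theorem Run.append {r r' : List α} {L : List (List α)} (h : Run C Z r r' L) (q : List α) :
    Run C Z (r ++ q) (r' ++ q) L := by
  induction h with
  | refl r => exact .refl _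
  | @step r r' l L h hz t ih =>
    have hl := C.len r l h
    have h1 : (r ++ q).take (l + C.m) = r.take (l + C.m) := List.take_append_of_le_length hl
    have h2 : (r ++ q).drop l = r.drop l ++ q := List.drop_append_of_le_length (by omega)
    have := Run.step (C := C) (Z := Z) (r := r ++ q) (r' := r' ++ q) (L := L) (C.mono r q l h)
      (by rw [h1]; exact hz) (by rw [h2]; exact ih)
    rwa [h1] at this

theorem Run.restrict {t s : List α} {L : List (List α)} (h : Run C Z t s L) :
    ∀ r r' q : List α, t = r ++ q → s = r' ++ q → C.m ≤ r'.length → Run C Z r r' L := by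
  induction h with
  | refl t =>
    intro r r' q h1 h2 _
    have : r = r' := List.append_cancel_right (h1.symm.trans h2)
    rw [this]; exact .refl _
  | @step t s l L h hz tt ih =>
    intro r r' q h1 h2 h3
    subst h1 h2
    have hlen := tt.length_le
    simp only [List.length_drop, List.length_append] at hlen
    have hlp := C.len _ _ h
    simp only [List.length_append] at hlp
    have hl : l + C.m ≤ r.length := by omega
    have e1 : (r ++ q).take (l + C.m) = r.take (l + C.m) := List.take_append_of_le_length hl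
    have e2 : (r ++ q).drop l = r.drop l ++ q := List.drop_append_of_le_length (by omega)
    have := Run.step (C := C) (Z := Z) (r := r) (r' := r') (L := L) (C.loc r q l h hl)
      (by rw [← e1]; exact hz) (ih _ _ _ e2 rfl h3)
    rwa [← e1] at this

theorem Run.trans {r r' r'' : List α} {L L' : List (List α)} (h : Run C Z r r' L)
    (h' : Run C Z r' r'' L') : Run C Z r r'' (L ++ L') := by
  induction h with
  | refl r => exact h'
  | step h hz t ih => exact .step h hz (ih h')

theorem Run.det {r r' : List α} {L : List (List α)} (h : Run C Z r r' L) :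
    ∀ {r'' : List α} {L'' : List (List α)}, Run C Z r r'' L'' → r''.length ≤ r'.length →
      ∃ L₂, Run C Z r' r'' L₂ ∧ L'' = L ++ L₂ := by
  induction h with
  | refl r => intro r'' L'' h'' _; exact ⟨L'', h'', rfl⟩
  | @step r r' l L h hz t ih =>
    intro r'' L'' h'' hle
    cases h'' with
    | refl =>
      have h1 := t.length_le
      have h2 := C.pos _ _ h
      have h3 := C.len _ _ h
      simp only [List.length_drop] at h1
      omega
    | @step _ _ l' L' h' hz' t' =>
      have e : l = l' := C.det _ _ _ h h'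
      subst e
      obtain ⟨L₂, h1, h2⟩ := ih t' hle
      exact ⟨L₂, h1, by rw [h2]; rfl⟩

theorem Run.unique {r r' : List α} {L L' : List (List α)} (h : Run C Z r r' L)
    (h' : Run C Z r r' L') : L = L' := by
  obtain ⟨L₂, h1, h2⟩ := h.det h' le_rfl
  obtain ⟨L₃, -, h4⟩ := h1.det (Run.refl r') le_rfl
  have : L₂ = [] := by
    cases L₂ with
    | nil => rfl
    | cons _ _ => simp at h4
  rw [h2, this, List.append_nil]

/-- the language of the words whose chain from the start reaches `m` letters before the end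
through `Z`-zones and takes the token `v` to `v'` -/
def T (C : Chain α) (Z : List α → Prop) {V : Type} (σ : List α → V → V) (v v' : V) :
    Language α :=
  {w | ∃ y L, y.length = C.m ∧ Run C Z w y L ∧ ev σ v L = v'}

/-- all finite automata reading the `Z`-zones are solved at height `k` -/
def Solved (C : Chain α) (k : ℕ) (Z : List α → Prop) : Prop :=
  ∀ (V : Type) [Finite V] (σ : List α → V → V) (v v' : V), HL k (T C Z σ v v')

/-- a cut scheme for the tokens `(U, τ)` : sound on `Z`, complete on `Z \ Z'` -/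
structure Scheme (C : Chain α) (Z Z' : List α → Prop) {U : Type} (τ : List α → U → U) where
  lam : List α → Option (ℕ × U)
  rho : List α → Option (ℕ × U)
  B : ℕ
  lam_le : ∀ p d u, lam p = some (d, u) → C.m ≤ d ∧ d ≤ B ∧ d ≤ p.length
  lam_mono : ∀ q p x, lam p = some x → lam (q ++ p) = some x
  lam_loc : ∀ q p d u, lam (q ++ p) = some (d, u) → d ≤ p.length → lam p = some (d, u)
  rho_le : ∀ q e u, rho q = some (e, u) → e ≤ B ∧ e + C.m ≤ q.length
  rho_mono : ∀ q q' x, rho q = some x → rho (q ++ q') = some x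
  rho_loc : ∀ q q' e u, rho (q ++ q') = some (e, u) → e + C.m ≤ q.length → rho q = some (e, u)
  sound : ∀ p q u e u' l, lam p = some (p.length, u) → rho q = some (e, u') →
    C.St (p ++ q) l → Z ((p ++ q).take (l + C.m)) →
      l = p.length + e ∧ τ ((p ++ q).take (l + C.m)) u = u'
  complete : ∀ r l, C.St r l → Z (r.take (l + C.m)) → ¬ Z' (r.take (l + C.m)) → ∀ u,
    ∃ p q e, r = p ++ q ∧ p.length + e = l ∧ lam p = some (p.length, u) ∧
      rho q = some (e, τ (r.take (l + C.m)) u)

section scheme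

variable {U : Type} {τ : List α → U → U} (S : Scheme C Z Z' τ)

/-- words from a cut to a later cut, through `Z'`-zones -/
def K : Language α :=
  {w | ∃ e u₁ d u₂ x w₂ y L, S.rho w = some (e, u₁) ∧ S.lam w = some (d, u₂) ∧ w = x ++ w₂ ∧
    x.length = e ∧ y.length = d ∧ Run C Z' w₂ y L ∧ ev τ u₁ L = u₂}

/-- words from the start to the first cut -/
def W0 (v : U) : Language α :=
  {w | ∃ d u y L, S.lam w = some (d, u) ∧ y.length = d ∧ Run C Z' w y L ∧ ev τ v L = u}

/-- words from the last cut to the end -/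
def W1 (v' : U) : Language α :=
  {w | ∃ e u x w₂ y L, S.rho w = some (e, u) ∧ w = x ++ w₂ ∧ x.length = e ∧ y.length = C.m ∧
    Run C Z' w₂ y L ∧ ev τ u L = v'}

/-- the language computed by the scheme -/
def J (v v' : U) : Language α :=
  {w | w ∈ T C Z' τ v v' ∨
    ∃ a b c, a ∈ W0 S v ∧ b ∈ KStar.kstar (K S) ∧ c ∈ W1 S v' ∧ w = a ++ (b ++ c)}

theorem kstar_cons {A : Language α} {k b : List α} (hk : k ∈ A) (hb : b ∈ KStar.kstar A) :
    k ++ b ∈ KStar.kstar A := by
  obtain ⟨S, rfl, hS⟩ := Language.mem_kstar.1 hb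
  refine (Language.mem_kstar.2 ⟨k :: S, by simp, ?_⟩ : k ++ S.flatten ∈ KStar.kstar A)
  intro z hz
  rcases List.mem_cons.1 hz with rfl | hz
  · exact hk
  · exact hS z hz

theorem nil_kstar {A : Language α} : ([] : List α) ∈ KStar.kstar A :=
  Language.mem_kstar.2 ⟨[], rfl, by simp⟩

theorem prepend {r a s y : List α} {l : ℕ} {L : List (List α)} (h : C.St r l)
    (hz : Z' (r.take (l + C.m))) (hr : r.drop l = a ++ s) (ha : C.m ≤ a.length)
    (t : Run C Z' a y L) : Run C Z' (r.take l ++ a) y (r.take (l + C.m) :: L) := by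
  have hl := C.len _ _ h
  have e0 : r = (r.take l ++ a) ++ s := by
    rw [List.append_assoc, ← hr, List.take_append_drop]
  have e1 : (r.take l).length = l := by rw [List.length_take]; omega
  have h1 : C.St (r.take l ++ a) l := by
    apply C.loc _ s l
    · rw [← e0]; exact h
    · rw [List.length_append, e1]; omega
  have e2 : (r.take l ++ a).take (l + C.m) = r.take (l + C.m) := by
    have h3 : ((r.take l ++ a) ++ s).take (l + C.m) = (r.take l ++ a).take (l + C.m) :=
      List.take_append_of_le_length (by rw [List.length_append, e1]; omega)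
    rw [← h3, ← e0]
  have e3 : (r.take l ++ a).drop l = a := List.drop_left' e1
  have := Run.step (C := C) (Z := Z') (r := r.take l ++ a) (r' := y) (L := L) h1
    (by rw [e2]; exact hz) (by rw [e3]; exact t)
  rwa [e2] at this

theorem complete_J {r y : List α} {L : List (List α)} (h : Run C Z r y L) :
    y.length = C.m → ∀ v, r ∈ J S v (ev τ v L) := by
  induction h with
  | refl r =>
    intro hm v
    exact Or.inl ⟨r, [], hm, .refl _, rfl⟩
  | @step r y l L h hz t ih =>
    intro hm v
    have hlen := C.len _ _ h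
    by_cases hzz : Z' (r.take (l + C.m))
    · rcases ih hm (τ (r.take (l + C.m)) v) with ⟨y', L', h1, h2, h3⟩ | ⟨a, b, c, ha, hb, hc, e⟩
      · exact Or.inl ⟨y', _, h1, .step h hzz h2, h3⟩
      · obtain ⟨d, u, y', L', h1, h2, h3, h4⟩ := ha
        obtain ⟨g1, g2, g3⟩ := S.lam_le _ _ _ h1
        have h5 := prepend h hzz e (by omega) h3
        refine Or.inr ⟨r.take l ++ a, b, c, ⟨d, u, y', _, S.lam_mono _ _ _ h1, h2, h5, h4⟩,
          hb, hc, ?_⟩
        rw [List.append_assoc, ← e, List.take_append_drop]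
    · obtain ⟨p, q, e, e1, e2, e3, e4⟩ := S.complete r l h hz hzz v
      have e5 : r.drop l = q.drop e := by
        rw [e1, ← e2, List.drop_append]
        simp
      have hp : p ∈ W0 S v := ⟨p.length, v, p, [], e3, rfl, .refl _, rfl⟩
      obtain ⟨g1, g2⟩ := S.rho_le _ _ _ e4
      have hxe : (q.take e).length = e := by rw [List.length_take]; omega
      rcases ih hm (τ (r.take (l + C.m)) v) with ⟨y', L', h1, h2, h3⟩ | ⟨a, b, c, ha, hb, hc, e6⟩
      · refine Or.inr ⟨p, [], q, hp, nil_kstar, ⟨e, _, q.take e, q.drop e, y', L', e4,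
          (List.take_append_drop _ _).symm, hxe, h1, ?_, h3⟩, by simpa using e1⟩
        rw [← e5]; exact h2
      · obtain ⟨d, u, y', L', h1, h2, h3, h4⟩ := ha
        obtain ⟨f1, f2, f3⟩ := S.lam_le _ _ _ h1
        have e7 : q = (q.take e ++ a) ++ (b ++ c) := by
          rw [List.append_assoc, ← e6, e5, List.take_append_drop]
        have hk : q.take e ++ a ∈ K S := by
          refine ⟨e, _, d, u, q.take e, a, y', L', ?_, S.lam_mono _ _ _ h1, rfl, hxe, h2, h3, h4⟩
          apply S.rho_loc _ (b ++ c)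
          · rw [← e7]; exact e4
          · rw [List.length_append, hxe]; omega
        refine Or.inr ⟨p, (q.take e ++ a) ++ b, c, hp, kstar_cons hk hb, hc, ?_⟩
        rw [e1, List.append_assoc, ← e7]

theorem junction {p q fin : List α} {u u' : U} {e : ℕ} {L : List (List α)}
    (hp : S.lam p = some (p.length, u)) (hq : S.rho q = some (e, u'))
    (t : Run C Z (p ++ q) fin L) (hf : fin.length = C.m) :
    ∃ z L₂, Run C Z (p ++ q) (q.drop e) [z] ∧ Run C Z (q.drop e) fin L₂ ∧ τ z u = u' := by
  obtain ⟨g1, g2, g3⟩ := S.lam_le _ _ _ hp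
  obtain ⟨f1, f2⟩ := S.rho_le _ _ _ hq
  have hm := C.mpos
  generalize hr : p ++ q = r at t
  cases t with
  | refl =>
    have := congrArg List.length hr
    simp only [List.length_append] at this
    omega
  | @step _ _ l L h hz t =>
    subst hr
    obtain ⟨s1, s2⟩ := S.sound p q u e u' l hp hq h hz
    have e5 : (p ++ q).drop l = q.drop e := by
      rw [s1, List.drop_append]
      simp
    rw [e5] at t
    refine ⟨_, L, ?_, t, s2⟩
    have := Run.step (C := C) (Z := Z) (r' := q.drop e) (L := []) h hz (by rw [e5]; exact .refl _)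
    exact this

theorem lam_end {x y : List α} {u : U} (h : S.lam (x ++ y) = some (y.length, u)) :
    S.lam y = some (y.length, u) := S.lam_loc _ _ _ _ h le_rfl

theorem chain_E (hZ : ∀ z, Z' z → Z z) {c q fin : List α} {v' : U} (hc : c ∈ W1 S v')
    (hf : fin.length = C.m) : ∀ (Ks : List (List α)), (∀ k ∈ Ks, k ∈ K S) →
    ∀ (p : List α) (u : U) (L : List (List α)), S.lam p = some (p.length, u) →
      Run C Z (p ++ (Ks.flatten ++ (c ++ q))) fin L →
      ∃ y L', y.length = C.m ∧ Run C Z (p ++ (Ks.flatten ++ (c ++ q))) (y ++ q) L' ∧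
        ev τ u L' = v' := by
  intro Ks
  induction Ks with
  | nil =>
    intro _ p u L hp t
    rw [List.flatten_nil, List.nil_append] at t ⊢
    obtain ⟨e, u', x, w₂, y, L₁, h1, h2, h3, h4, h5, h6⟩ := hc
    obtain ⟨z, L₂, t1, t2, t3⟩ := junction S hp (S.rho_mono _ q _ h1) t hf
    have e1 : (c ++ q).drop e = w₂ ++ q := by
      rw [h2, List.append_assoc]; exact List.drop_left' h3
    rw [e1] at t1
    have t4 := (h5.mono_Z hZ).append q
    refine ⟨y, _, h4, t1.trans t4, ?_⟩
    rw [ev_append, ev_cons, ev_nil, t3, h6]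
  | cons k Ks ih =>
    intro hK p u L hp t
    obtain ⟨e, u₁, d, u₂, x, w₂, y, L₁, h1, h2, h3, h4, h5, h6, h7⟩ := hK k (by simp)
    have hfl : (k :: Ks).flatten ++ (c ++ q) = k ++ (Ks.flatten ++ (c ++ q)) := by
      rw [List.flatten_cons, List.append_assoc]
    rw [hfl] at t ⊢
    obtain ⟨z, L₂, t1, t2, t3⟩ := junction S hp (S.rho_mono _ _ _ h1) t hf
    have e1 : (k ++ (Ks.flatten ++ (c ++ q))).drop e = w₂ ++ (Ks.flatten ++ (c ++ q)) := by
      rw [h3, List.append_assoc]; exact List.drop_left' h4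
    rw [e1] at t1 t2
    have t4 := (h6.mono_Z hZ).append (Ks.flatten ++ (c ++ q))
    obtain ⟨g1, g2, g3⟩ := S.lam_le _ _ _ h2
    obtain ⟨L₃, t5, -⟩ := t4.det t2 (by rw [List.length_append]; omega)
    obtain ⟨x', hx'⟩ := h6.suffix
    have hy : S.lam y = some (y.length, u₂) := by
      apply lam_end S (x := x ++ x')
      rw [List.append_assoc, ← hx', ← h3, h5]; exact h2
    obtain ⟨y', L', i1, i2, i3⟩ := ih (fun k' hk' => hK k' (by simp [hk'])) y u₂ L₃ hy t5
    refine ⟨y', _, i1, t1.trans (t4.trans i2), ?_⟩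
    rw [ev_append, ev_cons, ev_nil, t3, ev_append, h7, i3]

theorem sound_J (hZ : ∀ z, Z' z → Z z) {w q fin : List α} {L : List (List α)} {v v' : U}
    (t : Run C Z (w ++ q) fin L) (hf : fin.length = C.m) (hw : w ∈ J S v v') :
    ∃ y L', y.length = C.m ∧ Run C Z (w ++ q) (y ++ q) L' ∧ ev τ v L' = v' := by
  rcases hw with ⟨y', L', h1, h2, h3⟩ | ⟨a, b, c, ha, hb, hc, e⟩
  · exact ⟨y', L', h1, (h2.mono_Z hZ).append q, h3⟩
  · subst e
    obtain ⟨Ks, rfl, hK⟩ := Language.mem_kstar.1 hb
    obtain ⟨d, u, y, L₀, h1, h2, h3, h4⟩ := ha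
    have e1 : (a ++ (Ks.flatten ++ c)) ++ q = a ++ (Ks.flatten ++ (c ++ q)) := by
      simp only [List.append_assoc]
    rw [e1] at t ⊢
    have t4 := (h3.mono_Z hZ).append (Ks.flatten ++ (c ++ q))
    obtain ⟨g1, g2, g3⟩ := S.lam_le _ _ _ h1
    obtain ⟨L₃, t5, -⟩ := t4.det t (by rw [List.length_append]; omega)
    obtain ⟨x', hx'⟩ := h3.suffix
    have hy : S.lam y = some (y.length, u) := by
      apply lam_end S (x := x')
      rw [← hx', h2]; exact h1
    obtain ⟨y', L', i1, i2, i3⟩ := chain_E S hZ hc hf Ks hK y u L₃ hy t5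
    refine ⟨y', _, i1, t4.trans i2, ?_⟩
    rw [ev_append, h4, i3]

/-- words whose chain runs through `Z`-zones up to `m` letters before the end -/
def Good (C : Chain α) (Z : List α → Prop) : Language α :=
  {w | ∃ y L, y.length = C.m ∧ Run C Z w y L}

/-- words with a place reached (according to the computed languages) without a `Z`-step -/
def Fail (v₀ : U) : Language α :=
  {w | ∃ v' x y q, x ++ y ∈ J S v₀ v' ∧ y.length = C.m ∧ q ≠ [] ∧
    (¬ ∃ l, C.St (y ++ q) l ∧ Z ((y ++ q).take (l + C.m))) ∧ w = (x ++ y) ++ q}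

theorem good_or_stuck : ∀ (n : ℕ) (r : List α), r.length ≤ n → C.m ≤ r.length →
    (∃ y L, y.length = C.m ∧ Run C Z r y L) ∨
    (∃ y q L, y.length = C.m ∧ q ≠ [] ∧ Run C Z r (y ++ q) L ∧
      ¬ ∃ l, C.St (y ++ q) l ∧ Z ((y ++ q).take (l + C.m))) := by
  intro n
  induction n with
  | zero => intro r h1 h2; have := C.mpos; omega
  | succ n ih =>
    intro r h1 h2
    by_cases hs : ∃ l, C.St r l ∧ Z (r.take (l + C.m))
    · obtain ⟨l, h, hz⟩ := hs
      have h3 := C.len _ _ h
      have h4 := C.pos _ _ h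
      rcases ih (r.drop l) (by rw [List.length_drop]; omega) (by rw [List.length_drop]; omega) with
        ⟨y, L, g1, g2⟩ | ⟨y, q, L, g1, g2, g3, g4⟩
      · exact Or.inl ⟨y, _, g1, .step h hz g2⟩
      · exact Or.inr ⟨y, q, _, g1, g2, .step h hz g3, g4⟩
    · by_cases h5 : r.length = C.m
      · exact Or.inl ⟨r, [], h5, .refl _⟩
      · refine Or.inr ⟨r.take C.m, r.drop C.m, [], by rw [List.length_take]; omega, ?_, ?_, ?_⟩
        · intro h6
          have := congrArg List.length h6
          rw [List.length_drop, List.length_nil] at this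
          omega
        · rw [List.take_append_drop]; exact .refl _
        · rw [List.take_append_drop]; exact hs

theorem good_iff (hZ : ∀ z, Z' z → Z z) (v₀ : U) (w : List α) :
    w ∈ Good C Z ↔ C.m ≤ w.length ∧ w ∉ Fail S v₀ := by
  constructor
  · rintro ⟨fin, L, hf, t⟩
    refine ⟨by rw [← hf]; exact t.length_le, ?_⟩
    rintro ⟨v', x, y, q, h1, h2, h3, h4, rfl⟩
    obtain ⟨y', L', g1, g2, -⟩ := sound_J S hZ t hf h1
    obtain ⟨x', hx'⟩ := g2.suffix
    have e1 : x ++ y = x' ++ y' := by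
      rw [← List.append_assoc] at hx'
      exact List.append_cancel_right hx'
    have e2 : y = y' := (List.append_inj' e1 (by rw [h2, g1])).2
    subst e2
    have hq : 0 < q.length := List.length_pos_iff.2 h3
    obtain ⟨L₂, t2, -⟩ := g2.det t (by rw [List.length_append]; omega)
    generalize hr : y ++ q = r at t2 h4
    cases t2 with
    | refl =>
      have := congrArg List.length hr
      rw [List.length_append] at this
      omega
    | step h hz t => exact h4 ⟨_, h, hz⟩
  · rintro ⟨h1, h2⟩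
    rcases good_or_stuck (C := C) (Z := Z) w.length w le_rfl h1 with h | ⟨y, q, L, g1, g2, g3, g4⟩
    · exact h
    · exfalso
      apply h2
      obtain ⟨x, hx⟩ := g3.suffix
      rw [← List.append_assoc] at hx
      have t := g3.restrict (x ++ y) y q hx rfl (by omega)
      exact ⟨_, x, y, q, complete_J S t g1 v₀, g1, g2, g4, hx⟩

theorem T_iff (hZ : ∀ z, Z' z → Z z) (v v' : U) (w : List α) :
    w ∈ T C Z τ v v' ↔ w ∈ J S v v' ∧ w ∈ Good C Z := by
  constructor
  · rintro ⟨y, L, h1, h2, rfl⟩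
    exact ⟨complete_J S h2 h1 v, y, L, h1, h2⟩
  · rintro ⟨h1, fin, L, hf, t⟩
    have t' : Run C Z (w ++ []) fin L := by rwa [List.append_nil]
    obtain ⟨y, L', g1, g2, g3⟩ := sound_J S hZ t' hf h1
    rw [List.append_nil, List.append_nil] at g2
    exact ⟨y, L', g1, g2, g3⟩

/-! ### star height -/

variable {k : ℕ}

theorem HL_suffix_test [Finite α] (n : ℕ) (P : List α → Prop) :
    HL k {w : List α | ∃ v, v.length = n ∧ P v ∧ v <:+ w} := by
  have h1 : HL k ({v : List α | v.length = n ∧ P v} : Language α) :=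
    HL.finite ((List.finite_length_eq α n).subset fun v hv => hv.1)
  exact h1.suffix.congr fun w => ⟨fun ⟨v, a, b, c⟩ => ⟨v, ⟨a, b⟩, c⟩, fun ⟨v, ⟨a, b⟩, c⟩ => ⟨v, a, b, c⟩⟩

theorem HL_prefix_test [Finite α] (n : ℕ) (P : List α → Prop) :
    HL k {w : List α | ∃ v, v.length = n ∧ P v ∧ v <+: w} := by
  have h1 : HL k ({v : List α | v.length = n ∧ P v} : Language α) :=
    HL.finite ((List.finite_length_eq α n).subset fun v hv => hv.1)
  exact h1.prefix.congr fun w => ⟨fun ⟨v, a, b, c⟩ => ⟨v, ⟨a, b⟩, c⟩, fun ⟨v, ⟨a, b⟩, c⟩ => ⟨v, a, b, c⟩⟩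

theorem HL_lam [Finite α] (d : ℕ) (u : U) : HL k {w : List α | S.lam w = some (d, u)} := by
  refine (HL_suffix_test (k := k) d (fun v => S.lam v = some (d, u))).congr fun w => ?_
  constructor
  · intro (h : S.lam w = some (d, u))
    obtain ⟨g1, g2, g3⟩ := S.lam_le _ _ _ h
    have hl : (w.drop (w.length - d)).length = d := by rw [List.length_drop]; omega
    refine ⟨w.drop (w.length - d), hl, ?_, List.drop_suffix _ _⟩
    apply S.lam_loc (w.take (w.length - d))
    · rw [List.take_append_drop]; exact h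
    · omega
  · rintro ⟨v, -, h2, x, rfl⟩
    exact S.lam_mono _ _ _ h2

theorem HL_rho [Finite α] (e : ℕ) (u : U) : HL k {w : List α | S.rho w = some (e, u)} := by
  refine (HL_prefix_test (k := k) (e + C.m) (fun v => S.rho v = some (e, u))).congr fun w => ?_
  constructor
  · intro (h : S.rho w = some (e, u))
    obtain ⟨g1, g2⟩ := S.rho_le _ _ _ h
    have hl : (w.take (e + C.m)).length = e + C.m := by rw [List.length_take]; omega
    refine ⟨w.take (e + C.m), hl, ?_, List.take_prefix _ _⟩
    apply S.rho_loc _ (w.drop (e + C.m))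
    · rw [List.take_append_drop]; exact h
    · omega
  · rintro ⟨v, -, h2, x, rfl⟩
    exact S.rho_mono _ _ _ h2

/-- words of length `n` -/
def Len (α : Type u) (n : ℕ) : Language α := {x | x.length = n}

theorem HL_Len [Finite α] (n : ℕ) : HL k (Len α n) := HL.length_eq n

/-- runs which end `d` letters before the end -/
def R (C : Chain α) (Z : List α → Prop) {V : Type} (σ : List α → V → V) (d : ℕ) (v v' : V) :
    Language α :=
  {w | ∃ y L, y.length = d ∧ Run C Z w y L ∧ ev σ v L = v'}

theorem HL_R [Finite α] {V : Type} (σ : List α → V → V) (v v' : V)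
    (h : HL k (T C Z σ v v')) {d : ℕ} (hd : C.m ≤ d) : HL k (R C Z σ d v v') := by
  refine (h.mul (HL.length_eq (k := k) (d - C.m))).congr fun w => ?_
  constructor
  · rintro ⟨y, L, h1, h2, h3⟩
    obtain ⟨x, rfl⟩ := h2.suffix
    have e1 : x ++ y = (x ++ y.take C.m) ++ y.drop C.m := by
      rw [List.append_assoc, List.take_append_drop]
    have hl : (y.take C.m).length = C.m := by rw [List.length_take]; omega
    refine Language.mem_mul.2 ⟨x ++ y.take C.m, ⟨y.take C.m, L, hl, ?_, h3⟩, y.drop C.m, ?_,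
      e1.symm⟩
    · exact h2.restrict _ _ _ e1 (List.take_append_drop _ _).symm (by omega)
    · show (y.drop C.m).length = d - C.m
      rw [List.length_drop]; omega
  · intro hw
    obtain ⟨a, ⟨y, L, h1, h2, h3⟩, b, hb, rfl⟩ := Language.mem_mul.1 hw
    have hb' : b.length = d - C.m := hb
    exact ⟨y ++ b, L, by rw [List.length_append]; omega, h2.append b, h3⟩

theorem HL_K [Finite α] [Finite U] (h : ∀ u u', HL k (T C Z' τ u u')) : HL k (K S) := by
  have h1 : HL k {w : List α | ∃ i : Fin (S.B + 1) × U × Fin (S.B + 1) × U,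
      C.m ≤ (i.2.2.1 : ℕ) ∧ S.rho w = some ((i.1 : ℕ), i.2.1) ∧
      S.lam w = some ((i.2.2.1 : ℕ), i.2.2.2) ∧
      w ∈ Len α (i.1 : ℕ) * R C Z' τ (i.2.2.1 : ℕ) i.2.1 i.2.2.2} := by
    refine HL.iUnion fun i => ?_
    by_cases hd : C.m ≤ (i.2.2.1 : ℕ)
    · exact (HL.const _).setOf_and ((HL_rho S _ _).setOf_and ((HL_lam S _ _).setOf_and
        ((HL_Len _).mul (HL_R τ _ _ (h _ _) hd))))
    · exact HL.bot.congr fun w => ⟨fun hw => hd hw.1, fun hw => hw.elim⟩
  refine h1.congr fun w => ?_
  constructor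
  · rintro ⟨e, u₁, d, u₂, x, w₂, y, L, g1, g2, g3, g4, g5, g6, g7⟩
    obtain ⟨f1, f2, f3⟩ := S.lam_le _ _ _ g2
    obtain ⟨f4, f5⟩ := S.rho_le _ _ _ g1
    exact ⟨(⟨e, by omega⟩, u₁, ⟨d, by omega⟩, u₂), f1, g1, g2,
      Language.mem_mul.2 ⟨x, g4, w₂, ⟨y, L, g5, g6, g7⟩, g3.symm⟩⟩
  · rintro ⟨⟨e, u₁, d, u₂⟩, f1, g1, g2, hw⟩
    obtain ⟨x, hx, w₂, ⟨y, L, g5, g6, g7⟩, g3⟩ := Language.mem_mul.1 hw
    exact ⟨e, u₁, d, u₂, x, w₂, y, L, g1, g2, g3.symm, hx, g5, g6, g7⟩

theorem HL_W0 [Finite α] [Finite U] (h : ∀ u u', HL k (T C Z' τ u u')) (v : U) :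
    HL k (W0 S v) := by
  have h1 : HL k {w : List α | ∃ i : Fin (S.B + 1) × U,
      C.m ≤ (i.1 : ℕ) ∧ S.lam w = some ((i.1 : ℕ), i.2) ∧ w ∈ R C Z' τ (i.1 : ℕ) v i.2} := by
    refine HL.iUnion fun i => ?_
    by_cases hd : C.m ≤ (i.1 : ℕ)
    · exact (HL.const _).setOf_and ((HL_lam S _ _).setOf_and (HL_R τ _ _ (h _ _) hd))
    · exact HL.bot.congr fun w => ⟨fun hw => hd hw.1, fun hw => hw.elim⟩
  refine h1.congr fun w => ?_
  constructor
  · rintro ⟨d, u, y, L, g1, g2, g3, g4⟩
    obtain ⟨f1, f2, f3⟩ := S.lam_le _ _ _ g1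
    exact ⟨(⟨d, by omega⟩, u), f1, g1, ⟨y, L, g2, g3, g4⟩⟩
  · rintro ⟨⟨d, u⟩, f1, g1, ⟨y, L, g2, g3, g4⟩⟩
    exact ⟨d, u, y, L, g1, g2, g3, g4⟩

theorem HL_W1 [Finite α] [Finite U] (h : ∀ u u', HL k (T C Z' τ u u')) (v' : U) :
    HL k (W1 S v') := by
  have h1 : HL k {w : List α | ∃ i : Fin (S.B + 1) × U, S.rho w = some ((i.1 : ℕ), i.2) ∧
      w ∈ Len α (i.1 : ℕ) * R C Z' τ C.m i.2 v'} := by
    refine HL.iUnion fun i => ?_
    exact (HL_rho S _ _).setOf_and ((HL_Len _).mul (HL_R τ _ _ (h _ _) le_rfl))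
  refine h1.congr fun w => ?_
  constructor
  · rintro ⟨e, u, x, w₂, y, L, g1, g2, g3, g4, g5, g6⟩
    obtain ⟨f4, f5⟩ := S.rho_le _ _ _ g1
    exact ⟨(⟨e, by omega⟩, u), g1, Language.mem_mul.2 ⟨x, g3, w₂, ⟨y, L, g4, g5, g6⟩, g2.symm⟩⟩
  · rintro ⟨⟨e, u⟩, g1, hw⟩
    obtain ⟨x, hx, w₂, ⟨y, L, g4, g5, g6⟩, g2⟩ := Language.mem_mul.1 hw
    exact ⟨e, u, x, w₂, y, L, g1, g2.symm, hx, g4, g5, g6⟩

theorem HL_J [Finite α] [Finite U] (h : ∀ u u', HL k (T C Z' τ u u')) (v v' : U) :
    HL (k + 1) (J S v v') := by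
  have h1 := ((h v v').mono (Nat.le_succ k)).setOf_or
    (((HL_W0 S h v).mono (Nat.le_succ k)).mul
      ((HL_K S h).star.mul ((HL_W1 S h v').mono (Nat.le_succ k))))
  refine h1.congr fun w => ?_
  constructor
  · rintro (hw | ⟨a, b, c, ha, hb, hc, rfl⟩)
    · exact Or.inl hw
    · exact Or.inr (Language.mem_mul.2 ⟨a, ha, b ++ c, Language.mem_mul.2 ⟨b, hb, c, hc, rfl⟩, rfl⟩)
  · rintro (hw | hw)
    · exact Or.inl hw
    · obtain ⟨a, ha, bc, hbc, rfl⟩ := Language.mem_mul.1 hw
      obtain ⟨b, hb, c, hc, rfl⟩ := Language.mem_mul.1 hbc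
      exact Or.inr ⟨a, b, c, ha, hb, hc, rfl⟩

/-- words with a `Z`-step at the start -/
theorem HL_N [Finite α] : HL k {r : List α | ∃ l, C.St r l ∧ Z (r.take (l + C.m))} := by
  have h1 : HL k {r : List α | ∃ i : Fin (C.hmax + 1), ∃ v, v.length = (i : ℕ) + C.m ∧
      (C.St v i ∧ Z v) ∧ v <+: r} :=
    HL.iUnion fun i => HL_prefix_test _ _
  refine h1.congr fun r => ?_
  constructor
  · rintro ⟨l, g1, g2⟩
    have f1 := C.le _ _ g1
    have f2 := C.len _ _ g1
    have hl : (r.take (l + C.m)).length = l + C.m := by rw [List.length_take]; omega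
    refine ⟨⟨l, by omega⟩, r.take (l + C.m), hl, ⟨?_, g2⟩, List.take_prefix _ _⟩
    apply C.loc _ (r.drop (l + C.m)) l
    · rw [List.take_append_drop]; exact g1
    · omega
  · rintro ⟨i, v, g1, ⟨g2, g3⟩, x, rfl⟩
    refine ⟨i, C.mono _ _ _ g2, ?_⟩
    rw [List.take_append_of_le_length (by omega), ← g1, List.take_length]
    exact g3

/-- first factor of `Fail` -/
def FA (v₀ v' : U) (y : List α) : Language α :=
  {u | u ∈ J S v₀ v' ∧ ∃ v, v.length = C.m ∧ v = y ∧ v <:+ u}

/-- second factor of `Fail` -/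
def FB (C : Chain α) (Z : List α → Prop) (y : List α) : Language α :=
  {q | q ≠ [] ∧ ¬ ∃ l, C.St (y ++ q) l ∧ Z ((y ++ q).take (l + C.m))}

theorem HL_Fail [Finite α] [Finite U] (h : ∀ u u', HL k (T C Z' τ u u')) (v₀ : U) :
    HL (k + 1) (Fail S v₀) := by
  have : Finite {y : List α // y.length = C.m} := (List.finite_length_eq α C.m).to_subtype
  have h1 : HL (k + 1) {w : List α | ∃ i : U × {y : List α // y.length = C.m},
      w ∈ FA S v₀ i.1 i.2.1 * FB C Z i.2.1} := by
    refine HL.iUnion fun i => ?_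
    refine ((HL_J S h _ _).setOf_and (HL_suffix_test _ _)).mul ?_
    refine HL.setOf_and ?_ (HL.setOf_not ?_)
    · exact (HL.one.setOf_not)
    · exact (HL_N (C := C) (Z := Z)).lquot i.2.1
  refine h1.congr fun w => ?_
  constructor
  · rintro ⟨v', x, y, q, g1, g2, g3, g4, rfl⟩
    exact ⟨(v', ⟨y, g2⟩), Language.mem_mul.2 ⟨x ++ y, ⟨g1, y, g2, rfl, x, rfl⟩, q, ⟨g3, g4⟩, rfl⟩⟩
  · rintro ⟨⟨v', ⟨y, g2⟩⟩, hw⟩
    obtain ⟨u, ⟨g1, v, -, g5, x, g6⟩, q, ⟨g3, g4⟩, rfl⟩ := Language.mem_mul.1 hw
    subst g6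
    subst g5
    exact ⟨v', x, _, q, g1, g2, g3, g4, rfl⟩

include S in
theorem HL_Good [Finite α] [Finite U] [Nonempty U] (hZ : ∀ z, Z' z → Z z)
    (h : ∀ u u', HL k (T C Z' τ u u')) : HL (k + 1) (Good C Z) := by
  obtain ⟨v₀⟩ := ‹Nonempty U›
  exact ((HL.length_ge C.m).setOf_and (HL_Fail S h v₀).compl).congr fun w => good_iff S hZ v₀ w

include S in
theorem HL_T [Finite α] [Finite U] [Nonempty U] (hZ : ∀ z, Z' z → Z z)
    (h : ∀ u u', HL k (T C Z' τ u u')) (v v' : U) : HL (k + 1) (T C Z τ v v') :=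
  ((HL_J S h v v').setOf_and (HL_Good S hZ h)).congr fun w => T_iff S hZ v v' w

end scheme

/-- a coded automaton: the evolution of the tokens `V` can be read off from that of the
tokens `U` -/
theorem HL_decode [Finite α] {k : ℕ} {V U : Type} [Finite U] [Nonempty U]
    (σ : List α → V → V) (τ : List α → U → U)
    (dec : (U → U) → (V → V)) (hdec : ∀ L, dec (fun u => ev τ u L) = fun v => ev σ v L)
    (h : ∀ u u', HL k (T C Z τ u u')) (v v' : V) : HL k (T C Z σ v v') := by
  have h1 : HL k {w : List α | ∃ f : {f : U → U // dec f v = v'}, ∀ u, w ∈ T C Z τ u (f.1 u)} :=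
    HL.iUnion fun f => HL.iInter fun u => h u _
  refine h1.congr fun w => ?_
  constructor
  · rintro ⟨y, L, g1, g2, g3⟩
    refine ⟨⟨fun u => ev τ u L, ?_⟩, fun u => ⟨y, L, g1, g2, rfl⟩⟩
    rw [hdec]; exact g3
  · rintro ⟨⟨f, hf⟩, hw⟩
    obtain ⟨u₀⟩ := ‹Nonempty U›
    obtain ⟨y, L, g1, g2, g3⟩ := hw u₀
    refine ⟨y, L, g1, g2, ?_⟩
    have e1 : f = fun u => ev τ u L := by
      funext u
      obtain ⟨y', L', f1, f2, f3⟩ := hw u
      obtain ⟨x, hx⟩ := g2.suffix
      obtain ⟨x', hx'⟩ := f2.suffix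
      have e2 : y = y' := (List.append_inj' (hx.symm.trans hx') (by rw [g1, f1])).2
      subst e2
      rw [g2.unique f2]; exact f3.symm
    rw [e1, hdec] at hf
    exact hf

/-- the base: no zones at all -/
theorem solved_zero [Finite α] (C : Chain α) : Solved C 0 (fun _ => False) := by
  intro V _ σ v v'
  have h1 : HL 0 {w : List α | w.length = C.m ∧ v = v'} :=
    (HL.length_eq _).setOf_and (HL.const _)
  refine h1.congr fun w => ?_
  constructor
  · rintro ⟨y, L, g1, g2, g3⟩
    cases g2 with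
    | refl => exact ⟨g1, g3⟩
    | step _ hz _ => exact hz.elim
  · rintro ⟨g1, g2⟩
    exact ⟨w, [], g1, .refl _, g2⟩

/-- **The step theorem**: if every finite automaton on the `Z`-zones of the chain can be coded by
tokens with a cut scheme which is sound on `Z` and complete on `Z \ Z'`, then
`Solved k Z'` implies `Solved (k + 1) Z`. -/
theorem step_solved [Finite α] {C : Chain α} {Z Z' : List α → Prop} {k : ℕ}
    (hZ : ∀ z, Z' z → Z z)
    (hs : ∀ (V : Type) [Finite V] (σ : List α → V → V),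
      ∃ (U : Type) (_ : Finite U) (_ : Nonempty U) (τ : List α → U → U)
        (dec : (U → U) → (V → V)), (∀ L, dec (fun u => ev τ u L) = fun v => ev σ v L) ∧
          Nonempty (Scheme C Z Z' τ))
    (h : Solved C k Z') : Solved C (k + 1) Z := by
  intro V _ σ v v'
  obtain ⟨U, hU, hne, τ, dec, hdec, ⟨S⟩⟩ := hs V σ
  exact HL_decode σ τ dec hdec (HL_T S hZ (fun u u' => h U τ u u')) v v'

end Crest.Agent.R320.Step_162
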