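import Crest.Agent.R320.Hk2_851

/-!
# Row 320: the step theorem in class form (helper388)

`Comp l C`: every regular language agrees on the class `C` of words with a language of height
`≤ l`.  One exact scheme (a state function `run`, left legal states `LL`, right reading `rd`)
whose uncut pieces lie in `C` turns `Comp l C` into level `l + 1` on all good threads.
-/

set_option autoImplicit false

namespace Crest.Agent.R320.Step_388

open Crest.RegLang Crest.Agent.R320.Hk_851

universe u v

variable {α : Type u}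

/-- every regular language agrees on the class `C` with a language of height `≤ l` -/
def Comp (l : ℕ) (C : Set (List α)) : Prop :=
  ∀ L : Language α, L.IsRegular → ∃ M : Language α, HL l M ∧ ∀ w ∈ C, (w ∈ M ↔ w ∈ L)

theorem Comp.inter {l : ℕ} {C : Set (List α)} (h : Comp l C)
    (hC : HL l ({w | w ∈ C} : Language α))
    {p : List α → Prop} (hp : Language.IsRegular ({w | p w} : Language α)) :
    HL l ({w | w ∈ C ∧ p w} : Language α) := by
  obtain ⟨M, hM, hw⟩ := h _ hp
  refine (hC.inf hM).congr fun w => ?_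
  constructor
  · rintro ⟨h1, h2⟩
    exact ⟨h1, (hw w h1).2 h2⟩
  · rintro ⟨h1, h2⟩
    exact ⟨h1, (hw w h1).1 h2⟩

theorem Comp.mono {l : ℕ} {C C' : Set (List α)} (h : Comp l C) (hs : C' ⊆ C) : Comp l C' := by
  intro L hL
  obtain ⟨M, hM, hw⟩ := h L hL
  exact ⟨M, hM, fun w hw' => hw w (hs hw')⟩

section Step

variable {St : Type v} (run : St → List α → St) (LL : St → Prop) (rd : List α → Option St)
  (dec : List α → Prop) (Good : St → List α → Prop) (C : Set (List α))

/-- A scheme: state function, left legal states, right reading, decided words, good threads. -/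
structure Scheme : Prop where
  run_append : ∀ s x y, run s (x ++ y) = run (run s x) y
  rd_append : ∀ x y t, rd x = some t → rd (x ++ y) = some (run t y)
  dec_ne : ∀ x, dec x → x ≠ []
  dec_rd : ∀ x y, dec x → rd (x ++ y) ≠ none → rd x ≠ none
  good_left : ∀ s x y, Good s (x ++ y) → Good s x
  good_right : ∀ s x y, Good s (x ++ y) → Good (run s x) y
  exact_ : ∀ s x t, LL s → Good s x → rd x = some t → run s x = t
  uncut : ∀ s w, Good s w →
    (∀ a b, a ++ b = w → b ≠ [] → dec a → LL (run s a) → rd b = none) → w ∈ C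

variable {run LL rd dec Good C}

/-- pieces from right legal to left legal lying in `C` -/
def XX (LL : St → Prop) (rd : List α → Option St) (C : Set (List α)) : Language α :=
  {u | u ∈ C ∧ ∃ t, rd u = some t ∧ LL t}

theorem sound_aux (S : Scheme run LL rd dec Good C) (τ : St → Prop) (e : List α)
    (he : ∃ t, rd e = some t ∧ τ t) :
    ∀ (Ls : List (List α)), (∀ y ∈ Ls, y ∈ XX LL rd C) → ∀ s, LL s →
      Good s (Ls.flatten ++ e) → τ (run s (Ls.flatten ++ e)) := by
  intro Ls
  induction Ls with
  | nil =>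
    intro _ s hs hg
    obtain ⟨t, h1, h2⟩ := he
    have hg' : Good s e := by simpa using hg
    have := S.exact_ s e t hs hg' h1
    simpa [this] using h2
  | cons x Ls ih =>
    intro hL s hs hg
    have hx : x ∈ XX LL rd C := hL x (by simp)
    obtain ⟨-, t, h1, h2⟩ := hx
    have e1 : (x :: Ls).flatten ++ e = x ++ (Ls.flatten ++ e) := by simp
    rw [e1] at hg ⊢
    have hrun := S.exact_ s x t hs (S.good_left s x _ hg) h1
    rw [S.run_append, hrun]
    refine ih (fun y hy => hL y (by simp [hy])) t h2 ?_
    have := S.good_right s x _ hg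
    rwa [hrun] at this

/-- first cut: minimal decided cut of a thread -/
theorem first_cut (S : Scheme run LL rd dec Good C) {s : St} {w : List α}
    (h : ∃ a b, a ++ b = w ∧ dec a ∧ LL (run s a) ∧ rd b ≠ none) :
    ∃ a b, a ++ b = w ∧ dec a ∧ LL (run s a) ∧ rd b ≠ none ∧
      (∀ a' b', a' ++ b' = a → b' ≠ [] → dec a' → LL (run s a') → rd b' = none) := by
  classical
  have hex : ∃ k, ∃ a b, a ++ b = w ∧ dec a ∧ LL (run s a) ∧ rd b ≠ none ∧ a.length = k := by
    obtain ⟨a, b, h1, h2, h3, h4⟩ := h
    exact ⟨a.length, a, b, h1, h2, h3, h4, rfl⟩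
  obtain ⟨a, b, h1, h2, h3, h4, h5⟩ := Nat.find_spec hex
  refine ⟨a, b, h1, h2, h3, h4, ?_⟩
  intro a' b' hab hb' hd hl
  by_contra hrd
  have hlt : a'.length < Nat.find hex := by
    rw [← h5, ← hab, List.length_append]
    have := List.length_pos_of_ne_nil hb'
    omega
  refine Nat.find_min hex hlt ⟨a', b' ++ b, ?_, hd, hl, ?_, rfl⟩
  · rw [← h1, ← hab, List.append_assoc]
  · obtain ⟨t, ht⟩ := Option.ne_none_iff_exists'.1 hrd
    rw [S.rd_append b' b t ht]
    simp

theorem complete_aux (S : Scheme run LL rd dec Good C) :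
    ∀ (n : ℕ) (b : List α), b.length ≤ n → ∀ s, LL s → Good s b → ∀ t, rd b = some t →
      ∃ (Ls : List (List α)) (e : List α), (∀ y ∈ Ls, y ∈ XX LL rd C) ∧ b = Ls.flatten ++ e ∧
        e ∈ C ∧ rd e = some t := by
  intro n
  induction n with
  | zero =>
    intro b hb s hs hg t ht
    have hb0 : b = [] := List.length_eq_zero_iff.1 (by omega)
    subst hb0
    refine ⟨[], [], by simp, by simp, S.uncut s [] hg ?_, ht⟩
    intro a b hab hb'
    exact (hb' (List.append_eq_nil_iff.1 hab).2).elim
  | succ n ih =>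
    intro b hb s hs hg t ht
    by_cases hcut : ∃ a b', a ++ b' = b ∧ dec a ∧ LL (run s a) ∧ rd b' ≠ none
    · obtain ⟨a, b', h1, h2, h3, h4, h5⟩ := first_cut S hcut
      subst h1
      have hrda : rd a ≠ none := S.dec_rd a b' h2 (by rw [ht]; simp)
      obtain ⟨t1, ht1⟩ := Option.ne_none_iff_exists'.1 hrda
      have hga := S.good_left s a b' hg
      have hgb := S.good_right s a b' hg
      have hrun := S.exact_ s a t1 hs hga ht1
      have haC : a ∈ C := S.uncut s a hga h5
      have haX : a ∈ XX LL rd C := ⟨haC, t1, ht1, by rw [← hrun]; exact h3⟩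
      obtain ⟨t2, ht2⟩ := Option.ne_none_iff_exists'.1 h4
      have hlen : b'.length ≤ n := by
        have := List.length_pos_of_ne_nil (S.dec_ne a h2)
        rw [List.length_append] at hb
        omega
      have hrunb := S.exact_ (run s a) b' t2 h3 hgb ht2
      have ht' : t = run t1 b' := by
        have := S.rd_append a b' t1 ht1
        rw [ht] at this
        exact Option.some.inj this
      have ht2' : t2 = t := by rw [ht', ← hrunb, hrun]
      obtain ⟨Ls, e, hL, hbe, heC, hre⟩ := ih b' hlen (run s a) h3 hgb t2 ht2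
      refine ⟨a :: Ls, e, ?_, ?_, heC, by rw [hre, ht2']⟩
      · intro y hy
        rcases List.mem_cons.1 hy with rfl | hy
        · exact haX
        · exact hL y hy
      · simp [hbe]
    · refine ⟨[], b, by simp, by simp, S.uncut s b hg ?_, ht⟩
      intro a b' hab _ hd hl
      by_contra hrd
      exact hcut ⟨a, b', hab, hd, hl, hrd⟩

/-- **STEP THEOREM.** -/
theorem step (S : Scheme run LL rd dec Good C) {l : ℕ} (hC : Comp l C)
    (hC' : HL l ({w | w ∈ C} : Language α)) (s : St) (τ : St → Prop)
    (h1 : Language.IsRegular ({w | τ (run s w)} : Language α))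
    (h2 : Language.IsRegular ({w | LL (run s w)} : Language α))
    (h3 : Language.IsRegular ({w | ∃ t, rd w = some t ∧ LL t} : Language α))
    (h4 : Language.IsRegular ({w | ∃ t, rd w = some t ∧ τ t} : Language α)) :
    ∃ M : Language α, HL (l + 1) M ∧ ∀ w, Good s w → (w ∈ M ↔ τ (run s w)) := by
  have k1 := hC.inter hC' h1
  have k2 := hC.inter hC' h2
  have k3 : HL l (XX LL rd C) := hC.inter hC' h3
  have k4 := hC.inter hC' h4
  set U : Language α := {w | w ∈ C ∧ τ (run s w)} with hU
  set A : Language α := {w | w ∈ C ∧ LL (run s w)} with hA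
  set E : Language α := {w | w ∈ C ∧ ∃ t, rd w = some t ∧ τ t} with hE
  refine ⟨U + (A * KStar.kstar (XX LL rd C)) * E,
    (k1.mono (Nat.le_succ l)).add (((k2.mono (Nat.le_succ l)).mul k3.star).mul
      (k4.mono (Nat.le_succ l))), ?_⟩
  intro w hg
  rw [Language.mem_add]
  constructor
  · rintro (hw | hw)
    · exact hw.2
    · obtain ⟨y, hy, e, he, rfl⟩ := Language.mem_mul.1 hw
      obtain ⟨a, ha, b, hb, rfl⟩ := Language.mem_mul.1 hy
      obtain ⟨Ls, rfl, hL⟩ := Language.mem_kstar.1 hb
      rw [List.append_assoc] at hg ⊢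
      rw [S.run_append]
      exact sound_aux S τ e he.2 Ls hL (run s a) ha.2 (S.good_right s a _ hg)
  · intro hτ
    by_cases hcut : ∃ a b, a ++ b = w ∧ dec a ∧ LL (run s a) ∧ rd b ≠ none
    · right
      obtain ⟨a, b, h1, h2, h3, h4, h5⟩ := first_cut S hcut
      subst h1
      have hga := S.good_left s a b hg
      have hgb := S.good_right s a b hg
      obtain ⟨t, ht⟩ := Option.ne_none_iff_exists'.1 h4
      have hrun := S.exact_ (run s a) b t h3 hgb ht
      obtain ⟨Ls, e, hL, hbe, heC, hre⟩ :=
        complete_aux S b.length b le_rfl (run s a) h3 hgb t ht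
      refine Language.mem_mul.2 ⟨a ++ Ls.flatten, Language.mem_mul.2
        ⟨a, ⟨S.uncut s a hga h5, h3⟩, Ls.flatten, Language.mem_kstar.2 ⟨Ls, rfl, hL⟩, rfl⟩,
        e, ⟨heC, t, hre, ?_⟩, ?_⟩
      · rw [S.run_append, hrun] at hτ
        exact hτ
      · rw [List.append_assoc, ← hbe]
    · left
      refine ⟨S.uncut s w hg ?_, hτ⟩
      intro a b hab _ hd hl
      by_contra hrd
      exact hcut ⟨a, b, hab, hd, hl, hrd⟩

end Step

end Crest.Agent.R320.Step_388
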