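import Crest.Agent.R320.Hk2_851

/-!
# Row 320, abstract thread calculus (helper423)

* `SolvOn k W L` : some language of height `≤ k` agrees with `L` on the words of `W`.
* `Slv k W` : every regular language is solved on `W` at level `k`.
* `Snd k W` : every regular `L` has `Y` of height `≤ k` with `L ∩ W ⊆ Y ⊆ L` (sound everywhere).
* `Slv.snd` : FREE SOUNDNESS. For prefix closed `W`, `Slv k W → Snd k W`.
* `thread_step` : one star. Data `Pre, T, Suf, L`; pieces solved soundly at level `k` on `W`,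
  decomposition and closure only for words of `W₁`; then `L` is solved on `W₁` at level `k + 1`.
-/

set_option autoImplicit false

namespace Crest.Agent.R320.Step_423

open Crest.RegLang Crest.Agent.R320.Hk_851

universe u

variable {α : Type u} {k : ℕ}

/-- `L` is solved on `W` at level `k` -/
def SolvOn (k : ℕ) (W : Set (List α)) (L : Language α) : Prop :=
  ∃ Y : Language α, HL k Y ∧ ∀ w ∈ W, (w ∈ Y ↔ w ∈ L)

/-- level `k` solves `W` -/
def Slv (k : ℕ) (W : Set (List α)) : Prop :=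
  ∀ L : Language α, L.IsRegular → SolvOn k W L

/-- level `k` solves `W`, and the answer is sound on all words -/
def Snd (k : ℕ) (W : Set (List α)) : Prop :=
  ∀ L : Language α, L.IsRegular →
    ∃ Y : Language α, HL k Y ∧ (∀ w ∈ Y, w ∈ L) ∧ ∀ w ∈ W, w ∈ L → w ∈ Y

theorem SolvOn.anti {W W' : Set (List α)} {L : Language α} (h : SolvOn k W L) (hs : W' ⊆ W) :
    SolvOn k W' L := by
  obtain ⟨Y, h1, h2⟩ := h
  exact ⟨Y, h1, fun w hw => h2 w (hs hw)⟩

theorem SolvOn.mono {l : ℕ} {W : Set (List α)} {L : Language α} (h : SolvOn k W L)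
    (hs : k ≤ l) : SolvOn l W L := by
  obtain ⟨Y, h1, h2⟩ := h
  exact ⟨Y, h1.mono hs, h2⟩

theorem SolvOn.congr {W : Set (List α)} {L M : Language α} (h : SolvOn k W M)
    (e : ∀ w ∈ W, (w ∈ L ↔ w ∈ M)) : SolvOn k W L := by
  obtain ⟨Y, h1, h2⟩ := h
  exact ⟨Y, h1, fun w hw => (h2 w hw).trans (e w hw).symm⟩

theorem SolvOn.of_HL {W : Set (List α)} {L : Language α} (h : HL k L) : SolvOn k W L :=
  ⟨L, h, fun _ _ => Iff.rfl⟩

theorem SolvOn.not {W : Set (List α)} {p : List α → Prop} (h : SolvOn k W {w | p w}) :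
    SolvOn k W {w | ¬ p w} := by
  obtain ⟨Y, h1, h2⟩ := h
  exact ⟨Yᶜ, h1.compl, fun w hw => not_congr (h2 w hw)⟩

theorem SolvOn.and {W : Set (List α)} {p q : List α → Prop} (h : SolvOn k W {w | p w})
    (h' : SolvOn k W {w | q w}) : SolvOn k W {w | p w ∧ q w} := by
  obtain ⟨Y, h1, h2⟩ := h
  obtain ⟨Z, h3, h4⟩ := h'
  exact ⟨Y ⊓ Z, h1.inf h3, fun w hw => and_congr (h2 w hw) (h4 w hw)⟩

theorem SolvOn.or {W : Set (List α)} {p q : List α → Prop} (h : SolvOn k W {w | p w})
    (h' : SolvOn k W {w | q w}) : SolvOn k W {w | p w ∨ q w} := by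
  obtain ⟨Y, h1, h2⟩ := h
  obtain ⟨Z, h3, h4⟩ := h'
  exact ⟨Y ⊔ Z, h1.sup h3, fun w hw => or_congr (h2 w hw) (h4 w hw)⟩

theorem SolvOn.exists {ι : Type*} [Finite ι] {W : Set (List α)} {p : ι → List α → Prop}
    (h : ∀ i, SolvOn k W {w | p i w}) : SolvOn k W {w | ∃ i, p i w} := by
  choose Y h1 h2 using h
  exact ⟨{w | ∃ i, w ∈ Y i}, HL.iUnion h1, fun w hw => exists_congr fun i => h2 i w hw⟩

theorem SolvOn.forall {ι : Type*} [Finite ι] {W : Set (List α)} {p : ι → List α → Prop}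
    (h : ∀ i, SolvOn k W {w | p i w}) : SolvOn k W {w | ∀ i, p i w} := by
  choose Y h1 h2 using h
  exact ⟨{w | ∀ i, w ∈ Y i}, HL.iInter h1, fun w hw => forall_congr' fun i => h2 i w hw⟩

/-- all prefixes -/
theorem HL_allPrefix {L : Language α} (hL : HL k L) :
    HL k {w | ∀ v, v <+: w → v ∈ L} := by
  refine (hL.compl.prefix.compl).congr fun w => ?_
  constructor
  · rintro h ⟨v, hv, hp⟩
    exact hv (h v hp)
  · intro h v hp
    by_contra hv
    exact h ⟨v, hv, hp⟩

/-- **Free soundness.** -/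
theorem Slv.snd [Finite α] {W : Set (List α)} (hW : ∀ w ∈ W, ∀ v, v <+: w → v ∈ W)
    (h : Slv k W) : Snd k W := by
  classical
  intro L hL
  obtain ⟨σ, hσ, M, rfl⟩ := hL
  have hs : ∀ s : σ, ∃ Y : Language α, HL k Y ∧ ∀ w ∈ W, (w ∈ Y ↔ M.eval w = s) := by
    intro s
    have hreg : Language.IsRegular ({w | M.eval w = s} : Language α) :=
      ⟨σ, hσ, ⟨M.step, M.start, {s}⟩, by
        ext w
        rw [DFA.mem_accepts]
        exact Iff.rfl⟩
    exact h _ hreg
  choose Y hY1 hY2 using hs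
  let U : Language α := {v | (∃ s, v ∈ Y s) ∧ ∀ p : σ × σ, v ∈ Y p.1 → v ∈ Y p.2 → p.1 = p.2}
  have hU : HL k U := by
    refine HL.setOf_and (HL.iUnion hY1) ?_
    refine HL.iInter (L := fun p : σ × σ => {v | v ∈ Y p.1 → v ∈ Y p.2 → p.1 = p.2}) fun p => ?_
    exact HL.setOf_imp (hY1 _) (HL.setOf_imp (hY1 _) (HL.const _))
  let X : α × σ → Language α := fun p => {v | v ∈ Y p.2 ∧ ¬ v ++ [p.1] ∈ Y (M.step p.2 p.1)}
  have hX : ∀ p, HL k (X p) := fun p =>
    HL.setOf_and (hY1 _) (HL.setOf_not ((hY1 _).rquot [p.1]))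
  let B : Language α := {u | ∃ p : α × σ, u ∈ X p * ({[p.1]} : Language α)}
  have hB : HL k B := HL.iUnion fun p => (hX p).mul (HL.char p.1)
  let Good : Language α := {w | ([] ∈ Y M.start) ∧ (∀ v, v <+: w → v ∈ U) ∧
    ∀ v, v <+: w → v ∈ Bᶜ}
  have hG : HL k Good :=
    HL.setOf_and (HL.const _) (HL.setOf_and (HL_allPrefix hU) (HL_allPrefix hB.compl))
  have key : ∀ w ∈ Good, ∀ v, v <+: w → v ∈ Y (M.eval v) := by
    rintro w ⟨h0, h1, h2⟩ v
    induction v using List.reverseRecOn with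
    | nil => intro _; exact h0
    | append_singleton v a ih =>
      intro hp
      have hv : v ∈ Y (M.eval v) := ih ((List.prefix_append v [a]).trans hp)
      by_contra hc
      have hc' : ¬ v ++ [a] ∈ Y (M.step (M.eval v) a) := by
        rw [← DFA.eval_append_singleton]; exact hc
      refine h2 _ hp ⟨(a, M.eval v), ?_⟩
      exact Language.mem_mul.2 ⟨v, ⟨hv, hc'⟩, [a], rfl, rfl⟩
  refine ⟨{w | w ∈ Good ∧ ∃ s : M.accept, w ∈ Y s.1}, HL.setOf_and hG ?_, ?_, ?_⟩
  · haveI : Finite M.accept := Subtype.finite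
    exact HL.iUnion (L := fun s : M.accept => Y s.1) fun s => hY1 s.1
  · rintro w ⟨hg, ⟨s, hsa⟩, hws⟩
    have h1 := key w hg w List.prefix_rfl
    have h2 := (hg.2.1 w List.prefix_rfl).2 (M.eval w, s) h1 hws
    rw [DFA.mem_accepts]
    have h3 : M.eval w = s := h2
    rw [h3]; exact hsa
  · intro w hw hwL
    rw [DFA.mem_accepts] at hwL
    have hpre : ∀ v, v <+: w → ∀ s, (v ∈ Y s ↔ M.eval v = s) := fun v hv s =>
      hY2 s v (hW w hw v hv)
    refine ⟨⟨?_, ?_, ?_⟩, ⟨M.eval w, hwL⟩, (hpre w List.prefix_rfl _).2 rfl⟩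
    · exact (hpre [] (List.nil_prefix) _).2 rfl
    · intro v hv
      refine ⟨⟨M.eval v, (hpre v hv _).2 rfl⟩, ?_⟩
      rintro ⟨s, t⟩ h1 h2
      exact ((hpre v hv _).1 h1).symm.trans ((hpre v hv _).1 h2)
    · intro v hv hB'
      obtain ⟨⟨a, s⟩, hm⟩ := hB'
      obtain ⟨x, ⟨hx1, hx2⟩, y, hy, hxy⟩ := Language.mem_mul.1 hm
      have hy' : y = [a] := hy
      subst hy'
      subst hxy
      have hx : M.eval x = s := (hpre x ((List.prefix_append x [a]).trans hv) _).1 hx1
      refine hx2 ((hpre _ hv _).2 ?_)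
      rw [DFA.eval_append_singleton, hx]

theorem Snd.slv {W : Set (List α)} (h : Snd k W) : Slv k W := fun L hL => by
  obtain ⟨Y, h1, h2, h3⟩ := h L hL
  exact ⟨Y, h1, fun w hw => ⟨h2 w, h3 w hw⟩⟩

/-- **One star.** `Pre` = left ends (word start to junction), `T` = junction to junction,
`Suf` = junction to word end, all with their thread claims; `L` = the thread language.
Closure and decomposition are required only inside words of `W₁`. -/
theorem thread_step {W W₁ : Set (List α)} (hW : Snd k W) {Pre T Suf L : Language α}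
    (rP : Pre.IsRegular) (rT : T.IsRegular) (rS : Suf.IsRegular) (rL : L.IsRegular)
    (cPT : ∀ x ∈ Pre, ∀ y ∈ T, ∀ z, x ++ y ++ z ∈ W₁ → x ++ y ∈ Pre)
    (cPS : ∀ x ∈ Pre, ∀ y ∈ Suf, x ++ y ∈ W₁ → x ++ y ∈ L)
    (dec : ∀ w ∈ W₁, w ∈ L → w ∈ W ∨
      ∃ x ∈ Pre, x ∈ W ∧ ∃ ts : List (List α), (∀ t ∈ ts, t ∈ T ∧ t ∈ W) ∧
        ∃ y ∈ Suf, y ∈ W ∧ w = x ++ ts.flatten ++ y) :
    SolvOn (k + 1) W₁ L := by
  obtain ⟨YL, hL1, hL2, hL3⟩ := hW L rL
  obtain ⟨YP, hP1, hP2, hP3⟩ := hW Pre rP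
  obtain ⟨YT, hT1, hT2, hT3⟩ := hW T rT
  obtain ⟨YS, hS1, hS2, hS3⟩ := hW Suf rS
  refine ⟨YL + YP * KStar.kstar YT * YS,
    (hL1.mono (Nat.le_succ k)).add (((hP1.mono (Nat.le_succ k)).mul hT1.star).mul
      (hS1.mono (Nat.le_succ k))), ?_⟩
  intro w hw
  constructor
  · rintro (h | h)
    · exact hL2 w h
    · obtain ⟨p, hp, y, hy, rfl⟩ := Language.mem_mul.1 h
      obtain ⟨x, hx, t, ht, rfl⟩ := Language.mem_mul.1 hp
      obtain ⟨ts, rfl, hts⟩ := Language.mem_kstar.1 ht
      have main : ∀ (ts : List (List α)) (x : List α), x ∈ Pre → (∀ t ∈ ts, t ∈ YT) →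
          ∀ z, x ++ ts.flatten ++ z ∈ W₁ → x ++ ts.flatten ∈ Pre := by
        intro ts
        induction ts with
        | nil => intro x hx _ z _; simpa using hx
        | cons t ts ih =>
          intro x hx hts z hz
          have h1 : x ++ t ∈ Pre := by
            refine cPT x hx t (hT2 t (hts t (by simp))) (ts.flatten ++ z) ?_
            simpa [List.append_assoc] using hz
          have h2 := ih (x ++ t) h1 (fun s hs => hts s (by simp [hs])) z
            (by simpa [List.append_assoc] using hz)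
          simpa [List.append_assoc] using h2
      exact cPS _ (main ts x (hP2 x hx) hts y hw) y (hS2 y hy) hw
  · intro h
    rcases dec w hw h with h1 | ⟨x, hx, hxW, ts, hts, y, hy, hyW, rfl⟩
    · exact Or.inl (hL3 w h1 h)
    · right
      refine Language.mem_mul.2 ⟨x ++ ts.flatten, ?_, y, hS3 y hyW hy, rfl⟩
      refine Language.mem_mul.2 ⟨x, hP3 x hxW hx, ts.flatten, ?_, rfl⟩
      exact Language.mem_kstar.2 ⟨ts, rfl, fun t ht => hT3 t (hts t ht).2 (hts t ht).1⟩

/-- a finite set of words is solved at level `0` -/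
theorem Snd.finite {W : Set (List α)} (hW : W.Finite) : Snd k W := fun L _ =>
  ⟨(W ∩ L : Set (List α)), HL.finite (hW.subset Set.inter_subset_left),
    fun _ hw => hw.2, fun _ hw hL => ⟨hw, hL⟩⟩

/-- words of bounded length -/
theorem Snd.bounded [Finite α] (n : ℕ) : Snd k {w : List α | w.length ≤ n} :=
  Snd.finite (List.finite_length_le α n)

theorem Slv.mono_level {l : ℕ} {W : Set (List α)} (h : Slv k W) (hl : k ≤ l) : Slv l W :=
  fun L hL => (h L hL).mono hl

theorem Slv.anti {W W' : Set (List α)} (h : Slv k W) (hs : W' ⊆ W) : Slv k W' :=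
  fun L hL => (h L hL).anti hs

/-- monoid form -/
theorem Slv.of_monoid [Finite α] {W : Set (List α)}
    (h : ∀ (S : Type u) [Monoid S] [Finite S] (φ : α → S) (s : S),
      SolvOn k W ({w | (w.map φ).prod = s} : Language α)) : Slv k W := by
  intro L hL
  classical
  obtain ⟨σ, hσ, M, rfl⟩ := Language.isRegular_iff.{u, u}.1 hL
  haveI : Finite σ := Fintype.finite hσ
  haveI : Finite ((Function.End σ)ᵐᵒᵖ) := by
    haveI : Finite (σ → σ) := inferInstance
    haveI : Finite (Function.End σ) := ‹Finite (σ → σ)›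
    exact Finite.of_equiv _ MulOpposite.opEquiv
  let φ : α → (Function.End σ)ᵐᵒᵖ := fun a => MulOpposite.op (fun s => M.step s a)
  have hφ : ∀ (w : List α) (s : σ), ((w.map φ).prod).unop s = M.evalFrom s w := by
    intro w
    induction w with
    | nil => intro s; rfl
    | cons a w ih =>
      intro s
      rw [List.map_cons, List.prod_cons]
      change ((w.map φ).prod).unop (M.step s a) = M.evalFrom s (a :: w)
      rw [ih]; rfl
  have h1 : SolvOn k W {w | ∃ g : {g : (Function.End σ)ᵐᵒᵖ // g.unop M.start ∈ M.accept},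
      (w.map φ).prod = g.1} := SolvOn.exists fun g => h _ φ g.1
  refine h1.congr fun w _ => ?_
  rw [DFA.mem_accepts]
  constructor
  · intro hw
    refine ⟨⟨(w.map φ).prod, ?_⟩, rfl⟩
    rw [hφ]; exact hw
  · rintro ⟨⟨g, hg⟩, hgw⟩
    have : (w.map φ).prod = g := hgw
    have h2 := hφ w M.start
    rw [this] at h2
    change M.evalFrom M.start w ∈ M.accept
    rw [← h2]; exact hg

end Crest.Agent.R320.Step_423
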