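import Crest.Agent.R320.Thread2_542
import Crest.Agent.R320.Hk2_851

/-!
# Row 320, the nesting step (helper542)

`ZSol k next D P act`: arrival along the chain is expressed at height `k`, soundly on all words and
completely on the words whose chain has all its zones in `P`.
`step`: a scheme which cuts all tokens in every zone of `Q` outside `P` raises `P` to `Q` at the cost
of one star.
-/

set_option autoImplicit false

namespace Crest.Agent.R320.Thr_542

open Crest.Agent.R320.Hk_851

universe u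

variable {α : Type u} {V W : Type}

def ZSol (k : ℕ) (next : List α → Option ℕ) (D : ℕ) (P : List α → Prop)
    (act : List α → V → V) : Prop :=
  ∀ c, c ≤ D → ∀ v' v : V, ∃ L : Language α, HL k L ∧ L ≤ NoneL next act c v' v ∧
    ∀ s, ChainP next D P s → s ∈ NoneL next act c v' v → s ∈ L

theorem suffix_eq {a p q : List α} (h1 : p <:+ a) (h2 : q <:+ a) (h : p.length = q.length) :
    p = q := by
  rcases List.suffix_or_suffix_of_suffix h1 h2 with h3 | h3
  · exact h3.eq_of_length h
  · exact (h3.eq_of_length h.symm).symm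

def LenL (α : Type u) (t : ℕ) : Language α := {z | z.length = t}

def PreL (x : List α) : Language α := {u | ∃ z ∈ ({x} : Language α), z <+: u}

theorem step [Finite α] [Finite V] {next : List α → Option ℕ} {act : List α → V → V} {n Z : ℕ}
    (S : Scheme α V next act n Z) (k D : ℕ) (hD : Z ≤ D) (P Q : List α → Prop)
    (hP : PLoc next P)
    (hQ : ∀ s, Q s → (∃ t, next s = some t) → P s ∨ ∀ v, Cut S s v)
    (h : ZSol k next D P act) : ZSol (k + 1) next D Q act := by
  classical
  choose L hL1 hL2 hL3 using h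
  -- inner approximation of the start language
  let A : V → Language α := fun v =>
    {a | ∃ p ∈ {p : List α | p.length ≤ Z}, a ∈
      ({a | ∃ v1 : V, a ∈ ({a | ∃ _ : S.Lr p v1, ∃ hc : p.length ≤ D, a ∈ L p.length hc v1 v ∧
        (∃ y ∈ ({p} : Language α), y <:+ a)} : Language α)} : Language α)}
  have hA1 : ∀ v, HL k (A v) := by
    intro v
    refine HL.biUnion (List.finite_length_le α Z) fun p hp => HL.iUnion fun v1 => ?_
    by_cases hl : S.Lr p v1
    · have hc : p.length ≤ D := (S.Lr_bd _ _ hl).trans hD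
      refine ((hL1 p.length hc v1 v).inf (HL.suffix (HL.word p))).congr fun w => ?_
      exact ⟨fun ⟨_, _, h1, h2⟩ => ⟨h1, h2⟩, fun ⟨h1, h2⟩ => ⟨hl, hc, h1, h2⟩⟩
    · exact HL.bot.congr fun w => ⟨fun ⟨h1, _⟩ => (hl h1).elim, fun h1 => h1.elim⟩
  have hA2 : ∀ v, A v ≤ StartL S v := by
    rintro v a ⟨p, _, v1, hl, hc, h1, y, hy, h2⟩
    obtain rfl : y = p := hy
    obtain ⟨s', h3, h4⟩ := hL2 _ _ _ _ h1
    obtain ⟨q, hq⟩ := h3.suffix
    have : s' = y := suffix_eq ⟨q, hq.symm⟩ h2 h4
    subst this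
    exact ⟨_, v1, h3, hl⟩
  have hA3 : ∀ v a, a ∈ StartL S v → ChainP next D P a → a ∈ A v := by
    rintro v a ⟨p, v1, h1, h2⟩ h3
    have hc : p.length ≤ D := (S.Lr_bd _ _ h2).trans hD
    obtain ⟨q, hq⟩ := h1.suffix
    exact ⟨p, S.Lr_bd _ _ h2, v1, h2, hc, hL3 _ hc _ _ _ h3 ⟨p, h1, rfl⟩, p, rfl, q, hq.symm⟩
  -- words which start with a right reading
  let G : (V → Language α) → Language α := fun B =>
    {u | ∃ x ∈ {x : List α | x.length ≤ Z + n}, u ∈
      (match S.Rr x with
        | none => (⊥ : Language α)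
        | some y => PreL x ⊓ (LenL α y.1 * B y.2) : Language α)}
  have hG1 : ∀ B : V → Language α, (∀ v, HL k (B v)) → HL k (G B) := by
    intro B hB
    refine HL.biUnion (List.finite_length_le α (Z + n)) fun x hx => ?_
    cases hx2 : S.Rr x with
    | none => exact HL.bot
    | some y =>
      exact (HL.prefix (HL.word x)).inf ((HL.length_eq y.1).mul (hB y.2))
  have hG2 : ∀ (B : V → Language α) (u : List α), u ∈ G B →
      ∃ t v1, S.Rr u = some (t, v1) ∧ u.drop t ∈ B v1 := by
    rintro B u ⟨x, hx, hu⟩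
    cases hx2 : S.Rr x with
    | none => rw [hx2] at hu; exact hu.elim
    | some y =>
      rw [hx2] at hu
      obtain ⟨⟨z, hz, r, rfl⟩, hu2⟩ := hu
      obtain rfl : z = x := hz
      obtain ⟨z1, hz1, b, hb, hzb⟩ := Language.mem_mul.1 hu2
      refine ⟨y.1, y.2, S.Rr_stable _ _ _ hx2, ?_⟩
      have h1 : z1.length = y.1 := hz1
      rw [← hzb, ← h1, List.drop_left]
      exact hb
  have hG3 : ∀ (B : V → Language α) (u : List α) (t : ℕ) (v1 : V), S.Rr u = some (t, v1) →
      u.drop t ∈ B v1 → u ∈ G B := by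
    intro B u t v1 h1 h2
    have hl := S.Rr_len _ _ h1
    have hb := S.Rr_bd _ _ h1
    simp only at hl hb
    have hx : S.Rr (u.take (t + n)) = some (t, v1) := by
      refine S.Rr_loc _ (u.drop (t + n)) _ ?_ ?_
      · rw [List.length_take]; simp only; omega
      · rw [List.take_append_drop]; exact h1
    refine ⟨u.take (t + n), ?_, ?_⟩
    · show (u.take (t + n)).length ≤ Z + n
      rw [List.length_take]; omega
    · rw [hx]
      refine ⟨⟨_, rfl, List.take_prefix _ _⟩, Language.mem_mul.2 ⟨u.take t, ?_, _, h2, ?_⟩⟩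
      · show (u.take t).length = t
        rw [List.length_take]; omega
      · exact List.take_append_drop _ _
  intro c hc v' v
  refine ⟨Path (A v) (G A) (G fun w => L c hc v' w) (L c hc v' v), ?_, ?_, ?_⟩
  · refine HL.add ((hL1 c hc v' v).mono (Nat.le_succ k)) ?_
    refine HL.mul ((hA1 v).mono (Nat.le_succ k)) (HL.mul (hG1 A hA1).star ?_)
    exact (hG1 _ fun w => hL1 c hc v' w).mono (Nat.le_succ k)
  · refine sound (S := S) (hA2 v) ?_ ?_ (hL2 _ _ _ _)
    · intro u hu
      obtain ⟨t, v1, h1, h2⟩ := hG2 _ _ hu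
      exact ⟨t, v1, h1, hA2 _ h2⟩
    · intro u hu
      obtain ⟨t, v1, h1, h2⟩ := hG2 _ _ hu
      exact ⟨t, v1, h1, hL2 _ _ _ _ h2⟩
  · intro s hs hsN
    rcases complete S D hD P Q hP hQ c hc v' s hs v hsN with h1 |
      ⟨a, rest, rfl, h2, h3, _, l, e, rfl, h5, t, v1, h6, h7, h8⟩
    · exact Or.inl (hL3 _ _ _ _ _ h1 hsN)
    · refine Or.inr (Language.mem_mul.2 ⟨a, hA3 _ _ h3 h2, _, Language.mem_mul.2
        ⟨l.flatten, Language.mem_kstar.2 ⟨l, rfl, fun u hu => ?_⟩, e, ?_, rfl⟩, rfl⟩)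
      · obtain ⟨t, v1, h9, h10, h11⟩ := h5 u hu
        exact hG3 _ _ t v1 h9 (hA3 _ _ h10 h11)
      · exact hG3 _ _ t v1 h6 (hL3 _ _ _ _ _ h8 h7)

end Crest.Agent.R320.Thr_542
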