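import Crest.Agent.R320.Hk2_851

/-!
# Row 320: the top interface (helper778)

`Solv h G`: every regular language has a sound approximation of height `h` which is complete on `G`.
`IsCut`: a (promise) cut system, purely automata theoretic.
`step`: one star per cut system.  `HasCut`, `solv_step`, `row`: the composition.
-/

set_option autoImplicit false

namespace Crest.Agent.R320.Step_778

open Crest.RegLang Crest.Agent.R320.Hk_851

universe u

variable {α : Type u}

/-- every regular language has a sound approximation of height `h` which is complete on `G` -/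
def Solv (h : ℕ) (G : Language α) : Prop :=
  ∀ L : Language α, L.IsRegular →
    ∃ E : Language α, HL h E ∧ (∀ w ∈ E, w ∈ L) ∧ ∀ w ∈ L, w ∈ G → w ∈ E

variable {Q : Type u}

/-- run of an automaton -/
def run (δ : Q → α → Q) (q : Q) (w : List α) : Q := w.foldl δ q

@[simp] theorem run_nil (δ : Q → α → Q) (q : Q) : run δ q [] = q := rfl

theorem run_append (δ : Q → α → Q) (q : Q) (x y : List α) :
    run δ q (x ++ y) = run δ (run δ q x) y := List.foldl_append

/-- no proper prefix leads to a dead state -/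
def LiveP (δ : Q → α → Q) (Dead : Set Q) (q : Q) (w : List α) : Prop :=
  ∀ x y, x ++ y = w → y ≠ [] → run δ q x ∉ Dead

theorem LiveP.pre {δ : Q → α → Q} {Dead : Set Q} {q : Q} {x y : List α}
    (h : LiveP δ Dead q (x ++ y)) : LiveP δ Dead q x := by
  intro a b hab hb
  refine h a (b ++ y) ?_ ?_
  · rw [← List.append_assoc, hab]
  · intro h0
    exact hb (List.append_eq_nil_iff.1 h0).1

theorem LiveP.suf {δ : Q → α → Q} {Dead : Set Q} {q : Q} {x y : List α}
    (h : LiveP δ Dead q (x ++ y)) : LiveP δ Dead (run δ q x) y := by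
  intro a b hab hb
  have := h (x ++ a) b (by rw [List.append_assoc, hab]) hb
  rwa [run_append] at this

theorem regular_run [Finite Q] (δ : Q → α → Q) (q : Q) (F : Set Q) :
    Language.IsRegular ({w | run δ q w ∈ F} : Language α) := by
  have := Fintype.ofFinite Q
  refine Language.isRegular_iff.{u, u}.2 ⟨Q, inferInstance, ⟨δ, q, F⟩, ?_⟩
  rfl

/-- a (promise) cut system: left labels = states in `LL`, right words = words of `RR q'` -/
structure IsCut (G' : Language α) (δ : Q → α → Q) (Ok Dead LL : Set Q)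
    (RR : Q → Language α) : Prop where
  ok : ∀ q ∈ Ok, ∀ a, δ q a ∈ Ok
  reg : ∀ q, (RR q).IsRegular
  sub : ∀ q, ∀ t ∈ RR q, t ∈ G'
  ne : ∀ q, ∀ t ∈ RR q, t ≠ []
  sound : ∀ q ∈ Ok, ∀ x t q', run δ q x ∈ LL → t ∈ RR q' → LiveP δ Dead q (x ++ t) →
    run δ q (x ++ t) = q'
  unc : ∀ q ∈ Ok, ∀ u, LiveP δ Dead q u →
    (∀ x t y q', x ++ t ++ y = u → run δ q x ∈ LL → t ∉ RR q') → u ∈ G'

theorem IsCut.ok_run {G' : Language α} {δ : Q → α → Q} {Ok Dead LL : Set Q}
    {RR : Q → Language α} (H : IsCut G' δ Ok Dead LL RR) (w : List α) :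
    ∀ q ∈ Ok, run δ q w ∈ Ok := by
  induction w with
  | nil => intro q hq; exact hq
  | cons a w ih => intro q hq; exact ih _ (H.ok q hq a)

/-- **the step theorem**: one cut system costs one star -/
theorem step {h : ℕ} {G' : Language α} (hG' : Solv h G') [Finite Q]
    (δ : Q → α → Q) (Ok Dead LL : Set Q) (RR : Q → Language α)
    (H : IsCut G' δ Ok Dead LL RR) (q : Q) (hq : q ∈ Ok) (q'' : Q) :
    HL (h + 1) ({w | LiveP δ Dead q w ∧ run δ q w = q''} : Language α) := by
  classical
  have hE : ∀ p p' : Q, ∃ E : Language α, HL h E ∧ (∀ w ∈ E, run δ p w = p') ∧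
      ∀ w, run δ p w = p' → w ∈ G' → w ∈ E := by
    intro p p'
    obtain ⟨E, h1, h2, h3⟩ := hG' _ (regular_run δ p {p'})
    exact ⟨E, h1, fun w hw => h2 w hw, fun w hw hg => h3 w hw hg⟩
  choose E hE1 hE2 hE3 using hE
  have hRR : ∀ p, HL h (RR p) := by
    intro p
    obtain ⟨E', h1, h2, h3⟩ := hG' _ (H.reg p)
    exact HL.congr h1 (fun w => ⟨fun hw => h3 w hw (H.sub p w hw), fun hw => h2 w hw⟩)
  have hLLf : LL.Finite := Set.toFinite LL
  -- the cut to cut words
  let K : Language α := {w | ∃ r : Q, w ∈ ({w | ∃ p ∈ LL, w ∈ RR r * E r p} : Language α)}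
  have hK : HL h K := HL.iUnion fun r => HL.biUnion hLLf fun p _ => (hRR r).mul (hE1 r p)
  let F : Q → Language α := fun p => {w | ∃ p' ∈ LL, w ∈ E p p'}
  have hF : ∀ p, HL h (F p) := fun p => HL.biUnion hLLf fun p' _ => hE1 p p'
  let Z : Q → Language α := fun p => {w | ∃ r : Q, w ∈ RR r * E r p}
  have hZ : ∀ p, HL h (Z p) := fun p => HL.iUnion fun r => (hRR r).mul (hE1 r p)
  let W : Q → Q → Language α := fun p p' =>
    {w | w ∈ E p p' ∨ w ∈ F p * (KStar.kstar K * Z p')}
  have hW : ∀ p p', HL (h + 1) (W p p') := fun p p' =>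
    HL.setOf_or ((hE1 p p').mono (Nat.le_succ h))
      (((hF p).mono (Nat.le_succ h)).mul (hK.star.mul ((hZ p').mono (Nat.le_succ h))))
  -- soundness of the star
  have hstar : ∀ (S : List (List α)), (∀ u ∈ S, u ∈ K) → ∀ p ∈ Ok, ∀ x, run δ p x ∈ LL →
      LiveP δ Dead p (x ++ S.flatten) → run δ p (x ++ S.flatten) ∈ LL := by
    intro S
    induction S with
    | nil => intro _ p _ x hx _; simpa using hx
    | cons v S ih =>
      intro hS p hp x hx hl
      obtain ⟨r, p', hp', hv⟩ := hS v (by simp)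
      obtain ⟨t, ht, e, he, rfl⟩ := Language.mem_mul.1 hv
      have e1 : x ++ (((t ++ e) :: S).flatten) = (x ++ t) ++ (e ++ S.flatten) := by
        simp [List.append_assoc]
      have e2 : x ++ (((t ++ e) :: S).flatten) = (x ++ (t ++ e)) ++ S.flatten := by
        simp [List.append_assoc]
      have h1 : run δ p (x ++ t) = r := by
        rw [e1] at hl
        exact H.sound p hp x t r hx ht hl.pre
      have h2 : run δ p (x ++ (t ++ e)) = p' := by
        rw [← List.append_assoc, run_append, h1]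
        exact hE2 r p' e he
      rw [e2] at hl ⊢
      exact ih (fun u hu => hS u (by simp [hu])) p hp _ (by rw [h2]; exact hp') hl
  -- soundness
  have hsound : ∀ p ∈ Ok, ∀ p' w, w ∈ W p p' → LiveP δ Dead p w → run δ p w = p' := by
    intro p hp p' w hw hl
    rcases hw with hw | hw
    · exact hE2 p p' w hw
    · obtain ⟨f, ⟨r, hr, hf⟩, kz, hkz, rfl⟩ := Language.mem_mul.1 hw
      obtain ⟨k, hk, z, ⟨r', hz⟩, rfl⟩ := Language.mem_mul.1 hkz
      obtain ⟨t, ht, e, he, rfl⟩ := Language.mem_mul.1 hz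
      obtain ⟨S, rfl, hS⟩ := Language.mem_kstar.1 hk
      have h0 : run δ p f ∈ LL := by rw [hE2 p r f hf]; exact hr
      have e1 : f ++ (S.flatten ++ (t ++ e)) = (f ++ S.flatten) ++ (t ++ e) := by
        simp [List.append_assoc]
      rw [e1] at hl ⊢
      have h1 := hstar S hS p hp f h0 hl.pre
      rw [← List.append_assoc] at hl ⊢
      have h2 := H.sound p hp (f ++ S.flatten) t r' h1 ht hl.pre
      rw [run_append, h2]
      exact hE2 r' p' e he
  -- completeness
  have hcomp : ∀ (n : ℕ) (p : Q) (w : List α), w.length ≤ n → p ∈ Ok → LiveP δ Dead p w →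
      w ∈ W p (run δ p w) := by
    intro n
    induction n with
    | zero =>
      intro p w hn hp hl
      have hw : w = [] := List.length_eq_zero_iff.1 (Nat.le_zero.1 hn)
      subst hw
      left
      refine hE3 p _ [] rfl (H.unc p hp [] hl ?_)
      intro x t y q' hxy _ ht
      have : t = [] := by
        have h1 := (List.append_eq_nil_iff.1 hxy).1
        exact (List.append_eq_nil_iff.1 h1).2
      exact H.ne q' t ht this
    | succ n ih =>
      intro p w hn hp hl
      by_cases hc : ∃ m, ∃ x t y q', x ++ t ++ y = w ∧ run δ p x ∈ LL ∧ t ∈ RR q' ∧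
          x.length + t.length = m
      · have hmin := fun m (hm : m < Nat.find hc) => Nat.find_min hc hm
        obtain ⟨x, t, y, q', hw, hx, ht, hlen⟩ := Nat.find_spec hc
        have htne := H.ne q' t ht
        have htl : 0 < t.length := List.length_pos_iff.2 htne
        subst hw
        have hlx : LiveP δ Dead p (x ++ t) := hl.pre
        have hxG : x ∈ G' := by
          refine H.unc p hp x hlx.pre ?_
          intro x1 t1 y1 q1 h1 h2 h3
          refine hmin (x1.length + t1.length) ?_ ⟨x1, t1, y1 ++ t ++ y, q1, ?_, h2, h3, rfl⟩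
          · rw [← hlen, ← h1]
            simp only [List.length_append]
            omega
          · rw [← h1]; simp [List.append_assoc]
        have hxE : x ∈ E p (run δ p x) := hE3 p _ x rfl hxG
        have hq' : run δ p (x ++ t) = q' := H.sound p hp x t q' hx ht hlx
        have hly : LiveP δ Dead q' y := by
          have := hl.suf
          rwa [hq'] at this
        have hq'ok : q' ∈ Ok := hq' ▸ H.ok_run (x ++ t) p hp
        have hyW := ih q' y (by
          simp only [List.length_append] at hn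
          omega) hq'ok hly
        have hrun : run δ p (x ++ t ++ y) = run δ q' y := by rw [run_append, hq']
        rw [hrun]
        right
        rcases hyW with hy | hy
        · refine Language.mem_mul.2 ⟨x, ⟨_, hx, hxE⟩, t ++ y, ?_, by simp [List.append_assoc]⟩
          refine Language.mem_mul.2 ⟨[], ?_, t ++ y, ⟨q', Language.mem_mul.2 ⟨t, ht, y, hy, rfl⟩⟩, rfl⟩
          exact Language.mem_kstar.2 ⟨[], rfl, by simp⟩
        · obtain ⟨f, ⟨r, hr, hf⟩, kz, hkz, rfl⟩ := Language.mem_mul.1 hy
          obtain ⟨k, hk, z, hz, rfl⟩ := Language.mem_mul.1 hkz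
          obtain ⟨S, rfl, hS⟩ := Language.mem_kstar.1 hk
          refine Language.mem_mul.2 ⟨x, ⟨_, hx, hxE⟩, (t ++ f) ++ S.flatten ++ z, ?_,
            by simp [List.append_assoc]⟩
          refine Language.mem_mul.2 ⟨(t ++ f) ++ S.flatten, ?_, z, hz, rfl⟩
          refine Language.mem_kstar.2 ⟨(t ++ f) :: S, by simp, ?_⟩
          intro v hv
          rcases List.mem_cons.1 hv with rfl | hv
          · exact ⟨q', r, hr, Language.mem_mul.2 ⟨t, ht, f, hf, rfl⟩⟩
          · exact hS v hv
      · left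
        refine hE3 p _ w rfl (H.unc p hp w hl ?_)
        intro x t y q' h1 h2 h3
        exact hc ⟨_, x, t, y, q', h1, h2, h3, rfl⟩
  -- first failure
  let D : Language α := {w | ∃ d ∈ Dead, w ∈ W q d}
  let NE : Language α := (1 : Language α)ᶜ
  have hD : HL (h + 1) D := HL.biUnion (Set.toFinite Dead) fun d _ => hW q d
  have hNE : HL (h + 1) NE := HL.one.compl
  have hfin : HL (h + 1) ((D * NE)ᶜ ⊓ W q q'') := ((hD.mul hNE).compl).inf (hW q q'')
  refine hfin.congr fun w => ?_
  have key : w ∈ ((D * NE)ᶜ : Language α) ↔ LiveP δ Dead q w := by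
    constructor
    · intro hn
      by_contra hl
      have hex : ∃ m, ∃ x y, x ++ y = w ∧ y ≠ [] ∧ run δ q x ∈ Dead ∧ x.length = m := by
        by_contra hno
        exact hl fun x y h1 h2 h3 => hno ⟨_, x, y, h1, h2, h3, rfl⟩
      have hmin := fun m (hm : m < Nat.find hex) => Nat.find_min hex hm
      obtain ⟨x, y, h1, h2, h3, h4⟩ := Nat.find_spec hex
      have hlx : LiveP δ Dead q x := by
        intro a b hab hb hdead
        refine hmin a.length ?_ ⟨a, b ++ y, ?_, ?_, hdead, rfl⟩
        · rw [← h4, ← hab, List.length_append]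
          have := List.length_pos_iff.2 hb
          omega
        · rw [← List.append_assoc, hab, h1]
        · intro h0
          exact hb (List.append_eq_nil_iff.1 h0).1
      refine hn (Language.mem_mul.2 ⟨x, ⟨_, h3, hcomp _ q x le_rfl hq hlx⟩, y, ?_, h1⟩)
      exact h2
    · intro hl hw
      obtain ⟨x, ⟨d, hd, hx⟩, y, hy, rfl⟩ := Language.mem_mul.1 hw
      have := hsound q hq d x hx hl.pre
      refine hl x y rfl hy ?_
      rw [this]; exact hd
  constructor
  · rintro ⟨hl, rfl⟩
    exact ⟨key.2 hl, hcomp _ q w le_rfl hq hl⟩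
  · rintro ⟨h1, h2⟩
    have hl := key.1 h1
    exact ⟨hl, hsound q hq q'' w h2 hl⟩

/-- for every finite monoid there is a cut system whose uncut live words lie in `G'`, which covers
`G` and whose threads read off the monoid. -/
def HasCut (G G' : Language α) : Prop :=
  ∀ (S : Type u) [Monoid S] [Finite S] (φ : α → S),
    ∃ (Q : Type u) (_ : Finite Q) (δ : Q → α → Q) (Ok Dead LL : Set Q) (RR : Q → Language α)
      (ι : Type u) (_ : Finite ι) (T0 : Set (List α)) (_ : T0.Finite) (init : List α → ι → Q),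
      IsCut G' δ Ok Dead LL RR ∧
      (∀ t ∈ T0, ∀ i, init t i ∈ Ok) ∧
      (∀ w ∈ G, ∃ t ∈ T0, ∃ w', t ++ w' = w ∧ ∀ i, LiveP δ Dead (init t i) w') ∧
      (∀ t ∈ T0, ∀ w₁ w₂, (∀ i, LiveP δ Dead (init t i) w₁) → (∀ i, LiveP δ Dead (init t i) w₂) →
        (∀ i, run δ (init t i) w₁ = run δ (init t i) w₂) →
        (w₁.map φ).prod = (w₂.map φ).prod)

/-- a regular language is the union of fibres of a morphism to a finite monoid -/
theorem exists_monoid (L : Language α) (hL : L.IsRegular) :
    ∃ (S : Type u) (_ : Monoid S) (_ : Finite S) (φ : α → S) (P : Set S),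
      ∀ w, w ∈ L ↔ (w.map φ).prod ∈ P := by
  obtain ⟨σ, hσ, M, rfl⟩ := Language.isRegular_iff.{u, u}.1 hL
  classical
  let φ : α → (Function.End σ)ᵐᵒᵖ := fun a => MulOpposite.op (fun s => M.step s a)
  have key : ∀ (w : List α) (s : σ), M.evalFrom s w = ((w.map φ).prod).unop s := by
    intro w
    induction w with
    | nil => intro s; rfl
    | cons a w ih =>
      intro s
      rw [List.map_cons, List.prod_cons, MulOpposite.unop_mul]
      change M.evalFrom (M.step s a) w = ((w.map φ).prod).unop (M.step s a)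
      exact ih _
  have : Finite (Function.End σ)ᵐᵒᵖ := by
    have : Finite (Function.End σ) := inferInstanceAs (Finite (σ → σ))
    exact Finite.of_injective MulOpposite.unop MulOpposite.unop_injective
  refine ⟨(Function.End σ)ᵐᵒᵖ, inferInstance, inferInstance, φ,
    {s | s.unop M.start ∈ M.accept}, fun w => ?_⟩
  change M.evalFrom M.start w ∈ M.accept ↔ _
  rw [key]
  rfl

/-- **one cut system per monoid costs one star** -/
theorem solv_step {h : ℕ} {G G' : Language α} (hG' : Solv h G') (hc : HasCut G G') :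
    Solv (h + 1) G := by
  classical
  intro L hL
  obtain ⟨S, _, _, φ, P, hP⟩ := exists_monoid L hL
  obtain ⟨Q, _, δ, Ok, Dead, LL, RR, ι, _, T0, hT0, init, H, hok, hcov, hread⟩ := hc S φ
  have hst : ∀ t ∈ T0, ∀ (i : ι) (q : Q),
      HL (h + 1) ({w | LiveP δ Dead (init t i) w ∧ run δ (init t i) w = q} : Language α) :=
    fun t ht i q => step hG' δ Ok Dead LL RR H (init t i) (hok t ht i) q
  -- good final states
  let good : List α → (ι → Q) → Prop := fun t σ =>
    ∃ w₀, (∀ i, LiveP δ Dead (init t i) w₀) ∧ (∀ i, run δ (init t i) w₀ = σ i) ∧ t ++ w₀ ∈ L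
  let X : List α → (ι → Q) → Language α := fun t σ =>
    {w | ∀ i, w ∈ ({w | LiveP δ Dead (init t i) w ∧ run δ (init t i) w = σ i} : Language α)}
  have hX : ∀ t ∈ T0, ∀ σ, HL (h + 1) (X t σ) := fun t ht σ => HL.iInter fun i => hst t ht i (σ i)
  let Y : List α → Language α := fun t => {w | ∃ σ ∈ {σ | good t σ}, w ∈ X t σ}
  have hY : ∀ t ∈ T0, HL (h + 1) (Y t) := fun t ht =>
    HL.biUnion (Set.toFinite _) fun σ _ => hX t ht σ
  refine ⟨{w | ∃ t ∈ T0, w ∈ ({t} : Language α) * Y t},
    HL.biUnion hT0 fun t ht => (HL.word t).mul (hY t ht), ?_, ?_⟩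
  · rintro w ⟨t, ht, hw⟩
    obtain ⟨t', ht', w', ⟨σ, ⟨w₀, h1, h2, h3⟩, hσ⟩, rfl⟩ := Language.mem_mul.1 hw
    have ht2 : t' = t := ht'
    subst ht2
    have e := hread t' ht w' w₀ (fun i => (hσ i).1) h1 (fun i => ((hσ i).2).trans (h2 i).symm)
    rw [hP] at h3 ⊢
    rw [List.map_append, List.prod_append] at h3 ⊢
    rwa [e]
  · intro w hwL hwG
    obtain ⟨t, ht, w', rfl, hl⟩ := hcov w hwG
    refine ⟨t, ht, Language.mem_mul.2 ⟨t, rfl, w', ?_, rfl⟩⟩
    exact ⟨fun i => run δ (init t i) w', ⟨w', hl, fun i => rfl, hwL⟩, fun i => ⟨hl i, rfl⟩⟩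

/-- **the row from two cut systems and the bounded languages** -/
theorem row (G1 G2 : Language α) (h1 : HasCut (⊤ : Language α) G1) (h2 : HasCut G1 G2)
    (h3 : Solv 1 G2) (L : Language α) (hL : L.IsRegular) :
    ∃ e : GRegExp α, e.height ≤ 3 ∧ e.lang = L := by
  obtain ⟨E, hE, hE1, hE2⟩ := solv_step (solv_step h3 h2) h1 L hL
  have : HL 3 L := hE.congr fun w => ⟨fun hw => hE2 w hw trivial, fun hw => hE1 w hw⟩
  exact this

/-- bounded words: height `0` -/
theorem solv_bounded [Finite α] (n : ℕ) : Solv 0 ({w | w.length ≤ n} : Language α) := by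
  intro L _
  refine ⟨{w | w ∈ L ∧ w.length ≤ n}, HL.finite ((List.finite_length_le α n).subset
    fun w hw => hw.2), fun w hw => hw.1, fun w h1 h2 => ⟨h1, h2⟩⟩

/-- three nested schemes -/
theorem row3 [Finite α] (G1 G2 : Language α) (n : ℕ) (h1 : HasCut (⊤ : Language α) G1)
    (h2 : HasCut G1 G2) (h3 : HasCut G2 ({w | w.length ≤ n} : Language α))
    (L : Language α) (hL : L.IsRegular) :
    ∃ e : GRegExp α, e.height ≤ 3 ∧ e.lang = L :=
  row G1 G2 h1 h2 (solv_step (solv_bounded n) h3) L hL

theorem Solv.mono {h k : ℕ} (hk : h ≤ k) {G G' : Language α} (hG : ∀ w ∈ G', w ∈ G)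
    (H : Solv h G) : Solv k G' := by
  intro L hL
  obtain ⟨E, h1, h2, h3⟩ := H L hL
  exact ⟨E, h1.mono hk, h2, fun w hw hw' => h3 w hw (hG w hw')⟩

end Crest.Agent.R320.Step_778
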