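import Crest.Agent.R320.Hk1_851

/-!
# Row 320, thread calculus as pure automata statements (helper829)

`Comp k step G` : the (finite, deterministic) automaton `step` is computed by languages of height
`≤ k`, soundly on ALL words and completely on the pairs (start state, word) of `G`.

`step_lemma` : one star. `LL p` = left-legal (a property of the thread state at the place),
`RL q = some (k, p')` = right-legal (after the first `k` letters of `q` the thread is in `p'`).

`transfer` : from the automaton of one scheme to the next one, by finitely many probes.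
-/

set_option autoImplicit false
set_option linter.unusedSectionVars false
set_option linter.unusedVariables false

namespace Crest.Agent.R320.Step_829

open Crest.RegLang Crest.Agent.R320.Hk_851

variable {α : Type*}

/-- run of an automaton -/
def run {P : Type*} (step : P → α → P) (p : P) (w : List α) : P := w.foldl step p

@[simp] theorem run_nil {P : Type*} (step : P → α → P) (p : P) : run step p [] = p := rfl

theorem run_append {P : Type*} (step : P → α → P) (p : P) (u v : List α) :
    run step p (u ++ v) = run step (run step p u) v := by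
  simp [run, List.foldl_append]

/-- `Comp k step G` : computed at height `k`, sound everywhere, complete on `G`. -/
def Comp (k : ℕ) {P : Type*} (step : P → α → P) (G : P → List α → Prop) : Prop :=
  ∃ L : P → P → Language α, (∀ p p', HL k (L p p')) ∧
    (∀ p p' w, w ∈ L p p' → run step p w = p') ∧
    (∀ p w, G p w → w ∈ L p (run step p w))

theorem Comp.mono {k l : ℕ} (h : k ≤ l) {P : Type*} {step : P → α → P}
    {G G' : P → List α → Prop} (hG : ∀ p w, G' p w → G p w) (hC : Comp k step G) :
    Comp l step G' := by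
  obtain ⟨L, h1, h2, h3⟩ := hC
  exact ⟨L, fun p p' => (h1 p p').mono h, h2, fun p w hw => h3 p w (hG p w hw)⟩

/-- good pairs of bounded length are computed at every height -/
theorem Comp.of_bounded [Finite α] {k : ℕ} {P : Type*} (step : P → α → P)
    (G : P → List α → Prop) (n : ℕ) (hn : ∀ p w, G p w → w.length ≤ n) : Comp k step G := by
  refine ⟨fun p p' => ({w | w.length ≤ n ∧ run step p w = p'} : Set (List α)), ?_, ?_, ?_⟩
  · intro p p'
    exact HL.finite ((List.finite_length_le α n).subset fun w hw => hw.1)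
  · intro p p' w hw
    exact hw.2
  · intro p w hw
    exact ⟨hn p w hw, rfl⟩

/-- the thread started in `p` is not cut on `w` -/
def Unc {P : Type*} (step : P → α → P) (LL : P → Prop) (RL : List α → Option (ℕ × P))
    (p : P) (w : List α) : Prop :=
  ∀ w1 w2, w1 ++ w2 = w → LL (run step p w1) → RL w2 = none

/-- first cut -/
theorem exists_first_cut {P : Type*} (step : P → α → P) (LL : P → Prop)
    (n : ℕ) (hn : 0 < n) (RL : List α → Option (ℕ × P))
    (hlen : ∀ q r, RL q = some r → n ≤ q.length)
    (hext : ∀ q q', n ≤ q.length → RL (q ++ q') = RL q)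
    (p : P) (w : List α) (h : ¬ Unc step LL RL p w) :
    ∃ w1 w2, w1 ++ w2 = w ∧ LL (run step p w1) ∧ (∃ r, RL w2 = some r) ∧
      Unc step LL RL p w1 := by
  classical
  have h' : ∃ l, ∃ w1 w2, w1 ++ w2 = w ∧ w1.length = l ∧ LL (run step p w1) ∧
      ∃ r, RL w2 = some r := by
    unfold Unc at h
    push Not at h
    obtain ⟨w1, w2, e, hl, hr⟩ := h
    exact ⟨w1.length, w1, w2, e, rfl, hl, Option.ne_none_iff_exists'.1 hr⟩
  obtain ⟨w1, w2, e, hlen1, hL, r, hr⟩ := Nat.find_spec h'
  refine ⟨w1, w2, e, hL, ⟨r, hr⟩, ?_⟩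
  intro u v huv hLu
  by_contra hne
  obtain ⟨r', hr'⟩ := Option.ne_none_iff_exists'.1 hne
  have hv := hlen _ _ hr'
  have hlt : u.length < Nat.find h' := by
    rw [← hlen1, ← huv, List.length_append]; omega
  refine Nat.find_min h' hlt ⟨u, v ++ w2, ?_, rfl, hLu, r', ?_⟩
  · rw [← List.append_assoc, huv, e]
  · rw [hext _ _ hv, hr']

section step

variable {P : Type*} (step : P → α → P) (LL : P → Prop) (n : ℕ) (RL : List α → Option (ℕ × P))
  (L : P → P → Language α)

/-- cut-to-cut words -/
def KK : Language α :=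
  {y | ∃ ya yb k p' p2, ya ++ yb = y ∧ ya.length = n ∧ RL ya = some (k, p') ∧
    yb ∈ L (run step p' (ya.drop k)) p2 ∧ LL p2}

/-- last words -/
def EE (p2 : P) : Language α :=
  {y | ∃ ya yb k p', ya ++ yb = y ∧ ya.length = n ∧ RL ya = some (k, p') ∧
    yb ∈ L (run step p' (ya.drop k)) p2}

theorem hl_EE [Finite α] {j : ℕ} (hL : ∀ p p', HL j (L p p')) (p2 : P) :
    HL j (EE step n RL L p2) := by
  classical
  have h := HL.biUnion (k := j) (List.finite_length_eq α n)
    (L := fun ya => ({w | ∃ yb, ya ++ yb = w ∧ ∃ k p', RL ya = some (k, p') ∧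
      yb ∈ L (run step p' (ya.drop k)) p2} : Set (List α))) ?_
  · refine h.congr fun w => ?_
    constructor
    · rintro ⟨ya, yb, k, p', e, hl, hr, hy⟩
      exact ⟨ya, hl, yb, e, k, p', hr, hy⟩
    · rintro ⟨ya, hl, yb, e, k, p', hr, hy⟩
      exact ⟨ya, yb, k, p', e, hl, hr, hy⟩
  · intro ya _
    rcases hR : RL ya with _ | ⟨k, p'⟩
    · refine HL.bot.congr fun w => ⟨?_, fun h => h.elim⟩
      rintro ⟨yb, -, k, p', hr, -⟩
      cases hr
    · refine ((HL.word ya).mul (hL (run step p' (ya.drop k)) p2)).congr fun w => ?_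
      constructor
      · rintro ⟨yb, e, k', p'', hr, hy⟩
        simp only [Option.some.injEq, Prod.mk.injEq] at hr
        obtain ⟨rfl, rfl⟩ := hr
        exact Language.mem_mul.2 ⟨ya, rfl, yb, hy, e⟩
      · intro hw
        obtain ⟨x, hx, yb, hy, e⟩ := Language.mem_mul.1 hw
        rw [Set.mem_singleton_iff.1 hx] at e
        exact ⟨yb, e, k, p', rfl, hy⟩

theorem hl_KK [Finite α] [Finite P] {j : ℕ} (hL : ∀ p p', HL j (L p p')) :
    HL j (KK step LL n RL L) := by
  have h := HL.biUnion (k := j) (s := {p2 : P | LL p2}) (Set.toFinite _)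
    (L := fun p2 => EE step n RL L p2) (fun p2 _ => hl_EE step n RL L hL p2)
  refine h.congr fun w => ?_
  constructor
  · rintro ⟨ya, yb, k, p', p2, e, hl, hr, hy, hp⟩
    exact ⟨p2, hp, ya, yb, k, p', e, hl, hr, hy⟩
  · rintro ⟨p2, hp, ya, yb, k, p', e, hl, hr, hy⟩
    exact ⟨ya, yb, k, p', p2, e, hl, hr, hy, hp⟩

variable (hlen : ∀ q k p', RL q = some (k, p') → k ≤ n ∧ n ≤ q.length)
  (hext : ∀ q q', n ≤ q.length → RL (q ++ q') = RL q)
  (hex : ∀ p q k p', LL p → RL q = some (k, p') → run step p (q.take k) = p')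
  (hs : ∀ p p' w, w ∈ L p p' → run step p w = p')

include hlen hext hex in
/-- the thread after the first window of a right-legal word -/
theorem run_window (p : P) (hp : LL p) (ya yb : List α) (k : ℕ) (p' : P) (hl : ya.length = n)
    (hr : RL ya = some (k, p')) :
    run step p (ya ++ yb) = run step (run step p' (ya.drop k)) yb := by
  have hk := (hlen _ _ _ hr).1
  have h1 := hex p ya k p' hp hr
  rw [run_append]
  congr 1
  conv_lhs => rw [← List.take_append_drop k ya]
  rw [run_append, h1]

include hlen hext hex hs in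
theorem KK_sound (p : P) (hp : LL p) (y : List α) (hy : y ∈ KK step LL n RL L) :
    LL (run step p y) := by
  obtain ⟨ya, yb, k, p', p2, rfl, hl, hr, hy, hp2⟩ := hy
  rw [run_window step LL n RL hlen hext hex p hp ya yb k p' hl hr, hs _ _ _ hy]
  exact hp2

include hlen hext hex hs in
theorem KKstar_sound (y : List α) (hy : y ∈ KStar.kstar (KK step LL n RL L)) (p : P)
    (hp : LL p) : LL (run step p y) := by
  obtain ⟨S, rfl, hS⟩ := Language.mem_kstar.1 hy
  clear hy
  induction S generalizing p with
  | nil => simpa using hp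
  | cons m S ih =>
    rw [List.flatten_cons, run_append]
    exact ih _ (KK_sound step LL n RL L hlen hext hex hs p hp m (hS m List.mem_cons_self))
      (fun y hy => hS y (List.mem_cons_of_mem _ hy))

include hlen hext hex hs in
theorem EE_sound (p : P) (hp : LL p) (p2 : P) (y : List α) (hy : y ∈ EE step n RL L p2) :
    run step p y = p2 := by
  obtain ⟨ya, yb, k, p', rfl, hl, hr, hy⟩ := hy
  rw [run_window step LL n RL hlen hext hex p hp ya yb k p' hl hr, hs _ _ _ hy]

variable (hn : 0 < n) (G : P → List α → Prop)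
  (hG1 : ∀ p w1 w2, G p (w1 ++ w2) → G p w1)
  (hG2 : ∀ p w1 w2, G p (w1 ++ w2) → G (run step p w1) w2)
  (hc : ∀ p w, G p w → Unc step LL RL p w → w ∈ L p (run step p w))

include hlen hext hex hs hn hG1 hG2 hc in
/-- completeness behind a cut -/
theorem complete_from_cut : ∀ (l : ℕ) (w : List α), w.length = l → ∀ p, LL p → G p w →
    (∃ r, RL w = some r) →
    w ∈ KStar.kstar (KK step LL n RL L) * EE step n RL L (run step p w) := by
  intro l
  induction l using Nat.strong_induction_on with
  | _ l ih =>
    intro w hwl p hp hG ⟨⟨k, p'⟩, hr⟩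
    obtain ⟨hk, hnw⟩ := hlen _ _ _ hr
    -- first window
    obtain ⟨ya, r, hya, rfl⟩ : ∃ ya r, ya.length = n ∧ w = ya ++ r :=
      ⟨w.take n, w.drop n, by simp [hnw], (List.take_append_drop n w).symm⟩
    have hr' : RL ya = some (k, p') := by rw [← hr, hext _ _ hya.ge]
    have hG' := hG2 _ _ _ hG
    have hrun : run step p ya = run step p' (ya.drop k) := by
      have := run_window step LL n RL hlen hext hex p hp ya [] k p' hya hr'
      simpa using this
    by_cases hU : Unc step LL RL (run step p ya) r
    · refine Language.mem_mul.2 ⟨[], Language.nil_mem_kstar _, ya ++ r, ?_, rfl⟩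
      refine ⟨ya, r, k, p', rfl, hya, hr', ?_⟩
      have := hc _ _ hG' hU
      rw [run_append, ← hrun]
      exact this
    · obtain ⟨r0, w2, rfl, hL2, hr2, hU0⟩ := exists_first_cut step LL n hn RL
        (fun q r h => (hlen q r.1 r.2 h).2) hext _ _ hU
      have hG0 := hG1 _ _ _ hG'
      have hG2' := hG2 _ _ _ hG'
      have hlt : w2.length < l := by
        rw [← hwl]; simp only [List.length_append]; omega
      have hmem := ih w2.length hlt w2 rfl _ hL2 hG2' hr2
      obtain ⟨s, hs', t, ht, rfl⟩ := Language.mem_mul.1 hmem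
      have hK : ya ++ r0 ∈ KK step LL n RL L :=
        ⟨ya, r0, k, p', _, rfl, hya, hr', by rw [← hrun]; exact hc _ _ hG0 hU0, hL2⟩
      refine Language.mem_mul.2 ⟨(ya ++ r0) ++ s, ?_, t, ?_, by simp [List.append_assoc]⟩
      · obtain ⟨S, rfl, hS⟩ := Language.mem_kstar.1 hs'
        refine Language.mem_kstar.2 ⟨(ya ++ r0) :: S, by rw [List.flatten_cons], ?_⟩
        intro y hy
        rcases List.mem_cons.1 hy with rfl | hy
        · exact hK
        · exact hS y hy
      · have : run step p (ya ++ (r0 ++ (s ++ t))) =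
            run step (run step (run step p ya) r0) (s ++ t) := by
          rw [run_append, run_append]
        rw [this]
        exact ht

end step

/-- STEP LEMMA: one star. -/
theorem step_lemma [Finite α] {P : Type*} [Finite P] (step : P → α → P) (LL : P → Prop) (n : ℕ)
    (hn : 0 < n) (RL : List α → Option (ℕ × P))
    (hlen : ∀ q k p', RL q = some (k, p') → k ≤ n ∧ n ≤ q.length)
    (hext : ∀ q q', n ≤ q.length → RL (q ++ q') = RL q)
    (hex : ∀ p q k p', LL p → RL q = some (k, p') → run step p (q.take k) = p')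
    (G : P → List α → Prop)
    (hG1 : ∀ p w1 w2, G p (w1 ++ w2) → G p w1)
    (hG2 : ∀ p w1 w2, G p (w1 ++ w2) → G (run step p w1) w2)
    (j : ℕ) (h : Comp j step (fun p w => G p w ∧ Unc step LL RL p w)) :
    Comp (j + 1) step G := by
  classical
  obtain ⟨L, hL, hs, hc⟩ := h
  refine ⟨fun p p2 => L p p2 ⊔ ({w | ∃ p1 ∈ {p1 : P | LL p1},
    w ∈ L p p1 * (KStar.kstar (KK step LL n RL L) * EE step n RL L p2)} : Set (List α)),
    ?_, ?_, ?_⟩
  · intro p p2
    refine ((hL p p2).mono (Nat.le_succ j)).sup ?_
    exact HL.biUnion (Set.toFinite _) fun p1 _ => ((hL p p1).mono (Nat.le_succ j)).mul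
      ((hl_KK step LL n RL L hL).star.mul ((hl_EE step n RL L hL p2).mono (Nat.le_succ j)))
  · rintro p p2 w (hw | ⟨p1, hp1, hw⟩)
    · exact hs _ _ _ hw
    · obtain ⟨w1, h1, w', h', rfl⟩ := Language.mem_mul.1 hw
      obtain ⟨w2, h2, w3, h3, rfl⟩ := Language.mem_mul.1 h'
      have e1 := hs _ _ _ h1
      rw [run_append, e1, run_append]
      exact EE_sound step LL n RL L hlen hext hex hs _
        (KKstar_sound step LL n RL L hlen hext hex hs w2 h2 p1 hp1) p2 w3 h3
  · intro p w hG
    by_cases hU : Unc step LL RL p w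
    · exact Or.inl (hc p w ⟨hG, hU⟩)
    · right
      obtain ⟨w1, w2, rfl, hL1, hr, hU1⟩ := exists_first_cut step LL n hn RL
        (fun q r h => (hlen q r.1 r.2 h).2) hext _ _ hU
      refine ⟨run step p w1, hL1, Language.mem_mul.2 ⟨w1, hc _ _ ⟨hG1 _ _ _ hG, hU1⟩, w2, ?_,
        rfl⟩⟩
      have := complete_from_cut step LL n RL L hlen hext hex hs hn G hG1 hG2
        (fun p w h1 h2 => hc p w ⟨h1, h2⟩) w2.length w2 rfl _ hL1 (hG2 _ _ _ hG) hr
      rw [run_append]
      exact this

/-- TRANSFER LEMMA: finitely many probes. -/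
theorem transfer {k r : ℕ} {P PB : Type*} [Finite PB] (step : P → α → P)
    (stepB : PB → α → PB) (GB : PB → List α → Prop) (hB : Comp k stepB GB)
    (G : P → List α → Prop) (ι : P → Fin r → PB) (dec : P → (Fin r → PB) → Option P)
    (hsound : ∀ p w p'', dec p (fun i => run stepB (ι p i) w) = some p'' → run step p w = p'')
    (hdec : ∀ p w, G p w → (dec p (fun i => run stepB (ι p i) w)).isSome)
    (hgood : ∀ p w, G p w → ∀ i, GB (ι p i) w) :
    Comp k step G := by
  classical
  obtain ⟨L, hL, hs, hc⟩ := hB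
  refine ⟨fun p p'' => ({w | ∃ t : Fin r → PB, w ∈
    ({w | dec p t = some p'' ∧ ∀ i, w ∈ L (ι p i) (t i)} : Set (List α))} : Set (List α)),
    ?_, ?_, ?_⟩
  · intro p p''
    refine HL.iUnion (L := fun t : Fin r → PB =>
      ({w | dec p t = some p'' ∧ ∀ i, w ∈ L (ι p i) (t i)} : Set (List α))) fun t => ?_
    exact HL.setOf_and (HL.const _) (HL.iInter fun i => hL _ _)
  · rintro p p'' w ⟨t, ht, hw⟩
    have : t = fun i => run stepB (ι p i) w := by
      funext i
      exact (hs _ _ _ (hw i)).symm
    rw [this] at ht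
    exact hsound p w p'' ht
  · intro p w hG
    obtain ⟨p'', hp⟩ := Option.isSome_iff_exists.1 (hdec p w hG)
    refine ⟨fun i => run stepB (ι p i) w, ?_, fun i => hc _ _ (hgood p w hG i)⟩
    rw [hp, hsound p w p'' hp]

end Crest.Agent.R320.Step_829
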