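import Crest.Agent.R320.Hk1_851
import Crest.Agent.R320.Hk2_851

/-!
# Row 320: Straubing's theorem 1979 (relative star-free closure) by local divisors (helper640)

`rel`: `τ : A* → T`, `φ : A* → M` homomorphisms into finite monoids; if `φ w` is aperiodic whenever
`τ w` is idempotent, and every `τ⁻¹(t)` has generalized star height `≤ k`, then every `φ⁻¹(m)` has
generalized star height `≤ k`.

`crit`: family form with regular languages `X i` of height `≤ k`.
-/

set_option autoImplicit false
set_option linter.unusedSectionVars false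
set_option linter.unusedSimpArgs false

namespace Crest.Agent.R320.Straub_640

open Crest.Agent.R320.Hk_851

universe u

/-- a homomorphism from words to a monoid -/
structure IsHom {A : Type u} {M : Type u} [Monoid M] (φ : List A → M) : Prop where
  nil : φ [] = 1
  app : ∀ u v, φ (u ++ v) = φ u * φ v

theorem IsHom.cons {A M : Type u} [Monoid M] {φ : List A → M} (h : IsHom φ) (a : A) (w : List A) :
    φ (a :: w) = φ [a] * φ w := by
  rw [← h.app]; rfl

/-- relative star-free closure -/
inductive SF {A T : Type u} (τ : List A → T) : Set (List A) → Prop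
  | base (t : T) : SF τ {w | τ w = t}
  | nil : SF τ {[]}
  | letter (a : A) : SF τ {[a]}
  | compl {L : Set (List A)} : SF τ L → SF τ Lᶜ
  | union {L K : Set (List A)} : SF τ L → SF τ K → SF τ (L ∪ K)
  | cat {L K : Set (List A)} : SF τ L → SF τ K → SF τ {w | ∃ u v, u ++ v = w ∧ u ∈ L ∧ v ∈ K}

section basic

variable {A T : Type u} {τ : List A → T}

theorem SF.congr {L K : Set (List A)} (h : SF τ L) (e : ∀ w, w ∈ L ↔ w ∈ K) : SF τ K := by
  have : L = K := Set.ext e
  exact this ▸ h

theorem SF.inter {L K : Set (List A)} (hL : SF τ L) (hK : SF τ K) : SF τ (L ∩ K) := by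
  refine SF.congr (SF.compl (SF.union (SF.compl hL) (SF.compl hK))) fun w => ?_
  simp [Set.mem_union, Set.mem_compl_iff]

theorem SF.univ : SF τ (Set.univ : Set (List A)) := by
  refine SF.congr (SF.union (SF.nil) (SF.compl SF.nil)) fun w => ?_
  simp [em]

theorem SF.empty : SF τ (∅ : Set (List A)) := by
  refine SF.congr (SF.compl SF.univ) fun w => ?_
  simp

theorem SF.ite (p : Prop) {L : Set (List A)} (hL : SF τ L) : SF τ {w | p ∧ w ∈ L} := by
  by_cases h : p
  · exact SF.congr hL fun w => by simp [h]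
  · exact SF.congr SF.empty fun w => by simp [h]

theorem SF.exists_finset {ι : Type*} (s : Finset ι) (f : ι → Set (List A))
    (h : ∀ i ∈ s, SF τ (f i)) : SF τ {w | ∃ i ∈ s, w ∈ f i} := by
  classical
  induction s using Finset.induction_on with
  | empty => exact SF.congr SF.empty fun w => by simp
  | insert a s ha ih =>
    refine SF.congr (SF.union (h a (Finset.mem_insert_self a s))
      (ih fun i hi => h i (Finset.mem_insert_of_mem hi))) fun w => ?_
    simp

theorem SF.iUnion {ι : Type*} [Finite ι] (f : ι → Set (List A))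
    (h : ∀ i, SF τ (f i)) : SF τ {w | ∃ i, w ∈ f i} := by
  classical
  haveI := Fintype.ofFinite ι
  exact SF.congr (SF.exists_finset Finset.univ f fun i _ => h i) fun w => by simp

/-- words over a set of letters -/
theorem SF.over [Finite A] (B : Finset A) : SF τ {w | ∀ a ∈ w, a ∈ B} := by
  classical
  haveI := Fintype.ofFinite A
  refine SF.congr (SF.compl (SF.exists_finset (Finset.univ \ B)
    (fun a => {w | ∃ u v, u ++ v = w ∧ u ∈ {w | ∃ u v, u ++ v = w ∧ u ∈ (Set.univ : Set (List A)) ∧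
      v ∈ ({[a]} : Set (List A))} ∧ v ∈ (Set.univ : Set (List A))})
    fun a _ => SF.cat (SF.cat SF.univ (SF.letter a)) SF.univ)) fun w => ?_
  constructor
  · intro h a ha
    by_contra hb
    apply h
    obtain ⟨s, t, rfl⟩ := List.append_of_mem ha
    exact ⟨a, by simp [hb], s ++ [a], t, by simp, ⟨s, [a], rfl, trivial, rfl⟩, trivial⟩
  · rintro h ⟨a, ha, _, v, rfl, ⟨u, v', rfl, -, hv'⟩, -⟩
    have : v' = [a] := hv'
    subst this
    have h2 : a ∈ B := h a (by simp)
    simp [h2] at ha

end basic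

/-! ### the local divisor -/

/-- the local divisor `cM ∩ Mc` -/
def LD {M : Type u} [Monoid M] (c : M) : Type u :=
  {x : M // (∃ y, x = c * y) ∧ (∃ z, x = z * c)}

namespace LD

variable {M : Type u} [Monoid M] {c : M}

theorem ext' {x y : LD c} (h : x.1 = y.1) : x = y := Subtype.ext h

noncomputable instance : Mul (LD c) where
  mul x y := ⟨x.1 * Classical.choose y.2.1, by
    obtain ⟨x, ⟨x', hx'⟩, ⟨z, hz⟩⟩ := x
    obtain ⟨y, hy1, ⟨w, hw⟩⟩ := y
    have h1 : y = c * Classical.choose hy1 := Classical.choose_spec hy1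
    constructor
    · exact ⟨x' * Classical.choose hy1, by
        change x * Classical.choose hy1 = _
        rw [hx', mul_assoc]⟩
    · exact ⟨z * w, by
        change x * Classical.choose hy1 = _
        rw [hz, mul_assoc, ← h1, hw, mul_assoc]⟩⟩

theorem mul_val (x y : LD c) (y' : M) (h : y.1 = c * y') : (x * y).1 = x.1 * y' := by
  change x.1 * Classical.choose y.2.1 = _
  have h1 := Classical.choose_spec y.2.1
  obtain ⟨z, hz⟩ := x.2.2
  rw [hz, mul_assoc, mul_assoc, ← h1, h]

instance : One (LD c) where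
  one := ⟨c, ⟨1, (mul_one c).symm⟩, ⟨1, (one_mul c).symm⟩⟩

theorem one_val : (1 : LD c).1 = c := rfl

noncomputable instance : Monoid (LD c) where
  mul_assoc x y z := by
    apply ext'
    obtain ⟨y', hy⟩ := y.2.1
    obtain ⟨z', hz⟩ := z.2.1
    rw [mul_val _ z z' hz, mul_val x y y' hy]
    have h : (y * z).1 = c * (y' * z') := by rw [mul_val y z z' hz, hy, mul_assoc]
    rw [mul_val x (y * z) _ h, mul_assoc]
  one_mul x := by
    apply ext'
    obtain ⟨x', hx⟩ := x.2.1
    rw [mul_val 1 x x' hx, hx]; rfl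
  mul_one x := by
    apply ext'
    rw [mul_val x 1 1 (by rw [one_val, mul_one]), mul_one]

instance [Finite M] : Finite (LD c) := by unfold LD; infer_instance

theorem card_lt [Finite M] (hc : ¬ IsUnit c) : Nat.card (LD c) < Nat.card M := by
  unfold LD
  apply Finite.card_subtype_lt (x := (1 : M))
  rintro ⟨⟨y, hy⟩, ⟨z, hz⟩⟩
  apply hc
  have : z = y := by
    calc z = z * (c * y) := by rw [← hy, mul_one]
      _ = y := by rw [← mul_assoc, ← hz, one_mul]
  subst this
  exact ⟨⟨c, z, hy.symm, hz.symm⟩, rfl⟩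

end LD

/-! ### powers of words, idempotent powers -/

/-- power of a word -/
def pw {A : Type u} (w : List A) : ℕ → List A
  | 0 => []
  | n + 1 => pw w n ++ w

theorem IsHom.pw {A M : Type u} [Monoid M] {φ : List A → M} (h : IsHom φ) (w : List A) (n : ℕ) :
    φ (Straub_640.pw w n) = φ w ^ n := by
  induction n with
  | zero => simpa [Straub_640.pw] using h.nil
  | succ n ih => rw [Straub_640.pw, h.app, ih, pow_succ]

theorem pw_mem {A : Type u} {w : List A} {P : A → Prop} (h : ∀ a ∈ w, P a) (n : ℕ) :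
    ∀ a ∈ pw w n, P a := by
  induction n with
  | zero => intro a ha; simp [pw] at ha
  | succ n ih =>
    intro a ha
    rw [pw, List.mem_append] at ha
    exact ha.elim (ih a) (h a)

theorem exists_idem {T : Type u} [Monoid T] [Finite T] (x : T) :
    ∃ k, 0 < k ∧ x ^ k * x ^ k = x ^ k := by
  obtain ⟨i, j, hij, h⟩ := Finite.exists_ne_map_eq_of_infinite (fun n : ℕ => x ^ (n + 1))
  wlog hlt : i < j generalizing i j
  · exact this j i hij.symm h.symm (by omega)
  obtain ⟨p, hp, rfl⟩ : ∃ p, 0 < p ∧ j = i + p := ⟨j - i, by omega, by omega⟩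
  have h1 : ∀ n, i + 1 ≤ n → x ^ (n + p) = x ^ n := by
    intro n hn
    obtain ⟨d, rfl⟩ := Nat.exists_eq_add_of_le hn
    have : i + 1 + d + p = (i + p + 1) + d := by omega
    rw [this, pow_add, ← h, ← pow_add]
  have h2 : ∀ n, i + 1 ≤ n → ∀ r, x ^ (n + r * p) = x ^ n := by
    intro n hn r
    induction r with
    | zero => simp
    | succ r ih =>
      have : n + (r + 1) * p = (n + r * p) + p := by ring
      rw [this, h1 _ (by omega), ih]
  refine ⟨(i + 1) * p, by positivity, ?_⟩
  rw [← pow_add]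
  exact h2 _ (Nat.le_mul_of_pos_right _ hp) (i + 1)

/-! ### factorisation over a letter -/

section split

variable {A : Type u} {M T : Type u} [Monoid M] [Monoid T]
variable (c : A) (B : A → Prop) (φ : List A → M) (τ : List A → T)

/-- `Sig w ω` : `w = v₁ c v₂ c ⋯ v_k c` with blocks `vᵢ` over `B`, `ω` = list of the values of the
blocks. -/
inductive Sig : List A → List (M × T) → Prop
  | nil : Sig [] []
  | cons (v w : List A) (ω : List (M × T)) (hv : ∀ a ∈ v, B a) : Sig w ω →
      Sig (v ++ c :: w) ((φ v, τ v) :: ω)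

variable {c B φ τ}

theorem Sig.append {w₁ w₂ : List A} {ω₁ ω₂ : List (M × T)} (h₁ : Sig c B φ τ w₁ ω₁)
    (h₂ : Sig c B φ τ w₂ ω₂) : Sig c B φ τ (w₁ ++ w₂) (ω₁ ++ ω₂) := by
  induction h₁ with
  | nil => exact h₂
  | cons v w ω hv _ ih =>
    rw [List.append_assoc, List.cons_append, List.cons_append]
    exact Sig.cons v _ _ hv ih

theorem Sig.split {ω₁ ω₂ : List (M × T)} : ∀ {w : List A}, Sig c B φ τ w (ω₁ ++ ω₂) →
    ∃ w₁ w₂, w₁ ++ w₂ = w ∧ Sig c B φ τ w₁ ω₁ ∧ Sig c B φ τ w₂ ω₂ := by
  induction ω₁ with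
  | nil => intro w h; exact ⟨[], w, rfl, Sig.nil, h⟩
  | cons x ω₁ ih =>
    intro w h
    rw [List.cons_append] at h
    cases h with
    | cons v w' ω hv h' =>
      obtain ⟨w₁, w₂, rfl, h1, h2⟩ := ih h'
      exact ⟨v ++ c :: w₁, w₂, by simp, Sig.cons v w₁ ω₁ hv h1, h2⟩

open Classical in
/-- deterministic scan -/
noncomputable def scan (c : A) (φ : List A → M) (τ : List A → T) :
    List A → List A → List (M × T)
  | _, [] => []
  | v, a :: w => if a = c then (φ v, τ v) :: scan c φ τ [] w else scan c φ τ (v ++ [a]) w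

theorem scan_block (v u w : List A) (hu : c ∉ u) :
    scan c φ τ v (u ++ c :: w) = (φ (v ++ u), τ (v ++ u)) :: scan c φ τ [] w := by
  induction u generalizing v with
  | nil => simp [scan]
  | cons a u ih =>
    have ha : a ≠ c := by rintro rfl; simp at hu
    have hu' : c ∉ u := fun h => hu (List.mem_cons_of_mem _ h)
    rw [List.cons_append, scan, if_neg ha, ih _ hu']
    simp

theorem Sig.scan_eq (hB : ¬ B c) {w : List A} {ω : List (M × T)} (h : Sig c B φ τ w ω) :
    scan c φ τ [] w = ω := by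
  induction h with
  | nil => simp [scan]
  | cons v w ω hv _ ih =>
    rw [scan_block [] v w (fun h => hB (hv _ h)), ih]
    simp

theorem Sig.unique (hB : ¬ B c) {w : List A} {ω ω' : List (M × T)} (h : Sig c B φ τ w ω)
    (h' : Sig c B φ τ w ω') : ω = ω' := (h.scan_eq hB).symm.trans (h'.scan_eq hB)

theorem Sig.over {w : List A} {ω : List (M × T)} (h : Sig c B φ τ w ω) :
    ∀ a ∈ w, B a ∨ a = c := by
  induction h with
  | nil => intro a ha; simp at ha
  | cons v w ω hv _ ih =>
    intro a ha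
    rw [List.mem_append, List.mem_cons] at ha
    rcases ha with ha | ha | ha
    · exact Or.inl (hv a ha)
    · exact Or.inr ha
    · exact ih a ha

/-- every word over `B ∪ {c}` is a complete part and a last block -/
theorem exists_sig (w : List A) (hw : ∀ a ∈ w, B a ∨ a = c) :
    ∃ w₁ v ω, w₁ ++ v = w ∧ Sig c B φ τ w₁ ω ∧ ∀ a ∈ v, B a := by
  classical
  induction w using List.reverseRecOn with
  | nil => exact ⟨[], [], [], rfl, Sig.nil, by simp⟩
  | append_singleton w a ih =>
    obtain ⟨w₁, v, ω, rfl, h1, h2⟩ := ih fun b hb => hw b (by simp [hb])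
    by_cases hac : a = c
    · subst hac
      refine ⟨w₁ ++ (v ++ a :: []), [], ω ++ [(φ v, τ v)], by simp, ?_, by simp⟩
      exact h1.append (Sig.cons v [] [] h2 Sig.nil)
    · refine ⟨w₁, v ++ [a], ω, by simp, h1, ?_⟩
      intro b hb
      rw [List.mem_append, List.mem_singleton] at hb
      rcases hb with hb | rfl
      · exact h2 b hb
      · exact (hw b (by simp)).resolve_right hac

theorem Sig.last {w : List A} {ω : List (M × T)} (h : Sig c B φ τ w ω) :
    w = [] ∨ ∃ u, w = u ++ [c] := by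
  induction h with
  | nil => exact Or.inl rfl
  | cons v w ω hv _ ih =>
    right
    rcases ih with rfl | ⟨u, rfl⟩
    · exact ⟨v, rfl⟩
    · exact ⟨v ++ c :: u, by simp⟩

theorem exists_sig_of_last (hB : ¬ B c) (w : List A) (hw : ∀ a ∈ w, B a ∨ a = c)
    (hl : w = [] ∨ ∃ u, w = u ++ [c]) : ∃ ω, Sig c B φ τ w ω := by
  obtain ⟨w₁, v, ω, rfl, h1, h2⟩ := exists_sig (φ := φ) (τ := τ) w hw
  rcases List.eq_nil_or_concat v with rfl | ⟨v', a, rfl⟩
  · exact ⟨ω, by simpa using h1⟩
  · exfalso
    have ha : B a := h2 a (by simp)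
    rcases hl with hl | ⟨u, hu⟩
    · simp at hl
    · rw [List.concat_eq_append, ← List.append_assoc] at hu
      have := (List.append_inj' hu rfl).2
      simp only [List.cons.injEq, and_true] at this
      subst this
      exact hB ha

/-- every word over `B ∪ {c}` which is not over `B` is `u c w v`. -/
theorem exists_full (w : List A) (hw : ∀ a ∈ w, B a ∨ a = c) :
    (∀ a ∈ w, B a) ∨ ∃ u w₁ v ω, u ++ ((c :: w₁) ++ v) = w ∧ (∀ a ∈ u, B a) ∧ Sig c B φ τ w₁ ω ∧
      ∀ a ∈ v, B a := by
  obtain ⟨w₁, v, ω, rfl, h1, h2⟩ := exists_sig (φ := φ) (τ := τ) w hw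
  cases h1 with
  | nil => left; simpa using h2
  | cons u w' ω' hu h' =>
    right
    exact ⟨u, w', v, ω', by simp, hu, h', h2⟩

/-- the induced map on the new alphabet -/
def tau' (c : A) (τ : List A → T) (ω : List (M × T)) : T := (ω.map fun x => x.2 * τ [c]).prod

theorem tau'_hom : IsHom (tau' (M := M) c τ) := ⟨by simp [tau'], fun u v => by simp [tau']⟩

theorem Sig.tau (hτ : IsHom τ) {w : List A} {ω : List (M × T)} (h : Sig c B φ τ w ω) :
    tau' c τ ω = τ w := by
  induction h with
  | nil => simp [tau', hτ.nil]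
  | cons v w ω hv _ ih =>
    have h1 : tau' c τ ((φ v, τ v) :: ω) = (τ v * τ [c]) * tau' c τ ω := by
      simp [tau']
    rw [h1, ih, hτ.app, hτ.cons c w, mul_assoc]

/-- value of a new letter in the local divisor -/
def ldl (c : A) (φ : List A → M) (x : M × T) : LD (φ [c]) :=
  Subtype.mk (φ [c] * x.1 * φ [c]) ⟨⟨x.1 * φ [c], by rw [mul_assoc]⟩, ⟨φ [c] * x.1, rfl⟩⟩

theorem ldl_val (c : A) (φ : List A → M) (x : M × T) : (ldl c φ x).1 = φ [c] * x.1 * φ [c] := rfl

/-- the map to the local divisor -/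
noncomputable def psi (c : A) (φ : List A → M) (ω : List (M × T)) : LD (φ [c]) :=
  (ω.map fun x => ldl c φ x).prod

theorem psi_hom : IsHom (psi (T := T) c φ) := ⟨by simp [psi], fun u v => by simp [psi]⟩

theorem psi_cons_val (x : M × T) (ω : List (M × T)) (y : M) (h : (psi c φ ω).1 = φ [c] * y) :
    (psi c φ (x :: ω)).1 = φ [c] * x.1 * φ [c] * y := by
  have h1 : psi c φ (x :: ω) = ldl c φ x * psi c φ ω := by
    simp [psi]
  rw [h1, LD.mul_val _ _ y h, ldl_val]

theorem Sig.psi (hφ : IsHom φ) {w : List A} {ω : List (M × T)} (h : Sig c B φ τ w ω) :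
    (Straub_640.psi c φ ω).1 = φ [c] * φ w := by
  induction h with
  | nil =>
    rw [hφ.nil, mul_one, psi_hom.nil]; rfl
  | cons v w ω hv _ ih =>
    rw [psi_cons_val _ _ _ ih, hφ.app, hφ.cons c w]
    simp only [mul_assoc]

theorem Sig.psi_pow (hφ : IsHom φ) {w : List A} {ω : List (M × T)} (h : Sig c B φ τ w ω) (n : ℕ) :
    (Straub_640.psi c φ ω ^ n).1 = φ [c] * φ w ^ n := by
  induction n with
  | zero => rw [pow_zero, pow_zero, mul_one]; rfl
  | succ n ih => rw [pow_succ, LD.mul_val _ _ _ (h.psi hφ), ih, pow_succ, mul_assoc]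

end split

/-! ### transfer of star-free languages -/

section transfer

variable {A : Type u} {M T : Type u} [Monoid M] [Monoid T]

theorem transfer [Finite A] {c : A} {B : A → Prop} {φ : List A → M} {τ : List A → T}
    (hB : ¬ B c) (hτ : IsHom τ)
    (hover : SF τ {w | ∀ a ∈ w, B a ∨ a = c})
    (hblock : ∀ m, SF τ {w | (∀ a ∈ w, B a) ∧ φ w = m})
    {K : Set (List (M × T))} (hK : SF (tau' c τ) K) :
    SF τ {w | ∃ ω ∈ K, Sig c B φ τ w ω} := by
  have hW : SF τ {w | ∃ ω, Sig c B φ τ w ω} := by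
    refine SF.congr (SF.inter hover (SF.union SF.nil (SF.cat SF.univ (SF.letter c)))) fun w => ?_
    constructor
    · rintro ⟨h1, h2⟩
      apply exists_sig_of_last hB w h1
      rcases h2 with h2 | ⟨u, v, rfl, -, hv⟩
      · exact Or.inl h2
      · have : v = [c] := hv
        subst this
        exact Or.inr ⟨u, rfl⟩
    · rintro ⟨ω, h⟩
      refine ⟨h.over, ?_⟩
      rcases h.last with rfl | ⟨u, rfl⟩
      · exact Or.inl rfl
      · exact Or.inr ⟨u, [c], rfl, trivial, rfl⟩
  induction hK with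
  | base t =>
    refine SF.congr (SF.inter hW (SF.base t)) fun w => ?_
    constructor
    · rintro ⟨⟨ω, h⟩, h2⟩
      exact ⟨ω, (h.tau hτ).trans h2, h⟩
    · rintro ⟨ω, h1, h2⟩
      exact ⟨⟨ω, h2⟩, (h2.tau hτ).symm.trans h1⟩
  | nil =>
    refine SF.congr SF.nil fun w => ?_
    constructor
    · rintro rfl
      exact ⟨[], rfl, Sig.nil⟩
    · rintro ⟨ω, h1, h2⟩
      have : ω = [] := h1
      subst this
      cases h2
      rfl
  | letter x =>
    obtain ⟨m, t⟩ := x
    refine SF.congr (SF.cat (SF.inter (hblock m) (SF.base t)) (SF.letter c)) fun w => ?_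
    constructor
    · rintro ⟨v, v', rfl, ⟨⟨h1, h2⟩, h3⟩, h4⟩
      have : v' = [c] := h4
      subst this
      refine ⟨[(m, t)], rfl, ?_⟩
      have h3' : τ v = t := h3
      rw [← h2, ← h3']
      exact Sig.cons v [] [] h1 Sig.nil
    · rintro ⟨ω, h1, h2⟩
      have : ω = [(m, t)] := h1
      subst this
      cases h2 with
      | cons v w ω hv h' =>
        cases h'
        exact ⟨v, [c], rfl, ⟨⟨hv, rfl⟩, rfl⟩, rfl⟩
  | compl _ ih =>
    refine SF.congr (SF.inter hW (SF.compl ih)) fun w => ?_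
    constructor
    · rintro ⟨⟨ω, h⟩, h2⟩
      exact ⟨ω, fun h3 => h2 ⟨ω, h3, h⟩, h⟩
    · rintro ⟨ω, h1, h2⟩
      refine ⟨⟨ω, h2⟩, ?_⟩
      rintro ⟨ω', h3, h4⟩
      rw [h2.unique hB h4] at h1
      exact h1 h3
  | union _ _ ih1 ih2 =>
    refine SF.congr (SF.union ih1 ih2) fun w => ?_
    constructor
    · rintro (⟨ω, h, h'⟩ | ⟨ω, h, h'⟩)
      · exact ⟨ω, Or.inl h, h'⟩
      · exact ⟨ω, Or.inr h, h'⟩
    · rintro ⟨ω, h | h, h'⟩
      · exact Or.inl ⟨ω, h, h'⟩
      · exact Or.inr ⟨ω, h, h'⟩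
  | cat _ _ ih1 ih2 =>
    refine SF.congr (SF.cat ih1 ih2) fun w => ?_
    constructor
    · rintro ⟨u, v, rfl, ⟨ω1, h1, h1'⟩, ⟨ω2, h2, h2'⟩⟩
      exact ⟨ω1 ++ ω2, ⟨ω1, ω2, rfl, h1, h2⟩, h1'.append h2'⟩
    · rintro ⟨_, ⟨ω1, ω2, rfl, h1, h2⟩, h'⟩
      obtain ⟨w1, w2, rfl, h3, h4⟩ := h'.split
      exact ⟨w1, w2, rfl, ⟨ω1, h1, h3⟩, ⟨ω2, h2, h4⟩⟩

end transfer

/-! ### the theorem -/

theorem unit_case {A M T : Type u} [Finite A] [Monoid M] [Finite M] [Monoid T] [Finite T]
    {φ : List A → M} {τ : List A → T} (hφ : IsHom φ) (hτ : IsHom τ) (B : Finset A)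
    (hu : ∀ a ∈ B, IsUnit (φ [a]))
    (hap : ∀ w, (∀ a ∈ w, a ∈ B) → τ w * τ w = τ w → ∃ n, φ w ^ n = φ w ^ (n + 1)) (m : M) :
    SF τ {w | (∀ a ∈ w, a ∈ B) ∧ φ w = m} := by
  have hunit : ∀ w : List A, (∀ a ∈ w, a ∈ B) → IsUnit (φ w) := by
    intro w
    induction w with
    | nil => intro _; rw [hφ.nil]; exact isUnit_one
    | cons a w ih =>
      intro h
      rw [hφ.cons]
      exact (hu a (h a (by simp))).mul (ih fun b hb => h b (by simp [hb]))
  have h1 : ∀ w : List A, (∀ a ∈ w, a ∈ B) → τ w * τ w = τ w → φ w = 1 := by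
    intro w hw h
    obtain ⟨n, hn⟩ := hap w hw h
    rw [pow_succ] at hn
    have h2 : IsUnit (φ w ^ n) := (hunit w hw).pow n
    exact (h2.mul_left_cancel ((mul_one _).trans hn)).symm
  have key : ∀ w w' : List A, (∀ a ∈ w, a ∈ B) → (∀ a ∈ w', a ∈ B) → τ w = τ w' → φ w = φ w' := by
    intro w w' hw hw' h
    obtain ⟨k, hk, hid⟩ := exists_idem (τ w)
    obtain ⟨k, rfl⟩ : ∃ j, k = j + 1 := ⟨k - 1, by omega⟩
    have e1 : τ (pw w (k + 1)) = τ w ^ (k + 1) := hτ.pw w _
    have e2 : τ (pw w k ++ w') = τ w ^ (k + 1) := by rw [hτ.app, hτ.pw, ← h, pow_succ]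
    have a1 : φ (pw w (k + 1)) = 1 := h1 _ (pw_mem hw _) (by rw [e1, hid])
    have a2 : φ (pw w k ++ w') = 1 := by
      apply h1
      · intro a ha
        rw [List.mem_append] at ha
        exact ha.elim (pw_mem hw k a) (hw' a)
      · rw [e2, hid]
    rw [hφ.pw, pow_succ] at a1
    rw [hφ.app, hφ.pw] at a2
    exact ((hunit w hw).pow k).mul_left_cancel (a1.trans a2.symm)
  refine SF.congr (SF.inter (SF.over B) (SF.iUnion
    (fun t : T => {w | (∃ w', (∀ a ∈ w', a ∈ B) ∧ φ w' = m ∧ τ w' = t) ∧ w ∈ {w | τ w = t}})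
    fun t => SF.ite _ (SF.base t))) fun w => ?_
  constructor
  · rintro ⟨h, t, ⟨w', h2, h3, h4⟩, h5⟩
    exact ⟨h, (key w w' h h2 (Eq.trans h5 h4.symm)).trans h3⟩
  · rintro ⟨h, h'⟩
    exact ⟨h, τ w, ⟨w, h, h', rfl⟩, rfl⟩

theorem main {T : Type u} [Monoid T] [Finite T] : ∀ (n : ℕ) (M : Type u) [Monoid M] [Finite M]
    (_ : Nat.card M ≤ n) (k : ℕ) (A : Type u) [Finite A] (φ : List A → M) (τ : List A → T)
    (_ : IsHom φ) (_ : IsHom τ) (B : Finset A) (_ : B.card ≤ k)
    (_ : ∀ w, (∀ a ∈ w, a ∈ B) → τ w * τ w = τ w → ∃ n, φ w ^ n = φ w ^ (n + 1)) (m : M),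
    SF τ {w | (∀ a ∈ w, a ∈ B) ∧ φ w = m} := by
  classical
  intro n
  induction n with
  | zero =>
    intro M _ _ hM
    exfalso
    have : 0 < Nat.card M := Nat.card_pos
    omega
  | succ n ihn =>
    intro M _ _ hM k
    induction k with
    | zero =>
      intro A _ φ τ hφ hτ B hB hap m
      apply unit_case hφ hτ B ?_ hap m
      intro a ha
      have : B = ∅ := Finset.card_eq_zero.1 (by omega)
      simp [this] at ha
    | succ k ihk =>
      intro A _ φ τ hφ hτ B hB hap m
      by_cases hu : ∀ a ∈ B, IsUnit (φ [a])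
      · exact unit_case hφ hτ B hu hap m
      push_neg at hu
      obtain ⟨c, hc, hcu⟩ := hu
      have hB' : (B.erase c).card ≤ k := by
        rw [Finset.card_erase_of_mem hc]; omega
      have hover : ∀ a, (a ∈ B.erase c ∨ a = c) ↔ a ∈ B := by
        intro a
        by_cases h : a = c
        · subst h; simp [hc]
        · simp [h]
      have hblock : ∀ m, SF τ {w | (∀ a ∈ w, a ∈ B.erase c) ∧ φ w = m} :=
        ihk A φ τ hφ hτ (B.erase c) hB'
          (fun w hw => hap w fun a ha => Finset.mem_of_mem_erase (hw a ha))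
      have hoverSF : SF τ {w | ∀ a ∈ w, a ∈ B.erase c ∨ a = c} := by
        refine SF.congr (SF.over B) fun w => ?_
        exact forall₂_congr fun a _ => (hover a).symm
      haveI := Fintype.ofFinite (M × T)
      let B'' : Finset (M × T) :=
        Finset.univ.filter fun x => ∃ v : List A, (∀ a ∈ v, a ∈ B.erase c) ∧ φ v = x.1 ∧ τ v = x.2
      have hreal : ∀ ω : List (M × T), (∀ x ∈ ω, x ∈ B'') →
          ∃ w, Sig c (fun a => a ∈ B.erase c) φ τ w ω := by
        intro ω
        induction ω with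
        | nil => intro _; exact ⟨[], Sig.nil⟩
        | cons x ω ih =>
          intro h
          obtain ⟨w, hw⟩ := ih fun y hy => h y (by simp [hy])
          have hx := h x (by simp)
          simp only [B'', Finset.mem_filter, Finset.mem_univ, true_and] at hx
          obtain ⟨v, hv, h1, h2⟩ := hx
          refine ⟨v ++ c :: w, ?_⟩
          have : x = (φ v, τ v) := Prod.ext h1.symm h2.symm
          rw [this]
          exact Sig.cons v w ω hv hw
      have hsub : ∀ {w : List A} {ω : List (M × T)}, Sig c (fun a => a ∈ B.erase c) φ τ w ω →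
          ∀ x ∈ ω, x ∈ B'' := by
        intro w ω h
        induction h with
        | nil => intro x hx; simp at hx
        | cons v w ω hv _ ih =>
          intro x hx
          rw [List.mem_cons] at hx
          rcases hx with rfl | hx
          · simp only [B'', Finset.mem_filter, Finset.mem_univ, true_and]
            exact ⟨v, hv, rfl, rfl⟩
          · exact ih x hx
      -- the local divisor part
      have hloc : ∀ x : LD (φ [c]), SF (tau' (M := M) c τ)
          {ω | (∀ a ∈ ω, a ∈ B'') ∧ psi c φ ω = x} := by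
        have hcard : Nat.card (LD (φ [c])) ≤ n := by
          have := LD.card_lt hcu
          omega
        refine ihn (LD (φ [c])) hcard B''.card (M × T) (psi c φ) (tau' c τ) psi_hom tau'_hom B''
          le_rfl ?_
        intro ω hω hid
        obtain ⟨w, hw⟩ := hreal ω hω
        rw [hw.tau hτ] at hid
        obtain ⟨j, hj⟩ := hap w (fun a ha => (hover a).1 (hw.over a ha)) hid
        refine ⟨j, LD.ext' ?_⟩
        rw [hw.psi_pow hφ, hw.psi_pow hφ, hj]
      have hmid : ∀ m₂ : M, SF τ {w | (∃ ω, Sig c (fun a => a ∈ B.erase c) φ τ w ω) ∧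
          φ [c] * φ w = m₂} := by
        intro m₂
        by_cases hm : (∃ y, m₂ = φ [c] * y) ∧ (∃ z, m₂ = z * φ [c])
        · refine SF.congr (transfer (φ := φ) (B := fun a => a ∈ B.erase c) (c := c) (by simp) hτ
            hoverSF hblock (hloc ⟨m₂, hm⟩)) fun w => ?_
          constructor
          · rintro ⟨ω, ⟨-, h1⟩, h2⟩
            refine ⟨⟨ω, h2⟩, ?_⟩
            rw [← h2.psi hφ, h1]
          · rintro ⟨⟨ω, h1⟩, h2⟩
            refine ⟨ω, ⟨hsub h1, LD.ext' ?_⟩, h1⟩
            rw [h1.psi hφ, h2]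
        · refine SF.congr SF.empty fun w => ?_
          constructor
          · intro h; exact h.elim
          · rintro ⟨⟨ω, h1⟩, h2⟩
            apply hm
            rw [← h2, ← h1.psi hφ]
            exact (psi c φ ω).2
      -- assembly
      refine SF.congr (SF.union (hblock m) (SF.iUnion (ι := M × M × M)
        (fun x => {w | x.1 * (x.2.1 * x.2.2) = m ∧ w ∈ {w | ∃ u v, u ++ v = w ∧
          u ∈ {w | (∀ a ∈ w, a ∈ B.erase c) ∧ φ w = x.1} ∧
          v ∈ {w | ∃ u v, u ++ v = w ∧ u ∈ {w | ∃ u v, u ++ v = w ∧ u ∈ ({[c]} : Set (List A)) ∧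
            v ∈ {w | (∃ ω, Sig c (fun a => a ∈ B.erase c) φ τ w ω) ∧ φ [c] * φ w = x.2.1}} ∧
            v ∈ {w | (∀ a ∈ w, a ∈ B.erase c) ∧ φ w = x.2.2}}}})
        fun x => SF.ite _ (SF.cat (hblock _) (SF.cat (SF.cat (SF.letter c) (hmid _))
          (hblock _))))) fun w => ?_
      constructor
      · rintro (⟨h1, h2⟩ | ⟨⟨x, y, z⟩, hm, u, _, rfl, ⟨hu, hux⟩, _, v, rfl,
          ⟨c', w₁, rfl, hc', ⟨ω, hω⟩, hy⟩, hv, hvz⟩)
        · exact ⟨fun a ha => Finset.mem_of_mem_erase (h1 a ha), h2⟩
        · have : c' = [c] := hc'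
          subst this
          simp only at hm hux hy hvz
          refine ⟨?_, ?_⟩
          · intro a ha
            simp only [List.mem_append, List.mem_singleton] at ha
            rcases ha with ha | (ha | ha) | ha
            · exact Finset.mem_of_mem_erase (hu a ha)
            · rw [ha]; exact hc
            · exact (hover a).1 (hω.over a ha)
            · exact Finset.mem_of_mem_erase (hv a ha)
          · rw [hφ.app, hφ.app, hφ.app, hux, hy, hvz, hm]
      · rintro ⟨h1, h2⟩
        rcases exists_full (c := c) (B := fun a => a ∈ B.erase c) (φ := φ) (τ := τ) w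
          (fun a ha => (hover a).2 (h1 a ha)) with h | ⟨u, w₁, v, ω, rfl, hu, hω, hv⟩
        · exact Or.inl ⟨h, h2⟩
        · right
          refine ⟨(φ u, φ [c] * φ w₁, φ v), ?_, u, (c :: w₁) ++ v, rfl, ⟨hu, rfl⟩,
            c :: w₁, v, rfl, ⟨[c], w₁, rfl, rfl, ⟨ω, hω⟩, rfl⟩, hv, rfl⟩
          rw [← h2, hφ.app, hφ.app, hφ.cons c w₁]

/-- relative star-free languages over a base of height `≤ k` have height `≤ k`. -/
theorem SF.height {A T : Type u} {τ : List A → T} {k : ℕ}
    (hbase : ∀ t, HL k ({w | τ w = t} : Language A)) {L : Set (List A)} (h : SF τ L) :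
    HL k (L : Language A) := by
  induction h with
  | base t => exact hbase t
  | nil => exact HL.one.congr fun w => Iff.rfl
  | letter a => exact HL.char a
  | compl _ ih => exact ih.compl
  | union _ _ ih1 ih2 => exact ih1.add ih2
  | cat _ _ ih1 ih2 =>
    refine (ih1.mul ih2).congr fun w => ?_
    constructor
    · rintro ⟨u, v, h1, h2, h3⟩; exact Language.mem_mul.2 ⟨u, h2, v, h3, h1⟩
    · intro h
      obtain ⟨u, h2, v, h3, h1⟩ := Language.mem_mul.1 h
      exact ⟨u, v, h1, h2, h3⟩

/-- **Straubing's theorem.** -/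
theorem rel {A M T : Type u} [Finite A] [Monoid M] [Finite M] [Monoid T] [Finite T]
    {φ : List A → M} {τ : List A → T} (hφ : IsHom φ) (hτ : IsHom τ) {k : ℕ}
    (hbase : ∀ t, HL k ({w | τ w = t} : Language A))
    (hap : ∀ w, τ w * τ w = τ w → ∃ n, φ w ^ n = φ w ^ (n + 1)) (m : M) :
    HL k ({w | φ w = m} : Language A) := by
  classical
  haveI := Fintype.ofFinite A
  have h := main (T := T) (Nat.card M) M le_rfl (Finset.univ : Finset A).card A φ τ hφ hτ
    Finset.univ le_rfl (fun w _ => hap w) m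
  exact (SF.height hbase h).congr fun w =>
    ⟨fun h => ⟨fun a _ => Finset.mem_univ a, h⟩, fun h => h.2⟩

/-! ### the family form -/

/-- two-sided contexts of a family of languages -/
def Cong {A : Type u} {ι : Type*} (X : ι → Language A) (w w' : List A) : Prop :=
  ∀ i x y, x ++ w ++ y ∈ X i ↔ x ++ w' ++ y ∈ X i

/-- the syntactic congruence of a family -/
def synCon {A : Type u} {ι : Type*} (X : ι → Language A) : Con (FreeMonoid A) where
  r w w' := Cong X w.toList w'.toList
  iseqv := ⟨fun _ _ _ _ => Iff.rfl, fun h i x y => (h i x y).symm,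
    fun h h' i x y => (h i x y).trans (h' i x y)⟩
  mul' := by
    intro a b c d hab hcd i x y
    have h1 := hab i x (c.toList ++ y)
    have h2 := hcd i (x ++ b.toList) y
    simp only [FreeMonoid.toList_mul, List.append_assoc] at h1 h2 ⊢
    exact h1.trans h2

/-- **Periodic separation criterion** (932 #12722): `φ` into a finite monoid, `X i` a finite family
of languages recognised by homomorphisms `η i` into finite monoids, of height `≤ k`; if for every `w`
with `φ w` not aperiodic some `X i` separates `x w^a y` and `x w^b y` (`a, b ≥ 1`), then all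
`φ⁻¹(m)` have height `≤ k`. -/
theorem crit {A M : Type u} [Finite A] [Monoid M] [Finite M] {φ : List A → M} (hφ : IsHom φ)
    {k : ℕ} {ι : Type} [Finite ι] (X : ι → Language A) (hX : ∀ i, HL k (X i))
    (hreg : ∀ i, ∃ (N : Type u) (_ : Monoid N) (_ : Finite N) (η : List A → N) (P : Set N),
      IsHom η ∧ ∀ w, w ∈ X i ↔ η w ∈ P)
    (hsep : ∀ w, (∀ n, φ w ^ n ≠ φ w ^ (n + 1)) → ∃ i x y a b, 0 < a ∧ 0 < b ∧
      x ++ pw w a ++ y ∈ X i ∧ ¬ x ++ pw w b ++ y ∈ X i) (m : M) :
    HL k ({w | φ w = m} : Language A) := by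
  classical
  choose N iN fN η P hη hP using hreg
  have hfun : ∀ w w' : List A, (∀ i, η i w = η i w') → Cong X w w' := by
    intro w w' h i x y
    rw [hP, hP, (hη i).app, (hη i).app, (hη i).app, (hη i).app, h i]
  -- the finite quotient monoid
  let T := (synCon X).Quotient
  let τ : List A → T := fun w => ((FreeMonoid.ofList w : FreeMonoid A) : (synCon X).Quotient)
  have hτeq : ∀ w w', τ w = τ w' ↔ Cong X w w' := by
    intro w w'
    exact (synCon X).eq
  have hτ : IsHom τ := ⟨rfl, fun u v => rfl⟩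
  have hsurj : ∀ t : T, ∃ w, τ w = t := by
    intro t
    obtain ⟨w, rfl⟩ := Quotient.exists_rep t
    exact ⟨w.toList, rfl⟩
  choose rep hrep using hsurj
  haveI : Finite T := by
    refine Finite.of_injective (fun t : T => fun i => η i (rep t)) fun t s h => ?_
    rw [← hrep t, ← hrep s, hτeq]
    exact hfun _ _ fun i => congrFun h i
  refine rel (T := T) hφ hτ ?_ ?_ m
  · intro t
    have h1 : HL k ({w | ∀ j : (Σ i : ι, N i × N i), w ∈
        ({w | ∀ x y, η j.1 x = j.2.1 → η j.1 y = j.2.2 →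
          (x ++ w ++ y ∈ X j.1 ↔ x ++ rep t ++ y ∈ X j.1)} : Language A)} : Language A) := by
      refine HL.iInter fun j => ?_
      obtain ⟨i, n1, n2⟩ := j
      by_cases hex : ∃ x y, η i x = n1 ∧ η i y = n2
      · obtain ⟨x, y, hx, hy⟩ := hex
        have h2 : HL k ({w | x ++ w ++ y ∈ X i} : Language A) :=
          ((hX i).rquot y).lquot x
        refine (HL.setOf_iff h2 (HL.const (x ++ rep t ++ y ∈ X i))).congr fun w => ?_
        constructor
        · intro h
          exact h x y hx hy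
        · intro h x' y' hx' hy'
          have e1 : ∀ w, x' ++ w ++ y' ∈ X i ↔ x ++ w ++ y ∈ X i := by
            intro w
            simp only [hP, (hη i).app]
            simp only at hx' hy'
            rw [hx', hy', hx, hy]
          rw [e1, e1]
          exact h
      · refine HL.top.congr fun w => ?_
        constructor
        · intro _; trivial
        · intro _ x y hx hy
          exact (hex ⟨x, y, hx, hy⟩).elim
    refine h1.congr fun w => ?_
    constructor
    · intro h j x y _ _
      have h' : τ w = τ (rep t) := Eq.trans h (hrep t).symm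
      exact (hτeq _ _).1 h' j.1 x y
    · intro h
      have : τ w = τ (rep t) := (hτeq _ _).2 fun i x y => h ⟨i, η i x, η i y⟩ x y rfl rfl
      exact this.trans (hrep t)
  · intro w hid
    by_contra hcon
    push_neg at hcon
    obtain ⟨i, x, y, a, b, ha, hb, h1, h2⟩ := hsep w hcon
    have hpow : ∀ n, 0 < n → τ (pw w n) = τ w := by
      intro n hn
      rw [hτ.pw]
      induction n with
      | zero => omega
      | succ n ih =>
        rcases Nat.eq_zero_or_pos n with rfl | hn'
        · simp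
        · rw [pow_succ, ih hn', hid]
    have : τ (pw w a) = τ (pw w b) := (hpow a ha).trans (hpow b hb).symm
    exact h2 (((hτeq _ _).1 this i x y).1 h1)

end Crest.Agent.R320.Straub_640
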