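import Mathlib

/-!
# Relative Schützenberger theorem (periodic separation criterion), local divisor proof

`Straub786.main` : a class `C` of languages over a finite alphabet closed under Boolean operations
and concatenation, containing the words of length `≤ 1` and the fibres of an oracle morphism
`G : A* → T`, contains every fibre of a morphism `F : A* → M` such that
`G w` idempotent implies `F w` aperiodic.
-/

set_option autoImplicit false

namespace Crest.Agent.R320.Straub786

universe u

/-- concatenation of languages -/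
def cat {A : Type u} (L L' : Set (List A)) : Set (List A) :=
  {w | ∃ x ∈ L, ∃ y ∈ L', x ++ y = w}

/-- evaluation of a word -/
def ev {A M : Type u} [Monoid M] (f : A → M) (w : List A) : M := (w.map f).prod

@[simp] theorem ev_nil {A M : Type u} [Monoid M] (f : A → M) : ev f [] = 1 := rfl
@[simp] theorem ev_cons {A M : Type u} [Monoid M] (f : A → M) (a : A) (w : List A) :
    ev f (a :: w) = f a * ev f w := by simp [ev]
@[simp] theorem ev_append {A M : Type u} [Monoid M] (f : A → M) (v w : List A) :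
    ev f (v ++ w) = ev f v * ev f w := by simp [ev]

theorem ev_map {A B M : Type u} [Monoid M] (f : A → M) (i : B → A) (w : List B) :
    ev f (w.map i) = ev (fun b => f (i b)) w := by
  unfold ev; rw [List.map_map]; rfl

theorem ev_rep {A M : Type u} [Monoid M] (f : A → M) (w : List A) (n : ℕ) :
    ev f (List.replicate n w).flatten = ev f w ^ n := by
  induction n with
  | zero => simp
  | succ n ih => rw [List.replicate_succ, List.flatten_cons, ev_append, ih, pow_succ']

/-- a good class of languages -/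
structure Good {A : Type u} (C : Set (List A) → Prop) : Prop where
  compl : ∀ L, C L → C Lᶜ
  union : ∀ L L', C L → C L' → C (L ∪ L')
  mul : ∀ L L', C L → C L' → C (cat L L')
  nil : C {[]}
  letter : ∀ a : A, C {[a]}

namespace Good

variable {A : Type u} {C : Set (List A) → Prop}

theorem inter (h : Good C) {L L' : Set (List A)} (hL : C L) (hL' : C L') : C (L ∩ L') := by
  have := h.compl _ (h.union _ _ (h.compl _ hL) (h.compl _ hL'))
  rwa [Set.compl_union, compl_compl, compl_compl] at this

theorem empty (h : Good C) : C ∅ := by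
  have := h.inter h.nil (h.compl _ h.nil)
  rwa [Set.inter_compl_self] at this

theorem univ (h : Good C) : C Set.univ := by
  have := h.compl _ h.empty
  rwa [Set.compl_empty] at this

theorem iUnion (h : Good C) {ι : Type*} [Finite ι] {L : ι → Set (List A)} (hL : ∀ i, C (L i)) :
    C (⋃ i, L i) := by
  classical
  have key : ∀ s : Set ι, s.Finite → C (⋃ i ∈ s, L i) := by
    intro s hs
    refine Set.Finite.induction_on (motive := fun s _ => C (⋃ i ∈ s, L i)) s hs ?_ ?_
    · simpa using h.empty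
    · intro a s _ _ ih
      rw [Set.biUnion_insert]
      exact h.union _ _ (hL a) ih
  have := key Set.univ Set.finite_univ
  simpa using this

theorem const (h : Good C) (p : Prop) : C {_w | p} := by
  by_cases hp : p
  · have : ({_w : List A | p} : Set (List A)) = Set.univ := by ext; simp [hp]
    rw [this]; exact h.univ
  · have : ({_w : List A | p} : Set (List A)) = ∅ := by ext; simp [hp]
    rw [this]; exact h.empty

end Good

/-! ### finite monoids -/

theorem exists_idem_pow {M : Type*} [Monoid M] [Finite M] (x : M) :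
    ∃ n, 0 < n ∧ x ^ n * x ^ n = x ^ n := by
  obtain ⟨i, j, hij, h⟩ := Finite.exists_ne_map_eq_of_infinite (fun n : ℕ => x ^ n)
  wlog hlt : i < j generalizing i j
  · exact this j i (Ne.symm hij) h.symm (lt_of_le_of_ne (not_lt.mp hlt) (Ne.symm hij))
  obtain ⟨p, rfl⟩ : ∃ p, j = i + p := ⟨j - i, by omega⟩
  have hp : 0 < p := by omega
  have h1 : ∀ m, i ≤ m → x ^ (m + p) = x ^ m := by
    intro m hm
    obtain ⟨r, rfl⟩ : ∃ r, m = i + r := ⟨m - i, by omega⟩
    rw [show i + r + p = (i + p) + r by ring, pow_add x (i + p) r, ← h, ← pow_add]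
  have h2 : ∀ k m, i ≤ m → x ^ (m + k * p) = x ^ m := by
    intro k
    induction k with
    | zero => intro m _; simp
    | succ k ih =>
      intro m hm
      rw [show m + (k + 1) * p = (m + k * p) + p by ring, h1 _ (by omega), ih m hm]
  refine ⟨(i + 1) * p, Nat.mul_pos (by omega) hp, ?_⟩
  rw [← pow_add]
  exact h2 (i + 1) _ (by nlinarith)

/-! ### local divisors -/

/-- the local divisor `cM ∩ Mc` -/
def LD {M : Type u} [Monoid M] (c : M) : Type u :=
  {x : M // (∃ y, x = c * y) ∧ (∃ y, x = y * c)}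

namespace LD

variable {M : Type u} [Monoid M] {c : M}

noncomputable def lq (x : LD c) : M := x.2.2.choose

theorem lq_spec (x : LD c) : x.1 = lq x * c := x.2.2.choose_spec

noncomputable instance : Mul (LD c) where
  mul x y := ⟨lq x * y.1, by
    obtain ⟨y', hy'⟩ := y.2.1
    obtain ⟨x', hx'⟩ := x.2.1
    refine ⟨⟨x' * y', ?_⟩, ⟨lq x * lq y, ?_⟩⟩
    · rw [← mul_assoc, ← hx', lq_spec x, hy', mul_assoc]
    · rw [mul_assoc, ← lq_spec y]⟩

theorem mul_val (x y : LD c) : (x * y).1 = lq x * y.1 := rfl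

theorem mul_val' {x y : LD c} {a : M} (h : x.1 = a * c) : (x * y).1 = a * y.1 := by
  obtain ⟨y', hy'⟩ := y.2.1
  rw [mul_val, hy', ← mul_assoc, ← mul_assoc, ← lq_spec, h]

theorem mul_val'' {x y : LD c} {b : M} (h : y.1 = c * b) : (x * y).1 = x.1 * b := by
  rw [mul_val, h, ← mul_assoc, ← lq_spec]

noncomputable instance : One (LD c) where
  one := ⟨c, ⟨1, by simp⟩, ⟨1, by simp⟩⟩

theorem one_val : (1 : LD c).1 = c := rfl

noncomputable instance : Monoid (LD c) where
  mul_assoc x y z := by
    apply Subtype.ext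
    have h1 : (x * y).1 = (lq x * lq y) * c := by
      rw [mul_val, mul_assoc, ← lq_spec]
    rw [mul_val' h1, mul_val x, mul_val y, mul_assoc]
  one_mul x := by
    apply Subtype.ext
    rw [mul_val' (x := (1 : LD c)) (a := 1) (by rw [one_val, one_mul]), one_mul]
  mul_one x := by
    apply Subtype.ext
    rw [mul_val, one_val, ← lq_spec]

instance [Finite M] : Finite (LD c) := by
  unfold LD; infer_instance

theorem card_lt [Finite M] (hc : ¬ IsUnit c) : Nat.card (LD c) < Nat.card M := by
  classical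
  have := Fintype.ofFinite M
  have := Fintype.ofFinite (LD c)
  rw [Nat.card_eq_fintype_card, Nat.card_eq_fintype_card]
  refine Fintype.card_lt_of_injective_of_notMem (f := fun x : LD c => x.1)
    (fun x y h => Subtype.ext h) (b := 1) ?_
  rintro ⟨x, hx⟩
  simp only at hx
  obtain ⟨y, hy⟩ := x.2.1
  obtain ⟨z, hz⟩ := x.2.2
  rw [hx] at hy hz
  apply hc
  have e : z = y := by
    calc z = z * 1 := (mul_one z).symm
      _ = z * (c * y) := by rw [← hy]
      _ = (z * c) * y := (mul_assoc _ _ _).symm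
      _ = y := by rw [← hz, one_mul]
  exact ⟨⟨c, y, hy.symm, by rw [← e]; exact hz.symm⟩, rfl⟩

end LD

/-! ### coding by the occurrences of one letter -/

section enc

variable {A : Type u} (c₀ : A)

/-- letters different from `c₀` -/
abbrev Bt : Type u := {a : A // a ≠ c₀}

/-- words without `c₀` -/
def inj (v : List (Bt c₀)) : List A := v.map Subtype.val

theorem inj_injective : Function.Injective (inj c₀) :=
  List.map_injective_iff.2 Subtype.val_injective

theorem inj_append (v v' : List (Bt c₀)) : inj c₀ (v ++ v') = inj c₀ v ++ inj c₀ v' := by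
  simp [inj]

theorem exists_inj {w : List A} : (∃ v, inj c₀ v = w) ↔ c₀ ∉ w := by
  constructor
  · rintro ⟨v, rfl⟩ h
    obtain ⟨b, _, hb⟩ := List.mem_map.1 h
    exact b.2 hb
  · intro h
    induction w with
    | nil => exact ⟨[], rfl⟩
    | cons a w ih =>
      obtain ⟨v, hv⟩ := ih (fun h' => h (List.mem_cons_of_mem _ h'))
      have ha : a ≠ c₀ := fun e => h (e ▸ List.mem_cons_self)
      exact ⟨⟨a, ha⟩ :: v, by simp [inj, ← hv]⟩

/-- `v₁ c v₂ c ... v_k c` -/
def enc : List (List (Bt c₀)) → List A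
  | [] => []
  | v :: vs => inj c₀ v ++ c₀ :: enc vs

theorem enc_append (vs vs' : List (List (Bt c₀))) : enc c₀ (vs ++ vs') = enc c₀ vs ++ enc c₀ vs' := by
  induction vs with
  | nil => rfl
  | cons v vs ih => simp [enc, ih]

theorem split_inj : ∀ (v v' : List (Bt c₀)) (r r' : List A),
    inj c₀ v ++ c₀ :: r = inj c₀ v' ++ c₀ :: r' → v = v' ∧ r = r'
  | [], [], r, r', h => by simpa [inj] using h
  | [], b :: v', r, r', h => by
    have : c₀ = b.1 := by simpa [inj] using (List.cons.inj h).1
    exact absurd this.symm b.2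
  | a :: v, [], r, r', h => by
    have : a.1 = c₀ := by simpa [inj] using (List.cons.inj h).1
    exact absurd this a.2
  | a :: v, b :: v', r, r', h => by
    have h' := List.cons.inj h
    obtain ⟨e1, e2⟩ := split_inj v v' r r' h'.2
    have e3 : a = b := Subtype.ext h'.1
    exact ⟨by rw [e1, e3], e2⟩

theorem enc_injective : Function.Injective (enc c₀) := by
  intro vs
  induction vs with
  | nil =>
    intro vs' h
    cases vs' with
    | nil => rfl
    | cons v vs' => simp [enc] at h
  | cons v vs ih =>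
    intro vs' h
    cases vs' with
    | nil => simp [enc] at h
    | cons v' vs' =>
      obtain ⟨e1, e2⟩ := split_inj c₀ v v' _ _ h
      rw [e1, ih e2]

theorem exists_enc (r : List A) : ∃ vs v, r = enc c₀ vs ++ inj c₀ v := by
  classical
  induction r with
  | nil => exact ⟨[], [], rfl⟩
  | cons a r ih =>
    obtain ⟨vs, v, h⟩ := ih
    by_cases ha : a = c₀
    · subst ha
      exact ⟨[] :: vs, v, by simp [enc, inj, h]⟩
    · cases vs with
      | nil => exact ⟨[], ⟨a, ha⟩ :: v, by simp [enc, inj, h]⟩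
      | cons u vs => exact ⟨(⟨a, ha⟩ :: u) :: vs, v, by simp [enc, inj, h]⟩

theorem range_enc : Set.range (enc c₀) = {[]} ∪ cat Set.univ {[c₀]} := by
  ext w
  constructor
  · rintro ⟨vs, rfl⟩
    induction vs using List.reverseRecOn with
    | nil => exact Or.inl rfl
    | append_singleton vs v _ =>
      refine Or.inr ⟨enc c₀ vs ++ inj c₀ v, trivial, [c₀], rfl, ?_⟩
      rw [enc_append]
      simp [enc]
  · rintro (rfl | ⟨r, _, y, hy, rfl⟩)
    · exact ⟨[], rfl⟩
    · obtain rfl : y = [c₀] := hy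
      obtain ⟨vs, v, rfl⟩ := exists_enc c₀ r
      exact ⟨vs ++ [v], by rw [enc_append]; simp [enc]⟩

theorem range_inj : Set.range (inj c₀) = (cat (cat Set.univ {[c₀]}) Set.univ)ᶜ := by
  ext w
  constructor
  · rintro hv ⟨x, ⟨y, _, z, hz, rfl⟩, t, _, rfl⟩
    obtain rfl : z = [c₀] := hz
    exact (exists_inj c₀).1 hv (by simp)
  · intro h
    refine (exists_inj c₀).2 fun hm => h ?_
    obtain ⟨x, t, rfl⟩ := List.append_of_mem hm
    exact ⟨x ++ [c₀], ⟨x, trivial, [c₀], rfl, rfl⟩, t, trivial, by simp⟩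

theorem image_cat {B : Type u} (i : List B → List A) (hi : ∀ x y, i (x ++ y) = i x ++ i y)
    (L L' : Set (List B)) : i '' (cat L L') = cat (i '' L) (i '' L') := by
  ext w
  constructor
  · rintro ⟨_, ⟨x, hx, y, hy, rfl⟩, rfl⟩
    exact ⟨i x, ⟨x, hx, rfl⟩, i y, ⟨y, hy, rfl⟩, (hi x y).symm⟩
  · rintro ⟨_, ⟨x, hx, rfl⟩, _, ⟨y, hy, rfl⟩, rfl⟩
    exact ⟨x ++ y, ⟨x, hx, y, hy, rfl⟩, hi x y⟩

theorem good_inj {C : Set (List A) → Prop} (hC : Good C) :
    Good (fun L : Set (List (Bt c₀)) => C (inj c₀ '' L)) where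
  compl L hL := by
    have e : inj c₀ '' Lᶜ = Set.range (inj c₀) ∩ (inj c₀ '' L)ᶜ := by
      ext w
      constructor
      · rintro ⟨v, hv, rfl⟩
        exact ⟨⟨v, rfl⟩, fun ⟨v', hv', e⟩ => hv (inj_injective c₀ e ▸ hv')⟩
      · rintro ⟨⟨v, rfl⟩, h⟩
        exact ⟨v, fun hv => h ⟨v, hv, rfl⟩, rfl⟩
    rw [e, range_inj]
    exact hC.inter (hC.compl _ (hC.mul _ _ (hC.mul _ _ hC.univ (hC.letter c₀)) hC.univ))
      (hC.compl _ hL)
  union L L' hL hL' := by rw [Set.image_union]; exact hC.union _ _ hL hL'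
  mul L L' hL hL' := by
    rw [image_cat _ (inj_append c₀)]
    exact hC.mul _ _ hL hL'
  nil := by
    have : inj c₀ '' {[]} = {[]} := by simp [inj]
    rw [this]; exact hC.nil
  letter b := by
    have : inj c₀ '' {[b]} = {[b.1]} := by simp [inj]
    rw [this]; exact hC.letter _

variable {M T : Type u} [Monoid M] [Monoid T] (f : A → M) (g : A → T)

/-- the new alphabet -/
def Sg : Type u := {p : M × T // ∃ v : List (Bt c₀), (ev f (inj c₀ v), ev g (inj c₀ v)) = p}

instance [Finite M] [Finite T] : Finite (Sg c₀ f g) := by unfold Sg; infer_instance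

def lab1 (v : List (Bt c₀)) : Sg c₀ f g := ⟨(ev f (inj c₀ v), ev g (inj c₀ v)), v, rfl⟩

def lab (vs : List (List (Bt c₀))) : List (Sg c₀ f g) := vs.map (lab1 c₀ f g)

theorem lab_append (vs vs' : List (List (Bt c₀))) :
    lab c₀ f g (vs ++ vs') = lab c₀ f g vs ++ lab c₀ f g vs' := by simp [lab]

theorem lab_surj (W : List (Sg c₀ f g)) : ∃ vs, lab c₀ f g vs = W := by
  induction W with
  | nil => exact ⟨[], rfl⟩
  | cons p W ih =>
    obtain ⟨vs, h⟩ := ih
    obtain ⟨p, v, hv⟩ := p
    exact ⟨v :: vs, by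
      rw [← h]
      show lab1 c₀ f g v :: lab c₀ f g vs = _
      congr 1
      exact Subtype.ext hv⟩

def nf (p : Sg c₀ f g) : LD (f c₀) :=
  ⟨f c₀ * p.1.1 * f c₀, ⟨p.1.1 * f c₀, mul_assoc _ _ _⟩, ⟨f c₀ * p.1.1, rfl⟩⟩

def ng (p : Sg c₀ f g) : T := p.1.2 * g c₀

theorem ev_nf (vs : List (List (Bt c₀))) :
    (ev (nf c₀ f g) (lab c₀ f g vs)).1 = f c₀ * ev f (enc c₀ vs) := by
  induction vs with
  | nil => simp [lab, enc, LD.one_val]
  | cons v vs ih =>
    have e : ev (nf c₀ f g) (lab c₀ f g (v :: vs)) =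
        nf c₀ f g (lab1 c₀ f g v) * ev (nf c₀ f g) (lab c₀ f g vs) := by simp [lab]
    rw [e, LD.mul_val' (a := f c₀ * ev f (inj c₀ v)) rfl, ih]
    simp [enc, mul_assoc]

theorem ev_ng (vs : List (List (Bt c₀))) :
    ev (ng c₀ f g) (lab c₀ f g vs) = ev g (enc c₀ vs) := by
  induction vs with
  | nil => simp [lab, enc]
  | cons v vs ih =>
    have e : ev (ng c₀ f g) (lab c₀ f g (v :: vs)) =
        ng c₀ f g (lab1 c₀ f g v) * ev (ng c₀ f g) (lab c₀ f g vs) := by simp [lab]
    rw [e, ih]
    simp [enc, ng, lab1, mul_assoc]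

theorem good_enc {C : Set (List A) → Prop} (hC : Good C)
    (hlet : ∀ s : Sg c₀ f g, C (inj c₀ '' {v | lab1 c₀ f g v = s})) :
    Good (fun K : Set (List (Sg c₀ f g)) => C (enc c₀ '' (lab c₀ f g ⁻¹' K))) where
  compl K hK := by
    have e : enc c₀ '' (lab c₀ f g ⁻¹' Kᶜ) =
        Set.range (enc c₀) ∩ (enc c₀ '' (lab c₀ f g ⁻¹' K))ᶜ := by
      ext w
      constructor
      · rintro ⟨v, hv, rfl⟩
        exact ⟨⟨v, rfl⟩, fun ⟨v', hv', e⟩ => hv (enc_injective c₀ e ▸ hv')⟩
      · rintro ⟨⟨v, rfl⟩, h⟩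
        exact ⟨v, fun hv => h ⟨v, hv, rfl⟩, rfl⟩
    rw [e, range_enc]
    exact hC.inter (hC.union _ _ hC.nil (hC.mul _ _ hC.univ (hC.letter c₀))) (hC.compl _ hK)
  union L L' hL hL' := by
    rw [Set.preimage_union, Set.image_union]; exact hC.union _ _ hL hL'
  mul K K' hK hK' := by
    have e : lab c₀ f g ⁻¹' (cat K K') = cat (lab c₀ f g ⁻¹' K) (lab c₀ f g ⁻¹' K') := by
      ext vs
      constructor
      · rintro ⟨x, hx, y, hy, h⟩
        obtain ⟨v1, v2, rfl, h1, h2⟩ := List.map_eq_append_iff.1 h.symm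
        refine ⟨v1, ?_, v2, ?_, rfl⟩
        · show List.map (lab1 c₀ f g) v1 ∈ K
          rw [h1]; exact hx
        · show List.map (lab1 c₀ f g) v2 ∈ K'
          rw [h2]; exact hy
      · rintro ⟨x, hx, y, hy, rfl⟩
        exact ⟨_, hx, _, hy, (lab_append c₀ f g x y).symm⟩
    rw [e, image_cat _ (enc_append c₀)]
    exact hC.mul _ _ hK hK'
  nil := by
    have : enc c₀ '' (lab c₀ f g ⁻¹' {[]}) = {[]} := by
      ext w
      constructor
      · rintro ⟨vs, hvs, rfl⟩
        have : vs = [] := by simpa [lab] using hvs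
        subst this; rfl
      · rintro rfl
        exact ⟨[], rfl, rfl⟩
    rw [this]; exact hC.nil
  letter s := by
    have : enc c₀ '' (lab c₀ f g ⁻¹' {[s]}) =
        cat (inj c₀ '' {v | lab1 c₀ f g v = s}) {[c₀]} := by
      ext w
      constructor
      · rintro ⟨vs, hvs, rfl⟩
        have h : vs.map (lab1 c₀ f g) = [s] := hvs
        obtain ⟨v, rfl, hv⟩ := List.map_eq_singleton_iff.1 h
        exact ⟨inj c₀ v, ⟨v, hv, rfl⟩, [c₀], rfl, rfl⟩
      · rintro ⟨_, ⟨v, hv, rfl⟩, y, hy, rfl⟩
        obtain rfl : y = [c₀] := hy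
        refine ⟨[v], ?_, rfl⟩
        show [lab1 c₀ f g v] = [s]
        rw [show lab1 c₀ f g v = s from hv]
    rw [this]
    exact hC.mul _ _ (hlet s) (hC.letter c₀)

end enc

/-! ### the theorem -/

theorem units_case {A M T : Type u} [Monoid M] [Finite M] [Monoid T] [Finite T]
    {C : Set (List A) → Prop} (hC : Good C) (f : A → M) (g : A → T) (hu : ∀ a, IsUnit (f a))
    (hT : ∀ t, C {w | ev g w = t})
    (hap : ∀ w, ev g w * ev g w = ev g w → ∃ j, ev f w ^ (j + 1) = ev f w ^ j) (m : M) :
    C {w | ev f w = m} := by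
  have hU : ∀ w, IsUnit (ev f w) := by
    intro w
    induction w with
    | nil => simp
    | cons a w ih => rw [ev_cons]; exact (hu a).mul ih
  have key : ∀ w w', ev g w = ev g w' → ev f w = ev f w' := by
    intro w w' h
    obtain ⟨n, hn, hid⟩ := exists_idem_pow ((ev g w, ev f w) : T × M)
    obtain ⟨k, rfl⟩ : ∃ k, n = k + 1 := ⟨n - 1, by omega⟩
    have h1 : ev g w ^ (k + 1) * ev g w ^ (k + 1) = ev g w ^ (k + 1) := congrArg Prod.fst hid
    have h2 : ev f w ^ (k + 1) * ev f w ^ (k + 1) = ev f w ^ (k + 1) := congrArg Prod.snd hid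
    have h3 : ev f w ^ (k + 1) = 1 :=
      ((hU w).pow (k + 1)).mul_left_cancel (by rw [h2, mul_one])
    have e1 : ev g (w' ++ (List.replicate k w).flatten) = ev g w ^ (k + 1) := by
      rw [ev_append, ev_rep, ← h, ← pow_succ']
    obtain ⟨j, hj⟩ := hap (w' ++ (List.replicate k w).flatten) (by rw [e1, h1])
    have h4 : ev f (w' ++ (List.replicate k w).flatten) = 1 :=
      ((hU _).pow j).mul_left_cancel (by rw [← pow_succ, hj, mul_one])
    rw [ev_append, ev_rep] at h4
    have h5 : ev f w * ev f w ^ k = 1 := by rw [← pow_succ', h3]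
    exact ((hU w).pow k).mul_right_cancel (h5.trans h4.symm)
  have e : {w | ev f w = m} =
      ⋃ t : {t : T // ∃ w, ev g w = t ∧ ev f w = m}, {w | ev g w = t.1} := by
    ext w
    simp only [Set.mem_ofPred_eq, Set.mem_iUnion]
    constructor
    · intro h
      exact ⟨⟨ev g w, w, rfl, h⟩, rfl⟩
    · rintro ⟨⟨t, w', h1, h2⟩, h⟩
      rw [← h2]
      exact key _ _ (h.trans h1.symm)
  rw [e]
  exact hC.iUnion fun t => hT t.1

theorem main_aux (n : ℕ) : ∀ (k : ℕ) (A M T : Type u) [Finite A] [Monoid M] [Finite M] [Monoid T]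
    [Finite T] (C : Set (List A) → Prop), Good C → ∀ (f : A → M) (g : A → T),
    Nat.card M ≤ n → Nat.card A ≤ k → (∀ t, C {w | ev g w = t}) →
    (∀ w, ev g w * ev g w = ev g w → ∃ j, ev f w ^ (j + 1) = ev f w ^ j) →
    ∀ m, C {w | ev f w = m} := by
  induction n with
  | zero =>
    intro k A M T _ _ _ _ _ C _ f g hM
    have : 0 < Nat.card M := Nat.card_pos
    omega
  | succ n ihn =>
    intro k
    induction k with
    | zero =>
      intro A M T _ _ _ _ _ C hC f g _ hA hT hap m
      have h0 : Nat.card A = 0 := by omega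
      have : IsEmpty A := by
        rcases Nat.card_eq_zero.1 h0 with h | h
        · exact h
        · exact absurd (inferInstance : Finite A) (not_finite_iff_infinite.2 h)
      exact units_case hC f g (fun a => isEmptyElim a) hT hap m
    | succ k ihk =>
      intro A M T _ _ _ _ _ C hC f g hM hA hT hap m
      by_cases hu : ∀ a, IsUnit (f a)
      · exact units_case hC f g hu hT hap m
      push Not at hu
      obtain ⟨c₀, hc⟩ := hu
      have hcard : Nat.card (Bt c₀) < Nat.card A :=
        Finite.card_subtype_lt (x := c₀) (by simp)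
      have hBT : ∀ t, C (inj c₀ '' {v | ev (fun b : Bt c₀ => g b.1) v = t}) := by
        intro t
        have e : inj c₀ '' {v | ev (fun b : Bt c₀ => g b.1) v = t} =
            Set.range (inj c₀) ∩ {w | ev g w = t} := by
          ext w
          constructor
          · rintro ⟨v, hv, rfl⟩
            refine ⟨⟨v, rfl⟩, ?_⟩
            show ev g (inj c₀ v) = t
            rw [inj, ev_map]; exact hv
          · rintro ⟨⟨v, rfl⟩, h⟩
            refine ⟨v, ?_, rfl⟩
            show ev (fun b : Bt c₀ => g b.1) v = t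
            rw [← ev_map]; exact h
        rw [e, range_inj]
        exact hC.inter (hC.compl _ (hC.mul _ _ (hC.mul _ _ hC.univ (hC.letter c₀)) hC.univ)) (hT t)
      have hB : ∀ m, C (inj c₀ '' {v | ev (fun b : Bt c₀ => f b.1) v = m}) :=
        ihk (Bt c₀) M T (fun L => C (inj c₀ '' L)) (good_inj c₀ hC) (fun b => f b.1)
          (fun b => g b.1) hM (by omega) hBT (fun v hv => by
            rw [← ev_map g Subtype.val] at hv
            rw [← ev_map f Subtype.val]
            exact hap _ hv)
      have hlet : ∀ s : Sg c₀ f g, C (inj c₀ '' {v | lab1 c₀ f g v = s}) := by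
        intro s
        have e : inj c₀ '' {v | lab1 c₀ f g v = s} =
            (inj c₀ '' {v | ev (fun b : Bt c₀ => f b.1) v = s.1.1}) ∩
            (inj c₀ '' {v | ev (fun b : Bt c₀ => g b.1) v = s.1.2}) := by
          rw [← Set.image_inter (inj_injective c₀)]
          congr 1
          ext v
          simp only [Set.mem_ofPred_eq, Set.mem_inter_iff]
          rw [← ev_map f Subtype.val, ← ev_map g Subtype.val]
          constructor
          · rintro rfl; exact ⟨rfl, rfl⟩
          · rintro ⟨h1, h2⟩; exact Subtype.ext (Prod.ext h1 h2)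
        rw [e]
        exact hC.inter (hB _) (hBT _)
      have hST : ∀ t, C (enc c₀ '' (lab c₀ f g ⁻¹' {W | ev (ng c₀ f g) W = t})) := by
        intro t
        have e : enc c₀ '' (lab c₀ f g ⁻¹' {W | ev (ng c₀ f g) W = t}) =
            Set.range (enc c₀) ∩ {w | ev g w = t} := by
          ext w
          constructor
          · rintro ⟨vs, hv, rfl⟩
            exact ⟨⟨vs, rfl⟩, (ev_ng c₀ f g vs).symm.trans hv⟩
          · rintro ⟨⟨vs, rfl⟩, h⟩
            exact ⟨vs, (ev_ng c₀ f g vs).trans h, rfl⟩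
        rw [e, range_enc]
        exact hC.inter (hC.union _ _ hC.nil (hC.mul _ _ hC.univ (hC.letter c₀))) (hT t)
      have hS : ∀ x : LD (f c₀), C (enc c₀ '' (lab c₀ f g ⁻¹' {W | ev (nf c₀ f g) W = x})) :=
        ihn (Nat.card (Sg c₀ f g)) (Sg c₀ f g) (LD (f c₀)) T
          (fun K => C (enc c₀ '' (lab c₀ f g ⁻¹' K))) (good_enc c₀ f g hC hlet) (nf c₀ f g)
          (ng c₀ f g) (by have := LD.card_lt hc; omega) le_rfl hST (fun W hW => by
            obtain ⟨vs, rfl⟩ := lab_surj c₀ f g W
            rw [ev_ng] at hW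
            obtain ⟨j, hj⟩ := hap _ hW
            have hpow : ∀ j, (ev (nf c₀ f g) (lab c₀ f g vs) ^ j).1 =
                f c₀ * ev f (enc c₀ vs) ^ j := by
              intro j
              induction j with
              | zero => simp [LD.one_val]
              | succ j ih =>
                rw [pow_succ, LD.mul_val'' (ev_nf c₀ f g vs), ih, pow_succ, mul_assoc]
            exact ⟨j, Subtype.ext (by rw [hpow, hpow, hj])⟩)
      have e : {w | ev f w = m} =
          (inj c₀ '' {v | ev (fun b : Bt c₀ => f b.1) v = m}) ∪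
          ⋃ q : {q : M × LD (f c₀) × M // q.1 * q.2.1.1 * q.2.2 = m},
            cat (inj c₀ '' {v | ev (fun b : Bt c₀ => f b.1) v = q.1.1})
              (cat (cat {[c₀]} (enc c₀ '' (lab c₀ f g ⁻¹' {W | ev (nf c₀ f g) W = q.1.2.1})))
                (inj c₀ '' {v | ev (fun b : Bt c₀ => f b.1) v = q.1.2.2})) := by
        ext w
        constructor
        · intro hw
          have hw' : ev f w = m := hw
          obtain ⟨vs, v, rfl⟩ := exists_enc c₀ w
          cases vs with
          | nil =>
            refine Or.inl ⟨v, ?_, by simp [enc]⟩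
            show ev (fun b : Bt c₀ => f b.1) v = m
            rw [← ev_map, ← hw']; simp [enc, inj]
          | cons v0 vs =>
            refine Or.inr (Set.mem_iUnion.2 ⟨⟨(ev f (inj c₀ v0),
              ev (nf c₀ f g) (lab c₀ f g vs), ev f (inj c₀ v)), ?_⟩, ?_⟩)
            · show ev f (inj c₀ v0) * (ev (nf c₀ f g) (lab c₀ f g vs)).1 * ev f (inj c₀ v) = m
              rw [ev_nf, ← hw']
              simp [enc, mul_assoc]
            · refine ⟨inj c₀ v0, ⟨v0, (ev_map f Subtype.val v0).symm, rfl⟩, [c₀] ++ enc c₀ vs ++ inj c₀ v,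
                ⟨[c₀] ++ enc c₀ vs, ⟨[c₀], rfl, enc c₀ vs, ⟨vs, rfl, rfl⟩, rfl⟩, inj c₀ v,
                ⟨v, (ev_map f Subtype.val v).symm, rfl⟩, rfl⟩, ?_⟩
              simp [enc]
        · rintro (⟨v, hv, rfl⟩ | h)
          · show ev f (inj c₀ v) = m
            rw [inj, ev_map]; exact hv
          · obtain ⟨⟨⟨m0, x, m1⟩, hq⟩, h⟩ := Set.mem_iUnion.1 h
            obtain ⟨_, ⟨v0, hv0, rfl⟩, _, ⟨_, ⟨y, hy, _, ⟨vs, hvs, rfl⟩, rfl⟩, _, ⟨v, hv, rfl⟩, rfl⟩, rfl⟩ := h
            obtain rfl : y = [c₀] := hy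
            have hv0' : ev f (inj c₀ v0) = m0 := (ev_map f Subtype.val v0).trans hv0
            have hv' : ev f (inj c₀ v) = m1 := (ev_map f Subtype.val v).trans hv
            have hx : ev (nf c₀ f g) (lab c₀ f g vs) = x := hvs
            have hq' : m0 * x.1 * m1 = m := hq
            show ev f (inj c₀ v0 ++ ([c₀] ++ enc c₀ vs ++ inj c₀ v)) = m
            rw [← hq', ← hv0', ← hv', ← hx, ev_nf]
            simp [mul_assoc]
      rw [e]
      exact hC.union _ _ (hB m) (hC.iUnion fun q => hC.mul _ _ (hB _)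
        (hC.mul _ _ (hC.mul _ _ (hC.letter c₀) (hS _)) (hB _)))

/-- **Relative Schützenberger theorem.** -/
theorem main {A M T : Type u} [Finite A] [Monoid M] [Finite M] [Monoid T] [Finite T]
    {C : Set (List A) → Prop} (hC : Good C) (f : A → M) (g : A → T)
    (hT : ∀ t, C {w | ev g w = t})
    (hap : ∀ w, ev g w * ev g w = ev g w → ∃ j, ev f w ^ (j + 1) = ev f w ^ j) (m : M) :
    C {w | ev f w = m} :=
  main_aux (Nat.card M) (Nat.card A) A M T C hC f g le_rfl le_rfl hT hap m

end Crest.Agent.R320.Straub786
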