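import Crest.Agent.R320.FinP_882

/-!
# Row 320: the thread of a chain with UNBOUNDED zones is a run of one finite automaton (helper672)

`fin R P T w v = (open zone text, token)` (helper882's `FinP_882`).  If the wall rule `R` has window
`n`, the admissible distances `P` contain every `t ≥ Z`, and the zone map `T` is recognised by a
finite monoid (`T X v = T' (μ X) v`), then the state `(u, v)` can be replaced by the finite summary
`(v, u.take Nb, μ (all but the last n letters), last n letters)`.
-/

set_option autoImplicit false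

namespace Crest.Agent.R320.Summ_672

open R320.FinP882 Classical

universe u v w

variable {α : Type u} {V : Type v} {G : Type w}

/-- the last `n` letters -/
def lst (n : ℕ) (u : List α) : List α := u.drop (u.length - n)

/-- all but the last `n` letters -/
def frt (n : ℕ) (u : List α) : List α := u.take (u.length - n)

theorem frt_lst (n : ℕ) (u : List α) : frt n u ++ lst n u = u := List.take_append_drop _ _

theorem lst_length_le (n : ℕ) (u : List α) : (lst n u).length ≤ n := by
  unfold lst; rw [List.length_drop]; omega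

theorem lst_length (n : ℕ) (u : List α) : (lst n u).length = min u.length n := by
  unfold lst; rw [List.length_drop]; omega

theorem lst_append (n : ℕ) {x y : List α} (h : n ≤ y.length ∨ x = []) :
    lst n (x ++ y) = lst n y := by
  rcases h with h | rfl
  · unfold lst
    rw [List.length_append, show x.length + y.length - n = x.length + (y.length - n) by omega,
      List.drop_append]
    simp
  · simp

theorem frt_append (n : ℕ) {x y : List α} (h : n ≤ y.length ∨ x = []) :
    frt n (x ++ y) = x ++ frt n y := by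
  rcases h with h | rfl
  · unfold frt
    rw [List.length_append, show x.length + y.length - n = x.length + (y.length - n) by omega,
      List.take_append]
    simp
  · simp

theorem snoc_cond (n : ℕ) (u : List α) (a : α) :
    n ≤ (lst n u ++ [a]).length ∨ frt n u = [] := by
  rw [List.length_append, lst_length]
  by_cases h : n ≤ u.length
  · left; simp; omega
  · right
    unfold frt
    rw [show u.length - n = 0 by omega]; simp

theorem snoc_eq (n : ℕ) (u : List α) (a : α) : u ++ [a] = frt n u ++ (lst n u ++ [a]) := by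
  rw [← List.append_assoc, frt_lst]

theorem lst_snoc (n : ℕ) (u : List α) (a : α) : lst n (u ++ [a]) = lst n (lst n u ++ [a]) := by
  conv_lhs => rw [snoc_eq n u a]
  exact lst_append n (snoc_cond n u a)

theorem frt_snoc (n : ℕ) (u : List α) (a : α) :
    frt n (u ++ [a]) = frt n u ++ frt n (lst n u ++ [a]) := by
  conv_lhs => rw [snoc_eq n u a]
  exact frt_append n (snoc_cond n u a)

theorem take_snoc (N : ℕ) (u : List α) (a : α) :
    (u ++ [a]).take N = (u.take N ++ [a]).take N := by
  by_cases h : N ≤ u.length
  · rw [List.take_append_of_le_length h, List.take_append_of_le_length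
      (by rw [List.length_take]; omega), List.take_take]
    simp
  · rw [List.take_of_length_le (l := u) (by omega)]

/-- data: wall rule with window `n`, admissible distances, zone map recognised by `μ` -/
structure Data (α : Type u) (V : Type v) (G : Type w) [Monoid G] where
  R : List α → Prop
  n : ℕ
  P : ℕ → Prop
  T : List α → V → V
  Z : ℕ
  Nb : ℕ
  μ : List α → G
  T' : G → V → V
  hR : IsRule R n
  hP : ∀ t, P t → 0 < t
  hZ : ∀ t, Z ≤ t → P t
  hNb : Z + n ≤ Nb
  hμ : ∀ x y, μ (x ++ y) = μ x * μ y
  hμ0 : μ [] = 1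
  hT : ∀ X v, T X v = T' (μ X) v

namespace Data

variable [Monoid G] (D : Data α V G)

/-- summaries -/
def Sm : Type (max u v w) :=
  {q : V × List α × G × List α // q.2.1.length ≤ D.Nb ∧ q.2.2.2.length ≤ D.n}

instance [Finite α] [Finite V] [Finite G] : Finite D.Sm := by
  have h1 : Finite {l : List α // l.length ≤ D.Nb} := List.finite_length_le α D.Nb
  have h2 : Finite {l : List α // l.length ≤ D.n} := List.finite_length_le α D.n
  let f : D.Sm → V × {l : List α // l.length ≤ D.Nb} × G × {l : List α // l.length ≤ D.n} :=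
    fun q => (q.1.1, ⟨q.1.2.1, q.2.1⟩, q.1.2.2.1, ⟨q.1.2.2.2, q.2.2⟩)
  refine Finite.of_injective f ?_
  rintro ⟨⟨a, b, c, d⟩, h⟩ ⟨⟨a', b', c', d'⟩, h'⟩ he
  simp only [f, Prod.mk.injEq, Subtype.mk.injEq] at he
  obtain ⟨rfl, rfl, rfl, rfl⟩ := he
  rfl

/-- the summary of an open zone text and a token -/
def pi (s : List α × V) : D.Sm :=
  ⟨(s.2, s.1.take D.Nb, D.μ (frt D.n s.1), lst D.n s.1),
    by rw [List.length_take]; omega, lst_length_le _ _⟩

theorem pi_eq {s s' : List α × V} (h : D.pi s = D.pi s') :
    s.2 = s'.2 ∧ s.1.take D.Nb = s'.1.take D.Nb ∧ D.μ (frt D.n s.1) = D.μ (frt D.n s'.1) ∧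
      lst D.n s.1 = lst D.n s'.1 := by
  have h1 := congrArg Subtype.val h
  simp only [pi, Prod.mk.injEq] at h1
  exact h1

theorem pi_mu {s s' : List α × V} (h : D.pi s = D.pi s') : D.μ s.1 = D.μ s'.1 := by
  obtain ⟨_, _, h3, h4⟩ := D.pi_eq h
  rw [← frt_lst D.n s.1, ← frt_lst D.n s'.1, D.hμ, D.hμ, h3, h4]

/-- the letter step of the thread -/
noncomputable def fstep (s : List α × V) (a : α) : List α × V :=
  fin D.R D.P D.T (s.1 ++ [a]) s.2

/-- one letter: the only new wall which can be visible is the one `n` letters back -/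
theorem hasW_snoc {u : List α} (h : ¬ HasW D.R D.P u) (a : α) :
    HasW D.R D.P (u ++ [a]) ↔ D.R (lst D.n (u ++ [a])) ∧ D.P ((u ++ [a]).length - D.n) := by
  constructor
  · rintro ⟨t, h1, h2⟩
    have h3 := D.hR.len _ h2
    rw [List.length_drop] at h3
    have hpos := D.hR.pos
    have h4 : (u ++ [a]).length = u.length + 1 := by simp
    by_cases h5 : t + D.n ≤ u.length
    · exfalso
      apply h
      refine ⟨t, h1, ?_⟩
      have h6 : (u ++ [a]).drop t = u.drop t ++ [a] := List.drop_append_of_le_length (by omega)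
      rw [h6] at h2
      exact (D.hR.append (by rw [List.length_drop]; omega) [a]).1 h2
    · have h7 : t = (u ++ [a]).length - D.n := by omega
      rw [← h7]
      refine ⟨?_, h1⟩
      unfold lst
      rw [← h7]; exact h2
  · rintro ⟨h1, h2⟩
    exact ⟨_, h2, h1⟩

theorem fstep_wall {u : List α} (h : ¬ HasW D.R D.P u) (a : α) (v : V)
    (hw : HasW D.R D.P (u ++ [a])) :
    D.fstep (u, v) a = (lst D.n (u ++ [a]), D.T (frt D.n (u ++ [a])) v) := by
  obtain ⟨t, ht⟩ := hw.exists_fw
  have h3 := D.hR.len _ ht.2.1
  have hpos := D.hR.pos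
  rw [List.length_drop] at h3
  have h4 : (u ++ [a]).length = u.length + 1 := by simp
  have h5 : ¬ (t + D.n ≤ u.length) := by
    intro h5
    apply h
    refine ⟨t, ht.1, ?_⟩
    have h6 : (u ++ [a]).drop t = u.drop t ++ [a] := List.drop_append_of_le_length (by omega)
    have h2 := ht.2.1
    rw [h6] at h2
    exact (D.hR.append (by rw [List.length_drop]; omega) [a]).1 h2
  have h7 : t = (u ++ [a]).length - D.n := by omega
  unfold fstep
  simp only
  rw [fin_fw D.hR D.hP ht, fin_not, h7]
  · rfl
  · rintro ⟨s, hs1, hs2⟩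
    have h8 := D.hR.len _ hs2
    have h9 := D.hP s hs1
    rw [List.length_drop, List.length_drop] at h8
    omega

theorem fstep_open {u : List α} (a : α) (v : V) (hw : ¬ HasW D.R D.P (u ++ [a])) :
    D.fstep (u, v) a = (u ++ [a], v) := by
  unfold fstep
  exact fin_not hw

theorem P_cond (u : List α) (a : α) :
    D.P ((u ++ [a]).length - D.n) ↔
      ((u.take D.Nb).length < D.Nb → D.P ((u.take D.Nb).length + 1 - D.n)) := by
  have h4 : (u ++ [a]).length = u.length + 1 := by simp
  rw [h4, List.length_take]
  by_cases h : u.length < D.Nb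
  · rw [show min D.Nb u.length = u.length by omega]
    exact ⟨fun h' _ => h', fun h' => h' h⟩
  · rw [show min D.Nb u.length = D.Nb by omega]
    have := D.hNb
    exact ⟨fun _ h' => (lt_irrefl _ h').elim, fun _ => D.hZ _ (by omega)⟩

/-- the letter step of the summary automaton -/
noncomputable def stp (q : D.Sm) (a : α) : D.Sm :=
  if D.R (lst D.n (q.1.2.2.2 ++ [a])) ∧
      (q.1.2.1.length < D.Nb → D.P (q.1.2.1.length + 1 - D.n)) then
    D.pi (lst D.n (q.1.2.2.2 ++ [a]),
      D.T' (q.1.2.2.1 * D.μ (frt D.n (q.1.2.2.2 ++ [a]))) q.1.1)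
  else
    ⟨(q.1.1, (q.1.2.1 ++ [a]).take D.Nb, q.1.2.2.1 * D.μ (frt D.n (q.1.2.2.2 ++ [a])),
      lst D.n (q.1.2.2.2 ++ [a])), by
        show ((q.1.2.1 ++ [a]).take D.Nb).length ≤ D.Nb
        rw [List.length_take]; omega, lst_length_le _ _⟩

/-- **THE SUMMARY IS A RUN OF A FINITE AUTOMATON** -/
theorem pi_fstep {u : List α} (h : ¬ HasW D.R D.P u) (v : V) (a : α) :
    D.pi (D.fstep (u, v) a) = D.stp (D.pi (u, v)) a := by
  have e1 : lst D.n (u ++ [a]) = lst D.n (lst D.n u ++ [a]) := lst_snoc _ _ _
  have e2 : D.μ (frt D.n (u ++ [a])) = D.μ (frt D.n u) * D.μ (frt D.n (lst D.n u ++ [a])) := by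
    rw [frt_snoc, D.hμ]
  by_cases hw : HasW D.R D.P (u ++ [a])
  · have h1 := (D.hasW_snoc h a).1 hw
    rw [D.fstep_wall h a v hw]
    unfold stp
    rw [if_pos]
    · simp only [pi]
      rw [D.hT, e2, e1]
    · refine ⟨?_, ?_⟩
      · have := h1.1
        rw [e1] at this
        exact this
      · exact (D.P_cond u a).1 h1.2
  · rw [D.fstep_open a v hw]
    unfold stp
    rw [if_neg]
    · apply Subtype.ext
      simp only [pi]
      rw [e2, e1, take_snoc]
    · rintro ⟨h1, h2⟩
      apply hw
      refine (D.hasW_snoc h a).2 ⟨?_, (D.P_cond u a).2 h2⟩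
      rw [e1]; exact h1

/-- the whole run: reading `w` after the open zone text `u0` with the token `v0` -/
theorem pi_fin {u0 : List α} (h0 : ¬ HasW D.R D.P u0) (v0 : V) (w : List α) :
    w.foldl D.stp (D.pi (u0, v0)) = D.pi (fin D.R D.P D.T (u0 ++ w) v0) := by
  induction w using List.reverseRecOn with
  | nil => simp only [List.foldl_nil, List.append_nil]; rw [fin_not h0]
  | append_singleton w a ih =>
    rw [List.foldl_append, ih]
    simp only [List.foldl_cons, List.foldl_nil]
    have h1 := fin_open D.hR D.hP (T := D.T) (u0 ++ w) v0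
    rw [← D.pi_fstep h1]
    unfold fstep
    rw [← fin_append D.hR D.hP, List.append_assoc]

end Data

end Crest.Agent.R320.Summ_672
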