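import Crest.Agent.R320.Sumset_791

/-!
Row 320, the constant-content gadget in the form wanted by 164 #13080 / 178 #13060 / 865 #13053:
labels normalised at clock `0`, `N`-periodic, every total, `t ∣ o`, both clocks at least `o0`.
-/

set_option autoImplicit false

namespace Crest.Agent.R320.Sumset791

theorem exists_SG_norm (t : ℕ) (ht : 0 < t) {ι : Type} [Finite ι] :
    ∃ (M : ℕ) (A B : ZMod M → Option (ι → ZMod 2)) (P : ZMod M → (ι → ZMod 2)),
      0 < M ∧ Nat.Coprime M t ∧
      (∀ j k a b, A j = some a → B k = some b → b = a + P (j + k)) ∧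
      A 0 = some 0 ∧ B 0 = some 0 ∧
      (∀ T a, ∃ j, A j = some a ∧ (B (T - j)).isSome) := by
  classical
  have : Fintype ι := Fintype.ofFinite ι
  obtain ⟨M, hM, hMt, hSG⟩ := exists_SG t ht (Fintype.card ι)
  have e := Fintype.equivFin ι
  have E : (Fin (Fintype.card ι) → ZMod 2) ≃+ (ι → ZMod 2) :=
    { toFun := fun v i => v (e i)
      invFun := fun w k => w (e.symm k)
      left_inv := fun v => by funext k; simp
      right_inv := fun w => by funext i; simp
      map_add' := fun v w => rfl }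
  obtain ⟨A, B, P, hs, hc⟩ := hSG.congr (AddEquiv.refl _) E
  obtain ⟨j0, hj0, hj0'⟩ := hc 0 0
  obtain ⟨b0, hb0⟩ := Option.isSome_iff_exists.1 hj0'
  refine ⟨M, fun j => A (j + j0), fun k => (B (k - j0)).map (fun b => b - b0),
    fun T => P T - b0, hM, hMt, ?_, ?_, ?_, ?_⟩
  · intro j k a b hA hB
    obtain ⟨c, hcc, rfl⟩ := Option.map_eq_some_iff.1 hB
    have h1 := hs _ _ _ _ hA hcc
    have h2 : j + j0 + (k - j0) = j + k := by ring
    rw [h2] at h1
    simp only [h1]
    abel
  · simpa using hj0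
  · simp only
    rw [hb0]
    simp
  · intro T a
    obtain ⟨j, hj, hj'⟩ := hc T a
    refine ⟨j - j0, ?_, ?_⟩
    · simpa using hj
    · simp only [Option.isSome_map]
      have h2 : T - (j - j0) - j0 = T - j := by ring
      rw [h2]
      exact hj'

/-- **constant-content gadget, natural-number form, normalised at `0`** -/
theorem nat_gadget (t : ℕ) (ht : 0 < t) (ι : Type) [Finite ι] :
    ∃ (N : ℕ) (l r : ℕ → Option (ι → ZMod 2)) (p : ℕ → (ι → ZMod 2)),
      0 < N ∧ Nat.Coprime N t ∧ (∀ o, l (o + N) = l o) ∧ (∀ o, r (o + N) = r o) ∧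
      (∀ o, p (o + N) = p o) ∧
      (∀ o o' a b, l o = some a → r o' = some b → b = a + p (o + o')) ∧
      l 0 = some 0 ∧ r 0 = some 0 ∧
      (∀ o0 T v, 2 * o0 + N * t ≤ T → ∃ o o', o + o' = T ∧ t ∣ o ∧ o0 ≤ o ∧ o < o0 + N * t ∧
        o0 ≤ o' ∧ l o = some v ∧ (r o').isSome) := by
  classical
  obtain ⟨M, A, B, P, hM, hMt, hs, hA0, hB0, hc⟩ := exists_SG_norm t ht (ι := ι)
  have : NeZero M := ⟨by omega⟩
  refine ⟨M, fun o => A (o : ZMod M), fun o => B (o : ZMod M), fun o => P (o : ZMod M), hM, hMt,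
    fun o => by simp, fun o => by simp, fun o => by simp, ?_, by simpa using hA0,
    by simpa using hB0, ?_⟩
  · intro o o' a b h1 h2
    have := hs _ _ _ _ h1 h2
    push_cast
    exact this
  · intro o0 T v hT
    obtain ⟨c, hcA, hcB⟩ := hc (T : ZMod M) v
    obtain ⟨x, hx1, hx2⟩ := Nat.chineseRemainder hMt c.val 0
    obtain ⟨o, ho1, ho2, ho3⟩ := exists_modEq_window (M * t) x o0 (Nat.mul_pos hM ht)
    have hoM : (o : ZMod M) = c := by
      have h1 : o ≡ c.val [MOD M] := (Nat.ModEq.of_mul_right t ho3).trans hx1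
      have h2 := (ZMod.natCast_eq_natCast_iff _ _ _).2 h1
      rw [h2, ZMod.natCast_val, ZMod.cast_id]
    have hot : t ∣ o := by
      have h1 : o ≡ 0 [MOD t] := (Nat.ModEq.of_mul_left M ho3).trans hx2
      exact (Nat.modEq_zero_iff_dvd).1 h1
    refine ⟨o, T - o, by omega, hot, ho1, ho2, by omega, ?_, ?_⟩
    · simp only [hoM, hcA]
    · have h2 : ((T - o : ℕ) : ZMod M) = (T : ZMod M) - c := by
        rw [Nat.cast_sub (by omega), hoM]
      simp only [h2]
      exact hcB

end Crest.Agent.R320.Sumset791
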