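import Mathlib

/-!
Sumset gadgets (row 320, item 10): clocks `K`, tokens `V`.  The left side reads a clock value `a`,
the right side a clock value `b`, `a + b = t` is unknown to both.  `A v` are the left values which
carry the token `v`, `B w` the right values with label `w`, `P t` the noise of the total `t`.
General layer family (read off from the computer solutions of helper550) for every odd
`m = 2 h + 1 >= 9` and every `k >= 3`, products, and pairwise coprime moduli.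
-/

set_option autoImplicit false

namespace Crest.Agent.R320.Sumset526

/-- a sumset gadget on the clock group `K` with token group `V` -/
def SG (V K : Type*) [AddCommGroup V] [AddCommGroup K] : Prop :=
  ∃ (A B : V → Set K) (P : K → V),
    (∀ v w a b, a ∈ A v → b ∈ B w → P (a + b) = v + w) ∧
    (∀ t v, ∃ a b, a ∈ A v ∧ b ∈ B (P t - v) ∧ a + b = t)

theorem SG.prod {V V' K K' : Type*} [AddCommGroup V] [AddCommGroup V'] [AddCommGroup K]
    [AddCommGroup K'] (h : SG V K) (h' : SG V' K') : SG (V × V') (K × K') := by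
  obtain ⟨A, B, P, h1, h2⟩ := h
  obtain ⟨A', B', P', h1', h2'⟩ := h'
  refine ⟨fun v => {x | x.1 ∈ A v.1 ∧ x.2 ∈ A' v.2}, fun v => {x | x.1 ∈ B v.1 ∧ x.2 ∈ B' v.2},
    fun x => (P x.1, P' x.2), ?_, ?_⟩
  · rintro ⟨v, v'⟩ ⟨w, w'⟩ ⟨a, a'⟩ ⟨b, b'⟩ ⟨ha, ha'⟩ ⟨hb, hb'⟩
    exact Prod.ext (h1 _ _ _ _ ha hb) (h1' _ _ _ _ ha' hb')
  · rintro ⟨t, t'⟩ ⟨v, v'⟩
    obtain ⟨a, b, ha, hb, hab⟩ := h2 t v
    obtain ⟨a', b', ha', hb', hab'⟩ := h2' t' v'
    exact ⟨(a, a'), (b, b'), ⟨ha, ha'⟩, ⟨hb, hb'⟩, Prod.ext hab hab'⟩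

theorem SG.congr {V V' K K' : Type*} [AddCommGroup V] [AddCommGroup V'] [AddCommGroup K]
    [AddCommGroup K'] (f : V ≃+ V') (e : K ≃+ K') (h : SG V K) : SG V' K' := by
  obtain ⟨A, B, P, h1, h2⟩ := h
  refine ⟨fun v => {x | e.symm x ∈ A (f.symm v)}, fun v => {x | e.symm x ∈ B (f.symm v)},
    fun x => f (P (e.symm x)), ?_, ?_⟩
  · intro v w a b ha hb
    have h3 := h1 _ _ _ _ ha hb
    show f (P (e.symm (a + b))) = v + w
    rw [map_add, h3, map_add]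
    simp
  · intro t v
    obtain ⟨a, b, ha, hb, hab⟩ := h2 (e.symm t) (f.symm v)
    refine ⟨e a, e b, by simpa using ha, ?_, by rw [← map_add, hab]; simp⟩
    simpa using hb

/-- vals add modulo `m` -/
theorem val_add_cases {m : ℕ} [NeZero m] (a b : ZMod m) :
    ((a + b).val = a.val + b.val ∨ (a + b).val + m = a.val + b.val) ∧ (a + b).val < m := by
  refine ⟨?_, ZMod.val_lt _⟩
  rcases lt_or_ge (a.val + b.val) m with h | h
  · left; exact ZMod.val_add_of_lt h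
  · right; exact (ZMod.val_add_val_of_le h).symm

theorem split_nz {k : ℕ} (hk : 3 ≤ k) (y : ZMod k) : ∃ a b : ZMod k, a ≠ 0 ∧ b ≠ 0 ∧ a + b = y := by
  have : NeZero k := ⟨by omega⟩
  have : Fact (1 < k) := ⟨by omega⟩
  have h1 : (1 : ZMod k) ≠ 0 := by
    intro h
    have := congrArg ZMod.val h
    rw [ZMod.val_one, ZMod.val_zero] at this
    omega
  have h2 : (2 : ZMod k) ≠ 0 := by
    intro h
    have : ((2 : ℕ) : ZMod k) = 0 := by exact_mod_cast h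
    rw [ZMod.natCast_eq_zero_iff] at this
    have := Nat.le_of_dvd (by norm_num) this
    omega
  by_cases hy : y = 1
  · refine ⟨2, y - 2, h2, ?_, by ring⟩
    subst hy
    intro h
    apply h1
    have : (1 : ZMod k) = -(1 - 2) := by ring
    rw [this, h, neg_zero]
  · exact ⟨1, y - 1, h1, fun h => hy (sub_eq_zero.mp h), by ring⟩

section base
variable (h k : ℕ)

def Anz (v : ZMod 2) (n : ℕ) : Prop := (v = 0 ∧ n = 1) ∨ (v = 1 ∧ n = h + 2)
def Az (v : ZMod 2) (n : ℕ) : Prop :=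
  (v = 0 ∧ (n = h + 1 ∨ n = h + 3)) ∨ (v = 1 ∧ (n = 0 ∨ n = 2))
def Bnz (v : ZMod 2) (n : ℕ) : Prop := (v = 0 ∧ n + 2 = h) ∨ (v = 1 ∧ n + 1 = h)
def Bz (v : ZMod 2) (n : ℕ) : Prop :=
  (v = 0 ∧ (h ≤ n ∧ n + 3 ≤ 2 * h)) ∨ (v = 1 ∧ n + 3 ≤ h)
def Pnz (n : ℕ) : Prop := n = 0 ∨ n + 1 = h ∨ (h + 1 ≤ n ∧ n + 1 ≤ 2 * h)
def Pz (n : ℕ) : Prop := n + 1 ≤ h

def A (v : ZMod 2) : Set (ZMod (2 * h + 1) × ZMod k) :=
  {x | (x.2 ≠ 0 ∧ Anz h v x.1.val) ∨ (x.2 = 0 ∧ Az h v x.1.val)}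
def B (v : ZMod 2) : Set (ZMod (2 * h + 1) × ZMod k) :=
  {x | (x.2 ≠ 0 ∧ Bnz h v x.1.val) ∨ (x.2 = 0 ∧ Bz h v x.1.val)}
open Classical in
noncomputable def P (x : ZMod (2 * h + 1) × ZMod k) : ZMod 2 :=
  if x.2 = 0 then (if Pz h x.1.val then 0 else 1) else (if Pnz h x.1.val then 0 else 1)


theorem Pz0 {x : ZMod (2 * h + 1)} {y : ZMod k} (hy : y = 0) (hx : x.val + 1 ≤ h) :
    P h k (x, y) = 0 := by
  unfold P Pz; rw [if_pos hy, if_pos hx]

theorem Pz1 {x : ZMod (2 * h + 1)} {y : ZMod k} (hy : y = 0) (hx : ¬ x.val + 1 ≤ h) :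
    P h k (x, y) = 1 := by
  unfold P Pz; rw [if_pos hy, if_neg hx]

theorem Pn0 {x : ZMod (2 * h + 1)} {y : ZMod k} (hy : ¬ y = 0)
    (hx : x.val = 0 ∨ x.val + 1 = h ∨ (h + 1 ≤ x.val ∧ x.val + 1 ≤ 2 * h)) :
    P h k (x, y) = 0 := by
  unfold P Pnz; rw [if_neg hy, if_pos hx]

theorem Pn1 {x : ZMod (2 * h + 1)} {y : ZMod k} (hy : ¬ y = 0)
    (hx : ¬ (x.val = 0 ∨ x.val + 1 = h ∨ (h + 1 ≤ x.val ∧ x.val + 1 ≤ 2 * h))) :
    P h k (x, y) = 1 := by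
  unfold P Pnz; rw [if_neg hy, if_neg hx]

theorem base_sound (hh : 4 ≤ h) (v w : ZMod 2) (a b : ZMod (2 * h + 1) × ZMod k)
    (ha : a ∈ A h k v) (hb : b ∈ B h k w) : P h k (a + b) = v + w := by
  obtain ⟨x, y⟩ := a
  obtain ⟨x', y'⟩ := b
  obtain ⟨hc, hlt⟩ := val_add_cases x x'
  simp only [A, B, Set.mem_ofPred_eq, Anz, Az, Bnz, Bz] at ha hb
  rw [Prod.mk_add_mk]
  rcases ha with ⟨hy, ha⟩ | ⟨hy, ha⟩ <;> rcases hb with ⟨hy', hb⟩ | ⟨hy', hb⟩
  · by_cases hyy : y + y' = 0 <;>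
    rcases ha with ⟨rfl, ha⟩ | ⟨rfl, ha⟩ <;> rcases hb with ⟨rfl, hb⟩ | ⟨rfl, hb⟩ <;>
      first
      | (rw [Pz0 h k hyy (by omega)]; decide)
      | (rw [Pz1 h k hyy (by omega)]; decide)
      | (rw [Pn0 h k hyy (by omega)]; decide)
      | (rw [Pn1 h k hyy (by omega)]; decide)
  · have hyy : ¬ y + y' = 0 := by rw [hy', add_zero]; exact hy
    rcases ha with ⟨rfl, ha⟩ | ⟨rfl, ha⟩ <;> rcases hb with ⟨rfl, hb⟩ | ⟨rfl, hb⟩ <;>
      first
      | (rw [Pn0 h k hyy (by omega)]; decide)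
      | (rw [Pn1 h k hyy (by omega)]; decide)
  · have hyy : ¬ y + y' = 0 := by rw [hy, zero_add]; exact hy'
    rcases ha with ⟨rfl, ha⟩ | ⟨rfl, ha⟩ <;> rcases hb with ⟨rfl, hb⟩ | ⟨rfl, hb⟩ <;>
      first
      | (rw [Pn0 h k hyy (by omega)]; decide)
      | (rw [Pn1 h k hyy (by omega)]; decide)
  · have hyy : y + y' = 0 := by rw [hy, hy', add_zero]
    rcases ha with ⟨rfl, ha⟩ | ⟨rfl, ha⟩ <;> rcases hb with ⟨rfl, hb⟩ | ⟨rfl, hb⟩ <;>
      first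
      | (rw [Pz0 h k hyy (by omega)]; decide)
      | (rw [Pz1 h k hyy (by omega)]; decide)

/-- a clock value with given `val` and its complement -/
theorem pick (m : ℕ) [NeZero m] (x : ZMod m) (n : ℕ) (hn : n < m) :
    ∃ a b : ZMod m, a + b = x ∧ a.val = n ∧ b.val < m ∧
      (x.val = n + b.val ∨ x.val + m = n + b.val) := by
  refine ⟨(n : ZMod m), x - n, by ring, ZMod.val_natCast_of_lt hn, ZMod.val_lt _, ?_⟩
  have h1 := (val_add_cases (n : ZMod m) (x - n)).1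
  rw [ZMod.val_natCast_of_lt hn, show (n : ZMod m) + (x - n) = x by ring] at h1
  exact h1


theorem z2 (v : ZMod 2) : v = 0 ∨ v = 1 := by revert v; decide

theorem base_nz (hh : 4 ≤ h) (x : ZMod (2 * h + 1)) (v w : ZMod 2)
    (hP : (v + w = 0 ∧ (x.val = 0 ∨ x.val + 1 = h ∨ (h + 1 ≤ x.val ∧ x.val + 1 ≤ 2 * h))) ∨
      (v + w = 1 ∧ ¬ (x.val = 0 ∨ x.val + 1 = h ∨ (h + 1 ≤ x.val ∧ x.val + 1 ≤ 2 * h)))) :
    ∃ a b : ZMod (2 * h + 1), a + b = x ∧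
      ((Anz h v a.val ∧ Bnz h w b.val) ∨ (Anz h v a.val ∧ Bz h w b.val) ∨
        (Az h v a.val ∧ Bnz h w b.val)) := by
  have hx := ZMod.val_lt x
  have key : ∀ n : ℕ, n < 2 * h + 1 → (∀ b : ℕ, b < 2 * h + 1 →
      (x.val = n + b ∨ x.val + (2 * h + 1) = n + b) → ((Anz h v n ∧ Bnz h w b) ∨
      (Anz h v n ∧ Bz h w b) ∨ (Az h v n ∧ Bnz h w b))) →
      ∃ a b : ZMod (2 * h + 1), a + b = x ∧
      ((Anz h v a.val ∧ Bnz h w b.val) ∨ (Anz h v a.val ∧ Bz h w b.val) ∨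
        (Az h v a.val ∧ Bnz h w b.val)) := by
    intro n hn hb
    obtain ⟨a, b, hab, ha, hbl, hc⟩ := pick _ x n hn
    refine ⟨a, b, hab, ?_⟩
    rw [ha]
    exact hb _ hbl hc
  obtain rfl | rfl := z2 v <;> obtain rfl | rfl := z2 w
  · -- 0, 0
    have hP' : x.val = 0 ∨ x.val + 1 = h ∨ (h + 1 ≤ x.val ∧ x.val + 1 ≤ 2 * h) := by
      rcases hP with ⟨_, h2⟩ | ⟨h1, _⟩
      · exact h2
      · exact absurd h1 (by decide)
    by_cases c1 : x.val + 1 = 2 * h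
    · exact key (h + 1) (by omega) fun b hb hc =>
        Or.inr (Or.inr ⟨Or.inl ⟨rfl, by omega⟩, Or.inl ⟨rfl, by omega⟩⟩)
    · by_cases c2 : x.val = 0
      · exact key (h + 3) (by omega) fun b hb hc =>
          Or.inr (Or.inr ⟨Or.inl ⟨rfl, by omega⟩, Or.inl ⟨rfl, by omega⟩⟩)
      · by_cases c3 : x.val + 1 = h
        · exact key 1 (by omega) fun b hb hc =>
            Or.inl ⟨Or.inl ⟨rfl, by omega⟩, Or.inl ⟨rfl, by omega⟩⟩
        · exact key 1 (by omega) fun b hb hc =>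
            Or.inr (Or.inl ⟨Or.inl ⟨rfl, by omega⟩, Or.inl ⟨rfl, by omega⟩⟩)
  · -- 0, 1
    have hP' : ¬ (x.val = 0 ∨ x.val + 1 = h ∨ (h + 1 ≤ x.val ∧ x.val + 1 ≤ 2 * h)) := by
      rcases hP with ⟨h1, _⟩ | ⟨_, h2⟩
      · exact absurd h1 (by decide)
      · exact h2
    by_cases c1 : x.val = h
    · exact key 1 (by omega) fun b hb hc =>
        Or.inl ⟨Or.inl ⟨rfl, by omega⟩, Or.inr ⟨rfl, by omega⟩⟩
    · by_cases c2 : x.val = 2 * h
      · exact key (h + 1) (by omega) fun b hb hc =>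
          Or.inr (Or.inr ⟨Or.inl ⟨rfl, by omega⟩, Or.inr ⟨rfl, by omega⟩⟩)
      · exact key 1 (by omega) fun b hb hc =>
          Or.inr (Or.inl ⟨Or.inl ⟨rfl, by omega⟩, Or.inr ⟨rfl, by omega⟩⟩)
  · -- 1, 0
    have hP' : ¬ (x.val = 0 ∨ x.val + 1 = h ∨ (h + 1 ≤ x.val ∧ x.val + 1 ≤ 2 * h)) := by
      rcases hP with ⟨h1, _⟩ | ⟨_, h2⟩
      · exact absurd h1 (by decide)
      · exact h2
    by_cases c1 : x.val = h
    · exact key 2 (by omega) fun b hb hc =>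
        Or.inr (Or.inr ⟨Or.inr ⟨rfl, by omega⟩, Or.inl ⟨rfl, by omega⟩⟩)
    · by_cases c2 : x.val = 2 * h
      · exact key (h + 2) (by omega) fun b hb hc =>
          Or.inl ⟨Or.inr ⟨rfl, by omega⟩, Or.inl ⟨rfl, by omega⟩⟩
      · exact key (h + 2) (by omega) fun b hb hc =>
          Or.inr (Or.inl ⟨Or.inr ⟨rfl, by omega⟩, Or.inl ⟨rfl, by omega⟩⟩)
  · -- 1, 1
    have hP' : x.val = 0 ∨ x.val + 1 = h ∨ (h + 1 ≤ x.val ∧ x.val + 1 ≤ 2 * h) := by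
      rcases hP with ⟨_, h2⟩ | ⟨h1, _⟩
      · exact h2
      · exact absurd h1 (by decide)
    by_cases c1 : x.val = 0
    · exact key (h + 2) (by omega) fun b hb hc =>
        Or.inl ⟨Or.inr ⟨rfl, by omega⟩, Or.inr ⟨rfl, by omega⟩⟩
    · by_cases c2 : x.val + 1 = h
      · exact key 0 (by omega) fun b hb hc =>
          Or.inr (Or.inr ⟨Or.inr ⟨rfl, by omega⟩, Or.inr ⟨rfl, by omega⟩⟩)
      · by_cases c3 : x.val = h + 1
        · exact key 2 (by omega) fun b hb hc =>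
            Or.inr (Or.inr ⟨Or.inr ⟨rfl, by omega⟩, Or.inr ⟨rfl, by omega⟩⟩)
        · exact key (h + 2) (by omega) fun b hb hc =>
            Or.inr (Or.inl ⟨Or.inr ⟨rfl, by omega⟩, Or.inr ⟨rfl, by omega⟩⟩)

theorem base_z (hh : 4 ≤ h) (x : ZMod (2 * h + 1)) (v w : ZMod 2)
    (hP : (v + w = 0 ∧ x.val + 1 ≤ h) ∨ (v + w = 1 ∧ ¬ x.val + 1 ≤ h)) :
    ∃ a b : ZMod (2 * h + 1), a + b = x ∧
      ((Anz h v a.val ∧ Bnz h w b.val) ∨ (Az h v a.val ∧ Bz h w b.val)) := by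
  have hx := ZMod.val_lt x
  have key : ∀ n : ℕ, n < 2 * h + 1 → (∀ b : ℕ, b < 2 * h + 1 →
      (x.val = n + b ∨ x.val + (2 * h + 1) = n + b) → ((Anz h v n ∧ Bnz h w b) ∨
      (Az h v n ∧ Bz h w b))) →
      ∃ a b : ZMod (2 * h + 1), a + b = x ∧
      ((Anz h v a.val ∧ Bnz h w b.val) ∨ (Az h v a.val ∧ Bz h w b.val)) := by
    intro n hn hb
    obtain ⟨a, b, hab, ha, hbl, hc⟩ := pick _ x n hn
    refine ⟨a, b, hab, ?_⟩
    rw [ha]
    exact hb _ hbl hc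
  obtain rfl | rfl := z2 v <;> obtain rfl | rfl := z2 w
  · -- 0, 0
    have hP' : x.val + 1 ≤ h := by
      rcases hP with ⟨_, h2⟩ | ⟨h1, _⟩
      · exact h2
      · exact absurd h1 (by decide)
    by_cases c1 : x.val + 3 ≤ h
    · exact key (h + 1) (by omega) fun b hb hc =>
        Or.inr ⟨Or.inl ⟨rfl, by omega⟩, Or.inl ⟨rfl, by omega⟩⟩
    · exact key (h + 3) (by omega) fun b hb hc =>
        Or.inr ⟨Or.inl ⟨rfl, by omega⟩, Or.inl ⟨rfl, by omega⟩⟩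
  · -- 0, 1
    have hP' : ¬ (x.val + 1 ≤ h) := by
      rcases hP with ⟨h1, _⟩ | ⟨_, h2⟩
      · exact absurd h1 (by decide)
      · exact h2
    by_cases c1 : x.val = h
    · exact key 1 (by omega) fun b hb hc =>
        Or.inl ⟨Or.inl ⟨rfl, by omega⟩, Or.inr ⟨rfl, by omega⟩⟩
    · by_cases c2 : x.val + 2 ≤ 2 * h
      · exact key (h + 1) (by omega) fun b hb hc =>
          Or.inr ⟨Or.inl ⟨rfl, by omega⟩, Or.inr ⟨rfl, by omega⟩⟩
      · exact key (h + 3) (by omega) fun b hb hc =>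
          Or.inr ⟨Or.inl ⟨rfl, by omega⟩, Or.inr ⟨rfl, by omega⟩⟩
  · -- 1, 0
    have hP' : ¬ (x.val + 1 ≤ h) := by
      rcases hP with ⟨h1, _⟩ | ⟨_, h2⟩
      · exact absurd h1 (by decide)
      · exact h2
    by_cases c1 : x.val = 2 * h
    · exact key (h + 2) (by omega) fun b hb hc =>
        Or.inl ⟨Or.inr ⟨rfl, by omega⟩, Or.inl ⟨rfl, by omega⟩⟩
    · by_cases c2 : x.val + 3 ≤ 2 * h
      · exact key 0 (by omega) fun b hb hc =>
          Or.inr ⟨Or.inr ⟨rfl, by omega⟩, Or.inl ⟨rfl, by omega⟩⟩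
      · exact key 2 (by omega) fun b hb hc =>
          Or.inr ⟨Or.inr ⟨rfl, by omega⟩, Or.inl ⟨rfl, by omega⟩⟩
  · -- 1, 1
    have hP' : x.val + 1 ≤ h := by
      rcases hP with ⟨_, h2⟩ | ⟨h1, _⟩
      · exact h2
      · exact absurd h1 (by decide)
    by_cases c1 : x.val + 3 ≤ h
    · exact key 0 (by omega) fun b hb hc =>
        Or.inr ⟨Or.inr ⟨rfl, by omega⟩, Or.inr ⟨rfl, by omega⟩⟩
    · exact key 2 (by omega) fun b hb hc =>
        Or.inr ⟨Or.inr ⟨rfl, by omega⟩, Or.inr ⟨rfl, by omega⟩⟩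

/-- the base gadget: `V = Z/2`, clocks `Z/(2h+1) x Z/k`, `h >= 4`, `k >= 3` -/
theorem base (hh : 4 ≤ h) (hk : 3 ≤ k) : SG (ZMod 2) (ZMod (2 * h + 1) × ZMod k) := by
  refine ⟨A h k, B h k, P h k, base_sound h k hh, ?_⟩
  rintro ⟨x, y⟩ v
  have e2 : ∀ p v : ZMod 2, v + (p - v) = p := fun p v => by ring
  by_cases hy : y = 0
  · have h1 : (v + (P h k (x, y) - v) = 0 ∧ x.val + 1 ≤ h) ∨
        (v + (P h k (x, y) - v) = 1 ∧ ¬ x.val + 1 ≤ h) := by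
      rw [e2]
      by_cases c : x.val + 1 ≤ h
      · exact Or.inl ⟨Pz0 h k hy c, c⟩
      · exact Or.inr ⟨Pz1 h k hy c, c⟩
    obtain ⟨a, b, hab, hc | hc⟩ := base_z h hh x v _ h1
    · obtain ⟨y1, y2, hy1, hy2, hyy⟩ := split_nz hk y
      exact ⟨(a, y1), (b, y2), Or.inl ⟨hy1, hc.1⟩, Or.inl ⟨hy2, hc.2⟩, Prod.ext hab hyy⟩
    · exact ⟨(a, 0), (b, 0), Or.inr ⟨rfl, hc.1⟩, Or.inr ⟨rfl, hc.2⟩,
        Prod.ext hab (by simp [hy])⟩
  · have h1 : (v + (P h k (x, y) - v) = 0 ∧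
        (x.val = 0 ∨ x.val + 1 = h ∨ (h + 1 ≤ x.val ∧ x.val + 1 ≤ 2 * h))) ∨
        (v + (P h k (x, y) - v) = 1 ∧
        ¬ (x.val = 0 ∨ x.val + 1 = h ∨ (h + 1 ≤ x.val ∧ x.val + 1 ≤ 2 * h))) := by
      rw [e2]
      by_cases c : (x.val = 0 ∨ x.val + 1 = h ∨ (h + 1 ≤ x.val ∧ x.val + 1 ≤ 2 * h))
      · exact Or.inl ⟨Pn0 h k hy c, c⟩
      · exact Or.inr ⟨Pn1 h k hy c, c⟩
    obtain ⟨a, b, hab, hc | hc | hc⟩ := base_nz h hh x v _ h1
    · obtain ⟨y1, y2, hy1, hy2, hyy⟩ := split_nz hk y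
      exact ⟨(a, y1), (b, y2), Or.inl ⟨hy1, hc.1⟩, Or.inl ⟨hy2, hc.2⟩, Prod.ext hab hyy⟩
    · exact ⟨(a, y), (b, 0), Or.inl ⟨hy, hc.1⟩, Or.inr ⟨rfl, hc.2⟩,
        Prod.ext hab (by simp)⟩
    · exact ⟨(a, 0), (b, y), Or.inr ⟨rfl, hc.1⟩, Or.inl ⟨hy, hc.2⟩,
        Prod.ext hab (by simp)⟩

end base

/-- one cyclic clock: `M = (2 h + 1) k`, coprime factors -/
theorem base_cyclic (h k : ℕ) (hh : 4 ≤ h) (hk : 3 ≤ k) (hc : Nat.Coprime (2 * h + 1) k) :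
    SG (ZMod 2) (ZMod ((2 * h + 1) * k)) :=
  SG.congr (AddEquiv.refl _) (ZMod.chineseRemainder hc).toAddEquiv.symm (base h k hh hk)

theorem zero : SG (Fin 0 → ZMod 2) (ZMod 1) := by
  refine ⟨fun _ => Set.univ, fun _ => Set.univ, fun _ => 0, ?_, ?_⟩
  · intro v w a b _ _
    exact Subsingleton.elim _ _
  · intro t v
    exact ⟨t, 0, trivial, trivial, add_zero t⟩

/-- for every number of coordinates `d` and every `c` there is a gadget on one cyclic clock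
`Z/M`, `M` coprime to `c` -/
theorem exists_gadget (d c : ℕ) (hc : 0 < c) :
    ∃ M : ℕ, 0 < M ∧ Nat.Coprime M c ∧ SG (Fin d → ZMod 2) (ZMod M) := by
  induction d with
  | zero => exact ⟨1, one_pos, Nat.coprime_one_left c, zero⟩
  | succ d ih =>
    obtain ⟨M, hM, hMc, hS⟩ := ih
    -- a prime above everything
    obtain ⟨p, hp1, hp⟩ := Nat.exists_infinite_primes (2 * (M * c) + 100)
    obtain ⟨q, hq1, hq⟩ := Nat.exists_infinite_primes (p + 1)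
    have hMcpos : 0 < M * c := Nat.mul_pos hM hc
    have hp2 : p % 2 = 1 := by
      rcases hp.eq_two_or_odd with h | h
      · omega
      · exact h
    obtain ⟨h, hh⟩ : ∃ h, p = 2 * h + 1 := ⟨p / 2, by omega⟩
    have hpq : Nat.Coprime p q := (Nat.coprime_primes hp hq).mpr (by omega)
    have copr : ∀ r, r.Prime → M * c < r → Nat.Coprime r (M * c) := by
      intro r hr hlt
      rw [Nat.Prime.coprime_iff_not_dvd hr]
      intro hd
      exact absurd (Nat.le_of_dvd hMcpos hd) (by omega)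
    have hp3 : Nat.Coprime p (M * c) := copr p hp (by omega)
    have hq3 : Nat.Coprime q (M * c) := copr q hq (by omega)
    have hpq3 : Nat.Coprime (p * q) (M * c) := Nat.Coprime.mul_left hp3 hq3
    have hb : SG (ZMod 2) (ZMod (p * q)) := by
      have := base_cyclic h q (by omega) (by omega) (by rw [← hh]; exact hpq)
      rwa [← hh] at this
    refine ⟨(p * q) * M, Nat.mul_pos (Nat.mul_pos hp.pos hq.pos) hM, ?_, ?_⟩
    · exact Nat.Coprime.mul_left (Nat.Coprime.coprime_mul_left_right hpq3) hMc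
    · have hcop : Nat.Coprime (p * q) M := Nat.Coprime.coprime_mul_right_right hpq3
      have h3 := SG.prod hb hS
      refine SG.congr ?_ (ZMod.chineseRemainder hcop).toAddEquiv.symm h3
      exact
        { toFun := fun x => Fin.cons x.1 x.2
          invFun := fun f => (f 0, Fin.tail f)
          left_inv := fun x => by simp
          right_inv := fun f => by simp
          map_add' := fun x y => by
            funext i
            refine Fin.cases ?_ (fun j => ?_) i <;> simp }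

end Crest.Agent.R320.Sumset526
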