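import Mathlib

/-! Row 320: sumset clocks (tables of helper550 and helper708, general formula). -/

set_option autoImplicit false

namespace Crest.Agent.R320.Sumset_560

/-- A graded cover: clock group `C`, label group `E`. -/
def Gad (C E : Type*) [AddCommGroup C] [AddCommGroup E] : Prop :=
  ∃ (A B : C → Option E) (P : C → E),
    (∀ x y a b, A x = some a → B y = some b → a + b = P (x + y)) ∧
    (∀ T a, ∃ x, A x = some a ∧ ∃ b, B (T - x) = some b)

section base

/-- left sets: `l` the label, `a` the first coordinate, `z` says that the second one is zero -/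
def LA (n : ℕ) (l : Bool) (a : ℕ) (z : Bool) : Prop :=
  match l, z with
  | false, false => a = 1
  | false, true => a = n + 1 ∨ a = n + 3
  | true, false => a = n + 2
  | true, true => a = 0 ∨ a = 2

/-- right sets -/
def RB (n : ℕ) (l : Bool) (a : ℕ) (z : Bool) : Prop :=
  match l, z with
  | false, false => a + 2 = n
  | false, true => n ≤ a ∧ a + 3 ≤ 2 * n
  | true, false => a + 1 = n
  | true, true => a + 3 ≤ n

/-- totals -/
def PT (n : ℕ) (a : ℕ) (z : Bool) : Prop :=
  match z with
  | true => n ≤ a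
  | false => ¬ (a = 0 ∨ a + 1 = n ∨ (n + 1 ≤ a ∧ a + 1 ≤ 2 * n))

theorem sound_nat (n a b s : ℕ) (la lb za zb zs : Bool) (hn : 4 ≤ n)
    (hs : s < 2 * n + 1) (hab : a + b = s ∨ a + b = s + (2 * n + 1))
    (hz : (za = true → zb = true → zs = true) ∧ (za = true → zb = false → zs = false) ∧
      (za = false → zb = true → zs = false))
    (hA : LA n la a za) (hB : RB n lb b zb) :
    (PT n s zs ↔ la ≠ lb) := by
  obtain ⟨h1, h2, h3⟩ := hz
  cases la <;> cases lb <;> cases za <;> cases zb <;> cases zs <;>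
    simp [LA, RB, PT] at hA hB h1 h2 h3 ⊢ <;> omega

theorem disj_L (n a : ℕ) (z : Bool) (_hn : 4 ≤ n) : ¬ (LA n false a z ∧ LA n true a z) := by
  cases z <;> simp [LA] <;> omega

theorem disj_R (n a : ℕ) (z : Bool) (hn : 4 ≤ n) : ¬ (RB n false a z ∧ RB n true a z) := by
  cases z <;> simp [RB] <;> omega

/-- completeness on naturals: for every total `s` with flag `zs` and left label `l` there are
summands of the right kind -/
theorem complete_nat (n s : ℕ) (l zs : Bool) (hn : 4 ≤ n) (hs : s < 2 * n + 1) :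
    ∃ a b : ℕ, ∃ za zb : Bool, a < 2 * n + 1 ∧ b < 2 * n + 1 ∧
      (a + b = s ∨ a + b = s + (2 * n + 1)) ∧ LA n l a za ∧
      (RB n false b zb ∨ RB n true b zb) ∧
      ((za = false ∧ zb = false) ∨ (za = true ∧ zb = zs) ∨ (zb = true ∧ za = zs)) := by
  cases l <;> cases zs
  · -- l = 0, layer nonzero
    by_cases c1 : s + 1 = n
    · exact ⟨1, n - 2, false, false, by omega, by omega, by omega, by simp [LA],
        Or.inl (by simp [RB]; omega), by simp⟩
    by_cases c2 : s = n
    · exact ⟨1, n - 1, false, false, by omega, by omega, by omega, by simp [LA],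
        Or.inr (by simp [RB]; omega), by simp⟩
    by_cases c3 : s = 0
    · exact ⟨n + 3, n - 2, true, false, by omega, by omega, by omega, by simp [LA],
        Or.inl (by simp [RB]; omega), by simp⟩
    by_cases c4 : s + 1 = 2 * n
    · exact ⟨n + 1, n - 2, true, false, by omega, by omega, by omega, by simp [LA],
        Or.inl (by simp [RB]; omega), by simp⟩
    by_cases c5 : s = 2 * n
    · exact ⟨n + 1, n - 1, true, false, by omega, by omega, by omega, by simp [LA],
        Or.inr (by simp [RB]; omega), by simp⟩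
    by_cases c6 : s + 2 ≤ n
    · exact ⟨1, s - 1, false, true, by omega, by omega, by omega, by simp [LA],
        Or.inr (by simp [RB]; omega), by simp⟩
    · exact ⟨1, s - 1, false, true, by omega, by omega, by omega, by simp [LA],
        Or.inl (by simp [RB]; omega), by simp⟩
  · -- l = 0, layer zero
    by_cases c1 : s ≤ 2 * n - 2 ∧ n + 1 ≤ s
    · exact ⟨n + 1, s - (n + 1), true, true, by omega, by omega, by omega, by simp [LA],
        Or.inr (by simp [RB]; omega), by simp⟩
    by_cases c2 : n + 3 ≤ s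
    · exact ⟨n + 3, s - (n + 3), true, true, by omega, by omega, by omega, by simp [LA],
        Or.inr (by simp [RB]; omega), by simp⟩
    by_cases c3 : s = n
    · exact ⟨1, n - 1, false, false, by omega, by omega, by omega, by simp [LA],
        Or.inr (by simp [RB]; omega), by simp⟩
    by_cases c4 : s ≤ n - 3
    · exact ⟨n + 1, s + n, true, true, by omega, by omega, by omega, by simp [LA],
        Or.inl (by simp [RB]; omega), by simp⟩
    · exact ⟨n + 3, s + n - 2, true, true, by omega, by omega, by omega, by simp [LA],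
        Or.inl (by simp [RB]; omega), by simp⟩
  · -- l = 1, layer nonzero
    by_cases c1 : s = 0
    · exact ⟨n + 2, n - 1, false, false, by omega, by omega, by omega, by simp [LA],
        Or.inr (by simp [RB]; omega), by simp⟩
    by_cases c2 : s = 2 * n
    · exact ⟨n + 2, n - 2, false, false, by omega, by omega, by omega, by simp [LA],
        Or.inl (by simp [RB]; omega), by simp⟩
    by_cases c3 : s + 1 = n
    · exact ⟨0, n - 1, true, false, by omega, by omega, by omega, by simp [LA],
        Or.inr (by simp [RB]; omega), by simp⟩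
    by_cases c4 : s = n + 1
    · exact ⟨2, n - 1, true, false, by omega, by omega, by omega, by simp [LA],
        Or.inr (by simp [RB]; omega), by simp⟩
    by_cases c5 : s = n
    · exact ⟨2, n - 2, true, false, by omega, by omega, by omega, by simp [LA],
        Or.inl (by simp [RB]; omega), by simp⟩
    by_cases c6 : n + 2 ≤ s
    · exact ⟨n + 2, s - (n + 2), false, true, by omega, by omega, by omega, by simp [LA],
        Or.inr (by simp [RB]; omega), by simp⟩
    · exact ⟨n + 2, s + n - 1, false, true, by omega, by omega, by omega, by simp [LA],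
        Or.inl (by simp [RB]; omega), by simp⟩
  · -- l = 1, layer zero
    by_cases c1 : s + 3 ≤ n
    · exact ⟨0, s, true, true, by omega, by omega, by omega, by simp [LA],
        Or.inr (by simp [RB]; omega), by simp⟩
    by_cases c2 : s + 1 ≤ n
    · exact ⟨2, s - 2, true, true, by omega, by omega, by omega, by simp [LA],
        Or.inr (by simp [RB]; omega), by simp⟩
    by_cases c3 : s + 3 ≤ 2 * n
    · exact ⟨0, s, true, true, by omega, by omega, by omega, by simp [LA],
        Or.inl (by simp [RB]; omega), by simp⟩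
    by_cases c4 : s + 1 ≤ 2 * n
    · exact ⟨2, s - 2, true, true, by omega, by omega, by omega, by simp [LA],
        Or.inl (by simp [RB]; omega), by simp⟩
    · exact ⟨n + 2, n - 2, false, false, by omega, by omega, by omega, by simp [LA],
        Or.inl (by simp [RB]; omega), by simp⟩

end base

section zmod

open Classical in
/-- the left map -/
noncomputable def Af (n k : ℕ) (x : ZMod (2 * n + 1) × ZMod k) : Option (ZMod 2) :=
  if LA n false x.1.val (decide (x.2 = 0)) then some 0
  else if LA n true x.1.val (decide (x.2 = 0)) then some 1 else none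

open Classical in
/-- the right map -/
noncomputable def Bf (n k : ℕ) (x : ZMod (2 * n + 1) × ZMod k) : Option (ZMod 2) :=
  if RB n false x.1.val (decide (x.2 = 0)) then some 0
  else if RB n true x.1.val (decide (x.2 = 0)) then some 1 else none

open Classical in
/-- the total -/
noncomputable def Pf (n k : ℕ) (x : ZMod (2 * n + 1) × ZMod k) : ZMod 2 :=
  if PT n x.1.val (decide (x.2 = 0)) then 1 else 0

/-- the label as an element of `ZMod 2` -/
def lb (l : Bool) : ZMod 2 := if l then 1 else 0

theorem Af_some {n k : ℕ} {x : ZMod (2 * n + 1) × ZMod k} {a : ZMod 2} (h : Af n k x = some a) :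
    ∃ l, a = lb l ∧ LA n l x.1.val (decide (x.2 = 0)) := by
  unfold Af at h
  split_ifs at h with h1 h2
  · exact ⟨false, by simpa [lb] using h.symm, h1⟩
  · exact ⟨true, by simpa [lb] using h.symm, h2⟩

theorem Bf_some {n k : ℕ} {x : ZMod (2 * n + 1) × ZMod k} {a : ZMod 2} (h : Bf n k x = some a) :
    ∃ l, a = lb l ∧ RB n l x.1.val (decide (x.2 = 0)) := by
  unfold Bf at h
  split_ifs at h with h1 h2
  · exact ⟨false, by simpa [lb] using h.symm, h1⟩
  · exact ⟨true, by simpa [lb] using h.symm, h2⟩

theorem Af_of {n k : ℕ} (hn : 4 ≤ n) {x : ZMod (2 * n + 1) × ZMod k} {l : Bool}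
    (h : LA n l x.1.val (decide (x.2 = 0))) : Af n k x = some (lb l) := by
  unfold Af
  cases l
  · rw [if_pos h]; rfl
  · rw [if_neg (fun h' => disj_L n _ _ hn ⟨h', h⟩), if_pos h]; rfl

theorem Bf_of {n k : ℕ} {x : ZMod (2 * n + 1) × ZMod k}
    (h : RB n false x.1.val (decide (x.2 = 0)) ∨ RB n true x.1.val (decide (x.2 = 0))) :
    ∃ b, Bf n k x = some b := by
  unfold Bf
  split_ifs with h1 h2
  · exact ⟨_, rfl⟩
  · exact ⟨_, rfl⟩
  · exact absurd h (by tauto)

theorem exists_ne_zero_pair {k : ℕ} (hk : 3 ≤ k) (y : ZMod k) :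
    ∃ u : ZMod k, u ≠ 0 ∧ y - u ≠ 0 := by
  haveI : Fact (1 < k) := ⟨by omega⟩
  have h1 : (1 : ZMod k) ≠ 0 := one_ne_zero
  have h2 : (2 : ZMod k) ≠ 0 := by
    have : ((2 : ℕ) : ZMod k) ≠ 0 := by
      rw [Ne, ZMod.natCast_eq_zero_iff]
      intro h; have := Nat.le_of_dvd (by norm_num) h; omega
    exact_mod_cast this
  by_cases hy : y = 1
  · refine ⟨-1, neg_ne_zero.mpr h1, ?_⟩
    rw [hy]
    have : (1 : ZMod k) - (-1) = 2 := by ring
    rw [this]; exact h2
  · exact ⟨1, h1, fun h => hy (sub_eq_zero.mp h)⟩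

theorem lb_add (a b : Bool) : lb a + lb b = if a ≠ b then (1 : ZMod 2) else 0 := by
  cases a <;> cases b <;> simp [lb] <;> decide

theorem base (n k : ℕ) (hn : 4 ≤ n) (hk : 3 ≤ k) :
    Gad (ZMod (2 * n + 1) × ZMod k) (ZMod 2) := by
  haveI : NeZero (2 * n + 1) := ⟨by omega⟩
  haveI : NeZero k := ⟨by omega⟩
  refine ⟨Af n k, Bf n k, Pf n k, ?_, ?_⟩
  · rintro x y a b hA hB
    obtain ⟨la, rfl, hla⟩ := Af_some hA
    obtain ⟨lb', rfl, hlb⟩ := Bf_some hB
    have hs : (x.1 + y.1).val < 2 * n + 1 := ZMod.val_lt _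
    have hab : x.1.val + y.1.val = (x.1 + y.1).val ∨
        x.1.val + y.1.val = (x.1 + y.1).val + (2 * n + 1) := by
      rcases lt_or_ge (x.1.val + y.1.val) (2 * n + 1) with h | h
      · left; exact (ZMod.val_add_of_lt h).symm
      · right; exact ZMod.val_add_val_of_le h
    have key := sound_nat n x.1.val y.1.val (x.1 + y.1).val la lb' (decide (x.2 = 0))
      (decide (y.2 = 0)) (decide (x.2 + y.2 = 0)) hn hs hab
      ⟨by simp; intro h1 h2; rw [h1, h2, add_zero],
       by simp; intro h1 h2; rw [h1, zero_add]; exact h2,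
       by simp; intro h1 h2; rw [h2, add_zero]; exact h1⟩ hla hlb
    rw [lb_add]
    unfold Pf
    simp only [Prod.fst_add, Prod.snd_add]
    by_cases hP : PT n (x.1 + y.1).val (decide (x.2 + y.2 = 0))
    · rw [if_pos hP, if_pos (key.1 hP)]
    · rw [if_neg hP, if_neg (fun h => hP (key.2 h))]
  · rintro ⟨t, y⟩ a
    obtain ⟨l, rfl⟩ : ∃ l, a = lb l := by
      fin_cases a
      · exact ⟨false, rfl⟩
      · exact ⟨true, rfl⟩
    obtain ⟨a, b, za, zb, ha, hb, hab, hLA, hRB, hz⟩ :=
      complete_nat n t.val l (decide (y = 0)) hn (ZMod.val_lt t)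
    obtain ⟨u, hu1, hu2⟩ : ∃ u : ZMod k, decide (u = 0) = za ∧ decide (y - u = 0) = zb := by
      rcases hz with ⟨h1, h2⟩ | ⟨h1, h2⟩ | ⟨h1, h2⟩
      · obtain ⟨u, hu, hu'⟩ := exists_ne_zero_pair hk y
        exact ⟨u, by simp [h1, hu], by simp [h2, hu']⟩
      · exact ⟨0, by simp [h1], by simp [h2]⟩
      · exact ⟨y, by simp [h2], by simp [h1]⟩
    have hav : ((a : ℕ) : ZMod (2 * n + 1)).val = a := ZMod.val_natCast_of_lt ha
    have hbe : t - (a : ZMod (2 * n + 1)) = (b : ZMod (2 * n + 1)) := by
      have : ((a + b : ℕ) : ZMod (2 * n + 1)) = t := by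
        rcases hab with h | h
        · rw [h]; exact ZMod.natCast_zmod_val t
        · rw [h]; push_cast
          have := ZMod.natCast_self (2 * n + 1)
          push_cast at this
          rw [this, add_zero]; exact ZMod.natCast_zmod_val t
      rw [← this]; push_cast; ring
    have hbv : (t - (a : ZMod (2 * n + 1))).val = b := by rw [hbe]; exact ZMod.val_natCast_of_lt hb
    refine ⟨((a : ZMod (2 * n + 1)), u), Af_of hn ?_, Bf_of ?_⟩
    · simp only [hav, hu1]; exact hLA
    · simp only [Prod.mk_sub_mk, hbv, hu2]; exact hRB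

end zmod

/-- products -/
theorem Gad.prod {C D E F : Type*} [AddCommGroup C] [AddCommGroup D] [AddCommGroup E]
    [AddCommGroup F] (h1 : Gad C E) (h2 : Gad D F) : Gad (C × D) (E × F) := by
  obtain ⟨A, B, P, hs, hc⟩ := h1
  obtain ⟨A', B', P', hs', hc'⟩ := h2
  refine ⟨fun x => (A x.1).bind fun a => (A' x.2).map fun a' => (a, a'),
    fun x => (B x.1).bind fun a => (B' x.2).map fun a' => (a, a'),
    fun x => (P x.1, P' x.2), ?_, ?_⟩
  · rintro ⟨x, x'⟩ ⟨y, y'⟩ ⟨a, a'⟩ ⟨b, b'⟩ hA hB
    simp only [Option.bind_eq_some_iff, Option.map_eq_some_iff, Prod.mk.injEq] at hA hB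
    obtain ⟨_, hA1, _, hA2, rfl, rfl⟩ := hA
    obtain ⟨_, hB1, _, hB2, rfl, rfl⟩ := hB
    simp only [Prod.mk_add_mk, hs _ _ _ _ hA1 hB1, hs' _ _ _ _ hA2 hB2]
  · rintro ⟨T, T'⟩ ⟨a, a'⟩
    obtain ⟨x, hx, b, hb⟩ := hc T a
    obtain ⟨x', hx', b', hb'⟩ := hc' T' a'
    exact ⟨(x, x'), by simp [hx, hx'], (b, b'), by simp [hb, hb']⟩

/-- transport -/
theorem Gad.equiv {C D E F : Type*} [AddCommGroup C] [AddCommGroup D] [AddCommGroup E]
    [AddCommGroup F] (f : C ≃+ D) (g : E ≃+ F) (h : Gad C E) : Gad D F := by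
  obtain ⟨A, B, P, hs, hc⟩ := h
  refine ⟨fun x => (A (f.symm x)).map g, fun x => (B (f.symm x)).map g,
    fun x => g (P (f.symm x)), ?_, ?_⟩
  · intro x y a b hA hB
    simp only [Option.map_eq_some_iff] at hA hB
    obtain ⟨a, hA, rfl⟩ := hA
    obtain ⟨b, hB, rfl⟩ := hB
    show g a + g b = g (P (f.symm (x + y)))
    rw [← map_add g, hs _ _ _ _ hA hB, map_add f.symm]
  · intro T a
    obtain ⟨x, hx, b, hb⟩ := hc (f.symm T) (g.symm a)
    refine ⟨f x, by simp [hx], g b, ?_⟩
    simp [hb]

/-- every `(Z/2)^d` has a clock with a modulus prime to a given number -/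
theorem clock (d : ℕ) : ∀ N0 : ℕ, 0 < N0 → ∃ M : ℕ, 0 < M ∧ Nat.Coprime M N0 ∧
    Gad (ZMod M) (Fin d → ZMod 2) := by
  induction d with
  | zero =>
    intro N0 _
    refine ⟨1, one_pos, Nat.coprime_one_left _, fun _ => some 0, fun _ => some 0, fun _ => 0,
      ?_, ?_⟩
    · intro x y a b _ _; exact Subsingleton.elim _ _
    · intro T a; exact ⟨0, by simp [Subsingleton.elim a 0], 0, rfl⟩
  | succ d ih =>
    intro N0 hN0
    obtain ⟨M, hM, hcop, hG⟩ := ih N0 hN0
    obtain ⟨p, hp1, hp⟩ := Nat.exists_infinite_primes (M * N0 + 9)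
    obtain ⟨q, hq1, hq⟩ := Nat.exists_infinite_primes (p + M * N0 + 9)
    have hMN : 0 < M * N0 := Nat.mul_pos hM hN0
    have hpc : Nat.Coprime p (M * N0) := by
      rw [Nat.Prime.coprime_iff_not_dvd hp]
      intro h; have := Nat.le_of_dvd hMN h; omega
    have hqc : Nat.Coprime q (p * (M * N0)) := by
      rw [Nat.coprime_mul_iff_right]
      constructor
      · rw [Nat.Prime.coprime_iff_not_dvd hq]
        intro h; have := Nat.le_of_dvd hp.pos h; omega
      · rw [Nat.Prime.coprime_iff_not_dvd hq]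
        intro h; have := Nat.le_of_dvd hMN h; omega
    obtain ⟨n, rfl⟩ : ∃ n, p = 2 * n + 1 := by
      rcases hp.eq_two_or_odd' with h | h
      · omega
      · exact h
    have hqp : Nat.Coprime (2 * n + 1) q := (Nat.Coprime.coprime_mul_right_right hqc).symm
    have hb := base n q (by omega) (by omega)
    have e1 : ZMod (2 * n + 1) × ZMod q ≃+ ZMod ((2 * n + 1) * q) :=
      (ZMod.chineseRemainder hqp).symm.toAddEquiv
    have hb' : Gad (ZMod ((2 * n + 1) * q)) (ZMod 2) := hb.equiv e1 (AddEquiv.refl _)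
    have hco2 : Nat.Coprime ((2 * n + 1) * q) M := by
      refine Nat.Coprime.mul_left (Nat.Coprime.coprime_mul_right_right hpc) ?_
      exact Nat.Coprime.coprime_mul_right_right (Nat.Coprime.coprime_mul_left_right hqc)
    refine ⟨(2 * n + 1) * q * M, Nat.mul_pos (Nat.mul_pos hp.pos hq.pos) hM, ?_, ?_⟩
    · refine Nat.Coprime.mul_left (Nat.Coprime.mul_left ?_ ?_) hcop
      · exact Nat.Coprime.coprime_mul_left_right hpc
      · exact Nat.Coprime.coprime_mul_left_right (Nat.Coprime.coprime_mul_left_right hqc)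
    · have e2 : ZMod ((2 * n + 1) * q) × ZMod M ≃+ ZMod ((2 * n + 1) * q * M) :=
        (ZMod.chineseRemainder hco2).symm.toAddEquiv
      have e3 : ZMod 2 × (Fin d → ZMod 2) ≃+ (Fin (d + 1) → ZMod 2) :=
        { toFun := fun x => Fin.cons x.1 x.2
          invFun := fun f => (f 0, Fin.tail f)
          left_inv := fun x => by simp
          right_inv := fun f => by simp
          map_add' := fun x y => by
            funext i
            refine Fin.cases ?_ (fun j => ?_) i <;> simp }
      exact (hb'.prod hG).equiv e2 e3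

end Crest.Agent.R320.Sumset_560
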