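import Mathlib

/-!
Row 320, the sumset gadget (550 #10162, 559 #10181, 434 #10236, 708 #12557), explicit family.
`SG G V`: partial labels `A, B : G → Option V` on a clock group `G` and a noise `P : G → V` such that
every legal pair is exact and at every total `T` every left label occurs.
-/

set_option autoImplicit false

namespace Crest.Agent.R320.Sumset791

/-- sumset gadget on the clock group `G` with token group `V` -/
def SG (G V : Type) [AddCommGroup G] [AddCommGroup V] : Prop :=
  ∃ (A B : G → Option V) (P : G → V),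
    (∀ j k a b, A j = some a → B k = some b → b = a + P (j + k)) ∧
    (∀ (T : G) (a : V), ∃ j, A j = some a ∧ (B (T - j)).isSome)

theorem SG.prod {G G' V V' : Type} [AddCommGroup G] [AddCommGroup G'] [AddCommGroup V]
    [AddCommGroup V'] (h : SG G V) (h' : SG G' V') : SG (G × G') (V × V') := by
  classical
  obtain ⟨A, B, P, h1, h2⟩ := h
  obtain ⟨A', B', P', h1', h2'⟩ := h'
  refine ⟨fun g => (A g.1).bind fun a => (A' g.2).map fun a' => (a, a'),
    fun g => (B g.1).bind fun a => (B' g.2).map fun a' => (a, a'),
    fun g => (P g.1, P' g.2), ?_, ?_⟩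
  · rintro ⟨j, j'⟩ ⟨k, k'⟩ ⟨a, a'⟩ ⟨b, b'⟩ hA hB
    simp only [Option.bind_eq_some_iff, Option.map_eq_some_iff, Prod.mk.injEq] at hA hB
    obtain ⟨x, hx, y, hy, rfl, rfl⟩ := hA
    obtain ⟨z, hz, t, ht, rfl, rfl⟩ := hB
    exact Prod.ext (h1 _ _ _ _ hx hz) (h1' _ _ _ _ hy ht)
  · rintro ⟨T, T'⟩ ⟨a, a'⟩
    obtain ⟨j, hj, hj2⟩ := h2 T a
    obtain ⟨j', hj', hj2'⟩ := h2' T' a'
    obtain ⟨b, hb⟩ := Option.isSome_iff_exists.1 hj2
    obtain ⟨b', hb'⟩ := Option.isSome_iff_exists.1 hj2'
    refine ⟨(j, j'), ?_, ?_⟩
    · simp [hj, hj']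
    · simp [hb, hb']

theorem SG.congr {G G' V V' : Type} [AddCommGroup G] [AddCommGroup G'] [AddCommGroup V]
    [AddCommGroup V'] (e : G ≃+ G') (f : V ≃+ V') (h : SG G V) : SG G' V' := by
  obtain ⟨A, B, P, h1, h2⟩ := h
  refine ⟨fun g => (A (e.symm g)).map f, fun g => (B (e.symm g)).map f,
    fun g => f (P (e.symm g)), ?_, ?_⟩
  · intro j k a b hA hB
    simp only [Option.map_eq_some_iff] at hA hB
    obtain ⟨x, hx, rfl⟩ := hA
    obtain ⟨y, hy, rfl⟩ := hB
    have := h1 _ _ _ _ hx hy
    simp only [this, map_add]
  · intro T a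
    obtain ⟨j, hj, hj2⟩ := h2 (e.symm T) (f.symm a)
    refine ⟨e j, ?_, ?_⟩
    · simp [hj]
    · simpa using hj2

/-- trivial gadget -/
theorem SG.unit : SG (ZMod 1) (Fin 0 → ZMod 2) :=
  ⟨fun _ => some 0, fun _ => some 0, fun _ => 0,
    fun _ _ _ _ _ _ => Subsingleton.elim _ _,
    fun _ a => ⟨0, congrArg some (Subsingleton.elim _ a), rfl⟩⟩

/-! ### The base gadget -/

/-- left sets, `z` = the second coordinate is zero -/
def Al (h : ℕ) (z : Bool) (l : Bool) (x : ℕ) : Prop :=
  match z, l with
  | false, false => x = 1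
  | false, true => x = h + 2
  | true, false => x = h + 1 ∨ x = h + 3
  | true, true => x = 0 ∨ x = 2

/-- right sets -/
def Bl (h : ℕ) (z : Bool) (l : Bool) (x : ℕ) : Prop :=
  match z, l with
  | false, false => x + 2 = h
  | false, true => x + 1 = h
  | true, false => h ≤ x ∧ x + 3 ≤ 2 * h
  | true, true => x + 3 ≤ h

/-- noise -/
def Pl (h : ℕ) (z : Bool) (x : ℕ) : Prop :=
  match z with
  | false => (1 ≤ x ∧ x + 2 ≤ h) ∨ x = h ∨ x = 2 * h
  | true => h ≤ x

instance (h : ℕ) (z l : Bool) (x : ℕ) : Decidable (Al h z l x) := by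
  cases z <;> cases l <;> unfold Al <;> infer_instance
instance (h : ℕ) (z l : Bool) (x : ℕ) : Decidable (Bl h z l x) := by
  cases z <;> cases l <;> unfold Bl <;> infer_instance
instance (h : ℕ) (z : Bool) (x : ℕ) : Decidable (Pl h z x) := by
  cases z <;> unfold Pl <;> infer_instance

/-- `z, z', z''` are the zero flags of two elements and of their sum -/
def Flag (z z' z'' : Bool) : Prop :=
  (z = true → z' = true → z'' = true) ∧ (z = true → z' = false → z'' = false) ∧
    (z = false → z' = true → z'' = false)

theorem sound_num (h : ℕ) (hh : 4 ≤ h) (z z' z'' : Bool) (hf : Flag z z' z'') (l l' : Bool)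
    (x y t : ℕ) (hx : x < 2 * h + 1) (hy : y < 2 * h + 1) (ht : t < 2 * h + 1)
    (hs : x + y = t ∨ x + y = t + (2 * h + 1)) (hA : Al h z l x) (hB : Bl h z' l' y) :
    (Pl h z'' t ↔ l ≠ l') := by
  obtain ⟨f1, f2, f3⟩ := hf
  cases z <;> cases z' <;> cases z'' <;> simp at f1 f2 f3 <;> cases l <;> cases l' <;>
    simp only [Al, Bl, Pl, ne_eq, not_true_eq_false, not_false_eq_true, iff_true, iff_false,
      reduceCtorEq] at * <;> omega

theorem disj_Al (h : ℕ) (_hh : 4 ≤ h) (z : Bool) (x : ℕ) : ¬ (Al h z false x ∧ Al h z true x) := by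
  cases z <;> simp only [Al] <;> omega

theorem disj_Bl (h : ℕ) (hh : 4 ≤ h) (z : Bool) (x : ℕ) : ¬ (Bl h z false x ∧ Bl h z true x) := by
  cases z <;> simp only [Bl] <;> omega

/-- completeness, layer `y ≠ 0` -/
theorem compl_num_n (h : ℕ) (hh : 4 ≤ h) (l : Bool) (t : ℕ) (ht : t < 2 * h + 1) :
    ∃ x y, x < 2 * h + 1 ∧ y < 2 * h + 1 ∧ (x + y = t ∨ x + y = t + (2 * h + 1)) ∧
      ∃ z z' l', (z = false ∨ z' = false) ∧ Al h z l x ∧ Bl h z' l' y := by
  cases l
  · rcases Nat.lt_or_ge t 1 with h1 | h1
    · exact ⟨h + 3, h - 2, by omega, by omega, by omega, true, false, false, by simp, by simp [Al],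
        by simp only [Bl]; omega⟩
    rcases Nat.lt_or_ge t (h - 1) with h2 | h2
    · exact ⟨1, t - 1, by omega, by omega, by omega, false, true, true, by simp, by simp [Al],
        by simp only [Bl]; omega⟩
    rcases Nat.lt_or_ge t h with h3 | h3
    · exact ⟨1, h - 2, by omega, by omega, by omega, false, false, false, by simp, by simp [Al],
        by simp only [Bl]; omega⟩
    rcases Nat.lt_or_ge t (h + 1) with h4 | h4
    · exact ⟨1, h - 1, by omega, by omega, by omega, false, false, true, by simp, by simp [Al],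
        by simp only [Bl]; omega⟩
    rcases Nat.lt_or_ge t (2 * h - 1) with h5 | h5
    · exact ⟨1, t - 1, by omega, by omega, by omega, false, true, false, by simp, by simp [Al],
        by simp only [Bl]; omega⟩
    rcases Nat.lt_or_ge t (2 * h) with h6 | h6
    · exact ⟨h + 1, h - 2, by omega, by omega, by omega, true, false, false, by simp, by simp [Al],
        by simp only [Bl]; omega⟩
    · exact ⟨h + 1, h - 1, by omega, by omega, by omega, true, false, true, by simp, by simp [Al],
        by simp only [Bl]; omega⟩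
  · rcases Nat.lt_or_ge t 1 with h1 | h1
    · exact ⟨h + 2, h - 1, by omega, by omega, by omega, false, false, true, by simp, by simp [Al],
        by simp only [Bl]; omega⟩
    rcases Nat.lt_or_ge t (h - 1) with h2 | h2
    · exact ⟨h + 2, t + h - 1, by omega, by omega, by omega, false, true, false, by simp,
        by simp [Al], by simp only [Bl]; omega⟩
    rcases Nat.lt_or_ge t h with h3 | h3
    · exact ⟨0, h - 1, by omega, by omega, by omega, true, false, true, by simp, by simp [Al],
        by simp only [Bl]; omega⟩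
    rcases Nat.lt_or_ge t (h + 1) with h4 | h4
    · exact ⟨2, h - 2, by omega, by omega, by omega, true, false, false, by simp, by simp [Al],
        by simp only [Bl]; omega⟩
    rcases Nat.lt_or_ge t (h + 2) with h5 | h5
    · exact ⟨2, h - 1, by omega, by omega, by omega, true, false, true, by simp, by simp [Al],
        by simp only [Bl]; omega⟩
    rcases Nat.lt_or_ge t (2 * h) with h6 | h6
    · exact ⟨h + 2, t - h - 2, by omega, by omega, by omega, false, true, true, by simp,
        by simp [Al], by simp only [Bl]; omega⟩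
    · exact ⟨h + 2, h - 2, by omega, by omega, by omega, false, false, false, by simp,
        by simp [Al], by simp only [Bl]; omega⟩

/-- completeness, layer `y = 0` -/
theorem compl_num_z (h : ℕ) (hh : 4 ≤ h) (l : Bool) (t : ℕ) (ht : t < 2 * h + 1) :
    ∃ x y, x < 2 * h + 1 ∧ y < 2 * h + 1 ∧ (x + y = t ∨ x + y = t + (2 * h + 1)) ∧
      ∃ z l', Al h z l x ∧ Bl h z l' y := by
  cases l
  · rcases Nat.lt_or_ge t (h - 2) with h1 | h1
    · exact ⟨h + 1, t + h, by omega, by omega, by omega, true, false, by simp [Al],
        by simp only [Bl]; omega⟩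
    rcases Nat.lt_or_ge t h with h2 | h2
    · exact ⟨h + 3, t + h - 2, by omega, by omega, by omega, true, false, by simp [Al],
        by simp only [Bl]; omega⟩
    rcases Nat.lt_or_ge t (h + 1) with h3 | h3
    · exact ⟨1, h - 1, by omega, by omega, by omega, false, true, by simp [Al],
        by simp only [Bl]; omega⟩
    rcases Nat.lt_or_ge t (2 * h - 1) with h4 | h4
    · exact ⟨h + 1, t - h - 1, by omega, by omega, by omega, true, true, by simp [Al],
        by simp only [Bl]; omega⟩
    · exact ⟨h + 3, t - h - 3, by omega, by omega, by omega, true, true, by simp [Al],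
        by simp only [Bl]; omega⟩
  · rcases Nat.lt_or_ge t (h - 2) with h1 | h1
    · exact ⟨0, t, by omega, by omega, by omega, true, true, by simp [Al],
        by simp only [Bl]; omega⟩
    rcases Nat.lt_or_ge t h with h2 | h2
    · exact ⟨2, t - 2, by omega, by omega, by omega, true, true, by simp [Al],
        by simp only [Bl]; omega⟩
    rcases Nat.lt_or_ge t (2 * h - 2) with h3 | h3
    · exact ⟨0, t, by omega, by omega, by omega, true, false, by simp [Al],
        by simp only [Bl]; omega⟩
    rcases Nat.lt_or_ge t (2 * h) with h4 | h4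
    · exact ⟨2, t - 2, by omega, by omega, by omega, true, false, by simp [Al],
        by simp only [Bl]; omega⟩
    · exact ⟨h + 2, h - 2, by omega, by omega, by omega, false, false, by simp [Al],
        by simp only [Bl]; omega⟩

/-! ### Passing to `ZMod (2h+1) × ZMod k` -/

theorem val_add_cases {m : ℕ} [NeZero m] (a b : ZMod m) :
    a.val + b.val = (a + b).val ∨ a.val + b.val = (a + b).val + m := by
  rcases Nat.lt_or_ge (a.val + b.val) m with h | h
  · left; rw [ZMod.val_add_of_lt h]
  · right; exact (ZMod.val_add_val_of_le h)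

/-- the element of `ZMod 2` of a bit -/
def bit (l : Bool) : ZMod 2 := if l then 1 else 0

theorem bit_surj (a : ZMod 2) : ∃ l, bit l = a := by
  fin_cases a
  · exact ⟨false, rfl⟩
  · exact ⟨true, rfl⟩

theorem base (h k : ℕ) (hh : 4 ≤ h) (hk : 3 ≤ k) :
    SG (ZMod (2 * h + 1) × ZMod k) (ZMod 2) := by
  classical
  haveI : NeZero (2 * h + 1) := ⟨by omega⟩
  haveI : NeZero k := ⟨by omega⟩
  set fl : ZMod k → Bool := fun y => decide (y = 0) with hfl
  refine ⟨fun g => if Al h (fl g.2) false g.1.val then some 0
      else if Al h (fl g.2) true g.1.val then some 1 else none,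
    fun g => if Bl h (fl g.2) false g.1.val then some 0
      else if Bl h (fl g.2) true g.1.val then some 1 else none,
    fun g => if Pl h (fl g.2) g.1.val then 1 else 0, ?_, ?_⟩
  · rintro ⟨j, j'⟩ ⟨k1, k'⟩ a b hA hB
    have hf : Flag (fl j') (fl k') (fl (j' + k')) := by
      refine ⟨?_, ?_, ?_⟩
      · intro h1 h2
        simp only [hfl, decide_eq_true_eq] at h1 h2 ⊢
        simp [h1, h2]
      · intro h1 h2
        simp only [hfl, decide_eq_true_eq, decide_eq_false_iff_not] at h1 h2 ⊢
        simpa [h1] using h2
      · intro h1 h2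
        simp only [hfl, decide_eq_true_eq, decide_eq_false_iff_not] at h1 h2 ⊢
        simpa [h2] using h1
    obtain ⟨l, hl, hal⟩ : ∃ l, Al h (fl j') l j.val ∧ a = bit l := by
      simp only at hA
      split_ifs at hA with h1 h2
      · exact ⟨false, h1, by simpa [bit] using hA.symm⟩
      · exact ⟨true, h2, by simpa [bit] using hA.symm⟩
    obtain ⟨l', hl', hbl⟩ : ∃ l, Bl h (fl k') l k1.val ∧ b = bit l := by
      simp only at hB
      split_ifs at hB with h1 h2
      · exact ⟨false, h1, by simpa [bit] using hB.symm⟩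
      · exact ⟨true, h2, by simpa [bit] using hB.symm⟩
    have key := sound_num h hh _ _ _ hf l l' j.val k1.val (j + k1).val (ZMod.val_lt _)
      (ZMod.val_lt _) (ZMod.val_lt _) (val_add_cases j k1) hl hl'
    subst hal hbl
    simp only [Prod.mk_add_mk]
    by_cases hP : Pl h (fl (j' + k')) (j + k1).val
    · rw [if_pos hP]
      have := key.1 hP
      cases l <;> cases l' <;> simp [bit] at this ⊢
      decide
    · rw [if_neg hP]
      have : l = l' := by
        by_contra hne
        exact hP (key.2 hne)
      simp [this]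
  · rintro ⟨T, T'⟩ a
    obtain ⟨l, rfl⟩ := bit_surj a
    -- it is enough to give numbers and flags
    have fin : ∀ (x y : ℕ) (z z' l' : Bool), x < 2 * h + 1 → y < 2 * h + 1 →
        (x + y = T.val ∨ x + y = T.val + (2 * h + 1)) → Al h z l x → Bl h z' l' y →
        (∃ j' : ZMod k, fl j' = z ∧ fl (T' - j') = z') →
        ∃ j : ZMod (2 * h + 1) × ZMod k,
          (if Al h (fl j.2) false j.1.val then some (0 : ZMod 2)
            else if Al h (fl j.2) true j.1.val then some 1 else none) = some (bit l) ∧
          (if Bl h (fl ((T, T') - j).2) false ((T, T') - j).1.val then some (0 : ZMod 2)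
            else if Bl h (fl ((T, T') - j).2) true ((T, T') - j).1.val then some 1
              else none).isSome := by
      rintro x y z z' l' hx hy hs hA hB ⟨j', hj', hj''⟩
      refine ⟨((x : ZMod (2 * h + 1)), j'), ?_, ?_⟩
      · have e1 : ((x : ZMod (2 * h + 1))).val = x := ZMod.val_cast_of_lt hx
        simp only [e1, hj']
        have hd := disj_Al h hh z x
        cases l
        · rw [if_pos hA]; rfl
        · have : ¬ Al h z false x := fun h' => hd ⟨h', hA⟩
          rw [if_neg this, if_pos hA]; rfl
      · have e2 : (T - (x : ZMod (2 * h + 1))).val = y := by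
          have e3 : T - (x : ZMod (2 * h + 1)) = (y : ZMod (2 * h + 1)) := by
            have e4 : ((x + y : ℕ) : ZMod (2 * h + 1)) = T := by
              rcases hs with hs | hs
              · rw [hs]; simp
              · rw [hs]; push_cast
                have : ((2 : ZMod (2 * h + 1)) * h + 1) = 0 := by
                  have := ZMod.natCast_self (2 * h + 1)
                  push_cast at this
                  exact this
                rw [this]; simp
            rw [← e4]; push_cast; ring
          rw [e3]; exact ZMod.val_cast_of_lt hy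
        simp only [Prod.mk_sub_mk, e2, hj'']
        cases l'
        · rw [if_pos hB]; rfl
        · split_ifs <;> rfl
    by_cases hT : T' = 0
    · obtain ⟨x, y, hx, hy, hs, z, l', hA, hB⟩ := compl_num_z h hh l T.val (ZMod.val_lt _)
      refine fin x y z z l' hx hy hs hA hB ?_
      cases z
      · refine ⟨1, ?_, ?_⟩
        · simp only [hfl, decide_eq_false_iff_not]
          intro h1
          have := congrArg ZMod.val h1
          rw [ZMod.val_one'' (by omega), ZMod.val_zero] at this
          omega
        · simp only [hfl, decide_eq_false_iff_not, hT, zero_sub, neg_eq_zero]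
          intro h1
          have := congrArg ZMod.val h1
          rw [ZMod.val_one'' (by omega), ZMod.val_zero] at this
          omega
      · exact ⟨0, by simp [hfl], by simp [hfl, hT]⟩
    · obtain ⟨x, y, hx, hy, hs, z, z', l', hz, hA, hB⟩ := compl_num_n h hh l T.val (ZMod.val_lt _)
      refine fin x y z z' l' hx hy hs hA hB ?_
      cases z <;> cases z'
      · -- both nonzero
        have hcard : ∃ c : ZMod k, c ≠ 0 ∧ c ≠ T' := by
          by_contra hcon
          push_neg at hcon
          have hsub : (Finset.univ : Finset (ZMod k)) ⊆ {0, T'} := by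
            intro c _
            by_cases hc : c = 0
            · simp [hc]
            · simp [hcon c hc]
          have h1 := Finset.card_le_card hsub
          rw [Finset.card_univ, ZMod.card] at h1
          have h2 := Finset.card_le_two (a := (0 : ZMod k)) (b := T')
          omega
        obtain ⟨c, hc, hc'⟩ := hcard
        refine ⟨c, by simp [hfl, hc], ?_⟩
        simp only [hfl, decide_eq_false_iff_not, sub_eq_zero]
        exact fun h => hc' h.symm
      · exact ⟨T', by simp [hfl, hT], by simp [hfl]⟩
      · exact ⟨0, by simp [hfl], by simp [hfl, hT]⟩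
      · simp at hz

/-! ### All ranks, modulus prime to a given number -/

/-- for every `t > 0` and `d` there is a cyclic clock, of order prime to `t`, for `(Z/2)^d` -/
theorem exists_SG (t : ℕ) (ht : 0 < t) (d : ℕ) :
    ∃ M : ℕ, 0 < M ∧ Nat.Coprime M t ∧ SG (ZMod M) (Fin d → ZMod 2) := by
  induction d with
  | zero => exact ⟨1, one_pos, Nat.coprime_one_left t, SG.unit⟩
  | succ d ih =>
    obtain ⟨M, hM, hMt, hSG⟩ := ih
    -- two primes larger than everything
    obtain ⟨p, hp, hpp⟩ := Nat.exists_infinite_primes (M * t + 10)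
    obtain ⟨q, hq, hqp⟩ := Nat.exists_infinite_primes (p * (M * t) + 10)
    have hMt0 : 0 < M * t := Nat.mul_pos hM ht
    have hpgt : M * t < p := by omega
    have hcop : Nat.Coprime p (M * t) :=
      (Nat.Prime.coprime_iff_not_dvd hpp).2 fun hd => by
        have := Nat.le_of_dvd hMt0 hd
        omega
    have hqgt : p * (M * t) < q := by omega
    have hcoq : Nat.Coprime q (p * (M * t)) :=
      (Nat.Prime.coprime_iff_not_dvd hqp).2 fun hd => by
        have := Nat.le_of_dvd (Nat.mul_pos hpp.pos hMt0) hd
        omega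
    have hodd : ∃ h, p = 2 * h + 1 := by
      rcases hpp.eq_two_or_odd' with h | h
      · omega
      · exact h
    obtain ⟨h, rfl⟩ := hodd
    have hbase : SG (ZMod (2 * h + 1) × ZMod q) (ZMod 2) := base h q (by omega) (by omega)
    have hpq : Nat.Coprime (2 * h + 1) q := (Nat.Coprime.coprime_mul_right_right hcoq).symm
    have hb2 : SG (ZMod ((2 * h + 1) * q)) (ZMod 2) :=
      hbase.congr (ZMod.chineseRemainder hpq).symm.toAddEquiv (AddEquiv.refl _)
    have hc1 : Nat.Coprime ((2 * h + 1) * q) M := by
      apply Nat.Coprime.mul_left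
      · exact Nat.Coprime.coprime_mul_right_right hcop
      · exact Nat.Coprime.coprime_mul_right_right (Nat.Coprime.coprime_mul_left_right hcoq)
    have hc2 : Nat.Coprime ((2 * h + 1) * q) t := by
      apply Nat.Coprime.mul_left
      · exact Nat.Coprime.coprime_mul_left_right hcop
      · exact Nat.Coprime.coprime_mul_left_right (Nat.Coprime.coprime_mul_left_right hcoq)
    refine ⟨((2 * h + 1) * q) * M, Nat.mul_pos (Nat.mul_pos (by omega) hqp.pos) hM,
      Nat.Coprime.mul_left hc2 hMt, ?_⟩
    have hprod := (hb2.prod hSG).congr (ZMod.chineseRemainder hc1).symm.toAddEquiv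
      (AddEquiv.refl _)
    refine hprod.congr (AddEquiv.refl _) ?_
    exact
      { toFun := fun v => Fin.cons v.1 v.2
        invFun := fun w => (w 0, fun i => w i.succ)
        left_inv := fun v => by simp
        right_inv := fun w => by
          funext i
          refine Fin.cases ?_ ?_ i <;> simp
        map_add' := fun v w => by
          funext i
          refine Fin.cases ?_ ?_ i <;> simp }

/-! ### The gadget for a long run: constant content, any endomorphism, any total length -/

theorem exists_modEq_window (N x j0 : ℕ) (hN : 0 < N) :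
    ∃ j, j0 ≤ j ∧ j < j0 + N ∧ j ≡ x [MOD N] := by
  refine ⟨j0 + (x + (N - j0 % N)) % N, by omega, ?_, ?_⟩
  · have := Nat.mod_lt (x + (N - j0 % N)) hN
    omega
  · have h1 : j0 + (x + (N - j0 % N)) % N ≡ j0 + (x + (N - j0 % N)) [MOD N] :=
      Nat.ModEq.add_left _ (Nat.mod_modEq _ _)
    have h2 : j0 + (x + (N - j0 % N)) = x + N * (j0 / N + 1) := by
      have h3 := Nat.div_add_mod j0 N
      have h4 := Nat.mod_lt j0 hN
      have h5 : N * (j0 / N + 1) = N * (j0 / N) + N := by ring
      omega
    rw [h2] at h1
    refine h1.trans ?_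
    have h6 : x + N * (j0 / N + 1) ≡ x + 0 [MOD N] :=
      Nat.ModEq.add_left _ ((Nat.modEq_zero_iff_dvd).2 (Dvd.intro _ rfl))
    simpa using h6

/-- **Run gadget.**  `g` acts on the token group `V = (Z/2)^d`.  Left label of the cut at distance
`j` from the left end, right label of the cut at distance `k` from the right end of a zone of
`j + k` letters all acting as `g`; the labels do not know the total; every token is cut in every
window of `N` consecutive places. -/
theorem run_gadget (d : ℕ) (g : AddMonoid.End (Fin d → ZMod 2)) :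
    ∃ (N i0 : ℕ) (L R : ℕ → Option (Fin d → ZMod 2)) (nu : ℕ → (Fin d → ZMod 2)),
      0 < N ∧
      (∀ j k v r, L j = some v → R k = some r → r = (g ^ (j + k)) v + nu (j + k)) ∧
      (∀ T j0 v, j0 + N + i0 ≤ T → ∃ j, j0 ≤ j ∧ j < j0 + N ∧ L j = some v ∧
        (R (T - j)).isSome) := by
  classical
  haveI : Finite (AddMonoid.End (Fin d → ZMod 2)) :=
    Finite.of_injective (fun f : AddMonoid.End (Fin d → ZMod 2) => (fun v => f v))
      (fun f f' hff => by
        refine AddMonoidHom.ext fun v => congrFun hff v)
  obtain ⟨i0, t, ht, hper⟩ : ∃ i0 t, 0 < t ∧ g ^ (i0 + t) = g ^ i0 := by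
    obtain ⟨a, b, hab, hg⟩ := Finite.exists_ne_map_eq_of_infinite (fun n : ℕ => g ^ n)
    rcases Nat.lt_or_gt_of_ne hab with h | h
    · exact ⟨a, b - a, by omega, by rw [show a + (b - a) = b by omega]; exact hg.symm⟩
    · exact ⟨b, a - b, by omega, by rw [show b + (a - b) = a by omega]; exact hg⟩
  have hper2 : ∀ k j, i0 ≤ k → t ∣ j → g ^ (j + k) = g ^ k := by
    rintro k j hk ⟨n, rfl⟩
    induction n with
    | zero => simp
    | succ n ih =>
      have h1 : t * (n + 1) + k = (k - i0 + t * n) + (i0 + t) := by
        rw [Nat.mul_succ]; omega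
      rw [h1, pow_add, hper, ← pow_add]
      rw [show k - i0 + t * n + i0 = t * n + k by omega]
      exact ih
  obtain ⟨M, hM, hMt, A, B, P, hs, hc⟩ := exists_SG t ht d
  haveI : NeZero M := ⟨by omega⟩
  refine ⟨M * t, i0, fun j => if t ∣ j then A (j : ZMod M) else none,
    fun k => if i0 ≤ k then (B (k : ZMod M)).map (fun b => (g ^ k) b) else none,
    fun T => (g ^ T) (P (T : ZMod M)), Nat.mul_pos hM ht, ?_, ?_⟩
  · intro j k v r hL hR
    simp only at hL hR
    split_ifs at hL hR with h1 h2
    obtain ⟨b, hb, rfl⟩ := Option.map_eq_some_iff.1 hR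
    have h3 := hs _ _ _ _ hL hb
    simp only [h3, hper2 k j h2 h1, Nat.cast_add, map_add]
  · intro T j0 v hT
    obtain ⟨c, hcA, hcB⟩ := hc (T : ZMod M) v
    obtain ⟨x, hx1, hx2⟩ := Nat.chineseRemainder hMt c.val 0
    obtain ⟨j, hj1, hj2, hj3⟩ := exists_modEq_window (M * t) x j0 (Nat.mul_pos hM ht)
    have hjM : (j : ZMod M) = c := by
      have h1 : j ≡ c.val [MOD M] := (Nat.ModEq.of_mul_right t hj3).trans hx1
      have h2 := (ZMod.natCast_eq_natCast_iff _ _ _).2 h1
      rw [h2, ZMod.natCast_val, ZMod.cast_id]
    have hjt : t ∣ j := by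
      have h1 : j ≡ 0 [MOD t] := (Nat.ModEq.of_mul_left M hj3).trans hx2
      exact (Nat.modEq_zero_iff_dvd).1 h1
    refine ⟨j, hj1, hj2, ?_, ?_⟩
    · simp only [if_pos hjt, hjM, hcA]
    · have h1 : i0 ≤ T - j := by omega
      have h2 : ((T - j : ℕ) : ZMod M) = (T : ZMod M) - c := by
        rw [Nat.cast_sub (by omega), hjM]
      simp only [if_pos h1, h2, Option.isSome_map]
      exact hcB

end Crest.Agent.R320.Sumset791
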