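import Crest.Agent.R320.Hk2_851

/-!
Row 320, helper370.  Second half of 932's periodic separation criterion: the syntactic monoid of a
finite family of regular languages of height at most h, all of whose classes have height at most h.
-/

set_option autoImplicit false

namespace Crest.Agent.R320.SynFam_370

open Crest.Agent.R320.Hk_851

universe u v

variable {α : Type u} {ι : Type v}

/-- The common syntactic congruence of a family of languages. -/
def synCon (X : ι → Language α) : Con (FreeMonoid α) where
  r w w' := ∀ i, ∀ x y : List α,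
    (x ++ FreeMonoid.toList w ++ y ∈ X i ↔ x ++ FreeMonoid.toList w' ++ y ∈ X i)
  iseqv := ⟨fun _ _ _ _ => Iff.rfl, fun h i x y => (h i x y).symm,
    fun h h' i x y => (h i x y).trans (h' i x y)⟩
  mul' := by
    intro a b c d hab hcd i x y
    have h1 := hab i x (FreeMonoid.toList c ++ y)
    have h2 := hcd i (x ++ FreeMonoid.toList b) y
    simp only [FreeMonoid.toList_mul, List.append_assoc] at *
    exact h1.trans h2

/-- The word map to the syntactic monoid. -/
def tau (X : ι → Language α) (a : α) : (synCon X).Quotient := ((FreeMonoid.of a : FreeMonoid α) : (synCon X).Quotient)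

theorem prod_tau (X : ι → Language α) (w : List α) :
    (w.map (tau X)).prod = ((FreeMonoid.ofList w : FreeMonoid α) : (synCon X).Quotient) := by
  induction w with
  | nil => rfl
  | cons a w ih =>
    rw [List.map_cons, List.prod_cons, ih]
    rfl

theorem prod_tau_eq_iff (X : ι → Language α) (w w' : List α) :
    (w.map (tau X)).prod = (w'.map (tau X)).prod ↔
      ∀ i, ∀ x y : List α, (x ++ w ++ y ∈ X i ↔ x ++ w' ++ y ∈ X i) := by
  rw [prod_tau, prod_tau]
  exact (Con.eq _)

theorem exists_rep [Finite ι] (X : ι → Language α) (hreg : ∀ i, (X i).IsRegular) :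
    ∃ rep : List α → List α, (Set.range rep).Finite ∧
      (∀ i x w, (x ++ w ∈ X i ↔ rep x ++ w ∈ X i)) ∧
      (∀ i w y, (w ++ y ∈ X i ↔ w ++ rep y ∈ X i)) ∧
      (∀ i x w y, (x ++ w ++ y ∈ X i ↔ x ++ rep w ++ y ∈ X i)) := by
  classical
  choose σ hσ M hM using hreg
  let F : List α → ∀ i, σ i → σ i := fun w i q => (M i).evalFrom q w
  have hfin : Finite (∀ i, σ i → σ i) := by
    have : ∀ i, Finite (σ i → σ i) := fun i => by
      haveI := hσ i
      infer_instance
    infer_instance
  refine ⟨fun x => Function.invFun F (F x), ?_, ?_, ?_, ?_⟩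
  · have : Set.range (fun x => Function.invFun F (F x)) ⊆ Set.range (Function.invFun F) := by
      rintro _ ⟨x, rfl⟩
      exact ⟨F x, rfl⟩
    exact (Set.finite_range _).subset this
  all_goals
    have hrep : ∀ x, F (Function.invFun F (F x)) = F x := fun x => Function.invFun_eq ⟨x, rfl⟩
    have hrep' : ∀ x i q, (M i).evalFrom q (Function.invFun F (F x)) = (M i).evalFrom q x :=
      fun x i q => congrFun (congrFun (hrep x) i) q
  · intro i x w
    rw [← hM i, DFA.mem_accepts, DFA.mem_accepts]
    change (M i).evalFrom (M i).start (x ++ w) ∈ _ ↔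
      (M i).evalFrom (M i).start (Function.invFun F (F x) ++ w) ∈ _
    rw [DFA.evalFrom_of_append, DFA.evalFrom_of_append, hrep']
  · intro i w y
    rw [← hM i, DFA.mem_accepts, DFA.mem_accepts]
    change (M i).evalFrom (M i).start (w ++ y) ∈ _ ↔
      (M i).evalFrom (M i).start (w ++ Function.invFun F (F y)) ∈ _
    rw [DFA.evalFrom_of_append, DFA.evalFrom_of_append, hrep']
  · intro i x w y
    rw [← hM i, DFA.mem_accepts, DFA.mem_accepts]
    change (M i).evalFrom (M i).start (x ++ w ++ y) ∈ _ ↔
      (M i).evalFrom (M i).start (x ++ Function.invFun F (F w) ++ y) ∈ _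
    rw [DFA.evalFrom_of_append, DFA.evalFrom_of_append, DFA.evalFrom_of_append,
      DFA.evalFrom_of_append, hrep']

theorem finite_syn [Finite ι] (X : ι → Language α) (hreg : ∀ i, (X i).IsRegular) :
    Finite (synCon X).Quotient := by
  obtain ⟨rep, hfin, -, -, h3⟩ := exists_rep X hreg
  haveI := hfin.to_subtype
  refine Finite.of_surjective (fun v : Set.range rep => ((v.1.map (tau X)).prod)) ?_
  intro t
  induction t using Con.induction_on with
  | H w =>
    refine ⟨⟨rep (FreeMonoid.toList w), _, rfl⟩, ?_⟩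
    have h := (prod_tau_eq_iff X (rep (FreeMonoid.toList w)) (FreeMonoid.toList w)).2
      (fun i x y => (h3 i x _ y).symm)
    refine h.trans ?_
    rw [prod_tau]
    rfl

theorem class_HL [Finite ι] (h : ℕ) (X : ι → Language α) (hreg : ∀ i, (X i).IsRegular)
    (hh : ∀ i, HL h (X i)) (t : (synCon X).Quotient) :
    HL h ({w | (w.map (tau X)).prod = t} : Language α) := by
  obtain ⟨rep, hfin, h1, h2, h3⟩ := exists_rep X hreg
  obtain ⟨w0, rfl⟩ : ∃ w0 : List α, (w0.map (tau X)).prod = t := by
    induction t using Con.induction_on with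
    | H w => exact ⟨FreeMonoid.toList w, by rw [prod_tau]; rfl⟩
  have key : HL h ({w | ∀ x ∈ Set.range rep, ∀ y ∈ Set.range rep, ∀ i,
      (x ++ w ++ y ∈ X i ↔ x ++ w0 ++ y ∈ X i)} : Language α) := by
    refine (HL.biInter hfin (L := fun x => ({w | ∀ y ∈ Set.range rep, ∀ i,
      (x ++ w ++ y ∈ X i ↔ x ++ w0 ++ y ∈ X i)} : Language α)) ?_).congr fun w => Iff.rfl
    intro x _
    refine (HL.biInter hfin (L := fun y => ({w | ∀ i,
      (x ++ w ++ y ∈ X i ↔ x ++ w0 ++ y ∈ X i)} : Language α)) ?_).congr fun w => Iff.rfl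
    intro y _
    refine (HL.iInter (L := fun i => ({w |
      (x ++ w ++ y ∈ X i ↔ x ++ w0 ++ y ∈ X i)} : Language α)) ?_).congr fun w => Iff.rfl
    intro i
    refine HL.setOf_iff ?_ (HL.const _)
    exact ((hh i).rquot y).lquot x |>.congr fun w => by
      change x ++ w ++ y ∈ X i ↔ x ++ w ++ y ∈ X i
      exact Iff.rfl
  refine key.congr ?_
  intro w
  constructor
  · intro hw x _ y _ i
    exact (prod_tau_eq_iff X w w0).1 hw i x y
  · intro hw
    refine (prod_tau_eq_iff X w w0).2 ?_
    intro i x y
    have e1 := hw (rep x) ⟨x, rfl⟩ (rep y) ⟨y, rfl⟩ i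
    have e2 := h1 i x (w ++ y)
    have e3 := h2 i (rep x ++ w) y
    have e4 := h1 i x (w0 ++ y)
    have e5 := h2 i (rep x ++ w0) y
    simp only [List.append_assoc] at *
    rw [e2, e3, e1, ← e5, ← e4]

end Crest.Agent.R320.SynFam_370
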