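import Crest.Agent.R320.Hgt1_903

/-! # The synchronisation lemma (row 320, piece (9))

A deterministic system `step : Q → α → Q`; `QL` a set of "left legal" states, `U` a finite set of
nonempty "right legal" words and `ρ` with `run q u = ρ u` for all `q ∈ QL`, `u ∈ U` (all left legal
states are merged by every right legal word).  If all languages of *uncut* runs have height `≤ h`
then all languages of runs have height `≤ h + 1`. -/

set_option autoImplicit false

namespace Crest.Agent.R320.Sync_106

open Crest.RegLang Crest.Agent.R320.Hgt1_903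

variable {α Q : Type*}

/-- run of the deterministic system. -/
def run (step : Q → α → Q) (q : Q) (w : List α) : Q := w.foldl step q

@[simp] theorem run_nil (step : Q → α → Q) (q : Q) : run step q [] = q := rfl

theorem run_append (step : Q → α → Q) (q : Q) (u v : List α) :
    run step q (u ++ v) = run step (run step q u) v := by
  simp [run, List.foldl_append]

/-- no cut inside `w` for the run started at `q`. -/
def Uncut (step : Q → α → Q) (QL : Set Q) (U : Set (List α)) (q : Q) (w : List α) : Prop :=
  ∀ x y z, x ++ y ++ z = w → y ∈ U → run step q x ∉ QL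

/-- the language of uncut runs. -/
def E (step : Q → α → Q) (QL : Set Q) (U : Set (List α)) (r q' : Q) : Language α :=
  {w | run step r w = q' ∧ Uncut step QL U r w}

/-- the language of all runs. -/
def Lrun (step : Q → α → Q) (r q' : Q) : Language α := {w | run step r w = q'}

/-- one piece of the star: right legal word followed by an uncut run which ends left legal. -/
def K (step : Q → α → Q) (QL : Set Q) (U : Set (List α)) (ρ : List α → Q) : Language α :=
  {w | ∃ u v, u ++ v = w ∧ u ∈ U ∧ (run step (ρ u) v ∈ QL ∧ Uncut step QL U (ρ u) v)}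

/-- last piece. -/
def T (step : Q → α → Q) (QL : Set Q) (U : Set (List α)) (ρ : List α → Q) (qf : Q) : Language α :=
  {w | ∃ u v, u ++ v = w ∧ u ∈ U ∧ (run step (ρ u) v = qf ∧ Uncut step QL U (ρ u) v)}

/-- uncut runs ending in a left legal state. -/
def EL (step : Q → α → Q) (QL : Set Q) (U : Set (List α)) (q : Q) : Language α :=
  {w | run step q w ∈ QL ∧ Uncut step QL U q w}

variable {step : Q → α → Q} {QL : Set Q} {U : Set (List α)} {ρ : List α → Q}

theorem run_kstar (hρ : ∀ q ∈ QL, ∀ u ∈ U, run step q u = ρ u) {q : Q} (hq : q ∈ QL)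
    {w : List α} (hw : w ∈ KStar.kstar (K step QL U ρ)) : run step q w ∈ QL := by
  rw [Language.mem_kstar] at hw
  obtain ⟨S, rfl, hS⟩ := hw
  induction S generalizing q with
  | nil => simpa using hq
  | cons a S ih =>
    rw [List.flatten_cons, run_append]
    apply ih
    · obtain ⟨u, v, rfl, hu, hv, -⟩ := hS a (List.mem_cons_self ..)
      rw [run_append, hρ q hq u hu]
      exact hv
    · intro y hy; exact hS y (List.mem_cons_of_mem _ hy)

/-- first cut, greedily. -/
theorem first_cut (hU : ∀ u ∈ U, u ≠ []) (q : Q) (w : List α) (h : ¬ Uncut step QL U q w) :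
    ∃ x y z, x ++ y ++ z = w ∧ y ∈ U ∧ run step q x ∈ QL ∧ Uncut step QL U q x := by
  classical
  have h' : ∃ n x y z, x ++ y ++ z = w ∧ y ∈ U ∧ run step q x ∈ QL ∧ x.length = n := by
    by_contra hno
    apply h
    intro x y z e hy hx
    exact hno ⟨_, x, y, z, e, hy, hx, rfl⟩
  obtain ⟨x, y, z, e, hy, hx, hn⟩ := Nat.find_spec h'
  refine ⟨x, y, z, e, hy, hx, ?_⟩
  intro x' y' z' e' hy' hx'
  have hlt : x'.length < Nat.find h' := by
    rw [← hn, ← e', List.length_append, List.length_append]
    have : 0 < y'.length := List.length_pos_iff.2 (hU y' hy')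
    omega
  refine Nat.find_min h' hlt ⟨x', y', z' ++ y ++ z, ?_, hy', hx', rfl⟩
  rw [← e, ← e']
  simp [List.append_assoc]

theorem decomp (hU : ∀ u ∈ U, u ≠ []) (hρ : ∀ q ∈ QL, ∀ u ∈ U, run step q u = ρ u)
    (qf : Q) : ∀ (n : ℕ) (q : Q) (w : List α), w.length ≤ n → run step q w = qf →
      (Uncut step QL U q w) ∨
      ∃ x y, x ++ y = w ∧ (run step q x ∈ QL ∧ Uncut step QL U q x) ∧
        y ∈ KStar.kstar (K step QL U ρ) * T step QL U ρ qf := by
  intro n
  induction n with
  | zero =>
    intro q w hw _
    left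
    intro x y z e hy
    have : w = [] := List.length_eq_zero_iff.1 (Nat.le_zero.1 hw)
    subst this
    have hy0 : y = [] := by
      have := congrArg List.length e
      simp only [List.length_append, List.length_nil] at this
      exact List.length_eq_zero_iff.1 (by omega)
    exact absurd hy0 (hU y hy)
  | succ n ih =>
    intro q w hw hqf
    by_cases hc : Uncut step QL U q w
    · exact Or.inl hc
    · right
      obtain ⟨x, y, z, rfl, hy, hx, hxu⟩ := first_cut hU q w hc
      refine ⟨x, y ++ z, by rw [List.append_assoc], ⟨hx, hxu⟩, ?_⟩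
      have hz : run step (ρ y) z = qf := by
        rw [run_append, run_append, hρ _ hx y hy] at hqf
        exact hqf
      have hlen : z.length ≤ n := by
        have : 0 < y.length := List.length_pos_iff.2 (hU y hy)
        rw [List.length_append, List.length_append] at hw
        omega
      rw [Language.mem_mul]
      rcases ih (ρ y) z hlen hz with h1 | ⟨x1, y1, rfl, ⟨h2, h3⟩, h4⟩
      · exact ⟨[], Language.nil_mem_kstar _, y ++ z, ⟨y, z, rfl, hy, hz, h1⟩, rfl⟩
      · rw [Language.mem_mul] at h4
        obtain ⟨k, hk, t, ht, rfl⟩ := h4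
        refine ⟨(y ++ x1) ++ k, ?_, t, ht, by simp [List.append_assoc]⟩
        rw [Language.mem_kstar] at hk ⊢
        obtain ⟨S, rfl, hS⟩ := hk
        refine ⟨(y ++ x1) :: S, by simp, ?_⟩
        intro a ha
        rcases List.mem_cons.1 ha with rfl | ha
        · exact ⟨y, x1, rfl, hy, h2, h3⟩
        · exact hS a ha

/-- **Synchronisation lemma.** -/
theorem height_succ [Finite Q] (hfin : U.Finite) (hU : ∀ u ∈ U, u ≠ [])
    (hρ : ∀ q ∈ QL, ∀ u ∈ U, run step q u = ρ u) (Live : Set Q) (hQL : QL ⊆ Live) (h : ℕ)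
    (hE : ∀ r, ∀ q' ∈ Live, H h (E step QL U r q')) (q0 qf : Q) (hqf : qf ∈ Live) :
    H (h + 1) (Lrun step q0 qf) := by
  classical
  -- pieces
  have hEQ : ∀ r, H h (EL step QL U r) := by
    intro r
    refine H.congr (H.exists_fintype
      (fun q' : {q : Q // q ∈ QL} => E step QL U r q'.1) fun q' => hE r q'.1 (hQL q'.2))
      fun w => ?_
    constructor
    · rintro ⟨⟨q', hq'⟩, h1, h2⟩
      have h1' : run step r w = q' := h1
      exact ⟨by rw [h1']; exact hq', h2⟩
    · rintro ⟨h1, h2⟩
      exact ⟨⟨_, h1⟩, rfl, h2⟩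
  have hpiece : ∀ (R : Q → Language α), (∀ r, H h (R r)) →
      H h ({w | ∃ u v, u ++ v = w ∧ u ∈ U ∧ v ∈ R (ρ u)} : Language α) := by
    intro R hR
    refine H.congr (H.exists_finset hfin.toFinset
      (fun u => ({u} : Language α) * R (ρ u)) fun u _ => (H.word h u).mul (hR _)) fun w => ?_
    constructor
    · rintro ⟨u, hu, hw⟩
      rw [Language.mem_mul] at hw
      obtain ⟨a, ha, v, hv, rfl⟩ := hw
      have ha' : a = u := ha
      subst ha'
      exact ⟨a, v, rfl, hfin.mem_toFinset.1 hu, hv⟩
    · rintro ⟨u, v, rfl, hu, hv⟩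
      refine ⟨u, hfin.mem_toFinset.2 hu, ?_⟩
      rw [Language.mem_mul]
      exact ⟨u, rfl, v, hv, rfl⟩
  have hK : H h (K step QL U ρ) :=
    hpiece (fun r => EL step QL U r) hEQ
  have hT : H h (T step QL U ρ qf) := hpiece (fun r => E step QL U r qf) fun r => hE r qf hqf
  have hall : H (h + 1) (EL step QL U q0 *
      (KStar.kstar (K step QL U ρ) * T step QL U ρ qf)) :=
    ((hEQ q0).mono (Nat.le_succ h)).mul (hK.star.mul (hT.mono (Nat.le_succ h)))
  refine H.congr (((hE q0 qf hqf).mono (Nat.le_succ h)).union hall) fun w => ?_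
  constructor
  · rintro (hw | hw)
    · exact hw.1
    · rw [Language.mem_mul] at hw
      obtain ⟨x, ⟨hx, -⟩, y, hy, rfl⟩ := hw
      rw [Language.mem_mul] at hy
      obtain ⟨k, hk, t, ⟨u, v, rfl, hu, hv, -⟩, rfl⟩ := hy
      change run step q0 _ = qf
      rw [run_append, run_append, run_append, hρ _ (run_kstar hρ hx hk) u hu]
      exact hv
  · intro hw
    rcases decomp hU hρ qf w.length q0 w le_rfl hw with h1 | ⟨x, y, rfl, h1, h2⟩
    · exact Or.inl ⟨hw, h1⟩
    · right
      rw [Language.mem_mul]
      exact ⟨x, h1, y, h2, rfl⟩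

end Crest.Agent.R320.Sync_106
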