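import Crest.Agent.R320.Hk2_851

/-!
# Row 320: synchronising cut systems (helper242)

A scheme is a finite automaton `δ : Ω → α → Ω` together with a set `Lg` of left-legal states.
Right-legal means: the next `D` letters send all of `Lg` to one state. `dec_succ` is the
nesting theorem: one more star per scheme.
-/

set_option autoImplicit false

namespace Crest.Agent.R320.Sync_242

open Crest.RegLang Crest.Agent.R320.Hk_851

universe u

variable {α : Type u} {Ω : Type}

/-- the state after reading `w` -/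
def run (δ : Ω → α → Ω) (o : Ω) (w : List α) : Ω := w.foldl δ o

theorem run_append (δ : Ω → α → Ω) (o : Ω) (u v : List α) :
    run δ o (u ++ v) = run δ (run δ o u) v := List.foldl_append

/-- `z` sends all of `Lg` to one state -/
def Syn (δ : Ω → α → Ω) (Lg : Set Ω) (z : List α) : Prop :=
  ∀ o ∈ Lg, ∀ o' ∈ Lg, run δ o z = run δ o' z

/-- the words which synchronise `Lg` into `Lg` -/
def CS (δ : Ω → α → Ω) (Lg : Set Ω) : Language α :=
  {w | ∃ o' ∈ Lg, ∀ o ∈ Lg, run δ o w = o'}

/-- `x` is a cut of the thread `o` on the text `w` -/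
def Cut (δ : Ω → α → Ω) (Lg : Set Ω) (D : ℕ) (o : Ω) (w : List α) (x : ℕ) : Prop :=
  run δ o (w.take x) ∈ Lg ∧ x + D ≤ w.length ∧ Syn δ Lg ((w.drop x).take D)

/-- level-`h` computability on the class `G` -/
def Dec (h : ℕ) (G : Set (List α)) : Prop :=
  ∀ R : Language α, R.IsRegular → ∃ D : Language α, HL h D ∧ ∀ w ∈ G, (w ∈ D ↔ w ∈ R)

theorem Dec.mono {h : ℕ} {G G' : Set (List α)} (hs : G ⊆ G') (hd : Dec h G') : Dec h G := by
  intro R hR
  obtain ⟨D, h1, h2⟩ := hd R hR
  exact ⟨D, h1, fun w hw => h2 w (hs hw)⟩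

/-- languages defined by the transition function are regular -/
theorem isRegular_run [Finite Ω] (δ : Ω → α → Ω) (p : (Ω → Ω) → Prop) :
    Language.IsRegular ({w | p (fun o => run δ o w)} : Language α) := by
  classical
  have : Fintype Ω := Fintype.ofFinite Ω
  let M : DFA α (Ω → Ω) := ⟨fun f a o => δ (f o) a, id, {f | p f}⟩
  have key : ∀ (w : List α) (f : Ω → Ω), M.evalFrom f w = fun o => run δ (f o) w := by
    intro w
    induction w with
    | nil => intro f; rfl
    | cons a w ih =>
      intro f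
      show M.evalFrom (M.step f a) w = _
      rw [ih]
      rfl
  refine ⟨Ω → Ω, inferInstance, M, ?_⟩
  ext w
  show M.evalFrom M.start w ∈ M.accept ↔ _
  rw [key]
  rfl

/-- every regular language has a level-`h` under-approximation which contains its short words and
its words in `G'` -/
theorem core [Finite α] {h : ℕ} {G' : Set (List α)} (hG' : HL h (G' : Language α)) (hD : Dec h G')
    (B : ℕ) (R : Language α) (hR : R.IsRegular) :
    ∃ T : Language α, HL h T ∧ (∀ w ∈ T, w ∈ R) ∧
      (∀ w ∈ R, (w.length ≤ B ∨ w ∈ G') → w ∈ T) := by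
  obtain ⟨D, h1, h2⟩ := hD R hR
  have hfin : HL h ({w | w.length ≤ B ∧ w ∈ R} : Language α) := by
    refine HL.finite ?_
    refine Set.Finite.subset (List.finite_length_le α B) ?_
    intro w hw
    exact hw.1
  refine ⟨({w | w.length ≤ B ∧ w ∈ R} : Language α) ⊔ (D ⊓ (G' : Language α)),
    hfin.sup (h1.inf hG'), ?_, ?_⟩
  · rintro w (hw | hw)
    · exact hw.2
    · exact (h2 w hw.2).1 hw.1
  · rintro w hw (h3 | h3)
    · exact Or.inl ⟨h3, hw⟩
    · exact Or.inr ⟨(h2 w h3).2 hw, h3⟩

theorem kstar_run {δ : Ω → α → Ω} {Lg : Set Ω} {K : Language α}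
    (hK : ∀ w ∈ K, w ∈ CS δ Lg) {w : List α} (hw : w ∈ (KStar.kstar K : Language α))
    {o : Ω} (ho : o ∈ Lg) : run δ o w ∈ Lg := by
  rw [Language.mem_kstar] at hw
  obtain ⟨L, rfl, hL⟩ := hw
  induction L generalizing o with
  | nil => exact ho
  | cons y L ih =>
    rw [List.flatten_cons, run_append]
    obtain ⟨o', ho', h1⟩ := hK y (hL y (by simp))
    rw [h1 o ho]
    exact ih ho' fun z hz => hL z (by simp [hz])

theorem run_take_drop (δ : Ω → α → Ω) (o : Ω) (w : List α) (x y : ℕ) (h : x ≤ y) :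
    run δ o (w.take y) = run δ (run δ o (w.take x)) ((w.drop x).take (y - x)) := by
  rw [← run_append]
  congr 1
  obtain ⟨k, rfl⟩ := Nat.exists_eq_add_of_le h
  rw [List.take_add, Nat.add_sub_cancel_left]

/-- between two cuts at distance at least `D` the text is in `CS` -/
theorem between {δ : Ω → α → Ω} {Lg : Set Ω} {D : ℕ} {o : Ω} {w : List α} {x y : ℕ}
    (hx : Cut δ Lg D o w x) (hxy : x + D ≤ y) (hy : run δ o (w.take y) ∈ Lg) :
    (w.drop x).take (y - x) ∈ CS δ Lg := by
  refine ⟨_, hy, fun o' ho' => ?_⟩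
  rw [run_take_drop δ o w x y (by omega)]
  have e : (w.drop x).take (y - x) = (w.drop x).take D ++ ((w.drop x).drop D).take (y - x - D) := by
    rw [← List.take_add]; congr 1; omega
  rw [e, run_append, run_append, hx.2.2 o' ho' _ hx.1]

theorem last {δ : Ω → α → Ω} {Lg : Set Ω} {D : ℕ} {o : Ω} {w : List α} {x : ℕ}
    (hx : Cut δ Lg D o w x) : ∀ o' ∈ Lg, run δ o' (w.drop x) = run δ o w := by
  intro o' ho'
  have e : w.drop x = (w.drop x).take D ++ (w.drop x).drop D := (List.take_append_drop _ _).symm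
  have e2 : run δ o w = run δ (run δ o (w.take x)) (w.drop x) := by
    rw [← run_append, List.take_append_drop]
  rw [e2, e, run_append, run_append, hx.2.2 o' ho' _ hx.1]

/-- one thread: the level-`h+1` language of a transition, sound on all words and complete on the
class `G` -/
theorem thread [Finite α] [Finite Ω] {h : ℕ} {G G' : Set (List α)}
    (hG' : HL h (G' : Language α)) (hD : Dec h G')
    (δ : Ω → α → Ω) (Lg : Set Ω) (D B : ℕ) (hD0 : 0 < D)
    (pieces : ∀ w ∈ G, ∀ o : Ω, ∀ x x' : ℕ, x ≤ x' → x' ≤ w.length →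
      (x = 0 ∨ Cut δ Lg D o w x) →
      (∀ y, x + D ≤ y → y < x' → ¬ Cut δ Lg D o w y) →
      (((w.drop x).take (x' - x)).length ≤ B ∨ (w.drop x).take (x' - x) ∈ G'))
    (o0 o1 : Ω) :
    ∃ E : Language α, HL (h + 1) E ∧ (∀ w ∈ E, run δ o0 w = o1) ∧
      (∀ w ∈ G, run δ o0 w = o1 → w ∈ E) := by
  classical
  obtain ⟨N, hN1, hN2, hN3⟩ := core hG' hD B _ (isRegular_run δ fun f => f o0 = o1)
  obtain ⟨P, hP1, hP2, hP3⟩ := core hG' hD B _ (isRegular_run δ fun f => f o0 ∈ Lg)
  obtain ⟨S, hS1, hS2, hS3⟩ := core hG' hD B _ (isRegular_run δ fun f => ∀ o ∈ Lg, f o = o1)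
  obtain ⟨K, hK1, hK2, hK3⟩ := core hG' hD B _
    (isRegular_run δ fun f => ∃ o' ∈ Lg, ∀ o ∈ Lg, f o = o')
  refine ⟨N ⊔ P * (KStar.kstar K * S), ?_, ?_, ?_⟩
  · exact (hN1.mono (Nat.le_succ _)).sup
      ((hP1.mono (Nat.le_succ _)).mul (hK1.star.mul (hS1.mono (Nat.le_succ _))))
  · rintro w (hw | hw)
    · exact hN2 w hw
    · change w ∈ (P * (KStar.kstar K * S) : Language α) at hw
      rw [Language.mem_mul] at hw
      obtain ⟨p, hp, t, ht, rfl⟩ := hw
      rw [Language.mem_mul] at ht
      obtain ⟨k, hk, s, hs, rfl⟩ := ht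
      rw [run_append, run_append]
      exact hS2 s hs _ (kstar_run hK2 hk (hP2 p hp))
  · intro w hw hrun
    -- from a cut on
    have main : ∀ n x, w.length - x = n → Cut δ Lg D o0 w x →
        w.drop x ∈ KStar.kstar K * S := by
      intro n
      induction n using Nat.strong_induction_on with
      | _ n ih =>
        intro x hn hx
        by_cases hex : ∃ y, x + D ≤ y ∧ Cut δ Lg D o0 w y
        · have hf := Nat.find_spec hex
          have hmin : ∀ y, y < Nat.find hex → ¬ (x + D ≤ y ∧ Cut δ Lg D o0 w y) :=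
            fun y hy => Nat.find_min hex hy
          obtain ⟨hf1, hf2⟩ := hf
          set x' := Nat.find hex with hx'
          have hlen : x' + D ≤ w.length := hf2.2.1
          have hpc := pieces w hw o0 x x' (by omega) (by omega) (Or.inr hx)
            (fun y hy1 hy2 hy3 => hmin y hy2 ⟨hy1, hy3⟩)
          have hk : (w.drop x).take (x' - x) ∈ K := hK3 _ (between hx hf1 hf2.1) hpc
          have hr := ih (w.length - x') (by omega) x' rfl hf2
          rw [Language.mem_mul] at hr ⊢
          obtain ⟨k, hk', s, hs, hks⟩ := hr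
          refine ⟨(w.drop x).take (x' - x) ++ k, ?_, s, hs, ?_⟩
          · rw [Language.mem_kstar] at hk' ⊢
            obtain ⟨L, rfl, hL⟩ := hk'
            refine ⟨(w.drop x).take (x' - x) :: L, by simp, ?_⟩
            intro y hy
            rcases List.mem_cons.1 hy with rfl | hy
            · exact hk
            · exact hL y hy
          · rw [List.append_assoc, hks]
            have : w.drop x' = (w.drop x).drop (x' - x) := by
              rw [List.drop_drop]; congr 1; omega
            rw [this, List.take_append_drop]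
        · have hpc := pieces w hw o0 x w.length (by have := hx.2.1; omega) le_rfl (Or.inr hx)
            (fun y hy1 _ hy3 => hex ⟨y, hy1, hy3⟩)
          have e : (w.drop x).take (w.length - x) = w.drop x := by
            rw [← List.length_drop, List.take_length]
          rw [e] at hpc
          rw [Language.mem_mul]
          refine ⟨[], Language.nil_mem_kstar K, w.drop x, hS3 _ ?_ hpc, rfl⟩
          intro o ho
          show run δ o (w.drop x) = o1
          rw [last hx o ho]
          exact hrun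
    by_cases hex : ∃ y, Cut δ Lg D o0 w y
    · refine Or.inr ?_
      show w ∈ (P * (KStar.kstar K * S) : Language α)
      have hf := Nat.find_spec hex
      have hmin : ∀ y, y < Nat.find hex → ¬ Cut δ Lg D o0 w y := fun y hy => Nat.find_min hex hy
      set x := Nat.find hex with hx
      have hpc := pieces w hw o0 0 x (Nat.zero_le _) (by have := hf.2.1; omega) (Or.inl rfl)
        (fun y _ hy2 => hmin y hy2)
      rw [List.drop_zero, Nat.sub_zero] at hpc
      rw [Language.mem_mul]
      exact ⟨w.take x, hP3 _ hf.1 hpc, w.drop x, main _ x rfl hf, List.take_append_drop _ _⟩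
    · refine Or.inl ?_
      have hpc := pieces w hw o0 0 w.length (Nat.zero_le _) le_rfl (Or.inl rfl)
        (fun y _ _ hy => hex ⟨y, hy⟩)
      rw [List.drop_zero, Nat.sub_zero, List.take_length] at hpc
      exact hN3 w hrun hpc

/-- **Nesting theorem.** One more star per scheme. -/
theorem dec_succ [Finite α] {h : ℕ} {G G' : Set (List α)}
    (hG' : HL h (G' : Language α)) (hD : Dec h G')
    (H : ∀ R : Language α, R.IsRegular →
      ∃ (Ω : Type) (_ : Finite Ω) (δ : Ω → α → Ω) (Lg : Set Ω) (D B : ℕ) (Φ : (Ω → Ω) → Prop),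
        0 < D ∧ (∀ w ∈ G, (w ∈ R ↔ Φ fun o => run δ o w)) ∧
        (∀ w ∈ G, ∀ o : Ω, ∀ x x' : ℕ, x ≤ x' → x' ≤ w.length →
          (x = 0 ∨ Cut δ Lg D o w x) →
          (∀ y, x + D ≤ y → y < x' → ¬ Cut δ Lg D o w y) →
          (((w.drop x).take (x' - x)).length ≤ B ∨ (w.drop x).take (x' - x) ∈ G'))) :
    Dec (h + 1) G := by
  classical
  intro R hR
  obtain ⟨Ω, hfin, δ, Lg, D, B, Φ, hD0, hread, hp⟩ := H R hR
  choose E hE1 hE2 hE3 using fun o0 o1 => thread hG' hD δ Lg D B hD0 hp o0 o1
  refine ⟨{w | ∃ f : Ω → Ω, Φ f ∧ ∀ o, w ∈ E o (f o)}, ?_, ?_⟩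
  · refine HL.iUnion fun f => ?_
    exact HL.setOf_and (HL.const (Φ f)) (HL.iInter fun o => hE1 o (f o))
  · intro w hw
    rw [hread w hw]
    constructor
    · rintro ⟨f, hf, h1⟩
      have : (fun o => run δ o w) = f := funext fun o => hE2 o (f o) w (h1 o)
      rw [this]; exact hf
    · intro hΦ
      exact ⟨fun o => run δ o w, hΦ, fun o => hE3 o _ w hw rfl⟩

/-- bounded case: every long piece of every thread has a cut -/
theorem dec_one [Finite α] {G : Set (List α)}
    (H : ∀ R : Language α, R.IsRegular →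
      ∃ (Ω : Type) (_ : Finite Ω) (δ : Ω → α → Ω) (Lg : Set Ω) (D B : ℕ) (Φ : (Ω → Ω) → Prop),
        0 < D ∧ (∀ w ∈ G, (w ∈ R ↔ Φ fun o => run δ o w)) ∧
        (∀ w ∈ G, ∀ o : Ω, ∀ x : ℕ, x + B < w.length → (x = 0 ∨ Cut δ Lg D o w x) →
          ∃ y, x + D ≤ y ∧ y ≤ x + B ∧ Cut δ Lg D o w y)) :
    Dec 1 G := by
  refine dec_succ (h := 0) (G' := ∅) (HL.bot) ?_ ?_
  · intro R _
    exact ⟨⊥, HL.bot, fun w hw => hw.elim⟩
  · intro R hR
    obtain ⟨Ω, hfin, δ, Lg, D, B, Φ, hD0, hread, hp⟩ := H R hR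
    refine ⟨Ω, hfin, δ, Lg, D, B + 1, Φ, hD0, hread, ?_⟩
    intro w hw o x x' hxx hx' hx hno
    left
    by_contra hlt
    rw [List.length_take, List.length_drop] at hlt
    have h1 : x + B + 1 < x' := by omega
    obtain ⟨y, hy1, hy2, hy3⟩ := hp w hw o x (by omega) hx
    exact hno y hy1 (by omega) hy3

end Crest.Agent.R320.Sync_242
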