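import Crest.Agent.R320.Three_427

/-!
# Row 320: the lazy re-anchoring automaton (helper400, after helper570)

State = (text `u` since the current anchor, `|u| < Bm`; value `v` at the anchor).  When `|u|`
reaches `Bm` the automaton jumps to the next anchor `N u` and moves the value with the zone map `T`.
`sync`: the only soundness statement a cut system has to satisfy.
-/

set_option autoImplicit false

namespace Crest.Agent.R320.Sync_400

open Crest.Agent.R320.Three_427

variable {α V : Type*}

/-- data of the automaton -/
structure Par (α V : Type*) where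
  Bm : ℕ
  Nmin : ℕ
  N : List α → ℕ
  T : List α → V → V
  hmin : 0 < Nmin
  hN0 : ∀ u : List α, u.length = Bm → Nmin ≤ N u
  hN1 : ∀ u : List α, u.length = Bm → N u ≤ Bm
  hB : 0 < Bm

variable (P : Par α V)

/-- the states -/
abbrev Om (P : Par α V) : Type _ := {u : List α // u.length < P.Bm} × V

instance [Finite α] [Finite V] : Finite (Om P) := by
  have : Finite {u : List α // u.length < P.Bm} := (List.finite_length_lt α P.Bm).to_subtype
  infer_instance

/-- the transition -/
def step (s : Om P) (c : α) : Om P :=
  if h : s.1.1.length + 1 < P.Bm then (⟨s.1.1 ++ [c], by simpa using h⟩, s.2)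
  else (⟨(s.1.1 ++ [c]).drop (P.N (s.1.1 ++ [c])), by
      have h1 := s.1.2
      have h2 : (s.1.1 ++ [c]).length = P.Bm := by simp; omega
      have h3 := P.hN0 _ h2
      have h4 := P.hmin
      have h5 := P.hB
      rw [List.length_drop, h2]; omega⟩,
    P.T ((s.1.1 ++ [c]).take (P.N (s.1.1 ++ [c]))) s.2)

theorem run_short (w : List α) : ∀ (u : List α) (v : V) (h : (u ++ w).length < P.Bm),
    run (step P) w (⟨u, by simp only [List.length_append] at h; omega⟩, v) = (⟨u ++ w, h⟩, v) := by
  induction w with
  | nil => intro u v h; simp [run]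
  | cons c w ih =>
    intro u v h
    have h1 : u.length + 1 < P.Bm ∨ w = [] := by
      rcases w with _ | ⟨d, w⟩
      · right; rfl
      · left; simp only [List.length_append, List.length_cons] at h; omega
    have h' : ((u ++ [c]) ++ w).length < P.Bm := by simpa using h
    have hc : u.length + 1 < P.Bm := by
      simp only [List.length_append, List.length_cons] at h; omega
    have := ih (u ++ [c]) v h'
    unfold run at this ⊢
    rw [List.foldl_cons]
    have e : step P (⟨u, by omega⟩, v) c = (⟨u ++ [c], by simpa using hc⟩, v) := by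
      unfold step
      rw [dif_pos hc]
    rw [e, this]
    simp

theorem run_jump (w : List α) (u : List α) (v : V) (hu : u.length < P.Bm)
    (h : (u ++ w).length = P.Bm) :
    run (step P) w (⟨u, hu⟩, v) = (⟨(u ++ w).drop (P.N (u ++ w)), by
      have h3 := P.hN0 _ h
      have h4 := P.hmin
      have h5 := P.hB
      rw [List.length_drop, h]; omega⟩, P.T ((u ++ w).take (P.N (u ++ w))) v) := by
  have hw : w ≠ [] := by
    rintro rfl
    simp at h; omega
  obtain ⟨w', c, rfl⟩ : ∃ w' c, w = w' ++ [c] :=
    ⟨w.dropLast, w.getLast hw, (List.dropLast_append_getLast hw).symm⟩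
  have h' : (u ++ w').length < P.Bm := by
    simp only [List.length_append, List.length_cons, List.length_nil] at h ⊢; omega
  rw [run_append, run_short P w' u v h']
  have hc : ¬ ((u ++ w').length + 1 < P.Bm) := by
    simp only [List.length_append, List.length_cons, List.length_nil] at h ⊢; omega
  show step P (⟨u ++ w', h'⟩, v) c = _
  unfold step
  rw [dif_neg hc]
  simp only [List.append_assoc]

/-- **Synchronisation.** -/
theorem sync (u : List α) (v : V) (hu : u.length < P.Bm) (r : List α) (b : ℕ) (R : V)
    (hr : P.Bm ≤ (u ++ r).length) (hN : P.N ((u ++ r).take P.Bm) = u.length + b)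
    (hT : P.T ((u ++ r).take (u.length + b)) v = R) :
    run (step P) r (⟨u, hu⟩, v) = run (step P) (r.drop b) (⟨[], P.hB⟩, R) := by
  obtain ⟨r1, r2, rfl, hr1⟩ : ∃ r1 r2, r = r1 ++ r2 ∧ u.length + r1.length = P.Bm := by
    refine ⟨r.take (P.Bm - u.length), r.drop (P.Bm - u.length),
      (List.take_append_drop _ _).symm, ?_⟩
    simp only [List.length_append] at hr
    rw [List.length_take]; omega
  have e1 : (u ++ (r1 ++ r2)).take P.Bm = u ++ r1 := by
    rw [← List.append_assoc, List.take_left']
    simpa using hr1
  have hlen : (u ++ r1).length = P.Bm := by simpa using hr1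
  rw [e1] at hN
  have hb : u.length + b ≤ P.Bm := hN ▸ P.hN1 _ hlen
  have hb0 := P.hN0 _ hlen
  have hm := P.hmin
  rw [run_append, run_jump P r1 u v hu hlen]
  have e2 : (r1 ++ r2).drop b = r1.drop b ++ r2 := by
    rw [List.drop_append_of_le_length (by omega)]
  have e3 : (u ++ r1).drop (P.N (u ++ r1)) = r1.drop b := by
    rw [hN, List.drop_append]
    simp
  have e4 : (u ++ r1).take (P.N (u ++ r1)) = (u ++ (r1 ++ r2)).take (u.length + b) := by
    rw [hN, ← List.append_assoc]
    exact (List.take_append_of_le_length (l₁ := u ++ r1) (l₂ := r2) (by omega)).symm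
  have h5 : ([] ++ r1.drop b : List α).length < P.Bm := by
    rw [List.nil_append, List.length_drop]; omega
  rw [e2, run_append, run_short P (r1.drop b) [] R h5]
  congr 1
  refine Prod.ext (Subtype.ext ?_) ?_
  · simpa using e3
  · show P.T ((u ++ r1).take (P.N (u ++ r1))) v = R
    rw [e4, hT]

/-- every long run passes an anchor soon: afterwards at most `Bm - Nmin` letters since the anchor -/
theorem exists_anchor (u : List α) (v : V) (hu : u.length < P.Bm) (w : List α)
    (hw : P.Bm ≤ (u ++ w).length) :
    ∃ x y : List α, ∃ r : {r : List α // r.length < P.Bm}, ∃ v1 : V, w = x ++ y ∧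
      x.length ≤ P.Bm ∧ run (step P) x (⟨u, hu⟩, v) = (r, v1) ∧
      r.1.length ≤ P.Bm - P.Nmin ∧ r.1 <:+ u ++ x := by
  refine ⟨w.take (P.Bm - u.length), w.drop (P.Bm - u.length), ?_⟩
  have h : (u ++ w.take (P.Bm - u.length)).length = P.Bm := by
    simp only [List.length_append, List.length_take] at hw ⊢; omega
  refine ⟨_, _, (List.take_append_drop _ _).symm, ?_, run_jump P _ u v hu h, ?_, ?_⟩
  · rw [List.length_take]; omega
  · have h3 := P.hN0 _ h
    show ((u ++ w.take (P.Bm - u.length)).drop _).length ≤ _
    rw [List.length_drop, h]; omega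
  · exact List.drop_suffix _ _

/-- the state at the place `a + o` of a zone -/
theorem run_zone (r y : List α) (v : V) (hr : r.length < P.Bm) (o : ℕ) (h1 : r.length ≤ o)
    (h2 : o < P.Bm) (h3 : o ≤ (r ++ y).length) :
    run (step P) (y.take (o - r.length)) (⟨r, hr⟩, v) =
      (⟨(r ++ y).take o, by rw [List.length_take]; omega⟩, v) := by
  have e : r ++ y.take (o - r.length) = (r ++ y).take o := by
    rw [List.take_append, List.take_of_length_le h1]
  have h : (r ++ y.take (o - r.length)).length < P.Bm := by
    rw [e, List.length_take]; omega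
  rw [run_short P _ r v h]
  refine Prod.ext (Subtype.ext ?_) rfl
  exact e

/-- **Completeness criterion**: if in every text `t` (from an anchor on, satisfying `Gd`, of length
`≥ Bt`) every value `v` is cut by one of the levels `< n` at a place `o ∈ [Bm - Nmin, Bm)`, then the
words live for `n` levels whose text satisfies `Gd` are bounded. -/
theorem live_bounded (L : ℕ → Lvl (Om P) α) (n Bt : ℕ) (hBt : P.Bm ≤ Bt)
    (Gd : List α → Prop)
    (hc : ∀ (t : List α) (v : V), Gd t → Bt ≤ t.length → ∃ (o : ℕ) (ho : o < P.Bm), P.Bm - P.Nmin ≤ o ∧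
      ∃ j < n, Usable (L j) (⟨t.take o, by rw [List.length_take]; omega⟩, v) (t.drop o))
    (p : Om P) (w : List α) (hl : Live (step P) L n p w)
    (hGd : ∀ t : List α, t <:+ p.1.1 ++ w → Gd t) : w.length < P.Bm + Bt := by
  by_contra hlt
  push Not at hlt
  obtain ⟨⟨u, hu⟩, v⟩ := p
  obtain ⟨x, y, ⟨r, hr⟩, v1, rfl, hx, hrun, hrl, hsuf⟩ := exists_anchor P u v hu w (by
    simp only [List.length_append]; omega)
  have hrl' : r.length ≤ P.Bm - P.Nmin := hrl
  have hy : Bt ≤ y.length := by
    simp only [List.length_append] at hlt; omega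
  have hGt : Gd (r ++ y) := by
    refine hGd (r ++ y) ?_
    obtain ⟨s, hs⟩ := hsuf
    refine ⟨s, ?_⟩
    show s ++ (r ++ y) = u ++ (x ++ y)
    rw [← List.append_assoc, ← List.append_assoc]
    exact congrArg (· ++ y) hs
  obtain ⟨o, ho, ho1, j, hj, hus⟩ := hc (r ++ y) v1 hGt (by
    simp only [List.length_append]; omega)
  have h3 : o ≤ (r ++ y).length := by simp only [List.length_append]; omega
  have hz := run_zone P r y v1 hr o (by omega) ho h3
  have hy' : y.take (o - r.length) ++ y.drop (o - r.length) = y := List.take_append_drop _ _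
  refine hl j hj (x ++ y.take (o - r.length)) (y.drop (o - r.length)) (by
    rw [List.append_assoc, hy']) ?_
  rw [run_append, hrun, hz]
  have e : (r ++ y).drop o = y.drop (o - r.length) := by
    rw [List.drop_append, List.drop_of_length_le (by omega : r.length ≤ o), List.nil_append]
  rw [← e]
  exact hus

end Crest.Agent.R320.Sync_400
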