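import Crest.Agent.R320.Hgt1_903

/-!
Synchronising schemes (machine form of the cut calculus, row 320).

A machine with states `Ω` reads the word letter by letter (`step`); a state carries the whole memory of
a thread: the text since its current anchor, and its token.  `fin ω` : the state is left-legal.
`start t = some (d, ω')` : the right word `t` is right-legal, and *whatever* the left-legal state was,
after the first `d` letters of `t` the machine is in the state `ω'` (this is `exact`: 818's lemma plus
the gadget).  `C` is the set of all words from a legal cut to a legal cut with the right value.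

Facts: `C` is closed under concatenation; at every place where a word of `C` is cut, it splits in `C`;
hence every language between the unsplittable words of `C` and `C` of height `n` gives `C` height `n+1`.
-/

set_option autoImplicit false

namespace Crest.Agent.R320.Sync_426

open Crest.RegLang Crest.Agent.R320.Hgt1_903

variable {α Ω : Type*}

/-- A synchronising scheme. -/
structure Scheme (α Ω : Type*) where
  step : Ω → α → Ω
  fin : Ω → Prop
  start : List α → Option (ℕ × Ω)
  le_length : ∀ t d ω', start t = some (d, ω') → d ≤ t.length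
  ext : ∀ t x d ω', start t = some (d, ω') → start (t ++ x) = some (d, ω')
  loc : ∀ t d ω' k, start t = some (d, ω') → d ≤ k → start (t.take k) = some (d, ω')
  exact' : ∀ ω t d ω', fin ω → start t = some (d, ω') → (t.take d).foldl step ω = ω'

namespace Scheme

variable (s : Scheme α Ω)

/-- The machine started in `ω`. -/
def run (ω : Ω) (u : List α) : Ω := u.foldl s.step ω

theorem run_append (ω : Ω) (u v : List α) : s.run ω (u ++ v) = s.run (s.run ω u) v := by
  simp [run]

/-- All words from a legal cut to a legal cut with the right value. -/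
def C : Language α := {u | ∃ d ω', s.start u = some (d, ω') ∧ s.fin (s.run ω' (u.drop d))}

/-- from a left-legal state, a right-legal word is followed as its start says. -/
theorem run_of_start {ω ω' : Ω} {t : List α} {d : ℕ} (hω : s.fin ω)
    (ht : s.start t = some (d, ω')) : s.run ω t = s.run ω' (t.drop d) := by
  have h := s.exact' ω t d ω' hω ht
  conv_lhs => rw [← List.take_append_drop d t]
  rw [run_append]
  unfold run at *
  rw [h]

/-- soundness: `C` is closed under concatenation. -/
theorem C_append {u v : List α} (hu : u ∈ s.C) (hv : v ∈ s.C) : u ++ v ∈ s.C := by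
  obtain ⟨d, ω, h1, h2⟩ := hu
  obtain ⟨d', ω', h3, h4⟩ := hv
  refine ⟨d, ω, s.ext _ _ _ _ h1, ?_⟩
  rw [List.drop_append_of_le_length (s.le_length _ _ _ h1), run_append,
    s.run_of_start h2 h3]
  exact h4

/-- a cut splits a word of `C` inside `C`. -/
theorem C_split {u v : List α} {d : ℕ} {ω : Ω} (hs : s.start (u ++ v) = some (d, ω))
    (hf : s.fin (s.run ω ((u ++ v).drop d))) (hd : d ≤ u.length)
    (hu : s.fin (s.run ω (u.drop d))) (hv : (s.start v).isSome) : u ∈ s.C ∧ v ∈ s.C := by
  have h1 : s.start u = some (d, ω) := by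
    have := s.loc _ _ _ u.length hs hd
    rwa [List.take_left'] at this
    rfl
  refine ⟨⟨d, ω, h1, hu⟩, ?_⟩
  obtain ⟨⟨d', ω'⟩, h2⟩ := Option.isSome_iff_exists.1 hv
  refine ⟨d', ω', h2, ?_⟩
  rw [← s.run_of_start hu h2, ← run_append]
  rwa [List.drop_append_of_le_length hd] at hf

/-- prefix form: words read from a state `ω` up to a left-legal state. -/
theorem run_C {ω : Ω} {u v : List α} (hu : s.fin (s.run ω u)) (hv : v ∈ s.C) :
    s.fin (s.run ω (u ++ v)) := by
  obtain ⟨d, ω', h1, h2⟩ := hv
  rw [run_append, s.run_of_start hu h1]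
  exact h2

/-- `w` is not a product of two nonempty words of `C`. -/
def Unc (w : List α) : Prop := ∀ u v, u ++ v = w → u ≠ [] → v ≠ [] → ¬ (u ∈ s.C ∧ v ∈ s.C)

/-- every nonempty word of `C` is a product of unsplittable words of `C`. -/
theorem mem_kstar_of_C {K : Language α} (hK : ∀ w ∈ s.C, w ≠ [] → s.Unc w → w ∈ K) :
    ∀ (l : ℕ) (w : List α), w.length = l → w ∈ s.C → w ∈ KStar.kstar K := by
  intro l
  induction l using Nat.strong_induction_on with
  | _ l ih =>
    intro w hl hw
    by_cases h0 : w = []
    · rw [h0]; exact Language.nil_mem_kstar K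
    by_cases hunc : s.Unc w
    · exact Language.mem_kstar.2 ⟨[w], by simp, by simpa using hK w hw h0 hunc⟩
    · unfold Unc at hunc
      push Not at hunc
      obtain ⟨u, v, rfl, hu, hv, huC, hvC⟩ := hunc
      have lu := List.length_pos_of_ne_nil hu
      have lv := List.length_pos_of_ne_nil hv
      rw [List.length_append] at hl
      have h1 := ih u.length (by omega) u rfl huC
      have h2 := ih v.length (by omega) v rfl hvC
      obtain ⟨L1, rfl, hL1⟩ := Language.mem_kstar.1 h1
      obtain ⟨L2, rfl, hL2⟩ := Language.mem_kstar.1 h2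
      refine Language.mem_kstar.2 ⟨L1 ++ L2, by simp, ?_⟩
      intro y hy
      rcases List.mem_append.1 hy with hy | hy
      · exact hL1 y hy
      · exact hL2 y hy

theorem mem_C_of_kstar {K : Language α} (hK : ∀ w ∈ K, w ∈ s.C) :
    ∀ w ∈ KStar.kstar K, w = [] ∨ w ∈ s.C := by
  intro w hw
  obtain ⟨L, rfl, hL⟩ := Language.mem_kstar.1 hw
  clear hw
  induction L with
  | nil => left; rfl
  | cons a L ih =>
    right
    have ha : a ∈ s.C := hK a (hL a List.mem_cons_self)
    rcases ih fun y hy => hL y (List.mem_cons_of_mem _ hy) with h | h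
    · rw [List.flatten_cons, h, List.append_nil]; exact ha
    · rw [List.flatten_cons]; exact s.C_append ha h

/-- ONE STAR: a language of height `n` between the unsplittable words of `C` and `C`
gives the nonempty words of `C` height `n + 1`. -/
theorem C_height {n : ℕ} {K : Language α} (hn : H n K) (hKC : ∀ w ∈ K, w ∈ s.C)
    (hK : ∀ w ∈ s.C, w ≠ [] → s.Unc w → w ∈ K) :
    H (n + 1) ({w | w ≠ [] ∧ w ∈ s.C} : Language α) := by
  refine H.congr (H.inter (H.star hn) (H.not (H.word (n + 1) ([] : List α)))) fun w => ?_
  change (w ∈ KStar.kstar K ∧ ¬ w ∈ ({[]} : Set (List α))) ↔ (w ≠ [] ∧ w ∈ s.C)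
  constructor
  · rintro ⟨h, h0⟩
    have h0' : w ≠ [] := fun e => h0 e
    exact ⟨h0', (s.mem_C_of_kstar hKC w h).resolve_left h0'⟩
  · rintro ⟨h0, h⟩
    exact ⟨s.mem_kstar_of_C hK w.length w rfl h, fun e => h0 e⟩

/-- relative form: on the factors of good words (`Good` closed under factors). -/
theorem C_height_on {n : ℕ} {K : Language α} (Good : List α → Prop)
    (hGl : ∀ u v, Good (u ++ v) → Good u) (hGr : ∀ u v, Good (u ++ v) → Good v)
    (hn : H n K) (hKC : ∀ w ∈ K, Good w → w ∈ s.C)
    (hK : ∀ w ∈ s.C, Good w → w ≠ [] → s.Unc w → w ∈ K) :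
    ∃ L : Language α, H (n + 1) L ∧ ∀ w, Good w → (w ∈ L ↔ (w ≠ [] ∧ w ∈ s.C)) := by
  refine ⟨{w | w ∈ KStar.kstar K ∧ ¬ w ∈ ({[]} : Language α)},
    H.inter (H.star hn) (H.not (H.word (n + 1) ([] : List α))), ?_⟩
  have key1 : ∀ L : List (List α), Good L.flatten → (∀ y ∈ L, y ∈ K) →
      L.flatten = [] ∨ L.flatten ∈ s.C := by
    intro L
    induction L with
    | nil => intro _ _; left; rfl
    | cons a L ih =>
      intro hg hL
      rw [List.flatten_cons] at hg ⊢
      have ha : a ∈ s.C := hKC a (hL a List.mem_cons_self) (hGl _ _ hg)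
      right
      rcases ih (hGr _ _ hg) fun y hy => hL y (List.mem_cons_of_mem _ hy) with h | h
      · rw [h, List.append_nil]; exact ha
      · exact s.C_append ha h
  have key2 : ∀ (l : ℕ) (w : List α), w.length = l → Good w → w ∈ s.C → w ∈ KStar.kstar K := by
    intro l
    induction l using Nat.strong_induction_on with
    | _ l ih =>
      intro w hl hg hw
      by_cases h0 : w = []
      · rw [h0]; exact Language.nil_mem_kstar K
      by_cases hunc : s.Unc w
      · exact Language.mem_kstar.2 ⟨[w], by simp, by simpa using hK w hw hg h0 hunc⟩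
      · unfold Unc at hunc
        push Not at hunc
        obtain ⟨u, v, rfl, hu, hv, huC, hvC⟩ := hunc
        have lu := List.length_pos_of_ne_nil hu
        have lv := List.length_pos_of_ne_nil hv
        rw [List.length_append] at hl
        have h1 := ih u.length (by omega) u rfl (hGl _ _ hg) huC
        have h2 := ih v.length (by omega) v rfl (hGr _ _ hg) hvC
        obtain ⟨L1, rfl, hL1⟩ := Language.mem_kstar.1 h1
        obtain ⟨L2, rfl, hL2⟩ := Language.mem_kstar.1 h2
        refine Language.mem_kstar.2 ⟨L1 ++ L2, by simp, ?_⟩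
        intro y hy
        rcases List.mem_append.1 hy with hy | hy
        · exact hL1 y hy
        · exact hL2 y hy
  intro w hg
  change (w ∈ KStar.kstar K ∧ ¬ w ∈ ({[]} : Set (List α))) ↔ (w ≠ [] ∧ w ∈ s.C)
  constructor
  · rintro ⟨h, h0⟩
    have h0' : w ≠ [] := fun e => h0 e
    obtain ⟨L, rfl, hL⟩ := Language.mem_kstar.1 h
    exact ⟨h0', (key1 L hg hL).resolve_left h0'⟩
  · rintro ⟨h0, h⟩
    exact ⟨key2 w.length w rfl hg h, fun e => h0 e⟩

end Scheme

end Crest.Agent.R320.Sync_426
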