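import Crest.Agent.R320.Hgt1_903

/-!
Synchronisation form of the top of row 320 (S0495).

* `Sol n C ψ`: the class `C` of words is solved at height `n` for the classification `ψ`.
* `T`, `Plus`: the step.  A scheme is a finite deterministic automaton `step : Ω → α → Ω` with a
  set `Λ` of states.  `K` = words which send all of `Λ` to one state of `Λ`.
-/

set_option autoImplicit false

namespace Crest.Agent.R320.Sync_482

open Crest.RegLang Crest.Agent.R320.Hgt1_903

variable {α : Type*}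

/-- `C` is solved at height `n` for `ψ`. -/
def Sol (n : ℕ) (C : Language α) {M : Type*} (ψ : List α → M) : Prop :=
  ∀ m, H n ({w | w ∈ C ∧ ψ w = m} : Language α)

/-- run of the automaton -/
def run {Ω : Type*} (step : Ω → α → Ω) (w : List α) (s : Ω) : Ω := w.foldl step s

/-- transition function of a word -/
def tr {Ω : Type*} (step : Ω → α → Ω) (w : List α) : Ω → Ω := fun s => run step w s

theorem run_append {Ω : Type*} (step : Ω → α → Ω) (u v : List α) (s : Ω) :
    run step (u ++ v) s = run step v (run step u s) := by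
  simp [run, List.foldl_append]

/-- `Λ` is reset by `w` to the state `c`. -/
def Reset {Ω : Type*} (step : Ω → α → Ω) (Λ : Set Ω) (w : List α) (c : Ω) : Prop :=
  ∀ l ∈ Λ, run step w l = c

/-- words which send all of `Λ` to one state of `Λ` -/
def Kset {Ω : Type*} (step : Ω → α → Ω) (Λ : Set Ω) : Language α :=
  {k | ∃ c ∈ Λ, Reset step Λ k c}

/-- words of `C` from `s` to `t` -/
def LE {Ω : Type*} (step : Ω → α → Ω) (C : Language α) (s t : Ω) : Language α :=
  {w | w ∈ C ∧ run step w s = t}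

/-- words of `C` from `s` into `Λ` -/
def LI {Ω : Type*} (step : Ω → α → Ω) (Λ : Set Ω) (C : Language α) (s : Ω) : Language α :=
  {y | y ∈ C ∧ run step y s ∈ Λ}

/-- cut-to-cut words of `C` -/
def LK {Ω : Type*} (step : Ω → α → Ω) (Λ : Set Ω) (C : Language α) : Language α :=
  {k | k ∈ C ∧ k ∈ Kset step Λ}

/-- words of `C` which reset `Λ` to `t` -/
def LF {Ω : Type*} (step : Ω → α → Ω) (Λ : Set Ω) (C : Language α) (t : Ω) : Language α :=
  {y | y ∈ C ∧ Reset step Λ y t}

/-- the pieces of `C` cut by the scheme, from `s` to `t` -/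
def T {Ω : Type*} (step : Ω → α → Ω) (Λ : Set Ω) (C : Language α) (s t : Ω) : Language α :=
  LE step C s t + (LI step Λ C s * KStar.kstar (LK step Λ C)) * LF step Λ C t

/-- the class solved one level higher -/
def Plus {Ω : Type*} (step : Ω → α → Ω) (Λ : Set Ω) (C : Language α) : Language α :=
  {w | ∀ s, ∃ t, w ∈ T step Λ C s t}

theorem kstar_mem_Lam {Ω : Type*} {step : Ω → α → Ω} {Λ : Set Ω} {C : Language α}
    {w : List α} (hw : w ∈ KStar.kstar (LK step Λ C)) {l : Ω}
    (hl : l ∈ Λ) : run step w l ∈ Λ := by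
  rw [Language.mem_kstar] at hw
  obtain ⟨L, rfl, hL⟩ := hw
  induction L generalizing l with
  | nil => simpa [run] using hl
  | cons k L ih =>
    rw [List.flatten_cons, run_append]
    obtain ⟨-, c, hc, hr⟩ := hL k List.mem_cons_self
    refine ih ?_ (fun y hy => hL y (List.mem_cons_of_mem _ hy))
    rw [hr l hl]
    exact hc

theorem T_sound {Ω : Type*} {step : Ω → α → Ω} {Λ : Set Ω} {C : Language α} {s t : Ω}
    {w : List α} (hw : w ∈ T step Λ C s t) : run step w s = t := by
  rcases (show w ∈ LE step C s t ∨ w ∈ (LI step Λ C s * KStar.kstar (LK step Λ C)) *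
    LF step Λ C t from hw) with hw | hw
  · exact hw.2
  · rw [Language.mem_mul] at hw
    obtain ⟨a, ha, b, hb, rfl⟩ := hw
    rw [Language.mem_mul] at ha
    obtain ⟨y, hy, k, hk, rfl⟩ := ha
    rw [run_append, run_append]
    exact hb.2 _ (kstar_mem_Lam hk hy.2)

/-- exact decomposition form of membership in `T` -/
theorem mem_T_of {Ω : Type*} {step : Ω → α → Ω} {Λ : Set Ω} {C : Language α} {s t : Ω}
    {y : List α} {ks : List (List α)} {z : List α}
    (hy : y ∈ C) (hyL : run step y s ∈ Λ) (hks : ∀ k ∈ ks, k ∈ C ∧ k ∈ Kset step Λ)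
    (hz : z ∈ C) (hzt : Reset step Λ z t) :
    y ++ ks.flatten ++ z ∈ T step Λ C s t := by
  refine Or.inr ?_
  refine (Language.mem_mul).2 ⟨y ++ ks.flatten, ?_, z, ⟨hz, hzt⟩, rfl⟩
  exact (Language.mem_mul).2 ⟨y, ⟨hy, hyL⟩, ks.flatten,
    (Language.mem_kstar).2 ⟨ks, rfl, hks⟩, rfl⟩

theorem mem_T_of_mem {Ω : Type*} {step : Ω → α → Ω} {Λ : Set Ω} {C : Language α} {s : Ω}
    {w : List α} (hw : w ∈ C) : w ∈ T step Λ C s (run step w s) := Or.inl ⟨hw, rfl⟩

theorem subset_Plus {Ω : Type*} {step : Ω → α → Ω} {Λ : Set Ω} {C : Language α}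
    {w : List α} (hw : w ∈ C) : w ∈ Plus step Λ C := fun _ => ⟨_, mem_T_of_mem hw⟩

theorem Sol.pred {n : ℕ} {C : Language α} {M : Type*} [Finite M] {ψ : List α → M}
    (h : Sol n C ψ) (p : M → Prop) : H n ({w | w ∈ C ∧ p (ψ w)} : Language α) := by
  classical
  have h1 : H n ({w | ∃ m : M, w ∈ ({w | (w ∈ C ∧ ψ w = m) ∧ p m} : Language α)} : Language α) :=
    H.exists_fintype (fun m : M => ({w | (w ∈ C ∧ ψ w = m) ∧ p m} : Language α)) (fun m => by
      by_cases hp : p m
      · exact (h m).congr (fun w => ⟨fun hw => ⟨hw, hp⟩, fun hw => hw.1⟩)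
      · exact (H.empty n).congr (fun w => ⟨fun hw => hw.elim, fun hw => (hp hw.2).elim⟩))
  refine h1.congr (fun w => ⟨?_, ?_⟩)
  · rintro ⟨m, ⟨hC, rfl⟩, hp⟩
    exact ⟨hC, hp⟩
  · rintro ⟨hC, hp⟩
    exact ⟨ψ w, ⟨hC, rfl⟩, hp⟩

theorem T_height {Ω : Type*} [Finite Ω] {step : Ω → α → Ω} {Λ : Set Ω} {C : Language α} {n : ℕ}
    (hC : Sol n C (tr step)) (s t : Ω) : H (n + 1) (T step Λ C s t) := by
  have h1 : H n (LE step C s t) := hC.pred (fun f => f s = t)
  have h2 : H n (LI step Λ C s) := hC.pred (fun f => f s ∈ Λ)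
  have h3 : H n (LK step Λ C) := hC.pred (fun f => ∃ c ∈ Λ, ∀ l ∈ Λ, f l = c)
  have h4 : H n (LF step Λ C t) := hC.pred (fun f => ∀ l ∈ Λ, f l = t)
  exact ((h1.mono n.le_succ).add (((h2.mono n.le_succ).mul h3.star).mul (h4.mono n.le_succ)))

/-- THE STEP: the class `Plus` is solved at height `n + 1` for every `ψ` which factors through the
transition functions. -/
theorem Sol.plus {Ω : Type*} [Finite Ω] {step : Ω → α → Ω} {Λ : Set Ω} {C : Language α} {n : ℕ}
    (hC : Sol n C (tr step)) {M : Type*} {ψ : List α → M} (g : (Ω → Ω) → M)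
    (hg : ∀ w, ψ w = g (tr step w)) : Sol (n + 1) (Plus step Λ C) ψ := by
  classical
  have hP : H (n + 1) (Plus step Λ C) := by
    have := H.forall_fintype (n := n + 1)
      (fun s : Ω => ({w | ∃ t, w ∈ T step Λ C s t} : Language α))
      (fun s => H.exists_fintype (fun t => T step Λ C s t) (fun t => T_height hC s t))
    exact this.congr (fun w => Iff.rfl)
  -- exact transition function on `Plus`
  have hf : ∀ f : Ω → Ω, H (n + 1) ({w | w ∈ Plus step Λ C ∧ tr step w = f} : Language α) := by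
    intro f
    have h1 := H.forall_fintype (n := n + 1)
      (fun s : Ω => T step Λ C s (f s)) (fun s => T_height hC s (f s))
    refine h1.congr (fun w => ⟨?_, ?_⟩)
    · intro hw
      exact ⟨fun s => ⟨f s, hw s⟩, funext fun s => T_sound (hw s)⟩
    · rintro ⟨hw, rfl⟩ s
      obtain ⟨t, ht⟩ := hw s
      have := T_sound ht
      show w ∈ T step Λ C s (tr step w s)
      rw [show tr step w s = t from this]
      exact ht
  intro m
  have h2 := Sol.pred (n := n + 1) (C := Plus step Λ C) (ψ := tr step) hf (fun f => g f = m)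
  refine h2.congr (fun w => ?_)
  constructor
  · rintro ⟨a, b⟩
    exact ⟨a, by rw [hg]; exact b⟩
  · rintro ⟨a, b⟩
    exact ⟨a, by rw [← hg]; exact b⟩

/-- words of bounded length are solved at height `0` for every `ψ` -/
theorem Sol.short [Finite α] (B : ℕ) {M : Type*} (ψ : List α → M) :
    Sol 0 ({w | w.length ≤ B} : Language α) ψ := fun _ =>
  H.bounded 0 B (fun _ hw => hw.1)

/-- TOP, form with powers: if the base class `C1` is solved at height `1` for the transition
functions of the inner scheme, and the two schemes exhaust all words, then every classification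
which factors through the outer automaton has height `3`. -/
theorem two_schemes {Ω₂ Ω₃ : Type*} [Finite Ω₂] [Finite Ω₃]
    {step₂ : Ω₂ → α → Ω₂} {Λ₂ : Set Ω₂} {step₃ : Ω₃ → α → Ω₃} {Λ₃ : Set Ω₃}
    {C1 : Language α} (h1 : Sol 1 C1 (tr step₂))
    (g₂ : (Ω₂ → Ω₂) → (Ω₃ → Ω₃)) (hg₂ : ∀ w, tr step₃ w = g₂ (tr step₂ w))
    (hall : ∀ w : List α, w ∈ Plus step₃ Λ₃ (Plus step₂ Λ₂ C1))
    {M : Type*} {ψ : List α → M} (g : (Ω₃ → Ω₃) → M) (hg : ∀ w, ψ w = g (tr step₃ w)) (m : M) :
    H 3 ({w | ψ w = m} : Language α) := by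
  have h2 : Sol 2 (Plus step₂ Λ₂ C1) (tr step₃) := h1.plus g₂ hg₂
  have h3 : Sol 3 (Plus step₃ Λ₃ (Plus step₂ Λ₂ C1)) ψ := h2.plus g hg
  exact (h3 m).congr (fun w => ⟨fun h => h.2, fun h => ⟨hall w, h⟩⟩)

/-- TOP, three schemes over bounded words (no powers). -/
theorem three_schemes [Finite α] {Ω₁ Ω₂ Ω₃ : Type*} [Finite Ω₁] [Finite Ω₂] [Finite Ω₃]
    {step₁ : Ω₁ → α → Ω₁} {Λ₁ : Set Ω₁}
    {step₂ : Ω₂ → α → Ω₂} {Λ₂ : Set Ω₂} {step₃ : Ω₃ → α → Ω₃} {Λ₃ : Set Ω₃} (B : ℕ)
    (g₁ : (Ω₁ → Ω₁) → (Ω₂ → Ω₂)) (hg₁ : ∀ w, tr step₂ w = g₁ (tr step₁ w))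
    (g₂ : (Ω₂ → Ω₂) → (Ω₃ → Ω₃)) (hg₂ : ∀ w, tr step₃ w = g₂ (tr step₂ w))
    (hall : ∀ w : List α,
      w ∈ Plus step₃ Λ₃ (Plus step₂ Λ₂ (Plus step₁ Λ₁ ({w | w.length ≤ B} : Language α))))
    {M : Type*} {ψ : List α → M} (g : (Ω₃ → Ω₃) → M) (hg : ∀ w, ψ w = g (tr step₃ w)) (m : M) :
    H 3 ({w | ψ w = m} : Language α) :=
  two_schemes ((Sol.short B (tr step₁)).plus g₁ hg₁) g₂ hg₂ hall g hg m

/-- a regular language is a union of classes of the transition functions of its automaton, so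
heights of classes give heights of the language -/
theorem of_dfa {n : ℕ} {σ : Type*} [Finite σ] (A : DFA α σ)
    (h : ∀ f : σ → σ, H n ({w | tr A.step w = f} : Language α)) : H n A.accepts := by
  classical
  have h1 : H n ({w | ∃ f : σ → σ, w ∈ ({w | tr A.step w = f ∧ f A.start ∈ A.accept} :
      Language α)} : Language α) :=
    H.exists_fintype (fun f : σ → σ => ({w | tr A.step w = f ∧ f A.start ∈ A.accept} :
      Language α)) (fun f => by
      by_cases hp : f A.start ∈ A.accept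
      · exact (h f).congr (fun w => ⟨fun hw => ⟨hw, hp⟩, fun hw => hw.1⟩)
      · exact (H.empty n).congr (fun w => ⟨fun hw => hw.elim, fun hw => (hp hw.2).elim⟩))
  refine h1.congr (fun w => ⟨?_, ?_⟩)
  · rintro ⟨f, rfl, hf⟩
    exact hf
  · intro hw
    exact ⟨tr A.step w, rfl, hw⟩

/-- reduction of the row to the combinatorial core -/
theorem row_of_core {α : Type*} [Finite α]
    (core : ∀ (σ : Type) [Finite σ] (st : σ → α → σ) (f : σ → σ),
      H 3 ({w | tr st w = f} : Language α))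
    (L : Language α) (hL : L.IsRegular) : H 3 L := by
  obtain ⟨σ, hσ, A, rfl⟩ := hL
  exact of_dfa A (fun f => core σ A.step f)

end Crest.Agent.R320.Sync_482
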