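import Crest.Agent.R320.Zone_716

/-! Row 320: the thread-consistent language `TC` of a sound scheme over zone data:
`TC * TC ⊆ TC`, and a word of `TC` which is cut inside a zone is a product of two words of `TC`. -/

set_option autoImplicit false

namespace Crest.Agent.R320.TC_716

open Crest.Agent.R320.Zone_716

variable {α V : Type*}

/-- A scheme on zone data: left-legal states, right data (position of the next anchor relative to the
cut and the value there). `Prm X` is the promise on the zone content `X` (use `fun _ => True` for an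
unconditional scheme). -/
structure Scheme (Z : ZData α V) (Prm : List α → Prop) where
  cutL : List α × V → Prop
  rdat : List α → Option (ℕ × V)
  rmono : ∀ r s d, rdat r = some d → rdat (r ++ s) = some d
  rle : ∀ r b R, rdat r = some (b, R) → b ≤ r.length
  sound : ∀ w v r b R, Z.nxt w = none → cutL (w, v) → rdat r = some (b, R) → Prm (w ++ r) →
    Z.nxt (w ++ r) = some (w.length + b) ∧ Z.stp v (w ++ r) = R

variable {Z : ZData α V} {Prm : List α → Prop} (S : Scheme Z Prm)

/-- words from a right-legal place to a left-legal place whose thread is consistent -/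
def TC : Set (List α) :=
  {u | ∃ b R, S.rdat u = some (b, R) ∧ S.cutL (run Z R (u.drop b))}

theorem run_cut {w : List α} {v : V} {r : List α} {b : ℕ} {R : V} (hw : Z.nxt w = none)
    (hc : S.cutL (w, v)) (hr : S.rdat r = some (b, R)) (hp : Prm (w ++ r)) :
    run Z v (w ++ r) = run Z R (r.drop b) := by
  obtain ⟨h1, h2⟩ := S.sound w v r b R hw hc hr hp
  have := cut Z w r v R b hw h1 h2
  rw [← this, foldl_dl Z r w v hw]

/-- exactness of the junctions: `TC * TC ⊆ TC` (with the promise on the junction zone) -/
theorem TC_mul {p q : List α} (hp : p ∈ TC S) (hq : q ∈ TC S)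
    (hprm : ∀ b R, S.rdat p = some (b, R) → Prm ((run Z R (p.drop b)).1 ++ q)) :
    p ++ q ∈ TC S := by
  obtain ⟨b, R, h1, h2⟩ := hp
  obtain ⟨b', R', h3, h4⟩ := hq
  refine ⟨b, R, S.rmono _ _ _ h1, ?_⟩
  have hb := S.rle _ _ _ h1
  rw [List.drop_append_of_le_length hb, run_app]
  have := run_cut S (w := (run Z R (p.drop b)).1) (v := (run Z R (p.drop b)).2) (r := q)
    (nxt_run Z _ _) h2 h3 (hprm b R h1)
  rw [this]
  exact h4

/-- cutting a consistent word at a legal junction -/
theorem TC_split {p q : List α} {b : ℕ} {R : V} (hpq : p ++ q ∈ TC S)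
    (h1 : S.rdat p = some (b, R)) (h2 : S.cutL (run Z R (p.drop b)))
    {d : ℕ × V} (h3 : S.rdat q = some d) (hprm : Prm ((run Z R (p.drop b)).1 ++ q)) :
    p ∈ TC S ∧ q ∈ TC S := by
  refine ⟨⟨b, R, h1, h2⟩, ?_⟩
  obtain ⟨b0, R0, h4, h5⟩ := hpq
  have h6 := S.rmono p q _ h1
  rw [h6] at h4
  cases h4
  obtain ⟨b', R'⟩ := d
  refine ⟨b', R', h3, ?_⟩
  have hb := S.rle _ _ _ h1
  rw [List.drop_append_of_le_length hb, run_app] at h5
  have := run_cut S (w := (run Z R (p.drop b)).1) (v := (run Z R (p.drop b)).2) (r := q)
    (nxt_run Z _ _) h2 h3 hprm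
  rwa [this] at h5

/-- `Reach Z R Y a v`: the run of `Y` from value `R` passes the anchor at position `a` with value `v`. -/
inductive Reach (Z : ZData α V) : V → List α → ℕ → V → Prop
  | zero (R : V) (Y : List α) : Reach Z R Y 0 R
  | step {R : V} {Y : List α} {b a : ℕ} {v : V} (h : Z.nxt Y = some b)
      (hr : Reach Z (Z.stp R Y) (Y.drop b) a v) : Reach Z R Y (b + a) v

theorem Reach.le {R : V} {Y : List α} {a : ℕ} {v : V} (h : Reach Z R Y a v) : a ≤ Y.length := by
  induction h with
  | zero => exact Nat.zero_le _
  | step h _ ih =>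
    have := Z.le _ _ h
    simp only [List.length_drop] at ih
    omega

/-- the run from an anchor passed by the run -/
theorem Reach.run_eq {R : V} {Y : List α} {a : ℕ} {v : V} (h : Reach Z R Y a v) :
    run Z R Y = run Z v (Y.drop a) := by
  induction h with
  | zero => simp
  | step h _ ih =>
    rw [run_some Z h, ih, List.drop_drop]

/-- state of a prefix which ends inside the zone of a passed anchor -/
theorem Reach.run_take {R : V} {Y : List α} {a j : ℕ} {v : V}
    (h2 : Reach Z R (Y.take (a + j)) a v) (h3 : Z.nxt ((Y.drop a).take j) = none) :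
    run Z R (Y.take (a + j)) = ((Y.drop a).take j, v) := by
  rw [h2.run_eq]
  have : (Y.take (a + j)).drop a = (Y.drop a).take j := by
    rw [List.drop_take]
    congr 1
    omega
  rw [this, run_none Z h3]

end Crest.Agent.R320.TC_716
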