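import Crest.Agent.R320.Half1Def_961
import Crest.Agent.R320.Gad1_420
import Crest.Agent.R320.ThrChain_260

/-!
Row 320, helper357: scheme 1 (Gad1_420.gadget1 + ThrChain_260) in the form of 961's
`Exact` / `Complete` (Half1Def_961).
-/

set_option autoImplicit false
set_option linter.unusedSectionVars false

namespace Crest.Agent.R320.TS_357

open Crest.Agent.R320.ThrChain260 Crest.Agent.R320.Half1_961 Crest.Agent.R320.Gad1_420

variable {α : Type*}

/-- wall set of a text for a right-looking rule -/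
def WS (R : List α → Prop) (Q : List α) : ℤ → Prop := fun t => 0 ≤ t ∧ R (Q.drop t.toNat)

theorem WS_shift (R : List α → Prop) (P Q : List α) {t : ℤ} (ht : 0 ≤ t) :
    WS R (P ++ Q) (P.length + t) ↔ WS R Q t := by
  obtain ⟨k, rfl⟩ := Int.eq_ofNat_of_zero_le ht
  have e : ((P.length : ℤ) + (k : ℤ)).toNat = P.length + k := by omega
  unfold WS
  rw [e, drop_app_right]
  simp only [Int.toNat_natCast]
  constructor
  · rintro ⟨-, h⟩; exact ⟨by omega, h⟩
  · rintro ⟨-, h⟩; exact ⟨by omega, h⟩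

theorem WS_fit {R : List α → Prop} {n : ℕ} (hR : Rule R n) {Q : List α} {t : ℤ}
    (h : WS R Q t) : t + n ≤ Q.length := by
  obtain ⟨h0, h1⟩ := h
  obtain ⟨k, rfl⟩ := Int.eq_ofNat_of_zero_le h0
  simp only [Int.toNat_natCast] at h1
  have := hR.wall_fit h1
  omega

theorem WS_left {R : List α → Prop} {n : ℕ} (hR : Rule R n) {Q Q' : List α} {t : ℤ}
    (ht : t + n ≤ Q.length) : WS R (Q ++ Q') t ↔ WS R Q t := by
  unfold WS
  constructor
  · rintro ⟨h0, h1⟩
    exact ⟨h0, (hR.wall_left (by omega)).1 h1⟩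
  · rintro ⟨h0, h1⟩
    exact ⟨h0, (hR.wall_left (by omega)).2 h1⟩

theorem WS_mono {R : List α → Prop} {n : ℕ} (hR : Rule R n) {Q Q' : List α} {t : ℤ}
    (h : WS R Q t) : WS R (Q ++ Q') t := (WS_left hR (WS_fit hR h)).2 h

variable (Pa : Par)

/-- shift of the right readings -/
theorem qualR_shift {Wl Wl' : ℤ → Prop} {x : ℤ} {t : ℤ} (h : Wl (x + t) ↔ Wl' t) :
    QualR Pa Wl x (x + t) ↔ QualR Pa Wl' 0 t := by
  unfold QualR
  have e : x + t - x = t - 0 := by ring
  rw [e, h]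

theorem isB_shift {Wl Wl' : ℤ → Prop} {x : ℤ} (hz : Pa.p0 + Pa.S ≤ Pa.z)
    (h : ∀ t, 0 ≤ t → (Wl (x + t) ↔ Wl' t)) {t : ℤ} (ht : 0 ≤ t) :
    IsB Pa Wl x (x + t) ↔ IsB Pa Wl' 0 t := by
  unfold IsB
  constructor
  · rintro ⟨h1, h2⟩
    refine ⟨(qualR_shift Pa (h t ht)).1 h1, fun t' ht' hq => ?_⟩
    have h0 := qualR_ge hz hq
    exact h2 (x + t') (by omega) ((qualR_shift Pa (h t' h0)).2 hq)
  · rintro ⟨h1, h2⟩
    refine ⟨(qualR_shift Pa (h t ht)).2 h1, fun t' ht' hq => ?_⟩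
    have h0 := qualR_ge hz hq
    obtain ⟨u, rfl⟩ : ∃ u, t' = x + u := ⟨t' - x, by ring⟩
    exact h2 u (by omega) ((qualR_shift Pa (h u (by omega))).1 hq)

theorem legal_shift {Wl Wl' : ℤ → Prop} {x : ℤ} (hz : Pa.p0 + Pa.S ≤ Pa.z)
    (h : ∀ t, 0 ≤ t → (Wl (x + t) ↔ Wl' t)) : Legal Pa Wl x ↔ Legal Pa Wl' 0 := by
  unfold Legal
  constructor
  · intro hl t ht hb
    rcases lt_or_ge t 0 with hx | hx
    · have := left_lt (P := Pa) (x := 0) hz hx
      exact absurd hb.2 (not_le.mpr this)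
    · apply hl (x + t) ((h t hx).2 ht)
      have e : x + t - x = t - 0 := by ring
      rw [e]; exact hb
  · intro hl t ht hb
    rcases lt_or_ge t x with hx | hx
    · exact absurd hb.2 (not_le.mpr (left_lt hz hx))
    · obtain ⟨u, rfl⟩ : ∃ u, t = x + u := ⟨t - x, by ring⟩
      apply hl u ((h u (by omega)).1 ht)
      have e : x + u - x = u - 0 := by ring
      rw [e] at hb; exact hb

open Classical in
/-- next anchor -/
noncomputable def nx (R : List α → Prop) (Q : List α) : Option ℕ :=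
  if h : ∃ d : ℕ, IsN Pa (WS R Q) 0 d then some h.choose else none

theorem nx_eq {R : List α → Prop} {Q : List α} {d : ℕ} :
    nx Pa R Q = some d ↔ IsN Pa (WS R Q) 0 d := by
  classical
  unfold nx
  constructor
  · intro h
    split_ifs at h with h1
    have := h1.choose_spec
    rw [Option.some.injEq] at h
    rw [h] at this
    exact this
  · intro h
    have h1 : ∃ d : ℕ, IsN Pa (WS R Q) 0 d := ⟨d, h⟩
    rw [dif_pos h1]
    congr 1
    have := isN_unique h1.choose_spec h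
    exact_mod_cast this

theorem isN_left {R : List α → Prop} {n : ℕ} (hR : Rule R n) {Q Q' : List α} {d : ℤ}
    (hd : d + n ≤ Q.length) : IsN Pa (WS R (Q ++ Q')) 0 d ↔ IsN Pa (WS R Q) 0 d := by
  unfold IsN Qual
  constructor
  · rintro ⟨⟨h1, h2⟩, h3⟩
    exact ⟨⟨(WS_left hR hd).1 h1, h2⟩, fun t' ht' hq => h3 t' ht' ⟨WS_mono hR hq.1, hq.2⟩⟩
  · rintro ⟨⟨h1, h2⟩, h3⟩
    exact ⟨⟨WS_mono hR h1, h2⟩, fun t' ht' hq =>
      h3 t' ht' ⟨(WS_left hR (by omega)).1 hq.1, hq.2⟩⟩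

/-- the chain of the threshold rule -/
noncomputable def chain {R : List α → Prop} {n : ℕ} (hR : Rule R n) (hz : Pa.S < Pa.z) :
    Chain α where
  nx := nx Pa R
  n := n
  ext := by
    intro Q Q' d h
    rw [nx_eq] at h ⊢
    have := WS_fit hR h.1.1
    exact (isN_left Pa hR this).2 h
  vis := by
    intro Q d h
    rw [nx_eq] at h
    have h1 := WS_fit hR h.1.1
    have h2 := qual_ge h.1
    have h3 := Pa.hN
    constructor <;> omega
  tight := by
    intro Q Q' d h hd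
    rw [nx_eq] at h ⊢
    exact (isN_left Pa hR (by exact_mod_cast hd)).1 h

@[simp] theorem chain_nx {R : List α → Prop} {n : ℕ} (hR : Rule R n) (hz : Pa.S < Pa.z) :
    (chain Pa hR hz).nx = nx Pa R := rfl

variable {S W : Type*} [Monoid S] [Finite S] [AddCommGroup W]

open Classical in
/-- right reading of scheme 1 -/
noncomputable def rl1 (R : List α → Prop) (D : Dat α S (S → ZMod 2) W) (U : List α) :
    Option (ℕ × (S → ZMod 2)) :=
  if h : ∃ p : ℕ × (S → ZMod 2), IsB Pa (WS R U) 0 p.1 ∧ Legal Pa (WS R U) 0 ∧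
    D.Rf (U.take p.1) = some p.2 then some h.choose else none

theorem rl1_some {R : List α → Prop} {D : Dat α S (S → ZMod 2) W} {U : List α} {b : ℕ}
    {r : S → ZMod 2} (h : rl1 Pa R D U = some (b, r)) :
    IsB Pa (WS R U) 0 b ∧ Legal Pa (WS R U) 0 ∧ D.Rf (U.take b) = some r := by
  classical
  unfold rl1 at h
  split_ifs at h with h1
  have := h1.choose_spec
  rw [Option.some.injEq] at h
  rw [h] at this
  exact this

/-- geometric link between `Par` and `Dat` -/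
structure Link (D : Dat α S (S → ZMod 2) W) : Prop where
  p0 : Pa.p0 = 0
  M : Pa.M = D.M'
  N1 : ∀ i < D.m, ((D.A' i + D.M' * D.M : ℕ) : ℤ) ≤ Pa.N1
  z : Pa.S < Pa.z
  act : D.act = fun v s => push (fun x => x * s) v

theorem inWin {D : Dat α S (S → ZMod 2) W} (hL : Link Pa D) {x i : ℕ} (hi : i < D.m)
    (h1 : D.M' ∣ x) (h3 : x < D.A' i + D.M' * D.M) : InWin Pa 0 (x : ℤ) := by
  refine ⟨?_, ?_, ?_⟩
  · rw [hL.p0]; omega
  · rw [hL.p0]
    have := hL.N1 i hi
    omega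
  · rw [hL.p0, hL.M]
    simpa using (Int.natCast_dvd_natCast.2 h1)

theorem exact1 {R : List α → Prop} {n : ℕ} (hR : Rule R n) {D : Dat α S (S → ZMod 2) W}
    (hL : Link Pa D) {nu : List α → (S → ZMod 2)}
    (g1 : ∀ P Q v r, D.Lf P = some v → D.Rf Q = some r →
        r = D.act v (D.φ (P ++ Q)) + nu (P ++ Q))
    (g2 : ∀ P v, D.Lf P = some v → ∃ i < D.m, D.M' ∣ P.length ∧ D.A' i ≤ P.length ∧
        P.length < D.A' i + D.M' * D.M) (D1 : ℕ) (G : List α → List α → Prop) :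
    Exact (chain Pa hR hL.z) (T1 D.φ nu) D.Lf D1 (rl1 Pa R D) G := by
  intro P U v b r _ _ _ hP hU
  obtain ⟨h1, h2, h3⟩ := rl1_some Pa hU
  obtain ⟨i, hi, e1, -, e3⟩ := g2 P v hP
  have hw := inWin Pa hL hi e1 e3
  have hz : Pa.p0 + Pa.S ≤ Pa.z := by have := hL.z; rw [hL.p0]; omega
  have hWS : ∀ t, 0 ≤ t → (WS R (P ++ U) (P.length + t) ↔ WS R U t) :=
    fun t ht => WS_shift R P U ht
  have h1' := (isB_shift Pa hz hWS (t := (b : ℤ)) (by omega)).2 h1
  have h2' := (legal_shift Pa hz hWS).2 h2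
  constructor
  · rw [chain_nx, nx_eq]
    have := (isN_iff_isB h2' hw _).2 h1'
    push_cast
    exact this
  · rw [g1 P (U.take b) v r hP h3, hL.act]
    rfl

theorem isB_left {R : List α → Prop} {n : ℕ} (hR : Rule R n) {Q Q' : List α} {d : ℤ}
    (hd : d + n ≤ Q.length) : IsB Pa (WS R (Q ++ Q')) 0 d ↔ IsB Pa (WS R Q) 0 d := by
  unfold IsB QualR
  constructor
  · rintro ⟨⟨h1, h2⟩, h3⟩
    exact ⟨⟨(WS_left hR hd).1 h1, h2⟩, fun t' ht' hq => h3 t' ht' ⟨WS_mono hR hq.1, hq.2⟩⟩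
  · rintro ⟨⟨h1, h2⟩, h3⟩
    exact ⟨⟨WS_mono hR h1, h2⟩, fun t' ht' hq =>
      h3 t' ht' ⟨(WS_left hR (by omega)).1 hq.1, hq.2⟩⟩

theorem legal_left {R : List α → Prop} {n : ℕ} (hR : Rule R n) {Q Q' : List α}
    (h : Legal Pa (WS R (Q ++ Q')) 0) : Legal Pa (WS R Q) 0 :=
  fun t ht => h t (WS_mono hR ht)

theorem nx_none_of_short {R : List α → Prop} {n : ℕ} (hR : Rule R n) {P : List α}
    (h : (P.length : ℤ) < Pa.z - (Pa.S - Pa.N1)) : nx Pa R P = none := by
  rcases hx : nx Pa R P with _ | d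
  · rfl
  · rw [nx_eq] at hx
    have h1 := WS_fit hR hx.1.1
    have h2 := qual_ge hx.1
    omega

theorem complete1 {R : List α → Prop} {n : ℕ} (hR : Rule R n) {D : Dat α S (S → ZMod 2) W}
    (hS : Rule D.R D.n) (hL : Link Pa D) (good : ℕ → Prop)
    (g2 : ∀ P v, D.Lf P = some v → ∃ i < D.m, D.M' ∣ P.length ∧ D.A' i ≤ P.length ∧
        P.length < D.A' i + D.M' * D.M)
    (g3 : ∀ Y : List α, good (Y.length / D.M') →
        (∀ i < D.m, D.A' i + D.M' * D.M ≤ Y.length) →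
        (∀ t, t ≤ D.A D.m + D.M' * D.M → ∃ s, t ≤ s ∧ s < t + D.G ∧ D.R (Y.drop s)) →
        (∀ k, k ≤ D.m → ∀ s, D.A k ≤ s + D.M' * D.M → s < D.A k + D.M' * D.M →
          ¬ D.R (Y.drop s)) →
        ∀ v, ∃ P Q, P ++ Q = Y ∧ D.Lf P = some v ∧ (D.Rf Q).isSome)
    {Q : List α} {d D1 lo hi : ℕ} (hE : ¬ E Pa (WS R Q) 0)
    (hD : ∀ k ≤ D.m, ¬ ∃ u, WS D.R Q u ∧ |u - 0 - (D.A k : ℤ)| ≤ ((D.M' * D.M : ℕ) : ℤ))
    (hd : IsN Pa (WS R Q) 0 d) (hg : good (d / D.M'))
    (hw : ∀ t, t ≤ D.A D.m + D.M' * D.M → ∃ s, t ≤ s ∧ s < t + D.G ∧ D.R (Q.drop s))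
    (h1 : ∀ i < D.m, D.A' i + D.M' * D.M ≤ d)
    (h2 : D.A D.m + D.M' * D.M + D.G + D.n ≤ d)
    (h3 : d + n ≤ D1) (hlo : ∀ i < D.m, lo ≤ D.A' i)
    (hhi : ∀ i < D.m, D.A' i + D.M' * D.M ≤ hi) (hQ : hi + D1 ≤ Q.length) (v : S → ZMod 2) :
    ∃ P U Q', Q = P ++ (U ++ Q') ∧ U.length = D1 ∧ lo ≤ P.length ∧ P.length ≤ hi ∧
      (chain Pa hR hL.z).nx P = none ∧ D.Lf P = some v ∧ (rl1 Pa R D U).isSome := by
  have hz : Pa.p0 + Pa.S ≤ Pa.z := by have := hL.z; rw [hL.p0]; omega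
  have hdn := WS_fit hR hd.1.1
  have hdQ : d ≤ Q.length := by omega
  set Y := Q.take d with hY
  have hYl : Y.length = d := by rw [hY, List.length_take]; omega
  have hYQ : Y ++ Q.drop d = Q := List.take_append_drop _ _
  have hloc : ∀ s, s + D.n ≤ d → (D.R (Q.drop s) ↔ D.R (Y.drop s)) := by
    intro s hs
    conv_lhs => rw [← hYQ]
    exact hS.wall_left (by omega)
  obtain ⟨P, Q0, hPQ, hP, hQ0⟩ := g3 Y (by rw [hYl]; exact hg) (by rw [hYl]; exact h1)
    (by
      intro t ht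
      obtain ⟨s, a1, a2, a3⟩ := hw t ht
      exact ⟨s, a1, a2, (hloc s (by omega)).1 a3⟩)
    (by
      intro k hk s a1 a2 a3
      apply hD k hk
      have hfit := hS.wall_fit a3
      rw [hYl] at hfit
      refine ⟨(s : ℤ), ⟨by omega, ?_⟩, ?_⟩
      · simp only [Int.toNat_natCast]
        exact (hloc s hfit).2 a3
      · rw [abs_le]; constructor <;> omega) v
  obtain ⟨i, hi', e1, e2, e3⟩ := g2 P v hP
  have hx := inWin Pa hL hi' e1 e3
  have hPd : P.length + Q0.length = d := by rw [← hYl, ← hPQ, List.length_append]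
  have hPhi : P.length ≤ hi := by have := hhi i hi'; omega
  have hPtake : Q.take P.length = P := by
    have : P.length ≤ d := by omega
    rw [← hYQ, ← hPQ, List.append_assoc, List.take_left]
  have hPdrop : Q.drop P.length = Q0 ++ Q.drop d := by
    conv_lhs => rw [← hYQ, ← hPQ, List.append_assoc, List.drop_left]
  have hQP : P ++ Q.drop P.length = Q := by
    conv_rhs => rw [← List.take_append_drop P.length Q, hPtake]
  refine ⟨P, (Q.drop P.length).take D1, (Q.drop P.length).drop D1, ?_, ?_, ?_, hPhi, ?_, hP, ?_⟩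
  · rw [List.take_append_drop, hQP]
  · rw [List.length_take, List.length_drop]; omega
  · exact (hlo i hi').trans e2
  · rw [chain_nx]
    apply nx_none_of_short Pa hR
    have := hx.2.1
    have hz2 := hL.z
    rw [hL.p0] at this
    omega
  · have hleg := legal_of_not_E hE hx
    have hB := (isN_iff_isB hleg hx _).1 hd
    have hWS : ∀ t, 0 ≤ t → (WS R Q (P.length + t) ↔ WS R (Q.drop P.length) t) := by
      intro t ht
      conv_lhs => rw [← hQP]
      exact WS_shift R P _ ht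
    have e4 : ((d : ℕ) : ℤ) = (P.length : ℤ) + (Q0.length : ℤ) := by omega
    rw [e4] at hB
    have hB' := (isB_shift Pa hz hWS (t := (Q0.length : ℤ)) (by omega)).1 hB
    have hl' := (legal_shift Pa hz hWS).1 hleg
    have hUl : ((Q.drop P.length).take D1).length = D1 := by
      rw [List.length_take, List.length_drop]; omega
    have hsplit : (Q.drop P.length).take D1 ++ (Q.drop P.length).drop D1 = Q.drop P.length :=
      List.take_append_drop _ _
    rw [← hsplit] at hB' hl'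
    have hB2 := (isB_left Pa hR (by rw [hUl]; omega)).1 hB'
    have hl2 := legal_left Pa hR hl'
    obtain ⟨r, hr⟩ := Option.isSome_iff_exists.1 hQ0
    have htk : ((Q.drop P.length).take D1).take Q0.length = Q0 := by
      rw [List.take_take, hPdrop, List.take_append_of_le_length (by omega)]
      rw [List.take_of_length_le]; omega
    have hex : ∃ p : ℕ × (S → ZMod 2), IsB Pa (WS R ((Q.drop P.length).take D1)) 0 p.1 ∧
        Legal Pa (WS R ((Q.drop P.length).take D1)) 0 ∧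
        D.Rf (((Q.drop P.length).take D1).take p.1) = some p.2 :=
      ⟨(Q0.length, r), hB2, hl2, by rw [htk]; exact hr⟩
    unfold rl1
    rw [dif_pos hex]
    rfl

end Crest.Agent.R320.TS_357
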