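import Crest.Agent.R320.Thin_271

/-!
Row 320: spoil count for the bad set of 693's grid gadget (#13765 / Grid_693), from `exists_thin`.
-/

set_option autoImplicit false

namespace Crest.Agent.R320.Thin2_271

open Crest.Agent.R320.Thin_271

/-- 693's grids -/
def G (k i : ℕ) : ℕ := 2 ^ (k * (i + 1))

/-- 693's bad set (any offsets `Am`) -/
def Bad (k M m : ℕ) (Am : ℕ → ℕ) (mods : Finset ℕ) (T : ℕ) : Prop :=
  (∃ mu ∈ mods, mu ∣ T) ∨ ∃ j, 1 ≤ j ∧ j < m ∧
    ((T - Am j) % G k j < M * G k (j - 1) ∨ G k j ≤ (T - Am j) % G k j + M * G k (j - 1))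

theorem two_pow_sub {a b c d : ℕ} (hab : a ≠ b)
    (h : ((2:ℕ) ^ a : ℤ) - ((2:ℕ) ^ b : ℤ) = ((2:ℕ) ^ c : ℤ) - ((2:ℕ) ^ d : ℤ)) :
    a = c ∧ b = d := by
  have key : ∀ a b c d : ℕ, b < a → ((2:ℤ) ^ a - 2 ^ b = 2 ^ c - 2 ^ d) → a = c ∧ b = d := by
    intro a b c d hba h
    have hpos : (0:ℤ) < 2 ^ a - 2 ^ b := by
      have : (2:ℤ) ^ b < 2 ^ a := pow_lt_pow_right₀ (by norm_num) hba
      linarith
    have hdc : d < c := by
      by_contra hcd
      have : (2:ℤ) ^ c ≤ 2 ^ d := pow_le_pow_right₀ (by norm_num) (by omega)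
      linarith
    have hu1 : (2:ℤ) ^ a - 2 ^ b < 2 ^ a := by
      have : (0:ℤ) < 2 ^ b := by positivity
      linarith
    have hl1 : (2:ℤ) ^ (a - 1) ≤ 2 ^ a - 2 ^ b := by
      have h1 : (2:ℤ) ^ b ≤ 2 ^ (a - 1) := pow_le_pow_right₀ (by norm_num) (by omega)
      have h2 : (2:ℤ) ^ a = 2 * 2 ^ (a - 1) := by
        rw [← pow_succ']; congr 1; omega
      linarith
    have hu2 : (2:ℤ) ^ c - 2 ^ d < 2 ^ c := by
      have : (0:ℤ) < 2 ^ d := by positivity
      linarith
    have hl2 : (2:ℤ) ^ (c - 1) ≤ 2 ^ c - 2 ^ d := by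
      have h1 : (2:ℤ) ^ d ≤ 2 ^ (c - 1) := pow_le_pow_right₀ (by norm_num) (by omega)
      have h2 : (2:ℤ) ^ c = 2 * 2 ^ (c - 1) := by
        rw [← pow_succ']; congr 1; omega
      linarith
    have h3 : (2:ℤ) ^ (a - 1) < 2 ^ c := by linarith
    have h4 : (2:ℤ) ^ (c - 1) < 2 ^ a := by linarith
    have h3' : a - 1 < c := (pow_lt_pow_iff_right₀ (by norm_num : (1:ℤ) < 2)).mp h3
    have h4' : c - 1 < a := (pow_lt_pow_iff_right₀ (by norm_num : (1:ℤ) < 2)).mp h4
    have hac : a = c := by omega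
    subst hac
    have : (2:ℤ) ^ b = 2 ^ d := by linarith
    exact ⟨rfl, Nat.pow_right_injective le_rfl (by exact_mod_cast this)⟩
  push_cast at h
  rcases lt_trichotomy a b with hlt | heq | hgt
  · have := key b a d c hlt (by linarith)
    exact ⟨this.2, this.1⟩
  · exact absurd heq hab
  · exact key a b c d hgt h

theorem G_succ (k i : ℕ) : G k (i + 1) = 2 ^ k * G k i := by
  unfold G; rw [← pow_add]; congr 1; ring

theorem G_pos (k i : ℕ) : 0 < G k i := by unfold G; positivity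

theorem sum_G_le (k : ℕ) (hk : 1 ≤ k) (n : ℕ) :
    ∑ j ∈ Finset.range (n + 1), G k j ≤ 2 * G k n := by
  induction n with
  | zero => simp; have := G_pos k 0; omega
  | succ n ih =>
    rw [Finset.sum_range_succ, G_succ]
    have h2 : 2 ≤ 2 ^ k := by
      calc 2 = 2 ^ 1 := by norm_num
        _ ≤ 2 ^ k := Nat.pow_le_pow_right (by norm_num) hk
    have : 2 * G k n ≤ 2 ^ k * G k n := Nat.mul_le_mul_right _ h2
    omega

/-- spoil count -/
theorem spoil (K m M gap : ℕ) (mods : Finset ℕ) (hM : 0 < M) (hco : Nat.Coprime 2 M)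
    (hmods : ∀ mu ∈ mods, 2 * 2 ^ K < mu ∧ mu ∣ M) (k : ℕ)
    (hk : 16 * M * 2 ^ K + 2 * M < 2 ^ k) (hk1 : 1 ≤ k) (Am : ℕ → ℕ)
    (hAm : ∀ j < m, Am j ≤ Am m) :
    ∃ C : ℕ → ℕ, (∀ a b, a < b → C a + gap < C b) ∧
      ∀ T : ℕ, (∀ a b, a < K → b < K → Am m + C b ≤ T + C a) →
        (@Finset.filter ℕ (fun a => ∃ b < K, b ≠ a ∧ Bad k M m Am mods (T + C b - C a))
          (fun _ => Classical.propDecidable _) (Finset.range K)).card ≤ mods.card + m := by
  classical
  obtain ⟨C, hC1, hC2, hC3⟩ := exists_thin K m gap (2 ^ K) (fun a => 2 ^ a)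
    (fun a ha => Nat.pow_le_pow_right (by norm_num) ha.le)
    (fun a b c d _ _ _ _ hab h => two_pow_sub hab (by exact_mod_cast h))
    mods M (fun q hq => (hmods q hq).2) (fun q hq => (hmods q hq).1)
    (G k) (fun i => M * G k i)
    (fun i _ => ⟨2 ^ k, by rw [G_succ]; ring⟩) (fun i _ => dvd_mul_left _ _)
    (G_pos k m) hM (by
      unfold G
      exact (Nat.Coprime.pow_left _ hco).symm)
    (fun i _ => Nat.mul_pos hM (G_pos k i))
    (fun i _ => by
      rw [← Finset.mul_sum, G_succ]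
      have h1 := sum_G_le k hk1 i
      have h2 : 8 * (M * ∑ j ∈ Finset.range (i + 1), G k j) * 2 ^ K ≤
          8 * (M * (2 * G k i)) * 2 ^ K :=
        Nat.mul_le_mul_right _ (Nat.mul_le_mul_left _ (Nat.mul_le_mul_left _ h1))
      have h3 : 8 * (M * (2 * G k i)) * 2 ^ K + 2 * (M * G k i) =
          (16 * M * 2 ^ K + 2 * M) * G k i := by ring
      have h4 : (16 * M * 2 ^ K + 2 * M) * G k i < 2 ^ k * G k i :=
        Nat.mul_lt_mul_of_pos_right hk (G_pos k i)
      omega)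
    (fun i => (Am i : ℤ))
  refine ⟨C, hC1, ?_⟩
  intro T hT
  -- event of a spoiled index
  let Ev : ℕ → (ℕ ⊕ ℕ) → Prop := fun a e => ∃ b < K, b ≠ a ∧
    (match e with
      | Sum.inl mu => mu ∈ mods ∧ mu ∣ T + C b - C a
      | Sum.inr j => 1 ≤ j ∧ j < m ∧
        ((T + C b - C a - Am j) % G k j < M * G k (j - 1) ∨
          G k j ≤ (T + C b - C a - Am j) % G k j + M * G k (j - 1)))
  have hex : ∀ a, a < K → (∃ b < K, b ≠ a ∧ Bad k M m Am mods (T + C b - C a)) →
      ∃ e, Ev a e := by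
    rintro a ha ⟨b, hb, hba, h⟩
    rcases h with ⟨mu, hmu, hd⟩ | ⟨j, h1, h2, h3⟩
    · exact ⟨Sum.inl mu, b, hb, hba, hmu, hd⟩
    · exact ⟨Sum.inr j, b, hb, hba, h1, h2, h3⟩
  have band : ∀ x j : ℕ, 1 ≤ j → (x % G k j < M * G k (j - 1) ∨
      G k j ≤ x % G k j + M * G k (j - 1)) →
      ∃ t : ℤ, |(x : ℤ) - t * (G k j : ℤ)| ≤ ((M * G k (j - 1) : ℕ) : ℤ) := by
    intro x j hj h
    have hdm := Nat.div_add_mod x (G k j)
    have hlt := Nat.mod_lt x (G_pos k j)
    rcases h with h | h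
    · refine ⟨((x / G k j : ℕ) : ℤ), ?_⟩
      have e : (x : ℤ) - ((x / G k j : ℕ) : ℤ) * (G k j : ℤ) = ((x % G k j : ℕ) : ℤ) := by
        have : (x : ℤ) = (G k j : ℤ) * ((x / G k j : ℕ) : ℤ) + ((x % G k j : ℕ) : ℤ) := by
          exact_mod_cast hdm.symm
        linarith
      rw [e, abs_of_nonneg (by positivity)]
      exact_mod_cast h.le
    · refine ⟨((x / G k j : ℕ) : ℤ) + 1, ?_⟩
      have e : (x : ℤ) - (((x / G k j : ℕ) : ℤ) + 1) * (G k j : ℤ) =
          -((G k j : ℤ) - ((x % G k j : ℕ) : ℤ)) := by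
        have : (x : ℤ) = (G k j : ℤ) * ((x / G k j : ℕ) : ℤ) + ((x % G k j : ℕ) : ℤ) := by
          exact_mod_cast hdm.symm
        linarith
      have h' : (G k j : ℤ) ≤ ((x % G k j : ℕ) : ℤ) + ((M * G k (j - 1) : ℕ) : ℤ) := by
        exact_mod_cast h
      have hlt' : ((x % G k j : ℕ) : ℤ) < (G k j : ℤ) := by exact_mod_cast hlt
      rw [e, abs_neg, abs_of_nonneg (by linarith)]
      linarith
  have huniq : ∀ a a' e, a < K → a' < K → Ev a e → Ev a' e → a = a' := by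
    rintro a a' (mu | j) ha ha' ⟨b, hb, hba, h⟩ ⟨b', hb', hba', h'⟩
    · obtain ⟨hm, hd⟩ := h
      obtain ⟨-, hd'⟩ := h'
      have c1 := hT a b ha hb
      have c2 := hT a' b' ha' hb'
      have e1 : ((T + C b - C a : ℕ) : ℤ) = (T : ℤ) + C b - C a := by
        have := hT b a hb ha
        rw [Nat.cast_sub (by omega)]; push_cast; ring
      have e2 : ((T + C b' - C a' : ℕ) : ℤ) = (T : ℤ) + C b' - C a' := by
        have := hT b' a' hb' ha'
        rw [Nat.cast_sub (by omega)]; push_cast; ring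
      have := hC2 (T : ℤ) mu hm b a b' a' hb ha hb' ha' hba
        (by rw [← e1]; exact_mod_cast hd) (by rw [← e2]; exact_mod_cast hd')
      exact this.2
    · obtain ⟨h1, h2, h3⟩ := h
      obtain ⟨-, -, h3'⟩ := h'
      obtain ⟨i, rfl⟩ : ∃ i, j = i + 1 := ⟨j - 1, by omega⟩
      have hAj := hAm (i + 1) h2
      have t1 := band _ _ h1 h3
      have t2 := band _ _ h1 h3'
      simp only [Nat.add_sub_cancel] at t1 t2
      have e1 : ((T + C b - C a - Am (i + 1) : ℕ) : ℤ) = (T : ℤ) + C b - C a - Am (i + 1) := by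
        have := hT b a hb ha
        rw [Nat.cast_sub (by omega), Nat.cast_sub (by omega)]; push_cast; ring
      have e2 : ((T + C b' - C a' - Am (i + 1) : ℕ) : ℤ) =
          (T : ℤ) + C b' - C a' - Am (i + 1) := by
        have := hT b' a' hb' ha'
        rw [Nat.cast_sub (by omega), Nat.cast_sub (by omega)]; push_cast; ring
      rw [e1] at t1
      rw [e2] at t2
      have := hC3 (T : ℤ) i (by omega) b a b' a' hb ha hb' ha' hba t1 t2
      exact this.2
  -- choose the event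
  choose! f hf using hex
  have hmaps : ∀ a ∈ (Finset.range K).filter
      (fun a => ∃ b < K, b ≠ a ∧ Bad k M m Am mods (T + C b - C a)),
      f a ∈ (mods.disjSum (Finset.range m)) := by
    intro a ha
    rw [Finset.mem_filter, Finset.mem_range] at ha
    have := hf a ha.1 ha.2
    obtain ⟨b, hb, hba, h⟩ := this
    rcases hfa : f a with mu | j
    · rw [hfa] at h
      exact Finset.inl_mem_disjSum.mpr h.1
    · rw [hfa] at h
      exact Finset.inr_mem_disjSum.mpr (Finset.mem_range.mpr h.2.1)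
  have hinj : Set.InjOn f ((Finset.range K).filter
      (fun a => ∃ b < K, b ≠ a ∧ Bad k M m Am mods (T + C b - C a)) : Finset ℕ) := by
    intro a ha a' ha' he
    rw [Finset.mem_coe, Finset.mem_filter, Finset.mem_range] at ha ha'
    have h1 := hf a ha.1 ha.2
    have h2 := hf a' ha'.1 ha'.2
    rw [← he] at h2
    exact huniq a a' (f a) ha.1 ha'.1 h1 h2
  have := Finset.card_le_card_of_injOn f hmaps hinj
  rw [Finset.card_disjSum, Finset.card_range] at this
  refine le_trans (le_of_eq (congrArg _ ?_)) this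
  ext a
  simp only [Finset.mem_filter]

end Crest.Agent.R320.Thin2_271
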