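import Mathlib
import Crest.Agent.R320.ClkCop_934

/-! Row 320: ruler and thinness of the bad lengths of `ClkCop_934`. -/

set_option autoImplicit false

namespace Crest.Agent.R320.ThinCop_934

open Crest.Agent.R320.ClkCop_934

theorem pow4_aux (a d c b : ℕ) (h1 : a ≤ d) (h2 : c ≤ b) (h : 4 ^ a + 4 ^ d = 4 ^ c + 4 ^ b)
    (h3 : a < c) : False := by
  obtain ⟨x, rfl⟩ := Nat.exists_eq_add_of_le h1
  obtain ⟨y, rfl⟩ := Nat.exists_eq_add_of_lt h3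
  obtain ⟨z, rfl⟩ := Nat.exists_eq_add_of_le h2
  have e : 4 ^ a * (1 + 4 ^ x) = 4 ^ a * (4 * 4 ^ y + 4 * (4 ^ y * 4 ^ z)) := by
    have : 4 ^ (a + y + 1) = 4 ^ a * (4 * 4 ^ y) := by ring
    have h5 : 4 ^ (a + y + 1 + z) = 4 ^ a * (4 * (4 ^ y * 4 ^ z)) := by ring
    rw [this, h5, pow_add] at h
    rw [Nat.mul_add, Nat.mul_add, Nat.mul_one, h]
  have e2 := Nat.eq_of_mul_eq_mul_left (Nat.pow_pos (by norm_num)) e
  have h6 : 0 < 4 ^ y := Nat.pow_pos (by norm_num)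
  cases x with
  | zero =>
    rw [pow_zero] at e2
    omega
  | succ x =>
    rw [pow_succ] at e2
    omega

theorem pow4_ord (a d c b : ℕ) (h1 : a ≤ d) (h2 : c ≤ b) (h : 4 ^ a + 4 ^ d = 4 ^ c + 4 ^ b) :
    a = c ∧ d = b := by
  have hac : a = c := by
    rcases lt_trichotomy a c with h3 | h3 | h3
    · exact (pow4_aux a d c b h1 h2 h h3).elim
    · exact h3
    · exact (pow4_aux c b a d h2 h1 h.symm h3).elim
  subst hac
  exact ⟨rfl, Nat.pow_right_injective (le_refl 2 |>.trans (by norm_num)) (Nat.add_left_cancel h)⟩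

theorem pow4 (a b c d : ℕ) (h : (4:ℤ) ^ a - 4 ^ b = 4 ^ c - 4 ^ d) (hab : a ≠ b) :
    a = c ∧ b = d := by
  have h' : 4 ^ a + 4 ^ d = 4 ^ c + 4 ^ b := by
    have : (4:ℤ) ^ a + 4 ^ d = 4 ^ c + 4 ^ b := by linarith
    exact_mod_cast this
  rcases Nat.le_total a d with h1 | h1 <;> rcases Nat.le_total c b with h2 | h2
  · have := pow4_ord a d c b h1 h2 h'
    exact ⟨this.1, this.2.symm⟩
  · have := pow4_ord a d b c h1 h2 (by omega)
    exact absurd this.1 hab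
  · have := pow4_ord d a c b h1 h2 (by omega)
    exact absurd this.2 hab
  · have := pow4_ord d a b c h1 h2 (by omega)
    exact ⟨this.2, this.1.symm⟩

section
variable (K M m E : ℕ)

def Rr : ℕ := 1 + M * (32 * 4 ^ K)
def Dd : ℕ := 4 * M + 1
def Jj : ℕ := Dd M * (∑ j ∈ Finset.range m, Rr K M ^ j) + Tp (Rr K M) M m * E
def xx (a : ℕ) : ℕ := 4 ^ a * Jj K M m E

theorem Rr_cop : Nat.Coprime M (Rr K M) := by
  unfold Rr
  rw [Nat.coprime_comm]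
  simp

theorem two_le_Rr (hM : 0 < M) : 2 ≤ Rr K M := by
  unfold Rr
  have : 0 < M * (32 * 4 ^ K) := Nat.mul_pos hM (by positivity)
  omega

theorem J_mod (q : ℕ) (hq : q ∣ M) : (Jj K M m E : ℤ) ≡ m [ZMOD q] := by
  have hM : (M:ℤ) ≡ 0 [ZMOD q] := (Int.modEq_zero_iff_dvd).2 (by exact_mod_cast hq)
  have hR : (Rr K M : ℤ) ≡ 1 [ZMOD q] := by
    unfold Rr
    push_cast
    have := (hM.mul_right (32 * 4 ^ K)).add_left 1
    simpa using this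
  have hD : (Dd M : ℤ) ≡ 1 [ZMOD q] := by
    unfold Dd
    push_cast
    have := (hM.mul_left 4).add_right 1
    simpa using this
  have hS : ((∑ j ∈ Finset.range m, Rr K M ^ j : ℕ) : ℤ) ≡ m [ZMOD q] := by
    induction m with
    | zero => simp
    | succ m ih =>
      rw [Finset.sum_range_succ]
      push_cast at ih ⊢
      have := ih.add (hR.pow m)
      simpa using this
  have hT : ((Tp (Rr K M) M m * E : ℕ) : ℤ) ≡ 0 [ZMOD q] := by
    unfold Tp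
    push_cast
    have := (hM.mul_left ((Rr K M : ℤ) ^ m)).mul_right (E : ℤ)
    simpa using this
  unfold Jj
  rw [Nat.cast_add, Nat.cast_mul]
  have := (hD.mul hS).add hT
  simpa using this

theorem prime_case (q : ℕ) (hq : q ∣ M) (hp : q.Prime) (hm : 0 < m) (hmq : m < q)
    (δ : ℤ) (hδ : δ ≠ 0) (hδq : |δ| < q) : ¬ (q:ℤ) ∣ Jj K M m E * δ := by
  intro h
  have hp' : Prime (q:ℤ) := Nat.prime_iff_prime_int.1 hp
  rcases hp'.dvd_or_dvd h with h1 | h1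
  · have h2 := J_mod K M m E q hq
    have h3 : (q:ℤ) ∣ m := (Int.modEq_zero_iff_dvd).1 (h2.symm.trans ((Int.modEq_zero_iff_dvd).2 h1))
    have h4 : q ∣ m := by exact_mod_cast h3
    exact absurd (Nat.le_of_dvd hm h4) (by omega)
  · have := Int.le_of_dvd (abs_pos.2 hδ) ((dvd_abs _ _).2 h1)
    omega

theorem sum_le (R : ℕ) (hR : 2 ≤ R) (k : ℕ) :
    (∑ j ∈ Finset.range (k + 1), R ^ j) ≤ 2 * R ^ k := by
  induction k with
  | zero => simp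
  | succ k ih =>
    rw [Finset.sum_range_succ, pow_succ]
    have : R ^ k * 2 ≤ R ^ k * R := Nat.mul_le_mul_left _ hR
    omega

theorem band_case (hM : 0 < M) (k : ℕ) (hk : k + 1 ≤ m) (δ : ℤ) (hδ : δ ≠ 0)
    (hδK : |δ| < 2 * 4 ^ K) (s : ℤ) :
    2 * ((Rr K M : ℤ) ^ k * M) < |(Jj K M m E : ℤ) * δ - (Rr K M : ℤ) ^ (k + 1) * s| := by
  obtain ⟨d, rfl⟩ := Nat.exists_eq_add_of_le hk
  have hsum : (∑ j ∈ Finset.range (k + 1 + d), Rr K M ^ j)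
      = (∑ j ∈ Finset.range (k + 1), Rr K M ^ j)
        + Rr K M ^ (k + 1) * ∑ j ∈ Finset.range d, Rr K M ^ j := by
    rw [Finset.sum_range_add, Finset.mul_sum]
    congr 1
    exact Finset.sum_congr rfl fun j _ => by rw [pow_add]
  have hJ : ∃ s1 : ℤ, (Jj K M (k + 1 + d) E : ℤ)
      = (Dd M : ℤ) * ((∑ j ∈ Finset.range (k + 1), Rr K M ^ j : ℕ) : ℤ)
        + (Rr K M : ℤ) ^ (k + 1) * s1 := by
    refine ⟨(Dd M : ℤ) * ((∑ j ∈ Finset.range d, Rr K M ^ j : ℕ) : ℤ)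
      + (Rr K M : ℤ) ^ d * M * E, ?_⟩
    unfold Jj Tp
    rw [hsum]
    push_cast
    ring
  obtain ⟨s1, hs1⟩ := hJ
  set Y : ℤ := (Rr K M : ℤ) ^ k with hY
  have hYpos : 0 < Y := by
    have := two_le_Rr K M hM
    positivity
  set P : ℤ := (Dd M : ℤ) * ((∑ j ∈ Finset.range (k + 1), Rr K M ^ j : ℕ) : ℤ) with hP
  have hD : (Dd M : ℤ) = 4 * M + 1 := by unfold Dd; push_cast; ring
  have hMz : (0:ℤ) < M := by exact_mod_cast hM
  have hS1 : Y ≤ ((∑ j ∈ Finset.range (k + 1), Rr K M ^ j : ℕ) : ℤ) := by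
    rw [Finset.sum_range_succ]
    push_cast
    have : (0:ℤ) ≤ ∑ j ∈ Finset.range k, (Rr K M : ℤ) ^ j :=
      Finset.sum_nonneg fun j _ => by positivity
    linarith
  have hS2 : ((∑ j ∈ Finset.range (k + 1), Rr K M ^ j : ℕ) : ℤ) ≤ 2 * Y := by
    have := sum_le (Rr K M) (two_le_Rr K M hM) k
    rw [hY]
    exact_mod_cast this
  have hP1 : (4 * M + 1) * Y ≤ P := by
    rw [hP, hD]
    exact mul_le_mul_of_nonneg_left hS1 (by positivity)
  have hP2 : P ≤ (4 * M + 1) * (2 * Y) := by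
    rw [hP, hD]
    exact mul_le_mul_of_nonneg_left hS2 (by positivity)
  have hPpos : 0 < P := lt_of_lt_of_le (by positivity) hP1
  have e : (Jj K M (k + 1 + d) E : ℤ) * δ - (Rr K M : ℤ) ^ (k + 1) * s
      = P * δ - (Rr K M : ℤ) ^ (k + 1) * (s - s1 * δ) := by
    rw [hs1]; ring
  rw [e]
  generalize s - s1 * δ = s2
  have hδ1 : 1 ≤ |δ| := Int.one_le_abs hδ
  by_cases h0 : s2 = 0
  · subst h0
    rw [mul_zero, sub_zero, abs_mul, abs_of_pos hPpos]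
    have h1 : P ≤ P * |δ| := le_mul_of_one_le_right hPpos.le hδ1
    have h2 : 2 * (Y * M) < (4 * M + 1) * Y := by nlinarith [mul_pos hYpos hMz]
    linarith
  · have h1 : 1 ≤ |s2| := Int.one_le_abs h0
    have h2 : |(Rr K M : ℤ) ^ (k + 1) * s2| - |P * δ|
        ≤ |P * δ - (Rr K M : ℤ) ^ (k + 1) * s2| := by
      rw [abs_sub_comm]
      exact abs_sub_abs_le_abs_sub _ _
    have h3 : (Rr K M : ℤ) ^ (k + 1) = Y * (1 + M * (32 * 4 ^ K)) := by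
      rw [pow_succ, ← hY]
      unfold Rr
      push_cast
      ring
    have hU : (1:ℤ) ≤ 4 ^ K := one_le_pow₀ (by norm_num)
    have hRpos : (0:ℤ) < Y * (1 + M * (32 * 4 ^ K)) := by positivity
    have h4 : Y * (1 + M * (32 * 4 ^ K)) ≤ |(Rr K M : ℤ) ^ (k + 1) * s2| := by
      rw [h3, abs_mul, abs_of_pos hRpos]
      exact le_mul_of_one_le_right hRpos.le h1
    have h5 : |P * δ| ≤ (4 * M + 1) * (2 * Y) * (2 * 4 ^ K) := by
      rw [abs_mul, abs_of_pos hPpos]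
      exact mul_le_mul hP2 hδK.le (abs_nonneg _) (by positivity)
    have h6 : 2 * (Y * M) + (4 * M + 1) * (2 * Y) * (2 * 4 ^ K)
        < Y * (1 + M * (32 * 4 ^ K)) := by
      have h7 : 2 * M + (4 * M + 1) * 2 * (2 * 4 ^ K) < (1 + M * (32 * 4 ^ K) : ℤ) := by
        nlinarith [mul_le_mul_of_nonneg_left hU hMz.le, mul_pos hMz (lt_of_lt_of_le one_pos hU)]
      nlinarith [mul_lt_mul_of_pos_left h7 hYpos]
    linarith

theorem delta (a b c d : ℕ) (ha : a < K) (hb : b < K) (hc : c < K) (hd : d < K) (hab : a ≠ b)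
    (hne : ¬ (a = c ∧ b = d)) : ((4:ℤ) ^ a - 4 ^ b) - (4 ^ c - 4 ^ d) ≠ 0 ∧
      |((4:ℤ) ^ a - 4 ^ b) - (4 ^ c - 4 ^ d)| < 2 * 4 ^ K := by
  have hp : ∀ i < K, (0:ℤ) < 4 ^ i ∧ (4:ℤ) ^ i < 4 ^ K := fun i hi =>
    ⟨by positivity, pow_lt_pow_right₀ (by norm_num) hi⟩
  refine ⟨fun h => hne (pow4 a b c d (by linarith) hab), ?_⟩
  obtain ⟨h1, h2⟩ := hp a ha
  obtain ⟨h3, h4⟩ := hp b hb
  obtain ⟨h5, h6⟩ := hp c hc
  obtain ⟨h7, h8⟩ := hp d hd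
  rw [abs_lt]
  constructor <;> linarith

theorem near_of (R k N n : ℕ) (h : n % R ^ (k + 1) < R ^ k * N ∨
    R ^ (k + 1) < n % R ^ (k + 1) + R ^ k * N) (hR : 0 < R) :
    ∃ s : ℤ, |(n:ℤ) - (R:ℤ) ^ (k + 1) * s| ≤ (R:ℤ) ^ k * N := by
  have e := Nat.mod_add_div n (R ^ (k + 1))
  have hlt := Nat.mod_lt n (Nat.pow_pos (n := k + 1) hR)
  have e' : (n:ℤ) = ((n % R ^ (k + 1) : ℕ) : ℤ) + (R:ℤ) ^ (k + 1) * ((n / R ^ (k + 1) : ℕ) : ℤ) := by
    exact_mod_cast e.symm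
  have hlt' : ((n % R ^ (k + 1) : ℕ) : ℤ) < (R:ℤ) ^ (k + 1) := by exact_mod_cast hlt
  have hnn : (0:ℤ) ≤ ((n % R ^ (k + 1) : ℕ) : ℤ) := Int.natCast_nonneg _
  rcases h with h | h
  · refine ⟨((n / R ^ (k + 1) : ℕ) : ℤ), ?_⟩
    have h' : ((n % R ^ (k + 1) : ℕ) : ℤ) < (R:ℤ) ^ k * N := by exact_mod_cast h
    rw [abs_le]
    constructor <;> linarith
  · refine ⟨((n / R ^ (k + 1) : ℕ) : ℤ) + 1, ?_⟩
    have h' : (R:ℤ) ^ (k + 1) < ((n % R ^ (k + 1) : ℕ) : ℤ) + (R:ℤ) ^ k * N := by exact_mod_cast h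
    rw [abs_le]
    constructor <;> linarith

theorem xx_sub (T a b : ℕ) (hb : xx K M m E b ≤ T) :
    ((T + xx K M m E a - xx K M m E b : ℕ) : ℤ) = T + (Jj K M m E : ℤ) * (4 ^ a - 4 ^ b) := by
  rw [Nat.cast_sub (by omega)]
  unfold xx
  push_cast
  ring

theorem thin (hM : 0 < M) (hm : 0 < m) (Ms : Finset ℕ)
    (hMs : ∀ k ∈ Ms, 2 * 4 ^ K + m < k ∧ Nat.Prime k ∧ k ∣ M)
    (T : ℕ) (hT : ∀ k < K, xx K M m E k ≤ T) (F : Finset (ℕ × ℕ))
    (hF : ∀ ab ∈ F, ab.1 < K ∧ ab.2 < K ∧ ab.1 ≠ ab.2 ∧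
      Bd m (Rr K M) M Ms (T + xx K M m E ab.1 - xx K M m E ab.2)) :
    F.card ≤ Ms.card + m := by
  classical
  let f : ℕ → Finset (ℕ × ℕ) := fun q =>
    F.filter fun ab => q ∣ T + xx K M m E ab.1 - xx K M m E ab.2
  let g : ℕ → Finset (ℕ × ℕ) := fun k =>
    F.filter fun ab => (T + xx K M m E ab.1 - xx K M m E ab.2) % Rr K M ^ (k + 1)
        < Rr K M ^ k * M ∨
      Rr K M ^ (k + 1) < (T + xx K M m E ab.1 - xx K M m E ab.2) % Rr K M ^ (k + 1)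
        + Rr K M ^ k * M
  have hsub : F ⊆ Ms.biUnion f ∪ (Finset.range m).biUnion g := by
    intro ab hab
    obtain ⟨-, -, -, h⟩ := hF ab hab
    rcases h with ⟨k, hk, h⟩ | ⟨k, hk1, hk2, h⟩
    · exact Finset.mem_union_left _ (Finset.mem_biUnion.2 ⟨k, hk, Finset.mem_filter.2 ⟨hab, h⟩⟩)
    · obtain ⟨k, rfl⟩ : ∃ k', k = k' + 1 := ⟨k - 1, by omega⟩
      exact Finset.mem_union_right _ (Finset.mem_biUnion.2
        ⟨k, Finset.mem_range.2 (by omega), Finset.mem_filter.2 ⟨hab, h⟩⟩)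
  have hf : ∀ q ∈ Ms, (f q).card ≤ 1 := by
    intro q hq
    obtain ⟨hq1, hq2, hq3⟩ := hMs q hq
    rw [Finset.card_le_one]
    intro ab hab cd hcd
    obtain ⟨h1, h2⟩ := Finset.mem_filter.1 hab
    obtain ⟨h3, h4⟩ := Finset.mem_filter.1 hcd
    obtain ⟨ha, hb, hne, -⟩ := hF ab h1
    obtain ⟨hc, hd, -, -⟩ := hF cd h3
    by_contra hcon
    have hδ := delta K ab.1 ab.2 cd.1 cd.2 ha hb hc hd hne
      (fun h => hcon (Prod.ext h.1 h.2))
    have h2' := Int.natCast_dvd_natCast.2 h2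
    have h4' := Int.natCast_dvd_natCast.2 h4
    rw [xx_sub K M m E T _ _ (hT _ hb)] at h2'
    rw [xx_sub K M m E T _ _ (hT _ hd)] at h4'
    have h5 := dvd_sub h2' h4'
    have e : ((T:ℤ) + (Jj K M m E : ℤ) * (4 ^ ab.1 - 4 ^ ab.2))
        - (T + (Jj K M m E : ℤ) * (4 ^ cd.1 - 4 ^ cd.2))
        = (Jj K M m E : ℤ) * (((4:ℤ) ^ ab.1 - 4 ^ ab.2) - (4 ^ cd.1 - 4 ^ cd.2)) := by ring
    rw [e] at h5
    refine prime_case K M m E q hq3 hq2 hm (by omega) _ hδ.1 (lt_trans hδ.2 ?_) h5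
    have : 2 * 4 ^ K < q := by omega
    exact_mod_cast this
  have hg : ∀ k ∈ Finset.range m, (g k).card ≤ 1 := by
    intro k hk
    rw [Finset.mem_range] at hk
    rw [Finset.card_le_one]
    intro ab hab cd hcd
    obtain ⟨h1, h2⟩ := Finset.mem_filter.1 hab
    obtain ⟨h3, h4⟩ := Finset.mem_filter.1 hcd
    obtain ⟨ha, hb, hne, -⟩ := hF ab h1
    obtain ⟨hc, hd, -, -⟩ := hF cd h3
    by_contra hcon
    have hδ := delta K ab.1 ab.2 cd.1 cd.2 ha hb hc hd hne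
      (fun h => hcon (Prod.ext h.1 h.2))
    have hRpos : 0 < Rr K M := by have := two_le_Rr K M hM; omega
    obtain ⟨s1, h2'⟩ := near_of _ _ _ _ h2 hRpos
    obtain ⟨s2, h4'⟩ := near_of _ _ _ _ h4 hRpos
    rw [xx_sub K M m E T _ _ (hT _ hb)] at h2'
    rw [xx_sub K M m E T _ _ (hT _ hd)] at h4'
    have hb' := band_case K M m E hM k hk _ hδ.1 hδ.2 (s1 - s2)
    have e : (Jj K M m E : ℤ) * (((4:ℤ) ^ ab.1 - 4 ^ ab.2) - (4 ^ cd.1 - 4 ^ cd.2))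
        - (Rr K M : ℤ) ^ (k + 1) * (s1 - s2)
        = ((T:ℤ) + (Jj K M m E : ℤ) * (4 ^ ab.1 - 4 ^ ab.2) - (Rr K M : ℤ) ^ (k + 1) * s1)
        - (T + (Jj K M m E : ℤ) * (4 ^ cd.1 - 4 ^ cd.2) - (Rr K M : ℤ) ^ (k + 1) * s2) := by ring
    rw [e] at hb'
    have h6 := abs_sub ((T:ℤ) + (Jj K M m E : ℤ) * (4 ^ ab.1 - 4 ^ ab.2) - (Rr K M : ℤ) ^ (k + 1) * s1) (T + (Jj K M m E : ℤ) * (4 ^ cd.1 - 4 ^ cd.2) - (Rr K M : ℤ) ^ (k + 1) * s2)
    linarith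
  calc F.card ≤ (Ms.biUnion f ∪ (Finset.range m).biUnion g).card := Finset.card_le_card hsub
    _ ≤ (Ms.biUnion f).card + ((Finset.range m).biUnion g).card := Finset.card_union_le _ _
    _ ≤ Ms.card * 1 + (Finset.range m).card * 1 := Nat.add_le_add
        (Finset.card_biUnion_le_card_mul _ _ _ hf) (Finset.card_biUnion_le_card_mul _ _ _ hg)
    _ = Ms.card + m := by rw [Finset.card_range]; ring

theorem xx_mono (hJ : 0 < Jj K M m E) (a b : ℕ) (h : a < b) : xx K M m E a < xx K M m E b :=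
  Nat.mul_lt_mul_of_pos_right (Nat.pow_lt_pow_right (by norm_num) h) hJ

theorem E_le (hM : 0 < M) : E ≤ Jj K M m E := by
  unfold Jj Tp
  have h : 0 < Rr K M := by have := two_le_Rr K M hM; omega
  have h2 : 0 < Rr K M ^ m * M := Nat.mul_pos (Nat.pow_pos h) hM
  exact (Nat.le_mul_of_pos_left E h2).trans (Nat.le_add_left _ _)

theorem spaced (hM : 0 < M) (a b c d : ℕ) (hab : a ≠ b)
    (hne : ¬ (a = c ∧ b = d)) :
    (E:ℤ) ≤ |((xx K M m E a : ℤ) - xx K M m E b) - ((xx K M m E c : ℤ) - xx K M m E d)| := by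
  have e : ((xx K M m E a : ℤ) - xx K M m E b) - ((xx K M m E c : ℤ) - xx K M m E d)
      = (Jj K M m E : ℤ) * (((4:ℤ) ^ a - 4 ^ b) - (4 ^ c - 4 ^ d)) := by
    unfold xx
    push_cast
    ring
  have h0 : ((4:ℤ) ^ a - 4 ^ b) - (4 ^ c - 4 ^ d) ≠ 0 :=
    fun h => hne (pow4 a b c d (by linarith) hab)
  rw [e, abs_mul, abs_of_nonneg (Int.natCast_nonneg _)]
  have h1 := Int.one_le_abs h0
  have h2 : (E:ℤ) ≤ Jj K M m E := by exact_mod_cast E_le K M m E hM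
  have h3 : (0:ℤ) ≤ Jj K M m E := Int.natCast_nonneg _
  exact h2.trans (le_mul_of_one_le_right h3 h1)

theorem Bd_per (Ms : Finset ℕ) (hMs : ∀ k ∈ Ms, k ∣ M) (R n : ℕ) :
    Bd m R M Ms (n + Tp R M m) ↔ Bd m R M Ms n := by
  unfold Bd
  have h1 : (∃ k ∈ Ms, k ∣ n + Tp R M m) ↔ ∃ k ∈ Ms, k ∣ n := by
    refine exists_congr fun k => and_congr_right fun hk => ?_
    have : k ∣ Tp R M m := (hMs k hk).trans (Dvd.intro_left _ rfl)
    exact (Nat.dvd_add_iff_left this).symm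
  rw [h1]
  refine or_congr Iff.rfl (exists_congr fun k => and_congr_right fun _ =>
    and_congr_right fun hk => ?_)
  obtain ⟨c, hc⟩ := dvd_Tp R M m hk
  rw [hc, Nat.add_mul_mod_self_left]

end

end Crest.Agent.R320.ThinCop_934
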