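import Crest.Agent.R320.Grid_899

/-!
Row 320: the ruler `c k = 2 ^ k * X` against the clean lengths of the grid gadget (helper143).
-/

set_option autoImplicit false

namespace Crest.Agent.R320.Thin_143

open Finset Crest.Agent.R320.Grid_899

/-- a length which is not clean -/
def BadT {k : ℕ} (m : ℕ) (q : Fin k → ℕ) (κ : ℕ) (T : ℕ) : Prop :=
  (∃ j, q j ∣ T) ∨ ∃ j, 1 ≤ j ∧ j ≤ m ∧
    ¬ ((∏ j, q j) * G κ (j - 1) ≤ (T - Am (∏ j, q j) κ j) % G κ j ∧
      (T - Am (∏ j, q j) κ j) % G κ j + (∏ j, q j) * G κ (j - 1) ≤ G κ j)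

/-- Sidon property of the powers of two -/
theorem sidon {k k' l l' : ℕ} (h : 2 ^ k' + 2 ^ l = 2 ^ l' + 2 ^ k) (hk : k' ≠ k) : k = l := by
  -- wlog on sizes
  by_contra hne
  have hlt : ∀ a b : ℕ, a < b → 2 ^ a * 2 ≤ 2 ^ b := fun a b hab => by
    rw [← pow_succ]; exact Nat.pow_le_pow_right (by norm_num) hab
  have hinj : ∀ a b : ℕ, 2 ^ a = 2 ^ b → a = b := fun a b hab =>
    Nat.pow_right_injective (le_refl 2) hab
  have p1 := Nat.two_pow_pos k
  have p2 := Nat.two_pow_pos l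
  have p3 := Nat.two_pow_pos k'
  have p4 := Nat.two_pow_pos l'
  rcases lt_trichotomy k l with h1 | h1 | h1
  · have a1 := hlt k l h1
    rcases lt_trichotomy l' l with h2 | h2 | h2
    · have a2 := hlt l' l h2
      -- 2^l' + 2^k ≤ 2^l < 2^k' + 2^l
      omega
    · subst h2
      have : 2 ^ k' = 2 ^ k := by omega
      exact hk (hinj _ _ this)
    · have a2 := hlt l l' h2
      rcases lt_trichotomy k' l' with h3 | h3 | h3
      · have a3 := hlt k' l' h3
        omega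
      · subst h3
        have : 2 ^ l = 2 ^ k := by omega
        exact hne (hinj _ _ this).symm
      · have a3 := hlt l' k' h3
        omega
  · exact hne h1
  · have a1 := hlt l k h1
    rcases lt_trichotomy k' k with h2 | h2 | h2
    · have a2 := hlt k' k h2
      omega
    · exact hk h2
    · have a2 := hlt k k' h2
      rcases lt_trichotomy k' l' with h3 | h3 | h3
      · have a3 := hlt k' l' h3
        omega
      · subst h3
        have : 2 ^ l = 2 ^ k := by omega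
        exact hne (hinj _ _ this).symm
      · have a3 := hlt l' k' h3
        omega

/-- the integer form of the Sidon property -/
theorem sidonZ {k k' l l' : ℕ}
    (h : ((2:ℤ) ^ k' + 2 ^ l) - (2 ^ l' + 2 ^ k) = 0) (hk : k' ≠ k) : k = l := by
  apply sidon (k' := k') (l' := l') _ hk
  have : (2:ℤ) ^ k' + 2 ^ l = 2 ^ l' + 2 ^ k := by linarith
  exact_mod_cast this

theorem ybound {K k k' l l' : ℕ} (hk : k < K) (hk' : k' < K) (hl : l < K) (hl' : l' < K) :
    |((2:ℤ) ^ k' + 2 ^ l) - (2 ^ l' + 2 ^ k)| < 2 ^ (K + 1) := by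
  have hb : ∀ a : ℕ, a < K → (2:ℤ) ^ a < 2 ^ K := fun a ha =>
    pow_lt_pow_right₀ (by norm_num) ha
  have hp : ∀ a : ℕ, (0:ℤ) < 2 ^ a := fun a => by positivity
  rw [abs_lt, pow_succ]
  have := hb k hk; have := hb k' hk'; have := hb l hl; have := hb l' hl'
  have := hp k; have := hp k'; have := hp l; have := hp l'
  constructor <;> linarith

/-- near a multiple of `G` -/
theorem near {T A D G : ℕ} (hA : A ≤ T) (hG : 0 < G)
    (h : ¬ (D ≤ (T - A) % G ∧ (T - A) % G + D ≤ G)) :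
    ∃ z : ℤ, |((T:ℤ) - A) - G * z| < D := by
  have h1 := Nat.mod_add_div (T - A) G
  have h2 := Nat.mod_lt (T - A) hG
  set r := (T - A) % G
  set w := (T - A) / G
  have h3 : ((T:ℤ) - A) = r + G * w := by
    have : ((T - A : ℕ) : ℤ) = (T:ℤ) - A := by push_cast [Nat.cast_sub hA]; ring
    rw [← this, ← h1]; push_cast; ring
  rw [h3]
  by_cases h4 : D ≤ r
  · have h5 : G < r + D := by
      by_contra h6
      exact h ⟨h4, by omega⟩
    refine ⟨w + 1, ?_⟩
    have e : (r:ℤ) + G * w - G * (w + 1) = r - G := by ring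
    rw [e, abs_lt]
    constructor
    · have : (G:ℤ) < r + D := by exact_mod_cast h5
      linarith
    · have a : (r:ℤ) < G := by exact_mod_cast h2
      have b : (0:ℤ) ≤ D := by positivity
      linarith
  · refine ⟨w, ?_⟩
    have e : (r:ℤ) + G * w - G * w = r := by ring
    rw [e, abs_lt]
    have a : (r:ℤ) < D := by exact_mod_cast (not_le.1 h4)
    have b : (0:ℤ) ≤ r := by positivity
    constructor <;> linarith

theorem castT {τ k k' p0 X K : ℕ} (hk : k < K) (hτ : 2 ^ K * X + p0 ≤ τ) :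
    ((τ + 2 ^ k' * X - 2 ^ k * X - p0 : ℕ) : ℤ) = τ + 2 ^ k' * X - 2 ^ k * X - p0 := by
  have h1 : 2 ^ k * X ≤ 2 ^ K * X := Nat.mul_le_mul_right _ (Nat.pow_le_pow_right (by norm_num) hk.le)
  have h2 : 2 ^ k * X ≤ τ + 2 ^ k' * X := by omega
  have h3 : p0 ≤ τ + 2 ^ k' * X - 2 ^ k * X := by omega
  rw [Nat.cast_sub h3, Nat.cast_sub h2]
  push_cast
  ring

set_option maxHeartbeats 2000000 in
theorem thin {r : ℕ} (m : ℕ) (q : Fin r → ℕ) (κ K X p0 τ : ℕ)
    (hq : ∀ j, 2 ^ (K + 1) < q j)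
    (hX1 : ∀ j, X % q j = 1)
    (hX2 : ∀ j, 1 ≤ j → j ≤ m → 2 * ((∏ j, q j) * G κ (j - 1)) < X % G κ j ∧
      2 ^ (K + 1) * (X % G κ j) + 2 * ((∏ j, q j) * G κ (j - 1)) < G κ j)
    (hτ : 2 ^ K * X + p0 + Am (∏ j, q j) κ m ≤ τ) (J : Finset ℕ)
    (hJ : ∀ k ∈ J, k < K ∧ ∃ k', k' < K ∧ k' ≠ k ∧
      BadT m q κ (τ + 2 ^ k' * X - 2 ^ k * X - p0)) : J.card ≤ r + m := by
  classical
  set Ms := ∏ j, q j with hMs
  let Cond : Fin r ⊕ Fin m → ℕ → Prop := fun i k => k < K ∧ ∃ k', k' < K ∧ k' ≠ k ∧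
    match i with
    | Sum.inl j => q j ∣ (τ + 2 ^ k' * X - 2 ^ k * X - p0)
    | Sum.inr j => ¬ (Ms * G κ j ≤ ((τ + 2 ^ k' * X - 2 ^ k * X - p0) - Am Ms κ (j + 1)) % G κ (j + 1) ∧
      ((τ + 2 ^ k' * X - 2 ^ k * X - p0) - Am Ms κ (j + 1)) % G κ (j + 1) + Ms * G κ j ≤ G κ (j + 1))
  have hex : ∀ k ∈ J, ∃ i, Cond i k := by
    intro k hk
    obtain ⟨hkK, k', hk', hne, hb⟩ := hJ k hk
    rcases hb with ⟨j, hj⟩ | ⟨j, hj1, hjm, hj⟩
    · exact ⟨Sum.inl j, hkK, k', hk', hne, hj⟩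
    · obtain ⟨j', rfl⟩ : ∃ j', j = j' + 1 := ⟨j - 1, by omega⟩
      exact ⟨Sum.inr ⟨j', by omega⟩, hkK, k', hk', hne, by simpa using hj⟩
  have hinj : ∀ i k l, Cond i k → Cond i l → k = l := by
    intro i k l hk hl
    obtain ⟨hkK, k', hk'K, hkne, hk3⟩ := hk
    obtain ⟨hlK, l', hl'K, hlne, hl3⟩ := hl
    have hyb := ybound hkK hk'K hlK hl'K
    set y : ℤ := ((2:ℤ) ^ k' + 2 ^ l) - (2 ^ l' + 2 ^ k) with hy
    have hτ' : 2 ^ K * X + p0 ≤ τ := by omega
    have c1 := castT (k' := k') hkK hτ'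
    have c2 := castT (k' := l') hlK hτ'
    set T1 := τ + 2 ^ k' * X - 2 ^ k * X - p0 with hT1
    set T2 := τ + 2 ^ l' * X - 2 ^ l * X - p0 with hT2
    have hdiff : (T1:ℤ) - T2 = y * X := by rw [c1, c2, hy]; ring
    apply sidonZ (k' := k') (l' := l') _ hkne
    show y = 0
    match i, hk3, hl3 with
    | Sum.inl j, hk3, hl3 =>
      have d1 : (q j : ℤ) ∣ T1 := by exact_mod_cast hk3
      have d2 : (q j : ℤ) ∣ T2 := by exact_mod_cast hl3
      have d3 : (q j : ℤ) ∣ y * X := by rw [← hdiff]; exact dvd_sub d1 d2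
      have d4 : (q j : ℤ) ∣ y := by
        have e1 : (X:ℤ) = 1 + q j * (X / q j : ℕ) := by
          have := Nat.mod_add_div X (q j)
          rw [hX1 j] at this
          exact_mod_cast this.symm
        have e2 : y = y * X - q j * (y * (X / q j : ℕ)) := by rw [e1]; push_cast; ring
        rw [e2]
        exact dvd_sub d3 (Dvd.intro _ rfl)
      refine Int.eq_zero_of_abs_lt_dvd d4 ?_
      have : (2:ℤ) ^ (K + 1) < q j := by exact_mod_cast hq j
      linarith
    | Sum.inr j, hk3, hl3 =>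
      have hjm : (j:ℕ) + 1 ≤ m := by omega
      obtain ⟨x1, x2⟩ := hX2 (j + 1) (by omega) hjm
      have hG : 0 < G κ ((j:ℕ) + 1) := G_pos _
      have hAm : Am Ms κ ((j:ℕ) + 1) ≤ Am Ms κ m := Am_mono hjm
      have hb1 : 2 ^ k * X ≤ 2 ^ K * X :=
        Nat.mul_le_mul_right _ (Nat.pow_le_pow_right (by norm_num) hkK.le)
      have hb2 : 2 ^ l * X ≤ 2 ^ K * X :=
        Nat.mul_le_mul_right _ (Nat.pow_le_pow_right (by norm_num) hlK.le)
      obtain ⟨z1, hz1⟩ := near (T := T1) (by omega) hG hk3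
      obtain ⟨z2, hz2⟩ := near (T := T2) (by omega) hG hl3
      simp only [Nat.add_sub_cancel] at x1 x2
      set Gj := G κ ((j:ℕ) + 1)
      set Dj := Ms * G κ (j:ℕ)
      set Xj := X % Gj
      have e1 : (X:ℤ) = Xj + Gj * (X / Gj : ℕ) := by
        have := Nat.mod_add_div X Gj
        exact_mod_cast this.symm
      have h3 : |y * Xj - Gj * (z1 - z2 - y * (X / Gj : ℕ))| < 2 * Dj := by
        have e2 : y * Xj - Gj * (z1 - z2 - y * (X / Gj : ℕ)) =
            (((T1:ℤ) - Am Ms κ ((j:ℕ) + 1)) - Gj * z1) -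
              (((T2:ℤ) - Am Ms κ ((j:ℕ) + 1)) - Gj * z2) := by
          have : (T1:ℤ) - T2 = y * (Xj + Gj * (X / Gj : ℕ)) := by rw [← e1]; exact hdiff
          linear_combination (-1) * this
        rw [e2]
        have := abs_sub (((T1:ℤ) - Am Ms κ ((j:ℕ) + 1)) - Gj * z1)
          (((T2:ℤ) - Am Ms κ ((j:ℕ) + 1)) - Gj * z2)
        linarith
      set w : ℤ := z1 - z2 - y * (X / Gj : ℕ)
      have hXj0 : (0:ℤ) ≤ Xj := by positivity
      have hyX : |y * Xj| ≤ 2 ^ (K + 1) * Xj := by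
        rw [abs_mul, abs_of_nonneg hXj0]
        exact mul_le_mul_of_nonneg_right hyb.le hXj0
      have x2' : (2:ℤ) ^ (K + 1) * Xj + 2 * Dj < Gj := by exact_mod_cast x2
      have x1' : (2:ℤ) * Dj < Xj := by exact_mod_cast x1
      have hw : w = 0 := by
        by_contra hne
        have h4 : (1:ℤ) ≤ |w| := Int.one_le_abs hne
        have h5 : |(Gj:ℤ) * w| ≤ |y * Xj| + |y * Xj - Gj * w| := by
          have := abs_sub (y * Xj) (y * Xj - Gj * w)
          have e : y * Xj - (y * Xj - Gj * w) = Gj * w := by ring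
          rw [e] at this
          exact this
        have h6 : (Gj:ℤ) ≤ |(Gj:ℤ) * w| := by
          rw [abs_mul, abs_of_nonneg (by positivity : (0:ℤ) ≤ Gj)]
          have h7 : (0:ℤ) ≤ Gj := by positivity
          have h8 : (Gj:ℤ) * 1 ≤ Gj * |w| := mul_le_mul_of_nonneg_left h4 h7
          linarith
        linarith
      rw [hw, mul_zero, sub_zero] at h3
      by_contra hne
      have h4 : (1:ℤ) ≤ |y| := Int.one_le_abs hne
      rw [abs_mul, abs_of_nonneg hXj0] at h3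
      have h5 : (1:ℤ) * Xj ≤ |y| * Xj := mul_le_mul_of_nonneg_right h4 hXj0
      linarith
  rcases J.eq_empty_or_nonempty with hJe | ⟨k0, hk0⟩
  · rw [hJe]; simp
  obtain ⟨i0, _⟩ := hex k0 hk0
  haveI : Nonempty (Fin r ⊕ Fin m) := ⟨i0⟩
  choose! f hf using hex
  have hcard : J.card ≤ (Finset.univ : Finset (Fin r ⊕ Fin m)).card := by
    refine Finset.card_le_card_of_injOn f (fun _ _ => Finset.mem_univ _) ?_
    intro a ha b hb hab
    have h1 := hf a ha
    have h2 := hf b hb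
    rw [hab] at h1
    exact hinj _ _ _ h1 h2
  simpa using hcard

/-- spacing of the differences -/
theorem spaced {K X N1 k k' l l' : ℕ} (hX : 2 * N1 ≤ X) (hX0 : 0 < X) (hkk : k' ≠ k)
    (h1 : 2 ^ k * X + 2 ^ l' * X < 2 ^ l * X + 2 ^ k' * X + 2 * N1)
    (h2 : 2 ^ l * X + 2 ^ k' * X < 2 ^ k * X + 2 ^ l' * X + 2 * N1) : k = l := by
  apply sidonZ (k' := k') (l' := l') _ hkk
  set y : ℤ := ((2:ℤ) ^ k' + 2 ^ l) - (2 ^ l' + 2 ^ k) with hy
  have a1 : -(2 * (N1:ℤ)) < y * X := by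
    have : (2:ℤ) ^ k * X + 2 ^ l' * X < 2 ^ l * X + 2 ^ k' * X + 2 * N1 := by exact_mod_cast h1
    rw [hy]; linarith
  have a2 : y * X < 2 * (N1:ℤ) := by
    have : (2:ℤ) ^ l * X + 2 ^ k' * X < 2 ^ k * X + 2 ^ l' * X + 2 * N1 := by exact_mod_cast h2
    rw [hy]; linarith
  have hX' : 2 * (N1:ℤ) ≤ X := by exact_mod_cast hX
  have hX0' : (0:ℤ) < X := by exact_mod_cast hX0
  by_contra hne
  rcases lt_or_gt_of_ne hne with h | h
  · have : y ≤ -1 := by omega
    nlinarith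
  · have : 1 ≤ y := by omega
    nlinarith

end Crest.Agent.R320.Thin_143
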