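import Crest.Agent.R320.Hk1_851

/-!
# Row 320: thread calculus in automaton form (helper285)

A "thread" is a run of a finite deterministic automaton (state = content of the current zone and
token).  `C` = the cut states.  A word `p` *synchronizes* `C` if all states of `C` go to one state.
Junction of a thread = place where the state lies in `C` and the next `n` letters synchronize `C`.
The words which synchronize `C` into `C` are closed under concatenation, so stars of such words are
always sound.  `step`: if the junction-free parts are computed with height `h`, everything is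
computed with height `h + 1`.
-/

set_option autoImplicit false

namespace Crest.Agent.R320.Thr_285

open Crest.RegLang Crest.Agent.R320.Hk_851

universe u

variable {α : Type u} {σ : Type*} {h : ℕ}

/-- the run of a transition function along a word -/
def run (δ : σ → α → σ) (s : σ) (w : List α) : σ := w.foldl δ s

@[simp] theorem run_nil (δ : σ → α → σ) (s : σ) : run δ s [] = s := rfl

@[simp] theorem run_append (δ : σ → α → σ) (s : σ) (u v : List α) :
    run δ s (u ++ v) = run δ (run δ s u) v := List.foldl_append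

@[simp] theorem run_cons (δ : σ → α → σ) (s : σ) (a : α) (v : List α) :
    run δ s (a :: v) = run δ (δ s a) v := rfl

/-- all cut states go to `t` (or fail) -/
def Sync (δ : σ → α → σ) (bad : Set σ) (C : Set σ) (p : List α) (t : σ) : Prop :=
  ∀ c ∈ C, run δ c p = t ∨ run δ c p ∈ bad

/-- the thread of `s` along `w` has no junction (window `n`) -/
def NoJ (δ : σ → α → σ) (bad : Set σ) (C : Set σ) (n : ℕ) (s : σ) (w : List α) : Prop :=
  ∀ x p y t, w = x ++ p ++ y → p.length = n → run δ s x ∈ C →
    run δ s (x ++ p) = t → ¬ Sync δ bad C p t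

/-- `F` is sound (up to failure) -/
def Sound (δ : σ → α → σ) (bad : Set σ) (F : σ → σ → Language α) : Prop :=
  ∀ s t u, u ∈ F s t → run δ s u = t ∨ run δ s u ∈ bad

/-- `F` is complete on the promise `P` -/
def Complete (δ : σ → α → σ) (P : σ → List α → Prop) (F : σ → σ → Language α) : Prop :=
  ∀ s u, P s u → u ∈ F s (run δ s u)

/-- computed with height `h`: sound everywhere up to failure, complete on `P` -/
def Comp (h : ℕ) (δ : σ → α → σ) (bad : Set σ) (P : σ → List α → Prop) : Prop :=
  ∃ F : σ → σ → Language α, (∀ s t, HL h (F s t)) ∧ Sound δ bad F ∧ Complete δ P F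

theorem Comp.mono {h k : ℕ} (hk : h ≤ k) {δ : σ → α → σ} {bad : Set σ} {P : σ → List α → Prop}
    (H : Comp h δ bad P) : Comp k δ bad P := by
  obtain ⟨F, h1, h2, h3⟩ := H
  exact ⟨F, fun s t => (h1 s t).mono hk, h2, h3⟩

theorem Comp.weaken {δ : σ → α → σ} {bad : Set σ} {P Q : σ → List α → Prop}
    (hPQ : ∀ s u, Q s u → P s u) (H : Comp h δ bad P) : Comp h δ bad Q := by
  obtain ⟨F, h1, h2, h3⟩ := H
  exact ⟨F, h1, h2, fun s u hq => h3 s u (hPQ s u hq)⟩

/-- union of two promises -/
theorem Comp.or {δ : σ → α → σ} {bad : Set σ} {P Q : σ → List α → Prop}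
    (H : Comp h δ bad P) (H' : Comp h δ bad Q) : Comp h δ bad (fun s u => P s u ∨ Q s u) := by
  obtain ⟨F, h1, h2, h3⟩ := H
  obtain ⟨G, g1, g2, g3⟩ := H'
  refine ⟨fun s t => F s t + G s t, fun s t => (h1 s t).add (g1 s t), ?_, ?_⟩
  · rintro s t u (hu | hu)
    · exact h2 s t u hu
    · exact g2 s t u hu
  · rintro s u (hu | hu)
    · exact Or.inl (h3 s u hu)
    · exact Or.inr (g3 s u hu)

/-- short words -/
theorem comp_short [Finite α] (δ : σ → α → σ) (bad : Set σ) (l : ℕ) :
    Comp h δ bad (fun _ u => u.length < l) := by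
  refine ⟨fun s t => {u | u.length < l ∧ run δ s u = t}, fun s t => ?_, ?_, ?_⟩
  · exact HL.finite ((List.finite_length_lt α l).subset fun v hv => hv.1)
  · intro s t u hu; exact Or.inl hu.2
  · intro s u hu; exact ⟨hu, rfl⟩

section StepLemma

variable [Finite α] [Finite σ]

/-- the pieces of the star -/
def Kp (δ : σ → α → σ) (bad : Set σ) (C : Set σ) (n : ℕ) (F : σ → σ → Language α) : Language α :=
  {u | ∃ p ∈ {p : List α | p.length = n}, ∃ t, ∃ c, (Sync δ bad C p t ∧ c ∈ C) ∧
    u ∈ (({p} : Language α) * F t c)}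

/-- the last piece -/
def Bp (δ : σ → α → σ) (bad : Set σ) (C : Set σ) (n : ℕ) (F : σ → σ → Language α) (t' : σ) :
    Language α :=
  {u | ∃ p ∈ {p : List α | p.length = n}, ∃ t, Sync δ bad C p t ∧
    u ∈ (({p} : Language α) * F t t')}

/-- the first piece -/
def Ap (C : Set σ) (F : σ → σ → Language α) (s : σ) : Language α :=
  {u | ∃ c, c ∈ C ∧ u ∈ F s c}

theorem HL_Kp {δ : σ → α → σ} {bad C : Set σ} {n : ℕ} {F : σ → σ → Language α}
    (hF : ∀ s t, HL h (F s t)) : HL h (Kp δ bad C n F) := by
  refine HL.biUnion (List.finite_length_eq α n) fun p _ => ?_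
  refine HL.iUnion fun t => ?_
  refine HL.iUnion fun c => ?_
  exact (HL.const _).setOf_and ((HL.word p).mul (hF t c))

theorem HL_Bp {δ : σ → α → σ} {bad C : Set σ} {n : ℕ} {F : σ → σ → Language α}
    (hF : ∀ s t, HL h (F s t)) (t' : σ) : HL h (Bp δ bad C n F t') := by
  refine HL.biUnion (List.finite_length_eq α n) fun p _ => ?_
  refine HL.iUnion fun t => ?_
  exact (HL.const _).setOf_and ((HL.word p).mul (hF t t'))

omit [Finite α] in
theorem HL_Ap {C : Set σ} {F : σ → σ → Language α}
    (hF : ∀ s t, HL h (F s t)) (s : σ) : HL h (Ap C F s) := by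
  refine HL.iUnion fun c => ?_
  exact (HL.const _).setOf_and (hF s c)

end StepLemma

/-- the failure states are absorbing -/
def Absorb (δ : σ → α → σ) (bad : Set σ) : Prop := ∀ s ∈ bad, ∀ a, δ s a ∈ bad

theorem Absorb.run {δ : σ → α → σ} {bad : Set σ} (hb : Absorb δ bad) :
    ∀ (u : List α) (s : σ), s ∈ bad → run δ s u ∈ bad := by
  intro u
  induction u with
  | nil => intro s hs; exact hs
  | cons a u ih => intro s hs; exact ih _ (hb s hs a)

theorem kp_sound {δ : σ → α → σ} {bad C : Set σ} {n : ℕ} {F : σ → σ → Language α}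
    (hb : Absorb δ bad) (hS : Sound δ bad F) {u : List α} (hu : u ∈ Kp δ bad C n F) {s : σ}
    (hs : s ∈ C ∨ s ∈ bad) : run δ s u ∈ C ∨ run δ s u ∈ bad := by
  obtain ⟨p, -, t, c, ⟨hp, hc⟩, hu⟩ := hu
  obtain ⟨p', hp', r, hr, rfl⟩ := Language.mem_mul.1 hu
  rw [Set.mem_singleton_iff.1 hp', run_append]
  rcases hs with hs | hs
  · rcases hp s hs with h1 | h1
    · rw [h1]
      rcases hS t c r hr with h2 | h2
      · rw [h2]; exact Or.inl hc
      · exact Or.inr h2
    · exact Or.inr (hb.run _ _ h1)
  · exact Or.inr (hb.run _ _ (hb.run _ _ hs))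

theorem kstar_sound {δ : σ → α → σ} {bad C : Set σ} {n : ℕ} {F : σ → σ → Language α}
    (hb : Absorb δ bad) (hS : Sound δ bad F) {u : List α}
    (hu : u ∈ KStar.kstar (Kp δ bad C n F)) {s : σ}
    (hs : s ∈ C ∨ s ∈ bad) : run δ s u ∈ C ∨ run δ s u ∈ bad := by
  obtain ⟨S, rfl, hS'⟩ := Language.mem_kstar.1 hu
  clear hu
  induction S generalizing s with
  | nil => exact hs
  | cons x S ih =>
    rw [List.flatten_cons, run_append]
    exact ih (kp_sound hb hS (hS' x (List.mem_cons_self ..)) hs)
      (fun y hy => hS' y (List.mem_cons_of_mem _ hy))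

/-- first junction -/
theorem first_junction {δ : σ → α → σ} {bad C : Set σ} {n : ℕ} (hn : 0 < n) {s : σ}
    {w : List α} (hw : ¬ NoJ δ bad C n s w) :
    ∃ x p y, w = x ++ p ++ y ∧ p.length = n ∧ run δ s x ∈ C ∧
      Sync δ bad C p (run δ s (x ++ p)) ∧ NoJ δ bad C n s x := by
  classical
  have hex : ∃ k : ℕ, ∃ x p y, x.length = k ∧ w = x ++ p ++ y ∧ p.length = n ∧ run δ s x ∈ C ∧
      Sync δ bad C p (run δ s (x ++ p)) := by
    unfold NoJ at hw
    push Not at hw
    obtain ⟨x, p, y, t, h1, h2, h3, h4, h5⟩ := hw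
    exact ⟨_, x, p, y, rfl, h1, h2, h3, by rw [h4]; exact h5⟩
  obtain ⟨x, p, y, h0, h1, h2, h3, h4⟩ := Nat.find_spec hex
  refine ⟨x, p, y, h1, h2, h3, h4, ?_⟩
  intro x' p' y' t' e1 e2 e3 e4 e5
  have hlt : x'.length < Nat.find hex := by
    rw [← h0, e1]
    simp only [List.length_append]
    omega
  refine Nat.find_min hex hlt ⟨x', p', y' ++ p ++ y, rfl, ?_, e2, e3, by rw [e4]; exact e5⟩
  rw [h1, e1]
  simp only [List.append_assoc]

/-- the promise is closed under parts of the path -/
def SubClosed (δ : σ → α → σ) (P : σ → List α → Prop) : Prop :=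
  ∀ s x y z, P s (x ++ y ++ z) → P (run δ s x) y

/-- **STEP LEMMA.** -/
theorem step [Finite α] [Finite σ] {δ : σ → α → σ} {bad C : Set σ} {n : ℕ} (hn : 0 < n)
    (hb : Absorb δ bad) {P : σ → List α → Prop} (hP : SubClosed δ P)
    (H : Comp h δ bad (fun s u => P s u ∧ NoJ δ bad C n s u)) :
    Comp (h + 1) δ bad P := by
  obtain ⟨F, hF, hS, hC⟩ := H
  have hK : HL (h + 1) (KStar.kstar (Kp δ bad C n F)) := (HL_Kp hF).star
  refine ⟨fun s t => F s t + Ap C F s * KStar.kstar (Kp δ bad C n F) * Bp δ bad C n F t,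
    fun s t => ?_, ?_, ?_⟩
  · exact ((hF s t).mono (Nat.le_succ h)).add
      ((((HL_Ap hF s).mono (Nat.le_succ h)).mul hK).mul ((HL_Bp hF t).mono (Nat.le_succ h)))
  · rintro s t u (hu | hu)
    · exact hS s t u hu
    · obtain ⟨ak, hak, b, hb', rfl⟩ := Language.mem_mul.1 hu
      obtain ⟨a, ⟨c, hc, ha⟩, k, hk, rfl⟩ := Language.mem_mul.1 hak
      obtain ⟨p, -, t', hp, hb'⟩ := hb'
      obtain ⟨p', hp', r, hr, rfl⟩ := Language.mem_mul.1 hb'
      rw [Set.mem_singleton_iff.1 hp', run_append, run_append, run_append]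
      have h1 : run δ s a ∈ C ∨ run δ s a ∈ bad := by
        rcases hS s c a ha with h1 | h1
        · rw [h1]; exact Or.inl hc
        · exact Or.inr h1
      rcases kstar_sound hb hS hk h1 with h2 | h2
      · rcases hp _ h2 with h3 | h3
        · rw [h3]; exact hS t' t r hr
        · exact Or.inr (hb.run _ _ h3)
      · exact Or.inr (hb.run _ _ (hb.run _ _ h2))
  · -- completeness
    have main : ∀ (m : ℕ) (y : List α), y.length ≤ m → ∀ (p : List α) (t : σ), p.length = n →
        Sync δ bad C p t → P t y →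
        p ++ y ∈ KStar.kstar (Kp δ bad C n F) * Bp δ bad C n F (run δ t y) := by
      intro m
      induction m with
      | zero =>
        intro y hy p t hp hsync hPy
        have hy0 : y = [] := List.length_eq_zero_iff.1 (Nat.le_zero.1 hy)
        subst hy0
        have hno : NoJ δ bad C n t [] := by
          intro x p' y' t' e1 e2 e3 e4 e5
          have : p'.length = 0 := by
            have := congrArg List.length e1
            simp only [List.length_nil, List.length_append] at this
            omega
          omega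
        refine Language.mem_mul.2 ⟨[], Language.nil_mem_kstar _, p ++ [], ?_, rfl⟩
        exact ⟨p, hp, t, hsync, Language.mem_mul.2 ⟨p, rfl, [], hC t [] ⟨hPy, hno⟩, rfl⟩⟩
      | succ m ih =>
        intro y hy p t hp hsync hPy
        by_cases hno : NoJ δ bad C n t y
        · refine Language.mem_mul.2 ⟨[], Language.nil_mem_kstar _, p ++ y, ?_, rfl⟩
          exact ⟨p, hp, t, hsync, Language.mem_mul.2 ⟨p, rfl, y, hC t y ⟨hPy, hno⟩, rfl⟩⟩
        · obtain ⟨x2, p2, y2, e1, e2, e3, e4, e5⟩ := first_junction hn hno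
          have hPx : P t x2 := by
            have := hP t [] x2 (p2 ++ y2) (by
              simp only [List.nil_append]; rw [← List.append_assoc, ← e1]; exact hPy)
            simpa using this
          have hPy2 : P (run δ t (x2 ++ p2)) y2 := by
            refine hP t (x2 ++ p2) y2 [] ?_
            rw [List.append_nil, ← e1]; exact hPy
          have hlen : y2.length ≤ m := by
            have := congrArg List.length e1
            simp only [List.length_append] at this
            omega
          have h2 := ih y2 hlen p2 (run δ t (x2 ++ p2)) e2 e4 hPy2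
          have h1 : p ++ x2 ∈ Kp δ bad C n F :=
            ⟨p, hp, t, run δ t x2, ⟨hsync, e3⟩,
              Language.mem_mul.2 ⟨p, rfl, x2, hC t x2 ⟨hPx, e5⟩, rfl⟩⟩
          obtain ⟨k, hk, b, hb', hkb⟩ := Language.mem_mul.1 h2
          have hfin : run δ (run δ t (x2 ++ p2)) y2 = run δ t y := by
            rw [e1]; simp only [run_append]
          rw [hfin] at hb'
          refine Language.mem_mul.2 ⟨(p ++ x2) ++ k, ?_, b, hb', ?_⟩
          · obtain ⟨S, rfl, hS'⟩ := Language.mem_kstar.1 hk
            refine Language.mem_kstar.2 ⟨(p ++ x2) :: S, by simp, ?_⟩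
            intro z hz
            rcases List.mem_cons.1 hz with rfl | hz
            · exact h1
            · exact hS' z hz
          · rw [e1]
            simp only [List.append_assoc]
            rw [hkb]
    intro s w hPw
    by_cases hno : NoJ δ bad C n s w
    · exact Or.inl (hC s w ⟨hPw, hno⟩)
    · obtain ⟨x, p, y, e1, e2, e3, e4, e5⟩ := first_junction hn hno
      have hPx : P s x := by
        have := hP s [] x (p ++ y) (by
          simp only [List.nil_append]; rw [← List.append_assoc, ← e1]; exact hPw)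
        simpa using this
      have hPy : P (run δ s (x ++ p)) y := by
        refine hP s (x ++ p) y [] ?_
        rw [List.append_nil, ← e1]; exact hPw
      have h2 := main y.length y le_rfl p (run δ s (x ++ p)) e2 e4 hPy
      have hfin : run δ (run δ s (x ++ p)) y = run δ s w := by
        rw [e1]; simp only [run_append]
      rw [hfin] at h2
      obtain ⟨k, hk, b, hb', hkb⟩ := Language.mem_mul.1 h2
      refine Or.inr (Language.mem_mul.2 ⟨x ++ k, Language.mem_mul.2
        ⟨x, ⟨run δ s x, e3, hC s x ⟨hPx, e5⟩⟩, k, hk, rfl⟩, b, hb', ?_⟩)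
      rw [e1]
      simp only [List.append_assoc]
      rw [hkb]

end Crest.Agent.R320.Thr_285
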