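import Crest.Agent.R320.Hgt1_903

/-!
# Row 320, thread calculus (helper391)

A `Scheme` follows a chain of anchors through a text (`nxt`), moves the value of a token zone by
zone (`act`), and has junctions: `ll P = some ω` (left word: content `P` from the anchor to the
place, the token with value `ω` at the anchor is cut), `rl Q = some (d, ω')` (right word: text `Q`
right of the place, the next anchor is at distance `d` and the value there is `ω'`).
EXACT: both legal => the two sides agree.  `one_level`: certificates for uncut stretches in `H j`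
give certificates for all threads in `H (j+1)`.
-/

set_option autoImplicit false

namespace Crest.Agent.R320.Thr1_391

open Crest.RegLang Crest.Agent.R320.Hgt1_903

universe u v

variable {α : Type u} {Ω : Type v}

/-- chain rule, zone action, junction labels -/
structure Scheme (α : Type u) (Ω : Type v) where
  nxt : List α → Option ℕ
  act : List α → Ω → Ω
  ll : List α → Option Ω
  rl : List α → Option (ℕ × Ω)

/-- locality: margin `n` behind an anchor, left views of length at most `p`, right labels look at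
most `D` letters ahead -/
structure Scheme.Local (S : Scheme α Ω) (n p D : ℕ) : Prop where
  nxt_pos : ∀ V T, S.nxt V = some T → 0 < T
  nxt_len : ∀ V T, S.nxt V = some T → T + n ≤ V.length
  nxt_append : ∀ V X T, S.nxt V = some T → S.nxt (V ++ X) = some T
  act_append : ∀ V X T, S.nxt V = some T → S.act (V ++ X) = S.act V
  nxt_of_append : ∀ V X T, S.nxt (V ++ X) = some T → T + n ≤ V.length → S.nxt V = some T
  rl_len : ∀ Q r, S.rl Q = some r → r.1 + n ≤ Q.length
  rl_bound : ∀ Q r, S.rl Q = some r → r.1 ≤ D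
  rl_append : ∀ Q X r, S.rl Q = some r → S.rl (Q ++ X) = some r
  rl_of_append : ∀ Q X r, S.rl (Q ++ X) = some r → r.1 + n ≤ Q.length → S.rl Q = some r
  ll_len : ∀ P ω, S.ll P = some ω → n ≤ P.length
  ll_bound : ∀ P ω, S.ll P = some ω → P.length ≤ p

/-- the thread through `(V, ω)` reaches `(U, ω')`, every zone on the way satisfies `C` -/
inductive Run (S : Scheme α Ω) (C : List α → Ω → Prop) : List α → Ω → List α → Ω → Prop
  | refl (V : List α) (ω : Ω) : Run S C V ω V ω
  | step {V : List α} {ω : Ω} {T : ℕ} {U : List α} {ω' : Ω} (h : S.nxt V = some T) (hC : C V ω)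
      (hr : Run S C (V.drop T) (S.act V ω) U ω') : Run S C V ω U ω'

/-- the zone at `(V, ω)` is cut -/
def Cut (S : Scheme α Ω) (V : List α) (ω : Ω) : Prop :=
  ∃ j, j ≤ V.length ∧ S.ll (V.take j) = some ω ∧ ∃ r, S.rl (V.drop j) = some r

/-- exactness of all legal junctions -/
def Exact (S : Scheme α Ω) : Prop :=
  ∀ P Q ω r, S.ll P = some ω → S.rl Q = some r →
    S.nxt (P ++ Q) = some (P.length + r.1) ∧ S.act (P ++ Q) ω = r.2

variable {S : Scheme α Ω} {C C' : List α → Ω → Prop}

theorem drop_app (a b : List α) (m : ℕ) (h : a.length = m) : (a ++ b).drop m = b := by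
  subst h; exact List.drop_left

theorem Run.mono (h : ∀ V ω, C V ω → C' V ω) {V ω U ω'} (hr : Run S C V ω U ω') :
    Run S C' V ω U ω' := by
  induction hr with
  | refl V ω => exact .refl V ω
  | step h1 h2 _ ih => exact .step h1 (h _ _ h2) ih

theorem Run.trans {V ω U ω' W ω''} (h1 : Run S C V ω U ω') (h2 : Run S C U ω' W ω'') :
    Run S C V ω W ω'' := by
  induction h1 with
  | refl V ω => exact h2
  | step a b _ ih => exact .step a b (ih h2)

theorem Run.suffix {V ω U ω'} (h : Run S C V ω U ω') : ∃ W, V = W ++ U := by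
  induction h with
  | refl V ω => exact ⟨[], rfl⟩
  | @step V ω T U ω' _ _ _ ih =>
    obtain ⟨W, hW⟩ := ih
    exact ⟨V.take T ++ W, by rw [List.append_assoc, ← hW, List.take_append_drop]⟩

theorem Run.length_le {V ω U ω'} (h : Run S C V ω U ω') : U.length ≤ V.length := by
  obtain ⟨W, rfl⟩ := h.suffix
  simp

theorem Run.append {n p D : ℕ} (hl : S.Local n p D)
    (hC : ∀ V X ω T, S.nxt V = some T → C V ω → C (V ++ X) ω) {V ω U ω'}
    (h : Run S C V ω U ω') (X : List α) : Run S C (V ++ X) ω (U ++ X) ω' := by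
  induction h with
  | refl V ω => exact .refl _ _
  | @step V ω T U ω' h1 h2 _ ih =>
    refine .step (hl.nxt_append V X T h1) (hC V X ω T h1 h2) ?_
    have hT : T ≤ V.length := le_trans (Nat.le_add_right _ _) (hl.nxt_len V T h1)
    rw [List.drop_append_of_le_length hT, hl.act_append V X T h1]
    exact ih

/-- truncation -/
theorem Run.trunc {n p D : ℕ} (hl : S.Local n p D)
    (hC : ∀ V X ω T, S.nxt V = some T → C (V ++ X) ω → C V ω) {V₁ ω U₁ ω'}
    (h : Run S C V₁ ω U₁ ω') : ∀ V U X : List α, V₁ = V ++ X → U₁ = U ++ X → n ≤ U.length →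
      Run S C V ω U ω' := by
  induction h with
  | refl V₁ ω =>
    intro V U X h1 h2 _
    have : V = U := List.append_cancel_right (h1.symm.trans h2)
    subst this
    exact .refl _ _
  | @step V₁ ω T U₁ ω' h1 h2 hr ih =>
    intro V U X e1 e2 hn
    have hlen := hr.length_le
    rw [e2, e1, List.length_drop, List.length_append, List.length_append] at hlen
    have hT0 := hl.nxt_pos _ _ h1
    have hT1 := hl.nxt_len _ _ h1
    have hT : T + n ≤ V.length := by
      rw [e1, List.length_append] at hT1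
      omega
    have hV : S.nxt V = some T := hl.nxt_of_append V X T (e1 ▸ h1) hT
    refine .step hV (hC V X ω T hV (e1 ▸ h2)) ?_
    have ha : S.act V₁ = S.act V := by rw [e1]; exact hl.act_append V X T hV
    rw [← ha]
    refine ih (V.drop T) U X ?_ e2 hn
    rw [e1, List.drop_append_of_le_length (by omega)]

/-- joining at a junction -/
theorem Run.join {n p D : ℕ} (hl : S.Local n p D) (he : Exact S) {V ω P₁ ω₁ t r P ω'}
    (h1 : Run S (fun _ _ => True) V ω P₁ ω₁) (h2 : S.ll P₁ = some ω₁) (h3 : S.rl t = some r)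
    (h4 : Run S (fun _ _ => True) (t.drop r.1) r.2 P ω') :
    Run S (fun _ _ => True) (V ++ t) ω P ω' := by
  refine (h1.append hl (fun _ _ _ _ _ _ => trivial) t).trans ?_
  obtain ⟨e1, e2⟩ := he P₁ t ω₁ r h2 h3
  refine .step e1 trivial ?_
  have : (P₁ ++ t).drop (P₁.length + r.1) = t.drop r.1 := by
    rw [← List.drop_drop, List.drop_left]
  rw [e2, this]
  exact h4

/-- first cut zone -/
theorem Run.first_cut {n p D : ℕ} (hl : S.Local n p D) (he : Exact S)
    (hC : ∀ V X ω T, S.nxt V = some T → C (V ++ X) ω → C V ω) {V ω P ω'}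
    (h : Run S C V ω P ω') :
    Run S (fun V ω => C V ω ∧ ¬ Cut S V ω) V ω P ω' ∨
    ∃ (u t : List α) (P₁ : List α) (ω₁ : Ω) (r : ℕ × Ω), V = u ++ t ∧ S.ll P₁ = some ω₁ ∧
      Run S (fun V ω => C V ω ∧ ¬ Cut S V ω) u ω P₁ ω₁ ∧ S.rl t = some r ∧
      Run S C (t.drop r.1) r.2 P ω' ∧ (t.drop r.1).length < V.length := by
  classical
  induction h with
  | refl V ω => exact Or.inl (.refl _ _)
  | @step V ω T U ω' h1 h2 hr ih =>
    by_cases hcut : Cut S V ω
    · right
      obtain ⟨j, hj, hll, r, hrl⟩ := hcut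
      obtain ⟨e1, e2⟩ := he _ _ _ _ hll hrl
      rw [List.take_append_drop] at e1 e2
      rw [List.length_take, Nat.min_eq_left hj] at e1
      have hT : T = j + r.1 := by
        have := h1.symm.trans e1
        simpa using this
      have hT0 := hl.nxt_pos _ _ h1
      have hT1 := hl.nxt_len _ _ h1
      refine ⟨V.take j, V.drop j, V.take j, ω, r, (List.take_append_drop j V).symm, hll,
        .refl _ _, hrl, ?_, ?_⟩
      · rw [List.drop_drop, ← hT, ← e2]
        exact hr
      · rw [List.drop_drop, List.length_drop]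
        omega
    · have hT0 := hl.nxt_pos _ _ h1
      have hT1 := hl.nxt_len _ _ h1
      rcases ih with ih | ⟨u, t, P₁, ω₁, r, e, hll, hu, hrl, ht, hlt⟩
      · exact Or.inl (.step h1 ⟨h2, hcut⟩ ih)
      · right
        have hV : V = (V.take T ++ u) ++ t := by
          rw [List.append_assoc, ← e, List.take_append_drop]
        have hlenT : (V.take T).length = T := by
          rw [List.length_take]; omega
        have hu1 : n ≤ u.length := (hl.ll_len _ _ hll).trans hu.length_le
        have hnx : S.nxt (V.take T ++ u) = some T := by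
          refine hl.nxt_of_append (V.take T ++ u) t T (hV ▸ h1) ?_
          rw [List.length_append, hlenT]; omega
        have hact : S.act V = S.act (V.take T ++ u) := by
          conv_lhs => rw [hV]
          exact hl.act_append _ t T hnx
        refine ⟨V.take T ++ u, t, P₁, ω₁, r, hV, hll, ?_, hrl, ht, ?_⟩
        · refine .step hnx ⟨hC _ t ω T hnx (hV ▸ h2), ?_⟩ ?_
          · rintro ⟨j, hj, a, r', b⟩
            refine hcut ⟨j, ?_, ?_, r', ?_⟩
            · rw [hV, List.length_append]; omega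
            · rw [hV, List.take_append_of_le_length hj]; exact a
            · rw [hV, List.drop_append_of_le_length hj]; exact hl.rl_append _ _ _ b
          · rw [← hact]
            rw [drop_app _ _ _ hlenT]; exact hu
        · simp only [List.length_drop] at hlt ⊢
          omega

/-- words which start at a place: right label, then certified to `(P, ω')` -/
def Tl (S : Scheme α Ω) (L : Ω → Ω → List α → Language α) (P : List α) (ω' : Ω) : Language α :=
  {k | ∃ r, S.rl k = some r ∧ k.drop r.1 ∈ L r.2 ω' P}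

/-- junction words -/
def Kw (S : Scheme α Ω) (L : Ω → Ω → List α → Language α) : Language α :=
  {k | ∃ P ω, S.ll P = some ω ∧ k ∈ Tl S L P ω}

/-- the next level -/
def Up (S : Scheme α Ω) (L : Ω → Ω → List α → Language α) (ω ω' : Ω) (P : List α) : Language α :=
  {V | V ∈ L ω ω' P ∨ ∃ u k t, u ++ k ++ t = V ∧ u ∈ ({u | ∃ P₁ ω₁, S.ll P₁ = some ω₁ ∧
    u ∈ L ω ω₁ P₁} : Language α) ∧ k ∈ (KStar.kstar (Kw S L) : Language α) ∧ t ∈ Tl S L P ω'}

theorem Up.sound {n p D : ℕ} (hl : S.Local n p D) (he : Exact S)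
    {L : Ω → Ω → List α → Language α}
    (hs : ∀ ω ω' P V, V ∈ L ω ω' P → Run S (fun _ _ => True) V ω P ω')
    {ω ω' P V} (hV : V ∈ Up S L ω ω' P) : Run S (fun _ _ => True) V ω P ω' := by
  rcases hV with h | ⟨u, k, t, rfl, ⟨P₁, ω₁, hll, hu⟩, hk, r, hr, ht⟩
  · exact hs _ _ _ _ h
  · have key : ∀ ks : List (List α), (∀ x ∈ ks, x ∈ Kw S L) → ∃ r', S.rl (ks.flatten ++ t) = some r' ∧
        Run S (fun _ _ => True) ((ks.flatten ++ t).drop r'.1) r'.2 P ω' := by
      intro ks
      induction ks with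
      | nil => intro _; exact ⟨r, by simpa using hr, by simpa using hs _ _ _ _ ht⟩
      | cons x ks ih =>
        intro hx
        obtain ⟨r₁, h1, h2⟩ := ih fun y hy => hx y (List.mem_cons_of_mem _ hy)
        obtain ⟨P₂, ω₂, hll2, r₂, h3, h4⟩ := hx x List.mem_cons_self
        refine ⟨r₂, ?_, ?_⟩
        · rw [List.flatten_cons, List.append_assoc]
          exact hl.rl_append _ _ _ h3
        · have hlen : r₂.1 ≤ x.length := le_trans (Nat.le_add_right _ _) (hl.rl_len _ _ h3)
          rw [List.flatten_cons, List.append_assoc, List.drop_append_of_le_length hlen]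
          exact Run.join hl he (hs _ _ _ _ h4) hll2 h1 h2
    obtain ⟨ks, rfl, hks⟩ := Language.mem_kstar.1 hk
    obtain ⟨r', h1, h2⟩ := key ks hks
    rw [List.append_assoc]
    exact Run.join hl he (hs _ _ _ _ hu) hll h1 h2

theorem Up.complete {n p D : ℕ} (hl : S.Local n p D) (he : Exact S)
    {C : List α → Ω → Prop}
    (hC : ∀ V X ω T, S.nxt V = some T → C (V ++ X) ω → C V ω)
    {L : Ω → Ω → List α → Language α}
    (hs : ∀ ω ω' P V, V ∈ L ω ω' P → Run S (fun _ _ => True) V ω P ω')
    (hc : ∀ ω ω' P V, n ≤ P.length → Run S (fun V ω => C V ω ∧ ¬ Cut S V ω) V ω P ω' →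
      V ∈ L ω ω' P) :
    ∀ N V ω P ω', V.length ≤ N → n ≤ P.length → Run S C V ω P ω' → V ∈ Up S L ω ω' P := by
  intro N
  induction N with
  | zero =>
    intro V ω P ω' hN hn h
    rcases h.first_cut hl he hC with h1 | ⟨u, t, P₁, ω₁, r, e, hll, hu, hrl, ht, hlt⟩
    · exact Or.inl (hc _ _ _ _ hn h1)
    · omega
  | succ N ih =>
    intro V ω P ω' hN hn h
    rcases h.first_cut hl he hC with h1 | ⟨u, t, P₁, ω₁, r, e, hll, hu, hrl, ht, hlt⟩
    · exact Or.inl (hc _ _ _ _ hn h1)
    · have hn1 := hl.ll_len _ _ hll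
      have huL : u ∈ L ω ω₁ P₁ := hc _ _ _ _ hn1 hu
      rcases ih _ _ _ _ (by omega) hn ht with h2 | ⟨u₂, k, t₂, e2, ⟨P₂, ω₂, hll2, hu2⟩, hk, ht2⟩
      · right
        refine ⟨u, [], t, by simp [e], ⟨P₁, ω₁, hll, huL⟩, ?_, r, hrl, h2⟩
        exact Language.mem_kstar.2 ⟨[], rfl, by simp⟩
      · right
        have hd : t = t.take r.1 ++ (u₂ ++ k ++ t₂) := by
          rw [e2, List.take_append_drop]
        have htl : (t.take r.1).length = r.1 := by
          have := hl.rl_len _ _ hrl
          rw [List.length_take]; omega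
        have hu2r := (hs _ _ _ _ hu2)
        have hn2 : n ≤ u₂.length := (hl.ll_len _ _ hll2).trans hu2r.length_le
        have hrl2 : S.rl (t.take r.1 ++ u₂) = some r := by
          refine hl.rl_of_append (t.take r.1 ++ u₂) (k ++ t₂) r ?_ ?_
          · rw [List.append_assoc, ← List.append_assoc u₂, ← hd]; exact hrl
          · rw [List.length_append, htl]; omega
        obtain ⟨ks, rfl, hks⟩ := Language.mem_kstar.1 hk
        refine ⟨u, (t.take r.1 ++ u₂) ++ ks.flatten, t₂, ?_, ⟨P₁, ω₁, hll, huL⟩, ?_, ht2⟩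
        · rw [e]
          conv_rhs => rw [hd]
          simp [List.append_assoc]
        · refine Language.mem_kstar.2 ⟨(t.take r.1 ++ u₂) :: ks, by simp, ?_⟩
          intro y hy
          rcases List.mem_cons.1 hy with rfl | hy
          · refine ⟨P₂, ω₂, hll2, r, hrl2, ?_⟩
            rw [drop_app _ _ _ htl]; exact hu2
          · exact hks y hy

theorem H.exists_bdd [Finite α] [Finite Ω] {j p : ℕ} (f : List α → Ω → Language α)
    (h : ∀ P ω, H j (f P ω)) :
    H j ({w | ∃ P ω, P.length ≤ p ∧ w ∈ f P ω} : Language α) := by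
  haveI : Finite {P : List α // P.length ≤ p} := (List.finite_length_le α p).to_subtype
  refine H.congr (H.exists_fintype (ι := {P : List α // P.length ≤ p} × Ω)
    (fun i => f i.1.1 i.2) fun i => h _ _) fun w => ?_
  constructor
  · rintro ⟨⟨⟨P, hP⟩, ω⟩, h⟩; exact ⟨P, ω, hP, h⟩
  · rintro ⟨P, ω, hP, h⟩; exact ⟨⟨⟨P, hP⟩, ω⟩, h⟩

theorem Tl.height [Finite α] [Finite Ω] {n p D j : ℕ} (hl : S.Local n p D)
    {L : Ω → Ω → List α → Language α} (hH : ∀ ω ω' P, H j (L ω ω' P)) (P : List α) (ω' : Ω) :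
    H j (Tl S L P ω') := by
  have h1 : ∀ i : Fin (D + 1) × Ω, H j ({k | S.rl (k.take (i.1.1 + n)) = some (i.1.1, i.2) ∧
      ∃ a b, a ++ b = k ∧ a.length = i.1.1 ∧ b ∈ L i.2 ω' P} : Language α) := by
    intro i
    refine H.inter (H.prefixWindow j (i.1.1 + n) fun w => S.rl w = some (i.1.1, i.2))
      (H.cat (L := {a | a.length = i.1.1}) (H.bounded j i.1.1 fun w hw => le_of_eq hw)
        (hH i.2 ω' P))
  refine H.congr (H.exists_fintype _ h1) fun w => ?_
  constructor
  · rintro ⟨⟨⟨d, hd⟩, ω⟩, h2, a, b, rfl, ha, hb⟩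
    simp only at h2 ha hb
    refine ⟨(d, ω), ?_, ?_⟩
    · conv_lhs => rw [← List.take_append_drop (d + n) (a ++ b)]
      exact hl.rl_append _ _ _ h2
    · simp only
      rw [drop_app _ _ _ ha]; exact hb
  · rintro ⟨⟨d, ω⟩, h2, h3⟩
    have hd := hl.rl_bound _ _ h2
    have hlen := hl.rl_len _ _ h2
    simp only at hd hlen h3
    refine ⟨(⟨d, by omega⟩, ω), ?_, w.take d, w.drop d, List.take_append_drop _ _, ?_, h3⟩
    · simp only
      refine hl.rl_of_append (w.take (d + n)) (w.drop (d + n)) (d, ω) ?_ ?_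
      · rw [List.take_append_drop]; exact h2
      · rw [List.length_take]; simp only; omega
    · simp only [List.length_take]; omega

theorem Kw.height [Finite α] [Finite Ω] {n p D j : ℕ} (hl : S.Local n p D)
    {L : Ω → Ω → List α → Language α} (hH : ∀ ω ω' P, H j (L ω ω' P)) : H j (Kw S L) := by
  refine H.congr (H.exists_bdd (p := p)
    (fun P ω => ({k | S.ll P = some ω ∧ k ∈ Tl S L P ω} : Language α))
    fun P ω => H.inter (H.const j (S.ll P = some ω)) (Tl.height hl hH P ω)) fun w => ?_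
  constructor
  · rintro ⟨P, ω, -, h1, h2⟩; exact ⟨P, ω, h1, h2⟩
  · rintro ⟨P, ω, h1, h2⟩; exact ⟨P, ω, hl.ll_bound _ _ h1, h1, h2⟩

theorem Up.height [Finite α] [Finite Ω] {n p D j : ℕ} (hl : S.Local n p D)
    {L : Ω → Ω → List α → Language α} (hH : ∀ ω ω' P, H j (L ω ω' P)) (ω ω' : Ω) (P : List α) :
    H (j + 1) (Up S L ω ω' P) := by
  have h1 : H (j + 1) ({u | ∃ P₁ ω₁, S.ll P₁ = some ω₁ ∧ u ∈ L ω ω₁ P₁} : Language α) := by
    refine H.congr (H.exists_bdd (p := p)
      (fun P₁ ω₁ => ({k | S.ll P₁ = some ω₁ ∧ k ∈ L ω ω₁ P₁} : Language α))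
      fun P₁ ω₁ => H.inter (H.const (j + 1) (S.ll P₁ = some ω₁))
        ((hH _ _ _).mono (Nat.le_succ j))) fun w => ?_
    constructor
    · rintro ⟨P, ω, -, h1, h2⟩; exact ⟨P, ω, h1, h2⟩
    · rintro ⟨P, ω, h1, h2⟩; exact ⟨P, ω, hl.ll_bound _ _ h1, h1, h2⟩
  exact H.union ((hH _ _ _).mono (Nat.le_succ j))
    (H.factor h1 (H.star (Kw.height hl hH)) ((Tl.height hl hH P ω').mono (Nat.le_succ j)))

/-- **ONE LEVEL.**  Certificates for uncut stretches in `H j` give certificates, sound on every
text and complete on all threads whose zones lie in the class `C`, in `H (j+1)`. -/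
theorem one_level [Finite α] [Finite Ω] {n p D j : ℕ} (hl : S.Local n p D) (he : Exact S)
    {C : List α → Ω → Prop}
    (hC : ∀ V X ω T, S.nxt V = some T → C (V ++ X) ω → C V ω)
    (L : Ω → Ω → List α → Language α) (hH : ∀ ω ω' P, H j (L ω ω' P))
    (hs : ∀ ω ω' P V, V ∈ L ω ω' P → Run S (fun _ _ => True) V ω P ω')
    (hc : ∀ ω ω' P V, n ≤ P.length → Run S (fun V ω => C V ω ∧ ¬ Cut S V ω) V ω P ω' →
      V ∈ L ω ω' P) :
    ∃ L' : Ω → Ω → List α → Language α, (∀ ω ω' P, H (j + 1) (L' ω ω' P)) ∧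
      (∀ ω ω' P V, V ∈ L' ω ω' P → Run S (fun _ _ => True) V ω P ω') ∧
      (∀ ω ω' P V, n ≤ P.length → Run S C V ω P ω' → V ∈ L' ω ω' P) :=
  ⟨Up S L, fun ω ω' P => Up.height hl hH ω ω' P, fun _ _ _ _ h => Up.sound hl he hs h,
    fun ω ω' P V hn h => Up.complete hl he hC hs hc V.length V ω P ω' le_rfl hn h⟩

/-- the same for an exact scheme which cuts every token in every zone of the class: height 1 -/
theorem height_one [Finite α] [Finite Ω] {n p D : ℕ} (hl : S.Local n p D) (he : Exact S)
    {C : List α → Ω → Prop}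
    (hC : ∀ V X ω T, S.nxt V = some T → C (V ++ X) ω → C V ω)
    (hcut : ∀ V ω, C V ω → Cut S V ω) :
    ∃ L' : Ω → Ω → List α → Language α, (∀ ω ω' P, H 1 (L' ω ω' P)) ∧
      (∀ ω ω' P V, V ∈ L' ω ω' P → Run S (fun _ _ => True) V ω P ω') ∧
      (∀ ω ω' P V, n ≤ P.length → Run S C V ω P ω' → V ∈ L' ω ω' P) := by
  refine one_level (j := 0) hl he hC (fun ω ω' P => {V | V = P ∧ ω = ω'}) ?_ ?_ ?_
  · intro ω ω' P
    refine H.bounded 0 P.length ?_
    rintro w ⟨rfl, -⟩
    exact le_rfl
  · rintro ω ω' P V ⟨rfl, rfl⟩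
    exact .refl _ _
  · intro ω ω' P V _ h
    cases h with
    | refl => exact ⟨rfl, rfl⟩
    | step h1 h2 _ => exact (h2.2 (hcut _ _ h2.1)).elim

end Crest.Agent.R320.Thr1_391
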