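import Crest.Agent.R320.FF1_903

/-!
Thread calculus: one star level.

`Tr w i` is the outcome of the token `i` on the word `w`.  `Rg t = some ρ` says that the right word `t`
is right-legal with right label `ρ`; `G t ρ` is the outcome of a thread which restarts at the beginning
of `t` with label `ρ`.  `P i` are the words from the start to a left-legal place which cuts token `i`,
`K` the cut-to-cut words (of any length), `S o` the words from the last cut to the end with outcome `o`,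
`B i o` the words without a cut.  `Good` is the promise (closed under suffixes).
-/

set_option autoImplicit false

namespace Crest.Agent.R320.Thr1_903

open Crest.RegLang Crest.Agent.R320.Hgt1_903 Crest.Agent.R320.FF1_903

variable {α : Type*} {I O Ρ : Type*}

/-- soundness of a star of cut-to-cut words. -/
theorem star_sound (Good : List α → Prop) (hGood : ∀ u t, Good (u ++ t) → Good t)
    (Rg : List α → Option Ρ) (G : List α → Ρ → O) (K : Language α)
    (sK : ∀ m t, Good (m ++ t) → m ∈ K → ∀ ρ', Rg t = some ρ' →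
      ∃ ρ, Rg (m ++ t) = some ρ ∧ G (m ++ t) ρ = G t ρ') :
    ∀ k ∈ KStar.kstar K, ∀ t, Good (k ++ t) → ∀ ρ', Rg t = some ρ' →
      ∃ ρ, Rg (k ++ t) = some ρ ∧ G (k ++ t) ρ = G t ρ' := by
  intro k hk
  obtain ⟨L, rfl, hL⟩ := Language.mem_kstar.1 hk
  clear hk
  induction L with
  | nil => intro t _ ρ' h; exact ⟨ρ', by simpa using h, by simp⟩
  | cons m L ih =>
    intro t hg ρ' h
    rw [List.flatten_cons, List.append_assoc] at hg ⊢
    obtain ⟨ρ₁, h₁, e₁⟩ := ih (fun y hy => hL y (List.mem_cons_of_mem _ hy)) t (hGood _ _ hg) ρ' h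
    obtain ⟨ρ, h₂, e₂⟩ := sK m _ hg (hL m List.mem_cons_self) ρ₁ h₁
    exact ⟨ρ, h₂, e₂.trans e₁⟩

/-- completeness: greedy parsing of the right word. -/
theorem star_complete (Good : List α → Prop) (hGood : ∀ u t, Good (u ++ t) → Good t)
    (Rg : List α → Option Ρ) (G : List α → Ρ → O) (K : Language α) (S : O → Language α)
    (sK : ∀ m t, Good (m ++ t) → m ∈ K → ∀ ρ', Rg t = some ρ' →
      ∃ ρ, Rg (m ++ t) = some ρ ∧ G (m ++ t) ρ = G t ρ')
    (cR : ∀ r, Good r → ∀ ρ, Rg r = some ρ →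
      r ∈ S (G r ρ) ∨ ∃ m t, m ++ t = r ∧ m ≠ [] ∧ m ∈ K ∧ (Rg t).isSome) :
    ∀ (l : ℕ) (r : List α), r.length = l → Good r → ∀ ρ, Rg r = some ρ →
      ∃ k s, k ++ s = r ∧ k ∈ KStar.kstar K ∧ s ∈ S (G r ρ) := by
  intro l
  induction l using Nat.strong_induction_on with
  | _ l ih =>
    intro r hl hg ρ hρ
    rcases cR r hg ρ hρ with h | ⟨m, t, rfl, hm, hmK, ht⟩
    · exact ⟨[], r, rfl, Language.nil_mem_kstar K, h⟩
    · obtain ⟨ρ', hρ'⟩ := Option.isSome_iff_exists.1 ht
      obtain ⟨ρ₁, h₁, e₁⟩ := sK m t hg hmK ρ' hρ'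
      have : ρ₁ = ρ := by
        rw [hρ] at h₁
        exact (Option.some.inj h₁).symm
      subst this
      have hlt : t.length < l := by
        rw [← hl, List.length_append]
        have := List.length_pos_of_ne_nil hm
        omega
      obtain ⟨k, s, rfl, hk, hs⟩ := ih t.length hlt t rfl (hGood _ _ hg) ρ' hρ'
      refine ⟨m ++ k, s, by rw [List.append_assoc], ?_, ?_⟩
      · obtain ⟨L, rfl, hL⟩ := Language.mem_kstar.1 hk
        refine Language.mem_kstar.2 ⟨m :: L, by rw [List.flatten_cons], ?_⟩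
        intro y hy
        rcases List.mem_cons.1 hy with rfl | hy
        · exact hmK
        · exact hL y hy
      · rw [e₁]; exact hs

/-- ONE STAR LEVEL. -/
theorem level {n : ℕ} (Good : List α → Prop) (hGood : ∀ u t, Good (u ++ t) → Good t)
    (Tr : List α → I → O) (Rg : List α → Option Ρ) (G : List α → Ρ → O)
    (P : I → Language α) (K : Language α) (S : O → Language α) (B : I → O → Language α)
    (hP : ∀ i, H (n + 1) (P i)) (hK : H n K) (hS : ∀ o, H (n + 1) (S o))
    (hB : ∀ i o, H (n + 1) (B i o))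
    (sB : ∀ w, Good w → ∀ i o, w ∈ B i o → Tr w i = o)
    (sP : ∀ u t, Good (u ++ t) → ∀ i, u ∈ P i → ∀ ρ, Rg t = some ρ → Tr (u ++ t) i = G t ρ)
    (sS : ∀ t, Good t → ∀ o, t ∈ S o → ∃ ρ, Rg t = some ρ ∧ G t ρ = o)
    (sK : ∀ m t, Good (m ++ t) → m ∈ K → ∀ ρ', Rg t = some ρ' →
      ∃ ρ, Rg (m ++ t) = some ρ ∧ G (m ++ t) ρ = G t ρ')
    (cW : ∀ w, Good w → ∀ i, w ∈ B i (Tr w i) ∨ ∃ u t, u ++ t = w ∧ u ∈ P i ∧ (Rg t).isSome)
    (cR : ∀ r, Good r → ∀ ρ, Rg r = some ρ →
      r ∈ S (G r ρ) ∨ ∃ m t, m ++ t = r ∧ m ≠ [] ∧ m ∈ K ∧ (Rg t).isSome) :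
    ∃ R : I → O → Language α, (∀ i o, H (n + 1) (R i o)) ∧
      ∀ w, Good w → ∀ i o, (w ∈ R i o ↔ Tr w i = o) := by
  refine ⟨fun i o => {w | w ∈ B i o ∨ w ∈ ({w | ∃ u v, u ++ v = w ∧ u ∈ P i ∧
    v ∈ ({w | ∃ u v, u ++ v = w ∧ u ∈ KStar.kstar K ∧ v ∈ S o} : Language α)} : Language α)},
    fun i o => H.union (hB i o) (H.cat (hP i) (H.cat hK.star (hS o))), ?_⟩
  intro w hw i o
  change (w ∈ B i o ∨ ∃ u v, u ++ v = w ∧ u ∈ P i ∧ ∃ k s, k ++ s = v ∧ k ∈ KStar.kstar K ∧ s ∈ S o)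
    ↔ Tr w i = o
  constructor
  · rintro (h | ⟨u, _, rfl, hu, k, s, rfl, hk, hs⟩)
    · exact sB w hw i o h
    · obtain ⟨ρ', h', e'⟩ := sS s (hGood _ _ (hGood _ _ hw)) o hs
      obtain ⟨ρ, h, e⟩ := star_sound Good hGood Rg G K sK k hk s (hGood _ _ hw) ρ' h'
      rw [sP u (k ++ s) hw i hu ρ h, e, e']
  · rintro rfl
    rcases cW w hw i with h | ⟨u, t, rfl, hu, ht⟩
    · exact Or.inl h
    · right
      obtain ⟨ρ, hρ⟩ := Option.isSome_iff_exists.1 ht
      obtain ⟨k, s, rfl, hk, hs⟩ :=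
        star_complete Good hGood Rg G K S sK cR t.length t rfl (hGood _ _ hw) ρ hρ
      refine ⟨u, k ++ s, rfl, hu, k, s, rfl, hk, ?_⟩
      rw [sP u (k ++ s) hw i hu ρ hρ]
      exact hs

/-- From outcomes of all tokens to the whole map `Tr w`. -/
theorem level_map {n : ℕ} [Finite I] (Good : List α → Prop) (Tr : List α → I → O)
    (R : I → O → Language α) (hR : ∀ i o, H n (R i o))
    (hs : ∀ w, Good w → ∀ i o, (w ∈ R i o ↔ Tr w i = o)) (f : I → O) :
    ∃ L : Language α, H n L ∧ ∀ w, Good w → (w ∈ L ↔ Tr w = f) := by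
  refine ⟨{w | ∀ i, w ∈ R i (f i)}, H.forall_fintype _ fun i => hR i (f i), fun w hw => ?_⟩
  change (∀ i, w ∈ R i (f i)) ↔ Tr w = f
  constructor
  · intro h; funext i; exact (hs w hw i (f i)).1 (h i)
  · intro h i; exact (hs w hw i (f i)).2 (congrFun h i)

/-- If `Tr w` determines `φ w` (common noise: the linear part), `φ` is computed at the same level. -/
theorem level_phi {n : ℕ} [Finite I] [Finite O] {M : Type*} (Good : List α → Prop)
    (Tr : List α → I → O) (R : I → O → Language α) (hR : ∀ i o, H n (R i o))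
    (hs : ∀ w, Good w → ∀ i o, (w ∈ R i o ↔ Tr w i = o))
    (φ : List α → M) (lin : (I → O) → M) (hφ : ∀ w, Good w → φ w = lin (Tr w)) (g : M) :
    ∃ L : Language α, H n L ∧ ∀ w, Good w → (w ∈ L ↔ φ w = g) := by
  choose L hL hL' using level_map Good Tr R hR hs
  haveI : Finite (I → O) := Pi.finite
  refine ⟨{w | ∃ f : I → O, w ∈ ({w | lin f = g ∧ w ∈ L f} : Language α)},
    H.exists_fintype _ fun f => H.inter (H.const n _) (hL f), fun w hw => ?_⟩
  change (∃ f : I → O, lin f = g ∧ w ∈ L f) ↔ φ w = g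
  rw [hφ w hw]
  constructor
  · rintro ⟨f, hf, h⟩; rw [(hL' f w hw).1 h]; exact hf
  · intro h; exact ⟨Tr w, h, (hL' _ w hw).2 rfl⟩

/-- `Solves n Good φ`: the finite valued function `φ` is computed at level `n` on good words. -/
def Solves {M : Type*} (n : ℕ) (Good : List α → Prop) (φ : List α → M) : Prop :=
  ∃ R : M → Language α, (∀ g, H n (R g)) ∧ ∀ w, Good w → ∀ g, (w ∈ R g ↔ φ w = g)

theorem Solves.mono {M : Type*} {n m : ℕ} (h : n ≤ m) {Good : List α → Prop} {φ : List α → M}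
    (hs : Solves n Good φ) : Solves m Good φ := by
  obtain ⟨R, hR, hs⟩ := hs
  exact ⟨R, fun g => (hR g).mono h, hs⟩

theorem Solves.weaken {M : Type*} {n : ℕ} {Good Good' : List α → Prop} {φ : List α → M}
    (hs : Solves n Good φ) (h : ∀ w, Good' w → Good w) : Solves n Good' φ := by
  obtain ⟨R, hR, hs⟩ := hs
  exact ⟨R, hR, fun w hw => hs w (h w hw)⟩

theorem Solves.comp {M N : Type*} [Finite M] {n : ℕ} {Good : List α → Prop} {φ : List α → M}
    (hs : Solves n Good φ) (f : M → N) : Solves n Good (fun w => f (φ w)) := by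
  obtain ⟨R, hR, hs⟩ := hs
  refine ⟨fun g => {w | ∃ x : M, w ∈ ({w | f x = g ∧ w ∈ R x} : Language α)},
    fun g => H.exists_fintype _ fun x => H.inter (H.const n _) (hR x), fun w hw g => ?_⟩
  change (∃ x, f x = g ∧ w ∈ R x) ↔ f (φ w) = g
  constructor
  · rintro ⟨x, hx, h⟩; rw [(hs w hw x).1 h]; exact hx
  · intro h; exact ⟨φ w, h, (hs w hw _).2 rfl⟩

theorem Solves.pi {ι : Type*} [Finite ι] {M : ι → Type*} {n : ℕ} {Good : List α → Prop}
    {φ : ∀ i, List α → M i} (hs : ∀ i, Solves n Good (φ i)) :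
    Solves n Good (fun w i => φ i w) := by
  choose R hR hs using hs
  refine ⟨fun g => {w | ∀ i, w ∈ R i (g i)}, fun g => H.forall_fintype _ fun i => hR i (g i),
    fun w hw g => ?_⟩
  change (∀ i, w ∈ R i (g i)) ↔ (fun i => φ i w) = g
  constructor
  · intro h; funext i; exact (hs i w hw (g i)).1 (h i)
  · intro h i; exact (hs i w hw (g i)).2 (congrFun h i)

/-- An exact (promise-free) solution on the live words of a machine, from a promise solution:
the first-failure lemma in `Solves` form. -/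
theorem Solves.live {σ : Type*} [Finite σ] {n : ℕ} (run : List α → σ) (dead : σ → Prop)
    (hs : Solves n (LiveP run dead) run) (E : σ → Prop) :
    H n ({w | Live run dead w ∧ E (run w)} : Language α) := by
  obtain ⟨R, hR, hs⟩ := hs
  refine H.congr (H.exists_fintype (fun s => ({w | E s ∧ w ∈ ({w | Live run dead w ∧ run w = s} :
    Language α)} : Language α)) fun s => H.inter (H.const n _)
      (live_state_H run dead R hR hs s)) fun w => ?_
  change (∃ s, E s ∧ Live run dead w ∧ run w = s) ↔ (Live run dead w ∧ E (run w))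
  constructor
  · rintro ⟨s, hE, hl, rfl⟩; exact ⟨hl, hE⟩
  · rintro ⟨hl, hE⟩; exact ⟨_, hE, hl, rfl⟩

end Crest.Agent.R320.Thr1_903
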