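import Crest.Agent.R320.Thr1_285
import Crest.Agent.R320.Hk2_851

/-!
# Row 320: thread calculus, part 2 (helper285)

* `exact_of_nonfail`: failure (leaving the promise) is removed by a Boolean combination and one
  product, no extra star;
* `sim`: if threads of `B` compute the threads of `A`, `Comp` passes from `B` to `A`;
* `three_level`: the nesting of three schemes.
-/

set_option autoImplicit false

namespace Crest.Agent.R320.Thr_285

open Crest.RegLang Crest.Agent.R320.Hk_851

universe u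

variable {α : Type u} {h : ℕ}

/-- **FAILURE REMOVAL.**  If a family is sound up to failure and complete on all non-failing
threads, then there is a family of the same height which is exact on non-failing targets. -/
theorem exact_of_nonfail [Finite α] {σ : Type*} [Finite σ] {δ : σ → α → σ} {bad : Set σ}
    (hb : Absorb δ bad) (H : Comp h δ bad (fun s u => run δ s u ∉ bad)) :
    ∃ G : σ → σ → Language α, (∀ s t, HL h (G s t)) ∧
      ∀ s t u, s ∉ bad → t ∉ bad → (u ∈ G s t ↔ run δ s u = t) := by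
  classical
  obtain ⟨F, hF, hS, hC⟩ := H
  -- words of a thread which fails
  let Y : σ → Language α := fun s =>
    {u | ∃ s', ∃ a : α, (s' ∉ bad ∧ δ s' a ∈ bad) ∧
      u ∈ (F s s' * (({[a]} : Language α) * (⊤ : Language α)))}
  have hY : ∀ s, HL h (Y s) := by
    intro s
    refine HL.iUnion fun s' => ?_
    refine HL.iUnion fun a => ?_
    exact (HL.const _).setOf_and ((hF s s').mul ((HL.char a).mul HL.top))
  refine ⟨fun s t => F s t \ Y s, fun s t => (hF s t).sdiff (hY s), ?_⟩
  intro s t u hs ht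
  constructor
  · rintro ⟨h1, h2⟩
    rcases hS s t u h1 with h3 | h3
    · exact h3
    · exfalso
      -- first failure
      have key : ∀ (u : List α) (s : σ), s ∉ bad → run δ s u ∈ bad →
          ∃ x a y, u = x ++ a :: y ∧ run δ s x ∉ bad ∧ δ (run δ s x) a ∈ bad := by
        intro u
        induction u with
        | nil => intro s hs h; exact (hs h).elim
        | cons a u ih =>
          intro s hs h
          by_cases h' : δ s a ∈ bad
          · exact ⟨[], a, u, rfl, hs, h'⟩
          · obtain ⟨x, b, y, e, e1, e2⟩ := ih (δ s a) h' h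
            exact ⟨a :: x, b, y, by rw [e]; rfl, e1, e2⟩
      obtain ⟨x, a, y, e, e1, e2⟩ := key u s hs h3
      apply h2
      refine ⟨run δ s x, a, ⟨e1, e2⟩, ?_⟩
      rw [e]
      refine Language.mem_mul.2 ⟨x, hC s x e1, a :: y, ?_, rfl⟩
      exact Language.mem_mul.2 ⟨[a], rfl, y, trivial, rfl⟩
  · intro h1
    have hnf : run δ s u ∉ bad := by rw [h1]; exact ht
    refine ⟨by have := hC s u hnf; rwa [h1] at this, ?_⟩
    rintro ⟨s', a, ⟨hs', ha⟩, hu⟩
    obtain ⟨x, hx, ay, hay, rfl⟩ := Language.mem_mul.1 hu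
    obtain ⟨a', ha', y, -, rfl⟩ := Language.mem_mul.1 hay
    rw [Set.mem_singleton_iff.1 ha', run_append, run_append] at hnf
    apply hnf
    refine hb.run _ _ ?_
    rcases hS s s' x hx with h3 | h3
    · rw [h3]; exact ha
    · exact hb.run _ _ h3

/-- **SIMULATION.**  Threads of `B` (started at `β s i`, `i : ι`) compute the thread of `A`:
decoding `f` is allowed to say "don't know". -/
theorem sim {σA σB ι : Type*} [Finite σB] [Finite ι] {δA : σA → α → σA} {δB : σB → α → σB}
    {badA badB : Set σB} (_hbad : badA = badB) (β : σA → ι → σB) (f : σA → (ι → σB) → Option σA)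
    (hf : ∀ s u t, f s (fun i => run δB (β s i) u) = some t → run δA s u = t)
    (G : σB → σB → Language α) (hG : ∀ s t, HL h (G s t))
    (hex : ∀ s t u, s ∉ badB → t ∉ badB → (u ∈ G s t ↔ run δB s u = t))
    (hβ : ∀ s i, β s i ∉ badB)
    (hfb : ∀ s τ t, f s τ = some t → ∀ i, τ i ∉ badB)
    {P : σA → List α → Prop}
    (hP : ∀ s u, P s u → f s (fun i => run δB (β s i) u) = some (run δA s u)) :
    Comp h δA ∅ P := by
  classical
  refine ⟨fun s t => {u | ∃ τ : ι → σB, f s τ = some t ∧ ∀ i, u ∈ G (β s i) (τ i)},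
    fun s t => ?_, ?_, ?_⟩
  · refine HL.iUnion fun τ => ?_
    exact (HL.const _).setOf_and (HL.iInter fun i => hG _ _)
  · rintro s t u ⟨τ, h1, h2⟩
    left
    have hτ : (fun i => run δB (β s i) u) = τ := by
      funext i
      exact (hex _ _ u (hβ s i) (hfb s τ t h1 i)).1 (h2 i)
    exact hf s u t (by rw [hτ]; exact h1)
  · intro s u hPu
    refine ⟨fun i => run δB (β s i) u, hP s u hPu, fun i => ?_⟩
    exact (hex _ _ u (hβ s i) (hfb s _ _ (hP s u hPu) i)).2 rfl

/-- simulation by a family which is sound without failure and complete on a promise -/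
theorem sim' {σA σB ι : Type*} [Finite σB] [Finite ι] {δA : σA → α → σA} {δB : σB → α → σB}
    (β : σA → ι → σB) (f : σA → (ι → σB) → Option σA)
    (hf : ∀ s u t, f s (fun i => run δB (β s i) u) = some t → run δA s u = t)
    {Q : σB → List α → Prop} (H : Comp h δB ∅ Q)
    {P : σA → List α → Prop}
    (hP : ∀ s u, P s u → f s (fun i => run δB (β s i) u) = some (run δA s u))
    (hPQ : ∀ s u, P s u → ∀ i, Q (β s i) u) :
    Comp h δA ∅ P := by
  classical
  obtain ⟨G, hG, hS, hC⟩ := H
  refine ⟨fun s t => {u | ∃ τ : ι → σB, f s τ = some t ∧ ∀ i, u ∈ G (β s i) (τ i)},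
    fun s t => ?_, ?_, ?_⟩
  · refine HL.iUnion fun τ => ?_
    exact (HL.const _).setOf_and (HL.iInter fun i => hG _ _)
  · rintro s t u ⟨τ, h1, h2⟩
    left
    have hτ : (fun i => run δB (β s i) u) = τ := by
      funext i
      rcases hS _ _ _ (h2 i) with h3 | h3
      · exact h3
      · exact h3.elim
    exact hf s u t (by rw [hτ]; exact h1)
  · intro s u hPu
    exact ⟨fun i => run δB (β s i) u, hP s u hPu, fun i => hC _ _ (hPQ s u hPu i)⟩

theorem absorb_empty {σ : Type*} (δ : σ → α → σ) : Absorb δ (∅ : Set σ) := fun _ hs _ => hs.elim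

/-- **THREE NESTED SCHEMES.**  `A3` (outer, sound everywhere), `A2` (middle, sound everywhere),
`A1` (inner, sound up to failure).
* `hc1`: a non-failing junction-free thread of `A1` is short;
* `hc2`: on a junction-free `A2` thread inside the promise `P2`, the `A1` threads do not fail (or the
  word lies in the promise `R2`, which is computed directly with height 1, e.g. runs);
* `hc3`: a junction-free `A3` thread gives the promise `P2` for the `A2` threads (or the word lies in
  the promise `R3`, computed directly with height 2).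
Then the threads of `A3` are computed with height 3, without any promise. -/
theorem three_level [Finite α] {σ1 σ2 σ3 ι1 ι2 : Type*} [Finite σ1] [Finite σ2] [Finite σ3]
    [Finite ι1] [Finite ι2]
    (δ1 : σ1 → α → σ1) (δ2 : σ2 → α → σ2) (δ3 : σ3 → α → σ3)
    (bad : Set σ1) (C1 : Set σ1) (C2 : Set σ2) (C3 : Set σ3) (n1 n2 n3 l : ℕ)
    (hn1 : 0 < n1) (hn2 : 0 < n2) (hn3 : 0 < n3) (hb : Absorb δ1 bad)
    (hc1 : ∀ s u, run δ1 s u ∉ bad → NoJ δ1 bad C1 n1 s u → u.length < l)
    -- A1 computes A2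
    (β1 : σ2 → ι1 → σ1) (f1 : σ2 → (ι1 → σ1) → Option σ2)
    (hf1 : ∀ s u t, f1 s (fun i => run δ1 (β1 s i) u) = some t → run δ2 s u = t)
    (hβ1 : ∀ s i, β1 s i ∉ bad) (hfb1 : ∀ s τ t, f1 s τ = some t → ∀ i, τ i ∉ bad)
    (hf1' : ∀ s u, (∀ i, run δ1 (β1 s i) u ∉ bad) →
      f1 s (fun i => run δ1 (β1 s i) u) = some (run δ2 s u))
    (P2 R2 : σ2 → List α → Prop) (hP2 : SubClosed δ2 P2)
    (hR2 : Comp 1 δ2 ∅ R2)
    (hc2 : ∀ s u, P2 s u → NoJ δ2 ∅ C2 n2 s u → (∀ i, run δ1 (β1 s i) u ∉ bad) ∨ R2 s u)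
    -- A2 computes A3
    (β2 : σ3 → ι2 → σ2) (f2 : σ3 → (ι2 → σ2) → σ3)
    (hf2 : ∀ s u, f2 s (fun i => run δ2 (β2 s i) u) = run δ3 s u)
    (R3 : σ3 → List α → Prop) (hR3 : Comp 2 δ3 ∅ R3)
    (hc3 : ∀ s u, NoJ δ3 ∅ C3 n3 s u → (∀ i, P2 (β2 s i) u) ∨ R3 s u) :
    Comp 3 δ3 ∅ (fun _ _ => True) := by
  -- level 1
  have e1 : Comp 1 δ1 bad (fun s u => run δ1 s u ∉ bad) := by
    refine step (h := 0) (C := C1) (n := n1) hn1 hb ?_ ?_
    · intro s x y z hxyz hbad
      apply hxyz
      simp only [run_append]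
      exact hb.run _ _ hbad
    · exact (comp_short δ1 bad l).weaken fun s u hu => hc1 s u hu.1 hu.2
  obtain ⟨G, hG, hex⟩ := exact_of_nonfail hb e1
  -- level 2
  have e2 : Comp 1 δ2 ∅ (fun s u => ∀ i, run δ1 (β1 s i) u ∉ bad) :=
    sim (badA := bad) (badB := bad) rfl β1 f1 hf1 G hG hex hβ1 hfb1 hf1'
  have e3 : Comp 2 δ2 ∅ P2 := by
    refine step (h := 1) (C := C2) (n := n2) hn2 (absorb_empty δ2) hP2 ?_
    exact (e2.or hR2).weaken fun s u hu => hc2 s u hu.1 hu.2
  -- level 3
  have e4 : Comp 2 δ3 ∅ (fun s u => ∀ i, P2 (β2 s i) u) :=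
    sim' β2 (fun s τ => some (f2 s τ)) (fun s u t ht => by
      rw [← hf2]; exact Option.some.inj ht) e3 (fun s u _ => by rw [hf2]) (fun s u hu i => hu i)
  refine step (h := 2) (C := C3) (n := n3) hn3 (absorb_empty δ3) (fun s x y z _ => trivial) ?_
  exact (e4.or hR3).weaken fun s u hu => hc3 s u hu.2

/-- from automata to the statement -/
theorem hl_of_comp [Finite α] {k : ℕ}
    (H : ∀ (S : Type u) [Monoid S] [Finite S] (φ : α → S), ∃ (σ : Type u) (_ : Finite σ)
      (δ : σ → α → σ) (ι : Type u) (_ : Finite ι) (β : ι → σ) (f : (ι → σ) → S),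
      (∀ u : List α, f (fun i => run δ (β i) u) = (u.map φ).prod) ∧
      Comp k δ ∅ (fun _ _ => True))
    (L : Language α) (hL : L.IsRegular) : HL k L := by
  refine of_monoid (fun S _ _ φ s => ?_) L hL
  obtain ⟨σ, _, δ, ι, _, β, f, hf, G, hG, hS, hC⟩ := H S φ
  have h1 : HL k ({u | ∃ τ : ι → σ, f τ = s ∧ ∀ i, u ∈ G (β i) (τ i)} : Language α) := by
    refine HL.iUnion fun τ => ?_
    exact (HL.const _).setOf_and (HL.iInter fun i => hG _ _)
  refine h1.congr fun u => ?_
  constructor
  · intro hu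
    have hu' : (u.map φ).prod = s := hu
    refine ⟨fun i => run δ (β i) u, ?_, fun i => hC _ _ trivial⟩
    rw [hf]; exact hu'
  · rintro ⟨τ, h1, h2⟩
    change (u.map φ).prod = s
    rw [← hf, ← h1]
    congr 1
    funext i
    rcases hS _ _ _ (h2 i) with h3 | h3
    · exact h3
    · exact h3.elim

end Crest.Agent.R320.Thr_285
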