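import Crest.Agent.R320.Thr1_391

/-!
# Row 320, thread calculus, promise schemes (helper391)

`promise`: a scheme which is exact and cuts every token only in the zones of a class `Crit`
(388's second scheme) determines `{V | the thread (V, ω) reaches (P, ω') through zones of Crit}`
exactly, in `H 1` (first failure).
-/

set_option autoImplicit false

namespace Crest.Agent.R320.Thr2_391

open Crest.RegLang Crest.Agent.R320.Hgt1_903 Crest.Agent.R320.Thr1_391

universe u v

variable {α : Type u} {Ω : Type v} {S : Scheme α Ω} {C : List α → Ω → Prop}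

/-- exactness in the zones of the class -/
def ExactOn (S : Scheme α Ω) (Crit : List α → Prop) : Prop :=
  ∀ P Q ω r, S.ll P = some ω → S.rl Q = some r → Crit (P ++ Q) →
    S.nxt (P ++ Q) = some (P.length + r.1) ∧ S.act (P ++ Q) ω = r.2

/-- certificate: junction by junction, one zone per step -/
inductive Cert (S : Scheme α Ω) (ω₀ : Ω) : List α → List α → Ω → Prop
  | base (P : List α) : Cert S ω₀ P P ω₀
  | ext {V P₁ : List α} {ω₁ : Ω} {t : List α} {r : ℕ × Ω} (h : Cert S ω₀ V P₁ ω₁)
      (h1 : S.ll P₁ = some ω₁) (h2 : S.rl t = some r) : Cert S ω₀ (V ++ t) (t.drop r.1) r.2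

/-- determinism of the chain -/
theorem Run.det {n p D : ℕ} (hl : S.Local n p D) {C C' : List α → Ω → Prop} {V ω W ω₂ P ω'}
    (h1 : Run S C' V ω W ω₂) (h2 : Run S C V ω P ω') (h : P.length ≤ W.length) :
    Run S C W ω₂ P ω' := by
  induction h1 with
  | refl V ω => exact h2
  | @step V ω T W ω₂ a b hr ih =>
    cases h2 with
    | refl =>
      have h3 := hr.length_le
      have h4 := hl.nxt_pos _ _ a
      have h5 := hl.nxt_len _ _ a
      rw [List.length_drop] at h3
      omega
    | @step _ _ T' _ _ a' b' hr' =>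
      have : T = T' := by
        have := a.symm.trans a'
        simpa using this
      subst this
      exact ih hr' h

/-- the zone of an anchor strictly before the end lies in the class -/
theorem Run.det_crit {n p D : ℕ} (hl : S.Local n p D) {C C' : List α → Ω → Prop} {V ω W ω₂ P ω'}
    (h1 : Run S C' V ω W ω₂) (h2 : Run S C V ω P ω') (h : P.length < W.length) : C W ω₂ := by
  have h3 := Run.det hl h1 h2 h.le
  cases h3 with
  | refl => exact (lt_irrefl _ h).elim
  | step _ b _ => exact b

/-- a certificate inside a text whose true chain is critical up to `P` is true -/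
theorem Cert.truthful {n p D : ℕ} (hl : S.Local n p D) (hn0 : 0 < n) {Crit : List α → Prop}
    (he : ExactOn S Crit) {ω₀ : Ω} {P ω'} {U P₁ : List α} {ω₁ : Ω}
    (h : Cert S ω₀ U P₁ ω₁) : ∀ X : List α,
      Run S (fun V _ => Crit V) (U ++ X) ω₀ P ω' → P.length ≤ (P₁ ++ X).length →
      Run S (fun V _ => Crit V) (U ++ X) ω₀ (P₁ ++ X) ω₁ := by
  induction h with
  | base P₀ => intro X _ _; exact .refl _ _
  | @ext V P₁ ω₁ t r h h1 h2 ih =>
    intro X hr hle
    have hlen := hl.rl_len _ _ h2
    rw [List.append_assoc] at hr ⊢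
    have hle2 : P.length ≤ (P₁ ++ (t ++ X)).length := by
      simp only [List.length_append, List.length_drop] at hle ⊢
      omega
    have h3 := ih (t ++ X) hr hle2
    -- the anchor `P₁ ++ (t ++ X)` is critical unless it is the end
    have hrl : S.rl (t ++ X) = some r := hl.rl_append _ _ _ h2
    have hP1 := hl.ll_len _ _ h1
    have hlt : P.length < (P₁ ++ (t ++ X)).length := by
      simp only [List.length_append, List.length_drop] at hle ⊢
      omega
    have hc : Crit (P₁ ++ (t ++ X)) := Run.det_crit hl h3 hr hlt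
    obtain ⟨e1, e2⟩ := he _ _ _ _ h1 hrl hc
    refine h3.trans (.step e1 hc ?_)
    have : (P₁ ++ (t ++ X)).drop (P₁.length + r.1) = t.drop r.1 ++ X := by
      rw [← List.drop_drop, List.drop_left, List.drop_append_of_le_length (by omega)]
    rw [this, e2]
    exact .refl _ _

/-- conversely: a certificate without a certified non-critical anchor is true -/
theorem Cert.run_of_noFail {n p D : ℕ} (hl : S.Local n p D) (hn0 : 0 < n) {Crit : List α → Prop}
    (he : ExactOn S Crit) {ω₀ : Ω} {P : List α} {U P₁ : List α} {ω₁ : Ω}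
    (h : Cert S ω₀ U P₁ ω₁) : ∀ X : List α,
      (∀ U' X', U' ++ X' = U ++ X → ∀ P₂ ω₂, S.ll P₂ = some ω₂ → Cert S ω₀ U' P₂ ω₂ →
        P.length < P₂.length + X'.length → Crit (P₂ ++ X')) → P.length ≤ (P₁ ++ X).length →
      Run S (fun V _ => Crit V) (U ++ X) ω₀ (P₁ ++ X) ω₁ := by
  induction h with
  | base P₀ => intro X _ _; exact .refl _ _
  | @ext V P₁ ω₁ t r h h1 h2 ih =>
    intro X hf hle
    have hlen := hl.rl_len _ _ h2
    rw [List.append_assoc] at hf ⊢
    have hP1 := hl.ll_len _ _ h1
    have hle2 : P.length ≤ (P₁ ++ (t ++ X)).length := by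
      simp only [List.length_append, List.length_drop] at hle ⊢
      omega
    have h3 := ih (t ++ X) hf hle2
    have hrl : S.rl (t ++ X) = some r := hl.rl_append _ _ _ h2
    have hc : Crit (P₁ ++ (t ++ X)) := by
      refine hf V (t ++ X) rfl P₁ ω₁ h1 h ?_
      simp only [List.length_append, List.length_drop] at hle ⊢
      omega
    obtain ⟨e1, e2⟩ := he _ _ _ _ h1 hrl hc
    refine h3.trans (.step e1 hc ?_)
    have : (P₁ ++ (t ++ X)).drop (P₁.length + r.1) = t.drop r.1 ++ X := by
      rw [← List.drop_drop, List.drop_left, List.drop_append_of_le_length (by omega)]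
    rw [this, e2]
    exact .refl _ _

/-- completeness of certificates on critical threads -/
theorem Cert.complete {n p D : ℕ} (hl : S.Local n p D) {Crit : List α → Prop}
    (he : ExactOn S Crit) (hcut : ∀ V ω, Crit V → (∃ T, S.nxt V = some T) → Cut S V ω)
    {ω₀ : Ω} {V : List α} {ω : Ω} {P : List α} {ω' : Ω}
    (h : Run S (fun V _ => Crit V) V ω P ω') : n ≤ P.length → ∀ U : List α,
      (∀ j, n ≤ j → j ≤ V.length → Cert S ω₀ (U ++ V.take j) (V.take j) ω) →
      Cert S ω₀ (U ++ V) P ω' := by
  induction h with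
  | refl V ω =>
    intro hn U hU
    have := hU V.length hn le_rfl
    rwa [List.take_length] at this
  | @step V ω T P ω' h1 h2 hr ih =>
    intro hn U hU
    obtain ⟨j, hj, hll, r, hrl⟩ := hcut V ω h2 ⟨T, h1⟩
    have hc : Crit (V.take j ++ V.drop j) := by rwa [List.take_append_drop]
    obtain ⟨e1, e2⟩ := he _ _ _ _ hll hrl hc
    rw [List.take_append_drop] at e1 e2
    have hnj := hl.ll_len _ _ hll
    rw [List.length_take, Nat.min_eq_left hj] at e1 hnj
    have hT : T = j + r.1 := by
      have := h1.symm.trans e1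
      simpa using this
    have hT1 := hl.nxt_len _ _ h1
    have := ih hn (U ++ V.take T) ?_
    · rwa [List.append_assoc, List.take_append_drop] at this
    · intro j' hj' hj2
      rw [List.length_drop] at hj2
      have ht : S.rl ((V.drop j).take (r.1 + j')) = some r := by
        refine hl.rl_of_append _ ((V.drop j).drop (r.1 + j')) r ?_ ?_
        · rw [List.take_append_drop]; exact hrl
        · rw [List.length_take, List.length_drop]; omega
      have h3 := Cert.ext (hU j hnj hj) hll ht
      have e3 : ((V.drop j).take (r.1 + j')).drop r.1 = (V.drop T).take j' := by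
        rw [List.drop_take, List.drop_drop, hT]
        congr 1
        omega
      have e4 : U ++ V.take j ++ (V.drop j).take (r.1 + j') =
          U ++ V.take T ++ (V.drop T).take j' := by
        rw [List.append_assoc, List.append_assoc, ← List.take_add, ← List.take_add, hT,
          Nat.add_assoc]
      rw [e3, e4, ← e2] at h3
      exact h3

/-- certificates as a language of height one -/
theorem Cert.iff_up (ω₀ : Ω) (V P : List α) (ω : Ω) :
    Cert S ω₀ V P ω ↔ V ∈ Up S (fun ω ω' P => ({V | V = P ∧ ω = ω'} : Language α)) ω₀ ω P := by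
  constructor
  · intro h
    induction h with
    | base P => exact Or.inl ⟨rfl, rfl⟩
    | @ext V P₁ ω₁ t r h h1 h2 ih =>
      right
      rcases ih with ⟨rfl, rfl⟩ | ⟨u, k, t₀, rfl, hu, hk, ht₀⟩
      · exact ⟨V, [], t, by simp, ⟨V, ω₀, h1, rfl, rfl⟩, Language.mem_kstar.2 ⟨[], rfl, by simp⟩,
          r, h2, rfl, rfl⟩
      · obtain ⟨ks, rfl, hks⟩ := Language.mem_kstar.1 hk
        refine ⟨u, ks.flatten ++ t₀, t, by simp [List.append_assoc], hu, ?_, r, h2, rfl, rfl⟩
        refine Language.mem_kstar.2 ⟨ks ++ [t₀], by simp, ?_⟩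
        intro y hy
        rcases List.mem_append.1 hy with hy | hy
        · exact hks y hy
        · rw [List.mem_singleton.1 hy]
          exact ⟨P₁, ω₁, h1, ht₀⟩
  · rintro (⟨rfl, rfl⟩ | ⟨u, k, t, rfl, ⟨P₁, ω₁, hll, rfl, rfl⟩, hk, r, hr, h3, h4⟩)
    · exact .base _
    · obtain ⟨ks, rfl, hks⟩ := Language.mem_kstar.1 hk
      have key : ∀ ks : List (List α), (∀ x ∈ ks, x ∈ Kw S
          (fun ω ω' P => ({V | V = P ∧ ω = ω'} : Language α))) → ∀ V P₁ ω₁, Cert S ω₀ V P₁ ω₁ →
          S.ll P₁ = some ω₁ → ∃ P₂ ω₂, Cert S ω₀ (V ++ ks.flatten) P₂ ω₂ ∧ S.ll P₂ = some ω₂ := by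
        intro ks
        induction ks with
        | nil => intro _ V P₁ ω₁ h1 h2; exact ⟨P₁, ω₁, by simpa using h1, h2⟩
        | cons x ks ih =>
          intro hx V P₁ ω₁ h1 h2
          obtain ⟨P₂, ω₂, hll2, r₂, h5, h6, h7⟩ := hx x List.mem_cons_self
          have h8 := Cert.ext h1 h2 h5
          rw [h6, h7] at h8
          obtain ⟨P₃, ω₃, h9, h10⟩ := ih (fun y hy => hx y (List.mem_cons_of_mem _ hy)) _ _ _ h8 hll2
          refine ⟨P₃, ω₃, ?_, h10⟩
          rw [List.flatten_cons, ← List.append_assoc]
          exact h9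
      obtain ⟨P₂, ω₂, h5, h6⟩ := key ks hks u u ω₀ (.base u) hll
      have h8 := Cert.ext h5 h6 hr
      rw [h3, h4] at h8
      exact h8

theorem Cert.height [Finite α] [Finite Ω] {n p D : ℕ} (hl : S.Local n p D) (ω₀ ω : Ω)
    (P : List α) : H 1 ({V | Cert S ω₀ V P ω} : Language α) := by
  refine H.congr (Up.height (j := 0) hl
    (L := fun ω ω' P => ({V | V = P ∧ ω = ω'} : Language α)) ?_ ω₀ ω P) fun w =>
      (Cert.iff_up ω₀ w P ω).symm
  intro ω ω' P
  refine H.bounded 0 P.length ?_
  rintro w ⟨rfl, -⟩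
  exact le_rfl

/-- **PROMISE SCHEME** (first failure): exact and complete only in the zones of `Crit`; the threads
through zones of `Crit` only are a language of height one. -/
theorem promise [Finite α] [Finite Ω] {n p D : ℕ} (hl : S.Local n p D) (hn0 : 0 < n)
    {Crit : List α → Prop} (he : ExactOn S Crit)
    (hcut : ∀ V ω, Crit V → (∃ T, S.nxt V = some T) → Cut S V ω)
    (hCH : ∀ P, H 1 ({X | Crit (P ++ X)} : Language α))
    (ω ω' : Ω) (P : List α) (hP : n ≤ P.length) :
    H 1 ({V | Run S (fun V _ => Crit V) V ω P ω'} : Language α) := by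
  have hfail : H 1 ({V | ∃ P₂ ω₂, P₂.length ≤ p ∧ V ∈ ({V | S.ll P₂ = some ω₂ ∧
      V ∈ ({V | ∃ U X, U ++ X = V ∧ Cert S ω U P₂ ω₂ ∧
        (P.length < P₂.length + X.length ∧ ¬ Crit (P₂ ++ X))} : Language α)} : Language α)} :
      Language α) := by
    refine H.exists_bdd (p := p) (fun P₂ ω₂ => ({V | S.ll P₂ = some ω₂ ∧
      V ∈ ({V | ∃ U X, U ++ X = V ∧ Cert S ω U P₂ ω₂ ∧
        (P.length < P₂.length + X.length ∧ ¬ Crit (P₂ ++ X))} : Language α)} : Language α)) ?_
    intro P₂ ω₂
    refine H.inter (H.const 1 _) (H.cat (Cert.height hl ω ω₂ P₂) (H.inter ?_ (hCH P₂).not))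
    refine H.congr (H.not (H.bounded 1 (P.length - P₂.length)
      (L := {X | P₂.length + X.length ≤ P.length}) ?_)) ?_
    · intro w hw
      change P₂.length + w.length ≤ P.length at hw
      omega
    · intro w
      change (¬ (P₂.length + w.length ≤ P.length)) ↔ P.length < P₂.length + w.length
      omega
  refine H.congr (H.inter (Cert.height hl ω ω' P) (H.not hfail)) fun V => ?_
  constructor
  · rintro ⟨h1, h2⟩
    have := Cert.run_of_noFail (P := P) hl hn0 he h1 [] ?_ (by simp)
    · change Run S (fun V _ => Crit V) V ω P ω'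
      simpa using this
    · intro U' X' e P₂ ω₂ hll hc hlt
      by_contra hcrit
      refine h2 ⟨P₂, ω₂, hl.ll_bound _ _ hll, hll, U', X', ?_, hc, hlt, hcrit⟩
      simpa using e
  · intro h
    refine ⟨?_, ?_⟩
    · have := Cert.complete (ω₀ := ω) hl he hcut h hP [] ?_
      · change Cert S ω V P ω'
        simpa using this
      · intro j _ _
        exact .base _
    · rintro ⟨P₂, ω₂, -, hll, U, X, e, hc, hlt, hcrit⟩
      change Run S (fun V _ => Crit V) V ω P ω' at h
      rw [← e] at h
      have h3 := Cert.truthful hl hn0 he hc X h (by rw [List.length_append]; omega)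
      exact hcrit (Run.det_crit hl h3 h (by rw [List.length_append]; omega))

end Crest.Agent.R320.Thr2_391
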