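import Mathlib

/-!
# Row 320, leaf L1 (helper607): the chain rule with residue thresholds, word form

`R` is a right-looking wall rule with window `n`.  From an anchor at the start of `Q` the next
anchor is the first place `t` with `R (Q.drop t)` and `thr (t % M) ≤ t`
(132 #12664 (2): thresholds indexed by the residues modulo the comb modulus).
`nxo p` is the same rule read from a place `p` (modulo the comb) to the right of the anchor.
-/

set_option autoImplicit false

namespace Crest.Agent.R320.ThrNx_607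

variable {α : Type*}

/-- right-looking rule with window `n` -/
structure Rule (R : List α → Prop) (n : ℕ) : Prop where
  pos : 0 < n
  loc : ∀ Q, R Q ↔ R (Q.take n)
  len : ∀ Q, R Q → n ≤ Q.length

variable {R : List α → Prop} {n : ℕ}

theorem Rule.app (h : Rule R n) {Q X : List α} (hl : n ≤ Q.length) : R (Q ++ X) ↔ R Q := by
  rw [h.loc (Q ++ X), h.loc Q, List.take_append_of_le_length hl]

theorem Rule.fit (h : Rule R n) {Q : List α} {t : ℕ} (hr : R (Q.drop t)) : t + n ≤ Q.length := by
  have h1 := h.len _ hr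
  have h2 := h.pos
  rw [List.length_drop] at h1
  omega

theorem Rule.left (h : Rule R n) {P Q : List α} {t : ℕ} (ht : t + n ≤ P.length) :
    R ((P ++ Q).drop t) ↔ R (P.drop t) := by
  rw [List.drop_append_of_le_length (by omega)]
  exact h.app (by rw [List.length_drop]; omega)

theorem drop_app (P Q : List α) (t : ℕ) : (P ++ Q).drop (P.length + t) = Q.drop t := by
  rw [← List.drop_drop, List.drop_left]

/-- `t` is a qualifying wall, read from the offset `p` -/
def Ql (R : List α → Prop) (M : ℕ) (thr : ℕ → ℕ) (p : ℕ) (Q : List α) (t : ℕ) : Prop :=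
  R (Q.drop t) ∧ thr ((t + p) % M) ≤ t + p

open Classical in
/-- the first qualifying wall -/
noncomputable def nxo (R : List α → Prop) (M : ℕ) (thr : ℕ → ℕ) (p : ℕ) (Q : List α) :
    Option ℕ :=
  if h : ∃ t, Ql R M thr p Q t then some (Nat.find h) else none

variable {M : ℕ} {thr : ℕ → ℕ} {p : ℕ}

theorem nxo_eq_some {Q : List α} {d : ℕ} : nxo R M thr p Q = some d ↔
    Ql R M thr p Q d ∧ ∀ t < d, ¬ Ql R M thr p Q t := by
  classical
  unfold nxo
  constructor
  · intro h
    by_cases hh : ∃ t, Ql R M thr p Q t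
    · rw [dif_pos hh, Option.some.injEq] at h
      subst h
      refine ⟨?_, fun t ht => ?_⟩
      · have := Nat.find_spec hh
        convert this
      · have := Nat.find_min hh (m := t) (by convert ht)
        exact this
    · rw [dif_neg hh] at h
      exact absurd h (by simp)
  · rintro ⟨h1, h2⟩
    have hh : ∃ t, Ql R M thr p Q t := ⟨d, h1⟩
    rw [dif_pos hh, Option.some.injEq]
    have e1 := Nat.find_spec hh
    by_contra hne
    rcases Nat.lt_or_gt_of_ne hne with h | h
    · exact h2 _ h e1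
    · exact Nat.find_min hh h h1

theorem nxo_eq_none {Q : List α} : nxo R M thr p Q = none ↔ ∀ t, ¬ Ql R M thr p Q t := by
  classical
  unfold nxo
  by_cases hh : ∃ t, Ql R M thr p Q t
  · rw [dif_pos hh]
    constructor
    · intro h; exact absurd h (by simp)
    · intro h; exact absurd hh (fun ⟨t, ht⟩ => h t ht)
  · rw [dif_neg hh]
    exact ⟨fun _ t ht => hh ⟨t, ht⟩, fun _ => rfl⟩

theorem nxo_ne_none {Q : List α} {t : ℕ} (h : Ql R M thr p Q t) :
    ∃ d, nxo R M thr p Q = some d ∧ d ≤ t := by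
  classical
  have hh : ∃ t, Ql R M thr p Q t := ⟨t, h⟩
  refine ⟨Nat.find hh, ?_, Nat.find_min' hh h⟩
  unfold nxo
  rw [dif_pos hh]

/-- `ext` -/
theorem nxo_ext (hR : Rule R n) {Q Q' : List α} {d : ℕ} (h : nxo R M thr p Q = some d) :
    nxo R M thr p (Q ++ Q') = some d := by
  rw [nxo_eq_some] at h ⊢
  obtain ⟨⟨h1, h2⟩, h3⟩ := h
  have hf := hR.fit h1
  refine ⟨⟨(hR.left hf).2 h1, h2⟩, fun t ht hh => h3 t ht ⟨(hR.left (by omega)).1 hh.1, hh.2⟩⟩

/-- `vis` -/
theorem nxo_vis (hR : Rule R n) {Q : List α} {d : ℕ} (h : nxo R M thr p Q = some d) :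
    d + n ≤ Q.length := by
  rw [nxo_eq_some] at h
  exact hR.fit h.1.1

theorem nxo_ge {T0 : ℕ} (hthr : ∀ r, T0 ≤ thr r) {Q : List α} {d : ℕ}
    (h : nxo R M thr p Q = some d) : T0 ≤ d + p := by
  rw [nxo_eq_some] at h
  exact (hthr _).trans h.1.2

/-- `tight` -/
theorem nxo_tight (hR : Rule R n) {Q Q' : List α} {d : ℕ}
    (h : nxo R M thr p (Q ++ Q') = some d) (hd : d + n ≤ Q.length) :
    nxo R M thr p Q = some d := by
  rw [nxo_eq_some] at h ⊢
  obtain ⟨⟨h1, h2⟩, h3⟩ := h
  exact ⟨⟨(hR.left hd).1 h1, h2⟩,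
    fun t ht hh => h3 t ht ⟨(hR.left (by omega)).2 hh.1, hh.2⟩⟩

/-- existence: a wall beyond all thresholds -/
theorem nxo_exists {T1 G : ℕ} (hthr : ∀ r, thr r ≤ T1) {Q : List α}
    (hw : ∃ i < G, R (Q.drop (T1 + i))) : ∃ d, nxo R M thr p Q = some d ∧ d < T1 + G := by
  obtain ⟨i, hi, hr⟩ := hw
  obtain ⟨d, h1, h2⟩ := nxo_ne_none (R := R) (M := M) (thr := thr) (p := p) (Q := Q)
    (t := T1 + i) ⟨hr, (hthr _).trans (by omega)⟩
  exact ⟨d, h1, by omega⟩

/-- legality of the right side at a place of the window (offset `p` modulo the comb, the true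
offset is `p + M om` with `M om ≤ N1`): no wall up to the first qualifying one lies in the
ambiguous band of its threshold -/
def Leg (R : List α → Prop) (M : ℕ) (thr : ℕ → ℕ) (p N1 : ℕ) (U : List α) : Prop :=
  ∀ b, nxo R M thr p U = some b → ∀ t < b, R (U.drop t) →
    t + p + N1 < thr ((t + p) % M)

/-- **JUNCTION LEMMA** -/
theorem junction {T0 N1 om : ℕ} (hthr : ∀ r, T0 ≤ thr r)
    (hom : M * om ≤ N1) (hT : p + N1 < T0) {P U : List α} (hP : P.length = p + M * om)
    (hU : Leg R M thr p N1 U) {b : ℕ} (hb : nxo R M thr p U = some b) :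
    nxo R M thr 0 (P ++ U) = some (P.length + b) := by
  have hleg := hU b hb
  rw [nxo_eq_some] at hb ⊢
  obtain ⟨⟨h1, h2⟩, h3⟩ := hb
  have hmod : ∀ t, (P.length + t + 0) % M = (t + p) % M := by
    intro t
    rw [hP, show p + M * om + t + 0 = (t + p) + M * om by ring, Nat.add_mul_mod_self_left]
  refine ⟨⟨by rw [drop_app]; exact h1, ?_⟩, ?_⟩
  · rw [hmod]
    omega
  · intro t ht hh
    obtain ⟨hh1, hh2⟩ := hh
    rcases lt_or_ge t P.length with hlt | hge
    · have := hthr ((t + 0) % M)
      omega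
    · obtain ⟨u, rfl⟩ := Nat.exists_eq_add_of_le hge
      rw [drop_app] at hh1
      rw [hmod] at hh2
      have hu : u < b := by omega
      have := hleg u hu hh1
      omega

/-- the band (E): some wall is within `N1` of its threshold -/
def Eband (R : List α → Prop) (M : ℕ) (thr : ℕ → ℕ) (N1 : ℕ) (Q : List α) : Prop :=
  ∃ t, R (Q.drop t) ∧ thr (t % M) ≤ t + N1 ∧ t ≤ thr (t % M) + N1

/-- (E) is a property of the first `T1 + N1 + n` letters -/
theorem eband_local (hR : Rule R n) {T1 N1 : ℕ} (hthr : ∀ r, thr r ≤ T1) {Q Q' : List α}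
    (hl : T1 + N1 + n ≤ Q.length) : Eband R M thr N1 (Q ++ Q') ↔ Eband R M thr N1 Q := by
  constructor
  · rintro ⟨t, h1, h2, h3⟩
    have := hthr (t % M)
    exact ⟨t, (hR.left (by omega)).1 h1, h2, h3⟩
  · rintro ⟨t, h1, h2, h3⟩
    have := hthr (t % M)
    exact ⟨t, (hR.left (by omega)).2 h1, h2, h3⟩

/-- **off the band (E) every place of the comb window is right-legal** -/
theorem leg_of_not_eband {T0 N1 om : ℕ} (hthr : ∀ r, T0 ≤ thr r)
    (hom : M * om ≤ N1) (hT : p + N1 < T0) {P U : List α} (hP : P.length = p + M * om)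
    {d : ℕ} (hd : nxo R M thr 0 (P ++ U) = some d) (hE : ¬ Eband R M thr N1 (P ++ U)) :
    P.length ≤ d ∧ nxo R M thr p U = some (d - P.length) ∧ Leg R M thr p N1 U := by
  have hd' := hd
  rw [nxo_eq_some] at hd
  obtain ⟨⟨h1, h2⟩, h3⟩ := hd
  have hmod : ∀ t, (P.length + t + 0) % M = (t + p) % M := by
    intro t
    rw [hP, show p + M * om + t + 0 = (t + p) + M * om by ring, Nat.add_mul_mod_self_left]
  have hmod' : ∀ t, (P.length + t) % M = (t + p) % M := fun t => hmod t
  have hPd : P.length ≤ d := by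
    have := hthr ((d + 0) % M)
    omega
  obtain ⟨b, rfl⟩ := Nat.exists_eq_add_of_le hPd
  have hb : nxo R M thr p U = some b := by
    rw [nxo_eq_some]
    refine ⟨⟨by rw [drop_app] at h1; exact h1, ?_⟩, ?_⟩
    · by_contra hcon
      rw [hmod] at h2
      apply hE
      refine ⟨P.length + b, h1, ?_, ?_⟩
      · rw [hmod']; omega
      · rw [hmod']; omega
    · intro t ht hh
      apply h3 (P.length + t) (by omega)
      refine ⟨by rw [drop_app]; exact hh.1, ?_⟩
      rw [hmod]
      have := hh.2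
      omega
  refine ⟨hPd, by rw [Nat.add_sub_cancel_left]; exact hb, ?_⟩
  intro b' hb' t ht hr
  rw [hb, Option.some.injEq] at hb'
  subst hb'
  by_contra hcon
  have hr' : R ((P ++ U).drop (P.length + t)) := by rw [drop_app]; exact hr
  have hnq : ¬ thr ((t + p) % M) ≤ P.length + t := by
    intro hq
    exact h3 (P.length + t) (by omega) ⟨hr', by rw [hmod]; omega⟩
  apply hE
  refine ⟨P.length + t, hr', ?_, ?_⟩
  · rw [hmod']; omega
  · rw [hmod']; omega

/-- legality only reads the text up to the window of the next anchor -/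
theorem leg_ext (hR : Rule R n) {N1 : ℕ} {U U' : List α} {b : ℕ}
    (hb : nxo R M thr p U = some b) :
    Leg R M thr p N1 (U ++ U') ↔ Leg R M thr p N1 U := by
  have hf := nxo_vis hR hb
  have hb2 := nxo_ext hR (Q' := U') hb
  constructor
  · intro h b' hb' t ht hr
    rw [hb, Option.some.injEq] at hb'
    subst hb'
    exact h b hb2 t ht ((hR.left (by omega)).2 hr)
  · intro h b' hb' t ht hr
    rw [hb2, Option.some.injEq] at hb'
    subst hb'
    exact h b hb t ht ((hR.left (by omega)).1 hr)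

/-- thresholds: bounded, above `T0`, two of them with different residues are more than `D` apart -/
theorem exists_thr (M T0 D : ℕ) (hM : 0 < M) : ∃ (thr : ℕ → ℕ) (T1 : ℕ),
    (∀ r, T0 ≤ thr r) ∧ (∀ r, thr r ≤ T1) ∧
      ∀ r s, r < M → s < M → r < s → thr r + D < thr s := by
  refine ⟨fun r => T0 + (D + 1) * (r % M), T0 + (D + 1) * M, fun r => Nat.le_add_right _ _,
    fun r => ?_, fun r s hr hs hrs => ?_⟩
  · have h1 := (Nat.mod_lt r hM).le
    have h2 := Nat.mul_le_mul_left (D + 1) h1
    show T0 + (D + 1) * (r % M) ≤ T0 + (D + 1) * M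
    omega
  · simp only [Nat.mod_eq_of_lt hr, Nat.mod_eq_of_lt hs]
    have : (D + 1) * (r + 1) ≤ (D + 1) * s := Nat.mul_le_mul_left _ hrs
    have e : (D + 1) * (r + 1) = (D + 1) * r + (D + 1) := by ring
    omega

end Crest.Agent.R320.ThrNx_607
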