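import Crest.Agent.R320.Hk2_851

/-!
# Row 320, thread calculus (helper259): definitions and run lemmas

A text-determined chain (`Nd u G` : in the text `u ++ G`, which starts at a node, the next node is
at `|u|`), tokens `Ω` moved by `ev u G`, a promise `Pm u G` on units, left words `LP v P` (from a
node with token `v` to a cut) and right readings `RQ v' Q F` (from a cut to the next node, where the
token is `v'`).
-/

set_option autoImplicit false

namespace Crest.Agent.R320.Thread_259

open Crest.Agent.R320.Hk_851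

universe u v

variable {A : Type u} {Ω : Type v}

structure Sys (A : Type u) (Ω : Type v) where
  n : ℕ
  D : ℕ
  RF : Language A
  St : List A → Prop
  Nd : List A → List A → Prop
  ev : List A → List A → Ω → Ω
  Pm : List A → List A → Prop
  LP : Ω → List A → Prop
  RQ : Ω → List A → List A → Prop

structure Sys.Ok (S : Sys A Ω) : Prop where
  RF_HL : HL 0 S.RF
  RF_fac : ∀ u v w : List A, u ++ (v ++ w) ∈ S.RF → v ∈ S.RF
  St_loc : ∀ G X, S.n ≤ G.length → (S.St (G ++ X) ↔ S.St G)
  Nd_loc : ∀ u G X, S.n ≤ G.length → (S.Nd u (G ++ X) ↔ S.Nd u G)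
  Nd_pos : ∀ u G, S.Nd u G → u ≠ []
  Nd_St : ∀ u G, S.Nd u G → S.St G
  Nd_det : ∀ u G u' G', S.Nd u G → S.Nd u' G' → u ++ G = u' ++ G' → u = u'
  Nd_ex : ∀ T, S.St T → T ∈ S.RF → S.D + S.n ≤ T.length →
    ∃ u G, T = u ++ G ∧ S.Nd u G ∧ u.length ≤ S.D
  ev_loc : ∀ u G X, S.n ≤ G.length → S.ev u (G ++ X) = S.ev u G
  Pm_loc : ∀ u G X, S.n ≤ G.length → (S.Pm u (G ++ X) ↔ S.Pm u G)
  RQ_loc : ∀ r Q G X, S.n ≤ G.length → (S.RQ r Q (G ++ X) ↔ S.RQ r Q G)
  RQ_St : ∀ r Q G, S.RQ r Q G → S.St G
  LP_len : ∀ r P, S.LP r P → S.n ≤ P.length ∧ P.length ≤ S.D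
  RQ_len : ∀ r Q G, S.RQ r Q G → Q.length ≤ S.D
  sound : ∀ u G P Q F r r', u ++ G ∈ S.RF → S.St (u ++ G) → S.Nd u G → S.n ≤ G.length → S.Pm u G →
    u ++ G = P ++ (Q ++ F) → S.n ≤ F.length → S.LP r P → S.RQ r' Q F →
    u = P ++ Q ∧ r' = S.ev u G r

variable (S : Sys A Ω)

/-- the token `r` is cut in the unit `u` with future `G` -/
def Cut (u G : List A) (r : Ω) : Prop :=
  ∃ P Q, u = P ++ Q ∧ S.LP r P ∧ S.RQ (S.ev u G r) Q G

/-- conditions on (unit, future, token) -/
def cP (u G : List A) (_ : Ω) : Prop := S.Pm u G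

def cU (u G : List A) (r : Ω) : Prop := S.Pm u G ∧ ¬ Cut S u G r

/-- the chain, started with token `r`, runs through `U` (future `F`) to the token `r'` -/
inductive Run (c : List A → List A → Ω → Prop) (F : List A) : Ω → List A → Ω → Prop
  | nil (r : Ω) : Run c F r [] r
  | cons (r r' : Ω) (u U : List A) (hn : S.Nd u (U ++ F)) (hc : c u (U ++ F) r)
      (h : Run c F (S.ev u (U ++ F) r) U r') : Run c F r (u ++ U) r'

/-- run languages with margin `m` -/
def RL (c : List A → List A → Ω → Prop) (m : ℕ) (r r' : Ω) : Language A :=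
  {T | T ∈ S.RF ∧ S.St T ∧ ∃ U F, T = U ++ F ∧ F.length = m ∧ Run S c F r U r'}

variable {S}

theorem Cut.loc (ok : S.Ok) {u G X : List A} {r : Ω} (h : S.n ≤ G.length) :
    Cut S u (G ++ X) r ↔ Cut S u G r := by
  unfold Cut
  rw [ok.ev_loc u G X h]
  constructor
  · rintro ⟨P, Q, h1, h2, h3⟩
    exact ⟨P, Q, h1, h2, (ok.RQ_loc _ _ _ _ h).1 h3⟩
  · rintro ⟨P, Q, h1, h2, h3⟩
    exact ⟨P, Q, h1, h2, (ok.RQ_loc _ _ _ _ h).2 h3⟩

/-- local conditions -/
def Loc (S : Sys A Ω) (c : List A → List A → Ω → Prop) : Prop :=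
  ∀ u G X r, S.n ≤ G.length → (c u (G ++ X) r ↔ c u G r)

theorem loc_cP (ok : S.Ok) : Loc S (cP S) := fun u G X _ h => ok.Pm_loc u G X h

theorem loc_cU (ok : S.Ok) : Loc S (cU S) := fun u G X r h => by
  unfold cU
  rw [ok.Pm_loc u G X h, Cut.loc ok h]

theorem Run.mono {c c' : List A → List A → Ω → Prop} (hcc : ∀ u G r, c u G r → c' u G r)
    {F U : List A} {r r' : Ω} (h : Run S c F r U r') : Run S c' F r U r' := by
  induction h with
  | nil r => exact Run.nil r
  | cons r r' u U hn hc _ ih => exact Run.cons r r' u U hn (hcc _ _ _ hc) ih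

theorem Run.ext (ok : S.Ok) {c : List A → List A → Ω → Prop} (hc : Loc S c)
    {F U : List A} {r r' : Ω} (X : List A) (hF : S.n ≤ F.length) (h : Run S c F r U r') :
    Run S c (F ++ X) r U r' := by
  induction h with
  | nil r => exact Run.nil r
  | cons r r' u U hn hcc _ ih =>
    have e : U ++ (F ++ X) = (U ++ F) ++ X := (List.append_assoc _ _ _).symm
    have hl : S.n ≤ (U ++ F).length := by rw [List.length_append]; omega
    refine Run.cons r r' u U ?_ ?_ ?_
    · rw [e]; exact (ok.Nd_loc _ _ _ hl).2 hn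
    · rw [e]; exact (hc _ _ _ _ hl).2 hcc
    · rw [e, ok.ev_loc _ _ _ hl]; exact ih

theorem Run.restrict (ok : S.Ok) {c : List A → List A → Ω → Prop} (hc : Loc S c)
    {F U X : List A} {r r' : Ω} (hF : S.n ≤ F.length) (h : Run S c (F ++ X) r U r') :
    Run S c F r U r' := by
  generalize hF' : F ++ X = F' at h
  induction h with
  | nil r => exact Run.nil r
  | cons r r' u U hn hcc _ ih =>
    subst hF'
    have e : U ++ (F ++ X) = (U ++ F) ++ X := (List.append_assoc _ _ _).symm
    have hl : S.n ≤ (U ++ F).length := by rw [List.length_append]; omega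
    rw [e] at hn hcc ih
    rw [ok.ev_loc _ _ _ hl] at ih
    exact Run.cons r r' u U ((ok.Nd_loc _ _ _ hl).1 hn) ((hc _ _ _ _ hl).1 hcc) ih

theorem Run.append {c : List A → List A → Ω → Prop} {F V W : List A} {r s t : Ω}
    (h1 : Run S c (W ++ F) r V s) (h2 : Run S c F s W t) : Run S c F r (V ++ W) t := by
  generalize hG : W ++ F = G at h1
  induction h1 with
  | nil r => exact h2
  | cons r r' u U hn hc _ ih =>
    subst hG
    rw [List.append_assoc]
    have e : U ++ (W ++ F) = (U ++ W) ++ F := (List.append_assoc _ _ _).symm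
    rw [e] at hn hc ih
    exact Run.cons r t u (U ++ W) hn hc (ih h2)

/-- after a nonempty run the future starts at a node -/
theorem Run.st (ok : S.Ok) {c : List A → List A → Ω → Prop} {F U : List A} {r r' : Ω}
    (h : Run S c F r U r') : S.St (U ++ F) → S.St F := by
  induction h with
  | nil r => exact fun h => h
  | cons r r' u U hn hc _ ih => exact fun _ => ih (ok.Nd_St _ _ hn)

/-- determinism: two runs in one text; the shorter one is an initial part of the longer one -/
theorem Run.split (ok : S.Ok) {c c' : List A → List A → Ω → Prop} {F G U V : List A}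
    {r s t : Ω} (h : Run S c F r U t) (h' : Run S c' G r V s) (e : U ++ F = V ++ G)
    (hl : V.length ≤ U.length) : ∃ W, U = V ++ W ∧ G = W ++ F ∧ Run S c F s W t := by
  induction h' generalizing U with
  | nil r => exact ⟨U, rfl, by simpa using e.symm, h⟩
  | cons r s u V hn hc _ ih =>
    cases h with
    | nil =>
      exfalso
      have := ok.Nd_pos _ _ hn
      simp only [List.length_nil, Nat.le_zero, List.length_append] at hl
      exact this (List.eq_nil_of_length_eq_zero (by omega))
    | cons _ _ u' U' hn' hc' h1 =>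
      have e2 : u' ++ (U' ++ F) = u ++ (V ++ G) := by
        simpa [List.append_assoc] using e
      have hu : u' = u := ok.Nd_det _ _ _ _ hn' hn e2
      subst hu
      have e3 : U' ++ F = V ++ G := List.append_cancel_left e2
      rw [e3] at h1
      obtain ⟨W, hW1, hW2, hW3⟩ := ih h1 e3 (by
        simp only [List.length_append] at hl; omega)
      exact ⟨W, by rw [hW1, List.append_assoc], hW2, hW3⟩

end Crest.Agent.R320.Thread_259
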