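import Crest.Agent.R320.Thread1_259

/-!
# Row 320, thread calculus (helper259): path languages, completeness and soundness
-/

set_option autoImplicit false

namespace Crest.Agent.R320.Thread_259

open Crest.Agent.R320.Hk_851

universe u v

variable {A : Type u} {Ω : Type v} (S : Sys A Ω)

/-- start pieces: uncut run, then a left word -/
def SL (m1 : ℕ) (r r0 : Ω) : Language A :=
  {V | ∃ U P X, V = U ++ P ∧ S.LP r0 P ∧ (P ++ X).length = m1 ∧ U ++ (P ++ X) ∈ S.RF ∧
    S.St (U ++ (P ++ X)) ∧ Run S (cU S) (P ++ X) r U r0}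

/-- junction words -/
def KL (m1 : ℕ) : Language A :=
  {V | ∃ r r' Q M P X, V = Q ++ (M ++ P) ∧ S.RQ r Q (M ++ P) ∧ S.LP r' P ∧
    (P ++ X).length = m1 ∧ M ++ (P ++ X) ∈ S.RF ∧ S.St (M ++ (P ++ X)) ∧
    Run S (cU S) (P ++ X) r M r'}

/-- end pieces -/
def EL (m2 : ℕ) (r r' : Ω) : Language A :=
  {V | ∃ Q U F, V = Q ++ (U ++ F) ∧ F.length = m2 ∧ S.RQ r Q (U ++ F) ∧ U ++ F ∈ S.RF ∧
    S.St (U ++ F) ∧ Run S (cU S) F r U r'}

/-- path languages -/
def PL (m1 m2 : ℕ) (r r' : Ω) : Language A :=
  {T | T ∈ S.RF ∧ S.St T ∧ (T ∈ RL S (cU S) m2 r r' ∨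
    ∃ r0 r1, ∃ s ∈ SL S m1 r r0, ∃ ks ∈ KStar.kstar (KL S m1), ∃ e ∈ EL S m2 r1 r',
      T = s ++ (ks ++ e))}

variable {S}

theorem RF_right (ok : S.Ok) {u v : List A} (h : u ++ v ∈ S.RF) : v ∈ S.RF := by
  refine ok.RF_fac u v [] ?_
  simpa using h

theorem RF_left (ok : S.Ok) {u v : List A} (h : u ++ v ∈ S.RF) : u ∈ S.RF :=
  ok.RF_fac [] u v (by simpa using h)

/-- factors of a text, as needed for the pieces -/
theorem RF_mid (ok : S.Ok) {u v w : List A} {m : ℕ} (h : u ++ (v ++ w) ∈ S.RF) :
    u ++ (v ++ w.take m) ∈ S.RF := by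
  refine RF_left ok (v := w.drop m) ?_
  simpa [List.append_assoc] using h

theorem St_take (ok : S.Ok) {T : List A} {m : ℕ} (hm : S.n ≤ m) (hT : m ≤ T.length)
    (h : S.St T) : S.St (T.take m) := by
  have : S.St (T.take m ++ T.drop m) := by rwa [List.take_append_drop]
  refine (ok.St_loc _ _ ?_).1 this
  rw [List.length_take]; omega

/-- decomposition found along a run -/
def Dec (S : Sys A Ω) (m1 m2 : ℕ) (r : Ω) (T : List A) (r' : Ω) : Prop :=
  ∃ r0 r1, ∃ U P ks e, T = U ++ (P ++ (ks ++ e)) ∧ S.LP r0 P ∧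
    Run S (cU S) (P ++ (ks ++ e)) r U r0 ∧ ks ∈ KStar.kstar (KL S m1) ∧ e ∈ EL S m2 r1 r' ∧
    m2 ≤ e.length

theorem dec_of_run (ok : S.Ok) {m1 m2 : ℕ} (hn1 : S.n ≤ m1) (hD : S.D ≤ m1) (h12 : m1 ≤ m2)
    {F U : List A} (hF : F.length = m2) {r r' : Ω} (h : Run S (cP S) F r U r')
    (hRF : U ++ F ∈ S.RF) (hSt : S.St (U ++ F)) :
    Run S (cU S) F r U r' ∨ Dec S m1 m2 r (U ++ F) r' := by
  induction h with
  | nil r => exact Or.inl (Run.nil r)
  | cons r r' u U hn hc _ ih =>
    rw [List.append_assoc] at hRF hSt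
    have hRF' : U ++ F ∈ S.RF := RF_right ok hRF
    have hSt' : S.St (U ++ F) := ok.Nd_St _ _ hn
    have ih' := ih hRF' hSt'
    have hlen : S.n ≤ (U ++ F).length := by rw [List.length_append]; omega
    by_cases hcut : Cut S u (U ++ F) r
    · obtain ⟨P, Q, hu, hP, hQ⟩ := hcut
      right
      rcases ih' with h1 | ⟨r0, r1, Us, P', ks, e, hT, hP', hrun, hks, he, hel⟩
      · -- the rest is uncut
        refine ⟨r, S.ev u (U ++ F) r, [], P, [], Q ++ (U ++ F), ?_, hP, Run.nil _, ?_, ?_, ?_⟩
        · rw [hu]; simp [List.append_assoc]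
        · exact Language.nil_mem_kstar _
        · exact ⟨Q, U, F, rfl, hF, hQ, hRF', hSt', h1⟩
        · simp only [List.length_append]; omega
      · -- one more junction word
        have hPl := ok.LP_len _ _ hP'
        have hel2 : m1 ≤ (P' ++ (ks ++ e)).length := by
          simp only [List.length_append]; omega
        refine ⟨r, r1, [], P, (Q ++ (Us ++ P')) ++ ks, e, ?_, hP, Run.nil _, ?_, he, hel⟩
        · rw [hu]
          rw [List.append_assoc, hT]
          simp [List.append_assoc]
        · -- membership in the star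
          have hk : Q ++ (Us ++ P') ∈ KL S m1 := by
            refine ⟨S.ev u (U ++ F) r, r0, Q, Us, P', (ks ++ e).take (m1 - P'.length), rfl, ?_,
              hP', ?_, ?_, ?_, ?_⟩
            · rw [hT] at hQ ⊢
              have e1 : Us ++ (P' ++ (ks ++ e)) = (Us ++ P') ++ (ks ++ e) := by
                simp [List.append_assoc]
              rw [e1] at hQ
              refine (ok.RQ_loc _ _ _ _ ?_).1 (by rwa [e1])
              simp only [List.length_append]; omega
            · simp only [List.length_append, List.length_take] at hel2 ⊢; omega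
            · rw [hT] at hRF'
              exact RF_mid ok hRF'
            · rw [hT] at hSt'
              have e2 : Us ++ (P' ++ (ks ++ e)) =
                  (Us ++ (P' ++ (ks ++ e).take (m1 - P'.length))) ++
                    (ks ++ e).drop (m1 - P'.length) := by
                simp [List.append_assoc]
              rw [e2] at hSt'
              refine (ok.St_loc _ _ ?_).1 hSt'
              simp only [List.length_append] at hel2 ⊢; omega
            · have e2 : P' ++ (ks ++ e) =
                  (P' ++ (ks ++ e).take (m1 - P'.length)) ++ (ks ++ e).drop (m1 - P'.length) := by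
                simp [List.append_assoc]
              rw [e2] at hrun
              refine Run.restrict ok (loc_cU ok) ?_ hrun
              simp only [List.length_append]; omega
          rw [Language.mem_kstar] at hks ⊢
          obtain ⟨L, hL1, hL2⟩ := hks
          refine ⟨(Q ++ (Us ++ P')) :: L, ?_, ?_⟩
          · rw [List.flatten_cons, hL1]
          · intro y hy
            rcases List.mem_cons.1 hy with rfl | hy
            · exact hk
            · exact hL2 y hy
    · -- uncut unit
      rcases ih' with h1 | ⟨r0, r1, Us, P', ks, e, hT, hP', hrun, hks, he, hel⟩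
      · left
        exact Run.cons r r' u U hn ⟨hc, hcut⟩ h1
      · right
        refine ⟨r0, r1, u ++ Us, P', ks, e, ?_, hP', ?_, hks, he, hel⟩
        · rw [List.append_assoc, hT]; simp [List.append_assoc]
        · rw [hT] at hn hcut hc hrun
          exact Run.cons r r0 u Us hn ⟨hc, hcut⟩ hrun

/-- **completeness of paths** -/
theorem run_sub_PL (ok : S.Ok) {m1 m2 : ℕ} (hn1 : S.n ≤ m1) (hD : S.D ≤ m1) (h12 : m1 ≤ m2)
    {r r' : Ω} {T : List A} (hT : T ∈ RL S (cP S) m2 r r') : T ∈ PL S m1 m2 r r' := by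
  obtain ⟨hRF, hSt, U, F, rfl, hF, hrun⟩ := hT
  refine ⟨hRF, hSt, ?_⟩
  rcases dec_of_run ok hn1 hD h12 hF hrun hRF hSt with h | ⟨r0, r1, Us, P, ks, e, hT, hP, hr, hks, he, hel⟩
  · exact Or.inl ⟨hRF, hSt, U, F, rfl, hF, h⟩
  · right
    have hPl := ok.LP_len _ _ hP
    have hel2 : m1 ≤ (P ++ (ks ++ e)).length := by
      simp only [List.length_append]; omega
    refine ⟨r0, r1, Us ++ P, ?_, ks, hks, e, he, ?_⟩
    · refine ⟨Us, P, (ks ++ e).take (m1 - P.length), rfl, hP, ?_, ?_, ?_, ?_⟩
      · simp only [List.length_append, List.length_take] at hel2 ⊢; omega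
      · rw [hT] at hRF; exact RF_mid ok hRF
      · rw [hT] at hSt
        have e2 : Us ++ (P ++ (ks ++ e)) =
            (Us ++ (P ++ (ks ++ e).take (m1 - P.length))) ++
              (ks ++ e).drop (m1 - P.length) := by
          simp [List.append_assoc]
        rw [e2] at hSt
        refine (ok.St_loc _ _ ?_).1 hSt
        simp only [List.length_append] at hel2 ⊢; omega
      · have e2 : P ++ (ks ++ e) =
            (P ++ (ks ++ e).take (m1 - P.length)) ++ (ks ++ e).drop (m1 - P.length) := by
          simp [List.append_assoc]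
        rw [e2] at hr
        refine Run.restrict ok (loc_cU ok) ?_ hr
        simp only [List.length_append]; omega
    · rw [hT]; simp [List.append_assoc]

end Crest.Agent.R320.Thread_259
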