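import Crest.Agent.R320.Thread_542

/-!
# Row 320, thread calculus, part 2 (helper542): completeness along a chain
-/

set_option autoImplicit false

namespace Crest.Agent.R320.Thr_542

universe u

variable {α : Type u} {V : Type}

/-- the chain from `s` has all its zones in `P`, until at most `D` letters are left -/
inductive ChainP (next : List α → Option ℕ) (D : ℕ) (P : List α → Prop) : List α → Prop
  | stop (s : List α) (h : s.length ≤ D) : ChainP next D P s
  | step (s : List α) (t : ℕ) (h : next s = some t) (hP : P s)
      (h' : ChainP next D P (s.drop t)) : ChainP next D P s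

theorem ChainP.mono {next : List α → Option ℕ} {D : ℕ} {P Q : List α → Prop}
    (h : ∀ s, P s → Q s) {s : List α} (hs : ChainP next D P s) : ChainP next D Q s := by
  induction hs with
  | stop s h1 => exact ChainP.stop _ h1
  | step s t h1 hP h' ih => exact ChainP.step _ t h1 (h _ hP) ih

variable {next : List α → Option ℕ} {act : List α → V → V} {n Z : ℕ}

/-- the token `v` is cut in the zone which starts the suffix `s` -/
def Cut (S : Scheme α V next act n Z) (s : List α) (v : V) : Prop :=
  ∃ x, S.Lr (s.take x) v ∧ x ≤ s.length ∧ ∃ y, S.Rr (s.drop x) = some y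

/-- locality of a zone property -/
def PLoc (next : List α → Option ℕ) (P : List α → Prop) : Prop :=
  ∀ s r t, next s = some t → P (s ++ r) → P s

theorem Nx.loc' (hn : Nx next n Z) {a rest : List α} {t : ℕ} (x : List α) (hx : x.length = t)
    (h : next (x ++ (a ++ rest)) = some t) (ha : n ≤ a.length) : next (x ++ a) = some t := by
  rw [← List.append_assoc] at h
  refine hn.loc _ _ _ ?_ h
  rw [List.length_append]
  omega

/-- along a chain some anchor has at most `D` letters left -/
theorem ChainP.exists_end {D : ℕ} {Q : List α → Prop} {s : List α} (hs : ChainP next D Q s) :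
    ∃ c, c ≤ D ∧ ∀ v, ∃ v', s ∈ NoneL next act c v' v := by
  induction hs with
  | stop s h => exact ⟨s.length, h, fun v => ⟨v, s, Reach.refl _ _, rfl⟩⟩
  | step s t h hq h' ih =>
    obtain ⟨c, hc, ih⟩ := ih
    refine ⟨c, hc, fun v => ?_⟩
    obtain ⟨v', s', h1, h2⟩ := ih (act s v)
    exact ⟨v', s', Reach.step _ _ t _ _ h h1, h2⟩

/-- the statement proved by induction along the chain -/
theorem complete (S : Scheme α V next act n Z) (D : ℕ) (hD : Z ≤ D) (P Q : List α → Prop)
    (hP : PLoc next P)
    (hQ : ∀ s, Q s → (∃ t, next s = some t) → P s ∨ ∀ v, Cut S s v)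
    (c : ℕ) (hc : c ≤ D) (v' : V) (s : List α) (hs : ChainP next D Q s) :
    ∀ v, s ∈ NoneL next act c v' v →
      ChainP next D P s ∨
      ∃ a rest, s = a ++ rest ∧ ChainP next D P a ∧ a ∈ StartL S v ∧
        n ≤ a.length ∧
        ∃ l : List (List α), ∃ e, rest = l.flatten ++ e ∧
          (∀ u ∈ l, ∃ t v1, S.Rr u = some (t, v1) ∧ u.drop t ∈ StartL S v1 ∧
            ChainP next D P (u.drop t)) ∧
          ∃ t v1, S.Rr e = some (t, v1) ∧ e.drop t ∈ NoneL next act c v' v1 ∧
            ChainP next D P (e.drop t) := by
  induction hs with
  | stop s h => exact fun v _ => Or.inl (ChainP.stop _ h)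
  | step s t h hq h' ih =>
    rintro v ⟨s', hs', hs'c⟩
    cases hs' with
    | refl => exact Or.inl (ChainP.stop _ (hs'c.le.trans hc))
    | step _ _ t0 _ _ h0 hs' =>
    rw [h] at h0
    obtain rfl : t = t0 := Option.some.inj h0
    have htl : t ≤ s.length := S.nx.le h
    have htk : (s.take t).length = t := by rw [List.length_take]; omega
    have hv := ih (act s v) ⟨s', hs', hs'c⟩
    rcases hQ s hq ⟨t, h⟩ with hb | hb
    · rcases hv with h1 | ⟨a, rest, h1, h2, ⟨p, w, h3, h3'⟩, h4, h5⟩
      · left
        exact ChainP.step _ t h hb h1
      · right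
        have hs : s = (s.take t ++ a) ++ rest := by
          rw [List.append_assoc, ← h1, List.take_append_drop]
        have hn : next (s.take t ++ a) = some t := by
          refine S.nx.loc' (rest := rest) _ htk ?_ h4
          rw [← List.append_assoc, ← hs]
          exact h
        have hd : (s.take t ++ a).drop t = a := by
          have := List.drop_left (l₁ := s.take t) (l₂ := a)
          rwa [htk] at this
        have hact : act (s.take t ++ a) v = act s v := by
          have := S.ast _ rest t v hn
          rw [← hs] at this
          exact this.symm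
        refine ⟨s.take t ++ a, rest, hs, ?_, ⟨p, w, ?_, h3'⟩, ?_, h5⟩
        · refine ChainP.step _ t hn ?_ ?_
          · refine hP _ rest t hn ?_
            rw [← hs]; exact hb
          · rw [hd]; exact h2
        · refine Reach.step _ _ t _ _ hn ?_
          rw [hd, hact]; exact h3
        · rw [List.length_append]; omega
    · obtain ⟨x, hx1, hx2, ⟨ty, wy⟩, hx3⟩ := hb v
      have hxl : (s.take x).length = x := by rw [List.length_take]; omega
      obtain ⟨he1, he2⟩ := S.exact _ _ _ _ _ hx1 hx3
      rw [List.take_append_drop] at he1 he2
      rw [hxl] at he1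
      have hty : t = x + ty := by
        rw [h] at he1; exact Option.some.inj he1
      have hdd : (s.drop x).drop ty = s.drop t := by rw [List.drop_drop, hty]
      have hxD : x ≤ D := by
        have := S.Lr_bd _ _ hx1
        omega
      have hty2 : ty ≤ (s.drop x).length := Scheme.Rr_le hx3
      right
      rcases hv with h1 | ⟨a, rest, h1, h2, ⟨p, w, h3, h3'⟩, h4, l, e, h5, h6, h7⟩
      · refine ⟨s.take x, s.drop x, (List.take_append_drop _ _).symm, ChainP.stop _ (by omega),
          ⟨s.take x, v, Reach.refl _ _, hx1⟩, S.Lr_len _ _ hx1, [], s.drop x, by simp, by simp,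
          ty, wy, hx3, ⟨s', ?_, hs'c⟩, ?_⟩
        · rw [hdd, ← he2]; exact hs'
        · rw [hdd]; exact h1
      · have hu : s.drop x = ((s.drop x).take ty ++ a) ++ rest := by
          rw [List.append_assoc, ← h1, ← hdd, List.take_append_drop]
        have hul : ((s.drop x).take ty).length = ty := by rw [List.length_take]; omega
        have hd : ((s.drop x).take ty ++ a).drop ty = a := by
          have := List.drop_left (l₁ := (s.drop x).take ty) (l₂ := a)
          rwa [hul] at this
        refine ⟨s.take x, s.drop x, (List.take_append_drop _ _).symm, ChainP.stop _ (by omega),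
          ⟨s.take x, v, Reach.refl _ _, hx1⟩, S.Lr_len _ _ hx1,
          ((s.drop x).take ty ++ a) :: l, e, ?_, ?_, h7⟩
        · rw [List.flatten_cons, List.append_assoc, ← h5]; exact hu
        · intro u hu'
          rcases List.mem_cons.1 hu' with rfl | hu'
          · refine ⟨ty, wy, ?_, ?_, ?_⟩
            · refine S.Rr_loc _ rest _ ?_ ?_
              · rw [List.length_append, hul]; simp only; omega
              · rw [← hu]; exact hx3
            · rw [hd]
              refine ⟨p, w, ?_, h3'⟩
              rw [← he2]; exact h3
            · rw [hd]; exact h2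
          · exact h6 u hu'

end Crest.Agent.R320.Thr_542
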