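import Crest.Agent.R320.Thread2_259

/-!
# Row 320, thread calculus (helper259): soundness of paths on the promise, first failure
-/

set_option autoImplicit false

namespace Crest.Agent.R320.Thread_259

open Crest.Agent.R320.Hk_851

universe u v

variable {A : Type u} {Ω : Type v} {S : Sys A Ω}

/-- one junction: the true unit is `P ++ Q` -/
theorem junction (ok : S.Ok) {V P Q F : List A} {r ra rq : Ω}
    (hRF : V ++ (P ++ (Q ++ F)) ∈ S.RF) (hSt : S.St (V ++ (P ++ (Q ++ F))))
    (hlen : S.D + S.n ≤ F.length)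
    (hrun : Run S (cP S) (P ++ (Q ++ F)) r V ra) (hP : S.LP ra P) (hQ : S.RQ rq Q F)
    (H : ∀ u G', P ++ (Q ++ F) = u ++ G' → S.Nd u G' → S.n ≤ G'.length → S.Pm u G') :
    Run S (cP S) F r (V ++ (P ++ Q)) rq := by
  have hGRF : P ++ (Q ++ F) ∈ S.RF := RF_right ok hRF
  have hGSt : S.St (P ++ (Q ++ F)) := hrun.st ok hSt
  obtain ⟨u, G', hG, hNd, hu⟩ := ok.Nd_ex _ hGSt hGRF (by
    simp only [List.length_append]; omega)
  have hl : (P ++ (Q ++ F)).length = u.length + G'.length := by rw [hG, List.length_append]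
  have hnG : S.n ≤ G'.length := by
    simp only [List.length_append] at hl; omega
  have hPm := H u G' hG hNd hnG
  obtain ⟨h1, h2⟩ := ok.sound u G' P Q F ra rq (hG ▸ hGRF) (hG ▸ hGSt) hNd hnG hPm hG.symm
    (by omega) hP hQ
  have hF : G' = F := by
    have : (P ++ Q) ++ F = u ++ G' := by rw [← hG, List.append_assoc]
    rw [← h1] at this
    exact (List.append_cancel_left this).symm
  subst hF
  have hr : Run S (cP S) G' ra (u ++ []) rq := by
    refine Run.cons ra rq u [] (by simpa using hNd) (by simpa [cP] using hPm) ?_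
    rw [List.nil_append, ← h2]
    exact Run.nil _
  rw [List.append_nil] at hr
  rw [← h1]
  refine Run.append ?_ hr
  rw [← hG]; exact hrun

theorem snd_path (ok : S.Ok) {m2 : ℕ} (hm : S.D + S.n ≤ m2) (hn0 : 0 < S.n) {m1 : ℕ}
    {T : List A} {r r' r1 : Ω} (hRF : T ∈ S.RF) (hSt : S.St T)
    (H : ∀ V G ra, T = V ++ G → m2 < G.length → Run S (cP S) G r V ra →
      ∀ u G', G = u ++ G' → S.Nd u G' → S.n ≤ G'.length → S.Pm u G')
    (L : List (List A)) (hL : ∀ y ∈ L, y ∈ KL S m1) {e : List A} (he : e ∈ EL S m2 r1 r') :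
    ∀ (V P : List A) (ra : Ω), T = V ++ (P ++ (L.flatten ++ e)) →
      Run S (cP S) (P ++ (L.flatten ++ e)) r V ra → S.LP ra P →
      ∃ U F, T = U ++ F ∧ F.length = m2 ∧ Run S (cP S) F r U r' := by
  induction L with
  | nil =>
    intro V P ra hT hrun hP
    obtain ⟨Q, U1, F, rfl, hF, hQ, -, -, hr1⟩ := he
    simp only [List.flatten_nil, List.nil_append] at hT hrun
    have hPl := ok.LP_len _ _ hP
    have hr2 : Run S (cP S) (U1 ++ F) r (V ++ (P ++ Q)) r1 := by
      refine junction ok (hT ▸ hRF) (hT ▸ hSt) ?_ hrun hP hQ ?_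
      · rw [List.length_append]; omega
      · exact H V _ ra hT (by simp only [List.length_append]; omega) hrun
    refine ⟨(V ++ (P ++ Q)) ++ U1, F, ?_, hF, ?_⟩
    · rw [hT]; simp [List.append_assoc]
    · exact Run.append hr2 (hr1.mono fun _ _ _ h => h.1)
  | cons κ L ih =>
    intro V P ra hT hrun hP
    obtain ⟨rq, r'', Q, M, P', X, hκ, hQ, hP', -, -, -, hM⟩ := hL κ (List.mem_cons_self ..)
    have hel : m2 ≤ e.length := by
      obtain ⟨Q', U1, F, rfl, hF, -⟩ := he
      simp only [List.length_append]; omega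
    rw [List.flatten_cons, hκ] at hT hrun
    have e1 : P ++ ((Q ++ (M ++ P')) ++ L.flatten ++ e) =
        P ++ (Q ++ (M ++ (P' ++ (L.flatten ++ e)))) := by simp [List.append_assoc]
    rw [e1] at hT hrun
    have hPl := ok.LP_len _ _ hP
    have hPl' := ok.LP_len _ _ hP'
    have hQ' : S.RQ rq Q (M ++ (P' ++ (L.flatten ++ e))) := by
      have e2 : M ++ (P' ++ (L.flatten ++ e)) = (M ++ P') ++ (L.flatten ++ e) := by
        simp [List.append_assoc]
      rw [e2]
      exact (ok.RQ_loc _ _ _ _ (by rw [List.length_append]; omega)).2 hQ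
    have hr2 : Run S (cP S) (M ++ (P' ++ (L.flatten ++ e))) r (V ++ (P ++ Q)) rq := by
      refine junction ok (hT ▸ hRF) (hT ▸ hSt) ?_ hrun hP hQ' ?_
      · simp only [List.length_append]; omega
      · exact H V _ ra hT (by simp only [List.length_append]; omega) hrun
    have hr3 : Run S (cP S) (P' ++ (L.flatten ++ e)) rq M r'' :=
      ((Run.restrict ok (loc_cU ok) hPl'.1 hM).ext ok (loc_cU ok) _ hPl'.1).mono
        fun _ _ _ h => h.1
    have hr4 := Run.append hr2 hr3
    refine ih (fun y hy => hL y (List.mem_cons_of_mem _ hy)) ((V ++ (P ++ Q)) ++ M) P' r'' ?_ hr4 hP'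
    rw [hT]; simp [List.append_assoc]

/-- **soundness of paths**, given the promise at all true nodes before the end -/
theorem snd (ok : S.Ok) {m1 m2 : ℕ} (hm : S.D + S.n ≤ m2) (hn0 : 0 < S.n)
    {T : List A} {r r' : Ω} (hT : T ∈ PL S m1 m2 r r')
    (H : ∀ V G ra, T = V ++ G → m2 < G.length → Run S (cP S) G r V ra →
      ∀ u G', G = u ++ G' → S.Nd u G' → S.n ≤ G'.length → S.Pm u G') :
    ∃ U F, T = U ++ F ∧ F.length = m2 ∧ Run S (cP S) F r U r' := by
  obtain ⟨hRF, hSt, h | ⟨r0, r1, s, hs, ks, hks, e, he, hT⟩⟩ := hT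
  · obtain ⟨-, -, U, F, h1, h2, h3⟩ := h
    exact ⟨U, F, h1, h2, h3.mono fun _ _ _ h => h.1⟩
  · obtain ⟨L, rfl, hL⟩ := Language.mem_kstar.1 hks
    obtain ⟨U, P, X, rfl, hP, -, -, -, hU⟩ := hs
    have hPl := ok.LP_len _ _ hP
    refine snd_path ok hm hn0 hRF hSt H L hL he U P r0 ?_ ?_ hP
    · rw [hT]; simp [List.append_assoc]
    · exact ((Run.restrict ok (loc_cU ok) hPl.1 hU).ext ok (loc_cU ok) _ hPl.1).mono
        fun _ _ _ h => h.1

/-- the promise holds at every true node before the end of a run with promise -/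
theorem pm_of_run (ok : S.Ok) {F U V G : List A} {r r' rb : Ω}
    (h : Run S (cP S) F r U r') (e : U ++ F = V ++ G) (hl : V.length < U.length)
    (h' : Run S (cP S) G r V rb) {u G' : List A} (hG : G = u ++ G') (hN : S.Nd u G') :
    S.Pm u G' := by
  obtain ⟨W, hW1, hW2, hW3⟩ := Run.split ok h h' e hl.le
  cases hW3 with
  | nil =>
    exfalso
    rw [hW1] at hl
    simp at hl
  | cons _ _ u2 U2 hn hc _ =>
    have e2 : u ++ G' = u2 ++ (U2 ++ F) := by
      rw [← hG, hW2, List.append_assoc]
    have hu : u = u2 := ok.Nd_det _ _ _ _ hN hn e2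
    subst hu
    have e3 : G' = U2 ++ F := List.append_cancel_left e2
    rw [e3]; exact hc

/-- a margin word which starts with a unit without promise -/
def BadStart (S : Sys A Ω) (F1 : List A) : Prop :=
  ∃ u G', F1 = u ++ G' ∧ S.Nd u G' ∧ S.n ≤ G'.length ∧ ¬ S.Pm u G'

/-- first failure -/
def ZL (S : Sys A Ω) (m1 m2 : ℕ) (r : Ω) : Language A :=
  {T | ∃ ra V G, T = V ++ G ∧ m2 < G.length ∧ V ++ G.take m2 ∈ PL S m1 m2 r ra ∧
    BadStart S (G.take m2)}

theorem RL_iff (ok : S.Ok) {m1 m2 : ℕ} (hn1 : S.n ≤ m1) (hD : S.D ≤ m1) (h12 : m1 ≤ m2)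
    (hm : S.D + S.n ≤ m2) (hn0 : 0 < S.n) {r r' : Ω} (T : List A) :
    T ∈ RL S (cP S) m2 r r' ↔ T ∈ PL S m1 m2 r r' ∧ ¬ T ∈ ZL S m1 m2 r := by
  constructor
  · intro hT
    refine ⟨run_sub_PL ok hn1 hD h12 hT, ?_⟩
    rintro ⟨ra, V, G, hVG, hG, hPL, u, G', hu, hN, hnG, hPm⟩
    obtain ⟨hRF, hSt, U, F, hUF, hF, hrun⟩ := hT
    have eT : U ++ F = V ++ G := by rw [← hUF, hVG]
    have hlT : U.length + F.length = V.length + G.length := by
      rw [← List.length_append, ← List.length_append, eT]
    -- the run in the truncated text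
    obtain ⟨U1, F1, e1, hF1, hr1⟩ := snd ok hm hn0 hPL (by
      intro V1 G1 rb h1 h2 h3 u1 G1' h4 h5 h6
      have hl1 : V.length + (G.take m2).length = V1.length + G1.length := by
        rw [← List.length_append, ← List.length_append, h1]
      rw [List.length_take] at hl1
      have e5 : U ++ F = V1 ++ (G1 ++ G.drop m2) := by
        rw [eT, ← List.append_assoc, ← h1, List.append_assoc, List.take_append_drop]
      have hnG1 : S.n ≤ G1.length := by omega
      have h7 : S.Pm u1 (G1' ++ G.drop m2) := by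
        refine pm_of_run ok hrun e5 (by omega) (h3.ext ok (loc_cP ok) _ hnG1)
          (u := u1) (G' := G1' ++ G.drop m2) ?_ ?_
        · rw [h4, List.append_assoc]
        · exact (ok.Nd_loc _ _ _ h6).2 h5
      exact (ok.Pm_loc _ _ _ h6).1 h7)
    have hlen1 : V.length = U1.length := by
      have : V.length + (G.take m2).length = U1.length + F1.length := by
        rw [← List.length_append, ← List.length_append, e1]
      rw [List.length_take] at this; omega
    obtain ⟨rfl, rfl⟩ := List.append_inj e1 hlen1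
    have hr2 : Run S (cP S) G r V ra := by
      have := hr1.ext ok (loc_cP ok) (G.drop m2) (by omega)
      rwa [List.take_append_drop] at this
    refine hPm ((ok.Pm_loc u G' (G.drop m2) hnG).1 ?_)
    refine pm_of_run ok hrun eT (by omega) hr2 (u := u) (G' := G' ++ G.drop m2) ?_ ?_
    · rw [← List.append_assoc, ← hu, List.take_append_drop]
    · exact (ok.Nd_loc _ _ _ hnG).2 hN
  · rintro ⟨hPL, hZ⟩
    have hRF := hPL.1
    have hSt := hPL.2.1
    obtain ⟨U, F, h1, h2, h3⟩ := snd ok hm hn0 hPL (by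
      intro V G rb hT hG hr u G' hG' hN hnG
      by_contra hPm
      refine hZ ⟨rb, V, G, hT, hG, ?_, ?_⟩
      · refine run_sub_PL ok hn1 hD h12 ⟨?_, ?_, V, G.take m2, rfl, ?_, ?_⟩
        · refine RF_left ok (v := G.drop m2) ?_
          rw [List.append_assoc, List.take_append_drop, ← hT]; exact hRF
        · refine (ok.St_loc _ (G.drop m2) ?_).1 ?_
          · rw [List.length_append, List.length_take]; omega
          · rw [List.append_assoc, List.take_append_drop, ← hT]; exact hSt
        · rw [List.length_take]; omega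
        · refine Run.restrict ok (loc_cP ok) (X := G.drop m2) ?_ ?_
          · rw [List.length_take]; omega
          · rw [List.take_append_drop]; exact hr
      · -- the unit is visible in the margin
        have hGRF : G ∈ S.RF := RF_right ok (hT ▸ hRF)
        have hGSt : S.St G := hr.st ok (hT ▸ hSt)
        obtain ⟨u0, G0, e0, hN0, hu0⟩ := ok.Nd_ex G hGSt hGRF (by omega)
        have hu : u = u0 := ok.Nd_det _ _ _ _ hN hN0 (by rw [← hG', e0])
        subst hu
        have hlG : G.length = u.length + G'.length := by rw [hG', List.length_append]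
        have e1 : G.take m2 = u ++ G'.take (m2 - u.length) := by
          rw [hG', List.take_append, List.take_of_length_le (by omega)]
        have e2 : G' = G'.take (m2 - u.length) ++ G'.drop (m2 - u.length) := by
          rw [List.take_append_drop]
        have hl2 : S.n ≤ (G'.take (m2 - u.length)).length := by
          rw [List.length_take]; omega
        refine ⟨u, G'.take (m2 - u.length), e1, ?_, hl2, ?_⟩
        · rw [e2] at hN; exact (ok.Nd_loc _ _ _ hl2).1 hN
        · intro h
          apply hPm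
          rw [e2]; exact (ok.Pm_loc _ _ _ hl2).2 h)
    exact ⟨hRF, hSt, U, F, h1, h2, h3⟩

end Crest.Agent.R320.Thread_259
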