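import Crest.Agent.R320.Thread3_259

/-!
# Row 320, thread calculus (helper259): one star per scheme

`HL_RL` : if the uncut runs have height `≤ k`, then all runs inside the promise have height
`≤ k + 1`.
-/

set_option autoImplicit false

namespace Crest.Agent.R320.Thread_259

open Crest.Agent.R320.Hk_851

universe u v

variable {A : Type u} {Ω : Type v} {S : Sys A Ω} {k : ℕ}

/-- set-builder languages (typed as `Language`) -/
def lg (p : List A → Prop) : Language A := {w | p w}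

theorem HL_sfx (P : List A) : HL k ({V | P <:+ V} : Language A) :=
  (HL.suffix (HL.word P)).congr fun w => by
    constructor
    · intro h; exact ⟨P, rfl, h⟩
    · rintro ⟨v, hv, h⟩; rw [Set.mem_singleton_iff.1 hv] at h; exact h

/-- a condition on the first `n` letters, on words of length at least `n` -/
theorem HL_pfx [Finite A] (n : ℕ) (p : List A → Prop) :
    HL k ({V | ∃ v, v.length = n ∧ p v ∧ v <+: V} : Language A) := by
  have h1 : HL k ({v : List A | v.length = n ∧ p v} : Language A) :=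
    HL.finite ((List.finite_length_eq A n).subset fun v hv => hv.1)
  exact h1.prefix.congr fun w => by
    constructor
    · rintro ⟨v, h1, h2, h3⟩; exact ⟨v, ⟨h1, h2⟩, h3⟩
    · rintro ⟨v, ⟨h1, h2⟩, h3⟩; exact ⟨v, h1, h2, h3⟩

theorem HL_and {p q : List A → Prop} (hp : HL k ({w | p w} : Language A))
    (hq : HL k ({w | q w} : Language A)) : HL k ({w | p w ∧ q w} : Language A) :=
  hp.setOf_and hq

theorem HL_mem {L : Language A} (h : HL k L) : HL k ({w | w ∈ L} : Language A) := h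

theorem HL_bex {s : Set (List A)} (hs : s.Finite) {p : List A → List A → Prop}
    (h : ∀ i ∈ s, HL k ({w | p i w} : Language A)) :
    HL k ({w | ∃ i ∈ s, p i w} : Language A) :=
  HL.biUnion hs (L := fun i => ({w | p i w} : Language A)) h

theorem HL_fex {ι : Type*} [Finite ι] {p : ι → List A → Prop}
    (h : ∀ i, HL k ({w | p i w} : Language A)) :
    HL k ({w | ∃ i, p i w} : Language A) :=
  HL.iUnion (L := fun i => ({w | p i w} : Language A)) h

variable [Finite A]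

theorem HL_SL (ok : S.Ok) {m1 : ℕ} {r r0 : Ω}
    (hU : HL k (RL S (cU S) m1 r r0)) : HL k (SL S m1 r r0) := by
  have h := HL_bex (k := k) (List.finite_length_le A S.D) (p := fun P w =>
    ∃ X ∈ {X : List A | X.length ≤ m1}, (S.LP r0 P ∧ (P ++ X).length = m1) ∧
      (P <:+ w ∧ w ++ X ∈ RL S (cU S) m1 r r0)) (fun P _ =>
    HL_bex (List.finite_length_le A m1) fun X _ =>
      (HL.const _).setOf_and ((HL_sfx P).setOf_and (hU.rquot X)))
  refine h.congr fun w => ?_
  constructor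
  · rintro ⟨U, P, X, rfl, hP, hl, hRF, hSt, hr⟩
    have e : (U ++ P) ++ X = U ++ (P ++ X) := List.append_assoc _ _ _
    refine ⟨P, (ok.LP_len _ _ hP).2, X, ?_, ⟨hP, hl⟩, ⟨U, rfl⟩, ?_⟩
    · change X.length ≤ m1
      rw [List.length_append] at hl; omega
    · rw [e]
      exact ⟨hRF, hSt, U, P ++ X, rfl, hl, hr⟩
  · rintro ⟨P, hP0, X, hX, ⟨hP, hl⟩, ⟨W, rfl⟩, hRF, hSt, U, F, hUF, hF, hr⟩
    have e : W ++ (P ++ X) = U ++ F := by rw [← hUF, List.append_assoc]
    obtain ⟨hW, hX2⟩ := List.append_inj' e (by rw [hl, hF])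
    subst hW
    subst hX2
    rw [List.append_assoc] at hRF hSt
    exact ⟨W, P, X, rfl, hP, hl, hRF, hSt, hr⟩

theorem HL_KL [Finite Ω] (ok : S.Ok) {m1 : ℕ}
    (hU : ∀ r r', HL k (RL S (cU S) m1 r r')) : HL k (KL S m1) := by
  have h := HL_bex (k := k) (List.finite_length_le A S.D) (p := fun Q w =>
    w ∈ lg (fun x => x = Q) * lg (fun V => ∃ P ∈ {P : List A | P.length ≤ S.D},
      ∃ X ∈ {X : List A | X.length ≤ m1}, ∃ r : Ω, ∃ r' : Ω,
      (S.LP r' P ∧ (P ++ X).length = m1) ∧ ((∃ v, v.length = S.n ∧ S.RQ r Q v ∧ v <+: V) ∧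
        (P <:+ V ∧ V ++ X ∈ RL S (cU S) m1 r r')))) (fun Q _ =>
      (HL.word Q : HL k (lg fun x => x = Q)).mul (HL_bex (List.finite_length_le A S.D) fun P _ =>
        HL_bex (List.finite_length_le A m1) fun X _ =>
          HL_fex fun r => HL_fex fun r' =>
            (HL.const _).setOf_and ((HL_pfx S.n (fun v => S.RQ r Q v)).setOf_and
              ((HL_sfx P).setOf_and ((hU r r').rquot X)))))
  refine h.congr fun w => ?_
  constructor
  · rintro ⟨r, r', Q, M, P, X, rfl, hQ, hP, hl, hRF, hSt, hr⟩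
    have e : (M ++ P) ++ X = M ++ (P ++ X) := List.append_assoc _ _ _
    refine ⟨Q, ok.RQ_len _ _ _ hQ, Language.mem_mul.2 ⟨Q, rfl, M ++ P, ?_, rfl⟩⟩
    have hPl := ok.LP_len _ _ hP
    refine ⟨P, hPl.2, X, ?_, r, r', ⟨hP, hl⟩, ⟨(M ++ P).take S.n, ?_, ?_, List.take_prefix _ _⟩,
      ⟨M, rfl⟩, ?_⟩
    · change X.length ≤ m1
      rw [List.length_append] at hl; omega
    · rw [List.length_take, List.length_append]; omega
    · refine (ok.RQ_loc r Q ((M ++ P).take S.n) ((M ++ P).drop S.n) ?_).1 ?_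
      · rw [List.length_take, List.length_append]; omega
      · rw [List.take_append_drop]; exact hQ
    · rw [e]
      exact ⟨hRF, hSt, M, P ++ X, rfl, hl, hr⟩
  · rintro ⟨Q, hQl, hw⟩
    obtain ⟨Q', hQ', V, ⟨P, hP0, X, hX, r, r', ⟨hP, hl⟩, ⟨v, hv1, hv2, hv3⟩, ⟨W, rfl⟩, hRF, hSt,
      U, F, hUF, hF, hr⟩, rfl⟩ := Language.mem_mul.1 hw
    have hQ'' : Q' = Q := hQ'
    subst hQ''
    have e : W ++ (P ++ X) = U ++ F := by rw [← hUF, List.append_assoc]
    obtain ⟨hW, hX2⟩ := List.append_inj' e (by rw [hl, hF])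
    subst hW
    subst hX2
    rw [List.append_assoc] at hRF hSt
    obtain ⟨z, hz⟩ := hv3
    refine ⟨r, r', Q', W, P, X, rfl, ?_, hP, hl, hRF, hSt, hr⟩
    rw [← hz]
    exact (ok.RQ_loc _ _ _ _ (by omega)).2 hv2

theorem RF_pos (ok : S.Ok) : HL k S.RF := ok.RF_HL.mono (Nat.zero_le _)

/-- larger margins -/
theorem HL_RL_margin (ok : S.Ok) {c : List A → List A → Ω → Prop} (hc : Loc S c) {m1 m2 : ℕ}
    (hn1 : S.n ≤ m1) (h12 : m1 ≤ m2) {r r' : Ω} (hU : HL k (RL S c m1 r r')) :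
    HL k (RL S c m2 r r') := by
  have h := (RF_pos (k := k) ok).inf
    (hU.mul (HL.length_eq (α := A) (k := k) (m2 - m1)))
  refine h.congr fun w => ?_
  constructor
  · rintro ⟨hRF, hSt, U, F, rfl, hF, hr⟩
    refine ⟨hRF, Language.mem_mul.2 ⟨U ++ F.take m1, ⟨?_, ?_, U, F.take m1, rfl, ?_, ?_⟩,
      F.drop m1, ?_, ?_⟩⟩
    · refine RF_left ok (v := F.drop m1) ?_
      rw [List.append_assoc, List.take_append_drop]; exact hRF
    · refine (ok.St_loc _ (F.drop m1) ?_).1 ?_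
      · rw [List.length_append, List.length_take]; omega
      · rw [List.append_assoc, List.take_append_drop]; exact hSt
    · rw [List.length_take]; omega
    · refine Run.restrict ok hc (X := F.drop m1) ?_ ?_
      · rw [List.length_take]; omega
      · rw [List.take_append_drop]; exact hr
    · change (F.drop m1).length = m2 - m1
      rw [List.length_drop]; omega
    · rw [List.append_assoc, List.take_append_drop]
  · rintro ⟨hRF, hw⟩
    obtain ⟨V, ⟨-, hSt, U, F, rfl, hF, hr⟩, G, hG, rfl⟩ := Language.mem_mul.1 hw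
    have hG' : G.length = m2 - m1 := hG
    refine ⟨hRF, ?_, U, F ++ G, ?_, ?_, ?_⟩
    · refine (ok.St_loc _ G ?_).2 hSt
      rw [List.length_append]; omega
    · rw [List.append_assoc]
    · rw [List.length_append]; omega
    · exact hr.ext ok hc G (by omega)

theorem HL_EL (ok : S.Ok) {m2 : ℕ} (hn2 : S.n ≤ m2) {r r' : Ω}
    (hU : HL k (RL S (cU S) m2 r r')) : HL k (EL S m2 r r') := by
  have h := HL_bex (k := k) (List.finite_length_le A S.D) (p := fun Q w =>
    w ∈ lg (fun x => x = Q) * lg (fun V => (∃ v, v.length = S.n ∧ S.RQ r Q v ∧ v <+: V) ∧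
      V ∈ RL S (cU S) m2 r r')) (fun Q _ =>
      (HL.word Q : HL k (lg fun x => x = Q)).mul ((HL_pfx S.n (fun v => S.RQ r Q v)).setOf_and hU))
  refine h.congr fun w => ?_
  constructor
  · rintro ⟨Q, U, F, rfl, hF, hQ, hRF, hSt, hr⟩
    refine ⟨Q, ok.RQ_len _ _ _ hQ, Language.mem_mul.2 ⟨Q, rfl, U ++ F, ⟨⟨(U ++ F).take S.n,
      ?_, ?_, List.take_prefix _ _⟩, hRF, hSt, U, F, rfl, hF, hr⟩, rfl⟩⟩
    · rw [List.length_take, List.length_append]; omega
    · refine (ok.RQ_loc r Q ((U ++ F).take S.n) ((U ++ F).drop S.n) ?_).1 ?_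
      · rw [List.length_take, List.length_append]; omega
      · rw [List.take_append_drop]; exact hQ
  · rintro ⟨Q, hQl, hw⟩
    obtain ⟨Q', hQ', V, ⟨⟨v, hv1, hv2, z, hz⟩, hRF, hSt, U, F, hUF, hF, hr⟩, rfl⟩ :=
      Language.mem_mul.1 hw
    have hQ'' : Q' = Q := hQ'
    subst hQ''
    subst hUF
    refine ⟨Q', U, F, rfl, hF, ?_, hRF, hSt, hr⟩
    rw [← hz]
    exact (ok.RQ_loc _ _ _ _ (by omega)).2 hv2

theorem HL_PL [Finite Ω] (ok : S.Ok) {m1 m2 : ℕ} (hn1 : S.n ≤ m1) (h12 : m1 ≤ m2)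
    (hU : ∀ r r', HL k (RL S (cU S) m1 r r')) (r r' : Ω) : HL (k + 1) (PL S m1 m2 r r') := by
  have hk : k ≤ k + 1 := Nat.le_succ k
  have hU2 : ∀ a b, HL k (RL S (cU S) m2 a b) := fun a b =>
    HL_RL_margin ok (loc_cU ok) hn1 h12 (hU a b)
  have h1 : HL (k + 1) ({w | ∃ r0 : Ω, ∃ r1 : Ω, w ∈ SL S m1 r r0 *
      (KStar.kstar (KL S m1) * EL S m2 r1 r')} : Language A) :=
    HL_fex fun r0 => HL_fex fun r1 =>
      ((HL_SL ok (hU r r0)).mono hk).mul
        ((HL_KL ok hU).star.mul ((HL_EL ok (hn1.trans h12) (hU2 r1 r')).mono hk))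
  have h := (RF_pos (k := k + 1) ok).setOf_and ((HL_pfx S.n S.St).setOf_and
    (HL.setOf_or ((hU2 r r').mono hk) h1))
  refine h.congr fun w => ?_
  constructor
  · rintro ⟨hRF, hSt, hw⟩
    have hlen : S.n ≤ w.length := by
      rcases hw with ⟨-, -, U, F, rfl, hF, -⟩ | ⟨r0, r1, s, hs, ks, hks, e, he, rfl⟩
      · rw [List.length_append]; omega
      · obtain ⟨Q, U, F, rfl, hF, -⟩ := he
        simp only [List.length_append]; omega
    refine ⟨hRF, ⟨w.take S.n, ?_, ?_, List.take_prefix _ _⟩, ?_⟩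
    · rw [List.length_take]; omega
    · exact St_take ok le_rfl hlen hSt
    · rcases hw with hw | ⟨r0, r1, s, hs, ks, hks, e, he, rfl⟩
      · exact Or.inl hw
      · exact Or.inr ⟨r0, r1, Language.mem_mul.2 ⟨s, hs, ks ++ e,
          Language.mem_mul.2 ⟨ks, hks, e, he, rfl⟩, rfl⟩⟩
  · rintro ⟨hRF, ⟨v, hv1, hv2, z, rfl⟩, hw⟩
    refine ⟨hRF, (ok.St_loc _ _ (by omega)).2 hv2, ?_⟩
    rcases hw with hw | ⟨r0, r1, hw⟩
    · exact Or.inl hw
    · obtain ⟨s, hs, t, ht, hst⟩ := Language.mem_mul.1 hw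
      obtain ⟨ks, hks, e, he, rfl⟩ := Language.mem_mul.1 ht
      exact Or.inr ⟨r0, r1, s, hs, ks, hks, e, he, hst.symm⟩

theorem HL_ZL [Finite Ω] {m1 m2 : ℕ} (hP : ∀ r r', HL k (PL S m1 m2 r r')) (r : Ω) :
    HL k (ZL S m1 m2 r) := by
  have hfin : ({F1 : List A | F1.length = m2 ∧ BadStart S F1} : Set (List A)).Finite :=
    (List.finite_length_eq A m2).subset fun v hv => hv.1
  have h : HL k ({w | ∃ ra : Ω, w ∈ lg (fun w => ∃ F1 ∈ {F1 : List A | F1.length = m2 ∧
      BadStart S F1}, F1 <:+ w ∧ w ∈ PL S m1 m2 r ra) * lg (fun W => 1 ≤ W.length)} :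
      Language A) :=
    HL_fex fun ra => (HL_bex hfin fun F1 _ => (HL_sfx F1).setOf_and (hP r ra)).mul
      (HL.length_ge 1)
  refine h.congr fun w => ?_
  constructor
  · rintro ⟨ra, V, G, rfl, hG, hPL, hB⟩
    refine ⟨ra, Language.mem_mul.2 ⟨V ++ G.take m2, ⟨G.take m2, ⟨?_, hB⟩, ⟨V, rfl⟩, hPL⟩,
      G.drop m2, ?_, ?_⟩⟩
    · rw [List.length_take]; omega
    · change 1 ≤ (G.drop m2).length
      rw [List.length_drop]; omega
    · rw [List.append_assoc, List.take_append_drop]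
  · rintro ⟨ra, hw⟩
    obtain ⟨T1, ⟨F1, ⟨hF1, hB⟩, ⟨V, rfl⟩, hPL⟩, W, hW, rfl⟩ := Language.mem_mul.1 hw
    have hW' : 1 ≤ W.length := hW
    have e1 : (F1 ++ W).take m2 = F1 := by
      rw [List.take_append_of_le_length (by omega), List.take_of_length_le (by omega)]
    refine ⟨ra, V, F1 ++ W, by rw [List.append_assoc], ?_, ?_, ?_⟩
    · rw [List.length_append]; omega
    · rw [e1]; exact hPL
    · rw [e1]; exact hB

/-- **one star per scheme** -/
theorem HL_RL [Finite Ω] (ok : S.Ok) (hn0 : 0 < S.n) {m1 m2 : ℕ} (hn1 : S.n ≤ m1)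
    (hD : S.D ≤ m1) (h12 : m1 ≤ m2) (hm : S.D + S.n ≤ m2)
    (hU : ∀ r r', HL k (RL S (cU S) m1 r r')) (r r' : Ω) :
    HL (k + 1) (RL S (cP S) m2 r r') := by
  have hP := HL_PL ok hn1 h12 hU
  have h := (hP r r').setOf_and (HL_ZL hP r).setOf_not
  exact h.congr fun w => RL_iff ok hn1 hD h12 hm hn0 w

end Crest.Agent.R320.Thread_259
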