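import Crest.Agent.R320.Hk2_851

/-!
# Row 320, item (9): abstract thread calculus over `HL` (helper344)

One star = one scheme.  A scheme is given by *semantic* languages:
`Sig` = words ending at a cut of the thread, `T` = words whose transport is the wanted one, and by
the languages which are really written: `St` (left edge .. first cut), `K` (cut .. next cut),
`En` (last cut .. right edge), `Short` (words without cut).

* `star_sound`    : `St ≤ Sig`, `Sig * K ≤ Sig`, `Sig * En ≤ T`  give `St * K∗ * En ≤ T`;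
* `star_complete` : length induction (every word of `Sig` has a last cut or lies in `St`);
* `HL.thread`     : `T` has height `≤ k + 1` as soon as `K` has height `≤ k`;
* `reading`       : the transports `v' = v.φ(w) + ν(w)` (unknown noise `ν`) determine `φ(w)`:
                    Boolean combination of the `T v v'`, no star;
* `HL.window`     : conditions on the first `D` / last `D` letters and on the value.
(The nested form, schemes and levels, is in `Level_344`.)
-/

set_option autoImplicit false

namespace Crest.Agent.R320.Thread_344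

open Crest.RegLang Crest.Agent.R320.Hk_851
open Computability

universe u

variable {α : Type u} {k : ℕ}

/-! ## (a) one star -/

theorem star_sound {St K En Sig T : Language α} (h0 : St ≤ Sig) (h1 : Sig * K ≤ Sig)
    (h2 : Sig * En ≤ T) : St * K∗ * En ≤ T :=
  (mul_le_mul_left (mul_kstar_le h0 h1) En).trans h2

theorem sig_complete {St K Sig : Language α}
    (h : ∀ x ∈ Sig, x ∈ St ∨ ∃ y ∈ Sig, ∃ z ∈ K, z ≠ [] ∧ x = y ++ z) : Sig ≤ St * K∗ := by
  have key : ∀ n : ℕ, ∀ x ∈ Sig, x.length ≤ n → x ∈ St * K∗ := by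
    intro n
    induction n with
    | zero =>
      intro x hx hn
      rcases h x hx with h1 | ⟨y, -, z, -, hz, rfl⟩
      · exact Language.mem_mul.2 ⟨x, h1, [], Language.nil_mem_kstar _, by simp⟩
      · exfalso
        apply hz
        have : z.length = 0 := by
          rw [List.length_append] at hn; omega
        exact List.length_eq_zero_iff.1 this
    | succ n ih =>
      intro x hx hn
      rcases h x hx with h1 | ⟨y, hy, z, hzK, hz, rfl⟩
      · exact Language.mem_mul.2 ⟨x, h1, [], Language.nil_mem_kstar _, by simp⟩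
      · have hl : y.length ≤ n := by
          have : 0 < z.length := List.length_pos_iff.2 hz
          rw [List.length_append] at hn; omega
        obtain ⟨a, ha, b, hb, rfl⟩ := Language.mem_mul.1 (ih y hy hl)
        have hb' : b ++ z ∈ K∗ := by
          have h2 : b ++ z ∈ K∗ * K := Language.mem_mul.2 ⟨b, hb, z, hzK, rfl⟩
          exact (kstar_mul_le_kstar : K∗ * K ≤ K∗) h2
        exact Language.mem_mul.2 ⟨a, ha, b ++ z, hb', by simp⟩
  intro x hx
  exact key x.length x hx le_rfl

theorem star_complete {St K En Sig T Short : Language α}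
    (hT : ∀ w ∈ T, w ∈ Short ∨ ∃ x ∈ Sig, ∃ y ∈ En, w = x ++ y)
    (hS : ∀ x ∈ Sig, x ∈ St ∨ ∃ y ∈ Sig, ∃ z ∈ K, z ≠ [] ∧ x = y ++ z) :
    T ≤ Short + St * K∗ * En := by
  intro w hw
  rcases hT w hw with h | ⟨x, hx, y, hy, rfl⟩
  · exact Or.inl h
  · exact Or.inr (Language.mem_mul.2 ⟨x, sig_complete hS hx, y, hy, rfl⟩)

theorem thread_eq {St K En Sig T Short : Language α} (h0 : St ≤ Sig) (h1 : Sig * K ≤ Sig)
    (h2 : Sig * En ≤ T) (h3 : Short ≤ T)
    (hT : ∀ w ∈ T, w ∈ Short ∨ ∃ x ∈ Sig, ∃ y ∈ En, w = x ++ y)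
    (hS : ∀ x ∈ Sig, x ∈ St ∨ ∃ y ∈ Sig, ∃ z ∈ K, z ≠ [] ∧ x = y ++ z) :
    T = Short + St * K∗ * En :=
  le_antisymm (star_complete hT hS) (sup_le h3 (star_sound h0 h1 h2))

/-! ## (b) height -/

theorem HL.thread {St K En Sig T Short : Language α}
    (hK : HL k K) (hSt : HL (k + 1) St) (hEn : HL (k + 1) En) (hSh : HL (k + 1) Short)
    (h0 : St ≤ Sig) (h1 : Sig * K ≤ Sig) (h2 : Sig * En ≤ T) (h3 : Short ≤ T)
    (hT : ∀ w ∈ T, w ∈ Short ∨ ∃ x ∈ Sig, ∃ y ∈ En, w = x ++ y)
    (hS : ∀ x ∈ Sig, x ∈ St ∨ ∃ y ∈ Sig, ∃ z ∈ K, z ≠ [] ∧ x = y ++ z) : HL (k + 1) T := by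
  rw [thread_eq h0 h1 h2 h3 hT hS]
  exact hSh.add ((hSt.mul hK.star).mul hEn)

/-- relative form: everything is asserted on a class `U` (of height `≤ k + 1`) which is closed
under the prefixes that are used; outside `U` the star may produce anything. -/
theorem HL.thread_on {St K En Sig T Short U : Language α}
    (hU : HL (k + 1) U)
    (hK : HL k K) (hSt : HL (k + 1) St) (hEn : HL (k + 1) En) (hSh : HL (k + 1) Short)
    (h0 : St ≤ Sig) (h1 : Sig * K ≤ Sig) (h2 : ∀ w ∈ Sig * En, w ∈ U → w ∈ T)
    (h3 : ∀ w ∈ Short, w ∈ U → w ∈ T)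
    (hT : ∀ w ∈ T, w ∈ U → w ∈ Short ∨ ∃ x ∈ Sig, ∃ y ∈ En, w = x ++ y)
    (hS : ∀ x ∈ Sig, x ∈ St ∨ ∃ y ∈ Sig, ∃ z ∈ K, z ≠ [] ∧ x = y ++ z) :
    HL (k + 1) ({w | w ∈ U ∧ w ∈ T} : Language α) := by
  have h := HL.setOf_and hU (HL.add hSh ((hSt.mul hK.star).mul hEn))
  refine HL.congr h fun w => ?_
  constructor
  · rintro ⟨hw, hwT⟩
    refine ⟨hw, ?_⟩
    rcases hT w hwT hw with h | ⟨x, hx, y, hy, rfl⟩
    · exact Or.inl h
    · exact Or.inr (Language.mem_mul.2 ⟨x, sig_complete hS hx, y, hy, rfl⟩)
  · rintro ⟨hw, h | h⟩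
    · exact ⟨hw, h3 w h hw⟩
    · exact ⟨hw, h2 w (star_sound h0 h1 le_rfl h) hw⟩

/-! ## (c) reading off the value -/

/-- **READING.** If on `U` the thread started with token `v` ends with `v.φ(w) + ν(w)`, the noise
`ν` being an arbitrary unknown function of `w`, then `{w ∈ U | φ w = s}` is a Boolean combination
of the thread languages. -/
theorem reading {V S : Type*} [AddCommGroup V] [Finite V] (act : V → S → V) (φ : List α → S)
    (ν : List α → V) (h0 : ∀ s, act 0 s = 0) (hf : ∀ s t, (∀ v, act v s = act v t) → s = t)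
    {U : Language α} (hU : HL k U) {T : V → V → Language α} (hT : ∀ v v', HL k (T v v'))
    (hr : ∀ w ∈ U, ∀ v v', w ∈ T v v' ↔ v' = act v (φ w) + ν w) (s : S) :
    HL k ({w | w ∈ U ∧ φ w = s} : Language α) := by
  have h1 : ∀ v : V, HL k ({w | ∃ c : V, w ∈ T 0 c ∧ w ∈ T v (act v s + c)} : Language α) :=
    fun v => HL.iUnion fun c => (HL.setOf_and (hT 0 c) (hT v (act v s + c)))
  refine HL.congr (HL.setOf_and hU (HL.iInter h1)) fun w => ?_
  constructor
  · rintro ⟨hw, hs⟩
    refine ⟨hw, fun v => ⟨ν w, (hr w hw 0 _).2 ?_, (hr w hw v _).2 ?_⟩⟩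
    · rw [h0, zero_add]
    · rw [hs]
  · rintro ⟨hw, h⟩
    refine ⟨hw, hf _ _ fun v => ?_⟩
    obtain ⟨c, hc, hv⟩ := h v
    have e1 := (hr w hw 0 c).1 hc
    have e2 := (hr w hw v _).1 hv
    rw [h0, zero_add] at e1
    rw [e1] at e2
    exact (add_right_cancel e2).symm

/-! ## (d) windows -/

/-- conditions on the first `D` letters, the last `D` letters and the value -/
theorem HL.window [Finite α] {S : Type*} [Finite S] {φ : List α → S} {Free : Language α}
    (h : ∀ s, HL k ({w | w ∈ Free ∧ φ w = s} : Language α)) (D : ℕ)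
    (A : List α → List α → S → Prop) :
    HL k ({w | w ∈ Free ∧ A (w.take D) (w.drop (w.length - D)) (φ w)} : Language α) := by
  have hfin : ({p : List α | p.length ≤ D}).Finite := List.finite_length_le α D
  have hp : ∀ p : List α, p.length ≤ D → HL k ({w | w.take D = p} : Language α) := by
    intro p hp
    by_cases hD : p.length = D
    · refine HL.congr (HL.prefix (HL.word p)) fun w => ?_
      constructor
      · intro hw
        refine ⟨p, rfl, ?_⟩
        rw [← (show w.take D = p from hw)]
        exact List.take_prefix _ _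
      · rintro ⟨v, hv, hvw⟩
        rw [Set.mem_singleton_iff.1 hv] at hvw
        have := List.prefix_iff_eq_take.1 hvw
        rw [hD] at this
        exact this.symm
    · refine HL.congr (HL.word p) fun w => ?_
      constructor
      · intro hw
        have hw' : w.take D = p := hw
        have hl : w.length ≤ D := by
          by_contra hc
          apply hD
          rw [← hw', List.length_take]
          omega
        rw [List.take_of_length_le hl] at hw'
        exact hw'
      · intro hw
        rw [Set.mem_singleton_iff.1 hw]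
        exact List.take_of_length_le hp
  have hq : ∀ p : List α, p.length ≤ D →
      HL k ({w | w.drop (w.length - D) = p} : Language α) := by
    intro p hpl
    have hpr := hp p.reverse (by rw [List.length_reverse]; exact hpl)
    refine HL.congr (HL.reverse hpr) fun w => ?_
    change w.drop (w.length - D) = p ↔ w.reverse.take D = p.reverse
    rw [List.take_reverse, List.reverse_inj]
  have h1 := HL.biUnion (k := k) hfin (L := fun p => ({w | ∃ q ∈ {p : List α | p.length ≤ D},
      w ∈ ({w | ∃ s : S, w ∈ ({w | (A p q s) ∧ (w.take D = p ∧ (w.drop (w.length - D) = q ∧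
        (w ∈ Free ∧ φ w = s)))} : Language α)} : Language α)} : Language α))
    (fun p hpm => HL.biUnion hfin fun q hqm => HL.iUnion fun s =>
      HL.setOf_and (HL.const (A p q s)) (HL.setOf_and (hp p hpm) (HL.setOf_and (hq q hqm) (h s))))
  refine HL.congr h1 fun w => ?_
  constructor
  · rintro ⟨hw, hA⟩
    refine ⟨w.take D, ?_, w.drop (w.length - D), ?_, φ w, hA, rfl, rfl, hw, rfl⟩
    · exact (List.length_take_le _ _)
    · change (w.drop (w.length - D)).length ≤ D
      rw [List.length_drop]; omega
  · rintro ⟨p, -, q, -, s, hA, e1, e2, hw, e3⟩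
    refine ⟨hw, ?_⟩
    rw [e1, e2, e3]; exact hA

end Crest.Agent.R320.Thread_344
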