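import Crest.Agent.R320.Nest_413
import Mathlib.Computability.MyhillNerode

/-!
Row 320 (S0495), item (9): threads of a chain scheme.

A `Sch` is the abstract form of a wall scheme with a gadget: `next w` is the distance from an
anchor (whose text to the right is `w`) to the next anchor of its chain, `zm` the map of a zone on
the tokens (action of the content plus noise), `rs` the right side of a junction (first anchor seen
from the junction and the right label), `ll` the left side (label of the place, text from the last
anchor), `junction` = 818's lemma plus the gadget equation.  Then the thread languages satisfy all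
hypotheses of `Nest_413.nest`, with `Bad` = "no zone of the chain from the start cuts all tokens".
-/

set_option autoImplicit false

namespace Crest.Agent.R320.Thread_413

open Crest.Agent.R320.Hgt1_903 Crest.Agent.R320.Nest_413

/-- Abstract chain scheme. -/
structure Sch (α V : Type*) where
  next : List α → Option ℕ
  zm : List α → V → V
  rs : List α → Option (ℕ × V)
  ll : List α → Option V
  Anc : List α → Prop
  n : ℕ
  D : ℕ
  next_pos : ∀ w d, next w = some d → 0 < d
  next_vis : ∀ w d, next w = some d → d + n ≤ w.length ∧ next (w.take (d + n)) = some d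
  next_mono : ∀ w u d, next w = some d → next (w ++ u) = some d
  next_bd : ∀ w u, D ≤ w.length → next w = none → next (w ++ u) = none
  next_anc : ∀ w d, Anc w → next w = some d → Anc (w.drop d)
  rs_pos : ∀ y d r, rs y = some (d, r) → 0 < d
  rs_le : ∀ y d r, rs y = some (d, r) → d ≤ D
  rs_vis : ∀ y d r, rs y = some (d, r) → d + n ≤ y.length ∧ rs (y.take (d + n)) = some (d, r)
  rs_mono : ∀ y u x, rs y = some x → rs (y ++ u) = some x
  rs_bd : ∀ y u, D ≤ y.length → rs y = none → rs (y ++ u) = none
  rs_anc : ∀ y d r, rs y = some (d, r) → Anc (y.drop d)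
  anc_iff : ∀ y u, n ≤ y.length → (Anc (y ++ u) ↔ Anc y)
  ll_len : ∀ P v, ll P = some v → n ≤ P.length
  ll_lt : ∀ P v, ll P = some v → P.length < D
  ll_next : ∀ P v, ll P = some v → next P = none
  junction : ∀ P Q v d r, Anc (P ++ Q) → ll P = some v → rs Q = some (d, r) →
    next (P ++ Q) = some (P.length + d) ∧ zm ((P ++ Q).take (P.length + d)) v = r

namespace Sch

variable {α V : Type*} (S : Sch α V)

/-- `Run y v P v'`: following the chain from an anchor with text `y` and token `v` one reaches the
anchor with text `P` and token `v'`. -/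
inductive Run : List α → V → List α → V → Prop
  | refl (y : List α) (v : V) : Run y v y v
  | step (y : List α) (v : V) (d : ℕ) (P : List α) (v' : V) (h : S.next y = some d)
      (hr : Run (y.drop d) (S.zm (y.take d) v) P v') : Run y v P v'

variable {S}

theorem run_append {y P : List α} {v v' : V} (h : S.Run y v P v') (u : List α) :
    S.Run (y ++ u) v (P ++ u) v' := by
  induction h with
  | refl y v => exact Run.refl _ _
  | step y v d P v' h hr ih =>
    have hd : d ≤ y.length := by have := (S.next_vis _ _ h).1; omega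
    refine Run.step _ _ d _ _ (S.next_mono _ _ _ h) ?_
    rw [List.drop_append_of_le_length hd, List.take_append_of_le_length hd]
    exact ih

theorem run_trans {y P Q : List α} {v v' v'' : V} (h : S.Run y v P v') (h' : S.Run P v' Q v'') :
    S.Run y v Q v'' := by
  induction h with
  | refl y v => exact h'
  | step y v d P v' h hr ih => exact Run.step _ _ d _ _ h (ih h')

theorem run_anc {y P : List α} {v v' : V} (h : S.Run y v P v') (ha : S.Anc y) : S.Anc P := by
  induction h with
  | refl y v => exact ha
  | step y v d P v' h hr ih => exact ih (S.next_anc _ _ ha h)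

theorem run_len {y P : List α} {v v' : V} (h : S.Run y v P v') : P.length ≤ y.length := by
  induction h with
  | refl y v => exact le_rfl
  | step y v d P v' h hr ih =>
    rw [List.length_drop] at ih
    omega

theorem run_change {y P : List α} {v v' : V} (h : S.Run y v P v') :
    ∀ w : V, ∃ w', S.Run y w P w' := by
  induction h with
  | refl y v => exact fun w => ⟨w, Run.refl _ _⟩
  | step y v d P v' h hr ih =>
    intro w
    obtain ⟨w', hw⟩ := ih (S.zm (y.take d) w)
    exact ⟨w', Run.step _ _ d _ _ h hw⟩

/-- Determinism: a terminal run passes through every other one. -/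
theorem run_det {y P P1 : List α} {v v' v1 : V} (h1 : S.Run y v P1 v1) (h : S.Run y v P v')
    (hn : S.next P = none) : S.Run P1 v1 P v' := by
  induction h1 with
  | refl y v => exact h
  | step y v d P1 v1 h1 hr ih =>
    apply ih
    cases h with
    | refl => rw [hn] at h1; cases h1
    | step _ _ d' _ _ h2 hr2 =>
      rw [h1] at h2
      cases h2
      exact hr2

theorem run_term (y : List α) (v : V) : ∃ P v', S.Run y v P v' ∧ S.next P = none := by
  induction hk : y.length using Nat.strong_induction_on generalizing y v with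
  | _ k ih =>
    cases hn : S.next y with
    | none => exact ⟨y, v, Run.refl _ _, hn⟩
    | some d =>
      have h1 := S.next_pos _ _ hn
      have h2 := (S.next_vis _ _ hn).1
      obtain ⟨P, v', hr, hP⟩ := ih (y.drop d).length (by rw [List.length_drop]; omega)
        (y.drop d) (S.zm (y.take d) v) rfl
      exact ⟨P, v', Run.step _ _ d _ _ hn hr, hP⟩

/-- Truncation of a run: the anchors up to `P ++ Q` are seen from the text up to `P`. -/
theorem run_trunc {y W : List α} {v v' : V} (h : S.Run y v W v') :
    ∀ P Q : List α, W = P ++ Q → S.n ≤ P.length → ∃ y0, y = y0 ++ Q ∧ S.Run y0 v P v' ∧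
      P.length ≤ y0.length := by
  induction h with
  | refl y v => exact fun P Q e _ => ⟨P, e, Run.refl _ _, le_rfl⟩
  | step y v d W v' h hr ih =>
    intro P Q e hP
    obtain ⟨y1, e1, hr1, hl⟩ := ih P Q e hP
    obtain ⟨h2, h3⟩ := S.next_vis _ _ h
    have hd : d ≤ y.length := by omega
    have ey : y = (y.take d ++ y1) ++ Q := by
      rw [List.append_assoc, ← e1, List.take_append_drop]
    have hl1 : (y.take d).length = d := by rw [List.length_take]; omega
    refine ⟨y.take d ++ y1, ey, ?_, by rw [List.length_append]; omega⟩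
    have e3 : y.take (d + S.n) = y.take d ++ y1.take S.n := by
      conv_lhs => rw [ey]
      rw [List.take_append_of_le_length (by rw [List.length_append]; omega)]
      rw [List.take_append]
      rw [hl1, List.take_of_length_le (by rw [hl1]; omega)]
      congr 2
      omega
    have h4 : S.next (y.take d ++ y1) = some d := by
      have : y.take d ++ y1 = y.take (d + S.n) ++ y1.drop S.n := by
        rw [e3, List.append_assoc, List.take_append_drop]
      rw [this]
      exact S.next_mono _ _ _ h3
    refine Run.step _ _ d _ _ h4 ?_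
    rw [List.drop_left' hl1, List.take_left' hl1]
    exact hr1

variable (S)

/-- Words from an anchor with token `v0`, the last seen anchor satisfying `E`. -/
def X (v0 : V) (E : List α → V → Prop) : Language α :=
  {y | ∃ P v, S.Run y v0 P v ∧ S.next P = none ∧ E P v}

/-- Words from a junction, the last seen anchor satisfying `E`. -/
def Y (E : List α → V → Prop) : Language α :=
  {y | ∃ d r, S.rs y = some (d, r) ∧ y.drop d ∈ S.X r E}

/-- The end of the word is a cut of the thread. -/
def lE (P : List α) (v : V) : Prop := S.ll P = some v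

def AncL : Language α := {y | S.Anc y}

/-- All tokens are cut in the zone of this anchor. -/
def Cpl (w : List α) : Prop :=
  ∀ v, ∃ P Q, w = P ++ Q ∧ S.ll P = some v ∧ S.rs Q ≠ none

/-- No zone (except possibly the last one, which is not seen completely) is complete. -/
def BadC (y : List α) : Prop :=
  ∀ v v' P, S.Run y v P v' → S.next P ≠ none → ¬ S.Cpl P

def BadL : Language α := {y | S.Anc y ∧ S.BadC y}

def Bad : Language α := {y | ∃ u y', y = u ++ y' ∧ u.length ≤ S.D ∧ y' ∈ S.BadL}

variable {S}

theorem rs_ne {y : List α} {d : ℕ} {r : V} (h : S.rs y = some (d, r)) : y ≠ [] := by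
  rintro rfl
  have h1 := S.rs_pos _ _ _ h
  have h2 := (S.rs_vis _ _ _ h).1
  simp at h2
  omega

theorem Y_ne {E : List α → V → Prop} {y : List α} (h : y ∈ S.Y E) : y ≠ [] := by
  obtain ⟨d, r, h, _⟩ := h
  exact rs_ne h

theorem X_len {y : List α} {v0 : V} (h : y ∈ S.X v0 S.lE) : S.n ≤ y.length := by
  obtain ⟨P, v, hr, _, hl⟩ := h
  exact (S.ll_len _ _ hl).trans (run_len hr)

theorem joinX {E : List α → V → Prop} {y y' : List α} {v0 : V} (ha : S.Anc y)
    (hy : y ∈ S.X v0 S.lE) (hy' : y' ∈ S.Y E) : y ++ y' ∈ S.X v0 E := by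
  have hn := X_len hy
  obtain ⟨P, v, hr, hP, hl⟩ := hy
  obtain ⟨d, r, hrs, P', v', hr', hP', hE⟩ := hy'
  have h1 := run_append hr y'
  have h2 := run_anc h1 ((S.anc_iff _ _ hn).2 ha)
  obtain ⟨h3, h4⟩ := S.junction P y' v d r h2 hl hrs
  refine ⟨P', v', run_trans h1 (Run.step _ _ _ _ _ h3 ?_), hP', hE⟩
  rw [h4]
  have : (P ++ y').drop (P.length + d) = y'.drop d := by
    rw [List.drop_append]
    simp
  rw [this]
  exact hr'

theorem joinY {E : List α → V → Prop} {y y' : List α}
    (hy : y ∈ S.Y S.lE) (hy' : y' ∈ S.Y E) : y ++ y' ∈ S.Y E := by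
  obtain ⟨d, r, hrs, hX⟩ := hy
  have hd : d ≤ y.length := by have := (S.rs_vis _ _ _ hrs).1; omega
  refine ⟨d, r, S.rs_mono _ _ _ hrs, ?_⟩
  rw [List.drop_append_of_le_length hd]
  exact joinX (S.rs_anc _ _ _ hrs) hX hy'

/-- Splitting at the first complete zone. -/
theorem splitX {E : List α → V → Prop} {y : List α} {v0 : V} (ha : S.Anc y)
    (hy : y ∈ S.X v0 E) :
    S.BadC y ∨ ∃ y1 y2, y = y1 ++ y2 ∧ y1 ∈ S.X v0 S.lE ∧ y2 ∈ S.Y E := by
  classical
  obtain ⟨Pf, vf, hr, hn, hE⟩ := hy
  by_cases hb : S.BadC y
  · exact Or.inl hb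
  right
  simp only [BadC, not_forall, not_not] at hb
  obtain ⟨v, v', W, hW, hWn, hC⟩ := hb
  obtain ⟨w', hw⟩ := run_change hW v0
  obtain ⟨P, Q, rfl, hl, hq⟩ := hC w'
  obtain ⟨⟨d, r⟩, hrs⟩ := Option.ne_none_iff_exists'.1 hq
  obtain ⟨y0, rfl, hr0, _⟩ := run_trunc hw P Q rfl (S.ll_len _ _ hl)
  refine ⟨y0, Q, rfl, ⟨P, w', hr0, S.ll_next _ _ hl, hl⟩, d, r, hrs, Pf, vf, ?_, hn, hE⟩
  have h1 := run_det hw hr hn
  cases h1 with
  | refl => exact absurd hn hWn
  | step _ _ d' _ _ h2 hr2 =>
    obtain ⟨h3, h4⟩ := S.junction P Q w' d r (run_anc hw ha) hl hrs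
    rw [h3] at h2
    cases h2
    rw [h4] at hr2
    have : (P ++ Q).drop (P.length + d) = Q.drop d := by
      rw [List.drop_append]
      simp
    rw [this] at hr2
    exact hr2

/-- `splitX` also keeps the anchor. -/
theorem splitAnc {y1 y2 : List α} {v0 : V} (ha : S.Anc (y1 ++ y2)) (h1 : y1 ∈ S.X v0 S.lE) :
    S.Anc y1 := (S.anc_iff _ _ (X_len h1)).1 ha

theorem splitY {E : List α → V → Prop} {y : List α} (hy : y ∈ S.Y E) :
    y ∈ S.Bad ∨ ∃ y1 y2, y = y1 ++ y2 ∧ y1 ∈ S.Y S.lE ∧ y2 ∈ S.Y E := by
  obtain ⟨d, r, hrs, hX⟩ := hy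
  obtain ⟨hv1, hv2⟩ := S.rs_vis _ _ _ hrs
  have hd : d ≤ y.length := by omega
  have hA := S.rs_anc _ _ _ hrs
  rcases splitX hA hX with h | ⟨y1, y2, e, h1, h2⟩
  · refine Or.inl ⟨y.take d, y.drop d, (List.take_append_drop _ _).symm, ?_, hA, h⟩
    rw [List.length_take]
    have := S.rs_le _ _ _ hrs
    omega
  · right
    have hn := X_len h1
    have ey : y = (y.take d ++ y1) ++ y2 := by
      rw [List.append_assoc, ← e, List.take_append_drop]
    have hl1 : (y.take d).length = d := by rw [List.length_take]; omega
    refine ⟨y.take d ++ y1, y2, ey, ⟨d, r, ?_, ?_⟩, h2⟩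
    · have e3 : y.take (d + S.n) = y.take d ++ y1.take S.n := by
        conv_lhs => rw [ey]
        rw [List.take_append_of_le_length (by rw [List.length_append]; omega)]
        rw [List.take_append]
        rw [hl1, List.take_of_length_le (by rw [hl1]; omega)]
        congr 2
        omega
      have : y.take d ++ y1 = y.take (d + S.n) ++ y1.drop S.n := by
        rw [e3, List.append_assoc, List.take_append_drop]
      rw [this]
      exact S.rs_mono _ _ _ hv2
    · rw [List.drop_left' hl1]
      exact h1

/-! ### Regularity -/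

theorem regular_of_finite {L : Language α} {s : Set (Language α)} (hs : s.Finite)
    (h : ∀ u, L.leftQuotient u ∈ s) : L.IsRegular := by
  rw [Language.isRegular_iff_finite_range_leftQuotient]
  exact hs.subset (by rintro _ ⟨u, rfl⟩; exact h u)

theorem X_regular [Finite α] [Finite V] {E : List α → V → Prop}
    (hE : ∀ P v, E P v → P.length < S.D) (v0 : V) : (S.X v0 E).IsRegular := by
  refine regular_of_finite (s := {⊥} ∪
    (fun q : List α × V => ({y | q.1 ++ y ∈ S.X q.2 E} : Language α)) ''
      ({P : List α | P.length < S.D} ×ˢ (Set.univ : Set V))) ?_ ?_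
  · refine (Set.finite_singleton _).union (Set.Finite.image _ ?_)
    exact (List.finite_length_lt α S.D).prod Set.finite_univ
  · intro u
    obtain ⟨P, v, hr, hn⟩ := run_term (S := S) u v0
    by_cases hP : P.length < S.D
    · right
      refine ⟨(P, v), ⟨hP, Set.mem_univ _⟩, ?_⟩
      ext y
      constructor
      · rintro ⟨Pf, vf, hf, hnf, hEf⟩
        exact ⟨Pf, vf, run_trans (run_append hr y) hf, hnf, hEf⟩
      · rintro ⟨Pf, vf, hf, hnf, hEf⟩
        exact ⟨Pf, vf, run_det (run_append hr y) hf hnf, hnf, hEf⟩
    · left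
      ext y
      constructor
      · rintro ⟨Pf, vf, hf, hnf, hEf⟩
        have h1 := run_det (run_append hr y) hf hnf
        have h2 := S.next_bd P y (by omega) hn
        cases h1 with
        | refl =>
          have h3 := hE _ _ hEf
          rw [List.length_append] at h3
          omega
        | step _ _ d _ _ h4 _ => rw [h2] at h4; cases h4
      · intro h
        exact False.elim h

theorem Y_regular [Finite α] [Finite V] {E : List α → V → Prop}
    (hE : ∀ P v, E P v → P.length < S.D) : (S.Y E).IsRegular := by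
  refine regular_of_finite (s := ({⊥} ∪ ⋃ r : V, Set.range (S.X r E).leftQuotient) ∪
    (S.Y E).leftQuotient '' {u : List α | u.length < S.D}) ?_ ?_
  · refine ((Set.finite_singleton _).union (Set.finite_iUnion fun r => ?_)).union
      ((List.finite_length_lt α S.D).image _)
    exact (X_regular hE r).finite_range_leftQuotient
  · intro u
    by_cases hu : u.length < S.D
    · exact Or.inr ⟨u, hu, rfl⟩
    left
    cases hr : S.rs u with
    | none =>
      left
      ext y
      constructor
      · rintro ⟨d, r, h, _⟩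
        rw [S.rs_bd u y (by omega) hr] at h
        cases h
      · intro h
        exact False.elim h
    | some x =>
      obtain ⟨d, r⟩ := x
      right
      rw [Set.mem_iUnion]
      refine ⟨r, u.drop d, ?_⟩
      have hd : d ≤ u.length := by have := (S.rs_vis _ _ _ hr).1; omega
      ext y
      constructor
      · intro h
        refine ⟨d, r, S.rs_mono _ _ _ hr, ?_⟩
        rw [List.drop_append_of_le_length hd]
        exact h
      · rintro ⟨d', r', h, h'⟩
        rw [S.rs_mono _ _ _ hr] at h
        cases h
        rw [List.drop_append_of_le_length hd] at h'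
        exact h'

theorem AncL_regular [Finite α] : (S.AncL).IsRegular := by
  refine regular_of_finite (s := ({⊥} ∪ {⊤}) ∪
    (S.AncL).leftQuotient '' {u : List α | u.length < S.n}) ?_ ?_
  · exact ((Set.finite_singleton _).union (Set.finite_singleton _)).union
      ((List.finite_length_lt α S.n).image _)
  · intro u
    by_cases hu : u.length < S.n
    · exact Or.inr ⟨u, hu, rfl⟩
    left
    by_cases ha : S.Anc u
    · right
      ext y
      constructor
      · exact fun _ => trivial
      · exact fun _ => (S.anc_iff u y (by omega)).2 ha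
    · left
      ext y
      constructor
      · exact fun h => absurd ((S.anc_iff u y (by omega)).1 h) ha
      · intro h
        exact False.elim h

theorem leftQuotient_regular {L : Language α} (hL : L.IsRegular) (u : List α) :
    (L.leftQuotient u).IsRegular := by
  refine regular_of_finite hL.finite_range_leftQuotient fun v => ⟨u ++ v, ?_⟩
  rw [Language.leftQuotient_append]

/-- A solved class may be preceded by a bounded prefix. -/
theorem solv_prefix [Finite α] {n : ℕ} {B : Language α} (hB : Solv n B) (k : ℕ) :
    Solv n ({y | ∃ u y', y = u ++ y' ∧ u.length ≤ k ∧ y' ∈ B} : Language α) := by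
  intro L hL
  have hf : Finite {u : List α // u.length ≤ k} := (List.finite_length_le α k).to_subtype
  have := H.exists_fintype (n := n) (ι := {u : List α // u.length ≤ k})
    (fun u => ({u.1} : Language α) * (L.leftQuotient u.1 ⊓ B))
    (fun u => (H.word n u.1).mul (hB _ (leftQuotient_regular hL _)))
  refine this.congr fun w => ?_
  constructor
  · rintro ⟨u, hu⟩
    obtain ⟨a, ha, b, hb, rfl⟩ := Language.mem_mul.1 hu
    have ha' : a = u.1 := ha
    subst ha'
    exact ⟨hb.1, _, _, rfl, u.2, hb.2⟩
  · rintro ⟨hw, u, y, rfl, hu, hy⟩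
    exact ⟨⟨u, hu⟩, Language.mem_mul.2 ⟨u, rfl, y, ⟨hw, hy⟩, rfl⟩⟩

/-- THE STAR STEP.  If the words all of whose zones (from a given anchor) are incomplete are solved
at height `n`, then every thread language is of height `n + 1` on every factor closed class. -/
theorem star_step [Finite α] [Finite V] {n : ℕ} {G : Language α}
    (hG : ∀ u v, u ++ v ∈ G → u ∈ G ∧ v ∈ G) (hGH : H (n + 1) G)
    {E : List α → V → Prop} (hE : ∀ P v, E P v → P.length < S.D) (v0 : V)
    (hBad : Solv n (S.BadL)) : H (n + 1) ((S.AncL ⊓ S.X v0 E) ⊓ G) := by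
  have hll : ∀ P v, S.lE P v → P.length < S.D := fun P v h => S.ll_lt _ _ h
  refine nest (T := S.Y S.lE) (A := S.AncL ⊓ S.X v0 S.lE) (B := S.Y E)
    (C := S.AncL ⊓ S.X v0 E) (Bad := S.Bad) (G := G) hG ?_ ?_ ?_ ?_ ?_ ?_ ?_ ?_ ?_ ?_ ?_ ?_ hGH
  · exact fun y y' h h' => joinY h h'
  · exact fun y y' h h' => ⟨(S.anc_iff _ _ (X_len h.2)).2 h.1, joinX h.1 h.2 h'⟩
  · exact fun y y' h h' => ⟨(S.anc_iff _ _ (X_len h.2)).2 h.1, joinX h.1 h.2 h'⟩
  · intro y hy _
    rcases splitY hy with h | ⟨y1, y2, e, h1, h2⟩
    · exact Or.inl h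
    · exact Or.inr ⟨y1, y2, Y_ne h1, Y_ne h2, h1, h2, e⟩
  · intro y hy _
    rcases splitX hy.1 hy.2 with h | ⟨y1, y2, e, h1, h2⟩
    · exact Or.inl ⟨[], y, rfl, Nat.zero_le _, hy.1, h⟩
    · refine Or.inr ⟨y1, y2, Y_ne h2, ⟨?_, h1⟩, h2, e⟩
      subst e
      exact splitAnc hy.1 h1
  · intro y hy _
    rcases splitY hy with h | ⟨y1, y2, e, h1, h2⟩
    · exact Or.inl h
    · exact Or.inr ⟨y1, y2, Y_ne h1, h1, h2, e⟩
  · intro y hy _
    rcases splitX hy.1 hy.2 with h | ⟨y1, y2, e, h1, h2⟩
    · exact Or.inl ⟨[], y, rfl, Nat.zero_le _, hy.1, h⟩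
    · refine Or.inr ⟨y1, y2, ⟨?_, h1⟩, h2, e⟩
      subst e
      exact splitAnc hy.1 h1
  · exact Y_regular hll
  · exact AncL_regular.inf (X_regular hll v0)
  · exact Y_regular hE
  · exact AncL_regular.inf (X_regular hE v0)
  · exact solv_prefix hBad S.D

end Sch

end Crest.Agent.R320.Thread_413
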