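import Mathlib

/-!
# Row 320, thread calculus (helper542)

`next` reads the length of the zone from the suffix which starts at an anchor, `act` is the action
of the zone on values (linear part + noise; it may look `n` letters ahead).
`Reach next act s v s' v'`: following the chain from the suffix `s` with value `v` one arrives at the
suffix `s'` with value `v'`.

A scheme: `Lr p v` = left reading of the part `p` between the anchor and the junction (`v` = value at
the anchor), `Rr r` = right reading of the suffix at the junction (distance to the next anchor,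
value there).
-/

set_option autoImplicit false

namespace Crest.Agent.R320.Thr_542

universe u

variable {α : Type u} {V W : Type}

inductive Reach (next : List α → Option ℕ) (act : List α → V → V) :
    List α → V → List α → V → Prop
  | refl (s : List α) (v : V) : Reach next act s v s v
  | step (s : List α) (v : V) (t : ℕ) (s' : List α) (v' : V) (h : next s = some t)
      (h' : Reach next act (s.drop t) (act s v) s' v') : Reach next act s v s' v'

/-- the chain data: `next` is stable, positive, local with window `n` -/
structure Nx (next : List α → Option ℕ) (n Z : ℕ) : Prop where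
  stable : ∀ s r t, next s = some t → next (s ++ r) = some t
  pos : ∀ s t, next s = some t → 0 < t
  len : ∀ s t, next s = some t → t + n ≤ s.length
  bd : ∀ s t, next s = some t → t ≤ Z
  loc : ∀ s r t, t + n ≤ s.length → next (s ++ r) = some t → next s = some t

theorem Nx.le {next : List α → Option ℕ} {n Z : ℕ} (h : Nx next n Z) {s : List α} {t : ℕ}
    (h1 : next s = some t) : t ≤ s.length := (Nat.le_add_right _ _).trans (h.len s t h1)

/-- the action only looks at the zone and the window -/
def AStab (next : List α → Option ℕ) (act : List α → V → V) : Prop :=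
  ∀ s r t v, next s = some t → act (s ++ r) v = act s v

theorem take_app {s r : List α} {t : ℕ} (h : t ≤ s.length) : (s ++ r).take t = s.take t :=
  List.take_append_of_le_length h

theorem drop_app {s r : List α} {t : ℕ} (h : t ≤ s.length) : (s ++ r).drop t = s.drop t ++ r :=
  List.drop_append_of_le_length h

section chain

variable {next : List α → Option ℕ} {act : List α → V → V} {n Z : ℕ}

theorem Reach.app (hn : Nx next n Z) (ha : AStab next act) {s s' : List α} {v v' : V}
    (h : Reach next act s v s' v') (r : List α) : Reach next act (s ++ r) v (s' ++ r) v' := by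
  induction h with
  | refl s v => exact Reach.refl _ _
  | step s v t s' v' h h' ih =>
    refine Reach.step _ _ t _ _ (hn.stable _ _ _ h) ?_
    rw [drop_app (hn.le h), ha _ _ _ _ h]
    exact ih

theorem Reach.trans {s s' s'' : List α} {v v' v'' : V} (h : Reach next act s v s' v')
    (h2 : Reach next act s' v' s'' v'') : Reach next act s v s'' v'' := by
  induction h with
  | refl s v => exact h2
  | step s v t s' v' h h' ih => exact Reach.step _ _ t _ _ h (ih h2)

theorem Reach.suffix {s s' : List α} {v v' : V} (h : Reach next act s v s' v') :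
    ∃ p, s = p ++ s' := by
  induction h with
  | refl s v => exact ⟨[], rfl⟩
  | step s v t s' v' h h' ih =>
    obtain ⟨p, hp⟩ := ih
    refine ⟨s.take t ++ p, ?_⟩
    rw [List.append_assoc, ← hp, List.take_append_drop]

theorem Reach.len {s s' : List α} {v v' : V} (h : Reach next act s v s' v') :
    s'.length ≤ s.length := by
  obtain ⟨p, hp⟩ := h.suffix
  rw [hp, List.length_append]
  exact Nat.le_add_left _ _

/-- the endpoint is determined by its length; a second action along the same chain -/
theorem Reach.two {act2 : List α → W → W} (hn : Nx next n Z) {s s' : List α} {v v' : V}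
    (h : Reach next act s v s' v') : ∀ {w w' : W} {s'' : List α},
      Reach next act2 s w s'' w' → s'.length = s''.length →
      s' = s'' ∧ ∀ (U : Type) (act3 : List α → U → U) (g : V → W → U),
        (∀ s v w, act3 s (g v w) = g (act s v) (act2 s w)) →
        Reach next act3 s (g v w) s' (g v' w') := by
  induction h with
  | refl s v =>
    intro w w' s'' h2 hl
    cases h2 with
    | refl => exact ⟨rfl, fun U act3 g _ => Reach.refl _ _⟩
    | step _ _ t _ _ h1 h3 =>
      have := h3.len
      have h4 := hn.pos _ _ h1
      have h5 := hn.le h1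
      rw [List.length_drop] at this
      omega
  | step s v t s' v' h h' ih =>
    intro w w' s'' h2 hl
    cases h2 with
    | refl =>
      have := h'.len
      have h4 := hn.pos _ _ h
      have h5 := hn.le h
      rw [List.length_drop] at this
      omega
    | step _ _ t2 _ _ h1 h3 =>
      rw [h] at h1
      obtain rfl : t = t2 := Option.some.inj h1
      obtain ⟨e, hd⟩ := ih h3 hl
      refine ⟨e, fun U act3 g hg => Reach.step _ _ t _ _ h ?_⟩
      rw [hg]
      exact hd U act3 g hg

end chain

structure Scheme (α : Type u) (V : Type) (next : List α → Option ℕ) (act : List α → V → V)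
    (n Z : ℕ) where
  Lr : List α → V → Prop
  Rr : List α → Option (ℕ × V)
  nx : Nx next n Z
  ast : AStab next act
  Rr_stable : ∀ s r y, Rr s = some y → Rr (s ++ r) = some y
  Rr_len : ∀ s y, Rr s = some y → y.1 + n ≤ s.length
  Rr_bd : ∀ s y, Rr s = some y → y.1 ≤ Z
  Rr_loc : ∀ s r y, y.1 + n ≤ s.length → Rr (s ++ r) = some y → Rr s = some y
  Lr_len : ∀ p v, Lr p v → n ≤ p.length
  Lr_bd : ∀ p v, Lr p v → p.length ≤ Z
  exact : ∀ p v r t v', Lr p v → Rr r = some (t, v') →
    next (p ++ r) = some (p.length + t) ∧ act (p ++ r) v = v'

/-- arrival language -/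
def NoneL (next : List α → Option ℕ) (act : List α → V → V) (c : ℕ) (v' v : V) : Language α :=
  {s | ∃ s', Reach next act s v s' v' ∧ s'.length = c}

variable {next : List α → Option ℕ} {act : List α → V → V} {n Z : ℕ}
variable (S : Scheme α V next act n Z)

/-- the raw languages -/
def StartL (v : V) : Language α := {s | ∃ p v1, Reach next act s v p v1 ∧ S.Lr p v1}

def LegalL : Language α := {u | ∃ t v1, S.Rr u = some (t, v1) ∧ u.drop t ∈ StartL S v1}

def EndL (c : ℕ) (v' : V) : Language α :=
  {r | ∃ t v1, S.Rr r = some (t, v1) ∧ r.drop t ∈ NoneL next act c v' v1}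

variable {S}

theorem Scheme.Rr_le {s : List α} {y : ℕ × V} (h : S.Rr s = some y) : y.1 ≤ s.length :=
  (Nat.le_add_right _ _).trans (S.Rr_len s y h)

/-- one exact junction -/
theorem junction {p r : List α} {v v' : V} {t : ℕ} (hp : S.Lr p v) (hr : S.Rr r = some (t, v')) :
    Reach next act (p ++ r) v (r.drop t) v' := by
  obtain ⟨h1, h2⟩ := S.exact p v r t v' hp hr
  refine Reach.step _ _ _ _ _ h1 ?_
  rw [h2]
  have : (p ++ r).drop (p.length + t) = r.drop t := by
    rw [← List.drop_drop, List.drop_left]
  rw [this]
  exact Reach.refl _ _

/-- soundness of a product of legal words, ended by an end word -/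
theorem sound_aux {c : ℕ} {v' : V} (l : List (List α)) (hl : ∀ u ∈ l, u ∈ LegalL S)
    {r : List α} (hr : r ∈ EndL S c v') : l.flatten ++ r ∈ EndL S c v' := by
  induction l with
  | nil => exact hr
  | cons u l ih =>
    obtain ⟨t, v1, h1, p, w, h2, h3⟩ := hl u List.mem_cons_self
    obtain ⟨t2, v2, h4, s', h5, h6⟩ := ih fun x hx => hl x (List.mem_cons_of_mem _ hx)
    rw [List.flatten_cons, List.append_assoc]
    refine ⟨t, v1, S.Rr_stable _ _ _ h1, s', ?_, h6⟩
    rw [drop_app (Scheme.Rr_le h1)]
    exact (h2.app S.nx S.ast _).trans ((junction h3 h4).trans h5)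

theorem sound_start {c : ℕ} {v v' : V} {a r : List α} (ha : a ∈ StartL S v)
    (hr : r ∈ EndL S c v') : a ++ r ∈ NoneL next act c v' v := by
  obtain ⟨p, w, h2, h3⟩ := ha
  obtain ⟨t2, v2, h4, s', h5, h6⟩ := hr
  exact ⟨s', (h2.app S.nx S.ast _).trans ((junction h3 h4).trans h5), h6⟩

/-- the path language over inner approximations -/
def Path (A K E N : Language α) : Language α := N + A * (KStar.kstar K * E)

theorem sound {c : ℕ} {v v' : V} {A K E N : Language α} (hA : A ≤ StartL S v)
    (hK : K ≤ LegalL S) (hE : E ≤ EndL S c v') (hN : N ≤ NoneL next act c v' v) :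
    Path A K E N ≤ NoneL next act c v' v := by
  intro w hw
  rcases hw with hw | hw
  · exact hN hw
  · obtain ⟨a, ha, b, hb, rfl⟩ := Language.mem_mul.1 hw
    obtain ⟨k, hk, e, he, rfl⟩ := Language.mem_mul.1 hb
    obtain ⟨l, rfl, hl⟩ := Language.mem_kstar.1 hk
    exact sound_start (hA ha) (sound_aux l (fun u hu => hK (hl u hu)) (hE he))

end Crest.Agent.R320.Thr_542
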