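import Crest.Agent.R320.Hk1_851

/-!
# Row 320, thread calculus (helper603)

`Q`  : right-legal words (a right ideal), `Y` : words of `Q` that end at a left-legal place whose
label is the current value of the thread, `E d` : words of `Q` whose thread ends with datum `d`.
`X` : a prefix-closed promise set on which the scheme is sound.
-/

set_option autoImplicit false

namespace Crest.Agent.R320.Thr_603

open Crest.RegLang Crest.Agent.R320.Hk_851 Computability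

universe u v

variable {α : Type u} {n : ℕ}

/-- `w` is not cut: no prefix in `Y` with rest in `Q` -/
def Uncut (Q Y : Language α) (w : List α) : Prop :=
  ∀ p r : List α, w = p ++ r → p ∈ Y → r ∉ Q

/-- a cut word has a shortest cut, and its prefix is uncut -/
theorem shortest {Q Y : Language α} (hQ0 : ([] : List α) ∉ Q)
    (hQr : ∀ q t : List α, q ∈ Q → q ++ t ∈ Q) {w : List α} (h : ¬ Uncut Q Y w) :
    ∃ p r : List α, w = p ++ r ∧ p ∈ Y ∧ r ∈ Q ∧ Uncut Q Y p := by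
  classical
  have h' : ∃ m : ℕ, ∃ p r : List α, w = p ++ r ∧ p ∈ Y ∧ r ∈ Q ∧ p.length = m := by
    unfold Uncut at h
    push Not at h
    obtain ⟨p, r, h1, h2, h3⟩ := h
    exact ⟨p.length, p, r, h1, h2, h3, rfl⟩
  obtain ⟨p, r, h1, h2, h3, h4⟩ := Nat.find_spec h'
  refine ⟨p, r, h1, h2, h3, ?_⟩
  intro p1 r1 e1 hp1 hr1
  have hlt : p1.length < Nat.find h' := by
    rw [← h4, e1, List.length_append]
    have : r1.length ≠ 0 := by
      intro h0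
      rw [List.length_eq_zero_iff] at h0
      exact hQ0 (h0 ▸ hr1)
    omega
  exact Nat.find_min h' hlt ⟨p1, r1 ++ r, by rw [h1, e1, List.append_assoc], hp1,
    hQr _ _ hr1, rfl⟩

/-- the computed uncut set agrees with the true one on the promise -/
theorem uncut_iff {Q Y Y' : Language α} {X : Set (List α)} (hQ0 : ([] : List α) ∉ Q)
    (hQr : ∀ q t : List α, q ∈ Q → q ++ t ∈ Q)
    (hXp : ∀ p t : List α, p ++ t ∈ X → p ∈ X)
    (hYY : ∀ q ∈ X, Uncut Q Y q → (q ∈ Y' ↔ q ∈ Y))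
    {w : List α} (hw : w ∈ X) : w ∈ (Y' * Q)ᶜ ↔ Uncut Q Y w := by
  constructor
  · intro h
    by_contra hc
    obtain ⟨p, r, h1, h2, h3, h4⟩ := shortest hQ0 hQr hc
    apply h
    have hpX : p ∈ X := hXp p r (h1 ▸ hw)
    exact Language.mem_mul.2 ⟨p, (hYY p hpX h4).2 h2, r, h3, h1.symm⟩
  · intro h hm
    obtain ⟨p, hp, r, hr, e⟩ := Language.mem_mul.1 hm
    have hpX : p ∈ X := hXp p r (e ▸ hw)
    have hpI : Uncut Q Y p := by
      intro p1 r1 e1 hp1 hr1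
      exact h p1 (r1 ++ r) (by rw [← e, e1, List.append_assoc]) hp1 (hQr _ _ hr1)
    exact h p r e.symm ((hYY p hpX hpI).1 hp) hr

/-- a thread system on the promise set `X` -/
structure Thread {D : Type v} (Q Y : Language α) (E : D → Language α) (X : Set (List α)) :
    Prop where
  nil : ([] : List α) ∉ Q
  right : ∀ q t : List α, q ∈ Q → q ++ t ∈ Q
  YQ : ∀ y ∈ Y, y ∈ Q
  EQ : ∀ d, ∀ y ∈ E d, y ∈ Q
  pre : ∀ p t : List α, p ++ t ∈ X → p ∈ X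
  sound : ∀ p ∈ Y, ∀ q ∈ Q, p ++ q ∈ X →
    q ∈ X ∧ (p ++ q ∈ Y ↔ q ∈ Y) ∧ ∀ d, (p ++ q ∈ E d ↔ q ∈ E d)

theorem flat_mem {Q K T : Language α} (hQr : ∀ q t : List α, q ∈ Q → q ++ t ∈ Q)
    (hK : ∀ y ∈ K, y ∈ Q) (hT : ∀ y ∈ T, y ∈ Q) (L : List (List α)) (hL : ∀ y ∈ L, y ∈ K)
    {t : List α} (ht : t ∈ T) : L.flatten ++ t ∈ Q := by
  cases L with
  | nil => simpa using hT t ht
  | cons a L =>
    rw [List.flatten_cons, List.append_assoc]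
    exact hQr _ _ (hK a (hL a (by simp)))

/-- **T1, general form**: a family `G` of languages which is transported by the cuts -/
theorem t1_aux {Q Y G : Language α} {X : Set (List α)} (hnil : ([] : List α) ∉ Q)
    (hright : ∀ q t : List α, q ∈ Q → q ++ t ∈ Q)
    (hYQ : ∀ y ∈ Y, y ∈ Q)
    (hpre : ∀ p t : List α, p ++ t ∈ X → p ∈ X)
    (hsound : ∀ p ∈ Y, ∀ q ∈ Q, p ++ q ∈ X → q ∈ X ∧ (p ++ q ∈ G ↔ q ∈ G))
    {Y' G' : Language α}
    (hYY : ∀ q ∈ X, q ∈ Q → Uncut Q Y q → (q ∈ Y' ↔ q ∈ Y))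
    (hGG : ∀ q ∈ X, q ∈ Q → Uncut Q Y q → (q ∈ G' ↔ q ∈ G))
    {w : List α} (hw : w ∈ X) (hwQ : w ∈ Q) :
    w ∈ ((Y' ⊓ Q) ⊓ ((Y' ⊓ Q) * Q)ᶜ)∗ * ((G' ⊓ Q) ⊓ ((Y' ⊓ Q) * Q)ᶜ) ↔ w ∈ G := by
  have hYY2 : ∀ q ∈ X, Uncut Q Y q → (q ∈ Y' ⊓ Q ↔ q ∈ Y) := by
    intro q hq hu
    constructor
    · rintro ⟨h1, h2⟩
      exact (hYY q hq h2 hu).1 h1
    · intro h
      exact ⟨(hYY q hq (hYQ q h) hu).2 h, hYQ q h⟩
  have hI : ∀ {w : List α}, w ∈ X → (w ∈ ((Y' ⊓ Q) * Q)ᶜ ↔ Uncut Q Y w) := fun hw =>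
    uncut_iff hnil hright hpre hYY2 hw
  set K : Language α := (Y' ⊓ Q) ⊓ ((Y' ⊓ Q) * Q)ᶜ with hKdef
  set T : Language α := (G' ⊓ Q) ⊓ ((Y' ⊓ Q) * Q)ᶜ with hTdef
  have hKQ : ∀ y ∈ K, y ∈ Q := fun y hy => hy.1.2
  have hTQ : ∀ y ∈ T, y ∈ Q := fun y hy => hy.1.2
  constructor
  · intro h
    obtain ⟨a, ha, t, ht, e⟩ := Language.mem_mul.1 h
    obtain ⟨L, rfl, hL⟩ := Language.mem_kstar.1 ha
    clear h ha hwQ
    induction L generalizing w with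
    | nil =>
      simp only [List.flatten_nil, List.nil_append] at e
      subst e
      exact (hGG _ hw (hTQ _ ht) ((hI hw).1 ht.2)).1 ht.1.1
    | cons y L ih =>
      rw [List.flatten_cons, List.append_assoc] at e
      have hyX : y ∈ X := hpre y _ (e ▸ hw)
      have hyK : y ∈ K := hL y (by simp)
      have hyY : y ∈ Y := (hYY2 y hyX ((hI hyX).1 hyK.2)).1 hyK.1
      have hrQ : L.flatten ++ t ∈ Q :=
        flat_mem hright hKQ hTQ L (fun z hz => hL z (by simp [hz])) ht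
      have hs := hsound y hyY _ hrQ (e ▸ hw)
      rw [← e]
      exact hs.2.2 (ih hs.1 (fun z hz => hL z (by simp [hz])) rfl)
  · intro h
    obtain ⟨m, hm⟩ : ∃ m, w.length ≤ m := ⟨_, le_rfl⟩
    induction m generalizing w with
    | zero =>
      have : w = [] := List.length_eq_zero_iff.1 (by omega)
      exact absurd (this ▸ hwQ) hnil
    | succ m ih =>
      by_cases hu : Uncut Q Y w
      · refine Language.mem_mul.2 ⟨[], Language.mem_kstar.2 ⟨[], rfl, by simp⟩, w, ?_, by simp⟩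
        exact ⟨⟨(hGG w hw hwQ hu).2 h, hwQ⟩, (hI hw).2 hu⟩
      · obtain ⟨p, r, e, hp, hr, hpu⟩ := shortest hnil hright hu
        have hpX : p ∈ X := hpre p r (e ▸ hw)
        have hs := hsound p hp r hr (e ▸ hw)
        have hpK : p ∈ K := ⟨(hYY2 p hpX hpu).2 hp, (hI hpX).2 hpu⟩
        have hpne : p.length ≠ 0 := by
          intro h0
          rw [List.length_eq_zero_iff] at h0
          exact hnil (h0 ▸ hYQ p hp)
        have hlen : r.length ≤ m := by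
          have : w.length = p.length + r.length := by rw [e, List.length_append]
          omega
        obtain ⟨a, ha, t, ht, e2⟩ := Language.mem_mul.1
          (ih hs.1 hr (hs.2.1 (e ▸ h)) hlen)
        obtain ⟨L, rfl, hL⟩ := Language.mem_kstar.1 ha
        refine Language.mem_mul.2 ⟨(p :: L).flatten, Language.mem_kstar.2 ⟨p :: L, rfl, ?_⟩, t, ht, ?_⟩
        · intro y hy
          rcases List.mem_cons.1 hy with h1 | h1
          · exact h1 ▸ hpK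
          · exact hL y h1
        · rw [List.flatten_cons, List.append_assoc, e2, e]

/-- **T1** -/
theorem t1 {D : Type v} {Q Y : Language α} {E : D → Language α} {X : Set (List α)}
    (h : Thread Q Y E X) (hQn : HL n Q) {Y' : Language α} {E' : D → Language α}
    (hY' : HL n Y') (hE' : ∀ d, HL n (E' d))
    (hYY : ∀ q ∈ X, q ∈ Q → Uncut Q Y q → (q ∈ Y' ↔ q ∈ Y))
    (hEE : ∀ d, ∀ q ∈ X, q ∈ Q → Uncut Q Y q → (q ∈ E' d ↔ q ∈ E d)) :
    ∃ (Yh : Language α) (Eh : D → Language α), HL (n + 1) Yh ∧ (∀ d, HL (n + 1) (Eh d)) ∧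
      (∀ w ∈ X, w ∈ Q → (w ∈ Yh ↔ w ∈ Y)) ∧ ∀ d, ∀ w ∈ X, w ∈ Q → (w ∈ Eh d ↔ w ∈ E d) := by
  have hK : HL n ((Y' ⊓ Q) ⊓ ((Y' ⊓ Q) * Q)ᶜ) :=
    (hY'.inf hQn).inf ((hY'.inf hQn).mul hQn).compl
  refine ⟨((Y' ⊓ Q) ⊓ ((Y' ⊓ Q) * Q)ᶜ)∗ * ((Y' ⊓ Q) ⊓ ((Y' ⊓ Q) * Q)ᶜ),
    fun d => ((Y' ⊓ Q) ⊓ ((Y' ⊓ Q) * Q)ᶜ)∗ * ((E' d ⊓ Q) ⊓ ((Y' ⊓ Q) * Q)ᶜ),
    hK.star.mul (hK.mono (Nat.le_succ n)), fun d => hK.star.mul
      ((((hE' d).inf hQn).inf ((hY'.inf hQn).mul hQn).compl).mono (Nat.le_succ n)), ?_, ?_⟩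
  · intro w hw hwQ
    exact t1_aux h.nil h.right h.YQ h.pre
      (fun p hp q hq hx => ⟨(h.sound p hp q hq hx).1, (h.sound p hp q hq hx).2.1⟩) hYY hYY hw hwQ
  · intro d w hw hwQ
    exact t1_aux h.nil h.right h.YQ h.pre
      (fun p hp q hq hx => ⟨(h.sound p hp q hq hx).1, (h.sound p hp q hq hx).2.2 d⟩)
      hYY (hEE d) hw hwQ

/-- **T2** (start module) -/
theorem t2 {D : Type v} {Q J : Language α} {E E0 : D → Language α} {X X0 : Set (List α)}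
    (hnil : ([] : List α) ∉ Q) (hright : ∀ q t : List α, q ∈ Q → q ++ t ∈ Q)
    (hpre : ∀ p t : List α, p ++ t ∈ X0 → p ∈ X0)
    (hs : ∀ p ∈ J, ∀ q ∈ Q, p ++ q ∈ X0 → q ∈ X ∧ ∀ d, (p ++ q ∈ E0 d ↔ q ∈ E d))
    (hQn : HL n Q) {Eh : D → Language α} (hEh : ∀ d, HL n (Eh d))
    (hEE : ∀ d, ∀ w ∈ X, w ∈ Q → (w ∈ Eh d ↔ w ∈ E d))
    {J' : Language α} {E0' : D → Language α} (hJ' : HL n J') (hE0' : ∀ d, HL n (E0' d))
    (hJJ : ∀ w ∈ X0, Uncut Q J w → (w ∈ J' ↔ w ∈ J))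
    (hE0E0 : ∀ d, ∀ w ∈ X0, Uncut Q J w → (w ∈ E0' d ↔ w ∈ E0 d)) :
    ∃ M : D → Language α, (∀ d, HL n (M d)) ∧ ∀ d, ∀ w ∈ X0, (w ∈ M d ↔ w ∈ E0 d) := by
  have hI : ∀ {w : List α}, w ∈ X0 → (w ∈ (J' * Q)ᶜ ↔ Uncut Q J w) := fun hw =>
    uncut_iff hnil hright hpre hJJ hw
  refine ⟨fun d => ((J' ⊓ (J' * Q)ᶜ) * (Eh d ⊓ Q)) ⊔ (E0' d ⊓ (J' * Q)ᶜ), fun d =>
    ((hJ'.inf (hJ'.mul hQn).compl).mul ((hEh d).inf hQn)).sup
      ((hE0' d).inf (hJ'.mul hQn).compl), ?_⟩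
  intro d w hw
  constructor
  · rintro (h | h)
    · obtain ⟨p, hp, r, hr, e⟩ := Language.mem_mul.1 h
      have hpX : p ∈ X0 := hpre p r (e ▸ hw)
      have hpJ : p ∈ J := (hJJ p hpX ((hI hpX).1 hp.2)).1 hp.1
      have h2 := hs p hpJ r hr.2 (e ▸ hw)
      rw [← e]
      exact (h2.2 d).2 ((hEE d r h2.1 hr.2).1 hr.1)
    · exact (hE0E0 d w hw ((hI hw).1 h.2)).1 h.1
  · intro h
    by_cases hu : Uncut Q J w
    · exact Or.inr ⟨(hE0E0 d w hw hu).2 h, (hI hw).2 hu⟩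
    · obtain ⟨p, r, e, hp, hr, hpu⟩ := shortest hnil hright hu
      have hpX : p ∈ X0 := hpre p r (e ▸ hw)
      have h2 := hs p hp r hr (e ▸ hw)
      refine Or.inl (Language.mem_mul.2 ⟨p, ⟨(hJJ p hpX hpu).2 hp, (hI hpX).2 hpu⟩, r, ?_, e.symm⟩)
      exact ⟨(hEE d r h2.1 hr).2 ((h2.2 d).1 (e ▸ h)), hr⟩

/-- `Pn n X` : every regular language agrees on `X` with a language of height `≤ n` -/
def Pn (n : ℕ) (X : Set (List α)) : Prop :=
  ∀ R : Language α, R.IsRegular → ∃ M : Language α, HL n M ∧ ∀ w ∈ X, (w ∈ M ↔ w ∈ R)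

/-- **the step of the nesting**: `X0` promise of the outer level, `X1` promise of the inner one -/
theorem step {D : Type v} {Q Y J : Language α} {E E0 : D → Language α}
    {X X0 X1 : Set (List α)} (h : Thread Q Y E X) (hQn : HL n Q)
    (hpre : ∀ p t : List α, p ++ t ∈ X0 → p ∈ X0)
    (hs : ∀ p ∈ J, ∀ q ∈ Q, p ++ q ∈ X0 → q ∈ X ∧ ∀ d, (p ++ q ∈ E0 d ↔ q ∈ E d))
    (hY : Y.IsRegular) (hE : ∀ d, (E d).IsRegular) (hJ : J.IsRegular)
    (hE0 : ∀ d, (E0 d).IsRegular) (hP : Pn n X1)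
    (hun : ∀ w ∈ X, w ∈ Q → Uncut Q Y w → w ∈ X1)
    (hun0 : ∀ w ∈ X0, Uncut Q J w → w ∈ X1) :
    ∃ M : D → Language α, (∀ d, HL (n + 1) (M d)) ∧ ∀ d, ∀ w ∈ X0, (w ∈ M d ↔ w ∈ E0 d) := by
  obtain ⟨Y', hY', hYY⟩ := hP Y hY
  choose E' hE' hEE using fun d => hP (E d) (hE d)
  obtain ⟨J', hJ', hJJ⟩ := hP J hJ
  choose E0' hE0' hE0E0 using fun d => hP (E0 d) (hE0 d)
  obtain ⟨Yh, Eh, _, hEh, _, hEE2⟩ := t1 h hQn hY' hE'
    (fun q hq hqQ hu => hYY q (hun q hq hqQ hu)) (fun d q hq hqQ hu => hEE d q (hun q hq hqQ hu))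
  exact t2 h.nil h.right hpre hs (hQn.mono (Nat.le_succ n)) hEh hEE2 (hJ'.mono (Nat.le_succ n))
    (fun d => (hE0' d).mono (Nat.le_succ n)) (fun w hw hu => hJJ w (hun0 w hw hu))
    (fun d w hw hu => hE0E0 d w (hun0 w hw hu))

end Crest.Agent.R320.Thr_603
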