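import Mathlib

/-!
Row 320, blueprint of post 12664 (helper132), items (2) and (3): the chain rule with residue
thresholds, as pure statements on a set of integers `Wl` (the walls).

`z`, `p0` are fixed shifts, `M` the modulus, `s : ℤ → ℤ` the thresholds (used at residues
`ρ % M` only).  A wall `t` qualifies for the anchor `a` if `s ((t - a - z) % M) ≤ t - a - z`;
the next anchor is the first qualifying wall.  A cut place of `a` is `x = a + p0 + M * k` with
`0 ≤ M * k ≤ N1`.  The right side does not know `k`; it evaluates the same rule with `x - p0` in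
place of `a` and is legal iff no wall is doubtful.

* `qual_iff_of_legal`, `isNext_iff_of_legal`: at every legal junction the right side computes the
  next anchor correctly (818's lemma for this rule);
* `legal_of_not_band`: outside the band every place of the window is legal;
* `band_congr`, `band_pair_unique`, `band_self`: the band spoils at most one pair of a ruler whose
  differences are distinct mod `M`, and none if the anchor is itself in the band.
-/

namespace Crest.Agent.R320.Thresh20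

variable (Wl : ℤ → Prop) (M z p0 N1 : ℤ) (s : ℤ → ℤ)

/-- The wall `t` qualifies for the anchor `a`. -/
def Qual (a t : ℤ) : Prop := s ((t - a - z) % M) ≤ t - a - z

/-- `b` is the next anchor after `a`: the first qualifying wall. -/
def IsNext (a b : ℤ) : Prop :=
  Wl b ∧ Qual M z s a b ∧ ∀ t, t < b → Wl t → ¬ Qual M z s a t

/-- Right legality (as far as walls are concerned) of the place `x`: no wall is doubtful. -/
def RLegal (x : ℤ) : Prop :=
  ∀ t, Wl t → ¬ (t - (x - p0) - z < s ((t - (x - p0) - z) % M) ∧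
    s ((t - (x - p0) - z) % M) ≤ t - (x - p0) - z + N1)

/-- The anchor `a` is in the band. -/
def Band (a : ℤ) : Prop :=
  ∃ t, Wl t ∧ |t - a - z - s ((t - a - z) % M)| ≤ N1

variable {Wl M z p0 N1 s}

theorem emod_shift (y k : ℤ) : (y + M * k) % M = y % M := by
  rw [Int.add_mul_emod_self_left]

/-- At a legal place the status `qualifies` is computed correctly by the right side. -/
theorem qual_iff_of_legal {a k : ℤ} (hk0 : 0 ≤ M * k) (hk1 : M * k ≤ N1)
    (hleg : RLegal Wl M z p0 N1 s (a + p0 + M * k)) {t : ℤ} (ht : Wl t) :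
    Qual M z s a t ↔ Qual M z s (a + p0 + M * k - p0) t := by
  have h := hleg t ht
  unfold Qual
  have e1 : t - a - z = (t - (a + p0 + M * k - p0) - z) + M * k := by ring
  have e2 : (t - a - z) % M = (t - (a + p0 + M * k - p0) - z) % M := by
    rw [e1, emod_shift]
  rw [e2]
  constructor
  · intro hq
    by_contra hn
    push Not at hn
    apply h
    refine ⟨hn, ?_⟩
    linarith
  · intro hq
    linarith

/-- 818's lemma for the chain rule with thresholds. -/
theorem isNext_iff_of_legal {a k : ℤ} (hk0 : 0 ≤ M * k) (hk1 : M * k ≤ N1)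
    (hleg : RLegal Wl M z p0 N1 s (a + p0 + M * k)) (b : ℤ) :
    IsNext Wl M z s a b ↔ IsNext Wl M z s (a + p0 + M * k - p0) b := by
  unfold IsNext
  constructor
  · rintro ⟨hb, hq, hf⟩
    refine ⟨hb, (qual_iff_of_legal hk0 hk1 hleg hb).1 hq, ?_⟩
    intro t htb ht hq'
    exact hf t htb ht ((qual_iff_of_legal hk0 hk1 hleg ht).2 hq')
  · rintro ⟨hb, hq, hf⟩
    refine ⟨hb, (qual_iff_of_legal hk0 hk1 hleg hb).2 hq, ?_⟩
    intro t htb ht hq'
    exact hf t htb ht ((qual_iff_of_legal hk0 hk1 hleg ht).1 hq')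

/-- The next anchor is unique. -/
theorem IsNext.unique {a b b' : ℤ} (h : IsNext Wl M z s a b) (h' : IsNext Wl M z s a b') :
    b = b' := by
  rcases lt_trichotomy b b' with hlt | heq | hgt
  · exact absurd h.2.1 (h'.2.2 b hlt h.1)
  · exact heq
  · exact absurd h'.2.1 (h.2.2 b' hgt h'.1)

/-- Two anchors for which a place `x` is a legal cut place have the same next anchor. -/
theorem next_eq_of_legal {a a' k k' b b' : ℤ} (hk0 : 0 ≤ M * k) (hk1 : M * k ≤ N1)
    (hk0' : 0 ≤ M * k') (hk1' : M * k' ≤ N1) (hx : a + p0 + M * k = a' + p0 + M * k')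
    (hleg : RLegal Wl M z p0 N1 s (a + p0 + M * k))
    (h : IsNext Wl M z s a b) (h' : IsNext Wl M z s a' b') : b = b' := by
  have h1 := (isNext_iff_of_legal hk0 hk1 hleg b).1 h
  rw [hx] at h1
  have hleg' : RLegal Wl M z p0 N1 s (a' + p0 + M * k') := hx ▸ hleg
  have h2 := (isNext_iff_of_legal hk0' hk1' hleg' b').1 h'
  exact h1.unique h2

/-- Outside the band every place of the window is right legal. -/
theorem legal_of_not_band {a k : ℤ} (hk0 : 0 ≤ M * k) (hk1 : M * k ≤ N1)
    (hE : ¬ Band Wl M z N1 s a) : RLegal Wl M z p0 N1 s (a + p0 + M * k) := by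
  intro t ht hd
  apply hE
  refine ⟨t, ht, ?_⟩
  have e1 : t - a - z = (t - (a + p0 + M * k - p0) - z) + M * k := by ring
  have e2 : (t - a - z) % M = (t - (a + p0 + M * k - p0) - z) % M := by
    rw [e1, emod_shift]
  rw [e2]
  obtain ⟨h1, h2⟩ := hd
  rw [abs_le]
  constructor <;> linarith

/-- Conversely a place of the window which is not legal shows that `a` is in the band; so the
number of illegal places is only restricted through the band. -/
theorem band_of_not_legal {a k : ℤ} (hk0 : 0 ≤ M * k) (hk1 : M * k ≤ N1)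
    (h : ¬ RLegal Wl M z p0 N1 s (a + p0 + M * k)) : Band Wl M z N1 s a := by
  by_contra hE
  exact h (legal_of_not_band hk0 hk1 hE)

/-- Existence of the next anchor: if thresholds are at most `S` and some wall is at distance at
least `S` beyond `a + z`, and walls are bounded below near the window, the first qualifying wall
exists. -/
theorem exists_isNext {a S : ℤ} (hsl : ∀ r, -S ≤ s r) (hsu : ∀ r, s r ≤ S)
    (hw : ∃ t, Wl t ∧ a + z + S ≤ t) : ∃ b, IsNext Wl M z s a b ∧ a + z - S ≤ b := by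
  classical
  obtain ⟨t0, ht0, hge⟩ := hw
  have hq0 : Qual M z s a t0 := by
    unfold Qual
    have := hsu ((t0 - a - z) % M)
    linarith
  -- candidates are bounded below by `a + z - S`
  have hbd : ∀ t, Qual M z s a t → a + z - S ≤ t := by
    intro t hq
    unfold Qual at hq
    have := hsl ((t - a - z) % M)
    linarith
  obtain ⟨b, ⟨hb, hqb⟩, hmin⟩ := Int.exists_least_of_bdd
    (P := fun t => Wl t ∧ Qual M z s a t) ⟨a + z - S, fun t ht => hbd t ht.2⟩ ⟨t0, ht0, hq0⟩
  refine ⟨b, ⟨hb, hqb, ?_⟩, hbd b hqb⟩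
  intro t htb ht hq
  exact absurd (hmin t ⟨ht, hq⟩) (not_le.2 htb)

/-- Upper bound for the next anchor. -/
theorem IsNext.le_of_wall {a b t S : ℤ} (hsu : ∀ r, s r ≤ S) (h : IsNext Wl M z s a b)
    (ht : Wl t) (hge : a + z + S ≤ t) : b ≤ t := by
  by_contra hlt
  push Not at hlt
  apply h.2.2 t hlt ht
  unfold Qual
  have := hsu ((t - a - z) % M)
  linarith

/-- Lower bound for the next anchor. -/
theorem IsNext.ge {a b S : ℤ} (hsl : ∀ r, -S ≤ s r) (h : IsNext Wl M z s a b) :
    a + z - S ≤ b := by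
  have h2 := h.2.1
  unfold Qual at h2
  have := hsl ((b - a - z) % M)
  linarith

/-- Two shifts of `a` in the band are congruent mod `M`. -/
theorem band_congr {a d d' S Lam Wg : ℤ} (_hM : 0 < M)
    (hS : ∀ r, |s r| ≤ S - N1) (hgapS : 2 * S + 2 * N1 + 2 * Lam < Wg)
    (hN1 : 0 ≤ N1)
    (hgap : ∀ t t', Wl t → Wl t' → |t - t'| ≤ Wg → t = t')
    (hsep : ∀ r r', 0 ≤ r → r < M → 0 ≤ r' → r' < M → |s r - s r'| ≤ 2 * N1 + 2 * Lam → r = r')
    (hd : |d| ≤ Lam) (hd' : |d'| ≤ Lam)
    (h : Band Wl M z N1 s (a - d)) (h' : Band Wl M z N1 s (a - d')) :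
    d % M = d' % M := by
  obtain ⟨t, ht, hb⟩ := h
  obtain ⟨t', ht', hb'⟩ := h'
  have b1 := abs_le.1 hb
  have b1' := abs_le.1 hb'
  have s1 := abs_le.1 (hS ((t - (a - d) - z) % M))
  have s1' := abs_le.1 (hS ((t' - (a - d') - z) % M))
  have d1 := abs_le.1 hd
  have d1' := abs_le.1 hd'
  have htt : t = t' := by
    apply hgap t t' ht ht'
    rw [abs_le]
    constructor <;> linarith
  subst htt
  have hr : (t - (a - d) - z) % M = (t - (a - d') - z) % M := by
    apply hsep _ _ (Int.emod_nonneg _ (ne_of_gt _hM)) (Int.emod_lt_of_pos _ _hM)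
      (Int.emod_nonneg _ (ne_of_gt _hM)) (Int.emod_lt_of_pos _ _hM)
    rw [abs_le]
    constructor <;> linarith
  have : (d - d') % M = 0 := by
    have h3 : (t - (a - d) - z) - (t - (a - d') - z) = d - d' := by ring
    rw [← h3]
    exact Int.emod_eq_emod_iff_emod_sub_eq_zero.1 hr
  exact Int.emod_eq_emod_iff_emod_sub_eq_zero.2 this

/-- The band spoils at most one pair of a ruler `c : ι → ℤ` all of whose differences are distinct
mod `M`. -/
theorem band_pair_unique {ι : Type*} {c : ι → ℤ} {a S Lam Wg : ℤ} (hM : 0 < M)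
    (hS : ∀ r, |s r| ≤ S - N1) (hgapS : 2 * S + 2 * N1 + 2 * Lam < Wg) (hN1 : 0 ≤ N1)
    (hgap : ∀ t t', Wl t → Wl t' → |t - t'| ≤ Wg → t = t')
    (hsep : ∀ r r', 0 ≤ r → r < M → 0 ≤ r' → r' < M → |s r - s r'| ≤ 2 * N1 + 2 * Lam → r = r')
    (hspan : ∀ i j, |c i - c j| ≤ Lam)
    (hgol : ∀ i j i' j', i ≠ j → (c i - c j) % M = (c i' - c j') % M → i = i' ∧ j = j')
    {i j i' j' : ι} (hij : i ≠ j)
    (h : Band Wl M z N1 s (a - (c i - c j))) (h' : Band Wl M z N1 s (a - (c i' - c j'))) :
    i = i' ∧ j = j' :=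
  hgol i j i' j' hij (band_congr hM hS hgapS hN1 hgap hsep (hspan i j) (hspan i' j') h h')

/-- If `a` itself is in the band, nothing else is spoiled. -/
theorem band_self {ι : Type*} {c : ι → ℤ} {a S Lam Wg : ℤ} (hM : 0 < M)
    (hS : ∀ r, |s r| ≤ S - N1) (hgapS : 2 * S + 2 * N1 + 2 * Lam < Wg) (hN1 : 0 ≤ N1)
    (hLam : 0 ≤ Lam)
    (hgap : ∀ t t', Wl t → Wl t' → |t - t'| ≤ Wg → t = t')
    (hsep : ∀ r r', 0 ≤ r → r < M → 0 ≤ r' → r' < M → |s r - s r'| ≤ 2 * N1 + 2 * Lam → r = r')
    (hspan : ∀ i j, |c i - c j| ≤ Lam)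
    (hne : ∀ i j, i ≠ j → (c i - c j) % M ≠ 0)
    (h : Band Wl M z N1 s a) {i j : ι} (hij : i ≠ j) :
    ¬ Band Wl M z N1 s (a - (c i - c j)) := by
  intro h'
  have h0 : Band Wl M z N1 s (a - 0) := by simpa using h
  have := band_congr hM hS hgapS hN1 hgap hsep (hspan i j) (by simpa using hLam) h' h0
  exact hne i j hij (by simpa using this)

/-- The total clock: `floor((b - a - p0) / M) = k + floor((b - x) / M)` at a cut place
`x = a + p0 + M * k`, exactly. -/
theorem clock_add {a b k : ℤ} (hM : 0 < M) :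
    (b - a - p0) / M = k + (b - (a + p0 + M * k)) / M := by
  have e : b - a - p0 = (b - (a + p0 + M * k)) + M * k := by ring
  rw [e, Int.add_mul_ediv_left _ _ (ne_of_gt hM)]
  ring

/-- Existence of separated thresholds. -/
theorem exists_thresholds (M N1 Lam : ℤ) (hM : 0 < M) (hN1 : 0 ≤ N1) (hLam : 0 ≤ Lam) :
    ∃ (s : ℤ → ℤ) (S : ℤ), 0 ≤ S ∧ (∀ r, |s r| ≤ S - N1) ∧
      ∀ r r', 0 ≤ r → r < M → 0 ≤ r' → r' < M → |s r - s r'| ≤ 2 * N1 + 2 * Lam → r = r' := by
  refine ⟨fun r => (2 * N1 + 2 * Lam + 1) * (r % M), (2 * N1 + 2 * Lam + 1) * M + N1, ?_, ?_, ?_⟩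
  · positivity
  · intro r
    have h0 := Int.emod_nonneg r (ne_of_gt hM)
    have h1 := Int.emod_lt_of_pos r hM
    have hc : 0 ≤ 2 * N1 + 2 * Lam + 1 := by linarith
    rw [abs_of_nonneg (mul_nonneg hc h0)]
    nlinarith
  · intro r r' h0 h1 h0' h1' h
    have e : r % M = r := Int.emod_eq_of_lt h0 h1
    have e' : r' % M = r' := Int.emod_eq_of_lt h0' h1'
    simp only [e, e'] at h
    rw [← mul_sub, abs_mul, abs_of_nonneg (by linarith : (0:ℤ) ≤ 2 * N1 + 2 * Lam + 1)] at h
    by_contra hne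
    have h3 : 1 ≤ |r - r'| := Int.one_le_abs (sub_ne_zero.2 hne)
    nlinarith

end Crest.Agent.R320.Thresh20
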