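import Crest.Agent.R320.TopU_542

/-!
# Row 320, top theorem in block form, read-off of the product (helper542)
-/

set_option autoImplicit false

namespace Crest.Agent.R320.TopU_542

open Crest.Agent.R320.Hk_851

universe u

variable {α : Type u} {V : Type} {S : Type}

/-- words in front of which no block can be read -/
def Tail (XX : Set (List α)) : Language α := {E | ∀ X ∈ XX, ¬ X <+: E}

variable {XX : Set (List α)} {T : V → List α → V}

theorem decomp (hne : [] ∉ XX) (T : V → List α → V) : ∀ (n : ℕ) (w : List α), w.length ≤ n →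
    ∃ D E, w = D ++ E ∧ (∀ v, ∃ v', Arr XX T (fun _ _ => True) v v' D) ∧ E ∈ Tail XX := by
  intro n
  induction n with
  | zero =>
    intro w hw
    obtain rfl : w = [] := List.length_eq_zero_iff.1 (by omega)
    refine ⟨[], [], rfl, fun v => ⟨v, Arr.nil v⟩, fun X hX h => ?_⟩
    exact hne (List.prefix_nil.1 h ▸ hX)
  | succ n ih =>
    intro w hw
    by_cases h : ∃ X ∈ XX, X <+: w
    · obtain ⟨X, hX, r, rfl⟩ := h
      have hX0 : 0 < X.length := by
        rcases Nat.eq_zero_or_pos X.length with h0 | h0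
        · exact (hne (List.length_eq_zero_iff.1 h0 ▸ hX)).elim
        · exact h0
      obtain ⟨D, E, rfl, h1, h2⟩ := ih r (by rw [List.length_append] at hw; omega)
      refine ⟨X ++ D, E, by simp, fun v => ?_, h2⟩
      obtain ⟨v', hv⟩ := h1 (T v X)
      exact ⟨v', Arr.cons _ _ _ _ hX trivial hv⟩
    · refine ⟨[], w, rfl, fun v => ⟨v, Arr.nil v⟩, fun X hX hp => h ⟨X, hX, hp⟩⟩

theorem uniq (hne : [] ∉ XX) (hpc : ∀ X ∈ XX, ∀ Y ∈ XX, X <+: Y → X = Y) {C C' : List α → V → Prop}
    {v v' : V} {D : List α} (hD : Arr XX T C v v' D) :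
    ∀ {u u' : V} {D' E E' : List α}, Arr XX T C' u u' D' → E ∈ Tail XX → E' ∈ Tail XX →
      D ++ E = D' ++ E' → D = D' ∧ E = E' := by
  induction hD with
  | nil v =>
    intro u u' D' E E' hD' hE hE' he
    cases hD' with
    | nil => exact ⟨rfl, he⟩
    | cons _ _ X w hX _ _ =>
      exfalso
      exact hE X hX ⟨w ++ E', by rw [← List.append_assoc, ← he]; rfl⟩
  | cons v v' X w hX _ _ ih =>
    intro u u' D' E E' hD' hE hE' he
    cases hD' with
    | nil =>
      exfalso
      exact hE' X hX ⟨w ++ E, by rw [← List.append_assoc, he]; rfl⟩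
    | cons _ _ Y w' hY _ h' =>
      rw [List.append_assoc, List.append_assoc] at he
      obtain ⟨rfl, h2⟩ := pref_eq hne hpc hX hY he
      obtain ⟨rfl, h3⟩ := ih h' hE hE' h2
      exact ⟨rfl, h3⟩

theorem diff [AddCommGroup V] [Monoid S] (f : α → S) (act : V → S → V)
    (h1 : ∀ v, act v 1 = v) (hm : ∀ v s s', act (act v s) s' = act v (s * s'))
    (hT : ∀ X ∈ XX, ∀ v u, T v X - T u X = act (v - u) (X.map f).prod)
    {C C' : List α → V → Prop} {v v' : V} {D : List α} (hD : Arr XX T C v v' D) :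
    (hne : [] ∉ XX) → (hpc : ∀ X ∈ XX, ∀ Y ∈ XX, X <+: Y → X = Y) →
    ∀ {u u' : V}, Arr XX T C' u u' D → v' - u' = act (v - u) (D.map f).prod := by
  intro hne hpc
  induction hD with
  | nil v =>
    intro u u' h
    generalize hw : ([] : List α) = w at h
    cases h with
    | nil => simp [h1]
    | cons _ _ X w hX _ _ =>
      exfalso
      have : X = [] := (List.append_eq_nil_iff.1 hw.symm).1
      exact hne (this ▸ hX)
  | cons v v' X w hX _ _ ih =>
    intro u u' h
    generalize hw : X ++ w = y at h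
    cases h with
    | nil =>
      exfalso
      have : X = [] := (List.append_eq_nil_iff.1 hw).1
      exact hne (this ▸ hX)
    | cons _ _ Y w' hY _ h' =>
      obtain ⟨rfl, rfl⟩ := pref_eq hne hpc hX hY hw
      rw [ih h', hT X hX, hm, List.map_append, List.prod_append]

/-- tails with a given product -/
def TailS [Monoid S] (XX : Set (List α)) (f : α → S) (s : S) : Language α :=
  {E | E ∈ Tail XX ∧ (E.map f).prod = s}

/-- from arrival languages to the product in a finite monoid -/
theorem Dat.readoff [AddCommGroup V] [Finite V] [Monoid S] [Finite S] (D : Dat α V) (h : D.Ok)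
    (f : α → S) (act : V → S → V)
    (h1 : ∀ v, act v 1 = v) (hm : ∀ v s s', act (act v s) s' = act v (s * s'))
    (hf : ∀ s s', (∀ v, act v s = act v s') → s = s')
    (hT : ∀ X ∈ D.XX, ∀ v u, D.T v X - D.T u X = act (v - u) (X.map f).prod)
    (hA : ∀ v v', HL 3 (D.All v v'))
    (hE : ∀ s, HL 3 (TailS D.XX f s)) (s : S) :
    HL 3 {w | (w.map f).prod = s} := by
  have key : HL 3 ({w | ∃ g : V → V, ∃ s' s1 : S, ((∀ v, g v - g 0 = act v s1) ∧ s1 * s' = s) ∧
      ∀ v, w ∈ D.All v (g v) * TailS D.XX f s'} : Language α) := by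
    refine HL.iUnion fun g => HL.iUnion fun s' => HL.iUnion fun s1 => ?_
    exact HL.setOf_and (HL.const _) (HL.iInter fun v => (hA v (g v)).mul (hE s'))
  refine key.congr fun w => ?_
  constructor
  · intro hw
    obtain ⟨X, E, rfl, h2, h3⟩ := decomp h.ne D.T w.length w le_rfl
    choose g hg using h2
    refine ⟨g, (E.map f).prod, (X.map f).prod, ⟨fun v => ?_, ?_⟩, fun v => ?_⟩
    · rw [diff f act h1 hm hT (hg v) h.ne h.pc (hg 0), sub_zero]
    · have hw' : ((X ++ E).map f).prod = s := hw
      rw [List.map_append, List.prod_append] at hw'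
      exact hw'
    · exact Language.mem_mul.2 ⟨X, hg v, E, ⟨h3, rfl⟩, rfl⟩
  · rintro ⟨g, s', s1, ⟨h2, h3⟩, h4⟩
    obtain ⟨X, hX, E, ⟨hE1, hE2⟩, he⟩ := Language.mem_mul.1 (h4 0)
    have h5 : ∀ v, act v (X.map f).prod = act v s1 := by
      intro v
      obtain ⟨X', hX', E', ⟨hE1', hE2'⟩, he'⟩ := Language.mem_mul.1 (h4 v)
      obtain ⟨h6, h7⟩ := uniq h.ne h.pc (show Arr D.XX D.T (fun _ _ => True) v (g v) X' from hX')
        (show Arr D.XX D.T (fun _ _ => True) 0 (g 0) X from hX) hE1' hE1 (he'.trans he.symm)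
      subst h6
      rw [← h2 v, diff f act h1 hm hT (show Arr D.XX D.T (fun _ _ => True) v (g v) X' from hX')
        h.ne h.pc (show Arr D.XX D.T (fun _ _ => True) 0 (g 0) X' from hX), sub_zero]
    have h6 := hf _ _ h5
    show (w.map f).prod = s
    rw [← he, List.map_append, List.prod_append, h6, hE2, h3]

end Crest.Agent.R320.TopU_542
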