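import Crest.Agent.R320.Hk2_851

/-!
# Row 320: TOP for a prefix code of blocks and two cut schemes (helper191)

Blocks `XX` (prefix code), zone map `T v X`, bad blocks `Bad`.
* scheme 1 : `P ∈ LP1 v`, `Q ∈ RQ1 b` give `P ++ Q ∈ XX`, `T v (P ++ Q) = b` (all texts);
  complete on blocks which are not bad.
* scheme 2 : `P ∈ LP2 v`, `Q ∈ RQ2 b`; sound when the block at hand is bad; `Q` = rest of the
  block and one more block; complete on two consecutive bad blocks.
Conclusion: `HL 3 {w | φ w = s}`.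
-/

set_option autoImplicit false

namespace Crest.Agent.R320.Top5_191

open Crest.RegLang Crest.Agent.R320.Hk_851

universe u

variable {α : Type u}

/-- words with a parse into blocks of `C` along which `T` carries `v` to `b` -/
def Run {V : Type} (T : V → List α → V) (C : Language α) (v b : V) : Language α :=
  {w | ∃ Xs : List (List α), (∀ X ∈ Xs, X ∈ C) ∧ Xs.flatten = w ∧ Xs.foldl T v = b}

theorem mem_Run {V : Type} {T : V → List α → V} {C : Language α} {v b : V} {w : List α} :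
    w ∈ Run T C v b ↔
      ∃ Xs : List (List α), (∀ X ∈ Xs, X ∈ C) ∧ Xs.flatten = w ∧ Xs.foldl T v = b := Iff.rfl

theorem Run.nil {V : Type} {T : V → List α → V} {C : Language α} (v : V) :
    ([] : List α) ∈ Run T C v v := ⟨[], by simp, rfl, rfl⟩

theorem Run.cons {V : Type} {T : V → List α → V} {C : Language α} {v b : V} {X w : List α}
    (hX : X ∈ C) (h : w ∈ Run T C (T v X) b) : X ++ w ∈ Run T C v b := by
  obtain ⟨Xs, h1, rfl, h3⟩ := h
  refine ⟨X :: Xs, ?_, by simp, by simpa using h3⟩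
  intro Y hY
  rcases List.mem_cons.1 hY with rfl | h
  · exact hX
  · exact h1 Y h

theorem Run.append {V : Type} {T : V → List α → V} {C : Language α} {v b c : V}
    {w w' : List α} (h : w ∈ Run T C v b) (h' : w' ∈ Run T C b c) : w ++ w' ∈ Run T C v c := by
  obtain ⟨Xs, h1, rfl, h3⟩ := h
  obtain ⟨Ys, k1, rfl, k3⟩ := h'
  refine ⟨Xs ++ Ys, ?_, by simp, by rw [List.foldl_append, h3, k3]⟩
  intro Y hY
  rcases List.mem_append.1 hY with h | h
  · exact h1 Y h
  · exact k1 Y h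

theorem Run.mono {V : Type} {T : V → List α → V} {C D : Language α} (h : ∀ X ∈ C, X ∈ D)
    {v b : V} {w : List α} (hw : w ∈ Run T C v b) : w ∈ Run T D v b := by
  obtain ⟨Xs, h1, h2, h3⟩ := hw
  exact ⟨Xs, fun X hX => h X (h1 X hX), h2, h3⟩

/-- prefix code -/
structure PC (XX : Language α) : Prop where
  ne : [] ∉ XX
  pre : ∀ X Y : List α, X ∈ XX → X ++ Y ∈ XX → Y = []

theorem PC.eq_of_prefix {XX : Language α} (h : PC XX) {X Y w w' : List α} (hX : X ∈ XX)
    (hY : Y ∈ XX) (e : X ++ w = Y ++ w') : X = Y ∧ w = w' := by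
  rcases List.append_eq_append_iff.1 e with ⟨t, rfl, rfl⟩ | ⟨t, rfl, rfl⟩
  · have := h.pre _ _ hX hY
    subst this
    simp
  · have := h.pre _ _ hY hX
    subst this
    simp

theorem PC.unique {XX : Language α} (h : PC XX) : ∀ (Xs Ys : List (List α)),
    (∀ X ∈ Xs, X ∈ XX) → (∀ Y ∈ Ys, Y ∈ XX) → Xs.flatten = Ys.flatten → Xs = Ys
  | [], [], _, _, _ => rfl
  | [], Y :: Ys, _, hY, e => by
    exfalso
    have h1 : Y = [] := by
      have : Y ++ Ys.flatten = [] := by simpa using e.symm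
      exact (List.append_eq_nil_iff.1 this).1
    exact h.ne (h1 ▸ hY Y (by simp))
  | X :: Xs, [], hX, _, e => by
    exfalso
    have h1 : X = [] := by
      have : X ++ Xs.flatten = [] := by simpa using e
      exact (List.append_eq_nil_iff.1 this).1
    exact h.ne (h1 ▸ hX X (by simp))
  | X :: Xs, Y :: Ys, hX, hY, e => by
    have e' : X ++ Xs.flatten = Y ++ Ys.flatten := by simpa using e
    obtain ⟨rfl, e2⟩ := h.eq_of_prefix (hX X (by simp)) (hY Y (by simp)) e'
    rw [h.unique Xs Ys (fun Z hZ => hX Z (by simp [hZ])) (fun Z hZ => hY Z (by simp [hZ])) e2]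

/-- the data of the two schemes -/
structure Dat (XX Bad : Language α) {V : Type} (T : V → List α → V)
    (LP1 RQ1 LP2 RQ2 : V → Language α) : Prop where
  pc : PC XX
  bad : ∀ X ∈ Bad, X ∈ XX
  s1 : ∀ v b P Q, P ∈ LP1 v → Q ∈ RQ1 b → P ++ Q ∈ XX ∧ T v (P ++ Q) = b
  c1 : ∀ X ∈ XX, X ∉ Bad → ∀ v, ∃ P Q, P ++ Q = X ∧ P ∈ LP1 v ∧ Q ∈ RQ1 (T v X)
  n2 : ∀ v P, P ∈ LP2 v → P ≠ []
  s2 : ∀ v b P Q R X, P ∈ LP2 v → Q ∈ RQ2 b → X ∈ Bad → X <+: P ++ Q ++ R →
    ∃ X2 ∈ XX, P ++ Q = X ++ X2 ∧ T (T v X) X2 = b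
  c2 : ∀ X ∈ Bad, ∀ X2 ∈ Bad, ∀ v, ∃ P Q, P ++ Q = X ++ X2 ∧ P ∈ LP2 v ∧
    Q ∈ RQ2 (T (T v X) X2)

section

variable {XX Bad : Language α} {V : Type} {T : V → List α → V}
  {LP1 RQ1 LP2 RQ2 : V → Language α}

/-- flights of scheme 2 -/
def K2 (LP2 RQ2 : V → Language α) : Language α := {u | ∃ b, u ∈ RQ2 b * LP2 b}

/-- an even number of bad blocks, computed by scheme 2 -/
def D2 (LP2 RQ2 : V → Language α) (v b : V) : Language α :=
  {w | (v = b ∧ w = []) ∨ w ∈ LP2 v * KStar.kstar (K2 LP2 RQ2) * RQ2 b}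

theorem Dat.sound2 (h : Dat XX Bad T LP1 RQ1 LP2 RQ2) : ∀ (L : List (List α)),
    (∀ u ∈ L, u ∈ K2 LP2 RQ2) → ∀ (v b : V) (P Q R : List α) (Xs : List (List α)),
    P ∈ LP2 v → Q ∈ RQ2 b → (∀ X ∈ Xs, X ∈ Bad) → Xs.flatten = P ++ L.flatten ++ Q ++ R →
    ∃ Ys Zs : List (List α), Xs = Ys ++ Zs ∧ Ys.flatten = P ++ L.flatten ++ Q ∧
      Ys.foldl T v = b := by
  -- one flight
  have one : ∀ (v b : V) (P Q R : List α) (Xs : List (List α)), P ∈ LP2 v → Q ∈ RQ2 b →
      (∀ X ∈ Xs, X ∈ Bad) → Xs.flatten = P ++ Q ++ R → ∃ X X2 Zs, Xs = X :: X2 :: Zs ∧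
        X ++ X2 = P ++ Q ∧ T (T v X) X2 = b ∧ Zs.flatten = R := by
    intro v b P Q R Xs hP hQ hXs e
    rcases Xs with _ | ⟨X, Xs⟩
    · exfalso
      have e0 : P ++ Q ++ R = [] := by simpa using e.symm
      have e1 : P ++ Q = [] := (List.append_eq_nil_iff.1 e0).1
      exact h.n2 v P hP (List.append_eq_nil_iff.1 e1).1
    · have hX : X ∈ Bad := hXs X (by simp)
      have hpre : X <+: P ++ Q ++ R := ⟨Xs.flatten, by rw [← e]; simp⟩
      obtain ⟨X2, hX2, e2, e3⟩ := h.s2 v b P Q R X hP hQ hX hpre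
      have e4 : Xs.flatten = X2 ++ R := by
        have : X ++ Xs.flatten = X ++ (X2 ++ R) := by
          rw [← List.append_assoc, ← e2, ← e]; simp
        exact List.append_cancel_left this
      rcases Xs with _ | ⟨Y, Xs⟩
      · exfalso
        have : X2 ++ R = [] := by simpa using e4.symm
        exact h.pc.ne ((List.append_eq_nil_iff.1 this).1 ▸ hX2)
      · have e5 : Y ++ Xs.flatten = X2 ++ R := by simpa using e4
        obtain ⟨rfl, e6⟩ := h.pc.eq_of_prefix (h.bad Y (hXs Y (by simp))) hX2 e5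
        exact ⟨X, Y, Xs, rfl, e2.symm, e3, e6⟩
  intro L
  induction L with
  | nil =>
    intro _ v b P Q R Xs hP hQ hXs e
    obtain ⟨X, X2, Zs, rfl, e1, e2, _⟩ := one v b P Q R Xs hP hQ hXs (by simpa using e)
    exact ⟨[X, X2], Zs, rfl, by simpa using e1, by simpa using e2⟩
  | cons u L ih =>
    intro hL v b P Q R Xs hP hQ hXs e
    obtain ⟨c, hc⟩ := hL u (by simp)
    obtain ⟨Q', hQ', P', hP', rfl⟩ := Language.mem_mul.1 hc
    obtain ⟨X, X2, Zs, rfl, e1, e2, e3⟩ := one v c P Q' (P' ++ L.flatten ++ Q ++ R) Xs hP hQ' hXs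
      (by simpa [List.append_assoc] using e)
    obtain ⟨Ys, Zs', rfl, k1, k2⟩ := ih (fun y hy => hL y (by simp [hy])) c b P' Q R Zs hP' hQ
      (fun Y hY => hXs Y (by simp [hY])) e3
    refine ⟨X :: X2 :: Ys, Zs', rfl, ?_, ?_⟩
    · simp only [List.flatten_cons]
      rw [← List.append_assoc, e1, k1]
      simp [List.append_assoc]
    · simp only [List.foldl_cons]
      rw [e2, k2]

theorem Dat.comp2 (h : Dat XX Bad T LP1 RQ1 LP2 RQ2) : ∀ (n : ℕ) (v : V)
    (Xs : List (List α)), Xs.length = 2 * n → (∀ X ∈ Xs, X ∈ Bad) →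
    Xs.flatten ∈ D2 LP2 RQ2 v (Xs.foldl T v) := by
  intro n
  induction n with
  | zero =>
    intro v Xs hl _
    have : Xs = [] := List.length_eq_zero_iff.1 (by omega)
    subst this
    exact Or.inl ⟨rfl, rfl⟩
  | succ n ih =>
    intro v Xs hl hXs
    obtain ⟨X, X2, Ys, rfl⟩ : ∃ X X2 Ys, Xs = X :: X2 :: Ys := by
      rcases Xs with _ | ⟨X, _ | ⟨X2, Ys⟩⟩
      · simp at hl
      · simp at hl; omega
      · exact ⟨X, X2, Ys, rfl⟩
    have hX : X ∈ Bad := hXs X (by simp)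
    have hX2 : X2 ∈ Bad := hXs X2 (by simp)
    obtain ⟨P, Q, e, hP, hQ⟩ := h.c2 X hX X2 hX2 v
    have hl' : Ys.length = 2 * n := by simp only [List.length_cons] at hl; omega
    have key := ih (T (T v X) X2) Ys hl' (fun Y hY => hXs Y (by simp [hY]))
    right
    simp only [List.flatten_cons, List.foldl_cons]
    rcases key with ⟨k1, k2⟩ | k
    · rw [k2, ← k1]
      refine Language.mem_mul.2 ⟨P, ?_, Q, hQ, by rw [e]; simp⟩
      refine Language.mem_mul.2 ⟨P, hP, [], ?_, by simp⟩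
      rw [Language.mem_kstar]
      exact ⟨[], rfl, by simp⟩
    · obtain ⟨PL, hPL, Q', hQ', e2⟩ := Language.mem_mul.1 k
      obtain ⟨P', hP', L, hL, rfl⟩ := Language.mem_mul.1 hPL
      rw [Language.mem_kstar] at hL
      obtain ⟨L, rfl, hL⟩ := hL
      refine Language.mem_mul.2 ⟨P ++ ((Q ++ P') :: L).flatten, ?_, Q', hQ', ?_⟩
      · refine Language.mem_mul.2 ⟨P, hP, _, ?_, rfl⟩
        rw [Language.mem_kstar]
        refine ⟨(Q ++ P') :: L, rfl, ?_⟩
        intro y hy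
        rcases List.mem_cons.1 hy with rfl | hy
        · exact ⟨_, Language.mem_mul.2 ⟨Q, hQ, P', hP', rfl⟩⟩
        · exact hL y hy
      · rw [← e2, ← List.append_assoc X X2, ← e]
        simp [List.append_assoc]

/-- bad blocks carrying `v` to `c` -/
def BV (Bad : Language α) {V : Type} (T : V → List α → V) (v c : V) : Language α :=
  {X | X ∈ Bad ∧ T v X = c}

/-- blocks which are not bad -/
def NB (XX Bad : Language α) : Language α := {X | X ∈ XX ∧ X ∉ Bad}

/-- all numbers of bad blocks -/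
def E2 (Bad : Language α) (T : V → List α → V) (LP2 RQ2 : V → Language α) (v b : V) :
    Language α :=
  {w | w ∈ D2 LP2 RQ2 v b ∨ ∃ c, w ∈ BV Bad T v c * D2 LP2 RQ2 c b}

theorem Dat.compE (h : Dat XX Bad T LP1 RQ1 LP2 RQ2) (v : V) (Xs : List (List α))
    (hXs : ∀ X ∈ Xs, X ∈ Bad) : Xs.flatten ∈ E2 Bad T LP2 RQ2 v (Xs.foldl T v) := by
  rcases Nat.even_or_odd' Xs.length with ⟨n, hn | hn⟩
  · exact Or.inl (h.comp2 n v Xs hn hXs)
  · right
    rcases Xs with _ | ⟨X, Xs⟩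
    · simp at hn
    · refine ⟨T v X, Language.mem_mul.2 ⟨X, ⟨hXs X (by simp), rfl⟩, Xs.flatten, ?_, by simp⟩⟩
      have := h.comp2 n (T v X) Xs (by simp only [List.length_cons] at hn; omega)
        (fun Y hY => hXs Y (by simp [hY]))
      simpa using this

theorem Dat.soundD (h : Dat XX Bad T LP1 RQ1 LP2 RQ2) {v b : V} {w R : List α}
    (hw : w ∈ D2 LP2 RQ2 v b) {Xs : List (List α)} (hXs : ∀ X ∈ Xs, X ∈ Bad)
    (e : Xs.flatten = w ++ R) :
    ∃ Ys Zs : List (List α), Xs = Ys ++ Zs ∧ Ys.flatten = w ∧ Ys.foldl T v = b := by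
  rcases hw with ⟨rfl, rfl⟩ | hw
  · exact ⟨[], Xs, rfl, rfl, rfl⟩
  · obtain ⟨PL, hPL, Q, hQ, rfl⟩ := Language.mem_mul.1 hw
    obtain ⟨P, hP, L, hL, rfl⟩ := Language.mem_mul.1 hPL
    rw [Language.mem_kstar] at hL
    obtain ⟨L, rfl, hL⟩ := hL
    exact h.sound2 L hL v b P Q R Xs hP hQ hXs e

theorem Dat.soundE (h : Dat XX Bad T LP1 RQ1 LP2 RQ2) {v b : V} {w R : List α}
    (hw : w ∈ E2 Bad T LP2 RQ2 v b) {Xs : List (List α)} (hXs : ∀ X ∈ Xs, X ∈ Bad)
    (e : Xs.flatten = w ++ R) :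
    ∃ Ys Zs : List (List α), Xs = Ys ++ Zs ∧ Ys.flatten = w ∧ Ys.foldl T v = b := by
  rcases hw with hw | ⟨c, hw⟩
  · exact h.soundD hw hXs e
  · obtain ⟨X, ⟨hX, hc⟩, w', hw', rfl⟩ := Language.mem_mul.1 hw
    rcases Xs with _ | ⟨Y, Xs⟩
    · exfalso
      have e0 : X ++ w' ++ R = [] := by simpa using e.symm
      have e1 := (List.append_eq_nil_iff.1 (List.append_eq_nil_iff.1 e0).1).1
      exact h.pc.ne (e1 ▸ h.bad X hX)
    · have e5 : Y ++ Xs.flatten = X ++ (w' ++ R) := by simpa [List.append_assoc] using e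
      obtain ⟨rfl, e6⟩ := h.pc.eq_of_prefix (h.bad Y (hXs Y (by simp))) (h.bad X hX) e5
      obtain ⟨Ys, Zs, rfl, k1, k2⟩ := h.soundD hw' (fun Z hZ => hXs Z (by simp [hZ])) e6
      exact ⟨Y :: Ys, Zs, rfl, by simp [k1], by simp [hc, k2]⟩

/-- words which leave `Bad` -/
def Fail (XX Bad : Language α) (T : V → List α → V) (LP2 RQ2 : V → Language α) (v : V) :
    Language α :=
  {w | ∃ b, w ∈ E2 Bad T LP2 RQ2 v b * NB XX Bad * ⊤}

theorem Dat.bad_iff (h : Dat XX Bad T LP1 RQ1 LP2 RQ2) (v b : V) (w : List α) :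
    w ∈ Run T Bad v b ↔
      (w ∈ KStar.kstar XX ∧ w ∉ Fail XX Bad T LP2 RQ2 v) ∧ w ∈ E2 Bad T LP2 RQ2 v b := by
  constructor
  · rintro ⟨Xs, hXs, rfl, rfl⟩
    refine ⟨⟨?_, ?_⟩, h.compE v Xs hXs⟩
    · rw [Language.mem_kstar]
      exact ⟨Xs, rfl, fun X hX => h.bad X (hXs X hX)⟩
    · rintro ⟨b, hb⟩
      obtain ⟨MX, hMX, R, _, e⟩ := Language.mem_mul.1 hb
      obtain ⟨M, hM, X, ⟨hX1, hX2⟩, rfl⟩ := Language.mem_mul.1 hMX
      obtain ⟨Ys, Zs, rfl, k1, k2⟩ := h.soundE hM hXs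
        (R := X ++ R) (by rw [← e]; simp [List.append_assoc])
      have e2 : Zs.flatten = X ++ R := by
        have : M ++ Zs.flatten = M ++ (X ++ R) := by
          rw [← List.append_assoc, e, List.flatten_append, k1]
        exact List.append_cancel_left this
      rcases Zs with _ | ⟨Z, Zs⟩
      · have : X ++ R = [] := by simpa using e2.symm
        exact h.pc.ne ((List.append_eq_nil_iff.1 this).1 ▸ hX1)
      · have e5 : Z ++ Zs.flatten = X ++ R := by simpa using e2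
        obtain ⟨rfl, _⟩ := h.pc.eq_of_prefix (h.bad Z (hXs Z (by simp))) hX1 e5
        exact hX2 (hXs Z (by simp))
  · rintro ⟨⟨h1, h2⟩, h3⟩
    rw [Language.mem_kstar] at h1
    obtain ⟨Xs, rfl, hXs⟩ := h1
    have hall : ∀ X ∈ Xs, X ∈ Bad := by
      by_contra hcon
      push Not at hcon
      -- first block which is not bad
      obtain ⟨Ys, X, Zs, rfl, hY, hX⟩ : ∃ Ys X Zs, Xs = Ys ++ X :: Zs ∧
          (∀ Y ∈ Ys, Y ∈ Bad) ∧ X ∉ Bad := by
        clear h2 h3 hXs
        induction Xs with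
        | nil => obtain ⟨X, hX, _⟩ := hcon; simp at hX
        | cons Y Ys ih =>
          by_cases hY : Y ∈ Bad
          · have : ∃ X ∈ Ys, X ∉ Bad := by
              obtain ⟨X, hX, hX2⟩ := hcon
              rcases List.mem_cons.1 hX with rfl | hX
              · exact (hX2 hY).elim
              · exact ⟨X, hX, hX2⟩
            obtain ⟨As, X, Zs, rfl, h1, h2⟩ := ih this
            refine ⟨Y :: As, X, Zs, rfl, ?_, h2⟩
            intro Z hZ
            rcases List.mem_cons.1 hZ with rfl | hZ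
            · exact hY
            · exact h1 Z hZ
          · exact ⟨[], Y, Ys, rfl, by simp, hY⟩
      refine h2 ⟨Ys.foldl T v, ?_⟩
      refine Language.mem_mul.2 ⟨Ys.flatten ++ X, ?_, Zs.flatten, trivial, by simp⟩
      exact Language.mem_mul.2 ⟨_, h.compE v Ys hY, X, ⟨hXs X (by simp), hX⟩, rfl⟩
    obtain ⟨Ys, Zs, rfl, k1, k2⟩ := h.soundE h3 hall (R := []) (by simp)
    have hZ : Zs = [] := by
      rcases Zs with _ | ⟨Z, Zs⟩
      · rfl
      · exfalso
        have : Z ++ Zs.flatten = [] := by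
          have h4 : Ys.flatten ++ (Z ++ Zs.flatten) = Ys.flatten ++ [] := by
            rw [List.append_nil]
            rw [List.flatten_append, List.flatten_cons] at k1
            exact k1.symm
          exact List.append_cancel_left h4
        exact h.pc.ne ((List.append_eq_nil_iff.1 this).1 ▸ h.bad Z (hall Z (by simp)))
    subst hZ
    exact ⟨Ys, fun Y hY => hall Y (by simp [hY]), by simp, k2⟩

theorem HL_K2 [Finite V] {n : ℕ} (hL : ∀ v, HL n (LP2 v)) (hR : ∀ v, HL n (RQ2 v)) :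
    HL n (K2 LP2 RQ2) := by
  refine (HL.iUnion (k := n) (ι := V) (L := fun b => RQ2 b * LP2 b)
    (fun b => (hR b).mul (hL b))).congr fun w => ?_
  rfl

theorem HL_D2 [Finite V] {n : ℕ} (hL : ∀ v, HL n (LP2 v)) (hR : ∀ v, HL n (RQ2 v)) (v b : V) :
    HL (n + 1) (D2 LP2 RQ2 v b) := by
  have h1 : HL (n + 1) (LP2 v * KStar.kstar (K2 LP2 RQ2) * RQ2 b) :=
    (((hL v).mono (Nat.le_succ n)).mul (HL_K2 hL hR).star).mul ((hR b).mono (Nat.le_succ n))
  have h2 : HL (n + 1) ({w | v = b ∧ w = []} : Language α) := by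
    refine ((HL.const (k := n + 1) (v = b)).inf HL.one).congr fun w => ?_
    exact Iff.rfl
  exact (h2.setOf_or h1)

theorem HL_E2 [Finite V] {n : ℕ} (hL : ∀ v, HL n (LP2 v)) (hR : ∀ v, HL n (RQ2 v))
    (hB : ∀ v c, HL (n + 1) (BV Bad T v c)) (v b : V) :
    HL (n + 1) (E2 Bad T LP2 RQ2 v b) := by
  refine (HL_D2 hL hR v b).setOf_or (q := fun w => ∃ c, w ∈ BV Bad T v c * D2 LP2 RQ2 c b) ?_
  exact (HL.iUnion (k := n + 1) (ι := V) (L := fun c => BV Bad T v c * D2 LP2 RQ2 c b)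
    (fun c => (hB v c).mul (HL_D2 hL hR c b)))

theorem HL_NB [Finite V] {n : ℕ} (hXX : HL n XX) (v : V)
    (hB : ∀ v c, HL n (BV Bad T v c)) : HL n (NB XX Bad) := by
  have h1 : HL n Bad := by
    refine (HL.iUnion (k := n) (ι := V) (L := fun c => BV Bad T v c) (fun c => hB v c)).congr
      fun w => ?_
    constructor
    · intro h; exact ⟨T v w, h, rfl⟩
    · rintro ⟨c, h, _⟩; exact h
  exact (hXX.setOf_and h1.setOf_not)

theorem Dat.HL_bad [Finite V] (h : Dat XX Bad T LP1 RQ1 LP2 RQ2) {n : ℕ} (hXX : HL n XX)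
    (hL : ∀ v, HL n (LP2 v)) (hR : ∀ v, HL n (RQ2 v))
    (hB : ∀ v c, HL (n + 1) (BV Bad T v c)) (v b : V) : HL (n + 1) (Run T Bad v b) := by
  have hF : HL (n + 1) (Fail XX Bad T LP2 RQ2 v) :=
    (HL.iUnion (k := n + 1) (ι := V)
      (L := fun b => E2 Bad T LP2 RQ2 v b * NB XX Bad * ⊤)
      (fun b => ((HL_E2 hL hR hB v b).mul (HL_NB (hXX.mono (Nat.le_succ n)) v hB)).mul HL.top))
  have hG := (hXX.star.setOf_and hF.setOf_not).setOf_and (HL_E2 hL hR hB v b)
  exact hG.congr fun w => h.bad_iff v b w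

/-- flights of scheme 1 -/
def K1 (Bad : Language α) (T : V → List α → V) (LP1 RQ1 : V → Language α) : Language α :=
  {u | ∃ b v, u ∈ RQ1 b * Run T Bad b v * LP1 v}

/-- the language computed by scheme 1 -/
def G1 (Bad : Language α) (T : V → List α → V) (LP1 RQ1 : V → Language α) (v b : V) :
    Language α :=
  {w | w ∈ Run T Bad v b ∨ ∃ c d,
    w ∈ Run T Bad v c * LP1 c * KStar.kstar (K1 Bad T LP1 RQ1) * RQ1 d * Run T Bad d b}

theorem Dat.HL_run [Finite V] (h : Dat XX Bad T LP1 RQ1 LP2 RQ2) {n : ℕ}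
    (hB : ∀ v b, HL n (Run T Bad v b)) (hL : ∀ v, HL n (LP1 v)) (hR : ∀ v, HL n (RQ1 v))
    (v b : V) : HL (n + 1) (Run T XX v b) := by
  have hK : HL n (K1 Bad T LP1 RQ1) :=
    HL.iUnion (k := n) (ι := V) (L := fun b => {u | ∃ v, u ∈ RQ1 b * Run T Bad b v * LP1 v})
      (fun b => HL.iUnion (k := n) (ι := V) (L := fun v => RQ1 b * Run T Bad b v * LP1 v)
        (fun v => ((hR b).mul (hB b v)).mul (hL v)))
  have hG : HL (n + 1) (G1 Bad T LP1 RQ1 v b) := by
    refine ((hB v b).mono (Nat.le_succ n)).setOf_or (q := fun w => ∃ c d,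
      w ∈ Run T Bad v c * LP1 c * KStar.kstar (K1 Bad T LP1 RQ1) * RQ1 d * Run T Bad d b) ?_
    exact HL.iUnion (k := n + 1) (ι := V) (L := fun c => {w | ∃ d,
      w ∈ Run T Bad v c * LP1 c * KStar.kstar (K1 Bad T LP1 RQ1) * RQ1 d * Run T Bad d b})
      (fun c => HL.iUnion (k := n + 1) (ι := V) (L := fun d =>
        Run T Bad v c * LP1 c * KStar.kstar (K1 Bad T LP1 RQ1) * RQ1 d * Run T Bad d b)
        (fun d => ((((((hB v c).mono (Nat.le_succ n)).mul ((hL c).mono (Nat.le_succ n))).mul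
          hK.star)).mul ((hR d).mono (Nat.le_succ n))).mul ((hB d b).mono (Nat.le_succ n))))
  refine hG.congr fun w => ?_
  constructor
  · -- completeness
    rintro ⟨Xs, hXs, rfl, rfl⟩
    have key : ∀ (Xs : List (List α)) (v : V), (∀ X ∈ Xs, X ∈ XX) →
        Xs.flatten ∈ G1 Bad T LP1 RQ1 v (Xs.foldl T v) := by
      intro Xs
      induction Xs with
      | nil => intro v _; exact Or.inl (Run.nil v)
      | cons X Xs ih =>
        intro v hXs
        have hi := ih (T v X) (fun Y hY => hXs Y (by simp [hY]))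
        simp only [List.flatten_cons, List.foldl_cons]
        by_cases hX : X ∈ Bad
        · rcases hi with hi | ⟨c, d, hi⟩
          · exact Or.inl (Run.cons hX hi)
          · right
            refine ⟨c, d, ?_⟩
            obtain ⟨a1, h1, R, hR', e1⟩ := Language.mem_mul.1 hi
            obtain ⟨a2, h2, Q, hQ, rfl⟩ := Language.mem_mul.1 h1
            obtain ⟨a3, h3, L, hL', rfl⟩ := Language.mem_mul.1 h2
            obtain ⟨M, hM, P, hP, rfl⟩ := Language.mem_mul.1 h3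
            refine Language.mem_mul.2 ⟨X ++ M ++ P ++ L ++ Q, ?_, R, hR', ?_⟩
            · refine Language.mem_mul.2 ⟨X ++ M ++ P ++ L, ?_, Q, hQ, rfl⟩
              refine Language.mem_mul.2 ⟨X ++ M ++ P, ?_, L, hL', rfl⟩
              exact Language.mem_mul.2 ⟨X ++ M, Run.cons hX hM, P, hP, rfl⟩
            · rw [← e1]; simp [List.append_assoc]
        · obtain ⟨P, Q, e, hP, hQ⟩ := h.c1 X (hXs X (by simp)) hX v
          right
          rcases hi with hi | ⟨c, d, hi⟩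
          · refine ⟨v, T v X, Language.mem_mul.2 ⟨P ++ Q, ?_, _, hi, by rw [e]⟩⟩
            refine Language.mem_mul.2 ⟨P, ?_, Q, hQ, rfl⟩
            refine Language.mem_mul.2 ⟨P, ?_, [], ?_, by simp⟩
            · exact Language.mem_mul.2 ⟨[], Run.nil v, P, hP, by simp⟩
            · rw [Language.mem_kstar]
              exact ⟨[], rfl, by simp⟩
          · obtain ⟨a1, h1, R, hR', e1⟩ := Language.mem_mul.1 hi
            obtain ⟨a2, h2, Q', hQ', rfl⟩ := Language.mem_mul.1 h1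
            obtain ⟨a3, h3, L, hL', rfl⟩ := Language.mem_mul.1 h2
            obtain ⟨M, hM, P', hP', rfl⟩ := Language.mem_mul.1 h3
            rw [Language.mem_kstar] at hL'
            obtain ⟨L, rfl, hL'⟩ := hL'
            refine ⟨v, d, Language.mem_mul.2 ⟨P ++ ((Q ++ M ++ P') :: L).flatten ++ Q', ?_, R,
              hR', ?_⟩⟩
            · refine Language.mem_mul.2 ⟨P ++ ((Q ++ M ++ P') :: L).flatten, ?_, Q', hQ', rfl⟩
              refine Language.mem_mul.2 ⟨P, ?_, ((Q ++ M ++ P') :: L).flatten, ?_, rfl⟩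
              · exact Language.mem_mul.2 ⟨[], Run.nil v, P, hP, by simp⟩
              · rw [Language.mem_kstar]
                refine ⟨_, rfl, ?_⟩
                intro y hy
                rcases List.mem_cons.1 hy with rfl | hy
                · exact ⟨T v X, c, Language.mem_mul.2 ⟨Q ++ M,
                    Language.mem_mul.2 ⟨Q, hQ, M, hM, rfl⟩, P', hP', rfl⟩⟩
                · exact hL' y hy
            · rw [← e1, ← e]; simp [List.append_assoc]
    exact key Xs v hXs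
  · -- soundness
    have hmono : ∀ {v b : V} {w : List α}, w ∈ Run T Bad v b → w ∈ Run T XX v b :=
      fun hw => Run.mono h.bad hw
    have key : ∀ (L : List (List α)), (∀ u ∈ L, u ∈ K1 Bad T LP1 RQ1) →
        ∀ (v b : V) (P Q : List α), P ∈ LP1 v → Q ∈ RQ1 b →
        P ++ L.flatten ++ Q ∈ Run T XX v b := by
      intro L
      induction L with
      | nil =>
        intro _ v b P Q hP hQ
        obtain ⟨h1, h2⟩ := h.s1 v b P Q hP hQ
        exact ⟨[P ++ Q], by simpa using h1, by simp, by simpa using h2⟩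
      | cons u L ih =>
        intro hL v b P Q hP hQ
        obtain ⟨c, d, hu⟩ := hL u (by simp)
        obtain ⟨a1, h1, P', hP', rfl⟩ := Language.mem_mul.1 hu
        obtain ⟨Q', hQ', M, hM, rfl⟩ := Language.mem_mul.1 h1
        obtain ⟨k1, k2⟩ := h.s1 v c P Q' hP hQ'
        have i1 := ih (fun y hy => hL y (by simp [hy])) d b P' Q hP' hQ
        have i2 := Run.append (hmono hM) i1
        have i3 := Run.cons (T := T) (v := v) k1 (by rw [k2]; exact i2)
        have e : P ++ ((Q' ++ M ++ P') :: L).flatten ++ Q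
            = P ++ Q' ++ (M ++ (P' ++ L.flatten ++ Q)) := by
          simp [List.append_assoc]
        rw [e]
        exact i3
    rintro (hw | ⟨c, d, hw⟩)
    · exact hmono hw
    · obtain ⟨a1, h1, R, hR', rfl⟩ := Language.mem_mul.1 hw
      obtain ⟨a2, h2, Q, hQ, rfl⟩ := Language.mem_mul.1 h1
      obtain ⟨a3, h3, L, hL', rfl⟩ := Language.mem_mul.1 h2
      obtain ⟨M, hM, P, hP, rfl⟩ := Language.mem_mul.1 h3
      rw [Language.mem_kstar] at hL'
      obtain ⟨L, rfl, hL'⟩ := hL'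
      have i1 := key L hL' c d P Q hP hQ
      have i2 := Run.append (Run.append (hmono hM) i1) (hmono hR')
      simpa [List.append_assoc] using i2

/-- the whole two scheme statement: runs over all blocks have height three -/
theorem Dat.run3 [Finite V] (h : Dat XX Bad T LP1 RQ1 LP2 RQ2) (hXX : HL 1 XX)
    (hB : ∀ v c, HL 2 (BV Bad T v c)) (hL2 : ∀ v, HL 1 (LP2 v)) (hR2 : ∀ v, HL 1 (RQ2 v))
    (hL1 : ∀ v, HL 2 (LP1 v)) (hR1 : ∀ v, HL 2 (RQ1 v)) (v b : V) : HL 3 (Run T XX v b) :=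
  h.HL_run (fun v b => h.HL_bad hXX hL2 hR2 hB v b) hL1 hR1 v b

/-- words with a parse into blocks -/
theorem foldl_affine {S : Type} [Monoid S] [AddCommGroup V] {φ : List α → S}
    (hφ0 : φ [] = 1) (hφ : ∀ u v, φ (u ++ v) = φ u * φ v) {act : V → S → V}
    (hadd : ∀ v w s, act (v + w) s = act v s + act w s) (hone : ∀ v, act v 1 = v)
    (hmul : ∀ v s t, act v (s * t) = act (act v s) t) {nz : List α → V}
    (hT : ∀ v, ∀ X ∈ XX, T v X = act v (φ X) + nz X) :
    ∀ (Xs : List (List α)), (∀ X ∈ Xs, X ∈ XX) →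
      ∃ c, ∀ v, Xs.foldl T v = act v (φ Xs.flatten) + c := by
  intro Xs
  induction Xs with
  | nil => intro _; exact ⟨0, fun v => by simp [hφ0, hone]⟩
  | cons X Xs ih =>
    intro hXs
    obtain ⟨c, hc⟩ := ih (fun Y hY => hXs Y (by simp [hY]))
    refine ⟨act (nz X) (φ Xs.flatten) + c, fun v => ?_⟩
    rw [List.foldl_cons, hc, hT v X (hXs X (by simp)), hadd, List.flatten_cons, hφ, hmul,
      add_assoc]

/-- **TOP** -/
theorem top5 [Finite V] {S : Type} [Monoid S] [Finite S] [AddCommGroup V] {φ : List α → S}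
    (hφ0 : φ [] = 1) (hφ : ∀ u v, φ (u ++ v) = φ u * φ v) {act : V → S → V}
    (hadd : ∀ v w s, act (v + w) s = act v s + act w s) (hone : ∀ v, act v 1 = v)
    (hmul : ∀ v s t, act v (s * t) = act (act v s) t)
    (hfaith : ∀ s t, (∀ v, act v s = act v t) → s = t) {nz : List α → V}
    (hT : ∀ v, ∀ X ∈ XX, T v X = act v (φ X) + nz X)
    (h : Dat XX Bad T LP1 RQ1 LP2 RQ2) (hXX : HL 1 XX)
    (hB : ∀ v c, HL 2 (BV Bad T v c)) (hL2 : ∀ v, HL 1 (LP2 v)) (hR2 : ∀ v, HL 1 (RQ2 v))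
    (hL1 : ∀ v, HL 2 (LP1 v)) (hR1 : ∀ v, HL 2 (RQ1 v))
    (hE : ∀ s, HL 3 ({E | (∀ X ∈ XX, ¬ X <+: E) ∧ φ E = s} : Language α)) (s : S) :
    HL 3 ({w | φ w = s} : Language α) := by
  have hrun := h.run3 hXX hB hL2 hR2 hL1 hR1
  have hact0 : ∀ s, act 0 s = 0 := fun s => by
    have := hadd 0 0 s
    simpa using this
  -- complete words
  let CW : S → Language α := fun g => {w | w ∈ KStar.kstar XX ∧ φ w = g}
  have hCW : ∀ g, HL 3 (CW g) := by
    intro g
    refine (HL.iUnion (k := 3) (ι := V) (L := fun c => {w | ∀ v : V,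
      w ∈ Run T XX v (act v g + c)}) (fun c => HL.iInter (k := 3) (ι := V)
        (L := fun v => Run T XX v (act v g + c)) (fun v => hrun v _))).congr fun w => ?_
    constructor
    · rintro ⟨hw, hg⟩
      rw [Language.mem_kstar] at hw
      obtain ⟨Xs, rfl, hXs⟩ := hw
      obtain ⟨c, hc⟩ := foldl_affine (T := T) hφ0 hφ hadd hone hmul hT Xs hXs
      exact ⟨c, fun v => ⟨Xs, hXs, rfl, by rw [hc v, hg]⟩⟩
    · rintro ⟨c, hc⟩
      obtain ⟨Xs, hXs, rfl, h0⟩ := hc 0
      refine ⟨?_, ?_⟩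
      · rw [Language.mem_kstar]; exact ⟨Xs, rfl, hXs⟩
      · obtain ⟨d, hd⟩ := foldl_affine (T := T) hφ0 hφ hadd hone hmul hT Xs hXs
        have hcd : c = d := by
          have h1 := hd 0
          rw [h0, hact0, hact0, zero_add, zero_add] at h1
          exact h1
        apply hfaith
        intro v
        obtain ⟨Ys, hYs, e1, e2⟩ := hc v
        have e3 : Ys = Xs := h.pc.unique Ys Xs hYs hXs e1
        subst e3
        have h1 := hd v
        rw [e2, hcd] at h1
        exact (add_right_cancel h1).symm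
  -- decomposition
  have hdec : ∀ (n : ℕ) (w : List α), w.length ≤ n → ∃ M E, w = M ++ E ∧
      M ∈ KStar.kstar XX ∧ ∀ X ∈ XX, ¬ X <+: E := by
    intro n
    induction n with
    | zero =>
      intro w hw
      have : w = [] := List.length_eq_zero_iff.1 (Nat.le_zero.1 hw)
      subst this
      refine ⟨[], [], rfl, ?_, ?_⟩
      · rw [Language.mem_kstar]; exact ⟨[], rfl, by simp⟩
      · intro X hX hp
        have : X = [] := List.prefix_nil.1 hp
        exact h.pc.ne (this ▸ hX)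
    | succ n ih =>
      intro w hw
      by_cases hp : ∃ X ∈ XX, X <+: w
      · obtain ⟨X, hX, t, rfl⟩ := hp
        have hX0 : X ≠ [] := fun e => h.pc.ne (e ▸ hX)
        have hXl : 0 < X.length := List.length_pos_iff.2 hX0
        obtain ⟨M, E, rfl, hM, hE'⟩ := ih t (by rw [List.length_append] at hw; omega)
        refine ⟨X ++ M, E, by simp [List.append_assoc], ?_, hE'⟩
        rw [Language.mem_kstar] at hM ⊢
        obtain ⟨Xs, rfl, hXs⟩ := hM
        refine ⟨X :: Xs, by simp, ?_⟩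
        intro Y hY
        rcases List.mem_cons.1 hY with rfl | hY
        · exact hX
        · exact hXs Y hY
      · push Not at hp
        refine ⟨[], w, rfl, ?_, hp⟩
        rw [Language.mem_kstar]; exact ⟨[], rfl, by simp⟩
  let EE : S → Language α := fun g => {E | (∀ X ∈ XX, ¬ X <+: E) ∧ φ E = g}
  refine (HL.iUnion (k := 3) (ι := S × S) (L := fun p => {w | p.1 * p.2 = s ∧
    w ∈ CW p.1 * EE p.2}) (fun p => (HL.const (k := 3) (p.1 * p.2 = s)).setOf_and
      ((hCW p.1).mul (hE p.2)))).congr fun w => ?_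
  constructor
  · intro hw
    obtain ⟨M, E, rfl, hM, hE'⟩ := hdec _ w le_rfl
    have hw' : φ (M ++ E) = s := hw
    refine ⟨(φ M, φ E), ?_, ?_⟩
    · rw [← hw', hφ]
    · exact Language.mem_mul.2 ⟨M, ⟨hM, rfl⟩, E, ⟨hE', rfl⟩, rfl⟩
  · rintro ⟨⟨g, g'⟩, h1, h2⟩
    obtain ⟨M, ⟨_, hM⟩, E, ⟨_, hE'⟩, rfl⟩ := Language.mem_mul.1 h2
    have h1' : g * g' = s := h1
    change φ (M ++ E) = s
    rw [hφ, hM, hE', h1']

end

end Crest.Agent.R320.Top5_191
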