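import Crest.Agent.R320.Thread_344

/-!
# Row 320, P1 (TOP) of the final plan #13253 (helper344)

Prefix code `XX` of blocks (left-looking walls), ONE token system `T v X`, scheme 1 (`LP1`, `RQ1`)
sound on every text, scheme 2 (`LP2`, `RQ2`) whose right words reach over one more block and which
is sound only if the first block is not cut by scheme 1 (promise; first violation is inside).

`Cut LP RQ v X` : the block `X` is cut for the token `v`.
`top5` : everything written has height `≤ k`  ⟹  `{w | φ w = s}` has height `≤ k + 2`.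
With `k = 1` and `Hk_851.of_monoid` this is S0495.
-/

set_option autoImplicit false

namespace Crest.Agent.R320.Top5_344

open Crest.RegLang Crest.Agent.R320.Hk_851 Crest.Agent.R320.Thread_344
open Computability

universe u

variable {α : Type u} {k : ℕ} {V : Type*}

/-- thread through blocks allowed by `Bk` -/
inductive Th (Bk : V → List α → Prop) (T : V → List α → V) : V → List α → V → Prop
  | nil (v : V) : Th Bk T v [] v
  | cons {v v' : V} {X w : List α} : Bk v X → Th Bk T (T v X) w v' → Th Bk T v (X ++ w) v'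

section basic

variable {Bk Bk' : V → List α → Prop} {T : V → List α → V}

theorem Th.append {v v1 v2 : V} {w w' : List α} (h : Th Bk T v w v1) (h' : Th Bk T v1 w' v2) :
    Th Bk T v (w ++ w') v2 := by
  induction h with
  | nil v => exact h'
  | cons hb _ ih =>
    rw [List.append_assoc]
    exact Th.cons hb (ih h')

theorem Th.single {v : V} {X : List α} (h : Bk v X) : Th Bk T v X (T v X) := by
  have := Th.cons (T := T) h (Th.nil (T v X))
  rwa [List.append_nil] at this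

theorem Th.mono (hm : ∀ v X, Bk v X → Bk' v X) {v v' : V} {w : List α} (h : Th Bk T v w v') :
    Th Bk' T v w v' := by
  induction h with
  | nil v => exact Th.nil v
  | cons hb _ ih => exact Th.cons (hm _ _ hb) ih

end basic

/-- prefix code -/
structure PC (XX : Language α) : Prop where
  ne : [] ∉ XX
  pc : ∀ X ∈ XX, ∀ Y ∈ XX, X <+: Y → X = Y

theorem PC.cancel {XX : Language α} (h : PC XX) {X Y r r' : List α} (hX : X ∈ XX) (hY : Y ∈ XX)
    (e : X ++ r = Y ++ r') : X = Y ∧ r = r' := by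
  have h1 : X = Y := by
    rcases List.prefix_or_prefix_of_prefix (List.prefix_append X r)
      (e ▸ List.prefix_append Y r') with h1 | h1
    · exact h.pc X hX Y hY h1
    · exact (h.pc Y hY X hX h1).symm
  subst h1
  exact ⟨rfl, List.append_cancel_left e⟩

section code

variable {XX : Language α} {Bk Bk' : V → List α → Prop} {T : V → List α → V}

theorem Th.inv (hc : PC XX) (hB : ∀ v X, Bk v X → X ∈ XX) {v v' : V} {X r : List α}
    (hX : X ∈ XX) (h : Th Bk T v (X ++ r) v') : Bk v X ∧ Th Bk T (T v X) r v' := by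
  generalize hw : X ++ r = w at h
  cases h with
  | nil v =>
    exfalso
    have : X = [] := (List.append_eq_nil_iff.1 hw).1
    exact hc.ne (this ▸ hX)
  | cons hb ht =>
    obtain ⟨rfl, rfl⟩ := hc.cancel hX (hB _ _ hb) hw
    exact ⟨hb, ht⟩

/-- cancel a whole prefix -/
theorem Th.inv_append (hc : PC XX) (hB : ∀ v X, Bk v X → X ∈ XX) (hB' : ∀ v X, Bk' v X → X ∈ XX)
    {v v1 v' : V} {u r : List α} (hu : Th Bk' T v u v1) (h : Th Bk T v (u ++ r) v') :
    Th Bk T v1 r v' := by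
  induction hu with
  | nil v => exact h
  | cons hb _ ih =>
    rw [List.append_assoc] at h
    exact ih (Th.inv hc hB (hB' _ _ hb) h).2

end code

/-- the block `X` is cut for the token `v` -/
def Cut (LP RQ : V → Language α) (v : V) (X : List α) : Prop :=
  ∃ b, ∃ P ∈ LP v, ∃ Q ∈ RQ b, X = P ++ Q

/-! ## scheme 1 : one star, sound on every text -/

section one

variable {XX : Language α} {T : V → List α → V} {LP RQ : V → Language α}

/-- uncut blocks -/
def Unc (XX : Language α) (LP RQ : V → Language α) (v : V) (X : List α) : Prop :=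
  X ∈ XX ∧ ¬ Cut LP RQ v X

theorem one_star [Finite V]
    (s1 : ∀ v b P Q, P ∈ LP v → Q ∈ RQ b → P ++ Q ∈ XX ∧ T v (P ++ Q) = b)
    (hL : ∀ v, HL k (LP v)) (hR : ∀ b, HL k (RQ b))
    (hU : ∀ v v', HL k ({w | Th (Unc XX LP RQ) T v w v'} : Language α)) (v v' : V) :
    HL (k + 1) ({w | Th (fun _ X => X ∈ XX) T v w v'} : Language α) := by
  let G : V → V → Language α := fun v v' => {w | Th (fun _ X => X ∈ XX) T v w v'}
  let U : V → V → Language α := fun v v' => {w | Th (Unc XX LP RQ) T v w v'}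
  have hUG : ∀ v w v', Th (Unc XX LP RQ) T v w v' → Th (fun _ X => X ∈ XX) T v w v' :=
    fun v w v' h => Th.mono (fun _ _ hb => hb.1) h
  let St : V → Language α := fun v => {w | ∃ v1, w ∈ U v v1 * LP v1}
  let K : Language α := {w | ∃ p : V × V, w ∈ RQ p.1 * U p.1 p.2 * LP p.2}
  let En : V → Language α := fun v' => {w | ∃ b, w ∈ RQ b * U b v'}
  have hSt : ∀ v, HL k (St v) := fun v => HL.iUnion fun v1 => HL.mul (hU v v1) (hL v1)
  have hK : HL k K := HL.iUnion fun p => HL.mul (HL.mul (hR p.1) (hU p.1 p.2)) (hL p.2)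
  have hEn : ∀ v', HL k (En v') := fun v' => HL.iUnion fun b => HL.mul (hR b) (hU b v')
  have key : HL (k + 1) (U v v' + St v * K∗ * En v') :=
    HL.add (HL.mono (Nat.le_succ k) (hU v v'))
      (HL.mul (HL.mul (HL.mono (Nat.le_succ k) (hSt v)) (HL.star hK))
        (HL.mono (Nat.le_succ k) (hEn v')))
  refine HL.congr key fun w => ⟨fun hw => ?_, fun hw => ?_⟩
  · -- completeness
    have hw' : Th (fun _ X => X ∈ XX) T v w v' := hw
    clear hw key
    induction hw' with
    | nil v => exact Or.inl (Th.nil v)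
    | @cons v v' X w hX _ ih =>
      by_cases hc : Cut LP RQ v X
      · obtain ⟨b, P, hP, Q, hQ, rfl⟩ := hc
        have hb : T v (P ++ Q) = b := (s1 v b P Q hP hQ).2
        rw [hb] at ih
        have hPS : P ∈ St v := ⟨v, Language.mem_mul.2 ⟨[], Th.nil v, P, hP, rfl⟩⟩
        right
        rcases ih with h | h
        · refine Language.mem_mul.2 ⟨P, Language.mem_mul.2 ⟨P, hPS, [],
            Language.nil_mem_kstar _, List.append_nil _⟩, Q ++ w, ⟨b, Language.mem_mul.2
            ⟨Q, hQ, w, h, rfl⟩⟩, by simp⟩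
        · obtain ⟨x, hx, e, he, rfl⟩ := Language.mem_mul.1 h
          obtain ⟨s, ⟨v1, hs⟩, κ, hκ, rfl⟩ := Language.mem_mul.1 hx
          obtain ⟨u, hu, P', hP', rfl⟩ := Language.mem_mul.1 hs
          have hz : Q ++ u ++ P' ∈ K := ⟨(b, v1), Language.mem_mul.2
            ⟨Q ++ u, Language.mem_mul.2 ⟨Q, hQ, u, hu, rfl⟩, P', hP', rfl⟩⟩
          have hz' : (Q ++ u ++ P') ++ κ ∈ K∗ :=
            (mul_kstar_le_kstar : K * K∗ ≤ K∗) (Language.mem_mul.2 ⟨_, hz, κ, hκ, rfl⟩)
          refine Language.mem_mul.2 ⟨P ++ ((Q ++ u ++ P') ++ κ), Language.mem_mul.2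
            ⟨P, hPS, _, hz', rfl⟩, e, he, by simp⟩
      · rcases ih with h | h
        · exact Or.inl (Th.cons ⟨hX, hc⟩ h)
        · right
          obtain ⟨x, hx, e, he, rfl⟩ := Language.mem_mul.1 h
          obtain ⟨s, ⟨v1, hs⟩, κ, hκ, rfl⟩ := Language.mem_mul.1 hx
          obtain ⟨u, hu, P', hP', rfl⟩ := Language.mem_mul.1 hs
          refine Language.mem_mul.2 ⟨(X ++ u ++ P') ++ κ, Language.mem_mul.2
            ⟨X ++ u ++ P', ⟨v1, Language.mem_mul.2 ⟨X ++ u, Th.cons ⟨hX, hc⟩ hu, P', hP', rfl⟩⟩,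
              κ, hκ, rfl⟩, e, he, by simp⟩
  · -- soundness
    rcases hw with h | h
    · exact hUG _ _ _ h
    · have hs := star_sound (St := St v) (K := K) (En := En v')
        (Sig := ({x | ∃ u v1 P, x = u ++ P ∧ Th (fun _ X => X ∈ XX) T v u v1 ∧ P ∈ LP v1} :
          Language α)) (T := G v v') ?_ ?_ ?_
      · exact hs h
      · rintro x ⟨v1, hx⟩
        obtain ⟨u, hu, P, hP, rfl⟩ := Language.mem_mul.1 hx
        exact ⟨u, v1, P, rfl, hUG _ _ _ hu, hP⟩
      · intro x hx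
        obtain ⟨y, ⟨u, v1, P, rfl, hu, hP⟩, z, ⟨⟨b, v2⟩, hz⟩, rfl⟩ := Language.mem_mul.1 hx
        obtain ⟨q, hq, P', hP', rfl⟩ := Language.mem_mul.1 hz
        obtain ⟨Q, hQ, u', hu', rfl⟩ := Language.mem_mul.1 hq
        obtain ⟨h1, h2⟩ := s1 v1 b P Q hP hQ
        refine ⟨u ++ ((P ++ Q) ++ u'), v2, P', by simp, ?_, hP'⟩
        exact Th.append hu (Th.cons h1 (by rw [h2]; exact hUG _ _ _ hu'))
      · intro x hx
        obtain ⟨y, ⟨u, v1, P, rfl, hu, hP⟩, z, ⟨b, hz⟩, rfl⟩ := Language.mem_mul.1 hx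
        obtain ⟨Q, hQ, u', hu', rfl⟩ := Language.mem_mul.1 hz
        obtain ⟨h1, h2⟩ := s1 v1 b P Q hP hQ
        have h3 : Th (fun _ X => X ∈ XX) T v (u ++ ((P ++ Q) ++ u')) v' :=
          Th.append hu (Th.cons h1 (by rw [h2]; exact hUG _ _ _ hu'))
        have e : u ++ P ++ (Q ++ u') = u ++ ((P ++ Q) ++ u') := by simp
        change Th (fun _ X => X ∈ XX) T v (u ++ P ++ (Q ++ u')) v'
        rw [e]; exact h3

end one

/-! ## scheme 2 : promise form, the right word reaches over one more block -/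

section two

variable {XX : Language α} {T : V → List α → V} {LP RQ LP2 RQ2 : V → Language α}

/-- the run from `v` meets a complete block which is cut by scheme 1 -/
def Viol (XX : Language α) (T : V → List α → V) (LP RQ : V → Language α) (v : V) : Language α :=
  {w | ∃ u v1 X r, w = u ++ (X ++ r) ∧ Th (Unc XX LP RQ) T v u v1 ∧ X ∈ XX ∧ Cut LP RQ v1 X}

theorem Viol.append {v : V} {w : List α} (h : w ∈ Viol XX T LP RQ v) (r : List α) :
    w ++ r ∈ Viol XX T LP RQ v := by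
  obtain ⟨u, v1, X, r', rfl, h1, h2, h3⟩ := h
  exact ⟨u, v1, X, r' ++ r, by simp, h1, h2, h3⟩

theorem two_star [Finite V] (hc : PC XX)
    (s1 : ∀ v b P Q, P ∈ LP v → Q ∈ RQ b → P ++ Q ∈ XX ∧ T v (P ++ Q) = b)
    (s2 : ∀ v b P Q, P ∈ LP2 v → Q ∈ RQ2 b → (∀ X ∈ XX, X <+: P ++ Q → ¬ Cut LP RQ v X) →
      ∃ X1 ∈ XX, ∃ X2 ∈ XX, P ++ Q = X1 ++ X2 ∧ T (T v X1) X2 = b)
    (cc : ∀ v, ∀ X ∈ XX, ∀ Y ∈ XX, ¬ Cut LP RQ v X → ¬ Cut LP RQ (T v X) Y →
      ∃ P ∈ LP2 v, ∃ Q ∈ RQ2 (T (T v X) Y), X ++ Y = P ++ Q)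
    (hX : ∀ v v', HL k ({X | X ∈ XX ∧ T v X = v'} : Language α))
    (hL : ∀ v, HL k (LP v)) (hR : ∀ b, HL k (RQ b))
    (hL2 : ∀ v, HL k (LP2 v)) (hR2 : ∀ b, HL k (RQ2 b)) (v v' : V) :
    HL (k + 1) ({w | Th (Unc XX LP RQ) T v w v'} : Language α) := by
  classical
  have hk := Nat.le_succ k
  -- blocks cut by scheme 1
  have hC1 : ∀ v, HL k ({X | X ∈ XX ∧ Cut LP RQ v X} : Language α) := by
    intro v
    have h : HL k ({X | ∃ b, X ∈ LP v * RQ b} : Language α) :=
      HL.iUnion fun b => HL.mul (hL v) (hR b)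
    refine HL.congr h fun X => ⟨?_, ?_⟩
    · rintro ⟨-, b, P, hP, Q, hQ, rfl⟩
      exact ⟨b, Language.mem_mul.2 ⟨P, hP, Q, hQ, rfl⟩⟩
    · rintro ⟨b, h⟩
      obtain ⟨P, hP, Q, hQ, rfl⟩ := Language.mem_mul.1 h
      exact ⟨(s1 v b P Q hP hQ).1, b, P, hP, Q, hQ, rfl⟩
  -- at most one uncut block
  let B : V → V → Language α := fun v v' =>
    {w | (w = [] ∧ v = v') ∨ ((w ∈ XX ∧ T v w = v') ∧ ¬ (w ∈ XX ∧ Cut LP RQ v w))}
  have hB : ∀ v v', HL k (B v v') := by
    intro v v'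
    have h0 : HL k ({w | w = [] ∧ v = v'} : Language α) :=
      HL.setOf_and (HL.congr HL.one fun w => Iff.rfl) (HL.const (v = v'))
    exact HL.setOf_or h0 (HL.setOf_and (hX v v') (HL.setOf_not (hC1 v)))
  have hBU : ∀ v v' w, w ∈ B v v' → Th (Unc XX LP RQ) T v w v' := by
    rintro v v' w (⟨rfl, rfl⟩ | ⟨⟨h1, h2⟩, h3⟩)
    · exact Th.nil v
    · rw [← h2]; exact Th.single ⟨h1, fun h => h3 ⟨h1, h⟩⟩
  let K : Language α := {w | ∃ b : V, w ∈ RQ2 b * LP2 b}
  let En : V → Language α := fun v' => {w | ∃ b : V, w ∈ RQ2 b * B b v'}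
  let E : V → V → Language α := fun v v' => B v v' + LP2 v * K∗ * En v'
  have hK : HL k K := HL.iUnion fun b => HL.mul (hR2 b) (hL2 b)
  have hEn : ∀ v', HL k (En v') := fun v' => HL.iUnion fun b => HL.mul (hR2 b) (hB b v')
  have hE : ∀ v v', HL (k + 1) (E v v') := fun v v' =>
    HL.add (HL.mono hk (hB v v'))
      (HL.mul (HL.mul (HL.mono hk (hL2 v)) (HL.star hK)) (HL.mono hk (hEn v')))
  -- completeness
  have compl : ∀ n : ℕ, ∀ v v' w, w.length ≤ n → Th (Unc XX LP RQ) T v w v' → w ∈ E v v' := by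
    intro n
    induction n with
    | zero =>
      intro v v' w hn hw
      have hw0 : w = [] := List.length_eq_zero_iff.1 (Nat.le_zero.1 hn)
      subst hw0
      left
      left
      refine ⟨rfl, ?_⟩
      generalize hz : ([] : List α) = z at hw
      cases hw with
      | nil v => rfl
      | cons hb ht =>
        exfalso
        have : _ = [] := (List.append_eq_nil_iff.1 hz.symm).1
        exact hc.ne (this ▸ hb.1)
    | succ n ih =>
      intro v v' w hn hw
      cases hw with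
      | nil v => exact Or.inl (Or.inl ⟨rfl, rfl⟩)
      | @cons _ _ X w1 hb ht =>
        cases ht with
        | nil _ =>
          left
          rw [List.append_nil]
          exact Or.inr ⟨⟨hb.1, rfl⟩, fun h => hb.2 h.2⟩
        | @cons _ _ Y w2 hb' ht' =>
          obtain ⟨P, hP, Q, hQ, hPQ⟩ := cc v X hb.1 Y hb'.1 hb.2 hb'.2
          have hXne : 0 < X.length := List.length_pos_iff.2 (fun h => hc.ne (h ▸ hb.1))
          have hl : w2.length ≤ n := by
            rw [List.length_append, List.length_append] at hn; omega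
          have h := ih _ v' w2 hl ht'
          right
          have ew : X ++ (Y ++ w2) = P ++ (Q ++ w2) := by
            rw [← List.append_assoc, hPQ, List.append_assoc]
          rw [ew]
          rcases h with h | h
          · exact Language.mem_mul.2 ⟨P, Language.mem_mul.2 ⟨P, hP, [],
              Language.nil_mem_kstar _, List.append_nil _⟩, Q ++ w2,
              ⟨_, Language.mem_mul.2 ⟨Q, hQ, w2, h, rfl⟩⟩, rfl⟩
          · obtain ⟨x, hx, e, he, rfl⟩ := Language.mem_mul.1 h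
            obtain ⟨P', hP', κ, hκ, rfl⟩ := Language.mem_mul.1 hx
            have hz : Q ++ P' ∈ K := ⟨_, Language.mem_mul.2 ⟨Q, hQ, P', hP', rfl⟩⟩
            have hz' : (Q ++ P') ++ κ ∈ K∗ :=
              (mul_kstar_le_kstar : K * K∗ ≤ K∗) (Language.mem_mul.2 ⟨_, hz, κ, hκ, rfl⟩)
            exact Language.mem_mul.2 ⟨P ++ ((Q ++ P') ++ κ), Language.mem_mul.2
              ⟨P, hP, _, hz', rfl⟩, e, he, by simp⟩
  -- one scheme-2 junction after a clean run
  have junc : ∀ v u v1 P b Q, Th (Unc XX LP RQ) T v u v1 → P ∈ LP2 v1 → Q ∈ RQ2 b →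
      u ++ P ++ Q ∈ Viol XX T LP RQ v ∨ Th (Unc XX LP RQ) T v (u ++ P ++ Q) b := by
    intro v u v1 P b Q hu hP hQ
    by_cases h : ∀ X ∈ XX, X <+: P ++ Q → ¬ Cut LP RQ v1 X
    · obtain ⟨X1, hX1, X2, hX2, e, hb⟩ := s2 v1 b P Q hP hQ h
      have hX1u : Unc XX LP RQ v1 X1 := ⟨hX1, h X1 hX1 ⟨X2, e.symm⟩⟩
      have eu : u ++ P ++ Q = u ++ (X1 ++ X2) := by rw [List.append_assoc, e]
      by_cases h2 : Cut LP RQ (T v1 X1) X2
      · left
        refine ⟨u ++ X1, T v1 X1, X2, [], ?_, Th.append hu (Th.single hX1u), hX2, h2⟩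
        rw [eu]; simp
      · right
        rw [eu, ← hb]
        exact Th.append hu (Th.append (Th.single hX1u) (Th.single ⟨hX2, h2⟩))
    · left
      push Not at h
      obtain ⟨X, hX, ⟨r, hr⟩, hcut⟩ := h
      exact ⟨u, v1, X, r, by rw [hr, List.append_assoc], hu, hX, hcut⟩
  -- soundness up to violation
  have sound : ∀ v v' w, w ∈ E v v' → w ∈ Viol XX T LP RQ v ∨ Th (Unc XX LP RQ) T v w v' := by
    intro v v' w hw
    rcases hw with h | h
    · exact Or.inr (hBU _ _ _ h)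
    · have hs := star_sound (St := LP2 v) (K := K) (En := En v')
        (Sig := ({x | x ∈ Viol XX T LP RQ v ∨ ∃ u v1 P, x = u ++ P ∧
          Th (Unc XX LP RQ) T v u v1 ∧ P ∈ LP2 v1} : Language α))
        (T := ({w | w ∈ Viol XX T LP RQ v ∨ Th (Unc XX LP RQ) T v w v'} : Language α)) ?_ ?_ ?_
      · exact hs h
      · intro x hx
        exact Or.inr ⟨[], v, x, rfl, Th.nil v, hx⟩
      · intro x hx
        obtain ⟨y, hy, z, ⟨b, hz⟩, rfl⟩ := Language.mem_mul.1 hx
        rcases hy with hy | ⟨u, v1, P, rfl, hu, hP⟩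
        · exact Or.inl (Viol.append hy z)
        · obtain ⟨Q, hQ, P', hP', rfl⟩ := Language.mem_mul.1 hz
          rcases junc v u v1 P b Q hu hP hQ with h1 | h1
          · left
            have := Viol.append h1 P'
            have e : u ++ P ++ Q ++ P' = u ++ P ++ (Q ++ P') := by simp
            rw [e] at this
            exact this
          · exact Or.inr ⟨u ++ P ++ Q, b, P', by simp, h1, hP'⟩
      · intro x hx
        obtain ⟨y, hy, z, ⟨b, hz⟩, rfl⟩ := Language.mem_mul.1 hx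
        rcases hy with hy | ⟨u, v1, P, rfl, hu, hP⟩
        · exact Or.inl (Viol.append hy z)
        · obtain ⟨Q, hQ, w', hw', rfl⟩ := Language.mem_mul.1 hz
          have e : u ++ P ++ Q ++ w' = u ++ P ++ (Q ++ w') := by simp
          rcases junc v u v1 P b Q hu hP hQ with h1 | h1
          · left
            have := Viol.append h1 w'
            rw [e] at this
            exact this
          · right
            have := Th.append h1 (hBU _ _ _ hw')
            rw [e] at this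
            exact this
  -- the violation language
  have hV : HL (k + 1) (Viol XX T LP RQ v) := by
    let C1 : V → Language α := fun v1 => {X | X ∈ XX ∧ Cut LP RQ v1 X}
    have h : HL (k + 1) ({w | ∃ v1, w ∈ E v v1 * C1 v1 * (⊤ : Language α)} : Language α) :=
      HL.iUnion fun v1 => HL.mul (HL.mul (hE v v1) (HL.mono hk (hC1 v1))) HL.top
    refine HL.congr h fun w => ⟨?_, ?_⟩
    · rintro ⟨u, v1, X, r, rfl, hu, hX, hcut⟩
      exact ⟨v1, Language.mem_mul.2 ⟨u ++ X, Language.mem_mul.2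
        ⟨u, compl u.length v v1 u le_rfl hu, X, ⟨hX, hcut⟩, rfl⟩, r, trivial, by simp⟩⟩
    · rintro ⟨v1, hw⟩
      obtain ⟨x, hx, r, -, rfl⟩ := Language.mem_mul.1 hw
      obtain ⟨u, hu, X, ⟨hX, hcut⟩, rfl⟩ := Language.mem_mul.1 hx
      rcases sound v v1 u hu with h1 | h1
      · exact Viol.append (Viol.append h1 X) r
      · exact ⟨u, v1, X, r, by simp, h1, hX, hcut⟩
  refine HL.congr (HL.setOf_and (hE v v') (HL.setOf_not hV)) fun w => ⟨fun hw => ?_, ?_⟩
  · have hw' : Th (Unc XX LP RQ) T v w v' := hw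
    refine ⟨compl w.length v v' w le_rfl hw', ?_⟩
    rintro ⟨u, v1, X, r, rfl, hu, hX, hcut⟩
    have h1 := Th.inv_append hc (fun _ _ hb => hb.1) (fun _ _ hb => hb.1) hu hw'
    exact (Th.inv hc (fun _ _ hb => hb.1) hX h1).1.2 hcut
  · rintro ⟨h1, h2⟩
    rcases sound v v' w h1 with h | h
    · exact (h2 h).elim
    · exact h

end two

/-! ## the top -/

section top

variable {XX : Language α} {T : V → List α → V}

theorem Th.diff [AddCommGroup V] {S : Type*} [Monoid S] (hc : PC XX) (φ : α → S)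
    (act : V → S → V) (act_one : ∀ v, act v 1 = v)
    (act_mul : ∀ v s t, act v (s * t) = act (act v s) t)
    (hT : ∀ X ∈ XX, ∀ v w, T v X - T w X = act (v - w) (X.map φ).prod)
    {v v' w w' : V} {M : List α} (h : Th (fun _ X => X ∈ XX) T v M v')
    (h' : Th (fun _ X => X ∈ XX) T w M w') : v' - w' = act (v - w) (M.map φ).prod := by
  induction h generalizing w with
  | nil v =>
    generalize hz : ([] : List α) = z at h'
    cases h' with
    | nil w => simp [act_one]
    | cons hb ht =>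
      exfalso
      have : _ = [] := (List.append_eq_nil_iff.1 hz.symm).1
      exact hc.ne (this ▸ hb)
  | @cons v v' X M hX _ ih =>
    have h1 := (Th.inv hc (fun _ _ hb => hb) hX h').2
    rw [ih h1, hT X hX, List.map_append, List.prod_append, act_mul]

theorem Th.total {v v' : V} {M : List α} (h : Th (fun _ X => X ∈ XX) T v M v') (w : V) :
    ∃ w', Th (fun _ X => X ∈ XX) T w M w' := by
  induction h generalizing w with
  | nil v => exact ⟨w, Th.nil w⟩
  | @cons v v' X M hX _ ih =>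
    obtain ⟨w', hw'⟩ := ih (T w X)
    exact ⟨w', Th.cons hX hw'⟩

/-- **TOP.** -/
theorem top5 [AddCommGroup V] [Finite V] {S : Type*} [Monoid S] [Finite S] (hc : PC XX)
    (φ : α → S) (act : V → S → V) (act_one : ∀ v, act v 1 = v)
    (act_mul : ∀ v s t, act v (s * t) = act (act v s) t)
    (faithful : ∀ s t, (∀ v, act v s = act v t) → s = t)
    (hT : ∀ X ∈ XX, ∀ v w, T v X - T w X = act (v - w) (X.map φ).prod)
    (LP RQ LP2 RQ2 : V → Language α)
    (s1 : ∀ v b P Q, P ∈ LP v → Q ∈ RQ b → P ++ Q ∈ XX ∧ T v (P ++ Q) = b)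
    (s2 : ∀ v b P Q, P ∈ LP2 v → Q ∈ RQ2 b → (∀ X ∈ XX, X <+: P ++ Q → ¬ Cut LP RQ v X) →
      ∃ X1 ∈ XX, ∃ X2 ∈ XX, P ++ Q = X1 ++ X2 ∧ T (T v X1) X2 = b)
    (cc : ∀ v, ∀ X ∈ XX, ∀ Y ∈ XX, ¬ Cut LP RQ v X → ¬ Cut LP RQ (T v X) Y →
      ∃ P ∈ LP2 v, ∃ Q ∈ RQ2 (T (T v X) Y), X ++ Y = P ++ Q)
    (hX : ∀ v v', HL k ({X | X ∈ XX ∧ T v X = v'} : Language α))
    (hL : ∀ v, HL k (LP v)) (hR : ∀ b, HL k (RQ b))
    (hL2 : ∀ v, HL k (LP2 v)) (hR2 : ∀ b, HL k (RQ2 b))
    (hrest : ∀ s, HL (k + 2) ({E | (∀ X ∈ XX, ¬ X <+: E) ∧ (E.map φ).prod = s} : Language α))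
    (s : S) : HL (k + 2) ({w | (w.map φ).prod = s} : Language α) := by
  have hG : ∀ v v', HL (k + 2) ({w | Th (fun _ X => X ∈ XX) T v w v'} : Language α) :=
    one_star (k := k + 1) s1 (fun v => HL.mono (Nat.le_succ k) (hL v))
      (fun b => HL.mono (Nat.le_succ k) (hR b)) (two_star hc s1 s2 cc hX hL hR hL2 hR2)
  let F : S → Language α :=
    fun s => {M | (∃ c, Th (fun _ X => X ∈ XX) T 0 M c) ∧ (M.map φ).prod = s}
  have hF : ∀ s, HL (k + 2) (F s) := by
    intro s
    have h : HL (k + 2) ({M | ∀ v : V, ∃ c : V, Th (fun _ X => X ∈ XX) T 0 M c ∧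
        Th (fun _ X => X ∈ XX) T v M (act v s + c)} : Language α) :=
      HL.iInter fun v => HL.iUnion fun c => HL.setOf_and (hG 0 c) (hG v (act v s + c))
    refine HL.congr h fun M => ⟨?_, ?_⟩
    · rintro ⟨⟨c, hc0⟩, hs⟩ v
      obtain ⟨c', hc'⟩ := Th.total hc0 v
      have hd := Th.diff hc φ act act_one act_mul hT hc' hc0
      rw [sub_zero, hs] at hd
      have : c' = act v s + c := by rw [← hd]; abel
      exact ⟨c, hc0, this ▸ hc'⟩
    · intro hM
      refine ⟨⟨_, (hM 0).choose_spec.1⟩, faithful _ _ fun v => ?_⟩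
      obtain ⟨c, h1, h2⟩ := hM v
      have hd := Th.diff hc φ act act_one act_mul hT h2 h1
      rw [sub_zero, add_sub_cancel_right] at hd
      exact hd.symm
  let R : S → Language α := fun s => {E | (∀ X ∈ XX, ¬ X <+: E) ∧ (E.map φ).prod = s}
  have hR' : ∀ s, HL (k + 2) (R s) := hrest
  have key : HL (k + 2) ({w | ∃ p : S × S, p.1 * p.2 = s ∧ w ∈ F p.1 * R p.2} : Language α) :=
    HL.iUnion fun p => HL.setOf_and (HL.const (p.1 * p.2 = s)) (HL.mul (hF p.1) (hR' p.2))
  have parse : ∀ n : ℕ, ∀ w : List α, w.length ≤ n → ∀ v, ∃ M E c, w = M ++ E ∧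
      Th (fun _ X => X ∈ XX) T v M c ∧ ∀ X ∈ XX, ¬ X <+: E := by
    intro n
    induction n with
    | zero =>
      intro w hn v
      have hw0 : w = [] := List.length_eq_zero_iff.1 (Nat.le_zero.1 hn)
      subst hw0
      refine ⟨[], [], v, rfl, Th.nil v, fun X hX hp => ?_⟩
      exact hc.ne (List.prefix_nil.1 hp ▸ hX)
    | succ n ih =>
      intro w hn v
      by_cases h : ∃ X ∈ XX, X <+: w
      · obtain ⟨X, hX, ⟨r, rfl⟩⟩ := h
        have hXne : 0 < X.length := List.length_pos_iff.2 (fun h => hc.ne (h ▸ hX))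
        obtain ⟨M, E, c, rfl, hM, hE⟩ := ih r (by rw [List.length_append] at hn; omega) (T v X)
        exact ⟨X ++ M, E, c, by simp, Th.cons hX hM, hE⟩
      · push Not at h
        exact ⟨[], w, v, rfl, Th.nil v, h⟩
  refine HL.congr key fun w => ⟨fun hw => ?_, ?_⟩
  · obtain ⟨M, E, c, rfl, hM, hE⟩ := parse w.length w le_rfl 0
    refine ⟨((M.map φ).prod, (E.map φ).prod), ?_, Language.mem_mul.2
      ⟨M, ⟨⟨c, hM⟩, rfl⟩, E, ⟨hE, rfl⟩, rfl⟩⟩
    have hw' : ((M ++ E).map φ).prod = s := hw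
    rwa [List.map_append, List.prod_append] at hw'
  · rintro ⟨⟨a, b⟩, hab, hw⟩
    obtain ⟨M, ⟨-, hM⟩, E, ⟨-, hE⟩, rfl⟩ := Language.mem_mul.1 hw
    change ((M ++ E).map φ).prod = s
    rw [List.map_append, List.prod_append, hM, hE]
    exact hab

end top

/-- all data of the two schemes for one morphism, everything written has height `≤ k` -/
def TwoSchemes {S : Type u} [Monoid S] (φ : α → S) (k : ℕ) : Prop :=
  ∃ (V : Type u) (_ : AddCommGroup V) (_ : Finite V) (act : V → S → V) (XX : Language α)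
    (T : V → List α → V) (LP RQ LP2 RQ2 : V → Language α),
    PC XX ∧ (∀ v, act v 1 = v) ∧ (∀ v s t, act v (s * t) = act (act v s) t) ∧
    (∀ s t, (∀ v, act v s = act v t) → s = t) ∧
    (∀ X ∈ XX, ∀ v w, T v X - T w X = act (v - w) (X.map φ).prod) ∧
    (∀ v b P Q, P ∈ LP v → Q ∈ RQ b → P ++ Q ∈ XX ∧ T v (P ++ Q) = b) ∧
    (∀ v b P Q, P ∈ LP2 v → Q ∈ RQ2 b → (∀ X ∈ XX, X <+: P ++ Q → ¬ Cut LP RQ v X) →
      ∃ X1 ∈ XX, ∃ X2 ∈ XX, P ++ Q = X1 ++ X2 ∧ T (T v X1) X2 = b) ∧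
    (∀ v, ∀ X ∈ XX, ∀ Y ∈ XX, ¬ Cut LP RQ v X → ¬ Cut LP RQ (T v X) Y →
      ∃ P ∈ LP2 v, ∃ Q ∈ RQ2 (T (T v X) Y), X ++ Y = P ++ Q) ∧
    (∀ v v', HL k ({X | X ∈ XX ∧ T v X = v'} : Language α)) ∧
    (∀ v, HL k (LP v)) ∧ (∀ b, HL k (RQ b)) ∧ (∀ v, HL k (LP2 v)) ∧ (∀ b, HL k (RQ2 b)) ∧
    (∀ s, HL (k + 2) ({E | (∀ X ∈ XX, ¬ X <+: E) ∧ (E.map φ).prod = s} : Language α))

theorem TwoSchemes.fibre {S : Type u} [Monoid S] [Finite S] {φ : α → S} {k : ℕ}
    (h : TwoSchemes φ k) (s : S) : HL (k + 2) ({w | (w.map φ).prod = s} : Language α) := by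
  obtain ⟨V, i1, i2, act, XX, T, LP, RQ, LP2, RQ2, hc, h1, h2, h3, hT, s1, s2, cc, hX, hL, hR,
    hL2, hR2, hrest⟩ := h
  exact top5 hc φ act h1 h2 h3 hT LP RQ LP2 RQ2 s1 s2 cc hX hL hR hL2 hR2 hrest s

/-- **S0495 from the two schemes** (`k = 1` : everything written has height one) -/
theorem height_three [Finite α]
    (h : ∀ (S : Type u) [Monoid S] [Finite S] (φ : α → S), TwoSchemes φ 1)
    (L : Language α) (hL : L.IsRegular) : ∃ e : GRegExp α, e.height ≤ 3 ∧ e.lang = L :=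
  of_monoid (k := 3) (fun S _ _ φ s => (h S φ).fibre s) L hL

end Crest.Agent.R320.Top5_344
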