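import Crest.Agent.R320.Block_467

/-!
# Row 320, TOP: two nested schemes over a prefix code of (unbounded) blocks (helper391)

`C` = prefix code of blocks, `T v X` = value behind the block `X`.  Scheme 1 (`LP1`, `RQ1`) is sound
on every pair; scheme 2 (`LP2`, `RQ2`) only if the run of scheme 1 is not cut in the text of the
pair, its right words may reach over several blocks.  If every `N` consecutive blocks are cut by
scheme 1 or by scheme 2 then all thread languages are two stars above the legal words.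
-/

set_option autoImplicit false

namespace Crest.Agent.R320.Top5_391

open Crest.RegLang Crest.Agent.R320.Hk_851 Crest.Agent.R320.Blk467

universe u

variable {α : Type u} {k : ℕ} {V : Type*}

/-- scheme 1 cuts the block `X` for the token `v` -/
def Cut1 (T : V → List α → V) (LP RQ : V → Language α) (X : List α) (v : V) : Prop :=
  ∃ P Q, P ++ Q = X ∧ P ∈ LP v ∧ Q ∈ RQ (T v X)

/-- the thread from `v` through the blocks is never cut by scheme 1 -/
def Unc (T : V → List α → V) (LP RQ : V → Language α) : V → List (List α) → Prop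
  | _, [] => True
  | v, X :: l => ¬ Cut1 T LP RQ X v ∧ Unc T LP RQ (T v X) l

variable {T : V → List α → V} {LP RQ LP1 RQ1 LP2 RQ2 : V → Language α} {C : Set (List α)}

theorem Unc.append {l m : List (List α)} : ∀ {v : V},
    Unc T LP RQ v (l ++ m) ↔ Unc T LP RQ v l ∧ Unc T LP RQ (l.foldl T v) m := by
  induction l with
  | nil => intro v; simp [Unc]
  | cons X l ih => intro v; simp only [List.cons_append, Unc, ih, List.foldl_cons, and_assoc]

/-- **one star, threads uncut by the scheme below** -/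
theorem star_unc [Finite V] (C : Set (List α)) (T : V → List α → V) (LP RQ : V → Language α)
    (sound : ∀ v v' P Q, P ∈ LP v → Q ∈ RQ v' → P ++ Q ∈ Lg C T v v')
    (U : V → V → Language α) (hU1 : ∀ v v' w, w ∈ U v v' → w ∈ Lg C T v v')
    (hU2 : ∀ l : List (List α), (∀ X ∈ l, X ∈ C) → ∀ v, Unc T LP RQ v l →
      l.flatten ∈ U v (l.foldl T v))
    (hU : ∀ v v', HL k (U v v')) (hP : ∀ v, HL k (LP v)) (hQ : ∀ v, HL k (RQ v)) (v v' : V) :
    HL (k + 1) (Lg C T v v') := by
  classical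
  set K : Language α := {x | ∃ p : V × V, ∃ Q ∈ RQ p.1, ∃ m ∈ U p.1 p.2, ∃ P ∈ LP p.2,
    Q ++ m ++ P = x} with hKdef
  have hK0 : HL k K := by
    refine (HL.iUnion (k := k) (ι := V × V)
      (L := fun p => RQ p.1 * U p.1 p.2 * LP p.2)
      (fun p => ((hQ p.1).mul (hU p.1 p.2)).mul (hP p.2))).congr fun w => ?_
    constructor
    · rintro ⟨p, Q, hQ', m, hm, P, hP', rfl⟩
      exact ⟨p, mem_mul3.2 ⟨Q, hQ', m, hm, P, hP', rfl⟩⟩
    · intro h
      obtain ⟨p, hp⟩ := h
      obtain ⟨Q, hQ', m, hm, P, hP', rfl⟩ := mem_mul3.1 hp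
      exact ⟨p, Q, hQ', m, hm, P, hP', rfl⟩
  have hK : HL (k + 1) (KStar.kstar K) := hK0.star
  have hS : HL (k + 1) ({x | ∃ u : V, ∃ m ∈ U v u, ∃ P ∈ LP u, m ++ P = x} : Language α) := by
    refine (HL.mono (Nat.le_succ k) (HL.iUnion (k := k) (ι := V)
      (L := fun u => U v u * LP u) (fun u => (hU v u).mul (hP u)))).congr fun w => ?_
    constructor
    · rintro ⟨u, m, hm, P, hP', rfl⟩
      exact ⟨u, Language.mem_mul.2 ⟨m, hm, P, hP', rfl⟩⟩
    · intro h
      obtain ⟨u, hu⟩ := h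
      obtain ⟨m, hm, P, hP', rfl⟩ := Language.mem_mul.1 hu
      exact ⟨u, m, hm, P, hP', rfl⟩
  have hE : HL (k + 1) ({x | ∃ u : V, ∃ Q ∈ RQ u, ∃ m ∈ U u v', Q ++ m = x} : Language α) := by
    refine (HL.mono (Nat.le_succ k) (HL.iUnion (k := k) (ι := V)
      (L := fun u => RQ u * U u v') (fun u => (hQ u).mul (hU u v')))).congr fun w => ?_
    constructor
    · rintro ⟨u, m, hm, P, hP', rfl⟩
      exact ⟨u, Language.mem_mul.2 ⟨m, hm, P, hP', rfl⟩⟩
    · intro h
      obtain ⟨u, hu⟩ := h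
      obtain ⟨m, hm, P, hP', rfl⟩ := Language.mem_mul.1 hu
      exact ⟨u, m, hm, P, hP', rfl⟩
  have key := (HL.mono (Nat.le_succ k) (hU v v')).add ((hS.mul hK).mul hE)
  refine key.congr fun w => ?_
  constructor
  · rintro ⟨l, hl, rfl, hf⟩
    have main : ∀ (l : List (List α)) (v : V), (∀ X ∈ l, X ∈ C) → l.foldl T v = v' →
        Unc T LP RQ v l ∨
        ∃ l1 : List (List α), (∀ X ∈ l1, X ∈ C) ∧ Unc T LP RQ v l1 ∧ ∃ P ∈ LP (l1.foldl T v),
          ∃ ks : List (List α), (∀ x ∈ ks, x ∈ K) ∧ ∃ a : V, ∃ Q ∈ RQ a, ∃ m' ∈ U a v',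
            l1.flatten ++ P ++ ks.flatten ++ (Q ++ m') = l.flatten := by
      intro l
      induction l with
      | nil => intro v _ _; left; trivial
      | cons X l ih =>
        intro v hC hf
        have hX : X ∈ C := hC X (by simp)
        have hC' : ∀ Y ∈ l, Y ∈ C := fun Y hY => hC Y (by simp [hY])
        have hf' : l.foldl T (T v X) = v' := hf
        by_cases hcut : Cut1 T LP RQ X v
        · right
          obtain ⟨P, Q, e, hP', hQ'⟩ := hcut
          rcases ih (T v X) hC' hf' with h | ⟨l1, h1, h2, P1, hP1, ks, hks, a, Q1, hQ1, m', hm', e1⟩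
          · refine ⟨[], by simp, trivial, P, hP', [], by simp, T v X, Q, hQ', l.flatten, ?_, ?_⟩
            · have := hU2 l hC' _ h
              rwa [hf'] at this
            · rw [List.flatten_cons, ← e]
              simp
          · refine ⟨[], by simp, trivial, P, hP', (Q ++ l1.flatten ++ P1) :: ks, ?_, a, Q1, hQ1, m',
              hm', ?_⟩
            · intro x hx
              rcases List.mem_cons.1 hx with rfl | hx
              · exact ⟨(T v X, l1.foldl T (T v X)), Q, hQ', l1.flatten, hU2 l1 h1 _ h2, P1, hP1, rfl⟩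
              · exact hks x hx
            · have e2 : (X :: l).flatten = X ++ l.flatten := List.flatten_cons ..
              rw [e2, ← e1, ← e]
              simp [List.append_assoc]
        · rcases ih (T v X) hC' hf' with h | ⟨l1, h1, h2, P1, hP1, ks, hks, a, Q1, hQ1, m', hm', e1⟩
          · left
            exact ⟨hcut, h⟩
          · right
            refine ⟨X :: l1, ?_, ⟨hcut, h2⟩, P1, hP1, ks, hks, a, Q1, hQ1, m', hm', ?_⟩
            · intro Y hY
              rcases List.mem_cons.1 hY with rfl | hY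
              · exact hX
              · exact h1 Y hY
            · have e2 : (X :: l).flatten = X ++ l.flatten := List.flatten_cons ..
              rw [e2, ← e1]
              simp [List.append_assoc]
    rcases main l v hl hf with h | ⟨l1, h1, h2, P1, hP1, ks, hks, a, Q1, hQ1, m', hm', e1⟩
    · left
      have := hU2 l hl _ h
      rwa [hf] at this
    · right
      refine Language.mem_mul.2 ⟨l1.flatten ++ P1 ++ ks.flatten, Language.mem_mul.2
        ⟨l1.flatten ++ P1, ⟨_, _, hU2 l1 h1 _ h2, P1, hP1, rfl⟩, ks.flatten, ?_, rfl⟩,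
        Q1 ++ m', ⟨a, Q1, hQ1, m', hm', rfl⟩, e1⟩
      exact Language.mem_kstar.2 ⟨ks, rfl, hks⟩
  · rintro (h | h)
    · exact hU1 _ _ _ h
    · obtain ⟨x, hx, y, ⟨a, Q, hQ', m', hm', rfl⟩, rfl⟩ := Language.mem_mul.1 h
      obtain ⟨z, ⟨u, m, hm, P, hP', rfl⟩, y, hy, rfl⟩ := Language.mem_mul.1 hx
      obtain ⟨ks, rfl, hks⟩ := Language.mem_kstar.1 hy
      have main : ∀ (ks : List (List α)) (u : V) (P : List α), (∀ x ∈ ks, x ∈ K) → P ∈ LP u →
          P ++ ks.flatten ++ Q ∈ Lg C T u a := by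
        intro ks
        induction ks with
        | nil => intro u P _ hP'; simpa using sound u a P Q hP' hQ'
        | cons x ks ih =>
          intro u P hks hP'
          obtain ⟨⟨b, c⟩, Q1, hQ1, m1, hm1, P1, hP1, e⟩ := hks x (by simp)
          have h1 := sound u b P Q1 hP' hQ1
          have h2 := hU1 _ _ _ hm1
          have h3 := ih c P1 (fun y hy => hks y (by simp [hy])) hP1
          have := Lg.append (Lg.append h1 h2) h3
          rw [List.flatten_cons, ← e]
          simpa [List.append_assoc] using this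
      have := Lg.append (Lg.append (hU1 _ _ _ hm) (main ks u P hks hP')) (hU1 _ _ _ hm')
      simpa [List.append_assoc] using this

/-- products of fewer than `N` blocks with value -/
def BB (C : Set (List α)) (T : V → List α → V) (N : ℕ) (v v' : V) : Language α :=
  {w | ∃ l : List (List α), l.length < N ∧ (∀ X ∈ l, X ∈ C) ∧ l.flatten = w ∧ l.foldl T v = v'}

/-- single blocks with value -/
def CB (C : Set (List α)) (T : V → List α → V) (v a : V) : Language α := {X | X ∈ C ∧ T v X = a}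

theorem HL_BB [Finite V] (h2 : ∀ v v', HL k (CB C T v v')) (N : ℕ) :
    ∀ v v', HL k (BB C T N v v') := by
  induction N with
  | zero =>
    intro v v'
    refine (HL.zero (k := k)).congr fun w => Iff.symm ?_
    constructor
    · intro h; exact absurd h (Language.notMem_zero w)
    · rintro ⟨l, h, _⟩; omega
  | succ N ih =>
    intro v v'
    have h1 : HL k ({w | w = [] ∧ v = v'} : Language α) :=
      HL.setOf_and ((HL.one (k := k)).congr fun w => Iff.rfl) (HL.const _)
    have h3 : HL k ({w | ∃ a : V, w ∈ (CB C T v a * BB C T N a v' : Language α)} :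
        Language α) :=
      HL.iUnion fun a => (h2 v a).mul (ih a v')
    refine (h1.add h3).congr fun w => Iff.symm ?_
    constructor
    · rintro (⟨rfl, rfl⟩ | ⟨a, h⟩)
      · exact ⟨[], by simp, by simp, rfl, rfl⟩
      · obtain ⟨X, ⟨hX, rfl⟩, y, ⟨l, h4, h5, rfl, h6⟩, rfl⟩ := Language.mem_mul.1 h
        refine ⟨X :: l, by simpa using h4, ?_, rfl, h6⟩
        intro Y hY
        rcases List.mem_cons.1 hY with rfl | hY
        · exact hX
        · exact h5 Y hY
    · rintro ⟨l, h4, h5, rfl, h6⟩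
      cases l with
      | nil => left; exact ⟨rfl, h6⟩
      | cons X l =>
        right
        refine ⟨T v X, Language.mem_mul.2 ⟨X, ⟨h5 X (by simp), rfl⟩, l.flatten, ⟨l, ?_, ?_, rfl,
          h6⟩, rfl⟩⟩
        · simpa using h4
        · exact fun Y hY => h5 Y (by simp [hY])

/-- certificates of scheme 2 -/
inductive Cert (LP RQ : V → Language α) (B : V → V → Language α) : V → List α → V → Prop
  | base {v v' : V} {m : List α} (h : m ∈ B v v') : Cert LP RQ B v m v'
  | step {v u v' : V} {P Q m : List α} (hP : P ∈ LP v) (hQ : Q ∈ RQ u)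
      (h : Cert LP RQ B u m v') : Cert LP RQ B v (P ++ Q ++ m) v'

theorem Cert.trans {B : V → V → Language α} {v u : V} {P Q m : List α} (hP : P ∈ LP v)
    (hQ : Q ∈ RQ u) {v' : V} (h : Cert LP RQ B u m v') : Cert LP RQ B v (P ++ (Q ++ m)) v' := by
  rw [← List.append_assoc]
  exact .step hP hQ h

theorem HL_Cert [Finite V] {B : V → V → Language α} (hB : ∀ v v', HL k (B v v'))
    (hP : ∀ v, HL k (LP v)) (hQ : ∀ v, HL k (RQ v)) (v v' : V) :
    HL (k + 1) ({m | Cert LP RQ B v m v'} : Language α) := by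
  have hK0 : HL k ({x | ∃ a : V, x ∈ (RQ a * LP a : Language α)} : Language α) :=
    HL.iUnion fun a => (hQ a).mul (hP a)
  have hE : HL k ({x | ∃ a : V, x ∈ (RQ a * B a v' : Language α)} : Language α) :=
    HL.iUnion fun a => (hQ a).mul (hB a v')
  have key := (HL.mono (Nat.le_succ k) (hB v v')).add
    (((HL.mono (Nat.le_succ k) (hP v)).mul hK0.star).mul (HL.mono (Nat.le_succ k) hE))
  refine key.congr fun w => Iff.symm ?_
  constructor
  · rintro (h | h)
    · exact .base h
    · obtain ⟨x, hx, y, ⟨a, hy⟩, rfl⟩ := Language.mem_mul.1 h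
      obtain ⟨Q, hQ', m, hm, rfl⟩ := Language.mem_mul.1 hy
      obtain ⟨P, hP', z, hz, rfl⟩ := Language.mem_mul.1 hx
      obtain ⟨ks, rfl, hks⟩ := Language.mem_kstar.1 hz
      have main : ∀ (ks : List (List α)) (v : V) (P : List α), P ∈ LP v →
          (∀ x ∈ ks, x ∈ ({x | ∃ a : V, x ∈ (RQ a * LP a : Language α)} : Language α)) →
          Cert LP RQ B v (P ++ ks.flatten ++ (Q ++ m)) v' := by
        intro ks
        induction ks with
        | nil =>
          intro v P hP' _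
          rw [List.flatten_nil, List.append_nil]
          exact Cert.trans hP' hQ' (.base hm)
        | cons x ks ih =>
          intro v P hP' hks
          obtain ⟨b, hb⟩ := hks x (by simp)
          obtain ⟨Q1, hQ1, P1, hP1, rfl⟩ := Language.mem_mul.1 hb
          have := Cert.trans hP' hQ1 (ih b P1 hP1 (fun y hy => hks y (by simp [hy])))
          simpa [List.append_assoc] using this
      exact main ks v P hP' hks
  · intro h
    have main : ∀ {v w v'}, Cert LP RQ B v w v' → w ∈ B v v' ∨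
        ∃ P ∈ LP v, ∃ ks : List (List α),
          (∀ x ∈ ks, x ∈ ({x | ∃ a : V, x ∈ (RQ a * LP a : Language α)} : Language α)) ∧
          ∃ a : V, ∃ Q ∈ RQ a, ∃ m ∈ B a v', P ++ ks.flatten ++ (Q ++ m) = w := by
      intro v w v' h
      induction h with
      | base h => exact Or.inl h
      | @step v u v' P Q m hP' hQ' _ ih =>
        right
        rcases ih with h | ⟨P1, hP1, ks, hks, a, Q1, hQ1, m1, hm1, rfl⟩
        · exact ⟨P, hP', [], by simp, u, Q, hQ', m, h, by simp⟩
        · refine ⟨P, hP', (Q ++ P1) :: ks, ?_, a, Q1, hQ1, m1, hm1, ?_⟩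
          · intro x hx
            rcases List.mem_cons.1 hx with rfl | hx
            · exact ⟨u, Language.mem_mul.2 ⟨Q, hQ', P1, hP1, rfl⟩⟩
            · exact hks x hx
          · simp [List.append_assoc]
    rcases main h with h | ⟨P, hP', ks, hks, a, Q, hQ', m, hm, rfl⟩
    · exact Or.inl h
    · right
      exact Language.mem_mul.2 ⟨P ++ ks.flatten, Language.mem_mul.2 ⟨P, hP', ks.flatten,
        Language.mem_kstar.2 ⟨ks, rfl, hks⟩, rfl⟩, Q ++ m, ⟨a, Language.mem_mul.2
        ⟨Q, hQ', m, hm, rfl⟩⟩, rfl⟩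

theorem prefix_list (hC : PCode C) : ∀ (l m : List (List α)), (∀ X ∈ l, X ∈ C) →
    (∀ X ∈ m, X ∈ C) → l.flatten <+: m.flatten → l <+: m := by
  intro l
  induction l with
  | nil => intro m _ _ _; exact List.nil_prefix
  | cons X l ih =>
    intro m hl hm h
    have hX := hl X (by simp)
    cases m with
    | nil =>
      exfalso
      rw [List.flatten_nil, List.prefix_nil, List.flatten_cons] at h
      exact hC.1 ((List.append_eq_nil_iff.1 h).1 ▸ hX)
    | cons Y m =>
      have hY := hm Y (by simp)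
      rw [List.flatten_cons, List.flatten_cons] at h
      have hXY : X = Y := by
        have h1 : X <+: Y ++ m.flatten := (List.prefix_append X l.flatten).trans h
        rcases List.prefix_or_prefix_of_prefix h1 (List.prefix_append Y m.flatten) with h2 | h2
        · exact hC.2 X hX Y hY h2
        · exact (hC.2 Y hY X hX h2).symm
      subst hXY
      rw [List.prefix_append_right_inj] at h
      rw [List.cons_prefix_cons]
      exact ⟨rfl, ih m (fun Z hZ => hl Z (by simp [hZ])) (fun Z hZ => hm Z (by simp [hZ])) h⟩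

/-- the first cut block -/
theorem exists_first_cut : ∀ (l : List (List α)) (v : V), ¬ Unc T LP RQ v l →
    ∃ l1 X l2, l = l1 ++ X :: l2 ∧ Unc T LP RQ v l1 ∧ Cut1 T LP RQ X (l1.foldl T v) := by
  intro l
  induction l with
  | nil => intro v h; exact absurd trivial h
  | cons X l ih =>
    intro v h
    by_cases hc : Cut1 T LP RQ X v
    · exact ⟨[], X, l, rfl, trivial, hc⟩
    · have h' : ¬ Unc T LP RQ (T v X) l := fun h1 => h ⟨hc, h1⟩
      obtain ⟨l1, Y, l2, rfl, h1, h2⟩ := ih _ h'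
      exact ⟨X :: l1, Y, l2, rfl, ⟨hc, h1⟩, h2⟩

section promise

variable {N : ℕ}

theorem Cert.complete (hN : 0 < N)
    (cc : ∀ l : List (List α), l.length = N → (∀ X ∈ l, X ∈ C) → ∀ v, Unc T LP1 RQ1 v l →
      ∃ P Q, P ++ Q = l.flatten ∧ P ∈ LP2 v ∧ Q ∈ RQ2 (l.foldl T v)) :
    ∀ (n : ℕ) (l : List (List α)) (v : V), l.length = n → (∀ X ∈ l, X ∈ C) →
      Unc T LP1 RQ1 v l → Cert LP2 RQ2 (BB C T N) v l.flatten (l.foldl T v) := by
  intro n
  induction n using Nat.strong_induction_on with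
  | _ n ih =>
    intro l v hn hl hu
    by_cases hlt : l.length < N
    · exact .base ⟨l, hlt, hl, rfl, rfl⟩
    · have e : l = l.take N ++ l.drop N := (List.take_append_drop N l).symm
      have hu' := hu
      rw [e, Unc.append] at hu'
      obtain ⟨P, Q, h1, h2, h3⟩ := cc (l.take N) (by rw [List.length_take]; omega)
        (fun X hX => hl X (List.mem_of_mem_take hX)) v hu'.1
      have h4 := ih (l.drop N).length (by rw [List.length_drop]; omega) (l.drop N) _ rfl
        (fun X hX => hl X (List.mem_of_mem_drop hX)) hu'.2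
      have h5 := Cert.step h2 h3 h4
      rw [h1, ← List.flatten_append, ← List.foldl_append, ← e] at h5
      exact h5

/-- soundness of scheme 2 up to a visible cut of scheme 1 -/
def Sound2 (C : Set (List α)) (T : V → List α → V) (LP1 RQ1 LP2 RQ2 : V → Language α) : Prop :=
  ∀ v v' P Q, P ∈ LP2 v → Q ∈ RQ2 v' →
    (∃ l : List (List α), (∀ X ∈ l, X ∈ C) ∧ l.flatten <+: P ++ Q ∧ ¬ Unc T LP1 RQ1 v l) ∨
    P ++ Q ∈ Lg C T v v'

theorem Cert.truthful (hC : PCode C) (s2 : Sound2 C T LP1 RQ1 LP2 RQ2) {v u : V} {m : List α}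
    (h : Cert LP2 RQ2 (BB C T N) v m u) : ∀ l : List (List α), (∀ X ∈ l, X ∈ C) →
    Unc T LP1 RQ1 v l → m <+: l.flatten → ∃ l1 l2, l = l1 ++ l2 ∧ m = l1.flatten ∧
      u = l1.foldl T v := by
  induction h with
  | base h =>
    intro l hl hu hm
    obtain ⟨l', h1, h2, rfl, rfl⟩ := h
    obtain ⟨l2, rfl⟩ := prefix_list hC l' l h2 hl hm
    exact ⟨l', l2, rfl, rfl, rfl⟩
  | @step v u v' P Q m hP hQ _ ih =>
    intro l hl hu hm
    have hpq : P ++ Q <+: l.flatten := (List.prefix_append (P ++ Q) m).trans hm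
    rcases s2 v u P Q hP hQ with ⟨l', h1, h2, h3⟩ | ⟨l', h1, h2, h3⟩
    · exfalso
      obtain ⟨l2, rfl⟩ := prefix_list hC l' l h1 hl (h2.trans hpq)
      exact h3 (Unc.append.1 hu).1
    · obtain ⟨l2, rfl⟩ := prefix_list hC l' l h1 hl (h2 ▸ hpq)
      rw [Unc.append, h3] at hu
      rw [List.flatten_append, h2, List.prefix_append_right_inj] at hm
      obtain ⟨l3, l4, rfl, rfl, e⟩ := ih l2 (fun X hX => hl X (by simp [hX])) hu.2 hm
      refine ⟨l' ++ l3, l4, by rw [List.append_assoc], ?_, ?_⟩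
      · rw [List.flatten_append, h2]
      · rw [List.foldl_append, h3, e]

/-- a cut of scheme 1 is detected -/
def Fl (C : Set (List α)) (T : V → List α → V) (LP1 RQ1 LP2 RQ2 : V → Language α) (N : ℕ) (v : V) :
    Language α :=
  {w | ∃ u m X, Cert LP2 RQ2 (BB C T N) v m u ∧ X ∈ C ∧ Cut1 T LP1 RQ1 X u ∧ m ++ X <+: w}

/-- threads uncut by scheme 1 (certified) -/
def UU (C : Set (List α)) (T : V → List α → V) (LP1 RQ1 LP2 RQ2 : V → Language α) (N : ℕ)
    (v v' : V) : Language α :=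
  {w | Cert LP2 RQ2 (BB C T N) v w v' ∧ w ∉ Fl C T LP1 RQ1 LP2 RQ2 N v}

theorem UU_complete (hC : PCode C) (hN : 0 < N) (s2 : Sound2 C T LP1 RQ1 LP2 RQ2)
    (cc : ∀ l : List (List α), l.length = N → (∀ X ∈ l, X ∈ C) → ∀ v, Unc T LP1 RQ1 v l →
      ∃ P Q, P ++ Q = l.flatten ∧ P ∈ LP2 v ∧ Q ∈ RQ2 (l.foldl T v))
    (l : List (List α)) (hl : ∀ X ∈ l, X ∈ C) (v : V) (hu : Unc T LP1 RQ1 v l) :
    l.flatten ∈ UU C T LP1 RQ1 LP2 RQ2 N v (l.foldl T v) := by
  refine ⟨Cert.complete hN cc _ l v rfl hl hu, ?_⟩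
  rintro ⟨u, m, X, h1, hX, hcut, hp⟩
  obtain ⟨l1, l2, rfl, rfl, rfl⟩ := Cert.truthful hC s2 h1 l hl hu
    ((List.prefix_append m X).trans hp)
  rw [Unc.append] at hu
  rw [List.flatten_append, List.prefix_append_right_inj] at hp
  cases l2 with
  | nil =>
    rw [List.flatten_nil, List.prefix_nil] at hp
    exact hC.1 (hp ▸ hX)
  | cons Y l3 =>
    have hY := hl Y (by simp)
    rw [List.flatten_cons] at hp
    have hXY : X = Y := by
      rcases List.prefix_or_prefix_of_prefix hp (List.prefix_append Y l3.flatten) with h2 | h2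
      · exact hC.2 X hX Y hY h2
      · exact (hC.2 Y hY X hX h2).symm
    subst hXY
    exact hu.2.1 hcut

theorem BB_sub {v v' : V} {w : List α} (h : w ∈ BB C T N v v') : w ∈ Lg C T v v' := by
  obtain ⟨l, _, h2, h3, h4⟩ := h
  exact ⟨l, h2, h3, h4⟩

theorem UU_sound (hN : 0 < N) (s2 : Sound2 C T LP1 RQ1 LP2 RQ2)
    (cc : ∀ l : List (List α), l.length = N → (∀ X ∈ l, X ∈ C) → ∀ v, Unc T LP1 RQ1 v l →
      ∃ P Q, P ++ Q = l.flatten ∧ P ∈ LP2 v ∧ Q ∈ RQ2 (l.foldl T v))
    {v v' : V} {w : List α} (h : w ∈ UU C T LP1 RQ1 LP2 RQ2 N v v') : w ∈ Lg C T v v' := by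
  obtain ⟨h1, h2⟩ := h
  induction h1 with
  | base h => exact BB_sub h
  | @step v u v' P Q m hP hQ hc ih =>
    rcases s2 v u P Q hP hQ with ⟨l', g1, g2, g3⟩ | g
    · exfalso
      obtain ⟨l1, X, l2, rfl, g4, g5⟩ := exists_first_cut l' v g3
      refine h2 ⟨l1.foldl T v, l1.flatten, X, Cert.complete hN cc _ l1 v rfl
        (fun Y hY => g1 Y (by simp [hY])) g4, g1 X (by simp), g5, ?_⟩
      refine List.IsPrefix.trans ?_ (g2.trans (List.prefix_append (P ++ Q) m))
      rw [List.flatten_append, List.flatten_cons, List.prefix_append_right_inj]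
      exact List.prefix_append _ _
    · refine Lg.append g (ih ?_)
      rintro ⟨x, m', X, g1, g2, g3, g4⟩
      refine h2 ⟨x, P ++ Q ++ m', X, .step hP hQ g1, g2, g3, ?_⟩
      rw [List.append_assoc (P ++ Q), List.prefix_append_right_inj]
      exact g4

theorem HL_UU [Finite V] (hP : ∀ v, HL k (LP2 v)) (hQ : ∀ v, HL k (RQ2 v))
    (hB : ∀ v v', HL k (CB C T v v'))
    (hcut : ∀ v, HL k ({X | X ∈ C ∧ Cut1 T LP1 RQ1 X v} : Language α)) (v v' : V) :
    HL (k + 1) (UU C T LP1 RQ1 LP2 RQ2 N v v') := by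
  have hc : ∀ a b, HL (k + 1) ({m | Cert LP2 RQ2 (BB C T N) a m b} : Language α) :=
    HL_Cert (HL_BB hB N) hP hQ
  have hF : HL (k + 1) (Fl C T LP1 RQ1 LP2 RQ2 N v) := by
    let A : V → Language α := fun u => {m | Cert LP2 RQ2 (BB C T N) v m u}
    let D : V → Language α := fun u => {X | X ∈ C ∧ Cut1 T LP1 RQ1 X u}
    have h1 : HL (k + 1) ({w | ∃ u : V, w ∈ (A u * D u * ⊤ : Language α)} : Language α) :=
      HL.iUnion fun u => ((hc v u).mul (HL.mono (Nat.le_succ k) (hcut u))).mul HL.top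
    refine h1.congr fun w => ?_
    constructor
    · rintro ⟨u, m, X, g1, g2, g3, ⟨r, rfl⟩⟩
      exact ⟨u, mem_mul3.2 ⟨m, g1, X, ⟨g2, g3⟩, r, trivial, rfl⟩⟩
    · rintro ⟨u, h⟩
      obtain ⟨m, g1, X, ⟨g2, g3⟩, r, _, rfl⟩ := mem_mul3.1 h
      exact ⟨u, m, X, g1, g2, g3, List.prefix_append _ _⟩
  exact (hc v v').inf hF.compl

end promise

/-- **TOP**: all thread languages of the block code are two stars above the legal words -/
theorem threads [Finite V] (hC : PCode C) {N : ℕ} (hN : 0 < N)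
    (s1 : ∀ v v' P Q, P ∈ LP1 v → Q ∈ RQ1 v' → P ++ Q ∈ C ∧ T v (P ++ Q) = v')
    (s2 : Sound2 C T LP1 RQ1 LP2 RQ2)
    (cc : ∀ l : List (List α), l.length = N → (∀ X ∈ l, X ∈ C) → ∀ v, Unc T LP1 RQ1 v l →
      ∃ P Q, P ++ Q = l.flatten ∧ P ∈ LP2 v ∧ Q ∈ RQ2 (l.foldl T v))
    (hP1 : ∀ v, HL k (LP1 v)) (hQ1 : ∀ v, HL k (RQ1 v)) (hP2 : ∀ v, HL k (LP2 v))
    (hQ2 : ∀ v, HL k (RQ2 v)) (hB : ∀ v v', HL k (CB C T v v')) (v v' : V) :
    HL (k + 2) (Lg C T v v') := by
  have hcut : ∀ v, HL k ({X | X ∈ C ∧ Cut1 T LP1 RQ1 X v} : Language α) := by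
    intro v
    have h1 : HL k ({w | ∃ b : V, w ∈ (LP1 v * RQ1 b : Language α)} : Language α) :=
      HL.iUnion fun b => (hP1 v).mul (hQ1 b)
    refine h1.congr fun w => ?_
    constructor
    · rintro ⟨_, P, Q, rfl, g1, g2⟩
      exact ⟨T v (P ++ Q), Language.mem_mul.2 ⟨P, g1, Q, g2, rfl⟩⟩
    · rintro ⟨b, h⟩
      obtain ⟨P, g1, Q, g2, rfl⟩ := Language.mem_mul.1 h
      obtain ⟨g3, g4⟩ := s1 v b P Q g1 g2
      exact ⟨g3, P, Q, rfl, g1, g4 ▸ g2⟩
  refine star_unc C T LP1 RQ1 ?_ (UU C T LP1 RQ1 LP2 RQ2 N) ?_ ?_ ?_ ?_ ?_ v v'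
  · intro v v' P Q g1 g2
    obtain ⟨g3, g4⟩ := s1 v v' P Q g1 g2
    have := Lg.single (T := T) g3 v
    rwa [g4] at this
  · intro v v' w h
    exact UU_sound hN s2 cc h
  · intro l hl v hu
    exact UU_complete hC hN s2 cc l hl v hu
  · exact HL_UU hP2 hQ2 hB hcut
  · exact fun v => HL.mono (Nat.le_succ k) (hP1 v)
  · exact fun v => HL.mono (Nat.le_succ k) (hQ1 v)

/-- **TOP, fibres**: `T v X = v.X + nu X`; with `k = 1`: height three -/
theorem fibres {S : Type*} [Monoid S] [Finite S] [AddCommGroup V] [Finite V] (act : V → S → V)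
    (hadd : ∀ a b s, act (a + b) s = act a s + act b s)
    (hone : ∀ v, act v 1 = v) (hmul : ∀ v s t, act v (s * t) = act (act v s) t)
    (hfaith : ∀ s t, (∀ v, act v s = act v t) → s = t) (φ : α → S) (nu : List α → V)
    (hC : PCode C) {N : ℕ} (hN : 0 < N)
    (hT : ∀ v X, T v X = act v (X.map φ).prod + nu X)
    (s1 : ∀ v v' P Q, P ∈ LP1 v → Q ∈ RQ1 v' → P ++ Q ∈ C ∧ T v (P ++ Q) = v')
    (s2 : Sound2 C T LP1 RQ1 LP2 RQ2)
    (cc : ∀ l : List (List α), l.length = N → (∀ X ∈ l, X ∈ C) → ∀ v, Unc T LP1 RQ1 v l →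
      ∃ P Q, P ++ Q = l.flatten ∧ P ∈ LP2 v ∧ Q ∈ RQ2 (l.foldl T v))
    (hP1 : ∀ v, HL k (LP1 v)) (hQ1 : ∀ v, HL k (RQ1 v)) (hP2 : ∀ v, HL k (LP2 v))
    (hQ2 : ∀ v, HL k (RQ2 v)) (hB : ∀ v v', HL k (CB C T v v'))
    (hrest : ∀ s, HL (k + 2) ({w | (∀ X ∈ C, ¬ X <+: w) ∧ (w.map φ).prod = s} : Language α))
    (s : S) : HL (k + 2) ({w | (w.map φ).prod = s} : Language α) := by
  have hT' : T = fun v X => act v (X.map φ).prod + nu X := by
    funext v X; exact hT v X
  have hth := threads hC hN s1 s2 cc hP1 hQ1 hP2 hQ2 hB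
  rw [hT'] at hth
  have hA : ∀ a, HL (k + 2) ({w | w ∈ Str C ∧ (w.map φ).prod = a} : Language α) :=
    fibre_of_threads act hadd hone hmul hfaith φ nu C hC.uparse hth
  let A : S → Language α := fun a => {w | w ∈ Str C ∧ (w.map φ).prod = a}
  let B : S → Language α := fun b => {w | (∀ X ∈ C, ¬ X <+: w) ∧ (w.map φ).prod = b}
  refine (HL.biUnion (k := k + 2) (Set.toFinite {p : S × S | p.1 * p.2 = s})
    (L := fun p => A p.1 * B p.2)
    (fun p _ => HL.mul (L := A p.1) (M := B p.2) (hA p.1) (hrest p.2))).congr fun w => ?_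
  constructor
  · intro hw
    obtain ⟨M, E, rfl, hM, hE⟩ := exists_parse hC.1 w
    refine ⟨((M.map φ).prod, (E.map φ).prod), ?_, ?_⟩
    · have hw' : ((M ++ E).map φ).prod = s := hw
      rw [List.map_append, List.prod_append] at hw'
      exact hw'
    · exact Language.mem_mul.2 ⟨M, ⟨hM, rfl⟩, E, ⟨hE, rfl⟩, rfl⟩
  · rintro ⟨p, hp, hw⟩
    obtain ⟨M, ⟨_, hM⟩, E, ⟨_, hE⟩, rfl⟩ := Language.mem_mul.1 hw
    change ((M ++ E).map φ).prod = s
    rw [List.map_append, List.prod_append, hM, hE]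
    exact hp

end Crest.Agent.R320.Top5_391
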