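import Crest.Agent.R320.NestInf_163

/-!
# Row 320: the top of the block calculus (helper427)

Block code `XX` (a prefix code), block map `T : V → List α → V`, `N` cut systems `LP j v` (left-legal
residues with token `v`), `RQ j v` (right words with new token `v`, ending at a block end).
State `(u, v)`: `u` = text since the last block end, `v` = token.  No finite automaton, no regularity.
-/

set_option autoImplicit false

namespace Crest.Agent.R320.Top5_427

open Crest.RegLang Crest.Agent.R320.Hgt1_903 Crest.Agent.R320.Three_427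
open Crest.Agent.R320.NestInf_163 (nested_infinite)

variable {α V : Type*}

/-- no prefix is a block -/
def Res (XX : Language α) (u : List α) : Prop := ∀ x y, x ++ y = u → x ∉ XX

open Classical in
/-- one letter -/
noncomputable def stp (T : V → List α → V) (XX : Language α) (p : List α × V) (c : α) :
    List α × V :=
  if p.1 ++ [c] ∈ XX then ([], T p.2 (p.1 ++ [c])) else (p.1 ++ [c], p.2)

open Classical in
/-- the cut systems -/
noncomputable def Lv [Nonempty V] (LP RQ : ℕ → V → Language α) (j : ℕ) : Lvl (List α × V) α where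
  C := fun p => p.1 ∈ LP j p.2
  R := fun Q => ∃ v, Q ∈ RQ j v
  c := fun Q => ([], if h : ∃ v, Q ∈ RQ j v then h.choose else Classical.arbitrary V)

theorem Res.left {XX : Language α} {u v : List α} (h : Res XX (u ++ v)) : Res XX u :=
  fun x y e => h x (y ++ v) (by rw [← List.append_assoc, e])

theorem Res.nil {XX : Language α} (hnil : [] ∉ XX) : Res XX [] := by
  intro a b e
  have : a = [] := (List.append_eq_nil_iff.1 e).1
  rw [this]; exact hnil

theorem Res.snoc {XX : Language α} {u : List α} {c : α} (hu : Res XX u) (h : u ++ [c] ∉ XX) :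
    Res XX (u ++ [c]) := by
  intro a b e ha
  rcases List.eq_nil_or_concat b with rfl | ⟨b', c', rfl⟩
  · rw [List.append_nil] at e
    exact h (e ▸ ha)
  · have e' : (a ++ b') ++ [c'] = u ++ [c] := by
      rw [List.append_assoc]; simpa using e
    have := (List.append_inj' e' rfl).1
    exact hu a b' this ha

theorem Res.stp {XX : Language α} (hnil : [] ∉ XX) (T : V → List α → V) {p : List α × V} (c : α)
    (hu : Res XX p.1) : Res XX (stp T XX p c).1 := by
  unfold Top5_427.stp
  split_ifs with h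
  · exact Res.nil hnil
  · exact hu.snoc h

theorem run_res {XX : Language α} (T : V → List α → V) :
    ∀ (w u : List α) (v : V), Res XX (u ++ w) → run (stp T XX) w (u, v) = (u ++ w, v) := by
  intro w
  induction w with
  | nil => intro u v _; rw [List.append_nil]; rfl
  | cons c w ih =>
    intro u v h
    have h1 : ¬ (u ++ [c]) ∈ XX := h (u ++ [c]) w (by simp)
    have h2 : run (stp T XX) (c :: w) (u, v) = run (stp T XX) w (u ++ [c], v) := by
      change run (stp T XX) w (stp T XX (u, v) c) = _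
      unfold stp
      rw [if_neg h1]
    rw [h2, ih (u ++ [c]) v (by simpa using h)]
    simp

/-- completing a block -/
theorem run_block {XX : Language α} (hpre : ∀ X ∈ XX, ∀ u v, u ++ v = X → u ∈ XX → v = [])
    (T : V → List α → V) :
    ∀ (w u : List α) (v : V), w ≠ [] → u ++ w ∈ XX → run (stp T XX) w (u, v) = ([], T v (u ++ w)) := by
  intro w
  induction w with
  | nil => intro u v h; exact (h rfl).elim
  | cons c w ih =>
    intro u v _ h
    rcases w with _ | ⟨d, w⟩
    · change stp T XX (u, v) c = _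
      unfold stp
      rw [if_pos h]
    · have h1 : ¬ (u ++ [c]) ∈ XX := by
        intro hm
        have := hpre _ h (u ++ [c]) (d :: w) (by simp) hm
        simp at this
      have h2 : run (stp T XX) (c :: d :: w) (u, v) = run (stp T XX) (d :: w) (u ++ [c], v) := by
        change run (stp T XX) (d :: w) (stp T XX (u, v) c) = _
        unfold stp
        rw [if_neg h1]
      rw [h2, ih (u ++ [c]) v (by simp) (by simpa using h)]
      simp

theorem run_flatten {XX : Language α} (hnil : [] ∉ XX)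
    (hpre : ∀ X ∈ XX, ∀ u v, u ++ v = X → u ∈ XX → v = []) (T : V → List α → V) :
    ∀ (l : List (List α)) (v : V), (∀ X ∈ l, X ∈ XX) →
      run (stp T XX) l.flatten ([], v) = ([], l.foldl T v) := by
  intro l
  induction l with
  | nil => intro v _; rfl
  | cons X l ih =>
    intro v h
    have hX : X ∈ XX := h X List.mem_cons_self
    have hXn : X ≠ [] := fun e => hnil (e ▸ hX)
    rw [List.flatten_cons, run_append, run_block hpre T X [] v hXn (by simpa using hX),
      List.nil_append, ih _ fun Y hY => h Y (List.mem_cons_of_mem _ hY)]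
    rfl

theorem run_parse {XX : Language α} (hnil : [] ∉ XX)
    (hpre : ∀ X ∈ XX, ∀ u v, u ++ v = X → u ∈ XX → v = []) (T : V → List α → V)
    (l : List (List α)) (v : V) (h : ∀ X ∈ l, X ∈ XX) {u : List α} (hu : Res XX u) :
    run (stp T XX) (l.flatten ++ u) ([], v) = (u, l.foldl T v) := by
  rw [run_append, run_flatten hnil hpre T l v h, run_res T u [] _ (by simpa using hu)]
  simp

/-- every word has a parse -/
theorem exists_parse (XX : Language α) (hnil : [] ∉ XX) :
    ∀ (n : ℕ) (w : List α), w.length = n →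
      ∃ l u, (∀ X ∈ l, X ∈ XX) ∧ Res XX u ∧ w = (l : List (List α)).flatten ++ u := by
  intro n
  induction n using Nat.strong_induction_on with
  | _ n ih =>
    intro w hw
    by_cases h : Res XX w
    · exact ⟨[], w, by simp, h, by simp⟩
    · unfold Res at h
      push Not at h
      obtain ⟨x, y, e, hx⟩ := h
      have hxn : x ≠ [] := fun e => hnil (e ▸ hx)
      have hlt : y.length < n := by
        have := List.length_pos_of_ne_nil hxn
        rw [← hw, ← e, List.length_append]; omega
      obtain ⟨l, u, hl, hu, e'⟩ := ih y.length hlt y rfl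
      refine ⟨x :: l, u, ?_, hu, ?_⟩
      · intro X hX
        rcases List.mem_cons.1 hX with rfl | hX
        · exact hx
        · exact hl X hX
      · rw [← e, e']; simp [List.append_assoc]

theorem two_prefixes {α : Type*} {x y x' y' : List α} (h : x ++ y = x' ++ y') :
    (∃ z, x = x' ++ z) ∨ (∃ z, x' = x ++ z) := by
  rcases List.append_eq_append_iff.1 h with ⟨z, h1, _⟩ | ⟨z, h1, _⟩
  · exact Or.inr ⟨z, h1⟩
  · exact Or.inl ⟨z, h1⟩

/-- a prefix has at most as many blocks -/
theorem parse_le {XX : Language α}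
    (hpre : ∀ X ∈ XX, ∀ u v, u ++ v = X → u ∈ XX → v = []) :
    ∀ (l' l : List (List α)) (u' y u : List α), (∀ X ∈ l', X ∈ XX) → (∀ X ∈ l, X ∈ XX) →
      Res XX u → (l'.flatten ++ u') ++ y = l.flatten ++ u → l'.length ≤ l.length := by
  intro l'
  induction l' with
  | nil => intro l u' y u _ _ _ _; exact Nat.zero_le _
  | cons X' l' ih =>
    intro l u' y u h' h hu e
    have hX' : X' ∈ XX := h' X' List.mem_cons_self
    rcases l with _ | ⟨X, l⟩
    · exfalso
      rw [List.flatten_nil, List.nil_append, List.flatten_cons] at e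
      exact hu X' (l'.flatten ++ u' ++ y) (by rw [← e]; simp [List.append_assoc]) hX'
    · have hX : X ∈ XX := h X List.mem_cons_self
      rw [List.flatten_cons, List.flatten_cons] at e
      have e1 : X' ++ (l'.flatten ++ u' ++ y) = X ++ (l.flatten ++ u) := by
        rw [← List.append_assoc X l.flatten u, ← e]; simp [List.append_assoc]
      have hXX : X' = X := by
        rcases two_prefixes e1 with ⟨z, hz⟩ | ⟨z, hz⟩
        · have := hpre X' hX' X z hz.symm hX
          rw [hz, this, List.append_nil]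
        · have := hpre X hX X' z hz.symm hX'
          rw [hz, this, List.append_nil]
      subst hXX
      have e2 := List.append_cancel_left e1
      have := ih l u' y u (fun Y hY => h' Y (List.mem_cons_of_mem _ hY))
        (fun Y hY => h Y (List.mem_cons_of_mem _ hY)) hu (by simpa [List.append_assoc] using e2)
      simp only [List.length_cons]; omega

/-- `m` blocks leading from `v` to `v'` -/
def Em (XX : Language α) (T : V → List α → V) (m : ℕ) (v v' : V) : Language α :=
  {w | ∃ l : List (List α), l.length = m ∧ (∀ X ∈ l, X ∈ XX) ∧ l.flatten = w ∧ l.foldl T v = v'}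

theorem Em_H [Finite V] {b : ℕ} {XX : Language α} {T : V → List α → V}
    (hX : ∀ v v', H b ({X | X ∈ XX ∧ T v X = v'} : Language α)) :
    ∀ m v v', H b (Em XX T m v v') := by
  intro m
  induction m with
  | zero =>
    intro v v'
    refine H.congr (H.inter (H.word b []) (H.const b (v = v'))) fun w => ?_
    constructor
    · rintro ⟨h, rfl⟩
      have h' : w = [] := h
      exact ⟨[], rfl, by simp, by simp [h'], rfl⟩
    · rintro ⟨l, hl, -, rfl, h⟩
      have : l = [] := List.length_eq_zero_iff.1 hl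
      subst this
      exact ⟨rfl, h⟩
  | succ m ih =>
    intro v v'
    refine H.congr (H.exists_fintype (fun v₁ : V => ({w | ∃ x y, x ++ y = w ∧
      x ∈ ({X | X ∈ XX ∧ T v X = v₁} : Language α) ∧ y ∈ Em XX T m v₁ v'} : Language α))
      fun v₁ => H.cat (hX v v₁) (ih v₁ v')) fun w => ?_
    constructor
    · rintro ⟨v₁, x, y, rfl, ⟨hx, rfl⟩, l, hl, hlX, rfl, hf⟩
      refine ⟨x :: l, by simp [hl], ?_, by simp, by simpa using hf⟩
      intro X hX'
      rcases List.mem_cons.1 hX' with rfl | hX'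
      · exact hx
      · exact hlX X hX'
    · rintro ⟨l, hl, hlX, rfl, hf⟩
      rcases l with _ | ⟨x, l⟩
      · simp at hl
      · refine ⟨T v x, x, l.flatten, by simp, ⟨hlX x List.mem_cons_self, rfl⟩, l,
          by simpa using hl, fun X hX' => hlX X (List.mem_cons_of_mem _ hX'), rfl, by simpa using hf⟩

/-- at most `K` blocks -/
def EK (XX : Language α) (T : V → List α → V) (K : ℕ) (v v' : V) : Language α :=
  {w | ∃ m ∈ Finset.range (K + 1), w ∈ Em XX T m v v'}

theorem EK_H [Finite V] {b : ℕ} {XX : Language α} {T : V → List α → V}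
    (hX : ∀ v v', H b ({X | X ∈ XX ∧ T v X = v'} : Language α)) (K : ℕ) (v v' : V) :
    H b (EK XX T K v v') := H.exists_finset _ _ fun m _ => Em_H hX m v v'

theorem mem_EK {XX : Language α} {T : V → List α → V} {K : ℕ} {v v' : V} {w : List α} :
    w ∈ EK XX T K v v' ↔ ∃ l : List (List α), l.length ≤ K ∧ (∀ X ∈ l, X ∈ XX) ∧ l.flatten = w ∧
      l.foldl T v = v' := by
  constructor
  · rintro ⟨m, hm, l, hl, h1, h2, h3⟩
    exact ⟨l, by have := Finset.mem_range.1 hm; omega, h1, h2, h3⟩
  · rintro ⟨l, hl, h1, h2, h3⟩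
    exact ⟨l.length, Finset.mem_range.2 (by omega), l, rfl, h1, h2, h3⟩

theorem H.exists_cond' {n : ℕ} {ι : Type*} [Finite ι] (q : ι → Prop) (f : ι → Language α)
    (h : ∀ p, q p → H n (f p)) : H n ({w | ∃ p, q p ∧ w ∈ f p} : Language α) := by
  classical
  refine H.congr (H.exists_fintype (fun p : ι => ({w | q p ∧ w ∈ f p} : Language α))
    fun p => ?_) fun w => Iff.rfl
  by_cases hq : q p
  · exact H.congr (h p hq) fun w => ⟨fun h => ⟨hq, h⟩, fun h => h.2⟩
  · exact H.congr (H.empty n) fun w => ⟨fun h => h.elim, fun h => (hq h.1).elim⟩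

section top

variable [Nonempty V] {XX : Language α} {T : V → List α → V} {LP RQ : ℕ → V → Language α}
  {N b K : ℕ}

/-- words of at most `K` blocks and a rest which contain a cut -/
def Dd (XX : Language α) (T : V → List α → V) (LP RQ : ℕ → V → Language α) (N K : ℕ) (v : V) :
    Language α :=
  {w | ∃ j ∈ Finset.range N, w ∈ ({w | ∃ v', w ∈ ({w | ∃ x y, x ++ y = w ∧ x ∈ EK XX T K v v' ∧
    y ∈ ({w | ∃ x y, x ++ y = w ∧ x ∈ ({u | Res XX u ∧ u ∈ LP j v'} : Language α) ∧
      y ∈ ({w | ∃ x y, x ++ y = w ∧ x ∈ ({Q | ∃ v₁, Q ∈ RQ j v₁} : Language α) ∧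
        y ∈ (⊤ : Language α)} : Language α)} : Language α)} : Language α)} : Language α)}

theorem live_iff (hnil : [] ∉ XX) (hpre : ∀ X ∈ XX, ∀ u v, u ++ v = X → u ∈ XX → v = [])
    {v : V} {l : List (List α)} {u : List α} (hl : ∀ X ∈ l, X ∈ XX) (hu : Res XX u)
    (hK : l.length ≤ K) :
    Live (stp T XX) (Lv LP RQ) N ([], v) (l.flatten ++ u) ↔
      ¬ (l.flatten ++ u) ∈ Dd XX T LP RQ N K v := by
  constructor
  · rintro h ⟨j, hj, v', x, _, e, hx, P, _, rfl, ⟨hP, hPL⟩, Q, t, rfl, ⟨v₁, hQ⟩, -⟩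
    obtain ⟨l', _, hl', rfl, hf⟩ := mem_EK.1 hx
    refine h j (Finset.mem_range.1 hj) (l'.flatten ++ P) (Q ++ t) ?_ ?_
    · rw [← e]; simp [List.append_assoc]
    · rw [run_parse hnil hpre T l' v hl' hP, hf]
      exact ⟨hPL, Q, t, rfl, v₁, hQ⟩
  · intro h j hj x y e hus
    apply h
    obtain ⟨l', P, hl', hP, rfl⟩ := exists_parse XX hnil x.length x rfl
    rw [run_parse hnil hpre T l' v hl' hP] at hus
    obtain ⟨hC, Q, t, rfl, v₁, hQ⟩ := hus
    have hle := parse_le hpre l' l P (Q ++ t) u hl' hl hu e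
    refine ⟨j, Finset.mem_range.2 hj, l'.foldl T v, l'.flatten, P ++ (Q ++ t), ?_,
      mem_EK.2 ⟨l', by omega, hl', rfl, rfl⟩, P, Q ++ t, rfl, ⟨hP, hC⟩, Q, t, rfl, ⟨v₁, hQ⟩, trivial⟩
    rw [← e]; simp [List.append_assoc]

/-- threads -/
theorem thread [Finite V] (hnil : [] ∉ XX)
    (hpre : ∀ X ∈ XX, ∀ u v, u ++ v = X → u ∈ XX → v = [])
    (hX : ∀ v v', H b ({X | X ∈ XX ∧ T v X = v'} : Language α))
    (hLP : ∀ j < N, ∀ v, H b ({u | Res XX u ∧ u ∈ LP j v} : Language α))
    (hRQ : ∀ j < N, ∀ v, H b (RQ j v)) (hne : ∀ j < N, ∀ v, [] ∉ RQ j v)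
    (hfun : ∀ j < N, ∀ Q v v', Q ∈ RQ j v → Q ∈ RQ j v' → v = v')
    (hs : ∀ i < N, ∀ u v Q v', Res XX u → u ∈ LP i v → Q ∈ RQ i v' →
      Live (stp T XX) (Lv LP RQ) i (u, v) Q → run (stp T XX) Q (u, v) = ([], v'))
    (hcc : ∀ v (l : List (List α)), (∀ X ∈ l, X ∈ XX) →
      Live (stp T XX) (Lv LP RQ) N ([], v) l.flatten → l.length ≤ K)
    (U : Language α) (hU : H b ({u | Res XX u ∧ u ∈ U} : Language α)) (v₀ v₁ : V) :
    H (N + b) ({w | ∃ (l : List (List α)) (u : List α), (∀ X ∈ l, X ∈ XX) ∧ Res XX u ∧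
      w = l.flatten ++ u ∧ l.foldl T v₀ = v₁ ∧ u ∈ U} : Language α) := by
  classical
  -- soundness needs residues; put `Res` into the cut states
  let LP' : ℕ → V → Language α := fun j v => {u | Res XX u ∧ u ∈ LP j v}
  have hLiveEq : ∀ (i : ℕ) (p : List α × V) (w : List α), Res XX p.1 →
      (Live (stp T XX) (Lv LP' RQ) i p w ↔ Live (stp T XX) (Lv LP RQ) i p w) := by
    intro i p w hp
    have hres : ∀ x : List α, Res XX (run (stp T XX) x p).1 := by
      intro x
      induction x using List.reverseRecOn with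
      | nil => exact hp
      | append_singleton x c ih =>
        rw [run_append]
        exact Res.stp hnil T c ih
    constructor
    · intro h j hj x y e hus
      exact h j hj x y e ⟨⟨hres x, hus.1⟩, hus.2⟩
    · intro h j hj x y e hus
      exact h j hj x y e ⟨hus.1.2, hus.2⟩
  have hcQ : ∀ j < N, ∀ Q v, Q ∈ RQ j v → (Lv (V := V) LP' RQ j).c Q = ([], v) := by
    intro j hj Q v hQ
    have hex : ∃ v, Q ∈ RQ j v := ⟨v, hQ⟩
    change (([] : List α), if h : ∃ v, Q ∈ RQ j v then h.choose else Classical.arbitrary V) = _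
    rw [dif_pos hex, hfun j hj Q _ _ hex.choose_spec hQ]
  have hnilRes : Res XX [] := Res.nil hnil
  have main := nested_infinite (stp T XX) (Lv LP' RQ) N b ([], v₀)
    ({p | Res XX p.1 ∧ p.1 ∈ U ∧ p.2 = v₁} : Set (List α × V))
    (by
      rintro j hj Q ⟨v, hQ⟩ rfl
      exact hne j hj v hQ)
    (by
      intro j hj
      refine (Set.finite_range (fun v : V => (([] : List α), v))).subset ?_
      rintro ω ⟨Q, ⟨v, hQ⟩, rfl⟩
      exact ⟨v, (hcQ j hj Q v hQ).symm⟩)
    (by
      intro j hj ω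
      refine H.congr (H.exists_cond' (fun v : V => (([] : List α), v) = ω) (fun v => RQ j v)
        fun v _ => hRQ j hj v) fun Q => ?_
      constructor
      · rintro ⟨v, rfl, hQ⟩
        exact ⟨⟨v, hQ⟩, hcQ j hj Q v hQ⟩
      · rintro ⟨⟨v, hQ⟩, h⟩
        exact ⟨v, by rw [← h, hcQ j hj Q v hQ], hQ⟩)
    (by
      rintro i hi ⟨u, v⟩ Q ⟨hres, hLPu⟩ ⟨v', hQ⟩ hlive
      rw [hcQ i hi Q v' hQ]
      exact hs i hi u v Q v' hres hLPu hQ ((hLiveEq i (u, v) Q hres).1 hlive))
    (by
      intro p hp F hF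
      have hp' : ∃ v, p = ([], v) := by
        rcases hp with rfl | ⟨j, hj, Q, ⟨v, hQ⟩, rfl⟩
        · exact ⟨v₀, rfl⟩
        · exact ⟨v, hcQ j hj Q v hQ⟩
      obtain ⟨v, rfl⟩ := hp'
      have hF' : ∀ v', H b ({u | Res XX u ∧ (u, v') ∈ F} : Language α) := by
        intro v'
        rcases hF with rfl | ⟨j, hj, rfl⟩
        · refine H.congr (H.inter hU (H.const b (v' = v₁))) fun u => ?_
          constructor
          · rintro ⟨⟨h1, h2⟩, h3⟩; exact ⟨h1, h1, h2, h3⟩
          · rintro ⟨h1, _, h2, h3⟩; exact ⟨⟨h1, h2⟩, h3⟩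
        · refine H.congr (hLP j hj v') fun u => ?_
          constructor
          · rintro ⟨h1, h2⟩; exact ⟨h1, h1, h2⟩
          · rintro ⟨h1, h2⟩; exact h2
      have hLP'' : ∀ j < N, ∀ v', H b ({u | Res XX u ∧ u ∈ LP' j v'} : Language α) := by
        intro j hj v'
        refine H.congr (hLP j hj v') fun u => ?_
        constructor
        · rintro ⟨h1, h2⟩; exact ⟨h1, h1, h2⟩
        · rintro ⟨h1, h2⟩; exact h2
      have hDd : H b (Dd XX T LP' RQ N K v) := by
        refine H.exists_finset _ _ fun j hj => ?_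
        have hj' := Finset.mem_range.1 hj
        refine H.exists_fintype _ fun v' => ?_
        exact H.cat (EK_H hX K v v') (H.cat (hLP'' j hj' v')
          (H.cat (H.exists_fintype _ fun v₁ => hRQ j hj' v₁) (H.univ b)))
      refine H.congr (H.inter (H.exists_fintype (fun v' : V => ({w | ∃ x y, x ++ y = w ∧
        x ∈ EK XX T K v v' ∧ y ∈ ({u | Res XX u ∧ (u, v') ∈ F} : Language α)} : Language α))
        fun v' => H.cat (EK_H hX K v v') (hF' v')) (H.not hDd)) fun w => ?_
      constructor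
      · rintro ⟨⟨v', x, u, rfl, hx, hu, huF⟩, hD⟩
        obtain ⟨l, hlK, hlX, rfl, hf⟩ := mem_EK.1 hx
        refine ⟨(live_iff hnil hpre hlX hu hlK).2 hD, ?_⟩
        rw [run_parse hnil hpre T l v hlX hu, hf]
        exact huF
      · rintro ⟨hl, hF0⟩
        obtain ⟨l, u, hlX, hu, rfl⟩ := exists_parse XX hnil w.length w rfl
        have hlK : l.length ≤ K := by
          refine hcc v l hlX ((hLiveEq N ([], v) _ hnilRes).1 hl.left)
        rw [run_parse hnil hpre T l v hlX hu] at hF0
        exact ⟨⟨_, l.flatten, u, rfl, mem_EK.2 ⟨l, hlK, hlX, rfl, rfl⟩, hu, hF0⟩,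
          (live_iff hnil hpre hlX hu hlK).1 hl⟩)
  refine H.congr main fun w => ?_
  constructor
  · intro h
    obtain ⟨l, u, hlX, hu, rfl⟩ := exists_parse XX hnil w.length w rfl
    have h' : run (stp T XX) (l.flatten ++ u) ([], v₀) ∈
      ({p | Res XX p.1 ∧ p.1 ∈ U ∧ p.2 = v₁} : Set (List α × V)) := h
    rw [run_parse hnil hpre T l v₀ hlX hu] at h'
    exact ⟨l, u, hlX, hu, rfl, h'.2.2, h'.2.1⟩
  · rintro ⟨l, u, hlX, hu, rfl, hf, hU'⟩
    change run (stp T XX) (l.flatten ++ u) ([], v₀) ∈
      ({p | Res XX p.1 ∧ p.1 ∈ U ∧ p.2 = v₁} : Set (List α × V))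
    rw [run_parse hnil hpre T l v₀ hlX hu]
    exact ⟨hu, hU', hf⟩

end top

/-- **TOP of the block calculus.** -/
theorem top5 [Finite V] [Nonempty V] {S : Type*} [Monoid S] [Finite S] (f : α → S)
    {XX : Language α} {T : V → List α → V} {LP RQ : ℕ → V → Language α} {N b K : ℕ}
    (hnil : [] ∉ XX) (hpre : ∀ X ∈ XX, ∀ u v, u ++ v = X → u ∈ XX → v = [])
    (hX : ∀ v v', H b ({X | X ∈ XX ∧ T v X = v'} : Language α))
    (hTail : ∀ s : S, H b ({u | Res XX u ∧ (u.map f).prod = s} : Language α))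
    (hLP : ∀ j < N, ∀ v, H b ({u | Res XX u ∧ u ∈ LP j v} : Language α))
    (hRQ : ∀ j < N, ∀ v, H b (RQ j v)) (hne : ∀ j < N, ∀ v, [] ∉ RQ j v)
    (hfun : ∀ j < N, ∀ Q v v', Q ∈ RQ j v → Q ∈ RQ j v' → v = v')
    (hs : ∀ i < N, ∀ u v Q v', Res XX u → u ∈ LP i v → Q ∈ RQ i v' →
      Live (stp T XX) (Lv LP RQ) i (u, v) Q → run (stp T XX) Q (u, v) = ([], v'))
    (hcc : ∀ v (l : List (List α)), (∀ X ∈ l, X ∈ XX) →
      Live (stp T XX) (Lv LP RQ) N ([], v) l.flatten → l.length ≤ K)
    (hdec : ∃ dec : (V → V) → S, ∀ l : List (List α), (∀ X ∈ l, X ∈ XX) →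
      dec (fun v => l.foldl T v) = (l.flatten.map f).prod) (s : S) :
    H (N + b) ({w | (w.map f).prod = s} : Language α) := by
  classical
  obtain ⟨dec, hdec⟩ := hdec
  have : Finite (V → V) := Pi.finite
  have hTh : ∀ (t : S) (v v' : V), H (N + b) ({w | ∃ (l : List (List α)) (u : List α),
      (∀ X ∈ l, X ∈ XX) ∧ Res XX u ∧ w = l.flatten ++ u ∧ l.foldl T v = v' ∧
      u ∈ ({u | (u.map f).prod = t} : Language α)} : Language α) := fun t v v' =>
    thread hnil hpre hX hLP hRQ hne hfun hs hcc _ (hTail t) v v'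
  refine H.congr (H.exists_fintype (fun q : (V → V) × S => ({w | dec q.1 * q.2 = s ∧
    w ∈ ({w | ∀ v, w ∈ ({w | ∃ (l : List (List α)) (u : List α),
      (∀ X ∈ l, X ∈ XX) ∧ Res XX u ∧ w = l.flatten ++ u ∧ l.foldl T v = q.1 v ∧
      u ∈ ({u | (u.map f).prod = q.2} : Language α)} : Language α)} : Language α)} : Language α))
    fun q => H.inter (H.const _ _) (H.forall_fintype _ fun v => hTh q.2 v (q.1 v))) fun w => ?_
  obtain ⟨l, u, hlX, hu, rfl⟩ := exists_parse XX hnil w.length w rfl
  have huniq : ∀ (v : V) (l' : List (List α)) (u' : List α), (∀ X ∈ l', X ∈ XX) → Res XX u' →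
      l.flatten ++ u = l'.flatten ++ u' → u = u' ∧ l.foldl T v = l'.foldl T v := by
    intro v l' u' hl' hu' e
    have h1 := run_parse hnil hpre T l v hlX hu
    have h2 := run_parse hnil hpre T l' v hl' hu'
    rw [e, h2] at h1
    have h3 := Prod.mk.inj h1
    exact ⟨h3.1.symm, h3.2.symm⟩
  constructor
  · rintro ⟨⟨g, t⟩, hq, hall⟩
    have hv : ∀ v, l.foldl T v = g v ∧ (u.map f).prod = t := by
      intro v
      obtain ⟨l', u', hl', hu', e, hf, ht⟩ := hall v
      obtain ⟨h1, h2⟩ := huniq v l' u' hl' hu' e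
      exact ⟨h2.trans hf, by rw [h1]; exact ht⟩
    have hg : (fun v => l.foldl T v) = g := funext fun v => (hv v).1
    change ((l.flatten ++ u).map f).prod = s
    rw [List.map_append, List.prod_append, ← hdec l hlX, hg, (hv (Classical.arbitrary V)).2]
    exact hq
  · intro h
    have h' : ((l.flatten ++ u).map f).prod = s := h
    rw [List.map_append, List.prod_append, ← hdec l hlX] at h'
    exact ⟨(fun v => l.foldl T v, (u.map f).prod), h', fun v => ⟨l, u, hlX, hu, rfl, rfl, rfl⟩⟩

end Crest.Agent.R320.Top5_427
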