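import Crest.Agent.R320.NestInf_163

/-!
# Row 320: P1 = TOP (block prefix code, all words, two schemes on one token) (helper530)

Blocks `XX` (prefix code, unbounded), state `(u, v)` = (part of the current block, token at its start),
scheme 1 (`LP1`, `r1`) sound on every text, right words end at the end of the block, complete on
blocks that are not `Bad`; scheme 2 (`LP2`, `r2`) sound when the block is bad, its right words end at
the end of the NEXT block, complete on bad blocks followed by a block.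
All languages `{X | XX X ∧ T X v = v'}`, `{y | y has no prefix in XX, φ y = t}`, `{Q | r_i Q = some c}`
of height `1` (few outer walls).  THEOREM `top5` : every `{w | φ w = s}` has height at most `3`.
-/

set_option autoImplicit false

namespace Crest.Agent.R320.Top5_530

open Crest.RegLang Crest.Agent.R320.Hgt1_903 Crest.Agent.R320.Three_427

/-- a prefix code with token maps -/
structure Code (α V : Type*) where
  XX : List α → Prop
  T : List α → V → V
  ne : ¬ XX []
  pf : ∀ X Y, XX X → XX (X ++ Y) → Y = []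

variable {α V : Type*}

namespace Code

variable (b : Code α V)

/-- no prefix is a block -/
def Inc (y : List α) : Prop := ∀ X, X <+: y → ¬ b.XX X

open Classical in
/-- the system -/
noncomputable def step (p : List α × V) (a : α) : List α × V :=
  if b.XX (p.1 ++ [a]) then ([], b.T (p.1 ++ [a]) p.2) else (p.1 ++ [a], p.2)

theorem inc_nil : b.Inc [] := by
  intro X hX hB
  rw [List.prefix_nil] at hX
  subst hX; exact b.ne hB

theorem Inc.left {b : Code α V} {u v : List α} (h : b.Inc (u ++ v)) : b.Inc u :=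
  fun X hX => h X (hX.trans (List.prefix_append _ _))

theorem inc_of_proper {P Q : List α} (h : b.XX (P ++ Q)) (hQ : Q ≠ []) : b.Inc P := by
  rintro X ⟨t, rfl⟩ hX
  rw [List.append_assoc] at h
  have := b.pf X _ hX h
  exact hQ (List.append_eq_nil_iff.1 this).2

theorem run_inc (y u : List α) (v : V) (h1 : b.Inc (y ++ u)) :
    run b.step u (y, v) = (y ++ u, v) := by
  induction u generalizing y with
  | nil => simp [run_nil]
  | cons a u ih =>
    have e : y ++ a :: u = (y ++ [a]) ++ u := by simp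
    have h1' : b.Inc ((y ++ [a]) ++ u) := by rwa [← e]
    have hstep : b.step (y, v) a = (y ++ [a], v) := by
      have hn : ¬ b.XX (y ++ [a]) := h1' _ (List.prefix_append _ _)
      simp only [step, hn, if_false]
    have : run b.step (a :: u) (y, v) = run b.step u (b.step (y, v) a) := rfl
    rw [this, hstep, ih (y ++ [a]) h1']
    congr 1
    exact e.symm

theorem run_blk (y u : List α) (v : V) (hB : b.XX (y ++ u)) (hu : u ≠ []) :
    run b.step u (y, v) = ([], b.T (y ++ u) v) := by
  obtain ⟨u', a, rfl⟩ : ∃ u' a, u = u' ++ [a] := by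
    rcases List.eq_nil_or_concat u with h | ⟨u', a, h⟩
    · exact (hu h).elim
    · exact ⟨u', a, by simpa using h⟩
  have hi : b.Inc (y ++ u') := b.inc_of_proper (P := y ++ u') (Q := [a])
    (by rwa [List.append_assoc]) (by simp)
  rw [run_append, b.run_inc y u' v hi]
  change b.step (y ++ u', v) a = _
  have hB' : b.XX ((y ++ u') ++ [a]) := by rwa [List.append_assoc]
  simp only [step, hB', if_true]
  rw [List.append_assoc]

theorem run_block (X : List α) (v : V) (hB : b.XX X) :
    run b.step X ([], v) = ([], b.T X v) := by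
  have hX : X ≠ [] := by rintro rfl; exact b.ne hB
  exact b.run_blk [] X v hB hX

/-- `w` has no block prefix or splits -/
theorem inc_or (w : List α) : b.Inc w ∨ ∃ X y, X ++ y = w ∧ b.XX X := by
  by_cases h : b.Inc w
  · exact Or.inl h
  · unfold Inc at h
    push Not at h
    obtain ⟨X, ⟨y, rfl⟩, hB⟩ := h
    exact Or.inr ⟨X, y, rfl, hB⟩

/-- the two schemes -/
structure Two where
  LP1 : List α → V → Prop
  LP2 : List α → V → Prop
  r1 : List α → Option V
  r2 : List α → Option V
  Bad : List α → Prop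
  p1 : ℕ
  p2 : ℕ
  lp1_le : ∀ P v, LP1 P v → P.length ≤ p2
  lp2_le : ∀ P v, LP2 P v → P.length ≤ p1
  sound1 : ∀ P Q v c, b.Inc P → LP1 P v → r1 Q = some c → b.XX (P ++ Q) ∧ b.T (P ++ Q) v = c
  complete1 : ∀ X, b.XX X → ¬ Bad X → ∀ v, ∃ P Q, P ++ Q = X ∧ Q ≠ [] ∧ p1 ≤ P.length ∧
    LP1 P v ∧ (r1 Q).isSome
  sound2 : ∀ P Q v c, b.Inc P → LP2 P v → r2 Q = some c →
    (∀ X Z, X ++ Z = P ++ Q → b.XX X → Bad X) →
    ∃ X1 X2, X1 ++ X2 = P ++ Q ∧ b.XX X1 ∧ b.XX X2 ∧ b.T X2 (b.T X1 v) = c
  complete2 : ∀ X1 X2, b.XX X1 → Bad X1 → b.XX X2 → ∀ v, ∃ P Q, P ++ Q = X1 ++ X2 ∧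
    P.length < X1.length ∧ LP2 P v ∧ (r2 Q).isSome
  ne1 : r1 [] = none
  ne2 : r2 [] = none

variable {b} [AddCommGroup V]

/-- the two levels -/
noncomputable def Two.L (t : b.Two) : ℕ → Lvl (List α × V) α
  | 0 => ⟨fun p => b.Inc p.1 ∧ t.LP1 p.1 p.2, fun Q => (t.r1 Q).isSome, fun Q => ([], (t.r1 Q).getD 0)⟩
  | _ => ⟨fun p => b.Inc p.1 ∧ t.LP2 p.1 p.2, fun Q => (t.r2 Q).isSome, fun Q => ([], (t.r2 Q).getD 0)⟩

variable (t : b.Two)

/-- left languages by level -/
def Two.LP (j : ℕ) : List α → V → Prop := if j = 0 then t.LP1 else t.LP2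

/-- right languages by level -/
def Two.r (j : ℕ) : List α → Option V := if j = 0 then t.r1 else t.r2

theorem Two.L_C (j : ℕ) (p : List α × V) : (t.L j).C p ↔ b.Inc p.1 ∧ t.LP j p.1 p.2 := by
  cases j with
  | zero => simp [Two.L, Two.LP]
  | succ j => simp [Two.L, Two.LP]

theorem Two.L_R (j : ℕ) (Q : List α) : (t.L j).R Q ↔ (t.r j Q).isSome := by
  cases j with
  | zero => simp [Two.L, Two.r]
  | succ j => simp [Two.L, Two.r]

theorem Two.L_c (j : ℕ) (Q : List α) : (t.L j).c Q = ([], (t.r j Q).getD 0) := by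
  cases j with
  | zero => simp [Two.L, Two.r]
  | succ j => simp [Two.L, Two.r]

theorem Two.LP_le (j : ℕ) (P : List α) (v : V) (h : t.LP j P v) : P.length ≤ t.p1 + t.p2 := by
  unfold Two.LP at h
  split_ifs at h
  · have := t.lp1_le _ _ h; omega
  · have := t.lp2_le _ _ h; omega

/-- a scheme-1 cut in a block that is not bad -/
theorem Two.bad_of_live (P w : List α) (v : V) (hP : P.length ≤ t.p1)
    (hl : Live b.step t.L 1 (P, v) w) (X Z : List α) (hX : X ++ Z = P ++ w) (hB : b.XX X) :
    t.Bad X := by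
  by_contra hbad
  obtain ⟨P1, Q1, rfl, hQ, hp, hL, hR⟩ := t.complete1 X hB hbad v
  obtain ⟨p, rfl⟩ : ∃ p, P1 = P ++ p := by
    have h1 : P1 <+: P ++ w := ⟨Q1 ++ Z, by rw [← hX]; simp⟩
    have h2 : P <+: P ++ w := List.prefix_append _ _
    obtain ⟨p, hp'⟩ := List.prefix_of_prefix_length_le h2 h1 (by omega)
    exact ⟨p, hp'.symm⟩
  have hw : p ++ (Q1 ++ Z) = w := by
    have : P ++ (p ++ (Q1 ++ Z)) = P ++ w := by rw [← hX]; simp
    exact List.append_cancel_left this
  have hinc := b.inc_of_proper hB hQ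
  refine hl 0 Nat.zero_lt_one p (Q1 ++ Z) hw ⟨?_, Q1, Z, rfl, ?_⟩
  · rw [t.L_C, b.run_inc P p v hinc]
    exact ⟨hinc, hL⟩
  · rw [t.L_R]; exact hR

theorem Two.sound (j : ℕ) (hj : j < 2) (p : List α × V) (Q : List α) (hC : (t.L j).C p)
    (hR : (t.L j).R Q) (hl : Live b.step t.L j p Q) : run b.step Q p = (t.L j).c Q := by
  obtain ⟨P, v⟩ := p
  rw [t.L_C] at hC
  rw [t.L_R] at hR
  obtain ⟨hinc, hL⟩ := hC
  dsimp only at hinc hL
  obtain ⟨c, hc⟩ := Option.isSome_iff_exists.1 hR
  rw [t.L_c, hc, Option.getD_some]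
  have hj' : j = 0 ∨ j = 1 := by omega
  rcases hj' with rfl | rfl
  · obtain ⟨h1, h2⟩ := t.sound1 P Q v c hinc hL hc
    have hQ : Q ≠ [] := by
      rintro rfl
      rw [List.append_nil] at h1
      exact hinc P List.prefix_rfl h1
    rw [b.run_blk P Q v h1 hQ, h2]
  · have hLP : t.LP2 P v := hL
    have hr : t.r2 Q = some c := hc
    obtain ⟨X1, X2, e, h1, h2, h3⟩ := t.sound2 P Q v c hinc hLP hr
      (t.bad_of_live P Q v (t.lp2_le _ _ hLP) hl)
    obtain ⟨q, rfl⟩ : ∃ q, X1 = P ++ q := by
      have a1 : X1 <+: P ++ Q := ⟨X2, e⟩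
      have a2 : P <+: P ++ Q := List.prefix_append _ _
      rcases Nat.le_total P.length X1.length with h | h
      · obtain ⟨p, hp'⟩ := List.prefix_of_prefix_length_le a2 a1 h
        exact ⟨p, hp'.symm⟩
      · exact (hinc X1 (List.prefix_of_prefix_length_le a1 a2 h) h1).elim
    have hq : q ≠ [] := by
      rintro rfl
      rw [List.append_nil] at h1
      exact hinc P List.prefix_rfl h1
    have hQ : Q = q ++ X2 := by
      rw [List.append_assoc] at e
      exact (List.append_cancel_left e).symm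
    rw [hQ, run_append, b.run_blk P q v h1 hq, b.run_block X2 _ h2, h3]

/-- words with a cut before the first block end -/
def Two.CutW (v : V) : Language α :=
  {w | ∃ j ∈ Finset.range 2, w ∈ ({w | ∃ u z, u ++ z = w ∧
    u ∈ ({u | ∃ P Q, P ++ Q = u ∧ P ∈ ({P | b.Inc P ∧ t.LP j P v} : Language α) ∧
      Q ∈ ({Q | (t.r j Q).isSome} : Language α)} : Language α) ∧ z ∈ (⊤ : Language α)} :
        Language α)}

theorem Two.mem_CutW {v : V} {w : List α} : w ∈ t.CutW v ↔
    ∃ j < 2, ∃ P Q Z, P ++ (Q ++ Z) = w ∧ b.Inc P ∧ t.LP j P v ∧ (t.r j Q).isSome := by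
  constructor
  · rintro ⟨j, hj, _, z, rfl, ⟨P, Q, rfl, ⟨h1, h2⟩, h3⟩, -⟩
    exact ⟨j, Finset.mem_range.1 hj, P, Q, z, by simp [List.append_assoc], h1, h2, h3⟩
  · rintro ⟨j, hj, P, Q, Z, rfl, h1, h2, h3⟩
    exact ⟨j, Finset.mem_range.2 hj, P ++ Q, Z, by simp [List.append_assoc],
      ⟨P, Q, rfl, ⟨h1, h2⟩, h3⟩, trivial⟩

theorem Two.cutW_height [Finite α] [Finite V]
    (hr : ∀ j c, H 1 ({Q | t.r j Q = some c} : Language α)) (v : V) :
    H 1 (t.CutW v) := by
  refine H.exists_finset _ _ fun j _ => H.cat (H.cat ?_ ?_) (H.univ 1)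
  · exact H.bounded 1 (t.p1 + t.p2) fun w hw => t.LP_le j w v hw.2
  · refine H.congr (H.exists_fintype (fun c : V => ({Q | t.r j Q = some c} : Language α))
      fun c => hr j c) fun w => ?_
    constructor
    · rintro ⟨c, hc⟩
      have hc' : t.r j w = some c := hc
      change (t.r j w).isSome
      rw [hc']; rfl
    · intro h
      exact Option.isSome_iff_exists.1 h

/-- live words from a node have at most one block -/
theorem Two.live_split (v : V) (w : List α) (hl : Live b.step t.L 2 ([], v) w) :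
    b.Inc w ∨ ∃ X y, X ++ y = w ∧ b.XX X ∧ b.Inc y := by
  rcases b.inc_or w with h | ⟨X, y, rfl, hX⟩
  · exact Or.inl h
  · right
    refine ⟨X, y, rfl, hX, ?_⟩
    rcases b.inc_or y with h | ⟨X2, z, rfl, hX2⟩
    · exact h
    · exfalso
      have hbad : t.Bad X := t.bad_of_live [] (X ++ (X2 ++ z)) v (Nat.zero_le _)
        (hl.mono (by omega)) X (X2 ++ z) (by simp) hX
      obtain ⟨P, Q, e, hP, hL, hR⟩ := t.complete2 X X2 hX hbad hX2 v
      have hPX : ∃ q, P ++ q = X := by
        have h1 : X <+: X ++ X2 := List.prefix_append _ _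
        have h2 : P <+: X ++ X2 := ⟨Q, e⟩
        exact List.prefix_of_prefix_length_le h2 h1 hP.le
      obtain ⟨q, rfl⟩ := hPX
      have hq : q ≠ [] := by rintro rfl; simp at hP
      have hinc := b.inc_of_proper hX hq
      refine hl 1 (by omega) P (Q ++ z) ?_ ⟨?_, Q, z, rfl, ?_⟩
      · rw [← List.append_assoc, e]; simp [List.append_assoc]
      · rw [t.L_C]
        have := b.run_inc [] P v (by simpa using hinc)
        rw [this]
        exact ⟨hinc, hL⟩
      · rw [t.L_R]; exact hR

theorem Two.base [Finite α] [Finite V]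
    (hB : ∀ v v', H 1 ({X | b.XX X ∧ b.T X v = v'} : Language α))
    (hr : ∀ j c, H 1 ({Q | t.r j Q = some c} : Language α))
    (F : Set (List α × V)) (hF : ∀ v, H 1 ({y | b.Inc y ∧ (y, v) ∈ F} : Language α)) (v : V) :
    H 1 ({w | Live b.step t.L 2 ([], v) w ∧ run b.step w ([], v) ∈ F} : Language α) := by
  have hcut := t.cutW_height hr
  have key : H 1 ({w | w ∈ ({w | w ∈ ({w | ¬ w ∈ t.CutW v} : Language α) ∧
      w ∈ ({y | b.Inc y ∧ (y, v) ∈ F} : Language α)} : Language α) ∨
      w ∈ ({w | w ∈ ({w | ¬ w ∈ t.CutW v} : Language α) ∧ w ∈ ({w | ∃ v' : V, w ∈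
        ({w | ∃ X y, X ++ y = w ∧ X ∈ ({X | b.XX X ∧ b.T X v = v'} : Language α) ∧
          y ∈ ({w | w ∈ ({w | ¬ w ∈ t.CutW v'} : Language α) ∧
            w ∈ ({y | b.Inc y ∧ (y, v') ∈ F} : Language α)} : Language α)} : Language α)} :
              Language α)} : Language α)} : Language α) :=
    H.union (H.inter (H.not (hcut v)) (hF v)) (H.inter (H.not (hcut v))
      (H.exists_fintype _ fun v' => H.cat (hB v v') (H.inter (H.not (hcut v')) (hF v'))))
  refine key.congr fun w => ?_
  constructor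
  · rintro (⟨h1, h2, h3⟩ | ⟨h1, v', X, y, rfl, ⟨h2, rfl⟩, h3, h4, h5⟩)
    · refine ⟨?_, ?_⟩
      · rintro j hj x z rfl ⟨hC, Q, s, rfl, hR⟩
        rw [t.L_C] at hC
        rw [t.L_R] at hR
        have hr0 := b.run_inc [] x v (by simpa using h2.left)
        rw [hr0] at hC
        exact h1 (t.mem_CutW.2 ⟨j, hj, x, Q, s, rfl, hC.1, hC.2, hR⟩)
      · have := b.run_inc [] w v (by simpa using h2)
        change run b.step w ([], v) ∈ F
        rw [this]; exact h3
    · refine ⟨?_, ?_⟩
      · rintro j hj x z e ⟨hC, Q, s, rfl, hR⟩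
        rw [t.L_C] at hC
        rw [t.L_R] at hR
        rcases lt_or_ge x.length X.length with h | h
        · obtain ⟨q, rfl⟩ : ∃ q, x ++ q = X := by
            have a1 : X <+: X ++ y := List.prefix_append _ _
            have a2 : x <+: X ++ y := ⟨_, e⟩
            exact List.prefix_of_prefix_length_le a2 a1 h.le
          have hq : q ≠ [] := by rintro rfl; simp at h
          have hinc := b.inc_of_proper h2 hq
          have hr0 := b.run_inc [] x v (by simpa using hinc)
          rw [hr0] at hC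
          exact h1 (t.mem_CutW.2 ⟨j, hj, x, Q, s, e, hC.1, hC.2, hR⟩)
        · obtain ⟨q, rfl⟩ : ∃ q, X ++ q = x := by
            have a1 : X <+: X ++ y := List.prefix_append _ _
            have a2 : x <+: X ++ y := ⟨_, e⟩
            exact List.prefix_of_prefix_length_le a1 a2 h
          rw [List.append_assoc] at e
          have e' := List.append_cancel_left e
          subst e'
          rw [run_append, b.run_block X v h2] at hC
          have hr0 := b.run_inc [] q (b.T X v) (by simpa using h4.left)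
          rw [hr0] at hC
          exact h3 (t.mem_CutW.2 ⟨j, hj, q, Q, s, rfl, hC.1, hC.2, hR⟩)
      · change run b.step (X ++ y) ([], v) ∈ F
        rw [run_append, b.run_block X v h2, b.run_inc [] y _ (by simpa using h4)]
        exact h5
  · rintro ⟨hl, hrun⟩
    have hnc : w ∉ t.CutW v := by
      intro hw
      obtain ⟨j, hj, P, Q, Z, rfl, h1, h2, h3⟩ := t.mem_CutW.1 hw
      refine hl j hj P (Q ++ Z) rfl ⟨?_, Q, Z, rfl, ?_⟩
      · rw [t.L_C, b.run_inc [] P v (by simpa using h1)]
        exact ⟨h1, h2⟩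
      · rw [t.L_R]; exact h3
    rcases t.live_split v w hl with h | ⟨X, y, rfl, hX, hy⟩
    · left
      refine ⟨hnc, h, ?_⟩
      have := b.run_inc [] w v (by simpa using h)
      rw [this] at hrun
      exact hrun
    · right
      refine ⟨hnc, b.T X v, X, y, rfl, ⟨hX, rfl⟩, ?_, hy, ?_⟩
      · intro hw
        obtain ⟨j, hj, P, Q, Z, rfl, h1, h2, h3⟩ := t.mem_CutW.1 hw
        refine hl j hj (X ++ P) (Q ++ Z) (by simp [List.append_assoc]) ⟨?_, Q, Z, rfl, ?_⟩
        · rw [t.L_C, run_append, b.run_block X v hX, b.run_inc [] P _ (by simpa using h1)]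
          exact ⟨h1, h2⟩
        · rw [t.L_R]; exact h3
      · rw [run_append, b.run_block X v hX, b.run_inc [] y _ (by simpa using hy)] at hrun
        exact hrun

/-- the run from a node -/
theorem run_form {S : Type*} [Monoid S] (φ : List α → S) (h1 : φ [] = 1)
    (hφ : ∀ u v, φ (u ++ v) = φ u * φ v) (act : V → S → V)
    (act_one : ∀ v, act v 1 = v)
    (act_mul : ∀ v s s', act v (s * s') = act (act v s) s')
    (act_add : ∀ v v' s, act (v + v') s = act v s + act v' s)
    (ν : List α → V) (hT : ∀ X v, b.XX X → b.T X v = act v (φ X) + ν X) :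
    ∀ (N : ℕ) (w : List α), w.length ≤ N → ∃ M y, b.Inc y ∧ w = M ++ y ∧
      ∃ D, ∀ v, run b.step w ([], v) = (y, act v (φ M) + D) := by
  intro N
  induction N with
  | zero =>
    intro w hw
    have : w = [] := List.length_eq_zero_iff.1 (Nat.le_zero.1 hw)
    subst this
    exact ⟨[], [], b.inc_nil, rfl, 0, fun v => by simp [run_nil, h1, act_one]⟩
  | succ N ih =>
    intro w hw
    rcases b.inc_or w with hi | ⟨X, w', rfl, hB⟩
    · refine ⟨[], w, hi, rfl, 0, fun v => ?_⟩
      rw [b.run_inc [] w v (by simpa using hi), h1, act_one, add_zero]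
      rfl
    · have hX : X ≠ [] := by rintro rfl; exact b.ne hB
      have hXp : 0 < X.length := List.length_pos_iff.2 hX
      rw [List.length_append] at hw
      obtain ⟨M, y, hy, rfl, D, hD⟩ := ih w' (by omega)
      refine ⟨X ++ M, y, hy, by simp, act (ν X) (φ M) + D, fun v => ?_⟩
      rw [run_append, b.run_block X v hB, hD, hT X v hB, hφ, act_mul, act_add]
      congr 1
      abel

/-- **TOP** -/
theorem Two.top5 (t : b.Two) [Finite α] [Finite V] {S : Type*} [Monoid S] [Finite S]
    (φ : List α → S) (h1 : φ [] = 1)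
    (hφ : ∀ u v, φ (u ++ v) = φ u * φ v) (act : V → S → V)
    (act_one : ∀ v, act v 1 = v)
    (act_mul : ∀ v s s', act v (s * s') = act (act v s) s')
    (act_add : ∀ v v' s, act (v + v') s = act v s + act v' s)
    (faithful : ∀ s s', (∀ v, act v s = act v s') → s = s')
    (ν : List α → V) (hT : ∀ X v, b.XX X → b.T X v = act v (φ X) + ν X)
    (hB : ∀ v v', H 1 ({X | b.XX X ∧ b.T X v = v'} : Language α))
    (hI : ∀ s, H 1 ({y | b.Inc y ∧ φ y = s} : Language α))
    (hr1 : ∀ c, H 1 ({Q | t.r1 Q = some c} : Language α))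
    (hr2 : ∀ c, H 1 ({Q | t.r2 Q = some c} : Language α)) (s : S) :
    H 3 ({w | φ w = s} : Language α) := by
  classical
  have hr : ∀ j c, H 1 ({Q | t.r j Q = some c} : Language α) := by
    intro j c
    unfold Two.r
    split_ifs
    · exact hr1 c
    · exact hr2 c
  let F₀ : S → V → Set (List α × V) := fun s' v' => {p | b.Inc p.1 ∧ φ p.1 = s' ∧ p.2 = v'}
  have hX : ∀ (v : V) (s' : S) (v' : V),
      H 3 ({w | run b.step w ([], v) ∈ F₀ s' v'} : Language α) := by
    intro v s' v'
    refine NestInf_163.nested_infinite b.step t.L 2 1 ([], v) (F₀ s' v') ?_ ?_ ?_ ?_ ?_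
    · rintro j - Q hR rfl
      rw [t.L_R] at hR
      unfold Two.r at hR
      split_ifs at hR
      · rw [t.ne1] at hR; simp at hR
      · rw [t.ne2] at hR; simp at hR
    · intro j _
      refine (Set.finite_range (fun c : V => (([], c) : List α × V))).subset ?_
      rintro ω ⟨Q, -, rfl⟩
      exact ⟨_, (t.L_c j Q).symm⟩
    · intro j _ ω
      by_cases hω : ω.1 = []
      · refine (hr j ω.2).congr fun Q => ?_
        constructor
        · intro h
          have h' : t.r j Q = some ω.2 := h
          refine ⟨(t.L_R j Q).2 (by rw [h']; rfl), ?_⟩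
          rw [t.L_c, h', Option.getD_some, ← hω]
        · rintro ⟨hR, hc⟩
          rw [t.L_R] at hR
          rw [t.L_c] at hc
          obtain ⟨c, hc'⟩ := Option.isSome_iff_exists.1 hR
          rw [hc', Option.getD_some] at hc
          change t.r j Q = some ω.2
          rw [hc', ← hc]
      · refine (H.empty 1).congr fun Q => ?_
        constructor
        · intro h; exact (Set.notMem_empty _ h).elim
        · rintro ⟨-, hc⟩
          rw [t.L_c] at hc
          exact (hω (by rw [← hc])).elim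
    · exact fun i hi p Q hC hR hl => t.sound i hi p Q hC hR hl
    · intro p hp F hF
      have hp' : ∃ c, p = ([], c) := by
        rcases hp with rfl | ⟨j, -, Q, -, rfl⟩
        · exact ⟨v, rfl⟩
        · exact ⟨_, t.L_c j Q⟩
      obtain ⟨c, rfl⟩ := hp'
      refine t.base hB hr F ?_ c
      intro v''
      rcases hF with rfl | ⟨j, -, rfl⟩
      · by_cases hv : v'' = v'
        · refine (hI s').congr fun y => ?_
          constructor
          · rintro ⟨a1, a2⟩; exact ⟨a1, a1, a2, hv⟩
          · rintro ⟨a1, -, a2, -⟩; exact ⟨a1, a2⟩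
        · refine (H.empty 1).congr fun y => ?_
          constructor
          · intro h; exact (Set.notMem_empty _ h).elim
          · rintro ⟨-, -, -, a3⟩; exact (hv a3).elim
      · refine H.bounded 1 (t.p1 + t.p2) fun y hy => ?_
        obtain ⟨-, hy2⟩ := hy
        have hy3 := (t.L_C j (y, v'')).1 hy2
        exact t.LP_le j y v'' hy3.2
  -- the family of end data determines `φ w`
  have h0 : ∀ s, act 0 s = 0 := fun s => by
    have := act_add 0 0 s
    rw [add_zero] at this
    exact left_eq_add.1 this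
  have hdet : ∀ w w', (∀ v, ∃ s' v', run b.step w ([], v) ∈ F₀ s' v' ∧
      run b.step w' ([], v) ∈ F₀ s' v') → φ w = φ w' := by
    intro w w' he
    obtain ⟨M, y, hy, rfl, D, hD⟩ := run_form (b := b) φ h1 hφ act act_one act_mul act_add ν hT
      _ w le_rfl
    obtain ⟨M', y', hy', rfl, D', hD'⟩ := run_form (b := b) φ h1 hφ act act_one act_mul act_add ν hT
      _ w' le_rfl
    have hv : ∀ v, φ y = φ y' ∧ act v (φ M) + D = act v (φ M') + D' := by
      intro v
      obtain ⟨s', v', ⟨-, a1, a2⟩, -, c1, c2⟩ := he v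
      rw [hD] at a1 a2
      rw [hD'] at c1 c2
      exact ⟨a1.trans c1.symm, a2.trans c2.symm⟩
    have hDD : D = D' := by simpa [h0] using (hv 0).2
    have hM : φ M = φ M' := faithful _ _ fun v => by
      have := (hv v).2
      rw [hDD] at this
      exact add_right_cancel this
    rw [hφ, hφ, hM, (hv 0).1]
  have hmem : ∀ w v, ∃ s' v', run b.step w ([], v) ∈ F₀ s' v' := by
    intro w v
    obtain ⟨M, y, hy, rfl, D, hD⟩ := run_form (b := b) φ h1 hφ act act_one act_mul act_add ν hT
      _ w le_rfl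
    exact ⟨φ y, act v (φ M) + D, by rw [hD]; exact ⟨hy, rfl, rfl⟩⟩
  let FF : (V → S × V) → Language α := fun f => {w | ∀ v, w ∈ ({w | run b.step w ([], v) ∈
    F₀ (f v).1 (f v).2} : Language α)}
  have hFF : ∀ f, H 3 (FF f) := fun f => H.forall_fintype
    (fun v => ({w | run b.step w ([], v) ∈ F₀ (f v).1 (f v).2} : Language α))
    (fun v => hX v _ _)
  have key : H 3 ({w | ∃ f : V → S × V, w ∈ ({w | (∃ w0, φ w0 = s ∧ w0 ∈ FF f) ∧ w ∈ FF f} :
      Language α)} : Language α) :=
    H.exists_fintype _ fun f => H.inter (H.const 3 _) (hFF f)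
  refine key.congr fun w => ?_
  constructor
  · rintro ⟨f, ⟨w0, rfl, hw0⟩, hw⟩
    exact hdet w w0 fun v => ⟨_, _, hw v, hw0 v⟩
  · intro hw
    choose f hf using hmem w
    choose g hg using hf
    refine ⟨fun v => (f v, g v), ⟨w, hw, fun v => hg v⟩, fun v => hg v⟩

end Code

end Crest.Agent.R320.Top5_530
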