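import Crest.Agent.R320.NestInf_163

/-!
# Row 320: the top of the two-scheme chain over a prefix code of blocks (helper561)

Blocks `XX` (prefix code), one token system `T v X = act v (φ X) + nu X`, scheme 0 sound on every
text, scheme 1 sound on texts not cut by scheme 0, every block followed by one more block is cut by
one of the two schemes.  If the block languages, the left / right legal languages and the words
without a block prefix are of height `≤ 1`, then `{w | φ w = s}` is of height `≤ 3`.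
-/

set_option autoImplicit false

namespace Crest.Agent.R320.Top5_561

open Crest.RegLang Crest.Agent.R320.Hgt1_903 Crest.Agent.R320.Three_427 Crest.Agent.R320.NestInf_163

universe u v

variable {α : Type u} {V : Type v}

/-- no prefix in the code -/
def NX (XX : Language α) (u : List α) : Prop := ∀ X ∈ XX, ¬ X <+: u

open Classical in
/-- the deterministic system: text since the last anchor, token at the anchor -/
noncomputable def step (XX : Language α) (T : V → List α → V) (p : List α × V) (c : α) :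
    List α × V :=
  if p.1 ++ [c] ∈ XX then ([], T p.2 (p.1 ++ [c])) else (p.1 ++ [c], p.2)

variable {XX : Language α} {T : V → List α → V}

theorem NX.prefix {u w : List α} (h : NX XX w) (hu : u <+: w) : NX XX u :=
  fun X hX hXu => h X hX (hXu.trans hu)

theorem run_nx (r : List α) : ∀ (u : List α) (v : V),
    (∀ x y, x ++ y = r → x ≠ [] → u ++ x ∉ XX) → run (step XX T) r (u, v) = (u ++ r, v) := by
  induction r with
  | nil => intro u v _; simp [run]
  | cons c r ih =>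
    intro u v h
    have h1 : u ++ [c] ∉ XX := h [c] r rfl (by simp)
    have h2 : run (step XX T) (c :: r) (u, v) = run (step XX T) r (u ++ [c], v) := by
      unfold run
      rw [List.foldl_cons]
      congr 1
      unfold step
      rw [if_neg h1]
    rw [h2, ih (u ++ [c]) v]
    · simp
    · intro x y e hx
      have := h (c :: x) y (by rw [← e]; rfl) (by simp)
      simpa using this

theorem run_NX {w : List α} (h : NX XX w) (v : V) : run (step XX T) w ([], v) = (w, v) := by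
  have := run_nx (XX := XX) (T := T) w [] v (fun x y e _ hx => h _ hx (by
    rw [List.nil_append, ← e]; exact List.prefix_append _ _))
  simpa using this

theorem run_block (hpc : ∀ P Q, P ∈ XX → P ++ Q ∈ XX → Q = []) {u r : List α} (hX : u ++ r ∈ XX)
    (hr : r ≠ []) (v : V) : run (step XX T) r (u, v) = ([], T v (u ++ r)) := by
  obtain ⟨r', c, rfl⟩ : ∃ r' c, r = r' ++ [c] := ⟨r.dropLast, r.getLast hr,
    (List.dropLast_append_getLast hr).symm⟩
  rw [run_append, run_nx r' u v]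
  · unfold run
    rw [List.foldl_cons, List.foldl_nil]
    unfold step
    rw [if_pos (by simpa using hX)]
    simp
  · intro x y e hx hux
    have h1 := hpc (u ++ x) (y ++ [c]) hux (by
      rw [← e] at hX
      simpa using hX)
    simp at h1

/-- proper prefixes of blocks have no block prefix -/
theorem NX_of_block (hpc : ∀ P Q, P ∈ XX → P ++ Q ∈ XX → Q = []) {P Q : List α}
    (hX : P ++ Q ∈ XX) (hQ : Q ≠ []) : NX XX P := by
  rintro X hX' ⟨t, rfl⟩
  have := hpc X (t ++ Q) hX' (by simpa using hX)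
  simp at this
  exact hQ this.2

/-- the language of words with a usable cut inside the first block text -/
def Cut (XX : Language α) (LP RQ : ℕ → V → Language α) (v : V) : Language α :=
  {w | ∃ j ∈ Finset.range 2, w ∈ ({w | ∃ x y, x ++ y = w ∧ x ∈ ({x | NX XX x ∧ x ∈ LP j v} : Language α) ∧
    y ∈ ({y | ∃ Q t, Q ++ t = y ∧ Q ∈ ({Q | ∃ b, Q ∈ RQ j b} : Language α) ∧ t ∈ (⊤ : Language α)} : Language α)} : Language α)}

theorem mem_Cut {LP RQ : ℕ → V → Language α} {v : V} {w : List α} :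
    w ∈ Cut XX LP RQ v ↔ ∃ j < 2, ∃ x y, x ++ y = w ∧ NX XX x ∧ x ∈ LP j v ∧
      ∃ Q t, Q ++ t = y ∧ ∃ b, Q ∈ RQ j b := by
  constructor
  · rintro ⟨j, hj, x, y, e, ⟨h1, h2⟩, Q, t, e', hQ, -⟩
    exact ⟨j, Finset.mem_range.1 hj, x, y, e, h1, h2, Q, t, e', hQ⟩
  · rintro ⟨j, hj, x, y, e, h1, h2, Q, t, e', hQ⟩
    exact ⟨j, Finset.mem_range.2 hj, x, y, e, ⟨h1, h2⟩, Q, t, e', hQ, trivial⟩

theorem H_Cut [Finite V] {n : ℕ} {LP RQ : ℕ → V → Language α} (hN : H n ({x | NX XX x} : Language α))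
    (hLP : ∀ j < 2, ∀ v, H n (LP j v)) (hRQ : ∀ j < 2, ∀ b, H n (RQ j b)) (v : V) :
    H n (Cut XX LP RQ v) := by
  refine H.exists_finset _ _ fun j hj => ?_
  have hj' := Finset.mem_range.1 hj
  exact H.cat (H.inter hN (hLP j hj' v)) (H.cat (H.exists_fintype _ fun b => hRQ j hj' b) (H.univ _))

open Classical in
/-- the two levels (infinite family, only `0` and `1` are used) -/
noncomputable def lv (XX : Language α) (LP RQ : ℕ → V → Language α) (v₀ : V) (j : ℕ) :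
    Lvl (List α × V) α where
  C p := NX XX p.1 ∧ p.1 ∈ LP j p.2
  R Q := ∃ b, Q ∈ RQ j b
  c Q := ([], if h : ∃ b, Q ∈ RQ j b then h.choose else v₀)

variable {LP RQ : ℕ → V → Language α} {v₀ : V}

theorem lv_c {j : ℕ} (hfun : ∀ b b' Q, Q ∈ RQ j b → Q ∈ RQ j b' → b = b') {b : V} {Q : List α}
    (h : Q ∈ RQ j b) : (lv XX LP RQ v₀ j).c Q = ([], b) := by
  have h' : ∃ b, Q ∈ RQ j b := ⟨b, h⟩
  unfold lv
  dsimp only
  rw [dif_pos h', hfun _ _ _ h'.choose_spec h]

theorem live_nx {w : List α} (h : NX XX w) (v : V) :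
    Live (step XX T) (lv XX LP RQ v₀) 2 ([], v) w ↔ w ∉ Cut XX LP RQ v := by
  rw [mem_Cut]
  constructor
  · rintro hl ⟨j, hj, x, y, e, h1, h2, Q, t, e', hQ⟩
    refine hl j hj x y e ?_
    rw [run_NX h1]
    exact ⟨⟨h1, h2⟩, Q, t, e', hQ⟩
  · intro hc j hj x y e hu
    have hx : NX XX x := h.prefix (e ▸ List.prefix_append x y)
    rw [run_NX hx] at hu
    obtain ⟨⟨h1, h2⟩, Q, t, e', hQ⟩ := hu
    exact hc ⟨j, hj, x, y, e, h1, h2, Q, t, e', hQ⟩

theorem run_X (hne : ([] : List α) ∉ XX) (hpc : ∀ P Q, P ∈ XX → P ++ Q ∈ XX → Q = []) {X : List α}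
    (hX : X ∈ XX) (x : List α) (v : V) :
    run (step XX T) (X ++ x) ([], v) = run (step XX T) x ([], T v X) := by
  rw [run_append]
  congr 1
  exact run_block hpc (u := []) hX (fun h => hne (h ▸ hX)) v

theorem live_block (hne : ([] : List α) ∉ XX) (hpc : ∀ P Q, P ∈ XX → P ++ Q ∈ XX → Q = [])
    {X u : List α} (hX : X ∈ XX) (hu : NX XX u) (v : V) :
    Live (step XX T) (lv XX LP RQ v₀) 2 ([], v) (X ++ u) ↔
      X ++ u ∉ Cut XX LP RQ v ∧ u ∉ Cut XX LP RQ (T v X) := by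
  constructor
  · intro hl
    constructor
    · rw [mem_Cut]
      rintro ⟨j, hj, x, y, e, h1, h2, Q, t, e', hQ⟩
      refine hl j hj x y e ?_
      rw [run_NX h1]
      exact ⟨⟨h1, h2⟩, Q, t, e', hQ⟩
    · rw [mem_Cut]
      rintro ⟨j, hj, x, y, e, h1, h2, Q, t, e', hQ⟩
      refine hl j hj (X ++ x) y (by rw [List.append_assoc, e]) ?_
      rw [run_X hne hpc hX, run_NX h1]
      exact ⟨⟨h1, h2⟩, Q, t, e', hQ⟩
  · rintro ⟨hc1, hc2⟩ j hj x y e hus
    rw [mem_Cut] at hc1 hc2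
    rcases List.append_eq_append_iff.1 e with ⟨r, h1, h2⟩ | ⟨r, h1, h2⟩
    · -- X = x ++ r, y = r ++ u
      rcases r with _ | ⟨c, r⟩
      · simp only [List.append_nil] at h1
        simp only [List.nil_append] at h2
        subst h1; subst h2
        have h3 : run (step XX T) X ([], v) = ([], T v X) := by
          have := run_X (T := T) hne hpc hX [] v
          simpa [run_nil] using this
        rw [h3] at hus
        obtain ⟨⟨h1, h2⟩, Q, t, e', hQ⟩ := hus
        exact hc2 ⟨j, hj, [], y, rfl, h1, h2, Q, t, e', hQ⟩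
      · have hx : NX XX x := NX_of_block hpc (Q := c :: r) (h1 ▸ hX) (by simp)
        rw [run_NX hx] at hus
        obtain ⟨⟨h3, h4⟩, Q, t, e', hQ⟩ := hus
        exact hc1 ⟨j, hj, x, y, e, h3, h4, Q, t, e', hQ⟩
    · -- x = X ++ r, u = r ++ y
      subst h1
      rw [run_X hne hpc hX] at hus
      have hx : NX XX r := hu.prefix (h2 ▸ List.prefix_append r y)
      rw [run_NX hx] at hus
      obtain ⟨⟨h3, h4⟩, Q, t, e', hQ⟩ := hus
      exact hc2 ⟨j, hj, r, y, h2.symm, h3, h4, Q, t, e', hQ⟩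

/-- every block followed by one more block is cut -/
def CC (XX : Language α) (LP RQ : ℕ → V → Language α) : Prop :=
  ∀ X₁ ∈ XX, ∀ X₂ ∈ XX, ∀ v : V, (∃ P Q b, X₁ = P ++ Q ∧ P ∈ LP 0 v ∧ Q ∈ RQ 0 b) ∨
    (∃ P Q b, X₁ = P ++ Q ∧ Q ≠ [] ∧ P ∈ LP 1 v ∧ Q ++ X₂ ∈ RQ 1 b)

theorem base_iff (hne : ([] : List α) ∉ XX) (hpc : ∀ P Q, P ∈ XX → P ++ Q ∈ XX → Q = [])
    (hRne : ∀ j < 2, ∀ b, ([] : List α) ∉ RQ j b) (cc : CC XX LP RQ) (F : Set (List α × V)) (v : V)
    (w : List α) :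
    (Live (step XX T) (lv XX LP RQ v₀) 2 ([], v) w ∧ run (step XX T) w ([], v) ∈ F) ↔
      ((NX XX w ∧ (w, v) ∈ F) ∧ w ∉ Cut XX LP RQ v) ∨ (w ∉ Cut XX LP RQ v ∧ ∃ v', ∃ X u, X ++ u = w ∧
        (X ∈ XX ∧ T v X = v') ∧ ((NX XX u ∧ (u, v') ∈ F) ∧ u ∉ Cut XX LP RQ v')) := by
  constructor
  · rintro ⟨hl, hF⟩
    by_cases hw : NX XX w
    · rw [run_NX hw] at hF
      exact Or.inl ⟨⟨hw, hF⟩, (live_nx hw v).1 hl⟩
    · right
      have hw' : ∃ X ∈ XX, X <+: w := by
        by_contra hc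
        push Not at hc
        exact hw hc
      obtain ⟨X, hX, u, rfl⟩ := hw'
      have hu : NX XX u := by
        rintro X₂ hX₂ ⟨r, rfl⟩
        rcases cc X hX X₂ hX₂ v with ⟨P, Q, b, rfl, hP, hQ⟩ | ⟨P, Q, b, rfl, hQ0, hP, hQ⟩
        · have hQ0 : Q ≠ [] := fun h => hRne 0 (by omega) b (h ▸ hQ)
          have hNP : NX XX P := NX_of_block hpc hX hQ0
          refine hl 0 (by omega) P (Q ++ (X₂ ++ r)) (by rw [List.append_assoc]) ?_
          rw [run_NX hNP]
          exact ⟨⟨hNP, hP⟩, Q, X₂ ++ r, rfl, b, hQ⟩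
        · have hNP : NX XX P := NX_of_block hpc hX hQ0
          refine hl 1 (by omega) P (Q ++ (X₂ ++ r)) (by rw [List.append_assoc]) ?_
          rw [run_NX hNP]
          exact ⟨⟨hNP, hP⟩, Q ++ X₂, r, by rw [List.append_assoc], b, hQ⟩
      have h2 := (live_block hne hpc hX hu v).1 hl
      rw [run_X hne hpc hX, run_NX hu] at hF
      exact ⟨h2.1, T v X, X, u, rfl, ⟨hX, rfl⟩, ⟨hu, hF⟩, h2.2⟩
  · rintro (⟨⟨hw, hF⟩, hc⟩ | ⟨hc, v', X, u, rfl, ⟨hX, rfl⟩, ⟨hu, hF⟩, hc'⟩)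
    · rw [run_NX hw]
      exact ⟨(live_nx hw v).2 hc, hF⟩
    · rw [run_X hne hpc hX, run_NX hu]
      exact ⟨(live_block hne hpc hX hu v).2 ⟨hc, hc'⟩, hF⟩

/-- soundness of the second level, on texts which are not cut by the first one -/
def S2 (XX : Language α) (T : V → List α → V) (LP RQ : ℕ → V → Language α) : Prop :=
  ∀ v b P Q, NX XX P → P ∈ LP 1 v → Q ∈ RQ 1 b →
    (∀ x y, x ++ y = Q → NX XX (P ++ x) → P ++ x ∈ LP 0 v →
      ¬ ∃ Q₁ t b', Q₁ ++ t = y ∧ Q₁ ∈ RQ 0 b') →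
    ∃ X₁ X₂, X₁ ∈ XX ∧ X₂ ∈ XX ∧ P ++ Q = X₁ ++ X₂ ∧ P.length < X₁.length ∧ T (T v X₁) X₂ = b

theorem top0 [Finite V] (hne : ([] : List α) ∉ XX)
    (hpc : ∀ P Q, P ∈ XX → P ++ Q ∈ XX → Q = [])
    (hRne : ∀ j < 2, ∀ b, ([] : List α) ∉ RQ j b)
    (hfun : ∀ j < 2, ∀ b b' Q, Q ∈ RQ j b → Q ∈ RQ j b' → b = b')
    (s1 : ∀ v b P Q, P ∈ LP 0 v → Q ∈ RQ 0 b → P ++ Q ∈ XX ∧ T v (P ++ Q) = b)
    (s2 : S2 XX T LP RQ) (cc : CC XX LP RQ)
    (hXX : ∀ v v', H 1 ({X | X ∈ XX ∧ T v X = v'} : Language α))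
    (hN : H 1 ({u | NX XX u} : Language α))
    (hLP : ∀ j < 2, ∀ v, H 1 (LP j v)) (hRQ : ∀ j < 2, ∀ b, H 1 (RQ j b))
    (v₀ : V) (F₀ : Set (List α × V)) (hF : ∀ v', H 1 ({u | NX XX u ∧ (u, v') ∈ F₀} : Language α)) :
    H (2 + 1) ({w | run (step XX T) w ([], v₀) ∈ F₀} : Language α) := by
  refine nested_infinite (step XX T) (lv XX LP RQ v₀) 2 1 ([], v₀) F₀ ?_ ?_ ?_ ?_ ?_
  · rintro j hj Q ⟨b, hb⟩ rfl
    exact hRne j hj b hb
  · intro j hj
    refine (Set.finite_range (fun b : V => (([] : List α), b))).subset ?_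
    rintro ω ⟨Q, hQ, rfl⟩
    exact ⟨_, rfl⟩
  · intro j hj ω
    refine H.congr (H.inter (H.const 1 (ω.1 = [])) (hRQ j hj ω.2)) fun Q => ?_
    constructor
    · rintro ⟨h1, h2⟩
      refine ⟨⟨_, h2⟩, ?_⟩
      rw [lv_c (hfun j hj) h2]
      exact Prod.ext (show [] = ω.1 from Eq.symm h1) rfl
    · rintro ⟨⟨b, hb⟩, h2⟩
      rw [lv_c (hfun j hj) hb] at h2
      subst h2
      exact ⟨rfl, hb⟩
  · rintro i hi ⟨u, v⟩ Q ⟨hu, hP⟩ ⟨b, hb⟩ hl
    rw [lv_c (hfun i hi) hb]
    have hQ0 : Q ≠ [] := fun h => hRne i hi b (h ▸ hb)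
    rcases (show i = 0 ∨ i = 1 by omega) with rfl | rfl
    · obtain ⟨h1, h2⟩ := s1 v b u Q hP hb
      rw [run_block hpc h1 hQ0, h2]
    · obtain ⟨X₁, X₂, h1, h2, h3, h4, h5⟩ := s2 v b u Q hu hP hb (by
        rintro x y e hNx hx ⟨Q₁, t, b', e', hQ₁⟩
        refine hl 0 (by omega) x y e ?_
        have h6 : run (step XX T) x (u, v) = (u ++ x, v) := by
          refine run_nx x u v fun a c eac _ hux => ?_
          exact hNx _ hux ⟨c, by rw [List.append_assoc, eac]⟩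
        rw [h6]
        exact ⟨⟨hNx, hx⟩, Q₁, t, e', b', hQ₁⟩)
      obtain ⟨r, h6, h7⟩ : ∃ r, X₁ = u ++ r ∧ Q = r ++ X₂ := by
        rcases List.append_eq_append_iff.1 h3 with ⟨r, h6, h7⟩ | ⟨r, h6, h7⟩
        · exact ⟨r, h6, h7⟩
        · exfalso
          have := congrArg List.length h6
          rw [List.length_append] at this
          omega
      have hr : r ≠ [] := by
        rintro rfl
        rw [h6] at h4
        simp at h4
      have hX2 : X₂ ≠ [] := fun h => hne (h ▸ h2)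
      rw [h7, run_append, run_block hpc (h6 ▸ h1) hr]
      have := run_block (T := T) hpc (u := []) (r := X₂) h2 hX2 (T v (u ++ r))
      rw [this, List.nil_append, ← h6, h5]
  · intro p hp F hFF
    obtain ⟨v, rfl⟩ : ∃ v, p = ([], v) := by
      rcases hp with rfl | ⟨j, hj, Q, hQ, rfl⟩
      · exact ⟨_, rfl⟩
      · exact ⟨_, rfl⟩
    have hFv : ∀ v', H 1 ({u | NX XX u ∧ (u, v') ∈ F} : Language α) := by
      rcases hFF with rfl | ⟨j, hj, rfl⟩
      · exact hF
      · intro v'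
        refine H.congr (H.inter hN (hLP j hj v')) fun u => ?_
        constructor
        · rintro ⟨h1, h2⟩; exact ⟨h1, h1, h2⟩
        · rintro ⟨h1, -, h2⟩; exact ⟨h1, h2⟩
    have hC := fun v => H_Cut (n := 1) hN hLP hRQ v
    refine H.congr (H.union (H.inter (hFv v) (hC v).not)
      (H.inter (hC v).not (H.exists_fintype _ fun v' => H.cat (hXX v v')
        (H.inter (hFv v') (hC v').not)))) fun w => ?_
    exact (base_iff hne hpc hRne cc F v w).symm

section readoff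

variable {S : Type*} [Monoid S] [AddCommGroup V] (φ : α → S) (act : V → S → V) (nu : List α → V)

theorem run_affine (hadd : ∀ v v' s, act (v + v') s = act v s + act v' s) (h1 : ∀ v, act v 1 = v)
    (hmul : ∀ v s t, act v (s * t) = act (act v s) t)
    (hT : ∀ X ∈ XX, ∀ v, T v X = act v (X.map φ).prod + nu X) (w : List α) :
    ∃ (t : S) (D : V) (u : List α), t * (u.map φ).prod = (w.map φ).prod ∧
      ∀ v, run (step XX T) w ([], v) = (u, act v t + D) := by
  induction w using List.reverseRecOn with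
  | nil => exact ⟨1, 0, [], by simp, fun v => by rw [run_nil, h1, add_zero]⟩
  | append_singleton w c ih =>
    obtain ⟨t, D, u, h, hr⟩ := ih
    have hstep : ∀ v, run (step XX T) (w ++ [c]) ([], v) = step XX T (u, act v t + D) c := by
      intro v
      rw [run_append, hr]
      rfl
    by_cases hx : u ++ [c] ∈ XX
    · refine ⟨t * ((u ++ [c]).map φ).prod, act D ((u ++ [c]).map φ).prod + nu (u ++ [c]), [],
        ?_, fun v => ?_⟩
      · simp only [List.map_nil, List.prod_nil, mul_one, List.map_append, List.prod_append,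
          List.map_cons, ← h]
        rw [mul_assoc]
      · rw [hstep]
        unfold step
        rw [if_pos hx, hT _ hx, hadd, ← hmul, add_assoc]
    · refine ⟨t, D, u ++ [c], ?_, fun v => ?_⟩
      · simp only [List.map_nil, List.map_append, List.prod_append, List.map_cons, ← h]
        rw [mul_assoc]
      · rw [hstep]
        unfold step
        rw [if_neg hx]

theorem top1 [Finite V] [Finite S] (hadd : ∀ v v' s, act (v + v') s = act v s + act v' s)
    (h1 : ∀ v, act v 1 = v)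
    (hmul : ∀ v s t, act v (s * t) = act (act v s) t)
    (hfaith : ∀ s t, (∀ v, act v s = act v t) → s = t)
    (hT : ∀ X ∈ XX, ∀ v, T v X = act v (X.map φ).prod + nu X)
    (hne : ([] : List α) ∉ XX)
    (hpc : ∀ P Q, P ∈ XX → P ++ Q ∈ XX → Q = [])
    (hRne : ∀ j < 2, ∀ b, ([] : List α) ∉ RQ j b)
    (hfun : ∀ j < 2, ∀ b b' Q, Q ∈ RQ j b → Q ∈ RQ j b' → b = b')
    (s1 : ∀ v b P Q, P ∈ LP 0 v → Q ∈ RQ 0 b → P ++ Q ∈ XX ∧ T v (P ++ Q) = b)
    (s2 : S2 XX T LP RQ) (cc : CC XX LP RQ)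
    (hXX : ∀ v v', H 1 ({X | X ∈ XX ∧ T v X = v'} : Language α))
    (hLP : ∀ j < 2, ∀ v, H 1 (LP j v)) (hRQ : ∀ j < 2, ∀ b, H 1 (RQ j b))
    (hU : ∀ s, H 1 ({u | NX XX u ∧ (u.map φ).prod = s} : Language α)) (s : S) :
    H 3 ({w | (w.map φ).prod = s} : Language α) := by
  have hN : H 1 ({u | NX XX u} : Language α) := by
    refine H.congr (H.exists_fintype _ fun s => hU s) fun u => ?_
    constructor
    · rintro ⟨s, h, -⟩; exact h
    · intro h; exact ⟨_, h, rfl⟩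
  have key : ∀ (v v' : V) (s' : S), H 3 ({w | run (step XX T) w ([], v) ∈
      ({p | p.2 = v' ∧ (p.1.map φ).prod = s'} : Set (List α × V))} : Language α) := by
    intro v v' s'
    refine top0 hne hpc hRne hfun s1 s2 cc hXX hN hLP hRQ v _ fun v'' => ?_
    refine H.congr (H.inter (H.const 1 (v'' = v')) (hU s')) fun u => ?_
    constructor
    · rintro ⟨h1, h2, h3⟩; exact ⟨h2, h1, h3⟩
    · rintro ⟨h1, h2, h3⟩; exact ⟨h2, h1, h3⟩
  have h0 : ∀ t, act 0 t = 0 := by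
    intro t
    have := hadd 0 0 t
    rw [add_zero] at this
    simpa using this
  refine H.congr (H.exists_fintype _ fun s' : S => H.exists_fintype _ fun c : V =>
    H.exists_fintype (fun t : S => ({w | w ∈ ({_w | t * s' = s} : Language α) ∧
      w ∈ ({w | ∀ v, w ∈ ({w | run (step XX T) w ([], v) ∈
      ({p | p.2 = act v t + c ∧ (p.1.map φ).prod = s'} : Set (List α × V))} : Language α)} : Language α)} : Language α))
      fun t => H.inter (H.const 3 (t * s' = s)) (H.forall_fintype _ fun v => key v _ s')) fun w => ?_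
  obtain ⟨t₀, D, u, hw, hr⟩ := run_affine φ act nu hadd h1 hmul hT w
  constructor
  · rintro ⟨s', c, t, hts, hall⟩
    have hall' : ∀ v, act v t₀ + D = act v t + c ∧ (u.map φ).prod = s' := by
      intro v
      have h : run (step XX T) w ([], v) ∈
        ({p | p.2 = act v t + c ∧ (p.1.map φ).prod = s'} : Set (List α × V)) := hall v
      rw [hr v] at h
      exact h
    have hc : D = c := by
      have := (hall' 0).1
      rwa [h0, h0, zero_add, zero_add] at this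
    have htt : t₀ = t := hfaith _ _ fun v => by
      have := (hall' v).1
      rw [hc] at this
      exact add_right_cancel this
    change (w.map φ).prod = s
    rw [← hw, htt, (hall' 0).2]
    exact hts
  · intro h
    refine ⟨(u.map φ).prod, D, t₀, hw.trans h, fun v => ?_⟩
    change run (step XX T) w ([], v) ∈
      ({p | p.2 = act v t₀ + D ∧ (p.1.map φ).prod = (u.map φ).prod} : Set (List α × V))
    rw [hr v]
    exact ⟨rfl, rfl⟩

/-- **TOP** (plan #13253, P1). -/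
theorem top5 [Finite V] [Finite S] (hadd : ∀ v v' s, act (v + v') s = act v s + act v' s)
    (h1 : ∀ v, act v 1 = v)
    (hmul : ∀ v s t, act v (s * t) = act (act v s) t)
    (hfaith : ∀ s t, (∀ v, act v s = act v t) → s = t)
    (hT : ∀ X ∈ XX, ∀ v, T v X = act v (X.map φ).prod + nu X)
    (hne : ([] : List α) ∉ XX)
    (hpc : ∀ P Q, P ∈ XX → P ++ Q ∈ XX → Q = [])
    (hRne : ∀ j < 2, ∀ b, ([] : List α) ∉ RQ j b)
    (s1 : ∀ v b P Q, P ∈ LP 0 v → Q ∈ RQ 0 b → P ++ Q ∈ XX ∧ T v (P ++ Q) = b)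
    (s2 : S2 XX T LP RQ) (cc : CC XX LP RQ)
    (hXX : ∀ v v', H 1 ({X | X ∈ XX ∧ T v X = v'} : Language α))
    (hLP : ∀ j < 2, ∀ v, H 1 (LP j v)) (hRQ : ∀ j < 2, ∀ b, H 1 (RQ j b))
    (hU : ∀ s, H 1 ({u | NX XX u ∧ (u.map φ).prod = s} : Language α)) (s : S) :
    H 3 ({w | (w.map φ).prod = s} : Language α) := by
  classical
  obtain ⟨n, ⟨e⟩⟩ := Finite.exists_equiv_fin V
  -- functional right-legal languages
  let RQ' : ℕ → V → Language α := fun j b => {Q | Q ∈ RQ j b ∧ ∀ b', e b' < e b → ¬ Q ∈ RQ j b'}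
  have hsub : ∀ j b Q, Q ∈ RQ' j b → Q ∈ RQ j b := fun j b Q h => h.1
  have hmin : ∀ j Q, (∃ b, Q ∈ RQ j b) → ∃ b, Q ∈ RQ' j b := by
    rintro j Q ⟨b, hb⟩
    have hex : ∃ k, ∃ b, (e b : ℕ) = k ∧ Q ∈ RQ j b := ⟨_, b, rfl, hb⟩
    obtain ⟨b₁, h2, h3⟩ := Nat.find_spec hex
    refine ⟨b₁, h3, fun b' hlt hb' => ?_⟩
    refine Nat.find_min hex ?_ ⟨b', rfl, hb'⟩
    rw [← h2]
    exact hlt
  refine top1 (LP := LP) (RQ := RQ') φ act nu hadd h1 hmul hfaith hT hne hpc
    (fun j hj b h => hRne j hj b (hsub _ _ _ h)) ?_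
    (fun v b P Q hP hQ => s1 v b P Q hP (hsub _ _ _ hQ)) ?_ ?_ hXX hLP ?_ hU s
  · rintro j hj b b' Q ⟨h2, h3⟩ ⟨h4, h5⟩
    rcases lt_trichotomy (e b) (e b') with h | h | h
    · exact absurd h2 (h5 b h)
    · exact e.injective h
    · exact absurd h4 (h3 b' h)
  · intro v b P Q hNP hP hQ hl
    refine s2 v b P Q hNP hP (hsub _ _ _ hQ) fun x y exy hNx hx hc => ?_
    obtain ⟨Q₁, t, b', e', hQ₁⟩ := hc
    obtain ⟨b₂, hb₂⟩ := hmin 0 Q₁ ⟨b', hQ₁⟩
    exact hl x y exy hNx hx ⟨Q₁, t, b₂, e', hb₂⟩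
  · intro X₁ hX₁ X₂ hX₂ v
    rcases cc X₁ hX₁ X₂ hX₂ v with ⟨P, Q, b, h2, h3, h4⟩ | ⟨P, Q, b, h2, h3, h4, h5⟩
    · obtain ⟨b₂, hb₂⟩ := hmin 0 Q ⟨b, h4⟩
      exact Or.inl ⟨P, Q, b₂, h2, h3, hb₂⟩
    · obtain ⟨b₂, hb₂⟩ := hmin 1 _ ⟨b, h5⟩
      exact Or.inr ⟨P, Q, b₂, h2, h3, h4, hb₂⟩
  · intro j hj b
    refine H.congr (H.inter (hRQ j hj b) (H.forall_fintype (fun b' : V =>
      ({Q | Q ∈ ({_w | e b' < e b} : Language α) → Q ∈ ({Q | ¬ Q ∈ RQ j b'} : Language α)} : Language α))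
      fun b' => H.imp (H.const 1 _) (hRQ j hj b').not)) fun Q => ?_
    exact Iff.rfl

end readoff

end Crest.Agent.R320.Top5_561
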