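import Crest.Agent.R320.StarPr_778
import Crest.Agent.R320.Reg_461

/-! # Row 320: the top theorem for block codes with two schemes (helper778) -/

set_option autoImplicit false
set_option linter.unusedSectionVars false
set_option linter.style.haveILetI false

namespace Crest.Agent.R320.Top5_778

open Crest.RegLang Crest.Agent.R320.Hk_851 Crest.Agent.R320.Step_778
  Crest.Agent.R320.Step2_778 Crest.Agent.R320.StarPr_778

universe u

variable {α : Type u}

theorem common_monoid {ι : Type u} [Finite ι] (L : ι → Language α)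
    (hL : ∀ i, (L i).IsRegular) :
    ∃ (M : Type u) (_ : Monoid M) (_ : Finite M) (μ : α → M), ∀ i w w',
      (w.map μ).prod = (w'.map μ).prod → (w ∈ L i ↔ w' ∈ L i) := by
  choose S mS fS φ P hP using fun i => exists_monoid (L i) (hL i)
  letI : ∀ i, Monoid (S i) := mS
  haveI : ∀ i, Finite (S i) := fS
  refine ⟨∀ i, S i, inferInstance, inferInstance, fun a i => φ i a, ?_⟩
  intro i w w' h
  have key : ∀ w : List α, (w.map (fun a i => φ i a)).prod i = (w.map (φ i)).prod := by
    intro w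
    induction w with
    | nil => rfl
    | cons a w ih => rw [List.map_cons, List.prod_cons, List.map_cons, List.prod_cons,
        Pi.mul_apply, ih]
  rw [hP, hP, ← key, ← key, h]

/-- no prefix of `u` is a block -/
def NoPre (XX : Set (List α)) (u : List α) : Prop := ∀ X ∈ XX, ¬ X <+: u

theorem NoPre.pre {XX : Set (List α)} {u v : List α} (h : NoPre XX (u ++ v)) : NoPre XX u :=
  fun X hX hp => h X hX (hp.trans (List.prefix_append u v))

variable {S V : Type u} [Monoid S] [AddCommGroup V]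

/-- zone map -/
def T (f : α → S) (act : V → S → V) (nu : List α → V) (v : V) (X : List α) : V :=
  act v (X.map f).prod + nu X

/-- thread value -/
def runT (f : α → S) (act : V → S → V) (nu : List α → V) (v : V) (D : List (List α)) : V :=
  D.foldl (T f act nu) v

def Cut1 (LP1 RQ1 : V → Language α) (v : V) (X : List α) : Prop :=
  ∃ P Q b, X = P ++ Q ∧ P ∈ LP1 v ∧ Q ∈ RQ1 b

def Unc (f : α → S) (act : V → S → V) (XX : Set (List α)) (nu : List α → V)
    (LP1 RQ1 : V → Language α) (v : V) (w : List α) : Prop :=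
  ∀ D X, (∀ Y ∈ D, Y ∈ XX) → X ∈ XX → (List.flatten D ++ X) <+: w →
    ¬ Cut1 LP1 RQ1 (runT f act nu v D) X

structure Hyp (f : α → S) (act : V → S → V) (XX : Set (List α)) (nu : List α → V)
    (LP1 LP2 RQ1 RQ2 : V → Language α) (Few : Language α) : Prop where
  act_add : ∀ x y s, act (x + y) s = act x s + act y s
  act_one : ∀ x, act x 1 = x
  act_mul : ∀ x s t, act x (s * t) = act (act x s) t
  faithful : ∀ s t, (∀ x, act x s = act x t) → s = t
  ne : [] ∉ XX
  code : ∀ X ∈ XX, ∀ Y ∈ XX, X <+: Y → X = Y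
  regX : Language.IsRegular ({w | w ∈ XX} : Language α)
  regNu : ∀ c, Language.IsRegular ({w | w ∈ XX ∧ nu w = c} : Language α)
  regL1 : ∀ v, (LP1 v).IsRegular
  regL2 : ∀ v, (LP2 v).IsRegular
  regR1 : ∀ v, (RQ1 v).IsRegular
  regR2 : ∀ v, (RQ2 v).IsRegular
  ne1 : ∀ b, [] ∉ RQ1 b
  ne2 : ∀ b, [] ∉ RQ2 b
  s1 : ∀ v P Q b, P ∈ LP1 v → NoPre XX P → Q ∈ RQ1 b →
    P ++ Q ∈ XX ∧ T f act nu v (P ++ Q) = b
  s2 : ∀ v P Q b, P ∈ LP2 v → NoPre XX P → Q ∈ RQ2 b →
    Unc f act XX nu LP1 RQ1 v (P ++ Q) →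
    ∃ D : List (List α), (∀ X ∈ D, X ∈ XX) ∧ P ++ Q = D.flatten ∧ runT f act nu v D = b
  cc : ∀ v, ∀ X₁ ∈ XX, ∀ X₂ ∈ XX, Cut1 LP1 RQ1 v X₁ ∨
    ∃ P Q b, X₁ = P ++ Q ∧ Q ≠ [] ∧ P ∈ LP2 v ∧ Q ++ X₂ ∈ RQ2 b
  few : Solv 1 Few
  fewI : ∀ (D : List (List α)) (E u : List α), D.length ≤ 4 → (∀ X ∈ D, X ∈ XX) → NoPre XX E →
    u <:+: D.flatten ++ E → u ∈ Few
  few1 : ∀ b, ∀ w ∈ RQ1 b, w ∈ Few
  few2 : ∀ b, ∀ w ∈ RQ2 b, w ∈ Few

section quot

variable {M : Type u} [Monoid M]

/-- the quotient automaton -/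
noncomputable def qd (μ : α → M) (XM : Set M) (TM : V → M → V) (q : M × V) (a : α) : M × V := by
  classical
  exact if q.1 * μ a ∈ XM then (1, TM q.2 (q.1 * μ a)) else (q.1 * μ a, q.2)

def mu (μ : α → M) (w : List α) : M := (w.map μ).prod

theorem mu_append (μ : α → M) (u v : List α) : mu μ (u ++ v) = mu μ u * mu μ v := by
  simp [mu]

theorem mu_snoc (μ : α → M) (u : List α) (a : α) : mu μ (u ++ [a]) = mu μ u * μ a := by
  simp [mu]

variable {μ : α → M} {XM : Set M} {TM : V → M → V} {XX : Set (List α)} {TT : V → List α → V}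

theorem qd_pos {q : M × V} {a : α} (h : q.1 * μ a ∈ XM) :
    qd μ XM TM q a = (1, TM q.2 (q.1 * μ a)) := by
  classical
  unfold qd
  rw [if_pos h]

theorem qd_neg {q : M × V} {a : α} (h : q.1 * μ a ∉ XM) :
    qd μ XM TM q a = (q.1 * μ a, q.2) := by
  classical
  unfold qd
  rw [if_neg h]

/-- hypotheses on the quotient -/
structure QH (μ : α → M) (XM : Set M) (TM : V → M → V) (XX : Set (List α))
    (TT : V → List α → V) : Prop where
  ne : [] ∉ XX
  code : ∀ X ∈ XX, ∀ Y ∈ XX, X <+: Y → X = Y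
  mem : ∀ X, mu μ X ∈ XM ↔ X ∈ XX
  val : ∀ v, ∀ X ∈ XX, TM v (mu μ X) = TT v X

theorem QH.np (h : QH μ XM TM XX TT) : NoPre XX ([] : List α) := by
  intro X hX hp
  have : X = [] := List.prefix_nil.1 hp
  exact h.ne (this ▸ hX)

theorem QH.np_of_lt (h : QH μ XM TM XX TT) {X Y : List α} (hX : X ++ Y ∈ XX) (hY : Y ≠ []) :
    NoPre XX X := by
  intro Z hZ hp
  have h1 := h.code Z hZ _ hX (hp.trans (List.prefix_append X Y))
  subst h1
  have h2 := hp.length_le
  rw [List.length_append] at h2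
  have := List.length_pos_iff.2 hY
  omega

theorem QH.run_np (h : QH μ XM TM XX TT) : ∀ (w P : List α) (v : V), NoPre XX (P ++ w) →
    run (qd μ XM TM) (mu μ P, v) w = (mu μ (P ++ w), v) := by
  intro w
  induction w with
  | nil => intro P v _; simp
  | cons a w ih =>
    intro P v hp
    have e : P ++ a :: w = (P ++ [a]) ++ w := by simp
    have h1 : mu μ P * μ a ∉ XM := by
      rw [← mu_snoc]
      intro hm
      rw [e] at hp
      exact hp _ ((h.mem _).1 hm) (List.prefix_append _ _)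
    change run (qd μ XM TM) (qd μ XM TM (mu μ P, v) a) w = _
    rw [qd_neg h1, ← mu_snoc, ih (P ++ [a]) v (by rwa [← e]), ← e]

theorem QH.run_block (h : QH μ XM TM XX TT) : ∀ (w P : List α) (v : V), w ≠ [] →
    P ++ w ∈ XX → run (qd μ XM TM) (mu μ P, v) w = (1, TT v (P ++ w)) := by
  intro w P v hw hX
  obtain ⟨w', a, rfl⟩ : ∃ w' a, w = w' ++ [a] := ⟨w.dropLast, w.getLast hw,
    (List.dropLast_append_getLast hw).symm⟩
  have e : P ++ (w' ++ [a]) = (P ++ w') ++ [a] := by simp
  have h1 : NoPre XX (P ++ w') := h.np_of_lt (Y := [a]) (by rwa [← e]) (by simp)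
  rw [run_append, h.run_np w' P v h1]
  change qd μ XM TM (mu μ (P ++ w'), v) a = _
  have h2 : (mu μ (P ++ w'), v).1 * μ a ∈ XM := by
    change mu μ (P ++ w') * μ a ∈ XM
    rw [← mu_snoc, h.mem, ← e]; exact hX
  rw [qd_pos h2]
  change (1, TM v (mu μ (P ++ w') * μ a)) = _
  rw [← mu_snoc, ← e, h.val v _ hX]

theorem QH.run_flatten (h : QH μ XM TM XX TT) : ∀ (D : List (List α)) (v : V),
    (∀ X ∈ D, X ∈ XX) → run (qd μ XM TM) (1, v) D.flatten = (1, D.foldl TT v) := by
  intro D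
  induction D with
  | nil => intro v _; rfl
  | cons X D ih =>
    intro v hD
    have hX : X ∈ XX := hD X (by simp)
    have hne : X ≠ [] := fun h0 => h.ne (h0 ▸ hX)
    have h1 := h.run_block X [] v hne (by simpa using hX)
    have h2 : mu μ ([] : List α) = 1 := by simp [mu]
    rw [h2] at h1
    rw [List.flatten_cons, run_append, h1, List.nil_append, List.foldl_cons]
    exact ih _ fun Y hY => hD Y (by simp [hY])

/-- parse -/
theorem QH.parse (h : QH μ XM TM XX TT) : ∀ (n : ℕ) (w : List α), w.length ≤ n →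
    ∃ (D : List (List α)) (E : List α), (∀ X ∈ D, X ∈ XX) ∧ NoPre XX E ∧ w = D.flatten ++ E := by
  intro n
  induction n with
  | zero =>
    intro w hw
    have : w = [] := List.length_eq_zero_iff.1 (Nat.le_zero.1 hw)
    subst this
    exact ⟨[], [], by simp, h.np, rfl⟩
  | succ n ih =>
    intro w hw
    by_cases hp : NoPre XX w
    · exact ⟨[], w, by simp, hp, rfl⟩
    · unfold NoPre at hp
      push Not at hp
      obtain ⟨X, hX, w', rfl⟩ := hp
      have hne : X ≠ [] := fun h0 => h.ne (h0 ▸ hX)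
      have hl := List.length_pos_iff.2 hne
      obtain ⟨D, E, h1, h2, h3⟩ := ih w' (by rw [List.length_append] at hw; omega)
      refine ⟨X :: D, E, ?_, h2, by rw [h3]; simp⟩
      intro Y hY
      rcases List.mem_cons.1 hY with rfl | hY
      · exact hX
      · exact h1 Y hY

theorem QH.run_parse (h : QH μ XM TM XX TT) (D : List (List α)) (E : List α) (v : V)
    (hD : ∀ X ∈ D, X ∈ XX) (hE : NoPre XX E) :
    run (qd μ XM TM) (1, v) (D.flatten ++ E) = (mu μ E, D.foldl TT v) := by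
  rw [run_append, h.run_flatten D v hD]
  have h2 : mu μ ([] : List α) = 1 := by simp [mu]
  have := h.run_np E [] (D.foldl TT v) (by simpa using hE)
  rw [h2] at this
  simpa using this

theorem QH.run_one (h : QH μ XM TM XX TT) (P w : List α) (v : V) (hP : NoPre XX P) :
    run (qd μ XM TM) (mu μ P, v) w = run (qd μ XM TM) (1, v) (P ++ w) := by
  rw [run_append]
  have h2 : mu μ ([] : List α) = 1 := by simp [mu]
  have := h.run_np P [] v (by simpa using hP)
  rw [h2] at this
  rw [this, List.nil_append]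

end quot

theorem reg_iUnion {ι : Type u} [Finite ι] (L : ι → Language α) (hL : ∀ i, (L i).IsRegular) :
    Language.IsRegular ({w | ∃ i, w ∈ L i} : Language α) := by
  obtain ⟨M, _, _, μ, h⟩ := common_monoid L hL
  have := regular_fibre M μ {m | ∃ i w, w ∈ L i ∧ (w.map μ).prod = m}
  have e : ({w | (w.map μ).prod ∈ {m | ∃ i w, w ∈ L i ∧ (w.map μ).prod = m}} : Language α)
      = {w | ∃ i, w ∈ L i} := by
    ext w
    constructor
    · rintro ⟨i, w', hw', e⟩
      exact ⟨i, (h i w' w e).1 hw'⟩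
    · rintro ⟨i, hw⟩
      exact ⟨i, w, hw, rfl⟩
  rwa [e] at this

theorem runT_aff {f : α → S} {act : V → S → V} {nu : List α → V}
    (act_add : ∀ x y s, act (x + y) s = act x s + act y s) (act_one : ∀ x, act x 1 = x)
    (act_mul : ∀ x s t, act x (s * t) = act (act x s) t) :
    ∀ (D : List (List α)) (x y : V), D.foldl (T f act nu) (x + y) =
      act x (D.flatten.map f).prod + D.foldl (T f act nu) y := by
  intro D
  induction D with
  | nil => intro x y; simp [act_one]
  | cons X D ih =>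
    intro x y
    have e : T f act nu (x + y) X = act x (X.map f).prod + T f act nu y X := by
      unfold T; rw [act_add]; abel
    rw [List.foldl_cons, List.foldl_cons, e, ih, List.flatten_cons, List.map_append,
      List.prod_append, act_mul]

/-- **the top theorem**: two schemes on a block code of unbounded blocks, one token system -/
theorem top5 [Finite S] [Finite V] {f : α → S} {act : V → S → V} {XX : Set (List α)}
    {nu : List α → V} {LP1 LP2 RQ1 RQ2 : V → Language α} {Few : Language α}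
    (H : Hyp f act XX nu LP1 LP2 RQ1 RQ2 Few) (s : S) :
    HL 3 ({w | (w.map f).prod = s} : Language α) := by
  classical
  -- the common monoid
  let CutL : V → Language α := fun v => {w | ∃ b, w ∈ LP1 v * RQ1 b}
  have hCutL : ∀ v w, w ∈ CutL v ↔ Cut1 LP1 RQ1 v w := by
    intro v w
    constructor
    · rintro ⟨b, hb⟩
      obtain ⟨P, hP, Q, hQ, rfl⟩ := Language.mem_mul.1 hb
      exact ⟨P, Q, b, rfl, hP, hQ⟩
    · rintro ⟨P, Q, b, rfl, hP, hQ⟩
      exact ⟨b, Language.mem_mul.2 ⟨P, hP, Q, hQ, rfl⟩⟩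
  have hCutR : ∀ v, (CutL v).IsRegular := fun v =>
    reg_iUnion _ fun b => FO_461.regular_mul (H.regL1 v) (H.regR1 b)
  let Lf : Option (V × ULift.{u} (Fin 4)) → Language α := fun o =>
    match o with
    | none => {w | w ∈ XX}
    | some (v, ⟨0⟩) => {w | w ∈ XX ∧ nu w = v}
    | some (v, ⟨1⟩) => LP1 v
    | some (v, ⟨2⟩) => LP2 v
    | some (v, ⟨3⟩) => CutL v
  have hLf : ∀ o, (Lf o).IsRegular := by
    intro o
    match o with
    | none => exact H.regX
    | some (v, ⟨0⟩) => exact H.regNu v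
    | some (v, ⟨1⟩) => exact H.regL1 v
    | some (v, ⟨2⟩) => exact H.regL2 v
    | some (v, ⟨3⟩) => exact hCutR v
  obtain ⟨M0, _, _, μ0, hμ0⟩ := common_monoid Lf hLf
  let μ : α → M0 × S := fun a => (μ0 a, f a)
  have hmu : ∀ w, mu μ w = ((w.map μ0).prod, (w.map f).prod) := by
    intro w
    induction w with
    | nil => rfl
    | cons a w ih =>
      have e : mu μ (a :: w) = μ a * mu μ w := by simp [mu]
      rw [e, ih, List.map_cons, List.prod_cons, List.map_cons, List.prod_cons]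
      rfl
  have hrec : ∀ o w w', mu μ w = mu μ w' → (w ∈ Lf o ↔ w' ∈ Lf o) := by
    intro o w w' h
    rw [hmu, hmu] at h
    exact hμ0 o w w' (Prod.ext_iff.1 h).1
  have hX : ∀ w w', mu μ w = mu μ w' → (w ∈ XX ↔ w' ∈ XX) := fun w w' h => hrec none w w' h
  have hN : ∀ c w w', mu μ w = mu μ w' → ((w ∈ XX ∧ nu w = c) ↔ (w' ∈ XX ∧ nu w' = c)) :=
    fun c w w' h => hrec (some (c, ⟨0⟩)) w w' h
  have hL1 : ∀ v w w', mu μ w = mu μ w' → (w ∈ LP1 v ↔ w' ∈ LP1 v) :=
    fun v w w' h => hrec (some (v, ⟨1⟩)) w w' h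
  have hL2 : ∀ v w w', mu μ w = mu μ w' → (w ∈ LP2 v ↔ w' ∈ LP2 v) :=
    fun v w w' h => hrec (some (v, ⟨2⟩)) w w' h
  have hC : ∀ v w w', mu μ w = mu μ w' → (Cut1 LP1 RQ1 v w ↔ Cut1 LP1 RQ1 v w') := by
    intro v w w' h
    rw [← hCutL, ← hCutL]
    exact hrec (some (v, ⟨3⟩)) w w' h
  let XM : Set (M0 × S) := {m | ∃ X ∈ XX, mu μ X = m}
  let nuM : M0 × S → V := fun m => if h : ∃ X, X ∈ XX ∧ mu μ X = m then nu h.choose else 0
  let TM : V → M0 × S → V := fun v m => act v m.2 + nuM m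
  have hQ : QH μ XM TM XX (T f act nu) := by
    refine ⟨H.ne, H.code, ?_, ?_⟩
    · intro X
      constructor
      · rintro ⟨Y, hY, e⟩
        exact (hX Y X e).1 hY
      · intro h; exact ⟨X, h, rfl⟩
    · intro v X hXX
      have hex : ∃ Y, Y ∈ XX ∧ mu μ Y = mu μ X := ⟨X, hXX, rfl⟩
      have h1 : nuM (mu μ X) = nu hex.choose := dif_pos hex
      have h2 := (hN (nu hex.choose) _ _ hex.choose_spec.2).1 ⟨hex.choose_spec.1, rfl⟩
      change act v (mu μ X).2 + nuM (mu μ X) = act v (X.map f).prod + nu X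
      rw [h1, ← h2.2, hmu X]
  let δ := qd μ XM TM
  let Ok : Set ((M0 × S) × V) := {q | ∃ P, NoPre XX P ∧ mu μ P = q.1}
  have mu0 : mu μ ([] : List α) = 1 := by simp [mu]
  have hok1 : ∀ v : V, ((1 : M0 × S), v) ∈ Ok := fun v => ⟨[], hQ.np, mu0⟩
  have ok : ∀ q ∈ Ok, ∀ a, δ q a ∈ Ok := by
    rintro ⟨m, v⟩ ⟨P, hP, hm⟩ a
    change mu μ P = m at hm
    subst hm
    by_cases h : mu μ P * μ a ∈ XM
    · have : δ (mu μ P, v) a = (1, TM v (mu μ P * μ a)) := qd_pos h
      rw [this]; exact hok1 _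
    · have e : δ (mu μ P, v) a = (mu μ P * μ a, v) := qd_neg h
      rw [e]
      refine ⟨P ++ [a], ?_, mu_snoc μ P a⟩
      intro X hXX hp
      rcases List.prefix_concat_iff.1 hp with h1 | h1
      · apply h
        rw [← mu_snoc, ← h1]
        exact (hQ.mem X).2 hXX
      · exact hP X hXX h1
  have okr : ∀ (w : List α), ∀ q ∈ Ok, run δ q w ∈ Ok := by
    intro w
    induction w with
    | nil => intro q hq; exact hq
    | cons a w ih => intro q hq; exact ih _ (ok q hq a)
  -- few languages have height one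
  have hfewL : ∀ L : Language α, L.IsRegular → (∀ w ∈ L, w ∈ Few) → HL 1 L := by
    intro L hL hF
    obtain ⟨E, h1, h2, h3⟩ := H.few L hL
    exact h1.congr fun w => ⟨fun hw => h3 w hw (hF w hw), fun hw => h2 w hw⟩
  have hfewR : ∀ p p' : (M0 × S) × V, ∃ E : Language α, HL 1 E ∧ (∀ w ∈ E, run δ p w = p') ∧
      ∀ w, run δ p w = p' → w ∈ Few → w ∈ E := by
    intro p p'
    obtain ⟨E, h1, h2, h3⟩ := H.few _ (regular_run δ p {p'})
    exact ⟨E, h1, fun w hw => h2 w hw, fun w hw hg => h3 w hw hg⟩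
  -- the promise
  let CM : V → M0 × S → Prop := fun v m => ∃ X ∈ XX, mu μ X = m ∧ Cut1 LP1 RQ1 v X
  have hCM : ∀ v, ∀ X ∈ XX, CM v (mu μ X) ↔ Cut1 LP1 RQ1 v X := by
    intro v X _
    constructor
    · rintro ⟨Y, _, e, h⟩
      exact (hC v Y X e).1 h
    · intro h; exact ⟨X, ‹_›, rfl, h⟩
  let Pr : (M0 × S) × V → List α → Prop := fun q w => ∀ x a y, x ++ a :: y = w →
    (run δ q x).1 * μ a ∈ XM → ¬ CM (run δ q x).2 ((run δ q x).1 * μ a)
  have pre : ∀ q x y, Pr q (x ++ y) → Pr q x := by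
    intro q x y h a b c e
    exact h a b (c ++ y) (by rw [← e]; simp)
  have suf : ∀ q x y, Pr q (x ++ y) → Pr (run δ q x) y := by
    intro q x y h a b c e
    have := h (x ++ a) b c (by rw [← e]; simp)
    rwa [run_append] at this
  have split_last : ∀ X ∈ XX, ∃ X0 a, X = X0 ++ [a] ∧ NoPre XX X0 := by
    intro X hXX
    have hXne : X ≠ [] := fun h0 => H.ne (h0 ▸ hXX)
    refine ⟨X.dropLast, X.getLast hXne, (List.dropLast_append_getLast hXne).symm, ?_⟩
    refine hQ.np_of_lt (Y := [X.getLast hXne]) ?_ (by simp)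
    rwa [List.dropLast_append_getLast hXne]
  -- the promise gives `Unc`
  have hUnc : ∀ P v t, NoPre XX P → Pr (mu μ P, v) t →
      Unc f act XX nu LP1 RQ1 v (P ++ t) := by
    intro P v t hP hpr D X hD hXX hpref hcut
    obtain ⟨X0, a, rfl, hX0⟩ := split_last X hXX
    obtain ⟨y, hy⟩ := hpref
    have hlen : P.length ≤ (D.flatten ++ X0).length := by
      by_contra hlt
      push Not at hlt
      have hp : (D.flatten ++ (X0 ++ [a])) <+: P := by
        refine List.prefix_of_prefix_length_le (l₃ := P ++ t) ⟨y, hy⟩ (List.prefix_append P t) ?_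
        simp only [List.length_append, List.length_singleton] at hlt ⊢
        omega
      cases D with
      | nil => exact hP _ hXX (by simpa using hp)
      | cons D1 D' =>
        refine hP D1 (hD D1 (by simp)) (List.IsPrefix.trans ⟨D'.flatten ++ (X0 ++ [a]), ?_⟩ hp)
        simp
    have hy2 : (D.flatten ++ X0) ++ (a :: y) = P ++ t := by rw [← hy]; simp
    obtain ⟨x1, e1, e2⟩ : ∃ x1, D.flatten ++ X0 = P ++ x1 ∧ t = x1 ++ a :: y := by
      rcases List.append_eq_append_iff.1 hy2 with ⟨c, h1, h2⟩ | ⟨c, h1, h2⟩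
      · have hc : c = [] := by
          have := congrArg List.length h1
          rw [List.length_append] at this
          exact List.length_eq_zero_iff.1 (by omega)
        subst hc
        exact ⟨[], by simpa using h1.symm, by simpa using h2.symm⟩
      · exact ⟨c, h1, h2⟩
    have hr : run δ (mu μ P, v) x1 = (mu μ X0, D.foldl (T f act nu) v) := by
      rw [hQ.run_one P x1 v hP, ← e1]
      exact hQ.run_parse D X0 v hD hX0
    have h3 := hpr x1 a y e2.symm
    rw [hr] at h3
    change mu μ X0 * μ a ∈ XM → ¬ CM (D.foldl (T f act nu) v) (mu μ X0 * μ a) at h3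
    rw [← mu_snoc] at h3
    exact h3 ((hQ.mem _).2 hXX) ((hCM _ _ hXX).2 hcut)
  -- scheme 2
  let LL2 : Set ((M0 × S) × V) := {q | ∃ P ∈ LP2 q.2, mu μ P = q.1}
  let RR2 : (M0 × S) × V → Language α := fun q => {w | q.1 = 1 ∧ w ∈ RQ2 q.2}
  have hRR2 : ∀ q, HL 1 (RR2 q) := by
    intro q
    by_cases hq : q.1 = 1
    · exact (hfewL _ (H.regR2 q.2) (H.few2 q.2)).congr fun w => ⟨fun h => h.2, fun h => ⟨hq, h⟩⟩
    · exact HL.zero.congr fun w => ⟨fun h => (hq h.1).elim, fun h => h.elim⟩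
  have hs2 : ∀ q ∈ Ok, ∀ x t q', run δ q x ∈ LL2 → t ∈ RR2 q' → Pr q (x ++ t) →
      run δ q (x ++ t) = q' := by
    intro q hq x t q' hx ht hp
    have h1 := okr x q hq
    rw [run_append]
    have hp' := suf _ _ _ hp
    generalize run δ q x = r at h1 hp' hx
    obtain ⟨m, v⟩ := r
    obtain ⟨P, hP, hm⟩ := h1
    change mu μ P = m at hm
    subst hm
    obtain ⟨P', hP', e⟩ := hx
    have hPL : P ∈ LP2 v := (hL2 v P' P e).1 hP'
    obtain ⟨D, hD, hD1, hD2⟩ := H.s2 v P t q'.2 hPL hP ht.2 (hUnc P v t hP hp')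
    have e3 : run δ (mu μ P, v) t = (1, D.foldl (T f act nu) v) := by
      rw [hQ.run_one P t v hP, hD1]
      exact hQ.run_flatten D v hD
    rw [e3]
    exact Prod.ext ht.1.symm hD2
  -- decomposition of the first block
  have first : ∀ (P w X R : List α), NoPre XX P → X ∈ XX → P ++ w = X ++ R →
      ∃ t, X = P ++ t ∧ w = t ++ R ∧ t ≠ [] := by
    intro P w X R hP hXX e
    rcases List.append_eq_append_iff.1 e with ⟨c, h1, h2⟩ | ⟨c, h1, h2⟩
    · refine ⟨c, h1, h2, ?_⟩
      rintro rfl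
      exact hP X hXX (by rw [h1]; simp)
    · exact absurd (⟨c, h1.symm⟩ : X <+: P) (hP X hXX)
  have hc2 : ∀ p ∈ Ok, ∀ p', ∃ E : Language α, HL 1 E ∧ (∀ w ∈ E, run δ p w = p') ∧
      ∀ w, run δ p w = p' → Pr p w →
        (∀ x t y q', x ++ t ++ y = w → run δ p x ∈ LL2 → t ∉ RR2 q') → w ∈ E := by
    intro p hp p'
    obtain ⟨E, h1, h2, h3⟩ := hfewR p p'
    refine ⟨E, h1, h2, fun w hw hpr hun => h3 w hw ?_⟩
    obtain ⟨m, v⟩ := p
    obtain ⟨P, hP, hm⟩ := hp
    change mu μ P = m at hm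
    subst hm
    obtain ⟨D, E', hD, hE', hpar⟩ := hQ.parse _ (P ++ w) le_rfl
    have hDl : D.length ≤ 2 := by
      by_contra hlt
      push Not at hlt
      match D, hlt with
      | X1 :: X2 :: X3 :: D', _ =>
        have hX1 : X1 ∈ XX := hD X1 (by simp)
        have hX2 : X2 ∈ XX := hD X2 (by simp)
        have hX3 : X3 ∈ XX := hD X3 (by simp)
        obtain ⟨t1, e1, e2, e3⟩ := first P w X1 (X2 ++ (X3 ++ (D'.flatten ++ E'))) hP hX1 (by
          rw [hpar]; simp)
        have hr1 : run δ (mu μ P, v) t1 = (1, T f act nu v X1) := by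
          rw [e1]
          exact hQ.run_block t1 P v e3 (by rw [← e1]; exact hX1)
        rcases H.cc (T f act nu v X1) X2 hX2 X3 hX3 with hcut | ⟨P2, Q2, b, e4, hQn, hP2, hQ2⟩
        · obtain ⟨X0, a, rfl, hX0⟩ := split_last X2 hX2
          have h5 := hpr (t1 ++ X0) a (X3 ++ (D'.flatten ++ E')) (by rw [e2]; simp)
          have hr2 : run δ (mu μ P, v) (t1 ++ X0) = (mu μ X0, T f act nu v X1) := by
            rw [run_append, hr1]
            have := hQ.run_parse [] X0 (T f act nu v X1) (by simp) hX0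
            simpa using this
          rw [hr2] at h5
          change mu μ X0 * μ a ∈ XM → ¬ CM (T f act nu v X1) (mu μ X0 * μ a) at h5
          rw [← mu_snoc] at h5
          exact h5 ((hQ.mem _).2 hX2) ((hCM _ _ hX2).2 hcut)
        · have hQne : Q2 ++ X3 ≠ [] := fun h0 => H.ne2 b (h0 ▸ hQ2)
          have hP2np : NoPre XX P2 := hQ.np_of_lt (Y := Q2) (by rw [← e4]; exact hX2) hQn
          refine hun (t1 ++ P2) (Q2 ++ X3) (D'.flatten ++ E') (1, b) ?_ ?_ ⟨rfl, hQ2⟩
          · rw [e2, e4]; simp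
          · have hr2 : run δ (mu μ P, v) (t1 ++ P2) = (mu μ P2, T f act nu v X1) := by
              rw [run_append, hr1]
              have := hQ.run_parse [] P2 (T f act nu v X1) (by simp) hP2np
              simpa using this
            rw [hr2]
            exact ⟨P2, hP2, rfl⟩
    exact H.fewI D E' w (by omega) hD hE' ⟨P, [], by rw [← hpar]; simp⟩
  obtain ⟨W2, hW2, hW2'⟩ := star_pr (h := 1) δ Ok LL2 Pr RR2 ok pre suf hRR2
    (fun q t ht h0 => H.ne2 q.2 (h0 ▸ ht.2)) hs2 hc2
  -- first failure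
  let DD : V → Language α := fun v => {w | w ∈ XX ∧ w ∈ CutL v}
  have hDD : ∀ v, HL 1 (DD v) := fun v => hfewL _ (H.regX.inf (hCutR v)) fun w hw =>
    H.fewI [w] [] w (by simp) (by
      intro X hX
      rw [List.mem_singleton] at hX
      rw [hX]; exact hw.1) hQ.np ⟨[], [], by simp⟩
  have hPL : ∀ v0 : V, HL 2 ({w | Pr (1, v0) w} : Language α) := by
    intro v0
    let BB : Language α := {w | ∃ v' : V, w ∈ W2 (1, v0) (1, v') * (DD v' * ⊤)}
    have hBB : HL 2 BB := HL.iUnion fun v' =>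
      (hW2 _ _).mul (((hDD v').mono (by norm_num)).mul HL.top)
    refine hBB.compl.congr fun w => ?_
    constructor
    · intro hpr hw
      obtain ⟨v', hv'⟩ := hw
      obtain ⟨x, hx, z, hz, rfl⟩ := Language.mem_mul.1 hv'
      obtain ⟨X, hXD, y, -, rfl⟩ := Language.mem_mul.1 hz
      have hpr' : Pr (1, v0) (x ++ (X ++ y)) := hpr
      have h1 : run δ (1, v0) x = (1, v') := (hW2' _ (hok1 v0) x (pre _ _ _ hpr') _).1 hx
      obtain ⟨X0, a, rfl, hX0⟩ := split_last X hXD.1
      have h5 := hpr' (x ++ X0) a y (by simp)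
      have hr2 : run δ (1, v0) (x ++ X0) = (mu μ X0, v') := by
        rw [run_append, h1]
        have := hQ.run_parse [] X0 v' (by simp) hX0
        simpa using this
      rw [hr2] at h5
      change mu μ X0 * μ a ∈ XM → ¬ CM v' (mu μ X0 * μ a) at h5
      rw [← mu_snoc] at h5
      exact h5 ((hQ.mem _).2 hXD.1) ((hCM _ _ hXD.1).2 ((hCutL _ _).1 hXD.2))
    · intro hn
      change Pr (1, v0) w
      by_contra hpr
      have hex : ∃ n, ∃ x a y, x ++ a :: y = w ∧ (run δ (1, v0) x).1 * μ a ∈ XM ∧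
          CM (run δ (1, v0) x).2 ((run δ (1, v0) x).1 * μ a) ∧ x.length = n := by
        by_contra hno
        exact hpr fun x a y e hm hc => hno ⟨_, x, a, y, e, hm, hc, rfl⟩
      have hmin := fun m (hm : m < Nat.find hex) => Nat.find_min hex hm
      obtain ⟨x, a, y, h1, h2, h3, h4⟩ := Nat.find_spec hex
      have hprx : Pr (1, v0) x := by
        intro x1 a1 y1 e1 hm1 hc1
        refine hmin x1.length ?_ ⟨x1, a1, y1 ++ a :: y, ?_, hm1, hc1, rfl⟩
        · rw [← h4, ← e1, List.length_append, List.length_cons]; omega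
        · rw [← h1, ← e1]; simp
      obtain ⟨D, E, hD, hE, hxe⟩ := hQ.parse _ x le_rfl
      subst hxe
      have hr : run δ (1, v0) (D.flatten ++ E) = (mu μ E, D.foldl (T f act nu) v0) :=
        hQ.run_parse D E v0 hD hE
      rw [hr] at h2 h3
      change mu μ E * μ a ∈ XM at h2
      change CM (D.foldl (T f act nu) v0) (mu μ E * μ a) at h3
      rw [← mu_snoc] at h2 h3
      have hEX : E ++ [a] ∈ XX := (hQ.mem _).1 h2
      have hcut := (hCM _ _ hEX).1 h3
      refine hn ⟨D.foldl (T f act nu) v0, Language.mem_mul.2 ⟨D.flatten, ?_, (E ++ [a]) ++ y,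
        Language.mem_mul.2 ⟨E ++ [a], ⟨hEX, (hCutL _ _).2 hcut⟩, y, trivial, rfl⟩, ?_⟩⟩
      · exact (hW2' _ (hok1 v0) _ (pre _ _ _ hprx) _).2 (hQ.run_flatten D v0 hD)
      · rw [← h1]; simp
  have hU : ∀ (v' : V) (p' : (M0 × S) × V),
      HL 2 ({w | Pr (1, v') w ∧ run δ (1, v') w = p'} : Language α) := fun v' p' =>
    ((hPL v').inf (hW2 (1, v') p')).congr fun w =>
      ⟨fun h => ⟨h.1, (hW2' _ (hok1 v') w h.1 p').2 h.2⟩,
       fun h => ⟨h.1, (hW2' _ (hok1 v') w h.1 p').1 h.2⟩⟩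
  -- scheme 1
  let LL1 : Set ((M0 × S) × V) := {q | ∃ P ∈ LP1 q.2, mu μ P = q.1}
  let RR1 : (M0 × S) × V → Language α := fun q => {w | q.1 = 1 ∧ w ∈ RQ1 q.2}
  have hRR1 : ∀ q, HL 2 (RR1 q) := by
    intro q
    by_cases hq : q.1 = 1
    · exact ((hfewL _ (H.regR1 q.2) (H.few1 q.2)).mono (by norm_num)).congr fun w =>
        ⟨fun h => h.2, fun h => ⟨hq, h⟩⟩
    · exact HL.zero.congr fun w => ⟨fun h => (hq h.1).elim, fun h => h.elim⟩
  have hs1 : ∀ q ∈ Ok, ∀ x t q', run δ q x ∈ LL1 → t ∈ RR1 q' → True →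
      run δ q (x ++ t) = q' := by
    intro q hq x t q' hx ht _
    have h1 := okr x q hq
    rw [run_append]
    generalize run δ q x = r at h1 hx
    obtain ⟨m, v⟩ := r
    obtain ⟨P, hP, hm⟩ := h1
    change mu μ P = m at hm
    subst hm
    obtain ⟨P', hP', e⟩ := hx
    have hPL : P ∈ LP1 v := (hL1 v P' P e).1 hP'
    obtain ⟨hXX, hT⟩ := H.s1 v P t q'.2 hPL hP ht.2
    have htn : t ≠ [] := fun h0 => H.ne1 q'.2 (h0 ▸ ht.2)
    have e3 : run δ (mu μ P, v) t = (1, T f act nu v (P ++ t)) := hQ.run_block t P v htn hXX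
    rw [e3, hT]
    exact Prod.ext ht.1.symm rfl
  have hc1 : ∀ p ∈ Ok, ∀ p', ∃ E : Language α, HL 2 E ∧ (∀ w ∈ E, run δ p w = p') ∧
      ∀ w, run δ p w = p' → True →
        (∀ x t y q', x ++ t ++ y = w → run δ p x ∈ LL1 → t ∉ RR1 q') → w ∈ E := by
    intro p hp p'
    obtain ⟨E0, g1, g2, g3⟩ := hfewR p p'
    choose B b1 b2 b3 using fun v' : V => hfewR p (1, v')
    let U : V → Language α := fun v' => {w | Pr (1, v') w ∧ run δ (1, v') w = p'}
    refine ⟨{w | w ∈ E0 ∨ w ∈ ({w | ∃ v', w ∈ B v' * U v'} : Language α)},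
      HL.setOf_or (g1.mono (by norm_num)) (HL.iUnion fun v' =>
        ((b1 v').mono (by norm_num)).mul (hU v' p')), ?_, ?_⟩
    · rintro w (hw | ⟨v', hw⟩)
      · exact g2 w hw
      · obtain ⟨t, ht, w', hw', rfl⟩ := Language.mem_mul.1 hw
        rw [run_append, b2 v' t ht]
        exact hw'.2
    · intro w hw _ hun
      obtain ⟨m, v⟩ := p
      obtain ⟨P, hP, hm⟩ := hp
      change mu μ P = m at hm
      subst hm
      obtain ⟨D, E', hD, hE', hpar⟩ := hQ.parse _ (P ++ w) le_rfl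
      cases D with
      | nil =>
        left
        exact g3 w hw (H.fewI [] E' w (by simp) (by simp) hE' ⟨P, [], by rw [← hpar]; simp⟩)
      | cons D1 D' =>
        right
        have hD1 : D1 ∈ XX := hD D1 (by simp)
        obtain ⟨t, e1, e2, e3⟩ := first P w D1 (D'.flatten ++ E') hP hD1 (by rw [hpar]; simp)
        have hr1 : run δ (mu μ P, v) t = (1, T f act nu v D1) := by
          rw [e1]
          exact hQ.run_block t P v e3 (by rw [← e1]; exact hD1)
        refine ⟨T f act nu v D1, Language.mem_mul.2 ⟨t, ?_, D'.flatten ++ E', ⟨?_, ?_⟩, e2.symm⟩⟩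
        · refine b3 _ t hr1 (H.fewI [D1] [] t (by simp) (by
            intro X hX
            rw [List.mem_singleton] at hX
            rw [hX]; exact hD1) hQ.np ⟨P, [], by rw [e1]; simp⟩)
        · intro x a y e4 hm hc
          obtain ⟨D2, E2, hD2, hE2, hxe⟩ := hQ.parse _ x le_rfl
          subst hxe
          have hr : run δ (1, T f act nu v D1) (D2.flatten ++ E2)
              = (mu μ E2, D2.foldl (T f act nu) (T f act nu v D1)) :=
            hQ.run_parse D2 E2 _ hD2 hE2
          rw [hr] at hm hc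
          change mu μ E2 * μ a ∈ XM at hm
          change CM (D2.foldl (T f act nu) (T f act nu v D1)) (mu μ E2 * μ a) at hc
          rw [← mu_snoc] at hm hc
          have hEX : E2 ++ [a] ∈ XX := (hQ.mem _).1 hm
          obtain ⟨P1, Q1, b, h6, h7, h8⟩ := (hCM _ _ hEX).1 hc
          have hQ1 : Q1 ≠ [] := fun h0 => H.ne1 b (h0 ▸ h8)
          have hP1 : NoPre XX P1 := hQ.np_of_lt (Y := Q1) (by rw [← h6]; exact hEX) hQ1
          refine hun (t ++ (D2.flatten ++ P1)) Q1 y (1, b) ?_ ?_ ⟨rfl, h8⟩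
          · have e5 : w = t ++ (D2.flatten ++ ((E2 ++ [a]) ++ y)) := by
              rw [e2, ← e4]; simp
            rw [e5, h6]; simp
          · have hr2 : run δ (mu μ P, v) (t ++ (D2.flatten ++ P1))
                = (mu μ P1, D2.foldl (T f act nu) (T f act nu v D1)) := by
              rw [run_append, hr1]
              exact hQ.run_parse D2 P1 _ hD2 hP1
            rw [hr2]
            exact ⟨P1, h7, rfl⟩
        · rw [e2, run_append, hr1] at hw
          exact hw
  obtain ⟨W1, hW1, hW1'⟩ := star_pr (h := 2) δ Ok LL1 (fun _ _ => True) RR1 ok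
    (fun _ _ _ _ => trivial) (fun _ _ _ _ => trivial) hRR1
    (fun q t ht h0 => H.ne1 q.2 (h0 ▸ ht.2)) hs1 hc1
  -- reading the product
  let good : Set (V → (M0 × S) × V) := {σ | ∃ w₀ : List α, (w₀.map f).prod = s ∧
    ∀ v : V, run δ (1, v) w₀ = σ v}
  have hfin : HL 3 ({w | ∃ σ ∈ good, w ∈ ({w | ∀ v : V, w ∈ W1 (1, v) (σ v)} : Language α)} :
      Language α) :=
    HL.biUnion (Set.toFinite _) fun σ _ => HL.iInter fun v => hW1 _ _
  refine hfin.congr fun w => ?_
  constructor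
  · intro hw
    exact ⟨fun v => run δ (1, v) w, ⟨w, hw, fun v => rfl⟩, fun v =>
      (hW1' _ (hok1 v) w trivial _).2 rfl⟩
  · rintro ⟨σ, ⟨w₀, h0, h1⟩, h2⟩
    have h3 : ∀ v : V, run δ (1, v) w = run δ (1, v) w₀ := fun v =>
      ((hW1' _ (hok1 v) w trivial _).1 (h2 v)).trans (h1 v).symm
    change (w.map f).prod = s
    rw [← h0]
    obtain ⟨D, E, hD, hE, rfl⟩ := hQ.parse _ w le_rfl
    obtain ⟨D0, E0, hD0, hE0, rfl⟩ := hQ.parse _ w₀ le_rfl
    have h4 : ∀ v : V, mu μ E = mu μ E0 ∧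
        D.foldl (T f act nu) v = D0.foldl (T f act nu) v := by
      intro v
      have h5 := h3 v
      have e1 : run δ (1, v) (D.flatten ++ E) = (mu μ E, D.foldl (T f act nu) v) :=
        hQ.run_parse D E v hD hE
      have e2 : run δ (1, v) (D0.flatten ++ E0) = (mu μ E0, D0.foldl (T f act nu) v) :=
        hQ.run_parse D0 E0 v hD0 hE0
      rw [e1, e2] at h5
      exact ⟨(Prod.ext_iff.1 h5).1, (Prod.ext_iff.1 h5).2⟩
    have hEE : (E.map f).prod = (E0.map f).prod := by
      have := (h4 0).1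
      rw [hmu, hmu] at this
      exact (Prod.ext_iff.1 this).2
    have hDD' : (D.flatten.map f).prod = (D0.flatten.map f).prod := by
      refine H.faithful _ _ fun x => ?_
      have a1 := runT_aff (f := f) (nu := nu) H.act_add H.act_one H.act_mul D x 0
      have a2 := runT_aff (f := f) (nu := nu) H.act_add H.act_one H.act_mul D0 x 0
      rw [add_zero] at a1 a2
      have a3 := (h4 x).2
      have a4 := (h4 0).2
      rw [a1, a2, a4] at a3
      exact add_right_cancel a3
    rw [List.map_append, List.prod_append, List.map_append, List.prod_append, hEE, hDD']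

end Crest.Agent.R320.Top5_778
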