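import Crest.Agent.R320.Block_812

/-!
# Row 320, TOP for the final plan (helper812)

One token system `T : V → List α → V` (any map, `V` finite) on the blocks of a prefix code `XX`.
`Cuts k CC Bad T` : a cut system on `CC`, exact under the promise `text ∈ CC*`, the right word may
contain one more full block, complete for the blocks outside `Bad` which are followed by a block.
`step` : `SolvedT k Bad T → SolvedT (k+1) CC T`.
`top` : two cut systems give height `≤ 3` for all fibres of `φ`.
-/

set_option autoImplicit false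

namespace Crest.Agent.R320.Top5_812

open Crest.RegLang Crest.Agent.R320.Hk_851 Crest.Agent.R320.Nest_812
open Crest.Agent.R320.Block_812 (PCode SC HL_SC)

universe u

variable {α : Type u} {V : Type*}

/-- products of blocks of `CC` whose thread goes from `v` to `v'`. -/
def TL (CC : Set (List α)) (T : V → List α → V) (v v' : V) : Language α :=
  {w | ∃ l : List (List α), (∀ x ∈ l, x ∈ CC) ∧ l.flatten = w ∧ l.foldl T v = v'}

def SolvedT (k : ℕ) (CC : Set (List α)) (T : V → List α → V) : Prop :=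
  ∀ v v', HL k (TL CC T v v')

/-- A cut system. -/
structure Cuts (k : ℕ) (CC Bad : Set (List α)) (T : V → List α → V) where
  LP : V → Language α
  RQ : V → Language α
  hLP : ∀ v, HL k (LP v)
  hRQ : ∀ v, HL k (RQ v)
  ne : ∀ v, ([] : List α) ∉ LP v
  last : ∀ v v', HL (k + 1) ({X | X ∈ CC ∧ T v X = v'} : Language α)
  sound : ∀ v v' P Q, P ∈ LP v → Q ∈ RQ v' → ∀ l : List (List α), (∀ x ∈ l, x ∈ CC) →
    ∀ R, P ++ Q ++ R = l.flatten →
      ∃ l1 l2, l = l1 ++ l2 ∧ l1.flatten = P ++ Q ∧ l1.foldl T v = v'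
  complete : ∀ X ∈ CC, X ∉ Bad → ∀ X2 ∈ CC, ∀ v, ∃ l1, (l1 = [X] ∨ l1 = [X, X2]) ∧
    ∃ P Q, P ++ Q = l1.flatten ∧ P ∈ LP v ∧ Q ∈ RQ (l1.foldl T v)

theorem solved_empty {k : ℕ} (T : V → List α → V) : SolvedT k (∅ : Set (List α)) T := by
  classical
  intro v v'
  by_cases h : v = v'
  · refine (HL.one).congr fun w => ?_
    rw [Language.mem_one]
    constructor
    · rintro ⟨l, hl, rfl, _⟩
      cases l with
      | nil => rfl
      | cons x l => exact (hl x (by simp)).elim
    · rintro rfl
      exact ⟨[], by simp, rfl, h⟩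
  · refine (HL.bot).congr fun w => ?_
    constructor
    · rintro ⟨l, hl, rfl, hv⟩
      cases l with
      | nil => exact (h hv).elim
      | cons x l => exact (hl x (by simp)).elim
    · intro hw; exact hw.elim

/-- **THE STEP.** -/
theorem step [Finite V] {k : ℕ} {XX CC Bad : Set (List α)} {T : V → List α → V}
    (hXX : PCode XX) (hX : HL k (XX : Language α)) (hC : CC ⊆ XX)
    (hCC : HL (k + 1) (CC : Language α)) (hB : Bad ⊆ CC) (c : Cuts k CC Bad T)
    (hBad : SolvedT k Bad T) : SolvedT (k + 1) CC T := by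
  classical
  let B : V → V → Language α := fun v v' => TL Bad T v v'
  have hBB : ∀ v v', HL k (B v v') := hBad
  let K : Language α := {w | ∃ q : V × V, w ∈ c.RQ q.1 * (B q.1 q.2 * c.LP q.2)}
  have hK : HL k K := HL.iUnion fun q => (c.hRQ _).mul ((hBB _ _).mul (c.hLP _))
  let Ks : Language α := KStar.kstar K
  have hKs : HL (k + 1) Ks := hK.star
  let Lt : V → V → Language α := fun v v' =>
    {w | v = v' ∧ w = []} ⊔ {X | X ∈ CC ∧ T v X = v'}
  have hLt : ∀ v v', HL (k + 1) (Lt v v') := by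
    intro v v'
    refine HL.sup ?_ (c.last v v')
    refine HL.finite ((Set.finite_singleton ([] : List α)).subset ?_)
    rintro w ⟨_, h⟩
    exact h
  let En : V → V → Language α := fun v v2 => {w | ∃ v1 : V, w ∈ B v v1 * Lt v1 v2}
  have hEn : ∀ v v2, HL (k + 1) (En v v2) := fun v v2 =>
    HL.iUnion fun v1 => ((hBB _ _).mono (Nat.le_succ k)).mul (hLt _ _)
  let E : V → V → Language α := fun v0 v2 =>
    En v0 v2 ⊔ {w | ∃ q : V × V, w ∈ B v0 q.1 * (c.LP q.1 * (Ks * (c.RQ q.2 * En q.2 v2)))}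
  have hE : ∀ v0 v2, HL (k + 1) (E v0 v2) := fun v0 v2 =>
    (hEn _ _).sup (HL.iUnion fun q =>
      ((hBB _ _).mono (Nat.le_succ k)).mul (((c.hLP _).mono (Nat.le_succ k)).mul
        (hKs.mul (((c.hRQ _).mono (Nat.le_succ k)).mul (hEn _ _)))))
  have hBX : ∀ x, x ∈ Bad → x ∈ XX := fun x hx => hC (hB hx)
  -- end pieces
  have sndEn : ∀ l : List (List α), (∀ x ∈ l, x ∈ CC) → ∀ v v2, l.flatten ∈ En v v2 →
      l.foldl T v = v2 := by
    rintro l hl v v2 ⟨v1, hw⟩
    obtain ⟨_, ⟨lb, hlb, rfl, hv⟩, t, ht, e⟩ := Language.mem_mul.1 hw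
    rcases ht with ⟨h1, h2⟩ | ⟨h1, h2⟩
    · subst h1
      subst h2
      rw [List.append_nil] at e
      have : l = lb := hXX.inj l lb (fun x hx => hC (hl x hx)) (fun x hx => hBX x (hlb x hx)) e.symm
      rw [this]; exact hv
    · have : l = lb ++ [t] := hXX.inj l (lb ++ [t]) (fun x hx => hC (hl x hx))
        (by
          intro x hx
          rcases List.mem_append.1 hx with hx | hx
          · exact hBX x (hlb x hx)
          · rw [List.mem_singleton.1 hx]; exact hC h1)
        (by rw [← e]; simp)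
      rw [this, List.foldl_append, hv]
      exact h2
  -- soundness
  have snd : ∀ (Lk : List (List α)), (∀ y ∈ Lk, y ∈ K) → ∀ (l : List (List α)),
      (∀ x ∈ l, x ∈ CC) → ∀ (v0 v v' v2 : V) (lb : List (List α)) (P Q z : List α),
      (∀ x ∈ lb, x ∈ Bad) → lb.foldl T v0 = v → P ∈ c.LP v →
      Q ∈ c.RQ v' → z ∈ En v' v2 →
      l.flatten = lb.flatten ++ (P ++ (Lk.flatten ++ (Q ++ z))) →
      l.foldl T v0 = v2 := by
    intro Lk
    induction Lk with
    | nil =>
      intro _ l hl v0 v v' v2 lb P Q z hlb hv hP hQ hz e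
      obtain ⟨l', rfl⟩ := hXX.decode lb l _ (fun x hx => hBX x (hlb x hx))
        (fun x hx => hC (hl x hx)) e
      rw [List.flatten_append] at e
      have e1 := List.append_cancel_left e
      rw [List.flatten_nil, List.nil_append] at e1
      have hl' : ∀ x ∈ l', x ∈ CC := fun x hx => hl x (by simp [hx])
      obtain ⟨l1, l2, rfl, h1, h2⟩ := c.sound v v' P Q hP hQ l' hl' z
        (by rw [List.append_assoc]; exact e1.symm)
      rw [List.flatten_append, h1, List.append_assoc] at e1
      have e2 := List.append_cancel_left (List.append_cancel_left e1)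
      rw [List.foldl_append, hv, List.foldl_append, h2]
      exact sndEn l2 (fun x hx => hl' x (by simp [hx])) v' v2 (e2 ▸ hz)
    | cons y Lk ih =>
      intro hLk l hl v0 v v' v2 lb P Q z hlb hv hP hQ hz e
      obtain ⟨l', rfl⟩ := hXX.decode lb l _ (fun x hx => hBX x (hlb x hx))
        (fun x hx => hC (hl x hx)) e
      rw [List.flatten_append] at e
      have e1 := List.append_cancel_left e
      obtain ⟨⟨u1, u2⟩, hy⟩ := hLk y (by simp)
      obtain ⟨Q1, hQ1, y', hy', rfl⟩ := Language.mem_mul.1 hy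
      obtain ⟨_, ⟨lb1, hlb1, rfl, hvb1⟩, P1, hP1, rfl⟩ := Language.mem_mul.1 hy'
      have hl' : ∀ x ∈ l', x ∈ CC := fun x hx => hl x (by simp [hx])
      have e1' : P ++ Q1 ++ (lb1.flatten ++ (P1 ++ (Lk.flatten ++ (Q ++ z)))) = l'.flatten := by
        rw [e1, List.flatten_cons]; simp only [List.append_assoc]
      obtain ⟨l1, l2, rfl, h1, h2⟩ := c.sound v u1 P Q1 hP hQ1 l' hl' _ e1'
      rw [List.flatten_append, h1] at e1'
      have e2 := List.append_cancel_left e1'
      rw [List.foldl_append, hv, List.foldl_append, h2]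
      exact ih (fun w hw => hLk w (by simp [hw])) l2 (fun x hx => hl' x (by simp [hx])) u1 u2 v' v2
        lb1 P1 Q z hlb1 hvb1 hP1 hQ hz e2.symm
  have sndE : ∀ (l : List (List α)), (∀ x ∈ l, x ∈ CC) → ∀ v0 v2, l.flatten ∈ E v0 v2 →
      l.foldl T v0 = v2 := by
    rintro l hl v0 v2 (hw | ⟨⟨v, v'⟩, hw⟩)
    · exact sndEn l hl v0 v2 hw
    · obtain ⟨b, ⟨lb, hlb, rfl, hv⟩, z, hz, e⟩ := Language.mem_mul.1 hw
      obtain ⟨P, hP, z1, hz1, rfl⟩ := Language.mem_mul.1 hz
      obtain ⟨k1, hk1, z2, hz2, rfl⟩ := Language.mem_mul.1 hz1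
      obtain ⟨Q, hQ, b', hb', rfl⟩ := Language.mem_mul.1 hz2
      obtain ⟨Lk, rfl, hLk⟩ := Language.mem_kstar.1 hk1
      exact snd Lk hLk l hl v0 v v' v2 lb P Q b' hlb hv hP hQ hb' e.symm
  -- completeness
  have Ks0 : ([] : List α) ∈ Ks := Language.mem_kstar.2 ⟨[], rfl, fun z hz => by simp at hz⟩
  have B0 : ∀ v, ([] : List α) ∈ B v v := fun v => ⟨[], by simp, rfl, rfl⟩
  have Bcons : ∀ X ∈ Bad, ∀ v v' b, b ∈ B (T v X) v' → X ++ b ∈ B v v' := by
    rintro X hX v v' _ ⟨lb, hlb, rfl, hv⟩
    refine ⟨X :: lb, ?_, by simp, hv⟩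
    intro x hx
    rcases List.mem_cons.1 hx with rfl | hx
    · exact hX
    · exact hlb x hx
  have cmpE : ∀ (n : ℕ) (l : List (List α)), l.length ≤ n → (∀ x ∈ l, x ∈ CC) → ∀ v0,
      l.flatten ∈ E v0 (l.foldl T v0) := by
    intro n
    induction n with
    | zero =>
      intro l hn _ v0
      have : l = [] := List.length_eq_zero_iff.1 (Nat.le_zero.1 hn)
      subst this
      exact Or.inl ⟨v0, Language.mem_mul.2 ⟨[], B0 v0, [], Or.inl ⟨rfl, rfl⟩, rfl⟩⟩
    | succ n ih =>
      intro l hn hl v0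
      cases l with
      | nil => exact Or.inl ⟨v0, Language.mem_mul.2 ⟨[], B0 v0, [], Or.inl ⟨rfl, rfl⟩, rfl⟩⟩
      | cons X l =>
        have hXC : X ∈ CC := hl X (by simp)
        have hl' : ∀ x ∈ l, x ∈ CC := fun x hx => hl x (by simp [hx])
        rw [List.length_cons] at hn
        by_cases hXB : X ∈ Bad
        · rw [List.foldl_cons, List.flatten_cons]
          rcases ih l (by omega) hl' (T v0 X) with ⟨v1, hw⟩ | ⟨⟨v, v'⟩, hw⟩
          · left
            obtain ⟨b, hb, t, ht, e⟩ := Language.mem_mul.1 hw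
            refine ⟨v1, Language.mem_mul.2 ⟨X ++ b, Bcons X hXB _ _ _ hb, t, ht, ?_⟩⟩
            rw [List.append_assoc, e]
          · right
            obtain ⟨b, hb, z, hz, e⟩ := Language.mem_mul.1 hw
            refine ⟨(v, v'), Language.mem_mul.2 ⟨X ++ b, Bcons X hXB _ _ _ hb, z, hz, ?_⟩⟩
            rw [List.append_assoc, e]
        · cases l with
          | nil =>
            left
            refine ⟨v0, Language.mem_mul.2 ⟨[], B0 v0, X, Or.inr ⟨hXC, rfl⟩, ?_⟩⟩
            simp
          | cons X2 l =>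
            obtain ⟨l1, hl1, P, Q, hPQ, hP, hQ⟩ := c.complete X hXC hXB X2 (hl' X2 (by simp)) v0
            obtain ⟨l2, hsplit, hlen⟩ : ∃ l2, X :: X2 :: l = l1 ++ l2 ∧ l2.length ≤ n := by
              rcases hl1 with rfl | rfl
              · exact ⟨X2 :: l, rfl, by omega⟩
              · exact ⟨l, rfl, by rw [List.length_cons] at hn; omega⟩
            rw [hsplit, List.foldl_append, List.flatten_append, ← hPQ]
            have hl2 : ∀ x ∈ l2, x ∈ CC := by
              intro x hx
              exact hl x (by rw [hsplit]; simp [hx])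
            right
            rcases ih l2 hlen hl2 (l1.foldl T v0) with hw | ⟨⟨v, v'⟩, hw⟩
            · refine ⟨(v0, l1.foldl T v0), Language.mem_mul.2 ⟨[], B0 v0,
                P ++ (Q ++ l2.flatten), Language.mem_mul.2 ⟨P, hP, Q ++ l2.flatten,
                Language.mem_mul.2 ⟨[], Ks0, Q ++ l2.flatten, Language.mem_mul.2 ⟨Q, hQ,
                  l2.flatten, hw, rfl⟩, rfl⟩, rfl⟩, ?_⟩⟩
              rw [List.nil_append, List.append_assoc]
            · obtain ⟨b, hb, z, hz, e⟩ := Language.mem_mul.1 hw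
              obtain ⟨P', hP', z1, hz1, rfl⟩ := Language.mem_mul.1 hz
              obtain ⟨k1, hk1, z2, hz2, rfl⟩ := Language.mem_mul.1 hz1
              obtain ⟨Lk, rfl, hLk⟩ := Language.mem_kstar.1 hk1
              refine ⟨(v0, v'), Language.mem_mul.2 ⟨[], B0 v0,
                P ++ ((Q ++ (b ++ P')) ++ Lk.flatten ++ z2),
                Language.mem_mul.2 ⟨P, hP, (Q ++ (b ++ P')) ++ Lk.flatten ++ z2,
                  Language.mem_mul.2 ⟨(Q ++ (b ++ P')) ++ Lk.flatten,
                    Language.mem_kstar.2 ⟨(Q ++ (b ++ P')) :: Lk, by simp, ?_⟩, z2, hz2, rfl⟩,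
                  rfl⟩, ?_⟩⟩
              · intro y hy
                rcases List.mem_cons.1 hy with rfl | hy
                · exact ⟨(l1.foldl T v0, v), Language.mem_mul.2 ⟨Q, hQ, b ++ P',
                    Language.mem_mul.2 ⟨b, hb, P', hP', rfl⟩, rfl⟩⟩
                · exact hLk y hy
              · rw [← e, List.nil_append]
                simp only [List.append_assoc]
  intro v v'
  refine ((HL_SC hXX hX hC hCC).inf (hE v v')).congr fun w => ?_
  constructor
  · rintro ⟨l, hl, rfl, rfl⟩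
    exact ⟨⟨l, hl, rfl⟩, cmpE _ l le_rfl hl v⟩
  · rintro ⟨⟨l, hl, rfl⟩, h2⟩
    exact ⟨l, hl, rfl, sndE l hl v v' h2⟩

/-- two cut systems -/
theorem two [Finite V] {XX Bad : Set (List α)} {T : V → List α → V}
    (hXX : PCode XX) (hX : HL 1 (XX : Language α)) (hB : Bad ⊆ XX)
    (hBad : HL 2 (Bad : Language α)) (c1 : Cuts 2 XX Bad T) (c2 : Cuts 1 Bad ∅ T) :
    SolvedT 3 XX T := by
  have h2 : SolvedT 2 Bad T :=
    step hXX hX hB hBad (Set.empty_subset _) c2 (solved_empty T)
  exact step hXX (hX.mono (by norm_num)) subset_rfl (hX.mono (by norm_num)) hB c1 h2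

section
variable {S : Type u} [Monoid S] [AddCommGroup V]

/-- thread of an affine token system -/
theorem fold_affine {φ : α → S} {A : TokAct S V} {ν : List α → V} (h1 : ∀ v, A.act v 1 = v)
    (l : List (List α)) : ∃ d : V, ∀ v,
      l.foldl (fun v X => A.act v (X.map φ).prod + ν X) v =
        A.act v (l.flatten.map φ).prod + d := by
  induction l with
  | nil =>
    refine ⟨0, fun v => ?_⟩
    change v = A.act v 1 + 0
    rw [h1, add_zero]
  | cons X l ih =>
    obtain ⟨d, hd⟩ := ih
    refine ⟨A.act (ν X) (l.flatten.map φ).prod + d, fun v => ?_⟩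
    rw [List.foldl_cons, hd, List.flatten_cons, List.map_append, List.prod_append, A.mul, A.add,
      add_assoc]

/-- **TOP**: two cut systems for one affine token system give height three. -/
theorem top [Finite α] [Finite S] [Finite V] (φ : α → S) (A : TokAct S V)
    (h1 : ∀ v, A.act v 1 = v) (ν : List α → V)
    {XX Bad : Set (List α)} (hXX : PCode XX) (hX : HL 1 (XX : Language α)) (hB : Bad ⊆ XX)
    (hBad : HL 2 (Bad : Language α))
    (c1 : Cuts 2 XX Bad (fun v X => A.act v (X.map φ).prod + ν X))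
    (c2 : Cuts 1 Bad ∅ (fun v X => A.act v (X.map φ).prod + ν X))
    (tail : ∀ s : S, HL 3 ({E | (∀ X ∈ XX, ∀ R, X ++ R ≠ E) ∧ (E.map φ).prod = s} : Language α))
    (s : S) : HL 3 ({w | (w.map φ).prod = s} : Language α) := by
  classical
  have hT := two hXX hX hB hBad c1 c2
  let T : V → List α → V := fun v X => A.act v (X.map φ).prod + ν X
  let M : S → Language α := fun g =>
    {w | ∃ d : V, w ∈ ({w | ∀ v : V, w ∈ TL XX T v (A.act v g + d)} : Language α)}
  have hM : ∀ g, HL 3 (M g) := fun g => HL.iUnion fun d => HL.iInter fun v => hT _ _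
  have sM : ∀ g w, w ∈ M g → (w.map φ).prod = g := by
    rintro g w ⟨d, hd⟩
    obtain ⟨l, hl, rfl, h0⟩ := hd 0
    obtain ⟨d', hd'⟩ := fold_affine (A := A) (φ := φ) (ν := ν) h1 l
    have hv : ∀ v, A.act v (l.flatten.map φ).prod + d' = A.act v g + d := by
      intro v
      obtain ⟨l', hl', e, h⟩ := hd v
      have : l' = l := hXX.inj l' l hl' hl e
      subst this
      rw [← h]
      exact (hd' v).symm
    have h0' := hv 0
    rw [A.zero, A.zero, zero_add, zero_add] at h0'
    refine A.faithful _ _ fun v => ?_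
    have := hv v
    rw [h0'] at this
    exact add_right_cancel this
  have cM : ∀ l : List (List α), (∀ x ∈ l, x ∈ XX) → l.flatten ∈ M ((l.flatten.map φ).prod) := by
    intro l hl
    obtain ⟨d', hd'⟩ := fold_affine (A := A) (φ := φ) (ν := ν) h1 l
    exact ⟨d', fun v => ⟨l, hl, rfl, hd' v⟩⟩
  let Tl : S → Language α := fun s => {E | (∀ X ∈ XX, ∀ R, X ++ R ≠ E) ∧ (E.map φ).prod = s}
  have hfin : HL 3 ({w | ∃ q : {q : S × S // q.1 * q.2 = s}, w ∈ M q.1.1 * Tl q.1.2} :
      Language α) := HL.iUnion fun q => (hM _).mul (tail _)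
  refine hfin.congr fun w => ?_
  constructor
  · intro hw
    have hw' : (w.map φ).prod = s := hw
    -- parse
    have parse : ∀ (n : ℕ) (w : List α), w.length ≤ n → ∃ (l : List (List α)) (E : List α),
        (∀ x ∈ l, x ∈ XX) ∧ l.flatten ++ E = w ∧ ∀ X ∈ XX, ∀ R, X ++ R ≠ E := by
      intro n
      induction n with
      | zero =>
        intro w hw
        have : w = [] := List.length_eq_zero_iff.1 (Nat.le_zero.1 hw)
        subst this
        refine ⟨[], [], by simp, rfl, ?_⟩
        intro X hX R e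
        rw [List.append_eq_nil_iff] at e
        exact hXX.ne (e.1 ▸ hX)
      | succ n ih =>
        intro w hw
        by_cases h : ∃ X ∈ XX, ∃ R, X ++ R = w
        · obtain ⟨X, hX', R, rfl⟩ := h
          have hpos : 0 < X.length := List.length_pos_iff.2 fun e => hXX.ne (e ▸ hX')
          rw [List.length_append] at hw
          obtain ⟨l, E, hl, rfl, hE⟩ := ih R (by omega)
          refine ⟨X :: l, E, ?_, by simp, hE⟩
          intro x hx
          rcases List.mem_cons.1 hx with rfl | hx
          · exact hX'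
          · exact hl x hx
        · push Not at h
          exact ⟨[], w, by simp, rfl, fun X hX R => h X hX R⟩
    obtain ⟨l, E, hl, rfl, hE⟩ := parse _ w le_rfl
    refine ⟨⟨((l.flatten.map φ).prod, (E.map φ).prod), ?_⟩, Language.mem_mul.2
      ⟨l.flatten, cM l hl, E, ⟨hE, rfl⟩, rfl⟩⟩
    rw [← hw', List.map_append, List.prod_append]
  · rintro ⟨⟨⟨g, t⟩, hq⟩, hw⟩
    obtain ⟨a, ha, E, ⟨_, hE⟩, rfl⟩ := Language.mem_mul.1 hw
    change ((a ++ E).map φ).prod = s
    rw [List.map_append, List.prod_append, sM g a ha]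
    have hE' : (E.map φ).prod = t := hE
    rw [hE']
    exact hq

end

end Crest.Agent.R320.Top5_812
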