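import Crest.Agent.R320.NestInf_163
import Crest.Agent.R320.Reg_852

/-!
# Row 320: top of the two-scheme chain over a prefix code (helper903)

Blocks `X ∈ XX` (a regular prefix code), zone maps `T v X = act v (φ X) + nu X`, two cut systems
(`LP1`, `RQ1`), (`LP2`, `RQ2`). Scheme 1 is sound on every text, scheme 2 only if the block is not cut by
scheme 1; every block (followed by one more block) is cut by scheme 1 or by scheme 2. If every regular
language whose words have no prefix in `XX * XX` has height `≤ 1`, then every language recognised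
by `φ` has height `≤ 3`.
-/

set_option autoImplicit false

namespace Crest.Agent.R320.Top5_903

open Crest.RegLang Crest.Agent.R320.Hgt1_903 Crest.Agent.R320.Three_427

universe u

variable {α : Type u} {V : Type*}

/-! ### The block automaton -/

/-- no prefix in `XX` -/
def NoPre (XX : Language α) (u : List α) : Prop := ∀ x y, x ++ y = u → x ∉ XX

/-- the block automaton -/
noncomputable def bstep (XX : Language α) (T : V → List α → V) (p : List α × V) (c : α) :
    List α × V := by
  classical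
  exact if p.1 ++ [c] ∈ XX then ([], T p.2 (p.1 ++ [c])) else (p.1 ++ [c], p.2)

theorem bstep_in {XX : Language α} {T : V → List α → V} {u : List α} {v : V} {c : α}
    (h : u ++ [c] ∈ XX) : bstep XX T (u, v) c = ([], T v (u ++ [c])) := by
  simp only [bstep]; rw [if_pos h]

theorem bstep_out {XX : Language α} {T : V → List α → V} {u : List α} {v : V} {c : α}
    (h : u ++ [c] ∉ XX) : bstep XX T (u, v) c = (u ++ [c], v) := by
  simp only [bstep]; rw [if_neg h]

theorem run_cons {Ω : Type*} (step : Ω → α → Ω) (c : α) (q : List α) (p : Ω) :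
    run step (c :: q) p = run step q (step p c) := rfl

theorem run_nopre {XX : Language α} {T : V → List α → V} (q : List α) : ∀ (u : List α) (v : V),
    NoPre XX (u ++ q) → run (bstep XX T) q (u, v) = (u ++ q, v) := by
  induction q with
  | nil => intro u v _; rw [run_nil, List.append_nil]
  | cons c q ih =>
    intro u v h
    have h1 : u ++ [c] ∉ XX := h (u ++ [c]) q (by simp)
    rw [run_cons, bstep_out h1, ih (u ++ [c]) v (by simpa using h)]
    simp

theorem run_block {XX : Language α} {T : V → List α → V}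
    (hpre : ∀ X Y, X ∈ XX → X ++ Y ∈ XX → Y = []) (q : List α) : ∀ (u : List α) (v : V),
    q ≠ [] → u ++ q ∈ XX → run (bstep XX T) q (u, v) = ([], T v (u ++ q)) := by
  induction q with
  | nil => intro u v h; exact absurd rfl h
  | cons c q ih =>
    intro u v _ h
    by_cases hq : q = []
    · subst hq
      rw [run_cons, bstep_in h, run_nil]
    · have h1 : u ++ [c] ∉ XX := fun h1 => hq (hpre (u ++ [c]) q h1 (by simpa using h))
      rw [run_cons, bstep_out h1, ih (u ++ [c]) v hq (by simpa using h)]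
      simp

theorem nopre_of_proper {XX : Language α} (hpre : ∀ X Y, X ∈ XX → X ++ Y ∈ XX → Y = [])
    {P Q : List α} (hQ : Q ≠ []) (h : P ++ Q ∈ XX) : NoPre XX P := by
  intro x y e hx
  have h1 : y ++ Q = [] := hpre x (y ++ Q) hx (by rw [← List.append_assoc, e]; exact h)
  exact hQ (List.append_eq_nil_iff.1 h1).2

theorem NoPre.left {XX : Language α} {u v : List α} (h : NoPre XX (u ++ v)) : NoPre XX u :=
  fun x y e => h x (y ++ v) (by rw [← List.append_assoc, e])

/-- no prefix in `XX * XX` -/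
def Few (XX : Language α) (w : List α) : Prop :=
  ∀ X ∈ XX, ∀ X' ∈ XX, ∀ r, X ++ (X' ++ r) ≠ w

theorem Few.left {XX : Language α} {u v : List α} (h : Few XX (u ++ v)) : Few XX u :=
  fun X hX X' hX' r e => h X hX X' hX' (r ++ v) (by rw [← e]; simp)

/-! ### Regularity -/

theorem reg_congr {L M : Language α} (hL : L.IsRegular) (h : ∀ w, w ∈ L ↔ w ∈ M) :
    M.IsRegular := by
  have : L = M := by ext w; exact h w
  rw [← this]; exact hL

theorem reg_mul {L M : Language α} (hL : L.IsRegular) (hM : M.IsRegular) :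
    (Language.IsRegular ({w | ∃ u v, u ++ v = w ∧ u ∈ L ∧ v ∈ M} : Language α)) := by
  refine reg_congr (Reg_852.IsRegular.mul hL hM) fun w => ?_
  constructor
  · intro h
    obtain ⟨u, hu, v, hv, e⟩ := Language.mem_mul.1 h
    exact ⟨u, v, e, hu, hv⟩
  · rintro ⟨u, v, e, hu, hv⟩
    exact Language.mem_mul.2 ⟨u, hu, v, hv, e⟩

theorem reg_or {L M : Language α} (hL : L.IsRegular) (hM : M.IsRegular) :
    (Language.IsRegular ({w | w ∈ L ∨ w ∈ M} : Language α)) := hL.add hM

theorem reg_and {L M : Language α} (hL : L.IsRegular) (hM : M.IsRegular) :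
    (Language.IsRegular ({w | w ∈ L ∧ w ∈ M} : Language α)) := hL.inf hM

theorem reg_not {L : Language α} (hL : L.IsRegular) :
    (Language.IsRegular ({w | ¬ w ∈ L} : Language α)) := hL.compl

theorem reg_empty : (Language.IsRegular ({_w | False} : Language α)) :=
  reg_congr Reg_852.isRegular_zero fun w => by
    constructor
    · intro h; exact h
    · intro h; exact h

theorem reg_top : (Language.IsRegular ({_w | True} : Language α)) :=
  reg_congr (reg_not (reg_empty (α := α))) fun w => by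
    constructor
    · intro _; trivial
    · intro _ h; exact h

theorem reg_exists_finset {ι : Type*} (s : Finset ι) (f : ι → Language α)
    (hf : ∀ i, (f i).IsRegular) : (Language.IsRegular ({w | ∃ i ∈ s, w ∈ f i} : Language α)) := by
  classical
  induction s using Finset.induction_on with
  | empty =>
    refine reg_congr (reg_empty (α := α)) fun w => ?_
    constructor
    · intro h; exact h.elim
    · rintro ⟨i, hi, -⟩; exact absurd hi (Finset.notMem_empty i)
  | insert a s _ ih =>
    refine reg_congr (reg_or (hf a) ih) fun w => ?_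
    constructor
    · rintro (h | ⟨i, hi, h⟩)
      · exact ⟨a, Finset.mem_insert_self _ _, h⟩
      · exact ⟨i, Finset.mem_insert_of_mem hi, h⟩
    · rintro ⟨i, hi, h⟩
      rcases Finset.mem_insert.1 hi with rfl | hi
      · exact Or.inl h
      · exact Or.inr ⟨i, hi, h⟩

theorem reg_exists {ι : Type*} [Finite ι] (f : ι → Language α)
    (hf : ∀ i, (f i).IsRegular) : (Language.IsRegular ({w | ∃ i, w ∈ f i} : Language α)) := by
  classical
  cases nonempty_fintype ι
  refine reg_congr (reg_exists_finset Finset.univ f hf) fun w => ?_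
  constructor
  · rintro ⟨i, -, h⟩; exact ⟨i, h⟩
  · rintro ⟨i, h⟩; exact ⟨i, Finset.mem_univ i, h⟩

theorem reg_nopre {XX : Language α} (h : XX.IsRegular) :
    (Language.IsRegular ({w | NoPre XX w} : Language α)) := by
  refine reg_congr (reg_not (reg_mul h (reg_top (α := α)))) fun w => ?_
  constructor
  · intro h1 x y e hx; exact h1 ⟨x, y, e, hx, trivial⟩
  · rintro h1 ⟨x, y, e, hx, -⟩; exact h1 x y e hx

theorem reg_few {XX : Language α} (h : XX.IsRegular) :
    (Language.IsRegular ({w | Few XX w} : Language α)) := by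
  refine reg_congr (reg_not (reg_mul h (reg_mul h (reg_top (α := α))))) fun w => ?_
  constructor
  · intro h1 X hX X' hX' r e; exact h1 ⟨X, X' ++ r, e, hX, X', r, rfl, hX', trivial⟩
  · rintro h1 ⟨X, s, e, hX, X', r, e', hX', -⟩; exact h1 X hX X' hX' r (by rw [e']; exact e)

/-! ### The value of the run on words with few blocks -/

/-- the language of words with at most one complete block whose run ends in `F` -/
def RF (XX : Language α) (T : V → List α → V) (v : V) (F : Set (List α × V)) : Language α :=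
  {w | (NoPre XX w ∧ (w, v) ∈ F) ∨
    ∃ b, ∃ X r, X ++ r = w ∧ (X ∈ XX ∧ T v X = b) ∧ (NoPre XX r ∧ (r, b) ∈ F)}

theorem mem_RF {XX : Language α} {T : V → List α → V} (hnil : [] ∉ XX)
    (hpre : ∀ X Y, X ∈ XX → X ++ Y ∈ XX → Y = []) {v : V} {F : Set (List α × V)} {w : List α}
    (hw : Few XX w) : run (bstep XX T) w ([], v) ∈ F ↔ w ∈ RF XX T v F := by
  by_cases h : NoPre XX w
  · have h1 : run (bstep XX T) w ([], v) = (w, v) := by
      have := run_nopre (T := T) w [] v (by simpa using h)
      simpa using this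
    rw [h1]
    constructor
    · intro h2; exact Or.inl ⟨h, h2⟩
    · rintro (⟨-, h2⟩ | ⟨b, X, r, e, ⟨hX, -⟩, -⟩)
      · exact h2
      · exact absurd hX (h X r e)
  · unfold NoPre at h
    push Not at h
    obtain ⟨X, r, e, hX⟩ := h
    have hX0 : X ≠ [] := fun h0 => hnil (h0 ▸ hX)
    have hr : NoPre XX r := by
      intro x y e' hx
      exact hw X hX x hx y (by rw [e', e])
    have h1 : run (bstep XX T) w ([], v) = (r, T v X) := by
      rw [← e, run_append]
      have h2 := run_block (T := T) hpre X [] v hX0 (by simpa using hX)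
      rw [h2]
      have := run_nopre (T := T) r [] (T v ([] ++ X)) (by simpa using hr)
      simpa using this
    rw [h1]
    constructor
    · intro h2; exact Or.inr ⟨T v X, X, r, e, ⟨hX, rfl⟩, hr, h2⟩
    · rintro (⟨h2, -⟩ | ⟨b, X', r', e', ⟨hX', hb⟩, hr', h2⟩)
      · exact absurd hX (h2 X r e)
      · have hXX : X = X' := by
          rcases List.append_eq_append_iff.1 (e.trans e'.symm) with ⟨a, h3, h4⟩ | ⟨a, h3, h4⟩
          · have := hpre X a hX (h3 ▸ hX')
            subst this; simpa using h3.symm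
          · have := hpre X' a hX' (h3 ▸ hX)
            subst this; simpa using h3
        subst hXX
        have hrr : r = r' := List.append_cancel_left (e.trans e'.symm)
        subst hrr
        rw [hb]; exact h2

theorem reg_RF [Finite V] {XX : Language α} {T : V → List α → V}
    (hT : ∀ v b, (Language.IsRegular ({X | X ∈ XX ∧ T v X = b} : Language α)))
    {F : Set (List α × V)}
    (hF : ∀ b, (Language.IsRegular ({u | NoPre XX u ∧ (u, b) ∈ F} : Language α))) (v : V) :
    (RF XX T v F).IsRegular :=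
  reg_or (hF v) (reg_exists _ fun b => reg_mul (hT v b) (hF b))

/-! ### The cut systems -/

/-- choice of a value -/
noncomputable def pick [Zero V] (B : Set V) : V := by
  classical
  exact if h : B.Nonempty then h.some else 0

theorem pick_mem [Zero V] {B : Set V} (h : B.Nonempty) : pick B ∈ B := by
  unfold pick
  rw [dif_pos h]; exact h.some_mem

/-- a cut system of the block automaton -/
noncomputable def mk [Zero V] (XX : Language α) (LP RQ : V → Language α) :
    Lvl (List α × V) α where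
  C p := NoPre XX p.1 ∧ p.1 ∈ LP p.2
  R Q := ∃ b, Q ∈ RQ b
  c Q := ([], pick {b | Q ∈ RQ b})

theorem mk_H [Zero V] [Finite V] {n : ℕ} (XX : Language α) (LP RQ : V → Language α)
    (h : ∀ b, H n (RQ b)) (ω : List α × V) :
    H n ({Q | (mk XX LP RQ).R Q ∧ (mk XX LP RQ).c Q = ω} : Language α) := by
  have h1 : H n ({Q | ∃ b, Q ∈ RQ b} : Language α) := H.exists_fintype _ h
  have h2 : H n ({Q | ∃ B : Set V, (Q ∈ ({Q | ∀ b, (Q ∈ RQ b ↔ Q ∈ ({_w | b ∈ B} : Language α))}
      : Language α)) ∧ (Q ∈ ({_w | (([], pick B) : List α × V) = ω} : Language α))} :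
      Language α) := by
    refine H.exists_fintype _ fun B => ?_
    exact H.inter (H.forall_fintype _ fun b => H.iff (h b) (H.const n _)) (H.const n _)
  refine H.congr (H.inter h1 h2) fun Q => ?_
  constructor
  · rintro ⟨ha, B, hB, hc⟩
    refine ⟨ha, ?_⟩
    have : {b | Q ∈ RQ b} = B := by
      ext b
      exact hB b
    change ([], pick {b | Q ∈ RQ b}) = ω
    rw [this]; exact hc
  · rintro ⟨ha, hc⟩
    exact ⟨ha, {b | Q ∈ RQ b}, fun b => Iff.rfl, hc⟩

/-! ### The theorem -/

/-- block `X` is cut by scheme 1 at value `v`, at a place `≥ k` -/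
def Cut1 (LP1 RQ1 : V → Language α) (v : V) (X : List α) (k : ℕ) : Prop :=
  ∃ P' Q' b', P' ++ Q' = X ∧ k ≤ P'.length ∧ P' ∈ LP1 v ∧ Q' ∈ RQ1 b'

theorem threads [Finite V] [Zero V] (XX : Language α) (T : V → List α → V)
    (LP1 RQ1 LP2 RQ2 : V → Language α)
    (hnil : [] ∉ XX) (hpre : ∀ X Y, X ∈ XX → X ++ Y ∈ XX → Y = [])
    (hXX : XX.IsRegular)
    (hT : ∀ v b, (Language.IsRegular ({X | X ∈ XX ∧ T v X = b} : Language α)))
    (rL1 : ∀ v, (LP1 v).IsRegular) (rL2 : ∀ v, (LP2 v).IsRegular)
    (rR1 : ∀ v, (RQ1 v).IsRegular) (rR2 : ∀ v, (RQ2 v).IsRegular)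
    (n1 : ∀ b, [] ∉ RQ1 b) (n2 : ∀ b, [] ∉ RQ2 b)
    (h1 : ∀ b, H 1 (RQ1 b)) (h2 : ∀ b, H 1 (RQ2 b))
    (s1 : ∀ v b P Q, P ∈ LP1 v → Q ∈ RQ1 b → P ++ Q ∈ XX ∧ T v (P ++ Q) = b)
    (s2 : ∀ v b P Q, P ∈ LP2 v → Q ∈ RQ2 b → NoPre XX P →
      (∀ X ∈ XX, X <+: P ++ Q → ¬ Cut1 LP1 RQ1 v X P.length) →
      ∃ X1 ∈ XX, ∃ X2 ∈ XX, P ++ Q = X1 ++ X2 ∧ T (T v X1) X2 = b)
    (cc : ∀ X ∈ XX, ∀ X' ∈ XX, ∀ v, Cut1 LP1 RQ1 v X 0 ∨
      ∃ P Q b, P ++ Q = X ++ X' ∧ P.length < X.length ∧ P ∈ LP2 v ∧ Q ∈ RQ2 b)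
    (few : ∀ L : Language α, L.IsRegular → (∀ w ∈ L, Few XX w) → H 1 L)
    (F₀ : Set (List α × V))
    (hF₀ : ∀ b, (Language.IsRegular ({u | NoPre XX u ∧ (u, b) ∈ F₀} : Language α))) (v₀ : V) :
    H 3 ({w | run (bstep XX T) w ([], v₀) ∈ F₀} : Language α) := by
  classical
  set L : ℕ → Lvl (List α × V) α :=
    fun j => if j = 0 then mk XX LP1 RQ1 else mk XX LP2 RQ2 with hL
  have L0 : L 0 = mk XX LP1 RQ1 := by rw [hL]; simp
  have L1 : L 1 = mk XX LP2 RQ2 := by rw [hL]; simp
  -- a scheme 1 cut of a prefix is a usable cut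
  have use1 : ∀ (u : List α) (v : V) (y : List α) (X : List α), X ∈ XX → X <+: u ++ y →
      Cut1 LP1 RQ1 v X u.length →
      ∃ x z, x ++ z = y ∧ Usable (L 0) (run (bstep XX T) x (u, v)) z := by
    rintro u v y X hX ⟨r, hr⟩ ⟨P', Q', b', e, hlen, hP, hQ⟩
    have hQ0 : Q' ≠ [] := fun h0 => n1 b' (h0 ▸ hQ)
    have hnp : NoPre XX P' := nopre_of_proper hpre hQ0 (by rw [e]; exact hX)
    have e2 : P' ++ (Q' ++ r) = u ++ y := by rw [← List.append_assoc, e, hr]
    rcases List.append_eq_append_iff.1 e2 with ⟨a, h3, h4⟩ | ⟨a, h3, h4⟩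
    · -- u = P' ++ a
      have ha : a = [] := by
        have := congrArg List.length h3
        rw [List.length_append] at this
        exact List.eq_nil_of_length_eq_zero (by omega)
      subst ha
      have hu : u = P' := by simpa using h3
      subst hu
      refine ⟨[], y, rfl, ?_⟩
      rw [run_nil, L0]
      exact ⟨⟨hnp, hP⟩, Q', r, by simpa using h4, b', hQ⟩
    · refine ⟨a, Q' ++ r, h4.symm, ?_⟩
      have := run_nopre (T := T) a u v (by rw [← h3]; exact hnp)
      rw [this, L0, ← h3]
      exact ⟨⟨hnp, hP⟩, Q', r, rfl, b', hQ⟩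
  have hs1 : ∀ p Q, (L 0).C p → (L 0).R Q → run (bstep XX T) Q p = (L 0).c Q := by
    rintro ⟨u, v⟩ Q hC hR
    rw [L0] at hC hR ⊢
    obtain ⟨hnp, hP⟩ := hC
    have hb : pick {b | Q ∈ RQ1 b} ∈ {b | Q ∈ RQ1 b} := pick_mem hR
    obtain ⟨h3, h4⟩ := s1 v _ u Q hP hb
    have hQ0 : Q ≠ [] := fun h0 => n1 _ (h0 ▸ hb)
    rw [run_block (T := T) hpre Q u v hQ0 h3, h4]
    rfl
  have hs2 : ∀ p Q, (L 1).C p → (L 1).R Q → Live (bstep XX T) L 1 p Q →
      run (bstep XX T) Q p = (L 1).c Q := by
    rintro ⟨u, v⟩ Q hC hR hlive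
    rw [L1] at hC hR ⊢
    obtain ⟨hnp, hP⟩ := hC
    have hb : pick {b | Q ∈ RQ2 b} ∈ {b | Q ∈ RQ2 b} := pick_mem hR
    obtain ⟨X1, hX1, X2, hX2, e, hv⟩ := s2 v _ u Q hP hb hnp (by
      intro X hX hpx hcut
      obtain ⟨x, z, e, hu⟩ := use1 u v Q X hX hpx hcut
      exact hlive 0 Nat.zero_lt_one x z e hu)
    have hX20 : X2 ≠ [] := fun h0 => hnil (h0 ▸ hX2)
    rcases List.append_eq_append_iff.1 e with ⟨a, h3, h4⟩ | ⟨a, h3, h4⟩
    · -- X1 = u ++ a, Q = a ++ X2
      have ha : a ≠ [] := by
        rintro rfl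
        refine hnp u [] (by simp) ?_
        have : X1 = u := by simpa using h3
        rw [← this]; exact hX1
      have hr1 := run_block (T := T) hpre a u v ha (by rw [← h3]; exact hX1)
      have hr2 := run_block (T := T) hpre X2 [] (T v X1) hX20 (by simpa using hX2)
      rw [h4, run_append, hr1, ← h3, hr2]
      change ([], T (T v X1) ([] ++ X2)) = ([], pick {b | a ++ X2 ∈ RQ2 b})
      rw [← h4]
      rw [List.nil_append, hv]
    · exact absurd hX1 (hnp X1 a h3.symm)
  have regC : ∀ j < 2, ∀ b, (Language.IsRegular ({u | NoPre XX u ∧ (u, b) ∈ {p | (L j).C p}} :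
      Language α)) := by
    intro j hj b
    rcases Nat.lt_succ_iff_lt_or_eq.1 hj with hj | rfl
    · have : j = 0 := by omega
      subst this
      refine reg_congr (reg_and (reg_nopre hXX) (rL1 b)) fun w => ?_
      rw [L0]
      constructor
      · rintro ⟨ha, hb⟩; exact ⟨ha, ha, hb⟩
      · rintro ⟨ha, -, hb⟩; exact ⟨ha, hb⟩
    · refine reg_congr (reg_and (reg_nopre hXX) (rL2 b)) fun w => ?_
      rw [L1]
      constructor
      · rintro ⟨ha, hb⟩; exact ⟨ha, ha, hb⟩
      · rintro ⟨ha, -, hb⟩; exact ⟨ha, hb⟩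
  have regR : ∀ j < 2, (Language.IsRegular ({Q | (L j).R Q} : Language α)) := by
    intro j hj
    rcases Nat.lt_succ_iff_lt_or_eq.1 hj with hj | rfl
    · have : j = 0 := by omega
      subst this
      rw [L0]
      exact reg_exists _ rR1
    · rw [L1]
      exact reg_exists _ rR2
  refine NestInf_163.nested_infinite (bstep XX T) L 2 1 ([], v₀) F₀ ?_ ?_ ?_ ?_ ?_
  · intro j hj Q hQ h0
    subst h0
    rcases Nat.lt_succ_iff_lt_or_eq.1 hj with hj | rfl
    · have : j = 0 := by omega
      subst this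
      rw [L0] at hQ
      obtain ⟨b, hb⟩ := hQ
      exact n1 b hb
    · rw [L1] at hQ
      obtain ⟨b, hb⟩ := hQ
      exact n2 b hb
  · intro j hj
    refine (Set.finite_range (fun b : V => (([], b) : List α × V))).subset ?_
    rintro ω ⟨Q, -, rfl⟩
    rcases Nat.lt_succ_iff_lt_or_eq.1 hj with hj | rfl
    · have : j = 0 := by omega
      subst this
      rw [L0]
      exact ⟨_, rfl⟩
    · rw [L1]
      exact ⟨_, rfl⟩
  · intro j hj ω
    rcases Nat.lt_succ_iff_lt_or_eq.1 hj with hj | rfl
    · have : j = 0 := by omega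
      subst this
      rw [L0]
      exact mk_H XX LP1 RQ1 h1 ω
    · rw [L1]
      exact mk_H XX LP2 RQ2 h2 ω
  · intro i hi p Q hC hR hlive
    rcases Nat.lt_succ_iff_lt_or_eq.1 hi with hi | rfl
    · have : i = 0 := by omega
      subst this
      exact hs1 p Q hC hR
    · exact hs2 p Q hC hR hlive
  · intro p hp F hF
    have hp' : ∃ v, p = ([], v) := by
      rcases hp with rfl | ⟨j, hj, Q, -, rfl⟩
      · exact ⟨_, rfl⟩
      · rcases Nat.lt_succ_iff_lt_or_eq.1 hj with hj | rfl
        · have : j = 0 := by omega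
          subst this
          rw [L0]
          exact ⟨_, rfl⟩
        · rw [L1]
          exact ⟨_, rfl⟩
    obtain ⟨v, rfl⟩ := hp'
    have hFr : ∀ b, (Language.IsRegular ({u | NoPre XX u ∧ (u, b) ∈ F} : Language α)) := by
      rcases hF with rfl | ⟨j, hj, rfl⟩
      · exact hF₀
      · exact regC j hj
    -- live words have few blocks
    have hfew : ∀ w, Live (bstep XX T) L 2 ([], v) w → Few XX w := by
      intro w hw X hX X' hX' r e
      rcases cc X hX X' hX' v with hc | ⟨P, Q, b, e2, hlen, hP, hQ⟩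
      · obtain ⟨x, z, e3, hu⟩ := use1 [] v w X hX ⟨X' ++ r, by simpa using e⟩ hc
        exact hw 0 (by omega) x z e3 hu
      · have hPX : ∃ a, a ≠ [] ∧ P ++ a = X := by
          rcases List.append_eq_append_iff.1 e2 with ⟨a, h3, h4⟩ | ⟨a, h3, h4⟩
          · refine ⟨a, ?_, h3.symm⟩
            rintro rfl
            have := congrArg List.length h3
            rw [List.length_append, List.length_nil] at this
            omega
          · have := congrArg List.length h3
            rw [List.length_append] at this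
            omega
        obtain ⟨a, ha, ea⟩ := hPX
        have hnp : NoPre XX P := nopre_of_proper hpre ha (by rw [ea]; exact hX)
        refine hw 1 (by omega) P (Q ++ r) (by rw [← List.append_assoc, e2, ← e]; simp) ?_
        have := run_nopre (T := T) P [] v (by simpa using hnp)
        rw [this, L1]
        exact ⟨⟨by simpa using hnp, by simpa using hP⟩, Q, r, rfl, b, hQ⟩
    refine few _ ?_ fun w hw => hfew w hw.1
    -- the bad words
    have hD : (Language.IsRegular ({w | ∃ j : Fin 2, w ∈ ({w | ∃ x y, x ++ y = w ∧ x ∈ RF XX T v {p | (L j).C p} ∧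
        y ∈ ({y | ∃ Q t, Q ++ t = y ∧ Q ∈ ({Q | (L j).R Q} : Language α) ∧
          t ∈ ({_w | True} : Language α)} : Language α)} : Language α)} :
          Language α)) :=
      reg_exists _ fun j => reg_mul (reg_RF hT (regC j j.2) v)
        (reg_mul (regR j j.2) (reg_top (α := α)))
    refine reg_congr (reg_and (reg_few hXX) (reg_and (reg_not hD) (reg_RF hT hFr v))) fun w => ?_
    constructor
    · rintro ⟨ha, hb, hc⟩
      refine ⟨?_, (mem_RF hnil hpre ha).2 hc⟩
      rintro j hj x y e ⟨hC, Q, t, eQ, hR⟩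
      refine hb ⟨⟨j, hj⟩, x, y, e, ?_, Q, t, eQ, hR, trivial⟩
      have ha' : Few XX (x ++ y) := by rw [e]; exact ha
      exact (mem_RF hnil hpre ha'.left).1 hC
    · rintro ⟨ha, hb⟩
      have hf := hfew w ha
      refine ⟨hf, ?_, (mem_RF hnil hpre hf).1 hb⟩
      rintro ⟨j, x, y, e, hx, Q, t, eQ, hR, -⟩
      have hf' : Few XX (x ++ y) := by rw [e]; exact hf
      exact ha j j.2 x y e ⟨(mem_RF hnil hpre hf'.left).2 hx, Q, t, eQ, hR⟩

/-- **Top of the two-scheme chain.** -/
theorem top5 [Finite V] [AddCommGroup V] {S : Type*} [Monoid S] [Finite S] (f : α → S)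
    (act : V → S → V) (act_sub : ∀ v v' s, act (v - v') s = act v s - act v' s)
    (act_one : ∀ v, act v 1 = v) (act_mul : ∀ v s t, act (act v s) t = act v (s * t))
    (faith : ∀ s t, (∀ v, act v s = act v t) → s = t)
    (XX : Language α) (nu : List α → V) (T : V → List α → V)
    (hTdef : ∀ v X, X ∈ XX → T v X = act v (X.map f).prod + nu X)
    (LP1 RQ1 LP2 RQ2 : V → Language α)
    (hnil : [] ∉ XX) (hpre : ∀ X Y, X ∈ XX → X ++ Y ∈ XX → Y = [])
    (hXX : XX.IsRegular)
    (hT : ∀ v b, (Language.IsRegular ({X | X ∈ XX ∧ T v X = b} : Language α)))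
    (rL1 : ∀ v, (LP1 v).IsRegular) (rL2 : ∀ v, (LP2 v).IsRegular)
    (rR1 : ∀ v, (RQ1 v).IsRegular) (rR2 : ∀ v, (RQ2 v).IsRegular)
    (n1 : ∀ b, [] ∉ RQ1 b) (n2 : ∀ b, [] ∉ RQ2 b)
    (h1 : ∀ b, H 1 (RQ1 b)) (h2 : ∀ b, H 1 (RQ2 b))
    (s1 : ∀ v b P Q, P ∈ LP1 v → Q ∈ RQ1 b → P ++ Q ∈ XX ∧ T v (P ++ Q) = b)
    (s2 : ∀ v b P Q, P ∈ LP2 v → Q ∈ RQ2 b → NoPre XX P →
      (∀ X ∈ XX, X <+: P ++ Q → ¬ Cut1 LP1 RQ1 v X P.length) →
      ∃ X1 ∈ XX, ∃ X2 ∈ XX, P ++ Q = X1 ++ X2 ∧ T (T v X1) X2 = b)
    (cc : ∀ X ∈ XX, ∀ X' ∈ XX, ∀ v, Cut1 LP1 RQ1 v X 0 ∨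
      ∃ P Q b, P ++ Q = X ++ X' ∧ P.length < X.length ∧ P ∈ LP2 v ∧ Q ∈ RQ2 b)
    (few : ∀ L : Language α, L.IsRegular → (∀ w ∈ L, Few XX w) → H 1 L) (s : S) :
    H 3 ({w | (w.map f).prod = s} : Language α) := by
  have act_zero : ∀ s, act 0 s = 0 := by
    intro s
    have := act_sub 0 0 s
    rwa [sub_zero, sub_self] at this
  -- the thread languages
  have hth : ∀ v x : V, H 3 ({w | act (run (bstep XX T) w ([], v)).2
      ((run (bstep XX T) w ([], v)).1.map f).prod = x} : Language α) := by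
    intro v x
    have := threads XX T LP1 RQ1 LP2 RQ2 hnil hpre hXX hT rL1 rL2 rR1 rR2 n1 n2 h1 h2 s1 s2 cc
      few {p | act p.2 (p.1.map f).prod = x} (by
        intro b
        refine reg_and (reg_nopre hXX) ?_
        refine reg_congr (reg_exists (ι := S)
          (fun t => ({w | w ∈ ({w | (w.map f).prod = t} : Language α) ∧
            w ∈ ({_w | act b t = x} : Language α)} : Language α)) fun t =>
            reg_and (Reg_852.isRegular_prod f t) ?_) fun w => ?_
        · by_cases h : act b t = x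
          · exact reg_congr (reg_top (α := α)) fun w => ⟨fun _ => h, fun _ => trivial⟩
          · exact reg_congr (reg_empty (α := α)) fun w => ⟨fun h' => h'.elim, fun h' => h h'⟩
        · constructor
          · rintro ⟨t, ht, hb⟩
            have ht' : (w.map f).prod = t := ht
            change act b (w.map f).prod = x
            rw [ht']; exact hb
          · intro hb
            exact ⟨_, rfl, hb⟩) v
    exact this
  -- the invariant
  have inv : ∀ (v : V) (w : List α), ∃ w0 u x y, w = w0 ++ u ∧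
      run (bstep XX T) w ([], v) = (u, x) ∧ run (bstep XX T) w ([], 0) = (u, y) ∧
      x - y = act v (w0.map f).prod := by
    intro v w
    induction w using List.reverseRecOn with
    | nil =>
      refine ⟨[], [], v, 0, rfl, rfl, rfl, ?_⟩
      rw [sub_zero, List.map_nil, List.prod_nil, act_one]
    | append_singleton w c ih =>
      obtain ⟨w0, u, x, y, e, hx, hy, hd⟩ := ih
      have hrun : ∀ p, run (bstep XX T) (w ++ [c]) p =
          bstep XX T (run (bstep XX T) w p) c := by
        intro p; rw [run_append]; rfl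
      by_cases hc : u ++ [c] ∈ XX
      · refine ⟨w ++ [c], [], T x (u ++ [c]), T y (u ++ [c]), by simp, ?_, ?_, ?_⟩
        · rw [hrun, hx, bstep_in hc]
        · rw [hrun, hy, bstep_in hc]
        · rw [hTdef _ _ hc, hTdef _ _ hc, add_sub_add_right_eq_sub, ← act_sub, hd, act_mul,
            ← List.prod_append, ← List.map_append, e, List.append_assoc]
      · refine ⟨w0, u ++ [c], x, y, by rw [e, List.append_assoc], ?_, ?_, hd⟩
        · rw [hrun, hx, bstep_out hc]
        · rw [hrun, hy, bstep_out hc]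
  have key : ∀ (v : V) (w : List α),
      act (run (bstep XX T) w ([], v)).2 ((run (bstep XX T) w ([], v)).1.map f).prod -
      act (run (bstep XX T) w ([], 0)).2 ((run (bstep XX T) w ([], 0)).1.map f).prod =
      act v (w.map f).prod := by
    intro v w
    obtain ⟨w0, u, x, y, e, hx, hy, hd⟩ := inv v w
    rw [hx, hy]
    change act x (u.map f).prod - act y (u.map f).prod = _
    rw [← act_sub, hd, act_mul, ← List.prod_append, ← List.map_append, e]
  refine H.congr (H.forall_fintype (ι := V) (fun v => ({w | ∃ xy : V × V,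
    (w ∈ ({w | act (run (bstep XX T) w ([], v)).2
      ((run (bstep XX T) w ([], v)).1.map f).prod = xy.1} : Language α) ∧
    (w ∈ ({w | act (run (bstep XX T) w ([], 0)).2
      ((run (bstep XX T) w ([], 0)).1.map f).prod = xy.2} : Language α) ∧
    w ∈ ({_w | xy.1 - xy.2 = act v s} : Language α)))} : Language α)) fun v =>
      H.exists_fintype _ fun xy => H.inter (hth v xy.1) (H.inter (hth 0 xy.2) (H.const 3 _)))
      fun w => ?_
  constructor
  · intro h
    refine faith _ _ fun v => ?_
    obtain ⟨xy, hx, hy, hxy⟩ := h v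
    have hx' : _ = xy.1 := hx
    have hy' : _ = xy.2 := hy
    have hxy' : xy.1 - xy.2 = act v s := hxy
    rw [← key v w, ← hxy', ← hx', ← hy']
  · intro h v
    have h' : (w.map f).prod = s := h
    refine ⟨(_, _), rfl, rfl, ?_⟩
    change _ - _ = act v s
    rw [← h']
    exact key v w

end Crest.Agent.R320.Top5_903
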