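import Crest.Agent.R320.StepC_403
import Crest.Agent.R320.Hk2_851

/-!
# Row 320: TOP for ALL words, two schemes on one block code, one token system (helper403)

`Sys act φ` collects exactly what the concrete side has to give; conclusion: height `≤ 3`.
-/

set_option autoImplicit false

namespace Crest.Agent.R320.TopC_403

open Crest.RegLang Crest.Agent.R320.Hk_851 Crest.Agent.R320.StepC_403

universe u

variable {α : Type u} {S : Type*} {V : Type*}

/-- value of a word -/
def ph [Monoid S] (φ : α → S) (w : List α) : S := (w.map φ).prod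

/-- the concrete data: block code `Z`, bad blocks, noise `nu`, two schemes. -/
structure Sys [Monoid S] [AddCommGroup V] (act : V → S → V) (φ : α → S) where
  Z : Language α
  Bad : Language α
  nu : List α → V
  LP1 : V → Language α
  RQ1 : V → Language α
  LP2 : V → Language α
  RQ2 : V → Language α
  ne : [] ∉ Z
  code : ∀ X Y, X ∈ Z → X ++ Y ∈ Z → Y = []
  badZ : ∀ X ∈ Bad, X ∈ Z
  hZ : HL 2 Z
  hBad : HL 1 Bad
  hval : ∀ v v', HL 1 ({X | X ∈ Bad ∧ act v (ph φ X) + nu X = v'} : Language α)
  hLP1 : ∀ v, HL 2 (LP1 v)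
  hRQ1 : ∀ v, HL 2 (RQ1 v)
  hLP2 : ∀ v, HL 1 (LP2 v)
  hRQ2 : ∀ v, HL 1 (RQ2 v)
  sound1 : ∀ v v' P Q, P ∈ LP1 v → Q ∈ RQ1 v' → P ++ Q ∈ Z ∧ act v (ph φ (P ++ Q)) + nu (P ++ Q) = v'
  compl1 : ∀ X ∈ Z, X ∉ Bad → ∀ v, ∃ P Q v', P ++ Q = X ∧ P ∈ LP1 v ∧ Q ∈ RQ1 v'
  /-- soundness of the promise scheme: only on products of bad blocks -/
  sound2 : ∀ v v' P Q Y (L : List (List α)), (∀ X ∈ L, X ∈ Bad) → P ∈ LP2 v → Q ∈ RQ2 v' →
    P ++ Q ++ Y = L.flatten → ∃ L1 L2, L = L1 ++ L2 ∧ L1.flatten = P ++ Q ∧
      L1.foldl (fun v X => act v (ph φ X) + nu X) v = v'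
  /-- completeness of the promise scheme: two bad blocks -/
  compl2 : ∀ X ∈ Bad, ∀ X' ∈ Bad, ∀ v, ∃ P Q, P ++ Q = X ++ X' ∧ P ∈ LP2 v ∧
    Q ∈ RQ2 (act (act v (ph φ X) + nu X) (ph φ X') + nu X')
  /-- every word is a product of blocks and a rest; rests are easy -/
  parse : ∀ w : List α, ∃ L : List (List α), (∀ X ∈ L, X ∈ Z) ∧ ∃ E, w = L.flatten ++ E ∧
    ∀ X ∈ Z, ¬ X <+: E
  hrest : ∀ s, HL 3 ({E | (∀ X ∈ Z, ¬ X <+: E) ∧ ph φ E = s} : Language α)

theorem ph_append [Monoid S] (φ : α → S) (u v : List α) : ph φ (u ++ v) = ph φ u * ph φ v := by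
  simp [ph]

/-- prefix codes: a block list is a prefix of another one as soon as its word is -/
theorem parse_unique {Z : Language α} (ne : [] ∉ Z) (code : ∀ X Y, X ∈ Z → X ++ Y ∈ Z → Y = []) :
    ∀ (L' L : List (List α)) (Y : List α), (∀ X ∈ L', X ∈ Z) → (∀ X ∈ L, X ∈ Z) →
      L'.flatten ++ Y = L.flatten → ∃ L2, L = L' ++ L2 := by
  intro L'
  induction L' with
  | nil => intro L Y _ _ _; exact ⟨L, rfl⟩
  | cons X L' ih =>
    intro L Y hL' hL e
    have hX : X ∈ Z := hL' X (by simp)
    cases L with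
    | nil =>
      exfalso
      have : X ++ L'.flatten ++ Y = [] := by simpa using e
      have h1 : X = [] := by
        have := List.append_eq_nil_iff.1 this
        exact (List.append_eq_nil_iff.1 this.1).1
      exact ne (h1 ▸ hX)
    | cons X2 L =>
      have hX2 : X2 ∈ Z := hL X2 (by simp)
      have e' : X ++ (L'.flatten ++ Y) = X2 ++ L.flatten := by
        simpa using e
      rcases List.append_eq_append_iff.1 e' with ⟨a, h1, h2⟩ | ⟨a, h1, h2⟩
      · have ha : a = [] := code X a hX (h1 ▸ hX2)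
        subst ha
        have hXX : X2 = X := by simpa using h1
        subst hXX
        have e2 : L'.flatten ++ Y = L.flatten := by simpa using h2
        obtain ⟨L2, hL2⟩ := ih L Y (fun x hx => hL' x (by simp [hx])) (fun x hx => hL x (by simp [hx])) e2
        exact ⟨L2, by rw [hL2]; rfl⟩
      · have ha : a = [] := code X2 a hX2 (h1 ▸ hX)
        subst ha
        have hXX : X = X2 := by simpa using h1
        subst hXX
        have e2 : L'.flatten ++ Y = L.flatten := by simpa using h2.symm
        obtain ⟨L2, hL2⟩ := ih L Y (fun x hx => hL' x (by simp [hx])) (fun x hx => hL x (by simp [hx])) e2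
        exact ⟨L2, by rw [hL2]; rfl⟩

section

variable [Monoid S] [AddCommGroup V] {act : V → S → V} {φ : α → S}

/-- the zone map -/
def T (D : Sys act φ) (v : V) (X : List α) : V := act v (ph φ X) + D.nu X

theorem foldl_T (D : Sys act φ) (hadd : ∀ v v' s, act (v + v') s = act v s + act v' s)
    (hmul : ∀ v s t, act (act v s) t = act v (s * t)) (hone : ∀ v, act v 1 = v) :
    ∀ (L : List (List α)) (v : V),
      L.foldl (T D) v = act v (ph φ L.flatten) + L.foldl (T D) 0 := by
  have h0 : ∀ s, act 0 s = 0 := by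
    intro s
    have := hadd 0 0 s
    rw [add_zero] at this
    exact left_eq_add.1 this
  intro L
  induction L with
  | nil => intro v; simp [ph, hone]
  | cons X L ih =>
    intro v
    have e : (X :: L).flatten = X ++ L.flatten := by simp
    rw [List.foldl_cons, List.foldl_cons, ih (T D v X), ih (T D 0 X), e, ph_append, ← hmul]
    unfold T
    rw [hadd, hadd, h0, h0]
    abel

theorem top [Finite α] [Finite V] [Finite S] (D : Sys act φ)
    (hadd : ∀ v v' s, act (v + v') s = act v s + act v' s)
    (hmul : ∀ v s t, act (act v s) t = act v (s * t)) (hone : ∀ v, act v 1 = v)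
    (hfaith : ∀ s t, (∀ v, act v s = act v t) → s = t) (s : S) :
    HL 3 ({w | ph φ w = s} : Language α) := by
  classical
  -- the promise scheme on products of bad blocks
  let OkB : List (List α) → Prop := fun L => ∀ X ∈ L, X ∈ D.Bad
  let OkZ : List (List α) → Prop := fun L => ∀ X ∈ L, X ∈ D.Z
  let unc2 : V → V → Language α := fun v v' =>
    {w | (w = [] ∧ v = v') ∨ (w ∈ D.Bad ∧ act v (ph φ w) + D.nu w = v')}
  have hunc2 : ∀ v v', HL 1 (unc2 v v') := by
    intro v v'
    have h1 : HL 1 ({w | w = [] ∧ v = v'} : Language α) :=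
      HL.setOf_and ((HL.word (k := 1) ([] : List α)).congr fun w => Iff.rfl) (HL.const _)
    exact HL.setOf_or h1 (D.hval v v')
  obtain ⟨F2, hF2, sF2, cF2⟩ := step (k := 1) (T D) OkB
    (fun L1 L2 h X hX => h X (List.mem_append_left _ hX))
    (fun L1 L2 h X hX => h X (List.mem_append_right _ hX))
    D.LP2 D.RQ2 D.hLP2 D.hRQ2
    (fun v v' P Q Y L hL hP hQ e => D.sound2 v v' P Q Y L hL hP hQ e)
    unc2 hunc2
    (by
      intro v v' M Y L hL hM e
      rcases hM with ⟨rfl, rfl⟩ | ⟨hM, hv⟩
      · exact ⟨[], L, rfl, rfl, rfl⟩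
      · obtain ⟨L2, hL2⟩ := parse_unique D.ne D.code [M] L Y
          (fun X hX => by rw [List.mem_singleton.1 hX]; exact D.badZ _ hM)
          (fun X hX => D.badZ _ (hL X hX)) (by simpa using e)
        exact ⟨[M], L2, hL2, by simp, by simpa [T] using hv⟩)
    (by
      intro L v hL
      match L, hL with
      | [], _ => left; exact Or.inl ⟨rfl, rfl⟩
      | [X], hL =>
        left
        right
        refine ⟨by simpa using hL X (by simp), ?_⟩
        simp [T]
      | X :: X' :: L, hL =>
        right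
        obtain ⟨P, Q, h1, h2, h3⟩ := D.compl2 X (hL X (by simp)) X' (hL X' (by simp)) v
        refine ⟨[], [X, X'], L, P, Q, rfl, by simp, Or.inl ⟨rfl, rfl⟩, h2, ?_, ?_⟩
        · simpa [T] using h3
        · simpa using h1)
  -- runs through bad blocks
  let BS : Language α := KStar.kstar D.Bad
  have hBS : HL 2 BS := D.hBad.star
  let unc1 : V → V → Language α := fun v v' => BS ⊓ F2 v v'
  have hunc1 : ∀ v v', HL 2 (unc1 v v') := fun v v' => hBS.inf (hF2 v v')
  obtain ⟨F1, hF1, sF1, cF1⟩ := step (k := 2) (T D) OkZ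
    (fun L1 L2 h X hX => h X (List.mem_append_left _ hX))
    (fun L1 L2 h X hX => h X (List.mem_append_right _ hX))
    D.LP1 D.RQ1 D.hLP1 D.hRQ1
    (by
      intro v v' P Q Y L hL hP hQ e
      obtain ⟨h1, h2⟩ := D.sound1 v v' P Q hP hQ
      obtain ⟨L2, hL2⟩ := parse_unique D.ne D.code [P ++ Q] L Y
        (fun X hX => by rw [List.mem_singleton.1 hX]; exact h1) hL (by simpa using e)
      exact ⟨[P ++ Q], L2, hL2, by simp, by simpa [T] using h2⟩)
    unc1 hunc1
    (by
      intro v v' M Y L hL hM e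
      obtain ⟨hM1, hM2⟩ := hM
      obtain ⟨Lb, rfl, hLb⟩ := Language.mem_kstar.1 hM1
      obtain ⟨L2, hL2⟩ := parse_unique D.ne D.code Lb L Y (fun X hX => D.badZ _ (hLb X hX)) hL e
      obtain ⟨L3, L4, h1, h2, h3⟩ := sF2 v v' Lb.flatten [] Lb hLb hM2 (by simp)
      have h4 : L4 = [] := by
        have h5 : L4.flatten = [] := by
          have h6 := congrArg List.flatten h1
          rw [List.flatten_append, h2] at h6
          exact List.self_eq_append_right.1 h6
        cases L4 with
        | nil => rfl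
        | cons X L4 =>
          exfalso
          have h7 : X = [] := by
            have : X ++ L4.flatten = [] := by simpa using h5
            exact (List.append_eq_nil_iff.1 this).1
          exact D.ne (h7 ▸ D.badZ _ (hLb X (by rw [h1]; simp)))
      subst h4
      have h8 : Lb = L3 := by simpa using h1
      exact ⟨Lb, L2, hL2, rfl, by rw [h8]; exact h3⟩)
    (by
      intro L v hL
      -- first good block
      have : ∀ (L : List (List α)), (∀ X ∈ L, X ∈ D.Bad) ∨
          ∃ L1 X L3, L = L1 ++ X :: L3 ∧ (∀ Y ∈ L1, Y ∈ D.Bad) ∧ X ∉ D.Bad := by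
        intro L
        induction L with
        | nil => left; intro X hX; simp at hX
        | cons X L ih =>
          by_cases hX : X ∈ D.Bad
          · rcases ih with h | ⟨L1, Y, L3, h1, h2, h3⟩
            · left
              intro Y hY
              rcases List.mem_cons.1 hY with rfl | hY
              · exact hX
              · exact h Y hY
            · right
              refine ⟨X :: L1, Y, L3, by rw [h1]; rfl, ?_, h3⟩
              intro W hW
              rcases List.mem_cons.1 hW with rfl | hW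
              · exact hX
              · exact h2 W hW
          · right
            exact ⟨[], X, L, rfl, by simp, hX⟩
      rcases this L with h | ⟨L1, X, L3, h1, h2, h3⟩
      · left
        exact ⟨Language.mem_kstar.2 ⟨L, rfl, h⟩, cF2 L v h⟩
      · right
        have hX : X ∈ D.Z := hL X (by rw [h1]; simp)
        obtain ⟨P, Q, v', h4, h5, h6⟩ := D.compl1 X hX h3 (L1.foldl (T D) v)
        have h7 := (D.sound1 _ _ P Q h5 h6).2
        refine ⟨L1, [X], L3, P, Q, by rw [h1]; simp, by simp, ?_, h5, ?_, by simpa using h4⟩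
        · exact ⟨Language.mem_kstar.2 ⟨L1, rfl, h2⟩, cF2 L1 v h2⟩
        · have h8 : [X].foldl (T D) (L1.foldl (T D) v) = v' := by
            simp only [List.foldl_cons, List.foldl_nil, T]
            rw [← h7, h4]
          rw [h8]; exact h6)
  -- reading
  let ZS : Language α := KStar.kstar D.Z
  have hZS : HL 3 ZS := D.hZ.star
  let G : S → Language α := fun s1 => {M | ∃ y : V, ∀ v : V, M ∈ F1 v (act v s1 + y)}
  have hG : ∀ s1, HL 3 (G s1) := fun s1 => HL.iUnion fun y => HL.iInter fun v => hF1 _ _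
  have hGr : ∀ s1 M, M ∈ ZS → M ∈ G s1 → ph φ M = s1 := by
    intro s1 M hM ⟨y, hy⟩
    obtain ⟨L, rfl, hL⟩ := Language.mem_kstar.1 hM
    have key : ∀ v, L.foldl (T D) v = act v s1 + y := by
      intro v
      obtain ⟨L3, L4, h1, h2, h3⟩ := sF1 v _ L.flatten [] L hL (hy v) (by simp)
      have h4 : L4 = [] := by
        have h5 : L4.flatten = [] := by
          have h6 := congrArg List.flatten h1
          rw [List.flatten_append, h2] at h6
          exact List.self_eq_append_right.1 h6
        cases L4 with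
        | nil => rfl
        | cons X L4 =>
          exfalso
          have h7 : X = [] := by
            have : X ++ L4.flatten = [] := by simpa using h5
            exact (List.append_eq_nil_iff.1 this).1
          exact D.ne (h7 ▸ hL X (by rw [h1]; simp))
      subst h4
      have h8 : L = L3 := by simpa using h1
      rw [h8]; exact h3
    have h0 : ∀ s, act 0 s = 0 := by
      intro s
      have := hadd 0 0 s
      rw [add_zero] at this
      exact left_eq_add.1 this
    have k0 := key 0
    rw [h0, zero_add] at k0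
    apply hfaith
    intro v
    have k1 := key v
    rw [foldl_T D hadd hmul hone, k0] at k1
    exact add_right_cancel k1
  have hGc : ∀ L : List (List α), OkZ L → L.flatten ∈ G (ph φ L.flatten) := by
    intro L hL
    refine ⟨L.foldl (T D) 0, fun v => ?_⟩
    rw [← foldl_T D hadd hmul hone]
    exact cF1 L v hL
  let Rs : S → Language α := fun t => {E | (∀ X ∈ D.Z, ¬ X <+: E) ∧ ph φ E = t}
  have hRs : ∀ t, HL 3 (Rs t) := fun t => D.hrest t
  have hprod : ∀ p : S × S, HL 3 ((ZS ⊓ G p.1) * Rs p.2) := fun p => (hZS.inf (hG _)).mul (hRs _)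
  have hfin : HL 3 ({w | ∃ p : S × S, p.1 * p.2 = s ∧ w ∈ (ZS ⊓ G p.1) * Rs p.2} : Language α) :=
    HL.iUnion (ι := S × S) (L := fun p => {w | p.1 * p.2 = s ∧ w ∈ (ZS ⊓ G p.1) * Rs p.2})
      fun p => HL.setOf_and (HL.const _) (hprod p)
  refine hfin.congr fun w => ?_
  constructor
  · intro hw
    obtain ⟨L, hL, E, rfl, hE⟩ := D.parse w
    refine ⟨(ph φ L.flatten, ph φ E), ?_, ?_⟩
    · rw [← ph_append]; exact hw
    · exact Language.mem_mul.2 ⟨L.flatten, ⟨Language.mem_kstar.2 ⟨L, rfl, hL⟩, hGc L hL⟩, E, ⟨hE, rfl⟩, rfl⟩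
  · rintro ⟨p, hp, hw⟩
    obtain ⟨M, ⟨hM1, hM2⟩, E, ⟨hE1, hE2⟩, rfl⟩ := Language.mem_mul.1 hw
    show ph φ (M ++ E) = s
    rw [ph_append, hGr _ M hM1 hM2, hE2, hp]

end

end Crest.Agent.R320.TopC_403
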