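import Crest.Agent.R320.Hk2_851

/-!
# Row 320: top theorem in language form (helper609)

Blocks form a prefix code `XX` (blocks may be unbounded); a token `v` is transported across a block
`X` to `T v X`.  Two cut systems: `(LP1, RQ1)` sound on every text; `(LP2, RQ2)` sound across a block
which is not cut by the first one, its right words contain the rest of the block and one more block.
Every pair of consecutive blocks is cut by the first system in its first block or by the second one.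
Then all fibres of `φ` have generalized star height at most three.
-/

set_option autoImplicit false

namespace Crest.Agent.R320.TopL_609

open Crest.RegLang Crest.Agent.R320.Hk_851
open scoped Computability

universe u

variable {α : Type u} {V : Type*} {k : ℕ}

theorem hl_ex {ι : Type*} [Finite ι] {p : ι → List α → Prop}
    (h : ∀ i, HL k ({w | p i w} : Language α)) : HL k ({w | ∃ i, p i w} : Language α) :=
  HL.iUnion (L := fun i => ({w | p i w} : Language α)) h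

theorem mem_prod {L M : Language α} {w : List α} : w ∈ L * M ↔ ∃ u ∈ L, ∃ v ∈ M, u ++ v = w :=
  Language.mem_mul

section defs

variable (XX : Set (List α)) (T : V → List α → V) (LP1 RQ1 LP2 RQ2 : V → Language α)

/-- noisy run along a list of blocks -/
def run (v : V) (l : List (List α)) : V := l.foldl T v

/-- the block `X` is cut by the first system for the token `v` -/
def Cut1 (v : V) (X : List α) : Prop := ∃ P Q b, P ++ Q = X ∧ P ∈ LP1 v ∧ Q ∈ RQ1 b

/-- no block is cut by the first system -/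
def Unc : V → List (List α) → Prop
  | _, [] => True
  | v, X :: l => ¬ Cut1 LP1 RQ1 v X ∧ Unc (T v X) l

def Blk (l : List (List α)) : Prop := ∀ X ∈ l, X ∈ XX

def NoPre (E : List α) : Prop := ∀ X ∈ XX, ¬ X <+: E

def Live (b : V) (w : List α) : Prop :=
  ∃ l E, Blk XX l ∧ NoPre XX E ∧ w = l.flatten ++ E ∧ Unc T LP1 RQ1 b l

inductive Z : V → V → List α → Prop
  | nil (b : V) : Z b b []
  | one (b : V) (X : List α) : X ∈ XX → Z b (T b X) X
  | step {b b' v : V} {P Q w : List α} : P ∈ LP2 b → Q ∈ RQ2 b' → Z b' v w →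
      Z b v (P ++ (Q ++ w))

def Dead (b : V) (w : List α) : Prop :=
  ∃ v b' x P Q y, w = x ++ (P ++ (Q ++ y)) ∧ Z XX T LP2 RQ2 b v x ∧ P ∈ LP1 v ∧ Q ∈ RQ1 b'

structure Hyp : Prop where
  nil : [] ∉ XX
  pc : ∀ X X' E E' : List α, X ∈ XX → X' ∈ XX → X ++ E = X' ++ E' → X = X'
  s1 : ∀ v b P Q, P ∈ LP1 v → Q ∈ RQ1 b → P ++ Q ∈ XX ∧ T v (P ++ Q) = b
  s2 : ∀ v b P Q R X R', P ∈ LP2 v → Q ∈ RQ2 b → P ++ Q ++ R = X ++ R' → X ∈ XX →
    ¬ Cut1 LP1 RQ1 v X → ∃ X2 ∈ XX, P ++ Q = X ++ X2 ∧ T (T v X) X2 = b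
  s2' : ∀ v b P Q, P ∈ LP2 v → Q ∈ RQ2 b → ∃ X ∈ XX, X <+: P ++ Q
  cc : ∀ v X X', X ∈ XX → X' ∈ XX → Cut1 LP1 RQ1 v X ∨
    ∃ P Q b, P ++ Q = X ++ X' ∧ P ∈ LP2 v ∧ Q ∈ RQ2 b

end defs

variable {XX : Set (List α)} {T : V → List α → V} {LP1 RQ1 LP2 RQ2 : V → Language α}

theorem run_append (v : V) (l l' : List (List α)) :
    run T v (l ++ l') = run T (run T v l) l' := by
  unfold run; rw [List.foldl_append]

theorem unc_append {v : V} {l l' : List (List α)} :
    Unc T LP1 RQ1 v (l ++ l') ↔ Unc T LP1 RQ1 v l ∧ Unc T LP1 RQ1 (run T v l) l' := by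
  induction l generalizing v with
  | nil => simp [Unc, run]
  | cons X l ih =>
    simp only [List.cons_append, Unc, run, List.foldl_cons]
    rw [ih]
    simp only [run]
    tauto

theorem first_cut {v : V} {l : List (List α)} (h : ¬ Unc T LP1 RQ1 v l) :
    ∃ l1 X l2, l = l1 ++ X :: l2 ∧ Unc T LP1 RQ1 v l1 ∧ Cut1 LP1 RQ1 (run T v l1) X := by
  induction l generalizing v with
  | nil => exact absurd trivial h
  | cons X l ih =>
    by_cases hc : Cut1 LP1 RQ1 v X
    · exact ⟨[], X, l, rfl, trivial, hc⟩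
    · have h2 : ¬ Unc T LP1 RQ1 (T v X) l := fun h3 => h ⟨hc, h3⟩
      obtain ⟨l1, Y, l2, e, h3, h4⟩ := ih h2
      exact ⟨X :: l1, Y, l2, by rw [e]; rfl, ⟨hc, h3⟩, h4⟩

theorem parse (nil : [] ∉ XX) (w : List α) :
    ∃ l E, Blk XX l ∧ NoPre XX E ∧ w = l.flatten ++ E := by
  induction hn : w.length using Nat.strong_induction_on generalizing w with
  | _ n ih =>
    by_cases h : NoPre XX w
    · exact ⟨[], w, fun X hX => by simp at hX, h, by simp⟩
    · unfold NoPre at h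
      push Not at h
      obtain ⟨X, hX, w', rfl⟩ := h
      have hne : X ≠ [] := fun e => nil (e ▸ hX)
      have hpos : 0 < X.length := List.length_pos_iff.2 hne
      obtain ⟨l, E, h1, h2, h3⟩ := ih w'.length
        (by rw [← hn, List.length_append]; omega) w' rfl
      refine ⟨X :: l, E, ?_, h2, ?_⟩
      · intro Y hY
        rcases List.mem_cons.1 hY with rfl | hY
        · exact hX
        · exact h1 Y hY
      · rw [List.flatten_cons, List.append_assoc, ← h3]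

section hyp

variable (H : Hyp XX T LP1 RQ1 LP2 RQ2)
include H

theorem noPre_nil : NoPre XX ([] : List α) := by
  intro X hX hp
  have : X = [] := List.prefix_nil.1 hp
  exact H.nil (this ▸ hX)

theorem live_split {b : V} {X R : List α} (hX : X ∈ XX) (h : Live XX T LP1 RQ1 b (X ++ R)) :
    ¬ Cut1 LP1 RQ1 b X ∧ Live XX T LP1 RQ1 (T b X) R := by
  obtain ⟨l, E, h1, h2, h3, h4⟩ := h
  cases l with
  | nil =>
    exfalso
    refine h2 X hX ⟨R, ?_⟩
    rw [h3]; simp
  | cons Y l =>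
    rw [List.flatten_cons, List.append_assoc] at h3
    have hY : Y ∈ XX := h1 Y (by simp)
    have e := H.pc _ _ _ _ hX hY h3
    subst e
    have h3' := List.append_cancel_left h3
    exact ⟨h4.1, l, E, fun Z hZ => h1 Z (by simp [hZ]), h2, h3', h4.2⟩

theorem z_sound {b v : V} {M : List α} (hZ : Z XX T LP2 RQ2 b v M) :
    ∀ R, Live XX T LP1 RQ1 b (M ++ R) →
      ∃ l, Blk XX l ∧ l.flatten = M ∧ run T b l = v ∧ Unc T LP1 RQ1 b l ∧
        Live XX T LP1 RQ1 v R := by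
  induction hZ with
  | nil b =>
    intro R h
    exact ⟨[], fun X hX => by simp at hX, rfl, rfl, trivial, by simpa using h⟩
  | one b X hX =>
    intro R h
    obtain ⟨h1, h2⟩ := live_split H hX h
    refine ⟨[X], fun Y hY => ?_, by simp, rfl, ⟨h1, trivial⟩, h2⟩
    rw [List.mem_singleton] at hY
    rw [hY]; exact hX
  | @step b b' v P Q w hP hQ hw ih =>
    intro R h
    obtain ⟨X, hX, E1, hE1⟩ := H.s2' b b' P Q hP hQ
    have e1 : P ++ (Q ++ w) ++ R = X ++ (E1 ++ (w ++ R)) := by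
      rw [← List.append_assoc X, hE1]; simp
    rw [e1] at h
    obtain ⟨h1, h2⟩ := live_split H hX h
    obtain ⟨X2, hX2, h3, h4⟩ := H.s2 b b' P Q (w ++ R) X (E1 ++ (w ++ R)) hP hQ
      (by rw [← e1]; simp) hX h1
    have e2 : E1 = X2 := by
      rw [← hE1] at h3
      exact List.append_cancel_left h3
    subst e2
    obtain ⟨h5, h6⟩ := live_split H hX2 h2
    rw [h4] at h6
    obtain ⟨l, a1, a2, a3, a4, a5⟩ := ih R h6
    refine ⟨X :: E1 :: l, ?_, ?_, ?_, ?_, a5⟩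
    · intro Y hY
      rcases List.mem_cons.1 hY with rfl | hY
      · exact hX
      rcases List.mem_cons.1 hY with rfl | hY
      · exact hX2
      · exact a1 Y hY
    · rw [List.flatten_cons, List.flatten_cons, a2, ← List.append_assoc, ← h3, List.append_assoc]
    · show run T (T (T b X) E1) l = v
      rw [h4]; exact a3
    · refine ⟨h1, h5, ?_⟩
      rw [h4]; exact a4

theorem z_complete : ∀ (l : List (List α)) (b : V), Blk XX l → Unc T LP1 RQ1 b l →
    Z XX T LP2 RQ2 b (run T b l) l.flatten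
  | [], b, _, _ => by
    exact Z.nil b
  | [X], b, hl, _ => by
    have := Z.one (T := T) (LP2 := LP2) (RQ2 := RQ2) b X (hl X (by simp))
    simpa [run] using this
  | X :: X' :: l, b, hl, hu => by
    obtain ⟨h1, h2, h3⟩ := hu
    have hX : X ∈ XX := hl X (by simp)
    have hX' : X' ∈ XX := hl X' (by simp)
    rcases H.cc b X X' hX hX' with hc | ⟨P, Q, b', e, hP, hQ⟩
    · exact absurd hc h1
    · obtain ⟨X2, hX2, e2, h4⟩ := H.s2 b b' P Q [] X X' hP hQ (by rw [List.append_nil, e]) hX h1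
      have e3 : X' = X2 := by
        rw [e] at e2
        exact List.append_cancel_left e2
      subst e3
      have ih := z_complete l (T (T b X) X') (fun Y hY => hl Y (by simp [hY])) h3
      rw [h4] at ih
      have := Z.step (T := T) (XX := XX) hP hQ ih
      have e4 : (X :: X' :: l).flatten = P ++ (Q ++ l.flatten) := by
        rw [List.flatten_cons, List.flatten_cons, ← List.append_assoc, ← e, List.append_assoc]
      rw [e4]
      have e5 : run T b (X :: X' :: l) = run T b' l := by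
        rw [← h4]; rfl
      rw [e5]
      exact this

theorem live_iff (b : V) (w : List α) :
    Live XX T LP1 RQ1 b w ↔ ¬ Dead XX T LP1 RQ1 LP2 RQ2 b w := by
  constructor
  · rintro hL ⟨v, b', x, P, Q, y, rfl, hZ, hP, hQ⟩
    obtain ⟨l, -, -, -, -, h5⟩ := z_sound H hZ _ hL
    obtain ⟨h6, -⟩ := H.s1 v b' P Q hP hQ
    rw [← List.append_assoc] at h5
    exact (live_split H h6 h5).1 ⟨P, Q, b', rfl, hP, hQ⟩
  · intro hD
    obtain ⟨l, E, h1, h2, h3⟩ := parse H.nil w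
    by_contra hL
    have hu : ¬ Unc T LP1 RQ1 b l := fun hu => hL ⟨l, E, h1, h2, h3, hu⟩
    obtain ⟨l1, X, l2, rfl, h4, P, Q, b', h5, hP, hQ⟩ := first_cut hu
    refine hD ⟨run T b l1, b', l1.flatten, P, Q, l2.flatten ++ E, ?_,
      z_complete H l1 b (fun Y hY => h1 Y (by simp [hY])) h4, hP, hQ⟩
    rw [h3, List.flatten_append, List.flatten_cons, ← h5]
    simp

end hyp

/-- uncut block words -/
def U (XX : Set (List α)) (T : V → List α → V) (LP1 RQ1 : V → Language α) (b v : V) :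
    Language α :=
  {M | ∃ l, Blk XX l ∧ l.flatten = M ∧ run T b l = v ∧ Unc T LP1 RQ1 b l}

theorem u_iff (H : Hyp XX T LP1 RQ1 LP2 RQ2) (b v : V) (M : List α) :
    M ∈ U XX T LP1 RQ1 b v ↔ Z XX T LP2 RQ2 b v M ∧ ¬ Dead XX T LP1 RQ1 LP2 RQ2 b M := by
  rw [← live_iff H]
  constructor
  · rintro ⟨l, h1, rfl, rfl, h4⟩
    exact ⟨z_complete H l b h1 h4, l, [], h1, noPre_nil H, by simp, h4⟩
  · rintro ⟨h1, h2⟩
    obtain ⟨l, a1, a2, a3, a4, -⟩ := z_sound H h1 [] (by simpa using h2)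
    exact ⟨l, a1, a2, a3, a4⟩

/-- at most one block -/
def One (XX : Set (List α)) (T : V → List α → V) (b v : V) : Language α :=
  {M | (M = [] ∧ b = v) ∨ (M ∈ XX ∧ T b M = v)}

def K2 (LP2 RQ2 : V → Language α) : Language α :=
  {w | ∃ b : V, w ∈ (RQ2 b * LP2 b)}

theorem kstar_cons {K : Language α} {x y : List α} (hx : x ∈ K) (hy : y ∈ K∗) : x ++ y ∈ K∗ := by
  rw [Language.mem_kstar] at hy ⊢
  obtain ⟨L, rfl, hL⟩ := hy
  refine ⟨x :: L, by simp, fun z hz => ?_⟩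
  rcases List.mem_cons.1 hz with rfl | hz
  · exact hx
  · exact hL z hz

theorem z_iff (b v : V) (w : List α) : Z XX T LP2 RQ2 b v w ↔ w ∈ One XX T b v ∨
    ∃ b', w ∈ (LP2 b * ((K2 LP2 RQ2)∗ * (RQ2 b' * One XX T b' v))) := by
  constructor
  · intro h
    induction h with
    | nil b => exact Or.inl (Or.inl ⟨rfl, rfl⟩)
    | one b X hX => exact Or.inl (Or.inr ⟨hX, rfl⟩)
    | @step b b' v P Q w hP hQ hw ih =>
      right
      rcases ih with h1 | ⟨b'', h1⟩
      · refine ⟨b', mem_prod.2 ⟨P, hP, Q ++ w, mem_prod.2 ⟨[], ?_, Q ++ w,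
          mem_prod.2 ⟨Q, hQ, w, h1, rfl⟩, rfl⟩, rfl⟩⟩
        rw [Language.mem_kstar]
        exact ⟨[], rfl, fun y hy => by simp at hy⟩
      · obtain ⟨P', hP', z, hz, rfl⟩ := mem_prod.1 h1
        obtain ⟨kk, hk, z', hz', rfl⟩ := mem_prod.1 hz
        refine ⟨b'', mem_prod.2 ⟨P, hP, (Q ++ P') ++ kk ++ z', mem_prod.2
          ⟨(Q ++ P') ++ kk, kstar_cons ⟨b', mem_prod.2 ⟨Q, hQ, P', hP', rfl⟩⟩ hk, z', hz', rfl⟩,
          ?_⟩⟩
        simp
  · rintro (h | ⟨b', h⟩)
    · rcases h with ⟨rfl, rfl⟩ | ⟨h1, rfl⟩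
      · exact Z.nil b
      · exact Z.one b w h1
    · obtain ⟨P, hP, z, hz, rfl⟩ := mem_prod.1 h
      obtain ⟨kk, hk, z', hz', rfl⟩ := mem_prod.1 hz
      obtain ⟨Q, hQ, t, ht, rfl⟩ := mem_prod.1 hz'
      obtain ⟨L, rfl, hL⟩ := (Language.mem_kstar).1 hk
      clear h hz hk hz'
      induction L generalizing b P with
      | nil =>
        have h0 : Z XX T LP2 RQ2 b' v t := by
          rcases ht with ⟨rfl, rfl⟩ | ⟨h1, rfl⟩
          · exact Z.nil _
          · exact Z.one _ _ h1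
        have := Z.step hP hQ h0
        simpa using this
      | cons y L ih =>
        obtain ⟨b0, hy⟩ := hL y (by simp)
        obtain ⟨Q0, hQ0, P0, hP0, rfl⟩ := mem_prod.1 hy
        have := Z.step (T := T) (XX := XX) hP hQ0
          (ih b0 P0 hP0 (fun z hz => hL z (by simp [hz])))
        simpa using this

/-- all block words -/
def B (XX : Set (List α)) (T : V → List α → V) (b v : V) : Language α :=
  {M | ∃ l, Blk XX l ∧ l.flatten = M ∧ run T b l = v}

def K1 (XX : Set (List α)) (T : V → List α → V) (LP1 RQ1 : V → Language α) : Language α :=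
  {w | ∃ p : V × V, w ∈ (RQ1 p.1 * (U XX T LP1 RQ1 p.1 p.2 * LP1 p.2))}

theorem blk_append {l l' : List (List α)} (h : Blk XX l) (h' : Blk XX l') : Blk XX (l ++ l') := by
  intro X hX
  rcases List.mem_append.1 hX with hX | hX
  · exact h X hX
  · exact h' X hX

theorem b_sound (H : Hyp XX T LP1 RQ1 LP2 RQ2) (L : List (List α)) :
    ∀ (b v v1 b1 : V) (x P Q y : List α), x ∈ U XX T LP1 RQ1 b v1 → P ∈ LP1 v1 →
      (∀ z ∈ L, z ∈ K1 XX T LP1 RQ1) → Q ∈ RQ1 b1 → y ∈ U XX T LP1 RQ1 b1 v →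
      x ++ (P ++ (L.flatten ++ (Q ++ y))) ∈ B XX T b v := by
  induction L with
  | nil =>
    rintro b v v1 b1 x P Q y ⟨l, h1, rfl, rfl, h4⟩ hP - hQ ⟨l', a1, rfl, rfl, a4⟩
    obtain ⟨c1, c2⟩ := H.s1 _ _ P Q hP hQ
    refine ⟨l ++ (P ++ Q) :: l', blk_append h1 ?_, by simp, ?_⟩
    · intro X hX
      rcases List.mem_cons.1 hX with rfl | hX
      · exact c1
      · exact a1 X hX
    · rw [run_append]
      show run T (T (run T b l) (P ++ Q)) l' = _
      rw [c2]
  | cons z L ih =>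
    rintro b v v1 b1 x P Q y ⟨l, h1, rfl, rfl, h4⟩ hP hL hQ hy
    obtain ⟨⟨b0, v0⟩, hz⟩ := hL z (by simp)
    obtain ⟨Q0, hQ0, z', hz', rfl⟩ := mem_prod.1 hz
    obtain ⟨M0, hM0, P0, hP0, rfl⟩ := mem_prod.1 hz'
    obtain ⟨l', a1, a2, a3⟩ := ih b0 v v0 b1 M0 P0 Q y hM0 hP0 (fun z hz => hL z (by simp [hz]))
      hQ hy
    obtain ⟨c1, c2⟩ := H.s1 _ _ P Q0 hP hQ0
    refine ⟨l ++ (P ++ Q0) :: l', blk_append h1 ?_, ?_, ?_⟩
    · intro X hX
      rcases List.mem_cons.1 hX with rfl | hX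
      · exact c1
      · exact a1 X hX
    · rw [List.flatten_append, List.flatten_cons, a2]
      simp
    · rw [run_append]
      show run T (T (run T b l) (P ++ Q0)) l' = _
      rw [c2]
      exact a3

theorem b_complete (H : Hyp XX T LP1 RQ1 LP2 RQ2) (n : ℕ) : ∀ (l : List (List α)) (b : V),
    l.length = n → Blk XX l →
    l.flatten ∈ U XX T LP1 RQ1 b (run T b l) ∨
    ∃ p : V × V, l.flatten ∈ (U XX T LP1 RQ1 b p.1 * (LP1 p.1 *
      ((K1 XX T LP1 RQ1)∗ * (RQ1 p.2 * U XX T LP1 RQ1 p.2 (run T b l))))) := by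
  induction n using Nat.strong_induction_on with
  | _ n ih =>
    intro l b hn hl
    by_cases hu : Unc T LP1 RQ1 b l
    · exact Or.inl ⟨l, hl, rfl, rfl, hu⟩
    · right
      obtain ⟨l1, X, l2, rfl, h4, P, Q, b', h5, hP, hQ⟩ := first_cut hu
      have hX : X ∈ XX := hl X (by simp)
      have hx : l1.flatten ∈ U XX T LP1 RQ1 b (run T b l1) :=
        ⟨l1, fun Y hY => hl Y (by simp [hY]), rfl, rfl, h4⟩
      obtain ⟨c1, c2⟩ := H.s1 _ _ P Q hP hQ
      rw [h5] at c1 c2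
      have hr : run T b (l1 ++ X :: l2) = run T b' l2 := by
        rw [run_append]
        show run T (T (run T b l1) X) l2 = _
        rw [c2]
      have hf : (l1 ++ X :: l2).flatten = l1.flatten ++ (P ++ (Q ++ l2.flatten)) := by
        rw [List.flatten_append, List.flatten_cons, ← h5, List.append_assoc]
      rw [hr, hf]
      have hlt : l2.length < n := by
        rw [← hn, List.length_append, List.length_cons]; omega
      rcases ih l2.length hlt l2 b' rfl (fun Y hY => hl Y (by simp [hY])) with h6 | ⟨⟨v2, b2⟩, h6⟩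
      · refine ⟨(run T b l1, b'), mem_prod.2 ⟨_, hx, _, mem_prod.2 ⟨P, hP, Q ++ l2.flatten,
          mem_prod.2 ⟨[], ?_, _, mem_prod.2 ⟨Q, hQ, _, h6, rfl⟩, rfl⟩, rfl⟩, rfl⟩⟩
        rw [Language.mem_kstar]
        exact ⟨[], rfl, fun y hy => by simp at hy⟩
      · obtain ⟨x2, hx2, z, hz, e1⟩ := mem_prod.1 h6
        obtain ⟨P2, hP2, z', hz', rfl⟩ := mem_prod.1 hz
        obtain ⟨kk, hk, z'', hz'', rfl⟩ := mem_prod.1 hz'
        refine ⟨(run T b l1, b2), mem_prod.2 ⟨_, hx, _, mem_prod.2 ⟨P, hP,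
          (Q ++ (x2 ++ P2)) ++ kk ++ z'', mem_prod.2 ⟨(Q ++ (x2 ++ P2)) ++ kk, kstar_cons
            ⟨(b', v2), mem_prod.2 ⟨Q, hQ, _, mem_prod.2 ⟨x2, hx2, P2, hP2, rfl⟩, rfl⟩⟩ hk, z'',
            hz'', rfl⟩, rfl⟩, ?_⟩⟩
        rw [← e1]
        simp

theorem b_iff (H : Hyp XX T LP1 RQ1 LP2 RQ2) (b v : V) (M : List α) :
    M ∈ B XX T b v ↔ M ∈ U XX T LP1 RQ1 b v ∨
    ∃ p : V × V, M ∈ (U XX T LP1 RQ1 b p.1 * (LP1 p.1 *
      ((K1 XX T LP1 RQ1)∗ * (RQ1 p.2 * U XX T LP1 RQ1 p.2 v)))) := by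
  constructor
  · rintro ⟨l, hl, rfl, rfl⟩
    exact b_complete H l.length l b rfl hl
  · rintro (⟨l, h1, h2, h3, -⟩ | ⟨⟨v1, b1⟩, h⟩)
    · exact ⟨l, h1, h2, h3⟩
    · obtain ⟨x, hx, z, hz, rfl⟩ := mem_prod.1 h
      obtain ⟨P, hP, z', hz', rfl⟩ := mem_prod.1 hz
      obtain ⟨kk, hk, z'', hz'', rfl⟩ := mem_prod.1 hz'
      obtain ⟨Q, hQ, y, hy, rfl⟩ := mem_prod.1 hz''
      obtain ⟨L, rfl, hL⟩ := (Language.mem_kstar).1 hk
      exact b_sound H L b v v1 b1 x P Q y hx hP hL hQ hy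

/-! ### heights -/

section heights

variable [Finite V]

theorem hl_z (h2 : ∀ b v, HL 1 (One XX T b v)) (hLP2 : ∀ v, HL 1 (LP2 v))
    (hRQ2 : ∀ v, HL 1 (RQ2 v)) (b v : V) :
    HL 2 ({w | Z XX T LP2 RQ2 b v w} : Language α) := by
  have hK : HL 1 (K2 LP2 RQ2) := hl_ex fun b => (hRQ2 b).mul (hLP2 b)
  have h3 : HL 2 ({w | w ∈ One XX T b v ∨
      ∃ b', w ∈ (LP2 b * ((K2 LP2 RQ2)∗ * (RQ2 b' * One XX T b' v)))} : Language α) :=
    HL.setOf_or ((h2 b v).mono (by omega)) (hl_ex fun b' =>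
      ((hLP2 b).mono (by omega)).mul (hK.star.mul
        (((hRQ2 b').mono (by omega)).mul ((h2 b' v).mono (by omega)))))
  exact h3.congr fun w => z_iff b v w

/-- the language of `Z` -/
def ZL (XX : Set (List α)) (T : V → List α → V) (LP2 RQ2 : V → Language α) (b v : V) :
    Language α := {w | Z XX T LP2 RQ2 b v w}

theorem hl_u (H : Hyp XX T LP1 RQ1 LP2 RQ2) (h2 : ∀ b v, HL 1 (One XX T b v))
    (hLP1 : ∀ v, HL 1 (LP1 v)) (hRQ1 : ∀ v, HL 1 (RQ1 v)) (hLP2 : ∀ v, HL 1 (LP2 v))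
    (hRQ2 : ∀ v, HL 1 (RQ2 v)) (b v : V) : HL 2 (U XX T LP1 RQ1 b v) := by
  have hZ : ∀ b v, HL 2 (ZL XX T LP2 RQ2 b v) := fun b v => hl_z h2 hLP2 hRQ2 b v
  have hD : HL 2 ({w | ∃ p : V × V, w ∈ (ZL XX T LP2 RQ2 b p.1 *
      (LP1 p.1 * (RQ1 p.2 * (⊤ : Language α))))} : Language α) :=
    hl_ex fun p => (hZ b p.1).mul (((hLP1 p.1).mono (by omega)).mul
      (((hRQ1 p.2).mono (by omega)).mul HL.top))
  have h3 := HL.setOf_and (hZ b v) (HL.setOf_not hD)
  refine h3.congr fun w => ?_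
  rw [u_iff H]
  refine and_congr Iff.rfl (not_congr ?_)
  constructor
  · rintro ⟨v', b', x, P, Q, y, rfl, hx, hP, hQ⟩
    exact ⟨(v', b'), mem_prod.2 ⟨x, hx, _, mem_prod.2 ⟨P, hP, _, mem_prod.2 ⟨Q, hQ, y,
      trivial, rfl⟩, rfl⟩, rfl⟩⟩
  · rintro ⟨⟨v', b'⟩, h⟩
    obtain ⟨x, hx, z, hz, rfl⟩ := mem_prod.1 h
    obtain ⟨P, hP, z', hz', rfl⟩ := mem_prod.1 hz
    obtain ⟨Q, hQ, y, -, rfl⟩ := mem_prod.1 hz'
    exact ⟨v', b', x, P, Q, y, rfl, hx, hP, hQ⟩

theorem hl_b (H : Hyp XX T LP1 RQ1 LP2 RQ2) (h2 : ∀ b v, HL 1 (One XX T b v))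
    (hLP1 : ∀ v, HL 1 (LP1 v)) (hRQ1 : ∀ v, HL 1 (RQ1 v)) (hLP2 : ∀ v, HL 1 (LP2 v))
    (hRQ2 : ∀ v, HL 1 (RQ2 v)) (b v : V) : HL 3 (B XX T b v) := by
  have hU := fun b v => hl_u H h2 hLP1 hRQ1 hLP2 hRQ2 b v
  have hK : HL 2 (K1 XX T LP1 RQ1) := hl_ex fun p =>
    ((hRQ1 p.1).mono (by omega)).mul ((hU p.1 p.2).mul ((hLP1 p.2).mono (by omega)))
  have h3 : HL 3 ({M | M ∈ U XX T LP1 RQ1 b v ∨
    ∃ p : V × V, M ∈ (U XX T LP1 RQ1 b p.1 * (LP1 p.1 *
      ((K1 XX T LP1 RQ1)∗ * (RQ1 p.2 * U XX T LP1 RQ1 p.2 v))))} : Language α) :=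
    HL.setOf_or ((hU b v).mono (by omega)) (hl_ex fun p =>
      ((hU b p.1).mono (by omega)).mul (((hLP1 p.1).mono (by omega)).mul (hK.star.mul
        (((hRQ1 p.2).mono (by omega)).mul ((hU p.2 v).mono (by omega))))))
  exact h3.congr fun M => b_iff H b v M

end heights

theorem blk_unique (H : Hyp XX T LP1 RQ1 LP2 RQ2) : ∀ (l l' : List (List α)), Blk XX l →
    Blk XX l' → l.flatten = l'.flatten → l = l'
  | [], [], _, _, _ => rfl
  | [], X :: l', _, h', e => by
    exfalso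
    have hX : X ∈ XX := h' X (by simp)
    have e' : X ++ l'.flatten = [] := by simpa using e.symm
    have := (List.append_eq_nil_iff.1 e').1
    exact H.nil (this ▸ hX)
  | X :: l, [], h, _, e => by
    exfalso
    have hX : X ∈ XX := h X (by simp)
    have e' : X ++ l.flatten = [] := by simpa using e
    have := (List.append_eq_nil_iff.1 e').1
    exact H.nil (this ▸ hX)
  | X :: l, Y :: l', h, h', e => by
    rw [List.flatten_cons, List.flatten_cons] at e
    have e1 := H.pc X Y _ _ (h X (by simp)) (h' Y (by simp)) e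
    subst e1
    have e2 := blk_unique H l l' (fun Z hZ => h Z (by simp [hZ])) (fun Z hZ => h' Z (by simp [hZ]))
      (List.append_cancel_left e)
    rw [e2]

/-- products of blocks with value `s` -/
def ML {S : Type*} [Monoid S] (XX : Set (List α)) (φ : α → S) (s : S) : Language α :=
  {M | ∃ l, Blk XX l ∧ l.flatten = M ∧ (M.map φ).prod = s}

/-- tails with value `s` -/
def TL {S : Type*} [Monoid S] (XX : Set (List α)) (φ : α → S) (s : S) : Language α :=
  {E | NoPre XX E ∧ (E.map φ).prod = s}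

/-- **TOP THEOREM** -/
theorem top_block {S : Type*} [AddCommGroup V] [Finite V] [Monoid S] [Finite S] (φ : α → S)
    (act : V → S → V) (act_zero : ∀ s, act 0 s = 0) (act_one : ∀ v, act v 1 = v)
    (act_mul : ∀ v s t, act (act v s) t = act v (s * t))
    (faithful : ∀ s t, (∀ v, act v s = act v t) → s = t)
    (H : Hyp XX T LP1 RQ1 LP2 RQ2)
    (hT : ∀ v v' X, X ∈ XX → T v X - T v' X = act (v - v') (X.map φ).prod)
    (hLP1 : ∀ v, HL 1 (LP1 v)) (hRQ1 : ∀ v, HL 1 (RQ1 v)) (hLP2 : ∀ v, HL 1 (LP2 v))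
    (hRQ2 : ∀ v, HL 1 (RQ2 v))
    (hBlk : ∀ v b, HL 1 ({X | X ∈ XX ∧ T v X = b} : Language α))
    (hTail : ∀ s : S, HL 1 ({E | NoPre XX E ∧ (E.map φ).prod = s} : Language α)) (s : S) :
    HL 3 ({w | (w.map φ).prod = s} : Language α) := by
  have hOne : ∀ b v, HL 1 (One XX T b v) := by
    intro b v
    refine HL.setOf_or ?_ (hBlk b v)
    exact HL.setOf_and (HL.one.congr fun w => (Language.mem_one w).symm) (HL.const _)
  have hB := fun b v => hl_b H hOne hLP1 hRQ1 hLP2 hRQ2 b v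
  have hrun : ∀ (l : List (List α)) (b b' : V), Blk XX l →
      run T b l - run T b' l = act (b - b') (l.flatten.map φ).prod := by
    intro l
    induction l with
    | nil => intro b b' _; simp [run, act_one]
    | cons X l ih =>
      intro b b' hl
      have h1 := ih (T b X) (T b' X) (fun Y hY => hl Y (by simp [hY]))
      show run T (T b X) l - run T (T b' X) l = _
      rw [h1, hT b b' X (hl X (by simp)), act_mul, List.flatten_cons, List.map_append,
        List.prod_append]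
  have hM : ∀ s : S, HL 3 (ML XX φ s) := by
    intro s
    have h1 : HL 3 ({M | ∃ v0 : V, ∀ b : V, M ∈ B XX T b (v0 + act b s)} : Language α) :=
      hl_ex fun v0 => HL.iInter fun b => hB b (v0 + act b s)
    refine h1.congr fun M => ?_
    constructor
    · rintro ⟨l, hl, rfl, hs⟩
      refine ⟨run T 0 l, fun b => ⟨l, hl, rfl, ?_⟩⟩
      have := hrun l b 0 hl
      rw [hs, sub_zero] at this
      rw [← this]; abel
    · rintro ⟨v0, h⟩
      obtain ⟨l, hl, rfl, h0⟩ := h 0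
      refine ⟨l, hl, rfl, faithful _ _ fun b => ?_⟩
      obtain ⟨l', hl', e, hb⟩ := h b
      have := blk_unique H l' l hl' hl e
      subst this
      have h3 := hrun l' b 0 hl
      rw [sub_zero, hb, h0, act_zero] at h3
      rw [← h3]; abel
  have hTL : ∀ s : S, HL 1 (TL XX φ s) := hTail
  have h4 : HL 3 ({w | ∃ p : {p : S × S // p.1 * p.2 = s}, w ∈
      (ML XX φ p.1.1 * TL XX φ p.1.2)} : Language α) :=
    hl_ex fun p => (hM p.1.1).mul ((hTL p.1.2).mono (by omega))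
  refine h4.congr fun w => ?_
  constructor
  · intro hw
    obtain ⟨l, E, h1, h2, rfl⟩ := parse H.nil w
    refine ⟨⟨((l.flatten.map φ).prod, (E.map φ).prod), ?_⟩, mem_prod.2
      ⟨l.flatten, ⟨l, h1, rfl, rfl⟩, E, ⟨h2, rfl⟩, rfl⟩⟩
    have hw' : ((l.flatten ++ E).map φ).prod = s := hw
    rw [List.map_append, List.prod_append] at hw'
    exact hw'
  · rintro ⟨⟨⟨s1, s2⟩, hp⟩, h⟩
    obtain ⟨M, ⟨l, -, -, h3⟩, E, ⟨-, h5⟩, rfl⟩ := mem_prod.1 h
    show ((M ++ E).map φ).prod = s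
    rw [List.map_append, List.prod_append, h3, h5]
    exact hp

end Crest.Agent.R320.TopL_609
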