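import Crest.Agent.R320.Asm_505

/-!
# Row 320: two nested levels, scheme 2 reads one more block (helper190)

`Asm_505.two_levels` with ONE token system and with scheme 2 living on PAIRS of bad blocks: the
code `B * B` of pairs is again a prefix code, so `Level (B * B) 0` is 505's `Level` literally.
-/

set_option autoImplicit false

namespace Crest.Agent.R320.TopPair_190

open Crest.RegLang Crest.Agent.R320.Hk_851 Crest.Agent.R320.Asm_505

universe u v

variable {α : Type u} {Ω : Type v}

theorem PC.pair {B : Language α} (hB : PC B) : PC (B * B) := by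
  constructor
  · intro h
    obtain ⟨x, hx, y, hy, h⟩ := Language.mem_mul.1 h
    have := (List.append_eq_nil_iff.1 h).1
    exact hB.ne (this ▸ hx)
  · intro z hz z' hz' h
    obtain ⟨x, hx, y, hy, rfl⟩ := Language.mem_mul.1 hz
    obtain ⟨x', hx', y', hy', rfl⟩ := Language.mem_mul.1 hz'
    obtain ⟨t, ht⟩ := h
    have h1 : x ++ (y ++ t) = x' ++ y' := by simpa using ht
    obtain ⟨rfl, h2⟩ := pc_head hB hx hx' h1
    have : y = y' := hB.pc y hy y' hy' ⟨t, h2⟩
    rw [this]

/-- run of the token over one or two blocks, as a function of the word -/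
def IsPair (B : Language α) (eps : List α → Ω → Ω) (e2 : List α → Ω → Ω) : Prop :=
  ∀ x ∈ B, ∀ y ∈ B, ∀ v, e2 (x ++ y) v = eps y (eps x v)

theorem path_pair_to {B : Language α} {eps e2 : List α → Ω → Ω} (he : IsPair B eps e2)
    {x y : Ω} {w : List α} (h : Path (B * B) e2 x w y) : Path B eps x w y := by
  obtain ⟨l, h1, h2, h3⟩ := h
  induction l generalizing x w with
  | nil =>
    subst h2
    cases h3
    exact Path.nil _ _ _
  | cons z l ih =>
    obtain ⟨a, ha, b, hb, rfl⟩ := Language.mem_mul.1 (h1 z (by simp))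
    subst h2
    have h4 : Path B eps (e2 (a ++ b) x) l.flatten y :=
      ih (fun t ht => h1 t (by simp [ht])) rfl (by rw [Run_cons] at h3; exact h3)
    rw [he a ha b hb x] at h4
    have := Path.cons ha (Path.cons hb h4)
    simpa using this

theorem path_pair_of {B : Language α} {eps e2 : List α → Ω → Ω} (he : IsPair B eps e2) :
    ∀ (n : ℕ) (l : List (List α)), l.length ≤ n → ∀ (x : Ω), (∀ z ∈ l, z ∈ B) →
      (Path (B * B) e2 x l.flatten (Run eps x l)) ∨
      (∃ y, ∃ w1, ∃ z ∈ B, l.flatten = w1 ++ z ∧ Path (B * B) e2 x w1 y ∧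
        eps z y = Run eps x l) := by
  intro n
  induction n with
  | zero =>
    intro l hl x _
    have : l = [] := List.length_eq_zero_iff.1 (Nat.le_zero.1 hl)
    subst this
    exact Or.inl (Path.nil _ _ _)
  | succ n ih =>
    intro l hl x hB
    match l, hl, hB with
    | [], _, _ => exact Or.inl (Path.nil _ _ _)
    | [z], _, hB =>
      right
      exact ⟨x, [], z, hB z (by simp), by simp, Path.nil _ _ _, rfl⟩
    | a :: b :: l, hl, hB =>
      have ha := hB a (by simp)
      have hb := hB b (by simp)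
      have hab : a ++ b ∈ B * B := Language.mem_mul.2 ⟨a, ha, b, hb, rfl⟩
      have hlen : l.length ≤ n := by simp at hl; omega
      have hr : Run eps x (a :: b :: l) = Run eps (e2 (a ++ b) x) l := by
        rw [Run_cons, Run_cons, he a ha b hb x]
      rcases ih l hlen (e2 (a ++ b) x) (fun t ht => hB t (by simp [ht])) with h | h
      · left
        rw [hr]
        have := Path.cons (eps := e2) (x := x) hab h
        simpa using this
      · obtain ⟨y, w1, z, hz, h1, h2, h3⟩ := h
        right
        refine ⟨y, (a ++ b) ++ w1, z, hz, ?_, Path.cons hab h2, ?_⟩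
        · simp [h1]
        · rw [h3, hr]

theorem path_iff_pair {B : Language α} {eps e2 : List α → Ω → Ω} (he : IsPair B eps e2)
    (x y : Ω) (w : List α) :
    Path B eps x w y ↔ Path (B * B) e2 x w y ∨
      ∃ x', ∃ w1, Path (B * B) e2 x w1 x' ∧ ∃ z, (z ∈ B ∧ eps z x' = y) ∧ w1 ++ z = w := by
  constructor
  · rintro ⟨l, h1, h2, h3⟩
    rcases path_pair_of he l.length l le_rfl x h1 with h | ⟨x', w1, z, hz, h4, h5, h6⟩
    · left
      rw [h2, h3] at h
      exact h
    · right
      exact ⟨x', w1, h5, z, ⟨hz, by rw [h6, h3]⟩, by rw [← h4, h2]⟩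
  · rintro (h | ⟨x', w1, h1, z, ⟨hz, h2⟩, rfl⟩)
    · exact path_pair_to he h
    · have h3 := path_pair_to he h1
      have h4 : Path B eps x' z y := by
        have := Path.cons (eps := eps) (x := x') hz (Path.nil B eps (eps z x'))
        rw [h2] at this
        simpa using this
      exact h3.append h4

variable {k : ℕ}

def PL (V : Language α) (eps : List α → Ω → Ω) (x y : Ω) : Language α := {w | Path V eps x w y}

def O1 (B : Language α) (eps : List α → Ω → Ω) (x y : Ω) : Language α := {z | z ∈ B ∧ eps z x = y}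

/-- threads on the bad code from scheme 2 on pairs -/
theorem HL.path_pair [Finite Ω] {B : Language α} (hB : PC B) {eps e2 : List α → Ω → Ω}
    (he : IsPair B eps e2) {P R : Ω → Language α} (L : Level (B * B) 0 e2 P R)
    (hHB : HL k B) (hone : ∀ x y, HL k ({z | z ∈ B ∧ eps z x = y} : Language α))
    (hP : ∀ x, HL k (P x)) (hR : ∀ x, HL k (R x)) (x y : Ω) :
    HL (k + 1) ({w | Path B eps x w y} : Language α) := by
  have hp : ∀ x y, HL (k + 1) ({w | Path (B * B) e2 x w y} : Language α) := by
    intro x y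
    refine HL.path (PC.pair hB) L (W := fun x y => ({w | x = y ∧ w = []} : Language α)) ?_ ?_
      (hHB.mul hHB) hP hR ?_ x y
    · rintro x w y ⟨l, h1, h2, h3⟩
      cases l with
      | nil => exact ⟨h3, h2.symm⟩
      | cons z l => exact absurd (h1 z (by simp)) (Language.notMem_zero z)
    · rintro x y w ⟨rfl, rfl⟩
      exact Path.nil _ _ _
    · intro x y
      exact (HL.const (k := k) (x = y)).setOf_and ((HL.one (α := α) (k := k)))
  have up : ∀ {L : Language α}, HL k L → HL (k + 1) L := fun h => h.mono (Nat.le_succ k)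
  have h2 : HL (k + 1) ({w | ∃ x', w ∈ PL (B * B) e2 x x' * O1 B eps x' y} : Language α) :=
    HL.exists' fun x' => (hp x x').mul (up (hone x' y))
  refine ((hp x y).setOf_or h2).congr fun w => ?_
  change Path B eps x w y ↔
    (Path (B * B) e2 x w y ∨ ∃ x', w ∈ PL (B * B) e2 x x' * O1 B eps x' y)
  rw [path_iff_pair he]
  symm
  constructor
  · rintro (h | ⟨x', h⟩)
    · exact Or.inl h
    · obtain ⟨w1, h1, z, h3, h4⟩ := Language.mem_mul.1 h
      exact Or.inr ⟨x', w1, h1, z, h3, h4⟩
  · rintro (h | ⟨x', w1, h1, z, h3, h4⟩)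
    · exact Or.inl h
    · exact Or.inr ⟨x', Language.mem_mul.2 ⟨w1, h1, z, h3, h4⟩⟩

/-- **two nested levels, one token system, scheme 2 on pairs of bad blocks** -/
theorem two_levels_pair [Finite Ω] {M : Type*} [Monoid M] [Finite M]
    (φ : α → M) {U B : Language α} (hU : PC U) (hBU : ∀ z ∈ B, z ∈ U)
    {eps e2 : List α → Ω → Ω} (he : IsPair B eps e2)
    {P₁ R₁ : Ω → Language α} (L1 : Level U B eps P₁ R₁)
    {P₂ R₂ : Ω → Language α} (L2 : Level (B * B) 0 e2 P₂ R₂)
    (dec : ∀ l l', (∀ z ∈ l, z ∈ U) → (∀ z ∈ l', z ∈ U) →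
      (∀ x, Run eps x l = Run eps x l') →
        (l.flatten.map φ).prod = (l'.flatten.map φ).prod)
    (hHU : HL k U) (hHB : HL k B) (hone : ∀ x y, HL k ({z | z ∈ B ∧ eps z x = y} : Language α))
    (hP₁ : ∀ x, HL k (P₁ x)) (hR₁ : ∀ x, HL k (R₁ x))
    (hP₂ : ∀ x, HL k (P₂ x)) (hR₂ : ∀ x, HL k (R₂ x))
    (hrest : ∀ m, HL k (Rest φ U m)) (m : M) :
    HL (k + 2) ({w | (w.map φ).prod = m} : Language α) := by
  classical
  have hB : PC B := ⟨fun h => hU.ne (hBU _ h), fun z hz z' hz' h =>
    hU.pc z (hBU z hz) z' (hBU z' hz') h⟩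
  have s2 : ∀ x y, HL (k + 1) ({w | Path B eps x w y} : Language α) :=
    HL.path_pair hB he L2 hHB hone hP₂ hR₂
  have up : ∀ {L : Language α}, HL k L → HL (k + 1) L := fun h => h.mono (Nat.le_succ k)
  have s3 : ∀ x y, HL (k + 1 + 1) ({w | Path U eps x w y} : Language α) := by
    intro x y
    exact HL.path hU L1 (W := fun x y => ({w | Path B eps x w y} : Language α))
      (fun x w y h => h) (fun x y w h => Path.mono hBU h) (up hHU) (fun x => up (hP₁ x))
      (fun x => up (hR₁ x)) s2 x y
  have s4 : ∀ c : M, HL (k + 2) (ZL φ U c) := fun c =>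
    HL.decode hU (fun l : List (List α) => (l.flatten.map φ).prod) dec
      (hHU.star.mono (Nat.le_succ _)) s3 c
  have s5 : HL (k + 2) ({w | ∃ ab : {ab : M × M // ab.1 * ab.2 = m}, w ∈
      ZL φ U ab.1.1 * Rest φ U ab.1.2} : Language α) :=
    HL.exists' fun ab => (s4 ab.1.1).mul ((hrest ab.1.2).mono (by omega))
  refine s5.congr fun w => ?_
  constructor
  · intro hw
    have key : ∀ n (w : List α), w.length ≤ n → ∃ (l : List (List α)) (r : List α),
        (∀ z ∈ l, z ∈ U) ∧ (∀ z ∈ U, ¬ z <+: r) ∧ l.flatten ++ r = w := by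
      intro n
      induction n with
      | zero =>
        intro w hn
        have : w = [] := List.length_eq_zero_iff.1 (Nat.le_zero.1 hn)
        subst this
        refine ⟨[], [], by simp, ?_, rfl⟩
        intro z hz h
        have : z = [] := List.prefix_nil.1 h
        exact hU.ne (this ▸ hz)
      | succ n ih =>
        intro w hn
        by_cases h : ∃ z ∈ U, z <+: w
        · obtain ⟨z, hz, w', rfl⟩ := h
          have hz0 : z ≠ [] := fun h => hU.ne (h ▸ hz)
          have hzl : 0 < z.length := List.length_pos_iff.2 hz0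
          obtain ⟨l, r, h1, h2, h3⟩ := ih w' (by rw [List.length_append] at hn; omega)
          refine ⟨z :: l, r, ?_, h2, by simp [h3]⟩
          intro t ht
          rcases List.mem_cons.1 ht with rfl | ht
          · exact hz
          · exact h1 t ht
        · push Not at h
          exact ⟨[], w, by simp, h, by simp⟩
    obtain ⟨l, r, h1, h2, h3⟩ := key w.length w le_rfl
    refine ⟨⟨((l.flatten.map φ).prod, (r.map φ).prod), ?_⟩, ?_⟩
    · have : (w.map φ).prod = m := hw
      rw [← this, ← h3, List.map_append, List.prod_append]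
    · exact Language.mem_mul.2 ⟨l.flatten, ⟨l, h1, rfl, rfl⟩, r, ⟨h2, rfl⟩, h3⟩
  · rintro ⟨⟨⟨a, b⟩, hab⟩, h⟩
    obtain ⟨x, ⟨l, h1, h2, h3⟩, r, ⟨h4, h5⟩, h6⟩ := Language.mem_mul.1 h
    subst h2
    change (w.map φ).prod = m
    rw [← h6, List.map_append, List.prod_append, h3, h5]
    exact hab

/-- affine tokens decode the product -/
theorem dec_affine {S V : Type*} [Monoid S] [AddCommGroup V] (φ : α → S) (act : V → S → V)
    (hadd : ∀ v w s, act (v + w) s = act v s + act w s)
    (hone : ∀ v, act v 1 = v)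
    (hmul : ∀ v s t, act (act v s) t = act v (s * t))
    (hfaith : ∀ s t, (∀ v, act v s = act v t) → s = t)
    (nu : List α → V) (l l' : List (List α))
    (h : ∀ x, Run (fun z v => act v (z.map φ).prod + nu z) x l =
      Run (fun z v => act v (z.map φ).prod + nu z) x l') :
    (l.flatten.map φ).prod = (l'.flatten.map φ).prod := by
  have key : ∀ (l : List (List α)) (x : V), Run (fun z v => act v (z.map φ).prod + nu z) x l =
      act x (l.flatten.map φ).prod + Run (fun z v => act v (z.map φ).prod + nu z) 0 l := by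
    intro l
    have hz : ∀ s, act 0 s = 0 := by
      intro s
      have := hadd 0 0 s
      rw [add_zero] at this
      exact left_eq_add.1 this
    induction l with
    | nil => intro x; simp [Run, hone]
    | cons z l ih =>
      intro x
      rw [Run_cons, Run_cons, ih (act x _ + nu z), ih (act 0 _ + nu z)]
      simp only [List.flatten_cons, List.map_append, List.prod_append]
      rw [hz, zero_add, hadd, hmul, add_assoc]
  apply hfaith
  intro v
  have h1 := key l v
  have h2 := key l' v
  rw [h v, h2, h 0] at h1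
  exact (add_right_cancel h1).symm

/-- everything the top needs for one monoid, at height `1` (all words, no promise) -/
structure Pack {S : Type u} [Monoid S] (φ : α → S) where
  V : Type u
  grp : AddCommGroup V
  fin : Finite V
  act : V → S → V
  act_add : ∀ v w s, act (v + w) s = act v s + act w s
  act_one : ∀ v, act v 1 = v
  act_mul : ∀ v s t, act (act v s) t = act v (s * t)
  faith : ∀ s t, (∀ v, act v s = act v t) → s = t
  /-- noise of a block -/
  nu : List α → V
  /-- the block code, a prefix code -/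
  U : Language α
  hU : PC U
  /-- the bad blocks -/
  B : Language α
  hBU : ∀ z ∈ B, z ∈ U
  P₁ : V → Language α
  R₁ : V → Language α
  /-- scheme 1: sound and complete off `B` -/
  L1 : Level U B (fun z v => act v (z.map φ).prod + nu z) P₁ R₁
  /-- token after a pair of blocks -/
  e2 : List α → V → V
  he2 : IsPair B (fun z v => act v (z.map φ).prod + nu z) e2
  P₂ : V → Language α
  R₂ : V → Language α
  /-- scheme 2 on pairs of bad blocks -/
  L2 : Level (B * B) 0 e2 P₂ R₂
  hHU : HL 1 U
  hHB : HL 1 B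
  hone : ∀ x y, HL 1 ({z | z ∈ B ∧ act x (z.map φ).prod + nu z = y} : Language α)
  hP₁ : ∀ x, HL 1 (P₁ x)
  hR₁ : ∀ x, HL 1 (R₁ x)
  hP₂ : ∀ x, HL 1 (P₂ x)
  hR₂ : ∀ x, HL 1 (R₂ x)
  hrest : ∀ m, HL 1 (Rest φ U m)

theorem Pack.fibre {S : Type u} [Monoid S] [Finite S] {φ : α → S} (D : Pack φ) (m : S) :
    HL 3 ({w | (w.map φ).prod = m} : Language α) := by
  letI := D.grp
  have := D.fin
  exact two_levels_pair φ D.hU D.hBU D.he2 D.L1 D.L2
    (fun l l' _ _ h => dec_affine φ D.act D.act_add D.act_one D.act_mul D.faith D.nu l l' h)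
    D.hHU D.hHB D.hone D.hP₁ D.hR₁ D.hP₂ D.hR₂ D.hrest m

/-- S0495 from one `Pack` per finite monoid. -/
theorem top [Finite α]
    (h : ∀ (S : Type u) [Monoid S] [Finite S] (φ : α → S), Nonempty (Pack φ))
    (L : Language α) (hL : L.IsRegular) :
    ∃ e : GRegExp α, e.height ≤ 3 ∧ e.lang = L :=
  of_monoid (k := 3) (fun S _ _ φ s => (h S φ).some.fibre s) L hL

end Crest.Agent.R320.TopPair_190
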