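import Crest.Agent.R320.Top5_467

/-!
# Row 320: top theorem with semantic right labels (helper442), over 467's `top5`

Right labels are defined semantically from finite left label sets, so their soundness and their
heights are automatic.  What remains: heights of the two block families and of the tail, and the two
completeness statements `c1`, `c2`.
-/

set_option autoImplicit false

namespace Crest.Agent.R320.TopSem_442

open Crest.RegLang Crest.Agent.R320.Hk_851 Crest.Agent.R320.Blk467 Crest.Agent.R320.Top5_467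

universe u

variable {α : Type u} {V : Type u}

/-- what a left word followed by a right word of scheme 2 may look like -/
def Good2 (XX Bad : Set (List α)) (T : V → List α → V) (v b : V) : Language α :=
  {U | (∃ X1 ∈ Bad, ∃ X2 ∈ Bad, U = X1 ++ X2 ∧ T (T v X1) X2 = b) ∨
    (∃ Y ∈ XX, Y ∉ Bad ∧ Y <+: U) ∨ (∃ Y1 ∈ Bad, ∃ Y2 ∈ XX, Y2 ∉ Bad ∧ Y1 ++ Y2 <+: U)}

theorem HL_Good2 [Finite V] {k : ℕ} {XX Bad : Set (List α)} {T : V → List α → V}
    (hX : ∀ v v', HL k ({X | X ∈ XX ∧ T v X = v'} : Language α))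
    (hB : ∀ v v', HL k ({X | X ∈ Bad ∧ T v X = v'} : Language α)) (v b : V) :
    HL k (Good2 XX Bad T v b) := by
  classical
  let LB : V → V → Language α := fun v v' => {X | X ∈ Bad ∧ T v X = v'}
  let LBB : Language α := {X | X ∈ Bad}
  let LN : Language α := {X | X ∈ XX ∧ ¬ X ∈ Bad}
  have hXX : HL k ({X | X ∈ XX} : Language α) := by
    refine (HL.iUnion (ι := V) fun v' => hX v v').congr fun w => ?_
    exact ⟨fun h => ⟨T v w, h, rfl⟩, fun ⟨_, h, _⟩ => h⟩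
  have hBB : HL k LBB := by
    refine (HL.iUnion (ι := V) fun v' => hB v v').congr fun w => ?_
    exact ⟨fun h => ⟨T v w, h, rfl⟩, fun ⟨_, h, _⟩ => h⟩
  have hN : HL k LN := HL.setOf_and hXX hBB.setOf_not
  have h1 : HL k ({U | ∃ v1 : V, U ∈ LB v v1 * LB v1 b} : Language α) :=
    HL.iUnion fun v1 => (hB v v1).mul (hB v1 b)
  have h2 : HL k (LN * (⊤ : Language α)) := hN.mul HL.top
  have h3 : HL k (LBB * (LN * (⊤ : Language α))) := hBB.mul h2
  refine ((h1.add (h2.add h3))).congr fun U => ?_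
  constructor
  · rintro (⟨X1, hX1, X2, hX2, rfl, hb⟩ | ⟨Y, hY, hY2, z, rfl⟩ | ⟨Y1, hY1, Y2, hY2, hY3, z, rfl⟩)
    · exact Or.inl ⟨T v X1, Language.mem_mul.2 ⟨X1, ⟨hX1, rfl⟩, X2, ⟨hX2, hb⟩, rfl⟩⟩
    · exact Or.inr (Or.inl (Language.mem_mul.2 ⟨Y, ⟨hY, hY2⟩, z, trivial, rfl⟩))
    · exact Or.inr (Or.inr (Language.mem_mul.2 ⟨Y1, hY1, Y2 ++ z,
        Language.mem_mul.2 ⟨Y2, ⟨hY2, hY3⟩, z, trivial, rfl⟩, by simp⟩))
  · rintro (⟨v1, hv⟩ | hv | hv)
    · obtain ⟨X1, ⟨a1, a2⟩, X2, ⟨a3, a4⟩, e⟩ := Language.mem_mul.1 hv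
      exact Or.inl ⟨X1, a1, X2, a3, e.symm, by rw [a2]; exact a4⟩
    · obtain ⟨Y, ⟨a1, a2⟩, z, -, e⟩ := Language.mem_mul.1 hv
      exact Or.inr (Or.inl ⟨Y, a1, a2, z, e⟩)
    · obtain ⟨Y1, a1, x, hx, e⟩ := Language.mem_mul.1 hv
      obtain ⟨Y2, ⟨a2, a3⟩, z, -, e2⟩ := Language.mem_mul.1 hx
      exact Or.inr (Or.inr ⟨Y1, a1, Y2, a2, a3, z, by rw [← e, ← e2]; simp⟩)

/-- **TOP with semantic right labels**: only finite left label sets, heights of block families and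
two completeness statements are needed. -/
theorem top_sem {S : Type u} [Monoid S] [Finite S] (φ : α → S)
    [AddCommGroup V] [Finite V] (act : V → S → V)
    (hadd : ∀ a b s, act (a + b) s = act a s + act b s)
    (hone : ∀ v, act v 1 = v) (hmul : ∀ v s t, act v (s * t) = act (act v s) t)
    (hfaith : ∀ s t, (∀ v, act v s = act v t) → s = t)
    (nu : List α → V) (T : V → List α → V)
    (hT : ∀ v X, T v X = act v (X.map φ).prod + nu X)
    (XX Bad : Set (List α)) (hC : PCode XX) (hBX : Bad ⊆ XX)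
    (LP1 LP2 : V → Set (List α)) (hf1 : ∀ v, (LP1 v).Finite) (hf2 : ∀ v, (LP2 v).Finite)
    (hX : ∀ v v', HL 1 ({X | X ∈ XX ∧ T v X = v'} : Language α))
    (hB : ∀ v v', HL 1 ({X | X ∈ Bad ∧ T v X = v'} : Language α))
    (htail : ∀ s, HL 3 ({w | (∀ X ∈ XX, ¬ X <+: w) ∧ (w.map φ).prod = s} : Language α))
    (c1 : ∀ X ∈ XX, X ∉ Bad → ∀ v, ∃ P Q, P ++ Q = X ∧ P ∈ LP1 v ∧
      ∀ v', ∀ P' ∈ LP1 v', P' ++ Q ∈ XX ∧ T v' (P' ++ Q) = T v X)
    (c2 : ∀ X ∈ Bad, ∀ X' ∈ Bad, ∀ v, ∃ P Q, P ++ Q = X ++ X' ∧ P ∈ LP2 v ∧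
      ∀ v', ∀ P' ∈ LP2 v', P' ++ Q ∈ Good2 XX Bad T v' (T (T v X) X'))
    (s : S) : HL 3 ({w | (w.map φ).prod = s} : Language α) := by
  classical
  have hTe : (fun v X => act v (X.map φ).prod + nu X) = T := by
    funext v X; rw [hT]
  let RQ1 : V → Language α := fun b =>
    {Q | ∀ v : V, Q ∈ ({Q | ∀ P ∈ LP1 v, Q ∈ ({Q | P ++ Q ∈
      ({X | X ∈ XX ∧ T v X = b} : Language α)} : Language α)} : Language α)}
  let RQ2 : V → Language α := fun b =>
    {Q | ∀ v : V, Q ∈ ({Q | ∀ P ∈ LP2 v, Q ∈ ({Q | P ++ Q ∈ Good2 XX Bad T v b} : Language α)} :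
      Language α)}
  have hRQ1 : ∀ b, HL 1 (RQ1 b) := fun b =>
    HL.iInter fun v => HL.biInter (hf1 v) fun P _ => HL.lquot P (hX v b)
  have hRQ2 : ∀ b, HL 1 (RQ2 b) := fun b =>
    HL.iInter fun v => HL.biInter (hf2 v) fun P _ => HL.lquot P (HL_Good2 hX hB v b)
  have hBB : HL 1 (Bad : Language α) := by
    refine (HL.iUnion (ι := V) fun v' => hB 0 v').congr fun w => ?_
    exact ⟨fun h => ⟨T 0 w, h, rfl⟩, fun ⟨_, h, _⟩ => h⟩
  refine top5 φ act hadd hone hmul hfaith nu XX Bad hC hBX (fun v => (LP1 v : Language α)) RQ1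
    (fun v => (LP2 v : Language α)) RQ2 ?_ ?_ ?_ ?_ hBB (fun v => HL.finite (hf2 v)) hRQ2
    (fun v => HL.finite (hf1 v)) (fun b => (hRQ1 b).mono (by omega)) ?_ htail s
  · intro v b P Q hP hQ
    have := hQ v P hP
    rw [← hT]
    exact this
  · intro X hXX hXB v
    obtain ⟨P, Q, e, hP, h⟩ := c1 X hXX hXB v
    refine ⟨P, Q, e, hP, ?_⟩
    rw [← hT]
    exact fun v' P' hP' => h v' P' hP'
  · intro v b P Q r hP hQ hr
    rw [hTe]
    have hg : P ++ Q ∈ Good2 XX Bad T v b := hQ v P hP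
    obtain ⟨l, hl, e⟩ := hr
    have hlX : ∀ X ∈ l, X ∈ XX := fun X hXl => hBX (hl X hXl)
    rcases hg with ⟨X1, hX1, X2, hX2, e2, hb⟩ | ⟨Y, hY, hYB, z, hz⟩ | ⟨Y1, hY1, Y2, hY2, hYB, z, hz⟩
    · refine ⟨[X1, X2], ?_, ?_, ?_⟩
      · intro X hX'
        simp only [List.mem_cons, List.not_mem_nil, or_false] at hX'
        rcases hX' with rfl | rfl
        · exact hX1
        · exact hX2
      · simp [e2]
      · simpa using hb
    · exfalso
      obtain ⟨l', h1, -⟩ := PCode.first (Y := Y) (r := z ++ r) hC hY l hlX (by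
        rw [e, ← hz]; simp)
      exact hYB (hl Y (by rw [h1]; simp))
    · exfalso
      obtain ⟨l', h1, h2⟩ := PCode.first (Y := Y1) (r := Y2 ++ (z ++ r)) hC (hBX hY1) l hlX (by
        rw [e, ← hz]; simp)
      obtain ⟨l'', h3, -⟩ := PCode.first (Y := Y2) (r := z ++ r) hC hY2 l'
        (fun X hX' => hlX X (by rw [h1]; simp [hX'])) h2
      exact hYB (hl Y2 (by rw [h1, h3]; simp))
  · intro X hX1 X' hX' v
    obtain ⟨P, Q, e, hP, h⟩ := c2 X hX1 X' hX' v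
    refine ⟨P, Q, e, hP, ?_⟩
    rw [← hT, ← hT]
    exact fun v' P' hP' => h v' P' hP'
  · intro v v'
    have := (hB v v').mono (show 1 ≤ 2 by omega)
    refine this.congr fun w => ?_
    rw [← hTe]

end Crest.Agent.R320.TopSem_442
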