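import Crest.Agent.R320.TopU_748

/-!
# Row 320: read-off and tail for `TopU_748.two_levels` (helper748)
-/

set_option autoImplicit false

namespace Crest.Agent.R320.TopU2_748

open Crest.RegLang Crest.Agent.R320.Hk_851 Crest.Agent.R320.Sand_748
open Crest.Agent.R320.TopU_748

universe u

variable {α : Type u} {V : Type*}

/-- the token after a list of zones -/
def run (ζ : List α → V → V) (v : V) (zs : List (List α)) : V := zs.foldl (fun a z => ζ z a) v

theorem pth_run {Z : Set (List α)} {ζ : List α → V → V} (zs : List (List α)) :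
    ∀ v, (∀ z ∈ zs, z ∈ Z) → Pth 0 Z ζ zs.flatten v [] (run ζ v zs) := by
  induction zs with
  | nil => intro v _; exact .nil _ _
  | cons z zs ih =>
    intro v h
    rw [List.flatten_cons]
    exact Pth.zero_append (h z List.mem_cons_self)
      (ih _ (fun y hy => h y (List.mem_cons_of_mem _ hy)))

theorem run_of_pth {Z : Set (List α)} {ζ : List α → V → V} {u s : List α} {v a : V}
    (h : Pth 0 Z ζ u v s a) : s = [] → ∃ zs : List (List α), (∀ z ∈ zs, z ∈ Z) ∧
      u = zs.flatten ∧ a = run ζ v zs := by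
  induction h with
  | nil u v => intro h; exact ⟨[], by simp, h, rfl⟩
  | cons z u v s a hz hp h ih =>
    intro hs
    obtain ⟨zs, h1, h2, h3⟩ := ih hs
    obtain ⟨t, rfl⟩ := hp
    have e : (z ++ t).drop (z.length - 0) = t := by simp
    rw [e] at h2
    refine ⟨z :: zs, ?_, by rw [h2]; rfl, h3⟩
    intro y hy
    rcases List.mem_cons.1 hy with rfl | hy
    · exact hz
    · exact h1 y hy

theorem code_unique {Z : Set (List α)} (hne : ∀ z ∈ Z, 0 < z.length)
    (code : ∀ z z' x x', z ∈ Z → z' ∈ Z → z ++ x = z' ++ x' → z = z')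
    (zs : List (List α)) : ∀ zs' : List (List α), (∀ z ∈ zs, z ∈ Z) → (∀ z ∈ zs', z ∈ Z) →
      zs.flatten = zs'.flatten → zs = zs' := by
  induction zs with
  | nil =>
    intro zs' _ h' e
    rcases zs' with _ | ⟨z, zs'⟩
    · rfl
    · exfalso
      have h1 := hne z (h' z List.mem_cons_self)
      have h2 := congrArg List.length e
      rw [List.flatten_nil, List.flatten_cons, List.length_append, List.length_nil] at h2
      omega
  | cons z zs ih =>
    intro zs' h h' e
    rcases zs' with _ | ⟨z', zs'⟩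
    · exfalso
      have h1 := hne z (h z List.mem_cons_self)
      have h2 := congrArg List.length e
      rw [List.flatten_nil, List.flatten_cons, List.length_append, List.length_nil] at h2
      omega
    · rw [List.flatten_cons, List.flatten_cons] at e
      have e1 := code z z' _ _ (h z List.mem_cons_self) (h' z' List.mem_cons_self) e
      subst e1
      have e2 := List.append_cancel_left e
      rw [ih zs' (fun y hy => h y (List.mem_cons_of_mem _ hy))
        (fun y hy => h' y (List.mem_cons_of_mem _ hy)) e2]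

theorem run_sub {S : Type*} [Monoid S] [AddCommGroup V] {Z : Set (List α)}
    {ζ : List α → V → V} (ph : List α → S) (act : V → S → V)
    (h1 : ph [] = 1) (hm : ∀ a b, ph (a ++ b) = ph a * ph b)
    (act1 : ∀ v, act v 1 = v) (actm : ∀ v s t, act (act v s) t = act v (s * t))
    (hζ : ∀ X ∈ Z, ∀ v v', ζ X v - ζ X v' = act (v - v') (ph X)) (zs : List (List α)) :
    ∀ v v', (∀ z ∈ zs, z ∈ Z) → run ζ v zs - run ζ v' zs = act (v - v') (ph zs.flatten) := by
  induction zs with
  | nil => intro v v' _; show v - v' = _; rw [List.flatten_nil, h1, act1]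
  | cons z zs ih =>
    intro v v' h
    have h2 := ih (ζ z v) (ζ z v') (fun y hy => h y (List.mem_cons_of_mem _ hy))
    show run ζ (ζ z v) zs - run ζ (ζ z v') zs = _
    rw [h2, hζ z (h z List.mem_cons_self), actm, List.flatten_cons, hm]

theorem split {S : Type*} [Monoid S] {Z : Set (List α)} (hne : ∀ z ∈ Z, 0 < z.length) :
    ∀ w : List α, ∃ (zs : List (List α)) (b : List α), (∀ z ∈ zs, z ∈ Z) ∧
      zs.flatten ++ b = w ∧ ∀ z ∈ Z, ¬ z <+: b := by
  intro w
  induction hn : w.length using Nat.strong_induction_on generalizing w with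
  | _ n ih =>
    by_cases hz : ∃ z ∈ Z, z <+: w
    · obtain ⟨z, hz, y, rfl⟩ := hz
      have hl := hne z hz
      obtain ⟨zs, b, h1, h2, h3⟩ := ih y.length (by
        rw [← hn, List.length_append]; omega) y rfl
      refine ⟨z :: zs, b, ?_, by rw [List.flatten_cons, List.append_assoc, h2], h3⟩
      intro x hx
      rcases List.mem_cons.1 hx with rfl | hx
      · exact hz
      · exact h1 x hx
    · push Not at hz
      exact ⟨[], w, by simp, rfl, hz⟩

/-- **read-off** -/
theorem readoff [Finite V] {S : Type*} [Monoid S] [Finite S] [AddCommGroup V]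
    {Z : Set (List α)} {ζ : List α → V → V} (ph : List α → S) (act : V → S → V)
    (h1 : ph [] = 1) (hm : ∀ a b, ph (a ++ b) = ph a * ph b)
    (act1 : ∀ v, act v 1 = v) (actm : ∀ v s t, act (act v s) t = act v (s * t))
    (act0 : ∀ s, act 0 s = 0)
    (faith : ∀ s t, (∀ v, act v s = act v t) → s = t)
    (hζ : ∀ X ∈ Z, ∀ v v', ζ X v - ζ X v' = act (v - v') (ph X))
    (hne : ∀ z ∈ Z, 0 < z.length)
    (code : ∀ z z' x x', z ∈ Z → z' ∈ Z → z ++ x = z' ++ x' → z = z')
    {k : ℕ} (hS : Sand 0 Z Z ζ k)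
    (tail : ∀ s, HL k ({w | (∀ z ∈ Z, ¬ z <+: w) ∧ ph w = s} : Language α)) (s : S) :
    HL k ({w | ph w = s} : Language α) := by
  choose X hX hXl hXu using hS
  have drop0 : ∀ u : List α, u.drop (u.length - 0) = [] := by intro u; simp
  -- `X v v'` is exactly the set of zone products moving `v` to `v'`
  have hXiff : ∀ v v' u, u ∈ X v v' ↔ ∃ zs : List (List α), (∀ z ∈ zs, z ∈ Z) ∧
      u = zs.flatten ∧ v' = run ζ v zs := by
    intro v v' u
    constructor
    · intro hu
      have h := (hXu v v' u hu).2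
      rw [drop0] at h
      exact run_of_pth h rfl
    · rintro ⟨zs, h2, rfl, rfl⟩
      refine hXl v _ _ (Nat.zero_le _) ?_
      rw [drop0]
      exact pth_run zs v h2
  have hprod : ∀ t : S, HL k ({u | ∃ zs : List (List α), (∀ z ∈ zs, z ∈ Z) ∧ u = zs.flatten ∧
      ph u = t} : Language α) := by
    intro t
    have h : HL k ({u | ∃ d : V, u ∈ ({u | ∀ v : V, u ∈ X v (act v t + d)} : Language α)} :
        Language α) := HL.iUnion fun d => HL.iInter fun v => hX v _
    refine h.congr fun u => ?_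
    constructor
    · rintro ⟨zs, h2, rfl, h3⟩
      refine ⟨run ζ 0 zs, fun v => (hXiff _ _ _).2 ⟨zs, h2, rfl, ?_⟩⟩
      have h4 := run_sub ph act h1 hm act1 actm hζ zs v 0 h2
      rw [sub_zero, h3] at h4
      rw [← h4]; abel
    · rintro ⟨d, h2⟩
      obtain ⟨zs, h3, h4, h5⟩ := (hXiff _ _ _).1 (h2 0)
      refine ⟨zs, h3, h4, ?_⟩
      refine faith _ _ fun v => ?_
      obtain ⟨zs', h6, h7, h8⟩ := (hXiff _ _ _).1 (h2 v)
      have e : zs' = zs := code_unique hne code zs' zs h6 h3 (h7.symm.trans h4)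
      subst e
      have h9 := run_sub ph act h1 hm act1 actm hζ zs' v 0 h6
      rw [sub_zero, ← h8, ← h5, act0] at h9
      rw [h4, ← h9]; abel
  refine (HL.iUnion fun p : {p : S × S // p.1 * p.2 = s} =>
    (hprod p.1.1).mul (tail p.1.2)).congr fun w => ?_
  constructor
  · intro hw
    obtain ⟨zs, b, h2, rfl, h4⟩ := split (S := S) hne w
    have hw' : ph (zs.flatten ++ b) = s := hw
    refine ⟨⟨(ph zs.flatten, ph b), by rw [← hm]; exact hw'⟩, ?_⟩
    exact Language.mem_mul.2 ⟨_, ⟨zs, h2, rfl, rfl⟩, b, ⟨h4, rfl⟩, rfl⟩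
  · rintro ⟨⟨p, hp⟩, hw⟩
    obtain ⟨a, ⟨zs, h2, h3, h4⟩, b, ⟨-, hb⟩, rfl⟩ := Language.mem_mul.1 hw
    show ph (a ++ b) = s
    rw [hm, h4, hb]; exact hp

end Crest.Agent.R320.TopU2_748
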