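import Crest.Agent.R320.Hk2_851

/-!
# Row 320, top theorem in block form (helper542)

`XX` prefix code of blocks (unbounded), `T` block map on tokens, scheme 1 sound everywhere,
scheme 2 reads one more block and is sound when the token is not cut by scheme 1.
Result: all arrival languages are of height 3.
-/

set_option autoImplicit false

namespace Crest.Agent.R320.TopU_542

open Crest.Agent.R320.Hk_851

universe u

variable {α : Type u} {V : Type}

/-- block words moving `v` to `v'`, with a side condition on every (block, value) -/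
inductive Arr (XX : Set (List α)) (T : V → List α → V) (C : List α → V → Prop) :
    V → V → List α → Prop
  | nil (v : V) : Arr XX T C v v []
  | cons (v v' : V) (X w : List α) (hX : X ∈ XX) (hC : C X v) (h : Arr XX T C (T v X) v' w) :
      Arr XX T C v v' (X ++ w)

def ArrL (XX : Set (List α)) (T : V → List α → V) (C : List α → V → Prop) (v v' : V) :
    Language α := {w | Arr XX T C v v' w}

section basic

variable {XX : Set (List α)} {T : V → List α → V} {C C' : List α → V → Prop}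

theorem Arr.mono (h : ∀ X v, C X v → C' X v) {v v' : V} {w : List α} (hw : Arr XX T C v v' w) :
    Arr XX T C' v v' w := by
  induction hw with
  | nil v => exact Arr.nil _
  | cons v v' X w hX hC _ ih => exact Arr.cons _ _ _ _ hX (h _ _ hC) ih

theorem Arr.app {v v' v'' : V} {w w' : List α} (hw : Arr XX T C v v' w)
    (hw' : Arr XX T C v' v'' w') : Arr XX T C v v'' (w ++ w') := by
  induction hw with
  | nil v => exact hw'
  | cons v v' X w hX hC _ ih =>
    rw [List.append_assoc]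
    exact Arr.cons _ _ _ _ hX hC (ih hw')

theorem Arr.one {v : V} {X : List α} (hX : X ∈ XX) (hC : C X v) : Arr XX T C v (T v X) X := by
  have := Arr.cons (T := T) v _ X [] hX hC (Arr.nil _)
  simpa using this

theorem pref_eq (hne : [] ∉ XX) (hpc : ∀ X ∈ XX, ∀ Y ∈ XX, X <+: Y → X = Y)
    {X Y a b : List α} (hX : X ∈ XX) (hY : Y ∈ XX) (h : X ++ a = Y ++ b) : X = Y ∧ a = b := by
  have h1 : X <+: Y ++ b := ⟨a, h⟩
  have h2 : Y <+: Y ++ b := ⟨b, rfl⟩
  rcases List.prefix_or_prefix_of_prefix h1 h2 with h3 | h3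
  · obtain rfl := hpc _ hX _ hY h3
    exact ⟨rfl, List.append_cancel_left h⟩
  · obtain rfl := hpc _ hY _ hX h3
    exact ⟨rfl, List.append_cancel_left h⟩

/-- unique parse: a block word in front of a text which is a block word -/
theorem Arr.split (hne : [] ∉ XX) (hpc : ∀ X ∈ XX, ∀ Y ∈ XX, X <+: Y → X = Y)
    {v v1 : V} {c : List α} (hc : Arr XX T C v v1 c) :
    ∀ {v' : V} {w r : List α}, Arr XX T C' v v' w → w = c ++ r →
      Arr XX T C' v v1 c ∧ Arr XX T C' v1 v' r := by
  induction hc with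
  | nil v =>
    rintro v' w r hw rfl
    exact ⟨Arr.nil _, hw⟩
  | cons v v1 X c hX hC _ ih =>
    intro v' w r hw hwr
    cases hw with
    | nil =>
      exfalso
      have h0 : X = [] := by
        have := congrArg List.length hwr
        simp only [List.length_nil, List.length_append] at this
        exact List.length_eq_zero_iff.1 (by omega)
      exact hne (h0 ▸ hX)
    | cons _ _ Y w' hY hCY h' =>
      rw [List.append_assoc] at hwr
      obtain ⟨rfl, h2⟩ := pref_eq hne hpc hY hX hwr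
      obtain ⟨h3, h4⟩ := ih h' h2
      exact ⟨Arr.cons _ _ _ _ hY hCY h3, h4⟩

end basic

/-- the data of the two schemes -/
structure Dat (α : Type u) (V : Type) where
  XX : Set (List α)
  T : V → List α → V
  LP1 : V → Language α
  RQ1 : V → Language α
  LP2 : V → Language α
  RQ2 : V → Language α

def Dat.Cut1 (D : Dat α V) (X : List α) (v : V) : Prop :=
  ∃ P Q b, P ++ Q = X ∧ P ∈ D.LP1 v ∧ Q ∈ D.RQ1 b

structure Dat.Ok (D : Dat α V) : Prop where
  ne : [] ∉ D.XX
  pc : ∀ X ∈ D.XX, ∀ Y ∈ D.XX, X <+: Y → X = Y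
  s1 : ∀ P Q v b, P ∈ D.LP1 v → Q ∈ D.RQ1 b → P ++ Q ∈ D.XX ∧ D.T v (P ++ Q) = b
  s2 : ∀ P Q v b, P ∈ D.LP2 v → Q ∈ D.RQ2 b → ∃ X1 X2, X1 ∈ D.XX ∧ X2 ∈ D.XX ∧
    P ++ Q = X1 ++ X2 ∧ (¬ D.Cut1 X1 v → D.T (D.T v X1) X2 = b)
  cc : ∀ X1 X2 v, X1 ∈ D.XX → X2 ∈ D.XX → D.Cut1 X1 v ∨
    ∃ P Q b, P ++ Q = X1 ++ X2 ∧ P ∈ D.LP2 v ∧ Q ∈ D.RQ2 b

/-- arrival, and arrival of a thread which is not cut by scheme 1 -/
def Dat.All (D : Dat α V) : V → V → Language α := ArrL D.XX D.T (fun _ _ => True)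
def Dat.Unc (D : Dat α V) : V → V → Language α := ArrL D.XX D.T (fun X v => ¬ D.Cut1 X v)

/-! ### outer star -/

def Dat.K (D : Dat α V) : Language α :=
  {w | ∃ b v, w ∈ D.RQ1 b * (D.Unc b v * D.LP1 v)}
def Dat.St (D : Dat α V) (v : V) : Language α := {w | ∃ v1, w ∈ D.Unc v v1 * D.LP1 v1}
def Dat.En (D : Dat α V) (v' : V) : Language α := {w | ∃ b, w ∈ D.RQ1 b * D.Unc b v'}

theorem Dat.all_eq (D : Dat α V) (h : D.Ok) (v v' : V) :
    D.All v v' = D.Unc v v' + D.St v * (KStar.kstar D.K * D.En v') := by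
  have hU : ∀ {v v' : V} {w : List α}, w ∈ D.Unc v v' → w ∈ D.All v v' :=
    fun hw => Arr.mono (fun _ _ _ => trivial) hw
  apply Set.eq_of_subset_of_subset
  · intro w hw
    have hw' : Arr D.XX D.T (fun _ _ => True) v v' w := hw
    clear hw
    show w ∈ D.Unc v v' + D.St v * (KStar.kstar D.K * D.En v')
    induction hw' with
    | nil v => exact Or.inl (Arr.nil _)
    | cons v v' X w hX _ hr ih =>
      by_cases hc : D.Cut1 X v
      · obtain ⟨P, Q, b, rfl, hP, hQ⟩ := hc
        have hb := (h.s1 _ _ _ _ hP hQ).2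
        rw [hb] at ih
        right
        refine Language.mem_mul.2 ⟨P, ⟨v, Language.mem_mul.2 ⟨[], Arr.nil _, P, hP, rfl⟩⟩, Q ++ w, ?_, by simp⟩
        rcases ih with h1 | h1
        · exact Language.mem_mul.2 ⟨[], Language.nil_mem_kstar _, Q ++ w,
            ⟨b, Language.mem_mul.2 ⟨Q, hQ, w, h1, rfl⟩⟩, rfl⟩
        · obtain ⟨a, ⟨v1, ha⟩, r, hr', rfl⟩ := Language.mem_mul.1 h1
          obtain ⟨k, hk, e, he, rfl⟩ := Language.mem_mul.1 hr'
          obtain ⟨l, rfl, hl⟩ := Language.mem_kstar.1 hk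
          refine Language.mem_mul.2 ⟨((Q ++ a) :: l).flatten, Language.mem_kstar.2
            ⟨(Q ++ a) :: l, rfl, ?_⟩, e, he, by simp⟩
          intro y hy
          rcases List.mem_cons.1 hy with rfl | hy
          · exact ⟨b, v1, Language.mem_mul.2 ⟨Q, hQ, a, ha, rfl⟩⟩
          · exact hl y hy
      · rcases ih with h1 | h1
        · exact Or.inl (Arr.cons _ _ _ _ hX hc h1)
        · right
          obtain ⟨a, ⟨v1, ha⟩, r, hr', rfl⟩ := Language.mem_mul.1 h1
          obtain ⟨a1, ha1, a2, ha2, rfl⟩ := Language.mem_mul.1 ha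
          exact Language.mem_mul.2 ⟨X ++ (a1 ++ a2), ⟨v1, Language.mem_mul.2
            ⟨X ++ a1, Arr.cons _ _ _ _ hX hc ha1, a2, ha2, by simp⟩⟩, r, hr', by simp⟩
  · intro w hw
    rcases hw with hw | hw
    · exact hU hw
    · obtain ⟨a, ⟨v1, ha⟩, r, hr, rfl⟩ := Language.mem_mul.1 hw
      obtain ⟨a1, ha1, P, hP, rfl⟩ := Language.mem_mul.1 ha
      obtain ⟨k, hk, e, he, rfl⟩ := Language.mem_mul.1 hr
      obtain ⟨l, rfl, hl⟩ := Language.mem_kstar.1 hk
      have key : ∀ (l : List (List α)), (∀ y ∈ l, y ∈ D.K) → ∀ (P : List α) (v1 : V),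
          P ∈ D.LP1 v1 → Arr D.XX D.T (fun _ _ => True) v1 v' (P ++ (l.flatten ++ e)) := by
        intro l
        induction l with
        | nil =>
          intro _ P v1 hP
          obtain ⟨b, hb⟩ := he
          obtain ⟨Q, hQ, x, hx, rfl⟩ := Language.mem_mul.1 hb
          obtain ⟨h1, h2⟩ := h.s1 _ _ _ _ hP hQ
          have h3 := (Arr.one (T := D.T) (C := fun _ _ => True) (v := v1) h1 trivial)
          rw [h2] at h3
          have := h3.app (hU hx)
          simpa using this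
        | cons y l ih =>
          intro hl P v1 hP
          obtain ⟨b, v2, hb⟩ := hl y List.mem_cons_self
          obtain ⟨Q, hQ, x, hx, rfl⟩ := Language.mem_mul.1 hb
          obtain ⟨x1, hx1, P2, hP2, rfl⟩ := Language.mem_mul.1 hx
          obtain ⟨h1, h2⟩ := h.s1 _ _ _ _ hP hQ
          have h3 := (Arr.one (T := D.T) (C := fun _ _ => True) (v := v1) h1 trivial)
          rw [h2] at h3
          have h4 := ih (fun z hz => hl z (List.mem_cons_of_mem _ hz)) P2 v2 hP2
          have := (h3.app (hU hx1)).app h4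
          simpa using this
      have h5 := key l hl P v1 hP
      have := (show Arr D.XX D.T (fun _ _ => True) v v1 a1 from hU ha1).app h5
      show Arr D.XX D.T (fun _ _ => True) v v' _
      simpa using this

/-! ### inner star -/

def Dat.K2 (D : Dat α V) : Language α := {w | ∃ b, w ∈ D.RQ2 b * D.LP2 b}

/-- claims of scheme 2 -/
inductive Dat.Cl2 (D : Dat α V) : V → V → List α → Prop
  | nil (v : V) : Dat.Cl2 D v v []
  | cons (v v' b : V) (P Q w : List α) (hP : P ∈ D.LP2 v) (hQ : Q ∈ D.RQ2 b)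
      (h : Dat.Cl2 D b v' w) : Dat.Cl2 D v v' (P ++ Q ++ w)

def Dat.Cl2L (D : Dat α V) (v v' : V) : Language α := {w | D.Cl2 v v' w}

theorem Dat.cl2_eq (D : Dat α V) (v v' : V) :
    D.Cl2L v v' = {w | (v = v' ∧ w ∈ (1 : Language α)) ∨
      w ∈ D.LP2 v * (KStar.kstar D.K2 * D.RQ2 v')} := by
  apply Set.eq_of_subset_of_subset
  · intro w hw
    have hw' : D.Cl2 v v' w := hw
    clear hw
    show (v = v' ∧ w ∈ (1 : Language α)) ∨
      w ∈ D.LP2 v * (KStar.kstar D.K2 * D.RQ2 v')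
    induction hw' with
    | nil v => exact Or.inl ⟨rfl, rfl⟩
    | cons v v' b P Q w hP hQ _ ih =>
      right
      rcases ih with ⟨rfl, h1⟩ | h1
      · obtain rfl : w = [] := h1
        exact Language.mem_mul.2 ⟨P, hP, Q, Language.mem_mul.2
          ⟨[], Language.nil_mem_kstar _, Q, hQ, rfl⟩, by simp⟩
      · obtain ⟨P2, hP2, r, hr, rfl⟩ := Language.mem_mul.1 h1
        obtain ⟨k, hk, e, he, rfl⟩ := Language.mem_mul.1 hr
        obtain ⟨l, rfl, hl⟩ := Language.mem_kstar.1 hk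
        refine Language.mem_mul.2 ⟨P, hP, ((Q ++ P2) :: l).flatten ++ e, Language.mem_mul.2
          ⟨_, Language.mem_kstar.2 ⟨(Q ++ P2) :: l, rfl, ?_⟩, e, he, rfl⟩, by simp⟩
        intro y hy
        rcases List.mem_cons.1 hy with rfl | hy
        · exact ⟨b, Language.mem_mul.2 ⟨Q, hQ, P2, hP2, rfl⟩⟩
        · exact hl y hy
  · intro w hw
    rcases hw with ⟨rfl, h1⟩ | hw
    · obtain rfl : w = [] := h1
      exact Dat.Cl2.nil _
    · obtain ⟨P, hP, r, hr, rfl⟩ := Language.mem_mul.1 hw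
      obtain ⟨k, hk, e, he, rfl⟩ := Language.mem_mul.1 hr
      obtain ⟨l, rfl, hl⟩ := Language.mem_kstar.1 hk
      have key : ∀ (l : List (List α)), (∀ y ∈ l, y ∈ D.K2) → ∀ (P : List α) (v1 : V),
          P ∈ D.LP2 v1 → D.Cl2 v1 v' (P ++ (l.flatten ++ e)) := by
        intro l
        induction l with
        | nil =>
          intro _ P v1 hP
          have := Dat.Cl2.cons v1 v' v' P e [] hP he (Dat.Cl2.nil _)
          simpa using this
        | cons y l ih =>
          intro hl P v1 hP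
          obtain ⟨b, hb⟩ := hl y List.mem_cons_self
          obtain ⟨Q, hQ, P2, hP2, rfl⟩ := Language.mem_mul.1 hb
          have h4 := ih (fun z hz => hl z (List.mem_cons_of_mem _ hz)) P2 b hP2
          have := Dat.Cl2.cons v1 v' b P Q _ hP hQ h4
          simpa using this
      exact key l hl P v hP

theorem Dat.Cl2.snoc (D : Dat α V) {v v1 b : V} {w P Q : List α} (h : D.Cl2 v v1 w)
    (hP : P ∈ D.LP2 v1) (hQ : Q ∈ D.RQ2 b) : D.Cl2 v b (w ++ (P ++ Q)) := by
  induction h with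
  | nil v =>
    have := Dat.Cl2.cons v b b P Q [] hP hQ (Dat.Cl2.nil _)
    simpa using this
  | cons v v' b' P' Q' w hP' hQ' _ ih =>
    have := Dat.Cl2.cons v b b' P' Q' _ hP' hQ' (ih hP)
    simpa using this

/-- one block moving `v` to `v'` -/
def Dat.B (D : Dat α V) (v v' : V) : Language α := {X | X ∈ D.XX ∧ D.T v X = v'}

/-- a block cut by scheme 1 -/
def Dat.C1 (D : Dat α V) (v : V) : Language α := {X | ∃ b, X ∈ D.LP1 v * D.RQ1 b}

def Dat.Viol (D : Dat α V) (v : V) : Language α :=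
  {w | (∃ v1, w ∈ D.Cl2L v v1 * (D.C1 v1 * ⊤)) ∨
    (∃ v0, ∃ v1, w ∈ D.Cl2L v v0 * (D.B v0 v1 * (D.C1 v1 * ⊤)))}

def Dat.Cand (D : Dat α V) (v v' : V) : Language α :=
  {w | w ∈ D.Cl2L v v' ∨ ∃ v0, w ∈ D.Cl2L v v0 * D.B v0 v'}

theorem Dat.mem_C1 (D : Dat α V) {v : V} {X : List α} (h : D.Cut1 X v) : X ∈ D.C1 v := by
  obtain ⟨P, Q, b, rfl, hP, hQ⟩ := h
  exact ⟨b, Language.mem_mul.2 ⟨P, hP, Q, hQ, rfl⟩⟩

/-- soundness of the claims of scheme 2 outside the violation language -/
theorem Dat.cl2_sound (D : Dat α V) (h : D.Ok) {v1 v' : V} {w : List α} (hw : D.Cl2 v1 v' w) :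
    ∀ (v : V) (c r : List α), D.Cl2 v v1 c → Arr D.XX D.T (fun X v => ¬ D.Cut1 X v) v v1 c →
      c ++ (w ++ r) ∉ D.Viol v →
      Arr D.XX D.T (fun X v => ¬ D.Cut1 X v) v v' (c ++ w) ∧ D.Cl2 v v' (c ++ w) := by
  induction hw with
  | nil v1 =>
    intro v c r hc hc2 _
    rw [List.append_nil]
    exact ⟨hc2, hc⟩
  | cons v1 v' b P Q w hP hQ _ ih =>
    intro v c r hc hc2 hv
    obtain ⟨X1, X2, hX1, hX2, he, hs⟩ := h.s2 _ _ _ _ hP hQ
    have h1 : ¬ D.Cut1 X1 v1 := by
      intro hcut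
      apply hv
      refine Or.inl ⟨v1, Language.mem_mul.2 ⟨c, hc, X1 ++ (X2 ++ (w ++ r)), Language.mem_mul.2
        ⟨X1, D.mem_C1 hcut, _, trivial, rfl⟩, ?_⟩⟩
      rw [he]; simp
    have h2 : ¬ D.Cut1 X2 (D.T v1 X1) := by
      intro hcut
      apply hv
      refine Or.inr ⟨v1, D.T v1 X1, Language.mem_mul.2 ⟨c, hc, X1 ++ (X2 ++ (w ++ r)), Language.mem_mul.2
        ⟨X1, ⟨hX1, rfl⟩, _, Language.mem_mul.2 ⟨X2, D.mem_C1 hcut, _, trivial, rfl⟩, rfl⟩, ?_⟩⟩
      rw [he]; simp
    have h3 : Arr D.XX D.T (fun X v => ¬ D.Cut1 X v) v b (c ++ (P ++ Q)) := by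
      rw [he]
      have h4 := (Arr.one (T := D.T) (C := fun X v => ¬ D.Cut1 X v) hX2 h2)
      rw [hs h1] at h4
      exact hc2.app ((Arr.one hX1 h1).app h4)
    have h5 := ih v (c ++ (P ++ Q)) r (hc.snoc D hP hQ) h3 (by
      intro h6; apply hv; simpa using h6)
    simpa using h5

theorem Dat.cl2_arr (D : Dat α V) (h : D.Ok) {v v1 : V} {c : List α} (hc : D.Cl2 v v1 c) :
    ∀ {v' : V} {w r : List α}, Arr D.XX D.T (fun X v => ¬ D.Cut1 X v) v v' w → w = c ++ r →
      Arr D.XX D.T (fun X v => ¬ D.Cut1 X v) v v1 c ∧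
      Arr D.XX D.T (fun X v => ¬ D.Cut1 X v) v1 v' r := by
  induction hc with
  | nil v =>
    rintro v' w r hw rfl
    exact ⟨Arr.nil _, hw⟩
  | cons v v1 b P Q c hP hQ _ ih =>
    intro v' w r hw hwr
    obtain ⟨X1, X2, hX1, hX2, he, hs⟩ := h.s2 _ _ _ _ hP hQ
    have e1 : w = (X1 ++ X2) ++ (c ++ r) := by rw [hwr, he]; simp
    have h0 : Arr D.XX D.T (fun _ _ => True) v (D.T (D.T v X1) X2) (X1 ++ X2) :=
      (Arr.one hX1 trivial).app (Arr.one hX2 trivial)
    obtain ⟨h1, h2⟩ := h0.split h.ne h.pc hw e1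
    have h3 : ¬ D.Cut1 X1 v := by
      obtain ⟨h4, _⟩ := (Arr.one (T := D.T) (C := fun _ _ => True) hX1 trivial).split h.ne h.pc h1 rfl
      cases h4' : X1 with
      | nil => exact (h.ne (h4' ▸ hX1)).elim
      | cons x xs =>
        rw [← h4']
        have h5 : ∀ {Y : List α} {v v' : V}, Arr D.XX D.T (fun X v => ¬ D.Cut1 X v) v v' Y →
            Y ∈ D.XX → ¬ D.Cut1 Y v := by
          intro Y v v' h6 hY
          cases h6 with
          | nil => exact (h.ne hY).elim
          | cons _ _ Z w' hZ hC _ =>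
            have : Z = Z ++ w' := by
              have := h.pc _ hZ _ hY ⟨w', rfl⟩
              exact this
            rw [← this]
            exact hC
        exact h5 h4 hX1
    rw [hs h3] at h1 h2
    obtain ⟨h6, h7⟩ := ih h2 rfl
    refine ⟨?_, h7⟩
    rw [he]
    exact h1.app h6

theorem Dat.unc_head (D : Dat α V) (h : D.Ok) {v v' : V} {X r : List α} (hX : X ∈ D.XX)
    (hw : Arr D.XX D.T (fun X v => ¬ D.Cut1 X v) v v' (X ++ r)) :
    ¬ D.Cut1 X v ∧ Arr D.XX D.T (fun X v => ¬ D.Cut1 X v) (D.T v X) v' r := by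
  generalize hw0 : X ++ r = w at hw
  cases hw with
  | nil =>
    exfalso
    have : X = [] := (List.append_eq_nil_iff.1 hw0).1
    exact h.ne (this ▸ hX)
  | cons _ _ Z w' hZ hC h' =>
    obtain ⟨rfl, rfl⟩ := pref_eq h.ne h.pc hX hZ hw0
    exact ⟨hC, h'⟩

theorem Dat.unc_eq (D : Dat α V) (h : D.Ok) (v v' : V) :
    D.Unc v v' = D.Cand v v' \ D.Viol v := by
  apply Set.eq_of_subset_of_subset
  · intro w hw
    have hw' : Arr D.XX D.T (fun X v => ¬ D.Cut1 X v) v v' w := hw
    refine ⟨?_, ?_⟩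
    · -- completeness
      have key : ∀ (n : ℕ) (w : List α), w.length ≤ n → ∀ (v1 : V) (c : List α), D.Cl2 v v1 c →
          Arr D.XX D.T (fun X v => ¬ D.Cut1 X v) v1 v' w → c ++ w ∈ D.Cand v v' := by
        intro n
        induction n with
        | zero =>
          intro w hn v1 c hc ha
          cases ha with
          | nil => rw [List.append_nil]; exact Or.inl hc
          | cons _ _ X w' hX hC h' =>
            exfalso
            have h0 : X = [] := by
              rw [List.length_append] at hn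
              exact List.length_eq_zero_iff.1 (by omega)
            exact h.ne (h0 ▸ hX)
        | succ n ih =>
          intro w hn v1 c hc ha
          cases ha with
          | nil => rw [List.append_nil]; exact Or.inl hc
          | cons _ _ X1 w1 hX1 hC1 h1 =>
            cases h1 with
            | nil =>
              rw [List.append_nil]
              exact Or.inr ⟨v1, Language.mem_mul.2 ⟨c, hc, X1, ⟨hX1, rfl⟩, rfl⟩⟩
            | cons _ _ X2 w2 hX2 hC2 h2 =>
              rcases h.cc X1 X2 v1 hX1 hX2 with h3 | ⟨P, Q, b, he, hP, hQ⟩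
              · exact (hC1 h3).elim
              · obtain ⟨Y1, Y2, hY1, hY2, he2, hs⟩ := h.s2 _ _ _ _ hP hQ
                rw [he] at he2
                obtain ⟨rfl, rfl⟩ := pref_eq h.ne h.pc hX1 hY1 he2
                have h4 := hs hC1
                rw [h4] at h2
                have hX1l : 0 < X1.length := by
                  rcases Nat.eq_zero_or_pos X1.length with h0 | h0
                  · exact (h.ne (List.length_eq_zero_iff.1 h0 ▸ hX1)).elim
                  · exact h0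
                have h5 := ih w2 (by
                  simp only [List.length_append] at hn; omega) b (c ++ (P ++ Q))
                  (hc.snoc D hP hQ) h2
                rw [he] at h5
                simpa using h5
      have := key w.length w le_rfl v [] (Dat.Cl2.nil _) hw'
      rw [List.nil_append] at this
      exact this
    · -- not in the violation language
      intro hv
      rcases hv with ⟨v1, hv⟩ | ⟨v0, v1, hv⟩
      · obtain ⟨c, hc, r, hr, rfl⟩ := Language.mem_mul.1 hv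
        obtain ⟨X, ⟨b, hX⟩, e, _, rfl⟩ := Language.mem_mul.1 hr
        obtain ⟨P, hP, Q, hQ, rfl⟩ := Language.mem_mul.1 hX
        obtain ⟨_, h2⟩ := D.cl2_arr h hc hw' rfl
        exact (D.unc_head h (h.s1 _ _ _ _ hP hQ).1 h2).1 ⟨P, Q, b, rfl, hP, hQ⟩
      · obtain ⟨c, hc, r, hr, rfl⟩ := Language.mem_mul.1 hv
        obtain ⟨Y, ⟨hY1, hY2⟩, r2, hr2, rfl⟩ := Language.mem_mul.1 hr
        obtain ⟨X, ⟨b, hX⟩, e, _, rfl⟩ := Language.mem_mul.1 hr2
        obtain ⟨P, hP, Q, hQ, rfl⟩ := Language.mem_mul.1 hX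
        obtain ⟨_, h2⟩ := D.cl2_arr h hc hw' rfl
        obtain ⟨_, h3⟩ := D.unc_head h hY1 h2
        rw [hY2] at h3
        exact (D.unc_head h (h.s1 _ _ _ _ hP hQ).1 h3).1 ⟨P, Q, b, rfl, hP, hQ⟩
  · rintro w ⟨hw, hv⟩
    have hv' : ∀ x : List α, x = w → x ∉ D.Viol v := by rintro x rfl; exact hv
    rcases hw with hw | ⟨v0, hw⟩
    · have := (D.cl2_sound h hw v [] [] (Dat.Cl2.nil _) (Arr.nil _) (hv' _ (by simp))).1
      rw [List.nil_append] at this
      exact this
    · obtain ⟨c, hc, X, ⟨hX, hT⟩, rfl⟩ := Language.mem_mul.1 hw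
      obtain ⟨h1, h2⟩ := D.cl2_sound h hc v [] X (Dat.Cl2.nil _) (Arr.nil _) (hv' _ (by simp))
      rw [List.nil_append] at h1 h2
      have h3 : ¬ D.Cut1 X v0 := by
        intro hcut
        apply hv' _ rfl
        exact Or.inl ⟨v0, Language.mem_mul.2 ⟨c, h2, X, Language.mem_mul.2
          ⟨X, D.mem_C1 hcut, [], trivial, by simp⟩, rfl⟩⟩
      have h4 := (Arr.one (T := D.T) (C := fun X v => ¬ D.Cut1 X v) hX h3)
      rw [hT] at h4
      exact h1.app h4

/-! ### heights -/

theorem Dat.height [Finite V] (D : Dat α V) (h : D.Ok)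
    (hL1 : ∀ v, HL 1 (D.LP1 v)) (hR1 : ∀ b, HL 1 (D.RQ1 b))
    (hL2 : ∀ v, HL 1 (D.LP2 v)) (hR2 : ∀ b, HL 1 (D.RQ2 b))
    (hB : ∀ v v', HL 1 (D.B v v')) (v v' : V) : HL 3 (D.All v v') := by
  have hK2 : HL 1 D.K2 := HL.iUnion fun b => (hR2 b).mul (hL2 b)
  have hCl : ∀ v v', HL 2 (D.Cl2L v v') := by
    intro v v'
    rw [D.cl2_eq]
    refine HL.setOf_or ?_ ?_
    · by_cases hv : v = v'
      · exact HL.one.congr fun w => ⟨fun h => h.2, fun h => ⟨hv, h⟩⟩
      · exact HL.bot.congr fun w => ⟨fun h => (hv h.1).elim, fun h => h.elim⟩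
    · exact ((hL2 v).mono (by omega)).mul (hK2.star.mul ((hR2 v').mono (by omega)))
  have hC1 : ∀ v, HL 2 (D.C1 v) := fun v =>
    HL.iUnion fun b => ((hL1 v).mono (by omega)).mul ((hR1 b).mono (by omega))
  have hB2 : ∀ v v', HL 2 (D.B v v') := fun v v' => (hB v v').mono (by omega)
  have hU : ∀ v v', HL 2 (D.Unc v v') := by
    intro v v'
    rw [D.unc_eq h]
    refine HL.sdiff ?_ ?_
    · exact HL.setOf_or (hCl v v') (HL.iUnion fun v0 => (hCl v v0).mul (hB2 v0 v'))
    · refine HL.setOf_or (HL.iUnion fun v1 => (hCl v v1).mul ((hC1 v1).mul HL.top))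
        (HL.iUnion fun v0 => HL.iUnion fun v1 => (hCl v v0).mul
          ((hB2 v0 v1).mul ((hC1 v1).mul HL.top)))
  have hK : HL 2 D.K := HL.iUnion fun b => HL.iUnion fun v =>
    ((hR1 b).mono (by omega)).mul ((hU b v).mul ((hL1 v).mono (by omega)))
  have hSt : ∀ v, HL 2 (D.St v) := fun v => HL.iUnion fun v1 =>
    (hU v v1).mul ((hL1 v1).mono (by omega))
  have hEn : ∀ v', HL 2 (D.En v') := fun v' => HL.iUnion fun b =>
    ((hR1 b).mono (by omega)).mul (hU b v')
  rw [D.all_eq h]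
  exact ((hU v v').mono (by omega)).add (((hSt v).mono (by omega)).mul
    (hK.star.mul ((hEn v').mono (by omega))))

end Crest.Agent.R320.TopU_542
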