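import Crest.Agent.R320.Sand_748

/-!
# Row 320: two nested schemes on a prefix code of unbounded zones, semantic right languages
(helper748)
-/

set_option autoImplicit false

namespace Crest.Agent.R320.TopU_748

open Crest.RegLang Crest.Agent.R320.Hk_851 Crest.Agent.R320.Sand_748

universe u

variable {α : Type u} {V : Type*} {k : ℕ}

/-- sequences of zones with a moving token -/
theorem Pth.zero_append {Z : Set (List α)} {ζ : List α → V → V} {z v : List α} {a b : V}
    {s : List α} (hz : z ∈ Z) (h : Pth 0 Z ζ v (ζ z a) s b) : Pth 0 Z ζ (z ++ v) a s b := by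
  refine .cons z _ _ _ _ hz (List.prefix_append _ _) ?_
  simpa using h

/-- promise step: on sequences of zones in `Zc` -/
theorem promise [Finite V] {Zc : Language α} {ζ : List α → V → V} {L R : V → Language α}
    (hLne : ∀ P v, P ∈ L v → P ≠ [])
    (hZc : HL k Zc) (hL : ∀ v, HL k (L v)) (hR : ∀ v, HL k (R v))
    (sound : ∀ v τ P Q X x y, P ∈ L v → Q ∈ R τ → X ∈ Zc → P ++ Q ++ x = X ++ y →
      P ++ Q = X ∧ ζ X v = τ)
    (compl : ∀ X ∈ Zc, ∀ v, ∃ P Q, P ++ Q = X ∧ P ∈ L v ∧ Q ∈ R (ζ X v)) :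
    Ex 0 Zc ζ (k + 1) := by
  intro v v'
  set K : Language α := {w | ∃ τ, w ∈ R τ * L τ} with hK
  have hKH : HL k K := HL.iUnion fun τ => (hR τ).mul (hL τ)
  set W : Language α := L v * (KStar.kstar K * R v') with hW
  have hWH : HL (k + 1) W := ((hL v).mono (Nat.le_succ k)).mul
    (hKH.star.mul ((hR v').mono (Nat.le_succ k)))
  have hN : HL (k + 1) ({u | v = v' ∧ u = []} : Language α) := by
    by_cases h : v = v'
    · exact HL.one.congr fun w => ⟨fun hw => hw.2, fun hw => ⟨h, hw⟩⟩
    · exact HL.bot.congr fun w => ⟨fun hw => (h hw.1).elim, fun hw => hw.elim⟩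
  refine ((hN.add ((hZc.star).inf hWH))).congr fun u => ?_
  have drop0 : ∀ u : List α, u.drop (u.length - 0) = [] := by intro u; simp
  constructor
  · rintro ⟨-, h⟩
    rw [drop0] at h
    -- general statement
    have key : ∀ (u s : List α) (a b : V), Pth 0 Zc ζ u a s b → s = [] →
        u ∈ (KStar.kstar Zc : Language α) ∧ (u = [] ∧ a = b ∨ ∃ P g, u = P ++ g ∧ P ∈ L a ∧
          g ∈ KStar.kstar K * R b) := by
      intro u s a b h
      induction h with
      | nil u a =>
        intro hs
        subst hs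
        exact ⟨Language.nil_mem_kstar _, Or.inl ⟨rfl, rfl⟩⟩
      | cons z u a s b hz hp h ih =>
        intro hs
        obtain ⟨t, rfl⟩ := hp
        have e : (z ++ t).drop (z.length - 0) = t := by simp
        rw [e] at ih h
        obtain ⟨i1, i2⟩ := ih hs
        constructor
        · obtain ⟨Ls, rfl, hLs⟩ := Language.mem_kstar.1 i1
          exact Language.mem_kstar.2 ⟨z :: Ls, rfl, by
            intro y hy
            rcases List.mem_cons.1 hy with rfl | hy
            · exact hz
            · exact hLs y hy⟩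
        · right
          obtain ⟨P, Q, hPQ, hP, hQ⟩ := compl z hz a
          refine ⟨P, Q ++ t, by rw [← hPQ, List.append_assoc], hP, ?_⟩
          rcases i2 with ⟨rfl, hab⟩ | ⟨P', g, rfl, hP', hg⟩
          · rw [hab] at hQ
            exact Language.mem_mul.2 ⟨[], Language.nil_mem_kstar _, Q, hQ, by simp⟩
          · obtain ⟨s1, hs1, f, hf, rfl⟩ := Language.mem_mul.1 hg
            obtain ⟨Ls, rfl, hLs⟩ := Language.mem_kstar.1 hs1
            refine Language.mem_mul.2 ⟨(Q ++ P') ++ Ls.flatten, Language.mem_kstar.2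
              ⟨(Q ++ P') :: Ls, rfl, ?_⟩, f, hf, by simp only [List.append_assoc]⟩
            intro y hy
            rcases List.mem_cons.1 hy with rfl | hy
            · exact ⟨_, Language.mem_mul.2 ⟨Q, hQ, P', hP', rfl⟩⟩
            · exact hLs y hy
    obtain ⟨h1, h2⟩ := key _ _ _ _ h rfl
    rcases h2 with ⟨rfl, hab⟩ | ⟨P, g, rfl, hP, hg⟩
    · exact Or.inl ⟨hab, rfl⟩
    · exact Or.inr ⟨h1, Language.mem_mul.2 ⟨P, hP, g, hg, rfl⟩⟩
  · rintro (⟨rfl, rfl⟩ | ⟨h1, h2⟩)
    · exact ⟨Nat.zero_le _, .nil _ _⟩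
    · refine ⟨Nat.zero_le _, ?_⟩
      rw [drop0]
      obtain ⟨P, hP, g, hg, rfl⟩ := Language.mem_mul.1 h2
      obtain ⟨s1, hs1, f, hf, rfl⟩ := Language.mem_mul.1 hg
      obtain ⟨Ls, rfl, hLs⟩ := Language.mem_kstar.1 hs1
      clear h2 hg hs1
      -- induct on `Ls`
      have key : ∀ (Ls : List (List α)), (∀ y ∈ Ls, y ∈ K) → ∀ (P : List α) (a : V), P ∈ L a →
          ∀ zs : List (List α), (∀ z ∈ zs, z ∈ Zc) → P ++ (Ls.flatten ++ f) = zs.flatten →
          Pth 0 Zc ζ zs.flatten a [] v' := by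
        intro Ls
        induction Ls with
        | nil =>
          intro _ P a hP zs hzs he
          rcases zs with _ | ⟨z, zs⟩
          · exact absurd (List.append_eq_nil_iff.1 he).1 (hLne P a hP)
          · have hz := hzs z List.mem_cons_self
            have he' : P ++ f ++ [] = z ++ zs.flatten := by simpa using he
            obtain ⟨h2, h3⟩ := sound a v' P f z [] zs.flatten hP hf hz he'
            have h4 : zs.flatten = [] := by
              rw [List.append_nil, ← h2] at he'
              exact (List.self_eq_append_right.1 he')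
            rw [List.flatten_cons, h4]
            refine Pth.zero_append hz ?_
            rw [h3]
            exact .nil _ _
        | cons y Ls ih =>
          intro hLs P a hP zs hzs he
          rcases zs with _ | ⟨z, zs⟩
          · exact absurd (List.append_eq_nil_iff.1 he).1 (hLne P a hP)
          · have hz := hzs z List.mem_cons_self
            obtain ⟨τ, hy⟩ := hLs y List.mem_cons_self
            obtain ⟨Q, hQ, P', hP', rfl⟩ := Language.mem_mul.1 hy
            have he' : P ++ Q ++ (P' ++ (Ls.flatten ++ f)) = z ++ zs.flatten := by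
              rw [List.flatten_cons, List.flatten_cons] at he
              rw [← he]; simp only [List.append_assoc]
            obtain ⟨h2, h3⟩ := sound a τ P Q z _ zs.flatten hP hQ hz he'
            rw [h2] at he'
            have h5 := List.append_cancel_left he'
            rw [List.flatten_cons]
            refine Pth.zero_append hz ?_
            rw [h3]
            exact ih (fun y hy => hLs y (List.mem_cons_of_mem _ hy)) P' τ hP' zs
              (fun z hz => hzs z (List.mem_cons_of_mem _ hz)) h5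
      obtain ⟨zs, hzs, hzs2⟩ := Language.mem_kstar.1 h1
      rw [hzs]
      exact key Ls hLs P v hP zs hzs2 hzs

/-- **two levels.**  `FB`: visible non-critical zone beginnings. -/
theorem two_levels [Finite α] [Finite V] [Nonempty V] {Z Zc FB : Set (List α)} {ζ : List α → V → V}
    {LA LB : List α → V → Prop}
    (hne : ∀ z ∈ Z, 0 < z.length) (hsub : Zc ⊆ Z)
    (code : ∀ z z' x x', z ∈ Z → z' ∈ Z → z ++ x = z' ++ x' → z = z')
    (hB : ∀ v τ, HL 1 ({X | X ∈ Z ∧ ζ X v = τ} : Language α))
    (hBc : ∀ v τ, HL 1 ({X | X ∈ Zc ∧ ζ X v = τ} : Language α))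
    (hFB : HL 1 (FB : Language α))
    (hFBc : ∀ U ∈ FB, ∀ X ∈ Zc, ∀ x y, U ++ x = X ++ y → False)
    (fA : {p : List α × V | LA p.1 p.2}.Finite) (fB : {p : List α × V | LB p.1 p.2}.Finite)
    (neB : ∀ P v, LB P v → P ≠ [])
    (cA : ∀ X ∈ Z, X ∉ Zc → ∀ v, ∃ P Q, P ++ Q = X ∧ LA P v ∧
      ∀ P' v', LA P' v' → P' ++ Q ∈ Z ∧ ζ (P' ++ Q) v' = ζ X v)
    (cB : ∀ X ∈ Zc, ∀ v, ∃ P Q, P ++ Q = X ∧ LB P v ∧
      ∀ P' v', LB P' v' → (P' ++ Q ∈ Zc ∧ ζ (P' ++ Q) v' = ζ X v) ∨
        ∃ U ∈ FB, ∃ x, U ++ x = P' ++ Q) :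
    Sand 0 Z Z ζ 3 := by
  have finL : ∀ (LL : List α → V → Prop), {p : List α × V | LL p.1 p.2}.Finite →
      ∀ v, HL 1 ({P | LL P v} : Language α) := by
    intro LL h v
    refine HL.finite ((h.image Prod.fst).subset ?_)
    intro P hP
    exact ⟨(P, v), hP, rfl⟩
  -- inner level
  have h1 : Ex 0 Zc ζ 2 := by
    have hZcH : HL 1 (Zc : Language α) := by
      obtain ⟨v0⟩ := ‹Nonempty V›
      exact (HL.iUnion fun τ => hBc v0 τ).congr fun w => ⟨fun hw => ⟨_, hw, rfl⟩,
        fun ⟨_, hw⟩ => hw.1⟩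
    let FBL : Language α := FB
    let R : V → Language α := fun τ => {Q | ∀ p ∈ {p : List α × V | LB p.1 p.2},
      Q ∈ ({Q | p.1 ++ Q ∈ (({X | X ∈ Zc ∧ ζ X p.2 = τ} : Language α) ⊔ (FBL * ⊤))} :
        Language α)}
    refine promise (L := fun v => {P | LB P v}) (R := R) neB hZcH (finL LB fB) ?_ ?_ ?_
    · intro τ
      refine HL.biInter fB fun p _ => ?_
      have h5 : HL 1 FBL := hFB
      exact ((hBc p.2 τ).sup (h5.mul HL.top)).lquot p.1
    · intro v τ P Q X x y hP hQ hX he
      rcases hQ (P, v) hP with h | h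
      · obtain ⟨h2, h3⟩ := h
        have e := code _ _ x y (hsub h2) (hsub hX) he
        refine ⟨e, ?_⟩
        rw [← e]; exact h3
      · exfalso
        obtain ⟨U, hU, t, -, ht⟩ := Language.mem_mul.1 h
        refine hFBc U hU X hX (t ++ x) y ?_
        rw [← List.append_assoc, ht]
        exact he
    · intro X hX v
      obtain ⟨P, Q, hPQ, hP, h2⟩ := cB X hX v
      refine ⟨P, Q, hPQ, hP, ?_⟩
      rintro ⟨P', v'⟩ hP'
      rcases h2 P' v' hP' with h3 | ⟨U, hU, x, hx⟩
      · exact Or.inl h3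
      · exact Or.inr (Language.mem_mul.2 ⟨U, hU, x, trivial, hx⟩)
  -- outer level
  have h2 : Sand 0 Z Zc ζ 2 := h1.sand hsub
  have h3 := step (C := Z \ Zc) hne hsub Set.sdiff_subset
    (S := { Lf := LA
            Rt := fun Q τ => ∀ p ∈ {p : List α × V | LA p.1 p.2},
              Q ∈ ({Q | p.1 ++ Q ∈ ({X | X ∈ Z ∧ ζ X p.2 = τ} : Language α)} : Language α)
            hL := finL LA fA
            hR := fun τ => HL.biInter fA fun p _ => (hB p.2 τ).lquot p.1
            lenL := fun _ _ _ => Nat.zero_le _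
            lenR := fun _ _ _ => Nat.zero_le _
            exact := fun P v Q v' hP hQ => hQ (P, v) hP
            compl := by
              intro X hX v
              obtain ⟨P, Q, h1, h2, h3⟩ := cA X hX.1 hX.2 v
              exact ⟨P, Q, ζ X v, h1, h2, fun p hp => h3 p.1 p.2 hp⟩ })
    (j := 1) (by norm_num) h2
  have e : Zc ∪ Z \ Zc = Z := Set.union_sdiff_cancel hsub
  rwa [e] at h3

end Crest.Agent.R320.TopU_748
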