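import Crest.Agent.R320.Code_110
import Crest.Agent.R320.Read_561
import Crest.Agent.R320.Block_467

/-!
# Row 320: top theorem on ALL words over Code_110 (helper270)

Semantic right labels, semantic bad zones.  The only combinatorial input is `c2`.
-/

set_option autoImplicit false

namespace Crest.Agent.R320.Top270

open Crest.Agent.R320.Hk_851 Crest.Agent.R320.Code110

universe u

variable {α : Type u} {V : Type u} {k : ℕ}

/-- zones with a token which scheme 1 does not cut -/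
def BadA (Zb : Language α) (τ : List α → V → V) (L1 : V → Language α) : Language α :=
  {u | u ∈ Zb ∧ ∃ x, ¬ ∃ p q y, u = p ++ q ∧ p ∈ L1 x ∧ q ∈ Rsem Zb Zb τ 0 L1 y}

theorem BadA.hl [Finite V] {Zb : Language α} {τ : List α → V → V} {L1 : V → Language α}
    (hZ : HL k Zb) (hτ : ∀ x y, HL k (ZT Zb τ x y)) (hf : ∀ x, {p | p ∈ L1 x}.Finite) :
    HL k (BadA Zb τ L1) := by
  have h : HL k (Zb ⊓ ({u | ∃ x : V, u ∈ (({u | ∃ y : V, u ∈ L1 x * Rsem Zb Zb τ 0 L1 y} :
      Language α)ᶜ : Language α)} : Language α)) := by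
    refine hZ.inf (HL.iUnion fun x => HL.compl (HL.iUnion fun y => ?_))
    exact (HL.finite (hf x)).mul (Rsem.hl hf hZ hZ hτ y)
  refine h.congr fun w => ?_
  constructor
  · rintro ⟨h1, x, h2⟩
    refine ⟨h1, x, ?_⟩
    rintro ⟨y, hy⟩
    obtain ⟨p, hp, q, hq, rfl⟩ := Language.mem_mul.1 hy
    exact h2 ⟨p, q, y, rfl, hp, hq⟩
  · rintro ⟨h1, x, h2⟩
    refine ⟨h1, x, ?_⟩
    rintro ⟨p, q, y, rfl, hp, hq⟩
    exact h2 ⟨y, Language.mem_mul.2 ⟨p, hp, q, hq, rfl⟩⟩

theorem RB_bot {τ : List α → V → V} (x y : V) :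
    HL k (RB (⊥ : Language α) τ x y) := by
  refine (HLempty_eq (k := k) x y).congr fun w => ?_
  constructor
  · intro h
    have h' : Run (⊥ : Language α) τ x w y := h
    cases h' with
    | nil => exact ⟨rfl, rfl⟩
    | cons hu _ => exact absurd hu (fun h => h)
  · rintro ⟨rfl, rfl⟩
    exact Run.nil _

/-- all threads on products of zones have height 3 -/
theorem runs [Finite V] {Zb : Language α} (hZb : PC Zb) {τ : List α → V → V}
    (hZ : HL 1 Zb) (hτ : ∀ x y, HL 1 (ZT Zb τ x y))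
    {L1 L2 : V → Language α} (hf1 : ∀ x, {p | p ∈ L1 x}.Finite)
    (hf2 : ∀ x, {p | p ∈ L2 x}.Finite)
    (c2 : ∀ u ∈ BadA Zb τ L1, ∀ x, ∀ t ∈ BadA Zb τ L1, ∃ p q y, u ++ t = p ++ q ∧ p ∈ L2 x ∧
      q ∈ Rsem Zb (BadA Zb τ L1) τ 1 L2 y) (x y : V) :
    HL 3 (RB Zb τ x y) := by
  have hsub : ∀ u ∈ BadA Zb τ L1, u ∈ Zb := fun u hu => hu.1
  have hBA : HL 1 (BadA Zb τ L1) := BadA.hl hZ hτ hf1
  have hBτ : ∀ x y, HL 1 (ZT (BadA Zb τ L1) τ x y) := by
    intro x y
    refine (hBA.inf (hτ x y)).congr fun w => ?_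
    constructor
    · rintro ⟨h1, h2⟩; exact ⟨h1, ⟨hsub _ h1, h2⟩⟩
    · rintro ⟨h1, ⟨-, h2⟩⟩; exact ⟨h1, h2⟩
  have hB2 : ∀ x y, HL 2 (RB (BadA Zb τ L1) τ x y) := by
    intro x y
    refine step_sem (k := 1) (N := 1) (Z := BadA Zb τ L1) (Bad := (⊥ : Language α)) (Zb := Zb)
      (L := L2) hZb hsub (fun u hu => absurd hu (fun h => h)) hZ hBA hBA.star hBτ
      (fun x y => RB_bot x y) hf2 ?_ x y
    intro u hu _ x t ht
    rw [pow_one] at ht
    exact c2 u hu x t ht
  refine step_sem (k := 2) (N := 0) (Z := Zb) (Bad := BadA Zb τ L1) (Zb := Zb)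
      (L := L1) hZb (fun _ h => h) hsub (hZ.mono (by norm_num)) (hZ.mono (by norm_num))
      (hZ.star.mono (by norm_num)) (fun x y => (hτ x y).mono (by norm_num)) hB2 hf1 ?_ x y
  intro u hu hnb x t ht
  rw [pow_zero] at ht
  have ht' : t = [] := Language.mem_one _ |>.1 ht
  subst ht'
  by_contra hcon
  refine hnb ⟨hu, x, ?_⟩
  rintro ⟨p, q, y, e, hp, hq⟩
  exact hcon ⟨p, q, y, by rw [List.append_nil]; exact e, hp, hq⟩

/-- **TOP** -/
theorem top [Finite V] [AddCommGroup V] {S : Type u} [Monoid S] [Finite S]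
    (φ : List α → S) (hφ1 : φ [] = 1) (hφ : ∀ u v, φ (u ++ v) = φ u * φ v)
    (act : V → S → V) (act_add : ∀ v w s, act (v + w) s = act v s + act w s)
    (act_one : ∀ v, act v 1 = v) (act_mul : ∀ v s t, act v (s * t) = act (act v s) t)
    (faith : ∀ s t, (∀ v, act v s = act v t) → s = t)
    {Zb : Language α} (hZb : PC Zb) {τ : List α → V → V} (ν : List α → V)
    (hτν : ∀ u ∈ Zb, ∀ v, τ u v = act v (φ u) + ν u)
    (hZ : HL 1 Zb) (hτ : ∀ x y, HL 1 (ZT Zb τ x y))
    (hNP : ∀ s, HL 1 ({r | (∀ X ∈ Zb, ¬ X <+: r) ∧ φ r = s} : Language α))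
    {L1 L2 : V → Language α} (hf1 : ∀ x, {p | p ∈ L1 x}.Finite)
    (hf2 : ∀ x, {p | p ∈ L2 x}.Finite)
    (c2 : ∀ u ∈ BadA Zb τ L1, ∀ x, ∀ t ∈ BadA Zb τ L1, ∃ p q y, u ++ t = p ++ q ∧ p ∈ L2 x ∧
      q ∈ Rsem Zb (BadA Zb τ L1) τ 1 L2 y) (s : S) :
    HL 3 ({w | φ w = s} : Language α) := by
  classical
  have hruns := runs hZb hZ hτ hf1 hf2 c2
  -- the action as endomorphisms
  let A : List α → V →+ V := fun w =>
    { toFun := fun v => act v (φ w)
      map_zero' := by
        have := act_add 0 0 (φ w)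
        rw [add_zero] at this
        simpa using this.symm
      map_add' := fun a b => act_add a b (φ w) }
  -- noise of a word in Zb*
  have haff : ∀ {x y : V} {w : List α}, Run Zb τ x w y → ∀ x' y', Run Zb τ x' w y' →
      y' - y = act (x' - x) (φ w) := by
    intro x y w h
    induction h with
    | nil x =>
      intro x' y' h'
      have : y' = x' := Run.det hZb h' (Run.nil _)
      rw [this, hφ1, act_one]
    | cons hu hr ih =>
      rename_i x y u w
      intro x' y' h'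
      have h2 : Run Zb τ (τ u x') w y' := by
        exact Run.cancel hZb (Run.single hu) h'
      have := ih _ _ h2
      rw [this, hτν u hu, hτν u hu, hφ, act_mul]
      congr 1
      have e1 : act x' (φ u) + ν u - (act x (φ u) + ν u) = act x' (φ u) - act x (φ u) := by abel
      rw [e1, sub_eq_iff_eq_add, ← act_add, sub_add_cancel]
  let D : List α → V := fun w => if h : ∃ y, Run Zb τ 0 w y then h.choose else 0
  have hD : ∀ w y, Run Zb τ 0 w y → D w = y := by
    intro w y h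
    have hex : ∃ y, Run Zb τ 0 w y := ⟨y, h⟩
    have : D w = hex.choose := dif_pos hex
    rw [this]
    exact Run.det hZb hex.choose_spec h
  have hG : HL 3 (KStar.kstar Zb) := hZ.star.mono (by norm_num)
  have hmain : ∀ s : S, HL 3 ({w | w ∈ KStar.kstar Zb ∧ φ w = s} : Language α) := by
    intro s
    have h := Crest.Agent.R320.Read_561.readoff_set (n := 3) A D (KStar.kstar Zb)
      (fun x y => RB Zb τ x y) hG hruns ?_ ?_ {f | ∀ v, f v = act v s}
    · refine h.congr fun w => ?_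
      constructor
      · rintro ⟨h1, h2⟩
        refine ⟨h1, fun v => ?_⟩
        show act v (φ w) = act v s
        rw [h2]
      · rintro ⟨h1, h2⟩
        exact ⟨h1, faith _ _ fun v => h2 v⟩
    · intro w hw v v' hr
      obtain ⟨y0, hy0⟩ := exists_run hw (0 : V) (τ := τ)
      have h1 := haff hy0 v v' hr
      have h2 := hD w y0 hy0
      show v' = act v (φ w) + D w
      rw [h2]
      rw [sub_zero] at h1
      rw [← h1]; abel
    · intro w hw v
      exact exists_run hw v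
  let PA : S → Language α := fun a => {w | w ∈ KStar.kstar Zb ∧ φ w = a}
  let PB : S → Language α := fun b => {r | (∀ X ∈ Zb, ¬ X <+: r) ∧ φ r = b}
  refine (HL.biUnion (k := 3) (Set.toFinite {p : S × S | p.1 * p.2 = s})
    (L := fun p => PA p.1 * PB p.2)
    (fun p _ => HL.mul (L := PA p.1) (M := PB p.2) (hmain p.1)
      ((hNP p.2).mono (by norm_num)))).congr fun w => ?_
  constructor
  · intro hw
    have hw' : φ w = s := hw
    obtain ⟨M, E, rfl, ⟨l, hl, hM⟩, hE⟩ :=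
      Crest.Agent.R320.Blk467.exists_parse (C := {X | X ∈ Zb}) hZb.ne w
    refine ⟨(φ M, φ E), ?_, ?_⟩
    · show φ M * φ E = s
      rw [← hφ, hw']
    · refine Language.mem_mul.2 ⟨M, ⟨?_, rfl⟩, E, ⟨hE, rfl⟩, rfl⟩
      rw [Language.mem_kstar]
      exact ⟨l, hM.symm, hl⟩
  · rintro ⟨p, hp, hw⟩
    obtain ⟨M, ⟨_, hM⟩, E, ⟨_, hE⟩, rfl⟩ := Language.mem_mul.1 hw
    show φ (M ++ E) = s
    rw [hφ, hM, hE]
    exact hp

end Crest.Agent.R320.Top270
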