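import Crest.Agent.R320.Blk_402

/-!
# Row 320: from the universal gadget on words (772's `UGI`) to height three (helper402)
-/

set_option autoImplicit false

namespace Crest.Agent.R320.Top_402

open Crest.RegLang Crest.Agent.R320.Hk_851 Crest.Agent.R320.Code110 Crest.Agent.R320.Reg_402
  Crest.Agent.R320.Blk_402

open Classical in
/-- the universal gadget on all words, with a ruler (literal of post 13437) -/
def UGI (S : Type) [Monoid S] (V : Type) [AddCommGroup V] (act : V → S → V) : Prop :=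
  ∃ C0 : ℕ, ∀ K : ℕ, ∃ (N1 Pm La : ℕ) (c : ℕ → ℕ) (Bad : ℕ → Prop), 0 < Pm ∧
    (∀ i j, i < j → j < K → c i < c j) ∧
    (∀ i j k l, i < K → j < K → k < K → l < K → i ≠ j → k ≠ l → (i, j) ≠ (k, l) →
      c i + c l + 4 * N1 < c k + c j ∨ c k + c j + 4 * N1 < c i + c l) ∧
    (∀ T, Bad (T + Pm) ↔ Bad T) ∧
    (∀ T, La ≤ T → ((Finset.range K ×ˢ Finset.range K).filter
      (fun ij => ij.1 ≠ ij.2 ∧ Bad (T + c ij.2 - c ij.1))).card ≤ C0) ∧
    ∀ (A : Type) [Finite A] (f : A → S), ∃ (lam rho : List A → Option V) (nu : List A → V),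
      (∀ p v, lam p = some v → p.length ≤ N1) ∧
      (∀ p q v r, lam p = some v → rho q = some r → La ≤ q.length →
        r = act v (ph f (p ++ q)) + nu (p ++ q)) ∧
      (∀ u : List A, La ≤ u.length → ¬ Bad u.length → ∀ v, ∃ p q, p ++ q = u ∧
        lam p = some v ∧ (rho q).isSome) ∧
      (∀ q q2 : List A, La ≤ q.length → La ≤ q2.length → q.take La = q2.take La →
        q.length % Pm = q2.length % Pm → ph f q = ph f q2 → nu q = nu q2)

variable {α : Type} {S : Type} [Monoid S] {V : Type} [AddCommGroup V]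

theorem bad_mod {Bad : ℕ → Prop} {Pm : ℕ} (hper : ∀ T, Bad (T + Pm) ↔ Bad T) (a : ℕ) :
    ∀ k, Bad (a + k * Pm) ↔ Bad a := by
  intro k
  induction k with
  | zero => simp
  | succ k ih => rw [Nat.succ_mul, ← Nat.add_assoc, hper, ih]

theorem bad_congr {Bad : ℕ → Prop} {Pm : ℕ} (hper : ∀ T, Bad (T + Pm) ↔ Bad T) {a b : ℕ}
    (h : a % Pm = b % Pm) : Bad a ↔ Bad b := by
  have h1 := bad_mod hper (a % Pm) (a / Pm)
  have h2 := bad_mod hper (b % Pm) (b / Pm)
  rw [Nat.mul_comm, Nat.mod_add_div] at h1 h2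
  rw [h1, h2, h]

theorem mod_sub {a b p Pm : ℕ} (ha : p ≤ a) (hb : p ≤ b) (h : a % Pm = b % Pm) :
    (a - p) % Pm = (b - p) % Pm := by
  have h1 : (a - p + p) ≡ (b - p + p) [MOD Pm] := by
    rw [Nat.sub_add_cancel ha, Nat.sub_add_cancel hb]; exact h
  exact Nat.ModEq.add_right_cancel' p h1

theorem take_eq_of {u v : List α} {M m : ℕ} (hm : m ≤ M) (h : u.take M = v.take M) :
    u.take m = v.take m := by
  have := congrArg (List.take m) h
  rwa [List.take_take, List.take_take, Nat.min_eq_left hm] at this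

theorem len_of {u v : List α} {M : ℕ} (h : u.take M = v.take M) (m : ℕ) (hm : m ≤ M) :
    m ≤ u.length ↔ m ≤ v.length := by
  have := congrArg List.length h
  rw [List.length_take, List.length_take] at this
  omega

/-- **The row for one monoid from the universal gadget.** -/
theorem main [Finite α] [Finite S] [Finite V] (f : α → S) (act : V → S → V)
    (hact1 : ∀ v, act v 1 = v) (hactm : ∀ v s t, act v (s * t) = act (act v s) t)
    (hadd : ∀ v w s, act (v + w) s = act v s + act w s)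
    (hfaith : ∀ s t : S, (∀ v, act v s = act v t) → s = t)
    (hU : UGI S V act) (s : S) : HL 3 ({w | ph f w = s} : Language α) := by
  classical
  obtain ⟨C0, hU⟩ := hU
  haveI : Fintype S := Fintype.ofFinite S
  haveI : Fintype V := Fintype.ofFinite V
  obtain ⟨K, hK⟩ := Crest.Agent.R320.ExactR_237.exact_gadget α S V f act (2 * C0 + 2)
  obtain ⟨N1, Pm, La, c, Bad, hPm, hinc, hsep, hper, hthin, hG⟩ := hU K
  obtain ⟨lam, rho, nu1, g1, g2, g3, g4⟩ := hG α f
  obtain ⟨lam2, rho2, nu2, e1, e2⟩ := hK c hinc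
  -- constants
  obtain ⟨p0, hp0⟩ : ∃ p0, ∀ k < K, c k ≤ p0 :=
    ⟨(Finset.range K).sup c, fun k hk => Finset.le_sup (f := c) (Finset.mem_range.2 hk)⟩
  obtain ⟨n, Wo, hloc, hlen, hgap, R, B, hpieces⟩ :=
    Crest.Agent.R320.WallU_228.walls (α := α) (2 * p0 + 2 * N1)
  obtain ⟨z, hz⟩ : ∃ z, z = 2 * p0 + N1 + n + La + 1 := ⟨_, rfl⟩
  obtain ⟨M, hM⟩ : ∃ M, M = z + N1 + p0 + La + n := ⟨_, rfl⟩
  have hp : ∀ u : List α, (∀ t < u.length, ¬ Wo (u.take t)) →
      ∃ l : List (List α × List α × ℕ), l.length ≤ R ∧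
        (∀ t ∈ l, t.1.length ≤ B ∧ t.2.1.length ≤ B) ∧
        u = Crest.Agent.R320.Pump_360.val l := hpieces
  set nu2' : List α → V := fun X => nu2 X 1 with hnu2
  have hs2 : ∀ k < K, ∀ (P Q : List α) (v b : V), P.length = c k →
      lam2 k P = some v → rho2 k Q 1 = some b → b = act v (ph f (P ++ Q)) + nu2' (P ++ Q) := by
    intro k hk P Q v b h1 h2 h3
    have := e1 k hk P Q 1 v b h1 h2 h3
    rw [mul_one] at this
    exact this
  have hc2 : ∀ (u : List α) (v : V), (∀ k < K, c k ≤ u.length) →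
      ∃ I : Finset ℕ, 2 * C0 + 2 ≤ I.card ∧ ∀ k ∈ I, k < K ∧ lam2 k (u.take (c k)) = some v ∧
        (rho2 k (u.drop (c k)) 1).isSome := fun u v h => e2 u 1 v h
  -- families
  have hfam : ∀ {L : Language α},
      (∀ u v : List α, u.take M = v.take M → (Wo u ↔ Wo v) → u.length % Pm = v.length % Pm →
        (u.map f).prod = (v.map f).prod → ((u.drop p0).map f).prod = ((v.drop p0).map f).prod →
        (flag Wo z u ↔ flag Wo z v) → u ∈ L → v ∈ L) →
      (∀ u ∈ L, ¬ flag Wo z u) → HL 1 L := by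
    intro L hL hfl
    exact HL_fam (Wo := Wo) (n := n) (z := z) (M := M) (p0 := p0) (Pm := Pm) (R := R) (B := B) f
      hlen hloc hp hPm (by omega) (by omega) (by omega) hL hfl
  have hXX : ∀ u v : List α, u.take M = v.take M → (Wo u ↔ Wo v) →
      (flag Wo z u ↔ flag Wo z v) → u ∈ XX Wo z → v ∈ XX Wo z := by
    intro u v h1 h2 h3 hu
    rw [XX_flag] at hu ⊢
    exact ⟨(len_of h1 z (by omega)).1 hu.1, h2.1 hu.2.1, fun h => hu.2.2 (h3.2 h)⟩
  have H1 : HL 1 (XX Wo z) := hfam (fun u v h1 h2 _ _ _ h6 hu => hXX u v h1 h2 h6 hu)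
    (fun u hu => (XX_flag.1 hu).2.2)
  have H2 : HL 1 (BB Wo z p0 N1 Bad) := by
    refine hfam ?_ (fun u hu => (XX_flag.1 hu.1).2.2)
    rintro u v h1 h2 h3 h4 h5 h6 ⟨hu1, hu2⟩
    have hv1 := hXX u v h1 h2 h6 hu1
    refine ⟨hv1, ?_⟩
    rcases hu2 with ⟨t, a, b, c', d⟩ | hb
    · left
      refine ⟨t, a, b, (len_of h1 t (by omega)).1 c', ?_⟩
      rw [← take_eq_of (by omega : t ≤ M) h1]
      exact d
    · right
      have ha := hu1.1
      have hb' := hv1.1
      exact (bad_congr hper (mod_sub (by omega) (by omega) h3)).1 hb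
  have H3 : ∀ x y, HL 1 (ZT (XX Wo z) (Blk_402.TT p0 f act nu2' nu1) x y) := by
    intro x y
    refine hfam ?_ (fun u hu => (XX_flag.1 hu.1).2.2)
    rintro u v h1 h2 h3 h4 h5 h6 ⟨hu1, hu2⟩
    have hv1 := hXX u v h1 h2 h6 hu1
    refine ⟨hv1, ?_⟩
    have ha := hu1.1
    have hb' := hv1.1
    rw [← hu2]
    have q1 : u.take p0 = v.take p0 := take_eq_of (by omega) h1
    have q2 : ph f (u.drop p0) = ph f (v.drop p0) := h5
    have q3 : nu1 (u.drop p0) = nu1 (v.drop p0) := by
      refine g4 _ _ (by rw [List.length_drop]; omega) (by rw [List.length_drop]; omega) ?_ ?_ q2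
      · have e5 : ∀ w : List α, (w.drop p0).take La = (w.take (p0 + La)).drop p0 := by
          intro w
          rw [List.drop_take, Nat.add_sub_cancel_left]
        rw [e5, e5, take_eq_of (by omega : p0 + La ≤ M) h1]
      · rw [List.length_drop, List.length_drop]
        exact mod_sub (by omega) (by omega) h3
    unfold Blk_402.TT
    rw [q1, q2, q3]
  have H4 : ∀ s, HL 3 ({w | (∀ u ∈ XX Wo z, ¬ u <+: w) ∧ ph f w = s} : Language α) := by
    intro s
    refine HL.mono (by norm_num : 1 ≤ 3) (hfam ?_ ?_)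
    · rintro u v h1 h2 h3 h4 h5 h6 ⟨hu1, hu2⟩
      refine ⟨?_, ?_⟩
      · rw [noPrefix_iff] at hu1 ⊢
        intro t ha hb hw
        rcases Nat.lt_or_ge t v.length with h7 | h7
        · obtain ⟨t', a, b, c'⟩ := h6.2 ⟨t, ha, h7, hw⟩
          exact hu1 t' a b.le c'
        · have : t = v.length := by omega
          subst this
          rw [List.take_length] at hw
          refine hu1 u.length ((len_of h1 z (by omega)).2 ha) le_rfl ?_
          rw [List.take_length]
          exact h2.2 hw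
      · rw [← hu2]; exact h4.symm
    · rintro u ⟨hu1, -⟩ ⟨t, a, b, c'⟩
      rw [noPrefix_iff] at hu1
      exact hu1 t a b.le c'
  have hT : ∀ u ∈ XX Wo z, ∀ v v', Blk_402.TT p0 f act nu2' nu1 u v - Blk_402.TT p0 f act nu2' nu1 u v' =
      act (v - v') (ph f u) := by
    intro u _ v v'
    have hsub : ∀ (a b : V) (s : S), act a s - act b s = act (a - b) s := by
      intro a b s
      have := hadd (a - b) b s
      rw [sub_add_cancel] at this
      rw [this, add_sub_cancel_right]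
    unfold Blk_402.TT
    have e3 : ph f u = ph f (u.take p0) * ph f (u.drop p0) := by
      rw [← ph_app, List.take_append_drop]
    rw [add_sub_add_right_eq_sub, hsub, add_sub_add_right_eq_sub, hsub, e3, hactm]
  refine Crest.Agent.R320.Top5_110.top_sem (φ := ph f) (act := act) (XX := XX Wo z)
    (Bad := BB Wo z p0 N1 Bad) (T := Blk_402.TT p0 f act nu2' nu1) (N1 := 0) (N2 := 1)
    (L1 := L1 p0 f act nu2' lam) (L2 := L2 K c lam2) (ph_nil f) (ph_app f) hact1 hactm hfaith
    (pc_XX (by omega)) (fun u hu => hu.1) hT H1 H2 H3 H4 ?_ ?_ ?_ ?_ s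
  · intro v
    refine (List.finite_length_le α (p0 + N1)).subset ?_
    rintro P ⟨h1, h2⟩
    have := g1 _ _ h2
    rw [List.length_drop] at this
    show P.length ≤ p0 + N1
    omega
  · intro v
    refine (List.finite_length_le α p0).subset ?_
    rintro P ⟨k, hk, h1, -⟩
    show P.length ≤ p0
    rw [h1]; exact hp0 k hk
  · intro u hu hb x t ht
    exact C1 hloc (by omega) g1 g2 g3 u hu hb x t ht
  · intro u hu x t ht
    exact C2 (n := n) (La := La) (C0 := C0) (K := K) (W := 2 * p0 + 2 * N1) (c := c)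
      (lam2 := lam2) (rho2 := fun k Q => rho2 k Q 1) hloc hlen hgap le_rfl hp0 (by omega) hsep
      hthin hs2 hc2 u hu x t ht

end Crest.Agent.R320.Top_402
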