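import Crest.Agent.R320.Core_467
import Crest.Agent.R320.BddReg_746

/-!
# Row 320: top in the block calculus, natural chain, one token system (helper446)

Two schemes on one prefix code `C` with one affine zone map `T`: scheme 1 sound on all texts,
complete off `Bad`; scheme 2 sound in blocks of `Bad`, complete on `Bad`.  All data `HL 1`:
then the fibres of `φ` are `HL 3`.
-/

set_option autoImplicit false

namespace Crest.Agent.R320.Top446

open Crest.RegLang Crest.Agent.R320.Hk_851 Crest.Agent.R320.Blk467 Crest.Agent.R320.Core467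

universe u

variable {α : Type u} {k : ℕ}

theorem flatten_nil_of {C : Set (List α)} (h0 : [] ∉ C) {l : List (List α)}
    (hl : ∀ X ∈ l, X ∈ C) (e : l.flatten = []) : l = [] := by
  cases l with
  | nil => rfl
  | cons X l =>
    exfalso
    rw [List.flatten_cons] at e
    exact h0 ((List.append_eq_nil_iff.1 e).1 ▸ hl X (by simp))

/-- the promise scheme, comparable form -/
theorem promise_step' {V : Type*} [Finite V] (C Bad : Set (List α)) (hC : PCode C)
    (hBC : Bad ⊆ C) (T : V → List α → V) (LP RQ : V → Language α)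
    (sound : ∀ v v' P Q X r r', P ∈ LP v → Q ∈ RQ v' → X ∈ Bad → P ++ Q ++ r = X ++ r' →
      P ++ Q = X ∧ T v X = v')
    (compl : ∀ X ∈ Bad, ∀ v, ∃ P Q, P ++ Q = X ∧ P ∈ LP v ∧ Q ∈ RQ (T v X))
    (hne : ∀ v v' P Q, P ∈ LP v → Q ∈ RQ v' → Q ≠ [])
    (hB : HL k (Bad : Language α)) (hP : ∀ v, HL k (LP v)) (hQ : ∀ v, HL k (RQ v))
    (v v' : V) : HL (k + 1) (Lg Bad T v v') := by
  classical
  let K : Language α := {x | ∃ a : V, x ∈ (RQ a * LP a : Language α)}
  have hK : HL (k + 1) (KStar.kstar K) :=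
    HL.star (HL.iUnion (k := k) (ι := V) (L := fun a => RQ a * LP a)
      (fun a => (hQ a).mul (hP a)))
  have hBs : HL (k + 1) (KStar.kstar (Bad : Language α)) := hB.star
  have hE : HL (k + 1) (LP v * KStar.kstar K * RQ v') :=
    ((HL.mono (Nat.le_succ k) (hP v)).mul hK).mul (HL.mono (Nat.le_succ k) (hQ v'))
  have hD : HL (k + 1) (if v = v' then (1 : Language α) else 0) := by
    split_ifs
    · exact HL.one
    · exact HL.zero
  have h0B : [] ∉ Bad := fun h => hC.1 (hBC h)
  refine (hBs.inf (hD.add hE)).congr fun w => ?_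
  constructor
  · rintro ⟨l, hl, rfl, hf⟩
    refine ⟨Language.mem_kstar.2 ⟨l, rfl, hl⟩, ?_⟩
    have main : ∀ (l : List (List α)) (v : V), (∀ X ∈ l, X ∈ Bad) → l.foldl T v = v' →
        (l = [] ∧ v = v') ∨ ∃ P ∈ LP v, ∃ ks : List (List α), (∀ x ∈ ks, x ∈ K) ∧
          ∃ Q ∈ RQ v', P ++ ks.flatten ++ Q = l.flatten := by
      intro l
      induction l with
      | nil => intro v _ h; exact Or.inl ⟨rfl, h⟩
      | cons X l ih =>
        intro v hl hf
        right
        obtain ⟨P, Q, e, hP', hQ'⟩ := compl X (hl X (by simp)) v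
        have hf' : l.foldl T (T v X) = v' := hf
        rcases ih (T v X) (fun Y hY => hl Y (by simp [hY])) hf' with ⟨h1, h2⟩ |
            ⟨P1, hP1, ks, hks, Q1, hQ1, e1⟩
        · subst h1
          refine ⟨P, hP', [], by simp, Q, h2 ▸ hQ', ?_⟩
          simp [e]
        · refine ⟨P, hP', (Q ++ P1) :: ks, ?_, Q1, hQ1, ?_⟩
          · intro x hx
            rcases List.mem_cons.1 hx with rfl | hx
            · exact ⟨T v X, Language.mem_mul.2 ⟨Q, hQ', P1, hP1, rfl⟩⟩
            · exact hks x hx
          · have e2 : (X :: l).flatten = (P ++ Q) ++ (P1 ++ ks.flatten ++ Q1) := by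
              rw [List.flatten_cons, e1, e]
            rw [e2]
            simp [List.append_assoc]
    rcases main l v hl hf with ⟨h1, h2⟩ | ⟨P, hP', ks, hks, Q, hQ', e⟩
    · left
      subst h1
      rw [if_pos h2]
      exact rfl
    · right
      exact mem_mul3.2 ⟨P, hP', ks.flatten, Language.mem_kstar.2 ⟨ks, rfl, hks⟩, Q, hQ', e⟩
  · rintro ⟨hw, h⟩
    obtain ⟨l, rfl, hl⟩ := Language.mem_kstar.1 hw
    refine ⟨l, hl, rfl, ?_⟩
    rcases h with h | h
    · split_ifs at h with hvv
      · have h' : l.flatten = [] := h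
        rw [flatten_nil_of h0B hl h']
        exact hvv
      · exact absurd h (Language.notMem_zero _)
    · obtain ⟨P, hP', y, hy, Q, hQ', e⟩ := mem_mul3.1 h
      obtain ⟨ks, rfl, hks⟩ := Language.mem_kstar.1 hy
      have main : ∀ (ks : List (List α)) (v : V) (P : List α) (l : List (List α)),
          (∀ x ∈ ks, x ∈ K) → (∀ X ∈ l, X ∈ Bad) → P ∈ LP v →
          P ++ ks.flatten ++ Q = l.flatten → l.foldl T v = v' := by
        intro ks
        induction ks with
        | nil =>
          intro v P l _ hl hP' e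
          have e' : P ++ Q = l.flatten := by simpa using e
          have hPQ : P ++ Q ≠ [] := by
            intro h9
            exact hne v v' P Q hP' hQ' (List.append_eq_nil_iff.1 h9).2
          cases l with
          | nil => exact absurd e' (by simpa using hPQ)
          | cons X l =>
            have hX := hl X (by simp)
            obtain ⟨h1, h2⟩ := sound v v' P Q X [] l.flatten hP' hQ' hX
              (by rw [List.append_nil, e', List.flatten_cons])
            have h3 : l.flatten = [] := by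
              rw [List.flatten_cons, h1] at e'
              have := congrArg List.length e'
              rw [List.length_append] at this
              exact List.eq_nil_of_length_eq_zero (by omega)
            rw [flatten_nil_of h0B (fun Y hY => hl Y (by simp [hY])) h3]
            exact h2
        | cons y ks ih =>
          intro v P l hks hl hP' e
          obtain ⟨a, ha⟩ := hks y (by simp)
          obtain ⟨Q1, hQ1, P1, hP1, rfl⟩ := Language.mem_mul.1 ha
          have e' : P ++ Q1 ++ (P1 ++ ks.flatten ++ Q) = l.flatten := by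
            rw [← e]; simp [List.append_assoc]
          cases l with
          | nil =>
            exfalso
            rw [List.flatten_nil] at e'
            have h9 := (List.append_eq_nil_iff.1 (List.append_eq_nil_iff.1 e').1).2
            exact hne v a P Q1 hP' hQ1 h9
          | cons X l =>
            have hX := hl X (by simp)
            obtain ⟨h1, h2⟩ := sound v a P Q1 X _ l.flatten hP' hQ1 hX
              (by rw [e', List.flatten_cons])
            rw [List.flatten_cons, h1] at e'
            have e3 := List.append_cancel_left e'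
            rw [List.foldl_cons, h2]
            exact ih a P1 l (fun x hx => hks x (by simp [hx])) (fun X hX => hl X (by simp [hX]))
              hP1 e3
      exact main ks v P l hks hl hP' e

/-- **TOP.** -/
theorem top3 [Finite α] {S V : Type*} [Monoid S] [Finite S] [AddCommGroup V] [Finite V]
    (f : α → S) (act : V → S → V)
    (hadd : ∀ a b s, act (a + b) s = act a s + act b s)
    (hone : ∀ v, act v 1 = v) (hmul : ∀ v s t, act v (s * t) = act (act v s) t)
    (hfaith : ∀ s t, (∀ v, act v s = act v t) → s = t)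
    (C Bad : Set (List α)) (hC : PCode C) (hBC : Bad ⊆ C) (nu : List α → V)
    (LP1 RQ1 LP2 RQ2 : V → Language α)
    (sound1 : ∀ v v' P Q, P ∈ LP1 v → Q ∈ RQ1 v' →
      P ++ Q ∈ C ∧ act v ((P ++ Q).map f).prod + nu (P ++ Q) = v')
    (compl1 : ∀ X ∈ C, X ∉ Bad → ∀ v, ∃ P Q v', P ++ Q = X ∧ P ∈ LP1 v ∧ Q ∈ RQ1 v')
    (sound2 : ∀ v v' P Q X r r', P ∈ LP2 v → Q ∈ RQ2 v' → X ∈ Bad → P ++ Q ++ r = X ++ r' →
      P ++ Q = X ∧ act v (X.map f).prod + nu X = v')
    (compl2 : ∀ X ∈ Bad, ∀ v, ∃ P Q v', P ++ Q = X ∧ P ∈ LP2 v ∧ Q ∈ RQ2 v')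
    (hne2 : ∀ v v' P Q, P ∈ LP2 v → Q ∈ RQ2 v' → Q ≠ [])
    (hB : HL 1 (Bad : Language α)) (hP1 : ∀ v, HL 1 (LP1 v)) (hQ1 : ∀ v, HL 1 (RQ1 v))
    (hP2 : ∀ v, HL 1 (LP2 v)) (hQ2 : ∀ v, HL 1 (RQ2 v))
    (hT : ∀ s : S, HL 1 ({w | (∀ X ∈ C, ¬ X <+: w) ∧ (w.map f).prod = s} : Language α))
    (s : S) : HL 3 ({w | (w.map f).prod = s} : Language α) := by
  set T : V → List α → V := fun v X => act v (X.map f).prod + nu X with hTd
  have h2 : ∀ v v', HL 2 (Lg Bad T v v') := by
    refine fun v v' => promise_step' (k := 1) C Bad hC hBC T LP2 RQ2 sound2 ?_ hne2 hB hP2 hQ2 v v'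
    intro X hX v
    obtain ⟨P, Q, v', e, hP, hQ⟩ := compl2 X hX v
    obtain ⟨-, h⟩ := sound2 v v' P Q X [] [] hP hQ hX (by rw [List.append_nil, List.append_nil, e])
    refine ⟨P, Q, e, hP, ?_⟩
    change Q ∈ RQ2 (act v (X.map f).prod + nu X)
    rw [h]
    exact hQ
  have h3 : ∀ v v', HL 3 (Lg C T v v') := by
    refine fun v v' => star_step (k := 2) C Bad T LP1 RQ1 hBC ?_ ?_ h2
      (fun v => (hP1 v).mono (by omega)) (fun v => (hQ1 v).mono (by omega)) v v'
    · intro v v' P Q hP hQ
      obtain ⟨h1, h4⟩ := sound1 v v' P Q hP hQ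
      have := Lg.single (T := T) h1 v
      have h5 : T v (P ++ Q) = v' := h4
      rwa [h5] at this
    · intro X hX hXB v
      obtain ⟨P, Q, v', e, hP, hQ⟩ := compl1 X hX hXB v
      obtain ⟨-, h⟩ := sound1 v v' P Q hP hQ
      refine ⟨P, Q, e, hP, ?_⟩
      change Q ∈ RQ1 (act v (X.map f).prod + nu X)
      rw [← e, h]
      exact hQ
  have h4 := fun s => fibre_of_threads (k := 3) act hadd hone hmul hfaith f nu C hC.uparse h3 s
  let A : S → Language α := fun a => {w | w ∈ Str C ∧ (w.map f).prod = a}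
  let B : S → Language α := fun b => {w | (∀ X ∈ C, ¬ X <+: w) ∧ (w.map f).prod = b}
  refine (HL.biUnion (k := 3) (Set.toFinite {p : S × S | p.1 * p.2 = s})
    (L := fun p => A p.1 * B p.2)
    (fun p _ => HL.mul (L := A p.1) (M := B p.2) (h4 p.1)
      ((hT p.2).mono (by omega)))).congr fun w => ?_
  constructor
  · intro hw
    obtain ⟨M, E, rfl, hM, hE⟩ := exists_parse hC.1 w
    refine ⟨((M.map f).prod, (E.map f).prod), ?_, ?_⟩
    · have hw' : ((M ++ E).map f).prod = s := hw
      rw [List.map_append, List.prod_append] at hw'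
      exact hw'
    · exact Language.mem_mul.2 ⟨M, ⟨hM, rfl⟩, E, ⟨hE, rfl⟩, rfl⟩
  · rintro ⟨p, hp, hw⟩
    obtain ⟨M, ⟨_, hM⟩, E, ⟨_, hE⟩, rfl⟩ := Language.mem_mul.1 hw
    change ((M ++ E).map f).prod = s
    rw [List.map_append, List.prod_append, hM, hE]
    exact hp

end Crest.Agent.R320.Top446
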