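import Crest.Agent.R320.GadF_464
import Crest.Agent.R320.Univ_lead
import Crest.Agent.R320.Block_467

/-!
# Row 320: generalized star height at most three (helper464)
-/

set_option autoImplicit false

namespace Crest.Agent.R320.Top_464

open Crest.RegLang Crest.Agent.R320.Hk_851

theorem fibre {α S : Type} [Finite α] [Monoid S] [Finite S] (f : α → S) (s : S) :
    HL 3 ({w | (w.map f).prod = s} : Language α) := by
  obtain ⟨act, h1, h2, h3, h4⟩ := Crest.Agent.R320.Blk467.exists_module S
  exact Crest.Agent.R320.Fin_211.fin act h1 h2 h3 h4 f (GadF_464.gad act f) s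

theorem type0 {α : Type} [Finite α] (L : Language α) (hL : L.IsRegular) : HL 3 L :=
  of_monoid (fun S _ _ φ s => fibre φ s) L hL

theorem main (α : Type*) [Finite α] (L : Language α) (hL : L.IsRegular) :
    ∃ e : GRegExp α, e.height ≤ 3 ∧ e.lang = L :=
  Crest.Agent.R320.Univ_lead.univ_transfer 3 (fun n L hL => type0 L hL) α L hL

end Crest.Agent.R320.Top_464
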