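import Crest.Agent.R320.Two_529

/-!
# Row 320: height three of the value languages from the data of the two schemes (helper529)
-/

set_option autoImplicit false

namespace Crest.Agent.R320.Top_529

open Crest.RegLang Crest.Agent.R320.Hk_851 Crest.Agent.R320.FewWalls_228
  Crest.Agent.R320.FewVal_228 Crest.Agent.R320.Asm_505 Crest.Agent.R320.W_529
  Crest.Agent.R320.Two_529

namespace Dat

variable {α S V : Type} [Monoid S] [AddCommGroup V] (d : Dat α S V)

theorem val_aff (v : V) (g : List α) : d.val v g = d.act v (ph d.f g) + d.val 0 g := by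
  have e : ph d.f g = ph d.f (g.take d.p0) * ph d.f (g.drop d.p0) := by
    rw [← ph_append, List.take_append_drop]
  unfold Two_529.Dat.val
  rw [e, d.hmul, d.hadd, d.hadd, d.hact0, d.hact0]
  abel

theorem eps_aff (v : V) (X : List α) : d.eps X v = d.act v (ph d.f X) + d.eps X 0 := by
  have e : ph d.f X = ph d.f (X.take (d.tt X)) * ph d.f (X.drop (d.tt X)) := by
    rw [← ph_append, List.take_append_drop]
  unfold Two_529.Dat.eps
  rw [val_aff d v, d.hadd, e, d.hmul]

theorem run_aff (hone : ∀ v, d.act v 1 = v) : ∀ (l : List (List α)) (x : V),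
    Run d.eps x l = d.act x (ph d.f l.flatten) + Run d.eps 0 l := by
  intro l
  induction l with
  | nil =>
    intro x
    show x = d.act x (ph d.f []) + 0
    rw [ph_nil, hone, add_zero]
  | cons X l ih =>
    intro x
    rw [Run_cons, Run_cons, ih (d.eps X x), ih (d.eps X 0), List.flatten_cons, ph_append, d.hmul,
      eps_aff d x, d.hadd]
    abel

theorem dec (hone : ∀ v, d.act v 1 = v)
    (hff : ∀ s s', (∀ v, d.act v s = d.act v s') → s = s') (l l' : List (List α))
    (h : ∀ x, Run d.eps x l = Run d.eps x l') :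
    (l.flatten.map d.f).prod = (l'.flatten.map d.f).prod := by
  refine hff _ _ fun v => ?_
  have h0 := h 0
  have h1 := h v
  rw [run_aff d hone l v, run_aff d hone l' v, h0] at h1
  exact add_right_cancel h1

/-! ### saturation -/

variable (B : ℕ)
variable (hB : d.z + d.N + 2 * d.N + d.n + 1 + d.p0 ≤ B)
variable (hloc : ∀ u u' : List α, 2 * d.N ≤ u.length → 2 * d.N ≤ u'.length →
  u.take (2 * d.N) = u'.take (2 * d.N) → ph d.f (u.drop (2 * d.N)) = ph d.f (u'.drop (2 * d.N)) →
  (u.length : ZMod d.D) = u'.length → d.nu u = d.nu u')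

include hB hloc in
theorem sat_val (v : V) {w w' : List α} (hw : d.z ≤ w.length) (hw' : d.z ≤ w'.length)
    (h : stA B d.n d.D d.f w = stA B d.n d.D d.f w') : d.val v w = d.val v w' := by
  have hz := d.hz
  unfold Two_529.Dat.val
  have e1 : w.take d.p0 = w'.take d.p0 := stA_take h (by omega)
  have e2 : ph d.f (w.drop d.p0) = ph d.f (w'.drop d.p0) := stA_ph h (by omega)
  have e3 : d.nu (w.drop d.p0) = d.nu (w'.drop d.p0) := by
    refine hloc _ _ ?_ ?_ ?_ ?_ ?_
    · rw [List.length_drop]; omega
    · rw [List.length_drop]; omega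
    · rw [← Nat.add_sub_cancel_left (n := d.p0) (m := 2 * d.N), ← List.drop_take, ← List.drop_take,
        stA_take h (z := d.p0 + 2 * d.N) (by omega)]
    · rw [List.drop_drop, List.drop_drop]
      exact stA_ph h (by omega)
    · rw [List.length_drop, List.length_drop, Nat.cast_sub (by omega), Nat.cast_sub (by omega),
        stA_mod h]
  rw [e1, e2, e3]

include hB in
theorem sat_mode {w w' : List α} (hw : d.z ≤ w.length) (hw' : d.z ≤ w'.length)
    (h : stA B d.n d.D d.f w = stA B d.n d.D d.f w') (hm : d.mode w) : d.mode w' := by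
  have hz := d.hz
  rcases hm with h1 | ⟨j, h1, h2, h3⟩ | h3
  · left
    by_contra hc
    have := stA_len h.symm (z := d.z + d.N) (by omega) (by omega)
    omega
  · right; left
    refine ⟨j, h1, h2, ?_⟩
    rw [← stA_take h (z := j) (by omega)]; exact h3
  · right; right
    refine (d.hBad _ _ ?_).1 h3
    have e := stA_mod h
    have e2 : ((w.length : ℤ) : ZMod d.D) = ((w'.length : ℤ) : ZMod d.D) := by
      rw [Int.cast_natCast, Int.cast_natCast]; exact e
    rw [ZMod.intCast_eq_intCast_iff_dvd_sub] at e2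
    have e3 : ((w.length : ℤ) - d.p0) - ((w'.length : ℤ) - d.p0) =
        -((w'.length : ℤ) - w.length) := by ring
    rw [e3]
    exact (dvd_neg).2 e2

/-! ### height one -/

variable (hHL : ∀ (L : Language α), L.IsRegular → ∀ r,
  HL 1 ({w | w ∈ L ∧ nw d.n d.Ss w ≤ r} : Language α))

include hHL in
theorem HL_tail [Finite α] [Finite S] (l : List α) (s : S) :
    HL 1 ({r | F d.n d.Ss (d.n + 1) (l ++ r) (l ++ r).length ∧ ph d.f ((l ++ r).drop d.n) = s} :
      Language α) := by
  have h := HL_F (B := d.n + 1) hHL d.hD d.f (z0 := d.n + 1) le_rfl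
    (fun w => ph d.f (w.drop d.n) = s) (by
      intro w w' _ _ h hw
      show ph d.f (w'.drop d.n) = s
      rw [← stA_ph h (Nat.le_succ _)]; exact hw)
  exact h.lquot l

include hHL in
theorem HL_tail' [Finite α] [Finite S] (l : List α) (s : S) :
    HL 1 ({r | (∀ j, d.n + 1 ≤ j → j ≤ (l ++ r).length → ¬ E d.n d.Ss ((l ++ r).take j)) ∧
      ph d.f ((l ++ r).drop d.n) = s} : Language α) := by
  have h := HL_N (B := d.n + 1) hHL d.hD d.f (z0 := d.n + 1) le_rfl
    (fun w => ph d.f (w.drop d.n) = s) (by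
      intro w w' h hw
      show ph d.f (w'.drop d.n) = s
      rw [← stA_ph h (Nat.le_succ _)]; exact hw)
  exact h.lquot l

/-- the second wall seen from the last `n` letters of the first part -/
theorem tail_iff {g r : List α} (hg : d.n ≤ g.length) :
    F d.n d.Ss (g.length + 1) (g ++ r) (g ++ r).length ↔
      F d.n d.Ss (d.n + 1) (lastn d.n g ++ r) (lastn d.n g ++ r).length := by
  have hll : (lastn d.n g).length = d.n := by
    unfold lastn; rw [List.length_drop]; omega
  have hgg : g = g.take (g.length - d.n) ++ lastn d.n g := (List.take_append_drop _ _).symm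
  set g0 := g.take (g.length - d.n) with hg0
  have lg0 : g0.length = g.length - d.n := by rw [hg0, List.length_take]; omega
  have e1 : g ++ r = g0 ++ (lastn d.n g ++ r) := by
    rw [← List.append_assoc, ← hgg]
  constructor
  · intro h
    have h' : F d.n d.Ss (g.length + 1) (g0 ++ (lastn d.n g ++ r))
        (g0.length + (lastn d.n g ++ r).length) := by
      rw [← List.length_append, ← e1]; exact h
    have hlen := h.1
    rw [List.length_append] at hlen
    have := F_shift (A' := []) (z' := d.n + 1) h'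
      (by rw [List.length_append, hll]; simp; omega) (by rw [List.length_append]; omega)
      (by intro j hj hjt h1 h2 hE; simp at h1; omega) (by simp)
    simpa using this
  · intro h
    have hlen := h.1
    rw [List.length_append] at hlen
    have h' : F d.n d.Ss (d.n + 1) (([] : List α) ++ (lastn d.n g ++ r))
        (([] : List α).length + (lastn d.n g ++ r).length) := by simpa using h
    have := F_shift (A' := g0) (z' := g.length + 1) h'
      (by rw [List.length_append, hll]; omega) (by rw [List.length_append]; omega)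
      (by intro j hj hjt h1 h2 hE; simp at h2; omega) (by omega)
    rw [e1, List.length_append]
    exact this

theorem tail_iff' {g r : List α} (hg : d.n ≤ g.length) :
    (∀ j, g.length + 1 ≤ j → j ≤ (g ++ r).length → ¬ E d.n d.Ss ((g ++ r).take j)) ↔
      (∀ j, d.n + 1 ≤ j → j ≤ (lastn d.n g ++ r).length →
        ¬ E d.n d.Ss ((lastn d.n g ++ r).take j)) := by
  have hll : (lastn d.n g).length = d.n := by
    unfold lastn; rw [List.length_drop]; omega
  have hgg : g = g.take (g.length - d.n) ++ lastn d.n g := (List.take_append_drop _ _).symm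
  set g0 := g.take (g.length - d.n) with hg0
  have lg0 : g0.length = g.length - d.n := by rw [hg0, List.length_take]; omega
  have e1 : g ++ r = g0 ++ (lastn d.n g ++ r) := by
    rw [← List.append_assoc, ← hgg]
  have l1 : (g ++ r).length = g.length + r.length := List.length_append
  have l2 : (lastn d.n g ++ r).length = d.n + r.length := by rw [List.length_append, hll]
  constructor
  · intro h j hj hjl hE
    refine h (g0.length + j) (by omega) (by omega) ?_
    rw [e1, E_shift (by omega) (by omega)]; exact hE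
  · intro h j hj hjl hE
    obtain ⟨i, rfl⟩ : ∃ i, j = g0.length + i := ⟨j - g0.length, by omega⟩
    rw [e1, E_shift (by omega) (by omega)] at hE
    exact h i (by omega) (by omega) hE

/-- words ending at the first wall with given value, last letters and mode -/
def GV (x v : V) (l : List α) (b : Bool) : Language α :=
  {g | F d.n d.Ss d.z g g.length ∧ (d.val x g = v ∧ lastn d.n g = l ∧ (b = true ↔ d.mode g))}

def GS (s : S) (l : List α) : Language α :=
  {g | F d.n d.Ss d.z g g.length ∧ (ph d.f g = s ∧ lastn d.n g = l)}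

def TL (l : List α) (s : S) : Language α :=
  {r | F d.n d.Ss (d.n + 1) (l ++ r) (l ++ r).length ∧ ph d.f ((l ++ r).drop d.n) = s}

def TN (l : List α) (s : S) : Language α :=
  {r | (∀ j, d.n + 1 ≤ j → j ≤ (l ++ r).length → ¬ E d.n d.Ss ((l ++ r).take j)) ∧
      ph d.f ((l ++ r).drop d.n) = s}

noncomputable def BV (x y : V) : Language α := {X | X ∈ d.BB ∧ d.eps X x = y}

def GP : Language α := {w | ∃ g ∈ d.GG, g <+: w}

/-- blocks with given image and mode -/
noncomputable def UX (x y : V) (b : Bool) : Language α :=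
  {X | X ∈ d.UU ∧ d.eps X x = y ∧ (b = true ↔ d.mode (X.take (d.tt X)))}

include hB hloc hHL in
theorem HL_UX [Finite α] [Finite S] [Finite V] (x y : V) (b : Bool) : HL 1 (UX d x y b) := by
  classical
  have : Finite {l : List α // l.length ≤ d.n} := (List.finite_length_le α d.n).to_subtype
  have hz := d.hz
  have hG : ∀ (v : V) (l : List α), HL 1 ({g | F d.n d.Ss d.z g g.length ∧
      (d.val x g = v ∧ lastn d.n g = l ∧ (b = true ↔ d.mode g))} : Language α) := by
    intro v l
    refine HL_F (B := B) hHL d.hD d.f (z0 := d.z) (by omega) _ ?_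
    rintro w w' hw hw' h ⟨h1, h2, h3⟩
    refine ⟨?_, ?_, ?_⟩
    · rw [← sat_val d B hB hloc x hw hw' h]; exact h1
    · have : lastn d.n w = lastn d.n w' := congrArg (fun x => x.2.1) h
      rw [← this]; exact h2
    · rw [h3]
      exact ⟨fun hm => sat_mode d B hB hw hw' h hm, fun hm => sat_mode d B hB hw' hw h.symm hm⟩
  have key := HL.exists' (k := 1)
    (L := fun (i : {i : V × {l : List α // l.length ≤ d.n} × S // d.act i.1 i.2.2 = y}) w =>
      w ∈ (GV d x i.1.1 i.1.2.1.1 b * TL d i.1.2.1.1 i.1.2.2 : Language α))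
    (fun i => HL.mul (L := GV d x i.1.1 i.1.2.1.1 b) (M := TL d i.1.2.1.1 i.1.2.2)
      (hG i.1.1 i.1.2.1.1) (HL_tail d hHL i.1.2.1.1 i.1.2.2))
  refine key.congr fun X => ?_
  have hdl : ∀ (g r : List α), d.n ≤ g.length → (lastn d.n g ++ r).drop d.n = r := by
    intro g r hg
    have hll : (lastn d.n g).length = d.n := by
      unfold lastn; rw [List.length_drop]; omega
    rw [List.drop_append_of_le_length (by omega), List.drop_eq_nil_of_le (by omega),
      List.nil_append]
  constructor
  · rintro ⟨hX, he, hm⟩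
    obtain ⟨hF, hF2⟩ := d.mem_U hX
    have htX := hF.2.1
    have hzt := hF.1
    have hlt : (X.take (d.tt X)).length = d.tt X := by rw [List.length_take]; omega
    refine ⟨⟨(d.val x (X.take (d.tt X)), ⟨lastn d.n (X.take (d.tt X)), lastn_length _ _⟩,
      ph d.f (X.drop (d.tt X))), he⟩, ?_⟩
    refine Language.mem_mul.2 ⟨X.take (d.tt X), ⟨F_take hF, rfl, rfl, hm⟩, X.drop (d.tt X),
      ⟨?_, ?_⟩, List.take_append_drop _ _⟩
    · rw [← tail_iff d (by omega), List.take_append_drop, hlt]
      exact hF2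
    · show ph d.f ((lastn d.n (X.take (d.tt X)) ++ X.drop (d.tt X)).drop d.n) = _
      rw [hdl _ _ (by omega)]
  · rintro ⟨⟨⟨v, ⟨l, hl⟩, s⟩, hvs⟩, h⟩
    obtain ⟨g, ⟨hg, hv, hlg, hm⟩, r, ⟨hr1, hr2⟩, rfl⟩ := Language.mem_mul.1 h
    have hgz : d.z ≤ g.length := hg.1
    have htt : d.tt (g ++ r) = g.length := d.tt_eq (F_ext hg)
    have e1 : (g ++ r).take g.length = g := by
      rw [List.take_append_of_le_length le_rfl, List.take_length]
    have e2 : (g ++ r).drop g.length = r := by
      rw [List.drop_append_of_le_length le_rfl, List.drop_length, List.nil_append]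
    have hr1' : F d.n d.Ss (d.n + 1) (l ++ r) (l ++ r).length := hr1
    have hr2' : ph d.f ((l ++ r).drop d.n) = s := hr2
    have hlg' : lastn d.n g = l := hlg
    rw [← hlg'] at hr1' hr2'
    refine ⟨⟨g.length, F_ext hg, (tail_iff d (by omega)).2 hr1'⟩, ?_, ?_⟩
    · unfold Two_529.Dat.eps
      rw [htt, e1, e2]
      rw [hdl _ _ (by omega)] at hr2'
      rw [hr2', show d.val x g = v from hv]
      exact hvs
    · rw [htt, e1]; exact hm

include hB hloc hHL in
theorem HL_UV [Finite α] [Finite S] [Finite V] (x y : V) :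
    HL 1 ({X | X ∈ d.UU ∧ d.eps X x = y} : Language α) := by
  refine ((HL_UX d B hB hloc hHL x y true).add (HL_UX d B hB hloc hHL x y false)).congr
    fun X => ?_
  constructor
  · rintro ⟨h1, h2⟩
    by_cases hm : d.mode (X.take (d.tt X))
    · left; exact ⟨h1, h2, by simp [hm]⟩
    · right; exact ⟨h1, h2, by simp [hm]⟩
  · rintro (h | h)
    · exact ⟨h.1, h.2.1⟩
    · exact ⟨h.1, h.2.1⟩

include hB hloc hHL in
theorem HL_BV [Finite α] [Finite S] [Finite V] (x y : V) :
    HL 1 ({X | X ∈ d.BB ∧ d.eps X x = y} : Language α) := by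
  refine (HL_UX d B hB hloc hHL x y true).congr fun X => ?_
  constructor
  · rintro ⟨⟨h1, h3⟩, h2⟩
    exact ⟨h1, h2, by simp [h3]⟩
  · rintro ⟨h1, h2, h3⟩
    exact ⟨⟨h1, h3.1 rfl⟩, h2⟩

include hB hloc hHL in
theorem HL_U [Finite α] [Finite S] [Finite V] : HL 1 d.UU := by
  refine (HL.exists' (k := 1) (L := fun (y : V) X => X ∈ d.UU ∧ d.eps X 0 = y)
    (fun y => HL_UV d B hB hloc hHL 0 y)).congr fun X => ?_
  exact ⟨fun h => ⟨_, h, rfl⟩, fun ⟨y, h, _⟩ => h⟩

include hB hloc hHL in
theorem HL_B [Finite α] [Finite S] [Finite V] : HL 1 d.BB := by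
  refine (HL.exists' (k := 1) (L := fun (y : V) X => X ∈ d.BB ∧ d.eps X 0 = y)
    (fun y => HL_BV d B hB hloc hHL 0 y)).congr fun X => ?_
  exact ⟨fun h => ⟨_, h, rfl⟩, fun ⟨y, h, _⟩ => h⟩

include hB hHL in
theorem HL_G [Finite α] [Finite S] : HL 1 d.GG := by
  refine HL_F (B := B) hHL d.hD d.f (z0 := d.z) (by omega) (fun g => ¬ d.mode g) ?_
  intro w w' hw hw' h hm hm'
  exact hm (sat_mode d B hB hw' hw h.symm hm')

theorem P1_len {x : V} {P : List α} (h : P ∈ d.P1 x) : P.length ≤ d.p0 + d.N := by
  have := d.hlam _ _ h.2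
  rw [List.length_drop] at this
  omega

theorem P2_len {x : V} {P : List α} (h : P ∈ d.P2 x) : P.length ≤ d.p0 := by
  obtain ⟨k, hk, h1, _⟩ := h
  rw [h1]; exact d.hcp k hk

theorem HL_P1 [Finite α] (x : V) : HL 1 (d.P1 x) :=
  HL.finite (s := {P | P ∈ d.P1 x})
    ((List.finite_length_le α (d.p0 + d.N)).subset fun _ h => P1_len d h)

theorem HL_P2 [Finite α] (x : V) : HL 1 (d.P2 x) :=
  HL.finite (s := {P | P ∈ d.P2 x})
    ((List.finite_length_le α d.p0).subset fun _ h => P2_len d h)

include hB hloc hHL in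
theorem HL_R1 [Finite α] [Finite S] [Finite V] (y : V) : HL 1 (d.R1 y) := by
  have : Finite {l : List α // l.length ≤ d.p0 + d.N} :=
    (List.finite_length_le α (d.p0 + d.N)).to_subtype
  refine (HL.forall' (k := 1)
    (L := fun (i : {i : V × {l : List α // l.length ≤ d.p0 + d.N} // i.2.1 ∈ d.P1 i.1}) q =>
      i.1.2.1 ++ q ∈ ({X | X ∈ d.UU ∧ d.eps X i.1.1 = y} : Language α))
    (fun i => (HL_UV d B hB hloc hHL i.1.1 y).lquot i.1.2.1)).congr fun q => ?_
  constructor
  · intro h i
    exact h i.1.1 i.1.2.1 i.2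
  · intro h x P hP
    exact h ⟨(x, ⟨P, P1_len d hP⟩), hP⟩

include hB hloc hHL in
theorem HL_R2 [Finite α] [Finite S] [Finite V] (y : V) : HL 1 (d.R2 y) := by
  have : Finite {l : List α // l.length ≤ d.p0} := (List.finite_length_le α d.p0).to_subtype
  refine (HL.forall' (k := 1)
    (L := fun (i : {i : V × {l : List α // l.length ≤ d.p0} // i.2.1 ∈ d.P2 i.1}) q =>
      i.1.2.1 ++ q ∈ (BV d i.1.1 y + GP d : Language α))
    (fun i => (HL.add (L := BV d i.1.1 y) (M := GP d) (HL_BV d B hB hloc hHL i.1.1 y)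
      ((HL_G d B hB hHL).prefix)).lquot i.1.2.1)).congr fun q => ?_
  constructor
  · intro h i
    exact h i.1.1 i.1.2.1 i.2
  · intro h x P hP
    exact h ⟨(x, ⟨P, P2_len d hP⟩), hP⟩

include hHL in
theorem HL_rest [Finite α] [Finite S] (m : S) : HL 1 (Rest d.f d.UU m) := by
  classical
  have : Finite {l : List α // l.length ≤ d.n} := (List.finite_length_le α d.n).to_subtype
  have hz := d.hz
  have hN := HL_N (B := d.z) hHL d.hD d.f (z0 := d.z) le_rfl (fun w => ph d.f w = m) (by
    intro w w' h hw
    have := stA_ph h (Nat.zero_le _)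
    rw [List.drop_zero, List.drop_zero] at this
    show ph d.f w' = m
    rw [← this]; exact hw)
  have hG : ∀ (s : S) (l : List α), HL 1 ({g | F d.n d.Ss d.z g g.length ∧
      (ph d.f g = s ∧ lastn d.n g = l)} : Language α) := by
    intro s l
    refine HL_F (B := d.z) hHL d.hD d.f (z0 := d.z) le_rfl _ ?_
    rintro w w' hw hw' h ⟨h1, h2⟩
    have e1 := stA_ph h (Nat.zero_le _)
    rw [List.drop_zero, List.drop_zero] at e1
    have e2 : lastn d.n w = lastn d.n w' := congrArg (fun x => x.2.1) h
    exact ⟨by rw [← e1]; exact h1, by rw [← e2]; exact h2⟩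
  have key := HL.exists' (k := 1)
    (L := fun (i : {i : S × {l : List α // l.length ≤ d.n} × S // i.1 * i.2.2 = m}) w =>
      w ∈ (GS d i.1.1 i.1.2.1.1 * TN d i.1.2.1.1 i.1.2.2 : Language α))
    (fun i => HL.mul (L := GS d i.1.1 i.1.2.1.1) (M := TN d i.1.2.1.1 i.1.2.2)
      (hG i.1.1 i.1.2.1.1) (HL_tail' d hHL i.1.2.1.1 i.1.2.2))
  have hdl : ∀ (g r : List α), d.n ≤ g.length → (lastn d.n g ++ r).drop d.n = r := by
    intro g r hg
    have hll : (lastn d.n g).length = d.n := by
      unfold lastn; rw [List.length_drop]; omega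
    rw [List.drop_append_of_le_length (by omega), List.drop_eq_nil_of_le (by omega),
      List.nil_append]
  refine (hN.add key).congr fun w => ?_
  constructor
  · rintro ⟨h1, h2⟩
    by_cases hw : ∃ j, d.z ≤ j ∧ j ≤ w.length ∧ E d.n d.Ss (w.take j)
    · right
      obtain ⟨j, g1, g2, g3⟩ := hw
      obtain ⟨t, -, hF⟩ := F_exists g1 g2 g3
      have hzt := hF.1
      have htw := hF.2.1
      have hlt : (w.take t).length = t := by rw [List.length_take]; omega
      refine ⟨⟨(ph d.f (w.take t), ⟨lastn d.n (w.take t), lastn_length _ _⟩,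
        ph d.f (w.drop t)), ?_⟩, ?_⟩
      · show ph d.f (w.take t) * ph d.f (w.drop t) = m
        rw [← ph_append, List.take_append_drop]; exact h2
      · refine Language.mem_mul.2 ⟨w.take t, ⟨F_take hF, rfl, rfl⟩, w.drop t, ⟨?_, ?_⟩,
          List.take_append_drop _ _⟩
        · rw [← tail_iff' d (by omega), List.take_append_drop, hlt]
          intro i hi hil hE
          obtain ⟨t2, ht2, hF2⟩ := F_exists hi hil hE
          have hw2 : w.take t2 ∈ d.UU := by
            have e := F_take hF2
            have hle := hF2.1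
            have hle2 := hF2.2.1
            have hlt2 : (w.take t2).length = t2 := by rw [List.length_take]; omega
            refine ⟨t, ?_, e⟩
            have hF' := hF
            rw [← List.take_append_drop t2 w] at hF'
            exact F_res hF' (by omega)
          exact h1 _ hw2 (List.take_prefix _ _)
        · show ph d.f ((lastn d.n (w.take t) ++ w.drop t).drop d.n) = _
          rw [hdl _ _ (by omega)]
    · left
      refine ⟨fun j g1 g2 g3 => hw ⟨j, g1, g2, g3⟩, h2⟩
  · rintro (⟨h1, h2⟩ | ⟨⟨⟨s, ⟨l, hl⟩, s'⟩, hss⟩, h⟩)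
    · refine ⟨fun X hX hp => ?_, h2⟩
      obtain ⟨hF, hF2⟩ := d.mem_U hX
      obtain ⟨r, rfl⟩ := hp
      have hF' := F_ext (w' := r) hF
      exact h1 _ hF'.1 hF'.2.1 hF'.2.2.1
    · obtain ⟨g, ⟨hg, hv, hlg⟩, r, ⟨hr1, hr2⟩, rfl⟩ := Language.mem_mul.1 h
      have hgz : d.z ≤ g.length := hg.1
      have hlg' : lastn d.n g = l := hlg
      have hr1' : ∀ j, d.n + 1 ≤ j → j ≤ (l ++ r).length → ¬ E d.n d.Ss ((l ++ r).take j) := hr1
      have hr2' : ph d.f ((l ++ r).drop d.n) = s' := hr2
      rw [← hlg'] at hr1' hr2'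
      rw [hdl _ _ (by omega)] at hr2'
      have hr3 := (tail_iff' d (by omega)).2 hr1'
      refine ⟨fun X hX hp => ?_, ?_⟩
      · obtain ⟨hF, hF2⟩ := d.mem_U hX
        obtain ⟨r', hr'⟩ := hp
        have hF' : F d.n d.Ss d.z (g ++ r) (d.tt X) := by rw [← hr']; exact F_ext hF
        have e := F_unique (F_ext (w' := r) hg) hF'
        have hF2' : F d.n d.Ss (d.tt X + 1) (g ++ r) X.length := by
          rw [← hr']; exact F_ext hF2
        rw [← e] at hF2'
        exact hr3 _ hF2'.1 hF2'.2.1 hF2'.2.2.1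
      · show ph d.f (g ++ r) = m
        rw [ph_append, hr2', show ph d.f g = s from hv]
        exact hss

include hB hloc hHL in
/-- **height three** -/
theorem height [Finite α] [Finite S] [Finite V] (hone : ∀ v, d.act v 1 = v)
    (hff : ∀ s s', (∀ v, d.act v s = d.act v s') → s = s') (m : S) :
    HL 3 ({w | (w.map d.f).prod = m} : Language α) :=
  two_levels (k := 1) d.f U_pc (fun _ h => h.1) d.level1 d.level2
    (fun l l' _ _ h => dec d hone hff l l' h) (fun l l' _ _ h => h)
    (HL_U d B hB hloc hHL) (HL_B d B hB hloc hHL) (HL_P1 d) (HL_R1 d B hB hloc hHL)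
    (HL_P2 d) (HL_R2 d B hB hloc hHL) (HL_rest d hHL) m

end Dat

end Crest.Agent.R320.Top_529
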