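import Crest.Agent.R320.Code_110
import Crest.Agent.R320.Reg_819

/-!
# Row 320: top, regularity and height one for the design of helper693 / helper47 (helper550)

Left-looking walls on all words, zones `Zn` = first wall at a place `≥ z`, one token system,
semantic right labels (helper110).  `top` : two completeness statements imply height three.
-/

set_option autoImplicit false

namespace Crest.Agent.R320.Top_550

open Crest.Agent.R320.Hk_851 Crest.Agent.R320.Code110 Crest.Agent.R320.Pump_360
open Crest.Agent.R320.Reg_819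

variable {α : Type}

/-- a product of at most `R` pieces `f ++ x^k` -/
def Pieces (R B : ℕ) (w : List α) : Prop :=
  ∃ l : List (List α × List α × ℕ), l.length ≤ R ∧
    (∀ t ∈ l, t.1.length ≤ B ∧ t.2.1.length ≤ B) ∧ w = val l

/-- product of the letters -/
def pr {S : Type} [Monoid S] (f : α → S) (w : List α) : S := (w.map f).prod

theorem pr_append {S : Type} [Monoid S] (f : α → S) (u v : List α) :
    pr f (u ++ v) = pr f u * pr f v := by simp [pr]

/-- zones: from an anchor to the first wall at a place `≥ z` -/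
def Zn (Wo : List α → Prop) (z : ℕ) : Language α :=
  {X | Wo X ∧ z ≤ X.length ∧ ∀ t, z ≤ t → t < X.length → ¬ Wo (X.take t)}

/-- bad zones -/
def ZB (Wo : List α → Prop) (z : ℕ) (Bd : List α → Prop) : Language α :=
  {X | X ∈ Zn Wo z ∧ Bd X}

/-- words without a zone as a prefix -/
def Rest (Wo : List α → Prop) (z : ℕ) : Language α := (Zn Wo z * ⊤)ᶜ

/-- the zone map -/
def tau {S V : Type} [Monoid S] [AddCommGroup V] (f : α → S) (act : V → S → V) (p0 : ℕ)
    (nu2 nu1 : List α → V) (X : List α) (v : V) : V :=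
  act (act v (pr f (X.take p0)) + nu2 (X.take p0)) (pr f (X.drop p0)) + nu1 (X.drop p0)

/-! ### regularity -/

theorem reg_pr {S : Type} [Monoid S] [Finite S] (f : α → S) (s : S) :
    Language.IsRegular ({w | pr f w = s} : Language α) := by
  haveI := Fintype.ofFinite S
  refine ⟨S, inferInstance, ⟨fun t a => t * f a, 1, {s}⟩, ?_⟩
  have key : ∀ (w : List α) (t : S),
      (⟨fun t a => t * f a, 1, {s}⟩ : DFA α S).evalFrom t w = t * pr f w := by
    intro w
    induction w with
    | nil => intro t; simp [pr]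
    | cons a w ih =>
      intro t
      rw [DFA.evalFrom_cons, ih]
      simp [pr, mul_assoc]
  ext w
  rw [DFA.mem_accepts]
  change (⟨fun t a => t * f a, 1, {s}⟩ : DFA α S).evalFrom 1 w ∈ ({s} : Set S) ↔ pr f w = s
  rw [key, one_mul]
  exact Iff.rfl

/-- the language of a predicate -/
def lg (P : List α → Prop) : Language α := {w | P w}

theorem reg_congr {L M : Language α} (h : L.IsRegular) (e : ∀ w, w ∈ M ↔ w ∈ L) :
    M.IsRegular := by
  have : M = L := Set.ext e
  rw [this]; exact h

theorem reg_biUnion {ι : Type*} {s : Set ι} (hs : s.Finite) {L : ι → Language α}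
    (h : ∀ i ∈ s, (L i).IsRegular) : Language.IsRegular ({w | ∃ i ∈ s, w ∈ L i} : Language α) := by
  induction s, hs using Set.Finite.induction_on with
  | empty =>
    refine reg_congr reg_zero fun w => ?_
    constructor
    · rintro ⟨i, hi, _⟩; exact hi.elim
    · intro hw; exact (show False from hw).elim
  | @insert a s _ _ ih =>
    refine reg_congr ((h a (Or.inl rfl)).add (ih fun i hi => h i (Or.inr hi))) fun w => ?_
    constructor
    · rintro ⟨i, hi, hw⟩
      rcases hi with rfl | hi
      · exact Or.inl hw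
      · exact Or.inr ⟨i, hi, hw⟩
    · rintro (hw | ⟨i, hi, hw⟩)
      · exact ⟨a, Or.inl rfl, hw⟩
      · exact ⟨i, Or.inr hi, hw⟩

section walls

variable {Wo : List α → Prop} {n z : ℕ}

theorem hl_wo [Finite α] (hW : ∀ P Q : List α, n ≤ Q.length → (Wo (P ++ Q) ↔ Wo Q))
    (hWn : ∀ P, Wo P → n ≤ P.length) : HL 0 ({X | Wo X} : Language α) := by
  have hF : HL 0 ({Q | Q.length = n ∧ Wo Q} : Language α) :=
    HL.finite ((List.finite_length_eq α n).subset fun w hw => hw.1)
  refine (HL.top.mul hF).congr fun w => ?_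
  constructor
  · intro hw
    have h1 := hWn w hw
    refine Language.mem_mul.2 ⟨w.take (w.length - n), trivial, w.drop (w.length - n), ?_,
      List.take_append_drop _ _⟩
    have h2 : (w.drop (w.length - n)).length = n := by rw [List.length_drop]; omega
    refine ⟨h2, ?_⟩
    rw [← hW (w.take (w.length - n)) _ h2.ge, List.take_append_drop]
    exact hw
  · intro hw
    obtain ⟨P, _, Q, ⟨h1, h2⟩, rfl⟩ := Language.mem_mul.1 hw
    exact (hW P Q h1.ge).2 h2

theorem hl_zn [Finite α] (hW : ∀ P Q : List α, n ≤ Q.length → (Wo (P ++ Q) ↔ Wo Q))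
    (hWn : ∀ P, Wo P → n ≤ P.length) : HL 0 (Zn Wo z) := by
  have h1 := hl_wo hW hWn
  have h2 : HL 0 ({w | z ≤ w.length} : Language α) := HL.length_ge z
  have h3 : HL 0 ({w | 1 ≤ w.length} : Language α) := HL.length_ge 1
  have h4 := (h1.inf h2).mul h3
  refine ((h1.inf h2).inf h4.compl).congr fun w => ?_
  constructor
  · rintro ⟨a, b, c⟩
    refine ⟨⟨a, b⟩, ?_⟩
    intro hw
    obtain ⟨P, ⟨hP1, hP2⟩, Q, hQ, rfl⟩ := Language.mem_mul.1 hw
    have hQ' : 1 ≤ Q.length := hQ
    have hP2' : z ≤ P.length := hP2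
    refine c P.length hP2' (by rw [List.length_append]; omega) ?_
    rw [List.take_left]
    exact hP1
  · rintro ⟨⟨a, b⟩, c⟩
    refine ⟨a, b, fun t h1 h2 h3 => c ?_⟩
    refine Language.mem_mul.2 ⟨w.take t, ⟨h3, ?_⟩, w.drop t, ?_, List.take_append_drop _ _⟩
    · change z ≤ (w.take t).length
      rw [List.length_take]; omega
    · change 1 ≤ (w.drop t).length
      rw [List.length_drop]; omega

theorem pc_zn (hz : 0 < z) : PC (Zn Wo z) := by
  constructor
  · rintro ⟨_, h, _⟩
    simp at h
    omega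
  · rintro u ⟨hu1, hu2, _⟩ v ⟨_, _, hv3⟩ ⟨r, rfl⟩
    by_cases hr : r = []
    · subst hr; simp
    · exfalso
      have hr' : 0 < r.length := List.length_pos_iff.2 hr
      refine hv3 u.length hu2 (by rw [List.length_append]; omega) ?_
      rw [List.take_left]
      exact hu1

theorem take_wall (hW : ∀ P Q : List α, n ≤ Q.length → (Wo (P ++ Q) ↔ Wo Q))
    (hWn : ∀ P, Wo P → n ≤ P.length) {X : List α}
    (h : ∀ t, z ≤ t → t < X.length → ¬ Wo (X.take t)) :
    ∀ t, t < (X.drop z).length → ¬ Wo ((X.drop z).take t) := by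
  intro t ht hw
  have h1 := hWn _ hw
  have h2 := (hW (X.take z) ((X.drop z).take t) h1).2 hw
  rw [List.length_drop] at ht
  refine h (z + t) (by omega) (by omega) ?_
  rw [List.take_add]
  exact h2

theorem pieces_aux (hW : ∀ P Q : List α, n ≤ Q.length → (Wo (P ++ Q) ↔ Wo Q))
    (hWn : ∀ P, Wo P → n ≤ P.length) {R B : ℕ}
    (hp : ∀ u : List α, (∀ t, t < u.length → ¬ Wo (u.take t)) → Pieces R B u) {X : List α}
    (h : ∀ t, z ≤ t → t < X.length → ¬ Wo (X.take t)) : Pieces (R + 1) (max B z) X := by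
  obtain ⟨l, h1, h2, h3⟩ := hp _ (take_wall hW hWn h)
  refine ⟨(X.take z, [], 0) :: l, by simp; exact h1, ?_, ?_⟩
  · intro t ht
    rcases List.mem_cons.1 ht with rfl | ht
    · simp
    · have := h2 t ht
      exact ⟨this.1.trans (le_max_left _ _), this.2.trans (le_max_left _ _)⟩
  · rw [val_cons, ← h3]
    simp [pw_zero]

theorem rest_nowall {r : List α} (hr : r ∈ Rest Wo z) :
    ∀ t, z ≤ t → t < r.length → ¬ Wo (r.take t) := by
  intro t
  induction t using Nat.strong_induction_on with
  | _ t ih =>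
    intro h1 h2 h3
    refine hr ?_
    refine Language.mem_mul.2 ⟨r.take t, ⟨h3, ?_, ?_⟩, r.drop t, trivial,
      List.take_append_drop _ _⟩
    · rw [List.length_take]; omega
    · intro s hs1 hs2
      rw [List.length_take] at hs2
      rw [List.take_take, min_eq_left (by omega)]
      exact ih s (by omega) hs1 (by omega)

theorem decomp (hz : 0 < z) : ∀ (m : ℕ) (w : List α), w.length ≤ m →
    ∃ l r, w = l ++ r ∧ l ∈ KStar.kstar (Zn Wo z) ∧ r ∈ Rest Wo z := by
  intro m
  induction m with
  | zero =>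
    intro w hw
    have : w = [] := List.length_eq_zero_iff.1 (by omega)
    subst this
    refine ⟨[], [], rfl, Language.nil_mem_kstar _, ?_⟩
    intro h
    obtain ⟨P, hP, Q, _, e⟩ := Language.mem_mul.1 h
    have : P = [] := (List.append_eq_nil_iff.1 e).1
    exact (pc_zn (Wo := Wo) hz).ne (this ▸ hP)
  | succ m ih =>
    intro w hw
    by_cases h : w ∈ Rest Wo z
    · exact ⟨[], w, rfl, Language.nil_mem_kstar _, h⟩
    · have h' : w ∈ Zn Wo z * (⊤ : Language α) := by
        by_contra h2
        exact h h2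
      obtain ⟨P, hP, Q, _, rfl⟩ := Language.mem_mul.1 h'
      have hlen : z ≤ P.length := hP.2.1
      obtain ⟨l, r, rfl, hl, hr⟩ := ih Q (by rw [List.length_append] at hw; omega)
      refine ⟨P ++ l, r, by simp, ?_, hr⟩
      rw [Language.mem_kstar] at hl ⊢
      obtain ⟨S, rfl, hS⟩ := hl
      refine ⟨P :: S, by simp, fun y hy => ?_⟩
      rcases List.mem_cons.1 hy with rfl | hy
      · exact hP
      · exact hS y hy

end walls

section token

variable {S V : Type} [Monoid S] [AddCommGroup V] {f : α → S} {act : V → S → V} {p0 : ℕ}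
  {nu2 nu1 : List α → V}

theorem act_sub (hadd : ∀ u v s, act (u + v) s = act u s + act v s) (u v : V) (s : S) :
    act (u - v) s = act u s - act v s := by
  have := hadd (u - v) v s
  rw [sub_add_cancel] at this
  rw [this]
  abel

theorem tau_sub (hadd : ∀ u v s, act (u + v) s = act u s + act v s)
    (hmul : ∀ v s t, act (act v s) t = act v (s * t)) (X : List α) (x x' : V) :
    tau f act p0 nu2 nu1 X x - tau f act p0 nu2 nu1 X x' = act (x - x') (pr f X) := by
  have h1 : pr f X = pr f (X.take p0) * pr f (X.drop p0) := by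
    rw [← pr_append, List.take_append_drop]
  rw [h1, ← hmul, act_sub hadd x x' (pr f (X.take p0)), act_sub hadd]
  unfold tau
  rw [hadd, hadd]
  abel

theorem run_diff (hadd : ∀ u v s, act (u + v) s = act u s + act v s)
    (hone : ∀ v, act v 1 = v)
    (hmul : ∀ v s t, act (act v s) t = act v (s * t)) {Z : Language α} {x y : V} {w : List α}
    (h : Run Z (tau f act p0 nu2 nu1) x w y) :
    ∀ x', Run Z (tau f act p0 nu2 nu1) x' w (y - act (x - x') (pr f w)) := by
  induction h with
  | nil x =>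
    intro x'
    have : x - act (x - x') (pr f ([] : List α)) = x' := by
      simp [pr, hone]
    rw [this]
    exact Run.nil x'
  | @cons x y u w hu _ ih =>
    intro x'
    have h1 := ih (tau f act p0 nu2 nu1 u x')
    rw [tau_sub hadd hmul, hmul, ← pr_append] at h1
    exact Run.cons hu h1

end token

/-- **TOP**: two completeness statements (with semantic right labels) give height three -/
theorem top [Finite α] {S V : Type} [Monoid S] [Finite S] [AddCommGroup V] [Finite V]
    (f : α → S) (act : V → S → V)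
    (hadd : ∀ u v s, act (u + v) s = act u s + act v s) (hone : ∀ v, act v 1 = v)
    (hmul : ∀ v s t, act (act v s) t = act v (s * t))
    (hfaith : ∀ s t, (∀ v, act v s = act v t) → s = t)
    (Wo : List α → Prop) (n z p0 : ℕ)
    (hW : ∀ P Q : List α, n ≤ Q.length → (Wo (P ++ Q) ↔ Wo Q))
    (hWn : ∀ P, Wo P → n ≤ P.length) (hz : 0 < z) (hp0 : p0 ≤ z)
    (hpieces : ∃ R B : ℕ, ∀ u : List α, (∀ t, t < u.length → ¬ Wo (u.take t)) → Pieces R B u)
    (nu2 nu1 : List α → V) (hnu1 : ∀ x, Language.IsRegular ({Y | nu1 Y = x} : Language α))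
    (Bd : List α → Prop) (hBd : Language.IsRegular ({X | Bd X} : Language α))
    (L1 L2 : V → Language α) (hL1 : ∀ x, {p | p ∈ L1 x}.Finite)
    (hL2 : ∀ x, {p | p ∈ L2 x}.Finite)
    (hc1 : ∀ u ∈ Zn Wo z, ¬ Bd u → ∀ x, ∃ p q y, u = p ++ q ∧ p ∈ L1 x ∧
      q ∈ Rsem (Zn Wo z) (Zn Wo z) (tau f act p0 nu2 nu1) 0 L1 y)
    (hc2 : ∀ u ∈ ZB Wo z Bd, ∀ x, ∀ t ∈ ZB Wo z Bd, ∃ p q y, u ++ t = p ++ q ∧ p ∈ L2 x ∧
      q ∈ Rsem (Zn Wo z) (ZB Wo z Bd) (tau f act p0 nu2 nu1) 1 L2 y)
    (s : S) : HL 3 ({w | pr f w = s} : Language α) := by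
  classical
  obtain ⟨R, B, hp⟩ := hpieces
  set τ : List α → V → V := tau f act p0 nu2 nu1 with hτdef
  have hZ0 : HL 0 (Zn Wo z) := hl_zn hW hWn
  have hZreg : (Zn Wo z).IsRegular := HL.regular hZ0
  have hBreg : (ZB Wo z Bd).IsRegular := hZreg.inf hBd
  have hpz : ∀ w ∈ Zn Wo z, Pieces (R + 1) (max B z) w := fun w hw =>
    pieces_aux hW hWn hp hw.2.2
  -- fibres of the zone map
  have hG : ∀ c y : V, Language.IsRegular ({Y | act c (pr f Y) + nu1 Y = y} : Language α) := by
    intro c y
    have := reg_biUnion (Set.toFinite {q : S × V | act c q.1 + q.2 = y})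
      (L := fun q => lg (fun Y => pr f Y = q.1) ⊓ lg (fun Y => nu1 Y = q.2))
      (fun q _ => (reg_pr f q.1).inf (hnu1 q.2))
    refine reg_congr this fun Y => ?_
    constructor
    · intro hY
      exact ⟨(pr f Y, nu1 Y), hY, rfl, rfl⟩
    · rintro ⟨⟨a, b⟩, h1, h2, h3⟩
      have h2' : pr f Y = a := h2
      have h3' : nu1 Y = b := h3
      change act c (pr f Y) + nu1 Y = y
      rw [h2', h3']
      exact h1
  have hT : ∀ x y : V, Language.IsRegular ({X | p0 ≤ X.length ∧ τ X x = y} : Language α) := by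
    intro x y
    have := reg_biUnion (List.finite_length_eq α p0)
      (L := fun X0 => lg (fun X => X = X0) *
        lg (fun Y => act (act x (pr f X0) + nu2 X0) (pr f Y) + nu1 Y = y))
      (fun X0 _ => reg_mul (HL.regular (HL.word (k := 0) X0)) (hG _ _))
    refine reg_congr this fun X => ?_
    constructor
    · rintro ⟨h1, h2⟩
      refine ⟨X.take p0, ?_, Language.mem_mul.2 ⟨X.take p0, rfl, X.drop p0, h2,
        List.take_append_drop _ _⟩⟩
      change (X.take p0).length = p0
      rw [List.length_take]; omega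
    · rintro ⟨X0, h1, h2⟩
      obtain ⟨X1, h3, Y, h4, rfl⟩ := Language.mem_mul.1 h2
      have h3' : X1 = X0 := h3
      subst h3'
      have h1' : X1.length = p0 := h1
      refine ⟨by rw [List.length_append]; omega, ?_⟩
      have e1 : (X1 ++ Y).take p0 = X1 := by rw [← h1', List.take_left]
      have e2 : (X1 ++ Y).drop p0 = Y := by rw [← h1', List.drop_left]
      change tau f act p0 nu2 nu1 (X1 ++ Y) x = y
      unfold tau
      rw [e1, e2]
      exact h4
  have hZTreg : ∀ (Z' : Language α), Z'.IsRegular → (∀ u ∈ Z', u ∈ Zn Wo z) → ∀ x y,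
      HL 1 (ZT Z' τ x y) := by
    intro Z' hZ' hsub x y
    have h1 : ZT Z' τ x y = Z' ⊓ ({X | p0 ≤ X.length ∧ τ X x = y} : Language α) := by
      ext X
      constructor
      · rintro ⟨a, b⟩
        exact ⟨a, hp0.trans (hsub X a).2.1, b⟩
      · rintro ⟨a, _, b⟩
        exact ⟨a, b⟩
    refine HL1_of_pieces ?_ (R + 1) (max B z) (fun w hw => hpz w (hsub w hw.1))
    rw [h1]
    exact hZ'.inf (hT x y)
  have hZ1 : HL 1 (Zn Wo z) := hZ0.mono (by omega)
  have hB1 : HL 1 (ZB Wo z Bd) :=
    HL1_of_pieces hBreg (R + 1) (max B z) (fun w hw => hpz w hw.1)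
  have hsubB : ∀ u ∈ ZB Wo z Bd, u ∈ Zn Wo z := fun u hu => hu.1
  have hpc : PC (Zn Wo z) := pc_zn hz
  -- inner level
  have hinner : ∀ x y, HL 2 (RB (ZB Wo z Bd) τ x y) := by
    intro x y
    refine step_sem (k := 1) (N := 1) (Zb := Zn Wo z) (Z := ZB Wo z Bd)
      (Bad := (0 : Language α)) (L := L2) hpc hsubB (fun u hu => hu.elim) hZ1 hB1 hB1.star
      (hZTreg _ hBreg hsubB) ?_ hL2 ?_ x y
    · intro x y
      refine (HLempty_eq x y).congr fun w => ?_
      constructor
      · intro hw
        have hw' : Run (0 : Language α) τ x w y := hw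
        cases hw' with
        | nil => exact ⟨rfl, rfl⟩
        | cons hu _ => exact hu.elim
      · rintro ⟨rfl, rfl⟩
        exact Run.nil x
    · intro u hu _ x t ht
      rw [pow_one] at ht
      exact hc2 u hu x t ht
  -- outer level
  have houter : ∀ x y, HL 3 (RB (Zn Wo z) τ x y) := by
    intro x y
    refine step_sem (k := 2) (N := 0) (Zb := Zn Wo z) (Z := Zn Wo z)
      (Bad := ZB Wo z Bd) (L := L1) hpc (fun u hu => hu) hsubB (hZ0.mono (by omega))
      (hZ0.mono (by omega)) (hZ0.star.mono (by omega))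
      (fun x y => (hZTreg _ hZreg (fun u hu => hu) x y).mono (by omega)) hinner hL1 ?_ x y
    intro u hu hub x t ht
    rw [pow_zero] at ht
    have ht' : t = [] := ht
    subst ht'
    obtain ⟨p, q, y, h1, h2, h3⟩ := hc1 u hu (fun h => hub ⟨hu, h⟩) x
    exact ⟨p, q, y, by rw [List.append_nil]; exact h1, h2, h3⟩
  -- reading
  have hA : ∀ σ : S, HL 3 ({w | w ∈ KStar.kstar (Zn Wo z) ∧ pr f w = σ} : Language α) := by
    intro σ
    have h1 : HL 3 ({w | ∀ x : V, w ∈ ({w | ∃ q : V × V, w ∈ ({w | w ∈ RB (Zn Wo z) τ x q.1 ∧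
        (w ∈ RB (Zn Wo z) τ 0 q.2 ∧ q.1 - q.2 = act x σ)} : Language α)} : Language α)} :
        Language α) :=
      HL.iInter fun x => HL.iUnion fun q =>
        (houter x q.1).setOf_and ((houter 0 q.2).setOf_and (HL.const _))
    refine h1.congr fun w => ?_
    constructor
    · rintro ⟨hw, hσ⟩ x
      obtain ⟨y, hy⟩ := exists_run (τ := τ) hw x
      have h2 := run_diff hadd hone hmul hy 0
      refine ⟨(y, _), hy, h2, ?_⟩
      change y - (y - act (x - 0) (pr f w)) = act x σ
      rw [sub_zero, hσ]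
      abel
    · intro hw
      obtain ⟨⟨y, y0⟩, h2, h3, h4⟩ := hw 0
      refine ⟨Run.mem_star h2, hfaith _ _ fun x => ?_⟩
      obtain ⟨⟨y, y0⟩, h2, h3, h4⟩ := hw x
      have h5 := run_diff hadd hone hmul h2 0
      have h6 := Run.det hpc h3 h5
      rw [sub_zero] at h6
      have h4' : y - y0 = act x σ := h4
      have h6' : y0 = y - act x (pr f w) := h6
      rw [h6'] at h4'
      rw [← h4']
      abel
  -- rest words
  have hR : ∀ σ : S, HL 3 ({w | w ∈ Rest Wo z ∧ pr f w = σ} : Language α) := by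
    intro σ
    have h0 : HL 0 (Rest Wo z) := (hZ0.mul HL.top).compl
    refine HL.mono (k := 1) (by omega) (HL1_of_pieces ((HL.regular h0).inf (reg_pr f σ))
      (R + 1) (max B z) fun w hw => ?_)
    exact pieces_aux hW hWn hp (rest_nowall hw.1)
  have hfin := HL.biUnion (k := 3) (Set.toFinite {q : S × S | q.1 * q.2 = s})
    (L := fun q => lg (fun w => w ∈ KStar.kstar (Zn Wo z) ∧ pr f w = q.1) *
      lg (fun w => w ∈ Rest Wo z ∧ pr f w = q.2)) (fun q _ => (hA q.1).mul (hR q.2))
  refine hfin.congr fun w => ?_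
  constructor
  · intro hw
    obtain ⟨l, r, rfl, hl, hr⟩ := decomp (Wo := Wo) hz w.length w le_rfl
    refine ⟨(pr f l, pr f r), ?_, Language.mem_mul.2 ⟨l, ⟨hl, rfl⟩, r, ⟨hr, rfl⟩, rfl⟩⟩
    change pr f l * pr f r = s
    rw [← pr_append]
    exact hw
  · rintro ⟨⟨a, b⟩, hab, hw⟩
    obtain ⟨l, ⟨_, h1⟩, r, ⟨_, h2⟩, rfl⟩ := Language.mem_mul.1 hw
    change pr f (l ++ r) = s
    have h1' : pr f l = a := h1
    have h2' : pr f r = b := h2
    rw [pr_append, h1', h2']
    exact hab

end Crest.Agent.R320.Top_550
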