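import Crest.Agent.R320.Block_467

/-!
# Row 320, top of the two scheme chain in block form (helper568)

One token system `T v X = act v (phi X) + nu X` on a prefix code `C` of blocks.
* scheme 1 : `LP1 v`, `RQ1 u`; sound for all pairs; complete on the blocks of `C` outside `Bad`;
* scheme 2 : `LP2 v`, `RQ2 u`; a right word is the rest of the block and one more full block; sound
  and complete on products of blocks of `Bad` (promise).
Then all fibres of `phi` on all words have height `≤ k + 2`.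
(`ch_*`, `bl_HL` are helper603's lemmas of `BlockP_603`, made universe polymorphic.)
-/

set_option autoImplicit false

namespace Crest.Agent.R320.Top568

open Crest.RegLang Crest.Agent.R320.Hk_851 Crest.Agent.R320.Blk467 Computability

universe u v

variable {α : Type u} {k : ℕ} {V : Type v}

/-- right part, then left part, the same value -/
def KQ (LP RQ : V → Language α) : Language α := {w | ∃ u, w ∈ RQ u * LP u}

/-- `LP v K^* RQ v'` -/
def Ch (LP RQ : V → Language α) (v v' : V) : Language α :=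
  LP v * (KStar.kstar (KQ LP RQ) * RQ v')

theorem ch_step {LP RQ : V → Language α} {v u v' : V} {P Q w : List α} (hP : P ∈ LP v)
    (hQ : Q ∈ RQ u) (hw : w ∈ Ch LP RQ u v') : P ++ Q ++ w ∈ Ch LP RQ v v' := by
  obtain ⟨P', hP', r, hr, rfl⟩ := Language.mem_mul.1 hw
  obtain ⟨s, hs, Q', hQ', rfl⟩ := Language.mem_mul.1 hr
  obtain ⟨L, rfl, hL⟩ := Language.mem_kstar.1 hs
  refine Language.mem_mul.2 ⟨P, hP, Q ++ P' ++ L.flatten ++ Q', ?_, by simp [List.append_assoc]⟩
  refine Language.mem_mul.2 ⟨((Q ++ P') :: L).flatten, ?_, Q', hQ', by simp [List.append_assoc]⟩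
  refine Language.mem_kstar.2 ⟨(Q ++ P') :: L, rfl, ?_⟩
  intro y hy
  rcases List.mem_cons.1 hy with h | h
  · rw [h]
    exact ⟨u, Language.mem_mul.2 ⟨Q, hQ, P', hP', rfl⟩⟩
  · exact hL y h

theorem ch_one {LP RQ : V → Language α} {v v' : V} {P Q : List α} (hP : P ∈ LP v)
    (hQ : Q ∈ RQ v') : P ++ Q ∈ Ch LP RQ v v' :=
  Language.mem_mul.2 ⟨P, hP, Q, Language.mem_mul.2 ⟨[], Language.mem_kstar.2 ⟨[], rfl, by simp⟩,
    Q, hQ, rfl⟩, rfl⟩

/-- one cut, or a first cut followed by a chain word -/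
theorem ch_cases {LP RQ : V → Language α} {v v' : V} {w : List α} (hw : w ∈ Ch LP RQ v v') :
    ∃ n : ℕ, Nat.rec (motive := fun _ => V → List α → Prop)
      (fun v w => ∃ P ∈ LP v, ∃ Q ∈ RQ v', w = P ++ Q)
      (fun _ F v w => ∃ P ∈ LP v, ∃ u, ∃ Q ∈ RQ u, ∃ r, w = P ++ (Q ++ r) ∧ F u r) n v w := by
  obtain ⟨P, hP, r, hr, rfl⟩ := Language.mem_mul.1 hw
  obtain ⟨s, hs, Q', hQ', rfl⟩ := Language.mem_mul.1 hr
  obtain ⟨L, rfl, hL⟩ := Language.mem_kstar.1 hs
  clear hw hr hs
  induction L generalizing v P with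
  | nil => exact ⟨0, P, hP, Q', hQ', by simp⟩
  | cons y L ih =>
    obtain ⟨u, hu⟩ := hL y (by simp)
    obtain ⟨Q, hQ, P', hP', rfl⟩ := Language.mem_mul.1 hu
    obtain ⟨n, hn⟩ := ih P' hP' (fun z hz => hL z (by simp [hz]))
    exact ⟨n + 1, P, hP, u, Q, hQ, P' ++ (L.flatten ++ Q'), by simp [List.append_assoc], hn⟩

/-- completeness half -/
theorem bl_subset {CC : Set (List α)} {T : V → List α → V} {LP RQ : V → Language α}
    (hc : ∀ X ∈ CC, ∀ v, ∃ P Q, X = P ++ Q ∧ P ∈ LP v ∧ Q ∈ RQ (T v X))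
    (L : List (List α)) (hL : ∀ X ∈ L, X ∈ CC) (hne : L ≠ []) (v : V) :
    L.flatten ∈ Ch LP RQ v (L.foldl T v) := by
  induction L generalizing v with
  | nil => exact absurd rfl hne
  | cons X L ih =>
    obtain ⟨P, Q, e, hP, hQ⟩ := hc X (hL X (by simp)) v
    by_cases hL0 : L = []
    · subst hL0
      simpa [e] using (ch_one hP hQ : P ++ Q ∈ Ch LP RQ v (T v X))
    · have := ih (fun z hz => hL z (by simp [hz])) hL0 (T v X)
      have h2 := ch_step hP hQ this
      rw [← e] at h2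
      simpa using h2

/-- soundness half, on the promise `CC*` -/
theorem ch_sound {CC : Set (List α)} {T : V → List α → V} {LP RQ : V → Language α}
    (hlen : ∀ v, ∀ P ∈ LP v, ∀ X ∈ CC, P.length ≤ X.length)
    (hRQ : ∀ u, [] ∉ RQ u) (hCC : ([] : List α) ∉ CC)
    (hs : ∀ v u, ∀ P ∈ LP v, ∀ R, P ++ R ∈ CC → ∀ Q ∈ RQ u, ∀ L : List (List α),
      (∀ X ∈ L, X ∈ CC) → Q <+: R ++ L.flatten → Q = R ∧ u = T v (P ++ R))
    {v v' : V} (L : List (List α)) (hL : ∀ X ∈ L, X ∈ CC)
    (hw : L.flatten ∈ Ch LP RQ v v') : L.foldl T v = v' := by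
  obtain ⟨n, hn⟩ := ch_cases hw
  clear hw
  induction n generalizing v L with
  | zero =>
    obtain ⟨P, hP, Q, hQ, e⟩ := hn
    cases L with
    | nil =>
      exfalso
      rw [List.flatten_nil] at e
      have : Q = [] := (List.append_eq_nil_iff.1 e.symm).2
      exact hRQ _ (this ▸ hQ)
    | cons X L =>
      rw [List.flatten_cons] at e
      have hX : X ∈ CC := hL X (by simp)
      obtain ⟨R, hR⟩ : P <+: X := List.prefix_of_prefix_length_le
        ⟨Q, e.symm⟩ ⟨L.flatten, rfl⟩ (hlen v P hP X hX)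
      subst hR
      rw [List.append_assoc] at e
      have e2 : Q = R ++ L.flatten := (List.append_cancel_left e).symm
      obtain ⟨h1, h2⟩ := hs v v' P hP R hX Q hQ L (fun z hz => hL z (by simp [hz]))
        ⟨[], by simp [e2]⟩
      have h3 : L.flatten = [] := by
        have : R ++ L.flatten = R ++ [] := by rw [← e2, h1, List.append_nil]
        exact List.append_cancel_left this
      have h4 : L = [] := by
        cases L with
        | nil => rfl
        | cons Y L' =>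
          exfalso
          rw [List.flatten_cons] at h3
          have hY : Y = [] := (List.append_eq_nil_iff.1 h3).1
          exact hCC (hY ▸ hL Y (by simp))
      subst h4
      simp [h2]
  | succ n ih =>
    obtain ⟨P, hP, u, Q, hQ, r, e, hr⟩ := hn
    cases L with
    | nil =>
      exfalso
      rw [List.flatten_nil] at e
      have h5 := (List.append_eq_nil_iff.1 e.symm).2
      have : Q = [] := (List.append_eq_nil_iff.1 h5).1
      exact hRQ _ (this ▸ hQ)
    | cons X L =>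
      rw [List.flatten_cons] at e
      have hX : X ∈ CC := hL X (by simp)
      obtain ⟨R, hR⟩ : P <+: X := List.prefix_of_prefix_length_le
        ⟨Q ++ r, e.symm⟩ ⟨L.flatten, rfl⟩ (hlen v P hP X hX)
      subst hR
      rw [List.append_assoc] at e
      have e2 : R ++ L.flatten = Q ++ r := List.append_cancel_left e
      obtain ⟨h1, h2⟩ := hs v u P hP R hX Q hQ L (fun z hz => hL z (by simp [hz]))
        ⟨r, e2.symm⟩
      subst h1
      have e3 : L.flatten = r := List.append_cancel_left e2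
      rw [List.foldl_cons, ← h2]
      exact ih L (fun z hz => hL z (by simp [hz])) (e3 ▸ hr)

/-- **promise step, token form** -/
theorem bl_HL [Finite V] {CC : Set (List α)} {T : V → List α → V} {LP RQ : V → Language α}
    (hCCk : HL k (CC : Language α)) (hLP : ∀ v, HL k (LP v)) (hRQk : ∀ u, HL k (RQ u))
    (hlen : ∀ v, ∀ P ∈ LP v, ∀ X ∈ CC, P.length ≤ X.length)
    (hRQ : ∀ u, [] ∉ RQ u) (hCC : ([] : List α) ∉ CC)
    (hc : ∀ X ∈ CC, ∀ v, ∃ P Q, X = P ++ Q ∧ P ∈ LP v ∧ Q ∈ RQ (T v X))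
    (hs : ∀ v u, ∀ P ∈ LP v, ∀ R, P ++ R ∈ CC → ∀ Q ∈ RQ u, ∀ L : List (List α),
      (∀ X ∈ L, X ∈ CC) → Q <+: R ++ L.flatten → Q = R ∧ u = T v (P ++ R))
    (v v' : V) : HL (k + 1) (Lg CC T v v') := by
  classical
  have hCh : HL (k + 1) (Ch LP RQ v v') := by
    refine ((hLP v).mono (Nat.le_succ k)).mul (HL.mul ?_ ((hRQk v').mono (Nat.le_succ k)))
    have hq : HL k (KQ LP RQ) := HL.iUnion (fun u => (hRQk u).mul (hLP u))
    exact hq.star
  have hst : HL (k + 1) (KStar.kstar (CC : Language α)) := hCCk.star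
  have hone : HL (k + 1) ({w | w = [] ∧ v = v'} : Language α) := by
    by_cases e : v = v'
    · exact HL.one.congr fun w => ⟨fun h => h.1, fun h => ⟨h, e⟩⟩
    · exact HL.bot.congr fun w => ⟨fun h => (e h.2).elim, fun h => h.elim⟩
  refine ((hst.inf hCh).sup hone).congr fun w => ?_
  constructor
  · rintro ⟨L, hL, rfl, h⟩
    by_cases hL0 : L = []
    · subst hL0
      exact Or.inr ⟨by simp, by simpa using h⟩
    · refine Or.inl ⟨Language.mem_kstar.2 ⟨L, rfl, hL⟩, ?_⟩
      have := bl_subset hc L hL hL0 v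
      rwa [h] at this
  · rintro (⟨h1, h2⟩ | ⟨h1, h2⟩)
    · obtain ⟨L, rfl, hL⟩ := Language.mem_kstar.1 h1
      exact ⟨L, hL, rfl, ch_sound hlen hRQ hCC hs L hL h2⟩
    · exact ⟨[], by simp, by simp [h1], by simpa using h2⟩

/-- products of two blocks -/
def Two (B : Set (List α)) : Set (List α) := {Z | ∃ X ∈ B, ∃ Y ∈ B, X ++ Y = Z}

open Classical in
/-- token map of a pair of blocks -/
noncomputable def TT (B : Set (List α)) (T : V → List α → V) (v : V) (Z : List α) : V :=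
  if h : ∃ p : List α × List α, p.1 ∈ B ∧ p.2 ∈ B ∧ p.1 ++ p.2 = Z then
    T (T v h.choose.1) h.choose.2 else v

theorem TT_eq {B : Set (List α)} (hB : PCode B) (T : V → List α → V) (v : V) {X Y : List α}
    (hX : X ∈ B) (hY : Y ∈ B) : TT B T v (X ++ Y) = T (T v X) Y := by
  classical
  have h : ∃ p : List α × List α, p.1 ∈ B ∧ p.2 ∈ B ∧ p.1 ++ p.2 = X ++ Y := ⟨(X, Y), hX, hY, rfl⟩
  unfold TT
  rw [dif_pos h]
  obtain ⟨h1, h2, h3⟩ := h.choose_spec
  have e1 : h.choose.1 = X := by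
    have hp : h.choose.1 <+: X ++ Y := by
      conv_rhs => rw [← h3]
      exact List.prefix_append _ _
    rcases List.prefix_or_prefix_of_prefix (l₁ := h.choose.1) (l₂ := X) (l₃ := X ++ Y)
      hp (List.prefix_append _ _) with g | g
    · exact hB.2 _ h1 _ hX g
    · exact (hB.2 _ hX _ h1 g).symm
  have e2 : h.choose.2 = Y := by
    rw [e1] at h3
    exact List.append_cancel_left h3
  rw [e1, e2]

theorem two_list {B : Set (List α)} (hB : PCode B) (T : V → List α → V) (L : List (List α))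
    (hL : ∀ Z ∈ L, Z ∈ Two B) : ∃ l : List (List α), (∀ X ∈ l, X ∈ B) ∧
      l.flatten = L.flatten ∧ ∀ v, l.foldl T v = L.foldl (TT B T) v := by
  induction L with
  | nil => exact ⟨[], by simp, rfl, fun v => rfl⟩
  | cons Z L ih =>
    obtain ⟨l, h1, h2, h3⟩ := ih (fun z hz => hL z (by simp [hz]))
    obtain ⟨X, hX, Y, hY, rfl⟩ := hL Z (by simp)
    refine ⟨X :: Y :: l, ?_, by simp [h2], fun v => ?_⟩
    · intro z hz
      rcases List.mem_cons.1 hz with rfl | hz
      · exact hX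
      rcases List.mem_cons.1 hz with rfl | hz
      · exact hY
      · exact h1 z hz
    · simp only [List.foldl_cons]
      rw [h3, TT_eq hB T v hX hY]

/-- one block of `B` leading from `v` to `v'` -/
def One (B : Set (List α)) (T : V → List α → V) (v v' : V) : Language α :=
  {X | X ∈ B ∧ T v X = v'}

/-- **promise step**: the right word is the rest of the block and one more full block -/
theorem bad_step [Finite V] {B : Set (List α)} (hB : PCode B) {T : V → List α → V}
    {LP RQ : V → Language α}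
    (hB1 : HL k (B : Language α)) (hT1 : ∀ v v', HL k ({X | X ∈ B ∧ T v X = v'} : Language α))
    (hLP : ∀ v, HL k (LP v)) (hRQk : ∀ u, HL k (RQ u))
    (hlen : ∀ v, ∀ P ∈ LP v, ∀ X ∈ B, P.length ≤ X.length)
    (hRQ : ∀ u, [] ∉ RQ u)
    (hc : ∀ X ∈ B, ∀ Y ∈ B, ∀ v, ∃ P Q, X = P ++ Q ∧ P ∈ LP v ∧ Q ++ Y ∈ RQ (T (T v X) Y))
    (hs : ∀ v u, ∀ P ∈ LP v, ∀ R, P ++ R ∈ B → ∀ Y ∈ B, ∀ Q ∈ RQ u, ∀ L : List (List α),
      (∀ X ∈ L, X ∈ B) → Q <+: R ++ (Y ++ L.flatten) → Q = R ++ Y ∧ u = T (T v (P ++ R)) Y)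
    (v v' : V) : HL (k + 1) (Lg B T v v') := by
  classical
  have key : ∀ v v', HL (k + 1) (Lg (Two B) (TT B T) v v') := by
    refine bl_HL (LP := LP) (RQ := RQ) ?_ hLP hRQk ?_ hRQ ?_ ?_ ?_
    · refine (hB1.mul hB1).congr fun w => ?_
      constructor
      · rintro ⟨X, hX, Y, hY, rfl⟩
        exact Language.mem_mul.2 ⟨X, hX, Y, hY, rfl⟩
      · intro h
        obtain ⟨X, hX, Y, hY, rfl⟩ := Language.mem_mul.1 h
        exact ⟨X, hX, Y, hY, rfl⟩
    · rintro w P hP Z ⟨X, hX, Y, hY, rfl⟩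
      have := hlen w P hP X hX
      rw [List.length_append]; omega
    · rintro ⟨X, hX, Y, hY, h⟩
      exact hB.1 ((List.append_eq_nil_iff.1 h).1 ▸ hX)
    · rintro Z ⟨X, hX, Y, hY, rfl⟩ w
      obtain ⟨P, Q, e, hP, hQ⟩ := hc X hX Y hY w
      refine ⟨P, Q ++ Y, by rw [e, List.append_assoc], hP, ?_⟩
      rw [TT_eq hB T w hX hY]; exact hQ
    · rintro w u P hP R ⟨X, hX, Y, hY, e⟩ Q hQ L hL hpre
      have hp : P <+: X ++ Y := by rw [e]; exact List.prefix_append _ _
      obtain ⟨R', hR'⟩ : P <+: X := List.prefix_of_prefix_length_le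
        hp (List.prefix_append _ _) (hlen w P hP X hX)
      subst hR'
      rw [List.append_assoc] at e
      have e2 : R' ++ Y = R := List.append_cancel_left e
      subst e2
      obtain ⟨l, h1, h2, _⟩ := two_list hB T L hL
      obtain ⟨g1, g2⟩ := hs w u P hP R' hX Y hY Q hQ l h1
        (by rw [h2, ← List.append_assoc]; exact hpre)
      refine ⟨g1, ?_⟩
      rw [← List.append_assoc, TT_eq hB T w hX hY]; exact g2
  have h1 : HL (k + 1) ({w | ∃ u, w ∈ Lg (Two B) (TT B T) v u * One B T u v'} : Language α) :=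
    HL.iUnion fun u => (key v u).mul (M := One B T u v') ((hT1 u v').mono (Nat.le_succ k))
  refine ((key v v').sup h1).congr fun w => ?_
  constructor
  · rintro ⟨l, hl, rfl, hf⟩
    have main : ∀ (n : ℕ) (l : List (List α)) (v : V), l.length ≤ n → (∀ X ∈ l, X ∈ B) →
        l.foldl T v = v' → l.flatten ∈ Lg (Two B) (TT B T) v v' ∨
        ∃ u, l.flatten ∈ Lg (Two B) (TT B T) v u * One B T u v' := by
      intro n
      induction n with
      | zero =>
        intro l v hn _ hf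
        have : l = [] := List.length_eq_zero_iff.1 (Nat.le_zero.1 hn)
        subst this
        exact Or.inl ⟨[], by simp, rfl, hf⟩
      | succ n ih =>
        intro l v hn hl hf
        match l, hn, hl, hf with
        | [], _, _, hf => exact Or.inl ⟨[], by simp, rfl, hf⟩
        | [X], _, hl, hf =>
          refine Or.inr ⟨v, Language.mem_mul.2 ⟨[], Lg.nil _ _ _, X, ⟨hl X (by simp), hf⟩, by simp⟩⟩
        | X :: Y :: l, hn, hl, hf =>
          have hX : X ∈ B := hl X (by simp)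
          have hY : Y ∈ B := hl Y (by simp)
          have hXY : X ++ Y ∈ Lg (Two B) (TT B T) v (T (T v X) Y) := by
            have := Lg.single (C := Two B) (T := TT B T) (X := X ++ Y) ⟨X, hX, Y, hY, rfl⟩ v
            rwa [TT_eq hB T v hX hY] at this
          have e : (X :: Y :: l).flatten = (X ++ Y) ++ l.flatten := by simp
          rw [e]
          simp only [List.length_cons] at hn
          rcases ih l (T (T v X) Y) (by omega) (fun z hz => hl z (by simp [hz])) hf with h | ⟨u, h⟩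
          · exact Or.inl (Lg.append hXY h)
          · obtain ⟨a, ha, b, hb, hab⟩ := Language.mem_mul.1 h
            refine Or.inr ⟨u, Language.mem_mul.2 ⟨(X ++ Y) ++ a, Lg.append hXY ha, b, hb, ?_⟩⟩
            rw [List.append_assoc, hab]
    rcases main l.length l v le_rfl hl hf with h | ⟨u, h⟩
    · exact Or.inl h
    · exact Or.inr ⟨u, h⟩
  · rintro (⟨L, hL, rfl, hf⟩ | ⟨u, h⟩)
    · obtain ⟨l, h1, h2, h3⟩ := two_list hB T L hL
      exact ⟨l, h1, h2, by rw [h3, hf]⟩
    · obtain ⟨a, ⟨L, hL, rfl, hf⟩, b, ⟨hb, hb'⟩, rfl⟩ := Language.mem_mul.1 h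
      obtain ⟨l, h1, h2, h3⟩ := two_list hB T L hL
      refine Lg.append (b := u) ⟨l, h1, h2, by rw [h3, hf]⟩ ?_
      have := Lg.single (C := B) (T := T) hb u
      rwa [hb'] at this

/-- **TOP**: one token system, two schemes, all words. -/
theorem top2 [Finite V] {S : Type*} [Monoid S] [Finite S] [AddCommGroup V] (act : V → S → V)
    (hadd : ∀ a b s, act (a + b) s = act a s + act b s)
    (hone : ∀ v, act v 1 = v) (hmul : ∀ v s t, act v (s * t) = act (act v s) t)
    (hfaith : ∀ s t, (∀ v, act v s = act v t) → s = t)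
    (φ : α → S) (nu : List α → V) (C B : Set (List α)) (hC : PCode C) (hBC : B ⊆ C)
    (T : V → List α → V) (hT : ∀ v X, T v X = act v (X.map φ).prod + nu X)
    (LP1 RQ1 LP2 RQ2 : V → Language α)
    (sound1 : ∀ v u P Q, P ∈ LP1 v → Q ∈ RQ1 u → P ++ Q ∈ C ∧ T v (P ++ Q) = u)
    (compl1 : ∀ X ∈ C, X ∉ B → ∀ v, ∃ P Q, P ++ Q = X ∧ P ∈ LP1 v ∧ Q ∈ RQ1 (T v X))
    (hL1 : ∀ v, HL (k + 1) (LP1 v)) (hR1 : ∀ v, HL (k + 1) (RQ1 v))
    (hB1 : HL k (B : Language α)) (hT1 : ∀ v v', HL k ({X | X ∈ B ∧ T v X = v'} : Language α))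
    (hL2 : ∀ v, HL k (LP2 v)) (hR2 : ∀ u, HL k (RQ2 u))
    (hlen : ∀ v, ∀ P ∈ LP2 v, ∀ X ∈ B, P.length ≤ X.length)
    (hRQ : ∀ u, [] ∉ RQ2 u)
    (compl2 : ∀ X ∈ B, ∀ Y ∈ B, ∀ v, ∃ P Q, X = P ++ Q ∧ P ∈ LP2 v ∧
      Q ++ Y ∈ RQ2 (T (T v X) Y))
    (sound2 : ∀ v u, ∀ P ∈ LP2 v, ∀ R, P ++ R ∈ B → ∀ Y ∈ B, ∀ Q ∈ RQ2 u, ∀ L : List (List α),
      (∀ X ∈ L, X ∈ B) → Q <+: R ++ (Y ++ L.flatten) → Q = R ++ Y ∧ u = T (T v (P ++ R)) Y)
    (hend : ∀ s : S, HL (k + 2) ({w | (∀ X ∈ C, ¬ X <+: w) ∧ (w.map φ).prod = s} : Language α))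
    (s : S) : HL (k + 2) ({w | (w.map φ).prod = s} : Language α) := by
  have hbad : ∀ v v', HL (k + 1) (Lg B T v v') :=
    bad_step (PCode.mono hBC hC) hB1 hT1 hL2 hR2 hlen hRQ compl2 sound2
  have hall : ∀ v v', HL (k + 2) (Lg C T v v') := fun v v' =>
    star_step C B T LP1 RQ1 hBC
      (fun v u P Q hP hQ => by
        obtain ⟨h1, h2⟩ := sound1 v u P Q hP hQ
        have := Lg.single (C := C) (T := T) h1 v
        rwa [h2] at this) compl1 hbad hL1 hR1 v v'
  have hTe : T = fun v X => act v (X.map φ).prod + nu X := by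
    funext v X; exact hT v X
  rw [hTe] at hall
  have hfib : ∀ s : S, HL (k + 2) ({w | w ∈ Str C ∧ (w.map φ).prod = s} : Language α) :=
    fibre_of_threads act hadd hone hmul hfaith φ nu C hC.uparse hall
  let F1 : S → Language α := fun a => {w | w ∈ Str C ∧ (w.map φ).prod = a}
  let F2 : S → Language α := fun b => {w | (∀ X ∈ C, ¬ X <+: w) ∧ (w.map φ).prod = b}
  have key : HL (k + 2) ({w | ∃ p : S × S, p.1 * p.2 = s ∧ w ∈ F1 p.1 * F2 p.2} : Language α) :=
    HL.iUnion fun p => HL.setOf_and (HL.const _)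
      (HL.mul (L := F1 p.1) (M := F2 p.2) (hfib p.1) (hend p.2))
  refine key.congr fun w => ?_
  constructor
  · intro hw
    obtain ⟨M, E, rfl, hM, hE⟩ := exists_parse hC.1 w
    have hw' : ((M ++ E).map φ).prod = s := hw
    rw [List.map_append, List.prod_append] at hw'
    exact ⟨((M.map φ).prod, (E.map φ).prod), hw',
      Language.mem_mul.2 ⟨M, ⟨hM, rfl⟩, E, ⟨hE, rfl⟩, rfl⟩⟩
  · rintro ⟨p, h1, h2⟩
    obtain ⟨a, ⟨_, ha⟩, b, ⟨_, hb⟩, rfl⟩ := Language.mem_mul.1 h2
    have h1' : p.1 * p.2 = s := h1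
    change ((a ++ b).map φ).prod = s
    rw [List.map_append, List.prod_append, ha, hb, h1']

end Crest.Agent.R320.Top568
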