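import Crest.Agent.R320.Hk2_851

/-!
# Row 320: two nested stars over a prefix code of zones, semantic single-zone form (helper584)

`Data` : zones `Z` (prefix code), one token map `e`, exceptional zones `Bad`, scheme 1 (sound on all
pairs, complete off `Bad`), scheme 2 (complete on `Bad`; sound as soon as a `Bad` zone is comparable
with the product).  All languages of height `k` give height `k + 2` for all words.
-/

set_option autoImplicit false

namespace Crest.Agent.R320.Top_584

open Crest.RegLang Crest.Agent.R320.Hk_851 Computability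

universe u

variable {α : Type u} {V : Type}

/-- threads along a product of words of `Z` -/
inductive Th (Z : Set (List α)) (e : List α → V → V) : V → List α → V → Prop
  | nil (v : V) : Th Z e v [] v
  | cons {z w : List α} {v v' : V} : z ∈ Z → Th Z e (e z v) w v' → Th Z e v (z ++ w) v'

theorem Th.trans {Z : Set (List α)} {e : List α → V → V} {v w x : V} {a b : List α}
    (h : Th Z e v a w) (h' : Th Z e w b x) : Th Z e v (a ++ b) x := by
  induction h with
  | nil v => exact h'
  | cons hz _ ih => rw [List.append_assoc]; exact Th.cons hz (ih h')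

theorem Th.one {Z : Set (List α)} {e : List α → V → V} {z : List α} (hz : z ∈ Z) (v : V) :
    Th Z e v z (e z v) := by
  have := Th.cons (e := e) (v := v) hz (Th.nil _)
  rwa [List.append_nil] at this

theorem Th.mono {Z Z' : Set (List α)} (hZ : Z ⊆ Z') {e : List α → V → V} {v w : V} {a : List α}
    (h : Th Z e v a w) : Th Z' e v a w := by
  induction h with
  | nil v => exact Th.nil v
  | cons hz _ ih => exact Th.cons (hZ hz) ih

theorem Th.star {Z : Set (List α)} {e : List α → V → V} {v w : V} {a : List α}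
    (h : Th Z e v a w) : a ∈ ((Z : Language α)∗ : Language α) := by
  induction h with
  | nil v => exact Language.mem_kstar.2 ⟨[], rfl, by simp⟩
  | @cons z w' v v' hz _ ih =>
    obtain ⟨L, rfl, hL⟩ := Language.mem_kstar.1 ih
    refine Language.mem_kstar.2 ⟨z :: L, rfl, ?_⟩
    intro y hy
    rcases List.mem_cons.1 hy with rfl | hy
    · exact hz
    · exact hL y hy

/-- the data -/
structure Data (α : Type u) (V : Type) where
  Z : Set (List α)
  e : List α → V → V
  Bad : Set (List α)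
  P1 : V → Language α
  P2 : V → Language α
  R1 : V → Language α
  R2 : V → Language α
  nil : [] ∉ Z
  pc : ∀ x ∈ Z, ∀ y ∈ Z, x <+: y → x = y
  badZ : Bad ⊆ Z
  n2 : ∀ v, [] ∉ P2 v
  s1 : ∀ v w p q, p ∈ P1 v → q ∈ R1 w → p ++ q ∈ Z ∧ e (p ++ q) v = w
  c1 : ∀ z ∈ Z, z ∉ Bad → ∀ v, ∃ p q, z = p ++ q ∧ p ∈ P1 v ∧ q ∈ R1 (e z v)
  s2 : ∀ v w p q, p ∈ P2 v → q ∈ R2 w → ∀ x ∈ Bad, (x <+: p ++ q ∨ p ++ q <+: x) →
    x = p ++ q ∧ e x v = w
  c2 : ∀ z ∈ Bad, ∀ v, ∃ p q, z = p ++ q ∧ p ∈ P2 v ∧ q ∈ R2 (e z v)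

namespace Data

variable (D : Data α V)

/-- middle words of scheme 2 -/
def M : Language α := {m | ∃ y q p, m = q ++ p ∧ q ∈ D.R2 y ∧ p ∈ D.P2 y}

/-- threads along bad zones -/
def B (v w : V) : Language α := {a | Th D.Bad D.e v a w}

theorem B_forward {v w : V} {a : List α} (h : Th D.Bad D.e v a w) :
    (a = [] ∧ v = w) ∨ a ∈ D.P2 v * (D.M∗ * D.R2 w) := by
  induction h with
  | nil v => exact Or.inl ⟨rfl, rfl⟩
  | @cons z a v w hz _ ih =>
    right
    obtain ⟨p, q, rfl, hp, hq⟩ := D.c2 z hz v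
    rcases ih with ⟨rfl, h2⟩ | h
    · subst h2
      refine Language.mem_mul.2 ⟨p, hp, q, Language.mem_mul.2 ⟨[], Language.nil_mem_kstar _, q, hq,
        rfl⟩, by simp⟩
    · obtain ⟨p', hp', b, hb, rfl⟩ := Language.mem_mul.1 h
      obtain ⟨m, hm, r, hr, rfl⟩ := Language.mem_mul.1 hb
      obtain ⟨L, rfl, hL⟩ := Language.mem_kstar.1 hm
      refine Language.mem_mul.2 ⟨p, hp, _, Language.mem_mul.2 ⟨((q ++ p') :: L).flatten,
        Language.mem_kstar.2 ⟨_, rfl, ?_⟩, r, hr, rfl⟩, by simp⟩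
      intro y hy
      rcases List.mem_cons.1 hy with rfl | hy
      · exact ⟨_, q, p', rfl, hq, hp'⟩
      · exact hL y hy

theorem B_backward {w : V} (L : List (List α)) (hL : ∀ y ∈ L, y ∈ D.Bad) :
    ∀ (v : V) (p : List α) (l : List (List α)) (r : List α), p ∈ D.P2 v → (∀ y ∈ l, y ∈ D.M) →
      r ∈ D.R2 w → L.flatten = p ++ (l.flatten ++ r) → Th D.Bad D.e v L.flatten w := by
  induction L with
  | nil =>
    intro v p l r hp hl hr h
    have : p = [] := by
      have h2 := h.symm
      simp only [List.flatten_nil, List.append_eq_nil_iff] at h2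
      exact h2.1
    exact absurd (this ▸ hp) (D.n2 v)
  | cons z L ih =>
    intro v p l r hp hl hr h
    have hz := hL z List.mem_cons_self
    have hL' : ∀ y ∈ L, y ∈ D.Bad := fun y hy => hL y (List.mem_cons_of_mem _ hy)
    cases l with
    | nil =>
      have h1 : z ++ L.flatten = p ++ r := by simpa using h
      have h2 : z <+: p ++ r := ⟨_, h1⟩
      obtain ⟨h3, h4⟩ := D.s2 v w p r hp hr z hz (Or.inl h2)
      have h5 : L.flatten = [] := by
        rw [h3] at h1
        exact List.append_cancel_left (h1.trans (List.append_nil _).symm)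
      rw [List.flatten_cons, h5]
      rw [← h4]
      exact Th.cons hz (Th.nil _)
    | cons m l =>
      obtain ⟨y, q, p', rfl, hq, hp'⟩ := hl m List.mem_cons_self
      have h1 : z ++ L.flatten = (p ++ q) ++ (p' ++ (l.flatten ++ r)) := by
        simpa [List.append_assoc] using h
      have h2 : z <+: p ++ q ∨ p ++ q <+: z :=
        List.prefix_or_prefix_of_prefix ⟨_, h1⟩ ⟨_, rfl⟩
      obtain ⟨h3, h4⟩ := D.s2 v y p q hp hq z hz h2
      have h5 : L.flatten = p' ++ (l.flatten ++ r) := by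
        rw [h3] at h1
        exact List.append_cancel_left h1
      have h6 := ih hL' y p' l r hp' (fun x hx => hl x (List.mem_cons_of_mem _ hx)) hr h5
      rw [List.flatten_cons]
      exact Th.cons hz (by rw [h4]; exact h6)

open Classical in
theorem B_eq (v w : V) (a : List α) : a ∈ D.B v w ↔
    a ∈ (({a | a = [] ∧ v = w} : Language α) ⊔
      (((D.Bad : Language α)∗ : Language α) ⊓ (D.P2 v * (D.M∗ * D.R2 w)))) := by
  constructor
  · intro h
    rcases D.B_forward h with h1 | h1
    · exact Or.inl h1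
    · exact Or.inr ⟨Th.star h, h1⟩
  · rintro (⟨rfl, rfl⟩ | ⟨h1, h2⟩)
    · exact Th.nil _
    · obtain ⟨L, rfl, hL⟩ := Language.mem_kstar.1 h1
      obtain ⟨p, hp, b, hb, h3⟩ := Language.mem_mul.1 h2
      obtain ⟨m, hm, r, hr, rfl⟩ := Language.mem_mul.1 hb
      obtain ⟨l, rfl, hl⟩ := Language.mem_kstar.1 hm
      exact D.B_backward L hL v p l r hp hl hr h3.symm

theorem HL_M [Finite V] {k : ℕ} (h1 : ∀ v, HL k (D.P2 v)) (h2 : ∀ v, HL k (D.R2 v)) :
    HL k D.M := by
  have := HL.iUnion (k := k) fun y : V => (h2 y).mul (h1 y)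
  refine this.congr fun m => ?_
  constructor
  · rintro ⟨y, q, p, rfl, hq, hp⟩
    exact ⟨y, Language.mem_mul.2 ⟨q, hq, p, hp, rfl⟩⟩
  · rintro ⟨y, h⟩
    obtain ⟨q, hq, p, hp, rfl⟩ := Language.mem_mul.1 h
    exact ⟨y, q, p, rfl, hq, hp⟩

theorem HL_B [Finite V] {k : ℕ} (h1 : ∀ v, HL k (D.P2 v)) (h2 : ∀ v, HL k (D.R2 v))
    (hB : HL k (D.Bad : Language α)) (v w : V) : HL (k + 1) (D.B v w) := by
  classical
  have h3 : HL (k + 1) (D.P2 v * (D.M∗ * D.R2 w)) :=
    ((h1 v).mono (Nat.le_succ k)).mul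
      (((D.HL_M h1 h2).star).mul ((h2 w).mono (Nat.le_succ k)))
  have h4 : HL (k + 1) ({a | a = [] ∧ v = w} : Language α) := by
    by_cases h : v = w
    · exact HL.one.congr fun a => by
        simp only [Language.mem_one]
        exact ⟨fun h' => h'.1, fun h' => ⟨h', h⟩⟩
    · exact HL.zero.congr fun a => by
        constructor
        · intro h'
          exact absurd h'.2 h
        · intro h'
          exact absurd h' (Language.notMem_zero a)
  exact (h4.sup (hB.star.inf h3)).congr fun a => D.B_eq v w a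

/-- left part of an inner word of scheme 1 -/
def A (v : V) : Language α := {a | ∃ x b p, a = b ++ p ∧ Th D.Bad D.e v b x ∧ p ∈ D.P1 x}
def C (w : V) : Language α := {a | ∃ y q b, a = q ++ b ∧ q ∈ D.R1 y ∧ Th D.Bad D.e y b w}
def N : Language α := {a | ∃ y q b, a = q ++ b ∧ q ∈ D.R1 y ∧ b ∈ D.A y}

theorem full_forward {v w : V} {a : List α} (h : Th D.Z D.e v a w) :
    Th D.Bad D.e v a w ∨ ∃ b l c, a = b ++ (List.flatten l ++ c) ∧ b ∈ D.A v ∧
      (∀ y ∈ l, y ∈ D.N) ∧ c ∈ D.C w := by
  classical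
  induction h with
  | nil v => exact Or.inl (Th.nil v)
  | @cons z a v w hz _ ih =>
    by_cases hb : z ∈ D.Bad
    · rcases ih with h | ⟨b, l, c, rfl, ⟨x, b', p, rfl, hb', hp⟩, hl, hc⟩
      · exact Or.inl (Th.cons hb h)
      · exact Or.inr ⟨z ++ (b' ++ p), l, c, by simp, ⟨x, z ++ b', p, by simp, Th.cons hb hb', hp⟩,
          hl, hc⟩
    · obtain ⟨p, q, rfl, hp, hq⟩ := D.c1 z hz hb v
      rcases ih with h | ⟨b, l, c, rfl, hbA, hl, hc⟩
      · exact Or.inr ⟨p, [], q ++ a, by simp, ⟨v, [], p, rfl, Th.nil _, hp⟩, by simp,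
          ⟨_, q, a, rfl, hq, h⟩⟩
      · refine Or.inr ⟨p, (q ++ b) :: l, c, by simp, ⟨v, [], p, rfl, Th.nil _, hp⟩, ?_, hc⟩
        intro y hy
        rcases List.mem_cons.1 hy with rfl | hy
        · exact ⟨_, q, b, rfl, hq, hbA⟩
        · exact hl y hy

theorem full_backward {w : V} (l : List (List α)) : ∀ (v : V) (b c : List α), b ∈ D.A v →
    (∀ y ∈ l, y ∈ D.N) → c ∈ D.C w → Th D.Z D.e v (b ++ (l.flatten ++ c)) w := by
  induction l with
  | nil =>
    rintro v b c ⟨x, b', p, rfl, hb', hp⟩ - ⟨y, q, b'', rfl, hq, hb''⟩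
    obtain ⟨h1, h2⟩ := D.s1 x y p q hp hq
    have h3 : Th D.Z D.e x (p ++ q) y := h2 ▸ Th.one h1 x
    have := (hb'.mono D.badZ).trans (h3.trans (hb''.mono D.badZ))
    simpa [List.append_assoc] using this
  | cons m l ih =>
    rintro v b c ⟨x, b', p, rfl, hb', hp⟩ hl hc
    obtain ⟨y, q, a, rfl, hq, ha⟩ := hl m List.mem_cons_self
    obtain ⟨h1, h2⟩ := D.s1 x y p q hp hq
    have h3 : Th D.Z D.e x (p ++ q) y := h2 ▸ Th.one h1 x
    have h4 := ih y a c ha (fun z hz => hl z (List.mem_cons_of_mem _ hz)) hc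
    have := (hb'.mono D.badZ).trans (h3.trans h4)
    simpa [List.append_assoc] using this

theorem HL_full [Finite V] {k : ℕ} (h1 : ∀ v, HL k (D.P2 v)) (h2 : ∀ v, HL k (D.R2 v))
    (hB : HL k (D.Bad : Language α)) (h3 : ∀ v, HL k (D.P1 v)) (h4 : ∀ v, HL k (D.R1 v))
    (v w : V) : HL (k + 2) ({a | Th D.Z D.e v a w} : Language α) := by
  have hBB := D.HL_B h1 h2 hB
  have hk : k ≤ k + 1 := Nat.le_succ k
  have hA : ∀ v, HL (k + 1) (D.A v) := by
    intro v
    refine (HL.iUnion (k := k + 1) fun x : V => (hBB v x).mul ((h3 x).mono hk)).congr fun a => ?_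
    constructor
    · rintro ⟨x, b, p, rfl, hb, hp⟩
      exact ⟨x, Language.mem_mul.2 ⟨b, hb, p, hp, rfl⟩⟩
    · rintro ⟨x, h⟩
      obtain ⟨b, hb, p, hp, rfl⟩ := Language.mem_mul.1 h
      exact ⟨x, b, p, rfl, hb, hp⟩
  have hC : HL (k + 1) (D.C w) := by
    refine (HL.iUnion (k := k + 1) fun x : V => ((h4 x).mono hk).mul (hBB x w)).congr fun a => ?_
    constructor
    · rintro ⟨x, b, p, rfl, hb, hp⟩
      exact ⟨x, Language.mem_mul.2 ⟨b, hb, p, hp, rfl⟩⟩
    · rintro ⟨x, h⟩
      obtain ⟨b, hb, p, hp, rfl⟩ := Language.mem_mul.1 h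
      exact ⟨x, b, p, rfl, hb, hp⟩
  have hN : HL (k + 1) D.N := by
    refine (HL.iUnion (k := k + 1) fun x : V => ((h4 x).mono hk).mul (hA x)).congr fun a => ?_
    constructor
    · rintro ⟨x, b, p, rfl, hb, hp⟩
      exact ⟨x, Language.mem_mul.2 ⟨b, hb, p, hp, rfl⟩⟩
    · rintro ⟨x, h⟩
      obtain ⟨b, hb, p, hp, rfl⟩ := Language.mem_mul.1 h
      exact ⟨x, b, p, rfl, hb, hp⟩
  have h5 : HL (k + 2) (D.A v * (D.N∗ * D.C w)) :=
    ((hA v).mono (Nat.le_succ _)).mul (hN.star.mul (hC.mono (Nat.le_succ _)))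
  refine (((hBB v w).mono (Nat.le_succ _)).sup h5).congr fun a => ?_
  constructor
  · intro h
    rcases D.full_forward h with h | ⟨b, l, c, rfl, hb, hl, hc⟩
    · exact Or.inl h
    · exact Or.inr (Language.mem_mul.2 ⟨b, hb, _, Language.mem_mul.2 ⟨_,
        Language.mem_kstar.2 ⟨l, rfl, hl⟩, c, hc, rfl⟩, rfl⟩)
  · rintro (h | h)
    · exact Th.mono D.badZ h
    · obtain ⟨b, hb, x, hx, rfl⟩ := Language.mem_mul.1 h
      obtain ⟨y, hy, c, hc, rfl⟩ := Language.mem_mul.1 hx
      obtain ⟨l, rfl, hl⟩ := Language.mem_kstar.1 hy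
      exact D.full_backward l v b c hb hl hc

/-- threads of a fixed word are determined -/
theorem Th_unique {v w w' : V} {a : List α} (h : Th D.Z D.e v a w) (h' : Th D.Z D.e v a w') :
    w = w' := by
  induction h with
  | nil v =>
    generalize hb : ([] : List α) = b at h'
    cases h' with
    | nil => rfl
    | @cons z a v w hz h1 =>
      have : z = [] := by
        have := hb.symm
        simp only [List.append_eq_nil_iff] at this
        exact this.1
      exact absurd (this ▸ hz) D.nil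
  | @cons z a v w hz h1 ih =>
    generalize hb : z ++ a = b at h'
    cases h' with
    | nil =>
      have : z = [] := by
        simp only [List.append_eq_nil_iff] at hb
        exact hb.1
      exact absurd (this ▸ hz) D.nil
    | @cons z' a' v w hz' h2 =>
      have h3 : z = z' := by
        rcases List.prefix_or_prefix_of_prefix (⟨a, rfl⟩ : z <+: z ++ a) (⟨a', hb.symm⟩ : z' <+: z ++ a) with h | h
        · exact D.pc z hz z' hz' h
        · exact (D.pc z' hz' z hz h).symm
      subst h3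
      have h4 := List.append_cancel_left hb
      subst h4
      exact ih h2

/-- **the two-star theorem**: zones `Z`, one token map `e z v = act v (φ z) + ν z` -/
theorem main [AddCommGroup V] [Finite V] {S : Type*} [Monoid S] [Finite S] {k : ℕ}
    (φ : List α → S) (φ_nil : φ [] = 1) (φ_app : ∀ u v, φ (u ++ v) = φ u * φ v)
    (act : V → S → V) (act_mul : ∀ v s t, act (act v s) t = act v (s * t))
    (act_one : ∀ v, act v 1 = v)
    (act_add : ∀ v w s, act (v + w) s = act v s + act w s)
    (faith : ∀ s t, (∀ v, act v s = act v t) → s = t) (ν : List α → V)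
    (he : ∀ z ∈ D.Z, ∀ v, D.e z v = act v (φ z) + ν z)
    (h1 : ∀ v, HL k (D.P2 v)) (h2 : ∀ v, HL k (D.R2 v))
    (hB : HL k (D.Bad : Language α)) (h3 : ∀ v, HL k (D.P1 v)) (h4 : ∀ v, HL k (D.R1 v))
    (h5 : ∀ s, HL (k + 2) ({r | (∀ x ∈ D.Z, ¬ x <+: r) ∧ φ r = s} : Language α)) (s : S) :
    HL (k + 2) ({w | φ w = s} : Language α) := by
  have hfull := D.HL_full h1 h2 hB h3 h4
  have act_zero : ∀ s, act 0 s = 0 := by
    intro s
    have := act_add 0 0 s
    rw [add_zero] at this
    exact left_eq_add.1 this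
  -- every product of zones has a transport
  have key : ∀ L : List (List α), (∀ y ∈ L, y ∈ D.Z) →
      ∃ n : V, ∀ v, Th D.Z D.e v L.flatten (act v (φ L.flatten) + n) := by
    intro L
    induction L with
    | nil =>
      intro _
      refine ⟨0, fun v => ?_⟩
      simp only [List.flatten_nil, φ_nil, act_one, add_zero]
      exact Th.nil v
    | cons z L ih =>
      intro hL
      obtain ⟨n, hn⟩ := ih fun y hy => hL y (List.mem_cons_of_mem _ hy)
      have hz := hL z List.mem_cons_self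
      refine ⟨act (ν z) (φ L.flatten) + n, fun v => ?_⟩
      have h6 := Th.cons (e := D.e) (v := v) hz (hn (D.e z v))
      rw [List.flatten_cons, φ_app, ← act_mul]
      rw [he z hz, act_add, add_assoc] at h6
      exact h6
  -- fibres of `φ` on products of zones
  have hfib : ∀ s, HL (k + 2) ({w | w ∈ ((D.Z : Language α)∗ : Language α) ∧ φ w = s}
      : Language α) := by
    intro s
    have h6 := HL.iInter (k := k + 2) fun v : V =>
      HL.iUnion (k := k + 2) fun x : {x : V × V // x.2 - x.1 = act v s} =>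
        (hfull 0 x.1.1).inf (hfull v x.1.2)
    refine h6.congr fun w => ?_
    constructor
    · rintro ⟨hw, rfl⟩
      obtain ⟨L, rfl, hL⟩ := Language.mem_kstar.1 hw
      obtain ⟨n, hn⟩ := key L hL
      intro v
      refine ⟨⟨(act 0 (φ L.flatten) + n, act v (φ L.flatten) + n), ?_⟩, hn 0, hn v⟩
      simp [act_zero]
    · intro h
      obtain ⟨⟨x, hx⟩, h7, h8⟩ := h 0
      have hw := Th.star h7
      refine ⟨hw, ?_⟩
      obtain ⟨L, rfl, hL⟩ := Language.mem_kstar.1 hw
      obtain ⟨n, hn⟩ := key L hL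
      apply faith
      intro v
      obtain ⟨⟨y, hy⟩, h9, h10⟩ := h v
      have e1 := D.Th_unique (hn 0) h9
      have e2 := D.Th_unique (hn v) h10
      rw [← hy, ← e1, ← e2]
      simp [act_zero]
  have h7 := HL.iUnion (k := k + 2) fun x : {x : S × S // x.1 * x.2 = s} =>
    (hfib x.1.1).mul (h5 x.1.2)
  refine h7.congr fun w => ?_
  constructor
  · intro hw
    have hdec : ∀ n (w : List α), w.length ≤ n → ∃ a b, w = a ++ b ∧
        a ∈ ((D.Z : Language α)∗ : Language α) ∧ ∀ x ∈ D.Z, ¬ x <+: b := by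
      intro n
      induction n with
      | zero =>
        intro w hw
        have : w = [] := List.length_eq_zero_iff.1 (Nat.le_zero.1 hw)
        subst this
        refine ⟨[], [], rfl, Language.nil_mem_kstar _, ?_⟩
        intro x hx h
        have : x = [] := List.prefix_nil.1 h
        exact D.nil (this ▸ hx)
      | succ n ih =>
        intro w hw
        by_cases h : ∃ x ∈ D.Z, x <+: w
        · obtain ⟨x, hx, y, rfl⟩ := h
          have hx0 : x ≠ [] := fun h => D.nil (h ▸ hx)
          have hx1 : 0 < x.length := List.length_pos_iff.2 hx0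
          rw [List.length_append] at hw
          obtain ⟨a, b, rfl, ha, hb⟩ := ih y (by omega)
          refine ⟨x ++ a, b, by simp, ?_, hb⟩
          obtain ⟨L, rfl, hL⟩ := Language.mem_kstar.1 ha
          refine Language.mem_kstar.2 ⟨x :: L, rfl, ?_⟩
          intro y hy
          rcases List.mem_cons.1 hy with rfl | hy
          · exact hx
          · exact hL y hy
        · push Not at h
          exact ⟨[], w, rfl, Language.nil_mem_kstar _, h⟩
    obtain ⟨a, b, rfl, ha, hb⟩ := hdec w.length w le_rfl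
    refine ⟨⟨(φ a, φ b), ?_⟩, Language.mem_mul.2 ⟨a, ⟨ha, rfl⟩, b, ⟨hb, rfl⟩, rfl⟩⟩
    have : φ (a ++ b) = s := hw
    rw [φ_app] at this
    exact this
  · rintro ⟨⟨x, hx⟩, h⟩
    obtain ⟨a, ⟨_, ha⟩, b, ⟨_, hb⟩, rfl⟩ := Language.mem_mul.1 h
    show φ (a ++ b) = s
    rw [φ_app, ha, hb]
    exact hx

end Data

end Crest.Agent.R320.Top_584
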