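import Crest.Agent.R320.CoreTop_722

/-!
# Row 320: two schemes over a prefix code, all words (helper722)

`XX` a prefix code (blocks may be unbounded), `T X : V → V`. Scheme 1: `LP1 x`, `RQ1 y` with
`P ∈ LP1 x`, `Q ∈ RQ1 y` implying `P ++ Q ∈ XX` and `T (P ++ Q) x = y`; it cuts every block outside
`Bad`. Scheme 2 (promise): used only on words over `Bad`, the right word covers one more block.
-/

set_option autoImplicit false

namespace Crest.Agent.R320.Top_722

open Crest.RegLang Crest.Agent.R320.Hk_851 Crest.Agent.R320.CoreHalf_722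

universe u v

variable {α : Type u} {V : Type v} {n : ℕ}

/-! ## outer level -/

/-- cut system, languages -/
structure CutL (XX Bd : Set (List α)) (T : List α → V → V) (LP RQ : V → Language α) : Prop where
  code : PC XX
  bdm : ∀ X ∈ Bd, X ∈ XX
  sound : ∀ P Q x y, P ∈ LP x → Q ∈ RQ y → P ++ Q ∈ XX ∧ T (P ++ Q) x = y
  complete : ∀ X ∈ XX, X ∉ Bd → ∀ x, ∃ P Q, X = P ++ Q ∧ P ∈ LP x ∧ Q ∈ RQ (T X x)

def KKL (T : List α → V → V) (Bd : Set (List α)) (LP RQ : V → Language α) : Language α :=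
  {w | ∃ x y, w ∈ RQ x * Thr T Bd x y * LP y}

def SufL (T : List α → V → V) (Bd : Set (List α)) (RQ : V → Language α) (z : V) : Language α :=
  {w | ∃ x, w ∈ RQ x * Thr T Bd x z}

def ExL (T : List α → V → V) (Bd : Set (List α)) (LP RQ : V → Language α) (x z : V) :
    Language α :=
  {w | w ∈ Thr T Bd x z ∨
    ∃ y, w ∈ Thr T Bd x y * LP y * (KStar.kstar (KKL T Bd LP RQ) * SufL T Bd RQ z)}

theorem ExL_HL [Finite V] {T : List α → V → V} {Bd : Set (List α)}
    {LP RQ : V → Language α} (h : ∀ x y, HL n (Thr T Bd x y)) (hL : ∀ x, HL n (LP x))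
    (hR : ∀ x, HL n (RQ x)) (x z : V) : HL (n + 1) (ExL T Bd LP RQ x z) := by
  have hK : HL n (KKL T Bd LP RQ) :=
    HL.iUnion fun x => HL.iUnion fun y => ((hR x).mul (h x y)).mul (hL y)
  have hS : HL n (SufL T Bd RQ z) := HL.iUnion fun x => (hR x).mul (h x z)
  have h1 : HL (n + 1) ({w | ∃ y, w ∈ Thr T Bd x y * LP y *
      (KStar.kstar (KKL T Bd LP RQ) * SufL T Bd RQ z)} : Language α) :=
    HL.iUnion fun y => (((h x y).mono (Nat.le_succ n)).mul ((hL y).mono (Nat.le_succ n))).mul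
      (hK.star.mul (hS.mono (Nat.le_succ n)))
  exact (((h x z).mono (Nat.le_succ n)).setOf_or h1)

variable {XX Bd : Set (List α)} {T : List α → V → V} {LP RQ : V → Language α}

theorem CutL.complete_Ex (h : CutL XX Bd T LP RQ) (z : V) : ∀ (D : List (List α)) (x : V),
    (∀ X ∈ D, X ∈ XX) → runT T D x = z → D.flatten ∈ ExL T Bd LP RQ x z := by
  intro D
  induction D with
  | nil =>
    intro x _ hx
    exact Or.inl ⟨[], by simp, rfl, hx⟩
  | cons X D ih =>
    intro x hD hx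
    have hX : X ∈ XX := hD X (by simp)
    have ih' := ih (T X x) (fun Y hY => hD Y (by simp [hY])) hx
    rw [List.flatten_cons]
    by_cases hb : X ∈ Bd
    · rcases ih' with ⟨D', h1, h2, h3⟩ | ⟨y, hy⟩
      · left
        refine ⟨X :: D', ?_, by rw [List.flatten_cons, h2], h3⟩
        intro Y hY
        rcases List.mem_cons.1 hY with rfl | hY
        · exact hb
        · exact h1 Y hY
      · right
        refine ⟨y, ?_⟩
        obtain ⟨a, ha, r, hr, hre⟩ := Language.mem_mul.1 hy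
        obtain ⟨m, hm, p, hp, rfl⟩ := Language.mem_mul.1 ha
        obtain ⟨D', h1, h2, h3⟩ := hm
        refine Language.mem_mul.2 ⟨X ++ m ++ p, ?_, r, hr, ?_⟩
        · refine Language.mem_mul.2 ⟨X ++ m, ⟨X :: D', ?_, by rw [List.flatten_cons, h2], h3⟩,
            p, hp, rfl⟩
          intro Y hY
          rcases List.mem_cons.1 hY with rfl | hY
          · exact hb
          · exact h1 Y hY
        · rw [← hre]; simp
    · obtain ⟨P, Q, hPQ, hPm, hQm⟩ := h.complete X hX hb x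
      right
      refine ⟨x, ?_⟩
      refine Language.mem_mul.2 ⟨P, Language.mem_mul.2 ⟨[], ⟨[], by simp, rfl, rfl⟩, P, hPm, rfl⟩,
        Q ++ D.flatten, ?_, by rw [hPQ]; simp⟩
      rcases ih' with h1 | ⟨u, hu⟩
      · exact Language.mem_mul.2 ⟨[], Language.nil_mem_kstar _, Q ++ D.flatten,
          ⟨T X x, Language.mem_mul.2 ⟨Q, hQm, D.flatten, h1, rfl⟩⟩, rfl⟩
      · obtain ⟨a, ha, r, hr, hre⟩ := Language.mem_mul.1 hu
        obtain ⟨ks, hks, s, hs, rfl⟩ := Language.mem_mul.1 hr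
        obtain ⟨m, hm, p, hp, rfl⟩ := Language.mem_mul.1 ha
        have hk : Q ++ m ++ p ∈ KKL T Bd LP RQ :=
          ⟨T X x, u, Language.mem_mul.2 ⟨Q ++ m, Language.mem_mul.2 ⟨Q, hQm, m, hm, rfl⟩,
            p, hp, rfl⟩⟩
        obtain ⟨Lk, hLk, hLm⟩ := Language.mem_kstar.1 hks
        refine Language.mem_mul.2 ⟨(Q ++ m ++ p) ++ ks, ?_, s, hs, ?_⟩
        · refine Language.mem_kstar.2 ⟨(Q ++ m ++ p) :: Lk, by rw [List.flatten_cons, hLk], ?_⟩
          intro Y hY
          rcases List.mem_cons.1 hY with rfl | hY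
          · exact hk
          · exact hLm Y hY
        · rw [← hre]; simp

theorem CutL.par (h : CutL XX Bd T LP RQ) (z : V) (s : List α) (hs : s ∈ SufL T Bd RQ z) :
    ∀ (Lk : List (List α)), (∀ y ∈ Lk, y ∈ KKL T Bd LP RQ) → ∀ (P : List α) (x : V),
      P ∈ LP x → P ++ (Lk.flatten ++ s) ∈ Thr T XX x z := by
  intro Lk
  induction Lk with
  | nil =>
    intro _ P x hP
    obtain ⟨y, hy⟩ := hs
    obtain ⟨Q, hQ, m, ⟨D, h1, h2, h3⟩, rfl⟩ := Language.mem_mul.1 hy
    obtain ⟨g1, g2⟩ := h.sound P Q x y hP hQ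
    refine ⟨(P ++ Q) :: D, ?_, by simp [h2], ?_⟩
    · intro X hX
      rcases List.mem_cons.1 hX with rfl | hX
      · exact g1
      · exact h.bdm X (h1 X hX)
    · show runT T D (T (P ++ Q) x) = z
      rw [g2]; exact h3
  | cons k Lk ih =>
    intro hL P x hP
    obtain ⟨y, u, hk⟩ := hL k (by simp)
    obtain ⟨a, ha, p, hp, rfl⟩ := Language.mem_mul.1 hk
    obtain ⟨Q, hQ, m, ⟨D, h1, h2, h3⟩, rfl⟩ := Language.mem_mul.1 ha
    obtain ⟨E, e1, e2, e3⟩ := ih (fun Y hY => hL Y (by simp [hY])) p u hp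
    obtain ⟨g1, g2⟩ := h.sound P Q x y hP hQ
    refine ⟨(P ++ Q) :: (D ++ E), ?_, by simp [h2, e2], ?_⟩
    · intro X hX
      rcases List.mem_cons.1 hX with rfl | hX
      · exact g1
      · rcases List.mem_append.1 hX with hX | hX
        · exact h.bdm X (h1 X hX)
        · exact e1 X hX
    · show runT T (D ++ E) (T (P ++ Q) x) = z
      rw [runT_append, g2, h3]
      exact e3

theorem CutL.sound_Ex (h : CutL XX Bd T LP RQ) (x z : V) (w : List α)
    (hw : w ∈ ExL T Bd LP RQ x z) : w ∈ Thr T XX x z := by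
  rcases hw with ⟨D, h1, h2, h3⟩ | ⟨y, hy⟩
  · exact ⟨D, fun X hX => h.bdm X (h1 X hX), h2, h3⟩
  · obtain ⟨a, ha, r, hr, rfl⟩ := Language.mem_mul.1 hy
    obtain ⟨m, ⟨D, h1, h2, h3⟩, p, hp, rfl⟩ := Language.mem_mul.1 ha
    obtain ⟨ks, hks, s, hs, rfl⟩ := Language.mem_mul.1 hr
    obtain ⟨Lk, rfl, hLm⟩ := Language.mem_kstar.1 hks
    obtain ⟨E, e1, e2, e3⟩ := h.par z s hs Lk hLm p y hp
    refine ⟨D ++ E, ?_, by simp [h2, e2], ?_⟩
    · intro X hX
      rcases List.mem_append.1 hX with hX | hX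
      · exact h.bdm X (h1 X hX)
      · exact e1 X hX
    · rw [runT_append, h3]
      exact e3

/-- **outer star** -/
theorem CutL.thr_HL [Finite V] (h : CutL XX Bd T LP RQ) (hB : ∀ x y, HL n (Thr T Bd x y))
    (hL : ∀ x, HL n (LP x)) (hR : ∀ x, HL n (RQ x)) (x z : V) : HL (n + 1) (Thr T XX x z) :=
  (ExL_HL (LP := LP) (RQ := RQ) hB hL hR x z).congr fun w =>
    ⟨fun ⟨D, h1, h2, h3⟩ => h2 ▸ h.complete_Ex z D x h1 h3, fun hw => h.sound_Ex x z w hw⟩

/-! ## inner level: promise, look-ahead of one block -/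

/-- promise cut system on words over `Bd` -/
structure CutP (XX Bd : Set (List α)) (T : List α → V → V) (LP RQ : V → Language α) : Prop where
  code : PC XX
  bdm : ∀ X ∈ Bd, X ∈ XX
  sound : ∀ P Q x y, P ∈ LP x → Q ∈ RQ y → ∀ D : List (List α), (∀ X ∈ D, X ∈ Bd) →
    P ++ Q <+: D.flatten → ∃ E : List (List α), (∀ X ∈ E, X ∈ Bd) ∧ E.flatten = P ++ Q ∧
      runT T E x = y
  complete : ∀ X ∈ Bd, ∀ X' ∈ Bd, ∀ x, ∃ P Q, X ++ X' = P ++ Q ∧ P ∈ LP x ∧
    Q ∈ RQ (T X' (T X x))

/-- at most one block -/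
def Sh (T : List α → V → V) (Bd : Set (List α)) (x z : V) : Language α :=
  {w | (w = [] ∧ x = z) ∨ (w ∈ Bd ∧ T w x = z)}

def KKP (LP RQ : V → Language α) : Language α := {w | ∃ x, w ∈ RQ x * LP x}

def SufP (T : List α → V → V) (Bd : Set (List α)) (RQ : V → Language α) (z : V) : Language α :=
  {w | ∃ x, w ∈ RQ x * Sh T Bd x z}

def ExP (T : List α → V → V) (Bd : Set (List α)) (LP RQ : V → Language α) (x z : V) :
    Language α :=
  {w | w ∈ Sh T Bd x z ∨ w ∈ LP x * (KStar.kstar (KKP LP RQ) * SufP T Bd RQ z)}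

theorem ExP_HL [Finite V] {T : List α → V → V} {Bd : Set (List α)}
    {LP RQ : V → Language α} (h : ∀ x y, HL n ({w | w ∈ Bd ∧ T w x = y} : Language α))
    (hL : ∀ x, HL n (LP x)) (hR : ∀ x, HL n (RQ x)) (x z : V) :
    HL (n + 1) (ExP T Bd LP RQ x z) := by
  have hSh : ∀ x z, HL n (Sh T Bd x z) := fun x z =>
    ((HL.one.setOf_and (HL.const (x = z))).setOf_or (h x z)).congr fun w => Iff.rfl
  have hK : HL n (KKP LP RQ) := HL.iUnion fun x => (hR x).mul (hL x)
  have hS : HL n (SufP T Bd RQ z) := HL.iUnion fun x => (hR x).mul (hSh x z)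
  exact ((hSh x z).mono (Nat.le_succ n)).setOf_or
    (((hL x).mono (Nat.le_succ n)).mul (hK.star.mul (hS.mono (Nat.le_succ n))))

/-- cancellation in a prefix code -/
theorem PC.cancel (h : PC XX) : ∀ (D E : List (List α)) (r : List α),
    (∀ X ∈ D, X ∈ XX) → (∀ X ∈ E, X ∈ XX) → D.flatten = E.flatten ++ r →
    ∃ F, D = E ++ F ∧ F.flatten = r := by
  intro D E
  induction E generalizing D with
  | nil => intro r _ _ he; exact ⟨D, rfl, by simpa using he⟩
  | cons Y E ih =>
    intro r hD hE he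
    cases D with
    | nil =>
      have : Y = [] := by
        have := he.symm
        simp only [List.flatten_nil, List.flatten_cons, List.append_assoc,
          List.append_eq_nil_iff] at this
        exact this.1
      exact (h.nil (this ▸ hE Y (by simp))).elim
    | cons X D =>
      rw [List.flatten_cons, List.flatten_cons, List.append_assoc] at he
      have hX := hD X (by simp)
      have hY := hE Y (by simp)
      have hXY : X = Y := by
        rcases List.append_eq_append_iff.1 he with ⟨a, h1, h2⟩ | ⟨a, h1, h2⟩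
        · exact h.pre X hX Y hY ⟨a, h1.symm⟩
        · exact (h.pre Y hY X hX ⟨a, h1.symm⟩).symm
      subst hXY
      have he' := List.append_cancel_left he
      obtain ⟨F, rfl, hF⟩ := ih D r (fun Z hZ => hD Z (by simp [hZ]))
        (fun Z hZ => hE Z (by simp [hZ])) he'
      exact ⟨F, rfl, hF⟩

theorem CutP.complete_Ex (h : CutP XX Bd T LP RQ) (z : V) : ∀ (m : ℕ) (D : List (List α)) (x : V),
    D.length ≤ m → (∀ X ∈ D, X ∈ Bd) → runT T D x = z → D.flatten ∈ ExP T Bd LP RQ x z := by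
  intro m
  induction m with
  | zero =>
    intro D x hm _ hx
    have : D = [] := List.length_eq_zero_iff.1 (Nat.le_zero.1 hm)
    subst this
    exact Or.inl (Or.inl ⟨rfl, hx⟩)
  | succ m ih =>
    intro D x hm hD hx
    match D, hm, hD, hx with
    | [], _, _, hx => exact Or.inl (Or.inl ⟨rfl, hx⟩)
    | [X], _, hD, hx =>
      refine Or.inl (Or.inr ⟨?_, ?_⟩)
      · simpa using hD X (by simp)
      · simpa [runT] using hx
    | X :: X' :: D, hm, hD, hx =>
      have hX := hD X (by simp)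
      have hX' := hD X' (by simp)
      obtain ⟨P, Q, hPQ, hP, hQ⟩ := h.complete X hX X' hX' x
      have ih' := ih D (T X' (T X x)) (by simp at hm; omega)
        (fun Y hY => hD Y (by simp [hY])) hx
      have e : (X :: X' :: D).flatten = P ++ (Q ++ D.flatten) := by
        rw [List.flatten_cons, List.flatten_cons, ← List.append_assoc, hPQ, List.append_assoc]
      rw [e]
      refine Or.inr (Language.mem_mul.2 ⟨P, hP, Q ++ D.flatten, ?_, rfl⟩)
      rcases ih' with h1 | h1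
      · exact Language.mem_mul.2 ⟨[], Language.nil_mem_kstar _, Q ++ D.flatten,
          ⟨_, Language.mem_mul.2 ⟨Q, hQ, D.flatten, h1, rfl⟩⟩, rfl⟩
      · obtain ⟨p, hp, r, hr, hre⟩ := Language.mem_mul.1 h1
        obtain ⟨ks, hks, s, hs, rfl⟩ := Language.mem_mul.1 hr
        obtain ⟨Lk, hLk, hLm⟩ := Language.mem_kstar.1 hks
        refine Language.mem_mul.2 ⟨(Q ++ p) ++ ks, ?_, s, hs, ?_⟩
        · refine Language.mem_kstar.2 ⟨(Q ++ p) :: Lk, by rw [List.flatten_cons, hLk], ?_⟩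
          intro Y hY
          rcases List.mem_cons.1 hY with rfl | hY
          · exact ⟨_, Language.mem_mul.2 ⟨Q, hQ, p, hp, rfl⟩⟩
          · exact hLm Y hY
        · rw [← hre]; simp

theorem CutP.sound_aux (h : CutP XX Bd T LP RQ) (z : V) (s : List α)
    (hs : s ∈ SufP T Bd RQ z) : ∀ (Lk : List (List α)), (∀ y ∈ Lk, y ∈ KKP LP RQ) →
      ∀ (P : List α) (x : V), P ∈ LP x → ∀ D : List (List α), (∀ X ∈ D, X ∈ Bd) →
        D.flatten = P ++ (Lk.flatten ++ s) → runT T D x = z := by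
  intro Lk
  induction Lk with
  | nil =>
    intro _ P x hP D hD he
    obtain ⟨y, hy⟩ := hs
    obtain ⟨Q, hQ, m, hm, rfl⟩ := Language.mem_mul.1 hy
    have he' : D.flatten = (P ++ Q) ++ m := by rw [he]; simp
    obtain ⟨E, e1, e2, e3⟩ := h.sound P Q x y hP hQ D hD ⟨m, he'.symm⟩
    obtain ⟨F, rfl, hF⟩ := PC.cancel h.code D E m (fun X hX => h.bdm X (hD X hX))
      (fun X hX => h.bdm X (e1 X hX)) (by rw [he', e2])
    rw [runT_append, e3]
    have hFB : ∀ X ∈ F, X ∈ Bd := fun X hX => hD X (by simp [hX])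
    rcases hm with ⟨hm, hyz⟩ | ⟨hm, hyz⟩
    · have : F = [] := h.code.unique F [] (fun X hX => h.bdm X (hFB X hX)) (by simp)
        (by rw [hF, hm]; rfl)
      subst this; exact hyz
    · have : F = [m] := h.code.unique F [m] (fun X hX => h.bdm X (hFB X hX))
        (fun X hX => by
          rw [List.mem_singleton.1 hX]; exact h.bdm m hm) (by rw [hF]; simp)
      subst this; exact hyz
  | cons k Lk ih =>
    intro hL P x hP D hD he
    obtain ⟨y, hk⟩ := hL k (by simp)
    obtain ⟨Q, hQ, p, hp, rfl⟩ := Language.mem_mul.1 hk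
    have he' : D.flatten = (P ++ Q) ++ (p ++ (Lk.flatten ++ s)) := by rw [he]; simp
    obtain ⟨E, e1, e2, e3⟩ := h.sound P Q x y hP hQ D hD ⟨_, he'.symm⟩
    obtain ⟨F, rfl, hF⟩ := PC.cancel h.code D E _ (fun X hX => h.bdm X (hD X hX))
      (fun X hX => h.bdm X (e1 X hX)) (by rw [he', e2])
    rw [runT_append, e3]
    exact ih (fun Y hY => hL Y (by simp [hY])) p y hp F (fun X hX => hD X (by simp [hX])) hF

theorem CutP.agree (h : CutP XX Bd T LP RQ) (x z : V) (D : List (List α))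
    (hD : ∀ X ∈ D, X ∈ Bd) : D.flatten ∈ ExP T Bd LP RQ x z ↔ runT T D x = z := by
  constructor
  · rintro ((⟨hw, hxz⟩ | ⟨hw, hxz⟩) | hw)
    · have : D = [] := h.code.unique D [] (fun X hX => h.bdm X (hD X hX)) (by simp) hw
      subst this; exact hxz
    · have : D = [D.flatten] := h.code.unique D [D.flatten] (fun X hX => h.bdm X (hD X hX))
        (fun X hX => by
          rw [List.mem_singleton.1 hX]; exact h.bdm _ hw) (by simp)
      rw [this]; exact hxz
    · obtain ⟨P, hP, r, hr, he⟩ := Language.mem_mul.1 hw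
      obtain ⟨ks, hks, s, hs, rfl⟩ := Language.mem_mul.1 hr
      obtain ⟨Lk, rfl, hLm⟩ := Language.mem_kstar.1 hks
      exact h.sound_aux z s hs Lk hLm P x hP D hD he.symm
  · intro hz
    exact h.complete_Ex z D.length D x le_rfl hD hz

/-- **inner star** -/
theorem CutP.thr_HL [Finite V] (h : CutP XX Bd T LP RQ) (hBd : HL n (lg Bd))
    (hB : ∀ x y, HL n ({w | w ∈ Bd ∧ T w x = y} : Language α))
    (hL : ∀ x, HL n (LP x)) (hR : ∀ x, HL n (RQ x)) (x z : V) : HL (n + 1) (Thr T Bd x z) := by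
  refine (hBd.star.inf (ExP_HL hB hL hR x z)).congr fun w => ?_
  constructor
  · rintro ⟨D, h1, rfl, h3⟩
    exact ⟨flatten_mem_star.2 ⟨D, h1, rfl⟩, (h.agree x z D h1).2 h3⟩
  · rintro ⟨hw, h2⟩
    obtain ⟨D, hD, rfl⟩ := flatten_mem_star.1 hw
    exact ⟨D, hD, rfl, (h.agree x z D hD).1 h2⟩

/-! ## top -/

/-- every word is a product of blocks and a word without a block as a prefix -/
theorem PC.cover (h : PC XX) : ∀ (m : ℕ) (w : List α), w.length ≤ m →
    ∃ (D : List (List α)) (E : List α), (∀ X ∈ D, X ∈ XX) ∧ w = D.flatten ++ E ∧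
      ∀ p, p <+: E → p ∉ XX := by
  intro m
  induction m with
  | zero =>
    intro w hw
    have : w = [] := List.length_eq_zero_iff.1 (Nat.le_zero.1 hw)
    subst this
    refine ⟨[], [], by simp, rfl, ?_⟩
    intro p hp hpX
    have : p = [] := List.prefix_nil.1 hp
    exact h.nil (this ▸ hpX)
  | succ m ih =>
    intro w hw
    by_cases hx : ∃ p, p <+: w ∧ p ∈ XX
    · obtain ⟨p, ⟨r, rfl⟩, hp⟩ := hx
      have hp0 : p ≠ [] := fun e => h.nil (e ▸ hp)
      have hpl := List.length_pos_iff.2 hp0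
      rw [List.length_append] at hw
      obtain ⟨D, E, h1, rfl, h3⟩ := ih r (by omega)
      refine ⟨p :: D, E, ?_, by simp, h3⟩
      intro X hX
      rcases List.mem_cons.1 hX with rfl | hX
      · exact hp
      · exact h1 X hX
    · push Not at hx
      exact ⟨[], w, by simp, rfl, hx⟩

/-- **TOP**: two schemes over a prefix code give height three on all words. -/
theorem top {S : Type*} [Monoid S] [Finite S] [AddCommGroup V] [Finite V]
    {act : V → S → V} {ph : List α → S}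
    (h1 : ∀ x, act x 1 = x) (hm : ∀ x s t, act x (s * t) = act (act x s) t)
    (ha : ∀ x y s, act (x + y) s = act x s + act y s)
    (hf : ∀ s t, (∀ x, act x s = act x t) → s = t)
    (p1 : ph [] = 1) (pm : ∀ u v, ph (u ++ v) = ph u * ph v)
    (nu : List α → V) (XX Bad : Set (List α)) (LP1 RQ1 LP2 RQ2 : V → Language α)
    (c1 : CutL XX Bad (aff act ph nu) LP1 RQ1) (c2 : CutP XX Bad (aff act ph nu) LP2 RQ2)
    (hBad : HL 1 (lg Bad))
    (hB : ∀ x y, HL 1 ({w | w ∈ Bad ∧ aff act ph nu w x = y} : Language α))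
    (hL2 : ∀ x, HL 1 (LP2 x)) (hR2 : ∀ x, HL 1 (RQ2 x))
    (hL1 : ∀ x, HL 2 (LP1 x)) (hR1 : ∀ x, HL 2 (RQ1 x))
    (hE : ∀ t, HL 3 ({E | (∀ p, p <+: E → p ∉ XX) ∧ ph E = t} : Language α)) (s : S) :
    HL 3 ({w | ph w = s} : Language α) := by
  have thr2 : ∀ x y, HL 2 (Thr (aff act ph nu) Bad x y) :=
    fun x y => c2.thr_HL hBad hB hL2 hR2 x y
  have thr3 : ∀ x y, HL 3 (Thr (aff act ph nu) XX x y) :=
    fun x y => c1.thr_HL thr2 hL1 hR1 x y
  have hF : ∀ x z (D : List (List α)), (∀ X ∈ D, X ∈ XX) →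
      (D.flatten ∈ Thr (aff act ph nu) XX x z ↔ runT (aff act ph nu) D x = z) := by
    intro x z D hD
    constructor
    · rintro ⟨E, e1, e2, e3⟩
      have : E = D := c1.code.unique E D e1 hD e2
      subst this; exact e3
    · intro hz; exact ⟨D, hD, rfl, hz⟩
  -- words over `XX` with a given value
  have fib : ∀ t : S, HL 3 ({w | (∃ D : List (List α), (∀ X ∈ D, X ∈ XX) ∧ D.flatten = w) ∧
      ph w = t} : Language α) := by
    intro t
    have hh : HL 3 ({w | ∀ x : V, w ∈ ({w | ∃ a, w ∈ Thr (aff act ph nu) XX 0 a ⊓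
          Thr (aff act ph nu) XX x (act x t + a)} : Language α)} : Language α) :=
      HL.iInter fun x => HL.iUnion fun a => (thr3 _ _).inf (thr3 _ _)
    refine hh.congr fun w => ?_
    constructor
    · rintro ⟨⟨D, hD, rfl⟩, rfl⟩ x
      obtain ⟨a, h0, h2⟩ := (fibre_iff (nu := nu) h1 hm ha p1 pm (Dm := XX)
        (F := fun x z => Thr (aff act ph nu) XX x z) hF D hD x (act x (ph D.flatten))).1 rfl
      exact ⟨a, h0, h2⟩
    · intro hall
      obtain ⟨a, ⟨D, hD, rfl, -⟩, -⟩ := hall 0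
      refine ⟨⟨D, hD, rfl⟩, hf _ _ fun x => ?_⟩
      obtain ⟨a, h0, h2⟩ := hall x
      exact (fibre_iff (nu := nu) h1 hm ha p1 pm (Dm := XX)
        (F := fun x z => Thr (aff act ph nu) XX x z) hF D hD x (act x t)).2 ⟨a, h0, h2⟩
  have hall : HL 3 ({w | ∃ t : S, w ∈ ({w | ∃ t' : S, w ∈ ({_w | t * t' = s} : Language α) ⊓
      (lg {w | (∃ D : List (List α), (∀ X ∈ D, X ∈ XX) ∧ D.flatten = w) ∧ ph w = t} *
        lg {E | (∀ p, p <+: E → p ∉ XX) ∧ ph E = t'})} : Language α)} : Language α) :=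
    HL.iUnion fun t => HL.iUnion fun t' => (HL.const _).inf ((fib t).mul (hE t'))
  refine hall.congr fun w => ?_
  constructor
  · rintro rfl
    obtain ⟨D, E, hD, rfl, hE'⟩ := PC.cover c1.code w.length w le_rfl
    exact ⟨ph D.flatten, ph E, (pm _ _).symm,
      Language.mem_mul.2 ⟨D.flatten, ⟨⟨D, hD, rfl⟩, rfl⟩, E, ⟨hE', rfl⟩, rfl⟩⟩
  · rintro ⟨t, t', ht, hw⟩
    obtain ⟨M, ⟨-, hM⟩, E, ⟨-, hE'⟩, rfl⟩ := Language.mem_mul.1 hw
    show ph (M ++ E) = s
    rw [pm, hM, hE']; exact ht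

end Crest.Agent.R320.Top_722
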