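import Crest.Agent.R320.Hk2_851

/-!
# Row 320: TOP in block-code form (163's literal #13363, plus act_one) (helper750)
-/

set_option autoImplicit false

namespace Crest.Agent.R320.Top_750

open Crest.RegLang Crest.Agent.R320.Hk_851

universe u v w'

structure Dat (α : Type u) (V : Type v) where
  XX : Set (List α)
  T : V → List α → V
  LP1 : List α → V → Prop
  LP2 : List α → V → Prop
  R1 : List α → Option V
  R2 : List α → Option V

variable {α : Type u} {V : Type v} (A : Dat α V)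

def Cut1 (X : List α) (v : V) : Prop := ∃ P Q b, X = P ++ Q ∧ A.LP1 P v ∧ A.R1 Q = some b

structure Ok : Prop where
  hnil : [] ∉ A.XX
  hPC : ∀ X ∈ A.XX, ∀ Y, X ++ Y ∈ A.XX → Y = []
  hR1 : ∀ Q b, A.R1 Q = some b → Q ≠ []
  s1 : ∀ P v Q b, A.LP1 P v → A.R1 Q = some b → P ++ Q ∈ A.XX ∧ A.T v (P ++ Q) = b
  s2 : ∀ P v Q b, A.LP2 P v → A.R2 Q = some b →
    (∀ X ∈ A.XX, X <+: P ++ Q → ¬ Cut1 A X v) →
    ∃ Q1 X2, Q = Q1 ++ X2 ∧ P ++ Q1 ∈ A.XX ∧ X2 ∈ A.XX ∧ A.T (A.T v (P ++ Q1)) X2 = b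
  cc : ∀ X ∈ A.XX, ∀ X2 ∈ A.XX, ∀ v, Cut1 A X v ∨
    (∃ P Q b, X ++ X2 = P ++ Q ∧ A.LP2 P v ∧ A.R2 Q = some b)

variable {A}

inductive BT (A : Dat α V) : List α → V → List α → V → Prop
  | refl (w v) : BT A w v w v
  | step {X w r : List α} {v v' : V} : X ∈ A.XX → BT A w (A.T v X) r v' → BT A (X ++ w) v r v'

inductive LT (A : Dat α V) : List α → V → List α → V → Prop
  | refl (w v) : LT A w v w v
  | step {X w r : List α} {v v' : V} : X ∈ A.XX → ¬ Cut1 A X v → LT A w (A.T v X) r v' →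
      LT A (X ++ w) v r v'

def Live (A : Dat α V) (w : List α) (v : V) : Prop :=
  ∀ r v', BT A w v r v' → ∀ X ∈ A.XX, X <+: r → ¬ Cut1 A X v'

def NP (A : Dat α V) (w : List α) : Prop := ∀ X ∈ A.XX, ¬ X <+: w

theorem Ok.uniq (h : Ok A) {X X' w w1 : List α} (hX : X ∈ A.XX) (hX' : X' ∈ A.XX)
    (e : X ++ w = X' ++ w1) : X = X' ∧ w = w1 := by
  rcases List.append_eq_append_iff.1 e with ⟨Z, h1, h2⟩ | ⟨Z, h1, h2⟩
  · have := h.hPC X hX Z (h1 ▸ hX')
    subst this; simp at h1 h2; exact ⟨h1.symm, h2⟩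
  · have := h.hPC X' hX' Z (h1 ▸ hX)
    subst this; simp at h1 h2; exact ⟨h1, h2.symm⟩

theorem BT.trans {w r q : List α} {v v' v'' : V} (h : BT A w v r v') (h' : BT A r v' q v'') :
    BT A w v q v'' := by
  induction h with
  | refl => exact h'
  | step h _ ih => exact BT.step h (ih h')

theorem BT.ext {w r : List α} {v v' : V} (h : BT A w v r v') (Z : List α) :
    BT A (w ++ Z) v (r ++ Z) v' := by
  induction h with
  | refl => exact BT.refl _ _
  | step h _ ih => rw [List.append_assoc]; exact BT.step h ih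

theorem LT.bt {w r : List α} {v v' : V} (h : LT A w v r v') : BT A w v r v' := by
  induction h with
  | refl => exact BT.refl _ _
  | step h _ _ ih => exact BT.step h ih

theorem Live.bt {w r : List α} {v v' : V} (h : Live A w v) (h' : BT A w v r v') : Live A r v' :=
  fun q v'' hq => h q v'' (h'.trans hq)

theorem Live.head {X w : List α} {v : V} (h : Live A (X ++ w) v) (hX : X ∈ A.XX) :
    ¬ Cut1 A X v := h _ _ (BT.refl _ _) X hX (List.prefix_append _ _)

theorem NP.live {w : List α} {v : V} (hn : NP A w) : Live A w v := by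
  intro r v' hr X hX hp
  cases hr with
  | refl => exact (hn X hX hp).elim
  | step h _ => exact (hn _ h (List.prefix_append _ _)).elim

theorem Ok.live_step (h : Ok A) {X w : List α} {v : V} (hX : X ∈ A.XX) (h1 : ¬ Cut1 A X v)
    (h2 : Live A w (A.T v X)) : Live A (X ++ w) v := by
  intro r v' hr X' hX' hp
  generalize hw : X ++ w = u at hr
  cases hr with
  | refl =>
    subst hw
    obtain ⟨Z, hZ⟩ := hp
    obtain ⟨rfl, _⟩ := h.uniq hX' hX hZ
    exact h1
  | step h3 h4 =>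
    obtain ⟨rfl, rfl⟩ := h.uniq hX h3 hw
    exact h2 r v' h4 X' hX' hp

theorem Live.lt {w r : List α} {v v' : V} (h' : BT A w v r v') (h : Live A w v) :
    LT A w v r v' := by
  induction h' with
  | refl => exact LT.refl _ _
  | step h1 h2 ih => exact LT.step h1 (h.head h1) (ih (h.bt (BT.step h1 (BT.refl _ _))))

theorem first_fail {w r : List α} {v v' : V} (h : BT A w v r v')
    (hr : ∃ X ∈ A.XX, X <+: r ∧ Cut1 A X v') :
    ∃ r' v'', LT A w v r' v'' ∧ ∃ X ∈ A.XX, X <+: r' ∧ Cut1 A X v'' := by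
  induction h with
  | refl => exact ⟨_, _, LT.refl _ _, hr⟩
  | @step X w r v v' h1 _ ih =>
    by_cases hc : Cut1 A X v
    · exact ⟨_, _, LT.refl _ _, X, h1, List.prefix_append _ _, hc⟩
    · obtain ⟨r', v'', h3, h4⟩ := ih hr
      exact ⟨r', v'', LT.step h1 hc h3, h4⟩

/-! ### languages -/

def P2 (A : Dat α V) (v : V) : Language α := {P | A.LP2 P v}
def Q2 (A : Dat α V) (b : V) : Language α := {Q | A.R2 Q = some b}
def K2 (A : Dat α V) : Language α := {k | ∃ b, k ∈ (Q2 A b * P2 A b : Language α)}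
def A2 (A : Dat α V) (v v' : V) : Language α :=
  {w | (w = [] ∧ v = v') ∨ w ∈ (P2 A v * (KStar.kstar (K2 A) * Q2 A v') : Language α)}
def E2 (A : Dat α V) (v v' : V) : Language α :=
  {w | (w = [] ∧ v = v') ∨ (w ∈ A.XX ∧ A.T v w = v')}

theorem mem3 {A B D : Language α} {w : List α} :
    w ∈ A * (B * D) ↔ ∃ P k Q, w = P ++ (k ++ Q) ∧ P ∈ A ∧ k ∈ B ∧ Q ∈ D := by
  constructor
  · intro h
    obtain ⟨P, hP, r, hr, rfl⟩ := Language.mem_mul.1 h
    obtain ⟨k, hk, Q, hQ, rfl⟩ := Language.mem_mul.1 hr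
    exact ⟨P, k, Q, rfl, hP, hk, hQ⟩
  · rintro ⟨P, k, Q, rfl, hP, hk, hQ⟩
    exact Language.mem_mul.2 ⟨P, hP, _, Language.mem_mul.2 ⟨k, hk, Q, hQ, rfl⟩, rfl⟩

theorem Ok.st2 (h : Ok A) {P Q r : List α} {v b : V} (hP : A.LP2 P v) (hQ : A.R2 Q = some b)
    (hL : Live A (P ++ (Q ++ r)) v) : BT A (P ++ (Q ++ r)) v r b := by
  obtain ⟨Q1, X2, rfl, h1, h2, h3⟩ := h.s2 P v Q b hP hQ (by
    intro X hX hp
    exact hL _ _ (BT.refl _ _) X hX (hp.trans (by
      rw [← List.append_assoc]; exact List.prefix_append _ _)))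
  have e : P ++ (Q1 ++ X2 ++ r) = (P ++ Q1) ++ (X2 ++ r) := by simp
  rw [e]
  refine BT.step h1 (BT.step h2 ?_)
  rw [h3]; exact BT.refl _ _

theorem Ok.path (h : Ok A) : ∀ (ks : List (List α)) (_ : ∀ k ∈ ks, k ∈ K2 A) (P Q r : List α)
    (v b : V), A.LP2 P v → A.R2 Q = some b → Live A (P ++ (ks.flatten ++ (Q ++ r))) v →
    BT A (P ++ (ks.flatten ++ (Q ++ r))) v r b := by
  intro ks
  induction ks with
  | nil => intro _ P Q r v b hP hQ hL; exact h.st2 hP hQ (by simpa using hL)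
  | cons k ks ih =>
    intro hks P Q r v b hP hQ hL
    obtain ⟨b', hk⟩ := hks k (by simp)
    obtain ⟨Q', hQ', P', hP', rfl⟩ := Language.mem_mul.1 hk
    have e : P ++ (((Q' ++ P') :: ks).flatten ++ (Q ++ r)) =
      P ++ (Q' ++ (P' ++ (ks.flatten ++ (Q ++ r)))) := by simp
    rw [e] at hL ⊢
    have h1 := h.st2 hP hQ' hL
    exact h1.trans (ih (fun k' hk' => hks k' (by simp [hk'])) P' Q r b' b hP' hQ (hL.bt h1))

theorem Ok.a2 (h : Ok A) {p r : List α} {v v' : V} (hp : p ∈ A2 A v v')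
    (hL : Live A (p ++ r) v) : BT A (p ++ r) v r v' := by
  rcases hp with ⟨rfl, rfl⟩ | hp
  · exact BT.refl _ _
  · obtain ⟨P, k, Q, rfl, hP, hk, hQ⟩ := mem3.1 hp
    obtain ⟨ks, rfl, hks⟩ := Language.mem_kstar.1 hk
    have e : P ++ (ks.flatten ++ Q) ++ r = P ++ (ks.flatten ++ (Q ++ r)) := by simp
    rw [e] at hL ⊢
    exact h.path ks hks P Q r v v' hP hQ hL

theorem e2_bt {x r : List α} {v v' : V} (hx : x ∈ E2 A v v') : BT A (x ++ r) v r v' := by
  rcases hx with ⟨rfl, rfl⟩ | ⟨h1, rfl⟩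
  · exact BT.refl _ _
  · exact BT.step h1 (BT.refl _ _)

theorem Ok.comp (h : Ok A) : ∀ (n : ℕ) (w r : List α) (v v' : V), w.length ≤ n → LT A w v r v' →
    ∃ p x v1, w = p ++ (x ++ r) ∧ p ∈ A2 A v v1 ∧ x ∈ E2 A v1 v' := by
  intro n
  induction n with
  | zero =>
    intro w r v v' hw hl
    cases hl with
    | refl => exact ⟨[], [], v, by simp, Or.inl ⟨rfl, rfl⟩, Or.inl ⟨rfl, rfl⟩⟩
    | step h1 _ _ =>
      rw [List.length_append] at hw
      have : [] ∈ A.XX := by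
        have hh : ∀ X : List α, X.length = 0 → X ∈ A.XX → [] ∈ A.XX := by
          intro X h0 hX; rwa [List.length_eq_zero_iff.1 h0] at hX
        exact hh _ (by omega) h1
      exact (h.hnil this).elim
  | succ n ih =>
    intro w r v v' hw hl
    cases hl with
    | refl => exact ⟨[], [], v, by simp, Or.inl ⟨rfl, rfl⟩, Or.inl ⟨rfl, rfl⟩⟩
    | @step X w1 _ _ _ hX hc hl =>
      cases hl with
      | refl => exact ⟨[], X, v, by simp, Or.inl ⟨rfl, rfl⟩, Or.inr ⟨hX, rfl⟩⟩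
      | @step X2 w2 _ _ _ hX2 hc2 hl =>
        have hXl : 0 < X.length := by
          rcases Nat.eq_zero_or_pos X.length with h0 | h0
          · exact (h.hnil (by rwa [List.length_eq_zero_iff.1 h0] at hX)).elim
          · exact h0
        rcases h.cc X hX X2 hX2 v with h1 | ⟨P, Q, b, e1, hP, hQ⟩
        · exact (hc h1).elim
        · obtain ⟨Q1, X2', rfl, e2, e3, e4⟩ := h.s2 P v Q b hP hQ (by
            rw [← e1]
            rintro X' hX' ⟨Z, hZ⟩
            obtain ⟨rfl, _⟩ := h.uniq hX' hX hZ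
            exact hc)
          rw [← List.append_assoc] at e1
          obtain ⟨e5, e6⟩ := h.uniq hX e2 e1
          subst e6
          rw [← e5] at e4
          obtain ⟨p', x, v1, e7, e8, e9⟩ := ih w2 r (A.T (A.T v X) X2) v'
            (by simp only [List.length_append] at hw; omega) hl
          rw [e4] at e8
          refine ⟨X ++ X2 ++ p', x, v1, by rw [e7]; simp, Or.inr ?_, e9⟩
          have e1' : X ++ X2 ++ p' = P ++ (Q1 ++ X2 ++ p') := by rw [e5]; simp
          rw [e1']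
          rcases e8 with ⟨rfl, rfl⟩ | e8
          · exact mem3.2 ⟨P, [], Q1 ++ X2, by simp, hP, Language.nil_mem_kstar _, hQ⟩
          · obtain ⟨P1, k1, Q3, rfl, hP1, hk1, hQ3⟩ := mem3.1 e8
            obtain ⟨ks, rfl, hks⟩ := Language.mem_kstar.1 hk1
            refine mem3.2 ⟨P, ((Q1 ++ X2 ++ P1) :: ks).flatten, Q3, by simp, hP, ?_, hQ3⟩
            refine Language.mem_kstar.2 ⟨_, rfl, ?_⟩
            intro k hk
            rcases List.mem_cons.1 hk with rfl | hk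
            · exact ⟨b, Language.mem_mul.2 ⟨_, hQ, P1, hP1, rfl⟩⟩
            · exact hks k hk

/-- blocks cut by scheme 1 -/
def CC (A : Dat α V) (v : V) : Language α := {X | Cut1 A X v}

theorem Ok.live_iff (h : Ok A) (w : List α) (v : V) : Live A w v ↔
    ¬ ∃ v1 v', w ∈ (A2 A v v1 * (E2 A v1 v' * (CC A v' * (⊤ : Language α))) : Language α) := by
  constructor
  · rintro hL ⟨v1, v', hw⟩
    obtain ⟨p, x, q, rfl, hp, hx, hq⟩ := mem3.1 hw
    obtain ⟨X, hX, Z, _, rfl⟩ := Language.mem_mul.1 hq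
    have h1 := h.a2 hp hL
    have h2 := h1.trans (e2_bt (r := X ++ Z) hx)
    obtain ⟨P, Q, b, rfl, hP, hQ⟩ := hX
    exact hL _ _ h2 (P ++ Q) (h.s1 P v' Q b hP hQ).1 (List.prefix_append _ _)
      ⟨P, Q, b, rfl, hP, hQ⟩
  · intro hn r v' hr X hX hp hc
    obtain ⟨r', v'', h1, X', hX', ⟨Z, rfl⟩, hc'⟩ := first_fail hr ⟨X, hX, hp, hc⟩
    obtain ⟨p, x, v1, e1, e2, e3⟩ := h.comp w.length w _ v v'' le_rfl h1
    exact hn ⟨v1, v'', mem3.2 ⟨p, x, X' ++ Z, e1, e2, e3,
      Language.mem_mul.2 ⟨X', hc', Z, trivial, rfl⟩⟩⟩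

def RunT (A : Dat α V) (Tgt : List α → V → Prop) (w : List α) (v : V) : Prop :=
  ∃ r v', BT A w v r v' ∧ Tgt r v'

def WW (A : Dat α V) (Tgt : List α → V → Prop) (v : V) : Language α :=
  {w | Live A w v ∧ RunT A Tgt w v}

def TL (Tgt : List α → V → Prop) (v : V) : Language α := {r | Tgt r v}
def Q1L (A : Dat α V) (b : V) : Language α := {Q | A.R1 Q = some b}

theorem Ok.ww_iff (h : Ok A) (Tgt : List α → V → Prop) (w : List α) (v : V) : w ∈ WW A Tgt v ↔
    Live A w v ∧ ∃ v1 v', w ∈ (A2 A v v1 * (E2 A v1 v' * TL Tgt v') : Language α) := by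
  constructor
  · rintro ⟨hL, r, v', h1, h2⟩
    refine ⟨hL, ?_⟩
    obtain ⟨p, x, v1, e1, e2, e3⟩ := h.comp w.length w _ v v' le_rfl (hL.lt h1)
    exact ⟨v1, v', mem3.2 ⟨p, x, r, e1, e2, e3, h2⟩⟩
  · rintro ⟨hL, v1, v', hw⟩
    refine ⟨hL, ?_⟩
    obtain ⟨p, x, r, rfl, hp, hx, hr⟩ := mem3.1 hw
    exact ⟨r, v', (h.a2 hp hL).trans (e2_bt hx), hr⟩

/-- target of scheme 1 -/
def T1 (A : Dat α V) (P : List α) (v : V) : Prop := A.LP1 P v ∧ ∃ Q b, A.R1 Q = some b

theorem Ok.T1_np (h : Ok A) {P : List α} {v : V} (hP : T1 A P v) : NP A P := by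
  obtain ⟨h1, Q, b, h2⟩ := hP
  rintro X hX ⟨Z, rfl⟩
  have h3 := (h.s1 _ v Q b h1 h2).1
  rw [List.append_assoc] at h3
  have := h.hPC X hX _ h3
  exact h.hR1 Q b h2 (List.append_eq_nil_iff.1 this).2

def GG (A : Dat α V) (Tgt : List α → V → Prop) : Language α :=
  {k | ∃ b, k ∈ (Q1L A b * WW A Tgt b : Language α)}

theorem Ok.join (h : Ok A) {P Q r : List α} {v b : V} (hP : RunT A (T1 A) P v)
    (hQ : A.R1 Q = some b) : BT A (P ++ (Q ++ r)) v r b := by
  obtain ⟨r0, v0, h1, h2, _⟩ := hP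
  obtain ⟨h3, h4⟩ := h.s1 _ _ _ _ h2 hQ
  refine (h1.ext (Q ++ r)).trans ?_
  rw [← List.append_assoc]
  refine BT.step h3 ?_
  rw [h4]; exact BT.refl _ _

theorem RunT.trans {Tgt : List α → V → Prop} {w r : List α} {v v' : V} (h : BT A w v r v')
    (h' : RunT A Tgt r v') : RunT A Tgt w v := by
  obtain ⟨q, v'', h1, h2⟩ := h'
  exact ⟨q, v'', h.trans h1, h2⟩

theorem Ok.join_star (h : Ok A) : ∀ (ks : List (List α)) (_ : ∀ k ∈ ks, k ∈ GG A (T1 A))
    (P : List α) (v : V), RunT A (T1 A) P v → RunT A (T1 A) (P ++ ks.flatten) v := by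
  intro ks
  induction ks with
  | nil => intro _ P v h; simpa using h
  | cons k ks ih =>
    intro hks P v hP
    obtain ⟨b, hk⟩ := hks k (by simp)
    obtain ⟨Q, hQ, w, hw, rfl⟩ := Language.mem_mul.1 hk
    have h4 : RunT A (T1 A) (P ++ (Q ++ w)) v := RunT.trans (h.join hP hQ) hw.2
    have := ih (fun k' hk' => hks k' (by simp [hk'])) (P ++ (Q ++ w)) v h4
    simpa using this

theorem Ok.split (h : Ok A) {Tgt : List α → V → Prop} (hT : ∀ {r v}, Tgt r v → NP A r) :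
    ∀ (n : ℕ) (w : List α) (v : V), w.length ≤ n → RunT A Tgt w v → Live A w v ∨
      ∃ (P : List α) (ks : List (List α)) (g : List α), w = P ++ (ks.flatten ++ g) ∧
        P ∈ WW A (T1 A) v ∧ (∀ k ∈ ks, k ∈ GG A (T1 A)) ∧ g ∈ GG A Tgt := by
  intro n
  induction n with
  | zero =>
    intro w v hw _
    left
    refine NP.live ?_
    rintro X hX ⟨Z, rfl⟩
    rw [List.length_append] at hw
    exact h.hnil (by rwa [List.length_eq_zero_iff.1 (by omega : X.length = 0)] at hX)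
  | succ n ih =>
    intro w v hw hr
    by_cases hn : NP A w
    · exact Or.inl hn.live
    have hn' : ∃ X ∈ A.XX, X <+: w := by
      by_contra hc; exact hn fun X hX hp => hc ⟨X, hX, hp⟩
    obtain ⟨X, hX, w1, rfl⟩ := hn'
    have hXl : 0 < X.length := by
      rcases Nat.eq_zero_or_pos X.length with h0 | h0
      · exact (h.hnil (by rwa [List.length_eq_zero_iff.1 h0] at hX)).elim
      · exact h0
    rw [List.length_append] at hw
    have hr1 : RunT A Tgt w1 (A.T v X) := by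
      obtain ⟨r, v', h1, h2⟩ := hr
      generalize hu : X ++ w1 = u at h1
      cases h1 with
      | refl => exact (hT h2 X hX (hu ▸ List.prefix_append _ _)).elim
      | step h3 h4 =>
        obtain ⟨rfl, rfl⟩ := h.uniq hX h3 hu
        exact ⟨r, v', h4, h2⟩
    by_cases hc : Cut1 A X v
    · right
      obtain ⟨P, Q, b, rfl, hP, hQ⟩ := hc
      have hb := (h.s1 P v Q b hP hQ).2
      rw [hb] at hr1
      have hT1 : T1 A P v := ⟨hP, Q, b, hQ⟩
      have hPW : P ∈ WW A (T1 A) v := ⟨(h.T1_np hT1).live, P, v, BT.refl _ _, hT1⟩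
      rcases ih w1 b (by omega) hr1 with h1 | ⟨P1, ks, g, rfl, h2, h3, h4⟩
      · exact ⟨P, [], Q ++ w1, by simp, hPW, by simp, b,
          Language.mem_mul.2 ⟨Q, hQ, w1, ⟨h1, hr1⟩, rfl⟩⟩
      · refine ⟨P, (Q ++ P1) :: ks, g, by simp, hPW, ?_, h4⟩
        intro k hk
        rcases List.mem_cons.1 hk with rfl | hk
        · exact ⟨b, Language.mem_mul.2 ⟨Q, hQ, P1, h2, rfl⟩⟩
        · exact h3 k hk
    · rcases ih w1 _ (by omega) hr1 with h1 | ⟨P1, ks, g, rfl, h2, h3, h4⟩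
      · exact Or.inl (h.live_step hX hc h1)
      · right
        refine ⟨X ++ P1, ks, g, by simp, ⟨h.live_step hX hc h2.1, ?_⟩, h3, h4⟩
        exact RunT.trans (BT.step hX (BT.refl _ _)) h2.2

theorem Ok.top_iff (h : Ok A) {Tgt : List α → V → Prop} (hT : ∀ {r v}, Tgt r v → NP A r)
    (w : List α) (v : V) : RunT A Tgt w v ↔ w ∈ WW A Tgt v ∨
      w ∈ (WW A (T1 A) v * (KStar.kstar (GG A (T1 A)) * GG A Tgt) : Language α) := by
  constructor
  · intro hr
    rcases h.split hT w.length w v le_rfl hr with h1 | ⟨P, ks, g, e1, e2, e3, e4⟩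
    · exact Or.inl ⟨h1, hr⟩
    · exact Or.inr (mem3.2 ⟨P, _, g, e1, e2, Language.mem_kstar.2 ⟨ks, rfl, e3⟩, e4⟩)
  · rintro (hr | hr)
    · exact hr.2
    · obtain ⟨P, k, g, rfl, hP, hk, b, hg⟩ := mem3.1 hr
      obtain ⟨ks, rfl, hks⟩ := Language.mem_kstar.1 hk
      obtain ⟨Q, hQ, w, hw, rfl⟩ := Language.mem_mul.1 hg
      have h4 := h.join_star ks hks P v hP.2
      rw [← List.append_assoc]
      exact RunT.trans (h.join h4 hQ) hw.2

/-! ### Heights -/

variable {j : ℕ}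

structure HLs (A : Dat α V) (j : ℕ) : Prop where
  l2 : ∀ v, HL j (P2 A v)
  q2 : ∀ b, HL j (Q2 A b)
  l1 : ∀ v, HL j ({P | A.LP1 P v} : Language α)
  q1 : ∀ b, HL j (Q1L A b)
  xt : ∀ v v', HL j ({X | X ∈ A.XX ∧ A.T v X = v'} : Language α)

theorem HL.mulc {k : ℕ} {L M : Language α} (hL : HL k L) (hM : HL k M) : HL k (L * M) := hL.mul hM

theorem HLs.hK2 [Finite V] (h : HLs A j) : HL j (K2 A) :=
  HL.iUnion fun b => (h.q2 b).mul (h.l2 b)

theorem HLs.hA2 [Finite V] (h : HLs A j) (v v' : V) : HL (j + 1) (A2 A v v') := by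
  have h1 : HL (j + 1) ({w | (w = [] ∧ v = v')} : Language α) :=
    ((HL.word ([] : List α)).setOf_and (HL.const (v = v')))
  exact h1.setOf_or (((h.l2 v).mono (by omega)).mul (h.hK2.star.mul ((h.q2 v').mono (by omega))))

theorem HLs.hE2 (h : HLs A j) (v v' : V) : HL (j + 1) (E2 A v v') := by
  have h1 : HL (j + 1) ({w | (w = [] ∧ v = v')} : Language α) :=
    ((HL.word ([] : List α)).setOf_and (HL.const (v = v')))
  exact h1.setOf_or ((h.xt v v').mono (by omega))

theorem HLs.hCC [Finite V] (hA : Ok A) (h : HLs A j) (v : V) : HL (j + 1) (CC A v) := by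
  have h1 : HL j ({X | ∃ b, X ∈ (TL A.LP1 v * Q1L A b : Language α)} : Language α) :=
    HL.iUnion fun b => HL.mul (h.l1 v) (h.q1 b)
  refine (h1.mono (by omega)).congr fun X => ?_
  constructor
  · rintro ⟨P, Q, b, rfl, hP, hQ⟩
    exact ⟨b, Language.mem_mul.2 ⟨P, hP, Q, hQ, rfl⟩⟩
  · rintro ⟨b, hX⟩
    obtain ⟨P, hP, Q, hQ, rfl⟩ := Language.mem_mul.1 hX
    exact ⟨P, Q, b, rfl, hP, hQ⟩

theorem HLs.live [Finite V] (hA : Ok A) (h : HLs A j) (v : V) :
    HL (j + 1) ({w | Live A w v} : Language α) := by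
  have h1 : HL (j + 1) ({w | ∃ v1, w ∈ ({w | ∃ v', w ∈ (A2 A v v1 * (E2 A v1 v' *
      (CC A v' * (⊤ : Language α))) : Language α)} : Language α)} : Language α) :=
    HL.iUnion fun v1 => HL.iUnion fun v' =>
      (h.hA2 v v1).mul ((h.hE2 v1 v').mul ((h.hCC hA v').mul HL.top))
  exact h1.setOf_not.congr fun w => hA.live_iff w v

theorem HLs.ww [Finite V] (hA : Ok A) (h : HLs A j) {Tgt : List α → V → Prop}
    (hT : ∀ v, HL (j + 1) (TL Tgt v)) (v : V) : HL (j + 1) (WW A Tgt v) := by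
  have h1 : HL (j + 1) ({w | ∃ v1, w ∈ ({w | ∃ v', w ∈ (A2 A v v1 * (E2 A v1 v' *
      TL Tgt v') : Language α)} : Language α)} : Language α) :=
    HL.iUnion fun v1 => HL.iUnion fun v' => (h.hA2 v v1).mul ((h.hE2 v1 v').mul (hT v'))
  exact ((h.live hA v).setOf_and h1).congr fun w => hA.ww_iff Tgt w v

theorem HLs.gg [Finite V] (hA : Ok A) (h : HLs A j) {Tgt : List α → V → Prop}
    (hT : ∀ v, HL (j + 1) (TL Tgt v)) : HL (j + 1) (GG A Tgt) :=
  HL.iUnion fun b => ((h.q1 b).mono (by omega)).mul (h.ww hA hT b)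

theorem HLs.run [Finite V] (hA : Ok A) (h : HLs A j) {Tgt : List α → V → Prop}
    (hN : ∀ {r v}, Tgt r v → NP A r) (hT : ∀ v, HL (j + 1) (TL Tgt v)) (v : V) :
    HL (j + 2) ({w | RunT A Tgt w v} : Language α) := by
  have hT1 : ∀ v, HL (j + 1) (TL (T1 A) v) := fun v =>
    (((h.l1 v).mono (by omega : j ≤ j + 1)).setOf_and (HL.const (∃ Q b, A.R1 Q = some b)))
  have h1 := h.gg hA hT1
  have h2 := h.gg hA hT
  have h3 := (((h.ww hA hT v).mono (by omega : j + 1 ≤ j + 2))).setOf_or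
    (((h.ww hA hT1 v).mono (by omega : j + 1 ≤ j + 2)).mul
      (h1.star.mul (h2.mono (by omega : j + 1 ≤ j + 2))))
  exact h3.congr fun w => hA.top_iff hN w v

/-! ### Reading -/

section Read

variable {S : Type w'} [Monoid S] [AddCommGroup V]

structure Rd (A : Dat α V) (φ : List α → S) (act : V → S → V) (ν : List α → V) : Prop where
  nil : φ [] = 1
  app : ∀ u v, φ (u ++ v) = φ u * φ v
  add : ∀ v v' s, act (v + v') s = act v s + act v' s
  mul : ∀ v s t, act (act v s) t = act v (s * t)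
  one : ∀ v, act v 1 = v
  fth : ∀ s t, (∀ v, act v s = act v t) → s = t
  hT : ∀ X ∈ A.XX, ∀ v, A.T v X = act v (φ X) + ν X

variable {φ : List α → S} {act : V → S → V} {ν : List α → V}

theorem Rd.zero (h : Rd A φ act ν) (s : S) : act 0 s = 0 := by
  have := h.add 0 0 s
  simpa using this

theorem Rd.bt (h : Rd A φ act ν) {w r : List α} {v0 v0' : V} (hb : BT A w v0 r v0') :
    ∃ s D0, φ w = s * φ r ∧ ∀ v, BT A w v r (act v s + D0) := by
  induction hb with
  | refl w v => exact ⟨1, 0, by simp, fun v => by rw [h.one, add_zero]; exact BT.refl _ _⟩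
  | @step X w r v v' hX _ ih =>
    obtain ⟨s, D0, h1, h2⟩ := ih
    refine ⟨φ X * s, act (ν X) s + D0, by rw [h.app, h1, mul_assoc], fun v => ?_⟩
    refine BT.step hX ?_
    have := h2 (A.T v X)
    rw [h.hT X hX v, h.add, h.mul, add_assoc] at this
    rw [h.hT X hX v]
    exact this

theorem Ok.term_unique (hA : Ok A) {w r : List α} {v v' : V} (h : BT A w v r v') (hr : NP A r) :
    ∀ {r' : List α} {v'' : V}, BT A w v r' v'' → NP A r' → r = r' ∧ v' = v'' := by
  induction h with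
  | refl w v =>
    intro r' v'' h' _
    cases h' with
    | refl => exact ⟨rfl, rfl⟩
    | step h _ => exact (hr _ h (List.prefix_append _ _)).elim
  | @step X w r v v' hX _ ih =>
    intro r' v'' h' hr'
    generalize hu : X ++ w = u at h'
    cases h' with
    | refl => exact (hr' _ hX (hu ▸ List.prefix_append _ _)).elim
    | step h2 h3 =>
      obtain ⟨rfl, rfl⟩ := hA.uniq hX h2 hu
      exact ih hr h3 hr'

theorem Ok.exists_term (hA : Ok A) : ∀ (n : ℕ) (w : List α) (v : V), w.length ≤ n →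
    ∃ r v', BT A w v r v' ∧ NP A r := by
  intro n
  induction n with
  | zero =>
    intro w v hw
    refine ⟨w, v, BT.refl _ _, ?_⟩
    rintro X hX ⟨Z, rfl⟩
    rw [List.length_append] at hw
    exact hA.hnil (by rwa [List.length_eq_zero_iff.1 (by omega : X.length = 0)] at hX)
  | succ n ih =>
    intro w v hw
    by_cases hn : NP A w
    · exact ⟨w, v, BT.refl _ _, hn⟩
    have hn' : ∃ X ∈ A.XX, X <+: w := by
      by_contra hc; exact hn fun X hX hp => hc ⟨X, hX, hp⟩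
    obtain ⟨X, hX, w1, rfl⟩ := hn'
    have hXl : 0 < X.length := by
      rcases Nat.eq_zero_or_pos X.length with h0 | h0
      · exact (hA.hnil (by rwa [List.length_eq_zero_iff.1 h0] at hX)).elim
      · exact h0
    rw [List.length_append] at hw
    obtain ⟨r, v', h1, h2⟩ := ih w1 (A.T v X) (by omega)
    exact ⟨r, v', BT.step hX h1, h2⟩

def Compat (act : V → S → V) (f : V → V) (t s : S) : Prop :=
  ∀ s' D0, (∀ v, f v = act v s' + D0) → s' * t = s

theorem read_iff (hA : Ok A) (h : Rd A φ act ν) (w : List α) (s : S) : φ w = s ↔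
    ∃ ft : (V → V) × S, Compat act ft.1 ft.2 s ∧
      ∀ v, ∃ r, BT A w v r (ft.1 v) ∧ NP A r ∧ φ r = ft.2 := by
  obtain ⟨Q, v', h1, h2⟩ := hA.exists_term w.length w 0 le_rfl
  obtain ⟨s0, D0, e1, e2⟩ := h.bt h1
  constructor
  · rintro rfl
    refine ⟨(fun v => act v s0 + D0, φ Q), ?_, fun v => ⟨Q, e2 v, h2, rfl⟩⟩
    intro s' D1 hf
    have h0 := hf 0
    simp only [h.zero, zero_add] at h0
    have : s0 = s' := by
      refine h.fth _ _ fun v => ?_
      have := hf v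
      simp only [h0] at this
      exact add_right_cancel this
    rw [← this, e1]
  · rintro ⟨⟨f, t⟩, hc, hv⟩
    have key : ∀ v, f v = act v s0 + D0 ∧ φ Q = t := by
      intro v
      obtain ⟨Q', a1, a2, a3⟩ := hv v
      obtain ⟨rfl, b2⟩ := hA.term_unique (e2 v) h2 a1 a2
      exact ⟨b2.symm, a3⟩
    rw [e1, (key 0).2]
    exact hc s0 D0 fun v => (key v).1

/-- **TOP** -/
theorem top [Finite V] [Finite S] (hA : Ok A) (hH : HLs A j) (hR : Rd A φ act ν)
    (hNP : ∀ s, HL j ({r | NP A r ∧ φ r = s} : Language α)) (s : S) :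
    HL (j + 2) ({w | φ w = s} : Language α) := by
  have key : HL (j + 2) ({w | ∃ ft : {ft : (V → V) × S // Compat act ft.1 ft.2 s}, ∀ v,
      w ∈ ({w | RunT A (fun r x => x = ft.1.1 v ∧ NP A r ∧ φ r = ft.1.2) w v} :
        Language α)} : Language α) := by
    refine HL.iUnion fun ft => HL.iInter fun v => ?_
    refine hH.run hA (fun h => h.2.1) (fun x => ?_) v
    exact (HL.const _).setOf_and ((hNP _).mono (by omega))
  refine key.congr fun w => ?_
  constructor
  · intro hs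
    obtain ⟨ft, hc, h⟩ := (read_iff hA hR w s).1 hs
    refine ⟨⟨ft, hc⟩, fun v => ?_⟩
    obtain ⟨r, h1, h2, h3⟩ := h v
    exact ⟨r, _, h1, rfl, h2, h3⟩
  · rintro ⟨⟨ft, hc⟩, h⟩
    refine (read_iff hA hR w s).2 ⟨ft, hc, fun v => ?_⟩
    obtain ⟨r, x, h1, rfl, h2, h3⟩ := h v
    exact ⟨r, h1, h2, h3⟩

end Read

end Crest.Agent.R320.Top_750
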