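import Crest.Agent.R320.Half1_91

/-!
# Row 320: TOP over ALL words: two levels on a prefix code whose block data are in `HL 1` (helper91)
-/

set_option autoImplicit false

namespace Crest.Agent.R320.Top_91

open Crest.RegLang Crest.Agent.R320.Hk_851 Crest.Agent.R320.Asm_505 Crest.Agent.R320.Half1_91

variable {α : Type*}

/-- The words of `Rest` with `φ`-product `b`. -/
def RV {M : Type*} [Monoid M] (φ : α → M) (Rest : Language α) (b : M) : Language α :=
  {r | r ∈ Rest ∧ (r.map φ).prod = b}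

/-- **TOP** (all words): scheme 1 is a `Level` on the prefix code `U` (complete off `B`), scheme 2
is a `Level2` on `B` (right words may reach over the next block), block data in `HL k`. -/
theorem top {Ω₁ Ω₂ : Type*} [Finite Ω₁] [Finite Ω₂] {M : Type*} [Monoid M] [Finite M]
    [Finite α] {k : ℕ}
    (φ : α → M) {U B Rest : Language α} (hU : PC U) (hBU : ∀ z ∈ B, z ∈ U)
    {eps₁ : List α → Ω₁ → Ω₁} {P₁ R₁ : Ω₁ → Language α} (L1 : Level U B eps₁ P₁ R₁)
    {eps₂ : List α → Ω₂ → Ω₂} {P₂ R₂ : Ω₂ → Language α} (L2 : Level2 U B eps₂ P₂ R₂)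
    (dec₁ : ∀ l l', (∀ z ∈ l, z ∈ U) → (∀ z ∈ l', z ∈ U) →
      (∀ x, Run eps₁ x l = Run eps₁ x l') →
        (l.flatten.map φ).prod = (l'.flatten.map φ).prod)
    (dec₂ : ∀ l l', (∀ z ∈ l, z ∈ B) → (∀ z ∈ l', z ∈ B) →
      (∀ x, Run eps₂ x l = Run eps₂ x l') → ∀ x, Run eps₁ x l = Run eps₁ x l')
    (hHU : HL k U) (hHB : HL k B)
    (hVe : ∀ x y, HL k ({w | w ∈ B ∧ eps₂ w x = y} : Language α))
    (hP₁ : ∀ x, HL k (P₁ x)) (hR₁ : ∀ x, HL k (R₁ x))
    (hP₂ : ∀ x, HL k (P₂ x)) (hR₂ : ∀ x, HL k (R₂ x))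
    (hrest : ∀ b : M, HL (k + 2) (RV φ Rest b))
    (cover : ∀ w, ∃ (l : List (List α)) (r : List α), (∀ z ∈ l, z ∈ U) ∧
      l.flatten ++ r = w ∧ r ∈ Rest) (m : M) :
    HL (k + 2) ({w | (w.map φ).prod = m} : Language α) := by
  classical
  have hB : PC B := ⟨fun h => hU.ne (hBU _ h),
    fun z hz z' hz' h => hU.pc z (hBU z hz) z' (hBU z' hz') h⟩
  have s1 : ∀ x y, HL (k + 1) ({w | Path B eps₂ x w y} : Language α) := fun x y =>
    HL.path2 (k := k) hU hBU L2 hHB hVe hP₂ hR₂ x y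
  have s2 : ∀ x y, HL (k + 1) ({w | Path B eps₁ x w y} : Language α) := by
    intro x y
    refine (HL.decode hB (fun l => Run eps₁ x l)
      (fun l l' hl hl' h => dec₂ l l' hl hl' h x) hHB.star s1 y).congr fun w => ?_
    exact Iff.rfl
  have s3 : ∀ x y, HL (k + 2) ({w | Path U eps₁ x w y} : Language α) := by
    intro x y
    exact HL.path (k := k + 1) hU L1 (W := fun x y => ({w | Path B eps₁ x w y} : Language α))
      (fun x w y h => h) (fun x y w h => Path.mono hBU h) (hHU.mono (by omega))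
      (fun x => (hP₁ x).mono (by omega)) (fun x => (hR₁ x).mono (by omega)) s2 x y
  have s4 : ∀ c : M, HL (k + 2) (ZL φ U c) := fun c =>
    HL.decode hU (fun l : List (List α) => (l.flatten.map φ).prod) dec₁
      (hHU.star.mono (by omega)) s3 c
  have s5 : HL (k + 2) ({w | ∃ ab : {ab : M × M // ab.1 * ab.2 = m}, w ∈
      ZL φ U ab.1.1 * RV φ Rest ab.1.2} : Language α) :=
    HL.exists' fun ab => (s4 ab.1.1).mul (hrest ab.1.2)
  refine s5.congr fun w => ?_
  constructor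
  · intro hm
    change (w.map φ).prod = m at hm
    obtain ⟨l, r, h1, h3, h4⟩ := cover w
    refine ⟨⟨((l.flatten.map φ).prod, (r.map φ).prod), ?_⟩, ?_⟩
    · rw [← hm, ← h3, List.map_append, List.prod_append]
    · exact Language.mem_mul.2 ⟨l.flatten, ⟨l, h1, rfl, rfl⟩, r, ⟨h4, rfl⟩, h3⟩
  · rintro ⟨⟨⟨a, b⟩, hab⟩, h⟩
    obtain ⟨x, ⟨l, h1, h2, h3⟩, r, ⟨h4, h5⟩, h6⟩ := Language.mem_mul.1 h
    subst h2
    change (w.map φ).prod = m
    rw [← h6, List.map_append, List.prod_append, h3, h5]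
    exact hab

end Crest.Agent.R320.Top_91
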