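import Crest.Agent.R320.Hk2_851
import Crest.Agent.R320.Blk_517

/-!
# Row 320 : the top theorem in block form for ALL words (helper968)

`XX` = prefix code of blocks (possibly unbounded blocks, `HL 1`), zone maps
`T v X = act v (φ X) + cst X`.  Scheme 1 is exact on all pairs, scheme 2 only on words over the
bad blocks of scheme 1 (general promise form: the right word may reach over several blocks).
Conclusion: every fibre of `φ` has height `≤ 3`.  Relation form of the labels
(`L R : V → Language α`), general form of `Blk_517.level`.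
-/

set_option autoImplicit false

namespace Crest.Agent.R320.Top_968

open Crest.RegLang Crest.Agent.R320.Hk_851
open Crest.Agent.R320.Blk_517 (runB runB_nil runB_cons runB_append BL St PCode St_hl)

universe u

variable {α : Type u} {V : Type*} {k : ℕ}

/-- uncut words from `v` to `v'` -/
def UL (C : Set (List α)) (U : List (List α) → Prop) (T : V → List α → V) (v v' : V) :
    Language α :=
  {w | ∃ Ms : List (List α), (∀ X ∈ Ms, X ∈ C) ∧ U Ms ∧ w = Ms.flatten ∧ runB T v Ms = v'}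

/-- flights between two cuts -/
def KK (B : V → V → Language α) (L R : V → Language α) : Language α :=
  {w | ∃ v1 v2, w ∈ R v1 * B v1 v2 * L v2}

/-- the claimed language -/
def EE (B : V → V → Language α) (L R : V → Language α) (v v' : V) : Language α :=
  {w | w ∈ B v v' ∨ ∃ v1 v2, w ∈ B v v1 * L v1 * KStar.kstar (KK B L R) * R v2 * B v2 v'}

theorem EE_hl [Finite V] {B : V → V → Language α} {L R : V → Language α}
    (hL : ∀ v, HL k (L v)) (hR : ∀ v, HL k (R v)) (hB : ∀ v v', HL k (B v v')) (v v' : V) :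
    HL (k + 1) (EE B L R v v') := by
  have hK : HL k (KK B L R) := by
    refine (HL.iUnion (L := fun v1 : V => ({w | ∃ v2, w ∈ R v1 * B v1 v2 * L v2} : Language α))
      fun v1 => ?_).congr ?_
    · refine (HL.iUnion (L := fun v2 : V => (R v1 * B v1 v2 * L v2)) fun v2 => ?_).congr ?_
      · exact ((hR v1).mul (hB v1 v2)).mul (hL v2)
      · intro w; exact Iff.rfl
    · intro w; exact Iff.rfl
  have hk : k ≤ k + 1 := Nat.le_succ k
  refine HL.setOf_or ((hB v v').mono hk) ?_
  refine (HL.iUnion (L := fun v1 : V => ({w | ∃ v2, w ∈ B v v1 * L v1 *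
    KStar.kstar (KK B L R) * R v2 * B v2 v'} : Language α)) fun v1 => ?_).congr ?_
  · refine (HL.iUnion (L := fun v2 : V => (B v v1 * L v1 * KStar.kstar (KK B L R) * R v2 *
      B v2 v')) fun v2 => ?_).congr ?_
    · exact ((((hB v v1).mono hk).mul ((hL v1).mono hk)).mul hK.star).mul
        ((hR v2).mono hk) |>.mul ((hB v2 v').mono hk)
    · intro w; exact Iff.rfl
  · intro w; exact Iff.rfl

/-- completeness -/
theorem mem_EE {C : Set (List α)} {U : List (List α) → Prop} {T : V → List α → V}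
    {L R : V → Language α}
    (complete : ∀ Ms : List (List α), (∀ X ∈ Ms, X ∈ C) → ∀ v, U Ms ∨
      ∃ As Bs Cs : List (List α), Ms = As ++ (Bs ++ Cs) ∧ Bs ≠ [] ∧ U As ∧
        ∃ P Q, Bs.flatten = P ++ Q ∧ P ∈ L (runB T v As) ∧ Q ∈ R (runB T (runB T v As) Bs))
    (hnil : U []) :
    ∀ (n : ℕ) (Ms : List (List α)) (v : V), Ms.length ≤ n → (∀ X ∈ Ms, X ∈ C) →
      Ms.flatten ∈ EE (UL C U T) L R v (runB T v Ms) := by
  intro n
  induction n with
  | zero =>
    intro Ms v hn hM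
    have : Ms = [] := List.length_eq_zero_iff.1 (Nat.le_zero.1 hn)
    subst this
    exact Or.inl ⟨[], by simp, hnil, rfl, rfl⟩
  | succ n ih =>
    intro Ms v hn hM
    rcases complete Ms hM v with h | ⟨As, Bs, Cs, rfl, hBs, hA, P, Q, hPQ, hP, hQ⟩
    · exact Or.inl ⟨Ms, hM, h, rfl, rfl⟩
    · have hl : Cs.length ≤ n := by
        have := List.length_pos_iff.2 hBs
        simp only [List.length_append] at hn
        omega
      have hMA : ∀ X ∈ As, X ∈ C := fun X hX => hM X (by simp [hX])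
      have hMC : ∀ X ∈ Cs, X ∈ C := fun X hX => hM X (by simp [hX])
      have hI := ih Cs (runB T (runB T v As) Bs) hl hMC
      have hr : runB T v (As ++ (Bs ++ Cs)) = runB T (runB T (runB T v As) Bs) Cs := by
        rw [runB_append, runB_append]
      rw [hr]
      have hAs : As.flatten ∈ UL C U T v (runB T v As) := ⟨As, hMA, hA, rfl, rfl⟩
      rcases hI with h | ⟨v1, v2, h⟩
      · refine Or.inr ⟨runB T v As, runB T (runB T v As) Bs, ?_⟩
        refine Language.mem_mul.2 ⟨As.flatten ++ P ++ [] ++ Q, ?_, Cs.flatten, h, ?_⟩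
        · refine Language.mem_mul.2 ⟨As.flatten ++ P ++ [], ?_, Q, hQ, rfl⟩
          refine Language.mem_mul.2 ⟨As.flatten ++ P, ?_, [], Language.nil_mem_kstar _, rfl⟩
          exact Language.mem_mul.2 ⟨As.flatten, hAs, P, hP, rfl⟩
        · simp only [List.flatten_append, hPQ, List.append_assoc, List.nil_append]
      · obtain ⟨a4, h4, a5, h5, e4⟩ := Language.mem_mul.1 h
        obtain ⟨a3, h3, q, hq, e3⟩ := Language.mem_mul.1 h4
        obtain ⟨a2, h2, s, hs, e2⟩ := Language.mem_mul.1 h3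
        obtain ⟨a1, h1, p, hp, e1⟩ := Language.mem_mul.1 h2
        have hKw : Q ++ a1 ++ p ∈ KK (UL C U T) L R := by
          refine ⟨runB T (runB T v As) Bs, v1, ?_⟩
          exact Language.mem_mul.2 ⟨Q ++ a1, Language.mem_mul.2 ⟨Q, hQ, a1, h1, rfl⟩, p, hp, rfl⟩
        have hst : (Q ++ a1 ++ p) ++ s ∈ KStar.kstar (KK (UL C U T) L R) := by
          obtain ⟨Ss, hS1, hS2⟩ := Language.mem_kstar.1 hs
          refine Language.mem_kstar.2 ⟨(Q ++ a1 ++ p) :: Ss, ?_, ?_⟩
          · rw [List.flatten_cons, hS1]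
          · intro y hy
            rcases List.mem_cons.1 hy with rfl | hy
            · exact hKw
            · exact hS2 y hy
        refine Or.inr ⟨runB T v As, v2, ?_⟩
        refine Language.mem_mul.2 ⟨As.flatten ++ P ++ ((Q ++ a1 ++ p) ++ s) ++ q, ?_, a5, h5, ?_⟩
        · refine Language.mem_mul.2 ⟨As.flatten ++ P ++ ((Q ++ a1 ++ p) ++ s), ?_, q, hq, rfl⟩
          refine Language.mem_mul.2 ⟨As.flatten ++ P, ?_, _, hst, rfl⟩
          exact Language.mem_mul.2 ⟨As.flatten, hAs, P, hP, rfl⟩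
        · simp only [List.flatten_append, hPQ, ← e4, ← e3, ← e2, ← e1, List.append_assoc]

/-- soundness of a junction on words over `C` -/
def Sound (C : Set (List α)) (T : V → List α → V) (L R : V → Language α) : Prop :=
  ∀ (P Q r : List α) (v b : V) (Ns : List (List α)), P ∈ L v → Q ∈ R b → (∀ X ∈ Ns, X ∈ C) →
    Ns.flatten = P ++ (Q ++ r) →
    ∃ Ns' : List (List α), (∀ X ∈ Ns', X ∈ C) ∧ Ns'.flatten = r ∧ runB T v Ns = runB T b Ns'

theorem EE_sound {C : Set (List α)} {U : List (List α) → Prop} {T : V → List α → V}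
    {L R : V → Language α} (hC : PCode C) (sound : Sound C T L R) (v v' : V)
    (Ms : List (List α)) (hM : ∀ X ∈ Ms, X ∈ C) (hw : Ms.flatten ∈ EE (UL C U T) L R v v') :
    runB T v Ms = v' := by
  have base : ∀ (v v' : V) (b r : List α) (Ns : List (List α)), b ∈ UL C U T v v' →
      (∀ X ∈ Ns, X ∈ C) → Ns.flatten = b ++ r →
      ∃ Ns', (∀ X ∈ Ns', X ∈ C) ∧ Ns'.flatten = r ∧ runB T v Ns = runB T v' Ns' := by
    rintro v v' b r Ns ⟨Bs, hB1, -, rfl, rfl⟩ hN he
    obtain ⟨N2, k4, k5⟩ := hC.split Bs Ns _ hN hB1 he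
    refine ⟨N2, fun X hX => hN X (by rw [k4]; simp [hX]), k5, ?_⟩
    rw [k4, runB_append]
  have key : ∀ S : List (List α), (∀ y ∈ S, y ∈ KK (UL C U T) L R) → ∀ (p r : List α) (v1 : V)
      (Ns : List (List α)), p ∈ L v1 → (∀ X ∈ Ns, X ∈ C) →
      Ns.flatten = p ++ (S.flatten ++ r) →
      ∃ (Ns' : List (List α)) (p' : List α) (v1' : V), p' ∈ L v1' ∧
        (∀ X ∈ Ns', X ∈ C) ∧ Ns'.flatten = p' ++ r ∧ runB T v1 Ns = runB T v1' Ns' := by
    intro S
    induction S with
    | nil => intro _ p r v1 Ns hp hN he; exact ⟨Ns, p, v1, hp, hN, by simpa using he, rfl⟩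
    | cons y S ih =>
      intro hS p r v1 Ns hp hN he
      obtain ⟨w1, w2, hy⟩ := hS y (by simp)
      obtain ⟨a, ha, p2, hp2, e2⟩ := Language.mem_mul.1 hy
      obtain ⟨q, hq, m, hm, e1⟩ := Language.mem_mul.1 ha
      rw [List.flatten_cons, ← e2, ← e1] at he
      simp only [List.append_assoc] at he
      obtain ⟨N1, k1, k2, k3⟩ := sound p q _ v1 w1 Ns hp hq hN he
      obtain ⟨N2, k4, k5, k6⟩ := base w1 w2 m _ N1 hm k1 k2
      obtain ⟨N3, p', v1', l1, l2, l3, l4⟩ := ih (fun z hz => hS z (by simp [hz])) p2 r w2 N2 hp2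
        k4 k5
      exact ⟨N3, p', v1', l1, l2, l3, by rw [k3, k6, l4]⟩
  rcases hw with ⟨Ns, h1, -, h2, h3⟩ | ⟨v1, v2, h⟩
  · have := hC.unique Ms Ns hM h1 h2
    rw [this]; exact h3
  · obtain ⟨a4, h4, a5, h5, e4⟩ := Language.mem_mul.1 h
    obtain ⟨a3, h3, q, hq, e3⟩ := Language.mem_mul.1 h4
    obtain ⟨a2, h2, s, hs, e2⟩ := Language.mem_mul.1 h3
    obtain ⟨a1, ha1, p, hp, e1⟩ := Language.mem_mul.1 h2
    obtain ⟨S, hS1, hS2⟩ := Language.mem_kstar.1 hs
    have he : Ms.flatten = a1 ++ (p ++ (S.flatten ++ (q ++ a5))) := by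
      rw [← e4, ← e3, ← e2, ← e1, hS1]
      simp only [List.append_assoc]
    obtain ⟨N1, k1, k2, k3⟩ := base v v1 a1 _ Ms ha1 hM he
    obtain ⟨N2, p', v1', l1, l2, l3, l4⟩ := key S hS2 p _ v1 N1 hp k1 k2
    obtain ⟨N3, m1, m2, m3⟩ := sound p' q _ v1' v2 N2 l1 hq l2 l3
    obtain ⟨N4, n1, n2, n3⟩ := base v2 v' a5 [] N3 h5 m1 (by rw [m2, List.append_nil])
    have h0 : N4 = [] := by
      cases N4 with
      | nil => rfl
      | cons X N4 =>
        rw [List.flatten_cons] at n2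
        have : X = [] := (List.append_eq_nil_iff.1 n2).1
        exact (hC.1 (this ▸ n1 X (by simp))).elim
    rw [k3, l4, m3, n3, h0, runB_nil]

/-- **one level, one star** -/
theorem level [Finite V] {C : Set (List α)} {U : List (List α) → Prop} {T : V → List α → V}
    {L R : V → Language α} (hC : PCode C) (hnil : U [])
    (hL : ∀ v, HL k (L v)) (hR : ∀ v, HL k (R v)) (sound : Sound C T L R)
    (complete : ∀ Ms : List (List α), (∀ X ∈ Ms, X ∈ C) → ∀ v, U Ms ∨
      ∃ As Bs Cs : List (List α), Ms = As ++ (Bs ++ Cs) ∧ Bs ≠ [] ∧ U As ∧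
        ∃ P Q, Bs.flatten = P ++ Q ∧ P ∈ L (runB T v As) ∧ Q ∈ R (runB T (runB T v As) Bs))
    (hSt : HL (k + 1) (St C)) (hU : ∀ v v', HL k (UL C U T v v')) (v v' : V) :
    HL (k + 1) (BL C T v v') := by
  refine (hSt.inf (EE_hl hL hR hU v v')).congr fun w => ?_
  constructor
  · rintro ⟨Ms, h1, rfl, h3⟩
    exact ⟨⟨Ms, h1, rfl⟩, h3 ▸ mem_EE complete hnil _ Ms v le_rfl h1⟩
  · rintro ⟨⟨Ms, h1, rfl⟩, h2⟩
    exact ⟨Ms, h1, rfl, EE_sound hC sound v v' Ms h1 h2⟩

/-- the blocks in which some token is not cut by the scheme `L, R` -/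
def BadOf (XX : Set (List α)) (T : V → List α → V) (L R : V → Language α) : Set (List α) :=
  {X | X ∈ XX ∧ ∃ v, ∀ P Q, X = P ++ Q → P ∈ L v → Q ∉ R (T v X)}

/-- soundness of scheme 1 from the block form -/
theorem sound_of_block {XX : Set (List α)} (hXX : PCode XX) {T : V → List α → V}
    {L R : V → Language α}
    (s1 : ∀ P Q v b, P ∈ L v → Q ∈ R b → P ++ Q ∈ XX ∧ T v (P ++ Q) = b) : Sound XX T L R := by
  intro P Q r v b Ns hP hQ hN he
  obtain ⟨h1, h2⟩ := s1 P Q v b hP hQ
  obtain ⟨N2, k4, k5⟩ := hXX.split [P ++ Q] Ns r hN (by simpa using h1) (by simpa using he)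
  refine ⟨N2, fun X hX => hN X (by rw [k4]; simp [hX]), k5, ?_⟩
  rw [k4, List.singleton_append, runB_cons, h2]

/-- **two schemes on one prefix code (unbounded blocks), the same zone maps: height three.** -/
theorem two_levels [Finite V] {XX : Set (List α)} (hXX : PCode XX) (hX1 : HL 1 (XX : Language α))
    {T : V → List α → V} {L1 R1 L2 R2 : V → Language α}
    (hL1 : ∀ v, HL 2 (L1 v)) (hR1 : ∀ v, HL 2 (R1 v))
    (hL2 : ∀ v, HL 1 (L2 v)) (hR2 : ∀ v, HL 1 (R2 v))
    (s1 : ∀ P Q v b, P ∈ L1 v → Q ∈ R1 b → P ++ Q ∈ XX ∧ T v (P ++ Q) = b)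
    (hBad : HL 1 (BadOf XX T L1 R1 : Language α))
    (hBadT : ∀ v v', HL 1 ({X | X ∈ BadOf XX T L1 R1 ∧ T v X = v'} : Language α))
    (s2 : Sound (BadOf XX T L1 R1) T L2 R2)
    (c2 : ∀ X ∈ BadOf XX T L1 R1, ∀ X2 ∈ BadOf XX T L1 R1, ∀ v, ∃ P Q, X ++ X2 = P ++ Q ∧
      P ∈ L2 v ∧ Q ∈ R2 (T (T v X) X2)) (v v' : V) :
    HL 3 (BL XX T v v') := by
  have hB : BadOf XX T L1 R1 ⊆ XX := fun X hX => hX.1
  have hPB : PCode (BadOf XX T L1 R1) :=
    ⟨fun h => hXX.1 (hB h), fun X hX Y hY => hXX.2 X (hB hX) Y (hB hY)⟩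
  -- scheme 2
  have hbad : ∀ v v', HL 2 (BL (BadOf XX T L1 R1) T v v') := by
    intro v v'
    refine level (k := 1) (U := fun Ms => Ms.length ≤ 1) hPB (by simp) hL2 hR2 s2 ?_ ?_ ?_ v v'
    · intro Ms hM v
      match Ms, hM with
      | [], _ => left; simp
      | [X], _ => left; simp
      | X :: X2 :: Cs, hM =>
        right
        obtain ⟨P, Q, h1, h2, h3⟩ := c2 X (hM X (by simp)) X2 (hM X2 (by simp)) v
        refine ⟨[], [X, X2], Cs, by simp, by simp, by simp, P, Q, by simpa using h1, h2, h3⟩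
    · exact St_hl hBad
    · intro v v'
      refine ((HL.const (α := α) (k := 1) (v = v')).setOf_and (HL.one)).setOf_or (hBadT v v')
        |>.congr fun w => ?_
      constructor
      · rintro ⟨Ms, h1, h2, rfl, h3⟩
        match Ms, h1, h2, h3 with
        | [], _, _, h3 => left; exact ⟨h3, rfl⟩
        | [X], h1, _, h3 =>
          right
          rw [List.flatten_cons, List.flatten_nil, List.append_nil]
          exact ⟨h1 X (by simp), by simpa using h3⟩
        | _ :: _ :: _, _, h2, _ => simp at h2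
      · rintro (⟨h1, h2⟩ | ⟨h1, h2⟩)
        · have : w = [] := h2
          subst this
          exact ⟨[], by simp, by simp, rfl, h1⟩
        · exact ⟨[w], by simpa using h1, by simp, by simp, by simpa using h2⟩
  -- scheme 1
  refine level (k := 2) (U := fun Ms => ∀ X ∈ Ms, X ∈ BadOf XX T L1 R1) hXX (by simp) hL1 hR1
    (sound_of_block hXX s1) ?_ ?_ ?_ v v'
  · intro Ms
    induction Ms with
    | nil => intro _ v; left; simp
    | cons X Ms ih =>
      intro hM v
      by_cases hX : X ∈ BadOf XX T L1 R1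
      · rcases ih (fun Y hY => hM Y (by simp [hY])) (T v X) with h |
          ⟨As, Bs, Cs, h1, h2, h3, P, Q, h4, h5, h6⟩
        · left
          intro Y hY
          rcases List.mem_cons.1 hY with rfl | hY
          · exact hX
          · exact h Y hY
        · right
          refine ⟨X :: As, Bs, Cs, by rw [h1]; rfl, h2, ?_, P, Q, h4, h5, h6⟩
          intro Y hY
          rcases List.mem_cons.1 hY with rfl | hY
          · exact hX
          · exact h3 Y hY
      · right
        have : ∃ P Q, X = P ++ Q ∧ P ∈ L1 v ∧ Q ∈ R1 (T v X) := by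
          by_contra hcon
          refine hX ⟨hM X (by simp), v, fun P Q h1 h2 h3 => hcon ⟨P, Q, h1, h2, h3⟩⟩
        obtain ⟨P, Q, h1, h2, h3⟩ := this
        exact ⟨[], [X], Ms, by simp, by simp, by simp, P, Q, by simpa using h1, h2, h3⟩
  · exact (St_hl hX1).mono (by omega)
  · intro v v'
    refine (hbad v v').congr fun w => ?_
    constructor
    · rintro ⟨Ms, _, h1, h2, h3⟩
      exact ⟨Ms, h1, h2, h3⟩
    · rintro ⟨Ms, h1, h2, h3⟩
      exact ⟨Ms, fun X hX => hB (h1 X hX), h1, h2, h3⟩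

/-- greedy parse -/
theorem parse {XX : Set (List α)} (h0 : [] ∉ XX) : ∀ (n : ℕ) (w : List α), w.length ≤ n →
    ∃ (Ms : List (List α)) (E : List α), (∀ X ∈ Ms, X ∈ XX) ∧ (∀ X ∈ XX, ¬ X <+: E) ∧
      w = Ms.flatten ++ E := by
  intro n
  induction n with
  | zero =>
    intro w hw
    have : w = [] := List.length_eq_zero_iff.1 (Nat.le_zero.1 hw)
    subst this
    refine ⟨[], [], by simp, ?_, by simp⟩
    intro X hX hp
    exact h0 ((List.prefix_nil.1 hp) ▸ hX)
  | succ n ih =>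
    intro w hw
    by_cases h : ∃ X ∈ XX, X <+: w
    · obtain ⟨X, hX, t, rfl⟩ := h
      have hXn : X ≠ [] := fun h => h0 (h ▸ hX)
      have := List.length_pos_iff.2 hXn
      rw [List.length_append] at hw
      obtain ⟨Ms, E, h1, h2, h3⟩ := ih t (by omega)
      refine ⟨X :: Ms, E, ?_, h2, by rw [h3]; simp⟩
      intro Y hY
      rcases List.mem_cons.1 hY with rfl | hY
      · exact hX
      · exact h1 Y hY
    · push Not at h
      exact ⟨[], w, by simp, h, by simp⟩

section read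

variable {S : Type*} [Monoid S] [AddCommGroup V]

/-- value of a word -/
def ph (φ : α → S) (w : List α) : S := (w.map φ).prod

theorem ph_append (φ : α → S) (u v : List α) : ph φ (u ++ v) = ph φ u * ph φ v := by
  simp [ph]

theorem run_diff (φ : α → S) (act : V → S → V) (hone : ∀ v, act v 1 = v)
    (hmul : ∀ v s t, act (act v s) t = act v (s * t))
    (hsub : ∀ v w s, act (v - w) s = act v s - act w s) (cst : List α → V) :
    ∀ (Ms : List (List α)) (v w : V),
      runB (fun v X => act v (ph φ X) + cst X) v Ms - runB (fun v X => act v (ph φ X) + cst X) w Ms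
        = act (v - w) (ph φ Ms.flatten) := by
  intro Ms
  induction Ms with
  | nil => intro v w; simp [ph, hone]
  | cons X Ms ih =>
    intro v w
    have h1 : act v (ph φ X) + cst X - (act w (ph φ X) + cst X) = act (v - w) (ph φ X) := by
      rw [hsub]; abel
    rw [runB_cons, runB_cons, ih, List.flatten_cons, ph_append, ← hmul, h1]

/-- **reading** -/
theorem fibre_St [Finite V] {XX : Set (List α)} (hXX : PCode XX) (φ : α → S) (act : V → S → V)
    (hone : ∀ v, act v 1 = v) (hmul : ∀ v s t, act (act v s) t = act v (s * t))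
    (hsub : ∀ v w s, act (v - w) s = act v s - act w s)
    (hfaith : ∀ s t, (∀ v, act v s = act v t) → s = t) (cst : List α → V) {k : ℕ}
    (h : ∀ v v', HL k (BL XX (fun v X => act v (ph φ X) + cst X) v v')) (s : S) :
    HL k ({w | w ∈ St XX ∧ ph φ w = s} : Language α) := by
  set T : V → List α → V := fun v X => act v (ph φ X) + cst X with hT
  have h1 : HL k ({w | ∃ f ∈ {f : V → V | ∀ v, f v - f 0 = act v s}, w ∈
      ({w | ∀ v, w ∈ BL XX T v (f v)} : Language α)} : Language α) := by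
    refine HL.biUnion (Set.toFinite _) (L := fun f : V → V =>
      ({w | ∀ v, w ∈ BL XX T v (f v)} : Language α)) fun f _ => ?_
    exact HL.iInter fun v => h v (f v)
  refine h1.congr fun w => ?_
  constructor
  · rintro ⟨⟨Ms, hM, rfl⟩, hs⟩
    refine ⟨fun v => runB T v Ms, ?_, fun v => ⟨Ms, hM, rfl, rfl⟩⟩
    intro v
    show runB T v Ms - runB T 0 Ms = act v s
    rw [hT, run_diff φ act hone hmul hsub cst, sub_zero, hs]
  · rintro ⟨f, hf, hw⟩
    obtain ⟨Ms, hM, rfl, h0⟩ := hw 0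
    refine ⟨⟨Ms, hM, rfl⟩, hfaith _ _ fun v => ?_⟩
    obtain ⟨Ns, hN, he, hv⟩ := hw v
    have := hXX.unique Ms Ns hM hN he
    subst this
    have h2 := run_diff φ act hone hmul hsub cst Ms v 0
    rw [sub_zero] at h2
    rw [← h2, ← hf v, ← h0, ← hv]

/-- parsed words with value `s` -/
def StS (XX : Set (List α)) (φ : α → S) (s : S) : Language α := {w | w ∈ St XX ∧ ph φ w = s}

/-- words without block prefix, with value `s` -/
def TailS (XX : Set (List α)) (φ : α → S) (s : S) : Language α :=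
  {E | (∀ X ∈ XX, ¬ X <+: E) ∧ ph φ E = s}

/-- **TOP THEOREM**: blocks, scheme 1 exact everywhere, scheme 2 on the bad blocks. -/
theorem top_blocks [Finite V] [Finite S] {XX : Set (List α)} (hXX : PCode XX)
    (hX1 : HL 1 (XX : Language α)) (φ : α → S) (act : V → S → V)
    (hone : ∀ v, act v 1 = v) (hmul : ∀ v s t, act (act v s) t = act v (s * t))
    (hsub : ∀ v w s, act (v - w) s = act v s - act w s)
    (hfaith : ∀ s t, (∀ v, act v s = act v t) → s = t) (cst : List α → V)
    (hTail : ∀ s, HL 3 (TailS XX φ s))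
    {L1 R1 L2 R2 : V → Language α}
    (hL1 : ∀ v, HL 2 (L1 v)) (hR1 : ∀ v, HL 2 (R1 v))
    (hL2 : ∀ v, HL 1 (L2 v)) (hR2 : ∀ v, HL 1 (R2 v))
    (s1 : ∀ P Q v b, P ∈ L1 v → Q ∈ R1 b → P ++ Q ∈ XX ∧
      act v (ph φ (P ++ Q)) + cst (P ++ Q) = b)
    (hBad : HL 1 (BadOf XX (fun v X => act v (ph φ X) + cst X) L1 R1 : Language α))
    (hBadT : ∀ v v', HL 1 ({X | X ∈ BadOf XX (fun v X => act v (ph φ X) + cst X) L1 R1 ∧
      act v (ph φ X) + cst X = v'} : Language α))
    (s2 : Sound (BadOf XX (fun v X => act v (ph φ X) + cst X) L1 R1)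
      (fun v X => act v (ph φ X) + cst X) L2 R2)
    (c2 : ∀ X ∈ BadOf XX (fun v X => act v (ph φ X) + cst X) L1 R1,
      ∀ X2 ∈ BadOf XX (fun v X => act v (ph φ X) + cst X) L1 R1, ∀ v, ∃ P Q, X ++ X2 = P ++ Q ∧
      P ∈ L2 v ∧ Q ∈ R2 (act (act v (ph φ X) + cst X) (ph φ X2) + cst X2)) (s : S) :
    HL 3 ({w | ph φ w = s} : Language α) := by
  have hBL := two_levels hXX hX1 (T := fun v X => act v (ph φ X) + cst X) hL1 hR1 hL2 hR2 s1
    hBad hBadT s2 c2
  have hSt := fibre_St hXX φ act hone hmul hsub hfaith cst hBL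
  have hSt' : ∀ s, HL 3 (StS XX φ s) := hSt
  have h1 : HL 3 ({w | ∃ p ∈ {p : S × S | p.1 * p.2 = s}, w ∈
      (StS XX φ p.1 * TailS XX φ p.2)} : Language α) :=
    HL.biUnion (Set.toFinite _) (L := fun p : S × S => (StS XX φ p.1 * TailS XX φ p.2))
      fun p _ => (hSt' p.1).mul (hTail p.2)
  refine h1.congr fun w => ?_
  constructor
  · intro hw
    obtain ⟨Ms, E, h1, h2, rfl⟩ := parse hXX.1 w.length w le_rfl
    refine ⟨(ph φ Ms.flatten, ph φ E), ?_, ?_⟩
    · have hw' : ph φ (Ms.flatten ++ E) = s := hw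
      rw [ph_append] at hw'
      exact hw'
    · exact Language.mem_mul.2 ⟨_, ⟨⟨Ms, h1, rfl⟩, rfl⟩, E, ⟨h2, rfl⟩, rfl⟩
  · rintro ⟨p, hp, hw⟩
    obtain ⟨a, ⟨-, ha⟩, b, ⟨-, hb⟩, rfl⟩ := Language.mem_mul.1 hw
    show ph φ (a ++ b) = s
    rw [ph_append, ha, hb]
    exact hp

end read

end Crest.Agent.R320.Top_968
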