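import Crest.Agent.R320.Block_467

/-!
# Row 320, top theorem in block form, all words, semantic right words (helper982)

`XX` prefix code of blocks, `Bad ⊆ XX`, one token system `T v X = act v (φ X) + nu X`.
Scheme 1 cuts every token in every block of `XX \ Bad`; scheme 2 cuts every token in every pair of
consecutive blocks of `Bad`, its right words reach to the end of the second block, and it is exact
only when the block is in `Bad` (promise).
-/

set_option autoImplicit false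

namespace Crest.Agent.R320.Top_982

open Crest.RegLang Crest.Agent.R320.Hk_851 Crest.Agent.R320.Blk467

universe u

variable {α : Type u} {k : ℕ}

theorem HL_Str {B : Set (List α)} (h : HL k (B : Language α)) : HL (k + 1) (Str B) := by
  refine h.star.congr fun w => ?_
  constructor
  · rintro ⟨l, hl, rfl⟩
    exact Language.mem_kstar.2 ⟨l, rfl, hl⟩
  · intro hw
    obtain ⟨l, rfl, hl⟩ := Language.mem_kstar.1 hw
    exact ⟨l, hl, rfl⟩

/-- cancellation in a prefix code -/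
theorem Str_cancel {B : Set (List α)} (hB : PCode B) {x y : List α} (hx : x ∈ Str B)
    (hxy : x ++ y ∈ Str B) : y ∈ Str B := by
  obtain ⟨l, hl, rfl⟩ := hx
  induction l generalizing y with
  | nil => simpa using hxy
  | cons X l ih =>
    obtain ⟨m, hm, e⟩ := hxy
    cases m with
    | nil =>
      exfalso
      rw [List.flatten_nil, List.flatten_cons, List.append_assoc] at e
      exact hB.1 ((List.append_eq_nil_iff.1 e.symm).1 ▸ hl X (by simp))
    | cons Y m =>
      rw [List.flatten_cons, List.flatten_cons, List.append_assoc] at e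
      have hX := hl X (by simp)
      have hY := hm Y (by simp)
      have hXY : X = Y := by
        rcases List.prefix_or_prefix_of_prefix (l₁ := X) (l₂ := Y)
          (l₃ := X ++ (l.flatten ++ y))
          (List.prefix_append _ _) (e ▸ List.prefix_append _ _) with h1 | h1
        · exact hB.2 X hX Y hY h1
        · exact (hB.2 Y hY X hX h1).symm
      subst hXY
      have e' := List.append_cancel_left e
      exact ih (fun Z hZ => hl Z (by simp [hZ])) ⟨m, fun Z hZ => hm Z (by simp [hZ]), e'⟩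

theorem Lg_le_Str {V : Type*} {B : Set (List α)} {T : V → List α → V} {v v' : V} {w : List α}
    (h : w ∈ Lg B T v v') : w ∈ Str B := by
  obtain ⟨l, hl, e, _⟩ := h
  exact ⟨l, hl, e⟩

/-- end piece: at most one block -/
def End1 {V : Type*} (B : Set (List α)) (T : V → List α → V) (u v' : V) : Language α :=
  {M | (M = [] ∧ u = v') ∨ (M ∈ B ∧ T u M = v')}

theorem HL_End1 {V : Type*} {B : Set (List α)} {T : V → List α → V}
    (h : ∀ v v', HL k ({X | X ∈ B ∧ T v X = v'} : Language α)) (u v' : V) :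
    HL k (End1 B T u v') := by
  have h1 : HL k ({M | M = [] ∧ u = v'} : Language α) :=
    HL.setOf_and (p := fun M => M = []) (q := fun _ => u = v')
      ((HL.one (k := k)).congr fun w => Iff.rfl) (HL.const _)
  exact HL.setOf_or h1 (h u v')

theorem End1_le {V : Type*} {B : Set (List α)} {T : V → List α → V} {u v' : V} {M : List α}
    (h : M ∈ End1 B T u v') : M ∈ Lg B T u v' := by
  rcases h with ⟨rfl, rfl⟩ | ⟨h1, h2⟩
  · exact Lg.nil _ _ _
  · exact h2 ▸ Lg.single h1 u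

/-- **promise star**: a scheme which is exact only inside `B*` and reads one more block. -/
theorem promise_star {V : Type*} [Finite V] (B : Set (List α)) (hB : PCode B)
    (T : V → List α → V) (LP RQ : V → Language α)
    (sound : ∀ v v' P Q R, P ∈ LP v → Q ∈ RQ v' → P ++ Q ++ R ∈ Str B → P ++ Q ∈ Lg B T v v')
    (compl : ∀ X ∈ B, ∀ X' ∈ B, ∀ v, ∃ P Q, P ++ Q = X ++ X' ∧ P ∈ LP v ∧
      Q ∈ RQ (T (T v X) X'))
    (hBk : HL k (B : Language α))
    (hBT : ∀ v v', HL k ({X | X ∈ B ∧ T v X = v'} : Language α))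
    (hP : ∀ v, HL k (LP v)) (hQ : ∀ v, HL k (RQ v)) (v v' : V) :
    HL (k + 1) (Lg B T v v') := by
  classical
  let K : Language α := {x | ∃ u : V, ∃ Q ∈ RQ u, ∃ P ∈ LP u, Q ++ P = x}
  have hK : HL k K := by
    refine (HL.iUnion (k := k) (ι := V) (L := fun u => RQ u * LP u)
      (fun u => (hQ u).mul (hP u))).congr fun w => ?_
    constructor
    · rintro ⟨u, Q, hQ', P, hP', rfl⟩
      exact ⟨u, Language.mem_mul.2 ⟨Q, hQ', P, hP', rfl⟩⟩
    · intro h
      obtain ⟨u, hu⟩ := h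
      obtain ⟨Q, hQ', P, hP', rfl⟩ := Language.mem_mul.1 hu
      exact ⟨u, Q, hQ', P, hP', rfl⟩
  let E : Language α := {x | ∃ u : V, ∃ Q ∈ RQ u, ∃ M ∈ End1 B T u v', Q ++ M = x}
  have hE : HL k E := by
    refine (HL.iUnion (k := k) (ι := V) (L := fun u => RQ u * End1 B T u v')
      (fun u => (hQ u).mul (HL_End1 hBT u v'))).congr fun w => ?_
    constructor
    · rintro ⟨u, Q, hQ', P, hP', rfl⟩
      exact ⟨u, Language.mem_mul.2 ⟨Q, hQ', P, hP', rfl⟩⟩
    · intro h
      obtain ⟨u, hu⟩ := h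
      obtain ⟨Q, hQ', P, hP', rfl⟩ := Language.mem_mul.1 hu
      exact ⟨u, Q, hQ', P, hP', rfl⟩
  have key := (HL_Str hBk).inf ((HL.mono (Nat.le_succ k) (HL_End1 hBT v v')).add
    (((HL.mono (Nat.le_succ k) (hP v)).mul hK.star).mul (HL.mono (Nat.le_succ k) hE)))
  refine key.congr fun w => ?_
  constructor
  · -- completeness
    rintro ⟨l, hl, rfl, hf⟩
    refine ⟨⟨l, hl, rfl⟩, ?_⟩
    have main : ∀ (n : ℕ) (l : List (List α)) (v : V), l.length ≤ n → (∀ X ∈ l, X ∈ B) →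
        l.foldl T v = v' →
        l.flatten ∈ End1 B T v v' ∨
        ∃ P ∈ LP v, ∃ ks : List (List α), (∀ x ∈ ks, x ∈ K) ∧ ∃ e ∈ E,
          P ++ ks.flatten ++ e = l.flatten := by
      intro n
      induction n with
      | zero =>
        intro l v hn _ hf
        have : l = [] := List.length_eq_zero_iff.1 (Nat.le_zero.1 hn)
        subst this
        left
        exact Or.inl ⟨by simp, hf⟩
      | succ n ih =>
        intro l v hn hl hf
        match l, hn, hl, hf with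
        | [], _, _, hf => exact Or.inl (Or.inl ⟨by simp, hf⟩)
        | [X], _, hl, hf =>
          left
          right
          refine ⟨?_, ?_⟩
          · simpa using hl X (by simp)
          · simpa using hf
        | X :: X' :: l, hn, hl, hf =>
          right
          have hX := hl X (by simp)
          have hX' := hl X' (by simp)
          have hl' : ∀ Y ∈ l, Y ∈ B := fun Y hY => hl Y (by simp [hY])
          have hf' : l.foldl T (T (T v X) X') = v' := hf
          obtain ⟨P, Q, e, hP', hQ'⟩ := compl X hX X' hX' v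
          refine ⟨P, hP', ?_⟩
          have hn' : l.length ≤ n := by
            simp only [List.length_cons] at hn
            omega
          rcases ih l _ hn' hl' hf' with h | ⟨P1, hP1, ks, hks, e1, he1, h⟩
          · refine ⟨[], by simp, Q ++ l.flatten, ⟨_, Q, hQ', _, h, rfl⟩, ?_⟩
            simp only [List.flatten_nil, List.append_nil, List.flatten_cons]
            rw [← List.append_assoc, e, List.append_assoc]
          · refine ⟨(Q ++ P1) :: ks, ?_, e1, he1, ?_⟩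
            · intro x hx
              rcases List.mem_cons.1 hx with rfl | hx
              · exact ⟨_, Q, hQ', P1, hP1, rfl⟩
              · exact hks x hx
            · have e2 : (X :: X' :: l).flatten = (P ++ Q) ++ (P1 ++ ks.flatten ++ e1) := by
                rw [h, e]
                simp [List.append_assoc]
              rw [e2]
              simp [List.append_assoc]
    rcases main l.length l v le_rfl hl hf with h | ⟨P, hP', ks, hks, e, he, h⟩
    · exact Or.inl h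
    · right
      exact mem_mul3.2 ⟨P, hP', ks.flatten, Language.mem_kstar.2 ⟨ks, rfl, hks⟩, e, he, h⟩
  · -- soundness
    rintro ⟨hS, hw⟩
    rcases hw with h | h
    · exact End1_le h
    · obtain ⟨x, hx, y, hy, z, hz, rfl⟩ := mem_mul3.1 h
      obtain ⟨ks, rfl, hks⟩ := Language.mem_kstar.1 hy
      have main : ∀ (ks : List (List α)) (v : V) (x : List α), (∀ y ∈ ks, y ∈ K) → x ∈ LP v →
          x ++ ks.flatten ++ z ∈ Str B → x ++ ks.flatten ++ z ∈ Lg B T v v' := by
        intro ks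
        induction ks with
        | nil =>
          intro v x _ hx hS
          obtain ⟨u, Q, hQ', M, hM, rfl⟩ := hz
          have e : x ++ ([] : List (List α)).flatten ++ (Q ++ M) = x ++ Q ++ M := by simp
          rw [e] at hS ⊢
          exact Lg.append (sound v u x Q M hx hQ' hS) (End1_le hM)
        | cons y ks ih =>
          intro v x hks hx hS
          obtain ⟨u, Q, hQ', P, hP', rfl⟩ := hks y (by simp)
          have e : x ++ ((Q ++ P) :: ks).flatten ++ z = x ++ Q ++ (P ++ ks.flatten ++ z) := by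
            simp [List.append_assoc]
          rw [e] at hS ⊢
          have h1 := sound v u x Q _ hx hQ' hS
          have h2 := Str_cancel hB (Lg_le_Str h1) hS
          exact Lg.append h1 (ih u P (fun y hy => hks y (by simp [hy])) hP' h2)
      exact main ks v x hks hx hS

/-- semantic right words of scheme 1 -/
def RQ1 {V : Type*} (XX : Set (List α)) (T : V → List α → V) (LP : V → Set (List α)) (y : V) :
    Language α :=
  {Q | ∀ v', ∀ P' ∈ LP v', P' ++ Q ∈ XX ∧ T v' (P' ++ Q) = y}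

/-- semantic right words of scheme 2 -/
def RQ2 {V : Type*} (XX Bad : Set (List α)) (T : V → List α → V) (LP : V → Set (List α))
    (y : V) : Language α :=
  {Q | ∀ v', ∀ P' ∈ LP v', (∃ Z ∈ XX, Z <+: P' ++ Q) ∧ ((∃ Z ∈ Bad, Z <+: P' ++ Q) →
    ∃ Z ∈ Bad, ∃ Z' ∈ Bad, P' ++ Q = Z ++ Z' ∧ T (T v' Z) Z' = y)}

theorem HL_all {V : Type*} [Finite V] {LP : V → Set (List α)} (hf : ∀ v, (LP v).Finite)
    {q : V → List α → Language α} (h : ∀ v P, P ∈ LP v → HL k (q v P)) :
    HL k ({Q | ∀ v, ∀ P ∈ LP v, Q ∈ q v P} : Language α) :=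
  HL.iInter (k := k) (ι := V) (L := fun v => ({Q | ∀ P ∈ LP v, Q ∈ q v P} : Language α))
    (fun v => HL.biInter (k := k) (hf v) (L := fun P => q v P) (fun P hP => h v P hP))

theorem HL_RQ1 {V : Type*} [Finite V] {XX : Set (List α)} {T : V → List α → V}
    {LP : V → Set (List α)} (hf : ∀ v, (LP v).Finite)
    (h : ∀ v v', HL k ({X | X ∈ XX ∧ T v X = v'} : Language α)) (y : V) :
    HL k (RQ1 XX T LP y) :=
  HL_all (k := k) hf (q := fun v P => ({Q | P ++ Q ∈ XX ∧ T v (P ++ Q) = y} : Language α))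
    (fun v P _ => HL.lquot P (h v y))

theorem HL_RQ2 {V : Type*} [Finite V] {XX Bad : Set (List α)} {T : V → List α → V}
    {LP : V → Set (List α)} (hf : ∀ v, (LP v).Finite) (hX : HL k (XX : Language α))
    (hB : HL k (Bad : Language α))
    (h : ∀ v v', HL k ({X | X ∈ Bad ∧ T v X = v'} : Language α)) (y : V) :
    HL k (RQ2 XX Bad T LP y) := by
  have h1 : HL k ({w | ∃ Z ∈ XX, Z <+: w} : Language α) := HL.prefix hX
  have h2 : HL k ({w | ∃ Z ∈ Bad, Z <+: w} : Language α) := HL.prefix hB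
  have h3 : ∀ v, HL k ({w | ∃ Z ∈ Bad, ∃ Z' ∈ Bad, w = Z ++ Z' ∧ T (T v Z) Z' = y} :
      Language α) := by
    intro v
    let FB : V → V → Language α := fun a b => {X | X ∈ Bad ∧ T a X = b}
    have hFB : ∀ a b, HL k (FB a b) := h
    refine (HL.iUnion (k := k) (ι := V) (L := fun u => FB v u * FB u y)
      (fun u => (hFB v u).mul (hFB u y))).congr fun w => ?_
    constructor
    · rintro ⟨Z, hZ, Z', hZ', rfl, e⟩
      exact ⟨T v Z, Language.mem_mul.2 ⟨Z, ⟨hZ, rfl⟩, Z', ⟨hZ', e⟩, rfl⟩⟩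
    · intro hw
      obtain ⟨u, hu⟩ := hw
      obtain ⟨Z, ⟨hZ, e1⟩, Z', ⟨hZ', e2⟩, rfl⟩ := Language.mem_mul.1 hu
      exact ⟨Z, hZ, Z', hZ', rfl, by rw [e1, e2]⟩
  exact HL_all (k := k) hf (q := fun v P => ({Q | (∃ Z ∈ XX, Z <+: P ++ Q) ∧
    ((∃ Z ∈ Bad, Z <+: P ++ Q) →
      ∃ Z ∈ Bad, ∃ Z' ∈ Bad, P ++ Q = Z ++ Z' ∧ T (T v Z) Z' = y)} : Language α))
    (fun v P _ => HL.lquot P (L := {w | (∃ Z ∈ XX, Z <+: w) ∧ ((∃ Z ∈ Bad, Z <+: w) →
      ∃ Z ∈ Bad, ∃ Z' ∈ Bad, w = Z ++ Z' ∧ T (T v Z) Z' = y)})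
      (HL.setOf_and h1 (HL.setOf_imp h2 (h3 v))))

/-- **scheme 2**, semantic form -/
theorem level2 {V : Type*} [Finite V] {XX Bad : Set (List α)} (hBX : Bad ⊆ XX) (hC : PCode XX)
    {T : V → List α → V} (LP2 : V → Set (List α)) (hf2 : ∀ v, (LP2 v).Finite)
    (cc2 : ∀ X ∈ Bad, ∀ X' ∈ Bad, ∀ v, ∃ P Q, P ++ Q = X ++ X' ∧ P ∈ LP2 v ∧
      ∀ v', ∀ P' ∈ LP2 v', (∃ Z ∈ XX, Z <+: P' ++ Q) ∧ ((∃ Z ∈ Bad, Z <+: P' ++ Q) →
        ∃ Z ∈ Bad, ∃ Z' ∈ Bad, P' ++ Q = Z ++ Z' ∧ T (T v' Z) Z' = T (T v X) X'))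
    (hX : HL k (XX : Language α)) (hB : HL k (Bad : Language α))
    (h : ∀ v v', HL k ({X | X ∈ Bad ∧ T v X = v'} : Language α)) (v v' : V) :
    HL (k + 1) (Lg Bad T v v') := by
  refine promise_star Bad (hC.mono hBX) T (fun v => (LP2 v : Language α))
    (RQ2 XX Bad T LP2) ?_ ?_ hB h (fun v => HL.finite (hf2 v))
    (fun y => HL_RQ2 hf2 hX hB h y) v v'
  · intro v v' P Q R hP hQ hS
    obtain ⟨⟨Z, hZ, hZp⟩, h2⟩ := hQ v P hP
    obtain ⟨l, hl, e⟩ := hS
    cases l with
    | nil =>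
      exfalso
      rw [List.flatten_nil] at e
      have e1 : P ++ Q = [] := (List.append_eq_nil_iff.1 e.symm).1
      rw [e1] at hZp
      exact hC.1 (List.prefix_nil.1 hZp ▸ hZ)
    | cons Y l =>
      rw [List.flatten_cons] at e
      have hY : Y ∈ Bad := hl Y (by simp)
      have hYZ : Y = Z := by
        rcases List.prefix_or_prefix_of_prefix (l₁ := Y) (l₂ := Z) (l₃ := P ++ Q ++ R)
          (e ▸ List.prefix_append _ _) (hZp.trans (List.prefix_append _ _)) with h1 | h1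
        · exact hC.2 Y (hBX hY) Z hZ h1
        · exact (hC.2 Z hZ Y (hBX hY) h1).symm
      obtain ⟨Z1, hZ1, Z2, hZ2, e1, e2⟩ := h2 ⟨Y, hY, hYZ ▸ hZp⟩
      rw [e1]
      exact Lg.append (Lg.single hZ1 v) (e2 ▸ Lg.single hZ2 _)
  · intro X hX X' hX' v
    obtain ⟨P, Q, e, hP, hQ⟩ := cc2 X hX X' hX' v
    exact ⟨P, Q, e, hP, hQ⟩

/-- **both schemes** -/
theorem level3 {V : Type*} [Finite V] {XX Bad : Set (List α)} (hBX : Bad ⊆ XX) (hC : PCode XX)
    {T : V → List α → V} (LP1 LP2 : V → Set (List α)) (hf1 : ∀ v, (LP1 v).Finite)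
    (hf2 : ∀ v, (LP2 v).Finite)
    (cc1 : ∀ X ∈ XX, X ∉ Bad → ∀ v, ∃ P Q, P ++ Q = X ∧ P ∈ LP1 v ∧
      ∀ v', ∀ P' ∈ LP1 v', P' ++ Q ∈ XX ∧ T v' (P' ++ Q) = T v X)
    (cc2 : ∀ X ∈ Bad, ∀ X' ∈ Bad, ∀ v, ∃ P Q, P ++ Q = X ++ X' ∧ P ∈ LP2 v ∧
      ∀ v', ∀ P' ∈ LP2 v', (∃ Z ∈ XX, Z <+: P' ++ Q) ∧ ((∃ Z ∈ Bad, Z <+: P' ++ Q) →
        ∃ Z ∈ Bad, ∃ Z' ∈ Bad, P' ++ Q = Z ++ Z' ∧ T (T v' Z) Z' = T (T v X) X'))
    (h1 : ∀ v v', HL k ({X | X ∈ XX ∧ T v X = v'} : Language α))
    (h2 : ∀ v v', HL k ({X | X ∈ Bad ∧ T v X = v'} : Language α)) (v v' : V) :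
    HL (k + 2) (Lg XX T v v') := by
  have hun : ∀ (B : Set (List α)) (v : V),
      (∀ v v', HL k ({X | X ∈ B ∧ T v X = v'} : Language α)) → HL k (B : Language α) := by
    intro B v h
    refine (HL.iUnion (k := k) (ι := V)
      (L := fun v' => ({X | X ∈ B ∧ T v X = v'} : Language α)) (fun v' => h v v')).congr
      fun w => ?_
    constructor
    · intro hw
      exact ⟨T v w, hw, rfl⟩
    · rintro ⟨v', hw, _⟩
      exact hw
  refine star_step XX Bad T (fun v => (LP1 v : Language α)) (RQ1 XX T LP1) hBX ?_ ?_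
    (fun a b => level2 hBX hC LP2 hf2 cc2 (hun XX v h1) (hun Bad v h2) h2 a b)
    (fun v => HL.mono (Nat.le_succ k) (HL.finite (hf1 v)))
    (fun y => HL.mono (Nat.le_succ k) (HL_RQ1 hf1 h1 y)) v v'
  · intro v v' P Q hP hQ
    obtain ⟨e1, e2⟩ := hQ v P hP
    exact e2 ▸ Lg.single e1 v
  · intro X hX hXB v
    obtain ⟨P, Q, e, hP, hQ⟩ := cc1 X hX hXB v
    exact ⟨P, Q, e, hP, hQ⟩

/-- **P1 TOP**: all words, height `k + 2` (`k = 1`: height 3). -/
theorem top_block {S V : Type*} [Monoid S] [Finite S] [AddCommGroup V] [Finite V]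
    (act : V → S → V) (hadd : ∀ a b s, act (a + b) s = act a s + act b s)
    (hone : ∀ v, act v 1 = v) (hmul : ∀ v s t, act v (s * t) = act (act v s) t)
    (hfaith : ∀ s t, (∀ v, act v s = act v t) → s = t) (φ : α → S) (nu : List α → V)
    {XX Bad : Set (List α)} (hBX : Bad ⊆ XX) (hC : PCode XX) {T : V → List α → V}
    (hT : ∀ v X, T v X = act v (X.map φ).prod + nu X)
    (LP1 LP2 : V → Set (List α)) (hf1 : ∀ v, (LP1 v).Finite) (hf2 : ∀ v, (LP2 v).Finite)
    (cc1 : ∀ X ∈ XX, X ∉ Bad → ∀ v, ∃ P Q, P ++ Q = X ∧ P ∈ LP1 v ∧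
      ∀ v', ∀ P' ∈ LP1 v', P' ++ Q ∈ XX ∧ T v' (P' ++ Q) = T v X)
    (cc2 : ∀ X ∈ Bad, ∀ X' ∈ Bad, ∀ v, ∃ P Q, P ++ Q = X ++ X' ∧ P ∈ LP2 v ∧
      ∀ v', ∀ P' ∈ LP2 v', (∃ Z ∈ XX, Z <+: P' ++ Q) ∧ ((∃ Z ∈ Bad, Z <+: P' ++ Q) →
        ∃ Z ∈ Bad, ∃ Z' ∈ Bad, P' ++ Q = Z ++ Z' ∧ T (T v' Z) Z' = T (T v X) X'))
    (h1 : ∀ v v', HL k ({X | X ∈ XX ∧ T v X = v'} : Language α))
    (h2 : ∀ v v', HL k ({X | X ∈ Bad ∧ T v X = v'} : Language α))
    (h3 : ∀ s, HL (k + 2) ({w | (∀ X ∈ XX, ¬ X <+: w) ∧ (w.map φ).prod = s} : Language α))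
    (s : S) : HL (k + 2) ({w | (w.map φ).prod = s} : Language α) := by
  have hT' : T = fun v X => act v (X.map φ).prod + nu X := by
    funext v X
    exact hT v X
  have hL := level3 hBX hC LP1 LP2 hf1 hf2 cc1 cc2 h1 h2
  rw [hT'] at hL
  have hS := fibre_of_threads act hadd hone hmul hfaith φ nu XX hC.uparse hL
  let A : S → Language α := fun a => {w | w ∈ Str XX ∧ (w.map φ).prod = a}
  let B : S → Language α := fun b => {w | (∀ X ∈ XX, ¬ X <+: w) ∧ (w.map φ).prod = b}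
  refine (HL.biUnion (k := k + 2) (Set.toFinite {p : S × S | p.1 * p.2 = s})
    (L := fun p => A p.1 * B p.2)
    (fun p _ => HL.mul (L := A p.1) (M := B p.2) (hS p.1) (h3 p.2))).congr fun w => ?_
  constructor
  · intro hw
    obtain ⟨M, E, rfl, hM, hE⟩ := exists_parse hC.1 w
    refine ⟨((M.map φ).prod, (E.map φ).prod), ?_, ?_⟩
    · have hw' : ((M ++ E).map φ).prod = s := hw
      rw [List.map_append, List.prod_append] at hw'
      exact hw'
    · exact Language.mem_mul.2 ⟨M, ⟨hM, rfl⟩, E, ⟨hE, rfl⟩, rfl⟩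
  · rintro ⟨p, hp, hw⟩
    obtain ⟨M, ⟨_, hM⟩, E, ⟨_, hE⟩, rfl⟩ := Language.mem_mul.1 hw
    change ((M ++ E).map φ).prod = s
    rw [List.map_append, List.prod_append, hM, hE]
    exact hp

end Crest.Agent.R320.Top_982
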