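import Crest.Agent.R320.Hk1_851

/-!
# Row 320: the tower theorem (helper320)

One chain rule `nx` on words; zone classes `C' <= C`; a scheme (`lam`, `rho`) whose junctions are
exact on zones of `C` and which cuts every thread in every zone of `C \ C'`.  Then the chain
products along chains with all zones in `C` are one star above those with all zones in `C'`.
Promise schemes are covered (exactness is only asked on zones of `C`): first failure argument.
-/

set_option autoImplicit false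

namespace Crest.Agent.R320.Tower_320

open Crest.RegLang Crest.Agent.R320.Hk_851

universe u v

variable {α : Type u}

/-- chain rule: `nx Q = some b`: in a text which starts with `Q` at an anchor, the next anchor is at
distance `b`; it is seen with `n` more letters. -/
structure Rule (α : Type u) where
  nx : List α → Option ℕ
  n : ℕ
  B : ℕ
  B_pos : 0 < B
  nx_app : ∀ (Q r : List α) (b : ℕ), nx Q = some b → nx (Q ++ r) = some b
  nx_res : ∀ (Q r : List α) (b : ℕ), nx (Q ++ r) = some b → b + n ≤ Q.length → nx Q = some b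
  nx_vis : ∀ (Q : List α) (b : ℕ), nx Q = some b → b + n ≤ Q.length
  nx_bd : ∀ (Q : List α) (b : ℕ), nx Q = some b → b + n ≤ B
  nx_pos : ∀ (Q : List α) (b : ℕ), nx Q = some b → 0 < b

/-- a function of the visible zone -/
def Rule.Loc (σ : Rule α) {X : Type*} (f : List α → X) : Prop :=
  ∀ (Q r : List α) (b : ℕ), σ.nx Q = some b → f (Q ++ r) = f Q

/-- run along the chain -/
inductive Run (σ : Rule α) (C : List α → Prop) {T : Type v} [Monoid T] (τ : List α → T) :
    List α → List α → T → Prop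
  | base {Q : List α} (h : σ.nx Q = none) (hB : Q.length < σ.B) : Run σ C τ Q Q 1
  | step {u : List α} {b : ℕ} {Q : List α} {t : T} (h : σ.nx u = some b) (hC : C u)
      (hr : Run σ C τ (u.drop b) Q t) : Run σ C τ u Q (τ u * t)

variable {σ : Rule α} {C C' : List α → Prop} {T : Type v} [Monoid T] {τ : List α → T}

theorem Run.det {u Q : List α} {t : T} (h : Run σ C τ u Q t) :
    ∀ {Q' : List α} {t' : T}, Run σ C τ u Q' t' → Q = Q' ∧ t = t' := by
  induction h with
  | base h hB =>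
    intro Q' t' h'
    cases h' with
    | base _ _ => exact ⟨rfl, rfl⟩
    | step h2 _ _ => rw [h] at h2; cases h2
  | step h hC hr ih =>
    intro Q' t' h'
    cases h' with
    | base h2 _ => rw [h] at h2; cases h2
    | step h2 _ hr2 =>
      rw [h] at h2
      cases h2
      obtain ⟨e1, e2⟩ := ih hr2
      exact ⟨e1, by rw [e2]⟩

theorem Run.len {u Q : List α} {t : T} (h : Run σ C τ u Q t) : Q.length < σ.B := by
  induction h with
  | base h hB => exact hB
  | step h hC hr ih => exact ih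

theorem Run.nxQ {u Q : List α} {t : T} (h : Run σ C τ u Q t) : σ.nx Q = none := by
  induction h with
  | base h hB => exact h
  | step h hC hr ih => exact ih

theorem Run.len_le {u Q : List α} {t : T} (h : Run σ C τ u Q t) : Q.length ≤ u.length := by
  induction h with
  | base h hB => exact le_rfl
  | step h hC hr ih => exact ih.trans (by simp)

theorem Run.mono (hCC : ∀ Q, C' Q → C Q) {u Q : List α} {t : T} (h : Run σ C' τ u Q t) :
    Run σ C τ u Q t := by
  induction h with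
  | base h hB => exact .base h hB
  | step h hC hr ih => exact .step h (hCC _ hC) ih

theorem Run.relabel {T' : Type v} [Monoid T'] (τ' : List α → T') {u Q : List α} {t : T}
    (h : Run σ C τ u Q t) : ∃ t', Run σ C τ' u Q t' := by
  induction h with
  | base h hB => exact ⟨1, .base h hB⟩
  | step h hC hr ih =>
    obtain ⟨t', h'⟩ := ih
    exact ⟨_, .step h hC h'⟩

theorem Run.comp (hτ : σ.Loc τ) (hC : σ.Loc C) {y P : List α} {t₁ : T} (h : Run σ C τ y P t₁) :
    ∀ {r Q : List α} {t₂ : T}, Run σ C τ (P ++ r) Q t₂ → Run σ C τ (y ++ r) Q (t₁ * t₂) := by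
  induction h with
  | base h hB => intro r Q t₂ h'; rw [one_mul]; exact h'
  | @step u b Q t h hCu hr ih =>
    intro r Q' t₂ h'
    have h1 := ih h'
    have h2 : (u ++ r).drop b = u.drop b ++ r :=
      List.drop_append_of_le_length (by have := σ.nx_vis _ _ h; omega)
    rw [mul_assoc, ← hτ u r b h]
    refine .step (σ.nx_app _ _ _ h) ?_ ?_
    · rw [hC u r b h]; exact hCu
    · rw [h2]; exact h1

theorem Run.split (hτ : σ.Loc τ) (hC : σ.Loc C) {w Q : List α} {t : T} (h : Run σ C τ w Q t) :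
    ∀ {y r : List α}, w = y ++ r → ∃ P t₁ t₂, Run σ C τ y P t₁ ∧ Run σ C τ (P ++ r) Q t₂ ∧
      t = t₁ * t₂ := by
  induction h with
  | @base Q h hB =>
    rintro y r rfl
    refine ⟨y, 1, 1, .base ?_ ?_, .base h hB, by simp⟩
    · cases hy : σ.nx y with
      | none => rfl
      | some b => rw [σ.nx_app _ _ _ hy] at h; cases h
    · rw [List.length_append] at hB; omega
  | @step u b Q t h hCu hr ih =>
    rintro y r rfl
    by_cases hb : b + σ.n ≤ y.length
    · have hy := σ.nx_res _ _ _ h hb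
      obtain ⟨P, t₁, t₂, h1, h2, h3⟩ := ih (y := y.drop b) (r := r)
        (List.drop_append_of_le_length (by omega))
      refine ⟨P, τ y * t₁, t₂, .step hy ?_ h1, h2, ?_⟩
      · rw [← hC y r b hy]; exact hCu
      · rw [hτ y r b hy, h3, mul_assoc]
    · refine ⟨y, 1, τ (y ++ r) * t, .base ?_ ?_, .step h hCu hr, by simp⟩
      · cases hy : σ.nx y with
        | none => rfl
        | some b' =>
          have h2 := σ.nx_app y r b' hy
          rw [h] at h2
          cases h2
          exact absurd (σ.nx_vis _ _ hy) hb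
      · have := σ.nx_bd _ _ h
        omega

/-- last part extendable to a visible zone of `C` -/
def LE (σ : Rule α) (C : List α → Prop) (Q : List α) : Prop :=
  ∃ r b, σ.nx (Q ++ r) = some b ∧ C (Q ++ r)

/-- a scheme for the pair of zone classes `C' <= C` and the zone labelling `τ` -/
structure Scheme (σ : Rule α) (C C' : List α → Prop) {T : Type v} [Monoid T]
    (τ : List α → T) where
  T' : Type v
  [mon : Monoid T']
  [fin : Finite T']
  V : Type v
  [finV : Finite V]
  [neV : Nonempty V]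
  act : V → T' → V
  act_one : ∀ x, act x 1 = x
  act_mul : ∀ x a b, act x (a * b) = act (act x a) b
  τ' : List α → T'
  τ'_loc : σ.Loc τ'
  rd : (V → V) → T
  rd_ok : ∀ (u Q : List α) (t' : T') (t : T), Run σ C τ' u Q t' → Run σ C τ u Q t →
    rd (fun x => act x t') = t
  lam : List α → Option V
  rho : List α → Option (ℕ × V)
  rho_vis : ∀ q d c, rho q = some (d, c) → d + σ.n ≤ q.length
  rho_bd : ∀ q d c, rho q = some (d, c) → d + σ.n ≤ σ.B
  rho_app : ∀ q r d c, rho q = some (d, c) → rho (q ++ r) = some (d, c)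
  rho_res : ∀ q r d c, rho (q ++ r) = some (d, c) → d + σ.n ≤ q.length → rho q = some (d, c)
  lam_none : ∀ P x, lam P = some x → σ.nx P = none ∧ P.length < σ.B ∧ σ.n ≤ P.length
  exact : ∀ P q x d c b, lam P = some x → rho q = some (d, c) → σ.nx (P ++ q) = some b →
    C (P ++ q) → b = P.length + d ∧ c = act x (τ' (P ++ q))
  complete : ∀ Q b, σ.nx Q = some b → C Q → ¬ C' Q → ∀ x, ∃ P q d c, Q = P ++ q ∧ P ≠ [] ∧
    lam P = some x ∧ rho q = some (d, c)

attribute [instance] Scheme.mon Scheme.fin Scheme.finV Scheme.neV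

section sch

variable (S : Scheme σ C C' τ)

/-- star words of the scheme -/
def Scheme.X : Language α :=
  {u | ∃ d c P t', S.rho u = some (d, c) ∧ Run σ C' S.τ' (u.drop d) P t' ∧
    S.lam P = some (S.act c t')}

def Scheme.Y (x : S.V) : Language α :=
  {u | ∃ P t', Run σ C' S.τ' u P t' ∧ S.lam P = some (S.act x t')}

def Scheme.Z (Q : List α) (x' : S.V) : Language α :=
  {u | ∃ d c t', S.rho u = some (d, c) ∧ Run σ C' S.τ' (u.drop d) Q t' ∧ S.act c t' = x'}

def Scheme.A (x : S.V) (Q : List α) (x' : S.V) : Language α :=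
  {u | ∃ t', Run σ C' S.τ' u Q t' ∧ S.act x t' = x'}

def Scheme.E (x : S.V) (Q : List α) (x' : S.V) : Language α :=
  S.A x Q x' + S.Y x * (KStar.kstar S.X * S.Z Q x')

/-- first cut of a thread -/
theorem Scheme.cut (hC' : σ.Loc C') {u Q : List α} {t' : S.T'} (h : Run σ C S.τ' u Q t') :
    ∀ x, Run σ C' S.τ' u Q t' ∨ ∃ u₁ u₂ P t₁ d c t₂, u = u₁ ++ u₂ ∧ u₁ ≠ [] ∧
      Run σ C' S.τ' u₁ P t₁ ∧ S.lam P = some (S.act x t₁) ∧ S.rho u₂ = some (d, c) ∧
      Run σ C S.τ' (u₂.drop d) Q t₂ ∧ S.act c t₂ = S.act x t' := by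
  induction h with
  | base h hB => intro x; exact Or.inl (.base h hB)
  | @step u b Q t h hCu hr ih =>
    intro x
    by_cases hC1 : C' u
    · rcases ih (S.act x (S.τ' u)) with h1 | ⟨u₁, u₂, P, t₁, d, c, t₂, e, hne, h1, h2, h3, h4, h5⟩
      · exact Or.inl (.step h hC1 h1)
      · right
        have hl : σ.n ≤ u₁.length := (S.lam_none _ _ h2).2.2.trans h1.len_le
        have hbl := σ.nx_vis _ _ h
        have htk : (u.take b).length = b := by rw [List.length_take]; omega
        have eu : u = (u.take b ++ u₁) ++ u₂ := by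
          rw [List.append_assoc, ← e, List.take_append_drop]
        have hn : σ.nx (u.take b ++ u₁) = some b := by
          apply σ.nx_res _ u₂
          · rw [← eu]; exact h
          · rw [List.length_append, htk]; omega
        refine ⟨u.take b ++ u₁, u₂, P, S.τ' u * t₁, d, c, t₂, eu, by simp [hne], ?_, ?_, h3, h4, ?_⟩
        · have e1 : S.τ' u = S.τ' (u.take b ++ u₁) := by
            have := S.τ'_loc _ u₂ b hn
            rw [← eu] at this
            exact this
          rw [e1]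
          refine .step hn ?_ ?_
          · have := hC' _ u₂ b hn
            rw [← eu] at this
            rw [← this]
            exact hC1
          · rw [List.drop_append_of_le_length (by omega), List.drop_of_length_le (by omega)]
            simpa using h1
        · rw [S.act_mul]; exact h2
        · rw [h5, S.act_mul]
    · right
      obtain ⟨P, q, d, c, e, hne, h1, h2⟩ := S.complete u b h hCu hC1 x
      subst e
      obtain ⟨e1, e2⟩ := S.exact P q x d c b h1 h2 h hCu
      obtain ⟨l1, l2, l3⟩ := S.lam_none _ _ h1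
      refine ⟨P, q, P, 1, d, c, t, rfl, hne, .base l1 l2, ?_, h2, ?_, ?_⟩
      · rw [S.act_one]; exact h1
      · have : (P ++ q).drop b = q.drop d := by
          rw [e1, ← List.drop_drop, List.drop_left]
        rw [this] at hr
        exact hr
      · rw [e2, S.act_mul]

theorem Scheme.compl_mid (hC' : σ.Loc C') (k : ℕ) :
    ∀ {u Q : List α} {t' : S.T'} {d : ℕ} {c : S.V}, u.length ≤ k → S.rho u = some (d, c) →
      Run σ C S.τ' (u.drop d) Q t' → u ∈ KStar.kstar S.X * S.Z Q (S.act c t') := by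
  induction k with
  | zero =>
    intro u Q t' d c hk hr h
    rcases S.cut hC' h c with h1 | ⟨u₁, u₂, P, t₁, d', c', t₂, e, hne, h1, h2, h3, h4, h5⟩
    · rw [Language.mem_mul]
      exact ⟨[], Language.nil_mem_kstar _, u, ⟨d, c, t', hr, h1, rfl⟩, rfl⟩
    · exfalso
      have h6 := congrArg List.length e
      rw [List.length_append, List.length_drop] at h6
      have h7 := List.length_pos_iff.2 hne
      omega
  | succ k ih =>
    intro u Q t' d c hk hr h
    rcases S.cut hC' h c with h1 | ⟨u₁, u₂, P, t₁, d', c', t₂, e, hne, h1, h2, h3, h4, h5⟩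
    · rw [Language.mem_mul]
      exact ⟨[], Language.nil_mem_kstar _, u, ⟨d, c, t', hr, h1, rfl⟩, rfl⟩
    · have h6 := congrArg List.length e
      rw [List.length_append, List.length_drop] at h6
      have h7 := List.length_pos_iff.2 hne
      have hv := S.rho_vis _ _ _ hr
      have hl : σ.n ≤ u₁.length := (S.lam_none _ _ h2).2.2.trans h1.len_le
      have htk : (u.take d).length = d := by rw [List.length_take]; omega
      have eu : u = (u.take d ++ u₁) ++ u₂ := by
        rw [List.append_assoc, ← e, List.take_append_drop]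
      have hx : u.take d ++ u₁ ∈ S.X := by
        refine ⟨d, c, P, t₁, ?_, ?_, h2⟩
        · apply S.rho_res _ u₂
          · rw [← eu]; exact hr
          · rw [List.length_append, htk]; omega
        · rw [List.drop_append_of_le_length (by omega), List.drop_of_length_le (by omega)]
          simpa using h1
      have h8 := ih (u := u₂) (by omega) h3 h4
      rw [h5, Language.mem_mul] at h8
      obtain ⟨k₁, hk₁, z, hz, e8⟩ := h8
      rw [Language.mem_mul]
      refine ⟨(u.take d ++ u₁) ++ k₁, ?_, z, hz, ?_⟩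
      · rw [Language.mem_kstar] at hk₁ ⊢
        obtain ⟨L, rfl, hL⟩ := hk₁
        refine ⟨(u.take d ++ u₁) :: L, by simp, ?_⟩
        intro y hy
        rcases List.mem_cons.1 hy with rfl | hy
        · exact hx
        · exact hL y hy
      · rw [List.append_assoc, e8, ← eu]

theorem Scheme.complE (hC' : σ.Loc C') {u Q : List α} {t' : S.T'} (h : Run σ C S.τ' u Q t')
    (x : S.V) : u ∈ S.E x Q (S.act x t') := by
  rcases S.cut hC' h x with h1 | ⟨u₁, u₂, P, t₁, d', c', t₂, e, hne, h1, h2, h3, h4, h5⟩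
  · exact Or.inl ⟨t', h1, rfl⟩
  · have := S.compl_mid hC' u₂.length le_rfl h3 h4
    rw [h5] at this
    exact Or.inr (Language.mem_mul.2 ⟨u₁, ⟨P, t₁, h1, h2⟩, u₂, this, e.symm⟩)

/-- junction lemma -/
theorem Scheme.junction (hC : σ.Loc C) {y P s Q₀ : List α} {t₁ t₀ : S.T'} {x c : S.V} {d : ℕ}
    (hy : Run σ C S.τ' y P t₁) (hl : S.lam P = some (S.act x t₁)) (hs : S.rho s = some (d, c))
    (h : Run σ C S.τ' (y ++ s) Q₀ t₀) (hLE : LE σ C Q₀) :
    ∃ t₃, Run σ C S.τ' (s.drop d) Q₀ t₃ ∧ S.act x t₀ = S.act c t₃ := by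
  obtain ⟨P', t₁', t₂, h1, h2, h3⟩ := h.split S.τ'_loc hC rfl
  obtain ⟨rfl, rfl⟩ := hy.det h1
  cases h2 with
  | base h4 hB =>
    exfalso
    obtain ⟨r, b, h5, h6⟩ := hLE
    have h5' : σ.nx (P ++ (s ++ r)) = some b := by rw [← List.append_assoc]; exact h5
    have h6' : C (P ++ (s ++ r)) := by rw [← List.append_assoc]; exact h6
    obtain ⟨e1, -⟩ := S.exact P (s ++ r) _ d c b hl (S.rho_app _ _ _ _ hs) h5' h6'
    have h7 := S.rho_vis _ _ _ hs
    have h8 := σ.nx_res _ _ _ h5 (by rw [List.length_append]; omega)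
    rw [h4] at h8
    cases h8
  | @step _ b _ t₃ h4 h5 h6 =>
    obtain ⟨e1, e2⟩ := S.exact P s _ d c b hl hs h4 h5
    refine ⟨t₃, ?_, ?_⟩
    · have : (P ++ s).drop b = s.drop d := by rw [e1, ← List.drop_drop, List.drop_left]
      rw [this] at h6
      exact h6
    · rw [h3, S.act_mul, S.act_mul, ← e2]

theorem Scheme.sound_mid (hCC : ∀ Q, C' Q → C Q) (hC : σ.Loc C) {Q Q₀ : List α} {x' : S.V}
    (hLE : LE σ C Q₀) (L : List (List α)) :
    ∀ {z : List α}, (∀ y ∈ L, y ∈ S.X) → z ∈ S.Z Q x' →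
      ∃ d c, S.rho (L.flatten ++ z) = some (d, c) ∧ ∀ t₀,
        Run σ C S.τ' ((L.flatten ++ z).drop d) Q₀ t₀ → Q = Q₀ ∧ x' = S.act c t₀ := by
  induction L with
  | nil =>
    rintro z - ⟨d, c, t', h1, h2, h3⟩
    refine ⟨d, c, h1, fun t₀ h => ?_⟩
    obtain ⟨e1, e2⟩ := (h2.mono hCC).det h
    subst e1 e2
    exact ⟨rfl, h3.symm⟩
  | cons y L ih =>
    intro z hL hz
    obtain ⟨d, c, P, t₁, h1, h2, h3⟩ := hL y (by simp)
    obtain ⟨d', c', h4, h5⟩ := ih (fun y' hy' => hL y' (by simp [hy'])) hz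
    have hv := S.rho_vis _ _ _ h1
    have e0 : (y :: L).flatten ++ z = y ++ (L.flatten ++ z) := by simp
    refine ⟨d, c, by rw [e0]; exact S.rho_app _ _ _ _ h1, fun t₀ h => ?_⟩
    rw [e0, List.drop_append_of_le_length (by omega)] at h
    obtain ⟨t₃, h6, h7⟩ := S.junction hC (h2.mono hCC) h3 h4 h hLE
    obtain ⟨e1, e2⟩ := h5 _ h6
    exact ⟨e1, by rw [e2, h7]⟩

theorem Scheme.soundE (hCC : ∀ Q, C' Q → C Q) (hC : σ.Loc C) {u Q Q₀ : List α} {t₀ : S.T'}
    {x x' : S.V} (h : Run σ C S.τ' u Q₀ t₀) (hLE : LE σ C Q₀) (hu : u ∈ S.E x Q x') :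
    Q = Q₀ ∧ x' = S.act x t₀ := by
  rcases hu with ⟨t', h1, h2⟩ | hu
  · obtain ⟨e1, e2⟩ := (h1.mono hCC).det h
    subst e1 e2
    exact ⟨rfl, h2.symm⟩
  · obtain ⟨y, ⟨P, t₁, h1, h2⟩, s, hs, rfl⟩ := Language.mem_mul.1 hu
    obtain ⟨k, hk, z, hz, rfl⟩ := Language.mem_mul.1 hs
    obtain ⟨L, rfl, hL⟩ := Language.mem_kstar.1 hk
    obtain ⟨d, c, h3, h4⟩ := S.sound_mid hCC hC hLE L hL hz
    obtain ⟨t₃, h5, h6⟩ := S.junction hC (h1.mono hCC) h2 h3 h hLE
    obtain ⟨e1, e2⟩ := h4 _ h5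
    exact ⟨e1, by rw [e2, h6]⟩

variable {k : ℕ} [Finite α]

theorem finB (B : ℕ) : Finite {P : List α // P.length < B} :=
  (List.finite_length_lt α B).to_subtype

theorem Scheme.hrho (d : ℕ) (c : S.V) : HL k {u | S.rho u = some (d, c)} := by
  have h1 : HL k ({v | v.length = d + σ.n ∧ S.rho v = some (d, c)} : Language α) :=
    HL.finite ((List.finite_length_eq α (d + σ.n)).subset fun w hw => hw.1)
  refine h1.prefix.congr fun w => Iff.symm ?_
  constructor
  · rintro ⟨v, ⟨-, hv⟩, r, rfl⟩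
    exact S.rho_app _ _ _ _ hv
  · intro hw
    have hw' : S.rho w = some (d, c) := hw
    have h2 := S.rho_vis _ _ _ hw'
    refine ⟨w.take (d + σ.n), ⟨by rw [List.length_take]; omega, ?_⟩, List.take_prefix _ _⟩
    apply S.rho_res _ (w.drop (d + σ.n))
    · rw [List.take_append_drop]; exact hw'
    · rw [List.length_take]; omega

theorem HLdrop (d : ℕ) {L : Language α} (hL : HL k L) :
    HL k {u | d ≤ u.length ∧ u.drop d ∈ L} := by
  have h1 : HL k ({v | v.length = d} : Language α) := HL.length_eq d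
  refine (h1.mul hL).congr fun w => Iff.symm ?_
  constructor
  · intro hw
    obtain ⟨a, ha, b, hb, rfl⟩ := Language.mem_mul.1 hw
    have ha' : a.length = d := ha
    refine ⟨by rw [List.length_append]; omega, ?_⟩
    rw [← ha', List.drop_left]
    exact hb
  · rintro ⟨h2, h3⟩
    refine Language.mem_mul.2 ⟨w.take d, ?_, w.drop d, h3, List.take_append_drop _ _⟩
    change (w.take d).length = d
    rw [List.length_take]; omega

theorem Scheme.hX (h0 : ∀ P t', HL k {u | Run σ C' S.τ' u P t'}) : HL k S.X := by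
  have := finB (α := α) σ.B
  have h1 : HL k {u | ∃ i : Fin (σ.B + 1) × S.V × {P : List α // P.length < σ.B} × S.T',
      u ∈ ({u | (S.rho u = some (i.1.1, i.2.1) ∧ i.1.1 ≤ u.length ∧
        Run σ C' S.τ' (u.drop i.1.1) i.2.2.1.1 i.2.2.2) ∧
        S.lam i.2.2.1.1 = some (S.act i.2.1 i.2.2.2)} : Language α)} :=
    HL.iUnion fun i => HL.setOf_and (HL.setOf_and (S.hrho _ _) (HLdrop _ (h0 _ _))) (HL.const _)
  refine h1.congr fun w => Iff.symm ?_
  constructor
  · rintro ⟨i, ⟨h2, h3, h4⟩, h5⟩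
    exact ⟨_, _, _, _, h2, h4, h5⟩
  · rintro ⟨d, c, P, t', h2, h3, h4⟩
    have h5 := S.rho_bd _ _ _ h2
    have h6 := S.rho_vis _ _ _ h2
    exact ⟨(⟨d, by omega⟩, c, ⟨P, h3.len⟩, t'), ⟨h2, by change d ≤ _; omega, h3⟩, h4⟩

theorem Scheme.hZ (h0 : ∀ P t', HL k {u | Run σ C' S.τ' u P t'}) (Q : List α) (x' : S.V) :
    HL k (S.Z Q x') := by
  have h1 : HL k {u | ∃ i : Fin (σ.B + 1) × S.V × S.T',
      u ∈ ({u | (S.rho u = some (i.1.1, i.2.1) ∧ i.1.1 ≤ u.length ∧
        Run σ C' S.τ' (u.drop i.1.1) Q i.2.2) ∧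
        S.act i.2.1 i.2.2 = x'} : Language α)} :=
    HL.iUnion fun i => HL.setOf_and (HL.setOf_and (S.hrho _ _) (HLdrop _ (h0 _ _))) (HL.const _)
  refine h1.congr fun w => Iff.symm ?_
  constructor
  · rintro ⟨i, ⟨h2, h3, h4⟩, h5⟩
    exact ⟨_, _, _, h2, h4, h5⟩
  · rintro ⟨d, c, t', h2, h3, h4⟩
    have h5 := S.rho_bd _ _ _ h2
    have h6 := S.rho_vis _ _ _ h2
    exact ⟨(⟨d, by omega⟩, c, t'), ⟨h2, by change d ≤ _; omega, h3⟩, h4⟩

theorem Scheme.hY (h0 : ∀ P t', HL k {u | Run σ C' S.τ' u P t'}) (x : S.V) :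
    HL k (S.Y x) := by
  have := finB (α := α) σ.B
  have h1 : HL k {u | ∃ i : {P : List α // P.length < σ.B} × S.T',
      u ∈ ({u | Run σ C' S.τ' u i.1.1 i.2 ∧ S.lam i.1.1 = some (S.act x i.2)} : Language α)} :=
    HL.iUnion fun i => HL.setOf_and (h0 _ _) (HL.const _)
  refine h1.congr fun w => Iff.symm ?_
  constructor
  · rintro ⟨i, h2, h3⟩
    exact ⟨_, _, h2, h3⟩
  · rintro ⟨P, t', h2, h3⟩
    exact ⟨(⟨P, h2.len⟩, t'), h2, h3⟩

theorem Scheme.hA (h0 : ∀ P t', HL k {u | Run σ C' S.τ' u P t'}) (x : S.V) (Q : List α)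
    (x' : S.V) : HL k (S.A x Q x') := by
  have h1 : HL k {u | ∃ i : S.T',
      u ∈ ({u | Run σ C' S.τ' u Q i ∧ S.act x i = x'} : Language α)} :=
    HL.iUnion fun i => HL.setOf_and (h0 _ _) (HL.const _)
  exact h1

theorem Scheme.hE (h0 : ∀ P t', HL k {u | Run σ C' S.τ' u P t'}) (x : S.V) (Q : List α)
    (x' : S.V) : HL (k + 1) (S.E x Q x') :=
  ((S.hA h0 x Q x').mono (Nat.le_succ k)).add
    (((S.hY h0 x).mono (Nat.le_succ k)).mul
      ((S.hX h0).star.mul ((S.hZ h0 Q x').mono (Nat.le_succ k))))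

/-- reading, correct on extendable words -/
def Scheme.R (Q : List α) (t : T) : Language α :=
  {u | ∃ g : {g : S.V → S.V // S.rd g = t}, ∀ x, u ∈ S.E x Q (g.1 x)}

theorem Scheme.hR (h0 : ∀ P t', HL k {u | Run σ C' S.τ' u P t'}) (Q : List α) (t : T) :
    HL (k + 1) (S.R Q t) := by
  have h1 : HL (k + 1) {u | ∃ g : {g : S.V → S.V // S.rd g = t},
      u ∈ ({u | ∀ x, u ∈ S.E x Q (g.1 x)} : Language α)} :=
    HL.iUnion fun g => HL.iInter fun x => S.hE h0 x Q (g.1 x)
  exact h1

theorem Scheme.R_iff (hCC : ∀ Q, C' Q → C Q) (hC : σ.Loc C) (hC' : σ.Loc C')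
    {u Q₀ : List α} {t₀ : T} (h : Run σ C τ u Q₀ t₀) (hLE : LE σ C Q₀) (Q : List α) (t : T) :
    u ∈ S.R Q t ↔ Q = Q₀ ∧ t = t₀ := by
  obtain ⟨t', h'⟩ := h.relabel S.τ'
  have hrd := S.rd_ok _ _ _ _ h' h
  constructor
  · rintro ⟨g, hg⟩
    have h1 := fun x => S.soundE hCC hC h' hLE (hg x)
    obtain ⟨x0⟩ := S.neV
    refine ⟨(h1 x0).1, ?_⟩
    have : g.1 = fun x => S.act x t' := funext fun x => (h1 x).2
    rw [← g.2, this, hrd]
  · rintro ⟨rfl, rfl⟩
    exact ⟨⟨fun x => S.act x t', hrd⟩, fun x => S.complE hC' h' x⟩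

/-- reading, correct on live words -/
def Scheme.R2 (Q : List α) (t : T) : Language α :=
  {u | (u.length < σ.B ∧ Run σ C τ u Q t) ∨
    ∃ i : {r : List α // r.length = σ.B} × {P : List α // P.length < σ.B} × T × T,
      (Run σ C τ (i.2.1.1 ++ i.1.1) Q i.2.2.2 ∧ i.2.2.1 * i.2.2.2 = t) ∧
      u ∈ S.R i.2.1.1 i.2.2.1 * ({i.1.1} : Language α)}

theorem Scheme.hR2 [Finite T] (h0 : ∀ P t', HL k {u | Run σ C' S.τ' u P t'}) (Q : List α) (t : T) :
    HL (k + 1) (S.R2 Q t) := by
  have := finB (α := α) σ.B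
  have : Finite {r : List α // r.length = σ.B} := (List.finite_length_eq α σ.B).to_subtype
  refine HL.setOf_or ?_ ?_
  · exact HL.finite ((List.finite_length_lt α σ.B).subset fun w hw => hw.1)
  · exact HL.iUnion fun i => HL.setOf_and (HL.const _) ((S.hR h0 _ _).mul (HL.word _))

theorem Scheme.R2_iff (hCC : ∀ Q, C' Q → C Q) (hC : σ.Loc C) (hC' : σ.Loc C') (hτ : σ.Loc τ)
    {u Q₀ : List α} {t₀ : T} (h : Run σ C τ u Q₀ t₀) (Q : List α) (t : T) :
    u ∈ S.R2 Q t ↔ Q = Q₀ ∧ t = t₀ := by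
  -- at a split with `B` letters to the right the left part is extendable
  have key : ∀ (y r P₀ : List α) (t₁ : T), u = y ++ r → r.length = σ.B → Run σ C τ y P₀ t₁ →
      LE σ C P₀ ∧ ∃ t₂, Run σ C τ (P₀ ++ r) Q₀ t₂ ∧ t₀ = t₁ * t₂ := by
    intro y r P₀ t₁ e hr hy
    obtain ⟨P', t₁', t₂, h1, h2, h3⟩ := h.split hτ hC e
    obtain ⟨rfl, rfl⟩ := hy.det h1
    refine ⟨?_, t₂, h2, h3⟩
    cases h2 with
    | base h4 hB => rw [List.length_append] at hB; omega
    | @step _ b _ t₃ h4 h5 h6 => exact ⟨r, b, h4, h5⟩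
  constructor
  · rintro (⟨-, h1⟩ | ⟨i, ⟨h1, h2⟩, h3⟩)
    · obtain ⟨e1, e2⟩ := h1.det h
      exact ⟨e1, e2⟩
    · obtain ⟨y, hy, r, hr, e⟩ := Language.mem_mul.1 h3
      have hr' : r = i.1.1 := hr
      subst hr'
      obtain ⟨P₀, t₁, t₂, h4, h5, h6⟩ := h.split hτ hC e.symm
      obtain ⟨hLE, t₂', h7, h8⟩ := key y i.1.1 P₀ t₁ e.symm i.1.2 h4
      obtain ⟨e1, e2⟩ := (S.R_iff hCC hC hC' h4 hLE _ _).1 hy
      rw [e1] at h1
      obtain ⟨e3, e4⟩ := h1.det h7
      exact ⟨e3, by rw [← h2, e2, e4, h8]⟩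
  · rintro ⟨rfl, rfl⟩
    by_cases hl : u.length < σ.B
    · exact Or.inl ⟨hl, h⟩
    · right
      have e : u = u.take (u.length - σ.B) ++ u.drop (u.length - σ.B) :=
        (List.take_append_drop _ _).symm
      have hr : (u.drop (u.length - σ.B)).length = σ.B := by rw [List.length_drop]; omega
      obtain ⟨P₀, t₁, t₂, h4, h5, h6⟩ := h.split hτ hC e
      obtain ⟨hLE, -⟩ := key _ _ P₀ t₁ e hr h4
      refine ⟨(⟨_, hr⟩, ⟨P₀, h4.len⟩, t₁, t₂), ⟨h5, h6.symm⟩, ?_⟩
      exact Language.mem_mul.2 ⟨_, (S.R_iff hCC hC hC' h4 hLE _ _).2 ⟨rfl, rfl⟩, _, rfl, e.symm⟩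

/-- **one step of the tower** -/
theorem Scheme.tower [Finite T] (hCC : ∀ Q, C' Q → C Q) (hC : σ.Loc C) (hC' : σ.Loc C')
    (hτ : σ.Loc τ) (h0 : ∀ P t', HL k {u | Run σ C' S.τ' u P t'}) (Q : List α) (t : T) :
    HL (k + 1) {u | Run σ C τ u Q t} := by
  have := finB (α := α) σ.B
  have nil_live : Run σ C τ [] [] 1 := by
    refine .base ?_ (by simpa using σ.B_pos)
    cases hn : σ.nx ([] : List α) with
    | none => rfl
    | some b =>
      have h1 := σ.nx_vis _ _ hn
      have h2 := σ.nx_pos _ _ hn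
      simp at h1
      omega
  have hdead : HL (k + 1) {u | ∃ i : {Q : List α // Q.length < σ.B} × T × α,
      u ∈ ({u | (¬ ∃ Q' t', Run σ C τ (i.1.1 ++ [i.2.2]) Q' t') ∧
        u ∈ S.R2 i.1.1 i.2.1 * ({[i.2.2]} : Language α) * (⊤ : Language α)} : Language α)} :=
    HL.iUnion fun i => HL.setOf_and (HL.const _) (((S.hR2 h0 _ _).mul (HL.word _)).mul HL.top)
  have hlive : ∀ u, (∃ Q t, Run σ C τ u Q t) ↔
      ¬ u ∈ ({u | ∃ i : {Q : List α // Q.length < σ.B} × T × α,
      u ∈ ({u | (¬ ∃ Q' t', Run σ C τ (i.1.1 ++ [i.2.2]) Q' t') ∧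
        u ∈ S.R2 i.1.1 i.2.1 * ({[i.2.2]} : Language α) * (⊤ : Language α)} : Language α)} :
          Language α) := by
    intro u
    constructor
    · rintro ⟨Q₁, t₁, h1⟩ ⟨i, h2, h3⟩
      obtain ⟨wx, hwx, r, -, rfl⟩ := Language.mem_mul.1 h3
      obtain ⟨w, hw, x, hx, rfl⟩ := Language.mem_mul.1 hwx
      have hx' : x = [i.2.2] := hx
      subst hx'
      obtain ⟨P, s₁, s₂, h4, h5, h6⟩ := h1.split hτ hC rfl
      obtain ⟨P', s₁', s₂', h7, h8, h9⟩ := h4.split hτ hC rfl
      obtain ⟨e1, e2⟩ := (S.R2_iff hCC hC hC' hτ h7 _ _).1 hw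
      apply h2
      rw [e1]
      exact ⟨_, _, h8⟩
    · intro h1
      by_contra h2
      apply h1
      clear h1
      induction u using List.reverseRecOn with
      | nil => exact absurd ⟨_, _, nil_live⟩ h2
      | append_singleton w x ih =>
        by_cases hw : ∃ Q t, Run σ C τ w Q t
        · obtain ⟨Q₁, t₁, h3⟩ := hw
          refine ⟨(⟨Q₁, h3.len⟩, t₁, x), ?_, ?_⟩
          · rintro ⟨Q', t', h4⟩
            exact h2 ⟨_, _, h3.comp hτ hC h4⟩
          · exact Language.mem_mul.2 ⟨w ++ [x], Language.mem_mul.2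
              ⟨w, (S.R2_iff hCC hC hC' hτ h3 _ _).2 ⟨rfl, rfl⟩, [x], rfl, rfl⟩, [], trivial,
              by simp⟩
        · obtain ⟨i, h3, h4⟩ := ih hw
          obtain ⟨wx, hwx, r, -, e⟩ := Language.mem_mul.1 h4
          exact ⟨i, h3, Language.mem_mul.2 ⟨wx, hwx, r ++ [x], trivial, by
            rw [← e, List.append_assoc]⟩⟩
  refine (HL.setOf_and hdead.setOf_not (S.hR2 h0 Q t)).congr fun u => Iff.symm ?_
  constructor
  · rintro ⟨h1, h2⟩
    obtain ⟨Q₀, t₀, h3⟩ := (hlive u).2 h1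
    obtain ⟨rfl, rfl⟩ := (S.R2_iff hCC hC hC' hτ h3 _ _).1 h2
    exact h3
  · intro h1
    exact ⟨(hlive u).1 ⟨_, _, h1⟩, (S.R2_iff hCC hC hC' hτ h1 _ _).2 ⟨rfl, rfl⟩⟩

end sch

/-- bottom of the tower: no zone at all -/
theorem base_HL [Finite α] {k : ℕ} (Q : List α) (t : T) :
    HL k {u | Run σ (fun _ => False) τ u Q t} := by
  refine HL.finite ((List.finite_length_lt α σ.B).subset ?_)
  intro u hu
  have hu' : Run σ (fun _ => False) τ u Q t := hu
  cases hu' with
  | base h hB => exact hB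
  | step h hC hr => exact hC.elim

/-- **Tower theorem.**  `C 0 = all zones`, ..., `C m = no zone`; for all finite monoids and local
labellings there is a scheme for every pair `C (j+1) <= C j`. -/
theorem tower [Finite α] (σ : Rule α) (m : ℕ) (C : ℕ → List α → Prop)
    (hCm : ∀ Q, ¬ C m Q) (hCC : ∀ j < m, ∀ Q, C (j + 1) Q → C j Q) (hC : ∀ j ≤ m, σ.Loc (C j))
    (hS : ∀ j < m, ∀ (T : Type v) [Monoid T] [Finite T] (τ : List α → T), σ.Loc τ →
      Nonempty (Scheme σ (C j) (C (j + 1)) τ)) :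
    ∀ j ≤ m, ∀ (T : Type v) [Monoid T] [Finite T] (τ : List α → T), σ.Loc τ →
      ∀ Q t, HL (m - j) {u | Run σ (C j) τ u Q t} := by
  intro j hj
  obtain ⟨i, rfl⟩ : ∃ i, j = m - i := ⟨m - j, by omega⟩
  induction i with
  | zero =>
    intro T _ _ τ hτ Q t
    refine (base_HL (σ := σ) (τ := τ) Q t).congr fun u => Iff.symm ?_
    constructor
    · intro h
      exact Run.mono (fun _ h => h.elim) h
    · intro h
      exact Run.mono (fun Q h => hCm Q h) h
  | succ i ih =>
    intro T _ _ τ hτ Q t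
    by_cases him : i < m
    · have e1 : m - i = (m - (i + 1)) + 1 := by omega
      have ih' := ih (by omega)
      rw [e1] at ih'
      obtain ⟨S⟩ := hS (m - (i + 1)) (by omega) T τ hτ
      have := S.tower (k := m - (m - (i + 1) + 1)) (hCC _ (by omega)) (hC _ (by omega))
        (hC _ (by omega)) hτ (fun P t' => ih' S.T' S.τ' S.τ'_loc P t') Q t
      have e2 : m - (m - (i + 1) + 1) + 1 = m - (m - (i + 1)) := by omega
      rw [e2] at this
      exact this
    · have e1 : m - (i + 1) = m - i := by omega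
      have := ih (by omega) T τ hτ Q t
      rw [e1]
      exact this

end Crest.Agent.R320.Tower_320
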