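import Mathlib

/-!
Row 320, the coarse transducer: a list automaton which follows a chain of walls.

A right-looking rule `R` of window `n`: `R Q` depends on `Q.take n` only and needs `n ≤ Q.length`.
A wall of the text `w` at place `t` is `R (w.drop t)`. The chain from a wall `a` goes to the first
wall `≥ a + z`. State: (text since the active wall, token). Zone map `zm : zone → token → token`.
-/

set_option autoImplicit false

namespace Crest.R320.Trans946

variable {α V : Type*}

/-- Right-looking rule of window `n` (format of Wall_291). -/
structure Rule (n : ℕ) (R : List α → Prop) : Prop where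
  loc : ∀ Q, R Q ↔ R (Q.take n)
  len : ∀ Q, R Q → n ≤ Q.length

theorem Rule.append {n : ℕ} {R : List α → Prop} (h : Rule n R) {Q X : List α}
    (hQ : n ≤ Q.length) : R (Q ++ X) ↔ R Q := by
  rw [h.loc (Q ++ X), h.loc Q, List.take_append_of_le_length hQ]

theorem Rule.drop_append {n : ℕ} {R : List α → Prop} (h : Rule n R) {w X : List α} {t : ℕ}
    (ht : t + n ≤ w.length) : R ((w ++ X).drop t) ↔ R (w.drop t) := by
  rw [List.drop_append_of_le_length (by omega)]
  exact h.append (by rw [List.length_drop]; omega)

/-- No wall at a place `≥ z` is certified inside `w`. -/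
def Clean (n z : ℕ) (R : List α → Prop) (w : List α) : Prop :=
  ∀ t, z ≤ t → t + n ≤ w.length → ¬ R (w.drop t)

theorem Clean.of_prefix {n z : ℕ} {R : List α → Prop} (h : Rule n R) {w X : List α}
    (hc : Clean n z R (w ++ X)) : Clean n z R w := by
  intro t hz ht hR
  refine hc t hz (by rw [List.length_append]; omega) ?_
  exact (h.drop_append ht).2 hR

open Classical in
/-- The letter step. -/
noncomputable def stp (n z : ℕ) (R : List α → Prop) (zm : List α → V → V)
    (s : List α × V) (c : α) : List α × V :=
  if z + n ≤ (s.1 ++ [c]).length ∧ R ((s.1 ++ [c]).drop ((s.1 ++ [c]).length - n)) then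
    ((s.1 ++ [c]).drop ((s.1 ++ [c]).length - n),
      zm ((s.1 ++ [c]).take ((s.1 ++ [c]).length - n)) s.2)
  else (s.1 ++ [c], s.2)

/-- The run of the transducer. -/
noncomputable def run (n z : ℕ) (R : List α → Prop) (zm : List α → V → V)
    (s : List α × V) (w : List α) : List α × V :=
  w.foldl (stp n z R zm) s

section
variable {n z : ℕ} {R : List α → Prop} {zm : List α → V → V}

@[simp] theorem run_nil (s : List α × V) : run n z R zm s [] = s := rfl

theorem run_append (s : List α × V) (w x : List α) :
    run n z R zm s (w ++ x) = run n z R zm (run n z R zm s w) x := by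
  simp [run, List.foldl_append]

theorem run_cons (s : List α × V) (c : α) (x : List α) :
    run n z R zm s (c :: x) = run n z R zm (stp n z R zm s c) x := rfl

theorem stp_clean {s : List α × V} {c : α} (hc : Clean n z R (s.1 ++ [c])) :
    stp n z R zm s c = (s.1 ++ [c], s.2) := by
  rw [stp, if_neg]
  rintro ⟨h1, h2⟩
  exact hc _ (by omega) (by omega) h2

/-- On clean text nothing happens. -/
theorem run_clean (h : Rule n R) (u w : List α) (v : V) (hc : Clean n z R (u ++ w)) :
    run n z R zm (u, v) w = (u ++ w, v) := by
  induction w using List.reverseRecOn with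
  | nil => simp
  | append_singleton w c ih =>
    rw [← List.append_assoc] at hc
    rw [run_append, ih (hc.of_prefix h), run_cons, run_nil,
      stp_clean (s := (u ++ w, v)) hc, List.append_assoc]

/-- The first wall `≥ z` of `w`, certified. -/
structure First (n z : ℕ) (R : List α → Prop) (w : List α) (t : ℕ) : Prop where
  ge : z ≤ t
  le : t + n ≤ w.length
  wall : R (w.drop t)
  min : ∀ t', z ≤ t' → t' < t → ¬ R (w.drop t')

theorem First.append (h : Rule n R) {w X : List α} {t : ℕ} (hf : First n z R w t) :
    First n z R (w ++ X) t := by
  refine ⟨hf.ge, by have := hf.le; rw [List.length_append]; omega,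
    (h.drop_append hf.le).2 hf.wall, ?_⟩
  intro t' h1 h2 h3
  have := hf.le
  exact hf.min t' h1 h2 ((h.drop_append (by omega)).1 h3)

theorem First.take (h : Rule n R) {w : List α} {t : ℕ} (hf : First n z R w t) :
    First n z R (w.take (t + n)) t := by
  have hle := hf.le
  have hl : (w.take (t + n)).length = t + n := by simp [hle]
  have key : ∀ t', t' + n ≤ t + n → (R (w.drop t') ↔ R ((w.take (t + n)).drop t')) := by
    intro t' ht'
    conv_lhs => rw [← List.take_append_drop (t + n) w]
    exact h.drop_append (by omega)
  refine ⟨hf.ge, by omega, (key t le_rfl).1 hf.wall, ?_⟩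
  intro t' h1 h2 h3
  exact hf.min t' h1 h2 ((key t' (by omega)).2 h3)

/-- Zone recursion: at the first wall `≥ z` the run restarts with the new token. -/
theorem run_first (h : Rule n R) (hn : 0 < n) (hz : 0 < z) {w : List α} {t : ℕ} (v : V)
    (hf : First n z R w t) :
    run n z R zm ([], v) w = run n z R zm ([], zm (w.take t) v) (w.drop t) := by
  have hle := hf.le
  set y := w.take (t + n) with hy
  have hyl : y.length = t + n := by simp [hy, hle]
  have hw : w = y ++ w.drop (t + n) := by rw [hy, List.take_append_drop]
  have hfy : First n z R y t := hf.take h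
  -- split off the last letter of `y`
  obtain ⟨y', c, hyc⟩ : ∃ y' c, y = y' ++ [c] := by
    have : y ≠ [] := by
      intro h0; rw [h0] at hyl; simp at hyl; omega
    exact ⟨y.dropLast, y.getLast this, (List.dropLast_append_getLast this).symm⟩
  have hy'l : y'.length + 1 = t + n := by
    have := hyl; rw [hyc, List.length_append] at this; simpa using this
  have hcl : Clean n z R y' := by
    intro t' h1 h2 h3
    refine hfy.min t' h1 (by omega) ?_
    rw [hyc]; exact (h.drop_append h2).2 h3
  have h1 : run n z R zm ([], v) y' = (y', v) := by
    have := run_clean (zm := zm) h [] y' v (by simpa using hcl)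
    simpa using this
  have hlen : (y' ++ [c]).length - n = t := by rw [← hyc, hyl]; omega
  have h2 : run n z R zm ([], v) y = (y.drop t, zm (y.take t) v) := by
    conv_lhs => rw [hyc]
    rw [run_append, h1, run_cons, run_nil, stp]
    simp only [hlen]
    rw [if_pos]
    · rw [← hyc]
    · have h9 : y.length - n = t := by omega
      rw [← hyc]
      exact ⟨by have := hf.ge; omega, by rw [h9]; exact hfy.wall⟩
  have h3 : run n z R zm ([], zm (w.take t) v) (y.drop t) = (y.drop t, zm (w.take t) v) := by
    have := run_clean (zm := zm) (z := z) h [] (y.drop t) (zm (w.take t) v) (by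
      intro t' h1 h2 _
      simp only [List.nil_append, List.length_drop, hyl] at h2
      omega)
    simpa using this
  have h4 : w.drop t = y.drop t ++ w.drop (t + n) := by
    conv_lhs => rw [hw]
    rw [List.drop_append_of_le_length (by omega)]
  have h5 : y.take t = w.take t := by
    rw [hy, List.take_take]; congr 1; omega
  rw [h4, run_append, h3]
  conv_lhs => rw [hw]
  rw [run_append, h2, h5]

/-- **Junction soundness.** Left state `(P, v)` with `P` clean and `|P| = p + j`, `j ≤ N1`,
`z = p + q + N1`; the right window `Z` has no wall in `[q, q + N1)` and its first wall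
`≥ q + N1` is `b`. Then `b` is the end of the active zone, and the state after `Z` is
the run from the token `zm (P ++ Z.take b) v` at `b`. -/
theorem junction (h : Rule n R) (hn : 0 < n) (hz : 0 < z) {p q N1 j b : ℕ} {P Z : List α} (v : V)
    (hzz : z = p + q + N1) (hP : P.length = p + j) (hj : j ≤ N1)
    (hno : ∀ t, q ≤ t → t < q + N1 → ¬ R (Z.drop t))
    (hb : First n (q + N1) R Z b) :
    First n z R (P ++ Z) (P.length + b) ∧
    run n z R zm (P, v) Z =
      run n z R zm ([], zm (P ++ Z.take b) v) (Z.drop b) := by
  have hPc : Clean n z R P := by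
    intro t h1 h2 _
    omega
  have hfirst : First n z R (P ++ Z) (P.length + b) := by
    have hge := hb.ge
    have hle := hb.le
    refine ⟨by omega, by rw [List.length_append]; omega, ?_, ?_⟩
    · rw [List.drop_append, List.drop_eq_nil_of_le (by omega), List.nil_append,
        Nat.add_sub_cancel_left]
      exact hb.wall
    · intro t h1 h2 h3
      have h4 : P.length ≤ t := by omega
      rw [List.drop_append, List.drop_eq_nil_of_le h4, List.nil_append] at h3
      by_cases h5 : t - P.length < q + N1
      · exact hno _ (by omega) h5 h3
      · exact hb.min _ (by omega) (by omega) h3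
  refine ⟨hfirst, ?_⟩
  have h1 : run n z R zm ([], v) P = (P, v) := by
    have := run_clean (zm := zm) h [] P v (by simpa using hPc)
    simpa using this
  have h2 : run n z R zm (P, v) Z = run n z R zm ([], v) (P ++ Z) := by
    rw [run_append, h1]
  rw [h2, run_first h hn hz v hfirst]
  congr 1
  · rw [List.take_append]
    simp [List.take_of_length_le]
  · rw [List.drop_append]
    simp [List.drop_eq_nil_of_le]

/-- Gadget form: a left label `lam` and a right label `rho` which are exact for the zone map give
a state which is a function of the right window alone. -/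
theorem junction_gadget (h : Rule n R) (hn : 0 < n) (hz : 0 < z) {p q N1 j b : ℕ} {P Z : List α}
    {v r : V} {lam rho : List α → Option V}
    (hex : ∀ X Y v r, lam X = some v → rho Y = some r → zm (X ++ Y) v = r)
    (hzz : z = p + q + N1) (hP : P.length = p + j) (hj : j ≤ N1)
    (hno : ∀ t, q ≤ t → t < q + N1 → ¬ R (Z.drop t))
    (hb : First n (q + N1) R Z b) (hl : lam P = some v) (hr : rho (Z.take b) = some r) :
    run n z R zm (P, v) Z = run n z R zm ([], r) (Z.drop b) := by
  rw [(junction (zm := zm) h hn hz v hzz hP hj hno hb).2, hex _ _ _ _ hl hr]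

end

end Crest.R320.Trans946
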