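import Crest.Agent.R320.Two_55

/-!
# Row 320: assembly of the two-scheme chain, part 2: the promise scheme (helper55)
-/

set_option autoImplicit false

namespace Crest.Agent.R320.Two_55

open Crest.Agent.R320.Hk_851

universe u

variable {α : Type u}

/-- chain map with visibility `p` and bound `D` on the class `RF` -/
structure Base (α : Type u) where
  nxt : List α → Option ℕ
  Bad : List α → Prop
  RF : Set (List α)
  p : ℕ
  D : ℕ
  p0 : 0 < p
  pD : p ≤ D
  A1 : ∀ w d, nxt w = some d → 0 < d ∧ d + p ≤ w.length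
  A2 : ∀ x y y', nxt (x ++ y) = some x.length → y.take p = y'.take p →
    nxt (x ++ y') = some x.length
  A3 : ∀ w ∈ RF, D ≤ w.length → ∃ d, nxt w = some d ∧ d + p ≤ D
  A4 : ∀ x y, D ≤ x.length → (Bad (x ++ y) ↔ Bad x)
  hRF : ∀ u v, v <:+: u → u ∈ RF → v ∈ RF
  RF0 : HL 0 (RF : Language α)

/-- readings of a scheme: right-legal starts, left-legal ends -/
structure Rd (B : Base α) (V : Type u) where
  st : List α → Option (ℕ × V)
  En : List α → V → Prop
  E1 : ∀ r v, En r v → B.p ≤ r.length ∧ r.length < B.D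
  S1 : ∀ x b c, st x = some (b, c) → b + B.p ≤ x.length ∧ b ≤ B.D
  S2 : ∀ x y y' c, st (x ++ y) = some (x.length, c) → y.take B.p = y'.take B.p →
    st (x ++ y') = some (x.length, c)

/-- promise scheme (scheme 2) -/
structure Prom (B : Base α) (V : Type u) extends Rd B V where
  f : List α → V → V
  T3 : ∀ r x v b c, En r v → st x = some (b, c) → B.D ≤ (r ++ x).length → B.Bad (r ++ x) →
    B.nxt (r ++ x) = some (r.length + b) ∧ f (r ++ x) v = c
  T4 : ∀ w ∈ B.RF, B.D ≤ w.length → B.Bad w → ∀ v, ∃ r x b c, w = r ++ x ∧ En r v ∧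
    st x = some (b, c)

theorem take_append_eq {p : ℕ} {a b : List α} (h : p ≤ a.length) :
    (a ++ b).take p = a.take p := by
  rw [List.take_append_of_le_length h]

section prom

variable {B : Base α} {V : Type u} (Q : Prom B V)

/-- tokens of the promise scheme -/
def K2 : Language α :=
  {k | k.length ≤ 2 * B.D ∧ ∃ x y c, k = x ++ y ∧ Q.st k = some (x.length, c) ∧ Q.En y c}

/-- claims of the promise scheme -/
def Claim (v0 c : V) (y : List α) : Language α :=
  {w | ∃ r k x, w = r ++ k ++ x ∧ Q.En r v0 ∧ k ∈ KStar.kstar (K2 Q) ∧ x.length ≤ B.D ∧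
    Q.st (x ++ y) = some (x.length, c)}

theorem sound2 (ks : List (List α)) (hks : ∀ k ∈ ks, k ∈ K2 Q) {r x Y Z : List α} {v c : V}
    (hr : Q.En r v) (hx : Q.st (x ++ Y) = some (x.length, c)) (hY : B.D ≤ Y.length)
    (hZ : Z <:+ Y) (hCB : CB B.nxt B.Bad (r ++ (ks.flatten ++ (x ++ Y))) Z)
    (hp : 0 < r.length) (hp' : 0 < B.p) :
    Ch B.nxt B.Bad Q.f (r ++ (ks.flatten ++ (x ++ Y))) v Y c ∧ CB B.nxt B.Bad Y Z := by
  induction ks generalizing r v with
  | nil =>
    simp only [List.flatten_nil, List.nil_append] at hCB ⊢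
    have hne : r ++ (x ++ Y) ≠ Z := by
      intro e
      have h1 := hZ.length_le
      rw [← e] at h1
      simp only [List.length_append] at h1
      omega
    obtain ⟨a, b, e, h1, h2, h3⟩ := hCB.first hne
    have hlen : B.D ≤ (r ++ (x ++ Y)).length := by
      simp only [List.length_append]; omega
    obtain ⟨h4, h5⟩ := Q.T3 r (x ++ Y) v x.length c hr hx hlen h2
    rw [h1] at h4
    have h6 : a.length = (r ++ x).length := by
      simp only [List.length_append]; simpa using h4
    have e' : (r ++ x) ++ Y = a ++ b := by rw [← e, List.append_assoc]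
    obtain ⟨rfl, rfl⟩ := List.append_inj e' h6.symm
    refine ⟨?_, h3⟩
    rw [e]
    refine Ch.step ?_ ?_ ?_
    · rw [← e, h1]
    · rw [← e]; exact h2
    · rw [← e, h5]; exact Ch.refl _ _
  | cons k ks ih =>
    obtain ⟨hk, x1, y1, c1, rfl, hk1, hk2⟩ := hks k (by simp)
    have hks' : ∀ k ∈ ks, k ∈ K2 Q := fun k hk => hks k (by simp [hk])
    have hy1 := Q.E1 _ _ hk2
    have eq0 : r ++ (((x1 ++ y1) :: ks).flatten ++ (x ++ Y)) =
        r ++ (x1 ++ (y1 ++ (ks.flatten ++ (x ++ Y)))) := by
      simp [List.append_assoc]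
    rw [eq0] at hCB ⊢
    have hne : r ++ (x1 ++ (y1 ++ (ks.flatten ++ (x ++ Y)))) ≠ Z := by
      intro e
      have h1 := hZ.length_le
      rw [← e] at h1
      simp only [List.length_append] at h1
      omega
    obtain ⟨a, b, e, h1, h2, h3⟩ := hCB.first hne
    have hlen : B.D ≤ (r ++ (x1 ++ (y1 ++ (ks.flatten ++ (x ++ Y))))).length := by
      simp only [List.length_append]; omega
    have hst : Q.st (x1 ++ (y1 ++ (ks.flatten ++ (x ++ Y)))) = some (x1.length, c1) :=
      Q.S2 x1 y1 _ c1 hk1 (take_append_eq hy1.1).symm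
    obtain ⟨h4, h5⟩ := Q.T3 r _ v x1.length c1 hr hst hlen h2
    rw [h1] at h4
    have h6 : a.length = (r ++ x1).length := by
      simp only [List.length_append]; simpa using h4
    have e' : (r ++ x1) ++ (y1 ++ (ks.flatten ++ (x ++ Y))) = a ++ b := by
      rw [← e, List.append_assoc]
    obtain ⟨rfl, rfl⟩ := List.append_inj e' h6.symm
    obtain ⟨h7, h8⟩ := ih hks' hk2 h3 (by omega)
    refine ⟨?_, h8⟩
    rw [e]
    refine Ch.step ?_ ?_ ?_
    · rw [← e, h1]
    · rw [← e]; exact h2
    · rw [← e, h5]; exact h7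

theorem complete2 {R Y : List α} {v c : V} (h : Ch B.nxt B.Bad Q.f R v Y c) (hRF : R ∈ B.RF)
    (hY : B.D ≤ Y.length) :
    (R = Y ∧ c = v) ∨ ∃ r k x, R = r ++ (k ++ (x ++ Y)) ∧ Q.En r v ∧
      k ∈ KStar.kstar (K2 Q) ∧ x.length ≤ B.D ∧ Q.st (x ++ Y) = some (x.length, c) := by
  induction h with
  | refl w v => exact Or.inl ⟨rfl, rfl⟩
  | @step a b Y v c h1 h2 h3 ih =>
    right
    have hb : b ∈ B.RF := B.hRF _ _ (List.suffix_append a b).isInfix hRF
    have hYb := h3.toCB.len
    have hlen : B.D ≤ (a ++ b).length := by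
      simp only [List.length_append]; omega
    obtain ⟨r, x1, b1, c1, e, hr, hx1⟩ := Q.T4 _ hRF hlen h2 v
    have hlen' : B.D ≤ (r ++ x1).length := by rw [← e]; exact hlen
    have hbad' : B.Bad (r ++ x1) := by rw [← e]; exact h2
    obtain ⟨h4, h5⟩ := Q.T3 r x1 v b1 c1 hr hx1 hlen' hbad'
    rw [← e, h1] at h4
    rw [← e] at h5
    have h6 : a.length = r.length + b1 := by simpa using h4
    obtain ⟨d, hd1, hd2⟩ := B.A3 _ hRF hlen
    rw [h1] at hd1
    have hd3 : a.length = d := by simpa using hd1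
    obtain ⟨x1', e1⟩ : ∃ x1', a = r ++ x1' := by
      have : r <+: a ++ b := ⟨x1, e.symm⟩
      have := List.prefix_of_prefix_length_le this (List.prefix_append a b) (by omega)
      obtain ⟨t, ht⟩ := this
      exact ⟨t, ht.symm⟩
    subst e1
    have e2 : x1 = x1' ++ b := by
      rw [List.append_assoc] at e
      exact (List.append_cancel_left e).symm
    subst e2
    have hx1' : x1'.length = b1 := by
      simp only [List.length_append] at h6; omega
    subst hx1'
    rcases ih hb hY with ⟨rfl, rfl⟩ | ⟨r', k, x, e3, hr', hk, hxl, hx⟩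
    · refine ⟨r, [], x1', by simp, hr, ?_, ?_, ?_⟩
      · exact Language.mem_kstar.2 ⟨[], rfl, fun y hy => by simp at hy⟩
      · simp only [List.length_append] at hd3; omega
      · rw [h5]; exact hx1
    · have hr'' := Q.E1 _ _ hr'
      subst e3
      refine ⟨r, (x1' ++ r') ++ k, x, by simp [List.append_assoc], hr, ?_, hxl, hx⟩
      obtain ⟨S, rfl, hS⟩ := Language.mem_kstar.1 hk
      refine Language.mem_kstar.2 ⟨(x1' ++ r') :: S, by simp, ?_⟩
      intro z hz
      rcases List.mem_cons.1 hz with rfl | hz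
      · refine ⟨?_, x1', r', c1, rfl, ?_, ?_⟩
        · simp only [List.length_append] at hd3 ⊢; omega
        · exact Q.S2 x1' _ r' c1 hx1 (take_append_eq hr''.1)
        · rw [← h5]; exact hr'
      · exact hS z hz

end prom

end Crest.Agent.R320.Two_55
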