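import Crest.Agent.R320.Two2_55

/-!
# Row 320: assembly of the two-scheme chain, part 3: languages of the promise scheme (helper55)
-/

set_option autoImplicit false

namespace Crest.Agent.R320.Two_55

open Crest.Agent.R320.Hk_851

universe u

variable {α : Type u}

theorem Base.nxt_vis (B : Base α) {w w' : List α} {d : ℕ} (h : B.nxt w = some d)
    (e : w.take (d + B.p) = w'.take (d + B.p)) : B.nxt w' = some d := by
  have hl := B.A1 w d h
  have e1 : w.take d = w'.take d := by
    have := congrArg (List.take d) e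
    simpa [List.take_take] using this
  have e3 : (w.take d).length = d := by
    rw [List.length_take]; omega
  have e4 : (w.drop d).take B.p = (w'.drop d).take B.p := by
    have := congrArg (List.drop d) e
    simpa [List.drop_take, Nat.add_sub_cancel_left] using this
  have h1 := B.A2 (w.take d) (w.drop d) (w'.drop d)
    (by rw [List.take_append_drop, e3]; exact h) e4
  rw [e3, e1, List.take_append_drop] at h1
  exact h1

theorem Rd.st_vis {B : Base α} {V : Type u} (R : Rd B V) {w w' : List α} {b : ℕ} {c : V}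
    (h : R.st w = some (b, c)) (e : w.take (b + B.p) = w'.take (b + B.p)) :
    R.st w' = some (b, c) := by
  have hl := R.S1 w b c h
  have e1 : w.take b = w'.take b := by
    have := congrArg (List.take b) e
    simpa [List.take_take] using this
  have e3 : (w.take b).length = b := by
    rw [List.length_take]; omega
  have e4 : (w.drop b).take B.p = (w'.drop b).take B.p := by
    have := congrArg (List.drop b) e
    simpa [List.drop_take, Nat.add_sub_cancel_left] using this
  have h1 := R.S2 (w.take b) (w.drop b) (w'.drop b) c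
    (by rw [List.take_append_drop, e3]; exact h) e4
  rw [e3, e1, List.take_append_drop] at h1
  exact h1

theorem Base.nxt_take (B : Base α) {R : List α} {d : ℕ} (hd : d + B.p ≤ B.D) :
    B.nxt (R.take B.D) = some d ↔ B.nxt R = some d := by
  have e : (R.take B.D).take (d + B.p) = R.take (d + B.p) := by
    rw [List.take_take, min_eq_left hd]
  exact ⟨fun h => B.nxt_vis h e, fun h => B.nxt_vis h e.symm⟩

theorem Base.nxt_of_take (B : Base α) {R : List α} {d : ℕ} (h : B.nxt (R.take B.D) = some d) :
    B.nxt R = some d := by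
  have h1 := B.A1 _ _ h
  have h2 : d + B.p ≤ B.D := by
    rw [List.length_take] at h1; omega
  exact (B.nxt_take h2).1 h

theorem Base.bad_take (B : Base α) {R : List α} (h : B.D ≤ R.length) :
    B.Bad (R.take B.D) ↔ B.Bad R := by
  have h1 := B.A4 (R.take B.D) (R.drop B.D) (by rw [List.length_take]; omega)
  rw [List.take_append_drop] at h1
  exact h1.symm

section prom

variable {B : Base α} {V : Type u} (Q : Prom B V)

/-- all nodes bad from the start up to the node text `Y` -/
def PB (B : Base α) (Y : List α) : Language α :=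
  {w | w ++ Y ∈ B.RF ∧ CB B.nxt B.Bad (w ++ Y) Y}

/-- a claimed first failure -/
def Fail (Y : List α) : Language α :=
  {w | ∃ w' x, w = w' ++ x ∧ x ≠ [] ∧
    (w' = [] ∨ ∃ v0 c, w' ∈ Claim Q v0 c ((x ++ Y).take B.D)) ∧
    (¬ B.Bad ((x ++ Y).take B.D) ∨ ∃ d, B.nxt ((x ++ Y).take B.D) = some d ∧ x.length < d)}

theorem st_take {x' R : List α} {c : V} :
    Q.st (x' ++ R.take B.D) = some (x'.length, c) ↔ Q.st (x' ++ R) = some (x'.length, c) := by
  have e : (R.take B.D).take B.p = R.take B.p := by
    rw [List.take_take, min_eq_left B.pD]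
  exact ⟨fun h => Q.S2 _ _ _ _ h e, fun h => Q.S2 _ _ _ _ h e.symm⟩

theorem claim_take {v0 c : V} {R : List α} {w : List α} :
    w ∈ Claim Q v0 c (R.take B.D) ↔ w ∈ Claim Q v0 c R := by
  constructor
  · rintro ⟨r, k, x, e, h1, h2, h3, h4⟩
    exact ⟨r, k, x, e, h1, h2, h3, (st_take Q).1 h4⟩
  · rintro ⟨r, k, x, e, h1, h2, h3, h4⟩
    exact ⟨r, k, x, e, h1, h2, h3, (st_take Q).2 h4⟩

theorem sound2' {w Y Z : List α} {v c : V} (hw : w ∈ Claim Q v c Y) (hY : B.D ≤ Y.length)
    (hZ : Z <:+ Y) (hCB : CB B.nxt B.Bad (w ++ Y) Z) :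
    Ch B.nxt B.Bad Q.f (w ++ Y) v Y c ∧ CB B.nxt B.Bad Y Z := by
  obtain ⟨r, k, x, rfl, hr, hk, hx, hst⟩ := hw
  obtain ⟨S, rfl, hS⟩ := Language.mem_kstar.1 hk
  have hE := Q.E1 _ _ hr
  have hp := B.p0
  have e : r ++ S.flatten ++ x ++ Y = r ++ (S.flatten ++ (x ++ Y)) := by
    simp [List.append_assoc]
  rw [e] at hCB ⊢
  exact sound2 Q S hS hr hst hY hZ hCB (by omega) hp

theorem not_fail {w Y : List α} (hY : B.D ≤ Y.length) (h : CB B.nxt B.Bad (w ++ Y) Y) :
    w ∉ Fail Q Y := by
  rintro ⟨w', x, rfl, hx, hcl, hf⟩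
  have hxl : 0 < x.length := List.length_pos_iff.2 hx
  have hCB : CB B.nxt B.Bad (x ++ Y) Y := by
    rcases hcl with rfl | ⟨v0, c, hc⟩
    · simpa using h
    · rw [claim_take] at hc
      rw [List.append_assoc] at h
      exact (sound2' Q hc (by simp only [List.length_append]; omega)
        (List.suffix_append _ _) h).2
  have hne : x ++ Y ≠ Y := by
    intro e
    have := congrArg List.length e
    simp only [List.length_append] at this
    omega
  obtain ⟨a, b, e, h1, h2, h3⟩ := hCB.first hne
  have h4 := h3.len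
  have h5 : a.length ≤ x.length := by
    have := congrArg List.length e
    simp only [List.length_append] at this
    omega
  have hD : B.D ≤ (x ++ Y).length := by simp only [List.length_append]; omega
  rcases hf with hf | ⟨d, hd, hlt⟩
  · exact hf ((B.bad_take hD).2 h2)
  · have h6 := B.nxt_of_take hd
    rw [h1] at h6
    have : a.length = d := by simpa using h6
    omega

theorem fail_of [Nonempty V] {Y : List α} (hY : B.D ≤ Y.length) (n : ℕ) :
    ∀ x w' : List α, x.length ≤ n → w' ++ (x ++ Y) ∈ B.RF →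
      CB B.nxt B.Bad (w' ++ (x ++ Y)) (x ++ Y) → ¬ CB B.nxt B.Bad (x ++ Y) Y →
      (w' ++ x) ∈ Fail Q Y := by
  induction n with
  | zero =>
    intro x w' hx _ _ h
    have : x = [] := List.length_eq_zero_iff.1 (by omega)
    subst this
    exact (h (CB.refl _)).elim
  | succ n ih =>
    intro x w' hx hRF hCB h
    have hne : x ≠ [] := by
      rintro rfl
      exact h (CB.refl _)
    have hD : B.D ≤ (x ++ Y).length := by simp only [List.length_append]; omega
    have hRFx : x ++ Y ∈ B.RF := B.hRF _ _ (List.suffix_append w' (x ++ Y)).isInfix hRF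
    obtain ⟨d, hd1, hd2⟩ := B.A3 _ hRFx hD
    have hd0 := B.A1 _ _ hd1
    have hcl : w' = [] ∨ ∃ v0 c, w' ∈ Claim Q v0 c ((x ++ Y).take B.D) := by
      obtain ⟨v0⟩ := ‹Nonempty V›
      obtain ⟨c, hc⟩ := hCB.toCh Q.f v0
      rcases complete2 Q hc hRF hD with ⟨e, _⟩ | ⟨r, k, x', e, hr, hk, hxl, hst⟩
      · left
        have := congrArg List.length e
        simp only [List.length_append] at this
        exact List.length_eq_zero_iff.1 (by omega)
      · right
        refine ⟨v0, c, (claim_take Q).2 ⟨r, k, x', ?_, hr, hk, hxl, hst⟩⟩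
        have e' : w' ++ (x ++ Y) = (r ++ k ++ x') ++ (x ++ Y) := by
          rw [e]; simp [List.append_assoc]
        exact List.append_cancel_right e'
    by_cases hbad : B.Bad (x ++ Y)
    · by_cases hdx : d ≤ x.length
      · obtain ⟨x1, x2, rfl, hx1⟩ : ∃ x1 x2, x = x1 ++ x2 ∧ x1.length = d :=
          ⟨x.take d, x.drop d, (List.take_append_drop _ _).symm, by
            rw [List.length_take]; omega⟩
        subst hx1
        have e1 : (x1 ++ x2) ++ Y = x1 ++ (x2 ++ Y) := List.append_assoc _ _ _
        rw [e1] at hd1 hbad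
        have hstep : CB B.nxt B.Bad (x1 ++ (x2 ++ Y)) (x2 ++ Y) :=
          CB.step hd1 hbad (CB.refl _)
        have h1 : CB B.nxt B.Bad ((w' ++ x1) ++ (x2 ++ Y)) (x2 ++ Y) := by
          have := hCB.trans (by rw [e1]; exact hstep)
          rw [e1, ← List.append_assoc w' x1] at this
          exact this
        have h2 : ¬ CB B.nxt B.Bad (x2 ++ Y) Y := by
          intro h3
          apply h
          rw [e1]
          exact hstep.trans h3
        have h4 := ih x2 (w' ++ x1) (by
          simp only [List.length_append] at hx hd0; omega) (by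
          rw [e1, ← List.append_assoc w' x1] at hRF; exact hRF) h1 h2
        rw [List.append_assoc] at h4
        exact h4
      · refine ⟨w', x, rfl, hne, hcl, Or.inr ⟨d, (B.nxt_take hd2).2 hd1, by omega⟩⟩
    · exact ⟨w', x, rfl, hne, hcl, Or.inl fun h' => hbad ((B.bad_take hD).1 h')⟩

theorem PB_iff [Nonempty V] {w Y : List α} (hY : B.D ≤ Y.length) :
    w ∈ PB B Y ↔ w ++ Y ∈ B.RF ∧ w ∉ Fail Q Y := by
  constructor
  · rintro ⟨h1, h2⟩
    exact ⟨h1, not_fail Q hY h2⟩
  · rintro ⟨h1, h2⟩
    refine ⟨h1, ?_⟩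
    by_contra h3
    apply h2
    have := fail_of Q hY w.length w [] le_rfl (by simpa using h1) (by simpa using CB.refl _) h3
    simpa using this

variable [Finite α]

theorem HL_K2 : HL 0 (K2 Q) :=
  HL.finite ((List.finite_length_le α (2 * B.D)).subset fun _ hk => hk.1)

theorem HL_Claim (v0 c : V) (y : List α) : HL 1 (Claim Q v0 c y) := by
  have h1 : HL 1 ({r | Q.En r v0} : Language α) :=
    HL.finite ((List.finite_length_lt α B.D).subset fun r hr => (Q.E1 r v0 hr).2)
  have h2 : HL 1 (KStar.kstar (K2 Q)) := (HL_K2 Q).star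
  have h3 : HL 1 ({x | x.length ≤ B.D ∧ Q.st (x ++ y) = some (x.length, c)} : Language α) :=
    HL.finite ((List.finite_length_le α B.D).subset fun x hx => hx.1)
  refine ((h1.mul h2).mul h3).congr fun w => ?_
  constructor
  · rintro ⟨r, k, x, rfl, hr, hk, hx, hst⟩
    exact Language.mem_mul.2 ⟨r ++ k, Language.mem_mul.2 ⟨r, hr, k, hk, rfl⟩, x, ⟨hx, hst⟩, rfl⟩
  · intro hw
    obtain ⟨rk, hrk, x, ⟨hx, hst⟩, rfl⟩ := Language.mem_mul.1 hw
    obtain ⟨r, hr, k, hk, rfl⟩ := Language.mem_mul.1 hrk
    exact ⟨r, k, x, rfl, hr, hk, hx, hst⟩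

theorem HL_take {k : ℕ} (n : ℕ) (t : List α) (ht : t.length = n) :
    HL k ({z | z.take n = t} : Language α) := by
  have h := (HL.word (k := k) t).prefix
  refine h.congr fun w => ?_
  constructor
  · intro hw
    refine ⟨t, rfl, ?_⟩
    have hw' : w.take n = t := hw
    rw [← hw']
    exact List.take_prefix _ _
  · rintro ⟨v, hv, hvw⟩
    have hv' : v = t := hv
    subst hv'
    obtain ⟨z, rfl⟩ := hvw
    change (v ++ z).take n = v
    rw [← ht]; simp

/-- prefixes claimed to be a node -/
def FA (t : List α) : Language α := {w' | w' = [] ∨ ∃ v0 c, w' ∈ Claim Q v0 c t}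

/-- tails which fail at once -/
def FG (B : Base α) (Y t : List α) : Language α := {x | x ≠ [] ∧ (x ++ Y).take B.D = t ∧
      (¬ B.Bad t ∨ ∃ d, B.nxt t = some d ∧ x.length < d)}

theorem HL_Fail [Finite V] {Y : List α} (hY : B.D ≤ Y.length) : HL 1 (Fail Q Y) := by
  have hA : ∀ t : List α, HL 1 (FA Q t) := by
    intro t
    refine HL.setOf_or (HL.one.congr fun w => Iff.rfl) ?_
    exact HL.iUnion fun v0 => HL.iUnion fun c => HL_Claim Q v0 c t
  have hG : ∀ t : List α, t.length = B.D → HL 1 (FG B Y t) := by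
    intro t ht
    refine HL.setOf_and ?_ (HL.setOf_and ?_ (HL.setOf_or (HL.const _) ?_))
    · exact (HL.one (α := α)).compl
    · exact (HL_take B.D t ht).rquot Y
    · rcases h : B.nxt t with _ | d
      · exact (HL.const False).congr fun w => ⟨fun ⟨d, hd, _⟩ => by simp at hd, fun h => h.elim⟩
      · exact (HL.length_lt d).congr fun w =>
          ⟨fun ⟨d', hd, hl⟩ => by
            have : d = d' := by simpa using hd
            subst this; exact hl, fun hl => ⟨d, rfl, hl⟩⟩
  have hU : HL 1 ({w | ∃ t ∈ {t : List α | t.length = B.D}, w ∈ FA Q t * FG B Y t} :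
      Language α) :=
    HL.biUnion (k := 1) (List.finite_length_eq α B.D) (L := fun t => FA Q t * FG B Y t)
      (fun t ht => (hA t).mul (hG t ht))
  refine hU.congr fun w => ?_
  constructor
  · rintro ⟨w', x, rfl, hx, hcl, hf⟩
    refine ⟨(x ++ Y).take B.D, ?_, ?_⟩
    · change ((x ++ Y).take B.D).length = B.D
      rw [List.length_take, List.length_append]; omega
    · exact Language.mem_mul.2 ⟨w', hcl, x, ⟨hx, rfl, hf⟩, rfl⟩
  · rintro ⟨t, ht, hw⟩
    obtain ⟨w', hcl, x, ⟨hx, rfl, hf⟩, rfl⟩ := Language.mem_mul.1 hw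
    exact ⟨w', x, rfl, hx, hcl, hf⟩

theorem HL_RF {k : ℕ} (Y : List α) : HL k ({w | w ++ Y ∈ B.RF} : Language α) :=
  (B.RF0.mono (Nat.zero_le k)).rquot Y

theorem HL_PB (Q : Prom B V) [Finite V] [Nonempty V] {Y : List α} (hY : B.D ≤ Y.length) : HL 1 (PB B Y) := by
  refine (HL.setOf_and (HL_RF (B := B) Y) ((HL_Fail Q hY).compl)).congr fun w => ?_
  exact PB_iff Q hY

/-- transport of the promise scheme along bad chains -/
def TB (B : Base α) (f : List α → V → V) (v c : V) (Y : List α) : Language α :=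
  {w | w ++ Y ∈ B.RF ∧ Ch B.nxt B.Bad f (w ++ Y) v Y c}

theorem HL_TB2 [Finite V] [Nonempty V] {Y : List α} (hY : B.D ≤ Y.length) (v c : V) :
    HL 1 (TB B Q.f v c Y) := by
  have h1 : HL 1 ({w | w = [] ∧ c = v} : Language α) :=
    HL.setOf_and (HL.one.congr fun w => Iff.rfl) (HL.const _)
  refine ((HL_PB Q hY).inf (h1.sup (HL_Claim Q v c Y))).congr fun w => ?_
  constructor
  · rintro ⟨h2, h3⟩
    refine ⟨⟨h2, h3.toCB⟩, ?_⟩
    rcases complete2 Q h3 h2 hY with ⟨e, e2⟩ | ⟨r, k, x, e, hr, hk, hx, hst⟩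
    · left
      refine ⟨?_, e2⟩
      have := congrArg List.length e
      simp only [List.length_append] at this
      exact List.length_eq_zero_iff.1 (by omega)
    · right
      refine ⟨r, k, x, ?_, hr, hk, hx, hst⟩
      have e' : w ++ Y = (r ++ k ++ x) ++ Y := by
        rw [e]; simp [List.append_assoc]
      exact List.append_cancel_right e'
  · rintro ⟨⟨h2, h3⟩, h4⟩
    refine ⟨h2, ?_⟩
    rcases h4 with ⟨h5, h6⟩ | h4
    · have h5' : w = [] := h5
      have h6' : c = v := h6
      subst h5'; subst h6'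
      exact Ch.refl _ _
    · exact (sound2' Q h4 hY (List.suffix_refl _) h3).1

end prom

end Crest.Agent.R320.Two_55
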