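import Crest.Agent.R320.Two3_55

/-!
# Row 320: assembly of the two-scheme chain, part 4: read-off, scheme 1, final theorem (helper55)
-/

set_option autoImplicit false
set_option linter.unusedSectionVars false

namespace Crest.Agent.R320.Two_55

open Crest.Agent.R320.Hk_851

universe u

variable {α : Type u}

/-- additive faithful right action of the maps `V1 → V1` on `V2` -/
structure Act (V1 V2 : Type u) [AddCommGroup V2] where
  act : V2 → (V1 → V1) → V2
  act_id : ∀ v, act v id = v
  act_comp : ∀ v m m', act v (m' ∘ m) = act (act v m) m'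
  act_add : ∀ v v' m, act (v + v') m = act v m + act v' m
  act_inj : ∀ m m', (∀ v, act v m = act v m') → m = m'

theorem Act.act_zero {V1 V2 : Type u} [AddCommGroup V2] (A : Act V1 V2) (m : V1 → V1) :
    A.act 0 m = 0 := by
  have h := A.act_add 0 0 m
  rw [add_zero] at h
  exact left_eq_add.1 h

theorem Base.pos (B : Base α) : ∀ w d, B.nxt w = some d → 0 < d := fun w d h => (B.A1 w d h).1

section readoff

variable {B : Base α} {V1 V2 : Type u} [AddCommGroup V2] (A : Act V1 V2) (Q : Prom B V2)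
  (f1 : List α → V1 → V1) (nu : List α → V2) (hf : ∀ w v, Q.f w v = A.act v (f1 w) + nu w)

include hf in
theorem comp_bad {R Y : List α} (h : CB B.nxt B.Bad R Y) :
    ∃ m : V1 → V1, (∀ v, Ch B.nxt B.Bad f1 R v Y (m v)) ∧
      ∃ n : V2, ∀ v, Ch B.nxt B.Bad Q.f R v Y (A.act v m + n) := by
  induction h with
  | refl w =>
    refine ⟨id, fun v => Ch.refl _ _, 0, fun v => ?_⟩
    rw [A.act_id, add_zero]
    exact Ch.refl _ _
  | @step x y r h1 h2 h3 ih =>
    obtain ⟨m, hm, n, hn⟩ := ih
    refine ⟨m ∘ f1 (x ++ y), fun v => Ch.step h1 h2 (hm _), A.act (nu (x ++ y)) m + n,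
      fun v => ?_⟩
    refine Ch.step h1 h2 ?_
    have := hn (Q.f (x ++ y) v)
    rw [hf, A.act_add, ← A.act_comp] at this
    rw [hf, ← add_assoc]
    exact this

include hf in
theorem TB1_iff {Y w : List α} (v v' : V1) :
    w ∈ TB B f1 v v' Y ↔ ∃ m : V1 → V1, m v = v' ∧ ∃ n : V2, ∀ v2 : V2,
      w ∈ TB B Q.f v2 (A.act v2 m + n) Y := by
  constructor
  · rintro ⟨h1, h2⟩
    obtain ⟨m, hm, n, hn⟩ := comp_bad A Q f1 nu hf h2.toCB
    exact ⟨m, (hm v).det B.pos h2, n, fun v2 => ⟨h1, hn v2⟩⟩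
  · rintro ⟨m, rfl, n, h⟩
    have h0 := h 0
    obtain ⟨m', hm', n', hn'⟩ := comp_bad A Q f1 nu hf h0.2.toCB
    have e : ∀ v2, A.act v2 m + n = A.act v2 m' + n' := fun v2 => (h v2).2.det B.pos (hn' v2)
    have e0 := e 0
    rw [A.act_zero, A.act_zero, zero_add, zero_add] at e0
    subst e0
    have : m = m' := A.act_inj _ _ fun v2 => add_right_cancel (e v2)
    subst this
    exact ⟨h0.1, hm' v⟩

include hf in
theorem HL_TB1 [Finite α] [Finite V1] [Finite V2] {Y : List α} (hY : B.D ≤ Y.length)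
    (v v' : V1) : HL 1 (TB B f1 v v' Y) := by
  have h : HL 1 ({w | ∃ m : V1 → V1, w ∈ ({w | m v = v' ∧ ∃ n : V2, ∀ v2 : V2,
      w ∈ TB B Q.f v2 (A.act v2 m + n) Y} : Language α)} : Language α) := by
    refine HL.iUnion fun m => HL.setOf_and (HL.const _) ?_
    exact HL.iUnion fun n => HL.iInter fun v2 => HL_TB2 Q hY _ _
  exact h.congr fun w => TB1_iff A Q f1 nu hf v v'

end readoff

/-- scheme 1 : exact on every text, complete at every node which is not bad -/
structure Out (B : Base α) (V : Type u) extends Rd B V where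
  f : List α → V → V
  F2 : ∀ x y y', B.nxt (x ++ y) = some x.length → y.take B.p = y'.take B.p →
    f (x ++ y') = f (x ++ y)
  T3 : ∀ r x v b c, En r v → st x = some (b, c) →
    B.nxt (r ++ x) = some (r.length + b) ∧ f (r ++ x) v = c
  T4 : ∀ w ∈ B.RF, B.D ≤ w.length → ¬ B.Bad w → ∀ v, ∃ r x b c, w = r ++ x ∧ En r v ∧
    st x = some (b, c)

/-- admissible starts -/
structure GS (B : Base α) {V : Type u} (σ : List α → Option (ℕ × V)) : Prop where
  g1 : ∀ x b c, σ x = some (b, c) → b ≤ B.D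
  g2 : ∀ w w' b c, σ w = some (b, c) → b + B.p ≤ w.length →
    w.take (b + B.p) = w'.take (b + B.p) → σ w' = some (b, c)

section outer

variable {B : Base α} {V : Type u} (O : Out B V)

/-- unrestricted chain -/
def CT (O : Out B V) : List α → V → List α → V → Prop := Ch B.nxt (fun _ => True) O.f

/-- words from a start `σ` to an end `e` -/
def KK (σ : List α → Option (ℕ × V)) (e : List α → V → Prop) : Language α :=
  {u | ∃ x y c r v, u = x ++ y ∧ σ u = some (x.length, c) ∧ CT O y c r v ∧ e r v}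

theorem GS_st : GS B O.st :=
  ⟨fun x b c h => (O.S1 x b c h).2, fun _ _ _ _ h _ e => O.toRd.st_vis h e⟩

theorem GS_node (v : V) : GS B (fun _ : List α => some (0, v)) := by
  refine ⟨fun x b c h => ?_, fun w w' b c h _ _ => h⟩
  simp only [Option.some.injEq, Prod.mk.injEq] at h
  omega

theorem CT_append {y r : List α} {c v : V} (h : CT O y c r v) (z : List α) :
    CT O (y ++ z) c (r ++ z) v := by
  unfold CT at h ⊢
  induction h with
  | refl w v => exact Ch.refl _ _
  | @step x y r v v' h1 h2 h3 ih =>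
    have hl := B.A1 _ _ h1
    have hp : B.p ≤ y.length := by
      simp only [List.length_append] at hl; omega
    have e : y.take B.p = (y ++ z).take B.p := (take_append_eq hp).symm
    rw [List.append_assoc]
    refine Ch.step (B.A2 _ _ _ h1 e) trivial ?_
    rw [O.F2 _ _ _ h1 e]
    exact ih

theorem CT_cut {W R : List α} {c v : V} (h : CT O W c R v) {r z : List α} (hR : R = r ++ z)
    (hp : B.p ≤ r.length) : ∃ a, W = a ++ (r ++ z) ∧ CT O (a ++ r) c r v := by
  unfold CT at h ⊢
  induction h with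
  | refl w v => exact ⟨[], by simpa using hR, by simpa using Ch.refl _ _⟩
  | @step x y R v v' h1 h2 h3 ih =>
    obtain ⟨a, rfl, ha⟩ := ih hR
    refine ⟨x ++ a, by simp [List.append_assoc], ?_⟩
    have e : (a ++ (r ++ z)).take B.p = (a ++ r).take B.p := by
      rw [← List.append_assoc]
      exact take_append_eq (by simp only [List.length_append]; omega)
    rw [List.append_assoc]
    refine Ch.step (B.A2 _ _ _ h1 e) trivial ?_
    rw [O.F2 _ _ _ h1 e]
    exact ha

/-- composition at an exact junction -/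
theorem KK_mul {σ : List α → Option (ℕ × V)} {e : List α → V → Prop} (hσ : GS B σ)
    {u u' : List α} (hu : u ∈ KK O σ O.En) (hu' : u' ∈ KK O O.st e) : u ++ u' ∈ KK O σ e := by
  obtain ⟨x, y, c, r, v, rfl, hs, hc, he⟩ := hu
  obtain ⟨x', y', c', r', v', rfl, hs', hc', he'⟩ := hu'
  have hr := O.E1 _ _ he
  have hry := hc.toCB.len
  obtain ⟨h1, h2⟩ := O.T3 r (x' ++ y') v x'.length c' he hs'
  refine ⟨x, y ++ (x' ++ y'), c, r', v', by simp [List.append_assoc], ?_, ?_, he'⟩
  · refine hσ.g2 _ _ _ _ hs (by simp only [List.length_append]; omega) ?_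
    exact (take_append_eq (by simp only [List.length_append]; omega)).symm
  · have h3 := CT_append O hc (x' ++ y')
    refine Ch.trans h3 ?_
    have e1 : r ++ (x' ++ y') = (r ++ x') ++ y' := (List.append_assoc _ _ _).symm
    rw [e1] at h1 h2 ⊢
    refine Ch.step ?_ trivial ?_
    · rw [h1, List.length_append]
    · rw [h2]; exact hc'

theorem split1 {R r : List α} {v v' : V} (h : CT O R v r v') (hR : R ∈ B.RF)
    (hD : B.D ≤ R.length) (hr : r.length < B.D) :
    ∃ y r0 v0, R = y ++ r0 ∧ Ch B.nxt B.Bad O.f R v r0 v0 ∧ CT O r0 v0 r v' ∧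
      B.D ≤ r0.length ∧ (r0.length < 2 * B.D ∨ ¬ B.Bad r0) := by
  unfold CT at h ⊢
  induction h with
  | refl w v => omega
  | @step x y r v v' h1 h2 h3 ih =>
    by_cases hb : B.Bad (x ++ y)
    · by_cases hy : B.D ≤ y.length
      · obtain ⟨y', r0, v0, rfl, h4, h5, h6, h7⟩ :=
          ih (B.hRF _ _ (List.suffix_append x y).isInfix hR) hy hr
        exact ⟨x ++ y', r0, v0, by simp [List.append_assoc], Ch.step h1 hb h4, h5, h6, h7⟩
      · obtain ⟨d, hd1, hd2⟩ := B.A3 _ hR hD
        rw [h1] at hd1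
        have : x.length = d := by simpa using hd1
        refine ⟨[], x ++ y, v, rfl, Ch.refl _ _, Ch.step h1 h2 h3, hD, Or.inl ?_⟩
        simp only [List.length_append]; omega
    · exact ⟨[], x ++ y, v, rfl, Ch.refl _ _, Ch.step h1 h2 h3, hD, Or.inr hb⟩

/-- short words, or bad up to a bounded tail -/
def BB (σ : List α → Option (ℕ × V)) (e : List α → V → Prop) : Language α :=
  {u | u ∈ B.RF ∧ ((u.length < 2 * B.D ∧ u ∈ KK O σ e) ∨
    ∃ r0 : List α, (B.D ≤ r0.length ∧ r0.length < 2 * B.D) ∧ ∃ c v0 : V, ∃ b : ℕ, b ≤ B.D ∧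
      (∃ r v, CT O r0 v0 r v ∧ e r v) ∧
      (b + B.p ≤ u.length ∧ σ u = some (b, c)) ∧
      ∃ x y, u = x ++ (y ++ r0) ∧ x.length = b ∧ y ∈ TB B O.f c v0 r0)}

theorem BB_sub {σ : List α → Option (ℕ × V)} {e : List α → V → Prop} {u : List α}
    (h : u ∈ BB O σ e) : u ∈ KK O σ e := by
  obtain ⟨-, ⟨-, h⟩ | ⟨r0, -, c, v0, b, hb, ⟨r, v, h1, h2⟩, ⟨-, h3⟩, x, y, rfl, rfl, h4⟩⟩ := h
  · exact h
  · exact ⟨x, y ++ r0, c, r, v, rfl, h3,
      Ch.trans (h4.2.mono (fun _ _ => trivial)) h1, h2⟩

theorem KK_split {σ : List α → Option (ℕ × V)} {e : List α → V → Prop} (hσ : GS B σ)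
    (hE : ∀ r v, e r v → r.length < B.D) {u : List α} (hRF : u ∈ B.RF) (hu : u ∈ KK O σ e) :
    u ∈ BB O σ e ∨ ∃ u' u'', u = u' ++ u'' ∧ u' ≠ [] ∧ u'' ≠ [] ∧ u' ∈ KK O σ O.En ∧
      u'' ∈ KK O O.st e := by
  have hu0 := hu
  obtain ⟨x, y, c, r, v, rfl, hs, hc, he⟩ := hu
  have hx := hσ.g1 _ _ _ hs
  have hp := B.pD
  have hp0 := B.p0
  by_cases hy : B.D ≤ y.length
  · have hyRF : y ∈ B.RF := B.hRF _ _ (List.suffix_append x y).isInfix hRF
    obtain ⟨y', r0, v0, rfl, h1, h2, h3, h4⟩ := split1 O hc hyRF hy (hE _ _ he)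
    by_cases h5 : r0.length < 2 * B.D
    · left
      refine ⟨hRF, Or.inr ⟨r0, ⟨h3, h5⟩, c, v0, x.length, hx, ⟨r, v, h2, he⟩, ⟨?_, hs⟩,
        x, y', rfl, rfl, hyRF, h1⟩⟩
      simp only [List.length_append] at hy ⊢; omega
    · right
      have hb : ¬ B.Bad r0 := h4.resolve_left h5
      have hr0 : r0 ∈ B.RF := B.hRF _ _ (List.suffix_append y' r0).isInfix hyRF
      obtain ⟨r1, x1, b1, c1, rfl, h6, h7⟩ := O.T4 r0 hr0 h3 hb v0
      obtain ⟨h8, h9⟩ := O.T3 r1 x1 v0 b1 c1 h6 h7
      have hrl := hE _ _ he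
      have hne : r1 ++ x1 ≠ r := by
        rintro rfl
        omega
      obtain ⟨a, b', e1, h10, -, h11⟩ := Ch.first h2 hne
      rw [h8] at h10
      have h12 : r1.length + b1 = a.length := by simpa using h10
      have hE1 := O.E1 _ _ h6
      have hS1 := O.S1 _ _ _ h7
      obtain ⟨x1', rfl⟩ : ∃ x1', x1 = x1' ++ b' := by
        have h13 : b' <:+ r1 ++ x1 := ⟨a, e1.symm⟩
        have h14 := congrArg List.length e1
        simp only [List.length_append] at h14
        obtain ⟨t, ht⟩ := List.suffix_of_suffix_length_le h13 (List.suffix_append r1 x1) (by omega)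
        exact ⟨t, ht.symm⟩
      have hx1' : x1'.length = b1 := by
        have h14 := congrArg List.length e1
        simp only [List.length_append] at h14
        omega
      subst hx1'
      refine ⟨x ++ (y' ++ r1), x1' ++ b', by simp [List.append_assoc], ?_, ?_, ?_, ?_⟩
      · intro h
        have := congrArg List.length h
        simp only [List.length_append, List.length_nil] at this
        omega
      · intro h
        rw [h] at hS1
        simp only [List.length_nil] at hS1
        omega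
      · refine ⟨x, y' ++ r1, c, r1, v0, rfl, ?_, ?_, h6⟩
        · refine hσ.g2 _ _ _ _ hs (by simp only [List.length_append]; omega) ?_
          have e2 : x ++ (y' ++ (r1 ++ (x1' ++ b'))) = (x ++ (y' ++ r1)) ++ (x1' ++ b') := by
            simp [List.append_assoc]
          rw [e2]
          exact take_append_eq (by simp only [List.length_append]; omega)
        · obtain ⟨a', e3, h15⟩ := CT_cut O (h1.mono (fun _ _ => trivial)) rfl hE1.1
          have : y' = a' := List.append_cancel_right e3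
          rw [this]; exact h15
      · refine ⟨x1', b', c1, r, v, rfl, h7, ?_, he⟩
        rw [h9] at h11
        exact h11
  · left
    exact ⟨hRF, Or.inl ⟨by simp only [List.length_append]; omega, hu0⟩⟩

end outer

end Crest.Agent.R320.Two_55
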