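import Crest.Agent.R320.Two4_55

/-!
# Row 320: assembly of the two-scheme chain, part 5: final theorem (helper55)
-/

set_option autoImplicit false
set_option linter.unusedSectionVars false

namespace Crest.Agent.R320.Two_55

open Crest.Agent.R320.Hk_851

universe u

variable {α : Type u}

theorem kstar_append {X : Language α} {a b : List α} (ha : a ∈ KStar.kstar X)
    (hb : b ∈ KStar.kstar X) : a ++ b ∈ KStar.kstar X := by
  have h : a ++ b ∈ KStar.kstar X * KStar.kstar X := Language.mem_mul.2 ⟨a, ha, b, hb, rfl⟩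
  rwa [kstar_mul_kstar] at h

theorem mem_kstar_self {X : Language α} {a : List α} (ha : a ∈ X) : a ∈ KStar.kstar X :=
  (le_kstar : X ≤ KStar.kstar X) ha

theorem nil_mem_kstar' {X : Language α} : ([] : List α) ∈ KStar.kstar X :=
  Language.mem_kstar.2 ⟨[], rfl, fun y hy => by simp at hy⟩

section outer

variable {B : Base α} {V : Type u} (O : Out B V)

theorem HL_prefix_test [Finite α] {k : ℕ} {σ : List α → Option (ℕ × V)} (hσ : GS B σ) (b : ℕ)
    (c : V) : HL k ({u | b + B.p ≤ u.length ∧ σ u = some (b, c)} : Language α) := by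
  have h1 : HL k ({t | t.length = b + B.p ∧ σ t = some (b, c)} : Language α) :=
    HL.finite ((List.finite_length_eq α (b + B.p)).subset fun t ht => ht.1)
  refine h1.prefix.congr fun w => ?_
  constructor
  · rintro ⟨h2, h3⟩
    refine ⟨w.take (b + B.p), ⟨?_, ?_⟩, List.take_prefix _ _⟩
    · rw [List.length_take]; omega
    · exact hσ.g2 _ _ _ _ h3 h2 (by rw [List.take_take, min_self])
  · rintro ⟨t, ⟨h2, h3⟩, z, rfl⟩
    have h4 : t.length = b + B.p := h2
    refine ⟨?_, ?_⟩
    · simp only [List.length_append]; omega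
    · exact hσ.g2 _ _ _ _ h3 h4.ge (take_append_eq h4.ge).symm

theorem HL_BB [Finite α] [Finite V]
    (hTB : ∀ (Y : List α), B.D ≤ Y.length → ∀ c v : V, HL 1 (TB B O.f c v Y))
    {σ : List α → Option (ℕ × V)} {e : List α → V → Prop} (hσ : GS B σ) :
    HL 1 (BB O σ e) := by
  have h1 : HL 1 ({u | u.length < 2 * B.D ∧ u ∈ KK O σ e} : Language α) :=
    HL.finite ((List.finite_length_lt α (2 * B.D)).subset fun u hu => hu.1)
  have hfin : {r0 : List α | B.D ≤ r0.length ∧ r0.length < 2 * B.D}.Finite :=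
    (List.finite_length_lt α (2 * B.D)).subset fun r hr => hr.2
  have hfb : {b : ℕ | b ≤ B.D}.Finite := Set.finite_le_nat B.D
  have h2 : HL 1 ({u | ∃ r0 ∈ {r0 : List α | B.D ≤ r0.length ∧ r0.length < 2 * B.D},
      u ∈ ({u | ∃ c : V, u ∈ ({u | ∃ v0 : V, u ∈ ({u | ∃ b ∈ {b : ℕ | b ≤ B.D},
        u ∈ ({u | (∃ r v, CT O r0 v0 r v ∧ e r v) ∧
          (b + B.p ≤ u.length ∧ σ u = some (b, c)) ∧
          ∃ x y, u = x ++ (y ++ r0) ∧ x.length = b ∧ y ∈ TB B O.f c v0 r0} : Language α)} :
            Language α)} : Language α)} : Language α)} : Language α) := by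
    refine HL.biUnion hfin fun r0 hr0 => HL.iUnion fun c => HL.iUnion fun v0 =>
      HL.biUnion hfb fun b hb => ?_
    refine HL.setOf_and (HL.const _) (HL.setOf_and (HL_prefix_test hσ b c) ?_)
    have h3 := (HL.length_eq (α := α) (k := 1) b).mul ((hTB r0 hr0.1 c v0).mul
      (HL.word (k := 1) r0))
    refine h3.congr fun w => ?_
    constructor
    · rintro ⟨x, y, rfl, hx, hy⟩
      exact Language.mem_mul.2 ⟨x, hx, y ++ r0, Language.mem_mul.2 ⟨y, hy, r0, rfl, rfl⟩, rfl⟩
    · intro hw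
      obtain ⟨x, hx, yr, hyr, rfl⟩ := Language.mem_mul.1 hw
      obtain ⟨y, hy, r, hr, rfl⟩ := Language.mem_mul.1 hyr
      have hr' : r = r0 := hr
      subst hr'
      exact ⟨x, y, rfl, hx, hy⟩
  refine (HL.setOf_and (B.RF0.mono (Nat.zero_le 1)) (HL.setOf_or h1 h2)).congr fun w => ?_
  constructor
  · rintro ⟨h, h' | ⟨r0, h3, c, v0, b, hb, h4⟩⟩
    · exact ⟨h, Or.inl h'⟩
    · exact ⟨h, Or.inr ⟨r0, h3, c, v0, b, hb, h4⟩⟩
  · rintro ⟨h, h' | ⟨r0, h3, c, v0, b, hb, h4⟩⟩
    · exact ⟨h, Or.inl h'⟩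
    · exact ⟨h, Or.inr ⟨r0, h3, c, v0, b, hb, h4⟩⟩

/-- tokens of scheme 1 -/
def XX : Language α := BB O O.st O.En

theorem KK_dec (n : ℕ) : ∀ (σ : List α → Option (ℕ × V)) (e : List α → V → Prop), GS B σ →
    (∀ r v, e r v → r.length < B.D) → ∀ u : List α, u.length ≤ n → u ∈ B.RF → u ∈ KK O σ e →
    u ∈ BB O σ e ∨ u ∈ BB O σ O.En * (KStar.kstar (XX O) * BB O O.st e) := by
  induction n with
  | zero =>
    intro σ e hσ he u hu hRF hK
    rcases KK_split O hσ he hRF hK with h | ⟨u', u'', rfl, h1, h2, h3, h4⟩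
    · exact Or.inl h
    · exfalso
      have := List.length_pos_iff.2 h1
      simp only [List.length_append] at hu
      omega
  | succ n ih =>
    intro σ e hσ he u hu hRF hK
    rcases KK_split O hσ he hRF hK with h | ⟨u', u'', rfl, h1, h2, h3, h4⟩
    · exact Or.inl h
    · right
      have l1 := List.length_pos_iff.2 h1
      have l2 := List.length_pos_iff.2 h2
      simp only [List.length_append] at hu
      have hR1 : u' ∈ B.RF := B.hRF _ _ (List.prefix_append u' u'').isInfix hRF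
      have hR2 : u'' ∈ B.RF := B.hRF _ _ (List.suffix_append u' u'').isInfix hRF
      have i1 : ∃ a k, u' = a ++ k ∧ a ∈ BB O σ O.En ∧ k ∈ KStar.kstar (XX O) := by
        rcases ih σ O.En hσ (fun r v h => (O.E1 r v h).2) u' (by omega) hR1 h3 with h | h
        · exact ⟨u', [], by simp, h, nil_mem_kstar'⟩
        · obtain ⟨a, ha, b, hb, rfl⟩ := Language.mem_mul.1 h
          obtain ⟨k, hk, x, hx, rfl⟩ := Language.mem_mul.1 hb
          exact ⟨a, k ++ x, rfl, ha, kstar_append hk (mem_kstar_self hx)⟩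
      have i2 : ∃ k b, u'' = k ++ b ∧ k ∈ KStar.kstar (XX O) ∧ b ∈ BB O O.st e := by
        rcases ih O.st e (GS_st O) he u'' (by omega) hR2 h4 with h | h
        · exact ⟨[], u'', by simp, nil_mem_kstar', h⟩
        · obtain ⟨a, ha, b, hb, rfl⟩ := Language.mem_mul.1 h
          obtain ⟨k, hk, x, hx, rfl⟩ := Language.mem_mul.1 hb
          exact ⟨a ++ k, x, by simp [List.append_assoc], kstar_append (mem_kstar_self ha) hk, hx⟩
      obtain ⟨a, k, rfl, ha, hk⟩ := i1
      obtain ⟨k', b, rfl, hk', hb⟩ := i2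
      exact Language.mem_mul.2 ⟨a, ha, (k ++ k') ++ b,
        Language.mem_mul.2 ⟨k ++ k', kstar_append hk hk', b, hb, rfl⟩, by
          simp [List.append_assoc]⟩

theorem KK_star {σ : List α → Option (ℕ × V)} (hσ : GS B σ) (S : List (List α))
    (hS : ∀ s ∈ S, s ∈ XX O) : ∀ u ∈ KK O σ O.En, u ++ S.flatten ∈ KK O σ O.En := by
  induction S with
  | nil => intro u hu; simpa using hu
  | cons s S ih =>
    intro u hu
    have h1 := KK_mul O hσ hu (BB_sub O (hS s (by simp)))
    have h2 := ih (fun s hs => hS s (by simp [hs])) _ h1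
    simpa [List.append_assoc] using h2

theorem KK_iff {σ : List α → Option (ℕ × V)} {e : List α → V → Prop} (hσ : GS B σ)
    (he : ∀ r v, e r v → r.length < B.D) {u : List α} (hRF : u ∈ B.RF) :
    u ∈ KK O σ e ↔ u ∈ BB O σ e ∨ u ∈ BB O σ O.En * (KStar.kstar (XX O) * BB O O.st e) := by
  constructor
  · exact KK_dec O u.length σ e hσ he u le_rfl hRF
  · rintro (h | h)
    · exact BB_sub O h
    · obtain ⟨a, ha, b, hb, rfl⟩ := Language.mem_mul.1 h
      obtain ⟨k, hk, x, hx, rfl⟩ := Language.mem_mul.1 hb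
      obtain ⟨S, rfl, hS⟩ := Language.mem_kstar.1 hk
      have h1 := KK_star O hσ S hS a (BB_sub O ha)
      have h2 := KK_mul O hσ h1 (BB_sub O hx)
      simpa [List.append_assoc] using h2

theorem HL_KK [Finite α] [Finite V]
    (hTB : ∀ (Y : List α), B.D ≤ Y.length → ∀ c v : V, HL 1 (TB B O.f c v Y))
    {σ : List α → Option (ℕ × V)} {e : List α → V → Prop} (hσ : GS B σ)
    (he : ∀ r v, e r v → r.length < B.D) :
    HL 2 ({u | u ∈ B.RF ∧ u ∈ KK O σ e} : Language α) := by
  have h1 : HL 2 (BB O σ e) := (HL_BB O hTB hσ).mono (by omega)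
  have h2 : HL 2 (BB O σ O.En) := (HL_BB O hTB hσ).mono (by omega)
  have h3 : HL 2 (BB O O.st e) := (HL_BB O hTB (GS_st O)).mono (by omega)
  have h4 : HL 2 (KStar.kstar (XX O)) := (HL_BB O hTB (GS_st O)).star
  refine ((B.RF0.mono (Nat.zero_le 2)).inf (h1.sup (h2.mul (h4.mul h3)))).congr fun w => ?_
  constructor
  · rintro ⟨h5, h6⟩
    exact ⟨h5, (KK_iff O hσ he h5).1 h6⟩
  · rintro ⟨h5, h6⟩
    exact ⟨h5, (KK_iff O hσ he h5).2 h6⟩

end outer

/-- additive faithful right action of the monoid `S` on `V` -/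
structure SAct (S V : Type u) [Monoid S] [AddCommGroup V] where
  act : V → S → V
  act_one : ∀ v, act v 1 = v
  act_mul : ∀ v s t, act v (s * t) = act (act v s) t
  act_add : ∀ v v' s, act (v + v') s = act v s + act v' s
  act_inj : ∀ s t, (∀ v, act v s = act v t) → s = t

theorem SAct.act_zero {S V : Type u} [Monoid S] [AddCommGroup V] (A : SAct S V) (s : S) :
    A.act 0 s = 0 := by
  have h := A.act_add 0 0 s
  rw [add_zero] at h
  exact left_eq_add.1 h

section final

variable {B : Base α} {S V : Type u} [Monoid S] [AddCommGroup V] (A : SAct S V) (O : Out B V)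
  (φ : α → S) (nu : List α → V)
  (hf : ∀ x y v, B.nxt (x ++ y) = some x.length →
    O.f (x ++ y) v = A.act v (x.map φ).prod + nu (x ++ y))

include hf in
theorem comp_top {R Y : List α} (h : CB B.nxt (fun _ => True) R Y) :
    ∃ a, R = a ++ Y ∧ ∃ n : V, ∀ v, CT O R v Y (A.act v (a.map φ).prod + n) := by
  induction h with
  | refl w =>
    refine ⟨[], rfl, 0, fun v => ?_⟩
    simp only [List.map_nil, List.prod_nil, A.act_one, add_zero]
    exact Ch.refl _ _
  | @step x y r h1 h2 h3 ih =>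
    obtain ⟨a, rfl, n, hn⟩ := ih
    refine ⟨x ++ a, by simp [List.append_assoc], A.act (nu (x ++ (a ++ r))) (a.map φ).prod + n,
      fun v => ?_⟩
    refine Ch.step h1 trivial ?_
    have := hn (O.f (x ++ (a ++ r)) v)
    rw [hf _ _ _ h1, A.act_add, ← A.act_mul] at this
    rw [hf _ _ _ h1, List.map_append, List.prod_append, ← add_assoc]
    exact this

theorem exists_tail (B : Base α) (n : ℕ) : ∀ w : List α, w.length ≤ n → w ∈ B.RF →
    ∃ y, y.length < B.D ∧ CB B.nxt (fun _ => True) w y := by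
  induction n with
  | zero =>
    intro w hw _
    refine ⟨w, ?_, CB.refl _⟩
    have := B.p0; have := B.pD; omega
  | succ n ih =>
    intro w hw hRF
    by_cases h : B.D ≤ w.length
    · obtain ⟨d, hd1, hd2⟩ := B.A3 w hRF h
      have hd0 := B.A1 _ _ hd1
      have e : w = w.take d ++ w.drop d := (List.take_append_drop d w).symm
      have hl : (w.take d).length = d := by rw [List.length_take]; omega
      obtain ⟨y, hy1, hy2⟩ := ih (w.drop d) (by rw [List.length_drop]; omega)
        (B.hRF _ _ (List.drop_suffix d w).isInfix hRF)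
      refine ⟨y, hy1, ?_⟩
      rw [e]
      exact CB.step (by rw [← e, hl]; exact hd1) trivial hy2
    · exact ⟨w, by omega, CB.refl _⟩

theorem KK_node {u y0 : List α} {v c : V} :
    u ∈ KK O (fun _ => some (0, v)) (fun r v' => r = y0 ∧ v' = c) ↔ CT O u v y0 c := by
  constructor
  · rintro ⟨x, y, c0, r, v', rfl, h1, h2, rfl, rfl⟩
    simp only [Option.some.injEq, Prod.mk.injEq] at h1
    obtain ⟨h1, rfl⟩ := h1
    have : x = [] := List.length_eq_zero_iff.1 h1.symm
    subst this
    exact h2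
  · intro h
    exact ⟨[], u, v, y0, c, rfl, rfl, h, rfl, rfl⟩

/-- words read from value `v` at position `0` to value `c` at the tail `y0` -/
def TV (y0 : List α) (v c : V) : Language α :=
  {w | w ++ y0 ∈ B.RF ∧ CT O (w ++ y0) v y0 c}

/-- words whose transport is `v ↦ v m + n` for some `n` -/
def TM (y0 : List α) (m : S) : Language α :=
  {w | ∃ n : V, ∀ v : V, w ∈ TV O y0 v (A.act v m + n)}

include hf in
/-- **Final theorem**: the fibres of `φ` on the class `RF` have height at most 2. -/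
theorem height_two [Finite α] [Finite V] [Finite S]
    (hTB : ∀ (Y : List α), B.D ≤ Y.length → ∀ c v : V, HL 1 (TB B O.f c v Y)) (s : S) :
    HL 2 ({w | w ∈ B.RF ∧ (w.map φ).prod = s} : Language α) := by
  have hT : ∀ (y0 : List α), y0.length < B.D → ∀ v c : V,
      HL 2 (TV O y0 v c) := by
    intro y0 hy v c
    have h := (HL_KK O hTB (GS_node v) (e := fun r v' => r = y0 ∧ v' = c)
      (fun r v' h => by rw [h.1]; exact hy)).rquot y0
    refine h.congr fun w => ?_
    constructor
    · rintro ⟨h1, h2⟩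
      exact ⟨h1, (KK_node O).2 h2⟩
    · rintro ⟨h1, h2⟩
      exact ⟨h1, (KK_node O).1 h2⟩
  have h1 : HL 2 ({w | ∃ y0 ∈ {y0 : List α | y0.length < B.D}, w ∈ ({w | ∃ m : S,
      w ∈ ({w | m * (y0.map φ).prod = s ∧ w ∈ TM A O y0 m * ({y0} : Language α)} :
        Language α)} : Language α)} : Language α) := by
    refine HL.biUnion (List.finite_length_lt α B.D) fun y0 hy0 => HL.iUnion fun m =>
      HL.setOf_and (HL.const _) ?_
    exact (HL.iUnion fun n => HL.iInter fun v => hT y0 hy0 _ _).mul (HL.word y0)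
  refine h1.congr fun w => ?_
  constructor
  · rintro ⟨hRF, hs⟩
    obtain ⟨y0, hy0, hC⟩ := exists_tail B w.length w le_rfl hRF
    obtain ⟨a, rfl, n, hn⟩ := comp_top A O φ nu hf hC
    refine ⟨y0, hy0, (a.map φ).prod, ?_, ?_⟩
    · rw [← hs, List.map_append, List.prod_append]
    · exact Language.mem_mul.2 ⟨a, ⟨n, fun v => ⟨hRF, hn v⟩⟩, y0, rfl, rfl⟩
  · rintro ⟨y0, hy0, m, hm, hw⟩
    obtain ⟨a, ⟨n, hn⟩, y, hy, rfl⟩ := Language.mem_mul.1 hw
    have hy' : y = y0 := hy
    subst hy'
    have h0 := hn 0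
    refine ⟨h0.1, ?_⟩
    obtain ⟨a', e, n', hn'⟩ := comp_top A O φ nu hf h0.2.toCB
    have : a = a' := List.append_cancel_right e
    subst this
    have e1 : ∀ v, A.act v m + n = A.act v (a.map φ).prod + n' :=
      fun v => (hn v).2.det B.pos (hn' v)
    have e0 := e1 0
    rw [A.act_zero, A.act_zero, zero_add, zero_add] at e0
    subst e0
    have : m = (a.map φ).prod := A.act_inj _ _ fun v => add_right_cancel (e1 v)
    rw [← hm, this, List.map_append, List.prod_append]

end final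

/-- **Two schemes give height 2 on `RF`.** -/
theorem two_schemes [Finite α] {S V1 V2 : Type u} [Monoid S] [Finite S] [AddCommGroup V1]
    [Finite V1] [AddCommGroup V2] [Finite V2] (B : Base α) (φ : α → S)
    (A1 : SAct S V1) (O : Out B V1) (nu1 : List α → V1)
    (h1 : ∀ x y v, B.nxt (x ++ y) = some x.length →
      O.f (x ++ y) v = A1.act v (x.map φ).prod + nu1 (x ++ y))
    (A2 : Act V1 V2) (Q : Prom B V2) (nu2 : List α → V2)
    (h2 : ∀ w v, Q.f w v = A2.act v (O.f w) + nu2 w) (s : S) :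
    HL 2 ({w | w ∈ B.RF ∧ (w.map φ).prod = s} : Language α) :=
  height_two A1 O φ nu1 h1 (fun _ hY c v => HL_TB1 A2 Q O.f nu2 h2 hY c v) s

end Crest.Agent.R320.Two_55
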