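import Crest.Agent.R320.Top_180

/-!
# Row 320: two-wall blocks, natural chain, semantic right languages (helper334)

Zone = block `X` with exactly two walls at places `≥ z` (the second one at its end).
-/

set_option autoImplicit false

namespace Crest.Agent.R320.Two_334

open Crest.RegLang Crest.Agent.R320.Hk_851 Crest.Agent.R320.Half1_180

/-- top with the single-block promise scheme -/
theorem top1 {α : Type*} {S V : Type*} [Monoid S] [Finite S] [AddCommGroup V] [Finite V] {k : ℕ}
    (f : α → S) (act : V → S → V)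
    (act_zero : ∀ s, act 0 s = 0) (act_one : ∀ v, act v 1 = v)
    (act_mul : ∀ v s s', act (act v s) s' = act v (s * s'))
    (faithful : ∀ s s', (∀ v, act v s = act v s') → s = s')
    (XX Good Bad : Set (List α)) (h : PF XX) (hXX : XX = Good ∪ Bad)
    (T : List α → V → V)
    (hT : ∀ X ∈ XX, ∀ v v', T X v - T X v' = act (v - v') (X.map f).prod)
    (LP1 RQ1 : V → Language α)
    (hLP1 : ∀ v, HL (k + 1) (LP1 v)) (hRQ1 : ∀ v, HL (k + 1) (RQ1 v))
    (sound1 : ∀ v v' P Q, P ∈ LP1 v → Q ∈ RQ1 v' → P ++ Q ∈ XX ∧ T (P ++ Q) v = v')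
    (compl1 : ∀ X ∈ Good, ∀ v, ∃ P Q, X = P ++ Q ∧ P ∈ LP1 v ∧ Q ∈ RQ1 (T X v))
    (hBk : HL k (Lof Bad)) (LP2 RQ2 : V → Language α)
    (hLP2 : ∀ v, HL k (LP2 v)) (hRQ2 : ∀ v, HL k (RQ2 v)) (hne : ∀ v, [] ∉ LP2 v)
    (sound2 : ∀ Y ∈ Bad, ∀ v v' P Q R R', P ∈ LP2 v → Q ∈ RQ2 v' → P ++ (Q ++ R) = Y ++ R' →
      P ++ Q = Y ∧ T Y v = v')
    (compl2 : ∀ X ∈ Bad, ∀ v, ∃ P Q, X = P ++ Q ∧ P ∈ LP2 v ∧ Q ∈ RQ2 (T X v))
    (htail : ∀ s, HL (k + 2) (Lg (fun E => E ∈ Tail XX ∧ (E.map f).prod = s))) (s : S) :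
    HL (k + 2) ({w | (w.map f).prod = s} : Language α) := by
  classical
  have hG : Good ⊆ XX := hXX ▸ Set.subset_union_left
  have hB : Bad ⊆ XX := hXX ▸ Set.subset_union_right
  have c1 : Cert (k + 1) XX T (Bs Bad) :=
    promise h hB hBk T LP2 RQ2 hLP2 hRQ2 hne sound2 compl2
  have c0 : Cert (k + 2) XX T (Bs (Good ∪ Bad)) :=
    step h hG hB T LP1 RQ1 hLP1 hRQ1 sound1 compl1 c1
  have c := readoff_act h f act act_zero act_one act_mul faithful T hT
    (fun w hw => hXX ▸ hw) c0
  choose L hL1 hL2 hL3 using c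
  have hfin : HL (k + 2) (Lg (fun w => ∃ p : S × S, w ∈ (Lg (fun _ => p.1 * p.2 = s)) ⊓
      (L p.1 * Lg (fun E => E ∈ Tail XX ∧ (E.map f).prod = p.2)))) :=
    HL.iUnion fun p => (HL.const _).inf ((hL1 p.1).mul (htail p.2))
  refine hfin.congr fun w => ?_
  constructor
  · intro hs
    have hs' : (w.map f).prod = s := hs
    obtain ⟨M, E, rfl, hM, hE⟩ := exists_tail h w
    refine ⟨((M.map f).prod, (E.map f).prod), ?_,
      Language.append_mem_mul (hL3 _ M (hXX ▸ hM) rfl) ⟨hE, rfl⟩⟩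
    change (M.map f).prod * (E.map f).prod = s
    rw [← hs']; simp
  · rintro ⟨⟨p1, p2⟩, hp, hw'⟩
    obtain ⟨M, hM, E, ⟨_, hE⟩, rfl⟩ := Language.mem_mul.1 hw'
    have e := hL2 _ M hM
    have hp' : p1 * p2 = s := hp
    change ((M ++ E).map f).prod = s
    rw [List.map_append, List.prod_append, e, hE, hp']

open Classical in
/-- all data of the two schemes -/
structure Dat (α S V : Type) [Monoid S] [AddCommGroup V] where
  f : α → S
  act : V → S → V
  act_add : ∀ v w s, act (v + w) s = act v s + act w s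
  act_mul : ∀ v s s', act (act v s) s' = act v (s * s')
  Wo : List α → Prop
  n : ℕ
  W : ℕ
  wo_app : ∀ P Q : List α, n ≤ Q.length → (Wo (P ++ Q) ↔ Wo Q)
  wo_gap : ∀ (P : List α) (d : ℕ), Wo P → 0 < d → d ≤ W → ¬ Wo (P.take (P.length - d))
  N1 : ℕ
  La : ℕ
  lam : List α → Option V
  rho : List α → Option V
  nu1 : List α → V
  BadT : ℕ → Prop
  lam_len : ∀ p v, lam p = some v → p.length ≤ N1
  ex1 : ∀ p q v r, lam p = some v → rho q = some r → La ≤ q.length →
    r = act v ((p ++ q).map f).prod + nu1 (p ++ q)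
  cp1 : ∀ u, La ≤ u.length → ¬ BadT u.length → ∀ v, ∃ p q, p ++ q = u ∧ lam p = some v ∧
    (rho q).isSome
  K : ℕ
  c : ℕ → ℕ
  p0 : ℕ
  z : ℕ
  cpos : ∀ k < K, 0 < c k
  c_le : ∀ k < K, c k ≤ p0
  cinj : ∀ i j, i < K → j < K → c i = c j → i = j
  hz : 2 * p0 + 2 * N1 + La + n + 1 ≤ z
  hW : 2 * p0 + 2 * N1 + 1 ≤ W
  C0 : ℕ
  res : ∀ i j k l, i < K → j < K → k < K → l < K → i ≠ j → k ≠ l → (i, j) ≠ (k, l) →
    c i + c l + 4 * N1 < c k + c j ∨ c k + c j + 4 * N1 < c i + c l
  thin : ∀ T, La ≤ T → (((Finset.range K ×ˢ Finset.range K)).filter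
    (fun ij => ij.1 ≠ ij.2 ∧ BadT (T + c ij.2 - c ij.1))).card ≤ C0
  LL : List α → V → Prop
  nu2 : List α → V
  LL_len : ∀ P v, LL P v → ∃ k < K, P.length = c k
  cp2 : ∀ (u : List α) (v : V) (Sp : Finset ℕ), u.length = p0 → Sp.card ≤ 1 + 3 * C0 →
    ∃ k < K, k ∉ Sp ∧ LL (u.take (c k)) v ∧ ∀ P' v', P'.length = c k → LL P' v' →
      act v' ((P' ++ u.drop (c k)).map f).prod + nu2 (P' ++ u.drop (c k)) =
        act v (u.map f).prod + nu2 u

namespace Dat

variable {α S V : Type} [Monoid S] [AddCommGroup V] (D : Dat α S V)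

/-- block with walls at `t` and at its end -/
def Blk (u : List α) (t : ℕ) : Prop :=
  D.z ≤ t ∧ t < u.length ∧ D.Wo (u.take t) ∧ D.Wo u ∧
    ∀ s, D.z ≤ s → s < u.length → D.Wo (u.take s) → s = t

def XX : Set (List α) := {u | ∃ t, D.Blk u t}

/-- first visible wall -/
def FV (u : List α) (t : ℕ) : Prop :=
  D.z ≤ t ∧ t ≤ u.length ∧ D.Wo (u.take t) ∧ ∀ s, D.z ≤ s → s < t → ¬ D.Wo (u.take s)

def BadV (u : List α) : Prop :=
  (∃ s, D.z ≤ s + D.N1 ∧ s < D.z + D.N1 ∧ s ≤ u.length ∧ D.Wo (u.take s)) ∨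
    ∃ t, D.FV u t ∧ D.BadT (t - D.p0)

def Good : Set (List α) := {u | u ∈ D.XX ∧ ¬ D.BadV u}

def Bad : Set (List α) := {u | u ∈ D.XX ∧ D.BadV u}

theorem wsh {P Q : List α} {s : ℕ} (hn : D.n ≤ s) (hs : s ≤ Q.length) :
    D.Wo ((P ++ Q).take (P.length + s)) ↔ D.Wo (Q.take s) := by
  have e : (P ++ Q).take (P.length + s) = P ++ Q.take s := by
    rw [List.take_append]
    simp
  rw [e]
  exact D.wo_app _ _ (by rw [List.length_take]; omega)

theorem wsh2 {P P' Q : List α} {s : ℕ} (hn : D.n ≤ s) (hs : s ≤ Q.length) :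
    D.Wo ((P ++ Q).take (P.length + s)) ↔ D.Wo ((P' ++ Q).take (P'.length + s)) :=
  (D.wsh hn hs).trans (D.wsh hn hs).symm

theorem Blk.uniq {D : Dat α S V} {u : List α} {t t' : ℕ} (h : D.Blk u t) (h' : D.Blk u t') :
    t = t' := h'.2.2.2.2 t h.1 h.2.1 h.2.2.1

theorem gap {u : List α} {s t : ℕ} (hs : D.Wo (u.take s)) (ht : D.Wo (u.take t)) (hst : s < t)
    (htu : t ≤ u.length) : s + D.W < t := by
  by_contra hlt
  have h := D.wo_gap (u.take t) (t - s) ht (by omega) (by omega)
  have e : ((u.take t).take ((u.take t).length - (t - s))) = u.take s := by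
    rw [List.length_take, List.take_take]
    congr 1
    omega
  rw [e] at h
  exact h hs

theorem Blk.fv {D : Dat α S V} {u : List α} {t : ℕ} (h : D.Blk u t) : D.FV u t :=
  ⟨h.1, h.2.1.le, h.2.2.1, fun s hs hst hw => by
    have := h.2.2.2.2 s hs (hst.trans h.2.1) hw
    omega⟩

theorem FV.uniq {D : Dat α S V} {u : List α} {t t' : ℕ} (h : D.FV u t) (h' : D.FV u t') :
    t = t' := by
  rcases lt_trichotomy t t' with hlt | he | hlt
  · exact absurd h.2.2.1 (h'.2.2.2 t h.1 hlt)
  · exact he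
  · exact absurd h'.2.2.1 (h.2.2.2 t' h'.1 hlt)

theorem take_app {u w : List α} {s : ℕ} (hs : s ≤ u.length) : (u ++ w).take s = u.take s := by
  rw [List.take_append]
  have : s - u.length = 0 := by omega
  simp [this]

theorem FV.app {D : Dat α S V} {u : List α} {t : ℕ} (h : D.FV u t) (w : List α) :
    D.FV (u ++ w) t := by
  refine ⟨h.1, by rw [List.length_append]; have := h.2.1; omega, ?_, ?_⟩
  · rw [take_app h.2.1]; exact h.2.2.1
  · intro s hs hst
    rw [take_app (by have := h.2.1; omega)]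
    exact h.2.2.2 s hs hst

theorem exists_fv {u : List α} {s : ℕ} (hz : D.z ≤ s) (hs : s ≤ u.length)
    (hw : D.Wo (u.take s)) : ∃ t, D.FV u t := by
  classical
  have hex : ∃ t, D.z ≤ t ∧ t ≤ u.length ∧ D.Wo (u.take t) := ⟨s, hz, hs, hw⟩
  refine ⟨Nat.find hex, (Nat.find_spec hex).1, (Nat.find_spec hex).2.1,
    (Nat.find_spec hex).2.2, ?_⟩
  intro x hx hxt hwx
  have h1 := (Nat.find_spec hex).2.1
  exact Nat.find_min hex hxt ⟨hx, by omega, hwx⟩

theorem pf : PF D.XX := by
  constructor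
  · rintro X ⟨t, ht⟩ rfl
    have := ht.2.1
    simp at this
  · rintro X ⟨t, ht⟩ Y ⟨t', ht'⟩ ⟨w, rfl⟩
    by_contra hne
    have hw : 0 < w.length := by
      rw [List.length_pos_iff]
      rintro rfl
      exact hne (by simp)
    have h1 : D.Wo ((X ++ w).take t) := by
      rw [take_app ht.2.1.le]; exact ht.2.2.1
    have h2 : D.Wo ((X ++ w).take X.length) := by
      rw [take_app le_rfl, List.take_length]; exact ht.2.2.2.1
    have e1 := ht'.2.2.2.2 t ht.1 (by rw [List.length_append]; have := ht.2.1; omega) h1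
    have e2 := ht'.2.2.2.2 X.length (by have := ht.1; have := ht.2.1; omega)
      (by rw [List.length_append]; omega) h2
    have := ht.2.1
    omega

/-- the zone map -/
def Tm (t : ℕ) (u : List α) (v : V) : V :=
  D.act (D.act (D.act v ((u.take D.p0).map D.f).prod + D.nu2 (u.take D.p0))
    (((u.take t).drop D.p0).map D.f).prod + D.nu1 ((u.take t).drop D.p0))
    ((u.drop t).map D.f).prod

open Classical in
noncomputable def T (u : List α) (v : V) : V :=
  if h : ∃ t, D.Blk u t then D.Tm h.choose u v else v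

theorem T_eq {u : List α} {t : ℕ} (h : D.Blk u t) (v : V) : D.T u v = D.Tm t u v := by
  have hex : ∃ t, D.Blk u t := ⟨t, h⟩
  unfold T
  rw [dif_pos hex, hex.choose_spec.uniq h]

theorem act_sub (v w : V) (s : S) : D.act (v - w) s = D.act v s - D.act w s := by
  have h := D.act_add (v - w) w s
  rw [sub_add_cancel] at h
  rw [h]; abel

theorem act_zero (s : S) : D.act 0 s = 0 := by
  have h := D.act_sub 0 0 s
  simpa using h

theorem hT : ∀ X ∈ D.XX, ∀ v v', D.T X v - D.T X v' = D.act (v - v') (X.map D.f).prod := by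
  rintro X ⟨t, ht⟩ v v'
  rw [D.T_eq ht, D.T_eq ht]
  unfold Tm
  rw [← D.act_sub, add_sub_add_right_eq_sub, ← D.act_sub, add_sub_add_right_eq_sub, ← D.act_sub,
    D.act_mul, D.act_mul]
  congr 1
  have hz := D.hz
  have h1 := ht.1
  have e : X = X.take D.p0 ++ ((X.take t).drop D.p0 ++ X.drop t) := by
    have e1 : X.take D.p0 = (X.take t).take D.p0 := by
      rw [List.take_take]; congr 1; omega
    rw [e1, ← List.append_assoc, List.take_append_drop, List.take_append_drop]
  conv_rhs => rw [e]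
  rw [List.map_append, List.prod_append, List.map_append, List.prod_append]

/-! ### scheme 1 -/

def LP1 (v : V) : Language α :=
  {P | D.p0 ≤ P.length ∧
    D.lam (P.drop D.p0) = some (D.act v ((P.take D.p0).map D.f).prod + D.nu2 (P.take D.p0))}

def RQ1 (b : V) : Language α :=
  {Q | ∀ v P, P ∈ D.LP1 v → P ++ Q ∈ D.XX ∧ D.T (P ++ Q) v = b}

theorem LP1_len {v : V} {P : List α} (h : P ∈ D.LP1 v) : D.p0 ≤ P.length ∧
    P.length ≤ D.p0 + D.N1 := by
  obtain ⟨h1, h2⟩ := h
  have := D.lam_len _ _ h2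
  rw [List.length_drop] at this
  exact ⟨h1, by omega⟩

theorem compl1 : ∀ X ∈ D.Good, ∀ v, ∃ P Q, X = P ++ Q ∧ P ∈ D.LP1 v ∧ Q ∈ D.RQ1 (D.T X v) := by
  rintro X ⟨⟨t, ht⟩, hb⟩ v
  have hz := D.hz
  obtain ⟨ht1, ht2, ht3, ht4, ht5⟩ := ht
  have htN : D.z + D.N1 ≤ t := by
    by_contra hlt
    exact hb (Or.inl ⟨t, by omega, by omega, ht2.le, ht3⟩)
  have hTb : ¬ D.BadT (t - D.p0) := fun h => hb (Or.inr ⟨t, Blk.fv ⟨ht1, ht2, ht3, ht4, ht5⟩, h⟩)
  have hY : ((X.take t).drop D.p0).length = t - D.p0 := by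
    rw [List.length_drop, List.length_take]; omega
  obtain ⟨p, q, hpq, hp, hq⟩ := D.cp1 ((X.take t).drop D.p0) (by rw [hY]; omega)
    (by rw [hY]; exact hTb) (D.act v ((X.take D.p0).map D.f).prod + D.nu2 (X.take D.p0))
  obtain ⟨r, hr⟩ := Option.isSome_iff_exists.1 hq
  have hpl := D.lam_len _ _ hp
  have hql : p.length + q.length = t - D.p0 := by rw [← hY, ← hpq, List.length_append]
  have hX0 : (X.take D.p0).length = D.p0 := by rw [List.length_take]; omega
  have hXe : X = (X.take D.p0 ++ p) ++ (q ++ X.drop t) := by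
    have e1 : X.take D.p0 = (X.take t).take D.p0 := by
      rw [List.take_take]; congr 1; omega
    have e2 : (X.take D.p0 ++ p) ++ (q ++ X.drop t) = X.take D.p0 ++ ((p ++ q) ++ X.drop t) := by
      simp
    rw [e2, hpq, e1, ← List.append_assoc, List.take_append_drop, List.take_append_drop]
  have hPl : (X.take D.p0 ++ p).length = D.p0 + p.length := by rw [List.length_append, hX0]
  have hdl : (X.drop t).length = X.length - t := List.length_drop
  have hPmem : (X.take D.p0 ++ p) ∈ D.LP1 v := by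
    refine ⟨by rw [hPl]; omega, ?_⟩
    rw [List.drop_append, List.take_append]
    simp [hX0, hp, List.take_take]
  -- general computation
  have key : ∀ v' P', P' ∈ D.LP1 v' → D.Blk (P' ++ (q ++ X.drop t)) (P'.length + q.length) ∧
      D.Tm (P'.length + q.length) (P' ++ (q ++ X.drop t)) v' = D.act r ((X.drop t).map D.f).prod := by
    intro v' P' hP'
    obtain ⟨l1, l2⟩ := D.LP1_len hP'
    have hQl : (q ++ X.drop t).length = q.length + (X.length - t) := by
      rw [List.length_append, hdl]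
    have htot : (P' ++ (q ++ X.drop t)).length = P'.length + (q.length + (X.length - t)) := by
      rw [List.length_append, hQl]
    refine ⟨⟨by omega, by rw [htot]; omega, ?_, ?_, ?_⟩, ?_⟩
    · rw [D.wsh2 (P' := X.take D.p0 ++ p) (by omega) (by rw [hQl]; omega), ← hXe, hPl]
      have : D.p0 + p.length + q.length = t := by omega
      rw [this]; exact ht3
    · rw [D.wo_app _ _ (by rw [hQl]; omega), ← D.wo_app (X.take D.p0 ++ p) _ (by rw [hQl]; omega),
        ← hXe]
      exact ht4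
    · intro s hs1 hs2 hs3
      rw [htot] at hs2
      obtain ⟨s', rfl⟩ : ∃ s', s = P'.length + s' := ⟨s - P'.length, by omega⟩
      rw [D.wsh2 (P' := X.take D.p0 ++ p) (by omega) (by rw [hQl]; omega), ← hXe, hPl] at hs3
      by_cases hlt : D.p0 + p.length + s' < D.z
      · exfalso
        refine hb (Or.inl ⟨D.p0 + p.length + s', by omega, by omega, by omega, hs3⟩)
      · have := ht5 (D.p0 + p.length + s') (by omega) (by omega) hs3
        omega
    · obtain ⟨_, h2⟩ := hP'
      have hex := D.ex1 _ _ _ _ h2 hr (by omega)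
      unfold Tm
      have e1 : (P' ++ (q ++ X.drop t)).take D.p0 = P'.take D.p0 := take_app l1
      have e2 : ((P' ++ (q ++ X.drop t)).take (P'.length + q.length)).drop D.p0 =
          P'.drop D.p0 ++ q := by
        have e3 : (P' ++ (q ++ X.drop t)).take (P'.length + q.length) = P' ++ q := by
          rw [← List.append_assoc]
          have : P'.length + q.length = (P' ++ q).length := by rw [List.length_append]
          rw [this, take_app le_rfl, List.take_length]
        rw [e3, List.drop_append]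
        have : D.p0 - P'.length = 0 := by omega
        simp [this]
      have e4 : (P' ++ (q ++ X.drop t)).drop (P'.length + q.length) = X.drop t := by
        rw [← List.append_assoc]
        have : P'.length + q.length = (P' ++ q).length := by rw [List.length_append]
        rw [this, List.drop_left]
      rw [e1, e2, e4, ← hex]
  refine ⟨X.take D.p0 ++ p, q ++ X.drop t, hXe, hPmem, ?_⟩
  intro v' P' hP'
  obtain ⟨k1, k2⟩ := key v' P' hP'
  obtain ⟨k3, k4⟩ := key v _ hPmem
  refine ⟨⟨_, k1⟩, ?_⟩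
  rw [D.T_eq k1, k2]
  rw [← hXe] at k3 k4
  rw [D.T_eq k3, k4]

/-! ### scheme 2 -/

def LP2 (v : V) : Language α := {P | D.LL P v}

def RQ2 (b : V) : Language α :=
  {Q | ∀ v P, D.LL P v → (∃ t, D.FV (P ++ Q) t) ∧
    (D.BadV (P ++ Q) → P ++ Q ∈ D.XX ∧ D.T (P ++ Q) v = b)}

theorem sound2 : ∀ Y ∈ D.Bad, ∀ v v' P Q R R', P ∈ D.LP2 v → Q ∈ D.RQ2 v' →
    P ++ (Q ++ R) = Y ++ R' → P ++ Q = Y ∧ D.T Y v = v' := by
  rintro Y ⟨⟨tY, hY⟩, hYb⟩ v v' P Q R R' hP hQ e
  have e' : (P ++ Q) ++ R = Y ++ R' := by rw [List.append_assoc]; exact e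
  obtain ⟨⟨t', ht'⟩, hbad⟩ := hQ v P hP
  have htt : t' = tY := by
    have h1 := ht'.app R
    have h2 := (Blk.fv hY).app R'
    rw [e'] at h1
    exact h1.uniq h2
  subst htt
  have hW := D.hW
  have hb : D.BadV (P ++ Q) := by
    rcases hYb with ⟨s, h1, h2, h3, h4⟩ | ⟨t, h1, h2⟩
    · by_cases hs : s ≤ (P ++ Q).length
      · refine Or.inl ⟨s, h1, h2, hs, ?_⟩
        rw [← take_app (w := R) hs, e', take_app h3]
        exact h4
      · exfalso
        have h5 := ht'.2.1
        have h6 := ht'.1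
        have h7 : t' < s := by omega
        have h8 := D.gap hY.2.2.1 h4 h7 h3
        omega
    · refine Or.inr ⟨t', ht', ?_⟩
      rw [h1.uniq (Blk.fv hY)] at h2
      exact h2
  obtain ⟨hX, hTv⟩ := hbad hb
  have hE := (D.pf.eq hX ⟨t', hY⟩ e').1
  rw [hE] at hTv
  exact ⟨hE, hTv⟩

open Classical in
/-- first coordinates of the thin pairs -/
noncomputable def Fp (T : ℕ) : Finset ℕ :=
  (((Finset.range D.K ×ˢ Finset.range D.K)).filter
    (fun ij => ij.1 ≠ ij.2 ∧ D.BadT (T + D.c ij.2 - D.c ij.1))).image Prod.fst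

theorem Fp_card {T : ℕ} (h : D.La ≤ T) : (D.Fp T).card ≤ D.C0 := by
  classical
  exact Finset.card_image_le.trans (D.thin T h)

theorem mem_Fp {T k k' : ℕ} (hk : k < D.K) (hk' : k' < D.K) (hne : k' ≠ k)
    (hb : D.BadT (T + D.c k' - D.c k)) : k ∈ D.Fp T := by
  classical
  unfold Fp
  rw [Finset.mem_image]
  exact ⟨(k, k'), by simp [hk, hk', hb, hne.symm], rfl⟩

open Classical in
/-- spoiled places -/
noncomputable def Sp (X : List α) : Finset ℕ :=
  (Finset.range D.K).filter (fun k => ∃ k' < D.K, k' ≠ k ∧ ∃ P' : List α,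
    P'.length = D.c k' ∧ D.BadV (P' ++ X.drop (D.c k)))

theorem Sp_card {X : List α} {t : ℕ} (ht : D.Blk X t) : (D.Sp X).card ≤ 1 + 3 * D.C0 := by
  classical
  have hz := D.hz
  have hW := D.hW
  have hgap : t + D.W < X.length := by
    refine D.gap (u := X) ht.2.2.1 ?_ ht.2.1 le_rfl
    rw [List.take_length]; exact ht.2.2.2.1
  have ht1 := ht.1
  obtain ⟨S1, hS1c, hS1⟩ : ∃ S1 : Finset ℕ, S1.card ≤ D.C0 ∧ ∀ x, D.z ≤ x + D.p0 → x < D.z →
      D.Wo (X.take x) → D.Fp (x - D.p0) ⊆ S1 := by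
    by_cases hx : ∃ x, D.z ≤ x + D.p0 ∧ x < D.z ∧ D.Wo (X.take x)
    · obtain ⟨x, h1, h2, h3⟩ := hx
      refine ⟨D.Fp (x - D.p0), D.Fp_card (by omega), ?_⟩
      intro y g1 g2 g3
      have hxy : y = x := by
        rcases lt_trichotomy x y with hlt | he | hlt
        · have := D.gap h3 g3 hlt (by omega)
          omega
        · exact he.symm
        · have := D.gap g3 h3 hlt (by omega)
          omega
      rw [hxy]
    · exact ⟨∅, by simp, fun x h1 h2 h3 => absurd ⟨x, h1, h2, h3⟩ hx⟩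
  let SE : Finset ℕ := (Finset.range D.K).filter (fun k => ∃ k' < D.K, k' ≠ k ∧ ∃ x,
    x ≤ X.length ∧ D.Wo (X.take x) ∧ D.z + D.c k ≤ x + D.c k' + D.N1 ∧
      x + D.c k' < D.z + D.N1 + D.c k)
  have hSE : SE.card ≤ 1 := by
    rw [Finset.card_le_one]
    intro k hk l hl
    simp only [SE, Finset.mem_filter, Finset.mem_range] at hk hl
    obtain ⟨hkK, k', hk', hkne, x, hx1, hx2, hx3, hx4⟩ := hk
    obtain ⟨hlK, l', hl', hlne, y, hy1, hy2, hy3, hy4⟩ := hl
    have c1 := D.c_le k hkK
    have c2 := D.c_le l hlK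
    have c3 := D.c_le k' hk'
    have c4 := D.c_le l' hl'
    have hxy : x = y := by
      rcases lt_trichotomy x y with hlt | he | hlt
      · have := D.gap hx2 hy2 hlt hy1
        omega
      · exact he
      · have := D.gap hy2 hx2 hlt hx1
        omega
    subst hxy
    by_contra hne
    have hp : (k, k') ≠ (l, l') := fun h => hne (by simpa using congrArg Prod.fst h)
    rcases D.res k k' l l' hkK hk' hlK hl' hkne.symm hlne.symm hp with h | h <;> omega
  have hsub : D.Sp X ⊆ SE ∪ (S1 ∪ (D.Fp (t - D.p0) ∪ D.Fp (X.length - D.p0))) := by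
    intro k hk
    simp only [Sp, Finset.mem_filter, Finset.mem_range] at hk
    obtain ⟨hkK, k', hk', hne, P', hP', hb⟩ := hk
    have c1 := D.c_le k hkK
    have c3 := D.c_le k' hk'
    have hQl : (X.drop (D.c k)).length = X.length - D.c k := List.length_drop
    have htl : (X.take (D.c k)).length = D.c k := by rw [List.length_take]; omega
    have htr : ∀ s', D.n ≤ s' → s' ≤ X.length - D.c k →
        (D.Wo ((P' ++ X.drop (D.c k)).take (P'.length + s')) ↔ D.Wo (X.take (D.c k + s'))) := by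
      intro s' h1 h2
      rw [D.wsh2 (P' := X.take (D.c k)) h1 (by rw [hQl]; exact h2), htl, List.take_append_drop]
    rcases hb with ⟨s, h1, h2, h3, h4⟩ | ⟨t', ht', hbt⟩
    · rw [List.length_append, hQl, hP'] at h3
      obtain ⟨s', rfl⟩ : ∃ s', s = P'.length + s' := ⟨s - P'.length, by omega⟩
      rw [htr s' (by omega) (by omega)] at h4
      apply Finset.mem_union_left
      simp only [SE, Finset.mem_filter, Finset.mem_range]
      exact ⟨hkK, k', hk', hne, D.c k + s', by omega, h4, by omega, by omega⟩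
    · apply Finset.mem_union_right
      have g1 := ht'.1
      have g2 := ht'.2.1
      have g3 := ht'.2.2.1
      rw [List.length_append, hQl, hP'] at g2
      obtain ⟨s', rfl⟩ : ∃ s', t' = P'.length + s' := ⟨t' - P'.length, by omega⟩
      rw [htr s' (by omega) (by omega)] at g3
      have hBT : ∀ m, m = D.c k + s' - D.p0 → D.BadT (m + D.c k' - D.c k) := by
        intro m hm
        have : m + D.c k' - D.c k = P'.length + s' - D.p0 := by omega
        rw [this]; exact hbt
      by_cases hlt : D.c k + s' < D.z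
      · apply Finset.mem_union_left
        refine hS1 (D.c k + s') (by omega) hlt g3 ?_
        exact D.mem_Fp hkK hk' hne (hBT _ rfl)
      · apply Finset.mem_union_right
        by_cases hlt2 : D.c k + s' < X.length
        · apply Finset.mem_union_left
          have e := ht.2.2.2.2 _ (by omega) hlt2 g3
          exact D.mem_Fp hkK hk' hne (hBT _ (by omega))
        · apply Finset.mem_union_right
          exact D.mem_Fp hkK hk' hne (hBT _ (by omega))
  refine (Finset.card_le_card hsub).trans ?_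
  refine (Finset.card_union_le _ _).trans ?_
  have h1 := (Finset.card_union_le S1 (D.Fp (t - D.p0) ∪ D.Fp (X.length - D.p0)))
  have h2 := (Finset.card_union_le (D.Fp (t - D.p0)) (D.Fp (X.length - D.p0)))
  have h3 := D.Fp_card (T := t - D.p0) (by omega)
  have h4 := D.Fp_card (T := X.length - D.p0) (by omega)
  omega

theorem compl2 : ∀ X ∈ D.Bad, ∀ v, ∃ P Q, X = P ++ Q ∧ P ∈ D.LP2 v ∧ Q ∈ D.RQ2 (D.T X v) := by
  classical
  rintro X ⟨⟨t, ht⟩, _⟩ v
  have hz := D.hz
  have hW := D.hW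
  have hgap : t + D.W < X.length := by
    refine D.gap (u := X) ht.2.2.1 ?_ ht.2.1 le_rfl
    rw [List.take_length]; exact ht.2.2.2.1
  have ht1 := ht.1
  obtain ⟨k, hk, hkS, hLL, heq⟩ := D.cp2 (X.take D.p0) v (D.Sp X)
    (by rw [List.length_take]; omega) (D.Sp_card ht)
  have c1 := D.c_le k hk
  have htt : (X.take D.p0).take (D.c k) = X.take (D.c k) := by
    rw [List.take_take]; congr 1; omega
  rw [htt] at hLL
  have hQl : (X.drop (D.c k)).length = X.length - D.c k := List.length_drop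
  have htl : (X.take (D.c k)).length = D.c k := by rw [List.length_take]; omega
  refine ⟨X.take (D.c k), X.drop (D.c k), (List.take_append_drop _ _).symm, hLL, ?_⟩
  intro v' P' hP'
  obtain ⟨k', hk', hl'⟩ := D.LL_len _ _ hP'
  have c3 := D.c_le k' hk'
  have htr : ∀ s', D.n ≤ s' → s' ≤ X.length - D.c k →
      (D.Wo ((P' ++ X.drop (D.c k)).take (P'.length + s')) ↔ D.Wo (X.take (D.c k + s'))) := by
    intro s' h1 h2
    rw [D.wsh2 (P' := X.take (D.c k)) h1 (by rw [hQl]; exact h2), htl, List.take_append_drop]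
  have hend : D.Wo (P' ++ X.drop (D.c k)) := by
    rw [D.wo_app _ _ (by rw [hQl]; omega), ← D.wo_app (X.take (D.c k)) _ (by rw [hQl]; omega),
      List.take_append_drop]
    exact ht.2.2.2.1
  have htot : (P' ++ X.drop (D.c k)).length = P'.length + (X.length - D.c k) := by
    rw [List.length_append, hQl]
  constructor
  · refine D.exists_fv (s := (P' ++ X.drop (D.c k)).length) (by rw [htot]; omega) le_rfl ?_
    rw [List.take_length]; exact hend
  · intro hbv
    by_cases hkk : k' = k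
    · subst hkk
      have hB : D.Blk (P' ++ X.drop (D.c k')) t := by
        refine ⟨ht1, by rw [htot]; omega, ?_, hend, ?_⟩
        · obtain ⟨s', hs'⟩ : ∃ s', t = P'.length + s' := ⟨t - P'.length, by omega⟩
          have := (htr s' (by omega) (by omega)).2 (by
            have e : D.c k' + s' = t := by omega
            rw [e]; exact ht.2.2.1)
          rw [hs']; exact this
        · intro s h1 h2 h3
          rw [htot] at h2
          obtain ⟨s', rfl⟩ : ∃ s', s = P'.length + s' := ⟨s - P'.length, by omega⟩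
          rw [htr s' (by omega) (by omega)] at h3
          have := ht.2.2.2.2 _ (by omega) (by omega) h3
          omega
      refine ⟨⟨t, hB⟩, ?_⟩
      rw [D.T_eq hB, D.T_eq ht]
      have hd : ∀ m, D.c k' ≤ m → (P' ++ X.drop (D.c k')).drop m = X.drop m := by
        intro m hm
        obtain ⟨d, rfl⟩ : ∃ d, m = D.c k' + d := ⟨m - D.c k', by omega⟩
        rw [← List.drop_drop, ← hl', List.drop_left, hl', List.drop_drop]
      have e1 : (P' ++ X.drop (D.c k')).take D.p0 = P' ++ (X.take D.p0).drop (D.c k') := by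
        rw [List.take_append, List.drop_take, hl', List.take_of_length_le (by omega)]
      have e2 : ((P' ++ X.drop (D.c k')).take t).drop D.p0 = (X.take t).drop D.p0 := by
        rw [List.drop_take, List.drop_take, hd _ c1]
      have e3 : (P' ++ X.drop (D.c k')).drop t = X.drop t := hd _ (by omega)
      unfold Tm
      rw [e1, e2, e3, heq P' v' hl' hP']
    · exfalso
      apply hkS
      simp only [Sp, Finset.mem_filter, Finset.mem_range]
      exact ⟨hk, k', hk', hkk, P', hl', hbv⟩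

end Dat

end Crest.Agent.R320.Two_334
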