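import Mathlib

/-!
Row 320 (S0495), piece (4) of the blueprint: helper860's lemma #12446 (3).

Rigid walls: a set `Wl` of integers all of whose gaps inside `[A, B]` are `L` or `L + 1`.
A `z`-chain goes from `x` to the first wall `>= x + z`.  A point `x` is `z`-bad if some wall lies
in `[x + z - N, x + z + N]`.  If `z2 = z1 + 2 L + L / 2` and `4 N + 30 <= L` then a `z1`-chain and a
`z2`-chain cannot both be bad everywhere on a common stretch of length about `z2 ^ 2 / L`.
-/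

set_option autoImplicit false

namespace Crest.Agent.R320

/-- All gaps of the walls `Wl` inside `[A, B]` are `L` or `L + 1`. -/
structure Rigid824 (Wl : ℤ → Prop) (L A B : ℤ) : Prop where
  gap : ∀ w w', A ≤ w → w' ≤ B → Wl w → Wl w' → w < w' → w + L ≤ w'
  next : ∀ w, A ≤ w → w + L + 1 ≤ B → Wl w → Wl (w + L) ∨ Wl (w + L + 1)

/-- `y` is the first wall `>= x + z`. -/
def IsNext824 (Wl : ℤ → Prop) (z x y : ℤ) : Prop :=
  Wl y ∧ x + z ≤ y ∧ ∀ w, Wl w → x + z ≤ w → y ≤ w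

/-- Some wall lies in `[x + z - N, x + z + N]`. -/
def BadAt824 (Wl : ℤ → Prop) (N z x : ℤ) : Prop :=
  ∃ w, Wl w ∧ x + z - N ≤ w ∧ w ≤ x + z + N

variable {Wl : ℤ → Prop} {L A B : ℤ}

/-- Distances of rigid walls are in `[i L, i L + i]`. -/
theorem Rigid824.dist (h : Rigid824 Wl L A B) (hL : 2 ≤ L) (n : ℕ) :
    ∀ w w', Wl w → Wl w' → A ≤ w → w ≤ w' → w' ≤ B → w' - w ≤ n →
      ∃ i : ℤ, 0 ≤ i ∧ i * L ≤ w' - w ∧ w' - w ≤ i * L + i := by
  induction n with
  | zero =>
    intro w w' _ _ _ h1 _ h2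
    refine ⟨0, le_refl _, ?_, ?_⟩ <;> push_cast at h2 <;> omega
  | succ n ih =>
    intro w w' hw hw' hA h1 hB h2
    rcases eq_or_lt_of_le h1 with h3 | h3
    · exact ⟨0, le_refl _, by omega, by omega⟩
    have h4 := h.gap w w' hA hB hw hw' h3
    by_cases h5 : w' ≤ w + L + 1
    · exact ⟨1, by omega, by omega, by omega⟩
    rw [not_le] at h5
    obtain ⟨v, hv, hv1, hv2⟩ : ∃ v, Wl v ∧ w + L ≤ v ∧ v ≤ w + L + 1 := by
      rcases h.next w hA (by omega) hw with h6 | h6
      · exact ⟨_, h6, le_refl _, by omega⟩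
      · exact ⟨_, h6, by omega, le_refl _⟩
    push_cast at h2
    obtain ⟨i, hi, hi1, hi2⟩ := ih v w' hv hw' (by omega) (by omega) hB (by omega)
    refine ⟨i + 1, by omega, ?_, ?_⟩
    · have : (i + 1) * L = i * L + L := by ring
      rw [this]; omega
    · have : (i + 1) * L = i * L + L := by ring
      rw [this]; omega

/-- Distances below `k L` (`k` a given bound): residues are small. -/
theorem Rigid824.dist' (h : Rigid824 Wl L A B) (hL : 2 ≤ L) {w w' k : ℤ}
    (hw : Wl w) (hw' : Wl w') (hA : A ≤ w) (h1 : w ≤ w') (hB : w' ≤ B) (hk : w' - w ≤ k * L) :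
    ∃ i r : ℤ, 0 ≤ r ∧ r ≤ k ∧ w' - w = i * L + r := by
  obtain ⟨i, hi, hi1, hi2⟩ := h.dist hL (w' - w).toNat w w' hw hw' hA h1 hB (by omega)
  refine ⟨i, w' - w - i * L, by omega, ?_, by ring⟩
  have h3 : i * L ≤ k * L := le_trans hi1 hk
  have h4 : i ≤ k := le_of_mul_le_mul_right h3 (by omega)
  omega

/-- Signed version. -/
theorem Rigid824.dist2 (h : Rigid824 Wl L A B) (hL : 2 ≤ L) {w w' k : ℤ}
    (hw : Wl w) (hw' : Wl w') (hA : A ≤ w) (hA' : A ≤ w') (hB : w ≤ B) (hB' : w' ≤ B)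
    (hk : |w' - w| ≤ k * L) :
    ∃ i r : ℤ, -k ≤ r ∧ r ≤ k ∧ w' - w = i * L + r := by
  rcases le_total w w' with h1 | h1
  · obtain ⟨i, r, h2, h3, h4⟩ := h.dist' hL hw hw' hA h1 hB' (le_trans (le_abs_self _) hk)
    exact ⟨i, r, by omega, h3, h4⟩
  · have h5 : w - w' ≤ k * L := by
      have := neg_abs_le (w' - w)
      omega
    obtain ⟨i, r, h2, h3, h4⟩ := h.dist' hL hw' hw hA' h1 hB h5
    refine ⟨-i, -r, by omega, by omega, ?_⟩
    have : -i * L = -(i * L) := by ring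
    rw [this]; omega

/-- Step length of a chain on rigid walls: between `z` and `z + L`. -/
theorem Rigid824.step (h : Rigid824 Wl L A B) (hL : 2 ≤ L) {z x y : ℤ} (hz : 0 ≤ z)
    (hx : Wl x) (hxA : A ≤ x) (hxB : x + z + L + 1 ≤ B) (hn : IsNext824 Wl z x y) :
    x + z ≤ y ∧ y ≤ x + z + L := by
  refine ⟨hn.2.1, ?_⟩
  -- the last wall before `x + z`, or `x` itself
  by_contra hcon
  rw [not_le] at hcon
  -- no wall in `[x + z, x + z + L]`
  have hno : ∀ w, Wl w → x + z ≤ w → w ≤ x + z + L → False := by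
    intro w hw h1 h2
    have := hn.2.2 w hw h1
    omega
  -- every wall below `x + z` starting at `x` has a successor below `x + z`
  have key : ∀ n : ℕ, ∃ w, Wl w ∧ x ≤ w ∧ w < x + z ∧ x + n ≤ w := by
    intro n
    induction n with
    | zero =>
      rcases eq_or_lt_of_le hz with h0 | h0
      · exact (hno x hx (by omega) (by omega)).elim
      · exact ⟨x, hx, le_refl _, by omega, by simp⟩
    | succ n ih =>
      obtain ⟨w, hw, h1, h2, h3⟩ := ih
      rcases h.next w (by omega) (by omega) hw with h4 | h4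
      · by_cases h5 : w + L < x + z
        · exact ⟨w + L, h4, by omega, h5, by push_cast; omega⟩
        · exact (hno _ h4 (by omega) (by omega)).elim
      · by_cases h5 : w + L + 1 < x + z
        · exact ⟨w + L + 1, h4, by omega, h5, by push_cast; omega⟩
        · exact (hno _ h4 (by omega) (by omega)).elim
  obtain ⟨w, _, _, h2, h3⟩ := key z.toNat
  omega

/-- (i) of the proof: two bad points at distance at most `3 L` do not exist. -/
theorem Rigid824.near (h : Rigid824 Wl L A B) {N z1 z2 x y : ℤ} (hN : 0 ≤ N)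
    (hL : 4 * N + 30 ≤ L) (hz1 : 0 ≤ z1) (hz : z2 = z1 + 2 * L + L / 2)
    (hx : Wl x) (hy : Wl y) (hxA : A ≤ x) (hyA : A ≤ y)
    (hxB : x + z1 + N ≤ B) (hyB : y + z2 + N ≤ B) (hxN : A ≤ x + z1 - N) (hyN : A ≤ y + z2 - N)
    (hd1 : y - x ≤ 3 * L) (hd2 : x - y ≤ 3 * L)
    (b1 : BadAt824 Wl N z1 x) (b2 : BadAt824 Wl N z2 y) : False := by
  obtain ⟨w, hw, hw1, hw2⟩ := b1
  obtain ⟨v, hv, hv1, hv2⟩ := b2
  have hL2 : 2 ≤ L := by omega
  obtain ⟨i, r, hr1, hr2, hr3⟩ := h.dist2 hL2 (k := 3) hx hy hxA hyA (by omega) (by omega)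
    (by rw [abs_le]; constructor <;> omega)
  obtain ⟨i', r', hr1', hr2', hr3'⟩ := h.dist2 hL2 (k := 6) hw hv (by omega) (by omega)
    (by omega) (by omega) (by rw [abs_le]; constructor <;> omega)
  -- `(i' - i - 2) * L` lies strictly between `0` and `L`
  have e1 : (i' - i - 2) * L = (v - w) - (y - x) - 2 * L - (r' - r) := by
    rw [hr3, hr3']; ring
  have e2 : 0 < (i' - i - 2) * L := by rw [e1]; omega
  have e3 : (i' - i - 2) * L < 1 * L := by rw [e1]; omega
  have e4 : 0 < i' - i - 2 := by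
    by_contra hc
    rw [not_lt] at hc
    nlinarith
  have e5 : i' - i - 2 < 1 := lt_of_mul_lt_mul_right e3 (by omega)
  omega

/-- helper860's lemma: a `z1`-chain and a `z2`-chain are never both bad on `[X, Y]`. -/
theorem Rigid824.two_chains (h : Rigid824 Wl L A B) {N z1 z2 X Y : ℤ} (hN : 0 ≤ N)
    (hL : 4 * N + 30 ≤ L) (hz1 : 1 ≤ z1) (hzN : N ≤ z1) (hz : z2 = z1 + 2 * L + L / 2)
    (a b : ℕ → ℤ)
    (hA : A ≤ X) (hB : Y + z2 + L + 1 ≤ B) (K : ℕ) (hK : z2 + 1 ≤ K * L)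
    (hXY : X + (z2 + L) * (K + 2) + z2 + 4 * L ≤ Y)
    (ha0 : X ≤ a 0) (ha1 : a 0 ≤ X + z2 + L) (hb0 : X ≤ b 0) (hb1 : b 0 ≤ X + z2 + L)
    (haw : Wl (a 0)) (hbw : Wl (b 0))
    (ha : ∀ j, a j ≤ Y → IsNext824 Wl z1 (a j) (a (j + 1)))
    (hb : ∀ i, b i ≤ Y → IsNext824 Wl z2 (b i) (b (i + 1)))
    (ba : ∀ j, a j ≤ Y → BadAt824 Wl N z1 (a j))
    (bb : ∀ i, b i ≤ Y → BadAt824 Wl N z2 (b i)) : False := by
  have hL2 : 2 ≤ L := by omega
  have hz2 : z1 + 2 * L ≤ z2 := by omega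
  have hzz : z2 ≤ z1 + 3 * L := by omega
  have hmono : ∀ k : ℕ, k ≤ K + 2 → (z2 + L) * (k : ℤ) ≤ (z2 + L) * (K + 2) := by
    intro k hk
    apply mul_le_mul_of_nonneg_left _ (by omega)
    exact_mod_cast hk
  have hP0 : (z2 + L) * ((1 : ℕ) : ℤ) ≤ (z2 + L) * (K + 2) := hmono 1 (by omega)
  have hP1 : (z2 + L) * ((1 : ℕ) : ℤ) = z2 + L := by push_cast; ring
  rw [hP1] at hP0
  -- phase 1: an element of the first chain behind `b 0 + 3 L`
  have ph1 : ∀ n : ℕ, ∃ j, Wl (a j) ∧ X ≤ a j ∧ a j ≤ b 0 + z2 + 4 * L ∧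
      (b 0 + 3 * L < a j ∨ a 0 + n ≤ a j) := by
    intro n
    induction n with
    | zero => exact ⟨0, haw, ha0, by omega, Or.inr (by simp)⟩
    | succ n ih =>
      obtain ⟨j, h1, h2, h3, h4⟩ := ih
      by_cases h5 : b 0 + 3 * L < a j
      · exact ⟨j, h1, h2, h3, Or.inl h5⟩
      · have h6 : a 0 + n ≤ a j := by
          rcases h4 with h4 | h4
          · exact absurd h4 h5
          · exact h4
        have h7 : a j ≤ Y := by omega
        have h8 := ha j h7
        have h9 := h.step hL2 (by omega) h1 (by omega) (by omega) h8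
        exact ⟨j + 1, h8.1, by omega, by omega, Or.inr (by push_cast; omega)⟩
  obtain ⟨j0, hj1, hj2, hj3, hj4⟩ := ph1 (b 0 + 3 * L + 1 - a 0).toNat
  have hj5 : b 0 + 3 * L < a j0 := by
    rcases hj4 with h4 | h4
    · exact h4
    · omega
  -- phase 2: paired steps
  have ph2 : ∀ k : ℕ, k ≤ K + 1 → Wl (a (j0 + k)) ∧ Wl (b k) ∧ X ≤ a (j0 + k) ∧ X ≤ b k ∧
      b k ≤ b 0 + (z2 + L) * (k : ℤ) ∧ b k - a (j0 + k) < - (3 * L) ∧
      -(z2 + 4 * L) + k * L ≤ b k - a (j0 + k) := by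
    intro k
    induction k with
    | zero =>
      intro _
      refine ⟨hj1, hbw, hj2, hb0, by simp, ?_, ?_⟩
      · simp only [Nat.add_zero]; omega
      · simp only [Nat.add_zero]; push_cast; omega
    | succ k ih =>
      intro hk
      obtain ⟨c1, c2, c3, c4, c5, c6, c7⟩ := ih (by omega)
      have m1 := hmono k (by omega)
      have m2 := hmono (k + 1) (by omega)
      have m3 : (z2 + L) * ((k + 1 : ℕ) : ℤ) = (z2 + L) * (k : ℤ) + (z2 + L) := by
        push_cast; ring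
      have m4 : ((k + 1 : ℕ) : ℤ) * L = (k : ℤ) * L + L := by push_cast; ring
      have m5 : (0 : ℤ) ≤ (k : ℤ) * L := by
        apply mul_nonneg
        · exact_mod_cast Nat.zero_le k
        · omega
      have m6 := hmono (k + 1) (by omega)
      -- positions are `<= Y`
      have m7 : (z2 + L) * ((k + 1 : ℕ) : ℤ) ≤ (z2 + L) * (K + 1) := by
        apply mul_le_mul_of_nonneg_left _ (by omega)
        exact_mod_cast hk
      have m8 : (z2 + L) * ((K : ℤ) + 2) = (z2 + L) * (K + 1) + (z2 + L) := by ring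
      have e1 : b k ≤ Y := by omega
      have e2 : a (j0 + k) ≤ Y := by omega
      have s1 := hb k e1
      have s2 := ha (j0 + k) e2
      have t1 := h.step hL2 (by omega) c2 (by omega) (by omega) s1
      have t2 := h.step hL2 (by omega) c1 (by omega) (by omega) s2
      have r1 : j0 + (k + 1) = j0 + k + 1 := by omega
      rw [r1]
      refine ⟨s2.1, s1.1, by omega, by omega, by omega, ?_, by omega⟩
      by_contra hcon
      have f1 : b (k + 1) ≤ Y := by omega
      have f2 : a (j0 + k + 1) ≤ Y := by omega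
      exact h.near hN hL (by omega) hz s2.1 s1.1 (by omega) (by omega) (by omega) (by omega)
        (by omega) (by omega) (by omega) (by omega) (ba _ f2) (bb _ f1)
  obtain ⟨_, _, _, _, _, c6, c7⟩ := ph2 (K + 1) (le_refl _)
  have m4 : ((K + 1 : ℕ) : ℤ) * L = (K : ℤ) * L + L := by push_cast; ring
  omega

end Crest.Agent.R320
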