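import Mathlib

/-!
# Row 320: two bad chains on rigid walls cannot run together

Walls are a predicate `Wl` on `Int`.  On the stretch `[lo, hi]` they are rigid: two different
walls are at distance at least `L`, and the next wall after a wall `a` is `a + L` or `a + L + 1`.
A chain for the step `z` goes from the wall `a` to the first wall `>= a + z`; it is bad at `a`
(for the window `N`) if some wall lies within `N` of `a + z`.
With `z2 = z1 + 2 L + L / 2` and `L >= 4 N + 30` a bad `z1`-chain and a bad `z2`-chain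
cannot live on a common long stretch (lemma (3) of post 12446).
-/

set_option autoImplicit false

namespace Crest.Agent.R320.TwoChains_114

/-- Walls with all gaps `L` or `L + 1` on the stretch `[lo, hi]`. -/
structure Rigid (Wl : ℤ → Prop) (L lo hi : ℤ) : Prop where
  sep : ∀ a c, Wl a → Wl c → lo ≤ a → c ≤ hi → a < c → a + L ≤ c
  nxt : ∀ a, Wl a → lo ≤ a → a + L + 1 ≤ hi → Wl (a + L) ∨ Wl (a + L + 1)

/-- `y` is the first wall `>= x`. -/
def FirstWall (Wl : ℤ → Prop) (x y : ℤ) : Prop :=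
  Wl y ∧ x ≤ y ∧ ∀ c, Wl c → x ≤ c → y ≤ c

/-- A chain with `n` steps for the jump `z`, bad at every place `0, .., n`. -/
structure BadChain (Wl : ℤ → Prop) (N z : ℤ) (n : ℕ) (a : ℕ → ℤ) : Prop where
  wall0 : Wl (a 0)
  step : ∀ j, j < n → FirstWall Wl (a j + z) (a (j + 1))
  bad : ∀ j, j ≤ n → ∃ w, Wl w ∧ a j + z - N ≤ w ∧ w ≤ a j + z + N

variable {Wl : ℤ → Prop} {L lo hi N : ℤ}

/-- Distances of walls: `c - a = k L + r` with `0 <= r <= k`. -/
theorem dist_form (hR : Rigid Wl L lo hi) (hL : 0 < L) :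
    ∀ (n : ℕ) (a c : ℤ), (c - a).toNat ≤ n → Wl a → Wl c → lo ≤ a → a ≤ c → c ≤ hi →
      ∃ k r : ℤ, 0 ≤ r ∧ r ≤ k ∧ c - a = k * L + r := by
  intro n
  induction n with
  | zero =>
    intro a c hn _ _ _ hac _
    refine ⟨0, 0, le_rfl, le_rfl, ?_⟩
    omega
  | succ n ih =>
    intro a c hn ha hc hlo hac hhi
    rcases eq_or_lt_of_le hac with h | h
    · exact ⟨0, 0, le_rfl, le_rfl, by omega⟩
    have h1 := hR.sep a c ha hc hlo hhi h
    rcases eq_or_lt_of_le h1 with h2 | h2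
    · exact ⟨1, 0, le_rfl, by norm_num, by omega⟩
    rcases hR.nxt a ha hlo (by omega) with h3 | h3
    · obtain ⟨k, r, hr, hrk, he⟩ := ih (a + L) c (by omega) h3 hc (by omega) (by omega) hhi
      refine ⟨k + 1, r, hr, by omega, ?_⟩
      have : (k + 1) * L = k * L + L := by ring
      omega
    · obtain ⟨k, r, hr, hrk, he⟩ := ih (a + L + 1) c (by omega) h3 hc (by omega) (by omega) hhi
      refine ⟨k + 1, r + 1, by omega, by omega, ?_⟩
      have : (k + 1) * L = k * L + L := by ring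
      omega

/-- Signed form: any two walls of the stretch. -/
theorem dist_signed (hR : Rigid Wl L lo hi) (hL : 0 < L) {a c : ℤ}
    (ha : Wl a) (hc : Wl c) (hla : lo ≤ a) (hlc : lo ≤ c) (hha : a ≤ hi) (hhc : c ≤ hi) :
    ∃ k r : ℤ, c - a = k * L + r ∧ ((0 ≤ r ∧ r ≤ k) ∨ (k ≤ r ∧ r ≤ 0)) := by
  rcases le_total a c with h | h
  · obtain ⟨k, r, hr, hrk, he⟩ := dist_form hR hL _ a c le_rfl ha hc hla h hhc
    exact ⟨k, r, he, Or.inl ⟨hr, hrk⟩⟩
  · obtain ⟨k, r, hr, hrk, he⟩ := dist_form hR hL _ c a le_rfl hc ha hlc h hha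
    refine ⟨-k, -r, ?_, Or.inr ⟨by omega, by omega⟩⟩
    have : (-k) * L = -(k * L) := by ring
    omega

/-- (i): two places at distance `<= 3 L` cannot be bad for `z1` and for `z2`. -/
theorem not_close (hR : Rigid Wl L lo hi) (hN : 0 ≤ N) (hL : 4 * N + 30 ≤ L) {z1 z2 a b w v : ℤ}
    (hz : z2 = z1 + 2 * L + L / 2)
    (ha : Wl a) (hb : Wl b) (hw : Wl w) (hv : Wl v)
    (la : lo ≤ a) (lb : lo ≤ b) (lw : lo ≤ w) (lv : lo ≤ v)
    (ua : a ≤ hi) (ub : b ≤ hi) (uw : w ≤ hi) (uv : v ≤ hi)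
    (w1 : a + z1 - N ≤ w) (w2 : w ≤ a + z1 + N) (v1 : b + z2 - N ≤ v) (v2 : v ≤ b + z2 + N)
    (d1 : -(3 * L) ≤ b - a) (d2 : b - a ≤ 3 * L) : False := by
  have hL0 : 0 < L := by omega
  obtain ⟨k, r, he, hk⟩ := dist_signed hR hL0 ha hb la lb ua ub
  obtain ⟨k', r', he', hk'⟩ := dist_signed hR hL0 hw hv lw lv uw uv
  set h := L / 2 with hh
  have hh1 : 2 * h ≤ L := by omega
  have hh2 : L ≤ 2 * h + 1 := by omega
  -- bounds for k
  have hk3 : k ≤ 3 := by
    by_contra hc
    have : 4 * L ≤ k * L := by nlinarith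
    rcases hk with ⟨h1, h2⟩ | ⟨h1, h2⟩
    · omega
    · omega
  have hk3' : -3 ≤ k := by
    by_contra hc
    have : k * L ≤ (-4) * L := by nlinarith
    rcases hk with ⟨h1, h2⟩ | ⟨h1, h2⟩
    · omega
    · omega
  have hv1 : v - w ≤ 5 * L + h + 2 * N := by omega
  have hv2 : -L + h - 2 * N ≤ v - w := by omega
  have hk5 : k' ≤ 5 := by
    by_contra hc
    have : 6 * L ≤ k' * L := by nlinarith
    rcases hk' with ⟨h1, h2⟩ | ⟨h1, h2⟩
    · omega
    · omega
  have hk5' : -1 ≤ k' := by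
    by_contra hc
    have : k' * L ≤ (-2) * L := by nlinarith
    rcases hk' with ⟨h1, h2⟩ | ⟨h1, h2⟩
    · omega
    · omega
  -- (v - w) - (b - a) = 2 L + h + e
  have key : (k' - k - 2) * L = h + ((v - w) - (b - a) - 2 * L - h) - (r' - r) := by
    have : (k' - k - 2) * L = k' * L - k * L - 2 * L := by ring
    omega
  have e1 : -(2 * N) ≤ (v - w) - (b - a) - 2 * L - h := by omega
  have e2 : (v - w) - (b - a) - 2 * L - h ≤ 2 * N := by omega
  have rr1 : r' - r ≤ 8 := by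
    rcases hk with ⟨h1, h2⟩ | ⟨h1, h2⟩ <;> rcases hk' with ⟨h3, h4⟩ | ⟨h3, h4⟩ <;> omega
  have rr2 : -8 ≤ r' - r := by
    rcases hk with ⟨h1, h2⟩ | ⟨h1, h2⟩ <;> rcases hk' with ⟨h3, h4⟩ | ⟨h3, h4⟩ <;> omega
  have p1 : 0 < (k' - k - 2) * L := by omega
  have p2 : (k' - k - 2) * L < L := by omega
  rcases le_or_gt (k' - k - 2) 0 with h5 | h5
  · have : (k' - k - 2) * L ≤ 0 := mul_nonpos_of_nonpos_of_nonneg h5 hL0.le
    omega
  · have : 1 * L ≤ (k' - k - 2) * L := by
      apply mul_le_mul_of_nonneg_right _ hL0.le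
      omega
    omega

/-- One step of a bad chain advances by `z + [0, L]`. -/
theorem step_bound (hR : Rigid Wl L lo hi) (hNL : N ≤ L) {z a a' w : ℤ}
    (hs : FirstWall Wl (a + z) a') (hw : Wl w) (lw : lo ≤ w) (uw : w + L + 1 ≤ hi)
    (w1 : a + z - N ≤ w) (w2 : w ≤ a + z + N) : a + z ≤ a' ∧ a' ≤ a + z + L := by
  obtain ⟨_, h1, h2⟩ := hs
  refine ⟨h1, ?_⟩
  rcases le_or_gt (a + z) w with h | h
  · have := h2 w hw h
    omega
  · rcases hR.nxt w hw lw uw with h3 | h3
    · have := h2 _ h3 (by omega)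
      omega
    · have := h2 _ h3 (by omega)
      omega

theorem BadChain.wall {z : ℤ} {n : ℕ} {a : ℕ → ℤ} (h : BadChain Wl N z n a) :
    ∀ j, j ≤ n → Wl (a j) := by
  intro j hj
  cases j with
  | zero => exact h.wall0
  | succ j => exact (h.step j (by omega)).1

theorem BadChain.shift {z : ℤ} {n m : ℕ} {a : ℕ → ℤ} (h : BadChain Wl N z (m + n) a) :
    BadChain Wl N z n (fun j => a (m + j)) :=
  ⟨h.wall m (by omega), fun j hj => h.step (m + j) (by omega), fun j hj => h.bad (m + j) (by omega)⟩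

theorem BadChain.lower {z : ℤ} {n : ℕ} {a : ℕ → ℤ} (h : BadChain Wl N z n a) (hz : 0 ≤ z) :
    ∀ j, j ≤ n → a 0 ≤ a j := by
  intro j
  induction j with
  | zero => intro _; exact le_rfl
  | succ j ih =>
    intro hj
    have h1 := ih (by omega)
    have h2 := (h.step j (by omega)).2.1
    omega

/-- Core: if `b 0 - a 0` is between `-(n + 3) L` and `3 L`, then two bad chains with `n` steps
are impossible. -/
theorem core (hR : Rigid Wl L lo hi) (hN : 0 ≤ N) (hL : 4 * N + 30 ≤ L) {z1 z2 : ℤ} {n : ℕ}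
    {a b : ℕ → ℤ} (hz : z2 = z1 + 2 * L + L / 2) (hz1 : N ≤ z1)
    (ha : BadChain Wl N z1 n a) (hb : BadChain Wl N z2 n b)
    (la : lo ≤ a 0) (lb : lo ≤ b 0)
    (ua : ∀ j, j ≤ n → a j + z1 + N + L + 1 ≤ hi)
    (ub : ∀ j, j ≤ n → b j + z2 + N + L + 1 ≤ hi)
    (d1 : -(((n : ℤ) + 3) * L) ≤ b 0 - a 0) (d2 : b 0 - a 0 ≤ 3 * L) : False := by
  have hL0 : 0 < L := by omega
  have key : ∀ j, j ≤ n → -(3 * L) ≤ b j - a j → b j - a j ≤ 3 * L → False := by
    intro j hj e1 e2
    obtain ⟨w, hw, w1, w2⟩ := ha.bad j hj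
    obtain ⟨v, hv, v1, v2⟩ := hb.bad j hj
    have h1 := ha.lower (by omega) j hj
    have h2 := hb.lower (by omega) j hj
    have h3 := ua j hj
    have h4 := ub j hj
    exact not_close hR hN hL hz (ha.wall j hj) (hb.wall j hj) hw hv (by omega) (by omega)
      (by omega) (by omega) (by omega) (by omega) (by omega) (by omega) w1 w2 v1 v2 e1 e2
  have main : ∀ j, j ≤ n → b j - a j < -(3 * L) ∧ b 0 - a 0 + (j : ℤ) * L ≤ b j - a j := by
    intro j
    induction j with
    | zero =>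
      intro hj
      refine ⟨?_, by simp⟩
      by_contra hc
      exact key 0 hj (by omega) d2
    | succ j ih =>
      intro hj
      obtain ⟨i1, i2⟩ := ih (by omega)
      obtain ⟨w, hw, w1, w2⟩ := ha.bad j (by omega)
      obtain ⟨v, hv, v1, v2⟩ := hb.bad j (by omega)
      have h1 := ha.lower (by omega) j (by omega)
      have h2 := hb.lower (by omega) j (by omega)
      have h3 := ua j (by omega)
      have h4 := ub j (by omega)
      obtain ⟨s1, s2⟩ := step_bound hR (by omega) (ha.step j (by omega)) hw (by omega) (by omega)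
        w1 w2
      obtain ⟨t1, t2⟩ := step_bound hR (by omega) (hb.step j (by omega)) hv (by omega) (by omega)
        v1 v2
      have hj' : ((j + 1 : ℕ) : ℤ) * L = (j : ℤ) * L + L := by push_cast; ring
      constructor
      · by_contra hc
        exact key (j + 1) hj (by omega) (by omega)
      · omega
  obtain ⟨m1, m2⟩ := main n le_rfl
  have : -(((n : ℤ) + 3) * L) = -((n : ℤ) * L) - 3 * L := by ring
  omega

/-- Two bad chains on a common stretch: the `z1`-chain has `m + n` steps, the `z2`-chain `n`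
steps, and the `z1`-chain starts not far to the right of `b 0` and has passed `b 0 - 3 L` after
`m` steps.  Then `n L + 3 L >= z1` is impossible. -/
theorem two_chains (hR : Rigid Wl L lo hi) (hN : 0 ≤ N) (hL : 4 * N + 30 ≤ L) {z1 z2 : ℤ}
    {m n : ℕ} {a b : ℕ → ℤ} (hz : z2 = z1 + 2 * L + L / 2) (hz1 : N ≤ z1)
    (ha : BadChain Wl N z1 (m + n) a) (hb : BadChain Wl N z2 n b)
    (la : lo ≤ a 0) (lb : lo ≤ b 0)
    (ua : ∀ j, j ≤ m + n → a j + z1 + N + L + 1 ≤ hi)
    (ub : ∀ j, j ≤ n → b j + z2 + N + L + 1 ≤ hi)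
    (d1 : a 0 ≤ b 0 + ((n : ℤ) + 3) * L) (d2 : b 0 - 3 * L ≤ a m)
    (hn : z1 ≤ ((n : ℤ) + 5) * L) : False := by
  classical
  have hex : ∃ j, b 0 - 3 * L ≤ a j := ⟨m, d2⟩
  set j0 := Nat.find hex with hj0
  have h1 : b 0 - 3 * L ≤ a j0 := Nat.find_spec hex
  have h2 : j0 ≤ m := Nat.find_min' hex d2
  have ha' : BadChain Wl N z1 n (fun j => a (j0 + j)) := by
    apply BadChain.shift
    refine ⟨ha.wall0, fun j hj => ha.step j (by omega), fun j hj => ha.bad j (by omega)⟩
  have l0 : lo ≤ a j0 := le_trans la (ha.lower (by omega) j0 (by omega))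
  have hup : a j0 ≤ b 0 + ((n : ℤ) + 3) * L := by
    rcases Nat.eq_zero_or_pos j0 with h | h
    · rw [h]; exact d1
    · obtain ⟨i, hi'⟩ : ∃ i, j0 = i + 1 := ⟨j0 - 1, by omega⟩
      have h3 : ¬ (b 0 - 3 * L ≤ a i) := Nat.find_min hex (by omega)
      obtain ⟨w, hw, w1, w2⟩ := ha.bad i (by omega)
      have h4 := ua i (by omega)
      have h5 := ha.lower (by omega) i (by omega)
      obtain ⟨s1, s2⟩ := step_bound hR (by omega) (ha.step i (by omega)) hw (by omega) (by omega)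
        w1 w2
      rw [hi']
      have e1 : ((n : ℤ) + 5) * L = ((n : ℤ) + 3) * L + 2 * L := by ring
      omega
  refine core hR hN hL hz hz1 ha' hb (by simpa using l0) lb
    (fun j hj => ua (j0 + j) (by omega)) ub ?_ ?_
  · simp only [Nat.add_zero]; omega
  · simp only [Nat.add_zero]; omega

end Crest.Agent.R320.TwoChains_114
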