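import Crest.Agent.R320.CutAut2_600

/-!
Row 320: STAGE A (93 #13140): two cut systems on one automaton => height 2 (helper600).

`LL_i P v` : the place behind the text `P` since the anchor is left-legal for the value `v`.
`R_i r = some (e, c)` (`r` of length `D_i`): next anchor at distance `e`, value `c` there.
Scheme 1 is exact everywhere and complete at zones which are not `Bad`; scheme 2 is exact and complete
at `Bad` zones, its places lie left of the places of scheme 1.
-/

set_option autoImplicit false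

namespace Crest.Agent.R320.CutAut_600

open Crest.Agent.R320.Star_903 Crest.Agent.R320.Hgt1_903

variable {α V : Type*}

/-- left-legal states, several values allowed. -/
def cutP (LL : List α → V → Prop) (B : ℕ) : St α V B → Prop
  | none => False
  | some (P, v) => LL P.1 v

section
variable {n : ℕ} {Z : List α → Option (ℕ × (V → V))} {RF : List α → Prop} {B : ℕ}

/-- step of the nested star theorem, predicate form. -/
theorem rc_succP [Finite α] [Finite V] {m : ℕ} (hZ : ZRule n Z) (hR : RFc Z RF B)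
    (C' : St α V B → List α → Prop)
    (hC : ∀ θ w, C' θ w → Cls Z RF B θ w)
    (hpre : ∀ θ u v, C' θ (u ++ v) → C' θ u)
    (hsuf : ∀ θ u v, C' θ (u ++ v) → C' (run (dlt Z B) θ u) v)
    (LL : List α → V → Prop) (R : List α → Option (ℕ × V)) (D : ℕ) (hD : 0 < D)
    (hRD : ∀ r e c, R r = some (e, c) → e ≤ r.length)
    (exact' : ∀ (P : {l : List α // l.length ≤ B}) (v : V) (r : List α) (e : ℕ) (c : V),
      C' (some (P, v)) r → LL P.1 v → r.length = D → R r = some (e, c) →
      ∃ t, Z (P.1 ++ r) = some (P.1.length + e, t) ∧ t v = c)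
    (hunc : RC m (dlt Z B) (fun θ w => C' θ w ∧ Uncut (dlt Z B) (cutP LL B) D (rho Z R B) θ w)) :
    RC (m + 1) (dlt Z B) C' := by
  refine nested (dlt Z B) C' hpre hsuf (cutP LL B) D hD (rho Z R B) ?_ hunc
  intro θ r θ' hc hL hlen hρ
  match θ, hc, hL with
  | some (P, v), hc, hL =>
    unfold rho at hρ
    cases hq : R r with
    | none => rw [hq] at hρ; cases hρ
    | some q =>
      obtain ⟨e, c⟩ := q
      rw [hq] at hρ
      have hρ' : run (dlt Z B) (st0 B c) (r.drop e) = θ' := Option.some.inj hρ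
      rw [← hρ']
      exact sound_at hZ hR (hC _ _ hc) (hRD r e c hq) (exact' P v r e c hc hL hlen hq)
  | none, hc, hL => exact hL.elim

/-- a legal place in the current zone is a cut. -/
theorem cut_here (hZ : ZRule n Z) (hR : RFc Z RF B) {LL : List α → V → Prop}
    {R : List α → Option (ℕ × V)} {D : ℕ} {P : {l : List α // l.length ≤ B}} {v : V}
    {w : List α} (hC : Cls Z RF B (some (P, v)) w) {P₁ r s : List α}
    (hQ : P.1 ++ w = P₁ ++ (r ++ s)) (hle : P.1.length ≤ P₁.length) (hZ1 : Z P₁ = none)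
    (hL : LL P₁ v) (hr : r.length = D) (hRr : (R r).isSome) :
    ¬ Uncut (dlt Z B) (cutP LL B) D (rho Z R B) (some (P, v)) w := by
  obtain ⟨p, hp⟩ : ∃ p, P.1 ++ p = P₁ := by
    refine ⟨P₁.drop P.1.length, ?_⟩
    have h1 : P₁.take P.1.length = P.1 := by
      have h2 : (P.1 ++ w).take P.1.length = P.1 := List.take_left
      rw [hQ, List.take_append_of_le_length hle] at h2
      exact h2
    have h3 := List.take_append_drop P.1.length P₁
    rw [h1] at h3
    exact h3
  have hwp : w = p ++ (r ++ s) := by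
    have h1 : P.1 ++ w = P.1 ++ (p ++ (r ++ s)) := by
      rw [← List.append_assoc, hp]; exact hQ
    exact List.append_cancel_left h1
  have hF : RF (P.1 ++ (p ++ (r ++ s))) := by rw [← hwp]; exact hC.2
  have h1 := run_emb hZ hR p (r ++ s) P.1 v hC.1 hF
  have hrun : runs Z (P.1, v) p = (P₁, v) := by
    rw [runs_none hZ p P.1 v (by rw [hp]; exact hZ1), hp]
  have hB : P₁.length ≤ B := by have := h1.2.2.2; rw [hrun] at this; exact this
  intro hU
  refine hU p r s (by rw [hwp]; simp) ⟨hr, ?_, ?_⟩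
  · have e0 : (some (P, v) : St α V B) = emb B (P.1, v) := (emb_of P.1 v P.2).symm
    rw [e0, h1.1, hrun, emb_of P₁ v hB]
    exact hL
  · unfold rho
    rw [Option.isSome_map]
    exact hRr

/-- a legal place in the zone behind the next anchor is a cut. -/
theorem cut_next (hZ : ZRule n Z) (hR : RFc Z RF B) {LL : List α → V → Prop}
    {R : List α → Option (ℕ × V)} {D : ℕ} {P : {l : List α // l.length ≤ B}} {v : V}
    {w : List α} (hC : Cls Z RF B (some (P, v)) w) {d : ℕ} {t : V → V}
    (hd : Z (P.1 ++ w) = some (d, t)) {P₁ r s : List α}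
    (hQ : (P.1 ++ w).drop d = P₁ ++ (r ++ s)) (hn : n ≤ P₁.length) (hZ1 : Z P₁ = none)
    (hL : LL P₁ (t v)) (hr : r.length = D) (hRr : (R r).isSome) :
    ¬ Uncut (dlt Z B) (cutP LL B) D (rho Z R B) (some (P, v)) w := by
  have hlt := hZ.lt_of_none hC.1 hd
  have hlen := hZ.len _ d t hd
  have hw : P.1 ++ w = ((P.1 ++ w).take d ++ P₁) ++ (r ++ s) := by
    rw [List.append_assoc, ← hQ, List.take_append_drop]
  have hdl : ((P.1 ++ w).take d).length = d := by rw [List.length_take]; omega
  have hle : P.1.length ≤ ((P.1 ++ w).take d ++ P₁).length := by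
    rw [List.length_append, hdl]; omega
  obtain ⟨p, hp⟩ : ∃ p, P.1 ++ p = (P.1 ++ w).take d ++ P₁ := by
    refine ⟨((P.1 ++ w).take d ++ P₁).drop P.1.length, ?_⟩
    have h1 : ((P.1 ++ w).take d ++ P₁).take P.1.length = P.1 := by
      have h2 : (P.1 ++ w).take P.1.length = P.1 := List.take_left
      conv_rhs => rw [← h2, hw]
      rw [List.take_append_of_le_length hle]
    have h3 := List.take_append_drop P.1.length ((P.1 ++ w).take d ++ P₁)
    rw [h1] at h3
    exact h3
  have hwp : w = p ++ (r ++ s) := by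
    have h1 : P.1 ++ w = P.1 ++ (p ++ (r ++ s)) := by
      rw [← List.append_assoc, hp]; exact hw
    exact List.append_cancel_left h1
  have hcert : Z (P.1 ++ p) = some (d, t) := by
    have h1 : (P.1 ++ w).take (d + P₁.length) = P.1 ++ p := by
      rw [hp]
      conv_lhs => rw [hw]
      rw [← hdl, ← List.length_append, hdl, List.take_left]
    rw [← h1]
    exact hZ.of_take hd (by omega)
  have hF : RF (P.1 ++ (p ++ (r ++ s))) := by rw [← hwp]; exact hC.2
  have h1 := run_emb hZ hR p (r ++ s) P.1 v hC.1 hF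
  have hdp : (P.1 ++ p).drop d = P₁ := by rw [hp, ← hdl, hdl, List.drop_left' hdl]
  have hrun : runs Z (P.1, v) p = (P₁, t v) := by
    rw [run_eq hZ hC.1 hcert, hdp, runs_none hZ P₁ [] (t v) (by rw [List.nil_append]; exact hZ1),
      List.nil_append]
  have hB : P₁.length ≤ B := by have := h1.2.2.2; rw [hrun] at this; exact this
  intro hU
  refine hU p r s (by rw [hwp]; simp) ⟨hr, ?_, ?_⟩
  · have e0 : (some (P, v) : St α V B) = emb B (P.1, v) := (emb_of P.1 v P.2).symm
    rw [e0, h1.1, hrun, emb_of P₁ (t v) hB]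
    exact hL
  · unfold rho
    rw [Option.isSome_map]
    exact hRr

theorem ZRule.none_of_lt (hZ : ZRule n Z) {Q : List α} {d k : ℕ} {t : V → V}
    (h : Z Q = some (d, t)) (hk : k < d + n) : Z (Q.take k) = none := by
  cases hq : Z (Q.take k) with
  | none => rfl
  | some q =>
    obtain ⟨d', t'⟩ := q
    have h1 := hZ.mono _ (Q.drop k) _ hq
    rw [List.take_append_drop, h] at h1
    have h2 := hZ.len _ d' t' hq
    have h3 : d = d' := congrArg Prod.fst (Option.some.inj h1)
    rw [List.length_take] at h2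
    omega

theorem near (hZ : ZRule n Z) (hR : RFc Z RF B) {Q : List α} {d : ℕ} {t : V → V}
    (hF : RF Q) (hQ : B < Q.length) (h : Z Q = some (d, t)) : d + n ≤ B + 1 := by
  have h1 : RF (Q.take (B + 1)) := by
    refine hR.pre _ (Q.drop (B + 1)) ?_
    rw [List.take_append_drop]; exact hF
  have hl : (Q.take (B + 1)).length = B + 1 := by
    rw [List.length_take]; omega
  have h2 := hR.bdd _ h1 (by omega)
  by_contra hcon
  exact h2 (hZ.none_of_lt h (by omega))

/-- **STAGE A.** -/
theorem two_scheme [Finite α] [Finite V] (hZ : ZRule n Z) (hR : RFc Z RF B)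
    (LL1 LL2 : List α → V → Prop) (R1 R2 : List α → Option (ℕ × V)) (D1 D2 : ℕ)
    (hD1 : 0 < D1) (hD12 : B + D1 ≤ D2)
    (hR1 : ∀ r e c, R1 r = some (e, c) → e ≤ r.length)
    (hR2 : ∀ r e c, R2 r = some (e, c) → e ≤ r.length)
    (hl1 : ∀ P v, LL1 P v → n ≤ P.length) (hl2 : ∀ P v, LL2 P v → n ≤ P.length)
    (h12 : ∀ P v P' v', LL2 P v → LL1 P' v' → P.length ≤ P'.length)
    (Bad : List α → Prop)
    (exact1 : ∀ P v r e c, RF (P ++ r) → Z P = none → LL1 P v → r.length = D1 →
      R1 r = some (e, c) → ∃ t, Z (P ++ r) = some (P.length + e, t) ∧ t v = c)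
    (exact2 : ∀ P v r e c, RF (P ++ r) → Z P = none → Bad (P ++ r) → LL2 P v → r.length = D2 →
      R2 r = some (e, c) → ∃ t, Z (P ++ r) = some (P.length + e, t) ∧ t v = c)
    (compl1 : ∀ Q d t, RF Q → B + D1 ≤ Q.length → Z Q = some (d, t) → ¬ Bad Q →
      ∀ v, ∃ k, k < d ∧ LL1 (Q.take k) v ∧ (R1 ((Q.drop k).take D1)).isSome)
    (compl2 : ∀ Q d t, RF Q → B + D2 ≤ Q.length → Z Q = some (d, t) → Bad Q →
      ∀ v, ∃ k, k < d ∧ LL2 (Q.take k) v ∧ (R2 ((Q.drop k).take D2)).isSome) :
    RC 2 (dlt Z B) (Cls Z RF B) := by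
  let C1 : St α V B → List α → Prop := fun θ w =>
    Cls Z RF B θ w ∧ Uncut (dlt Z B) (cutP LL1 B) D1 (rho Z R1 B) θ w
  refine rc_succP (m := 1) hZ hR (Cls Z RF B) (fun _ _ h => h) (cls_pre hR) (cls_suf hZ hR)
    LL1 R1 D1 hD1 hR1 (fun P v r e c hc hL hr hq => exact1 P.1 v r e c hc.2 hc.1 hL hr hq) ?_
  refine rc_succP (m := 0) hZ hR C1 (fun _ _ h => h.1)
    (fun θ u v h => ⟨cls_pre hR θ u v h.1, h.2.prefix⟩)
    (fun θ u v h => ⟨cls_suf hZ hR θ u v h.1, Crest.Agent.R320.CutAut_600.Uncut.suffix h.2⟩)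
    LL2 R2 D2 (by omega) hR2 ?_ ?_
  · intro P v r e c hc hL hr hq
    refine exact2 P.1 v r e c hc.1.2 hc.1.1 ?_ hL hr hq
    by_contra hB
    have hlen : B + D1 ≤ (P.1 ++ r).length := by rw [List.length_append]; omega
    cases hz : Z (P.1 ++ r) with
    | none => exact hR.bdd _ hc.1.2 (by omega) hz
    | some q =>
      obtain ⟨d, t⟩ := q
      have hnear := near hZ hR hc.1.2 (by omega) hz
      obtain ⟨k, hk, hLL, hRR⟩ := compl1 _ d t hc.1.2 hlen hz hB v
      have hPk := h12 _ _ _ _ hL hLL
      have hsp : P.1 ++ r = (P.1 ++ r).take k ++ (((P.1 ++ r).drop k).take D1 ++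
          ((P.1 ++ r).drop k).drop D1) := by
        rw [List.take_append_drop, List.take_append_drop]
      exact cut_here hZ hR hc.1 hsp hPk (hZ.none_of_lt hz (by omega)) hLL
        (by rw [List.length_take, List.length_drop]; omega) hRR hc.2
  · refine RC.bounded 0 (2 * B + D2 + 2) fun θ w hw => ?_
    obtain ⟨⟨hcl, hu1⟩, hu2⟩ := hw
    by_contra hlen
    have hlen : 2 * B + D2 + 2 < w.length := not_le.1 hlen
    match θ, hcl, hu1, hu2 with
    | none, hcl, _, _ => exact hcl
    | some (P, v), hcl, hu1, hu2 =>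
      obtain ⟨d₀, t₀, h0, h0'⟩ := node_near hZ hR hcl (by omega)
      have hQF : RF ((P.1 ++ w).drop d₀) := by
        refine hR.suf ((P.1 ++ w).take d₀) _ ?_
        rw [List.take_append_drop]; exact hcl.2
      have hQl : B + D2 ≤ ((P.1 ++ w).drop d₀).length := by
        rw [List.length_drop, List.length_append]; omega
      cases hz : Z ((P.1 ++ w).drop d₀) with
      | none => exact hR.bdd _ hQF (by omega) hz
      | some q =>
        obtain ⟨d, t⟩ := q
        have hnear := near hZ hR hQF (by omega) hz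
        by_cases hB : Bad ((P.1 ++ w).drop d₀)
        · obtain ⟨k, hk, hLL, hRR⟩ := compl2 _ d t hQF hQl hz hB (t₀ v)
          have hsp : (P.1 ++ w).drop d₀ = ((P.1 ++ w).drop d₀).take k ++
              ((((P.1 ++ w).drop d₀).drop k).take D2 ++ (((P.1 ++ w).drop d₀).drop k).drop D2) := by
            rw [List.take_append_drop, List.take_append_drop]
          exact cut_next hZ hR hcl h0 hsp (hl2 _ _ hLL) (hZ.none_of_lt hz (by omega)) hLL
            (by rw [List.length_take, List.length_drop]; omega) hRR hu2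
        · obtain ⟨k, hk, hLL, hRR⟩ := compl1 _ d t hQF (by omega) hz hB (t₀ v)
          have hsp : (P.1 ++ w).drop d₀ = ((P.1 ++ w).drop d₀).take k ++
              ((((P.1 ++ w).drop d₀).drop k).take D1 ++ (((P.1 ++ w).drop d₀).drop k).drop D1) := by
            rw [List.take_append_drop, List.take_append_drop]
          exact cut_next hZ hR hcl h0 hsp (hl1 _ _ hLL) (hZ.none_of_lt hz (by omega)) hLL
            (by rw [List.length_take, List.length_drop]; omega) hRR hu1

end

end Crest.Agent.R320.CutAut_600
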