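import Crest.Agent.R320.Scheme_457

/-!
# Row 320, two-level joint on words (helper457)

`PSch` : a promise scheme (exact and complete in the bad zones only), on the same chain `nx`.
`two_level` : outer run languages are two stars above the one-zone languages.
-/

set_option autoImplicit false

namespace Crest.Agent.R320.Two_457

open Crest.Agent.R320.Hk_851 Crest.Agent.R320.Scheme_457
open Crest.Agent.R320.Scheme_457.Sch (drop_app drop_app' take_pre)

universe u v w

structure PSch (α : Type u) (V : Type v) where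
  n : ℕ
  nx : List α → Option ℕ
  bad : List α → Prop
  ze : List α → V → V
  lf : List α → Option V
  rt : List α → Option (V × ℕ)
  nx_pos : ∀ {F m}, nx F = some m → 0 < m
  nx_len : ∀ {F m}, nx F = some m → m + n ≤ F.length
  nx_take : ∀ {F m}, nx F = some m → nx (F.take (m + n)) = some m
  nx_app : ∀ {F m} (G), nx F = some m → nx (F ++ G) = some m
  bad_app : ∀ {F m} (G), nx F = some m → (bad (F ++ G) ↔ bad F)
  ze_take : ∀ {F m} (v), nx F = some m → ze (F.take (m + n)) v = ze F v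
  ze_app : ∀ {F m} (G v), nx F = some m → ze (F ++ G) v = ze F v
  rt_pos : ∀ {Y r b}, rt Y = some (r, b) → 0 < b
  rt_len : ∀ {Y r b}, rt Y = some (r, b) → b + n ≤ Y.length
  rt_take : ∀ {Y r b}, rt Y = some (r, b) → rt (Y.take (b + n)) = some (r, b)
  rt_app : ∀ {Y x} (G), rt Y = some x → rt (Y ++ G) = some x
  lf_len : ∀ {P v}, lf P = some v → n ≤ P.length
  see : ∀ {P Y v r b}, lf P = some v → rt Y = some (r, b) → ∃ m, nx (P ++ Y) = some m
  exact_nx : ∀ {P Y v r b}, lf P = some v → rt Y = some (r, b) → bad (P ++ Y) →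
    nx (P ++ Y) = some (P.length + b)
  exact_ze : ∀ {P Y v r b}, lf P = some v → rt Y = some (r, b) → bad (P ++ Y) →
    ze (P ++ Y) v = r
  complete : ∀ {F m} (v), nx F = some m → bad F →
    ∃ P Y r b, P ++ Y = F ∧ lf P = some v ∧ rt Y = some (r, b)

namespace PSch

variable {α : Type u} {V : Type v} (S : PSch α V)

inductive Run (En : List α → V → Prop) : List α → V → Prop
  | fin {F v} : En F v → Run En F v
  | step {F v m} : S.nx F = some m → Run En (F.drop m) (S.ze F v) → Run En F v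

/-- the chain has a completed non-bad zone -/
inductive NAB : List α → Prop
  | here {F m} : S.nx F = some m → ¬ S.bad F → NAB F
  | next {F m} : S.nx F = some m → NAB (F.drop m) → NAB F

def Lf (F : List α) (v : V) : Prop := S.lf F = some v

/-- first zone completed and not bad -/
def Nb (F : List α) : Prop := ∃ m, S.nx F = some m ∧ ¬ S.bad F

def KE (En : List α → V → Prop) : Language α :=
  {u | ∃ r b, S.rt u = some (r, b) ∧ (¬ S.NAB (u.drop b) → S.Run En (u.drop b) r)}

def XE (En : List α → V → Prop) : Language α :=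
  {u | ∃ r b, S.rt u = some (r, b) ∧ En (u.drop b) r}

def NB0 : Language α := {u | ∃ r b, S.rt u = some (r, b) ∧ S.Nb (u.drop b)}

def K : Language α := S.KE S.Lf

variable {S} {En : List α → V → Prop}

theorem NAB.app {F : List α} (h : S.NAB F) (G : List α) : S.NAB (F ++ G) := by
  induction h with
  | here h1 h2 => exact .here (S.nx_app G h1) (fun h => h2 ((S.bad_app G h1).1 h))
  | @next F m h1 _ ih =>
    have hl := S.nx_len h1
    refine .next (S.nx_app G h1) ?_
    rw [drop_app (by omega)]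
    exact ih

theorem bad_of {F : List α} {m : ℕ} (h : ¬ S.NAB F) (hm : S.nx F = some m) : S.bad F := by
  by_contra hb
  exact h (.here hm hb)

theorem nab_drop {F : List α} {m : ℕ} (h : ¬ S.NAB F) (hm : S.nx F = some m) :
    ¬ S.NAB (F.drop m) := fun h' => h (.next hm h')

theorem Run.glue {F Y : List α} {v : V} (h : S.Run S.Lf F v) (hN : ¬ S.NAB (F ++ Y))
    (hY : Y ∈ S.KE En) : S.Run En (F ++ Y) v := by
  induction h with
  | @fin F v h =>
    obtain ⟨r, b, h1, h2⟩ := hY
    obtain ⟨m, hm⟩ := S.see h h1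
    have hb := bad_of hN hm
    have h3 := S.exact_nx h h1 hb
    have h4 := nab_drop hN h3
    rw [drop_app'] at h4
    refine .step h3 ?_
    rw [S.exact_ze h h1 hb, drop_app']
    exact h2 h4
  | @step F v m h1 _ ih =>
    have hl := S.nx_len h1
    have h2 := nab_drop hN (S.nx_app Y h1)
    rw [drop_app (by omega)] at h2
    refine .step (S.nx_app Y h1) ?_
    rw [S.ze_app Y v h1, drop_app (by omega)]
    exact ih h2

theorem KK {u w : List α} (hu : u ∈ S.K) (hw : w ∈ S.KE En) : u ++ w ∈ S.KE En := by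
  obtain ⟨r, b, h1, h2⟩ := hu
  have hl := S.rt_len h1
  refine ⟨r, b, S.rt_app w h1, fun hN => ?_⟩
  rw [drop_app (by omega)] at hN ⊢
  exact (h2 fun h => hN (h.app w)).glue hN hw

theorem XE_le : S.XE En ≤ S.KE En := by
  rintro u ⟨r, b, h1, h2⟩
  exact ⟨r, b, h1, fun _ => .fin h2⟩

theorem NB0_le : S.NB0 ≤ S.KE En := by
  rintro u ⟨r, b, h1, m, h2, h3⟩
  exact ⟨r, b, h1, fun h => (h (.here h2 h3)).elim⟩

theorem Run.len {P : List α} {v : V} (h : S.Run S.Lf P v) : S.n ≤ P.length := by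
  induction h with
  | fin h => exact S.lf_len h
  | step h1 _ ih => rw [List.length_drop] at ih; omega

/-- cut of a bad first zone -/
theorem cut0 {F : List α} {m : ℕ} (v : V) (hm : S.nx F = some m) (hb : S.bad F) :
    ∃ P Y r b, P ++ Y = F ∧ S.lf P = some v ∧ S.rt Y = some (r, b) ∧ Y.drop b = F.drop m ∧
      S.ze F v = r := by
  obtain ⟨P, Y, r, b, rfl, h1, h2⟩ := S.complete v hm hb
  have h3 := S.exact_nx h1 h2 hb
  have h4 := S.exact_ze h1 h2 hb
  rw [hm] at h3
  have h5 : m = P.length + b := by simpa using h3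
  subst h5
  exact ⟨P, Y, r, b, rfl, h1, h2, (drop_app' P Y b).symm, h4⟩

theorem pre_rt {u P Y : List α} {r : V} {b : ℕ} (h1 : S.rt u = some (r, b))
    (h3 : P ++ Y = u.drop b) (hn : S.n ≤ P.length) :
    S.rt (u.take b ++ P) = some (r, b) ∧ (u.take b ++ P).drop b = P ∧
      (u.take b ++ P) ++ Y = u := by
  have hl := S.rt_len h1
  obtain ⟨G, hG⟩ := take_pre h3 hn
  refine ⟨by rw [hG]; exact S.rt_app G (S.rt_take h1), ?_, ?_⟩
  · have : (u.take b).length = b := by rw [List.length_take]; omega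
    rw [List.drop_append, this]; simp
  · rw [List.append_assoc, h3, List.take_append_drop]

theorem pre_nx {F P Y : List α} {m : ℕ} (h1 : S.nx F = some m)
    (h3 : P ++ Y = F.drop m) (hn : S.n ≤ P.length) :
    S.nx (F.take m ++ P) = some m ∧ (∀ v, S.ze (F.take m ++ P) v = S.ze F v) ∧
      (F.take m ++ P).drop m = P ∧ (F.take m ++ P) ++ Y = F := by
  have hl := S.nx_len h1
  obtain ⟨G, hG⟩ := take_pre h3 hn
  refine ⟨by rw [hG]; exact S.nx_app G (S.nx_take h1), fun v => ?_, ?_, ?_⟩
  · rw [hG, S.ze_app G v (S.nx_take h1), S.ze_take v h1]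
  · have : (F.take m).length = m := by rw [List.length_take]; omega
    rw [List.drop_append, this]; simp
  · rw [List.append_assoc, h3, List.take_append_drop]

theorem KE_split {u : List α} (hu : u ∈ S.KE En) :
    (u ∈ S.XE En ∨ u ∈ S.NB0) ∨ ∃ p q, p ++ q = u ∧ p ∈ S.XE S.Lf ∧ q ∈ S.KE En := by
  obtain ⟨r, b, h1, h2⟩ := hu
  by_cases hN : S.NAB (u.drop b)
  · by_cases hnb : S.Nb (u.drop b)
    · exact .inl (.inr ⟨r, b, h1, hnb⟩)
    · cases hN with
      | here h3 h4 => exact (hnb ⟨_, h3, h4⟩).elim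
      | @next _ m h3 h4 =>
        have hb : S.bad (u.drop b) := by
          by_contra hb; exact hnb ⟨m, h3, hb⟩
        obtain ⟨P, Y, r', b', h5, h6, h7, h8, -⟩ := cut0 r h3 hb
        obtain ⟨h9, h10, h11⟩ := pre_rt h1 h5 (S.lf_len h6)
        refine .inr ⟨_, Y, h11, ⟨r, b, h9, by rw [h10]; exact h6⟩, r', b', h7, fun h => ?_⟩
        rw [h8] at h
        exact (h h4).elim
  · have hR := h2 hN
    cases hR with
    | fin h => exact .inl (.inl ⟨r, b, h1, h⟩)
    | @step _ _ m h3 h4 =>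
      obtain ⟨P, Y, r', b', h5, h6, h7, h8, h12⟩ := cut0 r h3 (bad_of hN h3)
      obtain ⟨h9, h10, h11⟩ := pre_rt h1 h5 (S.lf_len h6)
      refine .inr ⟨_, Y, h11, ⟨r, b, h9, by rw [h10]; exact h6⟩, r', b', h7, fun _ => ?_⟩
      rw [h8, ← h12]; exact h4

/-- `K` without its long words -/
def X2 (S : PSch α V) : Language α := S.XE S.Lf + S.NB0

theorem X2_le : S.X2 ≤ S.K := by
  rintro u (h | h)
  · exact XE_le h
  · exact NB0_le h

theorem KE_eq (u : List α) :
    u ∈ KStar.kstar S.X2 * (S.XE En + S.NB0) ↔ u ∈ S.KE En := by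
  constructor
  · rintro ⟨a, ha, b, hb, rfl⟩
    obtain ⟨L, rfl, hL⟩ := ha
    have hb' : b ∈ S.KE En := by
      rcases hb with h | h
      · exact XE_le h
      · exact NB0_le h
    clear hb
    induction L with
    | nil => simpa using hb'
    | cons x L ih =>
      have h1 : L.flatten ++ b ∈ S.KE En := ih (fun y hy => hL y (List.mem_cons_of_mem _ hy))
      have h2 := KK (X2_le (hL x List.mem_cons_self)) h1
      simpa using h2
  · intro hu
    induction hn : u.length using Nat.strong_induction_on generalizing u with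
    | _ k ih =>
      subst hn
      rcases KE_split hu with h | ⟨p, q, rfl, hp, hq⟩
      · exact ⟨[], ⟨[], rfl, by simp⟩, u, h, rfl⟩
      · have hpos : 0 < p.length := by
          obtain ⟨r, b, h1, -⟩ := hp
          have := S.rt_len h1
          have := S.rt_pos h1
          omega
        obtain ⟨a, ⟨L, rfl, hL⟩, b, hb, hab⟩ := ih q.length (by simp; omega) q hq rfl
        refine ⟨(p :: L).flatten, ⟨p :: L, rfl, ?_⟩, b, hb, ?_⟩
        · intro y hy
          rcases List.mem_cons.1 hy with rfl | hy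
          · exact .inl hp
          · exact hL y hy
        · simp only at hab ⊢
          rw [← hab]; simp

theorem hl_KE {j : ℕ} (h1 : HL j (S.XE S.Lf)) (h2 : HL j S.NB0) (h3 : HL j (S.XE En)) :
    HL (j + 1) (S.KE En) :=
  ((HL.star (h1.add h2)).mul ((h3.add h2).mono (Nat.le_succ j))).congr fun u => (KE_eq u).symm

/-- start at an anchor with value `v` -/
def I (S : PSch α V) (En : List α → V → Prop) (v : V) : Language α :=
  {F | ¬ S.NAB F → S.Run En F v}

theorem I_iff (v : V) (F : List α) : F ∈ S.I En v ↔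
    (En F v ∨ S.Nb F) ∨ ∃ P Y, P ++ Y = F ∧ S.lf P = some v ∧ Y ∈ S.KE En := by
  constructor
  · intro h
    by_cases hN : S.NAB F
    · by_cases hnb : S.Nb F
      · exact .inl (.inr hnb)
      · cases hN with
        | here h3 h4 => exact (hnb ⟨_, h3, h4⟩).elim
        | @next _ m h3 h4 =>
          have hb : S.bad F := by
            by_contra hb; exact hnb ⟨m, h3, hb⟩
          obtain ⟨P, Y, r', b', h5, h6, h7, h8, -⟩ := cut0 v h3 hb
          refine .inr ⟨P, Y, h5, h6, r', b', h7, fun h => ?_⟩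
          rw [h8] at h
          exact (h h4).elim
    · have hR := h hN
      cases hR with
      | fin h => exact .inl (.inl h)
      | @step _ _ m h3 h4 =>
        obtain ⟨P, Y, r', b', h5, h6, h7, h8, h12⟩ := cut0 v h3 (bad_of hN h3)
        refine .inr ⟨P, Y, h5, h6, r', b', h7, fun _ => ?_⟩
        rw [h8, ← h12]; exact h4
  · rintro ((h | ⟨m, h, h'⟩) | ⟨P, Y, rfl, h1, h2⟩)
    · exact fun _ => .fin h
    · exact fun hN => (hN (.here h h')).elim
    · exact fun hN => Run.glue (.fin h1) hN h2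

theorem hl_I {j : ℕ} (v : V) (h1 : HL j (S.XE S.Lf)) (h2 : HL j S.NB0) (h3 : HL j (S.XE En))
    (h4 : HL j {F | En F v}) (h5 : HL j {F | S.Nb F}) (h6 : HL j {P | S.lf P = some v}) :
    HL (j + 1) (S.I En v) := by
  refine (((h4.add h5).mono (Nat.le_succ j)).add
    ((h6.mono (Nat.le_succ j)).mul (hl_KE h1 h2 h3))).congr fun F => ?_
  rw [I_iff]
  constructor
  · rintro ((h | h) | ⟨P, Y, h, h7, h8⟩)
    · exact .inl (.inl h)
    · exact .inl (.inr h)
    · exact .inr ⟨P, h7, Y, h8, h⟩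
  · rintro ((h | h) | ⟨P, h7, Y, h8, h⟩)
    · exact .inl (.inl h)
    · exact .inl (.inr h)
    · exact .inr ⟨P, Y, h, h7, h8⟩

theorem NAB.split {F : List α} (h : S.NAB F) : ∀ v, S.Nb F ∨
    ∃ P Y, P ++ Y = F ∧ S.Run S.Lf P v ∧ Y ∈ S.NB0 := by
  induction h with
  | here h1 h2 => exact fun v => .inl ⟨_, h1, h2⟩
  | @next F m h1 _ ih =>
    intro v
    by_cases hb : S.bad F
    · right
      rcases ih (S.ze F v) with h3 | ⟨P, Y, h3, h4, h5⟩
      · obtain ⟨P, Y, r', b', h5, h6, h7, h8, -⟩ := cut0 v h1 hb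
        exact ⟨P, Y, h5, .fin h6, r', b', h7, by rw [h8]; exact h3⟩
      · obtain ⟨h6, h7, h8, h9⟩ := pre_nx h1 h3 h4.len
        refine ⟨_, Y, h9, .step h6 ?_, h5⟩
        rw [h8, h7]; exact h4
    · exact .inl ⟨m, h1, hb⟩

theorem Run.false {F : List α} {v : V} (h : S.Run (fun _ _ => False) F v) : False := by
  induction h with
  | fin h => exact h
  | step _ _ ih => exact ih

theorem nab_iff (v : V) (F : List α) : S.NAB F ↔ S.Nb F ∨
    ∃ P Y, P ++ Y = F ∧ P ∈ S.I S.Lf v ∧ Y ∈ S.NB0 := by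
  constructor
  · intro h
    rcases h.split v with h | ⟨P, Y, h1, h2, h3⟩
    · exact .inl h
    · exact .inr ⟨P, Y, h1, fun _ => h2, h3⟩
  · rintro (⟨m, h, h'⟩ | ⟨P, Y, rfl, h2, h3⟩)
    · exact .here h h'
    · by_contra hN
      have h4 : S.Run S.Lf P v := h2 fun h => hN (h.app Y)
      exact (Run.glue (En := fun _ _ => False) h4 hN (NB0_le h3)).false

theorem hl_NAB {j : ℕ} (v : V) (h1 : HL j (S.XE S.Lf)) (h2 : HL j S.NB0)
    (h5 : HL j {F | S.Nb F}) (h6 : HL j {P | S.lf P = some v}) :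
    HL (j + 1) {F | S.NAB F} := by
  have hI := hl_I (En := S.Lf) v h1 h2 h1 h6 h5 h6
  refine ((h5.mono (Nat.le_succ j)).add (hI.mul (h2.mono (Nat.le_succ j)))).congr fun F => ?_
  show S.NAB F ↔ _
  rw [nab_iff v]
  constructor
  · rintro (h | ⟨P, Y, h, h7, h8⟩)
    · exact .inl h
    · exact .inr ⟨P, h7, Y, h8, h⟩
  · rintro (h | ⟨P, h7, Y, h8, h⟩)
    · exact .inl h
    · exact .inr ⟨P, Y, h, h7, h8⟩

/-- the inner scheme computes runs on the promise -/
theorem hl_run {j : ℕ} (v : V) (h1 : HL j (S.XE S.Lf)) (h2 : HL j S.NB0) (h3 : HL j (S.XE En))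
    (h4 : HL j {F | En F v}) (h5 : HL j {F | S.Nb F}) (h6 : HL j {P | S.lf P = some v}) :
    HL (j + 1) {F | ¬ S.NAB F ∧ S.Run En F v} := by
  have hN := (hl_NAB v h1 h2 h5 h6).setOf_not
  have hI := hl_I v h1 h2 h3 h4 h5 h6
  refine (hN.inf hI).congr fun F => ?_
  constructor
  · rintro ⟨h, h'⟩; exact ⟨h, fun _ => h'⟩
  · rintro ⟨h, h'⟩; exact ⟨h, h' h⟩

end PSch

end Crest.Agent.R320.Two_457
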