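import Crest.Agent.R320.W_529

/-!
# Row 320: the two schemes on two-wall blocks, all words (helper529)
-/

set_option autoImplicit false

namespace Crest.Agent.R320.Two_529

open Crest.RegLang Crest.Agent.R320.Hk_851 Crest.Agent.R320.FewWalls_228
  Crest.Agent.R320.FewVal_228 Crest.Agent.R320.Asm_505 Crest.Agent.R320.W_529

/-- all data of the two schemes -/
structure Dat (α S V : Type) [Monoid S] [AddCommGroup V] where
  f : α → S
  act : V → S → V
  hmul : ∀ v s s', act v (s * s') = act (act v s) s'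
  hadd : ∀ v w s, act (v + w) s = act v s + act w s
  -- walls
  n : ℕ
  Ss : Set (List α)
  W : ℕ
  hsep : ∀ (w : List α) (s t : ℕ), s < t → t ≤ w.length → E n Ss (w.take s) → E n Ss (w.take t) →
    s + W ≤ t
  -- gadget 1
  N : ℕ
  D : ℕ
  hD : 0 < D
  Bad : ℤ → Prop
  hBad : ∀ T T' : ℤ, (D : ℤ) ∣ T - T' → (Bad T ↔ Bad T')
  lam : List α → Option V
  rho : List α → Option V
  nu : List α → V
  hlam : ∀ P v, lam P = some v → P.length ≤ N
  hrho : ∀ Q b, rho Q = some b → n ≤ Q.length
  sound : ∀ P Q v b, lam P = some v → rho Q = some b → b = act v (ph f (P ++ Q)) + nu (P ++ Q)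
  Mn : ℕ
  compl : ∀ u : List α, Mn ≤ u.length → ¬ Bad u.length → ∀ v, ∃ P Q, P ++ Q = u ∧
    lam P = some v ∧ (rho Q).isSome
  -- gadget 2
  K : ℕ
  R : ℕ
  C0 : ℕ
  c : ℕ → ℕ
  p0 : ℕ
  hc0 : ∀ k < K, 0 < c k
  hcp : ∀ k < K, c k ≤ p0
  lam2 : ℕ → List α → Option V
  rho2 : ℕ → List α → Option V
  nu2 : List α → V
  sound2 : ∀ k < K, ∀ (P Q : List α) (v b : V), P.length = c k → lam2 k P = some v →
    rho2 k Q = some b → b = act v (ph f (P ++ Q)) + nu2 (P ++ Q)
  compl2 : ∀ (u : List α) (v : V), (∀ k < K, c k ≤ u.length) →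
    ∃ I : Finset ℕ, R ≤ I.card ∧ ∀ k ∈ I, k < K ∧ lam2 k (u.take (c k)) = some v ∧
      (rho2 k (u.drop (c k))).isSome
  -- ruler
  spaced : ∀ i j k l, i < K → j < K → k < K → l < K → i ≠ j → k ≠ l → ¬ (i = k ∧ j = l) →
    (2 * N : ℤ) < |((c i : ℤ) - c j) - ((c k : ℤ) - c l)|
  thin : ∀ T : ℤ, ∃ B : Finset (ℕ × ℕ), B.card ≤ C0 ∧ ∀ i j, i < K → j < K → i ≠ j →
    Bad (T + c j - c i) → (i, j) ∈ B
  hR : 2 + 2 * C0 ≤ R
  z : ℕ
  hz : 4 * (p0 + n + N + Mn) + 4 ≤ z
  hW : 4 * (N + p0) + 4 ≤ W
  hp0 : 0 < p0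

namespace Dat

variable {α S V : Type} [Monoid S] [AddCommGroup V] (d : Dat α S V)

/-- value at the first wall -/
def val (v : V) (g : List α) : V :=
  d.act (d.act v (ph d.f (g.take d.p0)) + d.nu2 (g.take d.p0)) (ph d.f (g.drop d.p0)) +
    d.nu (g.drop d.p0)

open Classical in
/-- first wall -/
noncomputable def tt (X : List α) : ℕ :=
  if h : ∃ t, F d.n d.Ss d.z X t then h.choose else 0

theorem tt_eq {X : List α} {t : ℕ} (h : F d.n d.Ss d.z X t) : d.tt X = t := by
  unfold tt
  have hex : ∃ t, F d.n d.Ss d.z X t := ⟨t, h⟩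
  rw [dif_pos hex]
  exact F_unique hex.choose_spec h

/-- token map of a block -/
noncomputable def eps (X : List α) (v : V) : V :=
  d.act (d.val v (X.take (d.tt X))) (ph d.f (X.drop (d.tt X)))

/-- bad mode of a word ending at the first wall -/
def mode (g : List α) : Prop :=
  g.length < d.z + d.N ∨ (∃ j, d.z ≤ j + d.N ∧ j < d.z ∧ E d.n d.Ss (g.take j)) ∨
    d.Bad ((g.length : ℤ) - d.p0)

/-- all blocks -/
def UU : Language α := U d.n d.Ss d.z

/-- bad blocks -/
def BB : Language α := {X | X ∈ d.UU ∧ d.mode (X.take (d.tt X))}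

/-- good words ending at the first wall -/
def GG : Language α := {g | F d.n d.Ss d.z g g.length ∧ ¬ d.mode g}

def P1 (x : V) : Language α :=
  {P | d.p0 ≤ P.length ∧
    d.lam (P.drop d.p0) = some (d.act x (ph d.f (P.take d.p0)) + d.nu2 (P.take d.p0))}

noncomputable def R1 (y : V) : Language α :=
  {q | ∀ x, ∀ P ∈ d.P1 x, P ++ q ∈ d.UU ∧ d.eps (P ++ q) x = y}

def P2 (x : V) : Language α := {P | ∃ k < d.K, P.length = d.c k ∧ d.lam2 k P = some x}

noncomputable def R2 (y : V) : Language α :=
  {q | ∀ x, ∀ P ∈ d.P2 x, (P ++ q ∈ d.BB ∧ d.eps (P ++ q) x = y) ∨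
    (∃ g ∈ d.GG, g <+: P ++ q)}

theorem hact0 (s : S) : d.act 0 s = 0 := by
  have h := d.hadd 0 0 s
  rw [add_zero] at h
  exact left_eq_add.1 h

theorem mem_U {X : List α} (h : X ∈ d.UU) : F d.n d.Ss d.z X (d.tt X) ∧
    F d.n d.Ss (d.tt X + 1) X X.length := by
  obtain ⟨t, h1, h2⟩ := h
  have := d.tt_eq h1
  rw [this]; exact ⟨h1, h2⟩

/-- completeness of scheme 1 -/
theorem cut1 {X : List α} (hX : X ∈ d.UU) (hB : X ∉ d.BB) (x : V) :
    ∃ p ∈ d.P1 x, ∃ q ∈ d.R1 (d.eps X x), X = p ++ q := by
  obtain ⟨hF, hF2⟩ := d.mem_U hX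
  have hmode : ¬ d.mode (X.take (d.tt X)) := fun h => hB ⟨hX, h⟩
  set t := d.tt X with ht
  have hz := d.hz
  have htX : t ≤ X.length := hF.2.1
  have hzt : d.z ≤ t := hF.1
  have hlt : (X.take t).length = t := by rw [List.length_take]; omega
  have htX' : t + 1 ≤ X.length := hF2.1
  -- the three negations
  have m1 : d.z + d.N ≤ t := by
    by_contra h
    exact hmode (Or.inl (by rw [hlt]; omega))
  have m2 : ∀ j, d.z ≤ j + d.N → j < d.z → ¬ E d.n d.Ss (X.take j) := by
    intro j h1 h2 h3
    refine hmode (Or.inr (Or.inl ⟨j, h1, h2, ?_⟩))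
    rw [List.take_take, min_eq_left (by omega)]; exact h3
  have m3 : ¬ d.Bad ((t : ℤ) - d.p0) := by
    intro h
    exact hmode (Or.inr (Or.inr (by rw [hlt]; exact h)))
  set X0 := X.take d.p0 with hX0
  have lX0 : X0.length = d.p0 := by rw [hX0, List.length_take]; omega
  set Y := (X.take t).drop d.p0 with hY
  have lY : Y.length = t - d.p0 := by rw [hY, List.length_drop, hlt]
  have hXY : X = X0 ++ (Y ++ X.drop t) := by
    have e1 : X.take t = X0 ++ Y := by
      conv_lhs => rw [← List.take_append_drop d.p0 (X.take t)]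
      rw [List.take_take, min_eq_left (by omega)]
    rw [← List.append_assoc, ← e1, List.take_append_drop]
  obtain ⟨p, q, hpq, hl, hr⟩ := d.compl Y (by omega)
    (by rw [lY]; rw [Nat.cast_sub (by omega)]; exact m3) (d.act x (ph d.f X0) + d.nu2 X0)
  obtain ⟨b, hb⟩ := Option.isSome_iff_exists.1 hr
  have lq : d.n ≤ q.length := d.hrho q b hb
  have lp : p.length ≤ d.N := d.hlam p _ hl
  have lpq : p.length + q.length = t - d.p0 := by
    rw [← lY, ← hpq, List.length_append]
  set tl := X.drop t with htl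
  have ltl : tl.length = X.length - t := by rw [htl, List.length_drop]
  have hXe : X = (X0 ++ p) ++ (q ++ tl) := by
    rw [List.append_assoc, ← List.append_assoc p, hpq]; exact hXY
  have lA : (X0 ++ p).length = d.p0 + p.length := by rw [List.length_append, lX0]
  -- the claim
  have claim : ∀ (x1 : V) (P' : List α), P' ∈ d.P1 x1 →
      P' ++ (q ++ tl) ∈ d.UU ∧ d.eps (P' ++ (q ++ tl)) x1 = d.act b (ph d.f tl) := by
    rintro x1 P' ⟨hP1, hP2⟩
    have lP1 : (P'.drop d.p0).length ≤ d.N := d.hlam _ _ hP2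
    rw [List.length_drop] at lP1
    have eP : P' = P'.take d.p0 ++ P'.drop d.p0 := (List.take_append_drop _ _).symm
    have hF' : F d.n d.Ss d.z ((X0 ++ p) ++ (q ++ tl)) ((X0 ++ p).length + q.length) := by
      rw [← hXe, lA]
      have : d.p0 + p.length + q.length = t := by omega
      rw [this]; exact hF
    have s1 : F d.n d.Ss d.z (P' ++ (q ++ tl)) (P'.length + q.length) := by
      refine F_shift hF' (by omega) lq ?_ (by omega)
      intro j hj hjt h1 h2 hE
      rw [← hXe, lA] at hE
      rw [lA] at h2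
      exact m2 _ (by omega) h2 hE
    have hF2' : F d.n d.Ss (t + 1) ((X0 ++ p) ++ (q ++ tl))
        ((X0 ++ p).length + (q ++ tl).length) := by
      have e : (X0 ++ p).length + (q ++ tl).length = X.length := by
        conv_rhs => rw [hXe, List.length_append]
      rw [e, ← hXe]; exact hF2
    have s2 : F d.n d.Ss (P'.length + q.length + 1) (P' ++ (q ++ tl))
        (P'.length + (q ++ tl).length) := by
      refine F_shift hF2' ?_ ?_ ?_ (by omega)
      · rw [List.length_append]; omega
      · rw [List.length_append]; omega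
      · intro j hj hjt h1 h2 hE
        rw [lA] at h2
        omega
    have htt : d.tt (P' ++ (q ++ tl)) = P'.length + q.length := d.tt_eq s1
    refine ⟨⟨_, s1, ?_⟩, ?_⟩
    · rw [List.length_append]; exact s2
    · unfold eps
      rw [htt]
      have e1 : (P' ++ (q ++ tl)).take (P'.length + q.length) = P' ++ q := by
        rw [List.take_length_add_append, List.take_append_of_le_length le_rfl, List.take_length]
      have e2 : (P' ++ (q ++ tl)).drop (P'.length + q.length) = tl := by
        rw [← List.append_assoc, ← List.length_append, List.drop_append_of_le_length le_rfl,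
          List.drop_length, List.nil_append]
      rw [e1, e2]
      have e3 : (P' ++ q).take d.p0 = P'.take d.p0 := List.take_append_of_le_length hP1
      have e4 : (P' ++ q).drop d.p0 = P'.drop d.p0 ++ q := List.drop_append_of_le_length hP1
      have hs := d.sound _ _ _ _ hP2 hb
      unfold val
      rw [e3, e4, ← hs]
  have hmem : X0 ++ p ∈ d.P1 x := by
    have e3 : (X0 ++ p).take d.p0 = X0 := by
      rw [List.take_append_of_le_length (by omega), List.take_of_length_le (by omega)]
    have e4 : (X0 ++ p).drop d.p0 = p := by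
      rw [List.drop_append_of_le_length (by omega), List.drop_eq_nil_of_le (by omega),
        List.nil_append]
    refine ⟨by omega, ?_⟩
    rw [e3, e4]; exact hl
  have heps : d.eps X x = d.act b (ph d.f tl) := by
    have := (claim x _ hmem).2
    rwa [← hXe] at this
  refine ⟨X0 ++ p, hmem, q ++ tl, ?_, hXe⟩
  rw [heps]
  exact claim

theorem P1_ne (x : V) : [] ∉ d.P1 x := by
  rintro ⟨h, _⟩
  have := d.hp0
  simp at h
  omega

theorem level1 : Level d.UU d.BB d.eps d.P1 d.R1 where
  pne := d.P1_ne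
  sound := by
    intro X hX x y p hp q hq hc
    obtain ⟨h1, h2⟩ := hq x p hp
    have e : X = p ++ q := by
      rcases hc with hc | hc
      · exact U_pc.pc X hX _ h1 hc
      · exact (U_pc.pc _ h1 X hX hc).symm
    exact ⟨e, by rw [e]; exact h2⟩
  compl := fun X hX hB x => d.cut1 hX hB x

/-- spoiled pairs -/
def Sp (X : List α) (k k' : ℕ) : Prop :=
  ∃ p' : List α, p'.length = d.c k' ∧ ∃ t', F d.n d.Ss d.z (p' ++ X.drop (d.c k)) t' ∧
    d.mode ((p' ++ X.drop (d.c k)).take t')

theorem spoil {X : List α} (hX : X ∈ d.UU) : ∃ B : Finset (ℕ × ℕ), B.card ≤ 1 + 2 * d.C0 ∧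
    ∀ i j, i < d.K → j < d.K → i ≠ j → d.Sp X i j → (i, j) ∈ B := by
  classical
  obtain ⟨hF, hF2⟩ := d.mem_U hX
  have hz := d.hz
  have hW := d.hW
  obtain ⟨a1, -, ha1⟩ := F_exists (z := d.z - d.p0) (show d.z - d.p0 ≤ d.tt X by
    have := hF.1; omega) hF.2.1 hF.2.2.1
  obtain ⟨a2, ha2⟩ : ∃ a2, ∀ w1, F d.n d.Ss (a1 + 1) X w1 → w1 = a2 := by
    by_cases h : ∃ w1, F d.n d.Ss (a1 + 1) X w1
    · obtain ⟨w, hw⟩ := h
      exact ⟨w, fun w1 h1 => F_unique h1 hw⟩
    · exact ⟨0, fun w1 h1 => absurd ⟨w1, h1⟩ h⟩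
  obtain ⟨B1, c1, g1⟩ := d.thin ((a1 : ℤ) - d.p0)
  obtain ⟨B2, c2, g2⟩ := d.thin ((a2 : ℤ) - d.p0)
  -- band pairs
  let PE : ℕ → ℕ → Prop := fun i j => ∃ w0 : ℕ, w0 ≤ X.length ∧ E d.n d.Ss (X.take w0) ∧
    |(w0 : ℤ) + d.c j - d.c i - d.z| ≤ d.N
  have hPE : ∀ i j k l, i < d.K → j < d.K → k < d.K → l < d.K → i ≠ j → k ≠ l → PE i j →
      PE k l → i = k ∧ j = l := by
    rintro i j k l hi hj hk hl hij hkl ⟨w0, a0, b0, c0⟩ ⟨w1, a1', b1, c1⟩
    by_contra hne
    have hs := d.spaced i j k l hi hj hk hl hij hkl hne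
    have q1 := d.hcp i hi
    have q2 := d.hcp j hj
    have q3 := d.hcp k hk
    have q4 := d.hcp l hl
    rw [abs_le] at c0 c1
    have hw : w0 = w1 := by
      rcases lt_trichotomy w0 w1 with hl | hl | hl
      · have := d.hsep X w0 w1 hl a1' b0 b1
        omega
      · exact hl
      · have := d.hsep X w1 w0 hl a0 b1 b0
        omega
    subst hw
    rw [lt_abs] at hs
    omega
  obtain ⟨B0, c0, g0⟩ : ∃ B0 : Finset (ℕ × ℕ), B0.card ≤ 1 ∧
      ∀ i j, i < d.K → j < d.K → i ≠ j → PE i j → (i, j) ∈ B0 := by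
    by_cases h : ∃ i j, i < d.K ∧ j < d.K ∧ i ≠ j ∧ PE i j
    · obtain ⟨i, j, hi, hj, hij, hP⟩ := h
      refine ⟨{(i, j)}, by simp, fun k l hk hl hkl hP' => ?_⟩
      obtain ⟨e1, e2⟩ := hPE i j k l hi hj hk hl hij hkl hP hP'
      simp [e1, e2]
    · exact ⟨∅, by simp, fun k l hk hl hkl hP' => absurd ⟨k, l, hk, hl, hkl, hP'⟩ h⟩
  refine ⟨B0 ∪ (B1 ∪ B2), ?_, ?_⟩
  · have := Finset.card_union_le B0 (B1 ∪ B2)
    have := Finset.card_union_le B1 B2
    omega
  · rintro k k' hk hk' hkk ⟨p', hp', t', hF', hm⟩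
    have q1 := d.hcp k hk
    have q2 := d.hcp k' hk'
    have hXl : d.z ≤ X.length := by have := hF.1; have := hF.2.1; omega
    have lA : (X.take (d.c k)).length = d.c k := by rw [List.length_take]; omega
    have htz : d.z ≤ t' := hF'.1
    have hlt : ((p' ++ X.drop (d.c k)).take t').length = t' := by
      rw [List.length_take]; have := hF'.2.1; omega
    obtain ⟨r, hr⟩ : ∃ r, t' = p'.length + r := ⟨t' - p'.length, by omega⟩
    have hrn : d.n ≤ r := by omega
    have hrq : r ≤ (X.drop (d.c k)).length := by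
      have := hF'.2.1; rw [List.length_append] at this; omega
    have hw1 : F d.n d.Ss (d.z + d.c k - d.c k') (X.take (d.c k) ++ X.drop (d.c k))
        ((X.take (d.c k)).length + r) := by
      refine F_shift (A := p') (z := d.z) (by rw [← hr]; exact hF') (by omega) hrn ?_ (by omega)
      intro j hj hjt h1 h2 hE
      omega
    rw [List.take_append_drop, lA] at hw1
    have htr : ∀ i, d.n ≤ i → i ≤ (X.drop (d.c k)).length →
        E d.n d.Ss ((p' ++ X.drop (d.c k)).take (p'.length + i)) →
        E d.n d.Ss (X.take (d.c k + i)) := by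
      intro i hi hil hE
      rw [E_shift hi hil] at hE
      rw [← E_shift (A := X.take (d.c k)) hi hil, List.take_append_drop, lA] at hE
      exact hE
    have hlX : (X.drop (d.c k)).length = X.length - d.c k := by rw [List.length_drop]
    rw [Finset.mem_union, Finset.mem_union]
    rcases hm with h1 | ⟨j, h1, h2, h3⟩ | h3
    · left
      rw [hlt] at h1
      refine g0 k k' hk hk' hkk ⟨d.c k + r, by omega, hw1.2.2.1, ?_⟩
      rw [abs_le]; constructor <;> omega
    · left
      rw [List.take_take, min_eq_left (by omega)] at h3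
      obtain ⟨i, hi⟩ : ∃ i, j = p'.length + i := ⟨j - p'.length, by omega⟩
      subst hi
      have := htr i (by omega) (by omega) h3
      refine g0 k k' hk hk' hkk ⟨d.c k + i, by omega, this, ?_⟩
      rw [abs_le]; constructor <;> omega
    · right
      rw [hlt] at h3
      by_cases hcase : d.z + d.c k - d.c k' ≤ a1
      · left
        have e : d.c k + r = a1 := by
          refine F_unique hw1 ⟨hcase, ha1.2.1, ha1.2.2.1, fun j hj hja => ?_⟩
          exact ha1.2.2.2 j (by omega) hja
        refine g1 k k' hk hk' hkk ?_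
        have e2 : (a1 : ℤ) - d.p0 + d.c k' - d.c k = (t' : ℤ) - d.p0 := by omega
        rw [e2]; exact h3
      · right
        have hgt : a1 < d.c k + r := by
          have := hw1.1; omega
        have e : d.c k + r = a2 := by
          refine ha2 _ ⟨hgt, hw1.2.1, hw1.2.2.1, fun j hj hja hE => ?_⟩
          have := d.hsep X a1 j (by omega) (by have := hw1.2.1; omega) ha1.2.2.1 hE
          exact hw1.2.2.2 j (by have := ha1.1; omega) hja hE
        refine g2 k k' hk hk' hkk ?_
        have e2 : (a2 : ℤ) - d.p0 + d.c k' - d.c k = (t' : ℤ) - d.p0 := by omega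
        rw [e2]; exact h3

/-- completeness of scheme 2 -/
theorem cut2 {X : List α} (hX : X ∈ d.BB) (x : V) :
    ∃ p ∈ d.P2 x, ∃ q ∈ d.R2 (d.eps X x), X = p ++ q := by
  classical
  obtain ⟨hXU, hmd⟩ := hX
  obtain ⟨hF, hF2⟩ := d.mem_U hXU
  set t := d.tt X with ht
  have hz := d.hz
  have hzt : d.z ≤ t := hF.1
  have htX : t ≤ X.length := hF.2.1
  have htX' : t + 1 ≤ X.length := hF2.1
  have lu : (X.take d.p0).length = d.p0 := by rw [List.length_take]; omega
  obtain ⟨I, hI, hI2⟩ := d.compl2 (X.take d.p0) x (fun k hk => by rw [lu]; exact d.hcp k hk)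
  obtain ⟨B, hB, hB2⟩ := d.spoil hXU
  -- an unspoiled place
  obtain ⟨k, hkI, hk⟩ : ∃ k ∈ I, ∀ k' < d.K, k ≠ k' → ¬ d.Sp X k k' := by
    by_contra hcon
    push Not at hcon
    choose! g hg1 hg2 hg3 using hcon
    have : I.card ≤ B.card := by
      refine Finset.card_le_card_of_injOn (fun k => (k, g k)) ?_ ?_
      · intro k hk
        exact hB2 k (g k) (hI2 k hk).1 (hg1 k hk) (hg2 k hk) (hg3 k hk)
      · intro a _ b _ hab
        exact congrArg Prod.fst hab
    have := d.hR
    omega
  obtain ⟨hkK, hlk, hrk⟩ := hI2 k hkI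
  obtain ⟨b, hb⟩ := Option.isSome_iff_exists.1 hrk
  have q1 := d.hcp k hkK
  rw [List.take_take, min_eq_left q1] at hlk
  have lA : (X.take (d.c k)).length = d.c k := by rw [List.length_take]; omega
  set q := X.drop (d.c k) with hq
  have hXe : X = X.take (d.c k) ++ q := (List.take_append_drop _ _).symm
  have hql : q.length = X.length - d.c k := by rw [hq, List.length_drop]
  -- the same place
  have same : ∀ (x1 : V) (p' : List α), p'.length = d.c k → d.lam2 k p' = some x1 →
      p' ++ q ∈ d.BB ∧ d.eps (p' ++ q) x1 =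
        d.act (d.act b (ph d.f ((X.take t).drop d.p0)) + d.nu ((X.take t).drop d.p0))
          (ph d.f (X.drop t)) := by
    intro x1 p' hp' hl'
    have hFa : F d.n d.Ss d.z (X.take (d.c k) ++ q) ((X.take (d.c k)).length + (t - d.c k)) := by
      rw [← hXe, lA, show d.c k + (t - d.c k) = t by omega]; exact hF
    have s1 : F d.n d.Ss d.z (p' ++ q) (p'.length + (t - d.c k)) := by
      refine F_shift hFa (by omega) (by omega) ?_ (by omega)
      intro j hj hjt h1 h2 hE
      omega
    rw [show p'.length + (t - d.c k) = t by omega] at s1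
    have hFb : F d.n d.Ss (t + 1) (X.take (d.c k) ++ q)
        ((X.take (d.c k)).length + q.length) := by
      rw [← hXe, lA, hql, show d.c k + (X.length - d.c k) = X.length by omega]; exact hF2
    have s2 : F d.n d.Ss (t + 1) (p' ++ q) (p'.length + q.length) := by
      refine F_shift hFb (by omega) (by omega) ?_ (by omega)
      intro j hj hjt h1 h2 hE
      omega
    have htt : d.tt (p' ++ q) = t := d.tt_eq s1
    have hU : p' ++ q ∈ d.UU := ⟨t, s1, by rw [List.length_append]; exact s2⟩
    have hpl : d.c k ≤ X.length := by omega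
    -- positions after the hole
    have etake : ∀ i, d.c k ≤ i → (p' ++ q).take i = p' ++ (X.take i).drop (d.c k) := by
      intro i hi
      obtain ⟨j, rfl⟩ : ∃ j, i = p'.length + j := ⟨i - p'.length, by omega⟩
      rw [List.take_length_add_append, hq, hp', List.drop_take, Nat.add_sub_cancel_left]
    have edrop : ∀ i, d.c k ≤ i → (p' ++ q).drop i = X.drop i := by
      intro i hi
      obtain ⟨j, rfl⟩ : ∃ j, i = p'.length + j := ⟨i - p'.length, by omega⟩
      rw [List.drop_length_add_append, hq, List.drop_drop, hp']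
    have hlt : ((p' ++ q).take t).length = t := by
      rw [List.length_take]; have := s1.2.1; omega
    have hltX : (X.take t).length = t := by rw [List.length_take]; omega
    refine ⟨⟨hU, ?_⟩, ?_⟩
    · rw [htt]
      rcases hmd with h1 | ⟨j, h1, h2, h3⟩ | h3
      · left; rw [hlt]; rw [hltX] at h1; exact h1
      · right; left
        refine ⟨j, h1, h2, ?_⟩
        rw [List.take_take, min_eq_left (by omega)] at h3 ⊢
        obtain ⟨i, rfl⟩ : ∃ i, j = p'.length + i := ⟨j - p'.length, by omega⟩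
        have h4 : E d.n d.Ss ((X.take (d.c k) ++ q).take ((X.take (d.c k)).length + i)) := by
          rw [← hXe, lA, ← hp']; exact h3
        rw [E_shift (by omega) (by omega)] at h4
        rw [E_shift (by omega) (by omega)]
        exact h4
      · right; right; rw [hlt]; rw [hltX] at h3; exact h3
    · unfold eps
      rw [htt, edrop t (by omega)]
      unfold val
      have e1 : ((p' ++ q).take t).take d.p0 = p' ++ (X.take d.p0).drop (d.c k) := by
        rw [List.take_take, min_eq_left (by omega)]; exact etake _ q1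
      have e2 : ((p' ++ q).take t).drop d.p0 = (X.take t).drop d.p0 := by
        rw [List.drop_take, edrop _ q1, List.drop_take]
      rw [e1, e2]
      have hs := d.sound2 k hkK p' _ x1 b hp' hl' hb
      rw [← hs]
  have heps := (same x _ lA hlk).2
  rw [← hXe] at heps
  refine ⟨X.take (d.c k), ⟨k, hkK, lA, hlk⟩, q, ?_, hXe⟩
  rintro x1 p' ⟨k', hk', hp', hl'⟩
  by_cases hkk : k = k'
  · subst hkk
    left
    obtain ⟨g1, g2⟩ := same x1 p' hp' hl'
    exact ⟨g1, by rw [g2, heps]⟩
  · right
    have q2 := d.hcp k' hk'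
    have hns := hk k' hk' hkk
    have hW := d.hW
    -- the last wall of `X` gives a wall `≥ z` of the modified text
    have hsepX := d.hsep X t X.length (by omega) le_rfl hF.2.2.1 (by
      have := hF2.2.2.1; exact this)
    have hEq : E d.n d.Ss ((p' ++ q).take (p'.length + q.length)) := by
      rw [E_shift (by omega) le_rfl, ← E_shift (A := X.take (d.c k)) (by omega) le_rfl, ← hXe, lA,
        hql, show d.c k + (X.length - d.c k) = X.length by omega]
      exact hF2.2.2.1
    obtain ⟨t', -, hF'⟩ := F_exists (z := d.z) (w := p' ++ q) (by omega)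
      (by rw [List.length_append]) hEq
    refine ⟨(p' ++ q).take t', ⟨F_take hF', fun hm => ?_⟩, List.take_prefix _ _⟩
    exact hns ⟨p', hp', t', hF', hm⟩

theorem P2_ne (x : V) : [] ∉ d.P2 x := by
  rintro ⟨k, hk, h, _⟩
  have := d.hc0 k hk
  simp at h
  omega

theorem level2 : Level d.BB 0 d.eps d.P2 d.R2 where
  pne := d.P2_ne
  sound := by
    intro X hX x y p hp q hq hc
    obtain ⟨hXU, hmd⟩ := hX
    rcases hq x p hp with ⟨h1, h2⟩ | ⟨g, ⟨hg1, hg2⟩, hgp⟩
    · have e : X = p ++ q := by
        rcases hc with hc | hc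
        · exact U_pc.pc X hXU _ h1.1 hc
        · exact (U_pc.pc _ h1.1 X hXU hc).symm
      exact ⟨e, by rw [e]; exact h2⟩
    · exfalso
      obtain ⟨hF, hF2⟩ := d.mem_U hXU
      have hcmp : g <+: X ∨ X <+: g := by
        rcases hc with hc | hc
        · exact (List.prefix_or_prefix_of_prefix hgp hc)
        · exact Or.inl (hgp.trans hc)
      rcases hcmp with ⟨r, rfl⟩ | ⟨r, rfl⟩
      · have e := F_unique (F_ext (w' := r) hg1) hF
        rw [← e, List.take_append_of_le_length le_rfl, List.take_length] at hmd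
        exact hg2 hmd
      · have e := F_unique (F_ext (w' := r) hF) hg1
        have := hF2.1
        rw [List.length_append] at e
        omega
  compl := by
    intro X hX _ x
    exact d.cut2 hX x

end Dat

end Crest.Agent.R320.Two_529
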