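import Mathlib
import Crest.Agent.R320.Hk2_851

/-!
# Row 320: assembly of the two-scheme chain (abstract form, helper55)

`nxt` : chain map (any position may be a node); `Bad` : local predicate of a node;
scheme 1 exact on every text and complete at every node which is not `Bad`;
scheme 2 exact and complete at `Bad` nodes.  Result: `HL 2` on the class `RF`.
-/

set_option autoImplicit false

namespace Crest.Agent.R320.Two_55

open Crest.Agent.R320.Hk_851

universe u

variable {α : Type u}

/-- chain with values: from the node text `w` with value `v` to the node text `r` with value `v'` -/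
inductive Ch (nxt : List α → Option ℕ) (P : List α → Prop) {V : Type u} (f : List α → V → V) :
    List α → V → List α → V → Prop
  | refl (w : List α) (v : V) : Ch nxt P f w v w v
  | step {x y r : List α} {v v' : V} : nxt (x ++ y) = some x.length → P (x ++ y) →
      Ch nxt P f y (f (x ++ y) v) r v' → Ch nxt P f (x ++ y) v r v'

/-- chain without values -/
inductive CB (nxt : List α → Option ℕ) (P : List α → Prop) : List α → List α → Prop
  | refl (w : List α) : CB nxt P w w
  | step {x y r : List α} : nxt (x ++ y) = some x.length → P (x ++ y) →
      CB nxt P y r → CB nxt P (x ++ y) r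

section basic

variable {nxt : List α → Option ℕ} {P : List α → Prop} {V : Type u} {f : List α → V → V}

theorem Ch.toCB {w r : List α} {v v' : V} (h : Ch nxt P f w v r v') : CB nxt P w r := by
  induction h with
  | refl w v => exact CB.refl w
  | step h1 h2 _ ih => exact CB.step h1 h2 ih

theorem CB.toCh {w r : List α} (h : CB nxt P w r) (f : List α → V → V) (v : V) :
    ∃ v', Ch nxt P f w v r v' := by
  induction h generalizing v with
  | refl w => exact ⟨v, Ch.refl w v⟩
  | @step x y r h1 h2 _ ih =>
    obtain ⟨v', h⟩ := ih (f (x ++ y) v)
    exact ⟨v', Ch.step h1 h2 h⟩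

theorem CB.len {w r : List α} (h : CB nxt P w r) : r.length ≤ w.length := by
  induction h with
  | refl w => exact le_rfl
  | step _ _ _ ih => simp only [List.length_append]; omega

theorem CB.suffix {w r : List α} (h : CB nxt P w r) : r <:+ w := by
  induction h with
  | refl w => exact List.suffix_refl w
  | step _ _ _ ih => exact ih.trans (List.suffix_append _ _)

theorem CB.trans {a b c : List α} (h : CB nxt P a b) (h' : CB nxt P b c) : CB nxt P a c := by
  induction h with
  | refl w => exact h'
  | step h1 h2 _ ih => exact CB.step h1 h2 (ih h')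

theorem Ch.trans {a b c : List α} {u v w : V} (h : Ch nxt P f a u b v) (h' : Ch nxt P f b v c w) :
    Ch nxt P f a u c w := by
  induction h with
  | refl w => exact h'
  | step h1 h2 _ ih => exact Ch.step h1 h2 (ih h')

theorem Ch.mono {Q : List α → Prop} (hPQ : ∀ w, P w → Q w) {a b : List α} {u v : V}
    (h : Ch nxt P f a u b v) : Ch nxt Q f a u b v := by
  induction h with
  | refl w v => exact Ch.refl w v
  | step h1 h2 _ ih => exact Ch.step h1 (hPQ _ h2) ih

/-- first step of a chain which is not trivial -/
theorem CB.first {a b : List α} (h : CB nxt P a b) (hne : a ≠ b) :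
    ∃ x y, a = x ++ y ∧ nxt a = some x.length ∧ P a ∧ CB nxt P y b := by
  cases h with
  | refl => exact (hne rfl).elim
  | @step x y _ h1 h2 h3 => exact ⟨x, y, rfl, h1, h2, h3⟩

theorem Ch.first {a b : List α} {v v' : V} (h : Ch nxt P f a v b v') (hne : a ≠ b) :
    ∃ x y, a = x ++ y ∧ nxt a = some x.length ∧ P a ∧ Ch nxt P f y (f a v) b v' := by
  cases h with
  | refl => exact (hne rfl).elim
  | @step x y _ _ _ h1 h2 h3 => exact ⟨x, y, rfl, h1, h2, h3⟩

theorem Ch.eq_of_self (hpos : ∀ w d, nxt w = some d → 0 < d) {a : List α} {v v' : V}
    (h : Ch nxt P f a v a v') : v = v' := by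
  cases h with
  | refl => rfl
  | @step x y _ _ _ h1 h2 h3 =>
    have h4 := h3.toCB.len
    have h5 := hpos _ _ h1
    simp only [List.length_append] at h4
    omega

theorem Ch.det (hpos : ∀ w d, nxt w = some d → 0 < d) {a b : List α} {v v1 v2 : V}
    (h : Ch nxt P f a v b v1) (h' : Ch nxt P f a v b v2) : v1 = v2 := by
  induction h with
  | refl w v => exact h'.eq_of_self hpos
  | @step x y r v v' h1 h2 h3 ih =>
    have hne : x ++ y ≠ r := by
      intro e
      have h4 := h3.toCB.len
      have h5 := hpos _ _ h1
      rw [← e] at h4
      simp only [List.length_append] at h4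
      omega
    obtain ⟨x', y', e, h4, _, h6⟩ := h'.first hne
    rw [h1] at h4
    have h7 : x.length = x'.length := by simpa using h4
    obtain ⟨rfl, rfl⟩ := List.append_inj e h7
    exact ih h6

end basic

end Crest.Agent.R320.Two_55
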