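import Mathlib

/-! Row 320: the two wall schemes on one left-looking block code, generic in the two gadgets.
Output: the hypotheses `s1`, `s2`, `cc` of 163's `top` (#13363). -/

set_option autoImplicit false

namespace Crest.Agent.R320.Two_580

/-- all data. -/
structure Dt (α S V : Type*) where
  Wl : List α → Prop
  n : ℕ
  p0 : ℕ
  q : ℕ
  N1 : ℕ
  φ : List α → S
  act : V → S → V
  lam : List α → Option V
  rho : List α → Option V
  nu1 : List α → V
  BadN : ℕ → Prop
  K : ℕ
  R : ℕ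
  c : ℕ → ℕ
  lam2 : ℕ → List α → Option V
  rho2 : ℕ → List α → Option V
  nu2 : List α → V

namespace Dt

variable {α S V : Type*} [AddCommGroup V] (D : Dt α S V)

/-- the first admissible length. -/
def z : ℕ := D.p0 + D.q + D.N1

/-- blocks. -/
def XX : Set (List α) :=
  {X | D.z ≤ X.length ∧ D.Wl X ∧ ∀ t, D.z ≤ t → t < X.length → ¬ D.Wl (X.take t)}

/-- zone map. -/
def T (v : V) (X : List α) : V :=
  D.act (D.act v (D.φ (X.take D.p0)) + D.nu2 (X.take D.p0)) (D.φ (X.drop D.p0)) +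
    D.nu1 (X.drop D.p0)

def LP1 (P : List α) (v : V) : Prop :=
  D.p0 ≤ P.length ∧
    D.lam (P.drop D.p0) = some (D.act v (D.φ (P.take D.p0)) + D.nu2 (P.take D.p0))

/-- right-legal words of scheme 1. -/
def QQ (Q : List α) : Prop :=
  D.q + D.N1 ≤ Q.length ∧ D.Wl Q ∧ ∀ t, D.q ≤ t → t < Q.length → ¬ D.Wl (Q.take t)

open Classical in
noncomputable def R1 (Q : List α) : Option V := if D.QQ Q then D.rho Q else none

def LP2 (P : List α) (v : V) : Prop := ∃ k < D.K, P.length = D.c k ∧ D.lam2 k P = some v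

/-- `t` is the end of the block of the candidate `l`. -/
def IsN (l : ℕ) (Q : List α) (t : ℕ) : Prop :=
  t ≤ Q.length ∧ D.z ≤ D.c l + t ∧ D.Wl (Q.take t) ∧
    ∀ t', t' < t → D.z ≤ D.c l + t' → ¬ D.Wl (Q.take t')

/-- the block of the candidate `l` is bad. -/
def BadC (l : ℕ) (Q : List α) (t : ℕ) : Prop :=
  D.BadN (D.c l + t - D.p0) ∨
    ∃ t' ≤ Q.length, D.Wl (Q.take t') ∧ D.z ≤ D.c l + t' + D.N1 ∧ D.c l + t' < D.z + D.N1

def Cand (l : ℕ) (Q : List α) : Prop := l < D.K ∧ ∃ t, D.IsN l Q t ∧ D.BadC l Q t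

/-- right reading of scheme 2, as a relation. -/
def Rd (Q : List α) (l t : ℕ) (b : V) : Prop :=
  D.Cand l Q ∧ (∀ l', D.Cand l' Q → l' = l) ∧ D.IsN l Q t ∧ Q.drop t ∈ D.XX ∧
    ∃ y, D.rho2 l (Q.take (D.p0 - D.c l)) = some y ∧
      b = D.T (D.act y (D.φ ((Q.take t).drop (D.p0 - D.c l))) +
        D.nu1 ((Q.take t).drop (D.p0 - D.c l))) (Q.drop t)

open Classical in
noncomputable def R2 (Q : List α) : Option V :=
  if h : ∃ b, ∃ l t, D.Rd Q l t b then some h.choose else none

/-- the hypotheses. -/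
structure Ok [Mul S] : Prop where
  loc : ∀ U Q, D.n ≤ Q.length → (D.Wl (U ++ Q) ↔ D.Wl Q)
  nq : D.n ≤ D.q
  q0 : 0 < D.q
  phi : ∀ u v, D.φ (u ++ v) = D.φ u * D.φ v
  g1s : ∀ P Q v b, D.lam P = some v → D.rho Q = some b →
    b = D.act v (D.φ (P ++ Q)) + D.nu1 (P ++ Q)
  g1l : ∀ P v, D.lam P = some v → P.length ≤ D.N1
  g1c : ∀ Y : List α, D.q + 2 * D.N1 ≤ Y.length → ¬ D.BadN Y.length → ∀ v, ∃ P Q, Y = P ++ Q ∧
    D.lam P = some v ∧ (D.rho Q).isSome
  cp : ∀ k < D.K, D.c k ≤ D.p0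
  cinj : ∀ k < D.K, ∀ l < D.K, D.c k = D.c l → k = l
  g2s : ∀ k < D.K, ∀ P Q v b, P.length = D.c k → D.lam2 k P = some v → D.rho2 k Q = some b →
    b = D.act v (D.φ (P ++ Q)) + D.nu2 (P ++ Q)
  g2c : ∀ U : List α, U.length = D.p0 → ∀ v, ∃ I : Finset ℕ, D.R ≤ I.card ∧ ∀ k ∈ I, k < D.K ∧
    D.lam2 k (U.take (D.c k)) = some v ∧ (D.rho2 k (U.drop (D.c k))).isSome
  spoil : ∀ X ∈ D.XX, ∀ X2 ∈ D.XX, ∀ I : Finset ℕ,
    (∀ k ∈ I, k < D.K ∧ ∃ l, l ≠ k ∧ D.Cand l ((X ++ X2).drop (D.c k))) → I.card < D.R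

variable {D} [Mul S]

theorem R1_some {Q : List α} {b : V} (h : D.R1 Q = some b) : D.QQ Q ∧ D.rho Q = some b := by
  unfold R1 at h
  split at h
  · exact ⟨‹_›, h⟩
  · cases h

theorem Rd_unique {Q : List α} {l l' t t' : ℕ} {b b' : V} (h : D.Rd Q l t b)
    (h' : D.Rd Q l' t' b') : b = b' := by
  obtain ⟨hc, hu, hn, -, y, hy, rfl⟩ := h
  obtain ⟨hc', -, hn', -, y', hy', rfl⟩ := h'
  have hl : l' = l := hu l' hc'
  subst hl
  have ht : t = t' := by
    rcases lt_trichotomy t t' with h | h | h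
    · exact absurd hn.2.2.1 (hn'.2.2.2 t h hn.2.1)
    · exact h
    · exact absurd hn'.2.2.1 (hn.2.2.2 t' h hn'.2.1)
  subst ht
  have : y = y' := by rw [hy] at hy'; exact Option.some.inj hy'
  rw [this]

theorem R2_some {Q : List α} {b : V} (h : D.R2 Q = some b) : ∃ l t, D.Rd Q l t b := by
  unfold R2 at h
  split at h
  · rename_i hh
    have := Option.some.inj h
    rw [← this]
    exact hh.choose_spec
  · cases h

theorem R2_isSome {Q : List α} {l t : ℕ} {b : V} (h : D.Rd Q l t b) : (D.R2 Q).isSome := by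
  unfold R2
  rw [dif_pos ⟨b, l, t, h⟩]
  rfl

variable (hD : D.Ok)
include hD

/-- locality along a text. -/
theorem take_loc (P Q : List α) (t : ℕ) (ht : D.n ≤ t) (ht' : t ≤ Q.length) :
    D.Wl ((P ++ Q).take (P.length + t)) ↔ D.Wl (Q.take t) := by
  have : (P ++ Q).take (P.length + t) = P ++ Q.take t := by
    rw [List.take_append]; simp
  rw [this]
  exact hD.loc P (Q.take t) (by rw [List.length_take]; omega)

/-- **(s1)** -/
theorem s1 (P : List α) (v : V) (Q : List α) (b : V) (hP : D.LP1 P v) (hQ : D.R1 Q = some b) :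
    P ++ Q ∈ D.XX ∧ D.T v (P ++ Q) = b := by
  obtain ⟨hp, hl⟩ := hP
  obtain ⟨⟨hq1, hq2, hq3⟩, hr⟩ := R1_some hQ
  have hlen := hD.g1l _ _ hl
  rw [List.length_drop] at hlen
  have hnq := hD.nq
  refine ⟨⟨?_, ?_, ?_⟩, ?_⟩
  · rw [List.length_append]; unfold z; omega
  · exact (hD.loc P Q (by omega)).2 hq2
  · intro t h1 h2 hw
    rw [List.length_append] at h2
    unfold z at h1
    obtain ⟨s, rfl⟩ : ∃ s, t = P.length + s := ⟨t - P.length, by omega⟩
    have h3 : D.q ≤ s := by omega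
    exact hq3 s h3 (by omega) ((take_loc hD P Q s (by omega) (by omega)).1 hw)
  · have e1 : (P ++ Q).take D.p0 = P.take D.p0 := List.take_append_of_le_length hp
    have e2 : (P ++ Q).drop D.p0 = P.drop D.p0 ++ Q := List.drop_append_of_le_length hp
    unfold T
    rw [e1, e2]
    exact (hD.g1s _ _ _ _ hl hr).symm

/-- completeness of scheme 1 off the bad blocks. -/
theorem comp1 (X : List α) (hX : X ∈ D.XX) (hB : ¬ D.BadN (X.length - D.p0))
    (hE : ∀ t, t ≤ X.length → D.z ≤ t + D.N1 → t < D.z + D.N1 → ¬ D.Wl (X.take t)) (v : V) :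
    ∃ P Q, X = P ++ Q ∧ D.LP1 P v ∧ (D.R1 Q).isSome := by
  obtain ⟨h1, h2, h3⟩ := hX
  have hz : D.z = D.p0 + D.q + D.N1 := rfl
  have hlen : D.z + D.N1 ≤ X.length := by
    by_contra hc
    exact hE X.length le_rfl (by omega) (by omega) (by rwa [List.take_length])
  obtain ⟨P, Q, hPQ, hl, hr⟩ := hD.g1c (X.drop D.p0) (by rw [List.length_drop]; omega)
    (by rwa [List.length_drop]) (D.act v (D.φ (X.take D.p0)) + D.nu2 (X.take D.p0))
  have hPl := hD.g1l _ _ hl
  have hXe : X = (X.take D.p0 ++ P) ++ Q := by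
    rw [List.append_assoc, ← hPQ, List.take_append_drop]
  have htl : (X.take D.p0).length = D.p0 := by rw [List.length_take]; omega
  have hQl : X.length = D.p0 + P.length + Q.length := by
    have := congrArg List.length hXe
    rw [List.length_append, List.length_append, htl] at this
    exact this
  have hnq := hD.nq
  refine ⟨X.take D.p0 ++ P, Q, hXe, ⟨?_, ?_⟩, ?_⟩
  · rw [List.length_append, htl]; omega
  · have e1 : (X.take D.p0 ++ P).drop D.p0 = P := by
      rw [List.drop_append_of_le_length (by omega), List.drop_eq_nil_of_le (by omega)]; rfl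
    have e2 : (X.take D.p0 ++ P).take D.p0 = X.take D.p0 := by
      rw [List.take_append_of_le_length (by omega), List.take_of_length_le (by omega)]
    rw [e1, e2]; exact hl
  · have hQQ : D.QQ Q := by
      refine ⟨by omega, ?_, ?_⟩
      · rw [hXe] at h2
        exact (hD.loc _ Q (by omega)).1 h2
      · intro t ht1 ht2 hw
        have hlt : (X.take D.p0 ++ P).length + t < X.length := by
          rw [List.length_append, htl]; omega
        have hw' : D.Wl (X.take ((X.take D.p0 ++ P).length + t)) := by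
          have := (take_loc hD (X.take D.p0 ++ P) Q t (by omega) ht2.le).2 hw
          rwa [← hXe] at this
        rw [List.length_append, htl] at hw' hlt
        by_cases hc : D.p0 + P.length + t < D.z + D.N1
        · exact hE _ hlt.le (by omega) hc hw'
        · exact h3 _ (by omega) hlt hw'
    unfold R1
    rw [if_pos hQQ]; exact hr

/-- the true place is a candidate when its block is not cut by scheme 1. -/
theorem cand_of_bad (P Q : List α) (k : ℕ) (hk : k < D.K) (hPk : P.length = D.c k) (t : ℕ)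
    (ht : t ≤ Q.length) (hX : P ++ Q.take t ∈ D.XX) (v : V)
    (hun : ∀ P' Q', P ++ Q.take t = P' ++ Q' → P.length ≤ P'.length → D.LP1 P' v →
      (D.R1 Q').isSome → False) : D.IsN k Q t ∧ D.BadC k Q t := by
  have hcp := hD.cp k hk
  have hnq := hD.nq
  have hz : D.z = D.p0 + D.q + D.N1 := rfl
  obtain ⟨h1, h2, h3⟩ := hX
  have hl : (P ++ Q.take t).length = D.c k + t := by
    rw [List.length_append, List.length_take, hPk]; omega
  have hwl : ∀ s, D.z ≤ D.c k + s → s ≤ t →
      (D.Wl ((P ++ Q.take t).take (D.c k + s)) ↔ D.Wl (Q.take s)) := by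
    intro s hs hst
    have := take_loc hD P (Q.take t) s (by omega) (by rw [List.length_take]; omega)
    rw [hPk] at this
    rw [this, List.take_take, min_eq_left hst]
  have hN : D.IsN k Q t := by
    refine ⟨ht, by omega, ?_, ?_⟩
    · have := (hwl t (by omega) le_rfl).1 (by rw [← hl, List.take_length]; exact h2)
      exact this
    · intro t' ht' hz' hw
      exact h3 (D.c k + t') hz' (by omega) ((hwl t' hz' ht'.le).2 hw)
  refine ⟨hN, ?_⟩
  by_contra hB
  unfold BadC at hB
  push Not at hB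
  obtain ⟨hB1, hB2⟩ := hB
  obtain ⟨P', Q', e, hLP, hR⟩ := comp1 hD (P ++ Q.take t) ⟨h1, h2, h3⟩ (by rw [hl]; exact hB1) (by
    intro s hs hs1 hs2 hw
    rw [hl] at hs
    obtain ⟨s', rfl⟩ : ∃ s', s = D.c k + s' := ⟨s - D.c k, by omega⟩
    have hs' : s' ≤ t := by omega
    have h4 : D.Wl (Q.take s') := by
      have := take_loc hD P (Q.take t) s' (by omega) (by rw [List.length_take]; omega)
      rw [hPk] at this
      have h5 := this.1 hw
      rwa [List.take_take, min_eq_left hs'] at h5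
    exact absurd hs2 (not_lt.2 (hB2 s' (by omega) h4 hs1))) v
  exact hun P' Q' e (by have := hLP.1; omega) hLP hR

/-- **(s2)** -/
theorem s2 (P : List α) (v : V) (Q : List α) (b : V) (hP : D.LP2 P v) (hQ : D.R2 Q = some b)
    (hun : ∀ X ∈ D.XX, X <+: P ++ Q → ∀ P' Q', X = P' ++ Q' → P.length ≤ P'.length →
      D.LP1 P' v → (D.R1 Q').isSome → False) :
    ∃ Q1 X2, Q = Q1 ++ X2 ∧ Q1 ≠ [] ∧ P ++ Q1 ∈ D.XX ∧ X2 ∈ D.XX ∧
      D.T (D.T v (P ++ Q1)) X2 = b := by
  obtain ⟨k, hk, hPk, hlam⟩ := hP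
  obtain ⟨l, t, hc, hu, hn, hXt, y, hy, rfl⟩ := R2_some hQ
  have hcp := hD.cp k hk
  have hnq := hD.nq
  have hq0 := hD.q0
  have hz : D.z = D.p0 + D.q + D.N1 := rfl
  -- the end of `Q` is a wall at distance `≥ z`
  have hlen : t + D.z ≤ Q.length := by
    have := hXt.1
    rw [List.length_drop] at this
    have h2 := hn.1
    omega
  have hWQ : D.Wl Q := by
    have h3 := (hD.loc (Q.take t) (Q.drop t) (by have := hXt.1; omega)).2 hXt.2.1
    rwa [List.take_append_drop] at h3
  -- the true block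
  classical
  have hex : ∃ s, D.z ≤ D.c k + s ∧ s ≤ Q.length ∧ D.Wl (Q.take s) :=
    ⟨Q.length, by omega, le_rfl, by rwa [List.take_length]⟩
  obtain ⟨hs1, hs2, hs3⟩ := Nat.find_spec hex
  set s := Nat.find hex with hs
  have hXs : P ++ Q.take s ∈ D.XX := by
    have hl : (P ++ Q.take s).length = D.c k + s := by
      rw [List.length_append, List.length_take, hPk]; omega
    refine ⟨by rw [hl]; exact hs1, ?_, ?_⟩
    · exact (hD.loc P _ (by rw [List.length_take]; omega)).2 hs3
    · intro u hu1 hu2 hw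
      rw [hl] at hu2
      obtain ⟨u', rfl⟩ : ∃ u', u = D.c k + u' := ⟨u - D.c k, by omega⟩
      have h5 := take_loc hD P (Q.take s) u' (by omega) (by rw [List.length_take]; omega)
      rw [hPk] at h5
      have h6 := h5.1 hw
      rw [List.take_take, min_eq_left (by omega)] at h6
      exact Nat.find_min hex (m := u') (by omega) ⟨hu1, by omega, h6⟩
  have hpre : P ++ Q.take s <+: P ++ Q :=
    ⟨Q.drop s, by rw [List.append_assoc, List.take_append_drop]⟩
  obtain ⟨hNk, hBk⟩ := cand_of_bad hD P Q k hk hPk s hs2 hXs v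
    (fun P' Q' e h1 h2 h3 => hun _ hXs hpre P' Q' e h1 h2 h3)
  have hkl : k = l := hu k ⟨hk, s, hNk, hBk⟩
  subst hkl
  have hst : s = t := by
    rcases lt_trichotomy s t with h | h | h
    · exact absurd hNk.2.2.1 (hn.2.2.2 s h hNk.2.1)
    · exact h
    · exact absurd hn.2.2.1 (hNk.2.2.2 t h hn.2.1)
  rw [hst] at hXs
  have htq : D.q ≤ t := by have := hn.2.1; omega
  refine ⟨Q.take t, Q.drop t, (List.take_append_drop _ _).symm, ?_, hXs, hXt, ?_⟩
  · intro h0
    have := congrArg List.length h0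
    rw [List.length_take] at this
    simp only [List.length_nil] at this
    have := hn.1
    omega
  · have hpt : D.p0 - D.c k ≤ t := by have := hn.2.1; omega
    have e1 : (P ++ Q.take t).take D.p0 = P ++ Q.take (D.p0 - D.c k) := by
      rw [List.take_append, List.take_of_length_le (by omega), hPk, List.take_take,
        min_eq_left hpt]
    have e2 : (P ++ Q.take t).drop D.p0 = (Q.take t).drop (D.p0 - D.c k) := by
      rw [List.drop_append, List.drop_eq_nil_of_le (by omega), hPk, List.nil_append]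
    have e3 : D.T v (P ++ Q.take t) = D.act y (D.φ ((Q.take t).drop (D.p0 - D.c k))) +
        D.nu1 ((Q.take t).drop (D.p0 - D.c k)) := by
      unfold T
      rw [e1, e2, ← hD.g2s k hk P _ v y hPk hlam hy]
    rw [e3]

/-- **(cc)** -/
theorem cc (X : List α) (hX : X ∈ D.XX) (X2 : List α) (hX2 : X2 ∈ D.XX) (v : V) :
    (∃ P Q, X = P ++ Q ∧ D.LP1 P v ∧ (D.R1 Q).isSome) ∨
      (∃ P Q, X ++ X2 = P ++ Q ∧ P.length < X.length ∧ D.LP2 P v ∧ (D.R2 Q).isSome) := by
  classical
  by_cases hcut : ∃ P Q, X = P ++ Q ∧ D.LP1 P v ∧ (D.R1 Q).isSome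
  · exact Or.inl hcut
  right
  have hnq := hD.nq
  have hq0 := hD.q0
  have hz : D.z = D.p0 + D.q + D.N1 := rfl
  have hXl := hX.1
  have htl : (X.take D.p0).length = D.p0 := by rw [List.length_take]; omega
  obtain ⟨I, hI, hIk⟩ := hD.g2c (X.take D.p0) htl v
  -- an unspoiled index
  obtain ⟨k, hkI, hkn⟩ : ∃ k ∈ I, ¬ ∃ l, l ≠ k ∧ D.Cand l ((X ++ X2).drop (D.c k)) := by
    by_contra h
    push Not at h
    have := hD.spoil X hX X2 hX2 I fun k hk => ⟨(hIk k hk).1, h k hk⟩
    omega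
  obtain ⟨hk, hl, hr⟩ := hIk k hkI
  have hcp := hD.cp k hk
  have eP : (X.take D.p0).take (D.c k) = X.take (D.c k) := by
    rw [List.take_take, min_eq_left hcp]
  rw [eP] at hl
  have hPl : (X.take (D.c k)).length = D.c k := by rw [List.length_take]; omega
  set Q := (X ++ X2).drop (D.c k) with hQ
  have eQ : Q = X.drop (D.c k) ++ X2 := by
    rw [hQ, List.drop_append_of_le_length (by omega)]
  have hdl : (X.drop (D.c k)).length = X.length - D.c k := by rw [List.length_drop]
  have eXX : X ++ X2 = X.take (D.c k) ++ Q := by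
    rw [eQ, ← List.append_assoc, List.take_append_drop]
  set t := X.length - D.c k with ht
  have eTt : Q.take t = X.drop (D.c k) := by
    rw [eQ, List.take_append_of_le_length (by omega), List.take_of_length_le (by omega)]
  have eDt : Q.drop t = X2 := by
    rw [eQ, List.drop_append_of_le_length (by omega), List.drop_eq_nil_of_le (by omega)]; rfl
  have hQl : t ≤ Q.length := by rw [eQ, List.length_append]; omega
  have hXe : X.take (D.c k) ++ Q.take t = X := by rw [eTt, List.take_append_drop]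
  obtain ⟨hNk, hBk⟩ := cand_of_bad hD (X.take (D.c k)) Q k hk hPl t hQl (by rw [hXe]; exact hX) v
    (fun P' Q' e _ h2 h3 => hcut ⟨P', Q', by rw [← hXe]; exact e, h2, h3⟩)
  obtain ⟨y, hy⟩ := Option.isSome_iff_exists.1 hr
  have hpt : D.p0 - D.c k ≤ t := by omega
  have ey : Q.take (D.p0 - D.c k) = (X.take D.p0).drop (D.c k) := by
    rw [eQ, List.take_append_of_le_length (by omega), List.drop_take]
  refine ⟨X.take (D.c k), Q, eXX, by omega, ⟨k, hk, hPl, hl⟩, ?_⟩
  refine R2_isSome (l := k) (t := t) ⟨⟨hk, t, hNk, hBk⟩, ?_, hNk, by rw [eDt]; exact hX2,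
    y, by rw [ey]; exact hy, rfl⟩
  intro l' hl'
  by_contra hne
  exact hkn ⟨l', hne, hl'⟩

end Dt

end Crest.Agent.R320.Two_580
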