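import Crest.Agent.R320.CutAut_600

/-!
Row 320 (helper733): TWO SCHEMES ON ONE CHAIN RULE, ONE TOKEN SYSTEM (118 #13043), over
903's nested star theorem and 600's automaton.  Labels are RELATIONS `L P v`.
Scheme 1 is exact for all texts of the class, complete on good zones; scheme 2 is exact and
complete on zones which are not good; its cut places lie left of those of scheme 1.
-/

set_option autoImplicit false

namespace Crest.Agent.R320.Two_733

open Crest.Agent.R320.Hgt1_903 Crest.Agent.R320.Star_903 Crest.Agent.R320.CutAut_600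

variable {α V : Type*}

/-- left-legal states, relational labels. -/
def cutR (L : List α → V → Prop) (B : ℕ) : St α V B → Prop
  | none => False
  | some (P, v) => L P.1 v

theorem uncut_suffix {Θ : Type*} {δ : Θ → α → Θ} {CutL : Θ → Prop} {D : ℕ}
    {ρ : List α → Option Θ} {θ : Θ} {u v : List α} (h : Uncut δ CutL D ρ θ (u ++ v)) :
    Uncut δ CutL D ρ (Star_903.run δ θ u) v := by
  intro p r s e hc
  refine h (u ++ p) r s (by rw [← e]; simp [List.append_assoc]) ?_
  obtain ⟨h1, h2, h3⟩ := hc
  exact ⟨h1, by rw [Star_903.run_append]; exact h2, h3⟩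

section
variable {n : ℕ} {Z : List α → Option (ℕ × (V → V))} {RF : List α → Prop} {B : ℕ}

/-- the state after reading more text without a new anchor. -/
theorem run_same (hZ : ZRule n Z) (hR : RFc Z RF B) {P : {l : List α // l.length ≤ B}} {v : V}
    {x : List α} (hC : RF (P.1 ++ x)) (hN : Z (P.1 ++ x) = none) :
    ∃ h : (P.1 ++ x).length ≤ B,
      Star_903.run (dlt Z B) (some (P, v)) x = some (⟨P.1 ++ x, h⟩, v) := by
  have hP : Z P.1 = none := hZ.none_prefix hN
  have h1 := run_emb hZ hR x [] P.1 v hP (by simpa using hC)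
  have h2 := runs_none hZ x P.1 v hN
  have e0 : (some (P, v) : St α V B) = emb B (P.1, v) := (emb_of P.1 v P.2).symm
  rw [h2] at h1
  have hB : (P.1 ++ x).length ≤ B := h1.2.2.2
  exact ⟨hB, by rw [e0, h1.1, emb_of _ _ hB]⟩

/-- a junction inside the text gives a cut of the automaton. -/
theorem cutAt_of (hZ : ZRule n Z) (hR : RFc Z RF B) (L : List α → V → Prop)
    (R : List α → Option (ℕ × V)) (D : ℕ) (hL : ∀ P v, L P v → Z P = none)
    {P : {l : List α // l.length ≤ B}} {v : V} {x r s : List α}
    (hC : RF (P.1 ++ (x ++ (r ++ s)))) (hx : L (P.1 ++ x) v) (hr : r.length = D)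
    (hRr : (R r).isSome) :
    CutAt (dlt Z B) (cutR L B) D (rho Z R B) (some (P, v)) x r := by
  have hC' : RF (P.1 ++ x) := by
    refine hR.pre (P.1 ++ x) (r ++ s) ?_
    rw [List.append_assoc]; exact hC
  obtain ⟨h, he⟩ := run_same hZ hR (v := v) hC' (hL _ _ hx)
  refine ⟨hr, ?_, ?_⟩
  · rw [he]; exact hx
  · unfold rho
    obtain ⟨q, hq⟩ := Option.isSome_iff_exists.1 hRr
    rw [hq]; rfl

theorem split_of_len {P Q x y : List α} (h : P ++ x = Q ++ y) (hl : P.length ≤ Q.length) :
    ∃ z, Q = P ++ z ∧ x = z ++ y := by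
  rcases List.append_eq_append_iff.1 h with ⟨a, h1, h2⟩ | ⟨a, h1, h2⟩
  · exact ⟨a, h1, h2⟩
  · have : a = [] := by
      have h3 := congrArg List.length h1
      rw [List.length_append] at h3
      exact List.eq_nil_of_length_eq_zero (by omega)
    subst this
    exact ⟨[], by simpa using h1.symm, by simpa using h2.symm⟩

/-- **TWO LEVELS.** -/
theorem two_level [Finite α] [Finite V] (hZ : ZRule n Z) (hR : RFc Z RF B)
    (L1 L2 : List α → V → Prop) (R1 R2 : List α → Option (ℕ × V)) (D1 D2 p0 M : ℕ)
    (hD1 : 0 < D1) (hD2 : M ≤ D2) (hM0 : 0 < M)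
    (hR1 : ∀ r e c, R1 r = some (e, c) → e ≤ r.length)
    (hR2 : ∀ r e c, R2 r = some (e, c) → e ≤ r.length)
    (hn1 : ∀ P v, L1 P v → Z P = none)
    (hn2 : ∀ P v, L2 P v → Z P = none ∧ n ≤ P.length ∧ P.length < p0)
    (hnp : n ≤ p0)
    (Good : List α → Prop)
    (ex1 : ∀ P v r e c, RF (P ++ r) → L1 P v → r.length = D1 → R1 r = some (e, c) →
      ∃ t, Z (P ++ r) = some (P.length + e, t) ∧ t v = c)
    (co1 : ∀ Q v, RF Q → M ≤ Q.length → Good Q →
      ∃ P r s, Q = P ++ (r ++ s) ∧ p0 ≤ P.length ∧ r.length = D1 ∧ L1 P v ∧ (R1 r).isSome)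
    (ex2 : ∀ P v r e c, RF (P ++ r) → ¬ Good (P ++ r) → L2 P v → r.length = D2 →
      R2 r = some (e, c) → ∃ t, Z (P ++ r) = some (P.length + e, t) ∧ t v = c)
    (M' : ℕ)
    (co2 : ∀ Q v, RF Q → M' ≤ Q.length → ¬ Good Q →
      ∃ P r s, Q = P ++ (r ++ s) ∧ r.length = D2 ∧ L2 P v ∧ (R2 r).isSome) :
    RC 2 (dlt Z B) (Cls Z RF B : St α V B → List α → Prop) := by
  -- the inner class
  set C2 : St α V B → List α → Prop := fun θ w => Cls Z RF B θ w ∧
    Uncut (dlt Z B) (cutR L1 B) D1 (rho Z R1 B) θ w with hC2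
  have sound : ∀ (L : List α → V → Prop) (R : List α → Option (ℕ × V)) (D : ℕ)
      (C : St α V B → List α → Prop)
      (_hC : ∀ θ w, C θ w → Cls Z RF B θ w)
      (_hRR : ∀ r e c, R r = some (e, c) → e ≤ r.length)
      (_ex : ∀ (P : {l : List α // l.length ≤ B}) (v : V) (r : List α) (e : ℕ) (c : V),
        C (some (P, v)) r → L P.1 v → r.length = D → R r = some (e, c) →
        ∃ t, Z (P.1 ++ r) = some (P.1.length + e, t) ∧ t v = c),
      ∀ θ r θ', C θ r → cutR L B θ → r.length = D → rho Z R B r = some θ' →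
        Star_903.run (dlt Z B) θ r = θ' := by
    intro L R D C hC hRR ex θ r θ' hc hL hlen hρ
    match θ, hc, hL with
    | some (P, v), hc, hL =>
      unfold rho at hρ
      cases hq : R r with
      | none => rw [hq] at hρ; cases hρ
      | some q =>
        obtain ⟨e, c⟩ := q
        rw [hq] at hρ
        have hρ' : Star_903.run (dlt Z B) (st0 B c) (r.drop e) = θ' := Option.some.inj hρ
        rw [← hρ']
        exact sound_at hZ hR (hC _ _ hc) (hRR r e c hq) (ex P v r e c hc hL hlen hq)
    | none, hc, hL => exact hL.elim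
  have hD2' : 0 < D2 := lt_of_lt_of_le hM0 hD2
  refine nested (dlt Z B) (Cls Z RF B) (fun θ u v h => cls_pre hR θ u v h)
    (fun θ u v h => cls_suf hZ hR θ u v h) (cutR L1 B) D1 hD1 (rho Z R1 B) ?_ ?_
  · exact sound L1 R1 D1 (Cls Z RF B) (fun _ _ h => h) hR1
      (fun P v r e c hc hL hr hq => ex1 P.1 v r e c hc.2 hL hr hq)
  · change RC 1 (dlt Z B) C2
    refine nested (n := 0) (dlt Z B) C2 ?_ ?_ (cutR L2 B) D2 hD2' (rho Z R2 B) ?_ ?_
    · rintro θ u v ⟨h1, h2⟩
      exact ⟨cls_pre hR θ u v h1, h2.prefix⟩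
    · rintro θ u v ⟨h1, h2⟩
      exact ⟨cls_suf hZ hR θ u v h1, uncut_suffix h2⟩
    · refine sound L2 R2 D2 C2 (fun _ _ h => h.1) hR2 ?_
      rintro P v r e c ⟨hc, hu⟩ hL hr hq
      refine ex2 P.1 v r e c hc.2 ?_ hL hr hq
      intro hg
      obtain ⟨P', r', s', hE, hp, hr', hL', hR'⟩ := co1 (P.1 ++ r) v hc.2
        (by rw [List.length_append]; omega) hg
      obtain ⟨x, rfl, hx⟩ := split_of_len hE (by have := (hn2 _ _ hL).2.2; omega)
      refine hu x r' s' (by rw [hx, List.append_assoc]) ?_
      refine cutAt_of hZ hR L1 R1 D1 hn1 (s := s') ?_ hL' hr' hR'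
      rw [← hx]; exact hc.2
    · refine RC.bounded 0 (B + 1 + n + M + M') ?_
      rintro θ w ⟨⟨hc, hu1⟩, hu2⟩
      match θ, hc, hu1, hu2 with
      | some (P, v), hc, hu1, hu2 =>
        obtain ⟨hZP, hRF⟩ := hc
        by_contra hcon
        have hwl : B + 1 + n + M + M' < w.length := not_le.1 hcon
        -- detection of the next anchor
        obtain ⟨wa, wb, hw, hwa⟩ : ∃ wa wb, w = wa ++ wb ∧ (P.1 ++ wa).length = B + 1 := by
          have hPB := P.2
          refine ⟨w.take (B + 1 - P.1.length), w.drop (B + 1 - P.1.length),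
            (List.take_append_drop _ _).symm, ?_⟩
          rw [List.length_append, List.length_take]; omega
        have hRFa : RF (P.1 ++ wa) := by
          refine hR.pre (P.1 ++ wa) wb ?_
          rw [List.append_assoc, ← hw]; exact hRF
        have hZa : Z (P.1 ++ wa) ≠ none := hR.bdd _ hRFa (by omega)
        obtain ⟨⟨d, t⟩, hdt⟩ := Option.ne_none_iff_exists'.1 hZa
        obtain ⟨hd0, hdn⟩ := hZ.len _ _ _ hdt
        have hsh := hZ.sharp _ _ _ hdt
        have hPd : P.1.length < d + n := by
          by_contra hge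
          have hge' : d + n ≤ P.1.length := not_lt.1 hge
          rw [List.take_append_of_le_length hge'] at hsh
          have hm := hZ.mono _ (P.1.drop (d + n)) _ hsh
          rw [List.take_append_drop, hZP] at hm
          cases hm
        obtain ⟨w2, w3, hw', hw2⟩ : ∃ w2 w3, w = w2 ++ w3 ∧ (P.1 ++ w2).length = d + n := by
          refine ⟨w.take (d + n - P.1.length), w.drop (d + n - P.1.length),
            (List.take_append_drop _ _).symm, ?_⟩
          rw [List.length_append, List.length_take]; omega
        have hpre : P.1 ++ w2 = (P.1 ++ wa).take (d + n) := by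
          have h1 : (P.1 ++ w).take (d + n) = P.1 ++ w2 := by
            rw [hw', ← List.append_assoc, ← hw2, List.take_left]
          have h2 : (P.1 ++ w).take (d + n) = (P.1 ++ wa).take (d + n) := by
            rw [hw, ← List.append_assoc, List.take_append_of_le_length hdn]
          rw [← h1, h2]
        have hZ2 : Z (P.1 ++ w2) = some (d, t) := by rw [hpre]; exact hsh
        have hlk : ((P.1 ++ w2).drop d).length = n := by
          rw [List.length_drop, hw2]; omega
        have hkn : Z ((P.1 ++ w2).drop d) = none := hZ.none_short (by omega)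
        have hrun := run_eq hZ (v := v) hZP hZ2
        have hrun2 : runs Z ([], t v) ((P.1 ++ w2).drop d) = ((P.1 ++ w2).drop d, t v) := by
          have := runs_none hZ ((P.1 ++ w2).drop d) [] (t v) (by simpa using hkn)
          simpa using this
        rw [hrun2] at hrun
        -- the finite run
        have hemb := run_emb hZ hR w2 w3 P.1 v hZP (by rw [← hw']; exact hRF)
        rw [hrun] at hemb
        obtain ⟨he1, -, he3, he4⟩ := hemb
        have e0 : (some (P, v) : St α V B) = emb B (P.1, v) := (emb_of P.1 v P.2).symm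
        have hst : Star_903.run (dlt Z B) (some (P, v)) w2
            = some (⟨(P.1 ++ w2).drop d, he4⟩, t v) := by
          rw [e0, he1, emb_of _ _ he4]
        have hw3 : M + M' ≤ w3.length := by
          have h1 : w.length = w2.length + w3.length := by rw [hw', List.length_append]
          have h2 : P.1.length + w2.length = d + n := by rw [← hw2, List.length_append]
          have h3 : (P.1 ++ wa).length = B + 1 := hwa
          omega
        set K : List α := (P.1 ++ w2).drop d with hK
        have hu1' : Uncut (dlt Z B) (cutR L1 B) D1 (rho Z R1 B)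
            (some (⟨K, he4⟩, t v) : St α V B) w3 := by
          have := uncut_suffix (u := w2) (v := w3) (by rw [← hw']; exact hu1)
          rwa [hst] at this
        have hu2' : Uncut (dlt Z B) (cutR L2 B) D2 (rho Z R2 B)
            (some (⟨K, he4⟩, t v) : St α V B) w3 := by
          have := uncut_suffix (u := w2) (v := w3) (by rw [← hw']; exact hu2)
          rwa [hst] at this
        by_cases hg : Good (K ++ w3)
        · obtain ⟨P', r', s', hE, hp, hr', hL', hR'⟩ := co1 (K ++ w3) (t v) he3
            (by rw [List.length_append]; omega) hg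
          obtain ⟨x, rfl, hx⟩ := split_of_len hE (by omega)
          refine hu1' x r' s' (by rw [hx, List.append_assoc]) ?_
          refine cutAt_of hZ hR L1 R1 D1 hn1 (P := ⟨K, he4⟩) (s := s') ?_ hL' hr' hR'
          rw [← hx]; exact he3
        · obtain ⟨P', r', s', hE, hr', hL', hR'⟩ := co2 (K ++ w3) (t v) he3
            (by rw [List.length_append]; omega) hg
          obtain ⟨x, rfl, hx⟩ := split_of_len hE (by have := (hn2 _ _ hL').2.1; omega)
          refine hu2' x r' s' (by rw [hx, List.append_assoc]) ?_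
          refine cutAt_of hZ hR L2 R2 D2 (fun P v h => (hn2 P v h).1) (P := ⟨K, he4⟩)
            (s := s') ?_ hL' hr' hR'
          rw [← hx]; exact he3
      | none, hc, _, _ => exact hc.elim

end

end Crest.Agent.R320.Two_733
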