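import Crest.Agent.R320.CutAut_600

/-!
Row 320 (helper743): abstract two level theorem over the cut automaton of 600.
Level 1 cuts are exact on every text, level 2 cuts are exact on bad zones only, every long text
from a node has a cut of level 2 (bad zone) or of level 1 (good zone).
-/

set_option autoImplicit false

namespace Crest.Agent.R320.Two_743

open Crest.Agent.R320.Star_903 Crest.Agent.R320.Hgt1_903 Crest.Agent.R320.CutAut_600

variable {α V : Type*}

/-- left-legal states (relation form). -/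
def cutR (L : List α → V → Prop) (B : ℕ) : St α V B → Prop
  | none => False
  | some (P, v) => L P.1 v

section
variable {n : ℕ} {Z : List α → Option (ℕ × (V → V))} {RF : List α → Prop} {B : ℕ}

theorem rc_succ' [Finite α] [Finite V] {m : ℕ} (hZ : ZRule n Z) (hR : RFc Z RF B)
    (C' : St α V B → List α → Prop)
    (hC : ∀ θ w, C' θ w → Cls Z RF B θ w)
    (hpre : ∀ θ u v, C' θ (u ++ v) → C' θ u)
    (hsuf : ∀ θ u v, C' θ (u ++ v) → C' (run (dlt Z B) θ u) v)
    (L : List α → V → Prop) (R : List α → Option (ℕ × V)) (D : ℕ) (hD : 0 < D)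
    (hRD : ∀ r e c, R r = some (e, c) → e ≤ r.length)
    (exact' : ∀ (P : {l : List α // l.length ≤ B}) (v : V) (r : List α) (e : ℕ) (c : V),
      C' (some (P, v)) r → L P.1 v → r.length = D → R r = some (e, c) →
      ∃ t, Z (P.1 ++ r) = some (P.1.length + e, t) ∧ t v = c)
    (hunc : RC m (dlt Z B) (fun θ w => C' θ w ∧ Uncut (dlt Z B) (cutR L B) D (rho Z R B) θ w)) :
    RC (m + 1) (dlt Z B) C' := by
  refine nested (dlt Z B) C' hpre hsuf (cutR L B) D hD (rho Z R B) ?_ hunc
  intro θ r θ' hc hL hlen hρ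
  match θ, hc, hL with
  | some (P, v), hc, hL =>
    unfold rho at hρ
    cases hq : R r with
    | none => rw [hq] at hρ; cases hρ
    | some q =>
      obtain ⟨e, c⟩ := q
      rw [hq] at hρ
      have hρ' : run (dlt Z B) (st0 B c) (r.drop e) = θ' := Option.some.inj hρ
      rw [← hρ']
      exact sound_at hZ hR (hC _ _ hc) (hRD r e c hq) (exact' P v r e c hc hL hlen hq)
  | none, hc, hL => exact hL.elim

theorem uncut_suf {Θ : Type*} {δ : Θ → α → Θ} {CutL : Θ → Prop} {D : ℕ} {ρ : List α → Option Θ}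
    {θ : Θ} {u v : List α} (h : Uncut δ CutL D ρ θ (u ++ v)) :
    Uncut δ CutL D ρ (run δ θ u) v := by
  intro p r s e hc
  refine h (u ++ p) r s (by rw [← e]; simp [List.append_assoc]) ⟨hc.1, ?_, hc.2.2⟩
  rw [run_append]; exact hc.2.1

/-- the data of a two level scheme. -/
structure Two (n B : ℕ) (Z : List α → Option (ℕ × (V → V))) (RF : List α → Prop)
    (L1 L2 : List α → V → Prop) (R1 R2 : List α → Option (ℕ × V)) (D1 D2 D3 : ℕ)
    (Bad : List α → Prop) : Prop where
  hZ : ZRule n Z
  hR : RFc Z RF B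
  D1pos : 0 < D1
  D2pos : 0 < D2
  R1len : ∀ r e c, R1 r = some (e, c) → e ≤ r.length
  R2len : ∀ r e c, R2 r = some (e, c) → e ≤ r.length
  ex1 : ∀ P v r e c, Z P = none → RF (P ++ r) → L1 P v → r.length = D1 → R1 r = some (e, c) →
    ∃ t, Z (P ++ r) = some (P.length + e, t) ∧ t v = c
  ex2 : ∀ P v r e c, Z P = none → RF (P ++ r) → L2 P v → r.length = D2 → R2 r = some (e, c) →
    Bad (P ++ r) → ∃ t, Z (P ++ r) = some (P.length + e, t) ∧ t v = c
  co1 : ∀ P v r, Z P = none → RF (P ++ r) → L2 P v → r.length = D2 → ¬ Bad (P ++ r) →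
    ∃ r1 r2 r3, r = r1 ++ (r2 ++ r3) ∧ r2.length = D1 ∧ Z (P ++ r1) = none ∧ L1 (P ++ r1) v ∧
      (R1 r2).isSome
  co2 : ∀ s v, RF s → D3 ≤ s.length → ∃ r1 r2 r3, s = r1 ++ (r2 ++ r3) ∧ n ≤ r1.length ∧
    Z r1 = none ∧ ((r2.length = D2 ∧ L2 r1 v ∧ (R2 r2).isSome) ∨
      (r2.length = D1 ∧ L1 r1 v ∧ (R1 r2).isSome))

/-- reading inside a zone. -/
theorem run_in (hZ : ZRule n Z) (hR : RFc Z RF B) {P r u : List α} {v : V}
    (h : Z (P ++ r) = none) (hF : RF (P ++ (r ++ u))) :
    run (dlt Z B) (emb B (P, v)) r = emb B (P ++ r, v) ∧ (P ++ r).length ≤ B := by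
  have h1 := run_emb hZ hR r u P v (hZ.none_prefix h) hF
  rw [runs_none hZ r P v h] at h1
  exact ⟨h1.1, h1.2.2.2⟩

theorem rho_isSome {R : List α → Option (ℕ × V)} {r : List α} (h : (R r).isSome) :
    (rho Z R B r).isSome := by
  unfold rho
  simpa using h

theorem two [Finite α] [Finite V] {L1 L2 : List α → V → Prop} {R1 R2 : List α → Option (ℕ × V)}
    {D1 D2 D3 : ℕ} {Bad : List α → Prop} (H : Two n B Z RF L1 L2 R1 R2 D1 D2 D3 Bad) :
    RC 2 (dlt Z B) (Cls Z RF B) := by
  have hZ := H.hZ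
  have hR := H.hR
  refine rc_succ' (m := 1) hZ hR (Cls Z RF B) (fun _ _ h => h) (cls_pre hR) (cls_suf hZ hR)
    L1 R1 D1 H.D1pos H.R1len ?_ ?_
  · intro P v r e c hc hL hlen hr
    exact H.ex1 P.1 v r e c hc.1 hc.2 hL hlen hr
  refine rc_succ' (m := 0) hZ hR _ (fun _ _ h => h.1) ?_ ?_ L2 R2 D2 H.D2pos H.R2len ?_ ?_
  · intro θ u v h
    exact ⟨cls_pre hR θ u v h.1, h.2.prefix⟩
  · intro θ u v h
    exact ⟨cls_suf hZ hR θ u v h.1, uncut_suf h.2⟩
  · intro P v r e c hc hL hlen hr
    obtain ⟨hc, hu⟩ := hc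
    by_cases hb : Bad (P.1 ++ r)
    · exact H.ex2 P.1 v r e c hc.1 hc.2 hL hlen hr hb
    · exfalso
      obtain ⟨r1, r2, r3, rfl, h2, h3, h4, h5⟩ := H.co1 P.1 v r hc.1 hc.2 hL hlen hb
      refine hu r1 r2 r3 (by simp) ⟨h2, ?_, rho_isSome h5⟩
      have e0 : (some (P, v) : St α V B) = emb B (P.1, v) := (emb_of P.1 v P.2).symm
      obtain ⟨h6, h7⟩ := run_in hZ hR (v := v) h3 hc.2
      rw [e0, h6, emb_of _ _ h7]
      exact h4
  · refine RC.bounded 0 (B + D3 + 1) fun θ w hw => ?_
    obtain ⟨⟨hc, hu1⟩, hu2⟩ := hw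
    by_contra hcon
    rw [not_le] at hcon
    match θ, hc, hu1, hu2 with
    | some (P, v), hc, hu1, hu2 =>
      obtain ⟨hP, hF⟩ := hc
      have hP : Z P.1 = none := hP
      have hF : RF (P.1 ++ w) := hF
      have hPB := P.2
      -- the first node
      have hF1 : RF ((P.1 ++ w).take (B + 1)) := by
        refine hR.pre _ ((P.1 ++ w).drop (B + 1)) ?_
        rw [List.take_append_drop]; exact hF
      have hlen1 : ((P.1 ++ w).take (B + 1)).length = B + 1 := by
        rw [List.length_take, List.length_append]; omega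
      have hne := hR.bdd _ hF1 (by omega)
      obtain ⟨⟨d, t⟩, hdt⟩ := Option.ne_none_iff_exists'.1 hne
      have hl := hZ.len _ _ _ hdt
      rw [hlen1] at hl
      have hsharp := hZ.sharp _ _ _ hdt
      rw [List.take_take, min_eq_left (by omega)] at hsharp
      have hPlt : P.1.length < d + n := by
        by_contra hge
        rw [not_lt] at hge
        rw [List.take_append_of_le_length hge] at hsharp
        have h2 := hZ.mono _ (P.1.drop (d + n)) _ hsharp
        rw [List.take_append_drop, hP] at h2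
        cases h2
      -- split w
      obtain ⟨w0, w1, rfl, hw0⟩ : ∃ w0 w1, w = w0 ++ w1 ∧ w0.length = d + n - P.1.length :=
        ⟨w.take (d + n - P.1.length), w.drop (d + n - P.1.length),
          (List.take_append_drop _ _).symm, by rw [List.length_take]; omega⟩
      have hPw0 : (P.1 ++ w0).length = d + n := by rw [List.length_append]; omega
      have hcert : Z (P.1 ++ w0) = some (d, t) := by
        have : (P.1 ++ (w0 ++ w1)).take (d + n) = P.1 ++ w0 := by
          rw [← List.append_assoc, ← hPw0, List.take_left]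
        rw [this] at hsharp; exact hsharp
      set A := (P.1 ++ w0).drop d with hA
      have hAlen : A.length = n := by rw [hA, List.length_drop, hPw0]; omega
      have hrun0 : runs Z (P.1, v) w0 = (A, t v) := by
        rw [run_eq hZ hP hcert, ← hA, runs_none hZ A [] (t v) (by
          rw [List.nil_append]; exact hZ.none_short (by omega)), List.nil_append]
      obtain ⟨h1, h2, h3, h4⟩ := run_emb hZ hR w0 w1 P.1 v hP hF
      rw [hrun0] at h1 h2 h3 h4
      have hlenw : w1.length + d + n = P.1.length + (w0 ++ w1).length := by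
        rw [List.length_append]; omega
      obtain ⟨r1, r2, r3, hs, hn1, hZ1, hcut⟩ := H.co2 (A ++ w1) (t v) h3 (by
        rw [List.length_append]; omega)
      obtain ⟨r1', hr1, hw1⟩ : ∃ r1', r1 = A ++ r1' ∧ w1 = r1' ++ (r2 ++ r3) := by
        rcases List.append_eq_append_iff.1 hs with ⟨x, hx1, hx2⟩ | ⟨x, hx1, hx2⟩
        · exact ⟨x, hx1, hx2⟩
        · have : x = [] := by
            have := congrArg List.length hx1
            rw [List.length_append] at this
            exact List.eq_nil_of_length_eq_zero (by omega)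
          subst this
          exact ⟨[], by simpa using hx1.symm, by simpa using hx2.symm⟩
      subst hr1
      subst hw1
      have e0 : (some (P, v) : St α V B) = emb B (P.1, v) := (emb_of P.1 v P.2).symm
      obtain ⟨h6, h7⟩ := run_in hZ hR (v := t v) hZ1 h3
      have hrun : run (dlt Z B) (some (P, v)) (w0 ++ r1') = some (⟨A ++ r1', h7⟩, t v) := by
        rw [run_append, e0, h1, h6, emb_of _ _ h7]
      rcases hcut with ⟨g1, g2, g3⟩ | ⟨g1, g2, g3⟩
      · refine hu2 (w0 ++ r1') r2 r3 (by simp [List.append_assoc]) ⟨g1, ?_, rho_isSome g3⟩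
        rw [hrun]; exact g2
      · refine hu1 (w0 ++ r1') r2 r3 (by simp [List.append_assoc]) ⟨g1, ?_, rho_isSome g3⟩
        rw [hrun]; exact g2

end

end Crest.Agent.R320.Two_743
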