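import Crest.Agent.R320.Mach_973

/-! Row 320: two wall schemes on the promise RF, height two, abstract form. -/

set_option autoImplicit false

namespace Crest.Agent.R320.Two_973

open Crest.RegLang Crest.Agent.R320.Hgt1_903 Crest.Agent.R320.Nest_85 Crest.Agent.R320.Mach_973

variable {α : Type*}

/-- promise of scheme 2 -/
def Prm2 (K : Mach_973.Rule α) (RFp : List α → Prop) (p0 Lv : ℕ) (Good : List α → Prop)
    (r w : List α) : Prop :=
  RFp (r ++ w) ∧ ∀ p s, p ++ s = w → (res K (r ++ p)).length = p0 → Lv ≤ s.length → ¬ Good s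

theorem suf_app {u v : List α} (h : u <:+ v) (w : List α) : u ++ w <:+: v ++ w := by
  obtain ⟨x, rfl⟩ := h
  exact ⟨x, [], by simp⟩

theorem res_nocut (K : Mach_973.Rule α) {r : List α} (h : NoCut K r) : res K r = r := by
  rw [res, fin_nocut K _ h]

theorem res_append (K : Mach_973.Rule α) (r w : List α) : res K (r ++ w) = res K (res K r ++ w) := by
  rw [res, fin_append, fin_snd, fin_snd]

theorem res_noCut (K : Mach_973.Rule α) (w : List α) : NoCut K (res K w) := fin_noCut K _ _ _

theorem res_suffix (K : Mach_973.Rule α) (w : List α) : res K w <:+ w := fin_suffix K _ _ _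

theorem Prm2.move {K : Mach_973.Rule α} {RFp : List α → Prop}
    (hRF : ∀ u v, u <:+: v → RFp v → RFp u) {p0 Lv : ℕ}
    {Good : List α → Prop} {r p u : List α} (h : Prm2 K RFp p0 Lv Good r (p ++ u)) :
    Prm2 K RFp p0 Lv Good (res K (r ++ p)) u := by
  refine ⟨hRF _ _ ?_ h.1, ?_⟩
  · rw [← List.append_assoc]
    exact suf_app (res_suffix K (r ++ p)) _
  · intro p' s e hl hs
    apply h.2 (p ++ p') s (by rw [← e]; simp) _ hs
    rw [← List.append_assoc, res_append]
    exact hl

theorem two_level [Finite α] (K : Mach_973.Rule α) {S V1 G V2 : Type*} [Monoid S] [Finite S]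
    [Ring V1] [Finite V1] [Monoid G] [Finite G] [Ring V2] [Finite V2]
    (phi : List α → S) (hphi : ∀ u v, phi (u ++ v) = phi u * phi v)
    (o1 : S →* V1) (ho1 : Function.Injective o1) (nu1 : List α → V1)
    (act : V1 → G → V1) (act_one : ∀ v, act v 1 = v)
    (act_mul : ∀ v x y, act v (x * y) = act (act v x) y)
    (gam : List α → G) (hgam : ∀ v Z, AA o1 phi nu1 v Z = act v (gam Z))
    (o2 : G →* V2) (ho2 : Function.Injective o2) (nu2 : List α → V2)
    (RFp : List α → Prop) (hRF : ∀ u v, u <:+: v → RFp v → RFp u)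
    (p0 Lv : ℕ) (Good : List α → Prop)
    (hGood : ∀ s u, Lv ≤ s.length → (Good (s ++ u) ↔ Good s))
    (L1 : Level α (V1 × List α)) (L2 : Level α (V2 × List α))
    (fin1 : L1.R.Finite) (ne1 : ∀ s ∈ L1.R, s ≠ [])
    (fin2 : L2.R.Finite) (ne2 : ∀ s ∈ L2.R, s ≠ [])
    (st1 : ∀ s ∈ L1.R, NoCut K (L1.c s).2) (st2 : ∀ s ∈ L2.R, NoCut K (L2.c s).2)
    (exact1 : ∀ v r s, NoCut K r → s ∈ L1.R → L1.Lg (v, r) →
      fin K (AA o1 phi nu1) v (r ++ s) = L1.c s)
    (complete1 : ∀ v r s, NoCut K r → r.length = p0 → Lv ≤ s.length → RFp (r ++ s) → Good s →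
      Cut (step K (AA o1 phi nu1)) L1 (v, r) s)
    (exact2 : ∀ v r s u, NoCut K r → s ∈ L2.R → L2.Lg (v, r) →
      Prm2 K RFp p0 Lv Good r (s ++ u) → fin K (AA o2 gam nu2) v (r ++ s) = L2.c s)
    (bound : ∀ r, NoCut K r → ∃ N, ∀ v w, Prm2 K RFp p0 Lv Good r w →
      ¬ Cut (step K (AA o2 gam nu2)) L2 (v, r) w → w.length ≤ N) (s0 : S) :
    ∃ E : Language α, H 2 E ∧ ∀ w, RFp w → (w ∈ E ↔ phi w = s0) := by
  classical
  -- inner machine
  have inner : ∀ r, NoCut K r → ∀ v : V2, ∀ T : V2 × List α → Prop, ∃ E : Language α, H 1 E ∧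
      ∀ w, Prm2 K RFp p0 Lv Good r w →
        (w ∈ E ↔ T (run (step K (AA o2 gam nu2)) (v, r) w)) := by
    intro r hr v T
    obtain ⟨E, hE, hE2⟩ := nest (step K (AA o2 gam nu2)) (fun q => NoCut K q.2)
      (fun q w => Prm2 K RFp p0 Lv Good q.2 w)
      (by
        intro q u v h
        refine ⟨hRF _ _ ?_ h.1, fun p s e hl hs hg => ?_⟩
        · rw [← List.append_assoc]; exact (List.prefix_append _ _).isInfix
        · apply h.2 p (s ++ v) (by rw [← e]; simp) hl (by simp; omega)
          exact (hGood s v hs).2 hg)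
      L2
      { fin := fin2
        ne := ne2
        st := st2
        closed := by
          rintro ⟨v, r⟩ hq p s u hw hs hl
          rw [run_eq K _ p v r hq] at hl ⊢
          have h1 : NoCut K (fin K (AA o2 gam nu2) v (r ++ p)).2 := fin_noCut K _ _ _
          have h2 : (fin K (AA o2 gam nu2) v (r ++ p)).2 = res K (r ++ p) := fin_snd K _ _ _
          have h3 : Prm2 K RFp p0 Lv Good (res K (r ++ p)) (s ++ u) := by
            apply Prm2.move hRF
            rw [← List.append_assoc]; exact hw
          have h4 := exact2 (fin K (AA o2 gam nu2) v (r ++ p)).1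
            (fin K (AA o2 gam nu2) v (r ++ p)).2 s u h1 hs hl (by rw [h2]; exact h3)
          have h5 := run_eq K (AA o2 gam nu2) s (fin K (AA o2 gam nu2) v (r ++ p)).1
            (fin K (AA o2 gam nu2) v (r ++ p)).2 h1
          refine ⟨by rw [← h4, ← h5], ?_⟩
          have h6 : (L2.c s).2 = res K (res K (r ++ p) ++ s) := by
            rw [← h4, fin_snd, h2]
          change Prm2 K RFp p0 Lv Good (L2.c s).2 u
          rw [h6]
          exact Prm2.move hRF h3 }
      0 (fun _ => True) trivial
      (by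
        rintro ⟨v, r⟩ hq T _
        obtain ⟨N, hN⟩ := bound r hq
        refine ⟨({w | (Prm2 K RFp p0 Lv Good r w ∧
          ¬ Cut (step K (AA o2 gam nu2)) L2 (v, r) w) ∧
          T (run (step K (AA o2 gam nu2)) (v, r) w)} : Language α),
          H.finite 0 ((List.finite_length_le α N).subset fun w hw => hN v w hw.1.1 hw.1.2),
          fun w hw hc => ⟨fun h => h.2, fun h => ⟨⟨hw, hc⟩, h⟩⟩⟩)
      (v, r) hr T trivial
    exact ⟨E, hE, hE2⟩
  -- outer machine
  have outer : ∀ r, NoCut K r → ∀ v : V1, ∀ T : V1 × List α → Prop, ∃ E : Language α, H 2 E ∧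
      ∀ w, RFp (r ++ w) → (w ∈ E ↔ T (run (step K (AA o1 phi nu1)) (v, r) w)) := by
    intro r hr v T
    obtain ⟨E, hE, hE2⟩ := nest (step K (AA o1 phi nu1)) (fun q => NoCut K q.2)
      (fun q w => RFp (q.2 ++ w))
      (by
        intro q u v h
        refine hRF _ _ ?_ h
        rw [← List.append_assoc]; exact (List.prefix_append _ _).isInfix)
      L1
      { fin := fin1
        ne := ne1
        st := st1
        closed := by
          rintro ⟨v, r⟩ hq p s u hw hs hl
          rw [run_eq K _ p v r hq] at hl ⊢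
          have h1 : NoCut K (fin K (AA o1 phi nu1) v (r ++ p)).2 := fin_noCut K _ _ _
          have h2 : (fin K (AA o1 phi nu1) v (r ++ p)).2 = res K (r ++ p) := fin_snd K _ _ _
          have h4 := exact1 (fin K (AA o1 phi nu1) v (r ++ p)).1
            (fin K (AA o1 phi nu1) v (r ++ p)).2 s h1 hs hl
          have h5 := run_eq K (AA o1 phi nu1) s (fin K (AA o1 phi nu1) v (r ++ p)).1
            (fin K (AA o1 phi nu1) v (r ++ p)).2 h1
          refine ⟨by rw [← h4, ← h5], ?_⟩
          have h6 : (L1.c s).2 = res K (r ++ (p ++ s)) := by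
            rw [← h4, fin_snd, h2, ← res_append]; simp
          change RFp ((L1.c s).2 ++ u)
          rw [h6]
          refine hRF _ _ ?_ hw
          have : r ++ (p ++ s ++ u) = (r ++ (p ++ s)) ++ u := by simp
          rw [this]
          exact suf_app (res_suffix K (r ++ (p ++ s))) _ }
      1 (fun _ => True) trivial
      (by
        rintro ⟨v, r⟩ hq T _
        obtain ⟨E, hE, hE2⟩ := readoff K o2 gam nu2 ho2 1 (Prm2 K RFp p0 Lv Good) r hq
          (inner r hq) (fun x r' => T (act v x, r'))
        refine ⟨E, hE, fun w hw hc => ?_⟩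
        have hp : Prm2 K RFp p0 Lv Good r w := by
          refine ⟨hw, fun p s e hl hs hg => hc ?_⟩
          rw [← e]
          apply Cut.prepend
          rw [run_eq K _ p v r hq]
          have h2 : (fin K (AA o1 phi nu1) v (r ++ p)).2 = res K (r ++ p) := fin_snd K _ _ _
          apply complete1 _ _ _ (fin_noCut K _ _ _) (by rw [h2]; exact hl) hs _ hg
          rw [h2]
          refine hRF _ _ ?_ hw
          change res K (r ++ p) ++ s <:+: r ++ w
          rw [← e, ← List.append_assoc]
          exact suf_app (res_suffix K (r ++ p)) _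
        rw [hE2 w hp, run_eq K _ w v r hq]
        have h3 := fin_act K (AA o1 phi nu1) gam act act_one act_mul hgam (r ++ w) v
        have h4 : (fin K (AA o1 phi nu1) v (r ++ w)).2 = res K (r ++ w) := fin_snd K _ _ _
        have h5 : fin K (AA o1 phi nu1) v (r ++ w) = (act v (cp K gam (r ++ w)), res K (r ++ w)) :=
          Prod.ext h3 h4
        rw [h5])
      (v, r) hr T trivial
    exact ⟨E, hE, hE2⟩
  have hnil : NoCut K [] := by
    intro t ht
    have h1 := K.len _ _ ht
    have h2 := K.pos _ _ ht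
    simp at h1
    omega
  obtain ⟨E, hE, hE2⟩ := readoff K o1 phi nu1 ho1 2 (fun r w => RFp (r ++ w)) [] hnil
    (outer [] hnil) (fun x r' => x * phi r' = s0)
  refine ⟨E, hE, fun w hw => ?_⟩
  rw [hE2 w hw, List.nil_append, ← cp_res K phi hphi]

end Crest.Agent.R320.Two_973
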