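import Crest.Agent.R320.UG_219

/-!
# Row 320: the scheme-1 gadget in abstract form, flexible soundness

The left data have to be true only if the view of the right side at the level of the left side is
defined (that is: at the same level).
-/

set_option autoImplicit false

namespace Crest.Agent.R320.UG219

theorem ugadget2 (S V : Type*) [Monoid S] [Finite S] [AddCommGroup V] [Finite V]
    (act : V → S → V) :
    ∃ (m r : ℕ), 0 < m ∧ ∀ Bd : ℕ, ∃ (Ms : Finset ℕ) (L : ℕ → S → List S → ℕ → Option V)
      (R : (ℕ → Option (List S × S)) → ℕ → Option V) (D : ℕ → S → List S → S → V),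
      Ms.card ≤ r ∧ (∀ p ∈ Ms, p.Prime ∧ Bd < p) ∧
      (∀ i x zl t, L i x zl (t + ∏ p ∈ Ms, p) = L i x zl t) ∧
      (∀ vw t, R vw (t + ∏ p ∈ Ms, p) = R vw t) ∧
      (∀ vw vw' t, (∀ i < m, vw i = vw' i) → R vw t = R vw' t) ∧
      (∀ (i t t' : ℕ) (xl : S) (zl : List S) (x : S) (zs : List S) (y : S)
        (vw : ℕ → Option (List S × S)) (v b : V), i < m → zs.length = m →
        (∀ q, vw i = some q → xl = x ∧ zl = zs.take i ∧ q = (zs.drop (i + 1), y)) →
        L i xl zl t = some v → R vw t' = some b →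
        b = act v (x * zs.prod * y) + D (t + t') x zs y) ∧
      (∀ (T : ℕ) (x : S) (zs : List S) (y : S) (v : V), zs.length = m →
        (∀ p ∈ Ms, ¬ p ∣ T) → ∃ i < m, ∀ c0 : ℕ, c0 + ∏ p ∈ Ms, p ≤ T + 1 →
          ∃ t, c0 ≤ t ∧ t < c0 + ∏ p ∈ Ms, p ∧ t ≤ T ∧ L i x (zs.take i) t = some v ∧
            ∀ vw : ℕ → Option (List S × S), vw i = some (zs.drop (i + 1), y) →
              ∃ b, R vw (T - t) = some b) := by
  classical
  have := Fintype.ofFinite S
  have := Fintype.ofFinite V
  obtain ⟨m, N, e, F, hN, hF⟩ := RandF808.exists_noise S V act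
  have : NeZero N := ⟨hN.ne'⟩
  let WW := ZMod N × ZMod N
  have hm : 0 < m := by
    obtain ⟨i, hi, -⟩ := hF 1 0 0
    omega
  let col : Nm m S V WW → V × V := fun c => (c.v, lab act e F c)
  obtain ⟨r, hr⟩ := Names_570.exists_names col
  refine ⟨m, r, hm, fun Bd => ?_⟩
  obtain ⟨Ms, nmL, nmR, hcard, hp, hperL, hperR, h1, h2, h3⟩ := hr Bd
  -- the junctions of a bad clock total
  let J : ℕ → Prop := fun T => ∃ q : (ℕ × ℕ) × (Nm m S V WW × Nm m S V WW),
    q.1.1 + q.1.2 = T ∧ nmL q.1.1 = some q.2.1 ∧ nmR q.1.2 = some q.2.2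
  let D : ℕ → S → List S → S → V := fun T x zs y =>
    if (∃ p ∈ Ms, p ∣ T) then
      (if h : J T then lab act e F h.choose.2.2 - act h.choose.2.1.v (x * zs.prod * y) else 0)
    else F (x * zs.prod * y) (ws e 0 zs)
  refine ⟨Ms, Lb act e F nmL, Rb act e F nmR, D, hcard, hp, ?_, ?_, ?_, ?_, ?_⟩
  · intro i x zl t
    unfold Lb
    rw [hperL]
  · intro vw t
    unfold Rb
    rw [hperR]
  · intro vw vw' t hvw
    unfold Rb
    have : (∃ c, nmR t = some c ∧ Good act e F c ∧
        ∃ zr y, vw c.i = some (zr, y) ∧ c.h = zr.prod * y ∧ c.wr = ws e (c.i + 1) zr) ↔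
        (∃ c, nmR t = some c ∧ Good act e F c ∧
        ∃ zr y, vw' c.i = some (zr, y) ∧ c.h = zr.prod * y ∧ c.wr = ws e (c.i + 1) zr) := by
      constructor
      · rintro ⟨c, a1, a2, a3⟩
        exact ⟨c, a1, a2, by rwa [← hvw _ c.i.2]⟩
      · rintro ⟨c, a1, a2, a3⟩
        exact ⟨c, a1, a2, by rwa [hvw _ c.i.2]⟩
    exact if_congr this rfl rfl
  · -- soundness
    intro i t t' xl zl x zs y vw v b him hlen hvw hL hR
    obtain ⟨c, c1, c2, c3, c4, c5, c6⟩ := Lb_some hL
    obtain ⟨c', c1', c2', ⟨zr', y', c3', c4', c5'⟩, c6'⟩ := Rb_some hR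
    by_cases hT : ∃ p ∈ Ms, p ∣ t + t'
    · have hJ : J (t + t') := ⟨((t, t'), (c, c')), rfl, c1, c1'⟩
      have hD : D (t + t') x zs y = lab act e F hJ.choose.2.2
          - act hJ.choose.2.1.v (x * zs.prod * y) := by
        simp only [D]
        rw [if_pos hT, dif_pos hJ]
      have hsp := hJ.choose_spec
      obtain ⟨e1, e2, e3⟩ := hsp
      have key := h3 hJ.choose.1.1 hJ.choose.1.2 t t' hJ.choose.2.1 hJ.choose.2.2 c c' e1
        (by rw [e1]; exact hT) e2 e3 c1 c1'
      rw [hD, ← c6, ← c6']
      rcases key with ⟨k1, k2⟩ | ⟨k1, k2, k3⟩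
      · rw [k1, k2]; abel
      · have kv : c.v = c'.v := by
          have := congrArg Prod.fst k3
          simp only [col] at this
          rw [k1, k2] at this
          exact this.symm
        have kl : lab act e F c = lab act e F c' := by
          have := congrArg Prod.snd k3
          simp only [col] at this
          rw [k1, k2] at this
          exact this.symm
        rw [k1, k2, kv, kl]; abel
    · have hT' : ∀ p ∈ Ms, ¬ p ∣ t + t' := fun p hp hd => hT ⟨p, hp, hd⟩
      have hcc : c = c' := h1 t t' c c' hT' c1 c1'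
      subst hcc
      obtain ⟨hx, hzl, hq⟩ := hvw (zr', y') (by rw [← c3]; exact c3')
      obtain ⟨hzr, hy⟩ := Prod.mk.inj hq
      subst hx hzl hzr hy
      have hi' : i < zs.length := by omega
      have hsplit : zs = zs.take i ++ zs[i] :: zs.drop (i + 1) := by
        rw [← List.drop_eq_getElem_cons hi', List.take_append_drop]
      have hD : D (t + t') xl zs y' = F (xl * zs.prod * y') (ws e 0 zs) := by
        simp only [D]
        rw [if_neg hT]
      have hg := c2 zs[i]
      have hws : ws e 0 zs = c.wl + e c.i zs[i] + c.wr := by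
        conv_lhs => rw [hsplit]
        rw [ws_append, c5, c5', c3]
        have hl : (zs.take i).length = i := by rw [List.length_take]; omega
        rw [hl]
        simp only [ws, Nat.zero_add]
        rw [add_assoc]
      have hs : xl * zs.prod * y' = c.g * zs[i] * c.h := by
        conv_lhs => rw [hsplit]
        rw [c4, c4']
        simp only [List.prod_append, List.prod_cons, mul_assoc]
      rw [hD, hws, hs, ← c6', ← c6, ← hg]
      abel
  · -- completeness
    intro T x zs y v hlen hT
    obtain ⟨i, hi, hgood⟩ := hF (x * zs.prod * y) (ws e 0 zs) v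
    refine ⟨i, hi, fun c0 hc0 => ?_⟩
    have hi' : i < zs.length := by omega
    have hsplit : zs = zs.take i ++ zs[i] :: zs.drop (i + 1) := by
      rw [← List.drop_eq_getElem_cons hi', List.take_append_drop]
    let c : Nm m S V WW := ⟨⟨i, hi⟩, x * (zs.take i).prod, ws e 0 (zs.take i),
      (zs.drop (i + 1)).prod * y, ws e (i + 1) (zs.drop (i + 1)), v⟩
    have hs : x * zs.prod * y = c.g * zs[i] * c.h := by
      conv_lhs => rw [hsplit]
      simp only [List.prod_append, List.prod_cons, mul_assoc, c]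
    have hw : ws e 0 zs = c.wl + e i zs[i] + c.wr := by
      conv_lhs => rw [hsplit]
      rw [ws_append]
      have hl : (zs.take i).length = i := by rw [List.length_take]; omega
      rw [hl]
      simp only [ws, Nat.zero_add, c]
      rw [add_assoc]
    have hall : ∀ z : S, F (c.g * z * c.h) (c.wl + e i z + c.wr) + act v (c.g * z * c.h)
        = F (x * zs.prod * y) (ws e 0 zs) + act v (x * zs.prod * y) := by
      intro z
      have := hgood c.g zs[i] c.h hs.symm z
      rw [← this]
      have : ws e 0 zs - e i zs[i] + e i z = c.wl + e i z + c.wr := by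
        rw [hw]; abel
      rw [this]
    have hgc : Good act e F c := by
      intro z
      have a1 := hall z
      have a2 := hall 1
      show F (c.g * z * c.h) (c.wl + e i z + c.wr) + act v (c.g * z * c.h)
        = F (c.g * 1 * c.h) (c.wl + e i 1 + c.wr) + act v (c.g * 1 * c.h)
      rw [a1, a2]
    obtain ⟨t, t1, t2, t3, t4, t5⟩ := h2 T c c0 hT hc0
    refine ⟨t, t1, t2, t3, ?_, fun vw hvw => ⟨lab act e F c, ?_⟩⟩
    · exact Lb_of c t4 hgc rfl rfl rfl
    · exact Rb_of c t5 hgc _ _ hvw rfl rfl

end Crest.Agent.R320.UG219
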