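import Crest.Agent.R320.UG_658

/-!
Row 320 (helper658): instance of the gadget of UG_658 with the names of 755 and the noise of 808,
comb modulus 1, and the finite-state property of the noise.
-/

set_option autoImplicit false
set_option linter.unusedSectionVars false

namespace Crest.Agent.R320.UG_658

open Finset

variable {α : Type*}
variable {S V W : Type*} [Monoid S] [AddCommGroup V] [AddCommGroup W] {D : Dat α S V W}

/-- explicit noise -/
noncomputable def nuF (D : Dat α S V W) (good : ℕ → Prop) (v0 r0 : ℕ → V) (Y : List α) : V :=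
  open Classical in
  if good (Y.length / D.q) then D.F (D.φ Y) (D.ww (Y.length / D.q) Y) else
    r0 (Y.length / D.q) - D.act (v0 (Y.length / D.q)) (D.φ Y)

/-- the gadget with explicit noise -/
theorem gadget' (D : Dat α S V W) (good : ℕ → Prop) (v0 r0 : ℕ → V) (hD : Geo D)
    (n1 : ∀ T, good T → ∀ o o' c c', o + o' = T → D.LN o = some c → D.RN o' = some c' → c = c')
    (n2 : ∀ T, good T → ∀ c, ∃ t, ∀ o o', o ≡ t [MOD D.m0] → o + o' = T →
      D.LN o = some c ∧ D.RN o' = some c)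
    (n3 : ∀ T, ¬ good T → ∀ o o' c c', o + o' = T → D.LN o = some c →
      D.RN o' = some c' → c.2.2.2.2.2 = v0 T ∧ D.bb c' = r0 T)
    (hF : ∀ s w v, ∃ i < D.m, ∀ g x h, g * x * h = s → ∀ z,
      D.F (g * z * h) (w - D.e i x + D.e i z) + D.act v (g * z * h) = D.F s w + D.act v s) :
      (∀ P Q v r, D.Lf P v → D.Rf Q r → r = D.act v (D.φ (P ++ Q)) + nuF D good v0 r0 (P ++ Q)) ∧
      (∀ P v, D.Lf P v → D.q ∣ P.length ∧ P.length < D.q * (D.m * D.U)) ∧
      (∀ Y : List α, good (Y.length / D.q) → D.q * (D.m * D.U) ≤ Y.length →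
        (∀ k, 0 < k → k ≤ D.m → D.R (k - 1) * D.m0 ≤ (Y.length / D.q) % D.R k ∧
          (Y.length / D.q) % D.R k + D.R (k - 1) * D.m0 ≤ D.R k) →
        ∀ v, ∃ P Q, P ++ Q = Y ∧ D.Lf P v ∧ ∃ r, D.Rf Q r) := by
  classical
  refine ⟨?_, ?_, ?_⟩
  · rintro P Q v r ⟨c, hL, hv⟩ ⟨c', hR, hr⟩
    have hcl := clock_add (Q := Q) hD hL.2.1
    unfold nuF
    by_cases hg : good ((P ++ Q).length / D.q)
    · rw [if_pos hg]
      have hcc := n1 _ hg _ _ _ _ hcl.symm hL.2.2.2.2.1 hR.2.1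
      subst hcc
      obtain ⟨hok, hq, ha1, ha2, -, hg1, hwl1⟩ := hL
      obtain ⟨-, -, hr1, hr2, hh1, hwr1⟩ := hR
      obtain ⟨e1, e2, e3, e4, e5, e6⟩ := read hD (Q := Q) c.1.2 hq ha1 ha2 hr1 hr2 hcl
      have := hok (D.φ (seg (P ++ Q) (D.q * D.β ((P ++ Q).length / D.q) c.1)
        (D.q * D.β ((P ++ Q).length / D.q) (c.1 + 1))))
      rw [e5, e6, e1, e2, e3, e4, ← hg1, ← hh1, ← hwl1, ← hwr1, hr, ← this, hv, add_comm]
    · rw [if_neg hg]
      obtain ⟨q1, q2⟩ := n3 _ hg _ _ _ _ hcl.symm hL.2.2.2.2.1 hR.2.1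
      rw [hr, q2, hv, ← q1]
      abel
  · rintro P v ⟨c, hL, -⟩
    refine ⟨hL.2.1, ?_⟩
    have h1 := hL.2.2.2.1
    have h2 := hD.step (i := (c.1 : ℕ)) c.1.2.le
    have h3 : D.A ((c.1 : ℕ) + 1) ≤ D.m * D.U := Nat.mul_le_mul_right _ c.1.2
    obtain ⟨o, ho⟩ := hL.2.1
    rw [ho, Nat.mul_div_cancel_left _ hD.qpos] at h1
    rw [ho]
    exact (Nat.mul_lt_mul_left hD.qpos).2 (by omega)
  · intro Y hg hlen hband v
    obtain ⟨i, him, hi⟩ := hF (D.φ Y) (D.ww (Y.length / D.q) Y) v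
    set T := Y.length / D.q with hTdef
    set g := D.φ (Y.take (D.q * D.β T i)) with hgdef
    set wl := ∑ k ∈ range i, D.e k (D.φ (seg Y (D.q * D.β T k) (D.q * D.β T (k + 1))))
      with hwldef
    set h := D.φ (Y.drop (D.q * D.β T (i + 1))) with hhdef
    set wr := ∑ k ∈ Ico (i + 1) D.m, D.e k (D.φ (seg Y (D.q * D.β T k)
      (D.q * D.β T (k + 1)))) with hwrdef
    have hTU : D.m * D.U ≤ T := by
      rw [hTdef, Nat.le_div_iff_mul_le hD.qpos, mul_comm]
      exact hlen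
    obtain ⟨t, ht⟩ := n2 _ hg (⟨i, him⟩, g, wl, h, wr, v)
    obtain ⟨z, hz1, hz2⟩ := Nat.chineseRemainder (hD.cop i) T t
    obtain ⟨o, ho1, ho2, ho3⟩ := exists_congr_ge (D.lo i) (D.R i * D.m0) z
      (Nat.mul_pos (hD.Rpos i) hD.m0pos)
    have hstep := hD.step (i := i) him.le
    have hA1 : D.A (i + 1) ≤ D.m * D.U := Nat.mul_le_mul_right _ him
    have hoT : o ≤ T := by omega
    have hom : o ≡ t [MOD D.m0] :=
      (ho3.of_mul_left (D.R i)).trans hz2
    have hoR : o ≡ T [MOD D.R i] :=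
      (ho3.of_mul_right D.m0).trans hz1
    obtain ⟨hn1, hn2⟩ := ht o (T - o) hom (by omega)
    have hoY : o * D.q ≤ Y.length := (Nat.le_div_iff_mul_le hD.qpos).1 hoT
    set P := Y.take (o * D.q) with hP
    set Q := Y.drop (o * D.q) with hQ
    have hPQ : P ++ Q = Y := List.take_append_drop _ _
    have hPl : P.length = o * D.q := by
      rw [hP, List.length_take]; omega
    have hPd : D.q ∣ P.length := ⟨o, by rw [hPl, mul_comm]⟩
    have hPo : P.length / D.q = o := by rw [hPl]; exact Nat.mul_div_cancel _ hD.qpos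
    have hQo : Q.length / D.q = T - o := by
      have := clock_add (Q := Q) hD hPd
      rw [hPQ, hPo] at this
      omega
    have hR0 : (T - o) % D.R i = 0 := (Nat.modEq_iff_dvd' hoT).1 hoR |>.elim fun a ha => by
      rw [ha, Nat.mul_mod_right]
    have hRk : ∀ k, i < k → k ≤ D.m → (T - o) % D.R k + D.R i * D.m0 ≤ D.R k := by
      intro k hk hkm
      obtain ⟨hb1, hb2⟩ := hband k (by omega) hkm
      have hRik : D.R i * D.m0 ≤ D.R (k - 1) * D.m0 :=
        Nat.mul_le_mul_right _ (hD.Rle (by omega))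
      obtain ⟨y, hy⟩ := Nat.exists_eq_add_of_le ho1
      have hlo : D.R k ∣ D.lo i := (hD.Rdvd k D.m hkm).trans (hD.lo_dvd i)
      have hyT : y ≤ T % D.R k := by omega
      have h7 : (T - o) % D.R k = T % D.R k - y := by
        obtain ⟨a, ha⟩ := hlo
        have e1 : D.R k * (T / D.R k) + T % D.R k = T := Nat.div_add_mod T (D.R k)
        have hle : a ≤ T / D.R k := by
          rw [Nat.le_div_iff_mul_le (hD.Rpos k), mul_comm, ← ha]; omega
        obtain ⟨b, hb⟩ := Nat.exists_eq_add_of_le hle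
        have e2 : T - o = (T % D.R k - y) + D.R k * b := by
          rw [hb, Nat.mul_add] at e1
          omega
        rw [e2, Nat.add_mul_mod_self_left]
        exact Nat.mod_eq_of_lt (lt_of_le_of_lt (Nat.sub_le _ _) (Nat.mod_lt _ (hD.Rpos k)))
      omega
    obtain ⟨e1, e2, e3, e4, e5, e6⟩ := read hD (P := P) (Q := Q) (o' := T - o) (T := T) him hPd
      (by rw [hPo]; exact ho1) (by rw [hPo]; exact ho2) hR0 hRk (by rw [hPo]; omega)
    rw [hPQ] at e1 e2 e3 e4 e5 e6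
    rw [← hgdef] at e1
    rw [← hwldef] at e2
    rw [← hhdef] at e3
    rw [← hwrdef] at e4
    rw [← hgdef, ← hhdef] at e5
    rw [← hwldef, ← hwrdef] at e6
    have hall : ∀ z, D.F (g * z * h) (wl + D.e i z + wr) + D.act v (g * z * h) =
        D.F (D.φ Y) (D.ww T Y) + D.act v (D.φ Y) := by
      intro z
      have := hi g _ h e5.symm z
      rw [← this, e6]
      congr 2
      abel
    have hok : D.ok (⟨i, him⟩, g, wl, h, wr, v) := by
      intro z
      show D.F (g * z * h) (wl + D.e i z + wr) + D.act v (g * z * h) =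
        D.F (g * 1 * h) (wl + D.e i 1 + wr) + D.act v (g * 1 * h)
      rw [hall z, hall 1]
    refine ⟨P, Q, hPQ, ⟨(⟨i, him⟩, g, wl, h, wr, v), ⟨hok, hPd, ?_, ?_, ?_, ?_, ?_⟩, rfl⟩,
      _, (⟨i, him⟩, g, wl, h, wr, v), ⟨hok, ?_, ?_, ?_, ?_, ?_⟩, rfl⟩
    · rw [hPo]; exact ho1
    · rw [hPo]; exact ho2
    · rw [hPo]; exact hn1
    · exact e1
    · exact e2
    · rw [hQo]; exact hn2
    · rw [hQo]; exact hR0
    · rw [hQo]; exact hRk
    · rw [hQo]; exact e3
    · rw [hQo]; exact e4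


theorem seg_take {Y : List α} {a b A : ℕ} (hb : b ≤ A) : seg (Y.take A) a b = seg Y a b := by
  unfold seg
  rw [List.drop_take, List.take_take, min_eq_left (by omega)]

/-- finite-state property -/
theorem nuF_class (hD : Geo D) (hq : D.q = 1) {good : ℕ → Prop} {v0 r0 : ℕ → V}
    (hg : ∀ T T', T % D.m0 = T' % D.m0 → (good T ↔ good T'))
    (hv : ∀ T T', T % D.m0 = T' % D.m0 → v0 T = v0 T')
    (hr : ∀ T T', T % D.m0 = T' % D.m0 → r0 T = r0 T') {Y Y' : List α}
    (h1 : Y.take ((D.m + 1) * D.U) = Y'.take ((D.m + 1) * D.U))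
    (h2 : Y.length % (D.m0 * D.R D.m) = Y'.length % (D.m0 * D.R D.m))
    (h3 : D.φ Y = D.φ Y') :
    nuF D good v0 r0 Y = nuF D good v0 r0 Y' := by
  classical
  have hm : Y.length % D.m0 = Y'.length % D.m0 := by
    have := congrArg (· % D.m0) h2
    simpa [Nat.mod_mod_of_dvd _ (Dvd.intro _ rfl : D.m0 ∣ D.m0 * D.R D.m)] using this
  have hR : ∀ k, k ≤ D.m → Y.length % D.R k = Y'.length % D.R k := by
    intro k hk
    have hd : D.R k ∣ D.m0 * D.R D.m := Dvd.dvd.mul_left (hD.Rdvd k D.m hk) _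
    have := congrArg (· % D.R k) h2
    simpa [Nat.mod_mod_of_dvd _ hd] using this
  have hβ : ∀ k, k ≤ D.m → D.β Y.length k = D.β Y'.length k := by
    intro k hk
    unfold Dat.β
    rw [hR k hk]
  have hw : D.ww Y.length Y = D.ww Y'.length Y' := by
    unfold Dat.ww
    refine Finset.sum_congr rfl fun k hk => ?_
    have hk' := Finset.mem_range.1 hk
    rw [hq, one_mul, one_mul, one_mul, one_mul, hβ k hk'.le, hβ (k + 1) hk']
    have hlt : D.β Y'.length (k + 1) ≤ (D.m + 1) * D.U := by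
      have h4 := hD.β_lt (T := Y'.length) (show k + 1 ≤ D.m from hk')
      have h5 := hD.step (i := k + 1) hk'
      have h6 : D.A (k + 1 + 1) ≤ (D.m + 1) * D.U := Nat.mul_le_mul_right _ (by omega)
      omega
    rw [← seg_take (Y := Y) hlt, ← seg_take (Y := Y') hlt, h1]
  unfold nuF
  rw [hq, Nat.div_one, Nat.div_one]
  by_cases hgd : good Y.length
  · rw [if_pos hgd, if_pos ((hg _ _ hm).1 hgd), h3, hw]
  · rw [if_neg hgd, if_neg (fun h => hgd ((hg _ _ hm).2 h)), h3, hv _ _ hm, hr _ _ hm]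

theorem per_eq {β : Type*} {f : ℕ → β} {M : ℕ} (hf : ∀ t, f (t + M) = f t) {a b : ℕ}
    (h : a ≡ b [MOD M]) : f a = f b := by
  have key : ∀ x n, f (x + n * M) = f x := by
    intro x n
    induction n with
    | zero => simp
    | succ n ih => rw [Nat.succ_mul, ← add_assoc, hf, ih]
  have h1 : ∀ x, f x = f (x % M) := by
    intro x
    conv_lhs => rw [← Nat.mod_add_div x M, mul_comm]
    exact key _ _
  rw [h1 a, h1 b, h]

/-- **Final form of the gadget.** -/
theorem ug (S V : Type) [Monoid S] [Finite S] [AddCommGroup V] [Finite V] (act : V → S → V) :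
    ∃ (r m : ℕ), ∀ B : ℕ, ∃ (Ms : Finset ℕ) (m0 : ℕ), Ms.card ≤ r ∧
      (∀ k ∈ Ms, B < k ∧ Nat.Prime k ∧ k ∣ m0) ∧ 0 < m0 ∧
      ∀ R : ℕ → ℕ, (∀ k, 0 < R k) → (∀ i k, i ≤ k → R i ∣ R k) → (∀ k, Nat.Coprime (R k) m0) →
      ∀ (α : Type) (φ : List α → S), (∀ u v, φ (u ++ v) = φ u * φ v) →
      ∃ (lam rho : List α → Option V) (nu : List α → V),
        (∀ P v, lam P = some v → P.length < m * (R m * (1 + m0))) ∧
        (∀ P Q v r, lam P = some v → rho Q = some r → r = act v (φ (P ++ Q)) + nu (P ++ Q)) ∧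
        (∀ Y : List α, (∀ k ∈ Ms, ¬ k ∣ Y.length) → m * (R m * (1 + m0)) ≤ Y.length →
          (∀ k, 0 < k → k ≤ m → R (k - 1) * m0 ≤ Y.length % R k ∧
            Y.length % R k + R (k - 1) * m0 ≤ R k) →
          ∀ v, ∃ P Q, Y = P ++ Q ∧ lam P = some v ∧ (rho Q).isSome) ∧
        (∀ Y Y' : List α, Y.take ((m + 1) * (R m * (1 + m0))) =
            Y'.take ((m + 1) * (R m * (1 + m0))) →
          Y.length % (m0 * R m) = Y'.length % (m0 * R m) → φ Y = φ Y' → nu Y = nu Y') := by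
  classical
  have := Fintype.ofFinite S
  have := Fintype.ofFinite V
  obtain ⟨m, N, e, F, hN0, hF⟩ := Crest.Agent.R320.RandF808.exists_noise S V act
  have : NeZero N := ⟨by omega⟩
  let W := ZMod N × ZMod N
  let bb : Nm m S V W → V := fun c => F (c.2.1 * 1 * c.2.2.2.1)
    (c.2.2.1 + e c.1 1 + c.2.2.2.2.1) + act c.2.2.2.2.2 (c.2.1 * 1 * c.2.2.2.1)
  obtain ⟨r, hr⟩ := Crest.Agent.R320.Names755.names (Nm m S V W) (V × V)
    (fun c => (c.2.2.2.2.2, bb c))
  refine ⟨r, m, fun B => ?_⟩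
  obtain ⟨Ms, m0, nmL, nmR, hcard, hMs, hm0, hpL, hpR, hn1, hn2, hn3⟩ := hr B
  refine ⟨Ms, m0, hcard, hMs, hm0, ?_⟩
  intro R hR0 hRd hRc α φ hφ
  let D : Dat α S V W := ⟨φ, act, m, e, F, 1, m0, R, nmL, nmR⟩
  have hD : Geo D := ⟨hφ, Nat.one_pos, hR0, hRd, hm0, hRc⟩
  let good : ℕ → Prop := fun T => ∀ k ∈ Ms, ¬ k ∣ T
  have hgmod : ∀ T T', T % m0 = T' % m0 → (good T ↔ good T') := by
    intro T T' h
    have h1 : ∀ k ∈ Ms, (k ∣ T ↔ k ∣ T') := fun k hk =>
      Nat.ModEq.dvd_iff (show T ≡ T' [MOD m0] from h) (hMs k hk).2.2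
    exact ⟨fun hT k hk hd => hT k hk ((h1 k hk).2 hd), fun hT k hk hd => hT k hk ((h1 k hk).1 hd)⟩
  -- colours at bad totals, modulo m0
  have hcol : ∀ (o1 o1' o2 o2' : ℕ) (c1 c1' c2 c2' : Nm m S V W),
      ¬ good (o1 + o1') → (o1 + o1') ≡ (o2 + o2') [MOD m0] → nmL o1 = some c1 →
      nmR o1' = some c1' → nmL o2 = some c2 → nmR o2' = some c2' →
      c1.2.2.2.2.2 = c2.2.2.2.2.2 ∧ bb c1' = bb c2' := by
    intro o1 o1' o2 o2' c1 c1' c2 c2' hb hc h1 h2 h3 h4
    have hb' : ∃ k ∈ Ms, k ∣ o1 + o1' := by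
      by_contra hcon
      push Not at hcon
      exact hb hcon
    rcases le_total (o1 + o1') (o2 + o2') with hle | hle
    · obtain ⟨d, hd⟩ := (Nat.modEq_iff_dvd' hle).1 hc
      have h5 : nmR (o1' + m0 * d) = some c1' := by
        rw [← h2]
        exact per_eq hpR (by show (o1' + m0 * d) % m0 = o1' % m0; exact Nat.add_mul_mod_self_left _ _ _)
      obtain ⟨k, hk, hkd⟩ := hb'
      have h6 := hn3 o1 (o1' + m0 * d) o2 o2' c1 c1' c2 c2' h1 h5 h3 h4 (by omega)
        ⟨k, hk, by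
          rw [← add_assoc]
          exact Nat.dvd_add hkd (Dvd.dvd.mul_right (hMs k hk).2.2 _)⟩
      exact ⟨congrArg Prod.fst h6.1, congrArg Prod.snd h6.2⟩
    · obtain ⟨d, hd⟩ := (Nat.modEq_iff_dvd' hle).1 hc.symm
      have h5 : nmR (o2' + m0 * d) = some c2' := by
        rw [← h4]
        exact per_eq hpR (by show (o2' + m0 * d) % m0 = o2' % m0; exact Nat.add_mul_mod_self_left _ _ _)
      have h6 := hn3 o1 o1' o2 (o2' + m0 * d) c1 c1' c2 c2' h1 h2 h3 h5 (by omega) hb'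
      exact ⟨congrArg Prod.fst h6.1, congrArg Prod.snd h6.2⟩
  have hvr : ∀ T, ∃ vr : V × V, ¬ good T → ∀ o o' c c', (o + o') ≡ T [MOD m0] →
      nmL o = some c → nmR o' = some c' → c.2.2.2.2.2 = vr.1 ∧ bb c' = vr.2 := by
    intro T
    by_cases hex : ∃ o o' c c', (o + o') ≡ T [MOD m0] ∧ nmL o = some c ∧ nmR o' = some c'
    · obtain ⟨o1, o1', c1, c1', h1, h2, h3⟩ := hex
      refine ⟨(c1.2.2.2.2.2, bb c1'), fun hb o o' c c' h4 h5 h6 => ?_⟩
      refine hcol o o' o1 o1' c c' c1 c1' ?_ (h4.trans h1.symm) h5 h6 h2 h3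
      rw [hgmod _ _ h4]; exact hb
    · refine ⟨0, fun _ o o' c c' h4 h5 h6 => ?_⟩
      exact absurd ⟨o, o', c, c', h4, h5, h6⟩ hex
  choose vr hvr using hvr
  let v0 : ℕ → V := fun T => (vr (T % m0)).1
  let r0 : ℕ → V := fun T => (vr (T % m0)).2
  obtain ⟨g1, g2, g3⟩ := gadget' D good v0 r0 hD
    (fun T hT o o' c c' h1 h2 h3 => hn1 o o' c c' h2 h3 (h1 ▸ hT))
    (by
      intro T hT c
      obtain ⟨t, -, ht1, ht2⟩ := hn2 T hT c
      refine ⟨t, fun o o' h1 h2 => ⟨?_, ?_⟩⟩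
      · show nmL o = some c
        rw [← ht1]; exact per_eq hpL h1
      · refine ht2 o' ?_
        rw [← h2]
        exact Nat.ModEq.add_right _ h1.symm)
    (by
      intro T hT o o' c c' h1 h2 h3
      have hb : ¬ good (T % m0) := by rw [hgmod _ _ (Nat.mod_mod _ _)]; exact hT
      refine hvr (T % m0) hb o o' c c' ?_ h2 h3
      rw [h1]; exact (Nat.mod_modEq _ _).symm)
    hF
  have huL : ∀ P v v', D.Lf P v → D.Lf P v' → v = v' := by
    rintro P v v' ⟨c, h1, rfl⟩ ⟨c', h1', rfl⟩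
    have := h1.2.2.2.2.1.symm.trans h1'.2.2.2.2.1
    rw [Option.some.inj this]
  have huR : ∀ P v v', D.Rf P v → D.Rf P v' → v = v' := by
    rintro P v v' ⟨c, h1, rfl⟩ ⟨c', h1', rfl⟩
    have := h1.2.1.symm.trans h1'.2.1
    rw [Option.some.inj this]
  let lam : List α → Option V := fun P => if h : ∃ v, D.Lf P v then some h.choose else none
  let rho : List α → Option V := fun P => if h : ∃ v, D.Rf P v then some h.choose else none
  have hlam : ∀ P v, lam P = some v → D.Lf P v := by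
    intro P v h
    simp only [lam] at h
    split_ifs at h with h1
    rw [← Option.some.inj h]; exact h1.choose_spec
  have hrho : ∀ P v, rho P = some v → D.Rf P v := by
    intro P v h
    simp only [rho] at h
    split_ifs at h with h1
    rw [← Option.some.inj h]; exact h1.choose_spec
  have hlam' : ∀ P v, D.Lf P v → lam P = some v := by
    intro P v h
    simp only [lam]
    rw [dif_pos ⟨v, h⟩]
    exact congrArg some (huL _ _ _ (Exists.choose_spec (⟨v, h⟩ : ∃ v, D.Lf P v)) h)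
  refine ⟨lam, rho, nuF D good v0 r0, ?_, ?_, ?_, ?_⟩
  · intro P v h
    have := (g2 P v (hlam _ _ h)).2
    rw [show D.q = 1 from rfl, one_mul] at this
    exact this
  · intro P Q v r h1 h2
    exact g1 P Q v r (hlam _ _ h1) (hrho _ _ h2)
  · intro Y hY hlen hb v
    obtain ⟨P, Q, hPQ, h1, rr, h2⟩ := g3 Y (by rw [show D.q = 1 from rfl, Nat.div_one]; exact hY)
      (by rw [show D.q = 1 from rfl, one_mul]; exact hlen)
      (by rw [show D.q = 1 from rfl, Nat.div_one]; exact hb) v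
    refine ⟨P, Q, hPQ.symm, hlam' _ _ h1, ?_⟩
    simp only [rho]
    rw [dif_pos ⟨rr, h2⟩]; rfl
  · intro Y Y' h1 h2 h3
    exact nuF_class hD rfl hgmod
      (fun T T' h => by show (vr (T % m0)).1 = (vr (T' % m0)).1; rw [h])
      (fun T T' h => by show (vr (T % m0)).2 = (vr (T' % m0)).2; rw [h]) h1 h2 h3

end Crest.Agent.R320.UG_658
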