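import Crest.Agent.R320.UG_219

set_option autoImplicit false

/-!
Row 320: the abstract scheme-1 gadget of `UG_219` with (1) the noise periodic in the total,
(2) soundness split into bad and good totals (for the grid gadget, which has no small walls).
-/

namespace Crest.Agent.R320.UG2_919

open Crest.Agent.R320 Crest.Agent.R320.UG219

/-- **Scheme-1 gadget, abstract form.** -/
theorem ugadget' (S V : Type*) [Monoid S] [Finite S] [AddCommGroup V] [Finite V]
    (act : V → S → V) :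
    ∃ (m r : ℕ), 0 < m ∧ ∀ Bd : ℕ, ∃ (Ms : Finset ℕ) (L : ℕ → S → List S → ℕ → Option V)
      (R : (ℕ → Option (List S × S)) → ℕ → Option V) (D : ℕ → S → List S → S → V),
      Ms.card ≤ r ∧ (∀ p ∈ Ms, p.Prime ∧ Bd < p) ∧
      (∀ i x zl t, L i x zl (t + ∏ p ∈ Ms, p) = L i x zl t) ∧
      (∀ vw t, R vw (t + ∏ p ∈ Ms, p) = R vw t) ∧
      (∀ vw vw' t, (∀ i < m, vw i = vw' i) → R vw t = R vw' t) ∧
      (∀ T x zs y, 2 * ∏ p ∈ Ms, p ≤ T → D (T + ∏ p ∈ Ms, p) x zs y = D T x zs y) ∧
      (∀ (t t' i : ℕ) (x : S) (zl : List S) (vw : ℕ → Option (List S × S)) (v b : V)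
        (x' : S) (zs' : List S) (y' : S), (∃ p ∈ Ms, p ∣ t + t') →
        L i x zl t = some v → R vw t' = some b →
        b = act v (x' * zs'.prod * y') + D (t + t') x' zs' y') ∧
      (∀ (t t' i : ℕ) (x : S) (zl : List S) (vw : ℕ → Option (List S × S)) (v b : V),
        (∀ p ∈ Ms, ¬ p ∣ t + t') → L i x zl t = some v → R vw t' = some b →
        ∃ zr y, vw i = some (zr, y) ∧ ∀ z : S, zl.length = i →
          b = act v (x * (zl ++ z :: zr).prod * y) + D (t + t') x (zl ++ z :: zr) y) ∧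
      (∀ (T : ℕ) (x : S) (zs : List S) (y : S) (v : V), zs.length = m →
        (∀ p ∈ Ms, ¬ p ∣ T) → ∃ i < m, ∀ c0 : ℕ, c0 + ∏ p ∈ Ms, p ≤ T + 1 →
          ∃ t, c0 ≤ t ∧ t < c0 + ∏ p ∈ Ms, p ∧ t ≤ T ∧ L i x (zs.take i) t = some v ∧
            ∀ vw : ℕ → Option (List S × S), vw i = some (zs.drop (i + 1), y) →
              ∃ b, R vw (T - t) = some b) := by
  classical
  have := Fintype.ofFinite S
  have := Fintype.ofFinite V
  obtain ⟨m, N, e, F, hN, hF⟩ := RandF808.exists_noise S V act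
  have : NeZero N := ⟨hN.ne'⟩
  let WW := ZMod N × ZMod N
  have hm : 0 < m := by
    obtain ⟨i, hi, -⟩ := hF 1 0 0
    omega
  let col : Nm m S V WW → V × V := fun c => (c.v, lab act e F c)
  obtain ⟨r, hr⟩ := Names_570.exists_names col
  refine ⟨m, r, hm, fun Bd => ?_⟩
  obtain ⟨Ms, nmL, nmR, hcard, hp, hperL, hperR, h1, h2, h3⟩ := hr Bd
  -- the junctions of a bad clock total
  let J : ℕ → Prop := fun T => ∃ q : (ℕ × ℕ) × (Nm m S V WW × Nm m S V WW),
    q.1.1 + q.1.2 = T ∧ nmL q.1.1 = some q.2.1 ∧ nmR q.1.2 = some q.2.2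
  let D : ℕ → S → List S → S → V := fun T x zs y =>
    if (∃ p ∈ Ms, p ∣ T) then
      (if h : J T then lab act e F h.choose.2.2 - act h.choose.2.1.v (x * zs.prod * y) else 0)
    else F (x * zs.prod * y) (ws e 0 zs)
  refine ⟨Ms, Lb act e F nmL, Rb act e F nmR, D, hcard, hp, ?_, ?_, ?_, ?_, ?_, ?_, ?_⟩
  · intro i x zl t
    unfold Lb
    rw [hperL]
  · intro vw t
    unfold Rb
    rw [hperR]
  · intro vw vw' t hvw
    unfold Rb
    have : (∃ c, nmR t = some c ∧ Good act e F c ∧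
        ∃ zr y, vw c.i = some (zr, y) ∧ c.h = zr.prod * y ∧ c.wr = ws e (c.i + 1) zr) ↔
        (∃ c, nmR t = some c ∧ Good act e F c ∧
        ∃ zr y, vw' c.i = some (zr, y) ∧ c.h = zr.prod * y ∧ c.wr = ws e (c.i + 1) zr) := by
      constructor
      · rintro ⟨c, a1, a2, a3⟩
        exact ⟨c, a1, a2, by rwa [← hvw _ c.i.2]⟩
      · rintro ⟨c, a1, a2, a3⟩
        exact ⟨c, a1, a2, by rwa [hvw _ c.i.2]⟩
    exact if_congr this rfl rfl
  · -- periodicity of the noise
    intro T x zs y hT2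
    have hdvd : ∀ p ∈ Ms, p ∣ ∏ p ∈ Ms, p := fun p hp' => Finset.dvd_prod_of_mem _ hp'
    have hbad : (∃ p ∈ Ms, p ∣ T + ∏ p ∈ Ms, p) ↔ (∃ p ∈ Ms, p ∣ T) := by
      constructor
      · rintro ⟨p, hp', hd⟩
        exact ⟨p, hp', (Nat.dvd_add_left (hdvd p hp')).1 hd⟩
      · rintro ⟨p, hp', hd⟩
        exact ⟨p, hp', dvd_add hd (hdvd p hp')⟩
    have hperL' : ∀ t, ∏ p ∈ Ms, p ≤ t → nmL (t - ∏ p ∈ Ms, p) = nmL t := by
      intro t ht
      rw [← hperL (t - ∏ p ∈ Ms, p), Nat.sub_add_cancel ht]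
    have hperR' : ∀ t, ∏ p ∈ Ms, p ≤ t → nmR (t - ∏ p ∈ Ms, p) = nmR t := by
      intro t ht
      rw [← hperR (t - ∏ p ∈ Ms, p), Nat.sub_add_cancel ht]
    have hJJ : J (T + ∏ p ∈ Ms, p) ↔ J T := by
      constructor
      · rintro ⟨⟨⟨t, t'⟩, c, c'⟩, e1, e2, e3⟩
        simp only at e1 e2 e3
        by_cases htt : ∏ p ∈ Ms, p ≤ t
        · exact ⟨⟨⟨t - ∏ p ∈ Ms, p, t'⟩, c, c'⟩, by simp only; omega,
            by simp only; rw [hperL' t htt]; exact e2, e3⟩
        · exact ⟨⟨⟨t, t' - ∏ p ∈ Ms, p⟩, c, c'⟩, by simp only; omega, e2,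
            by simp only; rw [hperR' t' (by omega)]; exact e3⟩
      · rintro ⟨⟨⟨t, t'⟩, c, c'⟩, e1, e2, e3⟩
        simp only at e1 e2 e3
        exact ⟨⟨⟨t + ∏ p ∈ Ms, p, t'⟩, c, c'⟩, by simp only; omega,
            by simp only; rw [hperL]; exact e2, e3⟩
    by_cases hT : ∃ p ∈ Ms, p ∣ T
    · have hT' : ∃ p ∈ Ms, p ∣ T + ∏ p ∈ Ms, p := hbad.2 hT
      simp only [D]
      rw [if_pos hT, if_pos hT']
      by_cases hJ : J T
      · have hJ' : J (T + ∏ p ∈ Ms, p) := hJJ.2 hJ
        rw [dif_pos hJ, dif_pos hJ']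
        obtain ⟨e1, e2, e3⟩ := hJ.choose_spec
        obtain ⟨f1, f2, f3⟩ := hJ'.choose_spec
        have key := h3 (hJ.choose.1.1 + ∏ p ∈ Ms, p) hJ.choose.1.2 hJ'.choose.1.1 hJ'.choose.1.2
          hJ.choose.2.1 hJ.choose.2.2 hJ'.choose.2.1 hJ'.choose.2.2
          (by rw [f1]; omega) (by
            rw [show hJ.choose.1.1 + ∏ p ∈ Ms, p + hJ.choose.1.2 = T + ∏ p ∈ Ms, p by omega]
            exact hT') (by rw [hperL]; exact e2) e3 f2 f3
        rcases key with ⟨k1, k2⟩ | ⟨k1, k2, k3⟩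
        · rw [k1, k2]
        · have kv : hJ'.choose.2.1.v = hJ'.choose.2.2.v := by
            have := congrArg Prod.fst k3
            simp only [col] at this
            rw [k1, k2] at this
            exact this.symm
          have kl : lab act e F hJ'.choose.2.1 = lab act e F hJ'.choose.2.2 := by
            have := congrArg Prod.snd k3
            simp only [col] at this
            rw [k1, k2] at this
            exact this.symm
          rw [k1, k2, kv, kl]
      · have hJ' : ¬ J (T + ∏ p ∈ Ms, p) := fun h => hJ (hJJ.1 h)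
        rw [dif_neg hJ, dif_neg hJ']
    · have hT' : ¬ ∃ p ∈ Ms, p ∣ T + ∏ p ∈ Ms, p := fun h => hT (hbad.1 h)
      simp only [D]
      rw [if_neg hT, if_neg hT']
  · -- soundness, bad totals
    intro t t' i x zl vw v b x' zs' y' hT hL hR
    obtain ⟨c, c1, c2, c3, c4, c5, c6⟩ := Lb_some hL
    obtain ⟨c', c1', c2', -, c6'⟩ := Rb_some hR
    have hJ : J (t + t') := ⟨((t, t'), (c, c')), rfl, c1, c1'⟩
    have hD : D (t + t') x' zs' y' = lab act e F hJ.choose.2.2
        - act hJ.choose.2.1.v (x' * zs'.prod * y') := by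
      simp only [D]
      rw [if_pos hT, dif_pos hJ]
    obtain ⟨e1, e2, e3⟩ := hJ.choose_spec
    have key := h3 hJ.choose.1.1 hJ.choose.1.2 t t' hJ.choose.2.1 hJ.choose.2.2 c c' e1
      (by rw [e1]; exact hT) e2 e3 c1 c1'
    rw [hD, ← c6, ← c6']
    rcases key with ⟨k1, k2⟩ | ⟨k1, k2, k3⟩
    · rw [k1, k2]; abel
    · have kv : c.v = c'.v := by
        have := congrArg Prod.fst k3
        simp only [col] at this
        rw [k1, k2] at this
        exact this.symm
      have kl : lab act e F c = lab act e F c' := by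
        have := congrArg Prod.snd k3
        simp only [col] at this
        rw [k1, k2] at this
        exact this.symm
      rw [k1, k2, kv, kl]; abel
  · -- soundness, good totals
    intro t t' i x zl vw v b hT' hL hR
    obtain ⟨c, c1, c2, c3, c4, c5, c6⟩ := Lb_some hL
    obtain ⟨c', c1', c2', ⟨zr', y', c3', c4', c5'⟩, c6'⟩ := Rb_some hR
    have hT : ¬ ∃ p ∈ Ms, p ∣ t + t' := fun ⟨p, hp', hd⟩ => hT' p hp' hd
    have hcc : c = c' := h1 t t' c c' hT' c1 c1'
    subst hcc
    refine ⟨zr', y', by rw [← c3]; exact c3', fun z hlen => ?_⟩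
    have hprod : x * (zl ++ z :: zr').prod * y' = x * zl.prod * z * (zr'.prod * y') := by
      simp only [List.prod_append, List.prod_cons, mul_assoc]
    have hD : D (t + t') x (zl ++ z :: zr') y' = F (x * (zl ++ z :: zr').prod * y')
        (ws e 0 (zl ++ z :: zr')) := by
      simp only [D]
      rw [if_neg hT]
    have hg := c2 z
    have hws : ws e 0 (zl ++ z :: zr') = c.wl + e c.i z + c.wr := by
      rw [ws_append, c5, c5', c3]
      simp only [ws, Nat.zero_add]
      rw [hlen, add_assoc]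
    have hs : x * (zl ++ z :: zr').prod * y' = c.g * z * c.h := by
      rw [hprod, c4, c4']
    rw [hD, hws, hs, ← c6', ← c6, ← hg]
    abel
  · -- completeness
    intro T x zs y v hlen hT
    obtain ⟨i, hi, hgood⟩ := hF (x * zs.prod * y) (ws e 0 zs) v
    refine ⟨i, hi, fun c0 hc0 => ?_⟩
    have hi' : i < zs.length := by omega
    have hsplit : zs = zs.take i ++ zs[i] :: zs.drop (i + 1) := by
      rw [← List.drop_eq_getElem_cons hi', List.take_append_drop]
    let c : Nm m S V WW := ⟨⟨i, hi⟩, x * (zs.take i).prod, ws e 0 (zs.take i),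
      (zs.drop (i + 1)).prod * y, ws e (i + 1) (zs.drop (i + 1)), v⟩
    have hs : x * zs.prod * y = c.g * zs[i] * c.h := by
      conv_lhs => rw [hsplit]
      simp only [List.prod_append, List.prod_cons, mul_assoc, c]
    have hw : ws e 0 zs = c.wl + e i zs[i] + c.wr := by
      conv_lhs => rw [hsplit]
      rw [ws_append]
      have hl : (zs.take i).length = i := by rw [List.length_take]; omega
      rw [hl]
      simp only [ws, Nat.zero_add, c]
      rw [add_assoc]
    have hall : ∀ z : S, F (c.g * z * c.h) (c.wl + e i z + c.wr) + act v (c.g * z * c.h)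
        = F (x * zs.prod * y) (ws e 0 zs) + act v (x * zs.prod * y) := by
      intro z
      have := hgood c.g zs[i] c.h hs.symm z
      rw [← this]
      have : ws e 0 zs - e i zs[i] + e i z = c.wl + e i z + c.wr := by
        rw [hw]; abel
      rw [this]
    have hgc : Good act e F c := by
      intro z
      have a1 := hall z
      have a2 := hall 1
      show F (c.g * z * c.h) (c.wl + e i z + c.wr) + act v (c.g * z * c.h)
        = F (c.g * 1 * c.h) (c.wl + e i 1 + c.wr) + act v (c.g * 1 * c.h)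
      rw [a1, a2]
    obtain ⟨t, t1, t2, t3, t4, t5⟩ := h2 T c c0 hT hc0
    refine ⟨t, t1, t2, t3, ?_, fun vw hvw => ⟨lab act e F c, ?_⟩⟩
    · exact Lb_of c t4 hgc rfl rfl rfl
    · exact Rb_of c t5 hgc _ _ hvw rfl rfl

end Crest.Agent.R320.UG2_919
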