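import Crest.Agent.R320.G1_852
import Crest.Agent.R320.Spoil_243

/-!
# Row 320: the black box `UGB` of helper753 (#14304), from 852's digit gadget and `Spoil_243`
-/

set_option autoImplicit false

namespace Crest.Agent.R320.UGB_243

open Finset Crest.Agent.R320.Spoil243

open Classical in
/-- the black box asked for in #14304 -/
def UGB (S V : Type) [Monoid S] [AddCommGroup V] (act : V → S → V) : Prop :=
  ∃ C0 : ℕ, ∀ K : ℕ, ∃ (N M0 X0 : ℕ) (BT : ℕ → Prop) (x : ℕ → ℕ), 0 < M0 ∧
    (∀ T, BT (T + M0) ↔ BT T) ∧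
    (∀ T, X0 ≤ T → ((Finset.range K ×ˢ Finset.range K).filter
      (fun ab => ab.1 ≠ ab.2 ∧ BT (T + x ab.2 - x ab.1))).card ≤ C0) ∧
    ∀ (α : Type) (φ : α → S), ∃ (lam rho : List α → Option V) (nu : List α → V),
      (∀ P v, lam P = some v → P.length ≤ N) ∧
      (∀ P Q v r, lam P = some v → rho Q = some r →
        r = act v ((P ++ Q).map φ).prod + nu (P ++ Q)) ∧
      (∀ u : List α, 2 * N ≤ u.length → ¬ BT u.length → ∀ v, ∃ P Q, P ++ Q = u ∧
        lam P = some v ∧ (rho Q).isSome) ∧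
      (∀ u u' : List α, 2 * N ≤ u.length → 2 * N ≤ u'.length →
        u.take (2 * N) = u'.take (2 * N) → u.length % M0 = u'.length % M0 →
        ((u.drop (2 * N)).map φ).prod = ((u'.drop (2 * N)).map φ).prod → nu u = nu u')

theorem digit_add {b : ℕ} (hb : 0 < b) {j m : ℕ} (hj : j < m) (M T : ℕ) :
    (T + M * b ^ m) / b ^ j % b = T / b ^ j % b := by
  obtain ⟨d, rfl⟩ : ∃ d, m = j + (d + 1) := ⟨m - j - 1, by omega⟩
  have e : M * b ^ (j + (d + 1)) = b ^ j * (b * (M * b ^ d)) := by
    rw [pow_add, pow_succ]; ring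
  rw [e, Nat.add_mul_div_left _ _ (by positivity), Nat.add_mul_mod_self_left]

theorem badN_add {Ms : Finset ℕ} {M b m : ℕ} (hb : 0 < b) (hMs : ∀ k ∈ Ms, k ∣ M) (T : ℕ) :
    BadN Ms M b m (T + M * b ^ m) ↔ BadN Ms M b m T := by
  unfold BadN
  refine or_congr ?_ ?_
  · refine exists_congr fun k => and_congr_right fun hk => ?_
    exact (Nat.dvd_add_iff_left ((hMs k hk).mul_right _)).symm
  · refine exists_congr fun j => and_congr_right fun hj => ?_
    rw [digit_add hb hj]

theorem ugb (S V : Type) [Monoid S] [Finite S] [AddCommGroup V] [Finite V] (act : V → S → V) :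
    UGB S V act := by
  classical
  obtain ⟨m, r, H⟩ := G1_852.gadget act
  refine ⟨r + m, fun K => ?_⟩
  obtain ⟨Ms, M, hcard, hMs, hM, H2⟩ := H (2 ^ (K + 2))
  set b : ℕ := M * 2 ^ (K + 7) + 1 with hbdef
  have hb0 : 0 < b := by omega
  have hcop : Nat.Coprime b M := by
    have h1 : Nat.gcd b M ∣ 1 := by
      have h2 : Nat.gcd b M ∣ M * 2 ^ (K + 7) := (Nat.gcd_dvd_right b M).mul_right _
      have h3 : Nat.gcd b M ∣ M * 2 ^ (K + 7) + 1 := Nat.gcd_dvd_left b M
      exact (Nat.dvd_add_right h2).1 h3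
    exact Nat.eq_one_of_dvd_one h1
  have hbig : M * 2 ^ (K + 6) < b := by
    have : M * 2 ^ (K + 7) = 2 * (M * 2 ^ (K + 6)) := by rw [pow_succ]; ring
    omega
  obtain ⟨c, -, -, -, -, hc5⟩ := spoil K 0 Ms M b m (fun p h => (hMs p h).2.1)
    (fun p h => (hMs p h).1) (fun p h => (hMs p h).2.2) hcop hbig hM
  have hbm : 0 < b ^ m := by positivity
  refine ⟨b ^ m, M * b ^ m, ∑ i ∈ range K, c i, BadN Ms M b m, c, Nat.mul_pos hM hbm,
    badN_add hb0 (fun k h => (hMs k h).2.2), ?_, ?_⟩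
  · intro T hT
    refine (card_le_card_of_injOn Prod.swap ?_ ?_).trans ((hc5 (T : ℤ)).trans (by omega))
    · intro ab hab
      have hab' := (mem_filter.1 (mem_coe.1 hab))
      obtain ⟨h1, h2, h3⟩ := hab'
      rw [mem_product] at h1
      refine mem_coe.2 (mem_filter.2 ⟨mem_product.2 ⟨h1.2, h1.1⟩, fun h => h2 h.symm, ?_⟩)
      have h4 : c ab.1 ≤ T := (single_le_sum (fun i _ => Nat.zero_le (c i)) h1.1).trans hT
      have h5 := badD_of_badN h3
      have e : ((T + c ab.2 - c ab.1 : ℕ) : ℤ) = (T : ℤ) + c (Prod.swap ab).1 - c (Prod.swap ab).2 := by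
        rw [Nat.cast_sub (by omega)]
        push_cast
        rfl
      rw [e] at h5
      exact h5
    · exact Prod.swap_injective.injOn
  · intro α φ
    obtain ⟨lam, rho, nu, h1, h2, h3, h4⟩ := H2 b hb0 hcop α φ
    refine ⟨lam, rho, nu, fun P v h => (h1 P v h).le, fun P Q v r hl hr => h2 P Q v r hl hr, ?_, ?_⟩
    · intro u _ hBT v
      have hk : ∀ k ∈ Ms, ¬ k ∣ u.length := fun k hk hd => hBT (Or.inl ⟨k, hk, hd⟩)
      have hd : ∀ j < m, M ≤ u.length / b ^ j % b ∧ u.length / b ^ j % b + M < b := by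
        intro j hj
        by_contra hn
        exact hBT (Or.inr ⟨j, hj, fun h => hn ⟨h.1, by omega⟩⟩)
      obtain ⟨P, Q, e, hl, v', hr⟩ := h3 u hk hd v
      exact ⟨P, Q, e.symm, hl, by rw [hr]; rfl⟩
    · intro u u' hu hu' ht hlen hp
      have e1 : ∀ w : List α, w.take (b ^ m) = (w.take (2 * b ^ m)).take (b ^ m) := by
        intro w
        rw [List.take_take, min_eq_left (by omega)]
      have e2 : ∀ w : List α, G1_852.pr φ (w.drop (b ^ m)) =
          G1_852.pr φ ((w.take (2 * b ^ m)).drop (b ^ m)) *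
            ((w.drop (2 * b ^ m)).map φ).prod := by
        intro w
        have h5 : w.drop (b ^ m) = (w.take (2 * b ^ m)).drop (b ^ m) ++ w.drop (2 * b ^ m) := by
          conv_lhs => rw [← List.take_append_drop (2 * b ^ m) w]
          rw [List.drop_append]
          by_cases hw : 2 * b ^ m ≤ w.length
          · rw [List.length_take, min_eq_left hw]
            have : b ^ m - 2 * b ^ m = 0 := by omega
            rw [this, List.drop_zero]
          · rw [List.drop_of_length_le (l := w) (i := 2 * b ^ m) (by omega)]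
            simp
        rw [h5, G1_852.pr_append]
        rfl
      exact (h4 u u' (by rw [e1 u, e1 u', ht]) (by rw [e2 u, e2 u', ht, hp]) hlen).2

end Crest.Agent.R320.UGB_243
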