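import Mathlib

/-!
# Row 320: clocks of the all-words U-gadget, CRT idempotent form (helper686)

Contexts `γ : Γ` of level `lev γ < m`. Clocks: star clocks `(γ, b)`, level clocks `(γ, t, b)`, `t < L`,
and the odd clock `n0`. A *name* is `(γ, y)`, `y = (τ, t)`.
* `LC γ y j` : a left word of length `j` may carry the name;
* `RC γ y k` : a right word of length `k` may carry the name;
* `β l T`    : the block ends of a zone of length `T`.
The only bad `T` are those divisible by one of the clocks `Q i`.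
-/

set_option autoImplicit false

namespace Crest.Agent.R320.UG_686

open Finset

/-- index set of the clocks -/
abbrev Ix (Γ : Type) (L : ℕ) : Type := (Γ × Bool) ⊕ (Γ × Fin L × Bool)

/-- data of the clocks -/
structure Clk (Γ : Type) [Fintype Γ] [DecidableEq Γ] (L : ℕ) where
  lev : Γ → ℕ
  m : ℕ
  lev_lt : ∀ g, lev g < m
  Q : Ix Γ L → ℕ
  E : Ix Γ L → ℕ
  n0 : ℕ
  E0 : ℕ
  Mp : ℕ
  Lam : ℕ
  B0 : ℕ
  δ : Γ → ℕ
  κ : ((Γ × Bool) → ℕ) × ℕ → Fin L → Bool
  Qpos : ∀ i, 1 < Q i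
  QB : ∀ s, Q (Sum.inl s) ≤ B0
  n0odd : Odd n0
  δlt : ∀ g, δ g < n0
  δinj : Function.Injective δ
  E1 : ∀ i, E i ≡ 1 [MOD Q i]
  Eo : ∀ i i', i' ≠ i → Q i ∣ E i'
  En : ∀ i, n0 ∣ E i
  EM : ∀ i, Mp ∣ E i
  E01 : E0 ≡ 1 [MOD n0]
  E0o : ∀ i, Q i ∣ E0
  E0M : Mp ∣ E0
  LQ : ∀ i, Q i ∣ Lam
  Ln : n0 ∣ Lam
  LM : Mp ∣ Lam
  Lbig : ∑ i, Q i * E i + n0 * E0 ≤ Lam
  κinj : ∀ y y' : ((Γ × Bool) → ℕ) × ℕ, (∀ s, y.1 s < B0) → (∀ s, y'.1 s < B0) → y.2 < n0 →
    y'.2 < n0 → κ y = κ y' → y = y'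

variable {Γ : Type} [Fintype Γ] [DecidableEq Γ] {L : ℕ}

namespace Clk

variable (C : Clk Γ L)

/-- the clocks which the left side reads at the name `(γ, x)` -/
def On (g : Γ) (x : Fin L → Bool) : Ix Γ L → Prop
  | Sum.inl (g', b) => (b = true ↔ g' = g)
  | Sum.inr (g', t, b) => C.lev g' < C.lev g ∨ (g' = g ∧ b = x t)

/-- level clocks of level `< l` -/
def low (l : ℕ) : Ix Γ L → Prop
  | Sum.inl _ => False
  | Sum.inr (g', _, _) => C.lev g' < l

open Classical in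
/-- block ends -/
noncomputable def β (l T : ℕ) : ℕ := C.Lam * (2 * l) + ∑ i, if C.low l i then (T % C.Q i) * C.E i else 0

/-- left clock -/
def LC (g : Γ) (y : ((Γ × Bool) → ℕ) × ℕ) (j : ℕ) : Prop :=
  (∀ i, C.Q i ∣ j ↔ ¬ C.On g (C.κ y) i) ∧
  j = C.Lam * (2 * C.lev g + 1) + ∑ i, (j % C.Q i) * C.E i + (j % C.n0) * C.E0 ∧
  (∀ s : Γ × Bool, y.1 s = j % C.Q (Sum.inl s)) ∧ y.2 < C.n0 ∧ y.2 + C.δ g ≡ 2 * j [MOD C.n0]

/-- right clock -/
def RC (g : Γ) (y : ((Γ × Bool) → ℕ) × ℕ) (k : ℕ) : Prop :=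
  (∀ i, C.Q i ∣ k ↔ C.On g (C.κ y) i) ∧ (∀ s, y.1 s < C.B0) ∧ y.2 < C.n0 ∧
  y.2 ≡ 2 * k + C.δ g [MOD C.n0]

/-- generic lengths -/
def Gen (T : ℕ) : Prop := ∀ i, ¬ C.Q i ∣ T

variable {C}

theorem sum_le (r : Ix Γ L → ℕ) (hr : ∀ i, r i ≤ C.Q i) (h : ℕ) (hh : h ≤ C.n0) :
    ∑ i, r i * C.E i + h * C.E0 ≤ C.Lam := by
  refine le_trans ?_ C.Lbig
  exact Nat.add_le_add (Finset.sum_le_sum fun i _ => Nat.mul_le_mul_right _ (hr i))
    (Nat.mul_le_mul_right _ hh)

theorem n0pos : 0 < C.n0 := C.n0odd.pos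

theorem Qpos' (i) : 0 < C.Q i := lt_trans Nat.zero_lt_one (C.Qpos i)

theorem β_le (l T : ℕ) : C.β l T ≤ C.Lam * (2 * l) + C.Lam := by
  classical
  unfold β
  have h := sum_le (C := C) (fun i => if C.low l i then T % C.Q i else 0)
    (fun i => by
      split_ifs
      · exact (Nat.mod_lt _ (Qpos' i)).le
      · exact Nat.zero_le _) 0 (Nat.zero_le _)
  have e : ∀ i, (if C.low l i then (T % C.Q i) * C.E i else 0) =
      (if C.low l i then T % C.Q i else 0) * C.E i := fun i => by split_ifs <;> simp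
  simp only [e]
  omega

theorem le_β (l T : ℕ) : C.Lam * (2 * l) ≤ C.β l T := by
  unfold β; exact Nat.le_add_right _ _

theorem β_mono (l T : ℕ) : C.β l T ≤ C.β (l + 1) T := by
  refine (β_le l T).trans (le_trans ?_ (le_β (l + 1) T))
  have : C.Lam * (2 * (l + 1)) = C.Lam * (2 * l) + C.Lam + C.Lam := by ring
  omega

theorem LC.le {g : Γ} {y} {j : ℕ} (h : C.LC g y j) : j ≤ C.Lam * (2 * C.lev g + 2) := by
  have h1 := sum_le (C := C) (fun i => j % C.Q i) (fun i => (Nat.mod_lt _ (Qpos' i)).le)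
    (j % C.n0) (Nat.mod_lt _ n0pos).le
  have h2 := h.2.1
  have : C.Lam * (2 * C.lev g + 2) = C.Lam * (2 * C.lev g + 1) + C.Lam := by ring
  omega

theorem LC.ge {g : Γ} {y} {j : ℕ} (h : C.LC g y j) : C.Lam * (2 * C.lev g + 1) ≤ j := by
  have h2 := h.2.1
  omega

theorem LC.le_β {g : Γ} {y} {j : ℕ} (h : C.LC g y j) (T : ℕ) : j ≤ C.β (C.lev g + 1) T :=
  le_trans h.le (le_trans (le_of_eq (by ring)) (Clk.le_β (C.lev g + 1) T))

theorem LC.β_le {g : Γ} {y} {j : ℕ} (h : C.LC g y j) (T : ℕ) : C.β (C.lev g) T ≤ j := by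
  refine (Clk.β_le _ T).trans (le_trans (le_of_eq ?_) h.ge)
  ring

theorem LC.dvd {g : Γ} {y} {j : ℕ} (h : C.LC g y j) : C.Mp ∣ j := by
  rw [h.2.1]
  exact Dvd.dvd.add (Dvd.dvd.add (C.LM.mul_right _)
    (Finset.dvd_sum fun i _ => (C.EM i).mul_left _)) (C.E0M.mul_left _)

theorem add_mod_left_dvd {j k q : ℕ} (h : q ∣ k) : (j + k) % q = j % q := by
  obtain ⟨c, rfl⟩ := h
  exact Nat.add_mul_mod_self_left j q c

theorem add_mod_right_dvd {j k q : ℕ} (h : q ∣ j) : (j + k) % q = k % q := by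
  rw [Nat.add_comm]; exact add_mod_left_dvd h

/-- left knows the block ends up to its level -/
theorem β_left {g : Γ} {y} {j k : ℕ} (hr : C.RC g y k) {l : ℕ} (hl : l ≤ C.lev g) :
    C.β l (j + k) = C.β l j := by
  classical
  unfold β
  congr 1
  refine Finset.sum_congr rfl fun i _ => ?_
  by_cases h : C.low l i
  · rw [if_pos h, if_pos h]
    rcases i with s | ⟨g', t, b⟩
    · exact h.elim
    · have : C.On g (C.κ y) (Sum.inr (g', t, b)) := Or.inl (lt_of_lt_of_le h hl)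
      rw [add_mod_left_dvd ((hr.1 _).2 this)]
  · rw [if_neg h, if_neg h]

theorem mod_n0_eq {a b : ℕ} (h : 2 * a ≡ 2 * b [MOD C.n0]) : a ≡ b [MOD C.n0] := by
  have h2 : Nat.Coprime C.n0 2 := (Nat.coprime_two_right).2 C.n0odd
  exact Nat.ModEq.cancel_left_of_coprime (by simpa using h2) h

/-- right knows the block ends beyond its level -/
theorem β_right {g : Γ} {y} {j j' k : ℕ} (hj : C.LC g y j) (hj' : C.LC g y j') (hr : C.RC g y k)
    {l : ℕ} (hl : C.lev g < l) : C.β l (j' + k) + j = C.β l (j + k) + j' := by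
  classical
  have hn : j % C.n0 = j' % C.n0 := by
    have := mod_n0_eq (C := C) (hj.2.2.2.2.symm.trans hj'.2.2.2.2)
    exact this
  have key : ∑ i, ((if C.low l i then ((j' + k) % C.Q i) * C.E i else 0) + (j % C.Q i) * C.E i) =
      ∑ i, ((if C.low l i then ((j + k) % C.Q i) * C.E i else 0) + (j' % C.Q i) * C.E i) := by
    refine Finset.sum_congr rfl fun i _ => ?_
    rcases i with s | ⟨g', t, b⟩
    · have h0 : ¬ C.low l (Sum.inl s) := fun h => h
      rw [if_neg h0, if_neg h0, ← hj.2.2.1 s, ← hj'.2.2.1 s]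
    · by_cases hon : C.On g (C.κ y) (Sum.inr (g', t, b))
      · have hlow : C.low l (Sum.inr (g', t, b)) := by
          rcases hon with h | ⟨rfl, -⟩
          · exact lt_trans h hl
          · exact hl
        have hd := (hr.1 _).2 hon
        rw [if_pos hlow, if_pos hlow, add_mod_left_dvd hd, add_mod_left_dvd hd]
        ring
      · have d1 := (hj.1 _).2 hon
        have d2 := (hj'.1 _).2 hon
        rw [Nat.mod_eq_zero_of_dvd d1, Nat.mod_eq_zero_of_dvd d2, add_mod_right_dvd d1,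
          add_mod_right_dvd d2]
  rw [Finset.sum_add_distrib, Finset.sum_add_distrib] at key
  have e1 := hj.2.1
  have e2 := hj'.2.1
  rw [hn] at e1
  unfold β
  omega

/-- the three rules for the divisors of `T = j + k` -/
theorem dv_of {g g' : Γ} {y y'} {j k : ℕ} (hj : C.LC g y j) (hk : C.RC g' y' k) {i : Ix Γ L}
    (h1 : ¬ C.On g (C.κ y) i) (h2 : C.On g' (C.κ y') i) : C.Q i ∣ j + k :=
  Dvd.dvd.add ((hj.1 i).2 h1) ((hk.1 i).2 h2)

theorem of_dv {g g' : Γ} {y y'} {j k : ℕ} (hj : C.LC g y j) (hk : C.RC g' y' k) {i : Ix Γ L}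
    (h : C.Q i ∣ j + k) : C.On g (C.κ y) i ↔ ¬ C.On g' (C.κ y') i := by
  have a1 := hj.1 i
  have a2 := hk.1 i
  constructor
  · intro h1 h2
    have := (Nat.dvd_add_left (a2.2 h2)).1 h
    exact (a1.1 this) h1
  · intro h1
    by_contra h2
    have := (Nat.dvd_add_right (a1.2 h2)).1 h
    exact h1 (a2.1 this)

theorem LC.ylt {g : Γ} {y} {j : ℕ} (h : C.LC g y j) : ∀ s, y.1 s < C.B0 := fun s => by
  rw [h.2.2.1 s]
  exact lt_of_lt_of_le (Nat.mod_lt _ (Qpos' _)) (C.QB s)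

/-- generic `T`: the names agree -/
theorem gen_eq {g g' : Γ} {y y'} {j k : ℕ} (hj : C.LC g y j) (hk : C.RC g' y' k)
    (hG : C.Gen (j + k)) : g = g' ∧ y = y' := by
  have hg : g = g' := by
    by_contra hne
    refine hG (Sum.inl (g', true)) (dv_of hj hk ?_ ?_)
    · intro h
      have h' : (true = true ↔ g' = g) := h
      exact hne ((h'.1 rfl).symm)
    · show (true = true ↔ g' = g')
      simp
  subst hg
  refine ⟨rfl, ?_⟩
  refine C.κinj y y' hj.ylt hk.2.1 hj.2.2.2.1 hk.2.2.1 ?_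
  funext t
  by_contra hne
  refine hG (Sum.inr (g, t, C.κ y' t)) (dv_of hj hk ?_ ?_)
  · rintro (h | ⟨-, h⟩)
    · exact lt_irrefl _ h
    · exact hne h.symm
  · exact Or.inr ⟨rfl, rfl⟩

/-- two names and the swapped pair cannot coexist -/
theorem no_swap {g g' : Γ} {y1 y1' y2 y2'} {j1 k1 j2 k2 : ℕ} (hne : g ≠ g')
    (a : C.LC g y1 j1) (a' : C.RC g' y1' k1) (b : C.LC g' y2 j2) (b' : C.RC g y2' k2)
    (hT : j1 + k1 = j2 + k2) : False := by
  have e1 : y2 = y1' := by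
    refine C.κinj y2 y1' b.ylt a'.2.1 b.2.2.2.1 a'.2.2.1 ?_
    funext t
    by_cases hA : C.lev g' < C.lev g
    · -- clock (g', t, ! z t)
      by_contra hc
      have hz : C.Q (Sum.inr (g', t, !(C.κ y2 t))) ∣ j2 + k2 := by
        refine dv_of b b' ?_ (Or.inl hA)
        rintro (h | ⟨-, h⟩)
        · exact lt_irrefl _ h
        · cases C.κ y2 t <;> simp at h
      rw [← hT] at hz
      have h3 := (of_dv a a' hz).1 (Or.inl hA)
      refine h3 (Or.inr ⟨rfl, ?_⟩)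
      revert hc
      cases C.κ y2 t <;> cases C.κ y1' t <;> simp
    · have hz : C.Q (Sum.inr (g', t, C.κ y1' t)) ∣ j1 + k1 := by
        refine dv_of a a' ?_ (Or.inr ⟨rfl, rfl⟩)
        rintro (h | ⟨h, -⟩)
        · exact hA h
        · exact hne h.symm
      rw [hT] at hz
      have h3 := (of_dv b b' hz).2 (by
        rintro (h | ⟨h, -⟩)
        · exact hA h
        · exact hne h.symm)
      rcases h3 with h | ⟨-, h⟩
      · exact (lt_irrefl _ h).elim
      · exact h.symm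
  have e2 : y2' = y1 := by
    refine C.κinj y2' y1 b'.2.1 a.ylt b'.2.2.1 a.2.2.2.1 ?_
    funext t
    by_cases hB : C.lev g < C.lev g'
    · by_contra hc
      have hz : C.Q (Sum.inr (g, t, !(C.κ y1 t))) ∣ j1 + k1 := by
        refine dv_of a a' ?_ (Or.inl hB)
        rintro (h | ⟨-, h⟩)
        · exact lt_irrefl _ h
        · cases C.κ y1 t <;> simp at h
      rw [hT] at hz
      have h3 := (of_dv b b' hz).1 (Or.inl hB)
      refine h3 (Or.inr ⟨rfl, ?_⟩)
      revert hc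
      cases C.κ y1 t <;> cases C.κ y2' t <;> simp
    · have hz : C.Q (Sum.inr (g, t, C.κ y2' t)) ∣ j2 + k2 := by
        refine dv_of b b' ?_ (Or.inr ⟨rfl, rfl⟩)
        rintro (h | ⟨h, -⟩)
        · exact hB h
        · exact hne h
      rw [← hT] at hz
      have h3 := (of_dv a a' hz).2 (by
        rintro (h | ⟨h, -⟩)
        · exact hB h
        · exact hne h)
      rcases h3 with h | ⟨-, h⟩
      · exact (lt_irrefl _ h).elim
      · exact h
  subst e1 e2
  have h1 : 2 * (j1 + k1) + C.δ g' ≡ y2'.2 + C.δ g + y2.2 [MOD C.n0] := by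
    have u1 := a.2.2.2.2
    have u2 := a'.2.2.2
    calc 2 * (j1 + k1) + C.δ g' = 2 * j1 + (2 * k1 + C.δ g') := by ring
      _ ≡ (y2'.2 + C.δ g) + y2.2 [MOD C.n0] := Nat.ModEq.add u1.symm u2.symm
  have h2 : 2 * (j2 + k2) + C.δ g ≡ y2.2 + C.δ g' + y2'.2 [MOD C.n0] := by
    have u1 := b.2.2.2.2
    have u2 := b'.2.2.2
    calc 2 * (j2 + k2) + C.δ g = 2 * j2 + (2 * k2 + C.δ g) := by ring
      _ ≡ (y2.2 + C.δ g') + y2'.2 [MOD C.n0] := Nat.ModEq.add u1.symm u2.symm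
  rw [hT] at h1
  have h3 : (2 * (j2 + k2) + C.δ g') + (y2.2 + C.δ g' + y2'.2) ≡
      (y2'.2 + C.δ g + y2.2) + (2 * (j2 + k2) + C.δ g) [MOD C.n0] := h1.add h2.symm
  have h4 : 2 * C.δ g' + (2 * (j2 + k2) + y2.2 + y2'.2) ≡
      2 * C.δ g + (2 * (j2 + k2) + y2.2 + y2'.2) [MOD C.n0] := by
    have q1 : 2 * C.δ g' + (2 * (j2 + k2) + y2.2 + y2'.2) =
      (2 * (j2 + k2) + C.δ g') + (y2.2 + C.δ g' + y2'.2) := by ring
    have q2 : 2 * C.δ g + (2 * (j2 + k2) + y2.2 + y2'.2) =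
      (y2'.2 + C.δ g + y2.2) + (2 * (j2 + k2) + C.δ g) := by ring
    rw [q1, q2]; exact h3
  have h5 := mod_n0_eq (C := C) (Nat.ModEq.add_right_cancel' _ h4)
  have h6 : C.δ g' = C.δ g := Nat.ModEq.eq_of_lt_of_lt h5 (C.δlt g') (C.δlt g)
  exact hne (C.δinj h6).symm

/-- bad `T`: only one ordered pair of contexts -/
theorem bad_eq {g1 g1' g2 g2' : Γ} {y1 y1' y2 y2'} {j1 k1 j2 k2 : ℕ}
    (a : C.LC g1 y1 j1) (a' : C.RC g1' y1' k1) (b : C.LC g2 y2 j2) (b' : C.RC g2' y2' k2)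
    (hT : j1 + k1 = j2 + k2) (hG : ¬ C.Gen (j1 + k1)) : g1 = g2 ∧ g1' = g2' := by
  have star : ∀ {g g' : Γ} {y y'} {j k : ℕ}, C.LC g y j → C.RC g' y' k → g ≠ g' →
      C.Q (Sum.inl (g', true)) ∣ j + k ∧ C.Q (Sum.inl (g, false)) ∣ j + k := by
    intro g g' y y' j k h h' hne
    constructor
    · refine dv_of h h' ?_ ?_
      · intro hh
        have hh' : (true = true ↔ g' = g) := hh
        exact hne ((hh'.1 rfl).symm)
      · show (true = true ↔ g' = g')
        simp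
    · refine dv_of h h' ?_ ?_
      · intro hh
        have hh' : (false = true ↔ g = g) := hh
        simp at hh'
      · show (false = true ↔ g = g')
        simp [hne]
  by_cases hs : ∃ s, C.Q (Sum.inl s) ∣ j1 + k1
  · obtain ⟨s0, hs0⟩ := hs
    have ne1 : g1 ≠ g1' := by
      rintro rfl
      have h := of_dv a a' hs0
      have e : C.On g1 (C.κ y1) (Sum.inl s0) ↔ C.On g1 (C.κ y1') (Sum.inl s0) := Iff.rfl
      rw [e] at h
      tauto
    have ne2 : g2 ≠ g2' := by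
      rintro rfl
      have h := of_dv b b' (hT ▸ hs0)
      have e : C.On g2 (C.κ y2) (Sum.inl s0) ↔ C.On g2 (C.κ y2') (Sum.inl s0) := Iff.rfl
      rw [e] at h
      tauto
    obtain ⟨d1, d2⟩ := star a a' ne1
    rw [hT] at d1 d2
    have c1 : (true = true ↔ g1' = g2) ↔ ¬ (true = true ↔ g1' = g2') := of_dv b b' d1
    have c2 : (false = true ↔ g1 = g2) ↔ ¬ (false = true ↔ g1 = g2') := of_dv b b' d2
    simp only [true_iff] at c1
    simp only [Bool.false_eq_true, false_iff] at c2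
    by_cases h : g1 = g2
    · refine ⟨h, ?_⟩
      by_contra h'
      have : g1' = g2 := c1.2 h'
      exact ne1 (h.trans this.symm)
    · exfalso
      have h2 : g1 = g2' := by
        by_contra h3
        exact (c2.1 h) h3
      have h4 : g1' = g2 := by
        apply c1.2
        intro h5
        exact ne1 (h2.trans h5.symm)
      subst h2 h4
      exact no_swap ne1 a a' b b' hT
  · have hs' : ∀ s, ¬ C.Q (Sum.inl s) ∣ j1 + k1 := fun s h => hs ⟨s, h⟩
    have e1 : g1 = g1' := by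
      by_contra hne
      exact hs' _ (star a a' hne).1
    have e2 : g2 = g2' := by
      by_contra hne
      exact hs' _ (hT ▸ (star b b' hne).1)
    subst e1 e2
    have hG' : ∃ i, C.Q i ∣ j1 + k1 := by
      by_contra h
      exact hG fun i hi => h ⟨i, hi⟩
    obtain ⟨i, hi⟩ := hG'
    rcases i with s | ⟨g0, t, c⟩
    · exact (hs' s hi).elim
    · have h1 := of_dv a a' hi
      have h2 := of_dv b b' (hT ▸ hi)
      have f1 : g0 = g1 := by
        by_contra hne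
        have e : C.On g1 (C.κ y1) (Sum.inr (g0, t, c)) ↔ C.On g1 (C.κ y1') (Sum.inr (g0, t, c)) := by
          show (_ ∨ _) ↔ (_ ∨ _)
          simp [hne]
        rw [e] at h1
        tauto
      have f2 : g0 = g2 := by
        by_contra hne
        have e : C.On g2 (C.κ y2) (Sum.inr (g0, t, c)) ↔ C.On g2 (C.κ y2') (Sum.inr (g0, t, c)) := by
          show (_ ∨ _) ↔ (_ ∨ _)
          simp [hne]
        rw [e] at h2
        tauto
      exact ⟨f1.symm.trans f2, f1.symm.trans f2⟩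

theorem pos_mod (r : Ix Γ L → ℕ) (hr : ∀ i, r i < C.Q i) (a h : ℕ) (i : Ix Γ L) :
    (C.Lam * a + ∑ i, r i * C.E i + h * C.E0) % C.Q i = r i := by
  have h1 : (C.Lam * a + ∑ i, r i * C.E i + h * C.E0 : ℕ) ≡ r i [MOD C.Q i] := by
    rw [← ZMod.natCast_eq_natCast_iff]
    push_cast
    have hL : ((C.Lam : ℕ) : ZMod (C.Q i)) = 0 := (ZMod.natCast_eq_zero_iff _ _).2 (C.LQ i)
    have h0 : ((C.E0 : ℕ) : ZMod (C.Q i)) = 0 := (ZMod.natCast_eq_zero_iff _ _).2 (C.E0o i)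
    have hE : ∀ i', ((C.E i' : ℕ) : ZMod (C.Q i)) = if i' = i then 1 else 0 := by
      intro i'
      split_ifs with hi
      · subst hi
        have := (ZMod.natCast_eq_natCast_iff _ _ _).2 (C.E1 i')
        simpa using this
      · exact (ZMod.natCast_eq_zero_iff _ _).2 (C.Eo i i' hi)
    simp only [hL, h0, hE, zero_mul, mul_zero, mul_ite, mul_one, Finset.sum_ite_eq',
      Finset.mem_univ, if_true, zero_add, add_zero]
  have h2 := Nat.ModEq.symm h1
  have h3 : r i % C.Q i = (C.Lam * a + ∑ i, r i * C.E i + h * C.E0) % C.Q i := h2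
  rw [← h3, Nat.mod_eq_of_lt (hr i)]

theorem pos_mod0 (r : Ix Γ L → ℕ) (a h : ℕ) (hh : h < C.n0) :
    (C.Lam * a + ∑ i, r i * C.E i + h * C.E0) % C.n0 = h := by
  have h1 : (C.Lam * a + ∑ i, r i * C.E i + h * C.E0 : ℕ) ≡ h [MOD C.n0] := by
    rw [← ZMod.natCast_eq_natCast_iff]
    push_cast
    have hL : ((C.Lam : ℕ) : ZMod C.n0) = 0 := (ZMod.natCast_eq_zero_iff _ _).2 C.Ln
    have h0 : ((C.E0 : ℕ) : ZMod C.n0) = 1 := by
      have := (ZMod.natCast_eq_natCast_iff _ _ _).2 C.E01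
      simpa using this
    have hE : ∀ i', ((C.E i' : ℕ) : ZMod C.n0) = 0 := fun i' =>
      (ZMod.natCast_eq_zero_iff _ _).2 (C.En i')
    simp only [hL, h0, hE, zero_mul, mul_zero, Finset.sum_const_zero, zero_add, mul_one]
  have h3 : h % C.n0 = (C.Lam * a + ∑ i, r i * C.E i + h * C.E0) % C.n0 := h1.symm
  rw [← h3, Nat.mod_eq_of_lt hh]

/-- every context has a junction in every generic `T` -/
theorem exists_junction {T : ℕ} (hG : C.Gen T) (hT : C.Lam * (2 * C.m) ≤ T) (g : Γ) :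
    ∃ y j k, j + k = T ∧ C.LC g y j ∧ C.RC g y k := by
  classical
  have hcop : Nat.Coprime C.n0 2 := (Nat.coprime_two_right).2 C.n0odd
  -- the half
  obtain ⟨h0, h0lt, h0e⟩ : ∃ h < C.n0, 2 * h ≡ T % C.n0 + C.δ g [MOD C.n0] := by
    obtain ⟨c, hc⟩ := C.n0odd
    have hm : 2 * ((c + 1) * (T % C.n0 + C.δ g)) ≡ T % C.n0 + C.δ g [MOD C.n0] := by
      have e : 2 * ((c + 1) * (T % C.n0 + C.δ g)) =
        (T % C.n0 + C.δ g) + C.n0 * (T % C.n0 + C.δ g) := by
        generalize T % C.n0 + C.δ g = z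
        rw [hc]; ring
      rw [e]
      show (_ + C.n0 * _) % C.n0 = _ % C.n0
      rw [Nat.add_mul_mod_self_left]
    refine ⟨((c + 1) * (T % C.n0 + C.δ g)) % C.n0, Nat.mod_lt _ n0pos, ?_⟩
    exact (Nat.ModEq.mul_left 2 (Nat.mod_modEq _ _)).trans hm
  let r0 : (Γ × Bool) → ℕ := fun s => if (s.2 = true ↔ s.1 = g) then T % C.Q (Sum.inl s) else 0
  let y : ((Γ × Bool) → ℕ) × ℕ := (r0, T % C.n0)
  let r : Ix Γ L → ℕ := fun i => if C.On g (C.κ y) i then T % C.Q i else 0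
  have hr : ∀ i, r i < C.Q i := fun i => by
    show (if _ then _ else _) < _
    split_ifs
    · exact Nat.mod_lt _ (Qpos' i)
    · exact Qpos' i
  have hTpos : ∀ i, 0 < T % C.Q i := fun i =>
    Nat.pos_of_ne_zero fun h => hG i (Nat.dvd_of_mod_eq_zero h)
  set j := C.Lam * (2 * C.lev g + 1) + ∑ i, r i * C.E i + h0 * C.E0 with hj
  have jm : ∀ i, j % C.Q i = r i := fun i => pos_mod r hr _ _ i
  have jn : j % C.n0 = h0 := pos_mod0 r _ _ h0lt
  have jle : j ≤ C.Lam * (2 * C.m) := by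
    have h1 := sum_le (C := C) r (fun i => (hr i).le) h0 h0lt.le
    have h2 := C.lev_lt g
    have h3 : C.Lam * (2 * C.lev g + 2) ≤ C.Lam * (2 * C.m) := Nat.mul_le_mul_left _ (by omega)
    have h4 : C.Lam * (2 * C.lev g + 2) = C.Lam * (2 * C.lev g + 1) + C.Lam := by ring
    omega
  have jd : ∀ i, C.Q i ∣ j ↔ ¬ C.On g (C.κ y) i := by
    intro i
    rw [Nat.dvd_iff_mod_eq_zero, jm i]
    show (if _ then _ else _) = 0 ↔ _
    split_ifs with h
    · constructor
      · intro h'; exact ((hTpos i).ne' h').elim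
      · intro h'; exact (h' h).elim
    · simp [h]
  have hjk : j + (T - j) = T := by omega
  have kd : ∀ i, C.Q i ∣ (T - j) ↔ C.On g (C.κ y) i := by
    intro i
    constructor
    · intro h
      by_contra h'
      exact hG i (by rw [← hjk]; exact Dvd.dvd.add ((jd i).2 h') h)
    · intro h
      have e : j % C.Q i = T % C.Q i := by
        rw [jm i]; show (if _ then _ else _) = _; rw [if_pos h]
      exact (Nat.modEq_iff_dvd' (by omega)).1 e
  refine ⟨y, j, T - j, hjk, ⟨jd, ?_, ?_, Nat.mod_lt _ n0pos, ?_⟩, kd, ?_, Nat.mod_lt _ n0pos, ?_⟩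
  · rw [jn]
    have : ∑ i, (j % C.Q i) * C.E i = ∑ i, r i * C.E i :=
      Finset.sum_congr rfl fun i _ => by rw [jm i]
    rw [this]
  · intro s
    rw [jm]
    exact if_congr Iff.rfl rfl rfl
  · refine Nat.ModEq.symm (Nat.ModEq.trans ?_ h0e)
    exact Nat.ModEq.mul_left 2 (by rw [← jn]; exact (Nat.mod_modEq _ _).symm)
  · intro s
    show (if _ then _ else _) < _
    split_ifs
    · exact lt_of_lt_of_le (Nat.mod_lt _ (Qpos' _)) (C.QB s)
    · exact lt_of_lt_of_le (Qpos' _) (C.QB s)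
  · -- `t ≡ 2 k + δ`
    have e1 : 2 * j ≡ T + C.δ g [MOD C.n0] := by
      have q1 : 2 * j ≡ 2 * h0 [MOD C.n0] :=
        Nat.ModEq.mul_left 2 (by rw [← jn]; exact (Nat.mod_modEq _ _).symm)
      exact q1.trans (h0e.trans (Nat.ModEq.add_right _ (Nat.mod_modEq _ _)))
    have e2 : 2 * j + (2 * (T - j) + C.δ g) ≡ 2 * j + T % C.n0 [MOD C.n0] := by
      have q2 : 2 * j + (2 * (T - j) + C.δ g) = T + (T + C.δ g) := by omega
      rw [q2]
      calc T + (T + C.δ g) ≡ T + 2 * j [MOD C.n0] := Nat.ModEq.add_left _ e1.symm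
        _ = 2 * j + T := by ring
        _ ≡ 2 * j + T % C.n0 [MOD C.n0] := Nat.ModEq.add_left _ (Nat.mod_modEq _ _).symm
    exact (Nat.ModEq.add_left_cancel' _ e2).symm

end Clk

end Crest.Agent.R320.UG_686
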