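import Crest.Agent.R320.UGClk_686
import Crest.Agent.R320.RandF_808

/-!
# Row 320: the all-words U-gadget over the clocks of `UGClk_686` (helper686)

`T = |u|` unknown to both sides, contents arbitrary, block ends `β l T`.
-/

set_option autoImplicit false

namespace Crest.Agent.R320.UG_686

open Finset

section lists
variable {A : Type*}

/-- slice `u[a, b)` -/
def sl (u : List A) (a b : ℕ) : List A := (u.drop a).take (b - a)

theorem split3 (u : List A) {a b : ℕ} (hab : a ≤ b) : u = u.take a ++ sl u a b ++ u.drop b := by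
  have h1 : (u.drop a).drop (b - a) = u.drop b := by
    rw [List.drop_drop]; congr 1; omega
  rw [List.append_assoc, sl, ← h1, List.take_append_drop, List.take_append_drop]

theorem sl_left {P Q : List A} {a b : ℕ} (hab : a ≤ b) (hb : b ≤ P.length) :
    sl (P ++ Q) a b = sl P a b := by
  unfold sl
  rw [List.drop_append_of_le_length (hab.trans hb), List.take_append_of_le_length]
  rw [List.length_drop]; omega

theorem drop_right {P Q : List A} {b : ℕ} (h : P.length ≤ b) :
    (P ++ Q).drop b = Q.drop (b - P.length) := by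
  rw [List.drop_append, List.drop_eq_nil_of_le h, List.nil_append]

theorem sl_right {P Q : List A} {a b : ℕ} (h : P.length ≤ a) :
    sl (P ++ Q) a b = sl Q (a - P.length) (b - P.length) := by
  unfold sl
  rw [drop_right h]
  congr 1
  omega

end lists

/-- contexts `(i, g, wl, h, wr, v)` -/
abbrev Ctx (m : ℕ) (S V : Type) (N : ℕ) : Type :=
  Fin m × S × (ZMod N × ZMod N) × S × (ZMod N × ZMod N) × V

section gadget

variable {S V : Type} [Monoid S] [AddCommGroup V] {m N L : ℕ}
variable (act : V → S → V) (e : ℕ → S → ZMod N × ZMod N) (F : S → ZMod N × ZMod N → V)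

/-- the value of a context -/
def val (γ : Ctx m S V N) : V :=
  F (γ.2.1 * 1 * γ.2.2.2.1) (γ.2.2.1 + e γ.1 1 + γ.2.2.2.2.1) +
    act γ.2.2.2.2.2 (γ.2.1 * 1 * γ.2.2.2.1)

/-- good contexts -/
def Good (γ : Ctx m S V N) : Prop :=
  ∀ z : S, F (γ.2.1 * z * γ.2.2.2.1) (γ.2.2.1 + e γ.1 z + γ.2.2.2.2.1) +
    act γ.2.2.2.2.2 (γ.2.1 * z * γ.2.2.2.1) = val act e F γ

variable [Fintype (Ctx m S V N)] [DecidableEq (Ctx m S V N)]
variable (C : Clk (Ctx m S V N) L) {A : Type*} (ph : List A → S)

/-- weight of the block `l` of a zone of length `T`, seen in the word `u` shifted by `c` -/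
noncomputable def wt (u : List A) (T c l : ℕ) : ZMod N × ZMod N :=
  e l (ph (sl u (C.β l T - c) (C.β (l + 1) T - c)))

/-- left legality -/
def LL (γ : Ctx m S V N) (y : ((Ctx m S V N × Bool) → ℕ) × ℕ) (P : List A) : Prop :=
  C.LC γ y P.length ∧ Good act e F γ ∧ ph (P.take (C.β γ.1 P.length)) = γ.2.1 ∧
  ∑ l ∈ range γ.1, wt e C ph P P.length 0 l = γ.2.2.1

/-- right legality -/
def RR (γ : Ctx m S V N) (y : ((Ctx m S V N × Bool) → ℕ) × ℕ) (Q : List A) : Prop :=
  C.RC γ y Q.length ∧ Good act e F γ ∧ ∀ j, C.LC γ y j →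
    ph (Q.drop (C.β (γ.1 + 1) (j + Q.length) - j)) = γ.2.2.2.1 ∧
    ∑ l ∈ Ico ((γ.1 : ℕ) + 1) m, wt e C ph Q (j + Q.length) j l = γ.2.2.2.2.1

open Classical in
/-- the noise -/
noncomputable def nu (u : List A) : V :=
  if C.Gen u.length then F (ph u) (∑ l ∈ range m, wt e C ph u u.length 0 l)
  else if h : ∃ p : V × V, ∃ γ y γ' y' j k, j + k = u.length ∧ C.LC γ y j ∧ C.RC γ' y' k ∧
      p = (γ.2.2.2.2.2, val act e F γ') then h.choose.2 - act h.choose.1 (ph u) else 0

variable (hlev : ∀ γ, C.lev γ = γ.1) (hm : C.m = m)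
  (hph : ∀ u v : List A, ph (u ++ v) = ph u * ph v)

include hlev hph

/-- soundness, for every length and every content -/
theorem sound {γ γ' : Ctx m S V N} {y y'} {P Q : List A} (hL : LL act e F C ph γ y P)
    (hR : RR act e F C ph γ' y' Q) :
    val act e F γ' = act γ.2.2.2.2.2 (ph (P ++ Q)) + nu act e F C ph (P ++ Q) := by
  classical
  by_cases hG : C.Gen (P ++ Q).length
  · rw [nu, if_pos hG]
    rw [List.length_append] at hG
    obtain ⟨rfl, rfl⟩ := Clk.gen_eq hL.1 hR.1 hG
    obtain ⟨hL1, hgood, hg, hwl⟩ := hL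
    obtain ⟨hR1, -, hR2⟩ := hR
    obtain ⟨hh, hwr⟩ := hR2 _ hL1
    set j := P.length with hj
    set k := Q.length with hk
    have hlen : (P ++ Q).length = j + k := List.length_append
    set i : ℕ := (γ.1 : ℕ) with hi
    have hli : C.lev γ = i := hlev γ
    have b1 : ∀ l ≤ i, C.β l (j + k) = C.β l j := fun l hl =>
      Clk.β_left hR1 (by rw [hli]; exact hl)
    have b2 : C.β i (j + k) ≤ j := by
      have := hL1.β_le (j + k); rwa [hli] at this
    have b3 : j ≤ C.β (i + 1) (j + k) := by
      have := hL1.le_β (j + k); rwa [hli] at this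
    have mono : ∀ a b, a ≤ b → C.β a (j + k) ≤ C.β b (j + k) := fun a b hab =>
      monotone_nat_of_le_succ (f := fun l => C.β l (j + k)) (fun l => Clk.β_mono l _) hab
    have hsplit := split3 (P ++ Q) (Clk.β_mono (C := C) i (j + k))
    set z := ph (sl (P ++ Q) (C.β i (j + k)) (C.β (i + 1) (j + k))) with hz
    have h1 : (P ++ Q).take (C.β i (j + k)) = P.take (C.β i j) := by
      rw [List.take_append_of_le_length b2, b1 i le_rfl]
    have h3 : (P ++ Q).drop (C.β (i + 1) (j + k)) = Q.drop (C.β (i + 1) (j + k) - j) :=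
      drop_right b3
    have e1 : ph (P ++ Q) = γ.2.1 * z * γ.2.2.2.1 := by
      have q : ph (P ++ Q) = ph ((P ++ Q).take (C.β i (j + k))) *
          ph (sl (P ++ Q) (C.β i (j + k)) (C.β (i + 1) (j + k))) *
          ph ((P ++ Q).drop (C.β (i + 1) (j + k))) := by
        rw [← hph, ← hph, ← hsplit]
      rw [q, h1, h3, hg, hh]
    have e2 : ∑ l ∈ range m, wt e C ph (P ++ Q) (P ++ Q).length 0 l =
        γ.2.2.1 + e γ.1 z + γ.2.2.2.2.1 := by
      have him : i < m := γ.1.2
      rw [hlen, ← Finset.sum_range_add_sum_Ico _ him.le, Finset.sum_eq_sum_Ico_succ_bot him,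
        ← hwl, ← hwr, add_assoc]
      refine congrArg₂ (· + ·) ?_ (congrArg₂ (· + ·) rfl ?_)
      · refine Finset.sum_congr rfl fun l hl => ?_
        have hl' : l < i := Finset.mem_range.1 hl
        have q1 := b1 l hl'.le
        have q2 := b1 (l + 1) hl'
        have q3 := Clk.β_mono (C := C) l (j + k)
        have q4 := (mono (l + 1) i hl').trans b2
        unfold wt
        simp only [Nat.sub_zero]
        rw [q1, q2] at q3
        rw [q2] at q4
        rw [q1, q2, sl_left q3 q4]
      · refine Finset.sum_congr rfl fun l hl => ?_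
        have hl' : i + 1 ≤ l := (Finset.mem_Ico.1 hl).1
        unfold wt
        simp only [Nat.sub_zero]
        rw [sl_right (b3.trans (mono (i + 1) l hl'))]
    rw [e2, e1, ← hgood z, add_comm]
  · rw [nu, if_neg hG]
    have hex : ∃ p : V × V, ∃ γ y γ' y' j k, j + k = (P ++ Q).length ∧ C.LC γ y j ∧
        C.RC γ' y' k ∧ p = (γ.2.2.2.2.2, val act e F γ') :=
      ⟨_, γ, y, γ', y', P.length, Q.length, (List.length_append).symm, hL.1, hR.1, rfl⟩
    rw [dif_pos hex]
    obtain ⟨γ2, y2, γ2', y2', j2, k2, hT, h1, h2, h3⟩ := hex.choose_spec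
    have hT' : P.length + Q.length = j2 + k2 := by rw [hT, List.length_append]
    have hG' : ¬ C.Gen (P.length + Q.length) := by rwa [← List.length_append]
    obtain ⟨e1, e2⟩ := Clk.bad_eq hL.1 hR.1 h1 h2 hT' hG'
    rw [h3, ← e1, ← e2]
    abel

/-- completeness -/
theorem complete (hm : C.m = m)
    (hF : ∀ (s : S) (w : ZMod N × ZMod N) (v : V), ∃ i < m, ∀ g x h : S, g * x * h = s → ∀ z : S,
        F (g * z * h) (w - e i x + e i z) + act v (g * z * h) = F s w + act v s)
    (u : List A) (hG : C.Gen u.length) (hT : C.Lam * (2 * m) ≤ u.length) (v : V) :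
    ∃ γ y P Q, u = P ++ Q ∧ γ.2.2.2.2.2 = v ∧ LL act e F C ph γ y P ∧ RR act e F C ph γ y Q := by
  classical
  obtain ⟨i, him, hgood⟩ := hF (ph u) (∑ l ∈ range m, wt e C ph u u.length 0 l) v
  set T := u.length with hTdef
  have mono : ∀ a b, a ≤ b → C.β a T ≤ C.β b T := fun a b hab =>
    monotone_nat_of_le_succ (f := fun l => C.β l T) (fun l => Clk.β_mono l _) hab
  let g := ph (u.take (C.β i T))
  let x := ph (sl u (C.β i T) (C.β (i + 1) T))
  let h := ph (u.drop (C.β (i + 1) T))
  let wl := ∑ l ∈ range i, wt e C ph u T 0 l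
  let wr := ∑ l ∈ Ico (i + 1) m, wt e C ph u T 0 l
  let γ : Ctx m S V N := (⟨i, him⟩, g, wl, h, wr, v)
  have hgxh : g * x * h = ph u := by
    conv_rhs => rw [split3 u (Clk.β_mono (C := C) i T), hph, hph]
  have hw : ∑ l ∈ range m, wt e C ph u T 0 l = wl + e i x + wr := by
    rw [← Finset.sum_range_add_sum_Ico _ him.le, Finset.sum_eq_sum_Ico_succ_bot him, add_assoc]
    congr 1
  have hgood' := hgood g x h hgxh
  have hg2 : ∀ z : S, F (g * z * h) (wl + e i z + wr) + act v (g * z * h) =
      F (ph u) (∑ l ∈ range m, wt e C ph u T 0 l) + act v (ph u) := by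
    intro z
    have := hgood' z
    rw [hw] at this ⊢
    rw [← this]
    congr 2
    abel
  have hGood : Good act e F γ := by
    intro z
    have a1 := hg2 z
    have a2 := hg2 1
    exact a1.trans a2.symm
  obtain ⟨y, j, k, hjk, hLC, hRC⟩ := Clk.exists_junction (C := C) hG (by rw [hm]; exact hT) γ
  have hli : C.lev γ = i := hlev γ
  have b2 : C.β i T ≤ j := by
    have := hLC.β_le T; rwa [hli] at this
  have b3 : j ≤ C.β (i + 1) T := by
    have := hLC.le_β T; rwa [hli] at this
  have b1 : ∀ l ≤ i, C.β l T = C.β l j := fun l hl => by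
    rw [← hjk]; exact Clk.β_left hRC (by rw [hli]; exact hl)
  have hjT : j ≤ u.length := by omega
  have hPl : (u.take j).length = j := by rw [List.length_take]; omega
  have hQl : (u.drop j).length = k := by rw [List.length_drop]; omega
  have hu : u = u.take j ++ u.drop j := (List.take_append_drop j u).symm
  refine ⟨γ, y, u.take j, u.drop j, hu, rfl, ⟨by rw [hPl]; exact hLC, hGood, ?_, ?_⟩,
    by rw [hQl]; exact hRC, hGood, ?_⟩
  · rw [hPl]
    show ph ((u.take j).take (C.β i j)) = g
    rw [← b1 i le_rfl, List.take_take, min_eq_left b2]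
  · rw [hPl]
    show ∑ l ∈ range i, wt e C ph (u.take j) j 0 l = wl
    refine Finset.sum_congr rfl fun l hl => ?_
    have hl' : l < i := Finset.mem_range.1 hl
    unfold wt
    simp only [Nat.sub_zero]
    rw [← b1 l hl'.le, ← b1 (l + 1) hl']
    conv_rhs => rw [hu, sl_left (Clk.β_mono l _) (by rw [hPl]; exact (mono (l + 1) i hl').trans b2)]
  · intro j' hj'
    rw [hQl]
    have hb : ∀ l, i + 1 ≤ l → C.β l (j' + k) - j' = C.β l T - j := by
      intro l hl
      have h1 := Clk.β_right hLC hj' hRC (l := l) (by rw [hli]; exact hl)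
      rw [hjk] at h1
      have h2 : j ≤ C.β l T := b3.trans (mono (i + 1) l hl)
      omega
    constructor
    · show ph ((u.drop j).drop (C.β (i + 1) (j' + k) - j')) = h
      rw [hb (i + 1) le_rfl, List.drop_drop]
      show ph _ = ph _
      congr 2
      omega
    · show ∑ l ∈ Ico (i + 1) m, wt e C ph (u.drop j) (j' + k) j' l = wr
      refine Finset.sum_congr rfl fun l hl => ?_
      have hl' : i + 1 ≤ l := (Finset.mem_Ico.1 hl).1
      unfold wt
      rw [hb l hl', hb (l + 1) (by omega)]
      simp only [Nat.sub_zero]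
      conv_rhs => rw [hu, sl_right (by rw [hPl]; exact b3.trans (mono (i + 1) l hl')), hPl]

end gadget

end Crest.Agent.R320.UG_686
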