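import Mathlib

/-!
# Row 320: the all-words U-gadget, word part (grids of helper693), helper121
-/

set_option autoImplicit false

namespace Crest.Agent.R320.UGI_121

open Finset

/-! ### positions -/

/-- `A_j^-` -/
def Am (P G j : ℕ) : ℕ := (1 + P) * ∑ l ∈ range j, G ^ l

theorem Am_succ (P G j : ℕ) : Am P G (j + 1) = Am P G j + G ^ j + P * G ^ j := by
  unfold Am; rw [sum_range_succ]; ring

theorem Am_mono (P G : ℕ) {i j : ℕ} (h : i ≤ j) : Am P G i ≤ Am P G j := by
  unfold Am
  exact Nat.mul_le_mul_left _ (sum_le_sum_of_subset (range_mono h))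

/-- `A_i` -/
def Ai (P G i : ℕ) : ℕ := Am P G i + G ^ i

theorem Am_le_Ai (P G i : ℕ) : Am P G i ≤ Ai P G i := Nat.le_add_right _ _

theorem Ai_mono (P G : ℕ) (hG : 0 < G) {i j : ℕ} (h : i ≤ j) : Ai P G i ≤ Ai P G j :=
  Nat.add_le_add (Am_mono P G h) (Nat.pow_le_pow_right hG h)

theorem Ai_add_le (P G : ℕ) {i j : ℕ} (h : i < j) : Ai P G i + P * G ^ i ≤ Am P G j := by
  have := Am_mono P G (show i + 1 ≤ j from h)
  rw [Am_succ] at this
  unfold Ai; exact this

/-- boundary `beta_j(T)` -/
def bt (P G j T : ℕ) : ℕ := Am P G j + (T - Am P G j) % G ^ j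

theorem bt_lt (P G j T : ℕ) (hG : 0 < G) : bt P G j T < Ai P G j :=
  Nat.add_lt_add_left (Nat.mod_lt _ (Nat.pow_pos hG)) _

theorem Am_le_bt (P G j T : ℕ) : Am P G j ≤ bt P G j T := Nat.le_add_right _ _

theorem bt_mono (P G T : ℕ) (hG : 0 < G) {i j : ℕ} (h : i ≤ j) : bt P G i T ≤ bt P G j T := by
  rcases Nat.eq_or_lt_of_le h with rfl | h
  · exact le_rfl
  · have h1 := bt_lt P G i T hG
    have h2 := Ai_add_le P G h
    have h3 := Am_le_bt P G j T
    omega

/-- boundary seen by the right word -/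
def rb (P G i j o : ℕ) : ℕ := (Am P G j - Ai P G i) + (o + Ai P G i - Am P G j) % G ^ j

theorem left_pos {P G i j o o' : ℕ} (hG : 0 < G) (hj : j ≤ i) (ho : Ai P G i ≤ o)
    (hd : G ^ i ∣ o') : bt P G j (o + o') = bt P G j o := by
  unfold bt
  have h1 : Am P G j ≤ o := (Am_le_Ai P G j).trans ((Ai_mono P G hG hj).trans ho)
  have h2 : o + o' - Am P G j = (o - Am P G j) + o' := by omega
  obtain ⟨c, rfl⟩ := (pow_dvd_pow G hj).trans hd
  rw [h2, Nat.add_mul_mod_self_left]

theorem right_pos {P G i j o o' : ℕ} (hj : i < j) (ho : Ai P G i ≤ o)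
    (ho2 : o < Ai P G i + P * G ^ i) (hl : Am P G j ≤ o')
    (hc : (o' + Ai P G i - Am P G j) % G ^ j + P * G ^ i ≤ G ^ j) :
    bt P G j (o + o') = o + rb P G i j o' := by
  have h0 := Ai_add_le P G hj
  unfold bt rb
  obtain ⟨x, rfl⟩ := Nat.exists_eq_add_of_le ho
  have hx : x < P * G ^ i := by omega
  have e1 : Ai P G i + x + o' - Am P G j = (o' + Ai P G i - Am P G j) + x := by omega
  have e2 : ((o' + Ai P G i - Am P G j) + x) % G ^ j = (o' + Ai P G i - Am P G j) % G ^ j + x := by
    rw [← Nat.mod_add_mod]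
    exact Nat.mod_eq_of_lt (by omega)
  rw [e1, e2]
  omega

/-! ### segments -/

section words

variable {A S : Type*} [Monoid S] (f : A → S)

def pr (w : List A) : S := (w.map f).prod
def hd (w : List A) (a : ℕ) : S := pr f (w.take a)
def tl (w : List A) (a : ℕ) : S := pr f (w.drop a)
def sg (w : List A) (a b : ℕ) : S := pr f ((w.drop a).take (b - a))

theorem pr_append (u w : List A) : pr f (u ++ w) = pr f u * pr f w := by simp [pr]

theorem hd_mul_tl (w : List A) (a : ℕ) : hd f w a * tl f w a = pr f w := by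
  rw [hd, tl, ← pr_append, List.take_append_drop]

theorem sg_mul_tl (w : List A) {a b : ℕ} (h : a ≤ b) : sg f w a b * tl f w b = tl f w a := by
  rw [sg, tl, tl, ← pr_append]
  congr 1
  have : w.drop b = (w.drop a).drop (b - a) := by
    rw [List.drop_drop]; congr 1; omega
  rw [this, List.take_append_drop]

theorem hd_left (p q : List A) {a : ℕ} (h : a ≤ p.length) : hd f (p ++ q) a = hd f p a := by
  rw [hd, hd, List.take_append_of_le_length h]

theorem sg_left (p q : List A) {a b : ℕ} (hab : a ≤ b) (h : b ≤ p.length) :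
    sg f (p ++ q) a b = sg f p a b := by
  rw [sg, sg, List.drop_append_of_le_length (hab.trans h), List.take_append_of_le_length]
  rw [List.length_drop]; omega

theorem tl_right (p q : List A) (a : ℕ) : tl f (p ++ q) (p.length + a) = tl f q a := by
  rw [tl, tl, List.drop_append]
  congr 1
  simp

theorem sg_right (p q : List A) (a b : ℕ) :
    sg f (p ++ q) (p.length + a) (p.length + b) = sg f q a b := by
  rw [sg, sg]
  congr 1
  rw [List.drop_append, List.drop_of_length_le (by omega)]
  have e : p.length + b - (p.length + a) = b - a := by omega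
  rw [e]
  simp

theorem sg_take (w : List A) {a b L : ℕ} (hb : b ≤ L) (hab : a ≤ b) (hL : L ≤ w.length) :
    sg f (w.take L) a b = sg f w a b := by
  conv_rhs => rw [← List.take_append_drop L w]
  rw [sg_left]
  · exact hab
  · rw [List.length_take]; omega

end words

end Crest.Agent.R320.UGI_121
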