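import Crest.Agent.R320.UGI1_121

/-!
# Row 320: the all-words U-gadget: sound and complete (helper121)
-/

set_option autoImplicit false

namespace Crest.Agent.R320.UGI_121

open Finset

/-- contexts -/
structure Ctx (m : ℕ) (S W V : Type*) where
  i : Fin m
  g : S
  wl : W
  h : S
  wr : W
  v : V

theorem Ctx.fin (m : ℕ) (S W V : Type*) [Finite S] [Finite W] [Finite V] :
    Finite (Ctx m S W V) := by
  refine Finite.of_injective (β := Fin m × S × W × S × W × V)
    (fun c => (c.i, c.g, c.wl, c.h, c.wr, c.v)) ?_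
  rintro ⟨i, g, wl, h, wr, v⟩ ⟨i', g', wl', h', wr', v'⟩ e
  simp only [Prod.mk.injEq] at e
  obtain ⟨rfl, rfl, rfl, rfl, rfl, rfl⟩ := e
  rfl

section gadget

variable {A : Type*} {S V W : Type*} [Monoid S] [AddCommGroup V] [AddCommGroup W] {m : ℕ}
  (act : V → S → V) (e : ℕ → S → W) (F : S → W → V) (P G : ℕ) (Ms : Finset ℕ)
  (nmL nmR : ℕ → Option (Ctx m S W V)) (f : A → S)

/-- value of the right label -/
def bval (c : Ctx m S W V) : V :=
  F (c.g * 1 * c.h) (c.wl + e c.i 1 + c.wr) + act c.v (c.g * 1 * c.h)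

/-- good contexts -/
def Good (c : Ctx m S W V) : Prop :=
  ∀ z, F (c.g * z * c.h) (c.wl + e c.i z + c.wr) + act c.v (c.g * z * c.h) = bval act e F c

/-- the left condition -/
def condL (c : Ctx m S W V) (p : List A) : Prop :=
  Ai P G c.i ≤ p.length ∧ p.length < Ai P G c.i + P * G ^ (c.i : ℕ) ∧
  hd f p (bt P G c.i p.length) = c.g ∧
  ∑ j ∈ range c.i, e j (sg f p (bt P G j p.length) (bt P G (j + 1) p.length)) = c.wl

/-- the right condition -/
def condR (c : Ctx m S W V) (q : List A) : Prop :=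
  G ^ (c.i : ℕ) ∣ q.length ∧
  (∀ j, (c.i : ℕ) < j → j ≤ m →
    (q.length + Ai P G c.i - Am P G j) % G ^ j + P * G ^ (c.i : ℕ) ≤ G ^ j) ∧
  tl f q (rb P G c.i (c.i + 1) q.length) = c.h ∧
  ∑ j ∈ Ico ((c.i : ℕ) + 1) m,
    e j (sg f q (rb P G c.i j q.length) (rb P G c.i (j + 1) q.length)) = c.wr ∧
  Good act e F c

open Classical in
noncomputable def lam (p : List A) : Option V :=
  match nmL p.length with
  | some c => if condL e P G f c p then some c.v else none
  | none => none

open Classical in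
noncomputable def rho (q : List A) : Option V :=
  match nmR q.length with
  | some c => if condR act e F P G f c q then some (bval act e F c) else none
  | none => none

/-- total weight -/
def wt (u : List A) : W := ∑ j ∈ range m, e j (sg f u (bt P G j u.length) (bt P G (j + 1) u.length))

def Pair (T : ℕ) : Prop := ∃ x : Ctx m S W V × Ctx m S W V, ∃ t t' : ℕ,
  (t + t') % P = T % P ∧ nmL t = some x.1 ∧ nmR t' = some x.2

open Classical in
noncomputable def nu (u : List A) : V :=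
  if ∀ k ∈ Ms, ¬ k ∣ u.length then F (pr f u) (wt (m := m) e P G f u)
  else if h : Pair P nmL nmR u.length then
    bval act e F h.choose.2 - act h.choose.1.v (pr f u)
  else 0

variable {act e F P G Ms nmL nmR f}

theorem lam_some {p : List A} {v : V} (h : lam e P G nmL f p = some v) :
    ∃ c, nmL p.length = some c ∧ condL e P G f c p ∧ c.v = v := by
  unfold lam at h
  split at h
  · rename_i c hc
    split at h
    · rename_i h1
      exact ⟨c, hc, h1, by simpa using h⟩
    · cases h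
  · cases h

theorem rho_some {q : List A} {r : V} (h : rho act e F P G nmR f q = some r) :
    ∃ c, nmR q.length = some c ∧ condR act e F P G f c q ∧ bval act e F c = r := by
  unfold rho at h
  split at h
  · rename_i c hc
    split at h
    · rename_i h1
      exact ⟨c, hc, h1, by simpa using h⟩
    · cases h
  · cases h

theorem per {α : Type*} {g : ℕ → α} {P : ℕ} (h : ∀ t, g (t + P) = g t) {a b : ℕ}
    (hab : a % P = b % P) : g a = g b := by
  have hp : Function.Periodic g P := h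
  rw [← hp.map_mod_nat a, ← hp.map_mod_nat b, hab]

/-- the three pieces of a text at a level -/
theorem split_mul (u : List A) {a b : ℕ} (h : a ≤ b) :
    hd f u a * sg f u a b * tl f u b = pr f u := by
  rw [mul_assoc, sg_mul_tl f u h, hd_mul_tl]

theorem sum_split (i : Fin m) (g : ℕ → W) :
    ∑ j ∈ range m, g j = ∑ j ∈ range i, g j + g i + ∑ j ∈ Ico ((i : ℕ) + 1) m, g j := by
  rw [← sum_range_succ, sum_range_add_sum_Ico _ (show (i : ℕ) + 1 ≤ m from i.2)]

/-- geometry at level `i` -/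
theorem geom {c : Fin m} {p q : List A} (hG : 0 < G) (h1 : Ai P G c ≤ p.length)
    (h2 : p.length < Ai P G c + P * G ^ (c : ℕ)) (hl : Am P G m ≤ q.length)
    (hd' : G ^ (c : ℕ) ∣ q.length)
    (hc : ∀ j, (c : ℕ) < j → j ≤ m →
      (q.length + Ai P G c - Am P G j) % G ^ j + P * G ^ (c : ℕ) ≤ G ^ j) :
    (∀ j ≤ (c : ℕ), bt P G j (p ++ q).length = bt P G j p.length) ∧
    (∀ j, (c : ℕ) < j → j ≤ m →
      bt P G j (p ++ q).length = p.length + rb P G c j q.length) := by
  rw [List.length_append]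
  refine ⟨fun j hj => left_pos hG hj h1 hd', fun j hj hjm => ?_⟩
  exact right_pos hj h1 h2 ((Am_mono P G hjm).trans hl) (hc j hj hjm)

theorem geom_hd {c : Fin m} {p q : List A} (hG : 0 < G) (h1 : Ai P G c ≤ p.length)
    (h2 : p.length < Ai P G c + P * G ^ (c : ℕ)) (hl : Am P G m ≤ q.length)
    (hd' : G ^ (c : ℕ) ∣ q.length)
    (hc : ∀ j, (c : ℕ) < j → j ≤ m →
      (q.length + Ai P G c - Am P G j) % G ^ j + P * G ^ (c : ℕ) ≤ G ^ j) :
    hd f (p ++ q) (bt P G c (p ++ q).length) = hd f p (bt P G c p.length) ∧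
    (∑ j ∈ range c, e j (sg f (p ++ q) (bt P G j (p ++ q).length) (bt P G (j + 1) (p ++ q).length)) =
      ∑ j ∈ range c, e j (sg f p (bt P G j p.length) (bt P G (j + 1) p.length))) ∧
    tl f (p ++ q) (bt P G (c + 1) (p ++ q).length) = tl f q (rb P G c (c + 1) q.length) ∧
    (∑ j ∈ Ico ((c : ℕ) + 1) m,
      e j (sg f (p ++ q) (bt P G j (p ++ q).length) (bt P G (j + 1) (p ++ q).length)) =
      ∑ j ∈ Ico ((c : ℕ) + 1) m,
        e j (sg f q (rb P G c j q.length) (rb P G c (j + 1) q.length))) := by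
  obtain ⟨g1, g2⟩ := geom hG h1 h2 hl hd' hc
  refine ⟨?_, ?_, ?_, ?_⟩
  · rw [g1 c le_rfl, hd_left]
    exact (bt_lt P G c _ hG).le.trans h1
  · refine sum_congr rfl fun j hj => ?_
    have hj' := mem_range.1 hj
    rw [g1 j hj'.le, g1 (j + 1) hj', sg_left]
    · exact bt_mono P G _ hG (Nat.le_succ j)
    · exact (bt_lt P G (j + 1) _ hG).le.trans ((Ai_mono P G hG hj').trans h1)
  · rw [g2 (c + 1) (Nat.lt_succ_self _) c.2, tl_right]
  · refine sum_congr rfl fun j hj => ?_
    have hj' := mem_Ico.1 hj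
    rw [g2 j hj'.1 hj'.2.le, g2 (j + 1) (by omega) hj'.2, sg_right]

/-- **soundness** -/
theorem sound (hG : 0 < G)
    (perR : ∀ t, nmR (t + P) = nmR t) (hkP : ∀ k ∈ Ms, k ∣ P)
    (hm : ∀ t t' c c', (∀ k ∈ Ms, ¬ k ∣ t + t') → nmL t = some c → nmR t' = some c' → c = c')
    (hu : ∀ t1 t1' t2 t2' c1 c1' c2 c2', t1 + t1' = t2 + t2' → (∃ k ∈ Ms, k ∣ t1 + t1') →
        nmL t1 = some c1 → nmR t1' = some c1' → nmL t2 = some c2 → nmR t2' = some c2' →
        c1.v = c2.v ∧ bval act e F c1' = bval act e F c2')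
    {p q : List A} {v r : V} (hl : Am P G m ≤ q.length)
    (h1 : lam e P G nmL f p = some v) (h2 : rho act e F P G nmR f q = some r) :
    r = act v (pr f (p ++ q)) + nu act e F P G Ms nmL nmR f (p ++ q) := by
  classical
  obtain ⟨c, c1, c2, rfl⟩ := lam_some h1
  obtain ⟨d, d1, d2, rfl⟩ := rho_some h2
  unfold nu
  by_cases hb : ∀ k ∈ Ms, ¬ k ∣ (p ++ q).length
  · rw [if_pos hb]
    rw [List.length_append] at hb
    obtain rfl := hm _ _ _ _ hb c1 d1
    obtain ⟨l1, l2, l3, l4⟩ := c2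
    obtain ⟨r1, r2, r3, r4, r5⟩ := d2
    obtain ⟨g1, g2, g3, g4⟩ := geom_hd (f := f) (e := e) hG l1 l2 hl r1 r2
    have hs := split_mul (f := f) (p ++ q)
      (bt_mono P G (p ++ q).length hG (Nat.le_succ (c.i : ℕ)))
    rw [g1, g3, l3, r3] at hs
    have hw : wt (m := m) e P G f (p ++ q) = c.wl + e c.i (sg f (p ++ q)
        (bt P G c.i (p ++ q).length) (bt P G (c.i + 1) (p ++ q).length)) + c.wr := by
      unfold wt
      rw [sum_split c.i, g2, g4, l4, r4]
    rw [hw, ← hs, ← r5 _, add_comm]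
  · rw [if_neg hb]
    have hP : Pair P nmL nmR (p ++ q).length :=
      ⟨(c, d), p.length, q.length, by rw [List.length_append], c1, d1⟩
    rw [dif_pos hP]
    obtain ⟨t, t', e1, e2, e3⟩ := hP.choose_spec
    push Not at hb
    obtain ⟨k, hk, hkd⟩ := hb
    rw [List.length_append] at hkd e1
    -- a common total
    have key : hP.choose.1.v = c.v ∧ bval act e F hP.choose.2 = bval act e F d := by
      have e4 : nmR (t' + P * ((p.length + q.length) / P)) = some hP.choose.2 := by
        rw [← e3]; exact per perR (by simp)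
      have e5 : nmR (q.length + P * ((t + t') / P)) = some d := by
        rw [← d1]; exact per perR (by simp)
      have e6 : t + (t' + P * ((p.length + q.length) / P)) =
          p.length + (q.length + P * ((t + t') / P)) := by
        have a1 := Nat.mod_add_div (t + t') P
        have a2 := Nat.mod_add_div (p.length + q.length) P
        omega
      refine hu _ _ _ _ _ _ _ _ e6 ⟨k, hk, ?_⟩ e2 e4 c1 e5
      rw [e6, ← add_assoc]
      exact dvd_add hkd (Dvd.dvd.mul_right (hkP k hk) _)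
    rw [key.1, key.2]
    abel

/-- residue window -/
theorem window {n : ℕ} (hn : 0 < n) (a k : ℕ) : ∃ o, a ≤ o ∧ o < a + n ∧ o % n = k % n := by
  refine ⟨a + (k + (n - 1) * a) % n, Nat.le_add_right _ _,
    Nat.add_lt_add_left (Nat.mod_lt _ hn) _, ?_⟩
  rw [Nat.add_mod_mod]
  obtain ⟨n', rfl⟩ : ∃ n', n = n' + 1 := ⟨n - 1, by omega⟩
  have : a + (k + (n' + 1 - 1) * a) = k + (n' + 1) * a := by
    simp; ring
  rw [this, Nat.add_mul_mod_self_left]

/-- the bad lengths: bands -/
def Band (P G m T : ℕ) : Prop := ∃ j, j < m ∧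
  ((T + (G ^ (j + 1) - 1) * Am P G (j + 1)) % G ^ (j + 1) < P * G ^ j ∨
    G ^ (j + 1) < (T + (G ^ (j + 1) - 1) * Am P G (j + 1)) % G ^ (j + 1) + P * G ^ j)

theorem band_mod {j T : ℕ} (hG : 0 < G) (hT : Am P G j ≤ T) :
    (T + (G ^ j - 1) * Am P G j) % G ^ j = (T - Am P G j) % G ^ j := by
  obtain ⟨x, rfl⟩ := Nat.exists_eq_add_of_le hT
  have h1 : 0 < G ^ j := Nat.pow_pos hG
  obtain ⟨g, hg⟩ : ∃ g, G ^ j = g + 1 := ⟨G ^ j - 1, by omega⟩
  rw [hg]
  have e1 : Am P G j + x + (g + 1 - 1) * Am P G j = x + (g + 1) * Am P G j := by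
    simp; ring
  rw [e1, Nat.add_mul_mod_self_left]
  congr 1
  omega

/-- the right condition holds off the bands -/
theorem right_cond {i T o : ℕ} (hG : 0 < G) (ho : Ai P G i ≤ o) (ho2 : o < Ai P G i + P * G ^ i)
    (hT : Ai P G m ≤ T) (hB : ¬ Band P G m T) (j : ℕ) (hij : i < j) (hj : j ≤ m) :
    (T - o + Ai P G i - Am P G j) % G ^ j + P * G ^ i ≤ G ^ j := by
  obtain ⟨j', rfl⟩ : ∃ j', j = j' + 1 := ⟨j - 1, by omega⟩
  have hTj : Am P G (j' + 1) ≤ T := (Am_mono P G hj).trans ((Am_le_Ai P G m).trans hT)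
  have h1 : ¬ ((T - Am P G (j' + 1)) % G ^ (j' + 1) < P * G ^ j' ∨
      G ^ (j' + 1) < (T - Am P G (j' + 1)) % G ^ (j' + 1) + P * G ^ j') := by
    rw [← band_mod hG hTj]
    intro h
    exact hB ⟨j', by omega, h⟩
  push Not at h1
  obtain ⟨h1, h2⟩ := h1
  have h3 : P * G ^ i ≤ P * G ^ j' :=
    Nat.mul_le_mul_left _ (Nat.pow_le_pow_right hG (by omega))
  obtain ⟨x, rfl⟩ := Nat.exists_eq_add_of_le ho
  have hx : x < P * G ^ i := by omega
  have hAA : Ai P G i + P * G ^ i ≤ Am P G (j' + 1) := Ai_add_le P G hij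
  set R := (T - Am P G (j' + 1)) % G ^ (j' + 1) with hR
  have h4 := Nat.mod_add_div (T - Am P G (j' + 1)) (G ^ (j' + 1))
  rw [← hR] at h4
  have h5 : T - (Ai P G i + x) + Ai P G i - Am P G (j' + 1) =
      (R - x) + G ^ (j' + 1) * ((T - Am P G (j' + 1)) / G ^ (j' + 1)) := by
    have h6 : R ≤ T - Am P G (j' + 1) := Nat.mod_le _ _
    omega
  rw [h5, Nat.add_mul_mod_self_left]
  have h7 : (R - x) % G ^ (j' + 1) ≤ R - x := Nat.mod_le _ _
  omega

/-- **completeness** -/
theorem complete (hG : 0 < G) (hP : 0 < P) (hco : Nat.Coprime P G)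
    (perL : ∀ t, nmL (t + P) = nmL t) (perR : ∀ t, nmR (t + P) = nmR t)
    (hc : ∀ T c, (∀ k ∈ Ms, ¬ k ∣ T) → P ≤ T + 1 →
      ∃ t, t ≤ T ∧ nmL t = some c ∧ nmR (T - t) = some c)
    (hF : ∀ (s : S) (w : W) (v : V), ∃ i : Fin m, ∀ g x h : S, g * x * h = s →
        ∀ z : S, F (g * z * h) (w - e i x + e i z) + act v (g * z * h) = F s w + act v s)
    (u : List A) (hT : Ai P G m + P * G ^ m + Am P G m ≤ u.length)
    (h1 : ∀ k ∈ Ms, ¬ k ∣ u.length) (h2 : ¬ Band P G m u.length) (v : V) :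
    ∃ p q, p ++ q = u ∧ lam e P G nmL f p = some v ∧ (rho act e F P G nmR f q).isSome := by
  classical
  set T := u.length with hTT
  set w : W := wt (m := m) e P G f u with hw
  obtain ⟨i, hi⟩ := hF (pr f u) w v
  set g := hd f u (bt P G i T) with hg
  set x := sg f u (bt P G i T) (bt P G (i + 1) T) with hx
  set h := tl f u (bt P G (i + 1) T) with hh
  have hs : g * x * h = pr f u := split_mul u (bt_mono P G T hG (Nat.le_succ (i : ℕ)))
  set wl := ∑ j ∈ range i, e j (sg f u (bt P G j T) (bt P G (j + 1) T)) with hwl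
  set wr := ∑ j ∈ Ico ((i : ℕ) + 1) m, e j (sg f u (bt P G j T) (bt P G (j + 1) T)) with hwr
  have hww : w = wl + e i x + wr := by
    rw [hw]; unfold wt; rw [sum_split i]
  have hwz : ∀ z, w - e i x + e i z = wl + e i z + wr := by
    intro z; rw [hww]; abel
  let c : Ctx m S W V := ⟨i, g, wl, h, wr, v⟩
  have hgood : Good act e F c := by
    intro z
    have a1 := hi g x h hs z
    have a2 := hi g x h hs 1
    rw [hwz] at a1 a2
    show F (g * z * h) (wl + e i z + wr) + act v (g * z * h) =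
      F (g * 1 * h) (wl + e i 1 + wr) + act v (g * 1 * h)
    rw [a1, a2]
  have hGi : 0 < G ^ (i : ℕ) := Nat.pow_pos hG
  have hPG : P * G ^ (i : ℕ) ≤ P * G ^ m :=
    Nat.mul_le_mul_left _ (Nat.pow_le_pow_right hG i.2.le)
  have hAi : Ai P G i ≤ Ai P G m := Ai_mono P G hG i.2.le
  have hPle : P ≤ P * G ^ m := Nat.le_mul_of_pos_right _ (Nat.pow_pos hG)
  obtain ⟨t0, ht0, hL0, hR0⟩ := hc T c h1 (by omega)
  obtain ⟨k, hk1, hk2⟩ := Nat.chineseRemainder (Nat.Coprime.pow_right (i : ℕ) hco) t0 T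
  obtain ⟨o, ho1, ho2, ho3⟩ := window (n := P * G ^ (i : ℕ)) (Nat.mul_pos hP hGi) (Ai P G i) k
  have hoP : o ≡ t0 [MOD P] := by
    have : o ≡ k [MOD P] := Nat.ModEq.of_mul_right (G ^ (i : ℕ)) ho3
    exact this.trans hk1
  have hoG : o ≡ T [MOD G ^ (i : ℕ)] := by
    have : o ≡ k [MOD G ^ (i : ℕ)] := Nat.ModEq.of_mul_left P ho3
    exact this.trans hk2
  have hoT : o ≤ T := by omega
  have hlp : (u.take o).length = o := by rw [List.length_take]; omega
  have hlq : (u.drop o).length = T - o := by rw [List.length_drop]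
  have hpq : u.take o ++ u.drop o = u := List.take_append_drop o u
  have hdv : G ^ (i : ℕ) ∣ T - o := (Nat.modEq_iff_dvd' hoT).1 hoG
  have hrc := fun j => right_cond (m := m) (i := (i : ℕ)) (T := T) (o := o) (P := P) (G := G) hG
    ho1 ho2 (by omega) h2 j
  have hgeo := geom_hd (f := f) (e := e) (c := i) (p := u.take o) (q := u.drop o) (P := P)
    (G := G) (m := m) hG (by rw [hlp]; exact ho1) (by rw [hlp]; exact ho2)
    (by rw [hlq]; omega) (by rw [hlq]; exact hdv) (by rw [hlq]; exact hrc)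
  rw [hpq, ← hTT] at hgeo
  obtain ⟨g1, g2, g3, g4⟩ := hgeo
  have hnL : nmL (u.take o).length = some c := by
    rw [hlp, ← hL0]; exact per perL hoP
  have hnR : nmR (u.drop o).length = some c := by
    rw [hlq, ← hR0]
    refine per perR ?_
    have : (T - o) + o ≡ (T - t0) + o [MOD P] := by
      have e1 : (T - o) + o = T := by omega
      have e2 : (T - t0) + t0 = T := by omega
      calc (T - o) + o = (T - t0) + t0 := by omega
        _ ≡ (T - t0) + o [MOD P] := Nat.ModEq.add_left _ hoP.symm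
    exact Nat.ModEq.add_right_cancel' _ this
  refine ⟨u.take o, u.drop o, hpq, ?_, ?_⟩
  · have hcL : condL e P G f c (u.take o) := by
      refine ⟨by rw [hlp]; exact ho1, by rw [hlp]; exact ho2, ?_, ?_⟩
      · exact g1.symm
      · exact g2.symm
    unfold lam
    rw [hnL]
    simp only
    rw [if_pos hcL]
  · have hcR : condR act e F P G f c (u.drop o) := by
      refine ⟨by rw [hlq]; exact hdv, by rw [hlq]; exact hrc, ?_, ?_, hgood⟩
      · exact g3.symm
      · exact g4.symm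
    unfold rho
    rw [hnR]
    simp only
    rw [if_pos hcR]
    rfl

end gadget

end Crest.Agent.R320.UGI_121
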