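import Crest.Agent.R320.UGI2_121

/-!
# Row 320: the all-words U-gadget: finite-state clause (helper121)
-/

set_option autoImplicit false
set_option linter.unusedSectionVars false

namespace Crest.Agent.R320.UGI_121

open Finset

theorem submod {a b c n : ℕ} (h : a ≡ b [MOD n]) (ha : c ≤ a) (hb : c ≤ b) :
    (a - c) % n = (b - c) % n := by
  have : (a - c) + c ≡ (b - c) + c [MOD n] := by
    rw [Nat.sub_add_cancel ha, Nat.sub_add_cancel hb]; exact h
  exact Nat.ModEq.add_right_cancel' _ this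

theorem bt_congr {P G j a b : ℕ} (h : a ≡ b [MOD G ^ j]) (ha : Am P G j ≤ a)
    (hb : Am P G j ≤ b) : bt P G j a = bt P G j b := by
  unfold bt; rw [submod h ha hb]

theorem rb_congr {P G i j a b : ℕ} (h : a ≡ b [MOD G ^ j]) (ha : Am P G j ≤ a)
    (hb : Am P G j ≤ b) : rb P G i j a = rb P G i j b := by
  unfold rb; rw [submod (h.add_right _) (by omega) (by omega)]

theorem rb_lt (P G i j a : ℕ) (hG : 0 < G) : rb P G i j a < Ai P G j := by
  unfold rb Ai
  have := Nat.mod_lt (a + (Am P G i + G ^ i) - Am P G j) (Nat.pow_pos (n := j) hG)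
  omega

section

variable {A : Type*} {S V W : Type*} [Monoid S] [AddCommGroup V] [AddCommGroup W] {m : ℕ}
  {act : V → S → V} {e : ℕ → S → W} {F : S → W → V} {P G : ℕ} {Ms : Finset ℕ}
  {nmL nmR : ℕ → Option (Ctx m S W V)} {f : A → S}

theorem sg_take' (w : List A) {a b L : ℕ} (hb : b ≤ L) : sg f (w.take L) a b = sg f w a b := by
  rw [sg, sg, List.drop_take, List.take_take, min_eq_left (by omega)]

theorem hd_take' (w : List A) {a L : ℕ} (hb : a ≤ L) : hd f (w.take L) a = hd f w a := by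
  rw [hd, hd, List.take_take, min_eq_left hb]

theorem sg_eq {q q2 : List A} {L : ℕ} (h : q.take L = q2.take L) {a b : ℕ} (hb : b ≤ L) :
    sg f q a b = sg f q2 a b := by
  rw [← sg_take' q hb, h, sg_take' q2 hb]

theorem tl_eq {q q2 : List A} {L : ℕ} (h : q.take L = q2.take L)
    (h2 : pr f (q.drop L) = pr f (q2.drop L)) {a : ℕ} (ha : a ≤ L) :
    tl f q a = tl f q2 a := by
  rw [← sg_mul_tl f q ha, ← sg_mul_tl f q2 ha, sg_eq h le_rfl]
  unfold tl
  rw [h2]

theorem pr_eq {q q2 : List A} {L : ℕ} (h : q.take L = q2.take L)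
    (h2 : pr f (q.drop L) = pr f (q2.drop L)) : pr f q = pr f q2 := by
  rw [← hd_mul_tl f q L, ← hd_mul_tl f q2 L]
  unfold hd tl
  rw [h, h2]

theorem condR_congr (hG : 0 < G) {L : ℕ} (hL : Ai P G m ≤ L) {q q2 : List A}
    (hq : L ≤ q.length) (hq2 : L ≤ q2.length) (h : q.take L = q2.take L)
    (hm : q.length ≡ q2.length [MOD P * G ^ m]) (h2 : pr f (q.drop L) = pr f (q2.drop L))
    (c : Ctx m S W V) (hc : condR act e F P G f c q) : condR act e F P G f c q2 := by
  obtain ⟨c1, c2, c3, c4, c5⟩ := hc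
  have hmod : ∀ j ≤ m, q.length ≡ q2.length [MOD G ^ j] := fun j hj =>
    Nat.ModEq.of_dvd ((pow_dvd_pow G hj).mul_left P) hm
  have hlen : ∀ j ≤ m, Am P G j ≤ q.length ∧ Am P G j ≤ q2.length := fun j hj => by
    have := (Am_le_Ai P G j).trans (Ai_mono P G hG hj)
    omega
  have hrb : ∀ j ≤ m, rb P G c.i j q.length = rb P G c.i j q2.length := fun j hj =>
    rb_congr (hmod j hj) (hlen j hj).1 (hlen j hj).2
  have hle : ∀ j ≤ m, rb P G c.i j q2.length ≤ L := fun j hj =>
    ((rb_lt P G c.i j _ hG).le.trans (Ai_mono P G hG hj)).trans hL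
  refine ⟨((hmod c.i c.i.2.le).dvd_iff dvd_rfl).1 c1, ?_, ?_, ?_, c5⟩
  · intro j hj hjm
    rw [← submod ((hmod j hjm).add_right (Ai P G c.i)) (by have := hlen j hjm; omega)
      (by have := hlen j hjm; omega)]
    exact c2 j hj hjm
  · rw [← hrb (c.i + 1) c.i.2, ← c3]
    refine (tl_eq h h2 ?_).symm
    rw [hrb (c.i + 1) c.i.2]
    exact hle _ c.i.2
  · rw [← c4]
    refine sum_congr rfl fun j hj => ?_
    have hj' := mem_Ico.1 hj
    rw [hrb j hj'.2.le, hrb (j + 1) hj'.2]
    rw [sg_eq h (hle (j + 1) hj'.2)]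

theorem rho_congr (hG : 0 < G) (perR : ∀ t, nmR (t + P) = nmR t) {L : ℕ} (hL : Ai P G m ≤ L)
    {q q2 : List A}
    (hq : L ≤ q.length) (hq2 : L ≤ q2.length) (h : q.take L = q2.take L)
    (hm : q.length ≡ q2.length [MOD P * G ^ m]) (h2 : pr f (q.drop L) = pr f (q2.drop L)) :
    rho act e F P G nmR f q = rho act e F P G nmR f q2 := by
  classical
  have h1 : nmR q.length = nmR q2.length :=
    per perR (Nat.ModEq.of_dvd (Dvd.intro _ rfl) hm)
  unfold rho
  rw [← h1]
  split
  · rename_i c hc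
    have : condR act e F P G f c q ↔ condR act e F P G f c q2 :=
      ⟨condR_congr hG hL hq hq2 h hm h2 c,
        condR_congr hG hL hq2 hq h.symm hm.symm h2.symm c⟩
    by_cases h3 : condR act e F P G f c q
    · rw [if_pos h3, if_pos (this.1 h3)]
    · rw [if_neg h3, if_neg (fun h4 => h3 (this.2 h4))]
  · rfl

open Classical in
variable (act e F P nmL nmR) in
/-- value at bad lengths -/
noncomputable def pv (r : ℕ) (s : S) : V :=
  if h : ∃ x : Ctx m S W V × Ctx m S W V, ∃ t t' : ℕ,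
      (t + t') % P = r ∧ nmL t = some x.1 ∧ nmR t' = some x.2 then
    bval act e F h.choose.2 - act h.choose.1.v s
  else 0

open Classical in
theorem nu_def (u : List A) : nu act e F P G Ms nmL nmR f u =
    if ∀ k ∈ Ms, ¬ k ∣ u.length then F (pr f u) (wt (m := m) e P G f u)
    else pv act e F P nmL nmR (u.length % P) (pr f u) := rfl

theorem nu_congr (hG : 0 < G) (hkP : ∀ k ∈ Ms, k ∣ P) {L : ℕ} (hL : Ai P G m ≤ L)
    {q q2 : List A}
    (hq : L ≤ q.length) (hq2 : L ≤ q2.length) (h : q.take L = q2.take L)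
    (hm : q.length ≡ q2.length [MOD P * G ^ m]) (h2 : pr f (q.drop L) = pr f (q2.drop L)) :
    nu act e F P G Ms nmL nmR f q = nu act e F P G Ms nmL nmR f q2 := by
  classical
  have hP : q.length ≡ q2.length [MOD P] := Nat.ModEq.of_dvd (Dvd.intro _ rfl) hm
  have hk : (∀ k ∈ Ms, ¬ k ∣ q.length) ↔ (∀ k ∈ Ms, ¬ k ∣ q2.length) :=
    forall₂_congr fun k hk => not_congr (hP.dvd_iff (hkP k hk))
  have hmod : ∀ j ≤ m, q.length ≡ q2.length [MOD G ^ j] := fun j hj =>
    Nat.ModEq.of_dvd ((pow_dvd_pow G hj).mul_left P) hm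
  have hbt : ∀ j ≤ m, bt P G j q.length = bt P G j q2.length := fun j hj =>
    bt_congr (hmod j hj)
      (((Am_le_Ai P G j).trans (Ai_mono P G hG hj)).trans (hL.trans hq))
      (((Am_le_Ai P G j).trans (Ai_mono P G hG hj)).trans (hL.trans hq2))
  have hw : wt (m := m) e P G f q = wt (m := m) e P G f q2 := by
    unfold wt
    refine sum_congr rfl fun j hj => ?_
    have hj' := mem_range.1 hj
    rw [hbt j hj'.le, hbt (j + 1) hj']
    rw [sg_eq h]
    exact ((bt_lt P G (j + 1) _ hG).le.trans (Ai_mono P G hG hj')).trans hL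
  rw [nu_def, nu_def, pr_eq h h2, hw]
  have hP' : q.length % P = q2.length % P := hP
  rw [hP']
  by_cases h3 : ∀ k ∈ Ms, ¬ k ∣ q.length
  · rw [if_pos h3, if_pos (hk.1 h3)]
  · rw [if_neg h3, if_neg (fun h4 => h3 (hk.2 h4))]

end

end Crest.Agent.R320.UGI_121
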