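import Crest.Agent.R320.UGI3_121
import Crest.Agent.R320.Names_570
import Crest.Agent.R320.Noise_513
import Crest.Agent.R320.Ruler_302

/-!
# Row 320: UGI (helper772's literal, last clause with `drop La`), helper121
-/

set_option autoImplicit false
set_option linter.unusedSectionVars false

namespace Crest.Agent.R320.UGI_121

open Finset

universe u

/-- `L_t` -/
def LL (P G t : ℕ) : ℕ := 4 * P * ∑ l ∈ range t, G ^ l

theorem LL_succ (P G t : ℕ) : LL P G (t + 1) = LL P G t + 4 * P * G ^ t := by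
  unfold LL; rw [sum_range_succ]; ring

theorem LL_mod (P G : ℕ) {t m : ℕ} (h : t ≤ m) : ∃ x, LL P G m = LL P G t + G ^ t * x := by
  induction m, h using Nat.le_induction with
  | base => exact ⟨0, by simp⟩
  | succ m hm ih =>
    obtain ⟨x, hx⟩ := ih
    obtain ⟨y, hy⟩ := pow_dvd_pow G hm
    refine ⟨x + 4 * P * y, ?_⟩
    rw [LL_succ, hx, hy]; ring

theorem LL_le (P G : ℕ) (hG : 2 ≤ G) (t : ℕ) : LL P G (t + 1) ≤ 8 * P * G ^ t := by
  induction t with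
  | zero => rw [LL_succ]; unfold LL; simp; omega
  | succ t ih =>
    rw [LL_succ]
    have h1 : 8 * P * G ^ t ≤ 4 * P * G ^ (t + 1) := by
      rw [pow_succ]
      nlinarith [Nat.zero_le (P * G ^ t), Nat.mul_le_mul_left (4 * P * G ^ t) hG]
    nlinarith

/-- near a multiple of `g` -/
theorem near {g w x : ℕ} (hg : 0 < g) (hw : 0 < w) (h : x % g < w ∨ g < x % g + w) :
    ∃ s : ℤ, |(x : ℤ) - g * s| < w := by
  have h1 := Nat.mod_add_div x g
  have h2 := Nat.mod_lt x hg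
  have h3 : (x : ℤ) = ((x % g : ℕ) : ℤ) + g * ((x / g : ℕ) : ℤ) := by exact_mod_cast h1.symm
  rcases h with h | h
  · refine ⟨((x / g : ℕ) : ℤ), ?_⟩
    rw [abs_lt]
    constructor
    · rw [h3]; have : (0 : ℤ) ≤ ((x % g : ℕ) : ℤ) := Int.natCast_nonneg _
      have hw' : (0 : ℤ) < w := by exact_mod_cast hw
      linarith
    · rw [h3]; have : ((x % g : ℕ) : ℤ) < w := by exact_mod_cast h
      linarith
  · refine ⟨((x / g : ℕ) : ℤ) + 1, ?_⟩
    have h4 : ((x % g : ℕ) : ℤ) < g := by exact_mod_cast h2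
    have h5 : (g : ℤ) < ((x % g : ℕ) : ℤ) + w := by exact_mod_cast h
    have hw' : (0 : ℤ) < w := by exact_mod_cast hw
    rw [abs_lt]
    constructor
    · rw [h3]; linarith
    · rw [h3]; linarith

theorem arith {w g L D q E : ℤ} (hw : 0 < w) (hL1 : 4 * w ≤ L) (hL2 : L ≤ 8 * w)
    (hg : 16 * w * E ≤ g) (hE : 1 ≤ E) (hD : |D| < E) (h : |L * D - g * q| < 2 * w) : D = 0 := by
  by_contra hne
  have hD1 : 1 ≤ |D| := Int.one_le_abs hne
  have hL0 : 0 < L := by linarith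
  have hd0 : 0 ≤ |D| := abs_nonneg D
  have e1 : |L * D| = L * |D| := by rw [abs_mul, abs_of_pos hL0]
  have hLD1 : 4 * w ≤ |L * D| := by
    rw [e1]
    calc 4 * w ≤ L * 1 := by linarith
      _ ≤ L * |D| := mul_le_mul_of_nonneg_left hD1 hL0.le
  have hLD2 : |L * D| ≤ 8 * w * E := by
    rw [e1]
    calc L * |D| ≤ (8 * w) * |D| := mul_le_mul_of_nonneg_right hL2 hd0
      _ ≤ (8 * w) * E := mul_le_mul_of_nonneg_left hD.le (by linarith)
  have hw8 : w * 1 ≤ w * E := mul_le_mul_of_nonneg_left hE hw.le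
  by_cases hq : q = 0
  · rw [hq, mul_zero, sub_zero] at h
    linarith
  · have hq1 : 1 ≤ |q| := Int.one_le_abs hq
    have hgp : 0 < g := by linarith
    have h3 : g ≤ |g * q| := by
      rw [abs_mul, abs_of_pos hgp]
      calc g = g * 1 := by ring
        _ ≤ g * |q| := mul_le_mul_of_nonneg_left hq1 hgp.le
    have h4 : |g * q| ≤ |L * D - g * q| + |L * D| := by
      have := abs_sub_abs_le_abs_sub (g * q) (L * D)
      rw [abs_sub_comm (g * q) (L * D)] at this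
      linarith
    linarith

/-- one pair per band -/
theorem band_pair {P G K Z j : ℕ} (hP : 0 < P) (hG : 16 * P * 4 ^ K ≤ G)
    (hZ : ∃ z : ℤ, (Z : ℤ) = LL P G (j + 1) + G ^ (j + 1) * z)
    {a b a' b' : ℕ} (ha : a < K) (hb : b < K) (ha' : a' < K) (hb' : b' < K) (hab : a ≠ b)
    {x y : ℕ} (hxy : (x : ℤ) - y = Z * ((4 : ℤ) ^ b - 4 ^ a) - Z * ((4 : ℤ) ^ b' - 4 ^ a'))
    (hx : x % G ^ (j + 1) < P * G ^ j ∨ G ^ (j + 1) < x % G ^ (j + 1) + P * G ^ j)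
    (hy : y % G ^ (j + 1) < P * G ^ j ∨ G ^ (j + 1) < y % G ^ (j + 1) + P * G ^ j) :
    b = b' ∧ a = a' := by
  have h4K : 0 < 4 ^ K := by positivity
  have hG2 : 2 ≤ G := by nlinarith
  have hG0 : 0 < G := by omega
  have hGj : 0 < G ^ j := Nat.pow_pos hG0
  have hw : 0 < P * G ^ j := Nat.mul_pos hP hGj
  obtain ⟨s, hs⟩ := near (Nat.pow_pos hG0) hw hx
  obtain ⟨t, ht⟩ := near (Nat.pow_pos hG0) hw hy
  obtain ⟨z, hz⟩ := hZ
  set D : ℤ := ((4 : ℤ) ^ b - 4 ^ a) - (4 ^ b' - 4 ^ a') with hD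
  have hDK : |D| < 4 ^ K := Ruler_302.spread hb ha hb' ha'
  have h1 : (x : ℤ) - y = (LL P G (j + 1) : ℤ) * D + ((G ^ (j + 1) : ℕ) : ℤ) * (z * D) := by
    rw [hxy, hz, hD]; push_cast; ring
  have h2 : |(LL P G (j + 1) : ℤ) * D - ((G ^ (j + 1) : ℕ) : ℤ) * (s - t - z * D)| <
      2 * ((P * G ^ j : ℕ) : ℤ) := by
    have e1 : (LL P G (j + 1) : ℤ) * D - ((G ^ (j + 1) : ℕ) : ℤ) * (s - t - z * D) =
        ((x : ℤ) - ((G ^ (j + 1) : ℕ) : ℤ) * s) - ((y : ℤ) - ((G ^ (j + 1) : ℕ) : ℤ) * t) := by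
      linear_combination -h1
    rw [e1]
    calc _ ≤ |(x : ℤ) - ((G ^ (j + 1) : ℕ) : ℤ) * s| + |(y : ℤ) - ((G ^ (j + 1) : ℕ) : ℤ) * t| :=
          abs_sub _ _
      _ < _ := by linarith
  have hL1 : 4 * (P * G ^ j) ≤ LL P G (j + 1) := by rw [LL_succ]; nlinarith [Nat.zero_le (LL P G j)]
  have hL2 : LL P G (j + 1) ≤ 8 * (P * G ^ j) := by
    have := LL_le P G hG2 j; rw [mul_assoc] at this; exact this
  have hg : 16 * (P * G ^ j) * 4 ^ K ≤ G ^ (j + 1) := by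
    calc 16 * (P * G ^ j) * 4 ^ K = (16 * P * 4 ^ K) * G ^ j := by ring
      _ ≤ G * G ^ j := Nat.mul_le_mul_right _ hG
      _ = G ^ (j + 1) := by ring
  have hL1' : 4 * ((P * G ^ j : ℕ) : ℤ) ≤ (LL P G (j + 1) : ℤ) := by exact_mod_cast hL1
  have hL2' : (LL P G (j + 1) : ℤ) ≤ 8 * ((P * G ^ j : ℕ) : ℤ) := by exact_mod_cast hL2
  have hg' : 16 * ((P * G ^ j : ℕ) : ℤ) * 4 ^ K ≤ ((G ^ (j + 1) : ℕ) : ℤ) := by exact_mod_cast hg
  have hw' : 0 < ((P * G ^ j : ℕ) : ℤ) := by exact_mod_cast hw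
  have hD0 : D = 0 := arith hw' hL1' hL2' hg' (one_le_pow₀ (by norm_num)) hDK h2
  have h5 : (4 : ℤ) ^ b - 4 ^ a = 4 ^ b' - 4 ^ a' := by
    have : D = 0 := hD0
    rw [hD] at this; linarith
  exact Ruler_302.sidon (Ne.symm hab) h5

/-- the literal of helper772 (last clause with `drop La`) -/
theorem ugi (S V : Type) [Monoid S] [Finite S] [AddCommGroup V] [Finite V] (act : V → S → V) :
    ∃ C0 : ℕ, ∀ K : ℕ, ∃ (N1 Pm La : ℕ) (c : ℕ → ℕ) (Bad : ℕ → Prop), 0 < Pm ∧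
      (∀ i j, i < j → j < K → c i < c j) ∧
      (∀ i j k l, i < K → j < K → k < K → l < K → i ≠ j → k ≠ l → (i, j) ≠ (k, l) →
        c i + c l + 4 * N1 < c k + c j ∨ c k + c j + 4 * N1 < c i + c l) ∧
      (∀ i, i < K → c i ≤ La) ∧
      (∀ T, Bad (T + Pm) ↔ Bad T) ∧
      (∀ T, La ≤ T → ∀ s : Finset (ℕ × ℕ), (∀ x ∈ s, x.1 < K ∧ x.2 < K ∧ x.1 ≠ x.2 ∧
        Bad (T + c x.2 - c x.1)) → s.card ≤ C0) ∧
      ∀ (A : Type u) (phi : A → S), ∃ (lam rho : List A → Option V) (nu : List A → V),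
        (∀ p v, lam p = some v → p.length ≤ N1) ∧
        (∀ p q v r, lam p = some v → rho q = some r → La ≤ q.length →
          r = act v (((p ++ q).map phi).prod) + nu (p ++ q)) ∧
        (∀ w, La ≤ w.length → ¬ Bad w.length → ∀ v, ∃ p q, p ++ q = w ∧ lam p = some v ∧
          (rho q).isSome) ∧
        (∀ q q2, La ≤ q.length → La ≤ q2.length → q.take La = q2.take La →
          q.length ≡ q2.length [MOD Pm] →
          ((q.drop La).map phi).prod = ((q2.drop La).map phi).prod →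
          rho q = rho q2 ∧ nu q = nu q2) := by
  classical
  obtain ⟨W, _, _, m, e0, F, hF0⟩ := Noise513.explicit_noise S V act
  let e : ℕ → S → W := fun j => if h : j < m then e0 ⟨j, h⟩ else 0
  have he : ∀ i : Fin m, e i = e0 i := fun i => by simp [e, i.2]
  have hF : ∀ (s : S) (w : W) (v : V), ∃ i : Fin m, ∀ g x h : S, g * x * h = s →
      ∀ z : S, F (g * z * h) (w - e i x + e i z) + act v (g * z * h) = F s w + act v s := by
    intro s w v
    obtain ⟨i, hi⟩ := hF0 s w v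
    exact ⟨i, fun g x h hs z => by rw [he]; exact hi g x h hs z⟩
  have := Ctx.fin m S W V
  obtain ⟨r, hr⟩ := Names_570.exists_names (N := Ctx m S W V) (C := V × V)
    (fun c => (c.v, bval act e F c))
  refine ⟨r + m, fun K => ?_⟩
  obtain ⟨Ms, nmL, nmR, hMs, hpr, perL, perR, hm, hc, hu⟩ := hr (4 ^ K + 2)
  set P : ℕ := ∏ k ∈ Ms, k with hPdef
  have hP : 0 < P := Finset.prod_pos fun k hk => (hpr k hk).1.pos
  have hkP : ∀ k ∈ Ms, k ∣ P := fun k hk => Finset.dvd_prod_of_mem _ hk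
  obtain ⟨kap, hkap⟩ : ∃ kap : ℕ, 16 * P * 4 ^ K ≤ 2 ^ kap :=
    ⟨16 * P * 4 ^ K, Nat.lt_two_pow_self.le⟩
  set G : ℕ := 2 ^ kap with hGdef
  have hG0 : 0 < G := by positivity
  have hco : Nat.Coprime P G := by
    refine Nat.Coprime.pow_right _ (Nat.Coprime.prod_left fun k hk => ?_)
    refine (Nat.coprime_primes (hpr k hk).1 Nat.prime_two).2 ?_
    have := (hpr k hk).2
    have h40 : 0 < 4 ^ K := by positivity
    omega
  set N1 : ℕ := Ai P G m + P * G ^ m with hN1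
  obtain ⟨k0, hk1, hk2⟩ := Nat.chineseRemainder (Nat.Coprime.pow_right m hco) 1 (LL P G m)
  obtain ⟨Z, hZ1, -, hZ3⟩ := window (n := P * G ^ m) (Nat.mul_pos hP (Nat.pow_pos hG0))
    (4 * N1 + 1) k0
  have hZP : Z ≡ 1 [MOD P] :=
    (Nat.ModEq.of_mul_right (G ^ m) (show Z ≡ k0 [MOD P * G ^ m] from hZ3)).trans hk1
  have hZG : Z ≡ LL P G m [MOD G ^ m] :=
    (Nat.ModEq.of_mul_left P (show Z ≡ k0 [MOD P * G ^ m] from hZ3)).trans hk2
  have hZj : ∀ j < m, ∃ z : ℤ, (Z : ℤ) = LL P G (j + 1) + G ^ (j + 1) * z := by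
    intro j hj
    obtain ⟨y, hy⟩ := (Nat.modEq_iff_dvd.1 hZG)
    obtain ⟨x, hx⟩ := LL_mod P G (show j + 1 ≤ m from hj)
    obtain ⟨t, ht⟩ := pow_dvd_pow G (show j + 1 ≤ m from hj)
    refine ⟨x - t * y, ?_⟩
    have hx' : (LL P G m : ℤ) = LL P G (j + 1) + G ^ (j + 1) * x := by exact_mod_cast hx
    have ht' : ((G ^ m : ℕ) : ℤ) = (G : ℤ) ^ (j + 1) * t := by exact_mod_cast ht
    rw [ht'] at hy
    linear_combination hx' - hy
  set La : ℕ := Ai P G m + P * G ^ m + Am P G m + Z * 4 ^ K with hLa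
  let Bad : ℕ → Prop := fun T => (∃ k ∈ Ms, k ∣ T) ∨ Band P G m T
  have hc4 : ∀ i, i < K → Z * 4 ^ i ≤ La := fun i hi => by
    have : Z * 4 ^ i ≤ Z * 4 ^ K := Nat.mul_le_mul_left _ (Nat.pow_le_pow_right (by norm_num) hi.le)
    omega
  refine ⟨N1, P * G ^ m, La, fun i => Z * 4 ^ i, Bad, Nat.mul_pos hP (Nat.pow_pos hG0),
    ?_, ?_, hc4, ?_, ?_, ?_⟩
  · intro i j hij _
    exact Nat.mul_lt_mul_of_pos_left (Nat.pow_lt_pow_right (by norm_num) hij) (by omega)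
  · intro i j k l hi hj hk hl hij hkl hne
    by_contra hcon
    push Not at hcon
    obtain ⟨h1, h2⟩ := hcon
    have hr := Ruler_302.resol (j := i) (l := j) (p := k) (q := l) (U := (Z : ℤ))
      (by exact_mod_cast (show 0 < Z by omega)) hij ?_
    · exact hne (Prod.ext hr.1 hr.2)
    · have h1' : (Z : ℤ) * 4 ^ k + Z * 4 ^ j ≤ Z * 4 ^ i + Z * 4 ^ l + 4 * N1 := by
        exact_mod_cast h1
      have h2' : (Z : ℤ) * 4 ^ i + Z * 4 ^ l ≤ Z * 4 ^ k + Z * 4 ^ j + 4 * N1 := by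
        exact_mod_cast h2
      have hZ' : (4 : ℤ) * N1 + 1 ≤ Z := by exact_mod_cast hZ1
      rw [abs_lt]
      constructor <;> linarith
  · intro T
    have h1 : (∃ k ∈ Ms, k ∣ T + P * G ^ m) ↔ (∃ k ∈ Ms, k ∣ T) := by
      refine exists_congr fun k => and_congr_right fun hk => ?_
      exact (Nat.dvd_add_iff_left ((hkP k hk).mul_right _)).symm
    have h2 : Band P G m (T + P * G ^ m) ↔ Band P G m T := by
      unfold Band
      refine exists_congr fun j => and_congr_right fun hj => ?_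
      have : (T + P * G ^ m + (G ^ (j + 1) - 1) * Am P G (j + 1)) % G ^ (j + 1) =
          (T + (G ^ (j + 1) - 1) * Am P G (j + 1)) % G ^ (j + 1) := by
        obtain ⟨t, ht⟩ := pow_dvd_pow G (show j + 1 ≤ m from hj)
        have e1 : T + P * G ^ m + (G ^ (j + 1) - 1) * Am P G (j + 1) =
            T + (G ^ (j + 1) - 1) * Am P G (j + 1) + G ^ (j + 1) * (P * t) := by
          rw [ht]; ring
        rw [e1, Nat.add_mul_mod_self_left]
      rw [this]
    exact or_congr h1 h2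
  · intro T hT s hs
    have hsub : s ⊆ (Ms.biUnion fun k => s.filter fun x => k ∣ T + Z * 4 ^ x.2 - Z * 4 ^ x.1) ∪
        ((range m).biUnion fun j => s.filter fun x =>
          ((T + Z * 4 ^ x.2 - Z * 4 ^ x.1 + (G ^ (j + 1) - 1) * Am P G (j + 1)) % G ^ (j + 1) <
            P * G ^ j ∨ G ^ (j + 1) <
            (T + Z * 4 ^ x.2 - Z * 4 ^ x.1 + (G ^ (j + 1) - 1) * Am P G (j + 1)) % G ^ (j + 1) +
            P * G ^ j)) := by
      intro x hx
      obtain ⟨-, -, -, hb⟩ := hs x hx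
      rw [mem_union, mem_biUnion, mem_biUnion]
      rcases hb with ⟨k, hk, hk'⟩ | ⟨j, hj, hj'⟩
      · exact Or.inl ⟨k, hk, mem_filter.2 ⟨hx, hk'⟩⟩
      · exact Or.inr ⟨j, mem_range.2 hj, mem_filter.2 ⟨hx, hj'⟩⟩
    have hcast : ∀ x ∈ s, ((T + Z * 4 ^ x.2 - Z * 4 ^ x.1 : ℕ) : ℤ) =
        T + Z * ((4 : ℤ) ^ x.2 - 4 ^ x.1) := by
      intro x hx
      obtain ⟨h1, h2, -, -⟩ := hs x hx
      rw [Nat.cast_sub (by have := hc4 x.1 h1; omega)]
      push_cast; ring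
    refine (card_le_card hsub).trans ((card_union_le _ _).trans ?_)
    refine Nat.add_le_add ?_ ?_
    · refine (card_biUnion_le_card_mul _ _ 1 fun k hk => ?_).trans (by omega)
      rw [card_le_one]
      intro x hx y hy
      rw [mem_filter] at hx hy
      obtain ⟨hx1, hx2⟩ := hx
      obtain ⟨hy1, hy2⟩ := hy
      obtain ⟨a1, a2, a3, -⟩ := hs x hx1
      obtain ⟨b1, b2, b3, -⟩ := hs y hy1
      have hd1 : (k : ℤ) ∣ T + Z * ((4 : ℤ) ^ x.2 - 4 ^ x.1) := by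
        rw [← hcast x hx1]; exact_mod_cast hx2
      have hd2 : (k : ℤ) ∣ T + Z * ((4 : ℤ) ^ y.2 - 4 ^ y.1) := by
        rw [← hcast y hy1]; exact_mod_cast hy2
      have hd3 := dvd_sub hd1 hd2
      have e1 : (T : ℤ) + Z * ((4 : ℤ) ^ x.2 - 4 ^ x.1) - (T + Z * ((4 : ℤ) ^ y.2 - 4 ^ y.1)) =
          Z * ((4 : ℤ) ^ x.2 - 4 ^ x.1) - Z * ((4 : ℤ) ^ y.2 - 4 ^ y.1) := by ring
      rw [e1] at hd3
      have hZk : (k : ℤ) ∣ (Z : ℤ) - 1 := by
        have := Nat.ModEq.of_dvd (hkP k hk) hZP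
        have := Nat.modEq_iff_dvd.1 this.symm
        exact_mod_cast this
      have h4 : (4 : ℤ) ^ K ≤ (k : ℤ) := by
        have := (hpr k hk).2
        exact_mod_cast (show 4 ^ K ≤ k by omega)
      obtain ⟨f1, f2⟩ := Ruler_302.dist_mod h4 hZk a2 a1 b2 b1 (Ne.symm a3) hd3
      exact Prod.ext f2 f1
    · refine (card_biUnion_le_card_mul _ _ 1 fun j hj => ?_).trans (by rw [card_range]; omega)
      rw [card_le_one]
      intro x hx y hy
      rw [mem_filter] at hx hy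
      obtain ⟨hx1, hx2⟩ := hx
      obtain ⟨hy1, hy2⟩ := hy
      obtain ⟨a1, a2, a3, -⟩ := hs x hx1
      obtain ⟨b1, b2, b3, -⟩ := hs y hy1
      have hjm := mem_range.1 hj
      have hxy : ((T + Z * 4 ^ x.2 - Z * 4 ^ x.1 +
          (G ^ (j + 1) - 1) * Am P G (j + 1) : ℕ) : ℤ) -
          ((T + Z * 4 ^ y.2 - Z * 4 ^ y.1 + (G ^ (j + 1) - 1) * Am P G (j + 1) : ℕ) : ℤ) =
          Z * ((4 : ℤ) ^ x.2 - 4 ^ x.1) - Z * ((4 : ℤ) ^ y.2 - 4 ^ y.1) := by
        rw [Nat.cast_add, Nat.cast_add (T + Z * 4 ^ y.2 - Z * 4 ^ y.1), hcast x hx1, hcast y hy1]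
        ring
      have hfin := band_pair (K := K) (Z := Z) hP hkap (hZj j hjm) a1 a2 b1 b2 a3 hxy hx2 hy2
      exact Prod.ext hfin.2 hfin.1
  · intro A phi
    refine ⟨lam e P G nmL phi, rho act e F P G nmR phi, nu act e F P G Ms nmL nmR phi,
      ?_, ?_, ?_, ?_⟩
    · intro p v hp
      obtain ⟨c, -, ⟨-, h2, -, -⟩, -⟩ := lam_some hp
      have h3 : Ai P G c.i ≤ Ai P G m := Ai_mono P G hG0 c.i.2.le
      have h4 : P * G ^ (c.i : ℕ) ≤ P * G ^ m :=
        Nat.mul_le_mul_left _ (Nat.pow_le_pow_right hG0 c.i.2.le)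
      omega
    · intro p q v r' hp hq hl
      refine sound hG0 perR hkP hm ?_ (by omega) hp hq
      intro t1 t1' t2 t2' c1 c1' c2 c2' h1 h2 h3 h4 h5 h6
      rcases hu t1 t1' t2 t2' c1 c1' c2 c2' h1 h2 h3 h4 h5 h6 with ⟨rfl, rfl⟩ | ⟨rfl, rfl, h7⟩
      · exact ⟨rfl, rfl⟩
      · simp only [Prod.mk.injEq] at h7
        exact ⟨h7.1, h7.2.symm⟩
    · intro w hw hB v
      have hB' : ¬ ((∃ k ∈ Ms, k ∣ w.length) ∨ Band P G m w.length) := hB
      push Not at hB'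
      refine complete hG0 hP hco perL perR ?_ hF w (by omega) hB'.1 hB'.2 v
      intro T c h1 h2
      obtain ⟨t, -, -, h3, h4, h5⟩ := hc T c 0 h1 (by omega)
      exact ⟨t, h3, h4, h5⟩
    · intro q q2 hq hq2 h hmod h2
      have hLa' : Ai P G m ≤ La := by omega
      exact ⟨rho_congr hG0 perR hLa' hq hq2 h hmod h2, nu_congr hG0 hkP hLa' hq hq2 h hmod h2⟩

end Crest.Agent.R320.UGI_121
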