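import Crest.Agent.R320.UGIb_136
import Crest.Agent.R320.Thin_963

set_option autoImplicit false
set_option linter.unusedSectionVars false
set_option linter.unusedVariables false
set_option linter.style.haveILetI false

namespace Crest.Agent.R320.UGI_136

open Finset

theorem perk {β : Type*} {f : ℕ → β} {M : ℕ} (h : ∀ t, f (t + M) = f t) (t k : ℕ) :
    f (t + M * k) = f t := by
  induction k with
  | zero => simp
  | succ k ih => rw [Nat.mul_succ, ← add_assoc, h, ih]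

theorem equalize {a b M : ℕ} (h : a ≡ b [MOD M]) : ∃ k l, a + M * k = b + M * l := by
  rcases le_total a b with hab | hab
  · obtain ⟨d, hd⟩ := (Nat.modEq_iff_dvd' hab).1 h
    exact ⟨d, 0, by omega⟩
  · obtain ⟨d, hd⟩ := (Nat.modEq_iff_dvd' hab).1 h.symm
    exact ⟨0, d, by omega⟩

theorem grow {Γ M K : ℕ} (hΓ : Γ = M * 2 ^ (K + 6) + 1) (i : ℕ) :
    2 ^ (K + 4) * ∑ j ∈ range (i + 1), (M * Γ ^ j) ≤ Γ ^ (i + 1) := by
  have h4 : 2 ^ (K + 6) = 4 * 2 ^ (K + 4) := by ring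
  have hb : 1 + 2 ^ (K + 4) * M ≤ Γ := by
    rw [hΓ, h4]; nlinarith [Nat.zero_le (2 ^ (K + 4) * M)]
  induction i with
  | zero =>
    rw [Finset.sum_range_one, pow_zero, zero_add, pow_one, mul_one]
    omega
  | succ i ih =>
    rw [Finset.sum_range_succ, mul_add]
    calc 2 ^ (K + 4) * ∑ j ∈ range (i + 1), (M * Γ ^ j) + 2 ^ (K + 4) * (M * Γ ^ (i + 1))
        ≤ Γ ^ (i + 1) + 2 ^ (K + 4) * (M * Γ ^ (i + 1)) := Nat.add_le_add_right ih _
      _ = Γ ^ (i + 1) * (1 + 2 ^ (K + 4) * M) := by ring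
      _ ≤ Γ ^ (i + 1) * Γ := Nat.mul_le_mul_left _ hb
      _ = Γ ^ (i + 1 + 1) := (pow_succ _ _).symm

/-- natural bad event implies 963's integer bad event -/
theorem bad_cast {Γ M m : ℕ} {Ms : Finset ℕ} (hΓ : 0 < Γ) (hM : 0 < M) {x : ℕ}
    (h : BadT Γ M m Ms x) :
    Thin963.BadT Ms m (fun j => (Γ : ℤ) ^ j) (fun j => (M : ℤ) * (Γ : ℤ) ^ j)
      (fun j => (Am Γ M j : ℤ)) (x : ℤ) := by
  rcases h with ⟨k, hk, hd⟩ | ⟨j, hj1, hjm, hj⟩
  · exact Or.inl ⟨k, hk, by exact_mod_cast hd⟩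
  · right
    obtain ⟨i, rfl⟩ : ∃ i, j = i + 1 := ⟨j - 1, by omega⟩
    refine ⟨i, by omega, ?_⟩
    rw [Nat.add_sub_cancel] at hj
    have hAle : Am Γ M (i + 1) ≤ M * Γ ^ m * (Am Γ M m + 1) := by
      have a1 : Am Γ M (i + 1) ≤ Am Γ M m := Am_mono hjm
      have a2 : 1 ≤ M * Γ ^ m := Nat.succ_le_of_lt (Nat.mul_pos hM (Nat.pow_pos hΓ))
      nlinarith
    set B := M * Γ ^ m * (Am Γ M m + 1) - Am Γ M (i + 1) with hB
    have hBc : ((B : ℕ) : ℤ) = (M : ℤ) * (Γ : ℤ) ^ m * ((Am Γ M m : ℤ) + 1) - (Am Γ M (i + 1) : ℤ) := by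
      rw [hB, Nat.cast_sub hAle]
      push_cast
      ring
    have hdm := Nat.div_add_mod (x + B) (Γ ^ (i + 1))
    set q := (x + B) / Γ ^ (i + 1) with hq
    set r := (x + B) % Γ ^ (i + 1) with hr
    have hdmZ : ((Γ : ℤ) ^ (i + 1)) * (q : ℤ) + (r : ℤ) = (x : ℤ) + (B : ℤ) := by
      exact_mod_cast hdm
    have hGm : (Γ : ℤ) ^ (i + 1) ∣ (M : ℤ) * (Γ : ℤ) ^ m * ((Am Γ M m : ℤ) + 1) :=
      Dvd.dvd.mul_right (Dvd.dvd.mul_left (pow_dvd_pow _ hjm) _) _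
    have hrlt : r < Γ ^ (i + 1) := Nat.mod_lt _ (Nat.pow_pos hΓ)
    have hr0 : (0 : ℤ) ≤ (r : ℤ) := Int.natCast_nonneg _
    rcases hj with hj | hj
    · refine ⟨-(r : ℤ), ?_, ?_⟩
      · rw [abs_neg, abs_of_nonneg hr0]
        have : (r : ℤ) < ((M * Γ ^ i : ℕ) : ℤ) := by exact_mod_cast hj
        push_cast at this
        exact this.le
      · have e : (x : ℤ) - (Am Γ M (i + 1) : ℤ) + -(r : ℤ) = (Γ : ℤ) ^ (i + 1) * (q : ℤ) -
            (M : ℤ) * (Γ : ℤ) ^ m * ((Am Γ M m : ℤ) + 1) := by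
          rw [hBc] at hdmZ
          linarith
        show (Γ : ℤ) ^ (i + 1) ∣ (x : ℤ) - (Am Γ M (i + 1) : ℤ) + -(r : ℤ)
        rw [e]
        exact dvd_sub (dvd_mul_right _ _) hGm
    · have hrZ : (r : ℤ) < (Γ : ℤ) ^ (i + 1) := by exact_mod_cast hrlt
      refine ⟨(Γ : ℤ) ^ (i + 1) - (r : ℤ), ?_, ?_⟩
      · rw [abs_of_nonneg (by linarith)]
        have : ((Γ ^ (i + 1) : ℕ) : ℤ) < ((r + M * Γ ^ i : ℕ) : ℤ) := by exact_mod_cast hj
        push_cast at this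
        show (Γ : ℤ) ^ (i + 1) - (r : ℤ) ≤ (M : ℤ) * (Γ : ℤ) ^ i
        linarith
      · have e : (x : ℤ) - (Am Γ M (i + 1) : ℤ) + ((Γ : ℤ) ^ (i + 1) - (r : ℤ)) =
            (Γ : ℤ) ^ (i + 1) * (q : ℤ) + (Γ : ℤ) ^ (i + 1) -
            (M : ℤ) * (Γ : ℤ) ^ m * ((Am Γ M m : ℤ) + 1) := by
          rw [hBc] at hdmZ
          linarith
        show (Γ : ℤ) ^ (i + 1) ∣
          (x : ℤ) - (Am Γ M (i + 1) : ℤ) + ((Γ : ℤ) ^ (i + 1) - (r : ℤ))
        rw [e]
        exact dvd_sub (dvd_add (dvd_mul_right _ _) dvd_rfl) hGm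

theorem two_pow_ne {i j k l : ℕ} (hij : i ≠ j) (h : (i, j) ≠ (k, l)) :
    2 ^ i + 2 ^ l ≠ 2 ^ k + 2 ^ j := by
  intro he
  by_cases hkl : k = l
  · subst hkl
    have : (2 : ℕ) ^ i = 2 ^ j := by omega
    exact hij (Nat.pow_right_injective le_rfl this)
  · have hz : (2 : ℤ) ^ i - 2 ^ j = 2 ^ k - 2 ^ l := by
      have : (2 : ℤ) ^ i + 2 ^ l = 2 ^ k + 2 ^ j := by exact_mod_cast he
      linarith
    have := Crest.Agent.R320.G369.pow_diff hij hkl hz
    exact h (by rw [this.1, this.2])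

open Classical in
/-- **UGI**: 772's literal (corrected finite-state clause), closed. -/
theorem UGI {S V : Type} [Monoid S] [Finite S] [AddCommGroup V] [Finite V] (act : V → S → V) :
    ∃ C0 : ℕ, ∀ K : ℕ, ∃ (N1 Pm La : ℕ) (c : ℕ → ℕ) (Bad : ℕ → Prop), 0 < Pm ∧
      (∀ i j, i < j → j < K → c i < c j) ∧
      (∀ i j k l, i < K → j < K → k < K → l < K → i ≠ j → (i, j) ≠ (k, l) →
        c i + c l + 4 * N1 < c k + c j ∨ c k + c j + 4 * N1 < c i + c l) ∧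
      (∀ T, Bad (T + Pm) ↔ Bad T) ∧
      (∀ T, La ≤ T → ((Finset.range K ×ˢ Finset.range K).filter fun ab : ℕ × ℕ =>
        ab.1 ≠ ab.2 ∧ Bad (T + c ab.2 - c ab.1)).card ≤ C0) ∧
      (∀ i < K, c i ≤ La) ∧
      ∀ (A : Type*) (phi : A → S), ∃ (lam rho : List A → Option V) (nu : List A → V),
        (∀ p v, lam p = some v → p.length ≤ N1) ∧
        (∀ p q v r, lam p = some v → rho q = some r → La ≤ q.length →
          r = act v (((p ++ q).map phi).prod) + nu (p ++ q)) ∧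
        (∀ u, La ≤ u.length → ¬ Bad u.length → ∀ v, ∃ p q, p ++ q = u ∧ lam p = some v ∧
          (rho q).isSome) ∧
        (∀ q q2 : List A, La ≤ q.length → La ≤ q2.length → q.take La = q2.take La →
          q.length ≡ q2.length [MOD Pm] →
          ((q.drop La).map phi).prod = ((q2.drop La).map phi).prod →
          rho q = rho q2 ∧ nu q = nu q2) := by
  obtain ⟨p, hp, nuS, F, hF⟩ := Exact136.exists_F (S := S) (V := V) act
  haveI : Fact p.Prime := ⟨hp⟩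
  haveI : NeZero p := ⟨hp.ne_zero⟩
  let W := ZMod p × ZMod p
  let e : ℕ → S → W := fun j z => (nuS z, (j : ZMod p) * nuS z)
  have hF' : ∀ s (w : W) v, ∃ i < p, ∀ g x h, g * x * h = s → ∀ z,
      F (g * z * h) (w - e i x + e i z) + act v (g * z * h) = F s w + act v s := by
    intro s w v
    obtain ⟨i, hi⟩ := hF s w v
    refine ⟨i.val, ZMod.val_lt i, fun g x h hs z => ?_⟩
    have := hi g x h hs z
    simp only [e, ZMod.natCast_zmod_val]
    exact this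
  let N := Fin p × S × W × S × W × V
  haveI : Finite N := inferInstance
  obtain ⟨r, hr⟩ := Names755.names N (V × V)
    (fun c => (c.2.2.2.2.2, bb act e F c))
  refine ⟨r + p, fun K => ?_⟩
  obtain ⟨Ms, M, nmL, nmR, hcard, hMs, hM, perL, perR, n1, n2, n3⟩ := hr (2 ^ (K + 1))
  obtain ⟨Γ, hΓe⟩ : ∃ Γ, Γ = M * 2 ^ (K + 6) + 1 := ⟨_, rfl⟩
  have hΓ : 0 < Γ := by omega
  have hcop : Nat.Coprime M Γ := by
    rw [hΓe, Nat.mul_comm M]
    exact (Nat.coprime_mul_right_add_right M 1 (2 ^ (K + 6))).2 (Nat.coprime_one_right M)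
  let D : GD S V W := ⟨act, p, e, F, Ms, M, Γ, nmL, nmR⟩
  have hD : D.Ok := by
    refine ⟨hF', hM, hΓ, hcop, fun k hk => (hMs k hk).2.2, perL, perR, n1, n2, ?_⟩
    rintro T ⟨k, hk, hkT⟩
    by_cases hex : ∃ t t' c c', t + t' ≡ T [MOD M] ∧ nmL t = some c ∧ nmR t' = some c'
    · obtain ⟨t0, t0', c0, c0', h0, hl0, hr0⟩ := hex
      refine ⟨c0.2.2.2.2.2, bb act e F c0', ?_⟩
      intro t t' c c' ht hl hr'
      obtain ⟨x, y, hxy⟩ := equalize (ht.trans h0.symm)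
      have hkM : k ∣ M := (hMs k hk).2.2
      change t + t' + M * x = t0 + t0' + M * y at hxy
      have h1 := n3 (t + M * x) t' (t0 + M * y) t0' c c' c0 c0'
        (by rw [perk perL]; exact hl) hr' (by rw [perk perL]; exact hl0) hr0 (by omega)
        ⟨k, hk, by
          have h2 : t + M * x + t' = (t + t') + M * x := by ring
          rw [h2]
          refine dvd_add ?_ (hkM.mul_right _)
          exact (Nat.ModEq.dvd_iff (ht.of_dvd hkM) dvd_rfl).2 hkT⟩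
      have h2 := (Prod.mk.inj h1.1).1
      have h3 := (Prod.mk.inj h1.2).2
      exact ⟨h2, h3⟩
    · refine ⟨0, 0, ?_⟩
      intro t t' c c' ht hl hr'
      exact absurd ⟨t, t', c, c', ht, hl, hr'⟩ hex
  -- the ruler
  obtain ⟨X, hX0, hXpos, hthin⟩ := Thin963.thin K p Ms (fun j => (Γ : ℤ) ^ j)
    (fun j => (M : ℤ) * (Γ : ℤ) ^ j) (fun j => (Am Γ M j : ℤ))
    (fun q hq => ⟨(hMs q hq).2.1, (hMs q hq).1.le⟩)
    (fun q hq => by
      have h1 : Nat.Coprime q Γ := Nat.Coprime.coprime_dvd_left (hMs q hq).2.2 hcop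
      exact IsCoprime.pow_right (Nat.isCoprime_iff_coprime.2 h1))
    (by
      have : (0 : ℤ) < (Γ : ℤ) := by exact_mod_cast hΓ
      positivity)
    (fun i j hij => pow_dvd_pow _ hij)
    (fun i => by
      have h1 : (0 : ℤ) < (Γ : ℤ) := by exact_mod_cast hΓ
      have h2 : (0 : ℤ) < (M : ℤ) := by exact_mod_cast hM
      positivity)
    (fun i => dvd_mul_left _ _)
    (fun i _ => by
      have := grow (K := K) hΓe i
      exact_mod_cast this)
    (4 * (Am Γ M p : ℤ) + 1)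
  obtain ⟨x, rfl⟩ := Int.eq_ofNat_of_zero_le hXpos.le
  have hx : 4 * Am Γ M p + 1 ≤ x := by exact_mod_cast hX0
  refine ⟨Am Γ M p, M * Γ ^ p, 2 * Am Γ M p + Γ ^ p + x * 2 ^ K, fun j => x * 2 ^ j,
    BadT Γ M p Ms, Nat.mul_pos hM (Nat.pow_pos hΓ), ?_, ?_, ?_, ?_, ?_, ?_⟩
  · intro i j hij _
    exact Nat.mul_lt_mul_of_pos_left (Nat.pow_lt_pow_right (by norm_num) hij) (by omega)
  · intro i j k l _ _ _ _ hij hne
    have h1 := two_pow_ne hij hne
    rcases lt_or_gt_of_ne h1 with h2 | h2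
    · left
      have h3 : x * (2 ^ i + 2 ^ l + 1) ≤ x * (2 ^ k + 2 ^ j) := Nat.mul_le_mul_left _ h2
      have h4 : x * (2 ^ i + 2 ^ l + 1) = x * 2 ^ i + x * 2 ^ l + x := by ring
      have h5 : x * (2 ^ k + 2 ^ j) = x * 2 ^ k + x * 2 ^ j := by ring
      show x * 2 ^ i + x * 2 ^ l + 4 * Am Γ M p < x * 2 ^ k + x * 2 ^ j
      omega
    · right
      have h3 : x * (2 ^ k + 2 ^ j + 1) ≤ x * (2 ^ i + 2 ^ l) := Nat.mul_le_mul_left _ h2
      have h4 : x * (2 ^ k + 2 ^ j + 1) = x * 2 ^ k + x * 2 ^ j + x := by ring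
      have h5 : x * (2 ^ i + 2 ^ l) = x * 2 ^ i + x * 2 ^ l := by ring
      show x * 2 ^ k + x * 2 ^ j + 4 * Am Γ M p < x * 2 ^ i + x * 2 ^ l
      omega
  · intro T
    exact BadT_per (fun k hk => (hMs k hk).2.2) T
  · intro T hT
    refine le_trans ?_ ((hthin (T : ℤ)).trans (Nat.add_le_add_right hcard p))
    refine Finset.card_le_card_of_injOn (fun ab => (ab.2, ab.1)) ?_ ?_
    · intro ab hab
      simp only [Finset.coe_filter, Finset.mem_product, Finset.mem_range, Set.mem_ofPred_eq]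
        at hab ⊢
      obtain ⟨⟨ha, hb⟩, hne, hbad⟩ := hab
      refine ⟨⟨hb, ha⟩, fun h => hne h.symm, ?_⟩
      have h1 := bad_cast hΓ hM hbad
      have h2 : x * 2 ^ ab.1 ≤ x * 2 ^ K :=
        Nat.mul_le_mul_left _ (Nat.pow_le_pow_right (by norm_num) ha.le)
      have h3 : ((T + x * 2 ^ ab.2 - x * 2 ^ ab.1 : ℕ) : ℤ) =
          (T : ℤ) + (x : ℤ) * 2 ^ ab.2 - (x : ℤ) * 2 ^ ab.1 := by
        rw [Nat.cast_sub (by omega)]
        push_cast
        ring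
      rw [h3] at h1
      exact h1
    · intro a _ b _ h
      simp only [Prod.mk.injEq] at h
      exact Prod.ext h.2 h.1
  · intro i hi
    have h2 : x * 2 ^ i ≤ x * 2 ^ K :=
      Nat.mul_le_mul_left _ (Nat.pow_le_pow_right (by norm_num) hi.le)
    show x * 2 ^ i ≤ _
    omega
  · intro A phi
    let φ : List A → S := fun l => (l.map phi).prod
    have hφ : ∀ u v, φ (u ++ v) = φ u * φ v := fun u v => by
      show ((u ++ v).map phi).prod = _
      rw [List.map_append, List.prod_append]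
    refine ⟨lam D φ, rho D φ, nu D hD φ, ?_, ?_, ?_, ?_⟩
    · intro p' v h
      exact lam_len h
    · intro p' q v r' h1 h2 h3
      exact sound hD hφ h1 h2 (by show Am Γ M p ≤ _; omega)
    · intro u hu hb v
      exact complete hD hφ (by show 2 * Am Γ M p ≤ _; omega) hb v
    · intro q q2 h1 h2 h3 h4 h5
      exact ⟨rho_local hD hφ (by show Am Γ M p + Γ ^ p ≤ _; omega) h1 h2 h3 h4 h5,
        nu_local hD hφ (by show Am Γ M p + Γ ^ p ≤ _; omega) h1 h2 h3 h4 h5⟩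

end Crest.Agent.R320.UGI_136
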