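import Crest.Agent.R320.Grid_187
import Crest.Agent.R320.SpoilGrid_567
import Crest.Agent.R320.Bridge_975

/-!
Row 320: the closed scheme-1 gadget (no small walls, all words) in the literal form `Bridge_975.UGI`
(772 #13437 corrected by 28 / 212), from `Grid_187.gadget` + `Noise_513` + `Names_727` + `SpoilGrid_567`.
-/

set_option autoImplicit false

namespace Crest.Agent.R320.UGI_187

open Finset Crest.Agent.R320.Grid_187

theorem generic_add {ms : Finset ℕ} {Γ M m : ℕ} (hd : ∀ q ∈ ms, q ∣ M) (T : ℕ) :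
    Generic ms Γ M m (T + M * Γ ^ (m + 1)) ↔ Generic ms Γ M m T := by
  unfold Generic
  have h1 : ∀ q ∈ ms, (q ∣ T + M * Γ ^ (m + 1) ↔ q ∣ T) := by
    intro q hq
    exact Nat.dvd_add_left (Dvd.dvd.mul_right (hd q hq) _)
  have h2 : ∀ j, j ≤ m → (T + M * Γ ^ (m + 1)) % Γ ^ (j + 1) = T % Γ ^ (j + 1) := by
    intro j hj
    obtain ⟨y, hy⟩ : Γ ^ (j + 1) ∣ M * Γ ^ (m + 1) :=
      Dvd.dvd.mul_left (pow_dvd_pow _ (by omega)) _
    rw [hy, Nat.add_mul_mod_self_left]
  constructor
  · rintro ⟨a, b⟩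
    refine ⟨fun q hq h => a q hq ((h1 q hq).2 h), fun j hj1 hj => ?_⟩
    have := b j hj1 hj
    rwa [h2 j hj] at this
  · rintro ⟨a, b⟩
    refine ⟨fun q hq h => a q hq ((h1 q hq).1 h), fun j hj1 hj => ?_⟩
    rw [h2 j hj]
    exact b j hj1 hj

/-- bad totals -/
def BadP (ms : Finset ℕ) (Γ M m T : ℕ) : Prop := ¬ Generic ms Γ M m T

theorem bad_of_not_generic {ms : Finset ℕ} {Γ M m T : ℕ} (hΓ : 0 < Γ) (h : ¬ Generic ms Γ M m T) :
    SpoilGrid_567.BadT ms M Γ (m + 1) (fun _ => 0) (T : ℤ) := by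
  unfold SpoilGrid_567.BadT
  by_cases h1 : ∃ q ∈ ms, q ∣ T
  · obtain ⟨q, hq, hd⟩ := h1
    exact Or.inl ⟨q, hq, by exact_mod_cast hd⟩
  · right
    push Not at h1
    have h2 : ∃ j, 1 ≤ j ∧ j ≤ m ∧
        ¬ (M * Γ ^ j ≤ T % Γ ^ (j + 1) ∧ T % Γ ^ (j + 1) + M * Γ ^ j < Γ ^ (j + 1)) := by
      by_contra hc
      push Not at hc
      exact h ⟨h1, fun j a b => ⟨(hc j a b).1, (hc j a b).2⟩⟩
    obtain ⟨j, hj1, hjm, hj⟩ := h2
    have hdm := Nat.div_add_mod T (Γ ^ (j + 1))
    have hc1 : ((Γ ^ (j + 1) * (T / Γ ^ (j + 1)) + T % Γ ^ (j + 1) : ℕ) : ℤ) = (T : ℤ) := by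
      exact_mod_cast hdm
    refine ⟨j + 1, by omega, by omega, ?_⟩
    have e1 : j + 1 - 1 = j := rfl
    rw [e1]
    by_cases h3 : M * Γ ^ j ≤ T % Γ ^ (j + 1)
    · have h4 : Γ ^ (j + 1) ≤ T % Γ ^ (j + 1) + M * Γ ^ j := by
        by_contra h5
        exact hj ⟨h3, by omega⟩
      refine ⟨(T / Γ ^ (j + 1) : ℕ) + 1, ?_⟩
      have h6 : ((Γ ^ (j + 1) : ℕ) : ℤ) ≤ ((T % Γ ^ (j + 1) : ℕ) : ℤ) + ((M * Γ ^ j : ℕ) : ℤ) := by
        exact_mod_cast h4
      have h7 : ((T % Γ ^ (j + 1) : ℕ) : ℤ) ≤ ((Γ ^ (j + 1) : ℕ) : ℤ) := by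
        exact_mod_cast (Nat.mod_lt _ (Nat.pow_pos hΓ)).le
      push_cast at hc1 h6 h7 ⊢
      rw [abs_le]
      constructor <;> nlinarith
    · refine ⟨(T / Γ ^ (j + 1) : ℕ), ?_⟩
      have h6 : ((T % Γ ^ (j + 1) : ℕ) : ℤ) ≤ ((M * Γ ^ j : ℕ) : ℤ) := by
        exact_mod_cast (not_le.1 h3).le
      have h7 : (0 : ℤ) ≤ ((T % Γ ^ (j + 1) : ℕ) : ℤ) := Int.natCast_nonneg _
      push_cast at hc1 h6 h7 ⊢
      rw [abs_le]
      constructor <;> nlinarith

open Classical in
theorem ugi (S V : Type) [Monoid S] [Finite S] [AddCommGroup V] [Finite V] (act : V → S → V) :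
    ∃ C0 : ℕ, ∀ K : ℕ, ∃ (N1 Pm La : ℕ) (c : ℕ → ℕ) (Bad : ℕ → Prop), 0 < Pm ∧
    (∀ i j, i < j → c i < c j) ∧
    (∀ i j k l, i < K → j < K → k < K → l < K → i ≠ j → (i, j) ≠ (k, l) →
      c i + c l + 4 * N1 < c k + c j ∨ c k + c j + 4 * N1 < c i + c l) ∧
    (∀ T, Bad (T + Pm) ↔ Bad T) ∧
    (∀ T, (∀ k, k < K → c k ≤ T) → (((range K ×ˢ range K).filter
      fun ab => ab.1 ≠ ab.2 ∧ Bad (T + c ab.1 - c ab.2))).card ≤ C0) ∧
    (∀ k, k < K → c k ≤ La) ∧ N1 ≤ La ∧ 0 < N1 ∧
    ∀ (A : Type) (phi : A → S), 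
      ∃ (lam rho : List A → Option V) (nu : List A → V),
        (∀ p v, lam p = some v → p.length < N1) ∧
        (∀ p q v r, lam p = some v → rho q = some r →
          r = act v ((p ++ q).map phi).prod + nu (p ++ q)) ∧
        (∀ w : List A, La ≤ w.length → ¬ Bad w.length → ∀ v, ∃ p q, p ++ q = w ∧ lam p = some v ∧
          (rho q).isSome) ∧
        (∀ q q2 : List A, La ≤ q.length → La ≤ q2.length → q.take La = q2.take La →
          q.length ≡ q2.length [MOD Pm] → ((q.drop La).map phi).prod = ((q2.drop La).map phi).prod →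
          rho q = rho q2 ∧ nu q = nu q2) := by
  obtain ⟨W, _, _, m, e, F, hF⟩ := Noise513.explicit_noise S V act
  have := Fintype.ofFinite S
  have := Fintype.ofFinite V
  let Nm : Type := Fin m × S × W × S × W × V
  let eq : Nm ≃ Fin (Fintype.card Nm) := Fintype.equivFin Nm
  obtain ⟨r, hr⟩ := Names_727.exists_names (Fintype.card Nm)
  refine ⟨r + (m + 1), fun K => ?_⟩
  obtain ⟨ms, M, LN, RN, hcard, hbig, hpw, hM, hdvd, huL, huR, hpL, hpR, hgood, hbad⟩ := hr (4 ^ K)
  let Γ : ℕ := M * (16 * (m + 2) * 4 ^ K + 2) + 1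
  have hΓ : M + 2 ≤ Γ := by
    show M + 2 ≤ M * (16 * (m + 2) * 4 ^ K + 2) + 1
    have : M * 2 ≤ M * (16 * (m + 2) * 4 ^ K + 2) := Nat.mul_le_mul_left _ (by omega)
    omega
  have hΓG : 16 * (m + 1 + 1) * M * 4 ^ K ≤ Γ := by
    show 16 * (m + 1 + 1) * M * 4 ^ K ≤ M * (16 * (m + 2) * 4 ^ K + 2) + 1
    nlinarith [Nat.zero_le M]
  have hcop : Nat.Coprime M Γ := by
    show Nat.Coprime M (M * (16 * (m + 2) * 4 ^ K + 2) + 1)
    simp
  obtain ⟨x, hx1, hx2, hx3⟩ := SpoilGrid_567.spoil_grid K (m + 1) ms M Γ (4 * Γ ^ (m + 1)) hbig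
    (fun q hq => Nat.Coprime.coprime_dvd_left (hdvd q hq) hcop) hpw hM hΓG
  have hΓ0 : 0 < Γ := by omega
  have hmono : ∀ i j, i < j → x i < x j := fun i j h => by have := hx1 i j h; omega
  have hmono' : ∀ i j, i ≤ j → x i ≤ x j := fun i j h => by
    rcases Nat.eq_or_lt_of_le h with h | h
    · rw [h]
    · exact (hmono i j h).le
  refine ⟨Γ ^ (m + 1), M * Γ ^ (m + 1), 2 * Γ ^ (m + 1) + x K, x, BadP ms Γ M m,
    Nat.mul_pos hM (Nat.pow_pos hΓ0), hmono, ?_, ?_, ?_, ?_, ?_, Nat.pow_pos hΓ0, ?_⟩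
  · intro i j k l hi hj hk hl hij hne
    by_contra hcon
    push Not at hcon
    obtain ⟨h1, h2⟩ := hcon
    have := hx2 i j k l hi hj hk hl hij (by
      rw [abs_le]
      constructor <;> · push_cast; zify at h1 h2; linarith)
    exact hne (by rw [this.1, this.2])
  · intro T
    exact not_congr (generic_add hdvd T)
  · intro T hT
    refine le_trans (Finset.card_le_card ?_) ((hx3 (fun _ => 0) (T : ℤ)).trans (by omega))
    intro ab hab
    rw [Finset.mem_filter] at hab ⊢
    refine ⟨hab.1, hab.2.1, ?_⟩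
    have h2 := bad_of_not_generic hΓ0 hab.2.2
    have h3 : ab.2 < K := Finset.mem_range.1 (Finset.mem_product.1 hab.1).2
    have h4 := hT _ h3
    have h5 : ((T + x ab.1 - x ab.2 : ℕ) : ℤ) = (T : ℤ) + x ab.1 - x ab.2 := by
      rw [Nat.cast_sub (by omega)]; push_cast; ring
    rwa [h5] at h2
  · intro k hk
    have := hmono' k K hk.le
    omega
  · omega
  · intro A phi
    let D : Dat A S V W :=
      { φ := fun w => (w.map phi).prod
        act := act
        m := m
        e := fun j s => if h : j < m then e ⟨j, h⟩ s else 0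
        F := F
        Γ := Γ
        M := M
        LN := fun o c => LN o (eq c)
        RN := fun o c => RN o (eq c) }
    have hN : Grid_187.Names D ms :=
      { hM := hM
        dvd := hdvd
        uniq := fun o c c' h h' => eq.injective (huL o _ _ h h')
        perL := fun o c => hpL o (eq c)
        perR := fun o c => hpR o (eq c)
        n1 := fun T hT o o' c c' ho hc hc' =>
          eq.injective ((hgood T hT).1 o o' _ _ ho hc hc')
        n2 := fun T hT hMT c => by
          obtain ⟨o, _, _, h3, h4, h5⟩ := (hgood T hT).2 (eq c) 0 (by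
            have : M ≤ T + 1 := hMT
            omega)
          exact ⟨o, h3, h4, h5⟩
        n3 := fun T hT o o' c c' p p' d d' ho hp h1 h2 h3 h4 => by
          obtain ⟨h5, h6⟩ := hbad T hT o o' _ _ p p' _ _ ho hp h1 h2 h3 h4
          exact ⟨eq.injective h5, eq.injective h6⟩ }
    obtain ⟨nu, g1, g2, g3, g4⟩ := gadget D ms (fun u v => by
        show ((u ++ v).map phi).prod = (u.map phi).prod * (v.map phi).prod
        rw [List.map_append, List.prod_append]) hΓ hcop hN (fun s w v => by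
        obtain ⟨i, hi⟩ := hF s w v
        refine ⟨i.1, i.2, fun g y h hgy z => ?_⟩
        have h1 := hi g y h hgy z
        have h2 : ∀ s', D.e i.1 s' = e i s' := fun s' => by
          show (if h : i.1 < m then e ⟨i.1, h⟩ s' else 0) = e i s'
          rw [dif_pos i.2]
        rw [h2, h2]
        exact h1)
    refine ⟨D.lam, D.rho, nu, fun p v h => (g2 p v h).2, fun p q v b h h' => g1 p q v b h h', ?_, ?_⟩
    · intro w hw hb v
      exact g3 w (by show 2 * Γ ^ (m + 1) ≤ w.length; omega) (not_not.1 hb) v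
    · intro q q2 h1 h2 h3 h4 h5
      set A0 : ℕ := 2 * Γ ^ (m + 1) with hA0
      set La : ℕ := A0 + x K with hLa
      have hle : A0 ≤ La := by omega
      have t1 : q.take A0 = q2.take A0 := by
        have : (q.take La).take A0 = (q2.take La).take A0 := by rw [h3]
        rwa [List.take_take, List.take_take, min_eq_left hle] at this
      have key : ∀ p : List A, A0 ≤ p.length → La ≤ p.length →
          p.drop A0 = (p.take La).drop A0 ++ p.drop La := by
        intro p _ hp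
        conv_lhs => rw [← List.take_append_drop La p]
        rw [List.drop_append_of_le_length (by rw [List.length_take]; omega)]
      have d1 := key q (by omega) h1
      have d2 := key q2 (by omega) h2
      have hφ : D.φ (q.drop A0) = D.φ (q2.drop A0) := by
        show ((q.drop A0).map phi).prod = ((q2.drop A0).map phi).prod
        rw [d1, d2, List.map_append, List.prod_append, List.map_append, List.prod_append, h3, h5]
      have hlen : (q.drop A0).length % (M * Γ ^ (m + 1)) = (q2.drop A0).length % (M * Γ ^ (m + 1)) := by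
        rw [List.length_drop, List.length_drop]
        have h6 : q.length - A0 + A0 ≡ q2.length - A0 + A0 [MOD M * Γ ^ (m + 1)] := by
          rw [Nat.sub_add_cancel (by omega), Nat.sub_add_cancel (by omega)]; exact h4
        exact Nat.ModEq.add_right_cancel' _ h6
      have h7 := g4 (q.take A0) (q.drop A0) (q2.drop A0)
        (by rw [List.length_take, min_eq_left (by omega)]) hφ hlen
      rw [List.take_append_drop] at h7
      rw [t1, List.take_append_drop] at h7
      exact h7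

open Classical in
theorem ugi975 (S V : Type) [Monoid S] [Finite S] [AddCommGroup V] [Finite V] (act : V → S → V) :
    Bridge_975.UGI act := by
  obtain ⟨C0, h⟩ := ugi S V act
  refine ⟨C0, fun K => ?_⟩
  obtain ⟨N1, Pm, La, c, Bad, h0, h1, h2, h3, h4, h5, h6, h7, h8⟩ := h K
  refine ⟨N1, Pm, La, c, Bad, h0, fun i j hij _ => h1 i j hij, h2, h3, ?_, ?_⟩
  · intro T hT
    refine le_trans (Finset.card_le_card_of_injOn Prod.swap ?_ ?_)
      (h4 T (fun k hk => (h5 k hk).trans hT))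
    · rintro ⟨a, b⟩ hab
      simp only [Finset.coe_filter, Finset.mem_product, Finset.mem_range, Set.mem_ofPred_eq,
        Prod.swap] at hab ⊢
      exact ⟨⟨hab.1.2, hab.1.1⟩, fun e => hab.2.1 e.symm, hab.2.2⟩
    · exact Prod.swap_injective.injOn
  · intro A phi
    obtain ⟨lam, rho, nu, a, b, c', d⟩ := h8 A phi
    exact ⟨lam, rho, nu, fun p v hp => (a p v hp).le, fun p q v r hp hq _ => b p q v r hp hq, c', d⟩

end Crest.Agent.R320.UGI_187
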