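import Crest.Agent.R320.Golomb2_68

/-!
# Row 320: ruler and spoil count for the nested grids (design 693)
-/

set_option autoImplicit false

namespace Crest.Agent.R320.UGIb_212

open Crest.Agent.R320.Golomb68 Finset

/-- base of the grids -/
def Gam (M E : ℕ) : ℕ := M * E + 1

/-- thin set of lengths -/
def Bad (Ms : Finset ℕ) (M G m : ℕ) (T : ℕ) : Prop :=
  (∃ p ∈ Ms, p ∣ T) ∨
    ∃ j, j < m ∧ (T % G ^ (j + 1) < M * G ^ j ∨ G ^ (j + 1) ≤ T % G ^ (j + 1) + M * G ^ j)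

/-- unit of the ruler -/
def X (M E m w : ℕ) : ℕ :=
  4 * ∑ l ∈ range m, M * Gam M E ^ l + Gam M E ^ m * (1 + M * w)

/-- residue of `X` -/
def lam (M E j : ℕ) : ℕ := 4 * ∑ l ∈ range (j + 1), M * Gam M E ^ l

theorem X_zmod {M E m w p : ℕ} (h : p ∣ M) : ((X M E m w : ℕ) : ZMod p) = 1 := by
  have h0 : (M : ZMod p) = 0 := (ZMod.natCast_eq_zero_iff M p).2 h
  simp [X, Gam, h0]

theorem X_modG {M E m w j : ℕ} (hj : j < m) :
    ∃ q, X M E m w = lam M E j + Gam M E ^ (j + 1) * q := by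
  obtain ⟨d, rfl⟩ : ∃ d, m = (j + 1) + d := ⟨m - (j + 1), by omega⟩
  refine ⟨4 * ∑ i ∈ range d, M * Gam M E ^ i + Gam M E ^ d * (1 + M * w), ?_⟩
  unfold X lam
  rw [Finset.sum_range_add, pow_add]
  have : ∑ x ∈ range d, M * Gam M E ^ (j + 1 + x) =
      Gam M E ^ (j + 1) * ∑ i ∈ range d, M * Gam M E ^ i := by
    rw [Finset.mul_sum]
    refine Finset.sum_congr rfl fun i _ => ?_
    rw [pow_add]; ring
  rw [this]
  ring

theorem lam_lb (M E j : ℕ) : 4 * (M * Gam M E ^ j) ≤ lam M E j := by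
  unfold lam
  rw [Finset.sum_range_succ]
  omega

theorem lam_ub {M E : ℕ} (h : 1 ≤ M * E) (j : ℕ) : lam M E j ≤ 8 * (M * Gam M E ^ j) := by
  have hG : 2 ≤ Gam M E := by unfold Gam; omega
  have key : ∑ l ∈ range (j + 1), M * Gam M E ^ l ≤ 2 * (M * Gam M E ^ j) := by
    induction j with
    | zero => simp; omega
    | succ j ih =>
      rw [Finset.sum_range_succ]
      have h1 : 2 * (M * Gam M E ^ j) ≤ M * Gam M E ^ (j + 1) := by
        rw [pow_succ]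
        have := Nat.mul_le_mul_left (M * Gam M E ^ j) hG
        nlinarith
      omega
  unfold lam
  omega

theorem band_int {T G c : ℕ} (hG : 0 < G) (h : T % G < c ∨ G ≤ T % G + c) :
    ∃ k : ℤ, |(T : ℤ) - k * G| ≤ c := by
  have h1 : (T : ℤ) = (T / G : ℕ) * G + (T % G : ℕ) := by
    have := Nat.div_add_mod T G
    have h2 : ((G * (T / G) + T % G : ℕ) : ℤ) = T := by rw [this]
    rw [← h2]; push_cast; ring
  have h3 : T % G < G := Nat.mod_lt _ hG
  rcases h with h | h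
  · refine ⟨(T / G : ℕ), ?_⟩
    rw [abs_le]
    constructor <;> rw [h1] <;> [skip; skip] <;> omega
  · refine ⟨(T / G : ℕ) + 1, ?_⟩
    rw [abs_le]
    have h4 : (((T / G : ℕ) : ℤ) + 1) * G = (T / G : ℕ) * G + G := by ring
    constructor <;> rw [h1, h4] <;> omega

/-- in one band at most one pair -/
theorem band_unique {M E m w K j : ℕ} (hM : 0 < M) (hE : 2 ^ (K + 5) ≤ E) (hj : j < m)
    {a b a' b' : ℕ} (ha : a < K) (hb : b < K) (ha' : a' < K) (hb' : b' < K) (T1 T2 : ℤ)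
    (hT : T1 - T2 = X M E m w * dl b a b' a')
    (h1 : ∃ k : ℤ, |T1 - k * (Gam M E ^ (j + 1) : ℕ)| ≤ (M * Gam M E ^ j : ℕ))
    (h2 : ∃ k : ℤ, |T2 - k * (Gam M E ^ (j + 1) : ℕ)| ≤ (M * Gam M E ^ j : ℕ)) :
    dl b a b' a' = 0 := by
  obtain ⟨q, hq⟩ := X_modG (M := M) (E := E) (m := m) (w := w) hj
  obtain ⟨k1, h1⟩ := h1
  obtain ⟨k2, h2⟩ := h2
  have hE1 : 1 ≤ M * E := by
    have : 0 < 2 ^ (K + 5) := by positivity
    exact Nat.mul_pos hM (by omega)
  have l1 := lam_lb M E j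
  have l2 := lam_ub hE1 j
  have hb0 := dl_bound (a := b) (b := a) (c := b') (d := a') (k := K) hb ha hb' ha'
  have hGpos : 0 < Gam M E := by unfold Gam; omega
  have hc : 0 < M * Gam M E ^ j := by positivity
  have hG : 2 ^ (K + 5) * (M * Gam M E ^ j) ≤ Gam M E ^ (j + 1) := by
    rw [pow_succ]
    have : 2 ^ (K + 5) * M ≤ Gam M E := by
      unfold Gam
      have := Nat.mul_le_mul_left M hE
      rw [Nat.mul_comm]; omega
    calc 2 ^ (K + 5) * (M * Gam M E ^ j) = (2 ^ (K + 5) * M) * Gam M E ^ j := by ring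
      _ ≤ Gam M E * Gam M E ^ j := Nat.mul_le_mul_right _ this
      _ = _ := by ring
  set G : ℕ := Gam M E ^ (j + 1) with hGdef
  set c : ℕ := M * Gam M E ^ j with hcdef
  set d : ℤ := dl b a b' a' with hd
  set lm : ℕ := lam M E j
  rw [hq] at hT
  push_cast at hT
  have e1 : 2 ^ (K + 5) = 32 * 2 ^ K := by ring
  rw [e1] at hG
  have p0 : 1 ≤ 2 ^ K := Nat.one_le_two_pow
  have hT' : T1 - T2 = ((lm : ℤ) + G * q) * d := by
    rw [hT, hGdef]
  clear hT hq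
  clear_value G c lm d
  -- integers
  have l1' : (4 : ℤ) * c ≤ lm := by exact_mod_cast l1
  have l2' : (lm : ℤ) ≤ 8 * c := by exact_mod_cast l2
  have hc' : (0 : ℤ) < c := by exact_mod_cast hc
  have hG' : (32 : ℤ) * 2 ^ K * c ≤ G := by exact_mod_cast hG
  have p0' : (1 : ℤ) ≤ 2 ^ K := by exact_mod_cast p0
  rw [abs_le] at h1 h2
  -- `lm * d - k * G` is small
  set k : ℤ := k1 - k2 - q * d with hk
  have e2 : (lm : ℤ) * d - k * G = (T1 - k1 * G) - (T2 - k2 * G) := by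
    have : (lm : ℤ) * d = T1 - T2 - G * q * d := by
      rw [hT']; ring
    rw [this, hk]; ring
  have s1 : |(lm : ℤ) * d - k * G| ≤ 2 * c := by
    rw [e2, abs_le]
    constructor <;> linarith [h1.1, h1.2, h2.1, h2.2]
  have s2 : |(lm : ℤ) * d| ≤ 16 * 2 ^ K * c := by
    rw [abs_mul]
    have : |(lm : ℤ)| = lm := abs_of_nonneg (by positivity)
    rw [this]
    calc (lm : ℤ) * |d| ≤ (8 * c) * (2 * 2 ^ K) :=
          mul_le_mul l2' hb0.le (abs_nonneg _) (by positivity)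
      _ = _ := by ring
  have hk0 : k = 0 := by
    by_contra hne
    have h3 : 1 ≤ |k| := Int.one_le_abs hne
    have h4 : (G : ℤ) ≤ |k * G| := by
      rw [abs_mul, abs_of_nonneg (by positivity : (0 : ℤ) ≤ (G : ℤ))]
      exact le_mul_of_one_le_left (by positivity) h3
    have h5 : |k * G| ≤ |(lm : ℤ) * d| + |(lm : ℤ) * d - k * G| := by
      have := abs_sub (((lm : ℤ) * d)) ((lm : ℤ) * d - k * G)
      have e : (lm : ℤ) * d - ((lm : ℤ) * d - k * G) = k * G := by ring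
      rw [e] at this
      exact this
    have h6 : (c : ℤ) ≤ 2 ^ K * c := le_mul_of_one_le_left hc'.le p0'
    have h7 : (32 : ℤ) * 2 ^ K * c = 32 * (2 ^ K * c) := by ring
    have h8 : (16 : ℤ) * 2 ^ K * c = 16 * (2 ^ K * c) := by ring
    rw [h7] at hG'
    rw [h8] at s2
    linarith
  by_contra hne
  have h3 : 1 ≤ |d| := Int.one_le_abs hne
  rw [hk0] at s1
  have h4 : (lm : ℤ) ≤ |(lm : ℤ) * d| := by
    rw [abs_mul, abs_of_nonneg (by positivity : (0 : ℤ) ≤ (lm : ℤ))]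
    exact le_mul_of_one_le_right (by positivity) h3
  have h5 : |(lm : ℤ) * d| ≤ 2 * c := by
    rw [zero_mul, sub_zero] at s1
    exact s1
  linarith [l1', hc', h4, h5]

open Classical in
/-- **spoil count** -/
theorem spoil {M E m w K : ℕ} (Ms : Finset ℕ) (hM : 0 < M) (hE : 2 ^ (K + 5) ≤ E)
    (hp : ∀ p ∈ Ms, p ∣ M ∧ 2 * 2 ^ K ≤ p) (T : ℕ) (hT : X M E m w * 2 ^ K ≤ T) :
    ((range K ×ˢ range K).filter fun ab : ℕ × ℕ => ab.1 ≠ ab.2 ∧
      Bad Ms M (Gam M E) m (T + X M E m w * 2 ^ ab.2 - X M E m w * 2 ^ ab.1)).card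
      ≤ Ms.card + m := by
  set x := X M E m w with hx
  have hcast : ∀ a b : ℕ, a < K → ((T + x * 2 ^ b - x * 2 ^ a : ℕ) : ℤ) =
      T + x * 2 ^ b - x * 2 ^ a := by
    intro a b ha
    have h1 : 2 ^ a ≤ 2 ^ K := Nat.pow_le_pow_right (by norm_num) ha.le
    have h2 : x * 2 ^ a ≤ x * 2 ^ K := Nat.mul_le_mul_left _ h1
    rw [Nat.cast_sub (by omega)]
    push_cast; ring
  let A : ℕ → Finset (ℕ × ℕ) := fun p => (range K ×ˢ range K).filter fun ab : ℕ × ℕ =>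
    ab.1 ≠ ab.2 ∧ p ∣ (T + x * 2 ^ ab.2 - x * 2 ^ ab.1)
  let B : ℕ → Finset (ℕ × ℕ) := fun j => (range K ×ˢ range K).filter fun ab : ℕ × ℕ =>
    ab.1 ≠ ab.2 ∧ ((T + x * 2 ^ ab.2 - x * 2 ^ ab.1) % Gam M E ^ (j + 1) < M * Gam M E ^ j ∨
      Gam M E ^ (j + 1) ≤ (T + x * 2 ^ ab.2 - x * 2 ^ ab.1) % Gam M E ^ (j + 1)
        + M * Gam M E ^ j)
  have hA : ∀ p ∈ Ms, (A p).card ≤ 1 := by
    intro p hp'
    rw [Finset.card_le_one]
    rintro ⟨a, b⟩ h1 ⟨a', b'⟩ h2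
    simp only [A, mem_filter, mem_product, mem_range] at h1 h2
    obtain ⟨⟨ha, hb⟩, hab, hd⟩ := h1
    obtain ⟨⟨ha', hb'⟩, hab', hd'⟩ := h2
    have i1 : (p : ℤ) ∣ (T + x * 2 ^ b - x * 2 ^ a) := by
      rw [← hcast a b ha]; exact_mod_cast hd
    have i2 : (p : ℤ) ∣ (T + x * 2 ^ b' - x * 2 ^ a') := by
      rw [← hcast a' b' ha']; exact_mod_cast hd'
    have i3 : (p : ℤ) ∣ (x : ℤ) * dl b a b' a' := by
      have := dvd_sub i1 i2
      have e : (T + x * 2 ^ b - x * 2 ^ a : ℤ) - (T + x * 2 ^ b' - x * 2 ^ a') =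
          (x : ℤ) * dl b a b' a' := by unfold dl; ring
      rwa [e] at this
    have i4 : (p : ℤ) ∣ dl b a b' a' := by
      rw [← ZMod.intCast_zmod_eq_zero_iff_dvd] at i3 ⊢
      push_cast at i3
      rw [X_zmod (hp p hp').1, one_mul] at i3
      exact i3
    have i5 := dl_dvd hb ha hb' ha' (hp p hp').2 i4
    rcases dl_zero i5 with ⟨r1, r2⟩ | ⟨r1, r2⟩
    · rw [r1, r2]
    · exact absurd r1.symm hab
  have hGpos : 0 < Gam M E := by unfold Gam; omega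
  have hB : ∀ j ∈ range m, (B j).card ≤ 1 := by
    intro j hj
    rw [mem_range] at hj
    rw [Finset.card_le_one]
    rintro ⟨a, b⟩ h1 ⟨a', b'⟩ h2
    simp only [B, mem_filter, mem_product, mem_range] at h1 h2
    obtain ⟨⟨ha, hb⟩, hab, hd⟩ := h1
    obtain ⟨⟨ha', hb'⟩, hab', hd'⟩ := h2
    have i1 := band_int (by positivity) hd
    have i2 := band_int (by positivity) hd'
    rw [hcast a b ha] at i1
    rw [hcast a' b' ha'] at i2
    have i5 := band_unique hM hE hj ha hb ha' hb' _ _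
      (by rw [← hx]; unfold dl; ring) i1 i2
    rcases dl_zero i5 with ⟨r1, r2⟩ | ⟨r1, r2⟩
    · rw [r1, r2]
    · exact absurd r1.symm hab
  have hsub : ((range K ×ˢ range K).filter fun ab : ℕ × ℕ => ab.1 ≠ ab.2 ∧
      Bad Ms M (Gam M E) m (T + x * 2 ^ ab.2 - x * 2 ^ ab.1)) ⊆
      Ms.biUnion A ∪ (range m).biUnion B := by
    intro ab h
    rw [mem_filter] at h
    obtain ⟨h1, h2, h3⟩ := h
    rw [mem_union, mem_biUnion, mem_biUnion]
    rcases h3 with ⟨p, hp1, hp2⟩ | ⟨j, hj, hj2⟩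
    · exact Or.inl ⟨p, hp1, by simp only [A, mem_filter]; exact ⟨h1, h2, hp2⟩⟩
    · exact Or.inr ⟨j, mem_range.2 hj, by simp only [B, mem_filter]; exact ⟨h1, h2, hj2⟩⟩
  have c1 := Finset.card_biUnion_le_card_mul Ms A 1 hA
  have c2 := Finset.card_biUnion_le_card_mul (range m) B 1 hB
  have c3 := Finset.card_le_card hsub
  have c4 := Finset.card_union_le (Ms.biUnion A) ((range m).biUnion B)
  rw [card_range] at c2
  omega

/-- **Golomb with gap** -/
theorem golomb {M E m w N : ℕ} (hM : 0 < M) (hw : N ≤ w) {i j k l : ℕ}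
    (hij : i ≠ j) (hne : (i, j) ≠ (k, l)) :
    X M E m w * 2 ^ i + X M E m w * 2 ^ l + N < X M E m w * 2 ^ k + X M E m w * 2 ^ j ∨
    X M E m w * 2 ^ k + X M E m w * 2 ^ j + N < X M E m w * 2 ^ i + X M E m w * 2 ^ l := by
  have hX : N < X M E m w := by
    unfold X
    have h1 : 1 ≤ Gam M E ^ m := Nat.one_le_pow _ _ (by unfold Gam; omega)
    have h2 : N ≤ M * w := hw.trans (Nat.le_mul_of_pos_left w hM)
    have h3 := Nat.mul_le_mul h1 (le_refl (1 + M * w))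
    omega
  set x := X M E m w
  have hd : dl i j k l ≠ 0 := by
    intro h
    rcases dl_zero h with ⟨r1, r2⟩ | ⟨r1, _⟩
    · exact hne (by rw [r1, r2])
    · exact hij r1
  have hxz : (N : ℤ) < x := by exact_mod_cast hX
  have hx0 : (0 : ℤ) ≤ x := by positivity
  have e : (x : ℤ) * dl i j k l = (x * 2 ^ i + x * 2 ^ l) - (x * 2 ^ k + x * 2 ^ j) := by
    unfold dl; ring
  rcases lt_or_gt_of_ne hd with h | h
  · left
    have h1 : dl i j k l ≤ -1 := by omega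
    have h2 : (x : ℤ) * dl i j k l ≤ -x := by nlinarith
    have h3 : ((x * 2 ^ i + x * 2 ^ l + N : ℕ) : ℤ) < (x * 2 ^ k + x * 2 ^ j : ℕ) := by
      push_cast
      linarith
    exact_mod_cast h3
  · right
    have h1 : 1 ≤ dl i j k l := by omega
    have h2 : (x : ℤ) ≤ x * dl i j k l := by nlinarith
    have h3 : ((x * 2 ^ k + x * 2 ^ j + N : ℕ) : ℤ) < (x * 2 ^ i + x * 2 ^ l : ℕ) := by
      push_cast
      linarith
    exact_mod_cast h3

/-- periodicity of the thin set -/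
theorem Bad_periodic {Ms : Finset ℕ} {M G m : ℕ} (hp : ∀ p ∈ Ms, p ∣ M) (T : ℕ) :
    Bad Ms M G m (T + M * G ^ m) ↔ Bad Ms M G m T := by
  unfold Bad
  have h1 : ∀ p ∈ Ms, (p ∣ T + M * G ^ m ↔ p ∣ T) := fun p h =>
    (Nat.dvd_add_left ((hp p h).mul_right _))
  have h2 : ∀ j, j < m → (T + M * G ^ m) % G ^ (j + 1) = T % G ^ (j + 1) := by
    intro j hj
    obtain ⟨d, rfl⟩ : ∃ d, m = (j + 1) + d := ⟨m - (j + 1), by omega⟩
    rw [pow_add, show M * (G ^ (j + 1) * G ^ d) = G ^ (j + 1) * (M * G ^ d) by ring,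
      Nat.add_mul_mod_self_left]
  constructor
  · rintro (⟨p, a, b⟩ | ⟨j, a, b⟩)
    · exact Or.inl ⟨p, a, (h1 p a).1 b⟩
    · exact Or.inr ⟨j, a, by rwa [h2 j a] at b⟩
  · rintro (⟨p, a, b⟩ | ⟨j, a, b⟩)
    · exact Or.inl ⟨p, a, (h1 p a).2 b⟩
    · exact Or.inr ⟨j, a, by rwa [h2 j a]⟩

end Crest.Agent.R320.UGIb_212
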