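import Crest.Agent.R320.UGIa_212
import Crest.Agent.R320.UGIb_212

/-!
# Row 320: the scheme-1 gadget on words, all contents, all lengths (design 693), with its ruler
-/

set_option autoImplicit false

namespace Crest.Agent.R320.UGI_212

open Crest.Agent.R320.UGIb_212 Finset

variable {A S V : Type*} [Monoid S]

/-- product of a word -/
def pr (f : A → S) (u : List A) : S := (u.map f).prod

theorem pr_append (f : A → S) (u v : List A) : pr f (u ++ v) = pr f u * pr f v := by
  simp [pr]

/-- factor between two places -/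
def seg (u : List A) (a b : ℕ) : List A := (u.drop a).take (b - a)

theorem seg_left (P Q : List A) (a b : ℕ) (hab : a ≤ b) (hb : b ≤ P.length) :
    seg (P ++ Q) a b = seg P a b := by
  unfold seg
  rw [List.drop_append_of_le_length (by omega), List.take_append_of_le_length]
  rw [List.length_drop]; omega

theorem drop_right (P Q : List A) (a : ℕ) (ha : P.length ≤ a) :
    (P ++ Q).drop a = Q.drop (a - P.length) := by
  rw [List.drop_append, List.drop_eq_nil_of_le ha, List.nil_append]

theorem seg_right (P Q : List A) (a b : ℕ) (ha : P.length ≤ a) (hab : a ≤ b) :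
    seg (P ++ Q) a b = seg Q (a - P.length) (b - P.length) := by
  unfold seg
  rw [drop_right P Q a ha]
  congr 1
  omega

section defs

variable (f : A → S) (m M G L0 : ℕ)

def beta (j T : ℕ) : ℕ := (j + 1) * L0 + T % G ^ j
def st (i : ℕ) : ℕ := (i + 1) * L0 + G ^ i
def posn (i j o : ℕ) : ℕ := (j + 1) * L0 - st G L0 i + (st G L0 i + o) % G ^ j

def X0 (u : List A) (T : ℕ) : S := pr f (u.take (beta G L0 0 T))
def Z0 (n : ℕ) (u : List A) (T : ℕ) : List S :=
  (List.range n).map fun j => pr f (seg u (beta G L0 j T) (beta G L0 (j + 1) T))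
def Y0 (u : List A) (T : ℕ) : S := pr f (u.drop (beta G L0 m T))

def RC (i o : ℕ) : Prop :=
  G ^ i ∣ o ∧ ∀ j, i < j → j ≤ m → (st G L0 i + o) % G ^ j + M * G ^ i ≤ G ^ j

open Classical in
noncomputable def RV (Q : List A) (i : ℕ) : Option (List S × S) :=
  if RC m M G L0 i Q.length then
    some ((List.range (m - (i + 1))).map fun j =>
      pr f (seg Q (posn G L0 i (i + 1 + j) Q.length) (posn G L0 i (i + 1 + j + 1) Q.length)),
      pr f (Q.drop (posn G L0 i m Q.length)))
  else none

variable (L : ℕ → S → List S → ℕ → Option V)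
  (R : (ℕ → Option (List S × S)) → ℕ → Option V) (D : ℕ → S → List S → S → V)

open Classical in
noncomputable def lm (P : List A) : Option V :=
  if P.length / L0 - 1 < m ∧ st G L0 (P.length / L0 - 1) ≤ P.length ∧
      P.length < st G L0 (P.length / L0 - 1) + M * G ^ (P.length / L0 - 1) then
    L (P.length / L0 - 1) (X0 f G L0 P P.length) (Z0 f G L0 (P.length / L0 - 1) P P.length)
      P.length
  else none

noncomputable def rh (Q : List A) : Option V := R (RV f m M G L0 Q) Q.length

def nn (u : List A) : V := D u.length (X0 f G L0 u u.length) (Z0 f G L0 m u u.length)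
  (Y0 f m G L0 u u.length)

end defs

section facts

variable {f : A → S} {m M G L0 : ℕ}

theorem beta_mono (hG : 0 < G) (hL : (M + 1) * G ^ m ≤ L0) {j T : ℕ} (hj : j ≤ m) :
    beta G L0 j T < (j + 1) * L0 + G ^ j ∧ G ^ j ≤ L0 := by
  have h1 : T % G ^ j < G ^ j := Nat.mod_lt _ (by positivity)
  have h2 : G ^ j ≤ G ^ m := Nat.pow_le_pow_right hG hj
  have h3 : G ^ m ≤ (M + 1) * G ^ m := Nat.le_mul_of_pos_left _ (by omega)
  unfold beta
  exact ⟨by omega, by omega⟩

theorem cell_le (hG : 0 < G) (hL : (M + 1) * G ^ m ≤ L0) {i : ℕ} (hi : i ≤ m) :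
    st G L0 i + M * G ^ i ≤ (i + 2) * L0 := by
  have h2 : G ^ i ≤ G ^ m := Nat.pow_le_pow_right hG hi
  have h3 : (M + 1) * G ^ i ≤ (M + 1) * G ^ m := Nat.mul_le_mul_left _ h2
  unfold st
  nlinarith

theorem beta_le_st (hG : 0 < G) (hL : (M + 1) * G ^ m ≤ L0) {i j T : ℕ} (hj : j ≤ i)
    (hi : i ≤ m) : beta G L0 j T ≤ st G L0 i := by
  have h1 := (beta_mono (T := T) hG hL (hj.trans hi)).1
  have h2 : (j + 1) * L0 ≤ (i + 1) * L0 := Nat.mul_le_mul_right _ (by omega)
  have h3 : G ^ j ≤ G ^ i := Nat.pow_le_pow_right hG hj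
  unfold st
  omega

theorem beta_step (hG : 0 < G) (hL : (M + 1) * G ^ m ≤ L0) {j T : ℕ} (hj : j ≤ m) :
    beta G L0 j T ≤ beta G L0 (j + 1) T := by
  obtain ⟨h1, h2⟩ := beta_mono (T := T) hG hL hj
  have h3 : (j + 1 + 1) * L0 = (j + 1) * L0 + L0 := by ring
  refine (h1.le.trans (Nat.add_le_add_left h2 _)).trans ?_
  rw [← h3]
  exact Nat.le_add_right _ _

/-- the right view places are right -/
theorem posn_eq (hG : 0 < G) (hL : (M + 1) * G ^ m ≤ L0) {i j o o' : ℕ} (hij : i < j)
    (hj : j ≤ m) (h1 : st G L0 i ≤ o) (h2 : o < st G L0 i + M * G ^ i)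
    (hc : (st G L0 i + o') % G ^ j + M * G ^ i ≤ G ^ j) :
    o ≤ beta G L0 j (o + o') ∧ beta G L0 j (o + o') - o = posn G L0 i j o' := by
  have hcell := cell_le hG hL (hij.le.trans hj)
  have h3 : (i + 2) * L0 ≤ (j + 1) * L0 := Nat.mul_le_mul_right _ (by omega)
  have hGj : 0 < G ^ j := by positivity
  unfold beta posn
  generalize st G L0 i = s at *
  generalize M * G ^ i = c at *
  generalize G ^ j = g at *
  generalize (i + 2) * L0 = x at *
  generalize (j + 1) * L0 = y at *
  have e : (o + o') % g = (s + o') % g + (o - s) := by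
    have h4 : o + o' = (s + o') + (o - s) := by omega
    have q1 : (o - s) % g = o - s := Nat.mod_eq_of_lt (by omega)
    have q2 : ((s + o') % g + (o - s)) % g = (s + o') % g + (o - s) :=
      Nat.mod_eq_of_lt (by omega)
    rw [h4, Nat.add_mod, q1, q2]
  rw [e]
  generalize (s + o') % g = r at *
  constructor <;> omega

/-- the left data are right -/
theorem left_data (hG : 0 < G) (hL : (M + 1) * G ^ m ≤ L0) {i : ℕ} (hi : i < m)
    (P Q : List A) (h1 : st G L0 i ≤ P.length) (hd : G ^ i ∣ Q.length) :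
    X0 f G L0 P P.length = X0 f G L0 (P ++ Q) (P ++ Q).length ∧
    Z0 f G L0 i P P.length = (Z0 f G L0 m (P ++ Q) (P ++ Q).length).take i := by
  have hb : ∀ j ≤ i, beta G L0 j P.length = beta G L0 j (P ++ Q).length := by
    intro j hj
    unfold beta
    obtain ⟨k, hk⟩ := (pow_dvd_pow G hj).trans hd
    rw [List.length_append, hk, Nat.add_mul_mod_self_left]
  have hle : ∀ j ≤ i, beta G L0 j (P ++ Q).length ≤ P.length := fun j hj =>
    (beta_le_st hG hL hj hi.le).trans h1
  constructor
  · unfold X0
    rw [hb 0 (Nat.zero_le _), List.take_append_of_le_length (hle 0 (Nat.zero_le _))]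
  · unfold Z0
    rw [← List.map_take, List.take_range, min_eq_left hi.le]
    apply List.map_congr_left
    intro j hj
    rw [List.mem_range] at hj
    rw [hb j hj.le, hb (j + 1) hj, seg_left _ _ _ _ (beta_step hG hL (by omega)) (hle _ hj)]

theorem right_data (hG : 0 < G) (hL : (M + 1) * G ^ m ≤ L0) {i : ℕ} (hi : i < m)
    (P Q : List A) (h1 : st G L0 i ≤ P.length) (h2 : P.length < st G L0 i + M * G ^ i)
    (hc : RC m M G L0 i Q.length) :
    RV f m M G L0 Q i = some ((Z0 f G L0 m (P ++ Q) (P ++ Q).length).drop (i + 1),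
      Y0 f m G L0 (P ++ Q) (P ++ Q).length) := by
  unfold RV
  rw [if_pos hc]
  have hp : ∀ j, i < j → j ≤ m → P.length ≤ beta G L0 j (P ++ Q).length ∧
      beta G L0 j (P ++ Q).length - P.length = posn G L0 i j Q.length := by
    intro j hij hj
    rw [List.length_append]
    exact posn_eq hG hL hij hj h1 h2 (hc.2 j hij hj)
  congr 1
  refine Prod.ext ?_ ?_
  · show _ = (Z0 f G L0 m (P ++ Q) (P ++ Q).length).drop (i + 1)
    apply List.ext_getElem
    · simp [Z0]
    · intro n hn1 hn2
      simp only [Z0, List.getElem_map, List.getElem_range, List.getElem_drop]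
      simp only [List.length_map, List.length_range] at hn1
      obtain ⟨a1, a2⟩ := hp (i + 1 + n) (by omega) (by omega)
      obtain ⟨a3, a4⟩ := hp (i + 1 + n + 1) (by omega) (by omega)
      rw [seg_right P Q _ _ a1 (beta_step hG hL (by omega)), a2, a4]
  · show _ = Y0 f m G L0 (P ++ Q) (P ++ Q).length
    obtain ⟨a1, a2⟩ := hp m hi (le_refl m)
    unfold Y0
    rw [drop_right P Q _ a1, a2]

theorem part_prod (hG : 0 < G) (hL : (M + 1) * G ^ m ≤ L0) (u : List A) (T : ℕ) :
    ∀ n ≤ m, X0 f G L0 u T * (Z0 f G L0 n u T).prod = pr f (u.take (beta G L0 n T)) := by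
  intro n
  induction n with
  | zero => intro _; simp [X0, Z0]
  | succ n ih =>
    intro hn
    have h1 := ih (by omega)
    have h2 : Z0 f G L0 (n + 1) u T = Z0 f G L0 n u T ++
        [pr f (seg u (beta G L0 n T) (beta G L0 (n + 1) T))] := by
      unfold Z0
      rw [List.range_succ, List.map_append]
      rfl
    rw [h2, List.prod_append, ← mul_assoc, h1, List.prod_singleton, ← pr_append]
    congr 1
    have h3 := beta_step (T := T) hG hL (j := n) (by omega)
    unfold seg
    rw [← List.take_add]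
    congr 1
    omega

theorem total (hG : 0 < G) (hL : (M + 1) * G ^ m ≤ L0) (u : List A) (T : ℕ) :
    X0 f G L0 u T * (Z0 f G L0 m u T).prod * Y0 f m G L0 u T = pr f u := by
  rw [part_prod hG hL u T m (le_refl m)]
  unfold Y0
  rw [← pr_append, List.take_append_drop]

theorem solve {M g : ℕ} (hg : 0 < g) (h : Nat.Coprime M g) (t T : ℕ) :
    ∃ k < g, (t + M * k) ≡ T [MOD g] := by
  have : NeZero g := ⟨hg.ne'⟩
  refine ⟨(((T : ZMod g) - t) * (M : ZMod g)⁻¹).val, ZMod.val_lt _, ?_⟩
  rw [← ZMod.natCast_eq_natCast_iff]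
  push_cast
  rw [ZMod.natCast_val, ZMod.cast_id', id, mul_comm ((T : ZMod g) - t), ← mul_assoc,
    ZMod.coe_mul_inv_eq_one M h]
  ring

/-- everything is decided by the first letters, the length and the product of the rest -/
theorem fs (hG : 0 < G) (hL : (M + 1) * G ^ m ≤ L0) (P Q Q2 : List A)
    (hP : (m + 2) * L0 ≤ P.length) (hpr : pr f Q = pr f Q2)
    (hmod : (P ++ Q).length ≡ (P ++ Q2).length [MOD M * G ^ m]) :
    X0 f G L0 (P ++ Q) (P ++ Q).length = X0 f G L0 (P ++ Q2) (P ++ Q2).length ∧
    Z0 f G L0 m (P ++ Q) (P ++ Q).length = Z0 f G L0 m (P ++ Q2) (P ++ Q2).length ∧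
    Y0 f m G L0 (P ++ Q) (P ++ Q).length = Y0 f m G L0 (P ++ Q2) (P ++ Q2).length ∧
    ∀ i < m, RV f m M G L0 (P ++ Q) i = RV f m M G L0 (P ++ Q2) i := by
  have hm' : ∀ j ≤ m, (P ++ Q).length ≡ (P ++ Q2).length [MOD G ^ j] := fun j hj =>
    Nat.ModEq.of_dvd (Dvd.dvd.mul_left (pow_dvd_pow G hj) M) hmod
  have hb : ∀ j ≤ m, beta G L0 j (P ++ Q).length = beta G L0 j (P ++ Q2).length := by
    intro j hj
    unfold beta
    rw [hm' j hj]
  have hble : ∀ j ≤ m, beta G L0 j (P ++ Q2).length ≤ P.length := by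
    intro j hj
    obtain ⟨h1, h2⟩ := beta_mono (T := (P ++ Q2).length) hG hL hj
    have h3 : (j + 1) * L0 + L0 ≤ (m + 2) * L0 := by
      have : (j + 1) * L0 + L0 = (j + 2) * L0 := by ring
      rw [this]
      exact Nat.mul_le_mul_right _ (by omega)
    omega
  have hpo : ∀ i j, j ≤ m → posn G L0 i j (P ++ Q).length = posn G L0 i j (P ++ Q2).length := by
    intro i j hj
    unfold posn
    rw [(Nat.ModEq.add_left (st G L0 i) (hm' j hj) : _ % _ = _ % _)]
  have hpole : ∀ i j, j ≤ m → posn G L0 i j (P ++ Q2).length ≤ P.length := by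
    intro i j hj
    have h1 : (st G L0 i + (P ++ Q2).length) % G ^ j < G ^ j := Nat.mod_lt _ (by positivity)
    have h2 := (beta_mono (T := 0) hG hL hj).2
    have h3 : (j + 1) * L0 + L0 ≤ (m + 2) * L0 := by
      have : (j + 1) * L0 + L0 = (j + 2) * L0 := by ring
      rw [this]
      exact Nat.mul_le_mul_right _ (by omega)
    unfold posn
    omega
  have hseg : ∀ a b, b ≤ P.length → seg (P ++ Q) a b = seg (P ++ Q2) a b := by
    intro a b hb
    by_cases hab : a ≤ b
    · rw [seg_left _ _ _ _ hab hb, seg_left _ _ _ _ hab hb]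
    · unfold seg
      rw [show b - a = 0 by omega]
      simp
  have hdrop : ∀ a, a ≤ P.length → pr f ((P ++ Q).drop a) = pr f ((P ++ Q2).drop a) := by
    intro a ha
    rw [List.drop_append_of_le_length ha, List.drop_append_of_le_length ha, pr_append,
      pr_append, hpr]
  refine ⟨?_, ?_, ?_, ?_⟩
  · unfold X0
    rw [hb 0 (Nat.zero_le _), List.take_append_of_le_length (hble 0 (Nat.zero_le _)),
      List.take_append_of_le_length (hble 0 (Nat.zero_le _))]
  · unfold Z0
    apply List.map_congr_left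
    intro j hj
    rw [List.mem_range] at hj
    rw [hb j hj.le, hb (j + 1) hj, hseg _ _ (hble _ hj)]
  · unfold Y0
    rw [hb m (le_refl m), hdrop _ (hble m (le_refl m))]
  · intro i hi
    have hRC : RC m M G L0 i (P ++ Q).length ↔ RC m M G L0 i (P ++ Q2).length := by
      unfold RC
      have h1 : G ^ i ∣ (P ++ Q).length ↔ G ^ i ∣ (P ++ Q2).length :=
        (hm' i hi.le).dvd_iff (dvd_refl _)
      have h2 : ∀ j, j ≤ m → (st G L0 i + (P ++ Q).length) % G ^ j =
          (st G L0 i + (P ++ Q2).length) % G ^ j := fun j hj =>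
        Nat.ModEq.add_left (st G L0 i) (hm' j hj)
      rw [h1]
      constructor
      · rintro ⟨a, b⟩
        exact ⟨a, fun j hj hj' => by rw [← h2 j hj']; exact b j hj hj'⟩
      · rintro ⟨a, b⟩
        exact ⟨a, fun j hj hj' => by rw [h2 j hj']; exact b j hj hj'⟩
    unfold RV
    by_cases hc : RC m M G L0 i (P ++ Q2).length
    · rw [if_pos hc, if_pos (hRC.2 hc)]
      congr 1
      refine Prod.ext ?_ ?_
      · apply List.map_congr_left
        intro j hj
        rw [List.mem_range] at hj
        show pr f _ = pr f _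
        rw [hpo i _ (by omega), hpo i _ (by omega), hseg _ _ (hpole _ _ (by omega))]
      · show pr f _ = pr f _
        rw [hpo i m (le_refl m), hdrop _ (hpole _ _ (le_refl m))]
    · rw [if_neg hc, if_neg fun h => hc (hRC.1 h)]

end facts

universe w

open Classical in
/-- **The scheme-1 gadget on all words with its ruler.** -/
theorem UGI (S V : Type*) [Monoid S] [Finite S] [AddCommGroup V] [Finite V] (act : V → S → V) :
    ∃ C0 : ℕ, ∀ K : ℕ, ∃ (N1 Pm La : ℕ) (c : ℕ → ℕ) (Bad : ℕ → Prop), 0 < Pm ∧
      (∀ i j, i < j → j < K → c i < c j) ∧ (∀ i < K, c i ≤ La) ∧ N1 ≤ La ∧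
      (∀ i j k l, i < K → j < K → k < K → l < K → i ≠ j → (i, j) ≠ (k, l) →
        c i + c l + 4 * N1 < c k + c j ∨ c k + c j + 4 * N1 < c i + c l) ∧
      (∀ T, Bad (T + Pm) ↔ Bad T) ∧
      (∀ T, La ≤ T → ((range K ×ˢ range K).filter fun ab : ℕ × ℕ =>
        ab.1 ≠ ab.2 ∧ Bad (T + c ab.2 - c ab.1)).card ≤ C0) ∧
      ∀ (A : Type w) (f : A → S), ∃ (lam rho : List A → Option V) (nu : List A → V),
        (∀ p v, lam p = some v → p.length ≤ N1) ∧
        (∀ p q v b, lam p = some v → rho q = some b →
          b = act v (pr f (p ++ q)) + nu (p ++ q)) ∧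
        (∀ u, La ≤ u.length → ¬ Bad u.length → ∀ v, ∃ p q, p ++ q = u ∧ lam p = some v ∧
          (rho q).isSome) ∧
        (∀ q q2, La ≤ q.length → La ≤ q2.length → q.take La = q2.take La →
          q.length ≡ q2.length [MOD Pm] → pr f (q.drop La) = pr f (q2.drop La) →
          rho q = rho q2 ∧ nu q = nu q2) := by
  obtain ⟨m, r, hm, hU⟩ := UGIa_212.ugadget S V act
  refine ⟨r + m, fun K => ?_⟩
  obtain ⟨Ms, L, R, D, hcard, hp, hLper, hRper, hRcong, hDper, hsound, hcomp⟩ :=
    hU (2 * 2 ^ K)
  set M := ∏ p ∈ Ms, p with hM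
  have hMpos : 0 < M := Finset.prod_pos fun p hp' => (hp p hp').1.pos
  have hdvd : ∀ p ∈ Ms, p ∣ M := fun p hp' => Finset.dvd_prod_of_mem _ hp'
  obtain ⟨G, hG⟩ : ∃ G, G = Gam M (2 ^ (K + 5)) := ⟨_, rfl⟩
  have hGpos : 0 < G := by rw [hG]; unfold Gam; omega
  have hGM : Nat.Coprime M G := by
    rw [hG]; unfold Gam
    simp
  obtain ⟨L0, hL0⟩ : ∃ L0, L0 = (M + 1) * G ^ m := ⟨_, rfl⟩
  have hL : (M + 1) * G ^ m ≤ L0 := hL0.ge
  have hL0pos : 0 < L0 := by rw [hL0]; positivity
  set x := X M (2 ^ (K + 5)) m (4 * ((m + 2) * L0)) with hx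
  have hxpos : 0 < x := by
    rw [hx]; unfold X
    have : 0 < Gam M (2 ^ (K + 5)) ^ m * (1 + M * (4 * ((m + 2) * L0))) := by
      rw [← hG]; positivity
    omega
  refine ⟨(m + 2) * L0, M * G ^ m, (m + 2) * L0 + x * 2 ^ K, fun a => x * 2 ^ a,
    UGIb_212.Bad Ms M G m, by positivity, ?_, ?_, by omega, ?_, ?_, ?_, ?_⟩
  · intro i j hij _
    exact Nat.mul_lt_mul_of_pos_left (Nat.pow_lt_pow_right (by norm_num) hij) hxpos
  · intro i hi
    have h1 : 2 ^ i ≤ 2 ^ K := Nat.pow_le_pow_right (by norm_num) hi.le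
    have h2 : x * 2 ^ i ≤ x * 2 ^ K := Nat.mul_le_mul_left _ h1
    show x * 2 ^ i ≤ _
    omega
  · intro i j k l _ _ _ _ hij hne
    exact UGIb_212.golomb hMpos (le_refl _) hij hne
  · intro T
    exact UGIb_212.Bad_periodic hdvd T
  · intro T hT
    have := UGIb_212.spoil (M := M) (E := 2 ^ (K + 5)) (m := m) (w := 4 * ((m + 2) * L0))
      (K := K) Ms hMpos (le_refl _) (fun p hp' => ⟨hdvd p hp', (hp p hp').2.le⟩) T
      (by rw [← hx]; omega)
    rw [← hG, ← hx] at this
    exact this.trans (by omega)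
  · intro A f
    refine ⟨lm f m M G L0 L, rh f m M G L0 R, nn f m G L0 D, ?_, ?_, ?_, ?_⟩
    · intro p v h
      unfold lm at h
      split_ifs at h with hc
      obtain ⟨h1, h2, h3⟩ := hc
      have h4 := cell_le hGpos hL h1.le
      have h5 : (p.length / L0 - 1 + 2) * L0 ≤ (m + 2) * L0 := Nat.mul_le_mul_right _ (by omega)
      omega
    · intro p q v b hl hr
      unfold lm at hl
      split_ifs at hl with hc
      obtain ⟨h1, h2, h3⟩ := hc
      have hlen : (Z0 f G L0 m (p ++ q) (p ++ q).length).length = m := by simp [Z0]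
      have key := hsound p.length q.length (p.length / L0 - 1) _ _ (RV f m M G L0 q) v b
        (X0 f G L0 (p ++ q) (p ++ q).length) (Z0 f G L0 m (p ++ q) (p ++ q).length)
        (Y0 f m G L0 (p ++ q) (p ++ q).length) hlen h1 (by
          intro q' hq'
          have hrc : RC m M G L0 (p.length / L0 - 1) q.length := by
            by_contra hn
            unfold RV at hq'
            rw [if_neg hn] at hq'
            exact absurd hq' (by simp)
          obtain ⟨e1, e2⟩ := left_data (f := f) hGpos hL h1 p q h2 hrc.1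
          refine ⟨e1, e2, ?_⟩
          rw [right_data hGpos hL h1 p q h2 h3 hrc] at hq'
          exact (Option.some.inj hq').symm) hl hr
      rw [total hGpos hL] at key
      rw [key]
      unfold nn
      rw [List.length_append]
    · intro u hu hb v
      set T := u.length with hT
      obtain ⟨i, hi, hcc⟩ := hcomp T (X0 f G L0 u T) (Z0 f G L0 m u T) (Y0 f m G L0 u T) v
        (by simp [Z0]) (fun p hp' hd => hb (Or.inl ⟨p, hp', hd⟩))
      have hcell := cell_le hGpos hL hi.le
      have hN : (i + 2) * L0 ≤ (m + 2) * L0 := Nat.mul_le_mul_right _ (by omega)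
      have hMG : M ≤ M * G ^ i := Nat.le_mul_of_pos_right _ (by positivity)
      obtain ⟨t, t1, t2, t3, t4, t5⟩ := hcc (st G L0 i) (by omega)
      obtain ⟨k, hk, hkm⟩ := solve (M := M) (g := G ^ i) (by positivity)
        (Nat.Coprime.pow_right i hGM) t T
      have ho : t + M * k < st G L0 i + M * G ^ i := by
        have h1 : M * (k + 1) ≤ M * G ^ i := Nat.mul_le_mul_left _ hk
        rw [Nat.mul_succ] at h1
        omega
      have hoT : t + M * k ≤ T := by omega
      have hPl : (u.take (t + M * k)).length = t + M * k := by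
        rw [List.length_take]; omega
      have hQl : (u.drop (t + M * k)).length = T - (t + M * k) := by
        rw [List.length_drop]
      have hPQ : u.take (t + M * k) ++ u.drop (t + M * k) = u := List.take_append_drop _ _
      have hdQ : G ^ i ∣ (u.drop (t + M * k)).length := by
        rw [hQl]
        exact (Nat.modEq_iff_dvd' hoT).1 hkm
      have hlev : (t + M * k) / L0 = i + 1 := by
        apply Nat.div_eq_of_lt_le
        · unfold st at t1; omega
        · have : (i + 1 + 1) * L0 = (i + 2) * L0 := by ring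
          omega
      have hlev' : (t + M * k) / L0 - 1 = i := by omega
      have h1' : st G L0 i ≤ (u.take (t + M * k)).length := by rw [hPl]; omega
      have h2' : (u.take (t + M * k)).length < st G L0 i + M * G ^ i := by rw [hPl]; exact ho
      refine ⟨u.take (t + M * k), u.drop (t + M * k), hPQ, ?_, ?_⟩
      · unfold lm
        rw [hPl, hlev', if_pos ⟨hi, by omega, ho⟩]
        obtain ⟨e1, e2⟩ := left_data (f := f) hGpos hL hi _ _ h1' hdQ
        rw [hPQ, hPl, ← hT] at e1 e2
        rw [e1, e2, UGIa_212.per_mul (fun t => hLper i _ _ t)]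
        exact t4
      · have hrc : RC m M G L0 i (u.drop (t + M * k)).length := by
          refine ⟨hdQ, fun j hij hj => ?_⟩
          rw [hQl]
          -- from `¬ Bad`
          obtain ⟨j', rfl⟩ : ∃ j', j = j' + 1 := ⟨j - 1, by omega⟩
          have hnb : ¬ (T % G ^ (j' + 1) < M * G ^ j' ∨
              G ^ (j' + 1) ≤ T % G ^ (j' + 1) + M * G ^ j') := fun h =>
            hb (Or.inr ⟨j', by omega, h⟩)
          push Not at hnb
          have hle : M * G ^ i ≤ M * G ^ j' :=
            Nat.mul_le_mul_left _ (Nat.pow_le_pow_right hGpos (by omega))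
          have hmod : (st G L0 i + (T - (t + M * k))) % G ^ (j' + 1) =
              T % G ^ (j' + 1) - (t + M * k - st G L0 i) := by
            have hdm := Nat.div_add_mod T (G ^ (j' + 1))
            generalize G ^ (j' + 1) = g at *
            generalize T / g = d at *
            have hlt : T % g - (t + M * k - st G L0 i) < g := by omega
            have e : st G L0 i + (T - (t + M * k)) =
                g * d + (T % g - (t + M * k - st G L0 i)) := by omega
            rw [e, Nat.mul_add_mod, Nat.mod_eq_of_lt hlt]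
          rw [hmod]
          omega
        have hv := right_data (f := f) hGpos hL hi _ _ h1' h2' hrc
        rw [hPQ, ← hT] at hv
        obtain ⟨b, hb'⟩ := t5 _ hv
        have e : T - t = (T - (t + M * k)) + M * k := by omega
        rw [e, UGIa_212.per_mul (fun t => hRper _ t)] at hb'
        unfold rh
        rw [hQl, hb']
        rfl
    · intro q q2 hq hq2 htake hmod hpr
      set La := (m + 2) * L0 + x * 2 ^ K
      have e1 : q.take La ++ q.drop La = q := List.take_append_drop _ _
      have e2 : q.take La ++ q2.drop La = q2 := by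
        rw [htake]; exact List.take_append_drop _ _
      have hmod' : (q.take La ++ q.drop La).length ≡ (q.take La ++ q2.drop La).length
          [MOD M * G ^ m] := by rw [e1, e2]; exact hmod
      obtain ⟨f1, f2, f3, f4⟩ := fs (f := f) hGpos hL (q.take La) (q.drop La) (q2.drop La)
        (by rw [List.length_take]; omega) hpr hmod'
      rw [e1, e2] at f1 f2 f3
      simp only [e1, e2] at f4
      have hM' : q.length ≡ q2.length [MOD M] := Nat.ModEq.of_mul_right _ hmod
      have hper : ∀ {Z : Type _} (g : ℕ → Z), (∀ t, g (t + M) = g t) →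
          g q.length = g q2.length := by
        intro Z g hg
        have h1 : ∀ t, g t = g (t % M) := by
          intro t
          conv_lhs => rw [← Nat.mod_add_div t M]
          exact UGIa_212.per_mul hg _ _
        rw [h1, h1 q2.length, (hM' : _ % _ = _ % _)]
      constructor
      · unfold rh
        rw [hRcong _ _ q.length f4]
        exact hper (fun t => R (RV f m M G L0 q2) t) (fun t => hRper _ t)
      · unfold nn
        rw [f1, f2, f3]
        exact hper (fun t => D t _ _ _) (fun t => hDper t _ _ _)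

end Crest.Agent.R320.UGI_212
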