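import Crest.Agent.R320.Noise_513
import Crest.Agent.R320.Names_570

/-!
# Row 320: the grid gadget on all words (693) with ruler, closed form
-/

set_option autoImplicit false

namespace Crest.Agent.R320.UGI28

universe u

/-! ### Grid arithmetic -/

/-- grid -/
def G (Gam i : ℕ) : ℕ := Gam ^ (i + 1)

/-- left ends of the levels -/
def a (Gam M : ℕ) : ℕ → ℕ
  | 0 => 0
  | i + 1 => a Gam M i + (M + 1) * G Gam i

/-- the boundary of level `i` in a zone of length `T` -/
def be (Gam M i T : ℕ) : ℕ := a Gam M i + (T - a Gam M i) % G Gam i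

section arith
variable {Gam M : ℕ}

theorem G_pos (h : 0 < Gam) (i : ℕ) : 0 < G Gam i := Nat.pow_pos h

theorem G_dvd {i l : ℕ} (h : l ≤ i) : G Gam l ∣ G Gam i := pow_dvd_pow _ (by omega)

theorem G_succ (i : ℕ) : G Gam (i + 1) = Gam * G Gam i := by
  unfold G; rw [pow_succ]; ring

theorem a_succ (i : ℕ) : a Gam M (i + 1) = a Gam M i + G Gam i + M * G Gam i := by
  show a Gam M i + (M + 1) * G Gam i = _
  ring

theorem a_mono {i l : ℕ} (h : i ≤ l) : a Gam M i ≤ a Gam M l := by
  induction h with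
  | refl => exact le_rfl
  | step h ih => rw [a_succ]; omega

theorem a_le_G (hM : M + 2 ≤ Gam) (i : ℕ) : a Gam M i ≤ G Gam i := by
  induction i with
  | zero => exact Nat.zero_le _
  | succ i ih =>
    rw [a_succ, G_succ]
    nlinarith [Nat.zero_le (G Gam i)]

theorem be_lt (h : 0 < Gam) (i T : ℕ) : be Gam M i T < a Gam M i + G Gam i := by
  unfold be
  have := Nat.mod_lt (T - a Gam M i) (G_pos h i)
  omega

theorem be_ge (i T : ℕ) : a Gam M i ≤ be Gam M i T := by unfold be; omega

theorem be_le_succ (h : 0 < Gam) (i T : ℕ) : be Gam M i T ≤ be Gam M (i + 1) T := by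
  have h1 := be_lt (M := M) h i T
  have h2 := be_ge (Gam := Gam) (M := M) (i + 1) T
  rw [a_succ] at h2
  omega

theorem be_add {i x y : ℕ} (hx : a Gam M i ≤ x) (hy : G Gam i ∣ y) :
    be Gam M i (x + y) = be Gam M i x := by
  unfold be
  obtain ⟨c, rfl⟩ := hy
  have : x + G Gam i * c - a Gam M i = (x - a Gam M i) + G Gam i * c := by omega
  rw [this, Nat.add_mul_mod_self_left]

theorem be_shift {i T x : ℕ} (hT : a Gam M i ≤ T) (h : (T - a Gam M i) % G Gam i + x < G Gam i) :
    be Gam M i (T + x) = be Gam M i T + x := by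
  unfold be
  have h1 : T + x - a Gam M i = (T - a Gam M i) + x := by omega
  have h2 : ((T - a Gam M i) + x) % G Gam i = (T - a Gam M i) % G Gam i + x := by
    conv_lhs => rw [← Nat.div_add_mod (T - a Gam M i) (G Gam i)]
    rw [add_assoc, Nat.mul_add_mod, Nat.mod_eq_of_lt h]
  rw [h1, h2]; omega

theorem be_congr {i T T' : ℕ} (h : a Gam M i ≤ T) (h' : a Gam M i ≤ T')
    (hc : T % G Gam i = T' % G Gam i) : be Gam M i T = be Gam M i T' := by
  rcases le_total T T' with hle | hle
  · have hd : G Gam i ∣ T' - T := (Nat.modEq_iff_dvd' hle).1 hc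
    have := be_add (M := M) h hd
    rw [Nat.add_sub_cancel' hle] at this
    exact this.symm
  · have hd : G Gam i ∣ T - T' := (Nat.modEq_iff_dvd' hle).1 hc.symm
    have := be_add (M := M) h' hd
    rw [Nat.add_sub_cancel' hle] at this
    exact this

end arith

/-! ### Segments -/

section seg
variable {A S : Type*} [Monoid S] (f : A → S)

def pr (w : List A) : S := (w.map f).prod

def seg (w : List A) (x y : ℕ) : S := pr f ((w.take y).drop x)

variable {f}

theorem pr_append (u w : List A) : pr f (u ++ w) = pr f u * pr f w := by simp [pr]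

theorem seg_left {p q : List A} {x y : ℕ} (h : y ≤ p.length) :
    seg f (p ++ q) x y = seg f p x y := by
  unfold seg; rw [List.take_append_of_le_length h]

theorem seg_right {p q : List A} {x y : ℕ} (h : p.length ≤ x) (hy : p.length ≤ y) :
    seg f (p ++ q) x y = seg f q (x - p.length) (y - p.length) := by
  unfold seg
  rw [List.take_append, List.take_of_length_le hy, List.drop_append, List.drop_of_length_le h,
    List.nil_append]

theorem seg_mul {w : List A} {x y z : ℕ} (hxy : x ≤ y) (hyz : y ≤ z) :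
    seg f w x y * seg f w y z = seg f w x z := by
  unfold seg
  rw [← pr_append]
  congr 1
  have h1 : (w.take y) = (w.take z).take y := by rw [List.take_take, min_eq_left hyz]
  rw [h1]
  rw [← List.take_append_drop (y - x) (((w.take z).drop x))]
  congr 1
  · rw [List.drop_take]
  · rw [List.drop_drop]; congr 1; omega

theorem seg_all (w : List A) : seg f w 0 w.length = pr f w := by
  unfold seg; simp

theorem seg_take {w : List A} {x y N : ℕ} (h : y ≤ N) :
    seg f (w.take N) x y = seg f w x y := by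
  unfold seg; rw [List.take_take, min_eq_left h]

theorem seg_end {w : List A} {x N : ℕ} (h : x ≤ N) (hN : N ≤ w.length) :
    seg f w x w.length = seg f (w.take N) x N * pr f (w.drop N) := by
  unfold seg
  rw [← pr_append]
  congr 1
  rw [List.take_length, List.take_take, min_self]
  conv_lhs => rw [← List.take_append_drop N w]
  rw [List.drop_append_of_le_length (by rw [List.length_take]; omega)]

end seg

/-! ### Contexts -/

section gadget
variable {S V W : Type} [Monoid S] [AddCommGroup V] [AddCommGroup W]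

structure Ctx (act : V → S → V) (m : ℕ) (e : ℕ → S → W) (F : S → W → V) where
  i : ℕ
  hi : i < m
  g : S
  wl : W
  h : S
  wr : W
  v : V
  b : V
  ok : ∀ z, F (g * z * h) (wl + e i z + wr) + act v (g * z * h) = b

theorem Ctx.finite [Finite S] [Finite V] [Finite W] (act : V → S → V) (m : ℕ) (e : ℕ → S → W)
    (F : S → W → V) : Finite (Ctx act m e F) := by
  refine Finite.of_injective (β := Fin m × S × W × S × W × V × V)
    (fun γ => (⟨γ.i, γ.hi⟩, γ.g, γ.wl, γ.h, γ.wr, γ.v, γ.b)) ?_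
  intro x y hxy
  cases x; cases y
  simp only [Prod.mk.injEq, Fin.mk.injEq] at hxy
  obtain ⟨h1, h2, h3, h4, h5, h6, h7⟩ := hxy
  subst h1 h2 h3 h4 h5 h6 h7
  rfl

variable {A : Type*} (f : A → S) (e : ℕ → S → W) (m Gam M : ℕ)

/-- total weight -/
def ww (u : List A) : W :=
  ∑ l ∈ Finset.range m, e l (seg f u (be Gam M l u.length) (be Gam M (l + 1) u.length))

/-- position of the `l`-th boundary in the right word of level `i` -/
def po (i l n : ℕ) : ℕ := be Gam M l (n + (a Gam M i + G Gam i)) - (a Gam M i + G Gam i)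

variable {act : V → S → V} {F : S → W → V} {e m}

def LL (nmL : ℕ → Option (Ctx act m e F)) (γ : Ctx act m e F) (p : List A) : Prop :=
  nmL p.length = some γ ∧ a Gam M γ.i + G Gam γ.i ≤ p.length ∧ p.length < a Gam M (γ.i + 1) ∧
    seg f p 0 (be Gam M γ.i p.length) = γ.g ∧
    ∑ l ∈ Finset.range γ.i, e l (seg f p (be Gam M l p.length) (be Gam M (l + 1) p.length)) = γ.wl

def RR (nmR : ℕ → Option (Ctx act m e F)) (γ : Ctx act m e F) (q : List A) : Prop :=
  nmR q.length = some γ ∧ G Gam γ.i ∣ q.length ∧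
    (∀ l, γ.i < l → l ≤ m →
      (q.length + (a Gam M γ.i + G Gam γ.i) - a Gam M l) % G Gam l + M * G Gam γ.i ≤ G Gam l) ∧
    seg f q (po Gam M γ.i (γ.i + 1) q.length) q.length = γ.h ∧
    ∑ l ∈ Finset.Ico (γ.i + 1) m,
      e l (seg f q (po Gam M γ.i l q.length) (po Gam M γ.i (l + 1) q.length)) = γ.wr

variable {f Gam M}

/-- splitting of the total weight at a cut of level `i` -/
theorem split_read (hGam : 0 < Gam) {p q : List A} {i : ℕ} (hi : i < m) (hp1 : a Gam M i + G Gam i ≤ p.length) (hp2 : p.length < a Gam M (i + 1))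
    (hq : a Gam M m ≤ q.length) (hG : G Gam i ∣ q.length)
    (hr : ∀ l, i < l → l ≤ m →
      (q.length + (a Gam M i + G Gam i) - a Gam M l) % G Gam l + M * G Gam i ≤ G Gam l) :
    seg f (p ++ q) 0 (be Gam M i (p ++ q).length) = seg f p 0 (be Gam M i p.length) ∧
    seg f (p ++ q) (be Gam M (i + 1) (p ++ q).length) (p ++ q).length =
      seg f q (po Gam M i (i + 1) q.length) q.length ∧
    (∀ l < i, seg f (p ++ q) (be Gam M l (p ++ q).length) (be Gam M (l + 1) (p ++ q).length) =
      seg f p (be Gam M l p.length) (be Gam M (l + 1) p.length)) ∧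
    (∀ l, i < l → l < m →
      seg f (p ++ q) (be Gam M l (p ++ q).length) (be Gam M (l + 1) (p ++ q).length) =
      seg f q (po Gam M i l q.length) (po Gam M i (l + 1) q.length)) ∧
    be Gam M i (p ++ q).length ≤ be Gam M (i + 1) (p ++ q).length ∧
    be Gam M (i + 1) (p ++ q).length ≤ (p ++ q).length := by
  have hleft : ∀ l ≤ i, be Gam M l (p ++ q).length = be Gam M l p.length := by
    intro l hl
    rw [List.length_append]
    apply be_add
    · have := a_mono (Gam := Gam) (M := M) hl; omega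
    · exact (G_dvd hl).trans hG
  have hasucc : a Gam M (i + 1) = a Gam M i + G Gam i + M * G Gam i := a_succ i
  have hright : ∀ l, i < l → l ≤ m → be Gam M l (p ++ q).length =
      be Gam M l (q.length + (a Gam M i + G Gam i)) + (p.length - (a Gam M i + G Gam i)) := by
    intro l hl hlm
    have h1 := hr l hl hlm
    have h2 := a_mono (Gam := Gam) (M := M) hlm
    rw [List.length_append, show p.length + q.length =
      (q.length + (a Gam M i + G Gam i)) + (p.length - (a Gam M i + G Gam i)) by omega]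
    apply be_shift
    · omega
    · omega
  have hge : ∀ l, i < l → a Gam M i + G Gam i + M * G Gam i ≤
      be Gam M l (q.length + (a Gam M i + G Gam i)) := by
    intro l hl
    have h1 := be_ge (Gam := Gam) (M := M) l (q.length + (a Gam M i + G Gam i))
    have h2 := a_mono (Gam := Gam) (M := M) (show i + 1 ≤ l from hl)
    omega
  have hpo : ∀ l, i < l → l ≤ m →
      be Gam M l (p ++ q).length - p.length = po Gam M i l q.length ∧
      p.length ≤ be Gam M l (p ++ q).length := by
    intro l hl hlm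
    have h1 := hright l hl hlm
    have h2 := hge l hl
    unfold po
    omega
  refine ⟨?_, ?_, ?_, ?_, be_le_succ hGam _ _, ?_⟩
  · rw [hleft i le_rfl, seg_left]
    have := be_lt (M := M) hGam i p.length
    omega
  · obtain ⟨h1, h2⟩ := hpo (i + 1) (by omega) (by omega)
    rw [seg_right h2 (by rw [List.length_append]; omega), h1]
    congr 1
    rw [List.length_append]; omega
  · intro l hl
    rw [hleft l hl.le, hleft (l + 1) hl, seg_left]
    have h1 := be_lt (M := M) hGam (l + 1) p.length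
    have h2 : a Gam M (l + 1) + G Gam (l + 1) ≤ a Gam M i + G Gam i := by
      have h3 := a_mono (Gam := Gam) (M := M) (show l + 1 ≤ i from hl)
      have h4 := Nat.le_of_dvd (G_pos hGam i) (G_dvd (Gam := Gam) (show l + 1 ≤ i from hl))
      omega
    omega
  · intro l hl hlm
    obtain ⟨h1, h2⟩ := hpo l hl hlm.le
    obtain ⟨h3, h4⟩ := hpo (l + 1) (by omega) hlm
    rw [seg_right h2 h4, h1, h3]
  · have h1 := hright (i + 1) (by omega) (by omega)
    have h2 := be_lt (M := M) hGam (i + 1) (q.length + (a Gam M i + G Gam i))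
    have h3 := hr (i + 1) (by omega) (by omega)
    unfold be at h1
    rw [List.length_append] at h1 ⊢
    have h4 := a_mono (Gam := Gam) (M := M) (show i + 1 ≤ m from hi)
    unfold be
    have h5 := Nat.mod_le (p.length + q.length - a Gam M (i + 1)) (G Gam (i + 1))
    omega

theorem sum_split {m i : ℕ} (hi : i < m) (x : ℕ → W) :
    ∑ l ∈ Finset.range m, x l =
      ∑ l ∈ Finset.range i, x l + x i + ∑ l ∈ Finset.Ico (i + 1) m, x l := by
  rw [← Finset.sum_range_succ, Finset.sum_range_add_sum_Ico x hi]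

/-- **Exactness of matched pairs.** -/
theorem matched (hGam : 0 < Gam) {nmL nmR : ℕ → Option (Ctx act m e F)}
    {γ : Ctx act m e F} {p q : List A} (hp : LL f Gam M nmL γ p) (hq : RR f Gam M nmR γ q)
    (hlen : a Gam M m ≤ q.length) :
    γ.b = act γ.v (pr f (p ++ q)) + F (pr f (p ++ q)) (ww f e m Gam M (p ++ q)) := by
  obtain ⟨_, hp1, hp2, hp3, hp4⟩ := hp
  obtain ⟨_, hq1, hq2, hq3, hq4⟩ := hq
  obtain ⟨h1, h2, h3, h4, h5, h6⟩ := split_read (f := f) hGam γ.hi hp1 hp2 hlen
    hq1 hq2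
  have hs : pr f (p ++ q) = γ.g * seg f (p ++ q) (be Gam M γ.i (p ++ q).length)
      (be Gam M (γ.i + 1) (p ++ q).length) * γ.h := by
    rw [← seg_all, ← seg_mul (Nat.zero_le _) h6, ← seg_mul (Nat.zero_le _) h5, h1, h2, hp3, hq3]
  have hw : ww f e m Gam M (p ++ q) = γ.wl + e γ.i (seg f (p ++ q) (be Gam M γ.i (p ++ q).length)
      (be Gam M (γ.i + 1) (p ++ q).length)) + γ.wr := by
    unfold ww
    rw [sum_split γ.hi, ← hp4, ← hq4]
    congr 1
    · congr 1
      apply Finset.sum_congr rfl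
      intro l hl
      rw [h3 l (Finset.mem_range.1 hl)]
    · apply Finset.sum_congr rfl
      intro l hl
      rw [Finset.mem_Ico] at hl
      rw [h4 l (by omega) hl.2]
  rw [hw, hs, add_comm]
  exact (γ.ok _).symm

theorem sub_mod' {x y H : ℕ} (h : x ≤ y % H) (hH : 0 < H) : (y - x) % H = y % H - x := by
  have h1 := Nat.div_add_mod y H
  have h2 := Nat.mod_lt y hH
  have h3 : y - x = H * (y / H) + (y % H - x) := by omega
  rw [h3, Nat.mul_add_mod, Nat.mod_eq_of_lt (by omega)]

theorem per_congr {X : Type*} {g : ℕ → X} (hg : ∀ t, g (t + M) = g t) {x y : ℕ}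
    (h : x % M = y % M) : g x = g y := by
  have hp : Function.Periodic g M := hg
  rw [← hp.map_mod_nat x, h, hp.map_mod_nat]

/-- **Completeness.** -/
theorem complete (hGam : 0 < Gam) (hM : 0 < M) (hcop : ∀ i, Nat.Coprime M (G Gam i))
    (hnoise : ∀ (s : S) (w : W) (v : V), ∃ i < m, ∀ g x h : S, g * x * h = s →
        ∀ z : S, F (g * z * h) (w - e i x + e i z) + act v (g * z * h) = F s w + act v s)
    {nmL nmR : ℕ → Option (Ctx act m e F)}
    (hpL : ∀ t, nmL (t + M) = nmL t) (hpR : ∀ t, nmR (t + M) = nmR t)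
    {u : List A} (hT : 2 * a Gam M m ≤ u.length)
    (hnm : ∀ γ, ∃ t ≤ u.length, nmL t = some γ ∧ nmR (u.length - t) = some γ)
    (hbad : ∀ l < m, M * G Gam l ≤ (u.length - a Gam M (l + 1)) % G Gam (l + 1) ∧
      (u.length - a Gam M (l + 1)) % G Gam (l + 1) + M * G Gam l < G Gam (l + 1)) (v : V) :
    ∃ p q γ, p ++ q = u ∧ LL f Gam M nmL γ p ∧ RR f Gam M nmR γ q ∧ γ.v = v := by
  obtain ⟨i, hi, hnoi⟩ := hnoise (pr f u) (ww f e m Gam M u) v
  set T := u.length with hTdef
  set g := seg f u 0 (be Gam M i T) with hg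
  set x := seg f u (be Gam M i T) (be Gam M (i + 1) T) with hx
  set h := seg f u (be Gam M (i + 1) T) T with hh
  set wl := ∑ l ∈ Finset.range i, e l (seg f u (be Gam M l T) (be Gam M (l + 1) T)) with hwl
  set wr := ∑ l ∈ Finset.Ico (i + 1) m, e l (seg f u (be Gam M l T) (be Gam M (l + 1) T)) with hwr
  have hw : ww f e m Gam M u = wl + e i x + wr := sum_split hi _
  have hami : a Gam M (i + 1) ≤ a Gam M m := a_mono hi
  have hasucc : a Gam M (i + 1) = a Gam M i + G Gam i + M * G Gam i := a_succ i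
  have hGi := G_pos hGam i
  have hMG : 0 < M * G Gam i := Nat.mul_pos hM hGi
  have hb1 : be Gam M (i + 1) T ≤ T := by
    unfold be
    have := Nat.mod_le (T - a Gam M (i + 1)) (G Gam (i + 1))
    omega
  have hs : g * x * h = pr f u := by
    rw [hg, hx, hh, seg_mul (Nat.zero_le _) (be_le_succ hGam i T), seg_mul (Nat.zero_le _) hb1,
      hTdef, seg_all]
  let γ : Ctx act m e F := ⟨i, hi, g, wl, h, wr, v, F (pr f u) (ww f e m Gam M u) + act v (pr f u),
    by
      intro z
      rw [← hnoi g x h hs z]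
      congr 2
      rw [hw]; abel⟩
  obtain ⟨t, ht, hnL, hnR⟩ := hnm γ
  obtain ⟨k, hk1, hk2⟩ := Nat.chineseRemainder (hcop i) t T
  obtain ⟨o, ho1, ho2, ho3⟩ := Names_570.exists_shift k (a Gam M i + G Gam i) (M * G Gam i) hMG
  have hoM : o ≡ t [MOD M] := by
    have h1 : o ≡ k [MOD M * G Gam i] := ho3
    exact (h1.of_mul_right _).trans hk1
  have hoG : o ≡ T [MOD G Gam i] := by
    have h1 : o ≡ k [MOD M * G Gam i] := ho3
    exact (h1.of_mul_left _).trans hk2
  have hoa : o < a Gam M (i + 1) := by omega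
  have hoT : o ≤ T := by omega
  have hGd : G Gam i ∣ T - o := (Nat.modEq_iff_dvd' hoT).1 hoG
  have hpl : (u.take o).length = o := by rw [List.length_take]; omega
  have hql : (u.drop o).length = T - o := by rw [List.length_drop]
  have hr : ∀ l, i < l → l ≤ m →
      ((u.drop o).length + (a Gam M i + G Gam i) - a Gam M l) % G Gam l + M * G Gam i ≤
        G Gam l := by
    intro l hl hlm
    obtain ⟨l', rfl⟩ : ∃ l', l = l' + 1 := ⟨l - 1, by omega⟩
    obtain ⟨h1, h2⟩ := hbad l' (by omega)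
    have h3 : G Gam i ≤ G Gam l' := Nat.le_of_dvd (G_pos hGam l') (G_dvd (by omega))
    have h4 : M * G Gam i ≤ M * G Gam l' := Nat.mul_le_mul_left _ h3
    have h5 := a_mono (Gam := Gam) (M := M) hlm
    have h6 : (u.drop o).length + (a Gam M i + G Gam i) - a Gam M (l' + 1) =
        (T - a Gam M (l' + 1)) - (o - (a Gam M i + G Gam i)) := by
      rw [hql]; omega
    rw [h6, sub_mod' (by omega) (G_pos hGam _)]
    omega
  have hsr := split_read (f := f) (p := u.take o) (q := u.drop o) hGam hi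
    (by rw [hpl]; exact ho1) (by rw [hpl]; exact hoa) (by rw [hql]; omega)
    (by rw [hql]; exact hGd) hr
  rw [List.take_append_drop] at hsr
  obtain ⟨h1, h2, h3, h4, -, -⟩ := hsr
  refine ⟨u.take o, u.drop o, γ, List.take_append_drop _ _, ⟨?_, ?_, ?_, ?_, ?_⟩,
    ⟨?_, ?_, ?_, ?_, ?_⟩, rfl⟩
  · rw [hpl, ← hnL]; exact per_congr hpL hoM
  · rw [hpl]; exact ho1
  · rw [hpl]; exact hoa
  · rw [← h1]
  · show _ = wl
    rw [hwl]
    exact Finset.sum_congr rfl fun l hl => by rw [← h3 l (Finset.mem_range.1 hl)]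
  · rw [hql, ← hnR]
    apply per_congr hpR
    have e1 : o + (T - o) ≡ t + (T - t) [MOD M] := by
      rw [Nat.add_sub_cancel' hoT, Nat.add_sub_cancel' ht]
    exact Nat.ModEq.add_left_cancel hoM e1
  · rw [hql]; exact hGd
  · exact hr
  · rw [← h2]
  · show _ = wr
    rw [hwr]
    refine Finset.sum_congr rfl fun l hl => ?_
    rw [Finset.mem_Ico] at hl
    rw [← h4 l (by omega) hl.2]

/-! ### Labels -/

open Classical in
noncomputable def lam (f : A → S) (Gam M : ℕ) (nmL : ℕ → Option (Ctx act m e F)) (p : List A) :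
    Option V := if h : ∃ γ, LL f Gam M nmL γ p then some h.choose.v else none

open Classical in
noncomputable def rho (f : A → S) (Gam M : ℕ) (nmR : ℕ → Option (Ctx act m e F)) (q : List A) :
    Option V := if h : ∃ γ, RR f Gam M nmR γ q then some h.choose.b else none

open Classical in
noncomputable def VB (nmL nmR : ℕ → Option (Ctx act m e F)) (M ρ : ℕ) : V × V :=
  if h : ∃ c : Ctx act m e F × Ctx act m e F, ∃ t t', (t + t') % M = ρ ∧ nmL t = some c.1 ∧
    nmR t' = some c.2 then (h.choose.1.v, h.choose.2.b) else 0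

open Classical in
noncomputable def nu (f : A → S) (Gam M : ℕ) (Ms : Finset ℕ)
    (nmL nmR : ℕ → Option (Ctx act m e F)) (u : List A) : V :=
  if ∀ k ∈ Ms, ¬ k ∣ u.length then F (pr f u) (ww f e m Gam M u) else
    (VB nmL nmR M (u.length % M)).2 - act (VB nmL nmR M (u.length % M)).1 (pr f u)

variable {nmL nmR : ℕ → Option (Ctx act m e F)}

theorem lam_some {p : List A} {v : V} (h : lam f Gam M nmL p = some v) :
    ∃ γ, LL f Gam M nmL γ p ∧ γ.v = v := by
  unfold lam at h
  split_ifs at h with h1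
  exact ⟨h1.choose, h1.choose_spec, Option.some.inj h⟩

theorem rho_some {q : List A} {r : V} (h : rho f Gam M nmR q = some r) :
    ∃ γ, RR f Gam M nmR γ q ∧ γ.b = r := by
  unfold rho at h
  split_ifs at h with h1
  exact ⟨h1.choose, h1.choose_spec, Option.some.inj h⟩

theorem lam_of {p : List A} {γ : Ctx act m e F} (h : LL f Gam M nmL γ p) :
    lam f Gam M nmL p = some γ.v := by
  unfold lam
  have h1 : ∃ γ, LL f Gam M nmL γ p := ⟨γ, h⟩
  rw [dif_pos h1]
  have h2 := h1.choose_spec.1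
  rw [h.1] at h2
  rw [← Option.some.inj h2]

theorem rho_of {q : List A} {γ : Ctx act m e F} (h : RR f Gam M nmR γ q) :
    rho f Gam M nmR q = some γ.b := by
  unfold rho
  have h1 : ∃ γ, RR f Gam M nmR γ q := ⟨γ, h⟩
  rw [dif_pos h1]
  have h2 := h1.choose_spec.1
  rw [h.1] at h2
  rw [← Option.some.inj h2]

theorem VB_eq {Ms : Finset ℕ} (hMs : ∀ k ∈ Ms, k ∣ M) (hpR : ∀ t, nmR (t + M) = nmR t)
    (hpair : ∀ t1 t1' t2 t2' (c1 c1' c2 c2' : Ctx act m e F), t1 + t1' = t2 + t2' →
      (∃ k ∈ Ms, k ∣ t1 + t1') → nmL t1 = some c1 → nmR t1' = some c1' →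
      nmL t2 = some c2 → nmR t2' = some c2' →
      (c1 = c2 ∧ c1' = c2') ∨ (c1 = c2' ∧ c1' = c2 ∧ (c1.v, c1.b) = (c1'.v, c1'.b)))
    {t t' : ℕ} {c c' : Ctx act m e F} (hbad : ∃ k ∈ Ms, k ∣ t + t')
    (hL : nmL t = some c) (hR : nmR t' = some c') :
    VB nmL nmR M ((t + t') % M) = (c.v, c'.b) := by
  unfold VB
  have h1 : ∃ c : Ctx act m e F × Ctx act m e F, ∃ s s', (s + s') % M = (t + t') % M ∧
    nmL s = some c.1 ∧ nmR s' = some c.2 := ⟨(c, c'), t, t', rfl, hL, hR⟩
  rw [dif_pos h1]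
  obtain ⟨s, s', hs, hsL, hsR⟩ := h1.choose_spec
  set d := h1.choose with hd
  have hpR' : ∀ x j, nmR (x + M * j) = nmR x := fun x j =>
    per_congr hpR (by rw [Nat.add_mul_mod_self_left])
  have e1 := Nat.div_add_mod (s + s') M
  have e2 := Nat.div_add_mod (t + t') M
  rw [hs] at e1
  have hsum : t + (t' + M * ((s + s') / M)) = s + (s' + M * ((t + t') / M)) := by omega
  have hk : ∃ k ∈ Ms, k ∣ t + (t' + M * ((s + s') / M)) := by
    obtain ⟨k, hk, hkd⟩ := hbad
    refine ⟨k, hk, ?_⟩
    rw [← add_assoc]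
    exact dvd_add hkd ((hMs k hk).mul_right _)
  rcases hpair t (t' + M * ((s + s') / M)) s (s' + M * ((t + t') / M)) c c' d.1 d.2 hsum hk hL
    (by rw [hpR', hR]) hsL (by rw [hpR', hsR]) with ⟨h2, h3⟩ | ⟨h2, h3, h4⟩
  · rw [← h2, ← h3]
  · rw [Prod.mk.injEq] at h4
    rw [← h2, ← h3, h4.1, h4.2]

theorem sound (hGam : 0 < Gam) {Ms : Finset ℕ} (hMs : ∀ k ∈ Ms, k ∣ M)
    (hpR : ∀ t, nmR (t + M) = nmR t)
    (heq : ∀ t t' (c c' : Ctx act m e F), (∀ k ∈ Ms, ¬ k ∣ t + t') → nmL t = some c →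
      nmR t' = some c' → c = c')
    (hpair : ∀ t1 t1' t2 t2' (c1 c1' c2 c2' : Ctx act m e F), t1 + t1' = t2 + t2' →
      (∃ k ∈ Ms, k ∣ t1 + t1') → nmL t1 = some c1 → nmR t1' = some c1' →
      nmL t2 = some c2 → nmR t2' = some c2' →
      (c1 = c2 ∧ c1' = c2') ∨ (c1 = c2' ∧ c1' = c2 ∧ (c1.v, c1.b) = (c1'.v, c1'.b)))
    {p q : List A} {v r : V} (hp : lam f Gam M nmL p = some v) (hq : rho f Gam M nmR q = some r)
    (hlen : a Gam M m ≤ q.length) :
    r = act v (pr f (p ++ q)) + nu f Gam M Ms nmL nmR (p ++ q) := by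
  obtain ⟨γ, hγ, rfl⟩ := lam_some hp
  obtain ⟨γ', hγ', rfl⟩ := rho_some hq
  unfold nu
  split_ifs with hgood
  · have : γ = γ' := heq _ _ _ _ (by rw [← List.length_append]; exact hgood) hγ.1 hγ'.1
    subst this
    exact matched hGam hγ hγ' hlen
  · push Not at hgood
    rw [List.length_append] at hgood ⊢
    rw [VB_eq hMs hpR hpair hgood hγ.1 hγ'.1]
    abel

/-! ### Finite state -/

theorem mod_of {m' i : ℕ} (hi : i ≤ m') {x y : ℕ} (h : x % (M * G Gam m') = y % (M * G Gam m')) :
    x % G Gam i = y % G Gam i := by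
  have h1 : x ≡ y [MOD M * G Gam m'] := h
  exact h1.of_dvd ((G_dvd hi).trans (Dvd.intro_left _ rfl))

theorem nu_congr (hGam : 0 < Gam) {Ms : Finset ℕ} (hMs : ∀ k ∈ Ms, k ∣ M) {La : ℕ}
    (hLa : a Gam M m + G Gam m ≤ La) {q q2 : List A} (hq : La ≤ q.length) (hq2 : La ≤ q2.length)
    (ht : q.take La = q2.take La) (hmod : q.length % (M * G Gam m) = q2.length % (M * G Gam m))
    (hpr : pr f q = pr f q2) : nu f Gam M Ms nmL nmR q = nu f Gam M Ms nmL nmR q2 := by
  have hM : q.length % M = q2.length % M := by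
    have h1 : q.length ≡ q2.length [MOD M * G Gam m] := hmod
    exact h1.of_dvd (Dvd.intro _ rfl)
  have hk : (∀ k ∈ Ms, ¬ k ∣ q.length) ↔ (∀ k ∈ Ms, ¬ k ∣ q2.length) := by
    have h1 : ∀ k ∈ Ms, (k ∣ q.length ↔ k ∣ q2.length) := by
      intro k hk
      have h2 : q.length ≡ q2.length [MOD k] := Nat.ModEq.of_dvd (hMs k hk) hM
      rw [Nat.dvd_iff_mod_eq_zero, Nat.dvd_iff_mod_eq_zero, h2]
    constructor
    · intro h k hk'; rw [← h1 k hk']; exact h k hk'
    · intro h k hk'; rw [h1 k hk']; exact h k hk'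
  have hbe : ∀ l ≤ m, be Gam M l q.length = be Gam M l q2.length := by
    intro l hl
    have := a_mono (Gam := Gam) (M := M) hl
    exact be_congr (by omega) (by omega) (mod_of hl hmod)
  have hble : ∀ l ≤ m, be Gam M l q2.length ≤ La := by
    intro l hl
    have h1 := a_mono (Gam := Gam) (M := M) hl
    have h2 := be_lt (M := M) hGam l q2.length
    have h3 := Nat.le_of_dvd (G_pos hGam m) (G_dvd (Gam := Gam) hl)
    omega
  have hww : ww f e m Gam M q = ww f e m Gam M q2 := by
    unfold ww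
    refine Finset.sum_congr rfl fun l hl => ?_
    rw [Finset.mem_range] at hl
    rw [hbe l hl.le, hbe (l + 1) hl, ← seg_take (hble (l + 1) hl), ht, seg_take (hble (l + 1) hl)]
  unfold nu
  rw [hM, hpr, hww]
  by_cases h : ∀ k ∈ Ms, ¬ k ∣ q.length
  · rw [if_pos h, if_pos (hk.1 h)]
  · rw [if_neg h, if_neg (fun h' => h (hk.2 h'))]

theorem RR_congr (hGam : 0 < Gam) (hpR : ∀ t, nmR (t + M) = nmR t) {La : ℕ}
    (hLa : 2 * a Gam M m + G Gam m ≤ La) {q q2 : List A} (hq : La ≤ q.length)
    (hq2 : La ≤ q2.length) (ht : q.take La = q2.take La)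
    (hmod : q.length % (M * G Gam m) = q2.length % (M * G Gam m))
    (hpr : pr f (q.drop La) = pr f (q2.drop La)) {γ : Ctx act m e F}
    (h : RR f Gam M nmR γ q) : RR f Gam M nmR γ q2 := by
  obtain ⟨h1, h2, h3, h4, h5⟩ := h
  have hi := γ.hi
  have hM : q.length % M = q2.length % M := by
    have h1 : q.length ≡ q2.length [MOD M * G Gam m] := hmod
    exact h1.of_dvd (Dvd.intro _ rfl)
  have hbe : ∀ l ≤ m, be Gam M l (q.length + (a Gam M γ.i + G Gam γ.i)) =
      be Gam M l (q2.length + (a Gam M γ.i + G Gam γ.i)) := by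
    intro l hl
    have := a_mono (Gam := Gam) (M := M) hl
    exact be_congr (by omega) (by omega) (Nat.ModEq.add_right _ (mod_of hl hmod))
  have hpo : ∀ l ≤ m, po Gam M γ.i l q.length = po Gam M γ.i l q2.length := by
    intro l hl; unfold po; rw [hbe l hl]
  have hble : ∀ l ≤ m, po Gam M γ.i l q2.length ≤ La := by
    intro l hl
    have h1 := a_mono (Gam := Gam) (M := M) hl
    have h2 := be_lt (M := M) hGam l (q2.length + (a Gam M γ.i + G Gam γ.i))
    have h3 := Nat.le_of_dvd (G_pos hGam m) (G_dvd (Gam := Gam) hl)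
    unfold po
    omega
  refine ⟨?_, ?_, ?_, ?_, ?_⟩
  · rw [← h1]; exact (per_congr hpR hM).symm
  · have h6 := mod_of (M := M) (Gam := Gam) (le_of_lt hi) hmod
    rw [Nat.dvd_iff_mod_eq_zero] at h2 ⊢
    rw [← h6]; exact h2
  · intro l hl hlm
    have h6 := h3 l hl hlm
    have h7 := hbe l hlm
    unfold be at h7
    omega
  · rw [← h4, hpo _ hi, seg_end (hble _ hi) hq, seg_end (hble _ hi) hq2, ht, hpr]
  · rw [← h5]
    refine Finset.sum_congr rfl fun l hl => ?_
    rw [Finset.mem_Ico] at hl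
    rw [hpo l hl.2.le, hpo (l + 1) hl.2, ← seg_take (hble (l + 1) hl.2), ← ht,
      seg_take (hble (l + 1) hl.2)]

theorem rho_congr (hGam : 0 < Gam) (hpR : ∀ t, nmR (t + M) = nmR t) {La : ℕ}
    (hLa : 2 * a Gam M m + G Gam m ≤ La) {q q2 : List A} (hq : La ≤ q.length)
    (hq2 : La ≤ q2.length) (ht : q.take La = q2.take La)
    (hmod : q.length % (M * G Gam m) = q2.length % (M * G Gam m))
    (hpr : pr f (q.drop La) = pr f (q2.drop La)) :
    rho f Gam M nmR q = rho f Gam M nmR q2 := by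
  by_cases h : ∃ γ, RR f Gam M nmR γ q
  · obtain ⟨γ, hγ⟩ := h
    rw [rho_of hγ, rho_of (RR_congr hGam hpR hLa hq hq2 ht hmod hpr hγ)]
  · have h2 : ¬ ∃ γ, RR f Gam M nmR γ q2 := by
      rintro ⟨γ, hγ⟩
      exact h ⟨γ, RR_congr hGam hpR hLa hq2 hq ht.symm hmod.symm hpr.symm hγ⟩
    unfold rho
    rw [dif_neg h, dif_neg h2]

end gadget

end Crest.Agent.R320.UGI28
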