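import Crest.Agent.R320.Grid_760
import Crest.Agent.R320.Ruler_265

/-!
Row 320, helper760: the literal `UGI` (772 #13437 with 440's correction #13562): U-gadget on all
words with wide ruler, bounded spoiling, periodic bad set, finite-state clause.
-/

set_option autoImplicit false

namespace Crest.Agent.R320.UGI760

open Finset Crest.Agent.R320.Gad1_420 Crest.Agent.R320.Grid760

/-- length bound of left words -/
def nn (D : Geo) : ℕ := D.a D.m + D.c D.m

/-- window of the right words -/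
def lla (D : Geo) : ℕ := D.a D.m + D.c D.m + D.G D.m + D.A D.m

section Congr

variable (D : Geo)

theorem G_le {k : ℕ} (h : k ≤ D.m) : D.G k ≤ D.G D.m :=
  Nat.le_of_dvd (D.Gpos _) (D.Gdvd k D.m h)

/-- reduction of a congruence to a shift -/
theorem shift {x y n : ℕ} (h : x ≡ y [MOD n]) (hxy : x ≤ y) : ∃ t, y = x + n * t := by
  obtain ⟨t, ht⟩ := (Nat.modEq_iff_dvd' hxy).1 h
  exact ⟨t, by omega⟩

theorem shiftG {x y k : ℕ} (h : x ≡ y [MOD D.G D.m]) (hk : k ≤ D.m) (hxy : x ≤ y) :
    ∃ t, y = x + D.G k * t := shift (h.of_dvd (D.Gdvd k D.m hk)) hxy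

theorem be_shift {T k t : ℕ} (h : D.a k ≤ T) : D.be (T + D.G k * t) k = D.be T k := by
  unfold Geo.be
  rw [show T + D.G k * t - D.a k = (T - D.a k) + D.G k * t by omega, Nat.add_mul_mod_self_left]

theorem be_congr {x y k : ℕ} (h : x ≡ y [MOD D.G D.m]) (hk : k ≤ D.m) (hx : D.a k ≤ x)
    (hy : D.a k ≤ y) : D.be x k = D.be y k := by
  rcases le_total x y with hxy | hxy
  · obtain ⟨t, rfl⟩ := shiftG D h hk hxy
    rw [be_shift D hx]
  · obtain ⟨t, rfl⟩ := shiftG D h.symm hk hxy
    rw [be_shift D hy]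

theorem div_shift {X k t : ℕ} : (X + D.G k * t) / D.G k = X / D.G k + t :=
  Nat.add_mul_div_left _ _ (D.Gpos k)

theorem rb_shift {i o k t : ℕ} (h : D.a k ≤ o) :
    D.rb i (o + D.G k * t) k = D.rb i o k + D.G k * t := by
  unfold Geo.rb
  rw [show o + D.G k * t + D.A i - D.a k = (o + D.A i - D.a k) + D.G k * t by omega,
    div_shift, Nat.mul_add]

theorem pos_congr {i x y k : ℕ} (h : x ≡ y [MOD D.G D.m]) (hk : k ≤ D.m) (hx : D.a k ≤ x)
    (hy : D.a k ≤ y) : x - D.rb i x k = y - D.rb i y k := by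
  rcases le_total x y with hxy | hxy
  · obtain ⟨t, rfl⟩ := shiftG D h hk hxy
    rw [rb_shift D hx]; omega
  · obtain ⟨t, rfl⟩ := shiftG D h.symm hk hxy
    rw [rb_shift D hy]; omega

theorem pos_le {i x k : ℕ} (hk : k ≤ D.m) : x - D.rb i x k ≤ lla D := by
  have h1 := Nat.div_add_mod (x + D.A i - D.a k) (D.G k)
  have h2 := Nat.mod_lt (x + D.A i - D.a k) (D.Gpos k)
  have h3 := G_le D hk
  have h4 := D.a_mono hk
  unfold Geo.rb lla
  omega

theorem vis_shift {i o t : ℕ} (ho : D.a D.m ≤ o) :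
    D.Vis i (o + D.G D.m * t) ↔ D.Vis i o := by
  have key : ∀ k, k ≤ D.m → ((o + D.G D.m * t + D.A i + D.c i - D.a k) / D.G k =
      (o + D.G D.m * t + D.A i - D.a k) / D.G k ↔
      (o + D.A i + D.c i - D.a k) / D.G k = (o + D.A i - D.a k) / D.G k) := by
    intro k hkm
    obtain ⟨s, hs⟩ := D.Gdvd k D.m hkm
    have h4 := D.a_mono hkm
    have e1 : o + D.G D.m * t + D.A i + D.c i - D.a k =
        (o + D.A i + D.c i - D.a k) + D.G k * (s * t) := by
      rw [← mul_assoc, ← hs]; omega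
    have e2 : o + D.G D.m * t + D.A i - D.a k =
        (o + D.A i - D.a k) + D.G k * (s * t) := by
      rw [← mul_assoc, ← hs]; omega
    rw [e1, e2, div_shift, div_shift]
    omega
  constructor
  · intro h k h1 h2
    have h4 := D.a_mono h2
    exact ⟨by omega, (key k h2).1 (h k h1 h2).2⟩
  · intro h k h1 h2
    have h4 := D.a_mono h2
    exact ⟨by omega, (key k h2).2 (h k h1 h2).2⟩

theorem vis_congr {i x y : ℕ} (hx : lla D ≤ x) (hy : lla D ≤ y) (h : x ≡ y [MOD D.G D.m])
    (hv : D.Vis i x) : D.Vis i y := by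
  have hx' : D.a D.m ≤ x := by unfold lla at hx; omega
  have hy' : D.a D.m ≤ y := by unfold lla at hy; omega
  rcases le_total x y with hxy | hxy
  · obtain ⟨t, rfl⟩ := shiftG D h le_rfl hxy
    exact (vis_shift D hx').2 hv
  · obtain ⟨t, rfl⟩ := shiftG D h.symm le_rfl hxy
    exact (vis_shift D hy').1 hv

variable {α S : Type*} [Monoid S] {N : ℕ} (phi : List α → S) (e : ℕ → S → ZMod N × ZMod N)

theorem seg_congr {La x y : ℕ} {w w' : List α} (h1 : La ≤ w.length) (h2 : La ≤ w'.length)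
    (h3 : w.take La = w'.take La) (hy : y ≤ La) : seg w x y = seg w' x y := by
  rcases le_or_gt x y with hxy | hxy
  · have e1 := seg_left (P := w.take La) (Q := w.drop La) hxy (by rw [List.length_take]; omega)
    have e2 := seg_left (P := w'.take La) (Q := w'.drop La) hxy (by rw [List.length_take]; omega)
    rw [List.take_append_drop] at e1 e2
    rw [e1, e2, h3]
  · unfold seg
    rw [show y - x = 0 by omega, List.take_zero, List.take_zero]

theorem drop_congr (hphi : ∀ u v, phi (u ++ v) = phi u * phi v) {La x : ℕ} {w w' : List α}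
    (h1 : La ≤ w.length) (h2 : La ≤ w'.length) (h3 : w.take La = w'.take La)
    (h5 : phi (w.drop La) = phi (w'.drop La)) (hx : x ≤ La) :
    phi (w.drop x) = phi (w'.drop x) := by
  have e1 : w.drop x = (w.take La).drop x ++ w.drop La := by
    conv_lhs => rw [← List.take_append_drop La w]
    exact drop_app_left (by rw [List.length_take]; omega)
  have e2 : w'.drop x = (w'.take La).drop x ++ w'.drop La := by
    conv_lhs => rw [← List.take_append_drop La w']
    exact drop_app_left (by rw [List.length_take]; omega)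
  rw [e1, e2, hphi, hphi, h3, h5]

theorem hR_congr (hphi : ∀ u v, phi (u ++ v) = phi u * phi v) {La i : ℕ} {w w' : List α}
    (hLa : lla D ≤ La) (h1 : La ≤ w.length) (h2 : La ≤ w'.length) (h3 : w.take La = w'.take La)
    (hG : w.length ≡ w'.length [MOD D.G D.m]) (h5 : phi (w.drop La) = phi (w'.drop La))
    (him : i < D.m) : hR D phi i w = hR D phi i w' := by
  have ha := D.a_mono (show i + 1 ≤ D.m from him)
  have hl : D.a D.m ≤ lla D := by unfold lla; omega
  unfold hR
  rw [pos_congr D hG (show i + 1 ≤ D.m from him) (by omega) (by omega)]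
  exact drop_congr phi hphi h1 h2 h3 h5 ((pos_le D (show i + 1 ≤ D.m from him)).trans hLa)

omit [Monoid S] in
theorem wR_congr {La i : ℕ} {w w' : List α}
    (hLa : lla D ≤ La) (h1 : La ≤ w.length) (h2 : La ≤ w'.length) (h3 : w.take La = w'.take La)
    (hG : w.length ≡ w'.length [MOD D.G D.m]) : wR D phi e i w = wR D phi e i w' := by
  have hl : D.a D.m ≤ lla D := by unfold lla; omega
  unfold wR
  refine Finset.sum_congr rfl fun k hk => ?_
  obtain ⟨hk1, hk2⟩ := Finset.mem_Ico.1 hk
  have ha := D.a_mono (show k ≤ D.m by omega)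
  have ha' := D.a_mono (show k + 1 ≤ D.m by omega)
  rw [pos_congr D hG (show k ≤ D.m by omega) (by omega) (by omega),
    pos_congr D hG (show k + 1 ≤ D.m by omega) (by omega) (by omega),
    seg_congr h1 h2 h3 ((pos_le D (show k + 1 ≤ D.m by omega)).trans hLa)]

omit [Monoid S] in
theorem ww_congr {La : ℕ} {w w' : List α}
    (hLa : lla D ≤ La) (h1 : La ≤ w.length) (h2 : La ≤ w'.length) (h3 : w.take La = w'.take La)
    (hG : w.length ≡ w'.length [MOD D.G D.m]) : ww D phi e w = ww D phi e w' := by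
  have hl : D.a D.m ≤ lla D := by unfold lla; omega
  unfold ww
  refine Finset.sum_congr rfl fun k hk => ?_
  have hk2 := Finset.mem_range.1 hk
  have ha := D.a_mono (show k ≤ D.m by omega)
  have ha' := D.a_mono (show k + 1 ≤ D.m by omega)
  have hb : D.be w'.length (k + 1) ≤ La := by
    have h4 := D.be_lt w'.length (k + 1)
    have h5 := G_le D (show k + 1 ≤ D.m by omega)
    have h6 : D.A (k + 1) = D.a (k + 1) + D.G (k + 1) := rfl
    unfold lla at hLa
    omega
  rw [be_congr D hG (show k ≤ D.m by omega) (by omega) (by omega),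
    be_congr D hG (show k + 1 ≤ D.m by omega) (by omega) (by omega),
    seg_congr h1 h2 h3 hb]

end Congr

/-- **the U-gadget on all words** -/
theorem UG2 (S V : Type*) [Monoid S] [Finite S] [AddCommGroup V] [Finite V] (act : V → S → V) :
    ∃ m k : ℕ, ∀ q : Fin k → ℕ, (∀ j, Odd (q j)) →
      Pairwise (fun i j => Nat.Coprime (q i) (q j)) → ∀ (kap : ℕ),
      ∀ (α : Type*) (phi : List α → S), (∀ u v, phi (u ++ v) = phi u * phi v) →
      ∃ (lam rho : List α → Option V) (nu : List α → V),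
        (∀ P v, lam P = some v → P.length ≤ nn (geo m (2 ^ kap) (∏ j, q j) (by positivity))) ∧
        (∀ P Q v b, lam P = some v → rho Q = some b →
          b = act v (phi (P ++ Q)) + nu (P ++ Q)) ∧
        (∀ u : List α, nn (geo m (2 ^ kap) (∏ j, q j) (by positivity)) ≤ u.length →
          (∀ j, ¬ q j ∣ u.length) →
          ¬ (geo m (2 ^ kap) (∏ j, q j) (by positivity)).Doubt u.length →
          ∀ v, ∃ P Q, P ++ Q = u ∧ lam P = some v ∧ (rho Q).isSome) ∧
        (∀ (La : ℕ) (w w' : List α), lla (geo m (2 ^ kap) (∏ j, q j) (by positivity)) ≤ La →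
          La ≤ w.length → La ≤ w'.length → w.take La = w'.take La →
          w.length ≡ w'.length [MOD (∏ j, q j) * (2 ^ kap) ^ m] →
          phi (w.drop La) = phi (w'.drop La) → rho w = rho w' ∧ nu w = nu w') := by
  classical
  obtain ⟨m, N, k, e, hN, hmain⟩ := Crest.Agent.R320.NameGad808.unknownT_gadget S V act
  refine ⟨m, k, fun q hq hc kap => ?_⟩
  obtain ⟨L, R, lev, Dn, hlev, hsound, hcomp⟩ := hmain q hq
  have hqpos : ∀ j, 0 < q j := fun j => (hq j).pos
  set M := ∏ j, q j with hM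
  have hMpos : 0 < M := Finset.prod_pos fun j _ => hqpos j
  set D := geo m (2 ^ kap) M (by positivity) with hD
  have hDm : D.m = m := rfl
  intro α phi hphi
  -- residues
  let rs : ℕ → (∀ j, ZMod (q j)) := fun o j => (o : ZMod (q j))
  let LL : List α → V → Prop := fun P v => ∃ i < m, D.A i ≤ P.length ∧ P.length < D.A i + D.c i ∧
    L i (rs P.length) (gL D phi i P) (wL D phi e i P) = some v
  let RR : List α → V → Prop := fun Q b => ∃ i, D.G i ∣ Q.length ∧ D.Vis i Q.length ∧
    R i (rs Q.length) (hR D phi i Q) (wR D phi e i Q) = some b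
  have cell_uniq : ∀ {i i' o : ℕ}, D.A i ≤ o → o < D.A i + D.c i → D.A i' ≤ o →
      o < D.A i' + D.c i' → i = i' := by
    intro i i' o h1 h2 h3 h4
    rcases lt_trichotomy i i' with h | h | h
    · have := D.A_le h
      have h5 : D.a i' ≤ D.A i' := Nat.le_add_right _ _
      omega
    · exact h
    · have := D.A_le h
      have h5 : D.a i ≤ D.A i := Nat.le_add_right _ _
      omega
  have LLu : ∀ {P v v'}, LL P v → LL P v' → v = v' := by
    rintro P v v' ⟨i, -, h1, h2, h3⟩ ⟨i', -, h1', h2', h3'⟩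
    obtain rfl := cell_uniq h1 h2 h1' h2'
    rw [h3] at h3'
    exact Option.some.inj h3'
  have RRu : ∀ {Q b b'}, RR Q b → RR Q b' → b = b' := by
    rintro Q b b' ⟨i, -, -, h3⟩ ⟨i', -, -, h3'⟩
    obtain ⟨e1, -⟩ := hlev _ _ _ _ _ h3
    obtain ⟨e2, -⟩ := hlev _ _ _ _ _ h3'
    obtain rfl : i = i' := by rw [e1, e2]
    rw [h3] at h3'
    exact Option.some.inj h3'
  let lam : List α → Option V := fun P => if h : ∃ v, LL P v then some h.choose else none
  let rho : List α → Option V := fun Q => if h : ∃ b, RR Q b then some h.choose else none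
  have hlam : ∀ {P v}, lam P = some v ↔ LL P v := by
    intro P v
    by_cases h : ∃ v, LL P v
    · have e1 : lam P = some h.choose := dif_pos h
      rw [e1, Option.some.injEq]
      exact ⟨fun h' => h' ▸ h.choose_spec, fun h' => LLu h.choose_spec h'⟩
    · have e1 : lam P = none := dif_neg h
      rw [e1]
      exact ⟨fun h' => by simp at h', fun h' => absurd ⟨v, h'⟩ h⟩
  have hrho : ∀ {Q b}, rho Q = some b ↔ RR Q b := by
    intro P v
    by_cases h : ∃ v, RR P v
    · have e1 : rho P = some h.choose := dif_pos h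
      rw [e1, Option.some.injEq]
      exact ⟨fun h' => h' ▸ h.choose_spec, fun h' => RRu h.choose_spec h'⟩
    · have e1 : rho P = none := dif_neg h
      rw [e1]
      exact ⟨fun h' => by simp at h', fun h' => absurd ⟨v, h'⟩ h⟩
  refine ⟨lam, rho, fun u => Dn (rs u.length) (phi u) (ww D phi e u), ?_, ?_, ?_, ?_⟩
  · intro P v h
    obtain ⟨i, him, -, h2, -⟩ := hlam.1 h
    have h3 := D.A_le (show i < D.m from him)
    have h4 : nn D = D.a D.m + D.c D.m := rfl
    omega
  · intro P Q v b hP hQ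
    obtain ⟨i, him, h1, h2, h3⟩ := hlam.1 hP
    obtain ⟨i', h4, h5, h6⟩ := hrho.1 hQ
    have e1 : rs (P ++ Q).length = rs P.length + rs Q.length := by
      funext j
      simp only [rs, List.length_append, Nat.cast_add, Pi.add_apply]
    show b = act v (phi (P ++ Q)) + Dn (rs (P ++ Q).length) (phi (P ++ Q)) (ww D phi e (P ++ Q))
    rw [e1]
    refine hsound i i' _ _ _ _ _ _ _ _ _ _ ?_ h3 h6
    rintro rfl
    exact ⟨_, read D phi e hphi him h1 h2 h4 h5⟩
  · intro u hu hqu hdu v
    have hnn : nn D = D.a D.m + D.c D.m := rfl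
    rw [show nn (geo m (2 ^ kap) (∏ j, q j) (by positivity)) = D.a D.m + D.c D.m from rfl] at hu
    have hT : ∀ j, rs u.length j ≠ 0 := by
      intro j h
      exact hqu j ((ZMod.natCast_eq_zero_iff _ _).1 h)
    obtain ⟨i, him, hi⟩ := hcomp (rs u.length) hT (phi u) (ww D phi e u) v
    -- the true data at the level `i`, for any place `o` of the cell with `G i ∣ T - o`
    have hal := D.A_le (show i < D.m from him)
    have hcm := D.cmono i D.m (le_of_lt him)
    have hAle : D.A i + D.c i ≤ u.length := by omega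
    -- data do not depend on `o`
    let g0 : S := phi (u.take (D.be u.length i))
    let z0 : S := zM D phi i u
    let h0 : S := phi (u.drop (D.be u.length (i + 1)))
    let wl0 := ∑ k ∈ range i, e k (phi (seg u (D.be u.length k) (D.be u.length (k + 1))))
    let wr0 := ∑ k ∈ Ico (i + 1) D.m,
      e k (phi (seg u (D.be u.length k) (D.be u.length (k + 1))))
    have hmono : ∀ k, D.be u.length k ≤ D.be u.length (k + 1) := fun k => by
      have h1 := D.be_lt u.length k
      have h2 := D.be_ge u.length (k + 1)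
      have h3 := D.A_le (show k < k + 1 from Nat.lt_succ_self k)
      omega
    have hs : g0 * z0 * h0 = phi u := by
      have h1 := seg_split (Y := u) (hmono i)
      show phi _ * phi _ * phi _ = _
      rw [← hphi, ← hphi, h1]
    have hw : wl0 + e i z0 + wr0 = ww D phi e u := by
      show _ = ∑ k ∈ range D.m, e k (phi (seg u (D.be u.length k) (D.be u.length (k + 1))))
      rw [← Finset.sum_range_add_sum_Ico _ (show i + 1 ≤ D.m from him), Finset.sum_range_succ]
      rfl
    obtain ⟨t, t', htt, hL, hR'⟩ := hi g0 z0 h0 wl0 wr0 hs hw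
    -- the place
    set o0 := D.A i + (u.length - D.A i) % D.G i with ho0
    have hcop : ∀ j, Nat.Coprime (D.G i) (q j) := fun j =>
      Nat.Coprime.pow_left _ (Nat.Coprime.pow_left _ (Nat.coprime_two_left.2 (hq j)))
    obtain ⟨om, -, hom, homr⟩ := Crest.Agent.R320.NameGad808.crt_hit q hqpos hc
      (fun j => (((ZMod.unitOfCoprime (D.G i) (hcop j))⁻¹ : (ZMod (q j))ˣ) : ZMod (q j)) *
        (t j - (o0 : ZMod (q j)))) 0
    rw [zero_add] at hom
    set o := o0 + D.G i * om with ho
    have hmod := Nat.mod_lt (u.length - D.A i) (D.Gpos i)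
    have hcdef : D.c i = M * D.G i := rfl
    have ho1 : D.A i ≤ o := by rw [ho, ho0]; omega
    have ho2 : o < D.A i + D.c i := by
      have h1 : D.G i * om + D.G i ≤ D.G i * M := by
        rw [← Nat.mul_succ]; exact Nat.mul_le_mul_left _ hom
      rw [ho, ho0, hcdef, mul_comm M]
      omega
    have hoT : o ≤ u.length := by omega
    have hdvd : D.G i ∣ u.length - o := by
      have h1 : u.length - D.A i = D.G i * ((u.length - D.A i) / D.G i) +
          (u.length - D.A i) % D.G i := (Nat.div_add_mod _ _).symm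
      have h2 : u.length - o + D.G i * om = D.G i * ((u.length - D.A i) / D.G i) := by
        rw [ho, ho0] at hoT ⊢
        omega
      exact (Nat.dvd_add_left (Dvd.intro _ rfl)).1 (h2 ▸ Dvd.intro _ rfl)
    have hor : rs o = t := by
      funext j
      have h1 := homr j
      show ((o : ℕ) : ZMod (q j)) = t j
      rw [ho, Nat.cast_add, Nat.cast_mul, h1]
      have h2 : ((D.G i : ℕ) : ZMod (q j)) *
          (((ZMod.unitOfCoprime (D.G i) (hcop j))⁻¹ : (ZMod (q j))ˣ) : ZMod (q j)) = 1 := by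
        have := (ZMod.unitOfCoprime (D.G i) (hcop j)).mul_inv
        rwa [ZMod.coe_unitOfCoprime] at this
      rw [← mul_assoc, h2, one_mul]
      ring
    have hor' : rs (u.length - o) = t' := by
      have h1 : rs u.length = rs o + rs (u.length - o) := by
        funext j
        show ((u.length : ℕ) : ZMod (q j)) = (o : ZMod (q j)) + ((u.length - o : ℕ) : ZMod (q j))
        rw [← Nat.cast_add, Nat.add_sub_cancel' hoT]
      rw [← htt, hor] at h1
      exact (add_left_cancel h1).symm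
    have hvis := D.vis_of ho1 ho2 hu hdu him
    refine ⟨u.take o, u.drop o, List.take_append_drop _ _, ?_, ?_⟩
    · have hPl : (u.take o).length = o := by rw [List.length_take]; omega
      rw [hlam]
      refine ⟨i, him, by rw [hPl]; exact ho1, by rw [hPl]; exact ho2, ?_⟩
      have hbe : ∀ k, k ≤ i → D.be u.length k = D.be o k := fun k hk => by
        have := D.be_left (o := o) (o' := u.length - o) hk ho1 hdvd
        rwa [Nat.add_sub_cancel' hoT] at this
      have hbo : ∀ k, k ≤ i → D.be o k ≤ o := fun k hk => by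
        have h1 := D.be_lt o k
        rcases Nat.lt_or_ge k i with h | h
        · have h3 := D.A_le h
          have h4 : D.a i ≤ D.A i := Nat.le_add_right _ _
          omega
        · obtain rfl : k = i := le_antisymm hk h
          omega
      have e1 : gL D phi i (u.take o) = g0 := by
        show phi _ = phi _
        rw [hPl, ← hbe i le_rfl, List.take_take, min_eq_left (by rw [hbe i le_rfl]; exact hbo i le_rfl)]
      have e2 : wL D phi e i (u.take o) = wl0 := by
        show (∑ k ∈ range i, _) = ∑ k ∈ range i, _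
        refine Finset.sum_congr rfl fun k hk => ?_
        have hk' := Finset.mem_range.1 hk
        rw [hPl, hbe k hk'.le, hbe (k + 1) hk']
        have h1 := hmono k
        rw [hbe k hk'.le, hbe (k + 1) hk'] at h1
        have h2 := seg_left (P := u.take o) (Q := u.drop o) h1
          (by rw [hPl]; exact hbo (k + 1) hk')
        rw [List.take_append_drop] at h2
        rw [h2]
      rw [hPl, e1, e2, hor]
      exact hL
    · have hQl : (u.drop o).length = u.length - o := List.length_drop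
      have hbe : ∀ k, i < k → k ≤ D.m → D.be u.length k =
          o + (u.length - o - D.rb i (u.length - o) k) := fun k h1 h2 => by
        have := (D.be_right (o := o) (o' := u.length - o) h1 h2 ho1 ho2 hvis).1
        rwa [Nat.add_sub_cancel' hoT] at this
      have hPl : (u.take o).length = o := by rw [List.length_take]; omega
      have e1 : hR D phi i (u.drop o) = h0 := by
        show phi _ = phi _
        rw [hQl, hbe (i + 1) (Nat.lt_succ_self i) him, List.drop_drop]
      have e2 : wR D phi e i (u.drop o) = wr0 := by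
        show (∑ k ∈ Ico (i + 1) D.m, _) = ∑ k ∈ Ico (i + 1) D.m, _
        refine Finset.sum_congr rfl fun k hk => ?_
        obtain ⟨hk1, hk2⟩ := Finset.mem_Ico.1 hk
        rw [hQl, hbe k (by omega) (by omega), hbe (k + 1) (by omega) (by omega)]
        have h2 := seg_right (P := u.take o) (Q := u.drop o)
          (a := u.length - o - D.rb i (u.length - o) k)
          (b := u.length - o - D.rb i (u.length - o) (k + 1))
        rw [List.take_append_drop, hPl] at h2
        rw [h2]
      obtain ⟨b, hb⟩ := Option.isSome_iff_exists.1 hR'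
      have : RR (u.drop o) b := by
        refine ⟨i, by rw [hQl]; exact hdvd, by rw [hQl]; exact hvis, ?_⟩
        rw [hQl, e1, e2, hor']
        exact hb
      rw [hrho.2 this]
      rfl
  · intro La w w' hLa h1 h2 h3 h4 h5
    have hrs : rs w.length = rs w'.length := by
      funext j
      show ((w.length : ℕ) : ZMod (q j)) = ((w'.length : ℕ) : ZMod (q j))
      rw [ZMod.natCast_eq_natCast_iff]
      exact (h4.of_mul_right _).of_dvd (Finset.dvd_prod_of_mem q (Finset.mem_univ j))
    have hG : w.length ≡ w'.length [MOD D.G D.m] := h4.of_mul_left _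
    have key : ∀ w w' : List α, La ≤ w.length → La ≤ w'.length → w.take La = w'.take La →
        w.length ≡ w'.length [MOD D.G D.m] → phi (w.drop La) = phi (w'.drop La) →
        rs w.length = rs w'.length → ∀ b, RR w b → RR w' b := by
      rintro w w' h1 h2 h3 hG h5 hrs b ⟨i, hd, hv, hR⟩
      obtain ⟨-, him⟩ := hlev _ _ _ _ _ hR
      refine ⟨i, ?_, ?_, ?_⟩
      · exact ((hG.of_dvd (D.Gdvd i D.m (le_of_lt him))).dvd_iff dvd_rfl).1 hd
      · exact vis_congr D (le_trans hLa h1) (le_trans hLa h2) hG hv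
      · rw [← hrs, ← hR_congr D phi hphi hLa h1 h2 h3 hG h5 him,
          ← wR_congr D phi e hLa h1 h2 h3 hG]
        exact hR
    constructor
    · have hiff : ∀ b, RR w b ↔ RR w' b := fun b =>
        ⟨key w w' h1 h2 h3 hG h5 hrs b, key w' w h2 h1 h3.symm hG.symm h5.symm hrs.symm b⟩
      cases hr : rho w with
      | some b => exact (hrho.2 ((hiff b).1 (hrho.1 hr))).symm
      | none =>
        cases hr' : rho w' with
        | none => rfl
        | some b =>
          have := hrho.2 ((hiff b).2 (hrho.1 hr'))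
          rw [hr] at this
          simp at this
    · show Dn _ _ _ = Dn _ _ _
      rw [hrs, ww_congr D phi e hLa h1 h2 h3 hG]
      congr 1
      rw [← List.take_append_drop La w, ← List.take_append_drop La w', hphi, hphi, h3, h5]

/-! ### the bad lengths over the integers, the ruler -/

/-- integer form of `Doubt` -/
def DoubtZ (D : Geo) (T : ℤ) : Prop := ∃ k, k < D.m ∧
  (T + D.c k - D.a (k + 1)) / (D.G (k + 1) : ℤ) ≠ (T - D.c k - D.a (k + 1)) / (D.G (k + 1) : ℤ)

theorem doubt_iff (D : Geo) {T : ℕ} (hT : nn D ≤ T) : D.Doubt T ↔ DoubtZ D T := by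
  have key : ∀ k, k < D.m → ((T + D.c k - D.a (k + 1)) / D.G (k + 1) =
      (T - D.c k - D.a (k + 1)) / D.G (k + 1) ↔
      ((T : ℤ) + D.c k - D.a (k + 1)) / (D.G (k + 1) : ℤ) =
        ((T : ℤ) - D.c k - D.a (k + 1)) / (D.G (k + 1) : ℤ)) := by
    intro k hk
    have h1 := D.a_mono (show k + 1 ≤ D.m from hk)
    have h2 := D.cmono k D.m hk.le
    unfold nn at hT
    have e1 : (T : ℤ) + D.c k - D.a (k + 1) = ((T + D.c k - D.a (k + 1) : ℕ) : ℤ) := by
      rw [Nat.cast_sub (by omega)]; push_cast; ring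
    have e2 : (T : ℤ) - D.c k - D.a (k + 1) = ((T - D.c k - D.a (k + 1) : ℕ) : ℤ) := by
      rw [Nat.cast_sub (by omega), Nat.cast_sub (by omega)]
    rw [e1, e2]
    constructor
    · intro h; exact_mod_cast h
    · intro h; exact_mod_cast h
  constructor
  · rintro ⟨k, hk, h⟩
    exact ⟨k, hk, fun h' => h ((key k hk).2 h')⟩
  · rintro ⟨k, hk, h⟩
    exact ⟨k, hk, fun h' => h ((key k hk).1 h')⟩

theorem doubtZ_shift (D : Geo) {P T : ℤ} (hP : ∀ k, k < D.m → (D.G (k + 1) : ℤ) ∣ P) :
    DoubtZ D (T + P) ↔ DoubtZ D T := by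
  have key : ∀ k, k < D.m →
      ((T + P + D.c k - D.a (k + 1)) / (D.G (k + 1) : ℤ) =
        (T + P - D.c k - D.a (k + 1)) / (D.G (k + 1) : ℤ) ↔
      (T + D.c k - D.a (k + 1)) / (D.G (k + 1) : ℤ) =
        (T - D.c k - D.a (k + 1)) / (D.G (k + 1) : ℤ)) := by
    intro k hk
    obtain ⟨s, hs⟩ := hP k hk
    have hG : (D.G (k + 1) : ℤ) ≠ 0 := by exact_mod_cast (D.Gpos (k + 1)).ne'
    rw [show T + P + D.c k - D.a (k + 1) = (T + D.c k - D.a (k + 1)) + D.G (k + 1) * s by
      rw [hs]; ring, show T + P - D.c k - D.a (k + 1) =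
      (T - D.c k - D.a (k + 1)) + D.G (k + 1) * s by rw [hs]; ring,
      Int.add_mul_ediv_left _ _ hG, Int.add_mul_ediv_left _ _ hG]
    constructor <;> intro h <;> linarith
  constructor
  · rintro ⟨k, hk, h⟩
    exact ⟨k, hk, fun h' => h ((key k hk).2 h')⟩
  · rintro ⟨k, hk, h⟩
    exact ⟨k, hk, fun h' => h ((key k hk).1 h')⟩

theorem near_of_ne {x c G : ℤ} (hG : 0 < G) (hc : 0 ≤ c) (h : (x + c) / G ≠ (x - c) / G) :
    ∃ y, |x - G * y| ≤ c := by
  have h1 : (x - c) / G ≤ (x + c) / G := Int.ediv_le_ediv hG (by linarith)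
  have h2 : (x - c) / G < (x + c) / G := lt_of_le_of_ne h1 (Ne.symm h)
  refine ⟨(x + c) / G, ?_⟩
  have h3 : (x + c) / G * G ≤ x + c := Int.ediv_mul_le _ hG.ne'
  have h4 : x - c < (x + c) / G * G := by
    rw [← not_le]
    intro h5
    have := (Int.le_ediv_iff_mul_le hG).2 h5
    linarith
  rw [abs_le]
  constructor <;> nlinarith

/-- two doubts of the same level along the ruler -/
theorem doubt_unique {G Y c X T a δ1 δ2 B : ℤ} (hG : 0 < G) (hc : 0 < c) (hY : 4 * c ≤ Y)
    (hX : G ∣ X - Y) (hB : |δ1 - δ2| ≤ B) (hBG : B * Y + 2 * c < G)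
    (h1 : (T + X * δ1 + c - a) / G ≠ (T + X * δ1 - c - a) / G)
    (h2 : (T + X * δ2 + c - a) / G ≠ (T + X * δ2 - c - a) / G) : δ1 = δ2 := by
  obtain ⟨y1, e1⟩ := near_of_ne (x := T + X * δ1 - a) hG hc.le
    (by convert h1 using 2 <;> ring)
  obtain ⟨y2, e2⟩ := near_of_ne (x := T + X * δ2 - a) hG hc.le
    (by convert h2 using 2 <;> ring)
  obtain ⟨s, hs⟩ := hX
  by_contra hne
  have hne' : δ1 - δ2 ≠ 0 := sub_ne_zero.2 hne
  have h3 : 1 ≤ |δ1 - δ2| := Int.one_le_abs hne'
  set δ := δ1 - δ2 with hδ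
  set y := y1 - y2 - s * δ with hy
  have h4 : |Y * δ - G * y| ≤ 2 * c := by
    have : Y * δ - G * y = (T + X * δ1 - a - G * y1) - (T + X * δ2 - a - G * y2) := by
      have : X = Y + G * s := by linarith
      rw [this, hy, hδ]; ring
    rw [this]
    calc _ ≤ |T + X * δ1 - a - G * y1| + |T + X * δ2 - a - G * y2| := abs_sub _ _
      _ ≤ _ := by linarith
  have hY0 : 0 < Y := by linarith
  have h5 : |Y * δ| = Y * |δ| := by rw [abs_mul, abs_of_pos hY0]
  rcases eq_or_ne y 0 with hy0 | hy0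
  · rw [hy0, mul_zero, sub_zero, h5] at h4
    nlinarith
  · have h6 : 1 ≤ |y| := Int.one_le_abs hy0
    have h7 : |G * y| = G * |y| := by rw [abs_mul, abs_of_pos hG]
    have h8 : |G * y| ≤ |Y * δ| + |Y * δ - G * y| := by
      have := abs_sub (Y * δ) (Y * δ - G * y)
      rwa [sub_sub_cancel] at this
    rw [h7, h5] at h8
    nlinarith

theorem dvd_unique {q X T δ1 δ2 : ℤ} (hX : IsCoprime q X) (hB : |δ1 - δ2| < q)
    (h1 : q ∣ T + X * δ1) (h2 : q ∣ T + X * δ2) : δ1 = δ2 := by
  have h3 : q ∣ X * (δ1 - δ2) := by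
    have := dvd_sub h1 h2
    rwa [show T + X * δ1 - (T + X * δ2) = X * (δ1 - δ2) by ring] at this
  have h4 := hX.dvd_of_dvd_mul_left h3
  have := Int.eq_zero_of_abs_lt_dvd h4 hB
  linarith

universe u

/-- the literal of 772 / 440 -/
def UGI (S : Type u) [Monoid S] (V : Type u) [AddCommGroup V] (act : V → S → V) : Prop :=
  ∃ C0 : ℕ, ∀ K : ℕ, ∃ (N1 Pm La : ℕ) (c : ℕ → ℕ) (Bad : ℕ → Prop), 0 < Pm ∧
    (∀ i j, i < j → j < K → c i < c j) ∧
    (∀ i j k l, i < K → j < K → k < K → l < K → i ≠ j → k ≠ l → (i, j) ≠ (k, l) →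
      c i + c l + 4 * N1 < c k + c j ∨ c k + c j + 4 * N1 < c i + c l) ∧
    (∀ T, Bad (T + Pm) ↔ Bad T) ∧
    (∀ T, La ≤ T → {p : ℕ × ℕ | p.1 < K ∧ p.2 < K ∧ p.1 ≠ p.2 ∧
      Bad (T + c p.2 - c p.1)}.ncard ≤ C0) ∧
    ∀ (A : Type u) (phi : A → S), ∃ (lam rho : List A → Option V) (nu : List A → V),
      (∀ P v, lam P = some v → P.length ≤ N1) ∧
      (∀ P Q v b, lam P = some v → rho Q = some b →
        b = act v ((P ++ Q).map phi).prod + nu (P ++ Q)) ∧
      (∀ w : List A, La ≤ w.length → ¬ Bad w.length → ∀ v, ∃ P Q, P ++ Q = w ∧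
        lam P = some v ∧ (rho Q).isSome) ∧
      (∀ q q2 : List A, La ≤ q.length → La ≤ q2.length → q.take La = q2.take La →
        q.length % Pm = q2.length % Pm →
        ((q.drop La).map phi).prod = ((q2.drop La).map phi).prod →
        rho q = rho q2 ∧ nu q = nu q2)

theorem sum_pow_le {g : ℕ} (hg : 2 ≤ g) (k : ℕ) : ∑ l ∈ range (k + 1), g ^ l ≤ 2 * g ^ k := by
  induction k with
  | zero => simp
  | succ k ih =>
    rw [Finset.sum_range_succ, pow_succ]
    nlinarith [pow_pos (show 0 < g by omega) k]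

theorem last_bound {M g K l : ℕ} (hM : 0 < M) (hg2 : 2 ≤ g) (hgM : 2 ^ (K + 5) * M < g) :
    2 ^ (K + 1) * (4 * ∑ x ∈ range (l + 1), M * g ^ x) + 2 * (M * g ^ l) < g ^ (l + 1) := by
  have hGp : 0 < g ^ l := pow_pos (by omega) l
  have hsum := sum_pow_le hg2 l
  have hYle : 4 * ∑ x ∈ range (l + 1), M * g ^ x ≤ 8 * (M * g ^ l) := by
    rw [← Finset.mul_sum]
    have := Nat.mul_le_mul_left (4 * M) hsum
    calc _ = 4 * M * ∑ i ∈ range (l + 1), g ^ i := by ring
      _ ≤ 4 * M * (2 * g ^ l) := this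
      _ = _ := by ring
  have h1 : 2 ^ (K + 1) * (4 * ∑ x ∈ range (l + 1), M * g ^ x) ≤
      2 ^ (K + 1) * (8 * (M * g ^ l)) := Nat.mul_le_mul_left _ hYle
  have h4 : 2 ^ (K + 5) * M * g ^ l < g ^ (l + 1) := by
    rw [pow_succ g l, mul_comm (g ^ l) g]
    exact Nat.mul_lt_mul_of_pos_right hgM hGp
  have h5 : 2 * (M * g ^ l) ≤ 2 ^ (K + 1) * (8 * (M * g ^ l)) := by
    calc 2 * (M * g ^ l) ≤ 1 * (8 * (M * g ^ l)) := by omega
      _ ≤ _ := Nat.mul_le_mul_right _ Nat.one_le_two_pow
  have h6 : 2 ^ (K + 1) * (8 * (M * g ^ l)) + 2 ^ (K + 1) * (8 * (M * g ^ l)) =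
      2 ^ (K + 5) * M * g ^ l := by ring
  omega

set_option maxHeartbeats 1000000 in
theorem ugi (S : Type u) [Monoid S] [Finite S] (V : Type u) [AddCommGroup V] [Finite V]
    (act : V → S → V) : UGI S V act := by
  classical
  obtain ⟨m, k, hUG⟩ := UG2 S V act
  refine ⟨k + m, fun K => ?_⟩
  -- primes
  set B := 2 ^ (K + 2) with hB
  let q : Fin k → ℕ := fun j => Nat.nth Nat.Prime (B + j)
  have hqp : ∀ j, (q j).Prime := fun j => Nat.prime_nth_prime _
  have hqB : ∀ j, B < q j := fun j => by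
    have := Nat.add_two_le_nth_prime (B + j)
    show B < Nat.nth Nat.Prime (B + j)
    omega
  have hB2 : 2 ≤ B := by
    rw [hB]; calc 2 = 2 ^ 1 := rfl
      _ ≤ 2 ^ (K + 2) := Nat.pow_le_pow_right (by norm_num) (by omega)
  have hqo : ∀ j, Odd (q j) := fun j => (hqp j).odd_of_ne_two (by have := hqB j; omega)
  have hqc : Pairwise (fun i j => Nat.Coprime (q i) (q j)) := by
    intro i j hij
    refine (Nat.coprime_primes (hqp i) (hqp j)).2 fun h => hij ?_
    have h' : B + (i : ℕ) = B + (j : ℕ) := Nat.nth_injective Nat.infinite_setOfPred_prime h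
    exact Fin.ext (by omega)
  set M := ∏ j, q j with hM
  have hMpos : 0 < M := Finset.prod_pos fun j _ => (hqp j).pos
  set kap := K + 5 + M with hkap
  set g := 2 ^ kap with hg
  have hgM : 2 ^ (K + 5) * M < g := by
    calc 2 ^ (K + 5) * M < 2 ^ (K + 5) * 2 ^ M :=
          (Nat.mul_lt_mul_left (by positivity)).2 Nat.lt_two_pow_self
      _ = g := by rw [hg, hkap, ← pow_add]
  have hg2 : 2 ≤ g := by
    rw [hg, hkap]
    calc 2 = 2 ^ 1 := rfl
      _ ≤ _ := Nat.pow_le_pow_right (by norm_num) (by omega)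
  have hgpos : 0 < g := by omega
  set D := geo m g M hgpos with hD
  have hU := hUG q hqo hqc kap
  have hDG : ∀ i, D.G i = g ^ i := fun i => rfl
  have hDc : ∀ i, D.c i = M * g ^ i := fun i => rfl
  have hDm : D.m = m := rfl
  have hMg : Nat.Coprime M (g ^ m) := by
    refine Nat.Coprime.pow_right _ (Nat.Coprime.pow_right _ ?_)
    exact Nat.Coprime.prod_left fun j _ => (Nat.coprime_two_right.2 (hqo j))
  set Y := 4 * ∑ l ∈ range m, M * g ^ l with hY
  obtain ⟨X0, hX1, hX2⟩ := Nat.chineseRemainder hMg 1 Y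
  set N1 := nn D with hN1
  set X := X0 + M * g ^ m * (4 * N1 + 1) with hX
  have hXM : X ≡ 1 [MOD M] := by
    have : X ≡ X0 [MOD M] := by
      rw [hX, mul_assoc]
      exact (Nat.modEq_iff_dvd' (Nat.le_add_right _ _)).2
        (by rw [Nat.add_sub_cancel_left]; exact Dvd.intro _ rfl) |>.symm
    exact this.trans hX1
  have hXG : X ≡ Y [MOD g ^ m] := by
    have : X ≡ X0 [MOD g ^ m] := by
      rw [hX]
      refine (Nat.modEq_iff_dvd' (Nat.le_add_right _ _)).2 ?_ |>.symm
      rw [Nat.add_sub_cancel_left]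
      exact Dvd.intro_left (M) (by ring) |>.mul_right _
    exact this.trans hX2
  have hXbig : 4 * N1 < X := by
    have : 1 ≤ M * g ^ m := Nat.mul_pos hMpos (pow_pos hgpos m)
    rw [hX]; nlinarith
  have hXq : ∀ j, IsCoprime (q j : ℤ) (X : ℤ) := by
    intro j
    rw [Nat.isCoprime_iff_coprime]
    have h1 : X ≡ 1 [MOD q j] := hXM.of_dvd (Finset.dvd_prod_of_mem q (Finset.mem_univ j))
    have : Nat.gcd X (q j) = Nat.gcd 1 (q j) := h1.gcd_eq
    rw [Nat.coprime_comm]
    unfold Nat.Coprime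
    rw [this, Nat.gcd_one_left]
  -- the level `l`: `X = Yl` mod `G (l+1)`
  have hXl : ∀ l, l < m → ((g ^ (l + 1) : ℕ) : ℤ) ∣ (X : ℤ) -
      ((4 * ∑ x ∈ range (l + 1), M * g ^ x : ℕ) : ℤ) := by
    intro l hl
    have h1 : X ≡ Y [MOD g ^ (l + 1)] := hXG.of_dvd (pow_dvd_pow g (by omega))
    have h2 : Y ≡ 4 * ∑ x ∈ range (l + 1), M * g ^ x [MOD g ^ (l + 1)] := by
      rw [hY, ← Finset.sum_range_add_sum_Ico _ (show l + 1 ≤ m from hl), mul_add]
      refine (Nat.modEq_iff_dvd' (Nat.le_add_right _ _)).2 ?_ |>.symm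
      rw [Nat.add_sub_cancel_left]
      refine Dvd.dvd.mul_left (Finset.dvd_sum fun x hx => ?_) _
      exact Dvd.dvd.mul_left (pow_dvd_pow g (Finset.mem_Ico.1 hx).1) _
    exact (Nat.modEq_iff_dvd.1 (h1.trans h2).symm)
  let c : ℕ → ℕ := fun l => X * 2 ^ l
  let Bad : ℕ → Prop := fun T => (∃ j, q j ∣ T) ∨ DoubtZ D T
  have hXpos : 0 < X := by omega
  have hcK : ∀ i, i < K → c i ≤ X * 2 ^ K := fun i hi =>
    Nat.mul_le_mul_left _ (Nat.pow_le_pow_right (by norm_num) hi.le)
  refine ⟨N1, M * g ^ m, lla D + nn D + X * 2 ^ K, c, Bad, Nat.mul_pos hMpos (pow_pos hgpos m),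
    ?_, ?_, ?_, ?_, ?_⟩
  · intro i j hij _
    exact (Nat.mul_lt_mul_left hXpos).2 (Nat.pow_lt_pow_right (by norm_num) hij)
  · intro i j a b _ _ _ _ hij _ hne
    have hδ : ((2 : ℤ) ^ i - 2 ^ j) - (2 ^ a - 2 ^ b) ≠ 0 := by
      intro h
      obtain ⟨h1, h2⟩ := Crest.Agent.R320.Ruler265.pow_sidon hij (sub_eq_zero.1 h)
      exact hne (by rw [h1, h2])
    rcases lt_or_gt_of_ne hδ with h | h
    · left
      have h1 : 2 ^ i + 2 ^ b + 1 ≤ 2 ^ a + 2 ^ j := by
        zify; linarith
      have := Nat.mul_le_mul_left X h1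
      show X * 2 ^ i + X * 2 ^ b + 4 * N1 < X * 2 ^ a + X * 2 ^ j
      nlinarith
    · right
      have h1 : 2 ^ a + 2 ^ j + 1 ≤ 2 ^ i + 2 ^ b := by
        zify; linarith
      have := Nat.mul_le_mul_left X h1
      show X * 2 ^ a + X * 2 ^ j + 4 * N1 < X * 2 ^ i + X * 2 ^ b
      nlinarith
  · intro T
    show ((∃ j, q j ∣ T + M * g ^ m) ∨ DoubtZ D ((T + M * g ^ m : ℕ) : ℤ)) ↔ _
    refine or_congr (exists_congr fun j => ?_) ?_
    · refine (Nat.dvd_add_left ?_)
      exact (Finset.dvd_prod_of_mem q (Finset.mem_univ j)).mul_right _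
    · rw [Nat.cast_add]
      refine doubtZ_shift D fun l hl => ?_
      rw [Int.natCast_dvd_natCast, hDG]
      exact (pow_dvd_pow g (by omega : l + 1 ≤ m)).mul_left _
  · intro T hT
    have hcast : ∀ i j, i < K → ((T + c j - c i : ℕ) : ℤ) = T + X * ((2 : ℤ) ^ j - 2 ^ i) := by
      intro i j hi
      have := hcK i hi
      rw [Nat.cast_sub (by omega)]
      show ((T + X * 2 ^ j : ℕ) : ℤ) - ((X * 2 ^ i : ℕ) : ℤ) = _
      push_cast; ring
    have hdiff : ∀ p p' : ℕ × ℕ, p.1 < K → p.2 < K → p'.1 < K → p'.2 < K →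
        |((2 : ℤ) ^ p.2 - 2 ^ p.1) - (2 ^ p'.2 - 2 ^ p'.1)| ≤ 2 ^ (K + 1) := by
      intro p p' h1 h2 h3 h4
      have e1 := Crest.Agent.R320.Ruler265.diff_lt h2 h1
      have e2 := Crest.Agent.R320.Ruler265.diff_lt h4 h3
      have e3 := abs_sub ((2 : ℤ) ^ p.2 - 2 ^ p.1) (2 ^ p'.2 - 2 ^ p'.1)
      rw [pow_succ]
      linarith
    have hsid : ∀ p p' : ℕ × ℕ, p.1 ≠ p.2 →
        ((2 : ℤ) ^ p.2 - 2 ^ p.1) = (2 ^ p'.2 - 2 ^ p'.1) → p = p' := by
      intro p p' h1 h2
      obtain ⟨e1, e2⟩ := Crest.Agent.R320.Ruler265.pow_sidon (Ne.symm h1) h2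
      exact Prod.ext e2 e1
    let F1 : Fin k → Finset (ℕ × ℕ) := fun j => (range K ×ˢ range K).filter
      (fun p => p.1 ≠ p.2 ∧ (q j : ℤ) ∣ T + X * ((2 : ℤ) ^ p.2 - 2 ^ p.1))
    let F2 : ℕ → Finset (ℕ × ℕ) := fun l => (range K ×ˢ range K).filter
      (fun p => p.1 ≠ p.2 ∧
        (T + X * ((2 : ℤ) ^ p.2 - 2 ^ p.1) + D.c l - D.a (l + 1)) / (D.G (l + 1) : ℤ) ≠
        (T + X * ((2 : ℤ) ^ p.2 - 2 ^ p.1) - D.c l - D.a (l + 1)) / (D.G (l + 1) : ℤ))
    have hF1 : ∀ j, (F1 j).card ≤ 1 := by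
      intro j
      refine Finset.card_le_one.2 fun p hp p' hp' => ?_
      simp only [F1, Finset.mem_filter, Finset.mem_product, Finset.mem_range] at hp hp'
      refine hsid p p' hp.2.1 (dvd_unique (hXq j) ?_ hp.2.2 hp'.2.2)
      refine lt_of_le_of_lt (hdiff p p' hp.1.1 hp.1.2 hp'.1.1 hp'.1.2) ?_
      have h1 := hqB j
      have h2 : 2 ^ (K + 1) ≤ B := Nat.pow_le_pow_right (by norm_num) (by omega)
      have h3 : 2 ^ (K + 1) < q j := by omega
      exact_mod_cast h3
    have hF2 : ∀ l, l < m → (F2 l).card ≤ 1 := by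
      intro l hl
      refine Finset.card_le_one.2 fun p hp p' hp' => ?_
      simp only [F2, Finset.mem_filter, Finset.mem_product, Finset.mem_range] at hp hp'
      have hGp : 0 < g ^ l := pow_pos hgpos l
      have hYge : 4 * (M * g ^ l) ≤ 4 * ∑ x ∈ range (l + 1), M * g ^ x :=
        Nat.mul_le_mul_left _ (Finset.single_le_sum (f := fun x => M * g ^ x)
          (fun _ _ => Nat.zero_le _) (Finset.mem_range.2 (Nat.lt_succ_self l)))
      have hlast := last_bound (l := l) hMpos hg2 hgM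
      refine hsid p p' hp.2.1 (doubt_unique (G := (D.G (l + 1) : ℤ))
        (Y := ((4 * ∑ x ∈ range (l + 1), M * g ^ x : ℕ) : ℤ)) (c := (D.c l : ℤ)) (X := (X : ℤ))
        (T := (T : ℤ)) (a := (D.a (l + 1) : ℤ)) (B := 2 ^ (K + 1))
        (by exact_mod_cast D.Gpos _) (by rw [hDc]; exact_mod_cast Nat.mul_pos hMpos hGp)
        (by rw [hDc]; exact_mod_cast hYge) (by rw [hDG]; exact hXl l hl)
        (hdiff p p' hp.1.1 hp.1.2 hp'.1.1 hp'.1.2)
        (by rw [hDc, hDG]; exact_mod_cast hlast) hp.2.2 hp'.2.2)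
    have hsub : {p : ℕ × ℕ | p.1 < K ∧ p.2 < K ∧ p.1 ≠ p.2 ∧ Bad (T + c p.2 - c p.1)} ⊆
        ((Finset.univ.biUnion F1 ∪ (range m).biUnion F2 : Finset (ℕ × ℕ)) : Set (ℕ × ℕ)) := by
      rintro p ⟨h1, h2, h3, h4⟩
      rw [Finset.coe_union, Set.mem_union, Finset.mem_coe, Finset.mem_coe, Finset.mem_biUnion,
        Finset.mem_biUnion]
      rcases h4 with ⟨j, hj⟩ | ⟨l, hl, h⟩
      · left
        refine ⟨j, Finset.mem_univ _, ?_⟩
        simp only [F1, Finset.mem_filter, Finset.mem_product, Finset.mem_range]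
        refine ⟨⟨h1, h2⟩, h3, ?_⟩
        rw [← hcast p.1 p.2 h1]
        exact_mod_cast hj
      · right
        refine ⟨l, Finset.mem_range.2 hl, ?_⟩
        simp only [F2, Finset.mem_filter, Finset.mem_product, Finset.mem_range]
        refine ⟨⟨h1, h2⟩, h3, ?_⟩
        rw [← hcast p.1 p.2 h1]
        exact h
    calc _ ≤ ((Finset.univ.biUnion F1 ∪ (range m).biUnion F2 : Finset (ℕ × ℕ)) :
          Set (ℕ × ℕ)).ncard := Set.ncard_le_ncard hsub (Finset.finite_toSet _)
      _ = (Finset.univ.biUnion F1 ∪ (range m).biUnion F2).card := Set.ncard_coe_finset _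
      _ ≤ (Finset.univ.biUnion F1).card + ((range m).biUnion F2).card := Finset.card_union_le _ _
      _ ≤ k + m := by
        refine add_le_add ?_ ?_
        · refine (Finset.card_biUnion_le_card_mul _ _ 1 fun j _ => hF1 j).trans ?_
          simp
        · refine (Finset.card_biUnion_le_card_mul _ _ 1 fun l hl =>
            hF2 l (Finset.mem_range.1 hl)).trans ?_
          simp
  · intro A phi
    obtain ⟨lam, rho, nu, h1, h2, h3, h4⟩ := hU A (fun w => (w.map phi).prod)
      (fun u v => by simp)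
    refine ⟨lam, rho, nu, h1, h2, ?_, ?_⟩
    · intro w hw hb v
      refine h3 w (by show nn D ≤ _; omega) (fun j hj => hb (Or.inl ⟨j, hj⟩)) (fun hd => hb ?_) v
      right
      exact (doubt_iff D (by omega)).1 hd
    · intro w w' e1 e2 e3 e4 e5
      exact h4 _ w w' (by show lla D ≤ _; omega) e1 e2 e3 e4 e5

end Crest.Agent.R320.UGI760
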