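import Crest.Agent.R320.Exact_136
import Crest.Agent.R320.Names_755
import Crest.Agent.R320.Gad1_420

/-!
Row 320: 693's grid gadget on words (post 13203), all contents, all totals; no walls.
-/

set_option autoImplicit false
set_option linter.unusedSectionVars false
set_option linter.style.haveILetI false

namespace Crest.Agent.R320.UGI_136

open Finset
open Crest.Agent.R320.Gad1_420 (seg seg_left seg_right seg_split)

/-! ### grid arithmetic -/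

/-- lower end of level `j` -/
def Am (Γ M : ℕ) : ℕ → ℕ
  | 0 => 0
  | j + 1 => Am Γ M j + Γ ^ j + M * Γ ^ j

/-- length of the tail behind boundary `j` -/
def tl (Γ M j T : ℕ) : ℕ := Γ ^ j * ((T - Am Γ M j) / Γ ^ j)

/-- boundary `j` -/
def bt (Γ M j T : ℕ) : ℕ := T - tl Γ M j T

/-- lowest place of level `i` -/
def lo (Γ M i : ℕ) : ℕ := Am Γ M i + Γ ^ i

/-- tail as computed by the right side at level `i` -/
def tR (Γ M i j q : ℕ) : ℕ := Γ ^ j * ((q + lo Γ M i - Am Γ M j) / Γ ^ j)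

section Arith

variable {Γ M : ℕ}

theorem Am_mono {i j : ℕ} (h : i ≤ j) : Am Γ M i ≤ Am Γ M j := by
  induction h with
  | refl => exact le_rfl
  | step _ ih => exact ih.trans (by show _ ≤ Am Γ M _ + _ + _; omega)

theorem lo_le {i j : ℕ} (h : i < j) : lo Γ M i + M * Γ ^ i ≤ Am Γ M j :=
  (le_of_eq (by rfl)).trans (Am_mono (Nat.succ_le_of_lt h))

theorem tl_le (j T : ℕ) : tl Γ M j T ≤ T - Am Γ M j := Nat.mul_div_le _ _

theorem tl_eq (j T : ℕ) : tl Γ M j T + (T - Am Γ M j) % Γ ^ j = T - Am Γ M j :=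
  Nat.div_add_mod _ _

theorem bt_eq {j T : ℕ} (h : Am Γ M j ≤ T) :
    bt Γ M j T = Am Γ M j + (T - Am Γ M j) % Γ ^ j := by
  have h1 := tl_eq (Γ := Γ) (M := M) j T
  have h2 := tl_le (Γ := Γ) (M := M) j T
  unfold bt
  omega

theorem bt_mono {j T : ℕ} (hΓ : 0 < Γ) (hM : 0 < M) (h : Am Γ M (j + 1) ≤ T) :
    bt Γ M j T ≤ bt Γ M (j + 1) T := by
  have h0 : Am Γ M j ≤ T := (Am_mono (Nat.le_succ j)).trans h
  rw [bt_eq h0, bt_eq h]
  have h1 : (T - Am Γ M j) % Γ ^ j < Γ ^ j := Nat.mod_lt _ (Nat.pow_pos hΓ)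
  have h2 : Am Γ M (j + 1) = Am Γ M j + Γ ^ j + M * Γ ^ j := rfl
  have h3 : Am Γ M j + (T - Am Γ M j) % Γ ^ j ≤ Am Γ M (j + 1) := by omega
  exact h3.trans (Nat.le_add_right _ _)

theorem bt_left {i j o o' : ℕ} (hΓ : 0 < Γ) (hj : j ≤ i) (ho' : Γ ^ i ∣ o')
    (ho : Am Γ M j ≤ o) : bt Γ M j (o + o') = bt Γ M j o := by
  have hd : Γ ^ j ∣ o' := (pow_dvd_pow Γ hj).trans ho'
  obtain ⟨k, rfl⟩ := hd
  rw [bt_eq (by omega), bt_eq ho]
  have : o + Γ ^ j * k - Am Γ M j = o - Am Γ M j + Γ ^ j * k := by omega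
  rw [this, Nat.add_mul_mod_self_left]

theorem tl_right {i j o o' : ℕ} (ho1 : lo Γ M i ≤ o) (ho2 : o < lo Γ M i + M * Γ ^ i)
    (hq : Am Γ M j ≤ o') (hc : (o' + lo Γ M i - Am Γ M j) % Γ ^ j + M * Γ ^ i ≤ Γ ^ j) :
    tl Γ M j (o + o') = tR Γ M i j o' := by
  unfold tl tR
  congr 1
  set b := o' + lo Γ M i - Am Γ M j with hb
  obtain ⟨δ, rfl⟩ := Nat.exists_eq_add_of_le ho1
  have h1 : lo Γ M i + δ + o' - Am Γ M j = b + δ := by omega
  rw [h1]
  have h2 := Nat.div_add_mod b (Γ ^ j)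
  have hpos : 0 < Γ ^ j := by
    rcases Nat.eq_zero_or_pos (Γ ^ j) with h | h
    · rw [h] at hc
      omega
    · exact h
  have h5 : (b % Γ ^ j + δ) / Γ ^ j = 0 := Nat.div_eq_of_lt (by omega)
  have h6 : b + δ = Γ ^ j * (b / Γ ^ j) + (b % Γ ^ j + δ) := by omega
  rw [h6, Nat.mul_add_div hpos, h5, Nat.add_zero]

theorem bt_right {i j o o' : ℕ} (hij : i < j) (ho1 : lo Γ M i ≤ o)
    (ho2 : o < lo Γ M i + M * Γ ^ i) (hq : Am Γ M j ≤ o')
    (hc : (o' + lo Γ M i - Am Γ M j) % Γ ^ j + M * Γ ^ i ≤ Γ ^ j) :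
    bt Γ M j (o + o') = o + (o' - tR Γ M i j o') := by
  have h1 := tl_right ho1 ho2 hq hc
  have h2 := tl_le (Γ := Γ) (M := M) j (o + o')
  have h3 := lo_le (Γ := Γ) (M := M) hij
  unfold bt
  rw [h1] at h2 ⊢
  omega

theorem yR_eq {i j q : ℕ} (hij : i < j) (hq : Am Γ M j ≤ q) :
    q - tR Γ M i j q = Am Γ M j - lo Γ M i + (q + lo Γ M i - Am Γ M j) % Γ ^ j := by
  have h2 := Nat.div_add_mod (q + lo Γ M i - Am Γ M j) (Γ ^ j)
  have h3 := lo_le (Γ := Γ) (M := M) hij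
  unfold tR
  generalize (q + lo Γ M i - Am Γ M j) % Γ ^ j = r at h2 ⊢
  generalize Γ ^ j * ((q + lo Γ M i - Am Γ M j) / Γ ^ j) = a at h2 ⊢
  omega

theorem exists_mod {n : ℕ} (hn : 0 < n) (a k : ℕ) : ∃ o, a ≤ o ∧ o < a + n ∧ o ≡ k [MOD n] := by
  refine ⟨a + (k + n * a - a) % n, by omega, by have := Nat.mod_lt (k + n * a - a) hn; omega, ?_⟩
  have h1 : a ≤ k + n * a := by nlinarith
  have h2 : a + (k + n * a - a) % n ≡ a + (k + n * a - a) [MOD n] :=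
    Nat.ModEq.add_left _ (Nat.mod_modEq _ _)
  have h3 : a + (k + n * a - a) = k + n * a := by omega
  rw [h3] at h2
  refine h2.trans ?_
  show (k + n * a) % n = k % n
  rw [Nat.add_mul_mod_self_left]

end Arith

/-! ### data -/

/-- data of the gadget -/
structure GD (S V W : Type) [Monoid S] [AddCommGroup V] [AddCommGroup W] where
  act : V → S → V
  m : ℕ
  e : ℕ → S → W
  F : S → W → V
  Ms : Finset ℕ
  M : ℕ
  Γ : ℕ
  nmL : ℕ → Option (Fin m × S × W × S × W × V)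
  nmR : ℕ → Option (Fin m × S × W × S × W × V)

variable {S V W : Type} [Monoid S] [AddCommGroup V] [AddCommGroup W]

/-- end value of a context -/
def bb (act : V → S → V) {m : ℕ} (e : ℕ → S → W) (F : S → W → V)
    (c : Fin m × S × W × S × W × V) : V :=
  F (c.2.1 * 1 * c.2.2.2.1) (c.2.2.1 + e c.1 1 + c.2.2.2.2.1) +
    act c.2.2.2.2.2 (c.2.1 * 1 * c.2.2.2.1)

/-- the context is good: the end value does not depend on the hidden block -/
def okc (act : V → S → V) {m : ℕ} (e : ℕ → S → W) (F : S → W → V)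
    (c : Fin m × S × W × S × W × V) : Prop :=
  ∀ z, F (c.2.1 * z * c.2.2.2.1) (c.2.2.1 + e c.1 z + c.2.2.2.2.1) +
    act c.2.2.2.2.2 (c.2.1 * z * c.2.2.2.1) = bb act e F c

/-- properties -/
structure GD.Ok (D : GD S V W) : Prop where
  hF : ∀ s w v, ∃ i < D.m, ∀ g x h, g * x * h = s → ∀ z,
    D.F (g * z * h) (w - D.e i x + D.e i z) + D.act v (g * z * h) = D.F s w + D.act v s
  Mpos : 0 < D.M
  Γpos : 0 < D.Γ
  cop : Nat.Coprime D.M D.Γ
  dvd : ∀ k ∈ D.Ms, k ∣ D.M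
  perL : ∀ t, D.nmL (t + D.M) = D.nmL t
  perR : ∀ t, D.nmR (t + D.M) = D.nmR t
  n1 : ∀ t t' c c', D.nmL t = some c → D.nmR t' = some c' → (∀ k ∈ D.Ms, ¬ k ∣ t + t') → c = c'
  n2 : ∀ T, (∀ k ∈ D.Ms, ¬ k ∣ T) → ∀ c, ∃ t < D.M, D.nmL t = some c ∧
    ∀ t', t + t' ≡ T [MOD D.M] → D.nmR t' = some c
  n3 : ∀ T, (∃ k ∈ D.Ms, k ∣ T) → ∃ v0 b0 : V, ∀ t t' c c', t + t' ≡ T [MOD D.M] →
    D.nmL t = some c → D.nmR t' = some c' → c.2.2.2.2.2 = v0 ∧ bb D.act D.e D.F c' = b0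

theorem per_mod {β : Type*} {f : ℕ → β} {M : ℕ} (h : ∀ t, f (t + M) = f t) (t : ℕ) :
    f t = f (t % M) := by
  have hk : ∀ k t, f (t + M * k) = f t := by
    intro k
    induction k with
    | zero => intro t; simp
    | succ k ih => intro t; rw [Nat.mul_succ, ← add_assoc, h, ih]
  conv_lhs => rw [← Nat.mod_add_div t M]
  exact hk _ _

variable {A : Type*} (D : GD S V W) (φ : List A → S)

/-- hidden block -/
def zz (u : List A) (j : ℕ) : S :=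
  φ (seg u (bt D.Γ D.M j u.length) (bt D.Γ D.M (j + 1) u.length))

/-- total weight -/
def ww (u : List A) : W := ∑ j ∈ range D.m, D.e j (zz D φ u j)

/-- left reading -/
def LL (c : Fin D.m × S × W × S × W × V) (P : List A) : Prop :=
  D.nmL P.length = some c ∧ lo D.Γ D.M c.1 ≤ P.length ∧
    P.length < lo D.Γ D.M c.1 + D.M * D.Γ ^ (c.1 : ℕ) ∧ okc D.act D.e D.F c ∧
    c.2.1 = φ (P.take (bt D.Γ D.M c.1 P.length)) ∧
    c.2.2.1 = ∑ j ∈ range (c.1 : ℕ), D.e j (zz D φ P j)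

/-- right reading -/
def RR (c : Fin D.m × S × W × S × W × V) (Q : List A) : Prop :=
  D.nmR Q.length = some c ∧ D.Γ ^ (c.1 : ℕ) ∣ Q.length ∧
    (∀ j, (c.1 : ℕ) < j → j ≤ D.m → (Q.length + lo D.Γ D.M c.1 - Am D.Γ D.M j) % D.Γ ^ j +
      D.M * D.Γ ^ (c.1 : ℕ) ≤ D.Γ ^ j) ∧ okc D.act D.e D.F c ∧
    c.2.2.2.1 = φ (Q.drop (Q.length - tR D.Γ D.M c.1 (c.1 + 1) Q.length)) ∧
    c.2.2.2.2.1 = ∑ j ∈ Ico ((c.1 : ℕ) + 1) D.m, D.e j (φ (seg Q
      (Q.length - tR D.Γ D.M c.1 j Q.length) (Q.length - tR D.Γ D.M c.1 (j + 1) Q.length)))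

variable {D} {φ}

theorem read (hD : D.Ok) (hφ : ∀ u v, φ (u ++ v) = φ u * φ v) {i : ℕ} (him : i < D.m)
    {P Q : List A} (h1 : lo D.Γ D.M i ≤ P.length)
    (h2 : P.length < lo D.Γ D.M i + D.M * D.Γ ^ i) (h3 : D.Γ ^ i ∣ Q.length)
    (h4 : ∀ j, i < j → j ≤ D.m → (Q.length + lo D.Γ D.M i - Am D.Γ D.M j) % D.Γ ^ j +
      D.M * D.Γ ^ i ≤ D.Γ ^ j) (h5 : Am D.Γ D.M D.m ≤ Q.length) :
    φ (P ++ Q) = φ (P.take (bt D.Γ D.M i P.length)) * zz D φ (P ++ Q) i *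
      φ (Q.drop (Q.length - tR D.Γ D.M i (i + 1) Q.length)) ∧
    ww D φ (P ++ Q) = (∑ j ∈ range i, D.e j (zz D φ P j)) + D.e i (zz D φ (P ++ Q) i) +
      ∑ j ∈ Ico (i + 1) D.m, D.e j (φ (seg Q
        (Q.length - tR D.Γ D.M i j Q.length) (Q.length - tR D.Γ D.M i (j + 1) Q.length))) := by
  have hl : (P ++ Q).length = P.length + Q.length := List.length_append
  have hAi : ∀ j ≤ i, Am D.Γ D.M j ≤ P.length := fun j hj =>
    (Am_mono hj).trans (le_trans (Nat.le_add_right _ _) h1)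
  have ha : ∀ j ≤ i, bt D.Γ D.M j (P ++ Q).length = bt D.Γ D.M j P.length := by
    intro j hj
    rw [hl]
    exact bt_left hD.Γpos hj h3 (hAi j hj)
  have hb : ∀ j, i < j → j ≤ D.m → bt D.Γ D.M j (P ++ Q).length =
      P.length + (Q.length - tR D.Γ D.M i j Q.length) := by
    intro j hj hjm
    rw [hl]
    exact bt_right hj h1 h2 ((Am_mono hjm).trans h5) (h4 j hj hjm)
  have hbl : ∀ j, bt D.Γ D.M j P.length ≤ P.length := fun j => Nat.sub_le _ _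
  have hTm : ∀ j ≤ D.m, Am D.Γ D.M j ≤ (P ++ Q).length := fun j hj => by
    rw [hl]
    have := Am_mono (Γ := D.Γ) (M := D.M) hj
    omega
  constructor
  · have hs := seg_split (Y := P ++ Q) (a := bt D.Γ D.M i (P ++ Q).length)
      (b := bt D.Γ D.M (i + 1) (P ++ Q).length) (bt_mono hD.Γpos hD.Mpos (hTm _ him))
    conv_lhs => rw [← hs]
    rw [hφ, hφ]
    congr 1
    · congr 1
      rw [ha i le_rfl, List.take_append_of_le_length (hbl i)]
    · rw [hb (i + 1) (Nat.lt_succ_self i) him]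
      rw [Gad1_420.drop_app_right]
  · have hsplit : ww D φ (P ++ Q) = (∑ j ∈ range i, D.e j (zz D φ (P ++ Q) j))
        + D.e i (zz D φ (P ++ Q) i) + ∑ j ∈ Ico (i + 1) D.m, D.e j (zz D φ (P ++ Q) j) := by
      unfold ww
      rw [← Finset.sum_range_succ, Finset.sum_range_add_sum_Ico _ (by omega)]
    rw [hsplit]
    congr 1
    · congr 1
      refine Finset.sum_congr rfl fun j hj => ?_
      rw [Finset.mem_range] at hj
      unfold zz
      rw [ha j hj.le, ha (j + 1) hj, seg_left ?_ (hbl _)]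
      exact bt_mono hD.Γpos hD.Mpos (hAi _ hj)
    · refine Finset.sum_congr rfl fun j hj => ?_
      rw [Finset.mem_Ico] at hj
      unfold zz
      rw [hb j (by omega) (by omega), hb (j + 1) (by omega) (by omega), seg_right]

open Classical in
/-- left label -/
noncomputable def lam (D : GD S V W) (φ : List A → S) (P : List A) : Option V :=
  if h : ∃ c, LL D φ c P then some h.choose.2.2.2.2.2 else none

open Classical in
/-- right label -/
noncomputable def rho (D : GD S V W) (φ : List A → S) (Q : List A) : Option V :=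
  if h : ∃ c, RR D φ c Q then some (bb D.act D.e D.F h.choose) else none

theorem LL_lam {c : Fin D.m × S × W × S × W × V} {P : List A} (h : LL D φ c P) :
    lam D φ P = some c.2.2.2.2.2 := by
  have hc : ∃ c, LL D φ c P := ⟨c, h⟩
  unfold lam
  rw [dif_pos hc]
  have := hc.choose_spec.1.symm.trans h.1
  rw [Option.some.inj this]

theorem RR_rho {c : Fin D.m × S × W × S × W × V} {Q : List A} (h : RR D φ c Q) :
    rho D φ Q = some (bb D.act D.e D.F c) := by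
  have hc : ∃ c, RR D φ c Q := ⟨c, h⟩
  unfold rho
  rw [dif_pos hc]
  have := hc.choose_spec.1.symm.trans h.1
  rw [Option.some.inj this]

theorem lam_LL {v : V} {P : List A} (h : lam D φ P = some v) :
    ∃ c, LL D φ c P ∧ c.2.2.2.2.2 = v := by
  by_cases hc : ∃ c, LL D φ c P
  · obtain ⟨c, hc⟩ := hc
    rw [LL_lam hc] at h
    exact ⟨c, hc, Option.some.inj h⟩
  · unfold lam at h
    rw [dif_neg hc] at h
    exact absurd h (by simp)

theorem rho_RR {r : V} {Q : List A} (h : rho D φ Q = some r) :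
    ∃ c, RR D φ c Q ∧ bb D.act D.e D.F c = r := by
  by_cases hc : ∃ c, RR D φ c Q
  · obtain ⟨c, hc⟩ := hc
    rw [RR_rho hc] at h
    exact ⟨c, hc, Option.some.inj h⟩
  · unfold rho at h
    rw [dif_neg hc] at h
    exact absurd h (by simp)

/-- the band and divisor event -/
def BadT (Γ M m : ℕ) (Ms : Finset ℕ) (T : ℕ) : Prop :=
  (∃ k ∈ Ms, k ∣ T) ∨ ∃ j, 1 ≤ j ∧ j ≤ m ∧
    ((T + (M * Γ ^ m * (Am Γ M m + 1) - Am Γ M j)) % Γ ^ j < M * Γ ^ (j - 1) ∨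
      Γ ^ j < (T + (M * Γ ^ m * (Am Γ M m + 1) - Am Γ M j)) % Γ ^ j + M * Γ ^ (j - 1))

theorem off_mod {Γ M m j T : ℕ} (hΓ : 0 < Γ) (hM : 0 < M) (hj : j ≤ m) (hT : Am Γ M j ≤ T) :
    (T + (M * Γ ^ m * (Am Γ M m + 1) - Am Γ M j)) % Γ ^ j = (T - Am Γ M j) % Γ ^ j := by
  have h1 : Am Γ M j ≤ M * Γ ^ m * (Am Γ M m + 1) := by
    have a1 : Am Γ M j ≤ Am Γ M m := Am_mono hj
    have a2 : 1 ≤ M * Γ ^ m := Nat.succ_le_of_lt (Nat.mul_pos hM (Nat.pow_pos hΓ))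
    nlinarith
  have h2 : T + (M * Γ ^ m * (Am Γ M m + 1) - Am Γ M j) =
      (T - Am Γ M j) + M * Γ ^ m * (Am Γ M m + 1) := by omega
  rw [h2]
  obtain ⟨d, hd⟩ : Γ ^ j ∣ M * Γ ^ m * (Am Γ M m + 1) :=
    Dvd.dvd.mul_right (Dvd.dvd.mul_left (pow_dvd_pow Γ hj) M) _
  rw [hd, Nat.add_mul_mod_self_left]

theorem BadT_per {Γ M m : ℕ} {Ms : Finset ℕ} (hdvd : ∀ k ∈ Ms, k ∣ M) (T : ℕ) :
    BadT Γ M m Ms (T + M * Γ ^ m) ↔ BadT Γ M m Ms T := by
  have h1 : ∀ k ∈ Ms, (k ∣ T + M * Γ ^ m ↔ k ∣ T) := by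
    intro k hk
    have : k ∣ M * Γ ^ m := (hdvd k hk).mul_right _
    exact (Nat.dvd_add_iff_left this).symm
  have h2 : ∀ j ≤ m, (T + M * Γ ^ m + (M * Γ ^ m * (Am Γ M m + 1) - Am Γ M j)) % Γ ^ j =
      (T + (M * Γ ^ m * (Am Γ M m + 1) - Am Γ M j)) % Γ ^ j := by
    intro j hj
    obtain ⟨d, hd⟩ : Γ ^ j ∣ M * Γ ^ m := Dvd.dvd.mul_left (pow_dvd_pow Γ hj) M
    have : T + M * Γ ^ m + (M * Γ ^ m * (Am Γ M m + 1) - Am Γ M j) =
        T + (M * Γ ^ m * (Am Γ M m + 1) - Am Γ M j) + M * Γ ^ m := by ring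
    rw [this]
    conv_lhs => rw [hd]
    have e1 : ∀ x y : ℕ, (x + Γ ^ j * y) % Γ ^ j = x % Γ ^ j := fun x y => by
      rw [Nat.add_mul_mod_self_left]
    have : T + (Γ ^ j * d * (Am Γ M m + 1) - Am Γ M j) + Γ ^ j * d =
        T + (M * Γ ^ m * (Am Γ M m + 1) - Am Γ M j) + Γ ^ j * d := by rw [hd]
    rw [this, e1]
  constructor
  · rintro (⟨k, hk, h⟩ | ⟨j, hj1, hj2, h⟩)
    · exact Or.inl ⟨k, hk, (h1 k hk).1 h⟩
    · rw [h2 j hj2] at h
      exact Or.inr ⟨j, hj1, hj2, h⟩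
  · rintro (⟨k, hk, h⟩ | ⟨j, hj1, hj2, h⟩)
    · exact Or.inl ⟨k, hk, (h1 k hk).2 h⟩
    · refine Or.inr ⟨j, hj1, hj2, ?_⟩
      rw [h2 j hj2]
      exact h

end Crest.Agent.R320.UGI_136
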