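import Crest.Agent.R320.UG_219

/-!
# Row 320: the scheme-1 gadget in abstract form, sound for mismatched views
-/

set_option autoImplicit false

namespace Crest.Agent.R320.UGIa_212

open Crest.Agent.R320.UG219

theorem per_mul {X : Type*} {f : ℕ → X} {M : ℕ} (h : ∀ t, f (t + M) = f t) (t k : ℕ) :
    f (t + M * k) = f t := by
  induction k with
  | zero => simp
  | succ k ih => rw [Nat.mul_succ, ← add_assoc, h, ih]

/-- **Scheme-1 gadget, abstract form, soundness with free views.** -/
theorem ugadget (S V : Type*) [Monoid S] [Finite S] [AddCommGroup V] [Finite V]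
    (act : V → S → V) :
    ∃ (m r : ℕ), 0 < m ∧ ∀ Bd : ℕ, ∃ (Ms : Finset ℕ) (L : ℕ → S → List S → ℕ → Option V)
      (R : (ℕ → Option (List S × S)) → ℕ → Option V) (D : ℕ → S → List S → S → V),
      Ms.card ≤ r ∧ (∀ p ∈ Ms, p.Prime ∧ Bd < p) ∧
      (∀ i x zl t, L i x zl (t + ∏ p ∈ Ms, p) = L i x zl t) ∧
      (∀ vw t, R vw (t + ∏ p ∈ Ms, p) = R vw t) ∧
      (∀ vw vw' t, (∀ i < m, vw i = vw' i) → R vw t = R vw' t) ∧
      (∀ T x zs y, D (T + ∏ p ∈ Ms, p) x zs y = D T x zs y) ∧
      (∀ (t t' i : ℕ) (x : S) (zl : List S) (vw : ℕ → Option (List S × S)) (v b : V)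
        (x0 : S) (zs0 : List S) (y0 : S), zs0.length = m → i < m →
        (∀ q, vw i = some q → x = x0 ∧ zl = zs0.take i ∧ q = (zs0.drop (i + 1), y0)) →
        L i x zl t = some v → R vw t' = some b →
        b = act v (x0 * zs0.prod * y0) + D (t + t') x0 zs0 y0) ∧
      (∀ (T : ℕ) (x : S) (zs : List S) (y : S) (v : V), zs.length = m →
        (∀ p ∈ Ms, ¬ p ∣ T) → ∃ i < m, ∀ c0 : ℕ, c0 + ∏ p ∈ Ms, p ≤ T + 1 →
          ∃ t, c0 ≤ t ∧ t < c0 + ∏ p ∈ Ms, p ∧ t ≤ T ∧ L i x (zs.take i) t = some v ∧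
            ∀ vw : ℕ → Option (List S × S), vw i = some (zs.drop (i + 1), y) →
              ∃ b, R vw (T - t) = some b) := by
  classical
  have := Fintype.ofFinite S
  have := Fintype.ofFinite V
  obtain ⟨m, N, e, F, hN, hF⟩ := RandF808.exists_noise S V act
  have : NeZero N := ⟨hN.ne'⟩
  let WW := ZMod N × ZMod N
  have hm : 0 < m := by
    obtain ⟨i, hi, -⟩ := hF 1 0 0
    omega
  let col : Nm m S V WW → V × V := fun c => (c.v, lab act e F c)
  obtain ⟨r, hr⟩ := Names_570.exists_names col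
  refine ⟨m, r, hm, fun Bd => ?_⟩
  obtain ⟨Ms, nmL, nmR, hcard, hp, hperL, hperR, h1, h2, h3⟩ := hr Bd
  set M := ∏ p ∈ Ms, p with hM
  have hMpos : 0 < M := Finset.prod_pos fun p hp' => (hp p hp').1.pos
  have hdvd : ∀ p ∈ Ms, p ∣ M := fun p hp' => Finset.dvd_prod_of_mem _ hp'
  -- the junctions of a bad clock total
  let J : ℕ → Prop := fun T => ∃ q : (ℕ × ℕ) × (Nm m S V WW × Nm m S V WW),
    (q.1.1 + q.1.2) % M = T ∧ nmL q.1.1 = some q.2.1 ∧ nmR q.1.2 = some q.2.2
  let D0 : ℕ → S → List S → S → V := fun T x zs y =>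
    if (∃ p ∈ Ms, p ∣ T) then
      (if h : J T then lab act e F h.choose.2.2 - act h.choose.2.1.v (x * zs.prod * y) else 0)
    else F (x * zs.prod * y) (ws e 0 zs)
  refine ⟨Ms, Lb act e F nmL, Rb act e F nmR, fun T => D0 (T % M), hcard, hp,
    ?_, ?_, ?_, ?_, ?_, ?_⟩
  · intro i x zl t
    unfold Lb
    rw [hperL]
  · intro vw t
    unfold Rb
    rw [hperR]
  · intro vw vw' t hvw
    unfold Rb
    have : (∃ c, nmR t = some c ∧ Good act e F c ∧
        ∃ zr y, vw c.i = some (zr, y) ∧ c.h = zr.prod * y ∧ c.wr = ws e (c.i + 1) zr) ↔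
        (∃ c, nmR t = some c ∧ Good act e F c ∧
        ∃ zr y, vw' c.i = some (zr, y) ∧ c.h = zr.prod * y ∧ c.wr = ws e (c.i + 1) zr) := by
      constructor
      · rintro ⟨c, a1, a2, a3⟩
        exact ⟨c, a1, a2, by rwa [← hvw _ c.i.2]⟩
      · rintro ⟨c, a1, a2, a3⟩
        exact ⟨c, a1, a2, by rwa [hvw _ c.i.2]⟩
    exact if_congr this rfl rfl
  · intro T x zs y
    show D0 ((T + M) % M) x zs y = D0 (T % M) x zs y
    rw [Nat.add_mod_right]
  · -- soundness
    intro t t' i x zl vw v b x0 zs0 y0 hlen hi hvw hL hR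
    obtain ⟨c, c1, c2, c3, c4, c5, c6⟩ := Lb_some hL
    obtain ⟨c', c1', c2', ⟨zr', y', c3', c4', c5'⟩, c6'⟩ := Rb_some hR
    by_cases hT : ∃ p ∈ Ms, p ∣ t + t'
    · have hT0 : ∃ p ∈ Ms, p ∣ (t + t') % M := by
        obtain ⟨p, hp1, hp2⟩ := hT
        exact ⟨p, hp1, (Nat.dvd_mod_iff (hdvd p hp1)).2 hp2⟩
      have hJ : J ((t + t') % M) := ⟨((t, t'), (c, c')), rfl, c1, c1'⟩
      have hD : D0 ((t + t') % M) x0 zs0 y0 = lab act e F hJ.choose.2.2
          - act hJ.choose.2.1.v (x0 * zs0.prod * y0) := by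
        simp only [D0]
        rw [if_pos hT0, dif_pos hJ]
      have hsp := hJ.choose_spec
      obtain ⟨e1, e2, e3⟩ := hsp
      set a := hJ.choose.1.1
      set a' := hJ.choose.1.2
      have ee : a + (a' + M * ((t + t') / M)) = t + (t' + M * ((a + a') / M)) := by
        have q1 := Nat.div_add_mod (a + a') M
        have q2 := Nat.div_add_mod (t + t') M
        omega
      have key := h3 a (a' + M * ((t + t') / M)) t (t' + M * ((a + a') / M))
        hJ.choose.2.1 hJ.choose.2.2 c c' ee
        (by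
          rw [ee]
          obtain ⟨p, hp1, hp2⟩ := hT
          refine ⟨p, hp1, ?_⟩
          rw [← add_assoc]
          exact dvd_add hp2 (Dvd.dvd.mul_right (hdvd p hp1) _)) e2
        (by rw [per_mul hperR]; exact e3) c1 (by rw [per_mul hperR]; exact c1')
      show b = act v (x0 * zs0.prod * y0) + D0 ((t + t') % M) x0 zs0 y0
      rw [hD, ← c6, ← c6']
      rcases key with ⟨k1, k2⟩ | ⟨k1, k2, k3⟩
      · rw [k1, k2]; abel
      · have kv : c.v = c'.v := by
          have := congrArg Prod.fst k3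
          simp only [col] at this
          rw [k1, k2] at this
          exact this.symm
        have kl : lab act e F c = lab act e F c' := by
          have := congrArg Prod.snd k3
          simp only [col] at this
          rw [k1, k2] at this
          exact this.symm
        rw [k1, k2, kv, kl]; abel
    · have hT' : ∀ p ∈ Ms, ¬ p ∣ t + t' := fun p hp hd => hT ⟨p, hp, hd⟩
      have hcc : c = c' := h1 t t' c c' hT' c1 c1'
      subst hcc
      obtain ⟨f1, f2, f3⟩ := hvw (zr', y') (by rw [← c3]; exact c3')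
      obtain ⟨rfl, rfl⟩ := Prod.mk.inj f3
      subst f1
      have hi' : i < zs0.length := by omega
      have hsplit : zs0 = zs0.take i ++ zs0[i] :: zs0.drop (i + 1) := by
        rw [← List.drop_eq_getElem_cons hi', List.take_append_drop]
      have hT0 : ¬ ∃ p ∈ Ms, p ∣ (t + t') % M := by
        rintro ⟨p, hp1, hp2⟩
        exact hT ⟨p, hp1, (Nat.dvd_mod_iff (hdvd p hp1)).1 hp2⟩
      have hD : D0 ((t + t') % M) x zs0 y' = F (x * zs0.prod * y') (ws e 0 zs0) := by
        simp only [D0]
        rw [if_neg hT0]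
      have hs : x * zs0.prod * y' = c.g * zs0[i] * c.h := by
        rw [c4, c4', f2]
        conv_lhs => rw [hsplit]
        simp only [List.prod_append, List.prod_cons, mul_assoc]
      have hw : ws e 0 zs0 = c.wl + e c.i zs0[i] + c.wr := by
        conv_lhs => rw [hsplit]
        rw [ws_append]
        have hl : (zs0.take i).length = i := by rw [List.length_take]; omega
        rw [hl, c5, c5', f2, c3]
        simp only [ws, Nat.zero_add]
        rw [add_assoc]
      have hg := c2 zs0[i]
      show b = act v (x * zs0.prod * y') + D0 ((t + t') % M) x zs0 y'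
      rw [hD, hw, hs, ← c6', ← c6, ← hg]
      abel
  · -- completeness
    intro T x zs y v hlen hT
    obtain ⟨i, hi, hgood⟩ := hF (x * zs.prod * y) (ws e 0 zs) v
    refine ⟨i, hi, fun c0 hc0 => ?_⟩
    have hi' : i < zs.length := by omega
    have hsplit : zs = zs.take i ++ zs[i] :: zs.drop (i + 1) := by
      rw [← List.drop_eq_getElem_cons hi', List.take_append_drop]
    let c : Nm m S V WW := ⟨⟨i, hi⟩, x * (zs.take i).prod, ws e 0 (zs.take i),
      (zs.drop (i + 1)).prod * y, ws e (i + 1) (zs.drop (i + 1)), v⟩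
    have hs : x * zs.prod * y = c.g * zs[i] * c.h := by
      conv_lhs => rw [hsplit]
      simp only [List.prod_append, List.prod_cons, mul_assoc, c]
    have hw : ws e 0 zs = c.wl + e i zs[i] + c.wr := by
      conv_lhs => rw [hsplit]
      rw [ws_append]
      have hl : (zs.take i).length = i := by rw [List.length_take]; omega
      rw [hl]
      simp only [ws, Nat.zero_add, c]
      rw [add_assoc]
    have hall : ∀ z : S, F (c.g * z * c.h) (c.wl + e i z + c.wr) + act v (c.g * z * c.h)
        = F (x * zs.prod * y) (ws e 0 zs) + act v (x * zs.prod * y) := by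
      intro z
      have := hgood c.g zs[i] c.h hs.symm z
      rw [← this]
      have : ws e 0 zs - e i zs[i] + e i z = c.wl + e i z + c.wr := by
        rw [hw]; abel
      rw [this]
    have hgc : Good act e F c := by
      intro z
      have a1 := hall z
      have a2 := hall 1
      show F (c.g * z * c.h) (c.wl + e i z + c.wr) + act v (c.g * z * c.h)
        = F (c.g * 1 * c.h) (c.wl + e i 1 + c.wr) + act v (c.g * 1 * c.h)
      rw [a1, a2]
    obtain ⟨t, t1, t2, t3, t4, t5⟩ := h2 T c c0 hT hc0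
    refine ⟨t, t1, t2, t3, ?_, fun vw hvw => ⟨lab act e F c, ?_⟩⟩
    · exact Lb_of c t4 hgc rfl rfl rfl
    · exact Rb_of c t5 hgc _ _ hvw rfl rfl

end Crest.Agent.R320.UGIa_212
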