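import Crest.Agent.R320.UGIa_136

set_option autoImplicit false
set_option linter.unusedSectionVars false
set_option linter.unusedVariables false
set_option linter.style.haveILetI false

namespace Crest.Agent.R320.UGI_136

open Finset
open Crest.Agent.R320.Gad1_420 (seg seg_left seg_right seg_split)

variable {S V W : Type} [Monoid S] [AddCommGroup V] [AddCommGroup W]
variable {A : Type*} {D : GD S V W} {φ : List A → S}

open Classical in
/-- noise -/
noncomputable def nu (D : GD S V W) (hD : D.Ok) (φ : List A → S) (u : List A) : V :=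
  if h : ∃ k ∈ D.Ms, k ∣ u.length % D.M then
    (hD.n3 (u.length % D.M) h).choose_spec.choose -
      D.act (hD.n3 (u.length % D.M) h).choose (φ u)
  else D.F (φ u) (ww D φ u)

theorem dvd_mod {k M T : ℕ} (h : k ∣ M) : k ∣ T % M ↔ k ∣ T :=
  Nat.dvd_mod_iff h

theorem sound (hD : D.Ok) (hφ : ∀ u v, φ (u ++ v) = φ u * φ v) {P Q : List A} {v r : V}
    (hP : lam D φ P = some v) (hQ : rho D φ Q = some r) (hl : Am D.Γ D.M D.m ≤ Q.length) :
    r = D.act v (φ (P ++ Q)) + nu D hD φ (P ++ Q) := by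
  obtain ⟨c, hL, hv⟩ := lam_LL hP
  obtain ⟨c', hR, hr⟩ := rho_RR hQ
  have hlen : (P ++ Q).length = P.length + Q.length := List.length_append
  unfold nu
  by_cases hb : ∃ k ∈ D.Ms, k ∣ (P ++ Q).length % D.M
  · rw [dif_pos hb]
    have hsp := (hD.n3 ((P ++ Q).length % D.M) hb).choose_spec.choose_spec P.length Q.length c c'
      (by
        rw [hlen]
        exact (Nat.mod_modEq _ _).symm) hL.1 hR.1
    have e1 := hsp.1.symm.trans hv
    have e2 := hsp.2.symm.trans hr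
    rw [e2, e1]
    abel
  · rw [dif_neg hb]
    have hcc : c = c' := by
      refine hD.n1 _ _ _ _ hL.1 hR.1 ?_
      intro k hk hkd
      refine hb ⟨k, hk, ?_⟩
      rw [dvd_mod (hD.dvd k hk), hlen]
      exact hkd
    subst hcc
    obtain ⟨-, b1, b2, b3, b4, b5⟩ := hL
    obtain ⟨-, a2, a3, -, a4, a5⟩ := hR
    obtain ⟨e1, e2⟩ := read hD hφ c.1.2 b1 b2 a2 a3 hl
    rw [← b4, ← a4] at e1
    rw [← b5, ← a5] at e2
    rw [← hr, ← b3 (zz D φ (P ++ Q) c.1), ← e1, ← e2, hv]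
    abel

theorem complete (hD : D.Ok) (hφ : ∀ u v, φ (u ++ v) = φ u * φ v) {u : List A}
    (hl : 2 * Am D.Γ D.M D.m ≤ u.length) (hbad : ¬ BadT D.Γ D.M D.m D.Ms u.length) (v : V) :
    ∃ P Q, P ++ Q = u ∧ lam D φ P = some v ∧ (rho D φ Q).isSome := by
  set T := u.length with hT
  have hΓ := hD.Γpos
  have hM := hD.Mpos
  unfold BadT at hbad
  push Not at hbad
  obtain ⟨hk, hband⟩ := hbad
  obtain ⟨i, him, hi⟩ := hD.hF (φ u) (ww D φ u) v
  have hTm : ∀ j ≤ D.m, Am D.Γ D.M j ≤ T := fun j hj => by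
    have := Am_mono (Γ := D.Γ) (M := D.M) hj
    omega
  have hmono := bt_mono hΓ hM (hTm (i + 1) him)
  set g := φ (u.take (bt D.Γ D.M i T)) with hg
  set h := φ (u.drop (bt D.Γ D.M (i + 1) T)) with hh
  set wl := ∑ j ∈ range i, D.e j (zz D φ u j) with hwl
  set wr := ∑ j ∈ Ico (i + 1) D.m, D.e j (zz D φ u j) with hwr
  have hprod : g * zz D φ u i * h = φ u := by
    have hs := seg_split (Y := u) hmono
    conv_rhs => rw [← hs]
    rw [hφ, hφ]
    rfl
  have hw : ww D φ u = wl + D.e i (zz D φ u i) + wr := by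
    unfold ww
    rw [hwl, hwr, ← Finset.sum_range_succ, Finset.sum_range_add_sum_Ico _ (by omega)]
  let c : Fin D.m × S × W × S × W × V := (⟨i, him⟩, g, wl, h, wr, v)
  have hall : ∀ z, D.F (g * z * h) (wl + D.e i z + wr) + D.act v (g * z * h) =
      D.F (φ u) (ww D φ u) + D.act v (φ u) := by
    intro z
    rw [← hi _ _ _ hprod z]
    congr 2
    rw [hw]
    abel
  have hok : okc D.act D.e D.F c := by
    intro z
    show D.F (g * z * h) (wl + D.e i z + wr) + D.act v (g * z * h) =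
      D.F (g * 1 * h) (wl + D.e i 1 + wr) + D.act v (g * 1 * h)
    rw [hall, hall]
  obtain ⟨t, htM, htL, htR⟩ := hD.n2 T hk c
  -- the place
  have hcop : Nat.Coprime D.M (D.Γ ^ i) := Nat.Coprime.pow_right _ hD.cop
  obtain ⟨x, hx1, hx2⟩ := Nat.chineseRemainder hcop t T
  have hpos : 0 < D.M * D.Γ ^ i := Nat.mul_pos hM (Nat.pow_pos hΓ)
  obtain ⟨o, ho1, ho2, ho3⟩ := exists_mod hpos (lo D.Γ D.M i) x
  have hoM : o ≡ t [MOD D.M] := (ho3.of_mul_right _).trans hx1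
  have hoG : o ≡ T [MOD D.Γ ^ i] := (ho3.of_mul_left _).trans hx2
  have hlo : lo D.Γ D.M i + D.M * D.Γ ^ i ≤ Am D.Γ D.M (i + 1) := lo_le (Nat.lt_succ_self i)
  have hAi : Am D.Γ D.M (i + 1) ≤ Am D.Γ D.M D.m := Am_mono him
  have hoT : o ≤ T := by
    have : lo D.Γ D.M i + D.M * D.Γ ^ i ≤ Am D.Γ D.M (i + 1) := hlo
    omega
  have hGd : D.Γ ^ i ∣ T - o := (Nat.modEq_iff_dvd' hoT).1 hoG
  have hnL : D.nmL o = some c := by
    rw [per_mod hD.perL, hoM, ← per_mod hD.perL]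
    exact htL
  have hnR : D.nmR (T - o) = some c := by
    refine htR _ ?_
    have : o + (T - o) = T := by omega
    calc t + (T - o) ≡ o + (T - o) [MOD D.M] := Nat.ModEq.add_right _ hoM.symm
      _ = T := this
  obtain ⟨P, Q, hPQ, hPl⟩ : ∃ P Q, P ++ Q = u ∧ P.length = o :=
    ⟨u.take o, u.drop o, List.take_append_drop o u, by rw [List.length_take]; omega⟩
  have hQl : Q.length = T - o := by
    have : (P ++ Q).length = T := by rw [hPQ]
    rw [List.length_append] at this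
    omega
  have hAo : Am D.Γ D.M D.m ≤ Q.length := by
    have : lo D.Γ D.M i + D.M * D.Γ ^ i ≤ Am D.Γ D.M (i + 1) := hlo
    omega
  have hcell : ∀ j, i < j → j ≤ D.m → (Q.length + lo D.Γ D.M i - Am D.Γ D.M j) % D.Γ ^ j +
      D.M * D.Γ ^ i ≤ D.Γ ^ j := by
    intro j hij hjm
    obtain ⟨b1, b2⟩ := hband j (by omega) hjm
    rw [off_mod hΓ hM hjm (hTm j hjm)] at b1 b2
    have hpw : D.M * D.Γ ^ i ≤ D.M * D.Γ ^ (j - 1) :=
      Nat.mul_le_mul_left _ (Nat.pow_le_pow_right hΓ (by omega))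
    obtain ⟨δ, hδ⟩ := Nat.exists_eq_add_of_le ho1
    have hδ2 : δ < D.M * D.Γ ^ i := by omega
    set X := T - Am D.Γ D.M j with hX
    have hjT := hTm j hjm
    have hlt : lo D.Γ D.M i ≤ Am D.Γ D.M j :=
      le_trans (Nat.le_add_right _ _) (lo_le hij)
    have hj2 : Am D.Γ D.M j ≤ Am D.Γ D.M D.m := Am_mono hjm
    have e1 : Q.length + lo D.Γ D.M i - Am D.Γ D.M j = X - δ := by omega
    have e2 := Nat.div_add_mod X (D.Γ ^ j)
    have hXlt : X % D.Γ ^ j < D.Γ ^ j := Nat.mod_lt _ (Nat.pow_pos hΓ)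
    have e3 : (X - δ) % D.Γ ^ j = X % D.Γ ^ j - δ := by
      have : X - δ = D.Γ ^ j * (X / D.Γ ^ j) + (X % D.Γ ^ j - δ) := by omega
      rw [this, Nat.mul_add_mod, Nat.mod_eq_of_lt (by omega)]
    rw [e1, e3]
    omega
  have hread := read hD hφ him (P := P) (Q := Q) (by rw [hPl]; exact ho1)
    (by rw [hPl]; exact ho2) (by rw [hQl]; exact hGd) hcell hAo
  have hPQl : (P ++ Q).length = T := by rw [hPQ]
  have hAP : ∀ j ≤ i, Am D.Γ D.M j ≤ P.length := fun j hj =>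
    (Am_mono hj).trans (le_trans (Nat.le_add_right _ _) (by rw [hPl]; exact ho1))
  have hbL : ∀ j ≤ i, bt D.Γ D.M j T = bt D.Γ D.M j P.length := by
    intro j hj
    rw [← hPQl, List.length_append]
    exact bt_left hΓ hj (by rw [hQl]; exact hGd) (hAP j hj)
  have hbR : ∀ j, i < j → j ≤ D.m → bt D.Γ D.M j T =
      P.length + (Q.length - tR D.Γ D.M i j Q.length) := by
    intro j hj hjm
    rw [← hPQl, List.length_append]
    exact bt_right hj (by rw [hPl]; exact ho1) (by rw [hPl]; exact ho2)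
      ((Am_mono hjm).trans hAo) (hcell j hj hjm)
  have hbl : ∀ j, bt D.Γ D.M j P.length ≤ P.length := fun j => Nat.sub_le _ _
  have hLL : LL D φ c P := by
    refine ⟨by rw [hPl]; exact hnL, by rw [hPl]; exact ho1, by rw [hPl]; exact ho2, hok, ?_, ?_⟩
    · show g = φ (P.take (bt D.Γ D.M i P.length))
      rw [hg, hbL i le_rfl, ← hPQ, List.take_append_of_le_length (hbl i)]
    · show wl = _
      rw [hwl]
      refine Finset.sum_congr rfl fun j hj => ?_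
      rw [Finset.mem_range] at hj
      unfold zz
      rw [← hT, hbL j hj.le, hbL (j + 1) hj, ← hPQ, seg_left ?_ (hbl _)]
      exact bt_mono hΓ hM (hAP _ hj)
  have hRR : RR D φ c Q := by
    refine ⟨by rw [hQl]; exact hnR, by rw [hQl]; exact hGd, hcell, hok, ?_, ?_⟩
    · show h = φ (Q.drop (Q.length - tR D.Γ D.M i (i + 1) Q.length))
      rw [hh, hbR (i + 1) (Nat.lt_succ_self i) him, ← hPQ, Gad1_420.drop_app_right]
    · show wr = _
      rw [hwr]
      refine Finset.sum_congr rfl fun j hj => ?_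
      rw [Finset.mem_Ico] at hj
      obtain ⟨hj1, hj2⟩ : i + 1 ≤ j ∧ j < D.m := hj
      unfold zz
      rw [← hT, hbR j (by omega) (by omega), hbR (j + 1) (by omega) (by omega), ← hPQ, seg_right]
  refine ⟨P, Q, hPQ, LL_lam hLL, ?_⟩
  rw [RR_rho hRR]
  rfl

theorem lam_len {v : V} {P : List A} (h : lam D φ P = some v) :
    P.length ≤ Am D.Γ D.M D.m := by
  obtain ⟨c, hL, -⟩ := lam_LL h
  have h1 := lo_le (Γ := D.Γ) (M := D.M) c.1.2
  have h2 := hL.2.2.1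
  omega

/-! ### locality -/

theorem seg_take {Q : List A} {a b L : ℕ} (h : b ≤ L) : seg (Q.take L) a b = seg Q a b := by
  unfold seg
  rw [List.drop_take, List.take_take, min_eq_left (by omega)]

theorem phi_drop (hφ : ∀ u v, φ (u ++ v) = φ u * φ v) {Q : List A} {y L : ℕ} (h : y ≤ L)
    (hL : L ≤ Q.length) : φ (Q.drop y) = φ ((Q.take L).drop y) * φ (Q.drop L) := by
  rw [← hφ]
  congr 1
  conv_lhs => rw [← List.take_append_drop L Q]
  rw [List.drop_append_of_le_length]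
  rw [List.length_take]
  omega

theorem y_bound {i j q : ℕ} {Γ M m : ℕ} (hΓ : 0 < Γ) (hij : i < j) (hjm : j ≤ m)
    (hq : Am Γ M m ≤ q) : q - tR Γ M i j q ≤ Am Γ M m + Γ ^ m := by
  have h0 : Am Γ M j ≤ Am Γ M m := Am_mono hjm
  rw [yR_eq hij (by omega)]
  have h1 : (q + lo Γ M i - Am Γ M j) % Γ ^ j < Γ ^ j := Nat.mod_lt _ (Nat.pow_pos hΓ)
  have h2 : Γ ^ j ≤ Γ ^ m := Nat.pow_le_pow_right hΓ hjm
  omega

theorem mod_same {Γ M m i j q q' : ℕ} (hjm : j ≤ m) (hq : Am Γ M j ≤ q) (hq' : Am Γ M j ≤ q')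
    (h : q ≡ q' [MOD M * Γ ^ m]) :
    (q + lo Γ M i - Am Γ M j) % Γ ^ j = (q' + lo Γ M i - Am Γ M j) % Γ ^ j := by
  have hd : Γ ^ j ∣ M * Γ ^ m := Dvd.dvd.mul_left (pow_dvd_pow Γ hjm) M
  have h1 : q ≡ q' [MOD Γ ^ j] := h.of_dvd hd
  have e1 : q + lo Γ M i - Am Γ M j + Am Γ M j = q + lo Γ M i := by omega
  have e2 : q' + lo Γ M i - Am Γ M j + Am Γ M j = q' + lo Γ M i := by omega
  have h2 : q + lo Γ M i - Am Γ M j + Am Γ M j ≡ q' + lo Γ M i - Am Γ M j + Am Γ M j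
      [MOD Γ ^ j] := by
    rw [e1, e2]; exact Nat.ModEq.add_right _ h1
  exact Nat.ModEq.add_right_cancel' _ h2

theorem RR_local (hD : D.Ok) (hφ : ∀ u v, φ (u ++ v) = φ u * φ v) {Q Q' : List A} {L : ℕ}
    (hL : Am D.Γ D.M D.m + D.Γ ^ D.m ≤ L) (h1 : L ≤ Q.length) (h2 : L ≤ Q'.length)
    (ht : Q.take L = Q'.take L) (hm : Q.length ≡ Q'.length [MOD D.M * D.Γ ^ D.m])
    (hp : φ (Q.drop L) = φ (Q'.drop L)) {c : Fin D.m × S × W × S × W × V} (h : RR D φ c Q) :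
    RR D φ c Q' := by
  obtain ⟨a1, a2, a3, a4, a5, a6⟩ := h
  have hΓ := hD.Γpos
  have him : (c.1 : ℕ) < D.m := c.1.2
  have hAm : ∀ j ≤ D.m, Am D.Γ D.M j ≤ Am D.Γ D.M D.m := fun j hj => Am_mono hj
  have hmod : ∀ j, j ≤ D.m → (Q.length + lo D.Γ D.M c.1 - Am D.Γ D.M j) % D.Γ ^ j =
      (Q'.length + lo D.Γ D.M c.1 - Am D.Γ D.M j) % D.Γ ^ j := fun j hj =>
    mod_same hj (by have := hAm j hj; omega) (by have := hAm j hj; omega) hm
  have hy : ∀ j, (c.1 : ℕ) < j → j ≤ D.m → Q.length - tR D.Γ D.M c.1 j Q.length =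
      Q'.length - tR D.Γ D.M c.1 j Q'.length := by
    intro j hj hjm
    have := hAm j hjm
    rw [yR_eq hj (by omega), yR_eq hj (by omega), hmod j hjm]
  have hyb : ∀ j, (c.1 : ℕ) < j → j ≤ D.m → Q'.length - tR D.Γ D.M c.1 j Q'.length ≤ L :=
    fun j hj hjm => (y_bound hΓ hj hjm (by omega)).trans hL
  refine ⟨?_, ?_, ?_, a4, ?_, ?_⟩
  · rw [per_mod hD.perR, ← (show Q.length % D.M = Q'.length % D.M from hm.of_mul_right _),
      ← per_mod hD.perR]
    exact a1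
  · have hd : D.Γ ^ (c.1 : ℕ) ∣ D.M * D.Γ ^ D.m :=
      Dvd.dvd.mul_left (pow_dvd_pow _ him.le) _
    exact (Nat.ModEq.dvd_iff (hm.of_dvd hd) dvd_rfl).1 a2
  · intro j hj hjm
    rw [← hmod j hjm]
    exact a3 j hj hjm
  · rw [a5, phi_drop hφ (L := L) ?_ h1, phi_drop hφ (L := L) ?_ h2, ht, hp,
      hy _ (Nat.lt_succ_self _) him]
    · exact hyb _ (Nat.lt_succ_self _) him
    · rw [hy _ (Nat.lt_succ_self _) him]
      exact hyb _ (Nat.lt_succ_self _) him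
  · rw [a6]
    refine Finset.sum_congr rfl fun j hj => ?_
    rw [Finset.mem_Ico] at hj
    rw [hy j (by omega) (by omega), hy (j + 1) (by omega) (by omega),
      ← seg_take (Q := Q) (hyb (j + 1) (by omega) (by omega)),
      ← seg_take (Q := Q') (hyb (j + 1) (by omega) (by omega)), ht]

theorem rho_local (hD : D.Ok) (hφ : ∀ u v, φ (u ++ v) = φ u * φ v) {Q Q' : List A} {L : ℕ}
    (hL : Am D.Γ D.M D.m + D.Γ ^ D.m ≤ L) (h1 : L ≤ Q.length) (h2 : L ≤ Q'.length)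
    (ht : Q.take L = Q'.take L) (hm : Q.length ≡ Q'.length [MOD D.M * D.Γ ^ D.m])
    (hp : φ (Q.drop L) = φ (Q'.drop L)) : rho D φ Q = rho D φ Q' := by
  by_cases hc : ∃ c, RR D φ c Q
  · obtain ⟨c, hc⟩ := hc
    rw [RR_rho hc, RR_rho (RR_local hD hφ hL h1 h2 ht hm hp hc)]
  · have hc' : ¬ ∃ c, RR D φ c Q' := by
      rintro ⟨c, hc'⟩
      exact hc ⟨c, RR_local hD hφ hL h2 h1 ht.symm hm.symm hp.symm hc'⟩
    unfold rho
    rw [dif_neg hc, dif_neg hc']

theorem ww_local (hD : D.Ok) {Q Q' : List A} {L : ℕ}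
    (hL : Am D.Γ D.M D.m + D.Γ ^ D.m ≤ L) (h1 : L ≤ Q.length) (h2 : L ≤ Q'.length)
    (ht : Q.take L = Q'.take L) (hm : Q.length ≡ Q'.length [MOD D.M * D.Γ ^ D.m]) :
    ww D φ Q = ww D φ Q' := by
  have hΓ := hD.Γpos
  have hAm : ∀ j ≤ D.m, Am D.Γ D.M j ≤ Am D.Γ D.M D.m := fun j hj => Am_mono hj
  have hb : ∀ j ≤ D.m, bt D.Γ D.M j Q.length = bt D.Γ D.M j Q'.length := by
    intro j hj
    have h3 := hAm j hj
    rw [bt_eq (by omega), bt_eq (by omega)]
    congr 1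
    have hd : D.Γ ^ j ∣ D.M * D.Γ ^ D.m := Dvd.dvd.mul_left (pow_dvd_pow _ hj) _
    have h4 : Q.length ≡ Q'.length [MOD D.Γ ^ j] := hm.of_dvd hd
    have h5 : Q.length - Am D.Γ D.M j + Am D.Γ D.M j ≡ Q'.length - Am D.Γ D.M j + Am D.Γ D.M j
        [MOD D.Γ ^ j] := by
      rw [Nat.sub_add_cancel (by omega), Nat.sub_add_cancel (by omega)]
      exact h4
    exact Nat.ModEq.add_right_cancel' _ h5
  have hbb : ∀ j ≤ D.m, bt D.Γ D.M j Q'.length ≤ L := by
    intro j hj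
    have h3 := hAm j hj
    rw [bt_eq (by omega)]
    have h4 : (Q'.length - Am D.Γ D.M j) % D.Γ ^ j < D.Γ ^ j := Nat.mod_lt _ (Nat.pow_pos hΓ)
    have h5 : D.Γ ^ j ≤ D.Γ ^ D.m := Nat.pow_le_pow_right hΓ hj
    omega
  unfold ww
  refine Finset.sum_congr rfl fun j hj => ?_
  rw [Finset.mem_range] at hj
  unfold zz
  rw [hb j hj.le, hb (j + 1) hj, ← seg_take (Q := Q) (hbb (j + 1) hj),
    ← seg_take (Q := Q') (hbb (j + 1) hj), ht]

theorem nu_local (hD : D.Ok) (hφ : ∀ u v, φ (u ++ v) = φ u * φ v) {Q Q' : List A} {L : ℕ}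
    (hL : Am D.Γ D.M D.m + D.Γ ^ D.m ≤ L) (h1 : L ≤ Q.length) (h2 : L ≤ Q'.length)
    (ht : Q.take L = Q'.take L) (hm : Q.length ≡ Q'.length [MOD D.M * D.Γ ^ D.m])
    (hp : φ (Q.drop L) = φ (Q'.drop L)) : nu D hD φ Q = nu D hD φ Q' := by
  have e1 : φ Q = φ Q' := by
    have a := phi_drop hφ (Q := Q) (y := 0) (L := L) (Nat.zero_le _) h1
    have b := phi_drop hφ (Q := Q') (y := 0) (L := L) (Nat.zero_le _) h2
    rw [List.drop_zero, List.drop_zero] at a b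
    rw [a, b, ht, hp]
  have e2 := ww_local (φ := φ) hD hL h1 h2 ht hm
  have e3 : Q.length % D.M = Q'.length % D.M := hm.of_mul_right _
  unfold nu
  simp only [e1, e2, e3]

end Crest.Agent.R320.UGI_136
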