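import Mathlib
import Crest.Agent.R320.Spoil_154

namespace Crest.Agent.R320.UGS_154
open Crest.Agent.R320.Spoil_154

/-- literal of lead #13673 (g1), as a Prop -/
def G1 (S V : Type) [Monoid S] [AddCommGroup V] (act : V → S → V) : Prop :=
  ∃ m r : ℕ, ∀ Bd : ℕ, ∃ (Ms : Finset ℕ) (M : ℕ), Ms.card ≤ r ∧
    (∀ k ∈ Ms, Bd < k ∧ k.Prime ∧ k ∣ M) ∧ 0 < M ∧
    ∀ b : ℕ, 4 * M + 4 < b → Nat.Coprime b M → ∀ (A : Type) (f : A → S),
      ∃ (lam rho : List A → Option V) (nu : List A → V),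
        (∀ P v, lam P = some v → P.length < b ^ m) ∧
        (∀ P Q v v', lam P = some v → rho Q = some v' →
          v' = act v ((P ++ Q).map f).prod + nu (P ++ Q)) ∧
        (∀ X : List A, (∀ k ∈ Ms, ¬ k ∣ X.length) →
          (∀ j < m, M ≤ X.length / b ^ j % b ∧ X.length / b ^ j % b + M + 1 ≤ b) →
          ∀ v, ∃ P Q, P ++ Q = X ∧ lam P = some v ∧ (rho Q).isSome) ∧
        (∀ Q Q' : List A, b ^ m ≤ Q.length → b ^ m ≤ Q'.length → Q.take (b ^ m) = Q'.take (b ^ m) →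
          Q.length % (M * b ^ m) = Q'.length % (M * b ^ m) →
          ((Q.drop (b ^ m)).map f).prod = ((Q'.drop (b ^ m)).map f).prod →
          rho Q = rho Q' ∧ nu Q = nu Q')

open Classical in
/-- literal of 871 #13707 -/
def UGS (S V : Type) [Monoid S] [AddCommGroup V] (act : V → S → V) : Prop :=
  ∃ C0 : ℕ, ∀ K : ℕ, ∃ (N A D : ℕ) (x : ℕ → ℕ) (Bad : ℕ → Prop), 0 < D ∧
    (∀ i j, i < j → j < K → x i < x j) ∧ (∀ T, Bad (T + D) ↔ Bad T) ∧
    (∀ τ : ℤ, ((Finset.range K ×ˢ Finset.range K).filter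
      (fun ab => ab.1 ≠ ab.2 ∧ |τ - ((x ab.1 : ℤ) - x ab.2)| ≤ N)).card ≤ C0) ∧
    (∀ T : ℕ, (∀ k < K, x k ≤ T) → ((Finset.range K ×ˢ Finset.range K).filter
      (fun ab => ab.1 ≠ ab.2 ∧ Bad (T + x ab.2 - x ab.1))).card ≤ C0) ∧
    ∀ (α : Type) (φ : List α → S), φ [] = 1 → (∀ u v, φ (u ++ v) = φ u * φ v) →
      ∃ (lam rho : List α → Option V) (nu : List α → V),
        (∀ p v, lam p = some v → p.length ≤ N) ∧ (∀ q r, rho q = some r → A ≤ q.length) ∧
        (∀ p q v r, lam p = some v → rho q = some r → r = act v (φ (p ++ q)) + nu (p ++ q)) ∧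
        (∀ u : List α, 2 * N + A ≤ u.length → ¬ Bad u.length → ∀ v, ∃ p q, p ++ q = u ∧
          lam p = some v ∧ (rho q).isSome) ∧
        (∀ q q' : List α, A ≤ q.length → A ≤ q'.length → q.take A = q'.take A →
          φ (q.drop A) = φ (q'.drop A) → q.length % D = q'.length % D →
          rho q = rho q' ∧ nu q = nu q')

lemma near_digit {P B M N : ℕ} (hP : 0 < P) (hB : 0 < B)
    (h : (N / P) % B < M ∨ B ≤ (N / P) % B + M) : Near (P*B) (P*M) (N:ℤ) := by
  have e1 : P * (N / P) + N % P = N := Nat.div_add_mod N P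
  have e2 : B * (N / P / B) + (N/P) % B = N / P := Nat.div_add_mod _ _
  have hlt : N % P < P := Nat.mod_lt _ hP
  have hlt2 : (N/P) % B < B := Nat.mod_lt _ hB
  set n := N / P with hn
  set q := n / B with hq
  set s := n % B with hs
  set u := N % P with hu
  have hN : (N:ℤ) = P * B * q + P * s + u := by
    have : N = P * (B * q + s) + u := by rw [e2]; exact e1.symm
    rw [this]; push_cast; ring
  have huI : (u:ℤ) < P := by exact_mod_cast hlt
  have hPI : (0:ℤ) < P := by exact_mod_cast hP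
  have h2 : (0:ℤ) ≤ u := by positivity
  have h0 : (0:ℤ) ≤ P * M := by positivity
  have h1 : (0:ℤ) ≤ P * s := by positivity
  rcases h with h | h
  · refine ⟨q, ?_, ?_⟩
    · rw [hN]; push_cast; linarith
    · rw [hN]; push_cast
      have h3 : (s:ℤ) + 1 ≤ M := by exact_mod_cast h
      have h4 : (P:ℤ) * (s + 1) ≤ P * M := mul_le_mul_of_nonneg_left h3 hPI.le
      linarith
  · refine ⟨q + 1, ?_, ?_⟩
    · rw [hN]; push_cast
      have h3 : (B:ℤ) ≤ s + M := by exact_mod_cast h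
      have h4 : (P:ℤ) * B ≤ P * (s + M) := mul_le_mul_of_nonneg_left h3 hPI.le
      linarith
    · rw [hN]; push_cast
      have h3 : (s:ℤ) + 1 ≤ B := by exact_mod_cast hlt2
      have h4 : (P:ℤ) * (s + 1) ≤ P * B := mul_le_mul_of_nonneg_left h3 hPI.le
      linarith

lemma near_dvd1 {k N : ℕ} (h : k ∣ N) : Near k 1 (N:ℤ) := by
  obtain ⟨q, hq⟩ := h
  refine ⟨q, ?_, ?_⟩ <;> rw [hq] <;> push_cast <;> linarith

/-- digit sum `M (1 + b + .. + b^(j-1))` -/
def DS (M b : ℕ) : ℕ → ℕ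
  | 0 => 0
  | j+1 => DS M b j + M * b^j

lemma DS_cong (M b : ℕ) {j j' : ℕ} (h : j ≤ j') :
    ((b^j : ℕ):ℤ) ∣ (DS M b j' : ℤ) - DS M b j := by
  induction j', h using Nat.le_induction with
  | base => simp
  | succ n hn ih =>
    have e : (DS M b (n+1) : ℤ) - DS M b j = ((DS M b n : ℤ) - DS M b j) + ((M * b^n : ℕ):ℤ) := by
      simp only [DS]; push_cast; ring
    rw [e]
    refine dvd_add ih ?_
    have : b^j ∣ M * b^n := Dvd.dvd.mul_left (pow_dvd_pow _ hn) _
    exact_mod_cast this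

lemma DS_le {K M b : ℕ} (hb : 2 * M * 2^(K+7) ≤ b) (hb2 : 2 ≤ b) (j : ℕ) :
    2^(K+7) * DS M b j ≤ b^j := by
  have h2 : 1 ≤ 2^(K+7) := Nat.one_le_two_pow
  induction j with
  | zero => simp [DS]
  | succ n ih =>
    simp only [DS]
    have hbn : 0 < b^n := by positivity
    have e : 2^(K+7) * (DS M b n + M * b^n) = 2^(K+7) * DS M b n + (M * 2^(K+7)) * b^n := by ring
    rw [e, pow_succ b n]
    have h3 : (2 * M * 2^(K+7)) * b^n ≤ b * b^n := Nat.mul_le_mul_right _ hb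
    have h4 : 2 * b^n ≤ b * b^n := Nat.mul_le_mul_right _ hb2
    nlinarith

theorem ugs_of_g1 (S V : Type) [Monoid S] [AddCommGroup V] (act : V → S → V)
    (h : G1 S V act) : UGS S V act := by
  obtain ⟨m, r, h⟩ := h
  refine ⟨1 + r + m, fun K => ?_⟩
  obtain ⟨Ms, M, hcard, hMs, hM, h⟩ := h (2^(K+7))
  -- base
  set b : ℕ := M * 2^(K+10) + 1 with hb
  have h10 : 2^(K+10) = 8 * 2^(K+7) := by rw [show K+10 = (K+7)+3 by ring, pow_add]; ring
  have h7 : 128 ≤ 2^(K+7) := by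
    calc 128 = 2^7 := by norm_num
      _ ≤ 2^(K+7) := Nat.pow_le_pow_right (by norm_num) (by omega)
  have hb1 : 4 * M + 4 < b := by rw [hb, h10]; nlinarith
  have hcop : Nat.Coprime b M := by
    rw [hb, Nat.coprime_comm]
    simp
  have hbpos : 0 < b := by omega
  have hb2 : 2 ≤ b := by omega
  have hbDS : 2 * M * 2^(K+7) ≤ b := by rw [hb, h10]; nlinarith
  have hg := h b hb1 hcop
  set N := b^m with hN
  have hNpos : 0 < N := by rw [hN]; positivity
  have hcopN : Nat.Coprime M N := by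
    rw [hN]; exact Nat.Coprime.pow_right _ hcop.symm
  -- Sg
  obtain ⟨s0, hs1, hs2⟩ := Nat.chineseRemainder hcopN 1 (DS M b m)
  set Sg : ℕ := s0 + M * N with hSg
  have hSgM : (M:ℤ) ∣ (Sg:ℤ) - 1 := by
    have h1 : (M:ℤ) ∣ (s0:ℤ) - 1 := by
      have := (Nat.modEq_iff_dvd.1 hs1.symm)
      simpa using this
    have h2 : (Sg:ℤ) - 1 = ((s0:ℤ) - 1) + M * N := by rw [hSg]; push_cast; ring
    rw [h2]; exact dvd_add h1 (Dvd.intro _ rfl)
  have hSgN : ((b^m : ℕ):ℤ) ∣ (Sg:ℤ) - DS M b m := by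
    have h1 : ((N:ℕ):ℤ) ∣ (s0:ℤ) - DS M b m := Nat.modEq_iff_dvd.1 hs2.symm
    have h2 : (Sg:ℤ) - DS M b m = ((s0:ℤ) - DS M b m) + M * N := by rw [hSg]; push_cast; ring
    rw [← hN, h2]; exact dvd_add h1 (Dvd.intro_left _ rfl)
  have hSgN' : N ≤ Sg := by
    have : 1 * N ≤ M * N := Nat.mul_le_mul_right _ hM
    omega
  have hSgpos : 0 < Sg := lt_of_lt_of_le hNpos hSgN'
  let Bad : ℕ → Prop := fun n => (∃ k ∈ Ms, k ∣ n) ∨
    ∃ j < m, (n / b^j % b < M ∨ b ≤ n / b^j % b + M)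
  refine ⟨N, N, M * N, fun a => 16 * 2^a * Sg, Bad, by positivity, ?_, ?_, ?_, ?_, ?_⟩
  · intro i j hij _
    have : 2^i < 2^j := Nat.pow_lt_pow_right (by norm_num) hij
    have h3 : 16 * 2^i < 16 * 2^j := by omega
    exact Nat.mul_lt_mul_of_pos_right h3 hSgpos
  · intro T
    have hk : ∀ k ∈ Ms, (k ∣ T + M * N ↔ k ∣ T) := fun k hk =>
      (Nat.dvd_add_left (Dvd.dvd.mul_right (hMs k hk).2.2 _))
    have hj : ∀ j < m, (T + M * N) / b^j % b = T / b^j % b := by
      intro j hj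
      have e : M * N = b^j * (b * (M * b^(m-j-1))) := by
        rw [hN]
        have : b^m = b^j * (b * b^(m-j-1)) := by
          rw [← pow_succ', ← pow_add]; congr 1; omega
        rw [this]; ring
      rw [e, Nat.add_mul_div_left _ _ (by positivity), Nat.add_mul_mod_self_left]
    constructor
    · rintro (⟨k, hk', hd⟩ | ⟨j, hj', hd⟩)
      · exact Or.inl ⟨k, hk', (hk k hk').1 hd⟩
      · right; refine ⟨j, hj', ?_⟩; rwa [hj j hj'] at hd
    · rintro (⟨k, hk', hd⟩ | ⟨j, hj', hd⟩)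
      · exact Or.inl ⟨k, hk', (hk k hk').2 hd⟩
      · right; refine ⟨j, hj', ?_⟩; rwa [hj j hj']
  · -- wide ruler
    intro τ
    refine le_trans ?_ (show 1 ≤ 1 + r + m by omega)
    rw [Finset.card_le_one]
    rintro ⟨a, c⟩ hac ⟨a', c'⟩ hac'
    simp only [Finset.mem_filter, Finset.mem_product, Finset.mem_range] at hac hac'
    obtain ⟨⟨ha, hc⟩, hne, h1⟩ := hac
    obtain ⟨⟨ha', hc'⟩, hne', h2⟩ := hac'
    rw [abs_le] at h1 h2
    push_cast at h1 h2
    obtain ⟨δ, hδ⟩ : ∃ δ : ℤ, δ = ((2:ℤ)^a - 2^c) - (2^a' - 2^c') := ⟨_, rfl⟩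
    have hNS : (N:ℤ) ≤ Sg := by exact_mod_cast hSgN'
    have hSp : (0:ℤ) < Sg := by exact_mod_cast hSgpos
    have hd1 : 16 * (δ * Sg) ≤ 2 * N := by rw [hδ]; linarith [h1.1, h1.2, h2.1, h2.2]
    have hd2 : -(2 * (N:ℤ)) ≤ 16 * (δ * Sg) := by rw [hδ]; linarith [h1.1, h1.2, h2.1, h2.2]
    have hδ0 : δ = 0 := by
      by_contra hne0
      rcases lt_or_gt_of_ne hne0 with hlt | hgt
      · have h3 : δ * Sg ≤ (-1) * Sg := mul_le_mul_of_nonneg_right (by omega) hSp.le
        linarith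
      · have h3 : 1 * (Sg:ℤ) ≤ δ * Sg := mul_le_mul_of_nonneg_right (by omega) hSp.le
        linarith
    have h3 : (2:ℤ)^a - 2^c = 2^a' - 2^c' := by linarith
    rcases pow_sidon h3 with h4 | h4
    · rw [h4.1, h4.2]
    · exact absurd h4.1 hne
  · -- spoil
    intro T hT
    classical
    have hcast : ∀ a c, a < K → c < K → ((T + 16*2^c*Sg - 16*2^a*Sg : ℕ) : ℤ)
        = (T:ℤ) + 16*2^c*Sg - 16*2^a*Sg := by
      intro a c ha hc
      have hle : 16*2^a*Sg ≤ T + 16*2^c*Sg := le_trans (hT a ha) (Nat.le_add_right _ _)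
      push_cast [Nat.cast_sub hle]
      ring
    set E := Finset.range K ×ˢ Finset.range K with hE
    have gen : ∀ (Q w Sl : ℕ) (C : ℕ → Prop) [DecidablePred C], w ≤ Sl → 0 < w →
        2^(K+7) * Sl ≤ Q → ((Q:ℤ) ∣ (Sg:ℤ) - Sl) → (∀ n, C n → Near Q w (n:ℤ)) →
        (E.filter (fun ab => ab.1 ≠ ab.2 ∧ C (T + 16*2^ab.2*Sg - 16*2^ab.1*Sg))).card ≤ 1 := by
      intro Q w Sl C _ hw hw0 hQ hS hC
      rw [Finset.card_le_one]
      rintro ⟨a, c⟩ hac ⟨a', c'⟩ hac'
      simp only [hE, Finset.mem_filter, Finset.mem_product, Finset.mem_range] at hac hac'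
      obtain ⟨⟨ha, hc⟩, hne, h1'⟩ := hac
      obtain ⟨⟨ha', hc'⟩, hne', h2'⟩ := hac'
      have n1 := hC _ h1'
      have n2 := hC _ h2'
      rw [hcast a c ha hc] at n1
      rw [hcast a' c' ha' hc'] at n2
      obtain ⟨e1, e2⟩ := one_pair hw hw0 hQ hS hc ha hc' ha' (Ne.symm hne) n1 n2
      rw [e1, e2]
    let F1 : ℕ → Finset (ℕ × ℕ) := fun k => E.filter (fun ab => ab.1 ≠ ab.2 ∧
      k ∣ (T + 16*2^ab.2*Sg - 16*2^ab.1*Sg))
    have hF1 : ∀ k ∈ Ms, (F1 k).card ≤ 1 := by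
      intro k hk
      obtain ⟨hk1, _, hk2⟩ := hMs k hk
      refine gen k 1 1 (fun n => k ∣ n) le_rfl one_pos (by omega) ?_ (fun n hn => near_dvd1 hn)
      have : (k:ℤ) ∣ (M:ℤ) := by exact_mod_cast hk2
      simpa using dvd_trans this hSgM
    let F2 : ℕ → Finset (ℕ × ℕ) := fun j => E.filter (fun ab => ab.1 ≠ ab.2 ∧
      ((T + 16*2^ab.2*Sg - 16*2^ab.1*Sg) / b^j % b < M ∨
        b ≤ (T + 16*2^ab.2*Sg - 16*2^ab.1*Sg) / b^j % b + M))
    have hF2 : ∀ j < m, (F2 j).card ≤ 1 := by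
      intro j hj
      refine gen (b^j * b) (b^j * M) (DS M b (j+1))
        (fun n => n / b^j % b < M ∨ b ≤ n / b^j % b + M) ?_ (by positivity) ?_ ?_
        (fun n hn => near_digit (by positivity) hbpos hn)
      · simp only [DS]; nlinarith [Nat.zero_le (DS M b j)]
      · have := DS_le hbDS hb2 (j+1)
        rwa [pow_succ] at this
      · have h1 := DS_cong M b (show j+1 ≤ m from hj)
        have h2 : ((b^(j+1) : ℕ):ℤ) ∣ (Sg:ℤ) - DS M b m :=
          dvd_trans (by exact_mod_cast pow_dvd_pow b (show j+1 ≤ m from hj)) hSgN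
        have h3 := dvd_add h2 h1
        rw [pow_succ] at h3
        simpa using h3
    have hsub : (E.filter (fun ab => ab.1 ≠ ab.2 ∧ Bad (T + 16*2^ab.2*Sg - 16*2^ab.1*Sg)))
        ⊆ Ms.biUnion F1 ∪ (Finset.range m).biUnion F2 := by
      intro ab hab
      simp only [Finset.mem_filter] at hab
      obtain ⟨hD', hne, hb'⟩ := hab
      simp only [Finset.mem_union, Finset.mem_biUnion, Finset.mem_range]
      rcases hb' with ⟨k, hk, hb'⟩ | ⟨l, hl, hb'⟩
      · left
        refine ⟨k, hk, ?_⟩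
        simp only [F1, Finset.mem_filter]
        exact ⟨hD', hne, hb'⟩
      · right
        refine ⟨l, hl, ?_⟩
        simp only [F2, Finset.mem_filter]
        exact ⟨hD', hne, hb'⟩
    have hc1 : (Ms.biUnion F1).card ≤ r := by
      calc _ ≤ Ms.card * 1 := Finset.card_biUnion_le_card_mul _ _ _ hF1
        _ ≤ r := by omega
    have hc2 : ((Finset.range m).biUnion F2).card ≤ m * 1 := by
      have := Finset.card_biUnion_le_card_mul (Finset.range m) F2 1
        (fun l hl => hF2 l (Finset.mem_range.1 hl))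
      simpa using this
    have htot : (E.filter (fun ab => ab.1 ≠ ab.2 ∧
        Bad (T + 16*2^ab.2*Sg - 16*2^ab.1*Sg))).card ≤ 1 + r + m := by
      calc _ ≤ _ := Finset.card_le_card hsub
        _ ≤ (Ms.biUnion F1).card + ((Finset.range m).biUnion F2).card := Finset.card_union_le _ _
        _ ≤ 1 + r + m := by omega
    convert htot
  · -- gadget
    intro α φ hφ1 hφ
    have hprod : ∀ w : List α, (w.map (fun a => φ [a])).prod = φ w := by
      intro w
      induction w with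
      | nil => simp [hφ1]
      | cons a w ih =>
        rw [List.map_cons, List.prod_cons, ih, ← hφ]; rfl
    obtain ⟨lam, rho, nu, g1, g2, g3, g4⟩ := hg α (fun a => φ [a])
    classical
    refine ⟨lam, fun q => if N ≤ q.length then rho q else none, nu, ?_, ?_, ?_, ?_, ?_⟩
    · intro p v hp; exact (g1 p v hp).le
    · intro q r' hq
      by_contra hlt
      simp [hlt] at hq
    · intro p q v r' hp hq
      by_cases hlt : N ≤ q.length
      · simp only [hlt, if_true] at hq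
        have := g2 p q v r' hp hq
        rwa [hprod] at this
      · simp [hlt] at hq
    · intro u hu hbad v
      have hk : ∀ k ∈ Ms, ¬ k ∣ u.length := fun k hk hd => hbad (Or.inl ⟨k, hk, hd⟩)
      have hj : ∀ j < m, M ≤ u.length / b^j % b ∧ u.length / b^j % b + M + 1 ≤ b := by
        intro j hj
        by_contra hcon
        apply hbad
        right
        refine ⟨j, hj, ?_⟩
        by_contra h5
        apply hcon
        push_neg at h5
        omega
      obtain ⟨p, q, hpq, hp, hq⟩ := g3 u hk hj v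
      refine ⟨p, q, hpq, hp, ?_⟩
      have hpl := g1 p v hp
      have hlen : p.length + q.length = u.length := by rw [← hpq, List.length_append]
      have : N ≤ q.length := by omega
      simpa [this] using hq
    · intro q q' hq hq' ht hφq hmod
      have h5 := g4 q q' hq hq' ht hmod (by rw [hprod, hprod]; exact hφq)
      simp only [hq, hq', if_true]
      exact h5

end Crest.Agent.R320.UGS_154
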