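import Crest.Agent.R320.UGS_154
import Crest.Agent.R320.G1_256

namespace Crest.Agent.R320.UGSc_154

/-- 871 #13707's `UGS`, closed. -/
theorem ugs (S V : Type) [Monoid S] [Finite S] [AddCommGroup V] [Finite V] (act : V → S → V) :
    Crest.Agent.R320.UGS_154.UGS S V act :=
  Crest.Agent.R320.UGS_154.ugs_of_g1 S V act (Crest.Agent.R320.G1_256.g1 S V act)

end Crest.Agent.R320.UGSc_154
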