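import Mathlib
import Crest.Agent.R320.Noise_513

set_option autoImplicit false

namespace Crest.Agent.R320.UG330

open Classical Finset

section

variable {S V W : Type} [Monoid S] [AddCommGroup V] [AddCommGroup W]

/-- names: level, left product, left weight, right product, right weight, token -/
structure Nm (m : ℕ) (S V W : Type) where
  i : Fin m
  g : S
  wl : W
  h : S
  wr : W
  v : V

instance {m : ℕ} [Finite S] [Finite V] [Finite W] : Finite (Nm m S V W) := by
  have : Function.Injective (fun c : Nm m S V W => (c.i, c.g, c.wl, c.h, c.wr, c.v)) := by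
    rintro ⟨⟩ ⟨⟩ h
    simp only [Prod.mk.injEq] at h
    obtain ⟨h1, h2, h3, h4, h5, h6⟩ := h
    subst h1 h2 h3 h4 h5 h6
    rfl
  exact Finite.of_injective _ this

variable {m : ℕ} (act : V → S → V) (e : Fin m → S → W) (F : S → W → V)

/-- value of a name if the hole reads `z` -/
def val (c : Nm m S V W) (z : S) : V :=
  F (c.g * z * c.h) (c.wl + e c.i z + c.wr) + act c.v (c.g * z * c.h)

/-- good names -/
def Gm : Type := {c : Nm m S V W // ∀ z, val act e F c z = val act e F c 1}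

instance [Finite S] [Finite V] [Finite W] : Finite (Gm act e F) :=
  inferInstanceAs (Finite {c : Nm m S V W // ∀ z, val act e F c z = val act e F c 1})

/-- level of a name -/
def lv (c : Gm act e F) : ℕ := c.1.i
/-- colour of a name -/
def col (c : Gm act e F) : V × V := (c.1.v, val act e F c.1 1)

/-- weights with natural index -/
noncomputable def ee (l : ℕ) (s : S) : W := if h : l < m then e ⟨l, h⟩ s else 0

end

/-- segment of a word -/
def seg {α : Type*} (u : List α) (a b : ℕ) : List α := (u.drop a).take (b - a)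

section seg
variable {α : Type*}

theorem seg_left {p q : List α} {a b : ℕ} (h : b ≤ p.length) : seg (p ++ q) a b = seg p a b := by
  unfold seg
  by_cases hab : a ≤ b
  · rw [List.drop_append_of_le_length (hab.trans h), List.take_append_of_le_length]
    rw [List.length_drop]; omega
  · rw [Nat.sub_eq_zero_of_le (by omega)]
    simp

theorem seg_right {p q : List α} {a b : ℕ} :
    seg (p ++ q) (p.length + a) (p.length + b) = seg q a b := by
  unfold seg
  rw [← List.drop_drop, List.drop_left, Nat.add_sub_add_left]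

theorem split3 (u : List α) {a b : ℕ} (hab : a ≤ b) :
    u = u.take a ++ seg u a b ++ u.drop b := by
  unfold seg
  rw [List.append_assoc]
  conv_lhs => rw [← List.take_append_drop a u, ← List.take_append_drop (b - a) (u.drop a)]
  rw [List.drop_drop, Nat.add_sub_cancel' hab]

end seg

/-- the data of the clocks -/
structure Clk (m N0 : ℕ) {Γ C : Type} (lv : Γ → ℕ) (col : Γ → C) (beta : ℕ → ℕ → ℕ)
    (Bad Gd : ℕ → Prop) (nmL nmR : ℕ → Option Γ) (bL bR : ℕ → ℕ → ℕ) : Prop where
  left : ∀ t g, nmL t = some g → t < N0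
  right : ∀ t g, nmR t = some g → N0 ≤ t
  good : ∀ t t' g g', Gd (t+t') → nmL t = some g → nmR t' = some g' → g = g' ∧
    (∀ l ≤ lv g, bL t l = beta (t+t') l) ∧
    (∀ l, lv g < l → l ≤ m → bR t' l + beta (t+t') l = t+t') ∧
    beta (t+t') (lv g) ≤ t ∧ t ≤ beta (t+t') (lv g + 1)
  bad : ∀ t₁ t₁' t₂ t₂' g₁ g₁' g₂ g₂', ¬ Gd (t₁+t₁') → t₁+t₁' = t₂+t₂' →
    nmL t₁ = some g₁ → nmR t₁' = some g₁' → nmL t₂ = some g₂ → nmR t₂' = some g₂' →
    col g₁ = col g₂ ∧ col g₁' = col g₂'
  mono : ∀ n l, l < m → beta n l ≤ beta n (l+1)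
  compl : ∀ n, 2*N0 ≤ n → ¬ Bad n →
    Gd n ∧ ∀ g, ∃ t t', t+t' = n ∧ nmL t = some g ∧ nmR t' = some g

section main

variable {S V W : Type} [Monoid S] [AddCommGroup V] [AddCommGroup W]
variable {m : ℕ} (act : V → S → V) (e : Fin m → S → W) (F : S → W → V)
variable {α : Type*} (φ : List α → S) (Mp : ℕ)
variable (beta : ℕ → ℕ → ℕ) (Gd : ℕ → Prop) (nmL nmR : ℕ → Option (Gm act e F))
  (bL bR : ℕ → ℕ → ℕ)

def condL (p : List α) (c : Gm act e F) : Prop :=
  Mp ∣ p.length ∧ nmL (p.length / Mp) = some c ∧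
    c.1.g = φ (p.take (Mp * bL (p.length / Mp) c.1.i)) ∧
    c.1.wl = ∑ l ∈ range c.1.i, ee e l (φ (seg p (Mp * bL (p.length / Mp) l)
      (Mp * bL (p.length / Mp) (l + 1))))

/-- place of the boundary `l` in the right word -/
def rp (q : List α) (l : ℕ) : ℕ := q.length - (Mp * bR (q.length / Mp) l + q.length % Mp)

def condR (q : List α) (c : Gm act e F) : Prop :=
  nmR (q.length / Mp) = some c ∧
    c.1.h = φ (q.drop (rp Mp bR q (c.1.i + 1))) ∧
    c.1.wr = ∑ l ∈ Ico ((c.1.i : ℕ) + 1) m, ee e l (φ (seg q (rp Mp bR q l)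
      (rp Mp bR q (l + 1))))

noncomputable def lam (p : List α) : Option V :=
  if h : ∃ c, condL act e F φ Mp nmL bL p c then some h.choose.1.v else none

noncomputable def rho (q : List α) : Option V :=
  if h : ∃ c, condR act e F φ Mp nmR bR q c then some (val act e F h.choose.1 1) else none

noncomputable def nu (u : List α) : V :=
  if Gd (u.length / Mp) then F (φ u) (∑ l ∈ range m, ee e l
      (φ (seg u (Mp * beta (u.length / Mp) l) (Mp * beta (u.length / Mp) (l + 1)))))
  else if h : ∃ x : (ℕ × ℕ) × (Gm act e F × Gm act e F), x.1.1 + x.1.2 = u.length / Mp ∧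
      nmL x.1.1 = some x.2.1 ∧ nmR x.1.2 = some x.2.2 then
    val act e F h.choose.2.2.1 1 - act h.choose.2.1.1.v (φ u) else 0

theorem lam_some {p : List α} {v : V} (h : lam act e F φ Mp nmL bL p = some v) :
    ∃ c, condL act e F φ Mp nmL bL p c ∧ c.1.v = v := by
  unfold lam at h
  split_ifs at h with h1
  exact ⟨_, h1.choose_spec, by simpa using h⟩

theorem lam_of {p : List α} {c : Gm act e F} (h : condL act e F φ Mp nmL bL p c) :
    lam act e F φ Mp nmL bL p = some c.1.v := by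
  have hex : ∃ c, condL act e F φ Mp nmL bL p c := ⟨c, h⟩
  unfold lam
  rw [dif_pos hex]
  have h1 := hex.choose_spec.2.1
  rw [h.2.1] at h1
  rw [← Option.some.inj h1]

theorem rho_some {q : List α} {r : V} (h : rho act e F φ Mp nmR bR q = some r) :
    ∃ c, condR act e F φ Mp nmR bR q c ∧ val act e F c.1 1 = r := by
  unfold rho at h
  split_ifs at h with h1
  exact ⟨_, h1.choose_spec, by simpa using h⟩

variable {act e F φ Mp beta Gd nmL nmR bL bR}

theorem mono' {b : ℕ → ℕ} (h : ∀ l, l < m → b l ≤ b (l+1)) {l l' : ℕ} (hl : l ≤ l')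
    (hm : l' ≤ m) : b l ≤ b l' := by
  induction l', hl using Nat.le_induction with
  | base => exact le_rfl
  | succ k hk ih => exact (ih (by omega)).trans (h k (by omega))

/-- what both sides read if the total is good -/
theorem reads {p q : List α} (hMp : 0 < Mp) (hp : Mp ∣ p.length)
    {i : ℕ} (hi : i < m)
    (hmono : ∀ n l, l < m → beta n l ≤ beta n (l+1))
    (hL : ∀ l ≤ i, bL (p.length / Mp) l = beta ((p ++ q).length / Mp) l)
    (hR : ∀ l, i < l → l ≤ m → bR (q.length / Mp) l + beta ((p ++ q).length / Mp) l =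
      (p ++ q).length / Mp)
    (h1 : beta ((p ++ q).length / Mp) i ≤ p.length / Mp)
    (h2 : p.length / Mp ≤ beta ((p ++ q).length / Mp) (i + 1)) :
    p.take (Mp * bL (p.length / Mp) i) = (p ++ q).take (Mp * beta ((p ++ q).length / Mp) i) ∧
    (∀ l < i, seg p (Mp * bL (p.length / Mp) l) (Mp * bL (p.length / Mp) (l + 1)) =
      seg (p ++ q) (Mp * beta ((p ++ q).length / Mp) l)
        (Mp * beta ((p ++ q).length / Mp) (l + 1))) ∧
    q.drop (rp Mp bR q (i + 1)) = (p ++ q).drop (Mp * beta ((p ++ q).length / Mp) (i + 1)) ∧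
    (∀ l, i < l → l < m → seg q (rp Mp bR q l) (rp Mp bR q (l + 1)) =
      seg (p ++ q) (Mp * beta ((p ++ q).length / Mp) l)
        (Mp * beta ((p ++ q).length / Mp) (l + 1))) := by
  obtain ⟨t, ht⟩ := hp
  have htp : p.length / Mp = t := by rw [ht, Nat.mul_div_cancel_left _ hMp]
  have hn : (p ++ q).length / Mp = t + q.length / Mp := by
    rw [List.length_append, ht, Nat.mul_add_div hMp]
  rw [htp] at hL h1 h2 ⊢
  rw [hn] at hL hR h1 h2 ⊢
  have hm1 : ∀ l ≤ i, Mp * beta (t + q.length / Mp) l ≤ p.length := by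
    intro l hl
    rw [ht]
    exact Nat.mul_le_mul_left _ ((mono' (hmono _) hl hi.le).trans h1)
  have hm2 : ∀ l, i < l → l ≤ m → t ≤ beta (t + q.length / Mp) l := by
    intro l hl hlm
    exact h2.trans (mono' (hmono _) (show i + 1 ≤ l from hl) hlm)
  have hrp : ∀ l, i < l → l ≤ m →
      p.length + rp Mp bR q l = Mp * beta (t + q.length / Mp) l := by
    intro l hl hlm
    have h3 := hR l hl hlm
    have h4 := hm2 l hl hlm
    have h5 : Mp * bR (q.length / Mp) l + Mp * beta (t + q.length / Mp) l =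
        Mp * t + Mp * (q.length / Mp) := by rw [← mul_add, ← mul_add, h3]
    have h6 : Mp * t ≤ Mp * beta (t + q.length / Mp) l := Nat.mul_le_mul_left _ h4
    have h7 := Nat.div_add_mod q.length Mp
    unfold rp
    omega
  refine ⟨?_, ?_, ?_, ?_⟩
  · rw [hL i le_rfl, List.take_append_of_le_length (hm1 i le_rfl)]
  · intro l hl
    rw [hL l hl.le, hL (l + 1) hl, seg_left (hm1 (l + 1) hl)]
  · rw [← hrp (i + 1) (by omega) hi, ← List.drop_drop, List.drop_left]
  · intro l hl hlm
    rw [← hrp l hl hlm.le, ← hrp (l + 1) (by omega) hlm, seg_right]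

theorem sum_split {m i : ℕ} (hi : i < m) (f : ℕ → W) :
    ∑ l ∈ range m, f l = ∑ l ∈ range i, f l + f i + ∑ l ∈ Ico (i + 1) m, f l := by
  rw [← Finset.sum_range_succ, Finset.sum_range_add_sum_Ico _ (by omega)]

theorem sound (hMp : 0 < Mp) (hφ : ∀ u v, φ (u ++ v) = φ u * φ v) {N0 : ℕ} {Bad : ℕ → Prop}
    (hK : Clk m N0 (lv act e F) (col act e F) beta Bad Gd nmL nmR bL bR)
    {p q : List α} {v r : V} (h1 : lam act e F φ Mp nmL bL p = some v)
    (h2 : rho act e F φ Mp nmR bR q = some r) :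
    r = act v (φ (p ++ q)) + nu act e F φ Mp beta Gd nmL nmR (p ++ q) := by
  obtain ⟨c, ⟨hc1, hc2, hc3, hc4⟩, rfl⟩ := lam_some act e F φ Mp nmL bL h1
  obtain ⟨c', ⟨hd1, hd2, hd3⟩, rfl⟩ := rho_some act e F φ Mp nmR bR h2
  have hn : (p ++ q).length / Mp = p.length / Mp + q.length / Mp := by
    obtain ⟨t, ht⟩ := hc1
    rw [List.length_append, ht, Nat.mul_add_div hMp, Nat.mul_div_cancel_left _ hMp]
  by_cases hG : Gd ((p ++ q).length / Mp)
  · have hG' := hG
    rw [hn] at hG'
    obtain ⟨rfl, g1, g2, g3, g4⟩ := hK.good _ _ _ _ hG' hc2 hd1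
    rw [← hn] at g1 g2 g3 g4
    obtain ⟨r1, r2, r3, r4⟩ := reads (Mp := Mp) (p := p) (q := q) hMp hc1 c.1.i.2 hK.mono
      g1 g2 g3 g4
    unfold nu
    rw [if_pos hG, sum_split c.1.i.2]
    have s1 : c.1.wl = ∑ l ∈ range (c.1.i : ℕ), ee e l (φ (seg (p ++ q)
        (Mp * beta ((p ++ q).length / Mp) l) (Mp * beta ((p ++ q).length / Mp) (l + 1)))) := by
      rw [hc4]
      exact Finset.sum_congr rfl fun l hl => by rw [r2 l (Finset.mem_range.1 hl)]
    have s2 : c.1.wr = ∑ l ∈ Ico ((c.1.i : ℕ) + 1) m, ee e l (φ (seg (p ++ q)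
        (Mp * beta ((p ++ q).length / Mp) l) (Mp * beta ((p ++ q).length / Mp) (l + 1)))) := by
      rw [hd3]
      exact Finset.sum_congr rfl fun l hl => by
        rw [r4 l (by have := (Finset.mem_Ico.1 hl).1; omega) (Finset.mem_Ico.1 hl).2]
    rw [← s1, ← s2]
    set z := φ (seg (p ++ q) (Mp * beta ((p ++ q).length / Mp) c.1.i)
      (Mp * beta ((p ++ q).length / Mp) (c.1.i + 1))) with hz
    have s3 : φ (p ++ q) = c.1.g * z * c.1.h := by
      rw [hc3, hd2, r1, r3, hz, ← hφ, ← hφ, ← split3 (p ++ q)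
        (Nat.mul_le_mul_left _ (hK.mono _ _ c.1.i.2))]
    have s4 : ee e (c.1.i : ℕ) z = e c.1.i z := by
      unfold ee
      rw [dif_pos c.1.i.2]
    rw [s3, s4]
    have := c.2 z
    unfold val at this ⊢
    rw [← this]
    abel
  · have hex : ∃ x : (ℕ × ℕ) × (Gm act e F × Gm act e F), x.1.1 + x.1.2 = (p ++ q).length / Mp ∧
      nmL x.1.1 = some x.2.1 ∧ nmR x.1.2 = some x.2.2 :=
      ⟨((p.length / Mp, q.length / Mp), (c, c')), hn.symm, hc2, hd1⟩
    unfold nu
    rw [if_neg hG, dif_pos hex]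
    obtain ⟨k1, k2, k3⟩ := hex.choose_spec
    have hG' := hG
    rw [hn] at hG'
    have h := hK.bad _ _ _ _ _ _ _ _ hG' (hn.symm.trans k1.symm) hc2 hd1 k2 k3
    have e1 := congrArg Prod.fst h.1
    have e2 := congrArg Prod.snd h.2
    simp only [col] at e1 e2
    rw [← e1, ← e2]
    abel

theorem complete (hMp : 0 < Mp) (hφ : ∀ u v, φ (u ++ v) = φ u * φ v) {N0 : ℕ} {Bad : ℕ → Prop}
    (hK : Clk m N0 (lv act e F) (col act e F) beta Bad Gd nmL nmR bL bR)
    (hF : ∀ (s : S) (w : W) (v : V), ∃ i : Fin m, ∀ g x h : S, g * x * h = s →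
        ∀ z : S, F (g * z * h) (w - e i x + e i z) + act v (g * z * h) = F s w + act v s)
    (u : List α) (hu : 2 * (Mp * N0) ≤ u.length) (hB : ¬ Bad (u.length / Mp)) (v : V) :
    ∃ p q, p ++ q = u ∧ lam act e F φ Mp nmL bL p = some v ∧
      (rho act e F φ Mp nmR bR q).isSome := by
  have hn2 : 2 * N0 ≤ u.length / Mp := by
    rw [Nat.le_div_iff_mul_le hMp]
    calc 2 * N0 * Mp = 2 * (Mp * N0) := by ring
      _ ≤ u.length := hu
  obtain ⟨hG, hall⟩ := hK.compl _ hn2 hB
  set n := u.length / Mp with hndef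
  set Y : ℕ → S := fun l => φ (seg u (Mp * beta n l) (Mp * beta n (l + 1))) with hY
  obtain ⟨i, hi⟩ := hF (φ u) (∑ l ∈ range m, ee e l (Y l)) v
  have hsp : φ (u.take (Mp * beta n i)) * Y i * φ (u.drop (Mp * beta n (i + 1))) = φ u := by
    rw [hY, ← hφ, ← hφ, ← split3 u (Nat.mul_le_mul_left _ (hK.mono _ _ i.2))]
  have hw : ∑ l ∈ range m, ee e l (Y l) = ∑ l ∈ range (i : ℕ), ee e l (Y l) + e i (Y i) +
      ∑ l ∈ Ico ((i : ℕ) + 1) m, ee e l (Y l) := by
    rw [sum_split i.2]
    congr 2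
    unfold ee
    rw [dif_pos i.2]
  have hgood : ∀ z, val act e F ⟨i, φ (u.take (Mp * beta n i)),
      ∑ l ∈ range (i : ℕ), ee e l (Y l), φ (u.drop (Mp * beta n (i + 1))),
      ∑ l ∈ Ico ((i : ℕ) + 1) m, ee e l (Y l), v⟩ z =
      F (φ u) (∑ l ∈ range m, ee e l (Y l)) + act v (φ u) := by
    intro z
    rw [← hi _ _ _ hsp z, hw]
    unfold val
    simp only
    congr 2
    abel
  let c : Gm act e F := ⟨_, fun z => (hgood z).trans (hgood 1).symm⟩
  obtain ⟨t, t', htt, hl, hr⟩ := hall c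
  have htu : Mp * t ≤ u.length := by
    calc Mp * t ≤ Mp * n := Nat.mul_le_mul_left _ (by omega)
      _ ≤ u.length := Nat.mul_div_le _ _
  have hpl : (u.take (Mp * t)).length = Mp * t := by
    rw [List.length_take]; omega
  have hpd : (u.take (Mp * t)).length / Mp = t := by
    rw [hpl, Nat.mul_div_cancel_left _ hMp]
  have hql : (u.drop (Mp * t)).length / Mp = t' := by
    rw [List.length_drop]
    have h7 := Nat.div_add_mod u.length Mp
    have h8 : u.length - Mp * t = Mp * t' + u.length % Mp := by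
      have : Mp * n = Mp * t + Mp * t' := by rw [← htt, mul_add]
      rw [← hndef] at h7
      omega
    rw [h8, Nat.mul_add_div hMp, Nat.div_eq_of_lt (Nat.mod_lt _ hMp), add_zero]
  have huu : u.take (Mp * t) ++ u.drop (Mp * t) = u := List.take_append_drop _ _
  rw [← htt] at hG
  obtain ⟨-, g1, g2, g3, g4⟩ := hK.good _ _ _ _ hG hl hr
  rw [htt] at g1 g2 g3 g4
  have hrd := reads (m := m) (Mp := Mp) (p := u.take (Mp * t)) (q := u.drop (Mp * t))
    (beta := beta) (bL := bL) (bR := bR) hMp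
    (by rw [hpl]; exact dvd_mul_right _ _) (i := (i : ℕ)) i.2 hK.mono
    (by rw [hpd, huu]; exact g1) (by rw [hql, huu]; exact g2)
    (by rw [hpd, huu]; exact g3) (by rw [hpd, huu]; exact g4)
  rw [huu, ← hndef] at hrd
  obtain ⟨r1, r2, r3, r4⟩ := hrd
  refine ⟨u.take (Mp * t), u.drop (Mp * t), huu, ?_, ?_⟩
  · have : condL act e F φ Mp nmL bL (u.take (Mp * t)) c := by
      refine ⟨by rw [hpl]; exact dvd_mul_right _ _, by rw [hpd]; exact hl, ?_, ?_⟩
      · exact (congrArg φ r1).symm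
      · exact Finset.sum_congr rfl fun l hl =>
          congrArg (fun y => ee e l (φ y)) (r2 l (Finset.mem_range.1 hl)).symm
    exact lam_of act e F φ Mp nmL bL this
  · have hc : condR act e F φ Mp nmR bR (u.drop (Mp * t)) c := by
      refine ⟨by rw [hql]; exact hr, ?_, ?_⟩
      · exact (congrArg φ r3).symm
      · exact Finset.sum_congr rfl fun l hl =>
          congrArg (fun y => ee e l (φ y)) (r4 l (by have := (Finset.mem_Ico.1 hl).1; omega)
            (Finset.mem_Ico.1 hl).2).symm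
    unfold rho
    rw [dif_pos ⟨c, hc⟩]
    rfl

end main

end Crest.Agent.R320.UG330
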