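import Mathlib
import Crest.Agent.R320.Noise_513

/-!
Row 320, leaf U3 of helper638 (#13273): the U-gadget on words from a clock package
(`Clk`, leaf U2) and the explicit noise of helper513.
-/

set_option autoImplicit false

namespace Crest.Agent.R320.UG_419

/-- Abstract clock package (conclusion of leaf U2 for one parameter choice). -/
structure Clk (Γ C : Type) (m : ℕ) (lv : Γ → ℕ) (col : Γ → C) where
  X : ℕ
  nmL : ℕ → Option Γ
  nmR : ℕ → Option Γ
  bL : ℕ → ℕ → ℕ
  bR : ℕ → ℕ → ℕ
  beta : ℕ → ℕ → ℕ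
  Gd : ℕ → Prop
  Bd : ℕ → Prop
  mono : ∀ n l, l < m → beta n l ≤ beta n (l + 1)
  h1 : ∀ t g, nmL t = some g → t < X
  h2 : ∀ t g, nmR t = some g → X ≤ t
  h3 : ∀ t t' g g', Gd (t + t') → nmL t = some g → nmR t' = some g' → g = g' ∧
    (∀ l, l ≤ lv g → bL t l = beta (t + t') l) ∧
    (∀ l, lv g < l → l ≤ m → bR t' l + beta (t + t') l = t + t') ∧
    beta (t + t') (lv g) ≤ t ∧ t ≤ beta (t + t') (lv g + 1)
  h4 : ∀ t₁ t₁' t₂ t₂' g₁ g₁' g₂ g₂', ¬ Gd (t₁ + t₁') → t₁ + t₁' = t₂ + t₂' →
    nmL t₁ = some g₁ → nmR t₁' = some g₁' → nmL t₂ = some g₂ → nmR t₂' = some g₂' →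
    col g₁ = col g₂ ∧ col g₁' = col g₂'
  h5 : ∀ n, 2 * X ≤ n → ¬ Bd n → Gd n ∧ ∀ g, ∃ t t', t + t' = n ∧ nmL t = some g ∧ nmR t' = some g

section Gadget

variable {S V W : Type} [Monoid S] [AddCommGroup V] [AddCommGroup W] {m : ℕ}
  (act : V → S → V) (e : Fin m → S → W) (F : S → W → V)

/-- context of the gadget -/
structure Ctx0 (S V W : Type) (m : ℕ) where
  i : Fin m
  g : S
  wl : W
  h : S
  wr : W
  v : V

def Good (c : Ctx0 S V W m) (b : V) : Prop :=
  ∀ z : S, F (c.g * z * c.h) (c.wl + e c.i z + c.wr) + act c.v (c.g * z * c.h) = b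

/-- names: good contexts with their value -/
def Ctx : Type := {c : Ctx0 S V W m × V // Good act e F c.1 c.2}

instance [Finite S] [Finite V] [Finite W] : Finite (Ctx0 S V W m) := by
  refine Finite.of_injective (fun c : Ctx0 S V W m => (c.i, c.g, c.wl, c.h, c.wr, c.v)) ?_
  intro a b hab
  cases a; cases b
  simp only [Prod.mk.injEq] at hab
  obtain ⟨rfl, rfl, rfl, rfl, rfl, rfl⟩ := hab
  rfl

instance [Finite S] [Finite V] [Finite W] : Finite (Ctx act e F) := by
  unfold Ctx; infer_instance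

def lv (c : Ctx act e F) : ℕ := c.1.1.i
def col (c : Ctx act e F) : V × V := (c.1.1.v, c.1.2)

end Gadget

section Words

variable {α : Type}

def seg (u : List α) (a k : ℕ) : List α := (u.drop a).take k

theorem seg_left {p q : List α} {a k : ℕ} (h : a + k ≤ p.length) : seg (p ++ q) a k = seg p a k := by
  unfold seg
  rw [List.drop_append_of_le_length (by omega), List.take_append_of_le_length (by simp; omega)]

theorem seg_right {p q : List α} {a k : ℕ} (h : p.length ≤ a) :
    seg (p ++ q) a k = seg q (a - p.length) k := by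
  unfold seg
  rw [List.drop_append, List.drop_eq_nil_of_le h, List.nil_append]

end Words

section Main

variable {S V W : Type} [Monoid S] [AddCommGroup V] [AddCommGroup W] {m : ℕ}
  {act : V → S → V} {e : Fin m → S → W} {F : S → W → V}
  (K : Clk (Ctx act e F) (V × V) m (lv act e F) (col act e F)) (Mp : ℕ)
  {α : Type} (phi : List α → S)

/-- left weight: levels below `i`, boundaries `β` (in units of `Mp`) -/
noncomputable def wL (β : ℕ → ℕ) (u : List α) (i : Fin m) : W :=
  ∑ l : Fin m, if l < i then e l (phi (seg u (Mp * β l) (Mp * β (l + 1) - Mp * β l))) else 0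

/-- right weight: levels above `i`, suffix lengths `Λ` -/
noncomputable def wR (Λ : ℕ → ℕ) (q : List α) (i : Fin m) : W :=
  ∑ l : Fin m, if i < l then e l (phi (seg q (q.length - Λ l) (Λ l - Λ (l + 1)))) else 0

noncomputable def wT (β : ℕ → ℕ) (u : List α) : W :=
  ∑ l : Fin m, e l (phi (seg u (Mp * β l) (Mp * β (l + 1) - Mp * β l)))

def LLeg (p : List α) (c : Ctx act e F) : Prop :=
  Mp ∣ p.length ∧ K.nmL (p.length / Mp) = some c ∧
  phi (p.take (Mp * K.bL (p.length / Mp) c.1.1.i)) = c.1.1.g ∧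
  wL (e := e) Mp phi (K.bL (p.length / Mp)) p c.1.1.i = c.1.1.wl

def Lam (q : List α) (l : ℕ) : ℕ := Mp * K.bR (q.length / Mp) l + q.length % Mp

def RLeg (q : List α) (c : Ctx act e F) : Prop :=
  K.nmR (q.length / Mp) = some c ∧
  phi (q.drop (q.length - Lam K Mp q (c.1.1.i + 1))) = c.1.1.h ∧
  wR (e := e) phi (Lam K Mp q) q c.1.1.i = c.1.1.wr

theorem LLeg.unique {p : List α} {c c' : Ctx act e F} (h : LLeg K Mp phi p c)
    (h' : LLeg K Mp phi p c') : c = c' := by
  have := h.2.1.symm.trans h'.2.1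
  exact Option.some.inj this

theorem RLeg.unique {q : List α} {c c' : Ctx act e F} (h : RLeg K Mp phi q c)
    (h' : RLeg K Mp phi q c') : c = c' := by
  have := h.1.symm.trans h'.1
  exact Option.some.inj this

open Classical in
noncomputable def lam (p : List α) : Option V :=
  if h : ∃ c, LLeg K Mp phi p c then some (h.choose).1.1.v else none

open Classical in
noncomputable def rho (q : List α) : Option V :=
  if h : ∃ c, RLeg K Mp phi q c then some (h.choose).1.2 else none

open Classical in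
noncomputable def nu (u : List α) : V :=
  if K.Gd (u.length / Mp) then F (phi u) (wT (e := e) Mp phi (K.beta (u.length / Mp)) u)
  else if h : ∃ x : List α × List α × Ctx act e F × Ctx act e F, x.1 ++ x.2.1 = u ∧
      LLeg K Mp phi x.1 x.2.2.1 ∧ RLeg K Mp phi x.2.1 x.2.2.2 then
    h.choose.2.2.2.1.2 - act h.choose.2.2.1.1.1.v (phi u) else 0

theorem lam_some {p : List α} {v : V} (h : lam K Mp phi p = some v) :
    ∃ c, LLeg K Mp phi p c ∧ c.1.1.v = v := by
  unfold lam at h
  split at h
  · rename_i hex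
    exact ⟨hex.choose, hex.choose_spec, Option.some.inj h⟩
  · cases h

theorem rho_some {q : List α} {v : V} (h : rho K Mp phi q = some v) :
    ∃ c, RLeg K Mp phi q c ∧ c.1.2 = v := by
  unfold rho at h
  split at h
  · rename_i hex
    exact ⟨hex.choose, hex.choose_spec, Option.some.inj h⟩
  · cases h

theorem lam_of {p : List α} {c : Ctx act e F} (h : LLeg K Mp phi p c) :
    lam K Mp phi p = some c.1.1.v := by
  unfold lam
  have hex : ∃ c, LLeg K Mp phi p c := ⟨c, h⟩
  rw [dif_pos hex, LLeg.unique K Mp phi hex.choose_spec h]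

theorem rho_of {q : List α} {c : Ctx act e F} (h : RLeg K Mp phi q c) :
    rho K Mp phi q = some c.1.2 := by
  unfold rho
  have hex : ∃ c, RLeg K Mp phi q c := ⟨c, h⟩
  rw [dif_pos hex, RLeg.unique K Mp phi hex.choose_spec h]

theorem mono_le {n a b : ℕ} (hab : a ≤ b) (hb : b ≤ m) : K.beta n a ≤ K.beta n b := by
  induction b with
  | zero => have : a = 0 := by omega
            subst this; exact le_rfl
  | succ b ih =>
    rcases Nat.lt_or_ge a (b + 1) with h | h
    · exact (ih (by omega) (by omega)).trans (K.mono n b (by omega))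
    · have : a = b + 1 := by omega
      subst this; exact le_rfl

/-- the data of a level in the whole word -/
theorem total_split (u : List α) (β : ℕ → ℕ) (i : Fin m)
    (gR : Fin m → W) (hgR : ∀ l, i < l → gR l =
      e l (phi (seg u (Mp * β l) (Mp * β (l + 1) - Mp * β l)))) :
    wT (e := e) Mp phi β u = wL (e := e) Mp phi β u i +
      e i (phi (seg u (Mp * β i) (Mp * β (i + 1) - Mp * β i))) +
      ∑ l : Fin m, (if i < l then gR l else 0) := by
  unfold wT wL
  have h3 : e i (phi (seg u (Mp * β i) (Mp * β (i + 1) - Mp * β i))) =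
      ∑ l : Fin m, (if l = i then
        e l (phi (seg u (Mp * β l) (Mp * β (l + 1) - Mp * β l))) else 0) := by
    rw [Finset.sum_ite_eq' Finset.univ i]
    simp
  rw [h3, ← Finset.sum_add_distrib, ← Finset.sum_add_distrib]
  refine Finset.sum_congr rfl fun l _ => ?_
  rcases lt_trichotomy l i with h | h | h
  · simp [h, h.ne, not_lt.2 h.le]
  · subst h; simp
  · simp [h, h.ne', not_lt.2 h.le, hgR l h]

end Main

section Main2

variable {S V W : Type} [Monoid S] [AddCommGroup V] [AddCommGroup W] {m : ℕ}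
  {act : V → S → V} {e : Fin m → S → W} {F : S → W → V}
  (K : Clk (Ctx act e F) (V × V) m (lv act e F) (col act e F)) {Mp : ℕ} (hMp : 0 < Mp)
  {α : Type} (phi : List α → S)

include hMp

theorem len_left {p q : List α} {t t' : ℕ} (hp : p.length = Mp * t) (hq : q.length / Mp = t') :
    (p ++ q).length / Mp = t + t' ∧ p.length / Mp = t ∧
      q.length = Mp * t' + q.length % Mp := by
  have h1 : q.length = Mp * t' + q.length % Mp := by rw [← hq]; exact (Nat.div_add_mod _ _).symm
  refine ⟨?_, ?_, h1⟩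
  · rw [List.length_append, hp, Nat.mul_add_div hMp, hq]
  · rw [hp]; exact Nat.mul_div_cancel_left _ hMp

omit hMp [Monoid S] [AddCommGroup V] [AddCommGroup W] in
theorem take_left {p q : List α} {a : ℕ} (h : a ≤ p.length) : p.take a = (p ++ q).take a := by
  rw [List.take_append_of_le_length h]

omit hMp [Monoid S] [AddCommGroup V] in
theorem wL_left {p q : List α} {β β' : ℕ → ℕ} {t : ℕ} (hp : p.length = Mp * t) (i : Fin m)
    (hβ : ∀ l, l ≤ (i : ℕ) → β l = β' l) (hmono : ∀ l, l < (i : ℕ) → β' l ≤ β' (l + 1))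
    (hm : ∀ l, l ≤ (i : ℕ) → β' l ≤ t) :
    wL (e := e) Mp phi β p i = wL (e := e) Mp phi β' (p ++ q) i := by
  unfold wL
  refine Finset.sum_congr rfl fun l _ => ?_
  by_cases h : l < i
  · have hl : (l : ℕ) < i := h
    have h0 := hβ l hl.le
    have h1 := hβ (l + 1) (by omega)
    have h2 := hm (l + 1) (by omega)
    have h3 := hmono l hl
    simp only [h, if_true, h0, h1]
    rw [seg_left]
    rw [hp]
    have h4 : Mp * β' (l + 1) ≤ Mp * t := Nat.mul_le_mul_left _ h2
    have h5 : Mp * β' l ≤ Mp * β' (l + 1) := Nat.mul_le_mul_left _ h3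
    omega
  · simp [h]

theorem right_pos {p q : List α} {t t' b bR : ℕ} (hp : p.length = Mp * t)
    (hq : q.length / Mp = t') (hb : bR + b = t + t') (ht : t ≤ b) :
    q.length - (Mp * bR + q.length % Mp) = Mp * b - p.length := by
  obtain ⟨_, _, h1⟩ := len_left hMp hp hq
  have h2 : bR ≤ t' := by omega
  obtain ⟨d, rfl⟩ := Nat.exists_eq_add_of_le h2
  have h3 : b = t + d := by omega
  subst h3
  rw [hp, h1]
  have e1 : Mp * (bR + d) = Mp * bR + Mp * d := Nat.mul_add _ _ _
  have e2 : Mp * (t + d) = Mp * t + Mp * d := Nat.mul_add _ _ _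
  have e3 : (Mp * (bR + d) + q.length % Mp) % Mp = q.length % Mp := by
    rw [Nat.mul_add_mod]; exact Nat.mod_mod _ _
  rw [e3]
  omega

/-- both sides of a junction at a `Gd` total see the data of the whole word -/
theorem data_right {p q : List α} {t t' n : ℕ} (hp : p.length = Mp * t)
    (hq : q.length / Mp = t') (hn : n = t + t') (i : Fin m)
    (hR : ∀ l, (i : ℕ) < l → l ≤ m → K.bR t' l + K.beta n l = n)
    (ht : t ≤ K.beta n (i + 1)) :
    q.drop (q.length - Lam K Mp q (i + 1)) = (p ++ q).drop (Mp * K.beta n (i + 1)) ∧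
    ∀ l : Fin m, i < l → e l (phi (seg q (q.length - Lam K Mp q l)
        (Lam K Mp q l - Lam K Mp q (l + 1)))) =
      e l (phi (seg (p ++ q) (Mp * K.beta n l) (Mp * K.beta n (l + 1) - Mp * K.beta n l))) := by
  have hi := i.2
  have key : ∀ l, (i : ℕ) < l → l ≤ m → t ≤ K.beta n l ∧
      q.length - Lam K Mp q l = Mp * K.beta n l - p.length ∧ p.length ≤ Mp * K.beta n l := by
    intro l h1 h2
    have h3 : K.beta n (i + 1) ≤ K.beta n l := mono_le K (by omega) h2
    have h4 : t ≤ K.beta n l := ht.trans h3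
    refine ⟨h4, ?_, ?_⟩
    · have := right_pos hMp (p := p) (q := q) hp hq (hn ▸ hR l h1 h2) (by rw [← hn]; exact h4)
      unfold Lam
      rw [hq]
      subst hn
      exact this
    · rw [hp]; exact Nat.mul_le_mul_left _ h4
  refine ⟨?_, ?_⟩
  · obtain ⟨_, h2, h3⟩ := key (i + 1) (by omega) (by omega)
    rw [h2, List.drop_append, List.drop_eq_nil_of_le h3, List.nil_append]
  · intro l hl
    have hl' : (i : ℕ) < l := hl
    have hl2 := l.2
    obtain ⟨_, h2, h3⟩ := key l hl' (by omega)
    have hLL : Lam K Mp q l - Lam K Mp q (l + 1) = Mp * K.beta n (l + 1) - Mp * K.beta n l := by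
      have a1 := hR l hl' (by omega)
      have a2 := hR (l + 1) (by omega) (by omega)
      have a3 := K.mono n l hl2
      unfold Lam
      rw [hq]
      have e1 : Mp * K.bR t' l + Mp * K.beta n l = Mp * n := by rw [← Nat.mul_add, a1]
      have e2 : Mp * K.bR t' (l + 1) + Mp * K.beta n (l + 1) = Mp * n := by
        rw [← Nat.mul_add, a2]
      omega
    rw [seg_right h3, h2, hLL]

theorem sound (hphi : ∀ u v, phi (u ++ v) = phi u * phi v) {p q : List α} {v r : V}
    (h1 : lam K Mp phi p = some v) (h2 : rho K Mp phi q = some r) :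
    r = act v (phi (p ++ q)) + nu K Mp phi (p ++ q) := by
  obtain ⟨c, hc, rfl⟩ := lam_some K Mp phi h1
  obtain ⟨c', hc', rfl⟩ := rho_some K Mp phi h2
  obtain ⟨t, hp⟩ := hc.1
  obtain ⟨hn, hpt, hqt⟩ := len_left hMp hp (q := q) rfl
  by_cases hG : K.Gd ((p ++ q).length / Mp)
  · have hG' : K.Gd (t + q.length / Mp) := by rw [← hn]; exact hG
    have hnl : K.nmL t = some c := by rw [← hpt]; exact hc.2.1
    obtain ⟨rfl, hL, hR, hb1, hb2⟩ := K.h3 t _ c c' hG' hnl hc'.1
    obtain ⟨d1, d2⟩ := data_right K hMp (e := e) phi hp rfl rfl c.1.1.i hR hb2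
    have hg := hc.2.2.1
    have hwl := hc.2.2.2
    rw [hpt] at hg hwl
    have hb1' : K.bL t c.1.1.i = K.beta (t + q.length / Mp) c.1.1.i := hL _ le_rfl
    rw [hb1', take_left (q := q) (by rw [hp]; exact Nat.mul_le_mul_left _ hb1)] at hg
    have hm2 : ∀ l, l ≤ (c.1.1.i : ℕ) → K.beta (t + q.length / Mp) l ≤ t := fun l hl =>
      (mono_le K hl c.1.1.i.2.le).trans hb1
    rw [wL_left (q := q) (β' := K.beta (t + q.length / Mp)) phi hp c.1.1.i hL
      (fun l hl => K.mono _ l (by have := c.1.1.i.2; omega)) hm2] at hwl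
    have hh := hc'.2.1
    rw [d1] at hh
    have hwr := hc'.2.2
    unfold nu
    rw [if_pos hG, hn]
    have hT := total_split (e := e) Mp phi (p ++ q) (K.beta (t + q.length / Mp)) c.1.1.i
      (fun l => e l (phi (seg q (q.length - Lam K Mp q l)
        (Lam K Mp q l - Lam K Mp q (l + 1))))) d2
    have hwr' : (∑ l : Fin m, if c.1.1.i < l then e l (phi (seg q (q.length - Lam K Mp q l)
        (Lam K Mp q l - Lam K Mp q (l + 1)))) else 0) = c.1.1.wr := hwr
    rw [hwr', hwl] at hT
    rw [hT]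
    set n := t + q.length / Mp with hndef
    set z := phi (seg (p ++ q) (Mp * K.beta n c.1.1.i)
      (Mp * K.beta n (c.1.1.i + 1) - Mp * K.beta n c.1.1.i)) with hz
    have hmn : Mp * K.beta n c.1.1.i ≤ Mp * K.beta n (c.1.1.i + 1) :=
      Nat.mul_le_mul_left _ (K.mono n _ c.1.1.i.2)
    have htot : phi (p ++ q) = c.1.1.g * z * c.1.1.h := by
      rw [← hg, ← hh, hz, ← hphi, ← hphi]
      congr 1
      unfold seg
      rw [List.append_assoc]
      have e1 : ((p ++ q).drop (Mp * K.beta n c.1.1.i)).take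
          (Mp * K.beta n (c.1.1.i + 1) - Mp * K.beta n c.1.1.i) ++
          (p ++ q).drop (Mp * K.beta n (c.1.1.i + 1)) =
          (p ++ q).drop (Mp * K.beta n c.1.1.i) := by
        conv_rhs => rw [← List.take_append_drop
          (Mp * K.beta n (c.1.1.i + 1) - Mp * K.beta n c.1.1.i)
          ((p ++ q).drop (Mp * K.beta n c.1.1.i))]
        rw [List.drop_drop]
        congr 2
        omega
      rw [e1, List.take_append_drop]
    have := c.2 z
    rw [← htot] at this
    rw [add_comm, this]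
  · have hG' : ¬ K.Gd (t + q.length / Mp) := by rw [← hn]; exact hG
    have hnl : K.nmL t = some c := by rw [← hpt]; exact hc.2.1
    have hex : ∃ x : List α × List α × Ctx act e F × Ctx act e F, x.1 ++ x.2.1 = p ++ q ∧
      LLeg K Mp phi x.1 x.2.2.1 ∧ RLeg K Mp phi x.2.1 x.2.2.2 := ⟨(p, q, c, c'), rfl, hc, hc'⟩
    unfold nu
    rw [if_neg hG, dif_pos hex]
    obtain ⟨hx1, hx2, hx3⟩ := hex.choose_spec
    set x := hex.choose with hx
    obtain ⟨t₂, hp₂⟩ := hx2.1
    obtain ⟨hn₂, hpt₂, hqt₂⟩ := len_left hMp hp₂ (q := x.2.1) rfl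
    have hsum : t + q.length / Mp = t₂ + x.2.1.length / Mp := by
      rw [← hn, ← hn₂, hx1]
    have hnl₂ : K.nmL t₂ = some x.2.2.1 := by rw [← hpt₂]; exact hx2.2.1
    obtain ⟨k1, k2⟩ := K.h4 t _ t₂ _ c c' x.2.2.1 x.2.2.2 hG' hsum hnl hc'.1 hnl₂ hx3.1
    have k1' : c.1.1.v = x.2.2.1.1.1.v := (Prod.ext_iff.1 k1).1
    have k2' : c'.1.2 = x.2.2.2.1.2 := (Prod.ext_iff.1 k2).2
    rw [← k1', ← k2']
    abel

theorem complete [Finite S] (hphi : ∀ u v, phi (u ++ v) = phi u * phi v)
    (hF : ∀ (s : S) (w : W) (v : V), ∃ i : Fin m, ∀ g x h : S, g * x * h = s →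
        ∀ z : S, F (g * z * h) (w - e i x + e i z) + act v (g * z * h) = F s w + act v s)
    (u : List α) (hu : 2 * K.X ≤ u.length / Mp) (hB : ¬ K.Bd (u.length / Mp)) (v : V) :
    ∃ p q, p ++ q = u ∧ lam K Mp phi p = some v ∧ (rho K Mp phi q).isSome := by
  obtain ⟨hG, hall⟩ := K.h5 _ hu hB
  set n := u.length / Mp with hn
  obtain ⟨i, hi⟩ := hF (phi u) (wT (e := e) Mp phi (K.beta n) u) v
  set g := phi (u.take (Mp * K.beta n i)) with hg
  set z0 := phi (seg u (Mp * K.beta n i) (Mp * K.beta n (i + 1) - Mp * K.beta n i)) with hz0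
  set h := phi (u.drop (Mp * K.beta n (i + 1))) with hh
  set wr : W := ∑ l : Fin m, (if i < l then
    e l (phi (seg u (Mp * K.beta n l) (Mp * K.beta n (l + 1) - Mp * K.beta n l))) else 0) with hwr
  set wl : W := wL (e := e) Mp phi (K.beta n) u i with hwl
  have hT := total_split (e := e) Mp phi u (K.beta n) i
      (fun l => e l (phi (seg u (Mp * K.beta n l) (Mp * K.beta n (l + 1) - Mp * K.beta n l))))
      (fun l _ => rfl)
  have hmn : Mp * K.beta n i ≤ Mp * K.beta n (i + 1) :=
    Nat.mul_le_mul_left _ (K.mono n _ i.2)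
  have htot : g * z0 * h = phi u := by
    rw [hg, hz0, hh, ← hphi, ← hphi]
    congr 1
    unfold seg
    rw [List.append_assoc]
    have e1 : (u.drop (Mp * K.beta n i)).take
        (Mp * K.beta n (i + 1) - Mp * K.beta n i) ++
        u.drop (Mp * K.beta n (i + 1)) =
        u.drop (Mp * K.beta n i) := by
      conv_rhs => rw [← List.take_append_drop
        (Mp * K.beta n (i + 1) - Mp * K.beta n i)
        (u.drop (Mp * K.beta n i))]
      rw [List.drop_drop]
      congr 2
      omega
    rw [e1, List.take_append_drop]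
  have hgood : Good act e F (⟨i, g, wl, h, wr, v⟩ : Ctx0 S V W m)
      (F (phi u) (wT (e := e) Mp phi (K.beta n) u) + act v (phi u)) := by
    intro z
    have h5 := hi g z0 h htot z
    have h6 : wT (e := e) Mp phi (K.beta n) u - e i z0 + e i z = wl + e i z + wr := by
      rw [hT]
      simp only [hwl, hwr, hz0]
      abel
    rw [h6] at h5
    exact h5
  let c : Ctx act e F := ⟨(⟨i, g, wl, h, wr, v⟩, _), hgood⟩
  obtain ⟨t, t', htt, hL, hR⟩ := hall c
  have htn : Mp * t ≤ u.length := by
    have := Nat.div_mul_le_self u.length Mp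
    calc Mp * t ≤ Mp * n := Nat.mul_le_mul_left _ (by omega)
      _ = u.length / Mp * Mp := by rw [hn, Nat.mul_comm]
      _ ≤ u.length := this
  have hp : (u.take (Mp * t)).length = Mp * t := by rw [List.length_take]; omega
  have hq : (u.drop (Mp * t)).length / Mp = t' := by
    rw [List.length_drop]
    have := Nat.sub_mul_div u.length Mp t
    rw [this]
    omega
  have hu' : u.take (Mp * t) ++ u.drop (Mp * t) = u := List.take_append_drop _ _
  have hG' : K.Gd (t + t') := by rw [htt]; exact hG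
  obtain ⟨_, hbL, hbR, hb1, hb2⟩ := K.h3 t t' c c hG' hL hR
  rw [htt] at hbL hbR hb1 hb2
  have hbL' : K.bL t i = K.beta n i := hbL _ le_rfl
  have hLL : LLeg K Mp phi (u.take (Mp * t)) c := by
    refine ⟨⟨t, hp⟩, ?_, ?_, ?_⟩
    · rw [hp, Nat.mul_div_cancel_left _ hMp]; exact hL
    · rw [hp, Nat.mul_div_cancel_left _ hMp]
      change phi ((u.take (Mp * t)).take (Mp * K.bL t i)) = g
      rw [hbL', take_left (q := u.drop (Mp * t))
        (by rw [hp]; exact Nat.mul_le_mul_left _ hb1), hu']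
    · rw [hp, Nat.mul_div_cancel_left _ hMp]
      change wL (e := e) Mp phi (K.bL t) (u.take (Mp * t)) i = wl
      rw [wL_left (q := u.drop (Mp * t)) (β' := K.beta n) phi hp i hbL
        (fun l hl => K.mono _ l (by have := i.2; omega))
        (fun l hl => (mono_le K hl i.2.le).trans hb1), hu']
  have hRR : RLeg K Mp phi (u.drop (Mp * t)) c := by
    obtain ⟨d1, d2⟩ := data_right K hMp (e := e) phi hp hq htt.symm i hbR hb2
    rw [hu'] at d1 d2
    refine ⟨?_, ?_, ?_⟩
    · rw [hq]; exact hR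
    · change phi ((u.drop (Mp * t)).drop _) = h
      rw [d1]
    · change wR (e := e) phi _ (u.drop (Mp * t)) i = wr
      unfold wR
      rw [hwr]
      refine Finset.sum_congr rfl fun l _ => ?_
      by_cases hl : i < l
      · simp only [hl, if_true]
        exact d2 l hl
      · simp [hl]
  refine ⟨u.take (Mp * t), u.drop (Mp * t), hu', ?_, ?_⟩
  · rw [lam_of K Mp phi hLL]
  · rw [rho_of K Mp phi hRR]; rfl

end Main2

end Crest.Agent.R320.UG_419
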