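import Mathlib
import Crest.Agent.R320.Noise_513

/-!
# Row 320: leaf U3 of helper638 (the U-gadget on all words) from the clocks
-/

set_option autoImplicit false

namespace Crest.Agent.R320.UG_456

/-- clocks, abstract form -/
structure Clk {Γ C : Type} (m : ℕ) (lv : Γ → ℕ) (col : Γ → C) (Q0 : ℕ) (β : ℕ → ℕ → ℕ)
    (Bd : ℕ → Prop) (nmL nmR : ℕ → Option Γ) (bL bR : ℕ → ℕ → ℕ) (Gd : ℕ → Prop) : Prop where
  a : ∀ t g, nmL t = some g → t ≤ Q0
  b : ∀ t g, nmR t = some g → Q0 ≤ t
  c : ∀ t t' g g', Gd (t+t') → nmL t = some g → nmR t' = some g' →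
    g = g' ∧ (∀ l ≤ lv g, bL t l = β (t+t') l) ∧
      (∀ l, lv g < l → l ≤ m → bR t' l + β (t+t') l = t+t') ∧
      β (t+t') (lv g) ≤ t ∧ t ≤ β (t+t') (lv g + 1)
  d : ∀ t₁ t₁' t₂ t₂' g₁ g₁' g₂ g₂', ¬ Gd (t₁+t₁') → t₁+t₁' = t₂+t₂' → nmL t₁ = some g₁ →
    nmR t₁' = some g₁' → nmL t₂ = some g₂ → nmR t₂' = some g₂' → col g₁ = col g₂ ∧ col g₁' = col g₂'
  e : ∀ n, 2*Q0 ≤ n → ¬ Bd n → Gd n ∧ ∀ g, ∃ t t', t+t' = n ∧ nmL t = some g ∧ nmR t' = some g

section lists

variable {α : Type}

theorem seg_left (p q : List α) (a b : ℕ) (hb : b ≤ p.length) :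
    (p.drop a).take (b - a) = ((p ++ q).drop a).take (b - a) := by
  by_cases hab : a ≤ b
  · rw [List.drop_append_of_le_length (by omega), List.take_append_of_le_length]
    rw [List.length_drop]; omega
  · have : b - a = 0 := by omega
    rw [this]; simp

theorem drop_right (p q : List α) (a : ℕ) (h : p.length ≤ a) :
    (p ++ q).drop a = q.drop (a - p.length) := by
  rw [List.drop_append]
  rw [List.drop_eq_nil_of_le h, List.nil_append]

end lists

theorem split_sum {W : Type} [AddCommGroup W] {m : ℕ} (i : Fin m) (f : Fin m → W) :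
    ∑ l, f l = (∑ l, if l < i then f l else 0) + f i + ∑ l, if i < l then f l else 0 := by
  have h : ∀ l, f l = (if l < i then f l else 0) + (if l = i then f l else 0)
      + (if i < l then f l else 0) := by
    intro l
    rcases lt_trichotomy l i with h | h | h
    · simp [h, h.ne, not_lt.2 h.le]
    · simp [h]
    · simp [h, h.ne', not_lt.2 h.le]
  calc ∑ l, f l = ∑ l, ((if l < i then f l else 0) + (if l = i then f l else 0)
      + (if i < l then f l else 0)) := Finset.sum_congr rfl fun l _ => h l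
    _ = _ := by
      rw [Finset.sum_add_distrib, Finset.sum_add_distrib]
      congr 2
      simp

variable {S V W : Type}

/-- contexts : level, left product, left weight, right product, right weight, token, right label -/
structure Ctx (S V W : Type) (m : ℕ) where
  i : Fin m
  g : S
  wl : W
  h : S
  wr : W
  v : V
  b : V

instance (m : ℕ) [Finite S] [Finite V] [Finite W] : Finite (Ctx S V W m) := by
  have : Function.Injective (fun c : Ctx S V W m => (c.i, c.g, c.wl, c.h, c.wr, c.v, c.b)) := by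
    intro c d h
    cases c; cases d
    simp only [Prod.mk.injEq] at h
    obtain ⟨h1, h2, h3, h4, h5, h6, h7⟩ := h
    subst h1 h2 h3 h4 h5 h6 h7
    rfl
  exact Finite.of_injective _ this

/-- good contexts -/
abbrev GCtx [Monoid S] [AddCommGroup V] [AddCommGroup W] (act : V → S → V) {m : ℕ}
    (e : Fin m → S → W) (F : S → W → V) : Type :=
  {c : Ctx S V W m // ∀ z, F (c.g * z * c.h) (c.wl + e c.i z + c.wr) + act c.v (c.g * z * c.h) = c.b}

theorem zone [Monoid S] [AddCommGroup V] [AddCommGroup W] (act : V → S → V) {m : ℕ}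
    (e : Fin m → S → W) (F : S → W → V)
    (hF : ∀ (s : S) (w : W) (v : V), ∃ i : Fin m, ∀ g x h : S, g * x * h = s →
        ∀ z : S, F (g * z * h) (w - e i x + e i z) + act v (g * z * h) = F s w + act v s)
    {Q0 : ℕ} {β : ℕ → ℕ → ℕ} {Bd : ℕ → Prop} {nmL nmR : ℕ → Option (GCtx act e F)}
    {bL bR : ℕ → ℕ → ℕ} {Gd : ℕ → Prop}
    (hc : Clk m (fun γ : GCtx act e F => (γ.1.i : ℕ)) (fun γ => (γ.1.v, γ.1.b)) Q0 β Bd nmL nmR bL bR Gd)
    (hmono : ∀ n l, l < m → β n l ≤ β n (l+1))
    (Mp : ℕ) (hMp : 0 < Mp) {α : Type} (phi : List α → S)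
    (hphi : ∀ u v, phi (u ++ v) = phi u * phi v) :
    ∃ (lam rho : List α → Option V) (nu : List α → V),
      (∀ p v, lam p = some v → Mp ∣ p.length ∧ p.length ≤ Mp * Q0) ∧
      (∀ q r, rho q = some r → Mp * Q0 ≤ q.length) ∧
      (∀ p q v r, lam p = some v → rho q = some r → r = act v (phi (p++q)) + nu (p++q)) ∧
      (∀ u, 2*(Mp*Q0) ≤ u.length → ¬ Bd (u.length / Mp) →
        ∀ v, ∃ p q, p ++ q = u ∧ lam p = some v ∧ (rho q).isSome) := by
  classical
  -- left and right legality
  let LP : List α → GCtx act e F → Prop := fun p γ =>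
    Mp ∣ p.length ∧ nmL (p.length / Mp) = some γ ∧
    phi (p.take (Mp * bL (p.length / Mp) γ.1.i)) = γ.1.g ∧
    (∑ l : Fin m, if l < γ.1.i then e l (phi ((p.drop (Mp * bL (p.length / Mp) l)).take
      (Mp * bL (p.length / Mp) (l+1) - Mp * bL (p.length / Mp) l))) else 0) = γ.1.wl
  let Lam : List α → ℕ → ℕ := fun q l => Mp * bR (q.length / Mp) l + q.length % Mp
  let RP : List α → GCtx act e F → Prop := fun q γ =>
    nmR (q.length / Mp) = some γ ∧
    phi (q.drop (q.length - Lam q (γ.1.i + 1))) = γ.1.h ∧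
    (∑ l : Fin m, if γ.1.i < l then e l (phi ((q.drop (q.length - Lam q l)).take
      (Lam q l - Lam q (l+1)))) else 0) = γ.1.wr
  let wt : List α → W := fun u => ∑ l : Fin m, e l (phi ((u.drop (Mp * β (u.length / Mp) l)).take
      (Mp * β (u.length / Mp) (l+1) - Mp * β (u.length / Mp) l)))
  have hLu : ∀ p γ γ', LP p γ → LP p γ' → γ = γ' := by
    intro p γ γ' h h'
    have := h.2.1.symm.trans h'.2.1
    exact Option.some_injective _ this
  have hRu : ∀ q γ γ', RP q γ → RP q γ' → γ = γ' := by
    intro p γ γ' h h'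
    have := h.1.symm.trans h'.1
    exact Option.some_injective _ this
  let lam : List α → Option V := fun p => if h : ∃ γ, LP p γ then some (h.choose.1.v) else none
  let rho : List α → Option V := fun q => if h : ∃ γ, RP q γ then some (h.choose.1.b) else none
  have hlam : ∀ p v, lam p = some v ↔ ∃ γ, LP p γ ∧ γ.1.v = v := by
    intro p v
    constructor
    · intro h
      by_cases hx : ∃ γ, LP p γ
      · have h' : lam p = some (hx.choose.1.v) := dif_pos hx
        rw [h'] at h
        exact ⟨hx.choose, hx.choose_spec, Option.some_injective _ h⟩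
      · have h' : lam p = none := dif_neg hx
        rw [h'] at h; cases h
    · rintro ⟨γ, h1, rfl⟩
      have hx : ∃ γ, LP p γ := ⟨γ, h1⟩
      have h' : lam p = some (hx.choose.1.v) := dif_pos hx
      rw [h', hLu p _ _ hx.choose_spec h1]
  have hrho : ∀ q r, rho q = some r ↔ ∃ γ, RP q γ ∧ γ.1.b = r := by
    intro p v
    constructor
    · intro h
      by_cases hx : ∃ γ, RP p γ
      · have h' : rho p = some (hx.choose.1.b) := dif_pos hx
        rw [h'] at h
        exact ⟨hx.choose, hx.choose_spec, Option.some_injective _ h⟩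
      · have h' : rho p = none := dif_neg hx
        rw [h'] at h; cases h
    · rintro ⟨γ, h1, rfl⟩
      have hx : ∃ γ, RP p γ := ⟨γ, h1⟩
      have h' : rho p = some (hx.choose.1.b) := dif_pos hx
      rw [h', hRu p _ _ hx.choose_spec h1]
  let nu : List α → V := fun u =>
    if Gd (u.length / Mp) then F (phi u) (wt u)
    else if h : ∃ (x : V × V) (t t' : ℕ) (γ γ' : GCtx act e F), t + t' = u.length / Mp ∧
        nmL t = some γ ∧ nmR t' = some γ' ∧ x = (γ.1.v, γ'.1.b)
      then h.choose.2 - act h.choose.1 (phi u) else 0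
  -- the geometry of a junction
  have hgeo : ∀ (p q : List α) (γ γ' : GCtx act e F), Mp ∣ p.length → Gd ((p ++ q).length / Mp) →
      nmL (p.length / Mp) = some γ → nmR (q.length / Mp) = some γ' →
      γ = γ' ∧
      phi (p.take (Mp * bL (p.length / Mp) γ.1.i)) =
        phi ((p ++ q).take (Mp * β ((p ++ q).length / Mp) γ.1.i)) ∧
      phi (q.drop (q.length - Lam q (γ.1.i + 1))) =
        phi ((p ++ q).drop (Mp * β ((p ++ q).length / Mp) (γ.1.i + 1))) ∧
      (∀ l : Fin m, l < γ.1.i → (p.drop (Mp * bL (p.length / Mp) l)).take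
        (Mp * bL (p.length / Mp) (l+1) - Mp * bL (p.length / Mp) l) =
        ((p ++ q).drop (Mp * β ((p ++ q).length / Mp) l)).take
      (Mp * β ((p ++ q).length / Mp) (l+1) - Mp * β ((p ++ q).length / Mp) l)) ∧
      (∀ l : Fin m, γ.1.i < l → (q.drop (q.length - Lam q l)).take (Lam q l - Lam q (l+1)) =
        ((p ++ q).drop (Mp * β ((p ++ q).length / Mp) l)).take
      (Mp * β ((p ++ q).length / Mp) (l+1) - Mp * β ((p ++ q).length / Mp) l)) := by
    intro p q γ γ' hd hG h1 h2
    obtain ⟨t, ht⟩ := hd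
    have ht1 : p.length / Mp = t := by rw [ht]; exact Nat.mul_div_cancel_left t hMp
    have hn : (p ++ q).length / Mp = t + q.length / Mp := by
      rw [List.length_append, ht, Nat.mul_add_div hMp]
    rw [hn] at hG ⊢
    rw [ht1] at h1 ⊢
    obtain ⟨h3, h4, h5, h6, h7⟩ := hc.c _ _ _ _ hG h1 h2
    have h4 : ∀ l ≤ (γ.1.i : ℕ), bL t l = β (t + q.length / Mp) l := h4
    have h5 : ∀ l, (γ.1.i : ℕ) < l → l ≤ m →
      bR (q.length / Mp) l + β (t + q.length / Mp) l = t + q.length / Mp := h5
    have h6 : β (t + q.length / Mp) γ.1.i ≤ t := h6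
    have h7 : t ≤ β (t + q.length / Mp) (γ.1.i + 1) := h7
    set t' := q.length / Mp with ht'
    set n := t + t' with hnn
    have hql : q.length = Mp * t' + q.length % Mp := (Nat.div_add_mod _ _).symm
    have hmn : ∀ l k, l ≤ k → k ≤ m → β n l ≤ β n k := by
      intro l k hlk
      induction k, hlk using Nat.le_induction with
      | base => intro _; exact le_rfl
      | succ k hk ih => intro hkm; exact (ih (by omega)).trans (hmono n k (by omega))
    have hi : (γ.1.i : ℕ) < m := γ.1.i.2
    have hleft : ∀ l, l ≤ (γ.1.i : ℕ) → Mp * β n l ≤ p.length := by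
      intro l hl
      rw [ht]
      exact Nat.mul_le_mul_left _ ((hmn l _ hl (by omega)).trans h6)
    have hright : ∀ l, (γ.1.i : ℕ) < l → l ≤ m → p.length ≤ Mp * β n l := by
      intro l hl hlm
      rw [ht]
      exact Nat.mul_le_mul_left _ (h7.trans (hmn _ l hl hlm))
    have hLam : ∀ l, (γ.1.i : ℕ) < l → l ≤ m → Lam q l + Mp * β n l = p.length + q.length := by
      intro l hl hlm
      have h := h5 l hl hlm
      have h' : Mp * bR t' l + Mp * β n l = Mp * t + Mp * t' := by
        rw [← Nat.mul_add, ← Nat.mul_add]; exact congrArg _ h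
      change Mp * bR t' l + q.length % Mp + Mp * β n l = _
      omega
    refine ⟨h3, ?_, ?_, ?_, ?_⟩
    · rw [h4 _ le_rfl, List.take_append_of_le_length (hleft _ le_rfl)]
    · have ha := hLam (γ.1.i + 1) (by omega) (by omega)
      have hb := hright (γ.1.i + 1) (by omega) (by omega)
      rw [drop_right _ _ _ hb]
      congr 2
      omega
    · intro l hl
      have hl' : (l : ℕ) < γ.1.i := hl
      rw [h4 _ (by omega), h4 _ (by omega)]
      exact seg_left _ _ _ _ (hleft _ (by omega))
    · intro l hl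
      have hl' : (γ.1.i : ℕ) < l := hl
      have hlm := l.2
      have ha := hLam l hl' (by omega)
      have hb := hright l hl' (by omega)
      have ha' := hLam (l+1) (by omega) (by omega)
      rw [drop_right _ _ _ hb]
      have e1 : q.length - Lam q l = Mp * β n l - p.length := by omega
      have e2 : Lam q l - Lam q (l+1) = Mp * β n (l+1) - Mp * β n l := by omega
      rw [e1, e2]
  -- the product and the weight of a word along its boundaries
  have hprod : ∀ (u : List α) (a b : ℕ), a ≤ b →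
      phi u = phi (u.take a) * phi ((u.drop a).take (b - a)) * phi (u.drop b) := by
    intro u a b hab
    rw [← hphi, ← hphi]
    congr 1
    have h1 : (u.drop a).take (b - a) ++ u.drop b = u.drop a := by
      have : u.drop b = (u.drop a).drop (b - a) := by
        rw [List.drop_drop]; congr 1; omega
      rw [this, List.take_append_drop]
    rw [List.append_assoc, h1, List.take_append_drop]
  refine ⟨lam, rho, nu, ?_, ?_, ?_, ?_⟩
  · intro p v h
    obtain ⟨γ, h1, -⟩ := (hlam p v).1 h
    refine ⟨h1.1, ?_⟩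
    obtain ⟨t, ht⟩ := h1.1
    have h2 := hc.a _ _ h1.2.1
    have ht1 : p.length / Mp = t := by rw [ht]; exact Nat.mul_div_cancel_left t hMp
    rw [ht1] at h2
    rw [ht]; exact Nat.mul_le_mul_left _ h2
  · intro q r h
    obtain ⟨γ, h1, -⟩ := (hrho q r).1 h
    have h2 := hc.b _ _ h1.1
    exact (Nat.mul_le_mul_left Mp h2).trans (Nat.mul_div_le _ _)
  · intro p q v r hp hq
    obtain ⟨γ, h1, rfl⟩ := (hlam p v).1 hp
    obtain ⟨γ', h2, rfl⟩ := (hrho q r).1 hq
    obtain ⟨t, ht⟩ := h1.1
    have ht1 : p.length / Mp = t := by rw [ht]; exact Nat.mul_div_cancel_left t hMp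
    have hn : (p ++ q).length / Mp = p.length / Mp + q.length / Mp := by
      rw [List.length_append, ht1, ht, Nat.mul_add_div hMp]
    by_cases hG : Gd ((p ++ q).length / Mp)
    · obtain ⟨g1, g2, g3, g4, g5⟩ := hgeo p q γ γ' h1.1 hG h1.2.1 h2.1
      subst g1
      have hnu : nu (p ++ q) = F (phi (p ++ q)) (wt (p ++ q)) := if_pos hG
      have hw : wt (p ++ q) = γ.1.wl + e γ.1.i (phi (((p ++ q).drop
          (Mp * β ((p ++ q).length / Mp) γ.1.i)).take
          (Mp * β ((p ++ q).length / Mp) (γ.1.i+1) - Mp * β ((p ++ q).length / Mp) γ.1.i)))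
          + γ.1.wr := by
        change (∑ l : Fin m, _) = _
        rw [split_sum γ.1.i]
        congr 1
        · congr 1
          rw [← h1.2.2.2]
          refine Finset.sum_congr rfl fun l _ => ?_
          by_cases hl : l < γ.1.i
          · rw [if_pos hl, if_pos hl, g4 l hl]
          · rw [if_neg hl, if_neg hl]
        · rw [← h2.2.2]
          refine Finset.sum_congr rfl fun l _ => ?_
          by_cases hl : γ.1.i < l
          · rw [if_pos hl, if_pos hl, g5 l hl]
          · rw [if_neg hl, if_neg hl]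
      have hp' : phi (p ++ q) = γ.1.g * phi (((p ++ q).drop
          (Mp * β ((p ++ q).length / Mp) γ.1.i)).take
          (Mp * β ((p ++ q).length / Mp) (γ.1.i+1) - Mp * β ((p ++ q).length / Mp) γ.1.i))
          * γ.1.h := by
        rw [hprod (p ++ q) (Mp * β ((p ++ q).length / Mp) γ.1.i)
          (Mp * β ((p ++ q).length / Mp) (γ.1.i + 1))
          (Nat.mul_le_mul_left _ (hmono _ _ γ.1.i.2)), ← g2, ← g3, h1.2.2.1, h2.2.1]
      rw [hnu, hw, hp', ← γ.2, add_comm]
    · have hx : ∃ (x : V × V) (t t' : ℕ) (δ δ' : GCtx act e F), t + t' = (p ++ q).length / Mp ∧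
        nmL t = some δ ∧ nmR t' = some δ' ∧ x = (δ.1.v, δ'.1.b) :=
        ⟨_, _, _, γ, γ', hn.symm, h1.2.1, h2.1, rfl⟩
      have hnu : nu (p ++ q) = hx.choose.2 - act hx.choose.1 (phi (p ++ q)) := by
        change (if Gd _ then _ else _) = _
        rw [if_neg hG, dif_pos hx]
      obtain ⟨s, s', δ, δ', k1, k2, k3, k4⟩ := hx.choose_spec
      have hG' : ¬ Gd (s + s') := by rw [k1]; exact hG
      obtain ⟨k5, k6⟩ := hc.d s s' (p.length / Mp) (q.length / Mp) δ δ' γ γ' hG'
        (k1.trans hn) k2 k3 h1.2.1 h2.1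
      have k7 : δ.1.v = γ.1.v := congrArg Prod.fst k5
      have k8 : δ'.1.b = γ'.1.b := congrArg Prod.snd k6
      rw [hnu, k4]
      dsimp only
      rw [k7, k8]
      abel
  · intro u hu hB v
    have hn2 : 2 * Q0 ≤ u.length / Mp := by
      rw [Nat.le_div_iff_mul_le hMp]
      calc 2 * Q0 * Mp = 2 * (Mp * Q0) := by ring
        _ ≤ _ := hu
    obtain ⟨hG, hall⟩ := hc.e _ hn2 hB
    obtain ⟨i, hi⟩ := hF (phi u) (wt u) v
    let z0 : S := phi ((u.drop (Mp * β (u.length / Mp) i)).take
      (Mp * β (u.length / Mp) (i+1) - Mp * β (u.length / Mp) i))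
    let g0 : S := phi (u.take (Mp * β (u.length / Mp) i))
    let h0 : S := phi (u.drop (Mp * β (u.length / Mp) (i+1)))
    let f : Fin m → W := fun l => e l (phi ((u.drop (Mp * β (u.length / Mp) l)).take
      (Mp * β (u.length / Mp) (l+1) - Mp * β (u.length / Mp) l)))
    let wl0 : W := ∑ l, if l < i then f l else 0
    let wr0 : W := ∑ l, if i < l then f l else 0
    have hwt : wt u = wl0 + e i z0 + wr0 := split_sum i f
    have hs : g0 * z0 * h0 = phi u := (hprod u _ _ (Nat.mul_le_mul_left _ (hmono _ _ i.2))).symm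
    have hgood : ∀ z, F (g0 * z * h0) (wl0 + e i z + wr0) + act v (g0 * z * h0)
        = F (phi u) (wt u) + act v (phi u) := by
      intro z
      have := hi g0 z0 h0 hs z
      rw [← this]
      congr 2
      rw [hwt]; abel
    let γ : GCtx act e F := ⟨⟨i, g0, wl0, h0, wr0, v, F (phi u) (wt u) + act v (phi u)⟩, hgood⟩
    obtain ⟨t, t', htt, k1, k2⟩ := hall γ
    have hul : Mp * (t + t') + u.length % Mp = u.length := by
      rw [htt]; exact Nat.div_add_mod _ _
    have hmt : Mp * t ≤ u.length := by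
      have : Mp * (t + t') = Mp * t + Mp * t' := Nat.mul_add _ _ _
      omega
    have hpl : (u.take (Mp * t)).length = Mp * t := by
      rw [List.length_take]; omega
    have hql : (u.drop (Mp * t)).length = Mp * t' + u.length % Mp := by
      rw [List.length_drop]
      have : Mp * (t + t') = Mp * t + Mp * t' := Nat.mul_add _ _ _
      omega
    have hpt : (u.take (Mp * t)).length / Mp = t := by
      rw [hpl]; exact Nat.mul_div_cancel_left t hMp
    have hqt : (u.drop (Mp * t)).length / Mp = t' := by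
      rw [hql, Nat.mul_add_div hMp, Nat.div_eq_of_lt (Nat.mod_lt _ hMp), Nat.add_zero]
    have hjoin : u.take (Mp * t) ++ u.drop (Mp * t) = u := List.take_append_drop _ _
    obtain ⟨-, g2, g3, g4, g5⟩ := hgeo (u.take (Mp * t)) (u.drop (Mp * t)) γ γ
      (by rw [hpl]; exact Dvd.intro _ rfl) (by rw [hjoin]; exact hG) (by rw [hpt]; exact k1)
      (by rw [hqt]; exact k2)
    rw [hjoin] at g2 g3 g4 g5
    refine ⟨u.take (Mp * t), u.drop (Mp * t), hjoin, (hlam _ _).2 ⟨γ, ⟨?_, ?_, ?_, ?_⟩, rfl⟩, ?_⟩
    · rw [hpl]; exact Dvd.intro _ rfl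
    · rw [hpt]; exact k1
    · exact g2
    · change _ = wl0
      refine Finset.sum_congr rfl fun l _ => ?_
      by_cases hl : l < i
      · rw [if_pos hl, if_pos (show l < γ.1.i from hl), g4 l hl]
      · rw [if_neg hl, if_neg (show ¬ l < γ.1.i from hl)]
    · have : rho (u.drop (Mp * t)) = some γ.1.b := by
        refine (hrho _ _).2 ⟨γ, ⟨?_, ?_, ?_⟩, rfl⟩
        · rw [hqt]; exact k2
        · exact g3
        · change _ = wr0
          refine Finset.sum_congr rfl fun l _ => ?_
          by_cases hl : i < l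
          · rw [if_pos hl, if_pos (show γ.1.i < l from hl), g5 l hl]
          · rw [if_neg hl, if_neg (show ¬ γ.1.i < l from hl)]
      rw [this]; rfl

end Crest.Agent.R320.UG_456
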