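import Crest.Agent.R320.GridA_605
import Crest.Agent.R320.Names_755
import Crest.Agent.R320.Zone132_898

/-!
Row 320: the zone gadget (scheme 1) of 693 #13203 on words, all contents, no walls.
-/

set_option autoImplicit false

namespace Crest.Agent.R320.UG_605

open Finset Crest.Agent.R320.GridA_605 Crest.Agent.R320.Zone132_898

section Cx

variable (m : ℕ) (S V W : Type)

abbrev Cx := Fin m × S × W × S × W × V

end Cx

structure Dt (α S V W : Type) [Monoid S] [AddCommGroup V] [AddCommGroup W] where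
  p : P
  phi : List α → S
  hphi : ∀ u v, phi (u ++ v) = phi u * phi v
  act : V → S → V
  e : ℕ → S → W
  F : S → W → V
  Mp : ℕ
  hMp : 0 < Mp
  nmL : ℕ → Option (Cx p.m S V W)
  nmR : ℕ → Option (Cx p.m S V W)
  Gd : ℕ → Prop

variable {α S V W : Type} [Monoid S] [AddCommGroup V] [AddCommGroup W]

namespace Dt

variable (D : Dt α S V W)

def val (c : Cx D.p.m S V W) (z : S) : V :=
  D.F (c.2.1 * z * c.2.2.2.1) (c.2.2.1 + D.e c.1 z + c.2.2.2.2.1) +
    D.act c.2.2.2.2.2 (c.2.1 * z * c.2.2.2.1)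

def Good (c : Cx D.p.m S V W) : Prop := ∀ z, D.val c z = D.val c 1

/-- left legal -/
def LL (P : List α) (v : V) : Prop :=
  ∃ (c : Cx D.p.m S V W) (t : ℕ), P.length = D.Mp * t ∧ D.p.cell c.1 t ∧ D.nmL t = some c ∧
    D.phi (P.take (D.Mp * (D.p.lo c.1 + t % D.p.G c.1))) = c.2.1 ∧
    ∑ l ∈ range c.1, D.e l (zt D.phi P (D.Mp * (D.p.lo l + t % D.p.G l))
      (D.Mp * (D.p.lo (l + 1) + t % D.p.G (l + 1)))) = c.2.2.1 ∧ c.2.2.2.2.2 = v

/-- distance from the right end -/
def Lam (i : ℕ) (Q : List α) (l : ℕ) : ℕ :=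
  D.Mp * D.p.bR i (Q.length / D.Mp) l + Q.length % D.Mp

/-- right legal -/
def RR (Q : List α) (b : V) : Prop :=
  ∃ (c : Cx D.p.m S V W), D.p.RK c.1 (Q.length / D.Mp) ∧ D.nmR (Q.length / D.Mp) = some c ∧
    D.phi (Q.drop (Q.length - D.Lam c.1 Q (c.1 + 1))) = c.2.2.2.1 ∧
    ∑ l ∈ Ico ((c.1 : ℕ) + 1) D.p.m, D.e l (zt D.phi Q (Q.length - D.Lam c.1 Q l)
      (Q.length - D.Lam c.1 Q (l + 1))) = c.2.2.2.2.1 ∧ D.val c 1 = b

/-- the pair of colours at the total clock `n` -/
def Pair (n : ℕ) (pr : V × V) : Prop :=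
  ∃ (t t' : ℕ) (c c' : Cx D.p.m S V W), t + t' ≡ n [MOD D.p.M] ∧ D.nmL t = some c ∧
    D.nmR t' = some c' ∧ pr = (c.2.2.2.2.2, D.val c' 1)

def tot (u : List α) : W :=
  ∑ l ∈ range D.p.m, D.e l (zt D.phi u (D.Mp * D.p.beta (u.length / D.Mp) l)
    (D.Mp * D.p.beta (u.length / D.Mp) (l + 1)))

open Classical in
noncomputable def nu (u : List α) : V :=
  if D.Gd (u.length / D.Mp) then D.F (D.phi u) (D.tot u)
  else if h : ∃ pr : V × V, D.Pair (u.length / D.Mp) pr then h.choose.2 - D.act h.choose.1 (D.phi u)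
  else 0

structure Ok : Prop where
  same : ∀ t t' c c', D.nmL t = some c → D.nmR t' = some c' → D.Gd (t + t') → c = c'
  pair : ∀ n pr pr', ¬ D.Gd n → D.Pair n pr → D.Pair n pr' → pr = pr'
  goodL : ∀ t c, D.nmL t = some c → D.Good c

theorem div_eq {P Q : List α} {t : ℕ} (h : P.length = D.Mp * t) :
    (P ++ Q).length / D.Mp = t + Q.length / D.Mp := by
  rw [List.length_append, h, Nat.mul_add_div D.hMp]

theorem sound (ok : D.Ok) {P Q : List α} {v b : V} (hL : D.LL P v) (hR : D.RR Q b) :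
    b = D.act v (D.phi (P ++ Q)) + D.nu (P ++ Q) := by
  classical
  obtain ⟨c, t, hP, hcell, hnm, hg, hwl, rfl⟩ := hL
  obtain ⟨c', hRK, hnm', hh, hwr, rfl⟩ := hR
  set t' := Q.length / D.Mp with ht'
  have hdiv := D.div_eq (Q := Q) hP
  unfold nu
  rw [hdiv]
  by_cases hG : D.Gd (t + t')
  · rw [if_pos hG]
    have hcc : c = c' := ok.same t t' c c' hnm hnm' hG
    subst hcc
    have hgood := ok.goodL t c hnm
    obtain ⟨⟨i, hi⟩, g, wl, h, wr, v⟩ := c
    simp only at *
    have hmp := D.hMp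
    -- boundaries
    have hbl : ∀ l, l ≤ i → D.p.lo l + t % D.p.G l = D.p.beta (t + t') l := fun l hl =>
      D.p.beta_left hRK hl
    have hbi : ∀ l, l ≤ i → D.Mp * D.p.beta (t + t') l ≤ P.length := by
      intro l hl
      rw [hP]
      apply Nat.mul_le_mul_left
      exact le_trans (D.p.beta_mono hl (by omega)) (D.p.beta_le_cell hcell)
    have hbr : ∀ l, i < l → l ≤ D.p.m → ∃ s, D.Mp * D.p.beta (t + t') l = P.length + s ∧
        Q.length - D.Lam i Q l = s := by
      intro l hl hl'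
      have h1 := D.p.beta_right hcell hRK hl hl'
      have h2 := D.p.cell_le_beta (n := t + t') (by omega) hcell
      have h3 := D.p.beta_mono (n := t + t') (show i + 1 ≤ l by omega) hl'
      have h4 : t ≤ D.p.beta (t + t') l := le_trans h2 h3
      obtain ⟨s, hs⟩ := Nat.exists_eq_add_of_le h4
      refine ⟨D.Mp * s, by rw [hs, hP]; ring, ?_⟩
      unfold Lam
      have h5 := Nat.div_add_mod Q.length D.Mp
      have h6 : D.p.bR i t' l + s = t' := by omega
      have h7 : D.Mp * D.p.bR i t' l + D.Mp * s = D.Mp * t' := by rw [← Nat.mul_add, h6]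
      rw [← ht'] at h5 ⊢
      omega
    set B : ℕ → ℕ := fun l => D.Mp * D.p.beta (t + t') l with hB
    set x : S := zt D.phi (P ++ Q) (B i) (B (i + 1)) with hx
    have hBle : B i ≤ B (i + 1) := by
      apply Nat.mul_le_mul_left
      exact D.p.beta_mono (by omega) (by omega)
    have hprod : g * x * h = D.phi (P ++ Q) := by
      have h5 : g = D.phi ((P ++ Q).take (B i)) := by
        rw [← hg, hbl i le_rfl, List.take_append_of_le_length (hbi i le_rfl)]
      obtain ⟨s, hs1, hs2⟩ := hbr (i + 1) (by omega) (by omega)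
      have h6 : h = D.phi ((P ++ Q).drop (B (i + 1))) := by
        rw [← hh, hs2]
        change _ = D.phi ((P ++ Q).drop (D.Mp * D.p.beta (t + t') (i + 1)))
        rw [hs1, drop_add]
      rw [h5, h6, hx]
      exact zt_split D.hphi _ hBle
    have hw : D.tot (P ++ Q) = wl + D.e i x + wr := by
      unfold tot
      rw [hdiv, Data.sum_split hi]
      congr 1
      · congr 1
        · rw [← hwl]
          apply Finset.sum_congr rfl
          intro l hl
          rw [Finset.mem_range] at hl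
          rw [zt_left D.phi (hbi (l + 1) (by omega)), hbl l (by omega), hbl (l + 1) (by omega)]
      · rw [← hwr]
        apply Finset.sum_congr rfl
        intro l hl
        rw [Finset.mem_Ico] at hl
        obtain ⟨s, hs1, hs2⟩ := hbr l (by omega) (by omega)
        obtain ⟨s', hs1', hs2'⟩ := hbr (l + 1) (by omega) (by omega)
        rw [hs1, hs1', zt_right, hs2, hs2']
    rw [hw, ← hgood x]
    unfold val
    simp only
    rw [hprod, add_comm]
  · rw [if_neg hG]
    have hpr : D.Pair (t + t') (c.2.2.2.2.2, D.val c' 1) :=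
      ⟨t, t', c, c', Nat.ModEq.refl _, hnm, hnm', rfl⟩
    have hex : ∃ pr : V × V, D.Pair (t + t') pr := ⟨_, hpr⟩
    rw [dif_pos hex]
    have h1 := ok.pair _ _ _ hG hex.choose_spec hpr
    rw [h1]
    simp

theorem LL_uniq {P : List α} {v v' : V} (h : D.LL P v) (h' : D.LL P v') : v = v' := by
  obtain ⟨c, t, hP, -, hnm, -, -, rfl⟩ := h
  obtain ⟨c', t', hP', -, hnm', -, -, rfl⟩ := h'
  have : t = t' := Nat.eq_of_mul_eq_mul_left D.hMp (by rw [← hP, ← hP'])
  subst this
  rw [hnm] at hnm'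
  have : c = c' := by simpa using hnm'
  rw [this]

theorem RR_uniq {Q : List α} {b b' : V} (h : D.RR Q b) (h' : D.RR Q b') : b = b' := by
  obtain ⟨c, -, hnm, -, -, rfl⟩ := h
  obtain ⟨c', -, hnm', -, -, rfl⟩ := h'
  rw [hnm] at hnm'
  have : c = c' := by simpa using hnm'
  rw [this]

theorem LL_len {P : List α} {v : V} (h : D.LL P v) : D.Mp ∣ P.length ∧ P.length < D.Mp * D.p.top := by
  obtain ⟨c, t, hP, hc, -⟩ := h
  refine ⟨⟨t, hP⟩, ?_⟩
  rw [hP]
  exact Nat.mul_lt_mul_of_pos_left (D.p.cell_top c.1.2.le hc) D.hMp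

theorem RR_len {Q : List α} {b : V} (h : D.RR Q b) : D.Mp * D.p.top ≤ Q.length := by
  obtain ⟨c, hR, -⟩ := h
  have h1 := hR.1
  have h2 := Nat.div_add_mod Q.length D.Mp
  have h3 := Nat.mul_le_mul_left D.Mp h1
  omega

theorem complete (hF : ∀ (s : S) (w : W) (v : V), ∃ i < D.p.m, ∀ g x h : S, g * x * h = s →
      ∀ z : S, D.F (g * z * h) (w - D.e i x + D.e i z) + D.act v (g * z * h) =
        D.F s w + D.act v s)
    (hN : ∀ n, D.Gd n → ∀ c, D.Good c → ∃ t₀, ∀ t, t ≡ t₀ [MOD D.p.M] → D.nmL t = some c ∧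
      ∀ t', t + t' = n → D.nmR t' = some c)
    {u : List α} (hlen : 2 * (D.Mp * D.p.top) ≤ u.length)
    (hG : D.Gd (u.length / D.Mp)) (hB : ¬ D.p.Band (u.length / D.Mp)) (v : V) :
    ∃ P Q, P ++ Q = u ∧ D.LL P v ∧ ∃ b, D.RR Q b := by
  classical
  have hmp := D.hMp
  set n := u.length / D.Mp with hn
  have hdm := Nat.div_add_mod u.length D.Mp
  rw [← hn] at hdm
  have hntop : 2 * D.p.top ≤ n := by
    rw [hn, Nat.le_div_iff_mul_le hmp]
    calc 2 * D.p.top * D.Mp = 2 * (D.Mp * D.p.top) := by ring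
      _ ≤ _ := hlen
  set w : W := D.tot u with hw
  obtain ⟨i, hi, hide⟩ := hF (D.phi u) w v
  set B : ℕ → ℕ := fun l => D.Mp * D.p.beta n l with hBdef
  have hBmono : ∀ l l', l ≤ l' → l' ≤ D.p.m → B l ≤ B l' := fun l l' h h' =>
    Nat.mul_le_mul_left _ (D.p.beta_mono h h')
  set x : S := zt D.phi u (B i) (B (i + 1)) with hx
  set wl : W := ∑ l ∈ range i, D.e l (zt D.phi u (B l) (B (l + 1))) with hwl
  set wr : W := ∑ l ∈ Ico (i + 1) D.p.m, D.e l (zt D.phi u (B l) (B (l + 1))) with hwr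
  set c : Cx D.p.m S V W := (⟨i, hi⟩, D.phi (u.take (B i)), wl, D.phi (u.drop (B (i + 1))), wr, v)
    with hc
  have hprod : D.phi (u.take (B i)) * x * D.phi (u.drop (B (i + 1))) = D.phi u :=
    zt_split D.hphi _ (hBmono i (i + 1) (by omega) (by omega))
  have htot : w = wl + D.e i x + wr := by
    rw [hw]
    unfold tot
    rw [← hn, Data.sum_split hi]
  have hval : ∀ z, D.val c z = D.F (D.phi u) w + D.act v (D.phi u) := by
    intro z
    have h1 := hide _ x _ hprod z
    rw [← h1]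
    unfold val
    simp only [hc]
    have h2 : wl + D.e i z + wr = w - D.e i x + D.e i z := by rw [htot]; abel
    rw [h2]
  have hgood : D.Good c := fun z => by rw [hval z, hval 1]
  obtain ⟨t₀, ht₀⟩ := hN n hG c hgood
  obtain ⟨t, t', htt, hcell, hRK, hmod⟩ := D.p.exists_cut (t₀ := t₀) hntop hi.le hB
  obtain ⟨hnl, hnr⟩ := ht₀ t hmod
  have hnr := hnr t' htt
  have hPle : D.Mp * t ≤ u.length := by
    have := Nat.mul_le_mul_left D.Mp (show t ≤ n by omega)
    omega
  have hPlen : (u.take (D.Mp * t)).length = D.Mp * t := by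
    rw [List.length_take]; omega
  have hPQ : u.take (D.Mp * t) ++ u.drop (D.Mp * t) = u := List.take_append_drop _ _
  set P := u.take (D.Mp * t) with hP
  set Q := u.drop (D.Mp * t) with hQ
  have hQlen : Q.length = u.length - D.Mp * t := by rw [hQ, List.length_drop]
  have hQdiv : Q.length / D.Mp = t' := by
    rw [hQlen]
    have h1 : u.length - D.Mp * t = D.Mp * t' + u.length % D.Mp := by
      have : D.Mp * n = D.Mp * t + D.Mp * t' := by rw [← htt]; ring
      omega
    rw [h1, Nat.mul_add_div hmp, Nat.div_eq_of_lt (Nat.mod_lt _ hmp), add_zero]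
  have hQmod : Q.length = D.Mp * t' + Q.length % D.Mp := by
    have := Nat.div_add_mod Q.length D.Mp
    rw [hQdiv] at this
    exact this.symm
  have hbl : ∀ l, l ≤ i → D.p.lo l + t % D.p.G l = D.p.beta n l := fun l hl => by
    rw [← htt]; exact D.p.beta_left hRK hl
  have hbi : ∀ l, l ≤ i → D.Mp * D.p.beta n l ≤ P.length := by
    intro l hl
    rw [hPlen]
    apply Nat.mul_le_mul_left
    exact le_trans (D.p.beta_mono hl (by omega)) (D.p.beta_le_cell hcell)
  have hbr : ∀ l, i < l → l ≤ D.p.m → ∃ s, D.Mp * D.p.beta n l = P.length + s ∧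
      Q.length - D.Lam i Q l = s := by
    intro l hl hl'
    have h1 := D.p.beta_right hcell hRK hl hl'
    have h2 := D.p.cell_le_beta (n := n) (by omega) hcell
    have h3 := D.p.beta_mono (n := n) (show i + 1 ≤ l by omega) hl'
    have h4 : t ≤ D.p.beta n l := le_trans h2 h3
    obtain ⟨s, hs⟩ := Nat.exists_eq_add_of_le h4
    refine ⟨D.Mp * s, by rw [hs, hPlen]; ring, ?_⟩
    unfold Lam
    rw [htt] at h1
    have h6 : D.p.bR i t' l + s = t' := by omega
    have h7 : D.Mp * D.p.bR i t' l + D.Mp * s = D.Mp * t' := by rw [← Nat.mul_add, h6]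
    rw [hQdiv]
    omega
  refine ⟨P, Q, hPQ, ⟨c, t, hPlen, hcell, hnl, ?_, ?_, rfl⟩, D.val c 1, c, ?_, ?_, ?_, ?_, rfl⟩
  · change D.phi (P.take (D.Mp * (D.p.lo i + t % D.p.G i))) = D.phi (u.take (B i))
    rw [hbl i le_rfl]
    conv_rhs => rw [← hPQ]
    rw [List.take_append_of_le_length (hbi i le_rfl)]
  · change ∑ l ∈ range i, D.e l (zt D.phi P (D.Mp * (D.p.lo l + t % D.p.G l))
      (D.Mp * (D.p.lo (l + 1) + t % D.p.G (l + 1)))) = wl
    rw [hwl]
    apply Finset.sum_congr rfl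
    intro l hl
    rw [Finset.mem_range] at hl
    rw [hbl l (by omega), hbl (l + 1) (by omega)]
    change _ = D.e l (zt D.phi u (D.Mp * D.p.beta n l) (D.Mp * D.p.beta n (l + 1)))
    conv_rhs => rw [← hPQ]
    rw [zt_left D.phi (hbi (l + 1) (by omega))]
  · rw [hQdiv]; exact hRK
  · rw [hQdiv]; exact hnr
  · change D.phi (Q.drop (Q.length - D.Lam i Q (i + 1))) = D.phi (u.drop (B (i + 1)))
    obtain ⟨s, hs1, hs2⟩ := hbr (i + 1) (by omega) (by omega)
    rw [hs2]
    change _ = D.phi (u.drop (D.Mp * D.p.beta n (i + 1)))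
    rw [hs1]
    conv_rhs => rw [← hPQ]
    rw [drop_add]
  · change ∑ l ∈ Ico (i + 1) D.p.m, D.e l (zt D.phi Q (Q.length - D.Lam i Q l)
      (Q.length - D.Lam i Q (l + 1))) = wr
    rw [hwr]
    apply Finset.sum_congr rfl
    intro l hl
    rw [Finset.mem_Ico] at hl
    obtain ⟨s, hs1, hs2⟩ := hbr l (by omega) (by omega)
    obtain ⟨s', hs1', hs2'⟩ := hbr (l + 1) (by omega) (by omega)
    rw [hs2, hs2']
    change _ = D.e l (zt D.phi u (D.Mp * D.p.beta n l) (D.Mp * D.p.beta n (l + 1)))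
    rw [hs1, hs1']
    conv_rhs => rw [← hPQ]
    rw [zt_right]

end Dt

end Crest.Agent.R320.UG_605
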