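import Mathlib
import Crest.Agent.R320.Names_755
import Crest.Agent.R320.RandF_808

/-!
Row 320 (helper658): scheme-1 gadget for ALL contents (no small walls), coprime moduli.
Levels with boundaries `β k T = A k + T % R k`, `T = |u| / q`.
-/

set_option autoImplicit false
set_option linter.unusedSectionVars false

namespace Crest.Agent.R320.UG_658

open Finset

variable {α : Type*}

/-- the factor `[a, b)`. -/
def seg (Y : List α) (a b : ℕ) : List α := (Y.drop a).take (b - a)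

theorem drop_app_left {P Q : List α} {s : ℕ} (h : s ≤ P.length) :
    (P ++ Q).drop s = P.drop s ++ Q := List.drop_append_of_le_length h

theorem drop_app_right {P Q : List α} {s : ℕ} :
    (P ++ Q).drop (P.length + s) = Q.drop s := by
  simp [List.drop_append]

theorem seg_left {P Q : List α} {a b : ℕ} (hab : a ≤ b) (hb : b ≤ P.length) :
    seg (P ++ Q) a b = seg P a b := by
  unfold seg
  rw [drop_app_left (by omega), List.take_append_of_le_length (by rw [List.length_drop]; omega)]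

theorem seg_right {P Q : List α} {a b : ℕ} :
    seg (P ++ Q) (P.length + a) (P.length + b) = seg Q a b := by
  unfold seg
  rw [drop_app_right, Nat.add_sub_add_left]

theorem seg_split {Y : List α} {a b : ℕ} (hab : a ≤ b) :
    Y.take a ++ seg Y a b ++ Y.drop b = Y := by
  have : Y.drop b = (Y.drop a).drop (b - a) := by
    rw [List.drop_drop]; congr 1; omega
  unfold seg
  rw [this, List.append_assoc, List.take_append_drop, List.take_append_drop]

/-- names (contexts) -/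
abbrev Nm (m : ℕ) (S V W : Type*) := Fin m × S × W × S × W × V

/-- The data of the gadget. -/
structure Dat (α S V W : Type*) where
  φ : List α → S
  act : V → S → V
  m : ℕ
  e : ℕ → S → W
  F : S → W → V
  q : ℕ
  m0 : ℕ
  R : ℕ → ℕ
  LN : ℕ → Option (Nm m S V W)
  RN : ℕ → Option (Nm m S V W)

variable {S V W : Type*} [Monoid S] [AddCommGroup V] [AddCommGroup W] (D : Dat α S V W)

/-- stride of the levels -/
def Dat.U : ℕ := D.R D.m * (1 + D.m0)
def Dat.A (k : ℕ) : ℕ := k * D.U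
def Dat.lo (k : ℕ) : ℕ := k * D.U + D.R D.m

/-- the boundary, in units -/
def Dat.β (T k : ℕ) : ℕ := D.A k + T % D.R k

/-- weight of a zone. -/
def Dat.ww (T : ℕ) (Y : List α) : W :=
  ∑ k ∈ range D.m, D.e k (D.φ (seg Y (D.q * D.β T k) (D.q * D.β T (k + 1))))

/-- end value of a name. -/
def Dat.bb (c : Nm D.m S V W) : V :=
  D.F (c.2.1 * 1 * c.2.2.2.1) (c.2.2.1 + D.e c.1 1 + c.2.2.2.2.1) +
    D.act c.2.2.2.2.2 (c.2.1 * 1 * c.2.2.2.1)

/-- good names. -/
def Dat.ok (c : Nm D.m S V W) : Prop :=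
  ∀ z, D.F (c.2.1 * z * c.2.2.2.1) (c.2.2.1 + D.e c.1 z + c.2.2.2.2.1) +
    D.act c.2.2.2.2.2 (c.2.1 * z * c.2.2.2.1) = D.bb c

/-- left legality for a name. -/
def Dat.LL (c : Nm D.m S V W) (P : List α) : Prop :=
  D.ok c ∧ D.q ∣ P.length ∧ D.lo c.1 ≤ P.length / D.q ∧
  P.length / D.q < D.lo c.1 + D.R c.1 * D.m0 ∧ D.LN (P.length / D.q) = some c ∧
  c.2.1 = D.φ (P.take (D.q * D.β (P.length / D.q) c.1)) ∧
  c.2.2.1 = ∑ k ∈ range c.1, D.e k (D.φ (seg P (D.q * D.β (P.length / D.q) k)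
    (D.q * D.β (P.length / D.q) (k + 1))))

/-- boundary `k` seen from the right at level `i` -/
def Dat.bR (i k T' : ℕ) : ℕ := D.A k - D.lo i + T' % D.R k

/-- right legality for a name. -/
def Dat.RR (c : Nm D.m S V W) (Q : List α) : Prop :=
  D.ok c ∧ D.RN (Q.length / D.q) = some c ∧ (Q.length / D.q) % D.R c.1 = 0 ∧
  (∀ k, (c.1 : ℕ) < k → k ≤ D.m → (Q.length / D.q) % D.R k + D.R c.1 * D.m0 ≤ D.R k) ∧
  c.2.2.2.1 = D.φ (Q.drop (D.q * D.bR c.1 (c.1 + 1) (Q.length / D.q))) ∧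
  c.2.2.2.2.1 = ∑ k ∈ Ico ((c.1 : ℕ) + 1) D.m,
    D.e k (D.φ (seg Q (D.q * D.bR c.1 k (Q.length / D.q))
      (D.q * D.bR c.1 (k + 1) (Q.length / D.q))))

/-- The hypotheses. -/
structure Geo (D : Dat α S V W) : Prop where
  hφ : ∀ u v, D.φ (u ++ v) = D.φ u * D.φ v
  qpos : 0 < D.q
  Rpos : ∀ k, 0 < D.R k
  Rdvd : ∀ i k, i ≤ k → D.R i ∣ D.R k
  m0pos : 0 < D.m0
  cop : ∀ k, Nat.Coprime (D.R k) D.m0

variable {D}

theorem Geo.A_dvd (_hD : Geo D) (k : ℕ) : D.R D.m ∣ D.A k :=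
  Dvd.dvd.mul_left (Dvd.intro _ rfl) k

theorem Geo.lo_dvd (hD : Geo D) (k : ℕ) : D.R D.m ∣ D.lo k :=
  (Nat.dvd_add (hD.A_dvd k) (dvd_refl _))

theorem Geo.Rle (hD : Geo D) {i k : ℕ} (h : i ≤ k) : D.R i ≤ D.R k :=
  Nat.le_of_dvd (hD.Rpos k) (hD.Rdvd i k h)

theorem Geo.β_lt (hD : Geo D) {T k : ℕ} (hk : k ≤ D.m) : D.β T k < D.lo k := by
  unfold Dat.β Dat.lo Dat.A
  have h1 := Nat.mod_lt T (hD.Rpos k)
  have h2 := hD.Rle hk
  omega

theorem Geo.step (hD : Geo D) {i : ℕ} (hi : i ≤ D.m) :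
    D.lo i + D.R i * D.m0 ≤ D.A (i + 1) := by
  unfold Dat.lo Dat.A Dat.U
  have h2 : D.R i * D.m0 ≤ D.R D.m * D.m0 := Nat.mul_le_mul_right _ (hD.Rle hi)
  have h3 : (i + 1) * (D.R D.m * (1 + D.m0)) =
    i * (D.R D.m * (1 + D.m0)) + D.R D.m + D.R D.m * D.m0 := by ring
  omega

theorem Geo.β_mono (hD : Geo D) {T k : ℕ} (hk : k ≤ D.m) : D.β T k ≤ D.β T (k + 1) := by
  have h1 := hD.β_lt (T := T) hk
  have h2 := hD.step hk
  have h3 : D.A (k + 1) ≤ D.β T (k + 1) := Nat.le_add_right _ _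
  omega

theorem Geo.Amono (hD : Geo D) {i k : ℕ} (h : i ≤ k) : D.A i ≤ D.A k :=
  Nat.mul_le_mul_right _ h

theorem Geo.β_mono' (hD : Geo D) {T i k : ℕ} (hik : i ≤ k) (hk : k ≤ D.m + 1) :
    D.β T i ≤ D.β T k := by
  induction k, hik using Nat.le_induction with
  | base => exact le_rfl
  | succ k _ ih => exact (ih (by omega)).trans (hD.β_mono (by omega))

/-- truth of the beliefs at a junction of level `i`. -/
theorem beliefs (hD : Geo D) {o o' i : ℕ} (him : i < D.m)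
    (h1 : D.lo i ≤ o) (h2 : o < D.lo i + D.R i * D.m0) (h3 : o' % D.R i = 0)
    (h4 : ∀ k, i < k → k ≤ D.m → o' % D.R k + D.R i * D.m0 ≤ D.R k) :
    (∀ k, k ≤ i → D.β (o + o') k = D.β o k) ∧
    (∀ k, i < k → k ≤ D.m → D.β (o + o') k = o + D.bR i k o') := by
  constructor
  · intro k hk
    unfold Dat.β
    congr 1
    have h5 : o' % D.R k = 0 := by
      obtain ⟨a, ha⟩ := Nat.dvd_of_mod_eq_zero h3
      obtain ⟨b, hb⟩ := hD.Rdvd k i hk
      rw [ha, hb, mul_assoc, Nat.mul_mod_right]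
    rw [Nat.add_mod, h5, add_zero, Nat.mod_mod]
  · intro k hk hkm
    unfold Dat.β Dat.bR
    have h5 := h4 k hk hkm
    obtain ⟨y, hy⟩ := Nat.exists_eq_add_of_le h1
    have hlo : D.R k ∣ D.lo i := (hD.Rdvd k D.m hkm).trans (hD.lo_dvd i)
    have h6 : (o + o') % D.R k = y + o' % D.R k := by
      obtain ⟨a, ha⟩ := hlo
      have h7 : (o + o') % D.R k = (y + o') % D.R k := by
        rw [hy, ha, show D.R k * a + y + o' = y + o' + D.R k * a by ring,
          Nat.add_mul_mod_self_left]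
      rw [h7, Nat.add_mod, Nat.mod_eq_of_lt (show y < D.R k by omega)]
      exact Nat.mod_eq_of_lt (by omega)
    rw [h6]
    have h8 := hD.step (i := i) him.le
    have h9 : D.A (i + 1) ≤ D.A k := hD.Amono hk
    omega

/-- reading a junction of level `i`. -/
theorem read (hD : Geo D) {P Q : List α} {i o' : ℕ} (him : i < D.m)
    (hq : D.q ∣ P.length)
    (h1 : D.lo i ≤ P.length / D.q) (h2 : P.length / D.q < D.lo i + D.R i * D.m0)
    (h3 : o' % D.R i = 0)
    (h4 : ∀ k, i < k → k ≤ D.m → o' % D.R k + D.R i * D.m0 ≤ D.R k)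
    {T : ℕ} (hT : T = P.length / D.q + o') :
    D.φ ((P ++ Q).take (D.q * D.β T i)) = D.φ (P.take (D.q * D.β (P.length / D.q) i)) ∧
    (∑ k ∈ range i, D.e k (D.φ (seg (P ++ Q) (D.q * D.β T k) (D.q * D.β T (k + 1))))) =
      (∑ k ∈ range i, D.e k (D.φ (seg P (D.q * D.β (P.length / D.q) k)
        (D.q * D.β (P.length / D.q) (k + 1))))) ∧
    D.φ ((P ++ Q).drop (D.q * D.β T (i + 1))) =
      D.φ (Q.drop (D.q * D.bR i (i + 1) o')) ∧
    (∑ k ∈ Ico (i + 1) D.m, D.e k (D.φ (seg (P ++ Q) (D.q * D.β T k) (D.q * D.β T (k + 1))))) =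
      ∑ k ∈ Ico (i + 1) D.m, D.e k (D.φ (seg Q (D.q * D.bR i k o') (D.q * D.bR i (k + 1) o'))) ∧
    D.φ (P ++ Q) = D.φ ((P ++ Q).take (D.q * D.β T i)) *
      D.φ (seg (P ++ Q) (D.q * D.β T i) (D.q * D.β T (i + 1))) *
      D.φ ((P ++ Q).drop (D.q * D.β T (i + 1))) ∧
    D.ww T (P ++ Q) = (∑ k ∈ range i, D.e k (D.φ (seg (P ++ Q) (D.q * D.β T k)
        (D.q * D.β T (k + 1))))) +
      D.e i (D.φ (seg (P ++ Q) (D.q * D.β T i) (D.q * D.β T (i + 1)))) +
      ∑ k ∈ Ico (i + 1) D.m, D.e k (D.φ (seg (P ++ Q) (D.q * D.β T k)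
        (D.q * D.β T (k + 1)))) := by
  obtain ⟨hb1, hb2⟩ := beliefs hD him h1 h2 h3 h4
  rw [← hT] at hb1 hb2
  obtain ⟨o, ho⟩ := hq
  have hPo : P.length / D.q = o := by rw [ho]; exact Nat.mul_div_cancel_left _ hD.qpos
  rw [hPo] at hb1 hb2 h1 h2 ⊢
  have hle : ∀ k, k ≤ i → D.q * D.β o k ≤ P.length := by
    intro k hk
    rw [ho]
    apply Nat.mul_le_mul_left
    have h5 := hD.β_lt (T := o) (show i ≤ D.m by omega)
    have h6 := hD.β_mono' (T := o) hk (by omega)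
    omega
  have hr : ∀ k, i < k → k ≤ D.m → D.q * D.β T k = P.length + D.q * D.bR i k o' := by
    intro k hk hkm
    rw [hb2 k hk hkm, ho, Nat.mul_add]
  refine ⟨?_, ?_, ?_, ?_, ?_, ?_⟩
  · rw [hb1 i le_rfl, List.take_append_of_le_length (hle i le_rfl)]
  · refine Finset.sum_congr rfl fun k hk => ?_
    have hk' := Finset.mem_range.1 hk
    rw [hb1 k hk'.le, hb1 (k + 1) hk',
      seg_left (Nat.mul_le_mul_left _ (hD.β_mono (by omega))) (hle (k + 1) hk')]
  · rw [hr (i + 1) (Nat.lt_succ_self i) him, drop_app_right]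
  · refine Finset.sum_congr rfl fun k hk => ?_
    obtain ⟨hk1, hk2⟩ := Finset.mem_Ico.1 hk
    rw [hr k (by omega) (by omega), hr (k + 1) (by omega) (by omega), seg_right]
  · have h5 : D.q * D.β T i ≤ D.q * D.β T (i + 1) :=
      Nat.mul_le_mul_left _ (hD.β_mono him.le)
    have h6 := seg_split (Y := P ++ Q) h5
    conv_lhs => rw [← h6]
    rw [hD.hφ, hD.hφ]
  · unfold Dat.ww
    rw [← Finset.sum_range_add_sum_Ico _ (show i + 1 ≤ D.m from him), Finset.sum_range_succ]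

/-- The name system. -/
structure Names (D : Dat α S V W) (good : ℕ → Prop) : Prop where
  n1 : ∀ T, good T → ∀ o o' c c', o + o' = T → D.LN o = some c → D.RN o' = some c' → c = c'
  n2 : ∀ T, good T → ∀ c, ∃ t, ∀ o o', o ≡ t [MOD D.m0] → o + o' = T →
    D.LN o = some c ∧ D.RN o' = some c
  n3 : ∀ T, ¬ good T → ∃ v0 r0 : V, ∀ o o' c c', o + o' = T → D.LN o = some c →
    D.RN o' = some c' → c.2.2.2.2.2 = v0 ∧ D.bb c' = r0

theorem clock_add (hD : Geo D) {P Q : List α} (h : D.q ∣ P.length) :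
    (P ++ Q).length / D.q = P.length / D.q + Q.length / D.q := by
  obtain ⟨o, ho⟩ := h
  rw [List.length_append, ho, Nat.mul_div_cancel_left _ hD.qpos, Nat.mul_add_div hD.qpos]

theorem exists_congr_ge (lo n z : ℕ) (hn : 0 < n) :
    ∃ o, lo ≤ o ∧ o < lo + n ∧ o ≡ z [MOD n] := by
  refine ⟨lo + (z + n * lo - lo) % n, Nat.le_add_right _ _,
    Nat.add_lt_add_left (Nat.mod_lt _ hn) _, ?_⟩
  have h1 : lo ≤ n * lo := Nat.le_mul_of_pos_left _ hn
  have h2 : lo + (z + n * lo - lo) = z + n * lo := by omega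
  have h3 : lo + (z + n * lo - lo) % n ≡ lo + (z + n * lo - lo) [MOD n] :=
    Nat.ModEq.add_left _ (Nat.mod_modEq _ _)
  rw [h2] at h3
  refine h3.trans ?_
  show (z + n * lo) % n = z % n
  exact Nat.add_mul_mod_self_left _ _ _

/-- left label (relation) -/
def Dat.Lf (D : Dat α S V W) (P : List α) (v : V) : Prop := ∃ c, D.LL c P ∧ v = c.2.2.2.2.2

/-- right label (relation) -/
def Dat.Rf (D : Dat α S V W) (Q : List α) (r : V) : Prop := ∃ c, D.RR c Q ∧ r = D.bb c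

/-- the gadget. -/
theorem gadget (D : Dat α S V W) (good : ℕ → Prop) (hD : Geo D) (hN : Names D good)
    (hF : ∀ s w v, ∃ i < D.m, ∀ g x h, g * x * h = s → ∀ z,
      D.F (g * z * h) (w - D.e i x + D.e i z) + D.act v (g * z * h) = D.F s w + D.act v s) :
    ∃ nu : List α → V,
      (∀ P Q v r, D.Lf P v → D.Rf Q r → r = D.act v (D.φ (P ++ Q)) + nu (P ++ Q)) ∧
      (∀ P v, D.Lf P v → D.q ∣ P.length ∧ P.length < D.q * (D.m * D.U)) ∧
      (∀ Y : List α, good (Y.length / D.q) → D.q * (D.m * D.U) ≤ Y.length →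
        (∀ k, 0 < k → k ≤ D.m → D.R (k - 1) * D.m0 ≤ (Y.length / D.q) % D.R k ∧
          (Y.length / D.q) % D.R k + D.R (k - 1) * D.m0 ≤ D.R k) →
        ∀ v, ∃ P Q, P ++ Q = Y ∧ D.Lf P v ∧ ∃ r, D.Rf Q r) := by
  classical
  have hn3 : ∀ T, ∃ v0 r0 : V, ¬ good T → ∀ o o' c c', o + o' = T → D.LN o = some c →
    D.RN o' = some c' → c.2.2.2.2.2 = v0 ∧ D.bb c' = r0 := by
    intro T
    by_cases h : good T
    · exact ⟨0, 0, fun h' => absurd h h'⟩
    · obtain ⟨v0, r0, h0⟩ := hN.n3 T h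
      exact ⟨v0, r0, fun _ => h0⟩
  choose v0 r0 h0 using hn3
  refine ⟨fun Y => if good (Y.length / D.q) then D.F (D.φ Y) (D.ww (Y.length / D.q) Y) else
    r0 (Y.length / D.q) - D.act (v0 (Y.length / D.q)) (D.φ Y), ?_, ?_, ?_⟩
  · rintro P Q v r ⟨c, hL, hv⟩ ⟨c', hR, hr⟩
    have hcl := clock_add (Q := Q) hD hL.2.1
    beta_reduce
    by_cases hg : good ((P ++ Q).length / D.q)
    · rw [if_pos hg]
      have hcc := hN.n1 _ hg _ _ _ _ hcl.symm hL.2.2.2.2.1 hR.2.1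
      subst hcc
      obtain ⟨hok, hq, ha1, ha2, -, hg1, hwl1⟩ := hL
      obtain ⟨-, -, hr1, hr2, hh1, hwr1⟩ := hR
      obtain ⟨e1, e2, e3, e4, e5, e6⟩ := read hD (Q := Q) c.1.2 hq ha1 ha2 hr1 hr2 hcl
      have := hok (D.φ (seg (P ++ Q) (D.q * D.β ((P ++ Q).length / D.q) c.1)
        (D.q * D.β ((P ++ Q).length / D.q) (c.1 + 1))))
      rw [e5, e6, e1, e2, e3, e4, ← hg1, ← hh1, ← hwl1, ← hwr1, hr, ← this, hv, add_comm]
    · rw [if_neg hg]
      obtain ⟨q1, q2⟩ := h0 _ hg _ _ _ _ hcl.symm hL.2.2.2.2.1 hR.2.1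
      rw [hr, q2, hv, ← q1]
      abel
  · rintro P v ⟨c, hL, -⟩
    refine ⟨hL.2.1, ?_⟩
    have h1 := hL.2.2.2.1
    have h2 := hD.step (i := (c.1 : ℕ)) c.1.2.le
    have h3 : D.A ((c.1 : ℕ) + 1) ≤ D.m * D.U := Nat.mul_le_mul_right _ c.1.2
    obtain ⟨o, ho⟩ := hL.2.1
    rw [ho, Nat.mul_div_cancel_left _ hD.qpos] at h1
    rw [ho]
    exact (Nat.mul_lt_mul_left hD.qpos).2 (by omega)
  · intro Y hg hlen hband v
    obtain ⟨i, him, hi⟩ := hF (D.φ Y) (D.ww (Y.length / D.q) Y) v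
    set T := Y.length / D.q with hTdef
    set g := D.φ (Y.take (D.q * D.β T i)) with hgdef
    set wl := ∑ k ∈ range i, D.e k (D.φ (seg Y (D.q * D.β T k) (D.q * D.β T (k + 1))))
      with hwldef
    set h := D.φ (Y.drop (D.q * D.β T (i + 1))) with hhdef
    set wr := ∑ k ∈ Ico (i + 1) D.m, D.e k (D.φ (seg Y (D.q * D.β T k)
      (D.q * D.β T (k + 1)))) with hwrdef
    have hTU : D.m * D.U ≤ T := by
      rw [hTdef, Nat.le_div_iff_mul_le hD.qpos, mul_comm]
      exact hlen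
    obtain ⟨t, ht⟩ := hN.n2 _ hg (⟨i, him⟩, g, wl, h, wr, v)
    obtain ⟨z, hz1, hz2⟩ := Nat.chineseRemainder (hD.cop i) T t
    obtain ⟨o, ho1, ho2, ho3⟩ := exists_congr_ge (D.lo i) (D.R i * D.m0) z
      (Nat.mul_pos (hD.Rpos i) hD.m0pos)
    have hstep := hD.step (i := i) him.le
    have hA1 : D.A (i + 1) ≤ D.m * D.U := Nat.mul_le_mul_right _ him
    have hoT : o ≤ T := by omega
    have hom : o ≡ t [MOD D.m0] :=
      (ho3.of_mul_left (D.R i)).trans hz2
    have hoR : o ≡ T [MOD D.R i] :=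
      (ho3.of_mul_right D.m0).trans hz1
    obtain ⟨hn1, hn2⟩ := ht o (T - o) hom (by omega)
    have hoY : o * D.q ≤ Y.length := (Nat.le_div_iff_mul_le hD.qpos).1 hoT
    set P := Y.take (o * D.q) with hP
    set Q := Y.drop (o * D.q) with hQ
    have hPQ : P ++ Q = Y := List.take_append_drop _ _
    have hPl : P.length = o * D.q := by
      rw [hP, List.length_take]; omega
    have hPd : D.q ∣ P.length := ⟨o, by rw [hPl, mul_comm]⟩
    have hPo : P.length / D.q = o := by rw [hPl]; exact Nat.mul_div_cancel _ hD.qpos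
    have hQo : Q.length / D.q = T - o := by
      have := clock_add (Q := Q) hD hPd
      rw [hPQ, hPo] at this
      omega
    have hR0 : (T - o) % D.R i = 0 := (Nat.modEq_iff_dvd' hoT).1 hoR |>.elim fun a ha => by
      rw [ha, Nat.mul_mod_right]
    have hRk : ∀ k, i < k → k ≤ D.m → (T - o) % D.R k + D.R i * D.m0 ≤ D.R k := by
      intro k hk hkm
      obtain ⟨hb1, hb2⟩ := hband k (by omega) hkm
      have hRik : D.R i * D.m0 ≤ D.R (k - 1) * D.m0 :=
        Nat.mul_le_mul_right _ (hD.Rle (by omega))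
      obtain ⟨y, hy⟩ := Nat.exists_eq_add_of_le ho1
      have hlo : D.R k ∣ D.lo i := (hD.Rdvd k D.m hkm).trans (hD.lo_dvd i)
      have hyT : y ≤ T % D.R k := by omega
      have h7 : (T - o) % D.R k = T % D.R k - y := by
        obtain ⟨a, ha⟩ := hlo
        have e1 : D.R k * (T / D.R k) + T % D.R k = T := Nat.div_add_mod T (D.R k)
        have hle : a ≤ T / D.R k := by
          rw [Nat.le_div_iff_mul_le (hD.Rpos k), mul_comm, ← ha]; omega
        obtain ⟨b, hb⟩ := Nat.exists_eq_add_of_le hle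
        have e2 : T - o = (T % D.R k - y) + D.R k * b := by
          rw [hb, Nat.mul_add] at e1
          omega
        rw [e2, Nat.add_mul_mod_self_left]
        exact Nat.mod_eq_of_lt (lt_of_le_of_lt (Nat.sub_le _ _) (Nat.mod_lt _ (hD.Rpos k)))
      omega
    obtain ⟨e1, e2, e3, e4, e5, e6⟩ := read hD (P := P) (Q := Q) (o' := T - o) (T := T) him hPd
      (by rw [hPo]; exact ho1) (by rw [hPo]; exact ho2) hR0 hRk (by rw [hPo]; omega)
    rw [hPQ] at e1 e2 e3 e4 e5 e6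
    rw [← hgdef] at e1
    rw [← hwldef] at e2
    rw [← hhdef] at e3
    rw [← hwrdef] at e4
    rw [← hgdef, ← hhdef] at e5
    rw [← hwldef, ← hwrdef] at e6
    have hall : ∀ z, D.F (g * z * h) (wl + D.e i z + wr) + D.act v (g * z * h) =
        D.F (D.φ Y) (D.ww T Y) + D.act v (D.φ Y) := by
      intro z
      have := hi g _ h e5.symm z
      rw [← this, e6]
      congr 2
      abel
    have hok : D.ok (⟨i, him⟩, g, wl, h, wr, v) := by
      intro z
      show D.F (g * z * h) (wl + D.e i z + wr) + D.act v (g * z * h) =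
        D.F (g * 1 * h) (wl + D.e i 1 + wr) + D.act v (g * 1 * h)
      rw [hall z, hall 1]
    refine ⟨P, Q, hPQ, ⟨(⟨i, him⟩, g, wl, h, wr, v), ⟨hok, hPd, ?_, ?_, ?_, ?_, ?_⟩, rfl⟩,
      _, (⟨i, him⟩, g, wl, h, wr, v), ⟨hok, ?_, ?_, ?_, ?_, ?_⟩, rfl⟩
    · rw [hPo]; exact ho1
    · rw [hPo]; exact ho2
    · rw [hPo]; exact hn1
    · exact e1
    · exact e2
    · rw [hQo]; exact hn2
    · rw [hQo]; exact hR0
    · rw [hQo]; exact hRk
    · rw [hQo]; exact e3
    · rw [hQo]; exact e4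

end Crest.Agent.R320.UG_658
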