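import Mathlib
import Crest.Agent.R320.Noise_513

/-!
# Row 320, TEAM U, leaf U3: the U-gadget on all words from clocks (U2) and the spoil count (U4)

`Clocks` is the conclusion of U2 (638 #13273), `SpoilStmt` the statement of U4.
-/

set_option autoImplicit false

namespace Crest.Agent.R320.UG_840

open Finset

def PP (R M0 M1 l : ℕ) := (R*M0) * (R*M1)^l
def beta (R M0 M1 m n l : ℕ) := PP R M0 M1 m * (3*l+2) + n % PP R M0 M1 l
def Bad (R M0 M1 m rho : ℕ) (Ms Ms1 : Finset ℕ) (n : ℕ) : Prop :=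
  (n % (R*M0) < M0 ∨ R*M0 ≤ n % (R*M0) + M0) ∨ (∃ k ∈ Ms, k ∣ n) ∨
    ∃ l < m, ((n / PP R M0 M1 l) % (R*M1) < M1 ∨ R*M1 ≤ (n / PP R M0 M1 l) % (R*M1) + M1) ∨
      rho ≤ (Ms1.filter (· ∣ n / PP R M0 M1 l)).card

/-- conclusion of U2 -/
def Clocks (m : ℕ) (Γ C : Type) (lv : Γ → ℕ) (col : Γ → C) (r : ℕ) : Prop :=
  ∀ B R : ℕ, 3 ≤ R → ∃ (Ms Ms1 : Finset ℕ) (rho M0 M1 : ℕ) (nmL nmR : ℕ → Option Γ)
    (bL bR : ℕ → ℕ → ℕ) (Gd : ℕ → Prop),
    (Ms.card ≤ r ∧ Ms1.card ≤ 32*rho ∧ 0 < rho ∧ (∀ k ∈ Ms, B < k ∧ Nat.Prime k ∧ k ∣ M0) ∧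
      (∀ k ∈ Ms1, B < k ∧ Nat.Prime k ∧ k ∣ M1) ∧ B < M0 ∧ B < M1) ∧
    (∀ t g, nmL t = some g → t < PP R M0 M1 m * (3*m+4)) ∧
    (∀ t g, nmR t = some g → PP R M0 M1 m * (3*m+4) ≤ t) ∧
    (∀ t t' g g', Gd (t+t') → nmL t = some g → nmR t' = some g' → g = g' ∧
      (∀ l ≤ lv g, bL t l = beta R M0 M1 m (t+t') l) ∧
      (∀ l, lv g < l → l ≤ m → bR t' l + beta R M0 M1 m (t+t') l = t+t') ∧
      beta R M0 M1 m (t+t') (lv g) ≤ t ∧ t ≤ beta R M0 M1 m (t+t') (lv g + 1)) ∧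
    (∀ t₁ t₁' t₂ t₂' g₁ g₁' g₂ g₂', ¬ Gd (t₁+t₁') → t₁+t₁' = t₂+t₂' → nmL t₁ = some g₁ →
      nmR t₁' = some g₁' → nmL t₂ = some g₂ → nmR t₂' = some g₂' →
      col g₁ = col g₂ ∧ col g₁' = col g₂') ∧
    (∀ n, 2*(PP R M0 M1 m * (3*m+4)) ≤ n → ¬ Bad R M0 M1 m rho Ms Ms1 n →
      Gd n ∧ ∀ g, ∃ t t', t+t' = n ∧ nmL t = some g ∧ nmR t' = some g)

open Classical in
/-- statement of U4 -/
def SpoilStmt : Prop :=
  ∀ (m r K Mp R M0 M1 rho : ℕ) (Ms Ms1 : Finset ℕ), 2^(K+10) ≤ Mp → 2^(K+10) ≤ R →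
    2^(K+10) ≤ M0 → 2^(K+10) ≤ M1 → (∀ k ∈ Ms, 2^(K+10) ≤ k ∧ k ∣ M0) →
    (∀ k ∈ Ms1, 2^(K+10) ≤ k ∧ k ∣ M1) → Ms.card ≤ r → Ms1.card ≤ 32*rho → 0 < rho →
    ∃ (x : ℕ → ℕ) (T0 : ℕ),
      (∀ a b c d, a < K → b < K → c < K → d < K →
        (Mp:ℤ) ∣ ((x a:ℤ) - x b) - (x c - x d) → (a = c ∧ b = d) ∨ (a = b ∧ c = d)) ∧
      ∀ T, T0 ≤ T → (((Finset.range K ×ˢ Finset.range K).filter (fun ab => ab.1 ≠ ab.2 ∧
        Bad R M0 M1 m rho Ms Ms1 ((T + x ab.1 - x ab.2) / Mp))).card ≤ 2 + r + 34*m)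

/-- factor of `u` between the positions `a` and `b` -/
def sg {α : Type*} (u : List α) (a b : ℕ) : List α := (u.drop a).take (b - a)

theorem sg_left {α : Type*} (p q : List α) {a b : ℕ} (hab : a ≤ b) (hb : b ≤ p.length) :
    sg (p ++ q) a b = sg p a b := by
  unfold sg
  rw [List.drop_append_of_le_length (hab.trans hb), List.take_append_of_le_length]
  rw [List.length_drop]
  omega

theorem sg_right {α : Type*} (p q : List α) {a b : ℕ} (ha : p.length ≤ a) :
    sg (p ++ q) a b = sg q (a - p.length) (b - p.length) := by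
  unfold sg
  rw [List.drop_append, List.drop_eq_nil_of_le ha, List.nil_append]
  congr 1
  omega

theorem take_sg_drop {α : Type*} (u : List α) {a b : ℕ} (hab : a ≤ b) :
    u.take a ++ sg u a b ++ u.drop b = u := by
  unfold sg
  have h1 : u.take a ++ (u.drop a).take (b - a) = u.take b := by
    have h2 : u.take b = u.take (a + (b - a)) := by congr 1; omega
    rw [h2, List.take_add]
  rw [h1, List.take_append_drop]

section
variable {S V W : Type} [Monoid S] [AddCommGroup V] [AddCommGroup W]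

/-- raw names -/
abbrev Nm (m : ℕ) (S V W : Type) := Fin m × (S × W) × (S × W) × V

def bb {m : ℕ} (act : V → S → V) (e : Fin m → S → W) (F : S → W → V) (c : Nm m S V W)
    (z : S) : V :=
  F (c.2.1.1 * z * c.2.2.1.1) (c.2.1.2 + e c.1 z + c.2.2.1.2) +
    act c.2.2.2 (c.2.1.1 * z * c.2.2.1.1)

def Good {m : ℕ} (act : V → S → V) (e : Fin m → S → W) (F : S → W → V) (c : Nm m S V W) :
    Prop := ∀ z, bb act e F c z = bb act e F c 1

/-- weights indexed by all naturals -/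
def ee {m : ℕ} (e : Fin m → S → W) (l : ℕ) (z : S) : W := if h : l < m then e ⟨l, h⟩ z else 0

theorem split_sum (f : ℕ → W) {i m : ℕ} (hi : i < m) :
    ∑ l ∈ range m, f l = ∑ l ∈ range i, f l + f i + ∑ l ∈ Ico (i+1) m, f l := by
  rw [range_eq_Ico, ← Finset.sum_Ico_consecutive f (Nat.zero_le (i+1)) hi,
    Finset.sum_Ico_succ_top (Nat.zero_le i), range_eq_Ico]

end

/-- geometry of one zone: the boundaries `β l`, `l ≤ m`, in a word `u`, cut at `p ++ q = u`
between `β i` and `β (i+1)` -/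
theorem mono_beta (R M0 M1 m n : ℕ) {l l' : ℕ} (h : l ≤ l') (hl : l' ≤ m) (hR : 0 < R)
    (hM0 : 0 < M0) (hM1 : 0 < M1) : beta R M0 M1 m n l ≤ beta R M0 M1 m n l' := by
  rcases h.lt_or_eq with h | h
  · unfold beta
    have h1 : PP R M0 M1 l ≤ PP R M0 M1 m := by
      unfold PP
      exact Nat.mul_le_mul le_rfl (Nat.pow_le_pow_right (Nat.mul_pos hR hM1) (by omega))
    have h2 : n % PP R M0 M1 l < PP R M0 M1 l := Nat.mod_lt _ (by unfold PP; positivity)
    have h3 : PP R M0 M1 m * (3*l+2) + PP R M0 M1 m ≤ PP R M0 M1 m * (3*l'+2) := by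
      have : PP R M0 M1 m * (3*l+2) + PP R M0 M1 m = PP R M0 M1 m * (3*l+3) := by ring
      rw [this]
      exact Nat.mul_le_mul le_rfl (by omega)
    omega
  · rw [h]

/-- weight of a word between boundaries -/
def wt {S W : Type} [AddCommGroup W] {m : ℕ} {α : Type} (e : Fin m → S → W) (ph : List α → S)
    (u : List α) (β : ℕ → ℕ) (I : Finset ℕ) : W :=
  ∑ l ∈ I, ee e l (ph (sg u (β l) (β (l+1))))

theorem wt_congr {S W : Type} [AddCommGroup W] {m : ℕ} {α : Type} (e : Fin m → S → W)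
    (ph : List α → S) (u u' : List α) (β β' : ℕ → ℕ) (I : Finset ℕ)
    (h : ∀ l ∈ I, sg u (β l) (β (l+1)) = sg u' (β' l) (β' (l+1))) :
    wt e ph u β I = wt e ph u' β' I := by
  unfold wt
  exact Finset.sum_congr rfl fun l hl => by rw [h l hl]

theorem zone_eq {S V W : Type} [Monoid S] [AddCommGroup V] [AddCommGroup W] {m : ℕ} {α : Type}
    (act : V → S → V) (e : Fin m → S → W) (F : S → W → V) (ph : List α → S)
    (hph : ∀ u v, ph (u ++ v) = ph u * ph v) (β : ℕ → ℕ) (u : List α) (c : Nm m S V W)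
    (hβ : β c.1 ≤ β ((c.1 : ℕ) + 1))
    (e1 : ph (u.take (β c.1)) = c.2.1.1) (e2 : wt e ph u β (range c.1) = c.2.1.2)
    (e3 : ph (u.drop (β ((c.1 : ℕ) + 1))) = c.2.2.1.1)
    (e4 : wt e ph u β (Ico ((c.1 : ℕ) + 1) m) = c.2.2.1.2) :
    c.2.1.1 * ph (sg u (β c.1) (β ((c.1 : ℕ) + 1))) * c.2.2.1.1 = ph u ∧
    c.2.1.2 + e c.1 (ph (sg u (β c.1) (β ((c.1 : ℕ) + 1)))) + c.2.2.1.2 =
      wt e ph u β (range m) := by
  constructor
  · rw [← e1, ← e3, ← hph, ← hph, take_sg_drop u hβ]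
  · unfold wt at e2 e4 ⊢
    rw [split_sum _ c.1.2, e2, e4]
    congr 2
    unfold ee
    rw [dif_pos c.1.2]

theorem UG (S V : Type) [Monoid S] [Finite S] [AddCommGroup V] [Finite V] (act : V → S → V)
    (hclocks : ∀ (m : ℕ) (Γ C : Type) [Finite Γ] [Finite C] (lv : Γ → ℕ)
      (_ : ∀ g, lv g < m) (col : Γ → C), ∃ r : ℕ, Clocks m Γ C lv col r)
    (hspoil : SpoilStmt) :
    ∃ C0 : ℕ, ∀ K Mp : ℕ, 2^(K+10) ≤ Mp → ∃ (N T0 : ℕ) (x : ℕ → ℕ) (Bd : ℕ → Prop),
      (∀ a b c d, a < K → b < K → c < K → d < K →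
        (Mp:ℤ) ∣ ((x a:ℤ) - x b) - (x c - x d) → (a = c ∧ b = d) ∨ (a = b ∧ c = d)) ∧
      (∀ T, T0 ≤ T → ∀ P : Finset (ℕ × ℕ), (∀ ab ∈ P, ab.1 < K ∧ ab.2 < K ∧ ab.1 ≠ ab.2 ∧
        Bd (T + x ab.1 - x ab.2)) → P.card ≤ C0) ∧
      ∀ (α : Type) (ph : List α → S), (∀ u v, ph (u ++ v) = ph u * ph v) →
        ∃ (lam rho : List α → Option V) (nu : List α → V),
          (∀ p v, lam p = some v → Mp ∣ p.length ∧ p.length ≤ N) ∧
          (∀ q r, rho q = some r → N ≤ q.length) ∧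
          (∀ p q v r, lam p = some v → rho q = some r →
            r = act v (ph (p ++ q)) + nu (p ++ q)) ∧
          (∀ u, 2 * N ≤ u.length → ¬ Bd u.length → ∀ v, ∃ p q, p ++ q = u ∧
            lam p = some v ∧ (rho q).isSome) := by
  classical
  obtain ⟨W, iW, fW, m, e, F, hF⟩ := Noise513.explicit_noise S V act
  have := Fintype.ofFinite S
  have := Fintype.ofFinite V
  let Γ : Type := {c : Nm m S V W // Good act e F c}
  let lv : Γ → ℕ := fun c => (c.1.1 : ℕ)
  let col : Γ → V × V := fun c => (c.1.2.2.2, bb act e F c.1 1)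
  obtain ⟨r, hr⟩ := hclocks m Γ (V × V) lv (fun g => g.1.1.2) col
  refine ⟨2 + r + 34 * m, fun K Mp hMp => ?_⟩
  obtain ⟨Ms, Ms1, rho, M0, M1, nmL, nmR, bL, bR, Gd, ⟨h1, h2, h3, h4, h5, h6, h7⟩, c1, c2,
    c3, c4, c5⟩ := hr (2^(K+10)) (2^(K+10)) (by
      have : 2^2 ≤ 2^(K+10) := Nat.pow_le_pow_right (by norm_num) (by omega)
      omega)
  obtain ⟨x, T0, hx, hT0⟩ := hspoil m r K Mp (2^(K+10)) M0 M1 rho Ms Ms1 hMp le_rfl h6.le h7.le
    (fun k hk => ⟨(h4 k hk).1.le, (h4 k hk).2.2⟩) (fun k hk => ⟨(h5 k hk).1.le, (h5 k hk).2.2⟩)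
    h1 h2 h3
  set R : ℕ := 2^(K+10) with hRdef
  have hR : 0 < R := by positivity
  have hM0 : 0 < M0 := by omega
  have hM1 : 0 < M1 := by omega
  have hMp0 : 0 < Mp := by omega
  refine ⟨Mp * (PP R M0 M1 m * (3*m+4)), T0, x,
    fun n => Bad R M0 M1 m rho Ms Ms1 (n / Mp), hx, ?_, ?_⟩
  · intro T hT P hP
    refine le_trans (Finset.card_le_card ?_) (hT0 T hT)
    intro ab hab
    obtain ⟨q1, q2, q3, q4⟩ := hP ab hab
    simp only [Finset.mem_filter, Finset.mem_product, Finset.mem_range]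
    exact ⟨⟨q1, q2⟩, q3, q4⟩
  intro α ph hph
  -- the weight of a word between boundaries
  let LL : List α → Γ → Prop := fun p γ => Mp ∣ p.length ∧ nmL (p.length / Mp) = some γ ∧
    ph (p.take (Mp * bL (p.length / Mp) (lv γ))) = γ.1.2.1.1 ∧
    wt e ph p (fun l => Mp * bL (p.length / Mp) l) (range (lv γ)) = γ.1.2.1.2
  let RR : List α → Γ → Prop := fun q γ => nmR (q.length / Mp) = some γ ∧
    ph (q.drop (q.length - (Mp * bR (q.length / Mp) (lv γ + 1) + q.length % Mp))) =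
      γ.1.2.2.1.1 ∧
    wt e ph q (fun l => q.length - (Mp * bR (q.length / Mp) l + q.length % Mp)) (Ico (lv γ + 1) m) =
      γ.1.2.2.1.2
  let bnd : ℕ → ℕ → ℕ := fun n l => Mp * beta R M0 M1 m n l
  let lam : List α → Option V := fun p =>
    if h : ∃ γ, LL p γ then some h.choose.1.2.2.2 else none
  let rh : List α → Option V := fun q =>
    if h : ∃ γ, RR q γ then some (bb act e F h.choose.1 1) else none
  let Pr : ℕ → Γ × Γ → Prop := fun n g => ∃ t t', t + t' = n ∧ nmL t = some g.1 ∧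
    nmR t' = some g.2
  let nu : List α → V := fun u =>
    if Gd (u.length / Mp) then F (ph u) (wt e ph u (bnd (u.length / Mp)) (range m))
    else if h : ∃ g, Pr (u.length / Mp) g then
      (bb act e F h.choose.2.1 1) - act (h.choose.1.1.2.2.2) (ph u)
    else 0
  have hlam : ∀ p v, lam p = some v → ∃ γ, LL p γ ∧ γ.1.2.2.2 = v := by
    intro p v hp
    by_cases h : ∃ γ, LL p γ
    · simp only [lam, dif_pos h, Option.some.injEq] at hp
      exact ⟨h.choose, h.choose_spec, hp⟩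
    · simp [lam, dif_neg h] at hp
  have hlam' : ∀ p γ, LL p γ → lam p = some γ.1.2.2.2 := by
    intro p γ hp
    have h : ∃ γ, LL p γ := ⟨γ, hp⟩
    have h2 := h.choose_spec
    have h3 : h.choose = γ := by
      have := h2.2.1
      rw [hp.2.1] at this
      exact (Option.some.inj this).symm
    simp only [lam, dif_pos h]
    rw [h3]
  have hrh : ∀ q b, rh q = some b → ∃ γ, RR q γ ∧ bb act e F γ.1 1 = b := by
    intro q b hq
    by_cases h : ∃ γ, RR q γ
    · simp only [rh, dif_pos h, Option.some.injEq] at hq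
      exact ⟨h.choose, h.choose_spec, hq⟩
    · simp [rh, dif_neg h] at hq
  have hrh' : ∀ q γ, RR q γ → (rh q).isSome := by
    intro q γ hq
    have h : ∃ γ, RR q γ := ⟨γ, hq⟩
    simp [rh, dif_pos h]
  refine ⟨lam, rh, nu, ?_, ?_, ?_, ?_⟩
  · intro p v hp
    obtain ⟨γ, hγ, -⟩ := hlam p v hp
    refine ⟨hγ.1, ?_⟩
    have hh := c1 _ _ hγ.2.1
    have h0 : p.length = Mp * (p.length / Mp) := (Nat.mul_div_cancel' hγ.1).symm
    rw [h0]
    exact Nat.mul_le_mul le_rfl hh.le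
  · intro q b hq
    obtain ⟨γ, hγ, -⟩ := hrh q b hq
    have hh := c2 _ _ hγ.1
    calc Mp * (PP R M0 M1 m * (3*m+4)) ≤ Mp * (q.length / Mp) := Nat.mul_le_mul le_rfl hh
      _ ≤ q.length := Nat.mul_div_le _ _
  · intro p q v b hp hq
    obtain ⟨γ, hγ, rfl⟩ := hlam p v hp
    obtain ⟨γ', hγ', rfl⟩ := hrh q b hq
    have hlen : (p ++ q).length / Mp = p.length / Mp + q.length / Mp := by
      rw [List.length_append]
      obtain ⟨k, hk⟩ := hγ.1
      rw [hk, Nat.mul_div_cancel_left _ hMp0, Nat.mul_add_div hMp0]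
    by_cases hG : Gd ((p ++ q).length / Mp)
    · have hnu : nu (p ++ q) = F (ph (p ++ q))
          (wt e ph (p ++ q) (bnd ((p ++ q).length / Mp)) (range m)) := if_pos hG
      rw [hnu]
      rw [hlen] at hG ⊢
      obtain ⟨hgg, hbl, hbr, hlo, hhi⟩ := c3 _ _ _ _ hG hγ.2.1 hγ'.1
      subst hgg
      have hi : lv γ < m := γ.1.1.2
      have hpl : p.length = Mp * (p.length / Mp) := (Nat.mul_div_cancel' hγ.1).symm
      have hql : q.length = Mp * (q.length / Mp) + q.length % Mp :=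
        (Nat.div_add_mod _ _).symm
      set t := p.length / Mp with ht
      set t' := q.length / Mp with ht'
      have hmono : ∀ l l', l ≤ l' → l' ≤ m → bnd (t + t') l ≤ bnd (t + t') l' := by
        intro l l' h1 h2
        exact Nat.mul_le_mul le_rfl (mono_beta R M0 M1 m _ h1 h2 hR hM0 hM1)
      have hbi : bnd (t + t') (lv γ) ≤ p.length := by
        rw [hpl]; exact Nat.mul_le_mul le_rfl hlo
      have hbi' : p.length ≤ bnd (t + t') (lv γ + 1) := by
        rw [hpl]; exact Nat.mul_le_mul le_rfl hhi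
      have hright : ∀ l, lv γ < l → l ≤ m →
          q.length - (Mp * bR t' l + q.length % Mp) = bnd (t + t') l - p.length := by
        intro l h1 h2
        have h3 := hbr l h1 h2
        have h4 : bnd (t + t') (lv γ + 1) ≤ bnd (t + t') l := hmono _ _ h1 h2
        have h5 : Mp * bR t' l + bnd (t + t') l = Mp * t + Mp * t' := by
          show Mp * bR t' l + Mp * _ = _
          rw [← Nat.mul_add, h3, Nat.mul_add]
        omega
      have z := zone_eq act e F ph hph (bnd (t + t')) (p ++ q) γ.1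
        (hmono _ _ (Nat.le_succ _) hi)
        (by
          rw [List.take_append_of_le_length hbi]
          have h := hγ.2.2.1
          rw [hbl (lv γ) le_rfl] at h
          exact h)
        (by
          rw [← hγ.2.2.2]
          refine wt_congr e ph _ _ _ _ _ fun l hl => ?_
          have hl' : l < lv γ := Finset.mem_range.1 hl
          rw [sg_left p q (hmono l (l+1) (Nat.le_succ _) (by omega))
            ((hmono (l+1) (lv γ) hl' hi.le).trans hbi)]
          simp only [bnd]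
          rw [hbl l hl'.le, hbl (l+1) hl'])
        (by
          rw [← hγ'.2.1]
          rw [hright (lv γ + 1) (Nat.lt_succ_self _) hi]
          show ph ((p ++ q).drop (bnd (t + t') (lv γ + 1))) = _
          rw [List.drop_append, List.drop_eq_nil_of_le hbi', List.nil_append])
        (by
          rw [← hγ'.2.2]
          refine wt_congr e ph _ _ _ _ _ fun l hl => ?_
          have hl' := Finset.mem_Ico.1 hl
          have hl1 : lv γ + 1 ≤ l := hl'.1
          rw [sg_right p q (hbi'.trans (hmono _ l hl1 hl'.2.le))]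
          rw [hright l hl1 hl'.2.le, hright (l+1) (by omega) hl'.2])
      have hgood := γ.2 (ph (sg (p ++ q) (bnd (t + t') γ.1.1) (bnd (t + t') ((γ.1.1 : ℕ) + 1))))
      rw [← hgood]
      unfold bb
      rw [z.1, z.2, add_comm]
    · have hex : ∃ g, Pr ((p ++ q).length / Mp) g :=
        ⟨(γ, γ'), _, _, hlen.symm, hγ.2.1, hγ'.1⟩
      have hnu : nu (p ++ q) = (bb act e F hex.choose.2.1 1) -
          act (hex.choose.1.1.2.2.2) (ph (p ++ q)) := by
        simp only [nu, if_neg hG, dif_pos hex]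
      rw [hnu]
      obtain ⟨t, t', htt, htl, htr⟩ := hex.choose_spec
      rw [hlen] at hG
      obtain ⟨k1, k2⟩ := c4 _ _ t t' _ _ _ _ hG (by rw [htt, hlen]) hγ.2.1 hγ'.1 htl htr
      have k3 : γ.1.2.2.2 = hex.choose.1.1.2.2.2 := congrArg Prod.fst k1
      have k4 : bb act e F γ'.1 1 = bb act e F hex.choose.2.1 1 := congrArg Prod.snd k2
      rw [← k3, ← k4]
      abel
  · intro u hu hB v
    set n := u.length / Mp with hn
    set A := PP R M0 M1 m * (3*m+4) with hA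
    have hnA : 2 * A ≤ n := by
      rw [hn, Nat.le_div_iff_mul_le hMp0]
      calc 2 * A * Mp = 2 * (Mp * A) := by ring
        _ ≤ u.length := hu
    have hmono : ∀ l l', l ≤ l' → l' ≤ m → bnd n l ≤ bnd n l' := by
      intro l l' h1 h2
      exact Nat.mul_le_mul le_rfl (mono_beta R M0 M1 m _ h1 h2 hR hM0 hM1)
    obtain ⟨i, hi⟩ := hF (ph u) (wt e ph u (bnd n) (range m)) v
    let c0 : Nm m S V W := (i, (ph (u.take (bnd n i)), wt e ph u (bnd n) (range i)),
      (ph (u.drop (bnd n ((i:ℕ)+1))), wt e ph u (bnd n) (Ico ((i:ℕ)+1) m)), v)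
    have z := zone_eq act e F ph hph (bnd n) u c0 (hmono _ _ (Nat.le_succ _) i.2) rfl rfl rfl rfl
    have hall : ∀ y, bb act e F c0 y = F (ph u) (wt e ph u (bnd n) (range m)) +
        act v (ph u) := by
      intro y
      have h3 := hi _ _ _ z.1 y
      rw [← h3]
      unfold bb
      congr 2
      rw [← z.2]
      abel
    have hok : Good act e F c0 := fun y => by rw [hall y, hall 1]
    obtain ⟨hG, hc⟩ := c5 n hnA hB
    obtain ⟨t, t', htt, hL, hR'⟩ := hc ⟨c0, hok⟩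
    obtain ⟨-, hbl, hbr, hlo, hhi⟩ := c3 t t' _ _ (by rw [htt]; exact hG) hL hR'
    have htn : t ≤ n := by omega
    have hul : u.length = Mp * n + u.length % Mp := (Nat.div_add_mod _ _).symm
    have hMpt : Mp * t ≤ u.length := by
      have := Nat.mul_le_mul (le_refl Mp) htn
      omega
    have hpl : (u.take (Mp * t)).length = Mp * t := by
      rw [List.length_take]; omega
    have hqlen : (u.drop (Mp * t)).length = Mp * t' + u.length % Mp := by
      rw [List.length_drop]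
      have : Mp * n = Mp * t + Mp * t' := by rw [← htt, Nat.mul_add]
      omega
    have hmod : u.length % Mp < Mp := Nat.mod_lt _ hMp0
    have hqd : (u.drop (Mp * t)).length / Mp = t' := by
      rw [hqlen, Nat.mul_add_div hMp0, Nat.div_eq_of_lt hmod, Nat.add_zero]
    have hqm : (u.drop (Mp * t)).length % Mp = u.length % Mp := by
      rw [hqlen, Nat.mul_add_mod, Nat.mod_mod]
    have hpd : (u.take (Mp * t)).length / Mp = t := by
      rw [hpl, Nat.mul_div_cancel_left _ hMp0]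
    have hu' : u.take (Mp * t) ++ u.drop (Mp * t) = u := List.take_append_drop _ _
    rw [htt] at hbl hbr hlo hhi
    have hlo' : bnd n i ≤ Mp * t := Nat.mul_le_mul le_rfl hlo
    have hhi' : Mp * t ≤ bnd n ((i:ℕ)+1) := Nat.mul_le_mul le_rfl hhi
    have hLL : LL (u.take (Mp * t)) ⟨c0, hok⟩ := by
      refine ⟨?_, ?_, ?_, ?_⟩
      · rw [hpl]; exact Dvd.intro _ rfl
      · rw [hpd]; exact hL
      · rw [hpd, hbl _ le_rfl]
        show ph ((u.take (Mp * t)).take (bnd n i)) = ph (u.take (bnd n i))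
        rw [List.take_take, min_eq_left hlo']
      · rw [hpd]
        show _ = wt e ph u (bnd n) (range i)
        refine wt_congr e ph _ _ _ _ _ fun l hl => ?_
        have hl' : l < (i:ℕ) := Finset.mem_range.1 hl
        rw [hbl l hl'.le, hbl (l+1) hl']
        conv_rhs => rw [← hu']
        rw [sg_left _ _ (hmono l (l+1) (Nat.le_succ _) (by have := i.2; omega))
          (by rw [hpl]; exact (hmono (l+1) i hl' i.2.le).trans hlo')]
    have hright : ∀ l, (i:ℕ) < l → l ≤ m →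
        (u.drop (Mp * t)).length - (Mp * bR t' l + u.length % Mp) = bnd n l - Mp * t := by
      intro l h1 h2
      have h3 := hbr l h1 h2
      have h4 : bnd n ((i:ℕ) + 1) ≤ bnd n l := hmono _ _ h1 h2
      have h5 : Mp * bR t' l + bnd n l = Mp * t + Mp * t' := by
        show Mp * bR t' l + Mp * _ = _
        rw [← Nat.mul_add, h3, ← htt, Nat.mul_add]
      rw [hqlen]
      omega
    have hRR : RR (u.drop (Mp * t)) ⟨c0, hok⟩ := by
      refine ⟨?_, ?_, ?_⟩
      · rw [hqd]; exact hR'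
      · rw [hqd, hqm, hright (lv ⟨c0, hok⟩ + 1) (Nat.lt_succ_self _) i.2]
        show ph ((u.drop (Mp * t)).drop (bnd n ((i:ℕ)+1) - Mp * t)) = ph (u.drop (bnd n ((i:ℕ)+1)))
        rw [List.drop_drop]
        congr 2
        omega
      · rw [hqd, hqm]
        show _ = wt e ph u (bnd n) (Ico ((i:ℕ)+1) m)
        refine wt_congr e ph _ _ _ _ _ fun l hl => ?_
        have hl' := Finset.mem_Ico.1 hl
        have hl1 : (i:ℕ) + 1 ≤ l := hl'.1
        rw [hright l hl1 hl'.2.le, hright (l+1) (by omega) hl'.2]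
        conv_rhs => rw [← hu']
        rw [sg_right _ _ (by rw [hpl]; exact hhi'.trans (hmono _ l hl1 hl'.2.le)), hpl]
    exact ⟨_, _, hu', hlam' _ _ hLL, hrh' _ _ hRR⟩

end Crest.Agent.R320.UG_840
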