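import Crest.Agent.R320.Noise_513

/-!
# Row 320, leaf U3 of helper638: the unit gadget on words from the clocks

`core` : from the explicit noise (helper513) and the clock package (leaf U2) we get the labels
`lam`, `rho` and the noise `nu` of the unit gadget on words, for an arbitrary multiplicative `phi`.
-/

set_option autoImplicit false

namespace Crest.Agent.R320.UG_873

section
variable {S V W : Type} [Monoid S] [AddCommGroup V] [AddCommGroup W]

/-- Contexts `(i, g, wl, h, wr, v)`. -/
structure Pre (S V W : Type) (m : ℕ) where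
  i : Fin m
  g : S
  wl : W
  h : S
  wr : W
  v : V

def Pre.at {m : ℕ} (act : V → S → V) (e : Fin m → S → W) (F : S → W → V) (c : Pre S V W m)
    (z : S) : V :=
  F (c.g * z * c.h) (c.wl + e c.i z + c.wr) + act c.v (c.g * z * c.h)

/-- Good contexts: the value does not depend on the unread letter. -/
def Gam {m : ℕ} (act : V → S → V) (e : Fin m → S → W) (F : S → W → V) : Type :=
  {c : Pre S V W m // ∀ z, c.at act e F z = c.at act e F 1}

instance {m : ℕ} (act : V → S → V) (e : Fin m → S → W) (F : S → W → V) [Finite S] [Finite V]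
    [Finite W] : Finite (Gam act e F) := by
  classical
  have : Finite (Pre S V W m) := by
    refine Finite.of_injective
      (fun c : Pre S V W m => (c.i, c.g, c.wl, c.h, c.wr, c.v)) ?_
    rintro ⟨a1, a2, a3, a4, a5, a6⟩ ⟨b1, b2, b3, b4, b5, b6⟩ hab
    simp only [Prod.mk.injEq] at hab
    obtain ⟨h1, h2, h3, h4, h5, h6⟩ := hab
    subst h1 h2 h3 h4 h5 h6
    rfl
  exact Subtype.finite

variable {m : ℕ} {act : V → S → V} {e : Fin m → S → W} {F : S → W → V}

def lv (c : Gam act e F) : ℕ := c.1.i

theorem lv_lt (c : Gam act e F) : lv c < m := c.1.i.2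

/-- the right value of a good context -/
def bval (c : Gam act e F) : V := c.1.at act e F 1

/-- the colour of a good context -/
def col (c : Gam act e F) : V × V := (c.1.v, bval c)

/-- weight at a natural level -/
def ex (e : Fin m → S → W) (l : ℕ) (s : S) : W := if h : l < m then e ⟨l, h⟩ s else 0

variable {α : Type}

/-- The factor of `u` between the places `a` and `b`. -/
def seg (u : List α) (a b : ℕ) : List α := (u.take b).drop a

theorem seg_append_left (p q : List α) {a b : ℕ} (hb : b ≤ p.length) :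
    seg (p ++ q) a b = seg p a b := by
  unfold seg
  rw [List.take_append_of_le_length hb]

theorem seg_append_right (p q : List α) {a b : ℕ} (ha : p.length ≤ a) (hab : a ≤ b) :
    seg (p ++ q) a b = seg q (a - p.length) (b - p.length) := by
  unfold seg
  rw [List.take_append, List.take_of_length_le (by omega : p.length ≤ b), List.drop_append,
    List.drop_of_length_le ha, List.nil_append]

theorem phi_split (phi : List α → S) (hphi : ∀ u v, phi (u ++ v) = phi u * phi v) (u : List α)
    {a b : ℕ} (hab : a ≤ b) :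
    phi u = phi (u.take a) * phi (seg u a b) * phi (u.drop b) := by
  have h1 : u = (u.take b) ++ u.drop b := (List.take_append_drop b u).symm
  have h2 : u.take b = u.take a ++ seg u a b := by
    unfold seg
    have := (List.take_append_drop a (u.take b)).symm
    rw [List.take_take, min_eq_left hab] at this
    exact this
  conv_lhs => rw [h1, h2, hphi, hphi]


/-- left data of a context -/
def LC (phi : List α → S) (Mp : ℕ) (bl : ℕ → ℕ) (p : List α) (c : Gam act e F) : Prop :=
  phi (p.take (Mp * bl (lv c))) = c.1.g ∧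
    ∑ l ∈ Finset.range (lv c), ex e l (phi (seg p (Mp * bl l) (Mp * bl (l + 1)))) = c.1.wl

/-- right data of a context; `br l` = suffix length in clock units -/
def RC (phi : List α → S) (Mp : ℕ) (br : ℕ → ℕ) (q : List α) (c : Gam act e F) : Prop :=
  phi (q.drop (q.length - (Mp * br (lv c + 1) + q.length % Mp))) = c.1.h ∧
    ∑ l ∈ Finset.Ico (lv c + 1) m,
      ex e l (phi (seg q (q.length - (Mp * br l + q.length % Mp))
        (q.length - (Mp * br (l + 1) + q.length % Mp)))) = c.1.wr

/-- total weight -/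
def wt (e : Fin m → S → W) (phi : List α → S) (Mp : ℕ) (b : ℕ → ℕ) (u : List α) : W :=
  ∑ l ∈ Finset.range m, ex e l (phi (seg u (Mp * b l) (Mp * b (l + 1))))

theorem wt_split (phi : List α → S) (Mp : ℕ) (b : ℕ → ℕ) (u : List α) {i : ℕ} (hi : i < m) :
    wt e phi Mp b u =
      ∑ l ∈ Finset.range i, ex e l (phi (seg u (Mp * b l) (Mp * b (l + 1)))) +
        ex e i (phi (seg u (Mp * b i) (Mp * b (i + 1)))) +
        ∑ l ∈ Finset.Ico (i + 1) m, ex e l (phi (seg u (Mp * b l) (Mp * b (l + 1)))) := by
  unfold wt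
  rw [← Finset.sum_range_succ, Finset.range_eq_Ico, Finset.range_eq_Ico]
  exact (Finset.sum_Ico_consecutive _ (Nat.zero_le _) hi).symm

/-- the truth of the left and right data gives the value of the whole unit -/
theorem value (phi : List α → S) (hphi : ∀ u v, phi (u ++ v) = phi u * phi v) {Mp : ℕ}
    (hMp : 0 < Mp) (b bl br : ℕ → ℕ) (p q : List α) (c : Gam act e F)
    (hmono : ∀ l, b l ≤ b (l + 1)) (hd : Mp ∣ p.length)
    (hbl : ∀ l ≤ lv c, bl l = b l)
    (hbr : ∀ l, lv c < l → l ≤ m → br l + b l = (p ++ q).length / Mp)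
    (h1 : b (lv c) ≤ p.length / Mp) (h2 : p.length / Mp ≤ b (lv c + 1))
    (hL : LC phi Mp bl p c) (hR : RC phi Mp br q c) :
    F (phi (p ++ q)) (wt e phi Mp b (p ++ q)) + act c.1.v (phi (p ++ q)) = bval c := by
  have hmono' : ∀ k l, k ≤ l → b k ≤ b l := fun k l h => monotone_nat_of_le_succ hmono h
  have hp : Mp * (p.length / Mp) = p.length := Nat.mul_div_cancel' hd
  have hpl : ∀ l, l ≤ lv c → Mp * b l ≤ p.length := by
    intro l hl
    calc Mp * b l ≤ Mp * (p.length / Mp) :=
          Nat.mul_le_mul_left _ ((hmono' l _ hl).trans h1)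
      _ = p.length := hp
  have hpr : ∀ l, lv c < l → p.length ≤ Mp * b l := by
    intro l hl
    calc p.length = Mp * (p.length / Mp) := hp.symm
      _ ≤ Mp * b l := Nat.mul_le_mul_left _ (h2.trans (hmono' _ l hl))
  have hq : q.length % Mp = (p ++ q).length % Mp := by
    rw [List.length_append]
    obtain ⟨k, hk⟩ := hd
    rw [hk, Nat.mul_add_mod]
  have hsuf : ∀ l, lv c < l → l ≤ m →
      Mp * br l + q.length % Mp + Mp * b l = p.length + q.length := by
    intro l hl hlm
    have h3 := hbr l hl hlm
    have h4 := Nat.div_add_mod (p ++ q).length Mp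
    rw [← h3, Nat.mul_add, ← hq, List.length_append] at h4
    omega
  have hq2 : ∀ l, lv c < l → l ≤ m →
      q.length - (Mp * br l + q.length % Mp) = Mp * b l - p.length := by
    intro l hl hlm
    have h3 := hsuf l hl hlm
    have h4 := hpr l hl
    omega
  set i := lv c with hi
  have him : i < m := lv_lt c
  -- the three parts
  have hg : phi ((p ++ q).take (Mp * b i)) = c.1.g := by
    rw [List.take_append_of_le_length (hpl i le_rfl), ← hbl i le_rfl]
    exact hL.1
  have hh : phi ((p ++ q).drop (Mp * b (i + 1))) = c.1.h := by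
    rw [List.drop_append, List.drop_of_length_le (hpr (i + 1) (Nat.lt_succ_self i)),
      List.nil_append, ← hq2 (i + 1) (Nat.lt_succ_self i) him]
    exact hR.1
  have hwl : ∑ l ∈ Finset.range i, ex e l (phi (seg (p ++ q) (Mp * b l) (Mp * b (l + 1)))) =
      c.1.wl := by
    rw [← hL.2]
    refine Finset.sum_congr rfl fun l hl => ?_
    have hl' : l < i := Finset.mem_range.1 hl
    rw [seg_append_left _ _ (hpl (l + 1) hl'), ← hbl l hl'.le, ← hbl (l + 1) hl']
  have hwr : ∑ l ∈ Finset.Ico (i + 1) m,
      ex e l (phi (seg (p ++ q) (Mp * b l) (Mp * b (l + 1)))) = c.1.wr := by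
    rw [← hR.2]
    refine Finset.sum_congr rfl fun l hl => ?_
    obtain ⟨hl1, hl2⟩ := Finset.mem_Ico.1 hl
    rw [seg_append_right _ _ (hpr l hl1) (Nat.mul_le_mul_left _ (hmono l)),
      hq2 l hl1 hl2.le, hq2 (l + 1) (by omega) hl2]
  rw [phi_split phi hphi (p ++ q) (Nat.mul_le_mul_left Mp (hmono i)), hg, hh,
    wt_split phi Mp b (p ++ q) him, hwl, hwr]
  have := c.2 (phi (seg (p ++ q) (Mp * b i) (Mp * b (i + 1))))
  unfold bval
  rw [← this]
  unfold Pre.at ex
  rw [dif_pos him]
  rfl

/-- **U3, core form.** -/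
theorem core (act : V → S → V) (m : ℕ) (e : Fin m → S → W) (F : S → W → V)
    (hF : ∀ (s : S) (w : W) (v : V), ∃ i : Fin m, ∀ g x h : S, g * x * h = s →
        ∀ z : S, F (g * z * h) (w - e i x + e i z) + act v (g * z * h) = F s w + act v s)
    (Mp : ℕ) (hMp : 0 < Mp) (beta : ℕ → ℕ → ℕ) (hmono : ∀ n l, beta n l ≤ beta n (l + 1))
    (Nn : ℕ) (nmL nmR : ℕ → Option (Gam act e F)) (bL bR : ℕ → ℕ → ℕ) (Gd Bad : ℕ → Prop)
    (h1 : ∀ t g, nmL t = some g → t < Nn) (h2 : ∀ t g, nmR t = some g → Nn ≤ t)
    (h3 : ∀ t t' g g', Gd (t + t') → nmL t = some g → nmR t' = some g' →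
      g = g' ∧ (∀ l ≤ lv g, bL t l = beta (t + t') l) ∧
      (∀ l, lv g < l → l ≤ m → bR t' l + beta (t + t') l = t + t') ∧
      beta (t + t') (lv g) ≤ t ∧ t ≤ beta (t + t') (lv g + 1))
    (h4 : ∀ t₁ t₁' t₂ t₂' g₁ g₁' g₂ g₂', ¬ Gd (t₁ + t₁') → t₁ + t₁' = t₂ + t₂' →
      nmL t₁ = some g₁ → nmR t₁' = some g₁' → nmL t₂ = some g₂ → nmR t₂' = some g₂' →
      col g₁ = col g₂ ∧ col g₁' = col g₂')
    (h5 : ∀ n, 2 * Nn ≤ n → ¬ Bad n → Gd n ∧ ∀ g, ∃ t t', t + t' = n ∧ nmL t = some g ∧
      nmR t' = some g)
    (phi : List α → S) (hphi : ∀ u v, phi (u ++ v) = phi u * phi v) :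
    ∃ (lam rho : List α → Option V) (nu : List α → V),
      (∀ p v, lam p = some v → Mp ∣ p.length ∧ p.length ≤ Mp * Nn) ∧
      (∀ q r, rho q = some r → Mp * Nn ≤ q.length) ∧
      (∀ p q v r, lam p = some v → rho q = some r → r = act v (phi (p ++ q)) + nu (p ++ q)) ∧
      (∀ u, 2 * (Mp * Nn) ≤ u.length → ¬ Bad (u.length / Mp) → ∀ v, ∃ p q, p ++ q = u ∧
        lam p = some v ∧ (rho q).isSome) := by
  classical
  -- labels
  let PL : List α → Gam act e F → Prop := fun p c =>
    Mp ∣ p.length ∧ nmL (p.length / Mp) = some c ∧ LC phi Mp (bL (p.length / Mp)) p c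
  let PR : List α → Gam act e F → Prop := fun q c =>
    nmR (q.length / Mp) = some c ∧ RC phi Mp (bR (q.length / Mp)) q c
  let lam : List α → Option V := fun p => if h : ∃ c, PL p c then some h.choose.1.v else none
  let rho : List α → Option V := fun q => if h : ∃ c, PR q c then some (bval h.choose) else none
  let J : ℕ → Gam act e F × Gam act e F → Prop := fun n cc =>
    ∃ t t', t + t' = n ∧ nmL t = some cc.1 ∧ nmR t' = some cc.2
  let nu : List α → V := fun u =>
    if Gd (u.length / Mp) then F (phi u) (wt e phi Mp (beta (u.length / Mp)) u)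
    else if h : ∃ cc, J (u.length / Mp) cc then
      bval h.choose.2 - act h.choose.1.1.v (phi u) else 0
  have hlam : ∀ p v, lam p = some v → ∃ c, PL p c ∧ c.1.v = v := by
    intro p v h
    by_cases hc : ∃ c, PL p c
    · refine ⟨hc.choose, hc.choose_spec, ?_⟩
      have : lam p = some hc.choose.1.v := dif_pos hc
      rw [this] at h
      exact Option.some.inj h
    · have : lam p = none := dif_neg hc
      rw [this] at h
      cases h
  have hrho : ∀ q r, rho q = some r → ∃ c, PR q c ∧ bval c = r := by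
    intro q r h
    by_cases hc : ∃ c, PR q c
    · refine ⟨hc.choose, hc.choose_spec, ?_⟩
      have : rho q = some (bval hc.choose) := dif_pos hc
      rw [this] at h
      exact Option.some.inj h
    · have : rho q = none := dif_neg hc
      rw [this] at h
      cases h
  refine ⟨lam, rho, nu, ?_, ?_, ?_, ?_⟩
  · intro p v h
    obtain ⟨c, ⟨hd, hn, _⟩, _⟩ := hlam p v h
    refine ⟨hd, ?_⟩
    have := h1 _ _ hn
    calc p.length = Mp * (p.length / Mp) := (Nat.mul_div_cancel' hd).symm
      _ ≤ Mp * Nn := Nat.mul_le_mul_left _ this.le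
  · intro q r h
    obtain ⟨c, ⟨hn, _⟩, _⟩ := hrho q r h
    have := h2 _ _ hn
    calc Mp * Nn ≤ Mp * (q.length / Mp) := Nat.mul_le_mul_left _ this
      _ ≤ q.length := Nat.mul_div_le _ _
  · intro p q v r hl hr
    obtain ⟨c, ⟨hd, hn, hL⟩, rfl⟩ := hlam p v hl
    obtain ⟨c', ⟨hn', hR⟩, rfl⟩ := hrho q r hr
    have hn3 : (p ++ q).length / Mp = p.length / Mp + q.length / Mp := by
      rw [List.length_append, Nat.add_div_of_dvd_right hd]
    by_cases hG : Gd ((p ++ q).length / Mp)
    · have hG' := hG
      rw [hn3] at hG'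
      obtain ⟨rfl, hb1, hb2, hb3, hb4⟩ := h3 _ _ _ _ hG' hn hn'
      have hval := value (act := act) (e := e) (F := F) phi hphi hMp
        (beta ((p ++ q).length / Mp)) (bL (p.length / Mp)) (bR (q.length / Mp)) p q c
        (hmono _) hd (by rw [hn3]; exact hb1) (by rw [hn3]; exact hb2) (by rw [hn3]; exact hb3)
        (by rw [hn3]; exact hb4) hL hR
      have : nu (p ++ q) = F (phi (p ++ q)) (wt e phi Mp (beta ((p ++ q).length / Mp)) (p ++ q)) :=
        if_pos hG
      rw [this, ← hval]
      abel
    · have hex : ∃ cc, J ((p ++ q).length / Mp) cc := ⟨(c, c'), _, _, hn3.symm, hn, hn'⟩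
      have : nu (p ++ q) = bval hex.choose.2 - act hex.choose.1.1.v (phi (p ++ q)) := by
        show (if Gd ((p ++ q).length / Mp) then _ else _) = _
        rw [if_neg hG, dif_pos hex]
      obtain ⟨t, t', ht, hc1, hc2⟩ := hex.choose_spec
      have hG' := hG
      rw [hn3] at hG'
      obtain ⟨k1, k2⟩ := h4 _ _ t t' c c' _ _ hG' (by rw [ht, hn3]) hn hn' hc1 hc2
      have e1 : c.1.v = hex.choose.1.1.v := congrArg Prod.fst k1
      have e2 : bval c' = bval hex.choose.2 := congrArg Prod.snd k2
      rw [this, ← e1, ← e2]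
      abel
  · intro u hu hB v
    set n := u.length / Mp with hn
    have hn2 : 2 * Nn ≤ n := by
      rw [hn, Nat.le_div_iff_mul_le hMp]
      calc 2 * Nn * Mp = 2 * (Mp * Nn) := by ring
        _ ≤ u.length := hu
    obtain ⟨hG, hav⟩ := h5 n hn2 hB
    obtain ⟨i, hi⟩ := hF (phi u) (wt e phi Mp (beta n) u) v
    let Z := phi (seg u (Mp * beta n i) (Mp * beta n (i + 1)))
    let c0 : Pre S V W m :=
      { i := i
        g := phi (u.take (Mp * beta n i))
        wl := ∑ l ∈ Finset.range (i : ℕ), ex e l (phi (seg u (Mp * beta n l) (Mp * beta n (l + 1))))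
        h := phi (u.drop (Mp * beta n (i + 1)))
        wr := ∑ l ∈ Finset.Ico ((i : ℕ) + 1) m,
          ex e l (phi (seg u (Mp * beta n l) (Mp * beta n (l + 1))))
        v := v }
    have hs : c0.g * Z * c0.h = phi u :=
      (phi_split phi hphi u (Nat.mul_le_mul_left Mp (hmono n i))).symm
    have hw : ∀ z, wt e phi Mp (beta n) u - e i Z + e i z = c0.wl + e i z + c0.wr := by
      intro z
      rw [wt_split phi Mp (beta n) u i.2]
      have : ex e i Z = e i Z := by unfold ex; rw [dif_pos i.2]
      show c0.wl + ex e i Z + c0.wr - e i Z + e i z = _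
      rw [this]
      abel
    have hgood : ∀ z, c0.at act e F z = F (phi u) (wt e phi Mp (beta n) u) + act v (phi u) := by
      intro z
      have := hi _ _ _ hs z
      rw [hw z] at this
      exact this
    let c : Gam act e F := ⟨c0, fun z => (hgood z).trans (hgood 1).symm⟩
    obtain ⟨t, t', htt, hnl, hnr⟩ := hav c
    have hG' : Gd (t + t') := by rw [htt]; exact hG
    obtain ⟨_, hb1, hb2, hb3, hb4⟩ := h3 t t' c c hG' hnl hnr
    rw [htt] at hb1 hb2 hb3 hb4
    have htu : Mp * t ≤ u.length := by
      calc Mp * t ≤ Mp * n := Nat.mul_le_mul_left _ (by omega)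
        _ ≤ u.length := Nat.mul_div_le _ _
    have hlp : (u.take (Mp * t)).length = Mp * t := by
      rw [List.length_take, min_eq_left htu]
    have hlq : (u.drop (Mp * t)).length = u.length - Mp * t := List.length_drop
    have hdp : (u.take (Mp * t)).length / Mp = t := by
      rw [hlp, Nat.mul_div_cancel_left _ hMp]
    have hdq : (u.drop (Mp * t)).length / Mp = t' := by
      rw [hlq, Nat.sub_mul_div]
      omega
    have hpq : u.take (Mp * t) ++ u.drop (Mp * t) = u := List.take_append_drop _ _
    have hmono' : ∀ k l, k ≤ l → beta n k ≤ beta n l := fun k l h =>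
      monotone_nat_of_le_succ (hmono n) h
    have hci : lv c = (i : ℕ) := rfl
    rw [hci] at hb1 hb2 hb3 hb4
    have hpl : ∀ l, l ≤ (i : ℕ) → Mp * beta n l ≤ (u.take (Mp * t)).length := by
      intro l hl
      rw [hlp]
      exact Nat.mul_le_mul_left _ ((hmono' l _ hl).trans hb3)
    have hpr : ∀ l, (i : ℕ) < l → (u.take (Mp * t)).length ≤ Mp * beta n l := by
      intro l hl
      rw [hlp]
      exact Nat.mul_le_mul_left _ (hb4.trans (hmono' _ l hl))
    have hPL : PL (u.take (Mp * t)) c := by
      refine ⟨by rw [hlp]; exact dvd_mul_right _ _, by rw [hdp]; exact hnl, ?_, ?_⟩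
      · rw [hdp, hci, hb1 _ le_rfl]
        have := hpl i le_rfl
        have h6 : (u.take (Mp * t)).take (Mp * beta n i) = u.take (Mp * beta n i) := by
          rw [List.take_take, min_eq_left (by rw [hlp] at this; exact this)]
        rw [h6]
      · rw [hdp, hci]
        refine Finset.sum_congr rfl fun l hl => ?_
        have hl' : l < (i : ℕ) := Finset.mem_range.1 hl
        rw [hb1 l hl'.le, hb1 (l + 1) hl', ← seg_append_left _ (u.drop (Mp * t)) (hpl (l + 1) hl'),
          hpq]
    have hPR : PR (u.drop (Mp * t)) c := by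
      have hq : (u.drop (Mp * t)).length % Mp = u.length % Mp := by
        have h6 : u.length = Mp * t + (u.drop (Mp * t)).length := by rw [hlq]; omega
        rw [h6, Nat.mul_add_mod]
      have hsuf : ∀ l, (i : ℕ) < l → l ≤ m →
          Mp * bR t' l + (u.drop (Mp * t)).length % Mp + Mp * beta n l = u.length := by
        intro l hl hlm
        have h7 := hb2 l hl hlm
        have h8 := Nat.div_add_mod u.length Mp
        rw [← hn, ← h7, Nat.mul_add, ← hq] at h8
        omega
      have hq2 : ∀ l, (i : ℕ) < l → l ≤ m →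
          (u.drop (Mp * t)).length - (Mp * bR t' l + (u.drop (Mp * t)).length % Mp) =
            Mp * beta n l - (u.take (Mp * t)).length := by
        intro l hl hlm
        have h7 := hsuf l hl hlm
        have h8 := hpr l hl
        rw [hlp] at h8 ⊢
        rw [hlq] at h7 ⊢
        omega
      refine ⟨by rw [hdq]; exact hnr, ?_, ?_⟩
      · rw [hdq, hci, hq2 _ (Nat.lt_succ_self _) i.2]
        have h6 : (u.drop (Mp * t)).drop (Mp * beta n (i + 1) - (u.take (Mp * t)).length) =
            u.drop (Mp * beta n (i + 1)) := by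
          rw [List.drop_drop]
          congr 1
          have := hpr (i + 1) (Nat.lt_succ_self _)
          rw [hlp] at this ⊢
          omega
        rw [h6]
      · rw [hdq, hci]
        refine Finset.sum_congr rfl fun l hl => ?_
        obtain ⟨hl1, hl2⟩ := Finset.mem_Ico.1 hl
        rw [hq2 l hl1 hl2.le, hq2 (l + 1) (by omega) hl2,
          ← seg_append_right _ _ (hpr l hl1) (Nat.mul_le_mul_left _ (hmono n l)), hpq]
    refine ⟨u.take (Mp * t), u.drop (Mp * t), hpq, ?_, ?_⟩
    · have hex : ∃ c, PL (u.take (Mp * t)) c := ⟨c, hPL⟩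
      have h6 : lam (u.take (Mp * t)) = some hex.choose.1.v := dif_pos hex
      have h7 : hex.choose = c := by
        have := hex.choose_spec.2.1
        rw [hPL.2.1] at this
        exact (Option.some.inj this).symm
      rw [h6, h7]
    · have hex : ∃ c, PR (u.drop (Mp * t)) c := ⟨c, hPR⟩
      have h6 : rho (u.drop (Mp * t)) = some (bval hex.choose) := dif_pos hex
      rw [h6]
      rfl
end

end Crest.Agent.R320.UG_873
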