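import Crest.Agent.R320.Fin_253
import Crest.Agent.R320.Sp_485
import Crest.Agent.R320.RegCongr_253
import Crest.Agent.R320.G1_444

/-!
# Row 320: `UGad` from g1 (lead #13673, G1_444) and the spoil leaf (Sp_485)  (helper253)
-/

set_option autoImplicit false

namespace Crest.Agent.R320.UGad_253

open Finset

theorem ugad : Fin_253.UGad := by
  classical
  intro S V _ _ _ _ act
  obtain ⟨m, r, h⟩ := G1_444.g1 S V act
  refine ⟨r + m, fun K => ?_⟩
  obtain ⟨Ms, M, hcard, hMs, hM, hb⟩ := h (2 ^ (K + 1))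
  obtain ⟨b, hbdef⟩ : ∃ b, b = M * (2 ^ (K + 4) + 8) + 1 := ⟨_, rfl⟩
  have hb1 : b = 2 ^ (K + 4) * M + 8 * M + 1 := by rw [hbdef]; ring
  have hp : 0 < 2 ^ (K + 4) := pow_pos (by norm_num) _
  have hp2 : 16 ≤ 2 ^ (K + 4) := by
    rw [pow_add]
    have : 1 ≤ 2 ^ K := Nat.one_le_two_pow
    omega
  have hpM : 16 * M ≤ 2 ^ (K + 4) * M := Nat.mul_le_mul_right _ hp2
  have hcop : Nat.Coprime b M := by
    rw [hbdef, Nat.coprime_comm]
    simp
  have h4 : 4 * M + 4 < b := by omega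
  obtain ⟨c, hc1, hc2, hc3, hc4, hc5, -⟩ := Sp_485.spoil Ms M m b K (b ^ m) hM
    (fun k hk => ⟨(hMs k hk).1.le, (hMs k hk).2.2⟩) hcop (by omega)
  have hcs : ∀ i < K, c i ≤ ∑ k ∈ Finset.range K, c k := fun i hi =>
    Finset.single_le_sum (f := c) (fun _ _ => Nat.zero_le _) (Finset.mem_range.2 hi)
  refine ⟨b ^ m, b ^ m + ∑ k ∈ Finset.range K, c k, c, Sp_485.Bad Ms M m b, ?_, ?_, ?_, ?_⟩
  · intro i j hij _
    exact hc1 hij
  · intro i j k l _ _ _ _ hij hkl hle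
    by_contra hne
    have := hc4 j i l k (Ne.symm hij) (fun h => hne ⟨h.2, h.1⟩)
    have h5 : (0 : ℤ) ≤ ((b ^ m : ℕ) : ℤ) := Int.natCast_nonneg _
    omega
  · intro T hT
    refine ⟨_, (hc5 T (fun i hi => by have := hcs i hi; omega)).trans (by omega), ?_⟩
    intro i j hi hj hij hB
    simp only [Finset.mem_filter, Finset.mem_product, Finset.mem_range]
    exact ⟨⟨hi, hj⟩, hij, hB⟩
  · intro α _ f
    obtain ⟨lam, rho, nu, g1, g2, g3, g4⟩ := hb b h4 hcop α f
    refine ⟨lam, rho, nu, fun p v hp => (g1 p v hp).le, g2, ?_, ?_⟩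
    · intro u hu hB v
      refine g3 u (fun k hk hd => hB (Or.inl ⟨k, hk, hd⟩)) (fun j hj => ?_) v
      by_contra hn
      exact hB (Or.inr ⟨j, hj, hn⟩)
    · intro y
      refine RegCongr_253.regular_of_congr f (b ^ m) (M * b ^ m) (Nat.mul_pos hM (pow_pos (by omega) _)) _ ?_
      intro q q' e1 e2 e3 e4 e5 hq
      have := (g4 q q' e1 e2 e3 e4 e5).2
      show nu q' = y
      rw [← this]
      exact hq

/-- **S0495** -/
theorem result (α : Type*) [Finite α] (L : Language α) (hL : L.IsRegular) :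
    ∃ e : Crest.RegLang.GRegExp α, e.height ≤ 3 ∧ e.lang = L :=
  Fin_253.row ugad α L hL


end Crest.Agent.R320.UGad_253
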