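import Mathlib

/-!
# Row 320: the U-gadget (no small walls, b-anchored nested grids of helper693) in helper709's
literal form `UG`, over `UG219.ugadget2` (helper252)
-/

set_option autoImplicit false

namespace Crest.Agent.R320.UGb_252

open Finset

section grid

variable (M Γ : ℕ)

/-- grid step of level `j` -/
def G (j : ℕ) : ℕ := Γ ^ j

/-- start of the band of boundary `j` -/
def Am : ℕ → ℕ
  | 0 => 0
  | j + 1 => Am j + Γ ^ j + M * Γ ^ j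

/-- sum of the cell lengths -/
def Cs : ℕ → ℕ
  | 0 => 0
  | j + 1 => Cs j + M * Γ ^ j

/-- boundary `j` for the clock value `T` -/
def bt (T j : ℕ) : ℕ := Am M Γ j + (T - Am M Γ j) % Γ ^ j

variable {M Γ}

theorem Am_succ (j : ℕ) : Am M Γ (j + 1) = Am M Γ j + Γ ^ j + M * Γ ^ j := rfl

theorem Am_mono : Monotone (Am M Γ) :=
  monotone_nat_of_le_succ fun j => by rw [Am_succ]; omega

theorem bt_lt (hΓ : 0 < Γ) (T j : ℕ) : bt M Γ T j < Am M Γ j + Γ ^ j := by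
  unfold bt
  have := Nat.mod_lt (T - Am M Γ j) (pow_pos hΓ j)
  omega

theorem bt_ge (T j : ℕ) : Am M Γ j ≤ bt M Γ T j := Nat.le_add_right _ _

theorem bt_le_succ (hΓ : 0 < Γ) (T j : ℕ) : bt M Γ T j ≤ bt M Γ T (j + 1) := by
  have h1 := bt_lt (M := M) hΓ T j
  have h2 := bt_ge (M := M) (Γ := Γ) T (j + 1)
  rw [Am_succ] at h2
  omega

/-- the left side knows the boundaries `j ≤ i` -/
theorem bt_left {o o' i j : ℕ} (hji : j ≤ i) (hd : Γ ^ i ∣ o') (ho : Am M Γ i ≤ o) :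
    bt M Γ (o + o') j = bt M Γ o j := by
  unfold bt
  have h1 : Am M Γ j ≤ o := (Am_mono hji).trans ho
  have h2 : Γ ^ j ∣ o' := (pow_dvd_pow Γ hji).trans hd
  obtain ⟨k, rfl⟩ := h2
  rw [show o + Γ ^ j * k - Am M Γ j = (o - Am M Γ j) + Γ ^ j * k by omega, Nat.add_mul_mod_self_left]

/-- the right side knows the distance of the boundaries `j > i` to the cut -/
theorem bt_right {o o' i j : ℕ} (hij : i < j) (h1 : Am M Γ i + Γ ^ i ≤ o)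
    (h2 : o < Am M Γ i + Γ ^ i + M * Γ ^ i) (h3 : Am M Γ j ≤ o')
    (h4 : (o' + (Am M Γ i + Γ ^ i) - Am M Γ j) % Γ ^ j + M * Γ ^ i ≤ Γ ^ j) :
    bt M Γ (o + o') j - o =
      (Am M Γ j - (Am M Γ i + Γ ^ i)) + (o' + (Am M Γ i + Γ ^ i) - Am M Γ j) % Γ ^ j ∧
      o ≤ bt M Γ (o + o') j := by
  have h5 : Am M Γ i + Γ ^ i + M * Γ ^ i ≤ Am M Γ j := by
    have := Am_mono (M := M) (Γ := Γ) (show i + 1 ≤ j from hij)
    rw [Am_succ] at this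
    exact this
  have e1 : o + o' - Am M Γ j = (o' + (Am M Γ i + Γ ^ i) - Am M Γ j) + (o - (Am M Γ i + Γ ^ i)) := by
    omega
  generalize hr : (o' + (Am M Γ i + Γ ^ i) - Am M Γ j) % Γ ^ j = r at h4 ⊢
  have e2 : (o + o' - Am M Γ j) % Γ ^ j = r + (o - (Am M Γ i + Γ ^ i)) := by
    rw [e1, Nat.add_mod, hr]
    have h6 : (o - (Am M Γ i + Γ ^ i)) % Γ ^ j = o - (Am M Γ i + Γ ^ i) :=
      Nat.mod_eq_of_lt (by omega)
    rw [h6]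
    exact Nat.mod_eq_of_lt (by omega)
  unfold bt
  rw [e2]
  constructor <;> omega

theorem Cs_lt (E : ℕ) (hE : Γ = M * E + 1) (j : ℕ) : Cs M Γ j * E < Γ ^ j := by
  induction j with
  | zero => simp [Cs]
  | succ j ih =>
    have e : (Cs M Γ j + M * Γ ^ j) * E = Cs M Γ j * E + M * E * Γ ^ j := by ring
    have e2 : Γ ^ (j + 1) = M * E * Γ ^ j + Γ ^ j := by
      rw [pow_succ]; nth_rw 2 [hE]; ring
    show (Cs M Γ j + M * Γ ^ j) * E < _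
    rw [e, e2]; omega

theorem Cs_ge {j : ℕ} (hj : 1 ≤ j) : M * Γ ^ (j - 1) ≤ Cs M Γ j := by
  obtain ⟨k, rfl⟩ : ∃ k, j = k + 1 := ⟨j - 1, by omega⟩
  show _ ≤ Cs M Γ k + M * Γ ^ k
  simp

/-- `Cs m ≡ Cs j` modulo the grid step `j` -/
theorem Cs_mod {j m : ℕ} (hjm : j ≤ m) : ∃ k, Cs M Γ m = Cs M Γ j + Γ ^ j * k := by
  obtain ⟨d, rfl⟩ := Nat.exists_eq_add_of_le hjm
  induction d with
  | zero => exact ⟨0, by simp⟩
  | succ d ih =>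
    obtain ⟨k, hk⟩ := ih (by omega)
    refine ⟨k + M * Γ ^ d, ?_⟩
    show Cs M Γ (j + d) + M * Γ ^ (j + d) = _
    rw [hk, pow_add]; ring

end grid

/-- powers of two have distinct differences -/
theorem golomb {a b a' b' : ℕ} (h : a ≠ b) (h' : a' ≠ b')
    (he : (2 : ℤ) ^ a - 2 ^ b = 2 ^ a' - 2 ^ b') : a = a' ∧ b = b' := by
  have key : ∀ {a b a' b' : ℕ}, a ≠ b → a' ≠ b' → b < a →
      (2 : ℤ) ^ a - 2 ^ b = 2 ^ a' - 2 ^ b' → a = a' ∧ b = b' := by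
    intro a b a' b' h h' hlt he
    have hpos : (0 : ℤ) < 2 ^ a - 2 ^ b := by
      have : (2 : ℤ) ^ b < 2 ^ a := pow_lt_pow_right₀ (by norm_num) hlt
      omega
    have hlt' : b' < a' := by
      have h1 : (2 : ℤ) ^ b' < 2 ^ a' := by omega
      exact (pow_lt_pow_iff_right₀ (by norm_num : (1 : ℤ) < 2)).1 h1
    obtain ⟨k, rfl⟩ : ∃ k, a = b + (k + 1) := ⟨a - b - 1, by omega⟩
    obtain ⟨l, rfl⟩ : ∃ l, a' = b' + (l + 1) := ⟨a' - b' - 1, by omega⟩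
    have hb : b = b' := by
      rcases lt_trichotomy b b' with hb | hb | hb
      · exfalso
        obtain ⟨c, rfl⟩ : ∃ c, b' = b + (c + 1) := ⟨b' - b - 1, by omega⟩
        have e : (2 : ℤ) ^ b * (2 * 2 ^ k - 1) =
            2 ^ b * (2 * (2 ^ c * (2 ^ (l + 1) - 1))) := by
          have := he
          simp only [pow_add, pow_one] at this ⊢
          linarith
        have e2 := mul_left_cancel₀ (pow_ne_zero b (by norm_num : (2 : ℤ) ≠ 0)) e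
        omega
      · exact hb
      · exfalso
        obtain ⟨c, rfl⟩ : ∃ c, b = b' + (c + 1) := ⟨b - b' - 1, by omega⟩
        have e : (2 : ℤ) ^ b' * (2 * 2 ^ l - 1) =
            2 ^ b' * (2 * (2 ^ c * (2 ^ (k + 1) - 1))) := by
          have := he
          simp only [pow_add, pow_one] at this ⊢
          linarith
        have e2 := mul_left_cancel₀ (pow_ne_zero b' (by norm_num : (2 : ℤ) ≠ 0)) e
        omega
    subst hb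
    refine ⟨?_, rfl⟩
    have : (2 : ℤ) ^ (b + (k + 1)) = 2 ^ (b + (l + 1)) := by linarith
    exact Nat.pow_right_injective (le_refl 2) (by exact_mod_cast this)
  rcases lt_or_gt_of_ne h with hlt | hlt
  · have hab : (2 : ℤ) ^ b - 2 ^ a = 2 ^ b' - 2 ^ a' := by linarith
    obtain ⟨h1, h2⟩ := key (Ne.symm h) (Ne.symm h') hlt hab
    exact ⟨h2, h1⟩
  · exact key h h' hlt he


/-- the bad clock values -/
def Bad (M Γ m : ℕ) (Ms : Finset ℕ) (T : ℕ) : Prop :=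
  (∃ p ∈ Ms, p ∣ T) ∨ ∃ j, (1 ≤ j ∧ j ≤ m) ∧
    ¬ (((M * Γ ^ (j - 1) : ℕ) : ℤ) ≤ ((T : ℤ) - (Am M Γ j : ℤ)) % ((Γ ^ j : ℕ) : ℤ) ∧
      ((T : ℤ) - (Am M Γ j : ℤ)) % ((Γ ^ j : ℕ) : ℤ) + ((M * Γ ^ (j - 1) : ℕ) : ℤ) ≤
        ((Γ ^ j : ℕ) : ℤ))

theorem bad_period {M Γ m : ℕ} {Ms : Finset ℕ} (hp : ∀ p ∈ Ms, p ∣ M) (T : ℕ) :
    Bad M Γ m Ms (T + M * Γ ^ m) ↔ Bad M Γ m Ms T := by
  unfold Bad
  refine or_congr ?_ ?_
  · constructor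
    · rintro ⟨p, h1, h2⟩
      exact ⟨p, h1, (Nat.dvd_add_left ((hp p h1).mul_right _)).1 h2⟩
    · rintro ⟨p, h1, h2⟩
      exact ⟨p, h1, (Nat.dvd_add_left ((hp p h1).mul_right _)).2 h2⟩
  · refine exists_congr fun j => ?_
    by_cases hj : 1 ≤ j ∧ j ≤ m
    · have e : (((T + M * Γ ^ m : ℕ) : ℤ) - (Am M Γ j : ℤ)) % ((Γ ^ j : ℕ) : ℤ) =
          ((T : ℤ) - (Am M Γ j : ℤ)) % ((Γ ^ j : ℕ) : ℤ) := by
        obtain ⟨k, hk⟩ : Γ ^ j ∣ M * Γ ^ m := (pow_dvd_pow Γ hj.2).mul_left _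
        rw [hk]
        push_cast
        rw [show (T : ℤ) + (Γ : ℤ) ^ j * (k : ℤ) - (Am M Γ j : ℤ) =
          ((T : ℤ) - (Am M Γ j : ℤ)) + (Γ : ℤ) ^ j * (k : ℤ) by ring, Int.add_mul_emod_self_left]
      rw [e]
    · simp only [hj, false_and]

theorem band_near {a c g : ℤ} (hg : 0 < g)
    (h : ¬ (c ≤ a % g ∧ a % g + c ≤ g)) : ∃ e : ℤ, |e| ≤ c ∧ g ∣ a - e := by
  have h1 := Int.emod_nonneg a hg.ne'
  have h2 := Int.emod_lt_of_pos a hg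
  by_cases h3 : c ≤ a % g
  · refine ⟨a % g - g, ?_, ?_⟩
    · rw [abs_le]
      constructor
      · by_contra hc
        exact h ⟨h3, by omega⟩
      · omega
    · have := Int.dvd_self_sub_emod (x := a) (m := g)
      have e : a - (a % g - g) = (a - a % g) + g := by ring
      rw [e]
      exact dvd_add this dvd_rfl
  · refine ⟨a % g, ?_, Int.dvd_self_sub_emod⟩
    rw [abs_of_nonneg h1]; omega

section thin

variable {M Γ K m X : ℕ} {Ms : Finset ℕ}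

theorem delta_lt {a b a' b' : ℕ} (ha : a < K) (hb : b < K) (ha' : a' < K) (hb' : b' < K) :
    |((2 : ℤ) ^ a - 2 ^ b) - (2 ^ a' - 2 ^ b')| < 2 ^ (K + 1) := by
  have key : ∀ {c : ℕ}, c < K → (0 : ℤ) < 2 ^ c ∧ (2 : ℤ) ^ c ≤ 2 ^ K := fun {c} hc =>
    ⟨by positivity, pow_le_pow_right₀ (by norm_num) hc.le⟩
  have h1 := key ha
  have h2 := key hb
  have h3 := key ha'
  have h4 := key hb'
  have h5 : (2 : ℤ) ^ (K + 1) = 2 * 2 ^ K := by rw [pow_succ]; ring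
  rw [abs_lt, h5]
  constructor <;> omega

theorem dvd_eq {p x y : ℤ} (h : p ∣ x) (e : x = y) : p ∣ y := e ▸ h

theorem one_prime {p T : ℕ} (hX : (M : ℤ) ∣ (X : ℤ) - 1) (hp : p ∣ M) (hpK : 2 ^ (K + 1) ≤ p)
    {a b a' b' : ℕ} (ha : a < K) (hb : b < K) (ha' : a' < K) (hb' : b' < K)
    (hab : a ≠ b) (hab' : a' ≠ b')
    (h : (p : ℤ) ∣ (T : ℤ) + X * 2 ^ a - X * 2 ^ b)
    (h' : (p : ℤ) ∣ (T : ℤ) + X * 2 ^ a' - X * 2 ^ b') : a = a' ∧ b = b' := by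
  have h1 : (p : ℤ) ∣ X * (((2 : ℤ) ^ a - 2 ^ b) - (2 ^ a' - 2 ^ b')) :=
    dvd_eq (dvd_sub h h') (by ring)
  have h2 : (p : ℤ) ∣ (X : ℤ) - 1 := (Int.natCast_dvd_natCast.2 hp).trans hX
  have h3 : (p : ℤ) ∣ ((2 : ℤ) ^ a - 2 ^ b) - (2 ^ a' - 2 ^ b') :=
    dvd_eq (dvd_sub h1 (h2.mul_right (((2 : ℤ) ^ a - 2 ^ b) - (2 ^ a' - 2 ^ b')))) (by ring)
  have h5 := Int.eq_zero_of_abs_lt_dvd h3
    ((delta_lt ha hb ha' hb').trans_le (by exact_mod_cast hpK))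
  exact golomb hab hab' (sub_eq_zero.1 h5)

theorem one_band {T j : ℕ} (hM : 0 < M) (hΓ : Γ = M * 2 ^ (K + 4) + 1) (hj : 1 ≤ j) (hjm : j ≤ m)
    (hX : ((Γ ^ m : ℕ) : ℤ) ∣ (X : ℤ) - 4 * Cs M Γ m)
    {a b a' b' : ℕ} (ha : a < K) (hb : b < K) (ha' : a' < K) (hb' : b' < K)
    (hab : a ≠ b) (hab' : a' ≠ b') {e e' : ℤ}
    (he : |e| ≤ ((M * Γ ^ (j - 1) : ℕ) : ℤ)) (he' : |e'| ≤ ((M * Γ ^ (j - 1) : ℕ) : ℤ))
    (h : ((Γ ^ j : ℕ) : ℤ) ∣ (T : ℤ) + X * 2 ^ a - X * 2 ^ b - Am M Γ j - e)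
    (h' : ((Γ ^ j : ℕ) : ℤ) ∣ (T : ℤ) + X * 2 ^ a' - X * 2 ^ b' - Am M Γ j - e') :
    a = a' ∧ b = b' := by
  set δ : ℤ := ((2 : ℤ) ^ a - 2 ^ b) - (2 ^ a' - 2 ^ b') with hδ
  have hΓ0 : 0 < Γ := by rw [hΓ]; omega
  have h1 : ((Γ ^ j : ℕ) : ℤ) ∣ X * δ - (e - e') :=
    dvd_eq (dvd_sub h h') (by rw [hδ]; ring)
  have h2 : ((Γ ^ j : ℕ) : ℤ) ∣ (X : ℤ) - 4 * Cs M Γ m :=
    (Int.natCast_dvd_natCast.2 (pow_dvd_pow Γ hjm)).trans hX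
  obtain ⟨k, hk⟩ := Cs_mod (M := M) (Γ := Γ) hjm
  have h3 : ((Γ ^ j : ℕ) : ℤ) ∣ (X : ℤ) - 4 * Cs M Γ j := by
    have e1 : (X : ℤ) - 4 * Cs M Γ j = ((X : ℤ) - 4 * Cs M Γ m) + ((Γ ^ j : ℕ) : ℤ) * (4 * k) := by
      rw [hk]; push_cast; ring
    rw [e1]
    exact dvd_add h2 (dvd_mul_right _ _)
  have h4 : ((Γ ^ j : ℕ) : ℤ) ∣ 4 * Cs M Γ j * δ - (e - e') :=
    dvd_eq (dvd_sub h1 (h3.mul_right δ)) (by ring)
  have hc : ((M * Γ ^ (j - 1) : ℕ) : ℤ) ≤ (Cs M Γ j : ℤ) := by exact_mod_cast Cs_ge hj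
  have hc0 : (0 : ℤ) < ((M * Γ ^ (j - 1) : ℕ) : ℤ) := by
    exact_mod_cast Nat.mul_pos hM (pow_pos hΓ0 _)
  have hlt : (Cs M Γ j : ℤ) * 2 ^ (K + 4) < ((Γ ^ j : ℕ) : ℤ) := by
    exact_mod_cast Cs_lt (2 ^ (K + 4)) hΓ j
  have hd := delta_lt ha hb ha' hb'
  rw [← hδ] at hd
  have hE : (2 : ℤ) ^ (K + 4) = 8 * 2 ^ (K + 1) := by rw [pow_add, pow_add]; ring
  have hE1 : (1 : ℤ) ≤ 2 ^ K := one_le_pow₀ (by norm_num)
  have hE2 : (2 : ℤ) ^ (K + 1) = 2 * 2 ^ K := by rw [pow_succ]; ring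
  have hee : |e - e'| ≤ 2 * (Cs M Γ j : ℤ) := by
    have := abs_sub e e'
    omega
  have hC0 : (0 : ℤ) < (Cs M Γ j : ℤ) := by omega
  have h5 : 4 * (Cs M Γ j : ℤ) * δ - (e - e') = 0 := by
    refine Int.eq_zero_of_abs_lt_dvd h4 ?_
    have h6 : |4 * (Cs M Γ j : ℤ) * δ| ≤ 4 * (Cs M Γ j : ℤ) * 2 ^ (K + 1) := by
      rw [abs_mul, abs_of_pos (by positivity : (0 : ℤ) < 4 * (Cs M Γ j : ℤ))]
      exact mul_le_mul_of_nonneg_left hd.le (by positivity)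
    have h7 := abs_sub (4 * (Cs M Γ j : ℤ) * δ) (e - e')
    have h8 : (Cs M Γ j : ℤ) * 2 ^ (K + 4) = 8 * ((Cs M Γ j : ℤ) * 2 ^ (K + 1)) := by
      rw [hE]; ring
    have h9 : (Cs M Γ j : ℤ) ≤ (Cs M Γ j : ℤ) * 2 ^ (K + 1) := by
      rw [hE2]; nlinarith
    have h10 : 4 * (Cs M Γ j : ℤ) * 2 ^ (K + 1) = 4 * ((Cs M Γ j : ℤ) * 2 ^ (K + 1)) := by ring
    omega
  have h6 : δ = 0 := by
    by_contra hne
    have h7 : 1 ≤ |δ| := Int.one_le_abs hne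
    have h8 : |4 * (Cs M Γ j : ℤ) * δ| = 4 * (Cs M Γ j : ℤ) * |δ| := by
      rw [abs_mul, abs_of_pos (by positivity : (0 : ℤ) < 4 * (Cs M Γ j : ℤ))]
    have h9 : 4 * (Cs M Γ j : ℤ) * δ = e - e' := by omega
    rw [h9] at h8
    nlinarith
  exact golomb hab hab' (sub_eq_zero.1 h6)

open Classical in
theorem thin {T : ℕ} (hM : 0 < M) (hΓ : Γ = M * 2 ^ (K + 4) + 1)
    (hp : ∀ p ∈ Ms, p ∣ M ∧ 2 ^ (K + 1) ≤ p)
    (hX1 : (M : ℤ) ∣ (X : ℤ) - 1) (hX : ((Γ ^ m : ℕ) : ℤ) ∣ (X : ℤ) - 4 * Cs M Γ m)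
    (hT : ∀ k < K, X * 2 ^ k ≤ T) :
    ((range K ×ˢ range K).filter (fun ab : ℕ × ℕ => ab.1 ≠ ab.2 ∧
      Bad M Γ m Ms (T + X * 2 ^ ab.1 - X * 2 ^ ab.2))).card ≤ Ms.card + m := by
  have hΓ0 : 0 < Γ := by rw [hΓ]; omega
  have cast : ∀ a b : ℕ, b < K → ((T + X * 2 ^ a - X * 2 ^ b : ℕ) : ℤ) =
      (T : ℤ) + X * 2 ^ a - X * 2 ^ b := by
    intro a b hb
    have := hT b hb
    rw [Nat.cast_sub (by omega)]
    push_cast
    ring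
  let P : ℕ → Finset (ℕ × ℕ) := fun p => (range K ×ˢ range K).filter (fun ab : ℕ × ℕ =>
    ab.1 ≠ ab.2 ∧ p ∣ T + X * 2 ^ ab.1 - X * 2 ^ ab.2)
  let Q : ℕ → Finset (ℕ × ℕ) := fun j => (range K ×ˢ range K).filter (fun ab : ℕ × ℕ =>
    ab.1 ≠ ab.2 ∧ ∃ e : ℤ, |e| ≤ ((M * Γ ^ (j - 1) : ℕ) : ℤ) ∧
      ((Γ ^ j : ℕ) : ℤ) ∣ (T : ℤ) + X * 2 ^ ab.1 - X * 2 ^ ab.2 - Am M Γ j - e)
  have hP : ∀ p ∈ Ms, (P p).card ≤ 1 := by
    intro p hpM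
    rw [Finset.card_le_one]
    rintro ⟨a, b⟩ h ⟨a', b'⟩ h'
    simp only [P, mem_filter, mem_product, mem_range] at h h'
    obtain ⟨⟨h1, h2⟩, h3, h4⟩ := h
    obtain ⟨⟨h1', h2'⟩, h3', h4'⟩ := h'
    have h5 := Int.natCast_dvd_natCast.2 h4
    have h5' := Int.natCast_dvd_natCast.2 h4'
    rw [cast _ _ h2] at h5
    rw [cast _ _ h2'] at h5'
    obtain ⟨e1, e2⟩ := one_prime hX1 (hp p hpM).1 (hp p hpM).2 h1 h2 h1' h2' h3 h3' h5 h5'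
    rw [e1, e2]
  have hQ : ∀ j ∈ Icc 1 m, (Q j).card ≤ 1 := by
    intro j hj
    rw [mem_Icc] at hj
    rw [Finset.card_le_one]
    rintro ⟨a, b⟩ h ⟨a', b'⟩ h'
    simp only [Q, mem_filter, mem_product, mem_range] at h h'
    obtain ⟨⟨h1, h2⟩, h3, e, h4, h5⟩ := h
    obtain ⟨⟨h1', h2'⟩, h3', e', h4', h5'⟩ := h'
    obtain ⟨e1, e2⟩ := one_band hM hΓ hj.1 hj.2 hX h1 h2 h1' h2' h3 h3' h4 h4' h5 h5'
    rw [e1, e2]
  have hsub : (range K ×ˢ range K).filter (fun ab : ℕ × ℕ => ab.1 ≠ ab.2 ∧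
      Bad M Γ m Ms (T + X * 2 ^ ab.1 - X * 2 ^ ab.2)) ⊆ Ms.biUnion P ∪ (Icc 1 m).biUnion Q := by
    rintro ⟨a, b⟩ h
    rw [mem_filter, mem_product, mem_range, mem_range] at h
    obtain ⟨⟨h1, h2⟩, h3, h4⟩ := h
    rw [mem_union, mem_biUnion, mem_biUnion]
    rcases h4 with ⟨p, hp1, hp2⟩ | ⟨j, hj, hb⟩
    · left
      refine ⟨p, hp1, ?_⟩
      simp only [P, mem_filter, mem_product, mem_range]
      exact ⟨⟨h1, h2⟩, h3, hp2⟩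
    · right
      refine ⟨j, mem_Icc.2 hj, ?_⟩
      simp only [Q, mem_filter, mem_product, mem_range]
      refine ⟨⟨h1, h2⟩, h3, ?_⟩
      obtain ⟨e, he1, he2⟩ := band_near (by exact_mod_cast pow_pos hΓ0 j) hb
      refine ⟨e, he1, ?_⟩
      simp only at he2
      rw [cast _ _ h2] at he2
      exact he2
  calc _ ≤ (Ms.biUnion P ∪ (Icc 1 m).biUnion Q).card := card_le_card hsub
    _ ≤ (Ms.biUnion P).card + ((Icc 1 m).biUnion Q).card := card_union_le _ _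
    _ ≤ Ms.card * 1 + (Icc 1 m).card * 1 :=
      add_le_add (card_biUnion_le_card_mul _ _ _ hP) (card_biUnion_le_card_mul _ _ _ hQ)
    _ = Ms.card + m := by simp

end thin


end Crest.Agent.R320.UGb_252
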