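import Crest.Agent.R320.Noise_513

/-!
Row 320, leaf U3 (helper638, #13273), core: from abstract clocks (names with T-dependent boundaries)
and the explicit noise to the U-gadget on words: `lam`, `rho`, `nu`, sound for all pairs,
complete for good lengths.
-/

set_option autoImplicit false

namespace Crest.Agent.R320.UG250

section seg
variable {α S : Type} [Monoid S] (phi : List α → S)

/-- value of the factor of `u` between the places `a` and `b` -/
def seg (u : List α) (a b : ℕ) : S := phi ((u.take b).drop a)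

theorem take_drop_aux (u : List α) {a b c : ℕ} (hab : a ≤ b) (hbc : b ≤ c) :
    (u.take b).drop a ++ (u.take c).drop b = (u.take c).drop a := by
  have h1 : (u.take c).take b = u.take b := by rw [List.take_take, min_eq_left hbc]
  conv_rhs => rw [← List.take_append_drop b (u.take c), List.drop_append]
  rw [h1]
  congr 1
  rcases Nat.lt_or_ge (u.take b).length a with h | h
  · have h2 : (u.take c).drop b = [] := by
      rw [List.drop_eq_nil_iff]
      rw [List.length_take] at h ⊢
      have : u.length < a := by omega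
      omega
    rw [h2]; simp
  · rw [Nat.sub_eq_zero_of_le h]; rfl

variable {phi}

theorem seg_mul (hphi : ∀ u v, phi (u ++ v) = phi u * phi v) (u : List α) {a b c : ℕ}
    (hab : a ≤ b) (hbc : b ≤ c) : seg phi u a b * seg phi u b c = seg phi u a c := by
  unfold seg
  rw [← hphi, take_drop_aux u hab hbc]

theorem seg_all (u : List α) : seg phi u 0 u.length = phi u := by simp [seg]

theorem seg_left (p q : List α) {a b : ℕ} (hb : b ≤ p.length) :
    seg phi (p ++ q) a b = seg phi p a b := by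
  unfold seg
  rw [List.take_append_of_le_length hb]

theorem seg_right (p q : List α) {a b : ℕ} (ha : p.length ≤ a) (hb : a ≤ b) :
    seg phi (p ++ q) a b = seg phi q (a - p.length) (b - p.length) := by
  unfold seg
  rw [List.take_append, List.drop_append, List.take_of_length_le (le_trans ha hb),
    List.drop_eq_nil_of_le ha, List.nil_append]

end seg

section core
variable {S V W : Type} [Monoid S] [AddCommGroup V] [AddCommGroup W] {m : ℕ}

/-- contexts `(i, g, wl, h, wr, v)` -/
abbrev Ctx (m : ℕ) (S V W : Type) : Type := Fin m × S × W × S × W × V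

def cval (act : V → S → V) (e : Fin m → S → W) (F : S → W → V) (c : Ctx m S V W) (z : S) : V :=
  F (c.2.1 * z * c.2.2.2.1) (c.2.2.1 + e c.1 z + c.2.2.2.2.1)
    + act c.2.2.2.2.2 (c.2.1 * z * c.2.2.2.1)

/-- the used contexts -/
def Gam (act : V → S → V) (e : Fin m → S → W) (F : S → W → V) : Type :=
  {c : Ctx m S V W // ∀ z z', cval act e F c z = cval act e F c z'}

instance (act : V → S → V) (e : Fin m → S → W) (F : S → W → V) [Finite S] [Finite V] [Finite W] :
    Finite (Gam act e F) := by unfold Gam; infer_instance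

variable {act : V → S → V} {e : Fin m → S → W} {F : S → W → V}

def Gam.lv (c : Gam act e F) : ℕ := c.1.1
def Gam.v (c : Gam act e F) : V := c.1.2.2.2.2.2
def Gam.b (c : Gam act e F) : V := cval act e F c.1 1

variable {α : Type} (phi : List α → S) (Mp : ℕ) (nmL nmR : ℕ → Option (Gam act e F))
  (bL bR beta : ℕ → ℕ → ℕ) (Gd : ℕ → Prop)

/-- left data of the context `c` at a left word with clock `t` -/
def DL (c : Gam act e F) (p : List α) (t : ℕ) : Prop :=
  seg phi p 0 (Mp * bL t c.1.1) = c.1.2.1 ∧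
  ∑ l ∈ Finset.univ.filter (fun l : Fin m => l < c.1.1),
    e l (seg phi p (Mp * bL t l) (Mp * bL t (l + 1))) = c.1.2.2.1

/-- place of the boundary `l` in a right word -/
def ps (q : List α) (l : ℕ) : ℕ := q.length - (Mp * bR (q.length / Mp) l + q.length % Mp)

/-- right data -/
def DR (c : Gam act e F) (q : List α) : Prop :=
  seg phi q (ps Mp bR q (c.1.1 + 1)) q.length = c.1.2.2.2.1 ∧
  ∑ l ∈ Finset.univ.filter (fun l : Fin m => c.1.1 < l),
    e l (seg phi q (ps Mp bR q l) (ps Mp bR q (l + 1))) = c.1.2.2.2.2.1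

open Classical in
noncomputable def lam (p : List α) : Option V :=
  if h : Mp ∣ p.length ∧ ∃ c, nmL (p.length / Mp) = some c ∧ DL phi Mp bL c p (p.length / Mp)
  then some h.2.choose.v else none

open Classical in
noncomputable def rho (q : List α) : Option V :=
  if h : ∃ c, nmR (q.length / Mp) = some c ∧ DR phi Mp bR c q
  then some h.choose.b else none

theorem lam_some {p : List α} {v : V} (h : lam phi Mp nmL bL p = some v) :
    Mp ∣ p.length ∧ ∃ c : Gam act e F, nmL (p.length / Mp) = some c ∧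
      DL phi Mp bL c p (p.length / Mp) ∧ v = c.v := by
  unfold lam at h
  split_ifs at h with h1
  · refine ⟨h1.1, h1.2.choose, h1.2.choose_spec.1, h1.2.choose_spec.2, ?_⟩
    exact (Option.some_injective _ h).symm

theorem lam_mk {p : List α} (h0 : Mp ∣ p.length) (c : Gam act e F)
    (h1 : nmL (p.length / Mp) = some c) (h2 : DL phi Mp bL c p (p.length / Mp)) :
    lam phi Mp nmL bL p = some c.v := by
  have hex : Mp ∣ p.length ∧ ∃ c, nmL (p.length / Mp) = some c ∧
    DL phi Mp bL c p (p.length / Mp) := ⟨h0, c, h1, h2⟩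
  unfold lam
  rw [dif_pos hex]
  have h3 : hex.2.choose = c := Option.some_injective _ (hex.2.choose_spec.1.symm.trans h1)
  rw [h3]

theorem rho_some {q : List α} {v : V} (h : rho phi Mp nmR bR q = some v) :
    ∃ c : Gam act e F, nmR (q.length / Mp) = some c ∧ DR phi Mp bR c q ∧ v = c.b := by
  unfold rho at h
  split_ifs at h with h1
  · refine ⟨h1.choose, h1.choose_spec.1, h1.choose_spec.2, ?_⟩
    exact (Option.some_injective _ h).symm

theorem rho_mk {q : List α} (c : Gam act e F)
    (h1 : nmR (q.length / Mp) = some c) (h2 : DR phi Mp bR c q) :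
    (rho phi Mp nmR bR q).isSome := by
  have hex : ∃ c, nmR (q.length / Mp) = some c ∧ DR phi Mp bR c q := ⟨c, h1, h2⟩
  unfold rho
  rw [dif_pos hex]
  rfl

/-- the weight of a word of length `≈ Mp * n` -/
def wt (e : Fin m → S → W) (u : List α) (n : ℕ) : W :=
  ∑ l : Fin m, e l (seg phi u (Mp * beta n l) (Mp * beta n (l + 1)))

open Classical in
noncomputable def nu (u : List α) : V :=
  if Gd (u.length / Mp) then F (phi u) (wt phi Mp beta e u (u.length / Mp)) else
  if h : ∃ x : Gam act e F × Gam act e F, ∃ t t', t + t' = u.length / Mp ∧ nmL t = some x.1 ∧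
      nmR t' = some x.2
  then h.choose.2.b - act h.choose.1.v (phi u) else 0

theorem sum_split (f : Fin m → W) (i : Fin m) :
    ∑ l, f l = ∑ l ∈ Finset.univ.filter (fun l : Fin m => l < i), f l + f i +
      ∑ l ∈ Finset.univ.filter (fun l : Fin m => i < l), f l := by
  classical
  rw [← Finset.sum_filter_add_sum_filter_not Finset.univ (fun l : Fin m => l < i) f, add_assoc]
  congr 1
  have : (Finset.univ.filter (fun l : Fin m => ¬ l < i)) =
      insert i (Finset.univ.filter (fun l : Fin m => i < l)) := by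
    ext l
    simp only [Finset.mem_filter, Finset.mem_univ, true_and, Finset.mem_insert, not_lt]
    constructor
    · intro h; rcases eq_or_lt_of_le h with h | h
      · left; exact h.symm
      · right; exact h
    · rintro (h | h)
      · exact h.symm.le
      · exact h.le
  rw [this, Finset.sum_insert (by simp)]

/-- hypotheses on the clocks -/
structure Clk (m : ℕ) {Γ C : Type} (lv : Γ → ℕ) (col : Γ → C) (nmL nmR : ℕ → Option Γ)
    (bL bR beta : ℕ → ℕ → ℕ) (Gd Bad : ℕ → Prop) (T1 : ℕ) : Prop where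
  left_lt : ∀ t g, nmL t = some g → t < T1
  right_ge : ∀ t g, nmR t = some g → T1 ≤ t
  mono : ∀ n l, l < m → beta n l ≤ beta n (l + 1)
  le_T1 : ∀ n l, l ≤ m → beta n l ≤ T1
  good : ∀ t t' g g', Gd (t + t') → nmL t = some g → nmR t' = some g' → g = g' ∧
    (∀ l ≤ lv g, bL t l = beta (t + t') l) ∧
    (∀ l, lv g < l → l ≤ m → bR t' l + beta (t + t') l = t + t') ∧
    beta (t + t') (lv g) ≤ t ∧ t ≤ beta (t + t') (lv g + 1)
  bad : ∀ t₁ t₁' t₂ t₂' g₁ g₁' g₂ g₂', ¬ Gd (t₁ + t₁') → t₁ + t₁' = t₂ + t₂' →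
    nmL t₁ = some g₁ → nmR t₁' = some g₁' → nmL t₂ = some g₂ → nmR t₂' = some g₂' →
    col g₁ = col g₂ ∧ col g₁' = col g₂'
  compl : ∀ n, 2 * T1 ≤ n → ¬ Bad n → Gd n ∧ ∀ g, ∃ t t', t + t' = n ∧ nmL t = some g ∧
    nmR t' = some g

end core

section main
variable {S V W : Type} [Monoid S] [AddCommGroup V] [AddCommGroup W] {m : ℕ}
  {act : V → S → V} {e : Fin m → S → W} {F : S → W → V}
  {α : Type} {phi : List α → S} {Mp : ℕ} {nmL nmR : ℕ → Option (Gam act e F)}
  {bL bR beta : ℕ → ℕ → ℕ} {Gd Bad : ℕ → Prop} {T1 : ℕ}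

def colr (c : Gam act e F) : V × V := (c.v, c.b)

theorem len_div (hMp : 0 < Mp) (p q : List α) (h : Mp ∣ p.length) :
    (p ++ q).length / Mp = p.length / Mp + q.length / Mp := by
  obtain ⟨t, ht⟩ := h
  rw [List.length_append, ht, Nat.mul_add_div hMp, Nat.mul_div_cancel_left _ hMp]

theorem mono_le (hmono : ∀ n l, l < m → beta n l ≤ beta n (l + 1)) (n : ℕ) {a b : ℕ}
    (hab : a ≤ b) (hb : b ≤ m) : beta n a ≤ beta n b := by
  induction b, hab using Nat.le_induction with
  | base => exact le_rfl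
  | succ b _ ih => exact (ih (by omega)).trans (hmono n b (by omega))

theorem DL_iff (hMp : 0 < Mp) (hmono : ∀ n l, l < m → beta n l ≤ beta n (l + 1))
    (p q : List α) (c : Gam act e F) {t n : ℕ} (ht : p.length = Mp * t)
    (hL : ∀ l ≤ (c.1.1 : ℕ), bL t l = beta n l) (hb : beta n c.1.1 ≤ t) :
    DL phi Mp bL c p t ↔
      seg phi (p ++ q) 0 (Mp * beta n c.1.1) = c.1.2.1 ∧
      ∑ l ∈ Finset.univ.filter (fun l : Fin m => l < c.1.1),
        e l (seg phi (p ++ q) (Mp * beta n l) (Mp * beta n (l + 1))) = c.1.2.2.1 := by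
  have h1 : seg phi p 0 (Mp * bL t c.1.1) = seg phi (p ++ q) 0 (Mp * beta n c.1.1) := by
    rw [hL _ le_rfl, seg_left]
    rw [ht]; exact Nat.mul_le_mul_left _ hb
  have h2 : ∑ l ∈ Finset.univ.filter (fun l : Fin m => l < c.1.1),
      e l (seg phi p (Mp * bL t l) (Mp * bL t (l + 1))) =
      ∑ l ∈ Finset.univ.filter (fun l : Fin m => l < c.1.1),
        e l (seg phi (p ++ q) (Mp * beta n l) (Mp * beta n (l + 1))) := by
    refine Finset.sum_congr rfl fun l hl => ?_
    have hl' : (l : ℕ) < c.1.1 := (Finset.mem_filter.1 hl).2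
    rw [hL l hl'.le, hL (l + 1) hl', seg_left]
    rw [ht]
    exact Nat.mul_le_mul_left _ ((mono_le hmono n hl' c.1.1.2.le).trans hb)
  unfold DL
  rw [h1, h2]

theorem DR_iff (hMp : 0 < Mp) (hmono : ∀ n l, l < m → beta n l ≤ beta n (l + 1))
    (p q : List α) (c : Gam act e F) {t n : ℕ} (ht : p.length = Mp * t)
    (hn : n = t + q.length / Mp)
    (hR : ∀ l, (c.1.1 : ℕ) < l → l ≤ m → bR (q.length / Mp) l + beta n l = n)
    (hb : t ≤ beta n (c.1.1 + 1)) :
    DR phi Mp bR c q ↔
      seg phi (p ++ q) (Mp * beta n (c.1.1 + 1)) (p ++ q).length = c.1.2.2.2.1 ∧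
      ∑ l ∈ Finset.univ.filter (fun l : Fin m => c.1.1 < l),
        e l (seg phi (p ++ q) (Mp * beta n l) (Mp * beta n (l + 1))) = c.1.2.2.2.2.1 := by
  have key : ∀ l, (c.1.1 : ℕ) < l → l ≤ m → p.length ≤ Mp * beta n l ∧
      ps Mp bR q l = Mp * beta n l - p.length := by
    intro l h1 h2
    have h3 : t ≤ beta n l := hb.trans (mono_le hmono n h1 h2)
    have h4 := hR l h1 h2
    have h5 : Mp * t ≤ Mp * beta n l := Nat.mul_le_mul_left _ h3
    refine ⟨by rw [ht]; exact h5, ?_⟩
    unfold ps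
    have h6 : Mp * bR (q.length / Mp) l + Mp * beta n l = Mp * t + Mp * (q.length / Mp) := by
      rw [← Nat.mul_add, h4, hn, Nat.mul_add]
    have h7 : Mp * (q.length / Mp) + q.length % Mp = q.length := Nat.div_add_mod _ _
    rw [ht]
    omega
  have hi : (c.1.1 : ℕ) + 1 ≤ m := c.1.1.2
  have h1 : seg phi q (ps Mp bR q (c.1.1 + 1)) q.length =
      seg phi (p ++ q) (Mp * beta n (c.1.1 + 1)) (p ++ q).length := by
    obtain ⟨k1, k2⟩ := key (c.1.1 + 1) (Nat.lt_succ_self _) hi
    rw [k2]
    unfold seg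
    rw [List.take_length, List.take_length, List.drop_append, List.drop_eq_nil_of_le k1,
      List.nil_append]
  have h2 : ∑ l ∈ Finset.univ.filter (fun l : Fin m => c.1.1 < l),
      e l (seg phi q (ps Mp bR q l) (ps Mp bR q (l + 1))) =
      ∑ l ∈ Finset.univ.filter (fun l : Fin m => c.1.1 < l),
        e l (seg phi (p ++ q) (Mp * beta n l) (Mp * beta n (l + 1))) := by
    refine Finset.sum_congr rfl fun l hl => ?_
    have hl' : (c.1.1 : ℕ) < l := (Finset.mem_filter.1 hl).2
    obtain ⟨k1, k2⟩ := key l hl' l.2.le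
    obtain ⟨_, k4⟩ := key (l + 1) (by omega) l.2
    rw [k2, k4, seg_right p q k1 (Nat.mul_le_mul_left _ (hmono n l l.2))]
  unfold DR
  rw [h1, h2]

theorem wt_eq (u : List α) (n : ℕ) (i : Fin m) :
    wt phi Mp beta e u n =
      ∑ l ∈ Finset.univ.filter (fun l : Fin m => l < i),
        e l (seg phi u (Mp * beta n l) (Mp * beta n (l + 1))) +
      e i (seg phi u (Mp * beta n i) (Mp * beta n (i + 1))) +
      ∑ l ∈ Finset.univ.filter (fun l : Fin m => i < l),
        e l (seg phi u (Mp * beta n l) (Mp * beta n (l + 1))) := by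
  unfold wt
  rw [sum_split _ i]

theorem phi_eq (hphi : ∀ u v, phi (u ++ v) = phi u * phi v)
    (hmono : ∀ n l, l < m → beta n l ≤ beta n (l + 1)) (u : List α) (n : ℕ) (i : Fin m)
    (h : Mp * beta n (i + 1) ≤ u.length) :
    seg phi u 0 (Mp * beta n i) * seg phi u (Mp * beta n i) (Mp * beta n (i + 1)) *
      seg phi u (Mp * beta n (i + 1)) u.length = phi u := by
  rw [seg_mul hphi u (Nat.zero_le _) (Nat.mul_le_mul_left _ (hmono n i i.2)),
    seg_mul hphi u (Nat.zero_le _) h, seg_all]

theorem sound (hphi : ∀ u v, phi (u ++ v) = phi u * phi v) (hMp : 0 < Mp)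
    (H : Clk m (Gam.lv (act := act) (e := e) (F := F)) colr nmL nmR bL bR beta Gd Bad T1)
    (p q : List α) (v r : V) (hp : lam phi Mp nmL bL p = some v)
    (hq : rho phi Mp nmR bR q = some r) :
    r = act v (phi (p ++ q)) + nu phi Mp nmL nmR beta Gd (p ++ q) := by
  obtain ⟨hd, c, hc1, hc2, rfl⟩ := lam_some phi Mp nmL bL hp
  obtain ⟨c', hc1', hc2', rfl⟩ := rho_some phi Mp nmR bR hq
  have hn := len_div hMp p q hd
  have ht : p.length = Mp * (p.length / Mp) := (Nat.mul_div_cancel' hd).symm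
  by_cases hG : Gd (p.length / Mp + q.length / Mp)
  · obtain ⟨rfl, g1, g2, g3, g4⟩ := H.good _ _ _ _ hG hc1 hc1'
    have hle : Mp * beta (p.length / Mp + q.length / Mp) (c.1.1 + 1) ≤ (p ++ q).length := by
      have h1 := H.le_T1 (p.length / Mp + q.length / Mp) (c.1.1 + 1) c.1.1.2
      have h2 := H.right_ge _ _ hc1'
      calc Mp * beta (p.length / Mp + q.length / Mp) (c.1.1 + 1)
          ≤ Mp * (q.length / Mp) := Nat.mul_le_mul_left _ (h1.trans h2)
        _ ≤ q.length := Nat.mul_div_le _ _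
        _ ≤ (p ++ q).length := by rw [List.length_append]; omega
    rw [DL_iff hMp H.mono p q c ht g1 g3] at hc2
    rw [DR_iff hMp H.mono p q c ht rfl g2 g4] at hc2'
    have e1 := phi_eq hphi H.mono (p ++ q) (p.length / Mp + q.length / Mp) c.1.1 hle
    have e2 := wt_eq (phi := phi) (Mp := Mp) (beta := beta) (e := e) (p ++ q)
      (p.length / Mp + q.length / Mp) c.1.1
    rw [hc2.1, hc2'.1] at e1
    rw [hc2.2, hc2'.2] at e2
    unfold nu
    rw [hn, if_pos hG]
    have e3 : c.b = cval act e F c.1 (seg phi (p ++ q)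
        (Mp * beta (p.length / Mp + q.length / Mp) c.1.1)
        (Mp * beta (p.length / Mp + q.length / Mp) (c.1.1 + 1))) := c.2 _ _
    rw [e3]
    unfold cval
    rw [e1, ← e2, add_comm]
    rfl
  · have hex : ∃ x : Gam act e F × Gam act e F, ∃ t t', t + t' = (p ++ q).length / Mp ∧
        nmL t = some x.1 ∧ nmR t' = some x.2 := ⟨(c, c'), _, _, hn.symm, hc1, hc1'⟩
    unfold nu
    rw [hn, if_neg hG]
    rw [← hn, dif_pos hex]
    obtain ⟨t, t', k1, k2, k3⟩ := hex.choose_spec
    have hcol := H.bad _ _ _ _ _ _ _ _ hG (hn.symm.trans k1.symm) hc1 hc1' k2 k3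
    have a1 : c.v = hex.choose.1.v := congrArg Prod.fst hcol.1
    have a2 : c'.b = hex.choose.2.b := congrArg Prod.snd hcol.2
    rw [← a1, ← a2]
    abel

theorem complete (hphi : ∀ u v, phi (u ++ v) = phi u * phi v) (hMp : 0 < Mp)
    (hF : ∀ (s : S) (w : W) (v : V), ∃ i : Fin m, ∀ g x h : S, g * x * h = s →
        ∀ z : S, F (g * z * h) (w - e i x + e i z) + act v (g * z * h) = F s w + act v s)
    (H : Clk m (Gam.lv (act := act) (e := e) (F := F)) colr nmL nmR bL bR beta Gd Bad T1)
    (u : List α) (hu : 2 * T1 ≤ u.length / Mp) (hB : ¬ Bad (u.length / Mp)) (v : V) :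
    ∃ p q, p ++ q = u ∧ lam phi Mp nmL bL p = some v ∧ (rho phi Mp nmR bR q).isSome := by
  obtain ⟨hG, hall⟩ := H.compl _ hu hB
  obtain ⟨n, hn⟩ : ∃ n, n = u.length / Mp := ⟨_, rfl⟩
  rw [← hn] at hG hall hu
  obtain ⟨i, hi⟩ := hF (phi u) (wt phi Mp beta e u n) v
  have hle : Mp * beta n (i + 1) ≤ u.length := by
    have h1 := H.le_T1 n (i + 1) i.2
    calc Mp * beta n (i + 1) ≤ Mp * (u.length / Mp) := Nat.mul_le_mul_left _ (by omega)
      _ ≤ u.length := Nat.mul_div_le _ _
  have e1 := phi_eq hphi H.mono u n i hle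
  have e2 := wt_eq (phi := phi) (Mp := Mp) (beta := beta) (e := e) u n i
  have h3 := hi _ _ _ e1
  let c0 : Ctx m S V W := (i, seg phi u 0 (Mp * beta n i),
    ∑ l ∈ Finset.univ.filter (fun l : Fin m => l < i),
        e l (seg phi u (Mp * beta n l) (Mp * beta n (l + 1))),
    seg phi u (Mp * beta n (i + 1)) u.length,
    ∑ l ∈ Finset.univ.filter (fun l : Fin m => i < l),
        e l (seg phi u (Mp * beta n l) (Mp * beta n (l + 1))), v)
  have hc0 : ∀ z, cval act e F c0 z = F (phi u) (wt phi Mp beta e u n) + act v (phi u) := by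
    intro z
    rw [← h3 z]
    unfold cval
    simp only [c0]
    congr 2
    rw [e2]; abel
  let c : Gam act e F := ⟨c0, fun z z' => by rw [hc0, hc0]⟩
  obtain ⟨t, t', k1, k2, k3⟩ := hall c
  obtain ⟨-, g1, g2, g3, g4⟩ := H.good t t' c c (by rw [k1]; exact hG) k2 k3
  rw [k1] at g1 g2 g3 g4
  have hr : Mp * n + u.length % Mp = u.length := by rw [hn]; exact Nat.div_add_mod _ _
  have htn : Mp * n = Mp * t + Mp * t' := by rw [← k1, Nat.mul_add]
  have hp : (u.take (Mp * t)).length = Mp * t := by rw [List.length_take]; omega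
  have hq : (u.drop (Mp * t)).length = Mp * t' + u.length % Mp := by
    rw [List.length_drop]; omega
  have hq' : (u.drop (Mp * t)).length / Mp = t' := by
    rw [hq, Nat.mul_add_div hMp, Nat.div_eq_of_lt (Nat.mod_lt _ hMp), add_zero]
  have hp' : (u.take (Mp * t)).length / Mp = t := by rw [hp, Nat.mul_div_cancel_left _ hMp]
  have hpq : u.take (Mp * t) ++ u.drop (Mp * t) = u := List.take_append_drop _ _
  refine ⟨u.take (Mp * t), u.drop (Mp * t), hpq, ?_, ?_⟩
  · have hdl : DL phi Mp bL c (u.take (Mp * t)) t := by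
      rw [DL_iff hMp H.mono _ (u.drop (Mp * t)) c hp g1 g3, hpq]
      exact ⟨rfl, rfl⟩
    have := lam_mk phi Mp nmL bL (p := u.take (Mp * t)) (by rw [hp]; exact Dvd.intro _ rfl) c
      (by rw [hp']; exact k2) (by rw [hp']; exact hdl)
    exact this
  · refine rho_mk phi Mp nmR bR c (by rw [hq']; exact k3) ?_
    rw [DR_iff hMp H.mono (u.take (Mp * t)) (u.drop (Mp * t)) c hp (by rw [hq']; exact k1.symm)
      (by rw [hq']; exact g2) g4, hpq]
    exact ⟨rfl, rfl⟩

end main

end Crest.Agent.R320.UG250
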