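import Crest.Agent.R320.GridReg_943
import Crest.Agent.R320.RulerGrid_506

/-!
Row 320, helper943: the universal gadget (646's grid) together with 506's ruler, closed form.
-/

set_option autoImplicit false
set_option linter.unusedVariables false

namespace Crest.Agent.R320.UGf_943

open Finset

/-- grid constants -/
def AmN (M Gam : ℕ) (j : ℕ) : ℕ := ∑ i ∈ range j, (Gam ^ i + M * Gam ^ i)

theorem AmN_step (M Gam j : ℕ) : AmN M Gam j + Gam ^ j + M * Gam ^ j ≤ AmN M Gam (j + 1) := by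
  unfold AmN
  rw [Finset.sum_range_succ]
  omega

/-- off the bad set the residues are in the middle -/
theorem mid {Ms : Finset ℕ} {m M Gam : ℕ} {T : ℕ}
    (hG : 0 < Gam)
    (h : ¬ RulerGrid_506.Bad Ms m M Gam (fun j => (AmN M Gam j : ℤ)) (T : ℤ)) (hT : AmN M Gam m ≤ T)
    {k : ℕ} (hk : k < m) :
    M * Gam ^ k ≤ (T - AmN M Gam (k + 1)) % Gam ^ (k + 1) ∧
      (T - AmN M Gam (k + 1)) % Gam ^ (k + 1) + M * Gam ^ k ≤ Gam ^ (k + 1) := by
  have hmono : Monotone (AmN M Gam) := monotone_nat_of_le_succ fun j => by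
    have := AmN_step M Gam j; omega
  have hA : AmN M Gam (k + 1) ≤ T := (hmono (by omega)).trans hT
  set X := T - AmN M Gam (k + 1) with hX
  set g := Gam ^ (k + 1) with hg
  have hgp : 0 < g := by positivity
  have h1 := Nat.mod_add_div X g
  have h2 := Nat.mod_lt X hgp
  have hXz : (X : ℤ) = (T : ℤ) - AmN M Gam (k + 1) := by omega
  have h1z : ((X % g : ℕ) : ℤ) + (g : ℤ) * ((X / g : ℕ) : ℤ) = X := by exact_mod_cast h1
  have hgz : (Gam : ℤ) ^ (k + 1) = (g : ℤ) := by rw [hg]; push_cast; rfl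
  have hck : (M : ℤ) * (Gam : ℤ) ^ (k + 1 - 1) = ((M * Gam ^ k : ℕ) : ℤ) := by
    rw [Nat.add_sub_cancel]; push_cast; rfl
  constructor
  · by_contra hlt
    apply h
    refine Or.inr ⟨k + 1, by omega, by omega, ((X / g : ℕ) : ℤ), ?_⟩
    beta_reduce
    rw [hck, hgz]
    have e1 : (T : ℤ) - (AmN M Gam (k + 1) : ℤ) - ((X / g : ℕ) : ℤ) * (g : ℤ) =
        ((X % g : ℕ) : ℤ) := by rw [← hXz]; linarith
    rw [e1, abs_of_nonneg (by positivity)]
    have : X % g < M * Gam ^ k := by omega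
    exact_mod_cast this.le
  · by_contra hlt
    apply h
    refine Or.inr ⟨k + 1, by omega, by omega, ((X / g : ℕ) : ℤ) + 1, ?_⟩
    beta_reduce
    rw [hck, hgz]
    have e1 : (T : ℤ) - (AmN M Gam (k + 1) : ℤ) - (((X / g : ℕ) : ℤ) + 1) * (g : ℤ) =
        -((g : ℤ) - ((X % g : ℕ) : ℤ)) := by rw [← hXz]; linarith
    rw [e1, abs_neg, abs_of_nonneg (by
      have : ((X % g : ℕ) : ℤ) < (g : ℤ) := by exact_mod_cast h2
      linarith)]
    have : g < X % g + M * Gam ^ k := by omega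
    have hz : (g : ℤ) < ((X % g : ℕ) : ℤ) + ((M * Gam ^ k : ℕ) : ℤ) := by exact_mod_cast this
    linarith

theorem bad_per {Ms : Finset ℕ} {m M Gam : ℕ} (hMs : ∀ p ∈ Ms, p ∣ M) (Am : ℕ → ℤ) (T : ℤ) :
    RulerGrid_506.Bad Ms m M Gam Am (T + ((M * Gam ^ m : ℕ) : ℤ)) ↔
      RulerGrid_506.Bad Ms m M Gam Am T := by
  unfold RulerGrid_506.Bad
  refine or_congr ?_ ?_
  · refine exists_congr fun p => and_congr_right fun hp => ?_
    have h1 : (p : ℤ) ∣ ((M * Gam ^ m : ℕ) : ℤ) := by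
      exact_mod_cast (hMs p hp).trans (Nat.dvd_mul_right _ _)
    exact dvd_add_left h1
  · refine exists_congr fun j => and_congr_right fun hj => and_congr_right fun hjm => ?_
    have h2 : ((M * Gam ^ m : ℕ) : ℤ) = ((M : ℤ) * (Gam : ℤ) ^ (m - j)) * (Gam : ℤ) ^ j := by
      rw [mul_assoc, ← pow_add, Nat.sub_add_cancel hjm]; push_cast; rfl
    constructor
    · rintro ⟨k, hk⟩
      refine ⟨k - (M : ℤ) * (Gam : ℤ) ^ (m - j), ?_⟩
      have e : T - Am j - (k - (M : ℤ) * (Gam : ℤ) ^ (m - j)) * (Gam : ℤ) ^ j =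
          T + ((M * Gam ^ m : ℕ) : ℤ) - Am j - k * (Gam : ℤ) ^ j := by rw [h2]; ring
      rw [e]; exact hk
    · rintro ⟨k, hk⟩
      refine ⟨k + (M : ℤ) * (Gam : ℤ) ^ (m - j), ?_⟩
      have e : T + ((M * Gam ^ m : ℕ) : ℤ) - Am j - (k + (M : ℤ) * (Gam : ℤ) ^ (m - j)) *
          (Gam : ℤ) ^ j = T - Am j - k * (Gam : ℤ) ^ j := by rw [h2]; ring
      rw [e]; exact hk

/-- **Universal gadget with ruler.** -/
theorem ug (S V : Type) [Monoid S] [Finite S] [AddCommGroup V] [Finite V] (act : V → S → V) :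
    ∃ C0 : ℕ, ∀ K : ℕ, ∃ (N1 A Mm : ℕ) (BT : ℤ → Prop), 0 < Mm ∧ N1 ≤ A ∧
      (∀ T, BT (T + (Mm : ℤ)) ↔ BT T) ∧
      (∀ N : ℕ, ∃ x : ℕ → ℕ, StrictMono x ∧
        (∀ i j k l, i < K → j < K → k < K → l < K → i ≠ j → k ≠ l → ¬ (i = k ∧ j = l) →
          (N:ℤ) < |((x i:ℤ) - x j) - ((x k:ℤ) - x l)|) ∧
        ∀ T : ℤ, ∀ [DecidablePred fun ab : ℕ × ℕ =>
            ab.1 ≠ ab.2 ∧ BT (T + x ab.2 - x ab.1)],
          ((range K ×ˢ range K).filter fun ab : ℕ × ℕ =>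
            ab.1 ≠ ab.2 ∧ BT (T + x ab.2 - x ab.1)).card ≤ C0) ∧
      ∀ (α : Type) (φ : List α → S), (∀ u v, φ (u ++ v) = φ u * φ v) →
          ∃ (lam rho : List α → Option V) (nu : List α → V),
            (∀ P Q v r, lam P = some v → rho Q = some r → r = act v (φ (P ++ Q)) + nu (P ++ Q)) ∧
            (∀ P v, lam P = some v → P.length ≤ N1) ∧
            (∀ Y : List α, ¬ BT (Y.length : ℤ) → 2 * N1 ≤ Y.length →
              ∀ v, ∃ P Q, P ++ Q = Y ∧ lam P = some v ∧ (rho Q).isSome) ∧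
            (∀ u u' : List α, A ≤ u.length → A ≤ u'.length →
              u.take A = u'.take A → φ u = φ u' →
              u.length ≡ u'.length [MOD Mm] → nu u = nu u') := by
  obtain ⟨m, r, hm, hgad⟩ := GridReg_943.gadget act
  refine ⟨r + m, fun K => ?_⟩
  obtain ⟨Ms, M, hcard, hMs, hM, hG⟩ := hgad (8 * 4 ^ (K + 1))
  have hMpos : 0 < M := by
    rw [hM]; exact Finset.prod_pos fun k hk => (hMs k hk).1.pos
  have hMsM : ∀ p ∈ Ms, p ∣ M := fun p hp => by
    rw [hM]; exact Finset.dvd_prod_of_mem _ hp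
  set Gam : ℕ := 1 + M * (100 * 4 ^ (K + 1)) with hGam
  have hGpos : 0 < Gam := by omega
  have hcop : ∀ j, Nat.Coprime (Gam ^ j) M := by
    intro j
    apply Nat.Coprime.pow_left
    rw [hGam]
    exact (Nat.coprime_add_mul_left_left 1 M _).2 (Nat.coprime_one_left M)
  have hAm := AmN_step M Gam
  refine ⟨AmN M Gam m, AmN M Gam m + Gam ^ m, M * Gam ^ m,
    RulerGrid_506.Bad Ms m M Gam (fun j => (AmN M Gam j : ℤ)), by positivity,
    Nat.le_add_right _ _, bad_per hMsM _, ?_, ?_⟩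
  · intro N
    obtain ⟨x, hx1, hx2, hx3⟩ := RulerGrid_506.exists_ruler K m N M Gam Ms
      (fun j => (AmN M Gam j : ℤ)) hMpos (fun p hp => ⟨(hMs p hp).1, (hMs p hp).2, hMsM p hp⟩)
      (by rw [hGam]; nlinarith)
    refine ⟨x, hx1, hx2, ?_⟩
    intro T _
    refine (hx3 T).trans ?_
    omega
  · intro α φ hφ
    obtain ⟨lam, rho, nu, h1, h2, h3, h4, h5⟩ := hG (fun j => Gam ^ j) (AmN M Gam)
      (fun j => by positivity) (fun j => pow_dvd_pow _ (Nat.le_succ j)) hcop hAm φ hφ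
    refine ⟨lam, rho, nu, h1, fun P v h => (h2 P v h).le, ?_, h5⟩
    intro Y hB hlen v
    refine h4 Y ?_ hlen (fun k hk => mid hGpos hB (by omega) hk) v
    intro p hp hd
    exact hB (Or.inl ⟨p, hp, by exact_mod_cast hd⟩)

end Crest.Agent.R320.UGf_943
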