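import Mathlib
import Crest.Agent.R320.NameGad_808

/-!
# Row 320: 693's grid gadget (scheme 1 without small walls) on words

The hole ends lie on nested grids `G j` anchored at the right end of the zone; built on
808's `unknownT_gadget` (names and noise).
-/

set_option autoImplicit false

namespace Crest.Agent.R320.UGrid_145

open Finset Crest.Agent.R320.NameGad808

variable {α S W : Type*}

/-- product of a word -/
def ph [Monoid S] (f : α → S) (w : List α) : S := (w.map f).prod

/-- product of a factor -/
def seg [Monoid S] (f : α → S) (X : List α) (x y : ℕ) : S := ph f ((X.drop x).take (y - x))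

/-- boundary `j` of a zone of length `T` -/
def bet (G a : ℕ → ℕ) (T j : ℕ) : ℕ := a j + (T - a j) % G j

/-- the boundary `j` as read from the right side, claimed cell start `A` -/
def pos (G a : ℕ → ℕ) (A o' j : ℕ) : ℕ := o' - G j * ((o' + A - a j) / G j)

section basics

variable [Monoid S] (f : α → S)

theorem ph_append (u v : List α) : ph f (u ++ v) = ph f u * ph f v := by
  simp [ph]

theorem seg_left {P Q : List α} {x y : ℕ} (hy : y ≤ P.length) :
    seg f (P ++ Q) x y = seg f P x y := by
  unfold seg
  rcases le_or_gt x P.length with h | h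
  · rw [List.drop_append_of_le_length h, List.take_append_of_le_length (by simp; omega)]
  · have : y - x = 0 := by omega
    rw [this]; simp

theorem seg_right {P Q : List α} {x y : ℕ} :
    seg f (P ++ Q) (P.length + x) (P.length + y) = seg f Q x y := by
  unfold seg
  rw [List.drop_append, List.drop_of_length_le (by omega)]
  simp only [List.nil_append]
  rw [show P.length + x - P.length = x by omega,
    show P.length + y - (P.length + x) = y - x by omega]

theorem drop_right {P Q : List α} {x : ℕ} : (P ++ Q).drop (P.length + x) = Q.drop x := by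
  rw [List.drop_append, List.drop_of_length_le (by omega)]
  simp only [List.nil_append]
  congr 1
  omega

theorem split3 (X : List α) {x y : ℕ} (hxy : x ≤ y) :
    ph f (X.take x) * seg f X x y * ph f (X.drop y) = ph f X := by
  unfold seg
  rw [← ph_append, ← ph_append]
  congr 1
  have h1 : (X.drop x).drop (y - x) = X.drop y := by
    rw [List.drop_drop]; congr 1; omega
  rw [← h1, List.append_assoc, List.take_append_drop, List.take_append_drop]

end basics

section geo

variable {G a : ℕ → ℕ} {M : ℕ}

theorem bet_ge (T j : ℕ) : a j ≤ bet G a T j := Nat.le_add_right _ _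

theorem bet_lt (hG : ∀ j, 0 < G j) (T j : ℕ) : bet G a T j < a j + G j := by
  unfold bet
  have := Nat.mod_lt (T - a j) (hG j)
  omega

theorem bet_eq_sub {T j : ℕ} (h : a j ≤ T) : bet G a T j = T - G j * ((T - a j) / G j) := by
  unfold bet
  have := Nat.div_add_mod (T - a j) (G j)
  omega

theorem bet_left {T o j : ℕ} (ho : a j ≤ o) (hoT : o ≤ T) (hd : G j ∣ T - o) :
    bet G a T j = bet G a o j := by
  unfold bet
  obtain ⟨c, hc⟩ := hd
  have : T - a j = (o - a j) + G j * c := by omega
  rw [this, Nat.add_mul_mod_self_left]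

theorem bet_right {T o o' A C j : ℕ} (hT : T = o + o') (hA : A ≤ o) (hC : o ≤ C)
    (hj : o < a j) (hjo : a j ≤ o' + A)
    (hq : (o' + A - a j) / G j = (o' + C - a j) / G j) :
    bet G a T j = o + pos G a A o' j ∧ G j * ((o' + A - a j) / G j) ≤ o' := by
  have h1 : (o' + A - a j) / G j ≤ (T - a j) / G j := Nat.div_le_div_right (by omega)
  have h2 : (T - a j) / G j ≤ (o' + C - a j) / G j := Nat.div_le_div_right (by omega)
  have h3 : (T - a j) / G j = (o' + A - a j) / G j := by omega
  have h4 : bet G a T j = T - G j * ((T - a j) / G j) := bet_eq_sub (by omega)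
  have h5 : a j ≤ bet G a T j := bet_ge T j
  rw [h3] at h4
  have h6 : G j * ((o' + A - a j) / G j) ≤ o' := by omega
  refine ⟨?_, h6⟩
  unfold pos
  omega

theorem a_mono (ha : ∀ j, a (j + 1) = a j + G j + M * G j) : Monotone a :=
  monotone_nat_of_le_succ (fun j => by rw [ha j]; omega)

theorem crt_window {M g : ℕ} (hM : 0 < M) (hg : 0 < g) (hco : Nat.Coprime M g) (u T x0 : ℕ) :
    ∃ o, x0 ≤ o ∧ o < x0 + M * g ∧ o ≡ u [MOD M] ∧ o ≡ T [MOD g] := by
  obtain ⟨z, hz1, hz2⟩ := Nat.chineseRemainder hco u T
  have hpos : 0 < M * g := Nat.mul_pos hM hg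
  have hle : x0 ≤ M * g * x0 := Nat.le_mul_of_pos_left _ hpos
  refine ⟨x0 + (z + M * g * x0 - x0) % (M * g), by omega, ?_, ?_, ?_⟩
  · have := Nat.mod_lt (z + M * g * x0 - x0) hpos
    omega
  · have h1 : x0 + (z + M * g * x0 - x0) % (M * g) ≡ x0 + (z + M * g * x0 - x0) [MOD M * g] :=
      Nat.ModEq.add_left _ (Nat.mod_modEq _ _)
    have h2 : x0 + (z + M * g * x0 - x0) = z + M * g * x0 := by omega
    rw [h2] at h1
    have h3 : z + M * g * x0 ≡ z [MOD M * g] := by
      simp [Nat.ModEq, Nat.add_mul_mod_self_left]
    exact ((h1.trans h3).of_mul_right g).trans hz1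
  · have h1 : x0 + (z + M * g * x0 - x0) % (M * g) ≡ x0 + (z + M * g * x0 - x0) [MOD M * g] :=
      Nat.ModEq.add_left _ (Nat.mod_modEq _ _)
    have h2 : x0 + (z + M * g * x0 - x0) = z + M * g * x0 := by omega
    rw [h2] at h1
    have h3 : z + M * g * x0 ≡ z [MOD M * g] := by
      simp [Nat.ModEq, Nat.add_mul_mod_self_left]
    exact ((h1.trans h3).of_mul_left M).trans hz2

/-- no multiple of `g` within `c` of `T`: the quotient is constant -/
theorem div_const {g c n n' : ℕ} {T : ℕ} (h1 : c ≤ T % g) (h2 : T % g + c ≤ g)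
    (hn : n ≤ T) (hn' : T ≤ n') (hd : n' < n + c) : n / g = n' / g := by
  have hT := Nat.div_add_mod T g
  have e1 : n / g = T / g := by
    apply Nat.div_eq_of_lt_le
    · rw [Nat.mul_comm]; omega
    · rw [Nat.mul_comm, Nat.mul_succ]; omega
  have e2 : n' / g = T / g := by
    apply Nat.div_eq_of_lt_le
    · rw [Nat.mul_comm]; omega
    · rw [Nat.mul_comm, Nat.mul_succ]; omega
  rw [e1, e2]

end geo

section main

/-- **693's grid gadget on words** (scheme 1, no small walls, all contents). -/
theorem grid (S V : Type*) [Monoid S] [Finite S] [AddCommGroup V] [Finite V]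
    (act : V → S → V) :
    ∃ (m k : ℕ), ∀ q : Fin k → ℕ, (∀ j, Odd (q j)) →
      Pairwise (fun i j => Nat.Coprime (q i) (q j)) →
      ∀ (G a : ℕ → ℕ), (∀ j, 0 < G j) → (∀ i j, i ≤ j → G i ∣ G j) →
      (∀ j, Nat.Coprime (∏ l, q l) (G j)) →
      (∀ j, a (j + 1) = a j + G j + (∏ l, q l) * G j) →
      ∀ {α : Type*} (f : α → S), ∃ (lam rho : List α → Option V) (nu : List α → V),
        (∀ P v, lam P = some v → a 0 ≤ P.length ∧ P.length < a m) ∧
        (∀ Q b, rho Q = some b → a m ≤ Q.length) ∧
        (∀ P Q v b, lam P = some v → rho Q = some b →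
          b = act v (ph f (P ++ Q)) + nu (P ++ Q)) ∧
        (∀ X : List α, 2 * a m ≤ X.length → (∀ j, ¬ q j ∣ X.length) →
          (∀ i, i < m → ∀ j, i < j → j ≤ m →
            (∏ l, q l) * G i ≤ (X.length - a j) % G j ∧
            (X.length - a j) % G j + (∏ l, q l) * G i ≤ G j) →
          ∀ v, ∃ P Q, X = P ++ Q ∧ lam P = some v ∧ (rho Q).isSome = true) := by
  classical
  obtain ⟨m, N, k, e, hN, hU⟩ := unknownT_gadget S V act
  refine ⟨m, k, ?_⟩
  intro q hodd hcop G a hG0 hGd hGM ha α f
  obtain ⟨L, R, lev, D, hlev, hsound, hcompl⟩ := hU q hodd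
  have hqpos : ∀ j, 0 < q j := fun j => (hodd j).pos
  have hMpos : 0 < ∏ l, q l := Finset.prod_pos (fun j _ => hqpos j)
  set M := ∏ l, q l with hM
  have hmono : Monotone a := a_mono ha
  -- residues
  let res : ℕ → (∀ j, ZMod (q j)) := fun t j => (t : ZMod (q j))
  have hres_add : ∀ t t', res t + res t' = res (t + t') := by
    intro t t'; funext j; simp [res]
  -- weights
  let wsm : (ℕ → ℕ) → List α → ℕ → ℕ → ZMod N × ZMod N := fun b X lo hi =>
    ∑ j ∈ Finset.Ico lo hi, e j (seg f X (b j) (b (j + 1)))
  -- left labels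
  let LR : List α → ℕ → V → Prop := fun P i v =>
    i < m ∧ a i + G i ≤ P.length ∧ P.length < a (i + 1) ∧
      L i (res P.length) (ph f (P.take (bet G a P.length i)))
        (wsm (bet G a P.length) P 0 i) = some v
  let A : ℕ → ℕ := fun i => a i + G i
  let C : ℕ → ℕ := fun i => a (i + 1) - 1
  let legal : List α → ℕ → Prop := fun Q i =>
    a m ≤ Q.length ∧ G i ∣ Q.length ∧ ∀ j, i < j → j ≤ m →
      (Q.length + A i - a j) / G j = (Q.length + C i - a j) / G j
  let RL : List α → ℕ → V → Prop := fun Q i b =>
    legal Q i ∧ R i (res Q.length) (ph f (Q.drop (pos G a (A i) Q.length (i + 1))))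
        (wsm (fun j => pos G a (A i) Q.length j) Q (i + 1) m) = some b
  have hLuniq : ∀ P i v i' v', LR P i v → LR P i' v' → i = i' ∧ v = v' := by
    rintro P i v i' v' ⟨h1, h2, h3, h4⟩ ⟨h1', h2', h3', h4'⟩
    have hii : i = i' := by
      rcases lt_trichotomy i i' with h | h | h
      · have := hmono (show i + 1 ≤ i' from h)
        omega
      · exact h
      · have := hmono (show i' + 1 ≤ i from h)
        omega
    subst hii
    rw [h4] at h4'
    exact ⟨rfl, Option.some.inj h4'⟩
  have hRuniq : ∀ Q i b i' b', RL Q i b → RL Q i' b' → i = i' ∧ b = b' := by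
    rintro Q i b i' b' ⟨h1, h2⟩ ⟨h1', h2'⟩
    have e1 := (hlev _ _ _ _ _ h2).1
    have e2 := (hlev _ _ _ _ _ h2').1
    have hii : i = i' := by rw [e1, e2]
    subst hii
    rw [h2] at h2'
    exact ⟨rfl, Option.some.inj h2'⟩
  let lam : List α → Option V := fun P =>
    if h : ∃ v, ∃ i, LR P i v then some h.choose else none
  let rho : List α → Option V := fun Q =>
    if h : ∃ b, ∃ i, RL Q i b then some h.choose else none
  let nu : List α → V := fun X =>
    D (res X.length) (ph f X) (wsm (bet G a X.length) X 0 m)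
  have hlam : ∀ P v, lam P = some v ↔ ∃ i, LR P i v := by
    intro P v
    constructor
    · intro h
      simp only [lam] at h
      split_ifs at h with hc
      obtain ⟨i, hi⟩ := hc.choose_spec
      rw [← Option.some.inj h]
      exact ⟨i, hi⟩
    · rintro ⟨i, hi⟩
      have hc : ∃ v, ∃ i, LR P i v := ⟨v, i, hi⟩
      simp only [lam]
      rw [dif_pos hc]
      obtain ⟨i', hi'⟩ := hc.choose_spec
      rw [(hLuniq _ _ _ _ _ hi hi').2]
  have hrho : ∀ Q b, rho Q = some b ↔ ∃ i, RL Q i b := by
    intro Q b
    constructor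
    · intro h
      simp only [rho] at h
      split_ifs at h with hc
      obtain ⟨i, hi⟩ := hc.choose_spec
      rw [← Option.some.inj h]
      exact ⟨i, hi⟩
    · rintro ⟨i, hi⟩
      have hc : ∃ b, ∃ i, RL Q i b := ⟨b, i, hi⟩
      simp only [rho]
      rw [dif_pos hc]
      obtain ⟨i', hi'⟩ := hc.choose_spec
      rw [(hRuniq _ _ _ _ _ hi hi').2]
  -- the views are correct at a junction
  have hstep : ∀ T j, bet G a T j ≤ bet G a T (j + 1) := by
    intro T j
    have h1 := bet_lt (a := a) hG0 T j
    have h2 := bet_ge (G := G) (a := a) T (j + 1)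
    have h3 := ha j
    omega
  have views : ∀ (P Q : List α) (i : ℕ), i < m → A i ≤ P.length → P.length < a (i + 1) →
      legal Q i →
      ph f (P.take (bet G a P.length i)) =
        ph f ((P ++ Q).take (bet G a (P.length + Q.length) i)) ∧
      ph f (Q.drop (pos G a (A i) Q.length (i + 1))) =
        ph f ((P ++ Q).drop (bet G a (P.length + Q.length) (i + 1))) ∧
      wsm (bet G a P.length) P 0 i = wsm (bet G a (P.length + Q.length)) (P ++ Q) 0 i ∧
      wsm (fun j => pos G a (A i) Q.length j) Q (i + 1) m =
        wsm (bet G a (P.length + Q.length)) (P ++ Q) (i + 1) m := by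
    intro P Q i him hA hC hleg
    obtain ⟨hlen, hdv, hquo⟩ := hleg
    set T := P.length + Q.length with hT
    have hai : a i ≤ P.length := by simp only [A] at hA; omega
    -- left boundaries
    have hbl : ∀ j, j ≤ i → bet G a T j = bet G a P.length j := by
      intro j hj
      apply bet_left ((hmono hj).trans hai) (by omega)
      rw [hT, Nat.add_sub_cancel_left]
      exact (hGd j i hj).trans hdv
    have hbl2 : ∀ j, j ≤ i → bet G a P.length j ≤ P.length := by
      intro j hj
      rcases Nat.lt_or_ge j i with h | h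
      · have h1 := bet_lt (a := a) hG0 P.length j
        have h2 := hmono (show j + 1 ≤ i from h)
        have h3 := ha j
        omega
      · have : j = i := by omega
        subst this
        have h1 := bet_lt (a := a) hG0 P.length j
        simp only [A] at hA
        omega
    -- right boundaries
    have hbr : ∀ j, i < j → j ≤ m → bet G a T j = P.length + pos G a (A i) Q.length j := by
      intro j hj hjm
      have h1 := hmono (show i + 1 ≤ j from hj)
      have h2 := hmono hjm
      exact (bet_right (C := C i) hT hA (by simp only [C]; omega) (by omega) (by omega)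
        (hquo j hj hjm)).1
    refine ⟨?_, ?_, ?_, ?_⟩
    · rw [hbl i le_rfl, List.take_append_of_le_length (hbl2 i le_rfl)]
    · rw [hbr (i + 1) (by omega) (by omega), drop_right]
    · apply Finset.sum_congr rfl
      intro j hj
      rw [Finset.mem_Ico] at hj
      rw [hbl j (by omega), hbl (j + 1) (by omega), seg_left f (hbl2 (j + 1) (by omega))]
    · apply Finset.sum_congr rfl
      intro j hj
      rw [Finset.mem_Ico] at hj
      rw [hbr j (by omega) (by omega), hbr (j + 1) (by omega) (by omega), seg_right]
  have tot : ∀ (X : List α) (i : ℕ), i < m →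
      ph f (X.take (bet G a X.length i)) * seg f X (bet G a X.length i)
        (bet G a X.length (i + 1)) * ph f (X.drop (bet G a X.length (i + 1))) = ph f X ∧
      wsm (bet G a X.length) X 0 i + e i (seg f X (bet G a X.length i)
        (bet G a X.length (i + 1))) + wsm (bet G a X.length) X (i + 1) m =
        wsm (bet G a X.length) X 0 m := by
    intro X i him
    refine ⟨split3 f X (hstep _ i), ?_⟩
    simp only [wsm]
    rw [← Finset.sum_Ico_consecutive _ (Nat.zero_le i) (show i ≤ m by omega),
      Finset.sum_eq_sum_Ico_succ_bot him, add_assoc]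
  refine ⟨lam, rho, nu, ?_, ?_, ?_, ?_⟩
  · intro P v h
    obtain ⟨i, h1, h2, h3, -⟩ := (hlam _ _).1 h
    have h4 := hmono (show i + 1 ≤ m from h1)
    have h5 := hmono (Nat.zero_le i)
    omega
  · intro Q b h
    obtain ⟨i, ⟨h1, -⟩, -⟩ := (hrho _ _).1 h
    exact h1
  · intro P Q v b hv hb
    obtain ⟨i, h1, h2, h3, h4⟩ := (hlam _ _).1 hv
    obtain ⟨i', h5, h6⟩ := (hrho _ _).1 hb
    have := hsound i i' (res P.length) (res Q.length) _ _ (ph f (P ++ Q)) _ _
      (wsm (bet G a (P.length + Q.length)) (P ++ Q) 0 m) v b ?_ h4 h6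
    · rw [this, hres_add]
      simp only [nu, List.length_append]
    · intro hii
      subst hii
      obtain ⟨k1, k2, k3, k4⟩ := views P Q i h1 h2 h3 h5
      have ht := tot (P ++ Q) i h1
      rw [List.length_append] at ht
      rw [k1, k2, k3, k4]
      exact ⟨_, ht⟩
  · intro X hX hq hband v
    obtain ⟨i, him, hi⟩ := hcompl (res X.length) (fun j => by
      simp only [res]
      rw [Ne, ZMod.natCast_eq_zero_iff]
      exact hq j) (ph f X) (wsm (bet G a X.length) X 0 m) v
    have hleX : ∀ j, j ≤ m → a j ≤ X.length := fun j hj => by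
      have := hmono hj
      omega
    obtain ⟨ht1, ht2⟩ := tot X i him
    obtain ⟨t, t', htt, hLt, hRt⟩ := hi _ _ _ _ _ ht1 ht2
    obtain ⟨ω, -, -, hω⟩ := crt_hit q hqpos hcop t 0
    obtain ⟨o, ho1, ho2, ho3, ho4⟩ := crt_window hMpos (hG0 i) (hGM i) ω X.length (A i)
    have hai1 : a (i + 1) = A i + M * G i := by simp only [A]; exact ha i
    have hm1 := hmono (show i + 1 ≤ m from him)
    have hoX : o ≤ X.length := by omega
    have hreso : res o = t := by
      funext j
      have hdv : q j ∣ M := Finset.dvd_prod_of_mem q (Finset.mem_univ j)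
      have : (o : ZMod (q j)) = (ω : ZMod (q j)) :=
        (ZMod.natCast_eq_natCast_iff _ _ _).2 (ho3.of_dvd hdv)
      simp only [res]
      rw [this, hω j]
    have hreso' : res (X.length - o) = t' := by
      have h1 : res o + res (X.length - o) = res X.length := by
        rw [hres_add]; congr 1; omega
      rw [← htt, hreso] at h1
      exact add_left_cancel h1
    have hPl : (X.take o).length = o := by rw [List.length_take]; omega
    have hQl : (X.drop o).length = X.length - o := List.length_drop
    have hXPQ : X.take o ++ X.drop o = X := List.take_append_drop o X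
    have hleg : legal (X.drop o) i := by
      refine ⟨?_, ?_, ?_⟩
      · rw [hQl]; omega
      · rw [hQl]
        exact (Nat.modEq_iff_dvd' hoX).1 ho4
      · intro j hj hjm
        obtain ⟨b1, b2⟩ := hband i him j hj hjm
        have h3 := hmono hjm
        have h4 : 0 < M * G i := Nat.mul_pos hMpos (hG0 i)
        rw [hQl]
        apply div_const (T := X.length - a j) (c := M * G i) b1 b2
        · omega
        · simp only [C]; omega
        · simp only [C]; omega
    obtain ⟨k1, k2, k3, k4⟩ := views (X.take o) (X.drop o) i him (by rw [hPl]; exact ho1)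
      (by rw [hPl]; omega) hleg
    rw [hXPQ, hPl, hQl, Nat.add_sub_cancel' hoX] at k1 k2 k3 k4
    refine ⟨X.take o, X.drop o, hXPQ.symm, ?_, ?_⟩
    · rw [hlam]
      refine ⟨i, him, ?_, ?_, ?_⟩
      · rw [hPl]; exact ho1
      · rw [hPl]; omega
      · rw [hPl, hreso, k1, k3]
        exact hLt
    · obtain ⟨b, hb⟩ := Option.isSome_iff_exists.1 hRt
      rw [Option.isSome_iff_exists]
      refine ⟨b, (hrho _ _).2 ⟨i, hleg, ?_⟩⟩
      rw [hQl, hreso', k2, k4]
      exact hb

end main

end Crest.Agent.R320.UGrid_145
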