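import Mathlib
import Crest.Agent.R320.UGrid_145
import Crest.Agent.R320.GridRuler_896

/-!
# Row 320: the grid gadget with parameters, ruler and spoiling count
-/

set_option autoImplicit false

namespace Crest.Agent.R320.UGrid2_145

open Finset Crest.Agent.R320.NameGad808 Crest.Agent.R320.UGrid_145 Crest.Agent.R320.GridRuler_896

variable {α S W : Type*}

theorem seg_take [Monoid S] (f : α → S) {X : List α} {N x y : ℕ} (hy : y ≤ N) :
    seg f (X.take N) x y = seg f X x y := by
  unfold seg
  rw [List.drop_take, List.take_take, min_eq_left (by omega)]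

section main

/-- 693's grid gadget on words with the congruence of the noise. -/
theorem grid_reg (S V : Type*) [Monoid S] [Finite S] [AddCommGroup V] [Finite V]
    (act : V → S → V) :
    ∃ (m k : ℕ), ∀ q : Fin k → ℕ, (∀ j, Odd (q j)) →
      Pairwise (fun i j => Nat.Coprime (q i) (q j)) →
      ∀ (G a : ℕ → ℕ), (∀ j, 0 < G j) → (∀ i j, i ≤ j → G i ∣ G j) →
      (∀ j, Nat.Coprime (∏ l, q l) (G j)) →
      (∀ j, a (j + 1) = a j + G j + (∏ l, q l) * G j) →
      ∀ {α : Type*} (f : α → S), ∃ (lam rho : List α → Option V) (nu : List α → V),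
        (∀ P v, lam P = some v → a 0 ≤ P.length ∧ P.length < a m) ∧
        (∀ Q b, rho Q = some b → a m ≤ Q.length) ∧
        (∀ P Q v b, lam P = some v → rho Q = some b →
          b = act v (ph f (P ++ Q)) + nu (P ++ Q)) ∧
        (∀ X : List α, 2 * a m ≤ X.length → (∀ j, ¬ q j ∣ X.length) →
          (∀ i, i < m → ∀ j, i < j → j ≤ m →
            (∏ l, q l) * G i ≤ (X.length - a j) % G j ∧
            (X.length - a j) % G j + (∏ l, q l) * G i ≤ G j) →
          ∀ v, ∃ P Q, X = P ++ Q ∧ lam P = some v ∧ (rho Q).isSome = true) ∧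
        (∀ Y Y' : List α, a m + G m ≤ Y.length → a m + G m ≤ Y'.length →
          Y.take (a m + G m) = Y'.take (a m + G m) →
          Y.length % ((∏ l, q l) * G m) = Y'.length % ((∏ l, q l) * G m) →
          ph f Y = ph f Y' → nu Y = nu Y') := by
  classical
  obtain ⟨m, N, k, e, hN, hU⟩ := unknownT_gadget S V act
  refine ⟨m, k, ?_⟩
  intro q hodd hcop G a hG0 hGd hGM ha α f
  obtain ⟨L, R, lev, D, hlev, hsound, hcompl⟩ := hU q hodd
  have hqpos : ∀ j, 0 < q j := fun j => (hodd j).pos
  have hMpos : 0 < ∏ l, q l := Finset.prod_pos (fun j _ => hqpos j)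
  set M := ∏ l, q l with hM
  have hmono : Monotone a := a_mono ha
  -- residues
  let res : ℕ → (∀ j, ZMod (q j)) := fun t j => (t : ZMod (q j))
  have hres_add : ∀ t t', res t + res t' = res (t + t') := by
    intro t t'; funext j; simp [res]
  -- weights
  let wsm : (ℕ → ℕ) → List α → ℕ → ℕ → ZMod N × ZMod N := fun b X lo hi =>
    ∑ j ∈ Finset.Ico lo hi, e j (seg f X (b j) (b (j + 1)))
  -- left labels
  let LR : List α → ℕ → V → Prop := fun P i v =>
    i < m ∧ a i + G i ≤ P.length ∧ P.length < a (i + 1) ∧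
      L i (res P.length) (ph f (P.take (bet G a P.length i)))
        (wsm (bet G a P.length) P 0 i) = some v
  let A : ℕ → ℕ := fun i => a i + G i
  let C : ℕ → ℕ := fun i => a (i + 1) - 1
  let legal : List α → ℕ → Prop := fun Q i =>
    a m ≤ Q.length ∧ G i ∣ Q.length ∧ ∀ j, i < j → j ≤ m →
      (Q.length + A i - a j) / G j = (Q.length + C i - a j) / G j
  let RL : List α → ℕ → V → Prop := fun Q i b =>
    legal Q i ∧ R i (res Q.length) (ph f (Q.drop (pos G a (A i) Q.length (i + 1))))
        (wsm (fun j => pos G a (A i) Q.length j) Q (i + 1) m) = some b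
  have hLuniq : ∀ P i v i' v', LR P i v → LR P i' v' → i = i' ∧ v = v' := by
    rintro P i v i' v' ⟨h1, h2, h3, h4⟩ ⟨h1', h2', h3', h4'⟩
    have hii : i = i' := by
      rcases lt_trichotomy i i' with h | h | h
      · have := hmono (show i + 1 ≤ i' from h)
        omega
      · exact h
      · have := hmono (show i' + 1 ≤ i from h)
        omega
    subst hii
    rw [h4] at h4'
    exact ⟨rfl, Option.some.inj h4'⟩
  have hRuniq : ∀ Q i b i' b', RL Q i b → RL Q i' b' → i = i' ∧ b = b' := by
    rintro Q i b i' b' ⟨h1, h2⟩ ⟨h1', h2'⟩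
    have e1 := (hlev _ _ _ _ _ h2).1
    have e2 := (hlev _ _ _ _ _ h2').1
    have hii : i = i' := by rw [e1, e2]
    subst hii
    rw [h2] at h2'
    exact ⟨rfl, Option.some.inj h2'⟩
  let lam : List α → Option V := fun P =>
    if h : ∃ v, ∃ i, LR P i v then some h.choose else none
  let rho : List α → Option V := fun Q =>
    if h : ∃ b, ∃ i, RL Q i b then some h.choose else none
  let nu : List α → V := fun X =>
    D (res X.length) (ph f X) (wsm (bet G a X.length) X 0 m)
  have hlam : ∀ P v, lam P = some v ↔ ∃ i, LR P i v := by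
    intro P v
    constructor
    · intro h
      simp only [lam] at h
      split_ifs at h with hc
      obtain ⟨i, hi⟩ := hc.choose_spec
      rw [← Option.some.inj h]
      exact ⟨i, hi⟩
    · rintro ⟨i, hi⟩
      have hc : ∃ v, ∃ i, LR P i v := ⟨v, i, hi⟩
      simp only [lam]
      rw [dif_pos hc]
      obtain ⟨i', hi'⟩ := hc.choose_spec
      rw [(hLuniq _ _ _ _ _ hi hi').2]
  have hrho : ∀ Q b, rho Q = some b ↔ ∃ i, RL Q i b := by
    intro Q b
    constructor
    · intro h
      simp only [rho] at h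
      split_ifs at h with hc
      obtain ⟨i, hi⟩ := hc.choose_spec
      rw [← Option.some.inj h]
      exact ⟨i, hi⟩
    · rintro ⟨i, hi⟩
      have hc : ∃ b, ∃ i, RL Q i b := ⟨b, i, hi⟩
      simp only [rho]
      rw [dif_pos hc]
      obtain ⟨i', hi'⟩ := hc.choose_spec
      rw [(hRuniq _ _ _ _ _ hi hi').2]
  -- the views are correct at a junction
  have hstep : ∀ T j, bet G a T j ≤ bet G a T (j + 1) := by
    intro T j
    have h1 := bet_lt (a := a) hG0 T j
    have h2 := bet_ge (G := G) (a := a) T (j + 1)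
    have h3 := ha j
    omega
  have views : ∀ (P Q : List α) (i : ℕ), i < m → A i ≤ P.length → P.length < a (i + 1) →
      legal Q i →
      ph f (P.take (bet G a P.length i)) =
        ph f ((P ++ Q).take (bet G a (P.length + Q.length) i)) ∧
      ph f (Q.drop (pos G a (A i) Q.length (i + 1))) =
        ph f ((P ++ Q).drop (bet G a (P.length + Q.length) (i + 1))) ∧
      wsm (bet G a P.length) P 0 i = wsm (bet G a (P.length + Q.length)) (P ++ Q) 0 i ∧
      wsm (fun j => pos G a (A i) Q.length j) Q (i + 1) m =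
        wsm (bet G a (P.length + Q.length)) (P ++ Q) (i + 1) m := by
    intro P Q i him hA hC hleg
    obtain ⟨hlen, hdv, hquo⟩ := hleg
    set T := P.length + Q.length with hT
    have hai : a i ≤ P.length := by simp only [A] at hA; omega
    -- left boundaries
    have hbl : ∀ j, j ≤ i → bet G a T j = bet G a P.length j := by
      intro j hj
      apply bet_left ((hmono hj).trans hai) (by omega)
      rw [hT, Nat.add_sub_cancel_left]
      exact (hGd j i hj).trans hdv
    have hbl2 : ∀ j, j ≤ i → bet G a P.length j ≤ P.length := by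
      intro j hj
      rcases Nat.lt_or_ge j i with h | h
      · have h1 := bet_lt (a := a) hG0 P.length j
        have h2 := hmono (show j + 1 ≤ i from h)
        have h3 := ha j
        omega
      · have : j = i := by omega
        subst this
        have h1 := bet_lt (a := a) hG0 P.length j
        simp only [A] at hA
        omega
    -- right boundaries
    have hbr : ∀ j, i < j → j ≤ m → bet G a T j = P.length + pos G a (A i) Q.length j := by
      intro j hj hjm
      have h1 := hmono (show i + 1 ≤ j from hj)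
      have h2 := hmono hjm
      exact (bet_right (C := C i) hT hA (by simp only [C]; omega) (by omega) (by omega)
        (hquo j hj hjm)).1
    refine ⟨?_, ?_, ?_, ?_⟩
    · rw [hbl i le_rfl, List.take_append_of_le_length (hbl2 i le_rfl)]
    · rw [hbr (i + 1) (by omega) (by omega), drop_right]
    · apply Finset.sum_congr rfl
      intro j hj
      rw [Finset.mem_Ico] at hj
      rw [hbl j (by omega), hbl (j + 1) (by omega), seg_left f (hbl2 (j + 1) (by omega))]
    · apply Finset.sum_congr rfl
      intro j hj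
      rw [Finset.mem_Ico] at hj
      rw [hbr j (by omega) (by omega), hbr (j + 1) (by omega) (by omega), seg_right]
  have tot : ∀ (X : List α) (i : ℕ), i < m →
      ph f (X.take (bet G a X.length i)) * seg f X (bet G a X.length i)
        (bet G a X.length (i + 1)) * ph f (X.drop (bet G a X.length (i + 1))) = ph f X ∧
      wsm (bet G a X.length) X 0 i + e i (seg f X (bet G a X.length i)
        (bet G a X.length (i + 1))) + wsm (bet G a X.length) X (i + 1) m =
        wsm (bet G a X.length) X 0 m := by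
    intro X i him
    refine ⟨split3 f X (hstep _ i), ?_⟩
    simp only [wsm]
    rw [← Finset.sum_Ico_consecutive _ (Nat.zero_le i) (show i ≤ m by omega),
      Finset.sum_eq_sum_Ico_succ_bot him, add_assoc]
  refine ⟨lam, rho, nu, ?_, ?_, ?_, ?_, ?_⟩
  · intro P v h
    obtain ⟨i, h1, h2, h3, -⟩ := (hlam _ _).1 h
    have h4 := hmono (show i + 1 ≤ m from h1)
    have h5 := hmono (Nat.zero_le i)
    omega
  · intro Q b h
    obtain ⟨i, ⟨h1, -⟩, -⟩ := (hrho _ _).1 h
    exact h1
  · intro P Q v b hv hb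
    obtain ⟨i, h1, h2, h3, h4⟩ := (hlam _ _).1 hv
    obtain ⟨i', h5, h6⟩ := (hrho _ _).1 hb
    have := hsound i i' (res P.length) (res Q.length) _ _ (ph f (P ++ Q)) _ _
      (wsm (bet G a (P.length + Q.length)) (P ++ Q) 0 m) v b ?_ h4 h6
    · rw [this, hres_add]
      simp only [nu, List.length_append]
    · intro hii
      subst hii
      obtain ⟨k1, k2, k3, k4⟩ := views P Q i h1 h2 h3 h5
      have ht := tot (P ++ Q) i h1
      rw [List.length_append] at ht
      rw [k1, k2, k3, k4]
      exact ⟨_, ht⟩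
  · intro X hX hq hband v
    obtain ⟨i, him, hi⟩ := hcompl (res X.length) (fun j => by
      simp only [res]
      rw [Ne, ZMod.natCast_eq_zero_iff]
      exact hq j) (ph f X) (wsm (bet G a X.length) X 0 m) v
    have hleX : ∀ j, j ≤ m → a j ≤ X.length := fun j hj => by
      have := hmono hj
      omega
    obtain ⟨ht1, ht2⟩ := tot X i him
    obtain ⟨t, t', htt, hLt, hRt⟩ := hi _ _ _ _ _ ht1 ht2
    obtain ⟨ω, -, -, hω⟩ := crt_hit q hqpos hcop t 0
    obtain ⟨o, ho1, ho2, ho3, ho4⟩ := crt_window hMpos (hG0 i) (hGM i) ω X.length (A i)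
    have hai1 : a (i + 1) = A i + M * G i := by simp only [A]; exact ha i
    have hm1 := hmono (show i + 1 ≤ m from him)
    have hoX : o ≤ X.length := by omega
    have hreso : res o = t := by
      funext j
      have hdv : q j ∣ M := Finset.dvd_prod_of_mem q (Finset.mem_univ j)
      have : (o : ZMod (q j)) = (ω : ZMod (q j)) :=
        (ZMod.natCast_eq_natCast_iff _ _ _).2 (ho3.of_dvd hdv)
      simp only [res]
      rw [this, hω j]
    have hreso' : res (X.length - o) = t' := by
      have h1 : res o + res (X.length - o) = res X.length := by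
        rw [hres_add]; congr 1; omega
      rw [← htt, hreso] at h1
      exact add_left_cancel h1
    have hPl : (X.take o).length = o := by rw [List.length_take]; omega
    have hQl : (X.drop o).length = X.length - o := List.length_drop
    have hXPQ : X.take o ++ X.drop o = X := List.take_append_drop o X
    have hleg : legal (X.drop o) i := by
      refine ⟨?_, ?_, ?_⟩
      · rw [hQl]; omega
      · rw [hQl]
        exact (Nat.modEq_iff_dvd' hoX).1 ho4
      · intro j hj hjm
        obtain ⟨b1, b2⟩ := hband i him j hj hjm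
        have h3 := hmono hjm
        have h4 : 0 < M * G i := Nat.mul_pos hMpos (hG0 i)
        rw [hQl]
        apply div_const (T := X.length - a j) (c := M * G i) b1 b2
        · omega
        · simp only [C]; omega
        · simp only [C]; omega
    obtain ⟨k1, k2, k3, k4⟩ := views (X.take o) (X.drop o) i him (by rw [hPl]; exact ho1)
      (by rw [hPl]; omega) hleg
    rw [hXPQ, hPl, hQl, Nat.add_sub_cancel' hoX] at k1 k2 k3 k4
    refine ⟨X.take o, X.drop o, hXPQ.symm, ?_, ?_⟩
    · rw [hlam]
      refine ⟨i, him, ?_, ?_, ?_⟩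
      · rw [hPl]; exact ho1
      · rw [hPl]; omega
      · rw [hPl, hreso, k1, k3]
        exact hLt
    · obtain ⟨b, hb⟩ := Option.isSome_iff_exists.1 hRt
      rw [Option.isSome_iff_exists]
      refine ⟨b, (hrho _ _).2 ⟨i, hleg, ?_⟩⟩
      rw [hQl, hreso', k2, k4]
      exact hb
  · intro Y Y' hY hY' htk hmod hph
    have hmM : Y.length ≡ Y'.length [MOD M] := Nat.ModEq.of_mul_right (G m) hmod
    have hmG : Y.length ≡ Y'.length [MOD G m] := Nat.ModEq.of_mul_left M hmod
    have hres' : res Y.length = res Y'.length := by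
      funext j
      have hdv : q j ∣ M := Finset.dvd_prod_of_mem q (Finset.mem_univ j)
      exact (ZMod.natCast_eq_natCast_iff _ _ _).2 (hmM.of_dvd hdv)
    have hbet : ∀ j, j ≤ m → bet G a Y.length j = bet G a Y'.length j := by
      intro j hj
      have h1 := hmono hj
      unfold bet
      congr 1
      have h2 : Y.length ≡ Y'.length [MOD G j] := hmG.of_dvd (hGd j m hj)
      have h3 : a j + (Y.length - a j) ≡ a j + (Y'.length - a j) [MOD G j] := by
        rw [Nat.add_sub_cancel' (by omega), Nat.add_sub_cancel' (by omega)]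
        exact h2
      exact Nat.ModEq.add_left_cancel' (a j) h3
    have hseg : ∀ x y, y ≤ a m + G m → seg f Y x y = seg f Y' x y := by
      intro x y hy
      rw [← seg_take f hy, ← seg_take f (X := Y') hy, htk]
    simp only [nu]
    rw [hres', hph]
    congr 1
    apply Finset.sum_congr rfl
    intro j hj
    rw [Finset.mem_Ico] at hj
    rw [hbet j (by omega), hbet (j + 1) (by omega)]
    congr 1
    apply hseg
    have h1 := bet_lt (a := a) hG0 Y'.length (j + 1)
    have h2 := hmono (show j + 1 ≤ m by omega)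
    have h3 : G (j + 1) ≤ G m := Nat.le_of_dvd (hG0 m) (hGd (j + 1) m (by omega))
    omega

/-- level starts -/
def aa (G : ℕ → ℕ) (M : ℕ) : ℕ → ℕ
  | 0 => 0
  | j + 1 => aa G M j + G j + M * G j

theorem badZ_period {Ms : Finset ℕ} {M κ m : ℕ} (hMs : ∀ p ∈ Ms, p ∣ M) {Am : ℕ → ℤ} {T T' : ℤ}
    (h : ((M * (2 ^ κ) ^ m : ℕ) : ℤ) ∣ T - T') (hb : BadZ Ms M (2 ^ κ) m Am T) :
    BadZ Ms M (2 ^ κ) m Am T' := by
  rcases hb with ⟨p, hp, hd⟩ | ⟨j, hj1, hjm, q, hq⟩
  · refine Or.inl ⟨p, hp, ?_⟩
    have h1 : (p : ℤ) ∣ T - T' :=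
      (Int.natCast_dvd_natCast.2 ((hMs p hp).trans (Nat.dvd_mul_right _ _))).trans h
    have := dvd_sub hd h1
    simpa using this
  · have h1 : (((2 ^ κ : ℕ) : ℤ) ^ j) ∣ T - T' := by
      have h2 : (2 ^ κ) ^ j ∣ M * (2 ^ κ) ^ m :=
        (Nat.pow_dvd_pow _ hjm).trans (Nat.dvd_mul_left _ _)
      have h3 := Int.natCast_dvd_natCast.2 h2
      rw [Nat.cast_pow] at h3
      exact h3.trans h
    obtain ⟨s, hs⟩ := h1
    refine Or.inr ⟨j, hj1, hjm, q - s, ?_⟩
    have : T' - Am j - (q - s) * ((2 ^ κ : ℕ) : ℤ) ^ j = T - Am j - q * ((2 ^ κ : ℕ) : ℤ) ^ j := by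
      linear_combination -hs
    rw [this]
    exact hq

/-- **Scheme 1 complete**: gadget, ruler, spoiling count (independent of the number `K` of ruler
places), periodicity. -/
theorem gridFull (S V : Type*) [Monoid S] [Finite S] [AddCommGroup V] [Finite V]
    (act : V → S → V) :
    ∃ C0 : ℕ, ∀ K : ℕ, ∃ (N1 Md Kt : ℕ) (c : ℕ → ℕ) (BadT : ℕ → Prop), 0 < Md ∧
      (∀ i j, i < j → c i < c j) ∧
      (∀ i i' j j', i' ≠ i → j' ≠ j → c i + c j' < c j + c i' + 2 * N1 →
        c j + c i' < c i + c j' + 2 * N1 → i = j) ∧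
      (∀ T : ℕ, (∀ k, k < K → c k ≤ T) → ∀ I : Finset ℕ,
        (∀ k ∈ I, k < K ∧ ∃ k', k' < K ∧ k' ≠ k ∧ BadT (T + c k' - c k)) → I.card ≤ C0) ∧
      (∀ T T' : ℕ, T % Md = T' % Md → (BadT T ↔ BadT T')) ∧
      ∀ {α : Type*} (f : α → S), ∃ (lam rho : List α → Option V) (nu : List α → V),
        (∀ P v, lam P = some v → P.length ≤ N1) ∧
        (∀ P Q v b, lam P = some v → rho Q = some b →
          b = act v (ph f (P ++ Q)) + nu (P ++ Q)) ∧
        (∀ X : List α, 2 * N1 ≤ X.length → ¬ BadT X.length →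
          ∀ v, ∃ P Q, X = P ++ Q ∧ lam P = some v ∧ (rho Q).isSome = true) ∧
        (∀ Y Y' : List α, Kt ≤ Y.length → Kt ≤ Y'.length → Y.take Kt = Y'.take Kt →
          Y.length % Md = Y'.length % Md → ph f Y = ph f Y' → nu Y = nu Y') := by
  classical
  obtain ⟨m, k, hmain⟩ := grid_reg S V act
  refine ⟨k + m, fun K => ?_⟩
  -- the primes
  let q : Fin k → ℕ := fun j => Nat.nth Nat.Prime (2 ^ (K + 1) + j)
  have hqp : ∀ j, (q j).Prime := fun j => Nat.prime_nth_prime _
  have hqb : ∀ j, 2 ^ (K + 1) < q j := fun j => by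
    have := Nat.add_two_le_nth_prime (2 ^ (K + 1) + j)
    simp only [q]; omega
  have hpow2 : 2 ≤ 2 ^ (K + 1) := by
    calc 2 = 2 ^ 1 := rfl
      _ ≤ 2 ^ (K + 1) := Nat.pow_le_pow_right (by norm_num) (by omega)
  have hodd : ∀ j, Odd (q j) := fun j => (hqp j).odd_of_ne_two (by have := hqb j; omega)
  have hinj : Function.Injective q := by
    intro i j h
    have h1 := (Nat.nth_strictMono Nat.infinite_setOfPred_prime).injective h
    exact Fin.ext (by omega)
  have hcop : Pairwise (fun i j => Nat.Coprime (q i) (q j)) := fun i j hij =>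
    (Nat.coprime_primes (hqp i) (hqp j)).2 (fun h => hij (hinj h))
  set M := ∏ l, q l with hM
  have hMpos : 0 < M := Finset.prod_pos fun j _ => (hqp j).pos
  let Ms : Finset ℕ := Finset.univ.image q
  have hMsp : ∀ p ∈ Ms, p.Prime ∧ 2 ^ (K + 1) < p := by
    intro p hp
    obtain ⟨j, -, rfl⟩ := Finset.mem_image.1 hp
    exact ⟨hqp j, hqb j⟩
  have hMsd : ∀ p ∈ Ms, p ∣ M := by
    intro p hp
    obtain ⟨j, -, rfl⟩ := Finset.mem_image.1 hp
    exact Finset.dvd_prod_of_mem q (Finset.mem_univ j)
  have hMsc : Ms.card ≤ k := by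
    have := Finset.card_image_le (s := (Finset.univ : Finset (Fin k))) (f := q)
    simpa using this
  set κ := 2 ^ (K + 6) * M with hκ
  have hκle : 2 ^ (K + 6) * M ≤ 2 ^ κ := Nat.lt_two_pow_self.le
  let G : ℕ → ℕ := fun j => (2 ^ κ) ^ j
  have hG0 : ∀ j, 0 < G j := fun j => by positivity
  have hGd : ∀ i j, i ≤ j → G i ∣ G j := fun i j hij => Nat.pow_dvd_pow _ hij
  have hGM : ∀ j, Nat.Coprime (∏ l, q l) (G j) := by
    intro j
    apply Nat.Coprime.prod_left
    intro l _
    have h2 : Nat.Coprime (q l) 2 := (Nat.coprime_two_right).2 (hodd l)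
    exact (h2.pow_right κ).pow_right j
  let a : ℕ → ℕ := aa G M
  have ha : ∀ j, a (j + 1) = a j + G j + (∏ l, q l) * G j := fun j => rfl
  obtain ⟨X, hX1, hX2⟩ := exists_ruler K m Ms hMsp M hMpos hMsd κ hκle (2 * a m)
  have hX0 : 0 < X := by omega
  have hmono : Monotone a := a_mono (G := G) (M := M) ha
  refine ⟨a m, M * G m, a m + G m, fun i => X * 2 ^ i,
    fun T => BadZ Ms M (2 ^ κ) m (fun j => (a j : ℤ)) (T : ℤ), Nat.mul_pos hMpos (hG0 m),
    ?_, ?_, ?_, ?_, ?_⟩
  · intro i j hij
    exact Nat.mul_lt_mul_of_pos_left (Nat.pow_lt_pow_right (by norm_num) hij) hX0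
  · intro i i' j j' hi hj h1 h2
    by_contra hne
    beta_reduce at h1 h2
    rcases spaced hX1 (Ne.symm hi) (Ne.symm hj) (fun h => hne (Prod.ext_iff.1 h).1) with h | h
    · omega
    · omega
  · intro T hT I hI
    have hch : ∀ k ∈ I, ∃ k', k' < K ∧ k' ≠ k ∧
        BadZ Ms M (2 ^ κ) m (fun j => (a j : ℤ)) ((T + X * 2 ^ k' - X * 2 ^ k : ℕ) : ℤ) :=
      fun k hk => (hI k hk).2
    choose! g hg1 hg2 hg3 using hch
    obtain ⟨hfin, hcard⟩ := hX2 (fun j => (a j : ℤ)) (T : ℤ)
    have hsub : ((I.image fun k => (g k, k) : Finset (ℕ × ℕ)) : Set (ℕ × ℕ)) ⊆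
        {ab : ℕ × ℕ | ab.1 < K ∧ ab.2 < K ∧ ab.1 ≠ ab.2 ∧
        BadZ Ms M (2 ^ κ) m (fun j => (a j : ℤ)) ((T : ℤ) + X * 2 ^ ab.1 - X * 2 ^ ab.2)} := by
      intro ab hab
      rw [Finset.mem_coe, Finset.mem_image] at hab
      obtain ⟨k, hk, rfl⟩ := hab
      refine ⟨hg1 k hk, (hI k hk).1, hg2 k hk, ?_⟩
      have h1 := hg3 k hk
      have h2 := hT k (hI k hk).1
      beta_reduce at h2
      rw [Nat.cast_sub (by omega)] at h1
      push_cast at h1
      exact h1
    have h1 := Set.ncard_le_ncard hsub hfin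
    rw [Set.ncard_coe_finset, Finset.card_image_of_injective _
      (fun x y h => (Prod.ext_iff.1 h).2)] at h1
    omega
  · intro T T' h
    have h1 : ((M * (2 ^ κ) ^ m : ℕ) : ℤ) ∣ (T : ℤ) - T' :=
      (Nat.modEq_iff_dvd.1 (show T' ≡ T [MOD M * G m] from h.symm))
    have h2 : ((M * (2 ^ κ) ^ m : ℕ) : ℤ) ∣ (T' : ℤ) - T := by
      have := dvd_neg.2 h1
      rwa [neg_sub] at this
    exact ⟨badZ_period hMsd h1, badZ_period hMsd h2⟩
  · intro α f
    obtain ⟨lam, rho, nu, h1, h2, h3, h4, h5⟩ := hmain q hodd hcop G a hG0 hGd hGM ha f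
    refine ⟨lam, rho, nu, fun P v h => (h1 P v h).2.le, h3, ?_, h5⟩
    intro Y hY hbad v
    apply h4 Y hY
    · intro j hj
      exact hbad (Or.inl ⟨q j, Finset.mem_image_of_mem q (Finset.mem_univ j),
        Int.natCast_dvd_natCast.2 hj⟩)
    · intro i him j hij hjm
      have hMG : M * G i ≤ M * G (j - 1) :=
        Nat.mul_le_mul_left _ (Nat.le_of_dvd (hG0 _) (hGd i (j - 1) (by omega)))
      have haj := hmono hjm
      have hle : a j ≤ Y.length := by omega
      set r := (Y.length - a j) % G j with hr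
      set t := (Y.length - a j) / G j with ht
      have hdm : G j * t + r = Y.length - a j := Nat.div_add_mod _ _
      have hrl : r < G j := Nat.mod_lt _ (hG0 j)
      have hZ : (Y.length : ℤ) - a j = (G j : ℤ) * t + r := by
        have : Y.length = a j + (G j * t + r) := by omega
        rw [this]; push_cast; ring
      have hGZ : (G j : ℤ) = ((2 ^ κ : ℕ) : ℤ) ^ j := by simp only [G]; push_cast; rfl
      have hGZ' : ((M * G (j - 1) : ℕ) : ℤ) = (M : ℤ) * ((2 ^ κ : ℕ) : ℤ) ^ (j - 1) := by
        simp only [G]; push_cast; rfl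
      constructor
      · by_contra hlt
        apply hbad
        refine Or.inr ⟨j, by omega, hjm, t, ?_⟩
        rw [← hGZ, ← hGZ', hZ]
        have : (G j : ℤ) * t + r - t * G j = r := by ring
        rw [this, abs_of_nonneg (by positivity)]
        have h9 : r < M * G i := not_le.1 hlt
        exact_mod_cast h9.le.trans hMG
      · by_contra hlt
        apply hbad
        refine Or.inr ⟨j, by omega, hjm, t + 1, ?_⟩
        rw [← hGZ, ← hGZ', hZ]
        have : (G j : ℤ) * t + r - (t + 1) * G j = -((G j : ℤ) - r) := by ring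
        have hnn : (0 : ℤ) ≤ (G j : ℤ) - r := by
          have : (r : ℤ) < G j := by exact_mod_cast hrl
          omega
        rw [this, abs_neg, abs_of_nonneg hnn]
        have h9 : G j < r + M * G i := not_le.1 hlt
        have : G j ≤ r + M * G (j - 1) := h9.le.trans (Nat.add_le_add_left hMG r)
        have : (G j : ℤ) ≤ r + ((M * G (j - 1) : ℕ) : ℤ) := by exact_mod_cast this
        omega

end main

end Crest.Agent.R320.UGrid2_145
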