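import Crest.Agent.R320.UGrid_77

/-!
Row 320, gadget of scheme 1 on all words (693 #13203): soundness and completeness on words.
-/

set_option autoImplicit false

namespace Crest.Agent.R320.UGrid77

open Finset

universe u v

theorem sum_split {W : Type*} [AddCommGroup W] {m : ℕ} (i : Fin m) (f : Fin m → W) :
    ∑ l, f l = (∑ l ∈ univ.filter (fun l => l < i), f l) + f i +
      ∑ l ∈ univ.filter (fun l => i < l), f l := by
  classical
  rw [← Finset.sum_filter_add_sum_filter_not univ (fun l => l < i) f]
  have : univ.filter (fun l => ¬ l < i) = insert i (univ.filter (fun l => i < l)) := by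
    ext l
    simp only [mem_filter, mem_univ, true_and, mem_insert, not_lt]
    constructor
    · intro h
      rcases eq_or_lt_of_le h with h | h
      · exact Or.inl h.symm
      · exact Or.inr h
    · rintro (h | h)
      · exact le_of_eq h.symm
      · exact le_of_lt h
  rw [this, Finset.sum_insert (by simp)]
  abel

section words

variable {α : Type v} {M G m i : ℕ}

theorem left_take (hG : 0 < G) {p q : List α} (hL : LL M G i p.length) (hd : G ^ i ∣ q.length) :
    (p ++ q).take (be M G i (p ++ q).length) = p.take (be M G i p.length) := by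
  have h1 := hL.1
  rw [List.length_append, be_left le_rfl hd (by omega)]
  have h2 := be_lt (M := M) hG i p.length
  exact List.take_append_of_le_length (by omega)

theorem left_seg (hG : 0 < G) {l : ℕ} (hl : l < i) {p q : List α} (hL : LL M G i p.length)
    (hd : G ^ i ∣ q.length) :
    ((p ++ q).drop (be M G l (p ++ q).length)).take
      (be M G (l + 1) (p ++ q).length - be M G l (p ++ q).length) =
    (p.drop (be M G l p.length)).take (be M G (l + 1) p.length - be M G l p.length) := by
  have h1 := hL.1
  have hB1 : Bb M G l ≤ Bb M G i := Bb_mono hl.le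
  have hB2 : Bb M G (l + 1) ≤ Bb M G i := Bb_mono hl
  have hl' : l + 1 ≤ i := hl
  rw [List.length_append, be_left hl.le hd (by omega), be_left hl' hd (by omega)]
  have h2 := be_lt (M := M) hG i p.length
  have h3 : be M G (l + 1) p.length ≤ be M G i p.length := be_mono hG hl _
  have h4 : be M G l p.length ≤ be M G (l + 1) p.length := be_le_succ hG _ _ _
  rw [List.drop_append_of_le_length (by omega)]
  refine List.take_append_of_le_length ?_
  rw [List.length_drop]
  omega

theorem right_drop {l : ℕ} {p q : List α} (hL : LL M G i p.length) (hR : RL M G m i q.length)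
    (hil : i < l) (hlm : l ≤ m) :
    (p ++ q).drop (be M G l (p ++ q).length) = q.drop (q.length - Rr M G i l q.length) := by
  have h1 := be_right hL hR hil hlm
  have hL2 := hL.2
  have h2 : Bb M G (i + 1) ≤ Bb M G l := Bb_mono hil
  have h3 := be_ge (M := M) (G := G) l (p.length + q.length)
  rw [List.length_append, List.drop_append]
  have h4 : p.drop (be M G l (p.length + q.length)) = [] := List.drop_eq_nil_of_le (by omega)
  rw [h4, List.nil_append]
  congr 1
  omega

theorem right_seg {l : ℕ} {p q : List α} (hL : LL M G i p.length) (hR : RL M G m i q.length)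
    (hil : i < l) (hlm : l < m) :
    ((p ++ q).drop (be M G l (p ++ q).length)).take
      (be M G (l + 1) (p ++ q).length - be M G l (p ++ q).length) =
    (q.drop (q.length - Rr M G i l q.length)).take
      (Rr M G i l q.length - Rr M G i (l + 1) q.length) := by
  rw [right_drop hL hR hil hlm.le]
  congr 1
  have h1 := be_right hL hR hil hlm.le
  have h2 := be_right hL hR (l := l + 1) (by omega) hlm
  rw [List.length_append]
  omega

theorem three {a b : ℕ} (hab : a ≤ b) (u : List α) :
    u = u.take a ++ ((u.drop a).take (b - a) ++ u.drop b) := by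
  have h : (u.drop a).drop (b - a) = u.drop b := by
    rw [List.drop_drop]; congr 1; omega
  rw [← h, List.take_append_drop, List.take_append_drop]

end words

/-- contexts: level, g, wl, h, wr, token, value -/
abbrev Ctx (m : ℕ) (S V W : Type u) := Fin m × S × W × S × W × V × V

section main

variable {S V W : Type u} [Monoid S] [AddCommGroup V] [AddCommGroup W]
variable (act : V → S → V) (m : ℕ) (e : Fin m → S → W) (F : S → W → V)

def Val (c : Ctx m S V W) : Prop :=
  ∀ z : S, F (c.2.1 * z * c.2.2.2.1) (c.2.2.1 + e c.1 z + c.2.2.2.2.1) +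
    act c.2.2.2.2.2.1 (c.2.1 * z * c.2.2.2.1) = c.2.2.2.2.2.2

variable {α : Type v} (phi : List α → S) (M G : ℕ)

def CL (c : Ctx m S V W) (p : List α) : Prop :=
  Val act m e F c ∧ LL M G c.1 p.length ∧ phi (p.take (be M G c.1 p.length)) = c.2.1 ∧
    ∑ l ∈ univ.filter (fun l : Fin m => l < c.1), e l (phi ((p.drop (be M G l p.length)).take
      (be M G (l + 1) p.length - be M G l p.length))) = c.2.2.1

def CR (c : Ctx m S V W) (q : List α) : Prop :=
  RL M G m c.1 q.length ∧ phi (q.drop (q.length - Rr M G c.1 (c.1 + 1) q.length)) = c.2.2.2.1 ∧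
    ∑ l ∈ univ.filter (fun l : Fin m => c.1 < l),
      e l (phi ((q.drop (q.length - Rr M G c.1 l q.length)).take
        (Rr M G c.1 l q.length - Rr M G c.1 (l + 1) q.length))) = c.2.2.2.2.1

open Classical in
noncomputable def lam (nmL : ℕ → Option (Ctx m S V W)) (p : List α) : Option V :=
  (nmL p.length).bind fun c => if CL act m e F phi M G c p then some c.2.2.2.2.2.1 else none

open Classical in
noncomputable def rho (nmR : ℕ → Option (Ctx m S V W)) (q : List α) : Option V :=
  (nmR q.length).bind fun c => if CR m e phi M G c q then some c.2.2.2.2.2.2 else none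

/-- weight of a zone -/
def wt (u : List α) : W :=
  ∑ l : Fin m, e l (phi ((u.drop (be M G l u.length)).take
      (be M G (l + 1) u.length - be M G l u.length)))

open Classical in
noncomputable def nu (Ms : Finset ℕ) (nmL nmR : ℕ → Option (Ctx m S V W)) (u : List α) : V :=
  if ∃ k ∈ Ms, k ∣ u.length then
    (if h : ∃ cc : Ctx m S V W × Ctx m S V W, ∃ o o', o + o' = u.length ∧ nmL o = some cc.1 ∧
        nmR o' = some cc.2 then
      h.choose.2.2.2.2.2.2.2 - act h.choose.1.2.2.2.2.2.1 (phi u) else 0)
  else F (phi u) (wt m e phi M G u)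

theorem lam_eq_some {nmL : ℕ → Option (Ctx m S V W)} {p : List α} {v : V} :
    lam act m e F phi M G nmL p = some v ↔
      ∃ c, nmL p.length = some c ∧ CL act m e F phi M G c p ∧ c.2.2.2.2.2.1 = v := by
  classical
  unfold lam
  rw [Option.bind_eq_some_iff]
  constructor
  · rintro ⟨c, hc, h⟩
    split_ifs at h with h1
    exact ⟨c, hc, h1, Option.some.inj h⟩
  · rintro ⟨c, hc, h1, h2⟩
    exact ⟨c, hc, by rw [if_pos h1, h2]⟩

theorem rho_eq_some {nmR : ℕ → Option (Ctx m S V W)} {q : List α} {v : V} :
    rho m e phi M G nmR q = some v ↔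
      ∃ c, nmR q.length = some c ∧ CR m e phi M G c q ∧ c.2.2.2.2.2.2 = v := by
  classical
  unfold rho
  rw [Option.bind_eq_some_iff]
  constructor
  · rintro ⟨c, hc, h⟩
    split_ifs at h with h1
    exact ⟨c, hc, h1, Option.some.inj h⟩
  · rintro ⟨c, hc, h1, h2⟩
    exact ⟨c, hc, by rw [if_pos h1, h2]⟩

variable {M G}

theorem lam_len {nmL : ℕ → Option (Ctx m S V W)} {p : List α} {v : V}
    (h : lam act m e F phi M G nmL p = some v) : p.length ≤ Bb M G m := by
  obtain ⟨c, -, hc, -⟩ := (lam_eq_some act m e F phi M G).1 h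
  have := hc.2.1.2
  have h2 : Bb M G (c.1 + 1) ≤ Bb M G m := Bb_mono c.1.2
  omega

/-- soundness -/
theorem sound (hG : 0 < G) (hphi : ∀ u v, phi (u ++ v) = phi u * phi v) (Ms : Finset ℕ)
    (nmL nmR : ℕ → Option (Ctx m S V W))
    (h1 : ∀ t t' c c', nmL t = some c → nmR t' = some c' → (∀ k ∈ Ms, ¬ k ∣ t + t') → c = c')
    (h3 : ∀ t₁ t₁' t₂ t₂' c₁ c₁' c₂ c₂', nmL t₁ = some c₁ → nmR t₁' = some c₁' →
        nmL t₂ = some c₂ → nmR t₂' = some c₂' → t₁ + t₁' = t₂ + t₂' →
        (∃ k ∈ Ms, k ∣ t₁ + t₁') → c₁ = c₂ ∧ c₁' = c₂')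
    {p q : List α} {v r : V} (hp : lam act m e F phi M G nmL p = some v)
    (hq : rho m e phi M G nmR q = some r) :
    r = act v (phi (p ++ q)) + nu act m e F phi M G Ms nmL nmR (p ++ q) := by
  classical
  obtain ⟨c, hc, hcl, hv⟩ := (lam_eq_some act m e F phi M G).1 hp
  obtain ⟨c', hc', hcr, hr⟩ := (rho_eq_some m e phi M G).1 hq
  unfold nu
  split_ifs with hk h
  · -- mismatch regime
    obtain ⟨o, o', ho, hoL, hoR⟩ := h.choose_spec
    rw [List.length_append] at ho hk
    have := h3 o o' p.length q.length _ _ _ _ hoL hoR hc hc' ho (by rw [ho]; exact hk)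
    rw [this.1, this.2, hv, hr]
    abel
  · exact absurd ⟨(c, c'), p.length, q.length, by rw [List.length_append], hc, hc'⟩ h
  · -- all true
    have hk' : ∀ k ∈ Ms, ¬ k ∣ p.length + q.length := by
      intro k hkM hkd
      exact hk ⟨k, hkM, by rwa [List.length_append]⟩
    obtain rfl : c = c' := h1 _ _ _ _ hc hc' hk'
    obtain ⟨hval, hL, hg, hwl⟩ := hcl
    obtain ⟨hR, hh, hwr⟩ := hcr
    set a := be M G c.1 (p ++ q).length with ha
    set b := be M G (c.1 + 1) (p ++ q).length with hb
    have hab : a ≤ b := be_le_succ hG _ _ _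
    have e1 : phi (p ++ q) = c.2.1 * phi (((p ++ q).drop a).take (b - a)) * c.2.2.2.1 := by
      conv_lhs => rw [three hab (p ++ q)]
      rw [hphi, hphi, ha, left_take hG hL hR.1, hg, hb,
        right_drop hL hR (Nat.lt_succ_self _) c.1.2, hh, mul_assoc]
    have e2 : wt m e phi M G (p ++ q) =
        c.2.2.1 + e c.1 (phi (((p ++ q).drop a).take (b - a))) + c.2.2.2.2.1 := by
      unfold wt
      rw [sum_split c.1]
      congr 1
      · congr 1
        rw [← hwl]
        refine Finset.sum_congr rfl ?_
        intro l hl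
        have hl' : l < c.1 := (Finset.mem_filter.1 hl).2
        rw [left_seg hG (l := l) hl' hL hR.1]
      · rw [← hwr]
        refine Finset.sum_congr rfl ?_
        intro l hl
        have hl' : c.1 < l := (Finset.mem_filter.1 hl).2
        rw [right_seg hL hR (l := l) hl' l.2]
    have := hval (phi (((p ++ q).drop a).take (b - a)))
    rw [e1, e2, ← hr, ← this, hv]
    abel

/-- completeness -/
theorem complete (hG : 0 < G) (hM : 0 < M) (hco : Nat.Coprime (G) M)
    (hphi : ∀ u v, phi (u ++ v) = phi u * phi v)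
    (hF : ∀ (s : S) (w : W) (v : V), ∃ i : Fin m, ∀ g x h : S, g * x * h = s →
        ∀ z : S, F (g * z * h) (w - e i x + e i z) + act v (g * z * h) = F s w + act v s)
    (Ms : Finset ℕ) (nmL nmR : ℕ → Option (Ctx m S V W))
    (hpL : ∀ t, nmL (t + M) = nmL t)
    (h2 : ∀ T, (∀ k ∈ Ms, ¬ k ∣ T) → ∀ c, ∃ t < M, nmL t = some c ∧
        ∀ t', t + t' ≡ T [MOD M] → nmR t' = some c)
    (u : List α) (hu : 2 * Bb M G m ≤ u.length) (hb : ¬ Bad M G m Ms u.length) (v : V) :
    ∃ p q, p ++ q = u ∧ lam act m e F phi M G nmL p = some v ∧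
      (rho m e phi M G nmR q).isSome := by
  classical
  obtain ⟨i, hi⟩ := hF (phi u) (wt m e phi M G u) v
  set T := u.length with hT
  set a := be M G i T with ha
  set b := be M G (i + 1) T with hbb
  have hab : a ≤ b := be_le_succ hG _ _ _
  set x := phi ((u.drop a).take (b - a)) with hx
  set g := phi (u.take a) with hg
  set h := phi (u.drop b) with hh
  have e1 : g * x * h = phi u := by
    conv_rhs => rw [three hab u]
    rw [hphi, hphi, mul_assoc]
  set wl := ∑ l ∈ univ.filter (fun l : Fin m => l < i), e l (phi ((u.drop (be M G l T)).take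
      (be M G (l + 1) T - be M G l T))) with hwl
  set wr := ∑ l ∈ univ.filter (fun l : Fin m => i < l), e l (phi ((u.drop (be M G l T)).take
      (be M G (l + 1) T - be M G l T))) with hwr
  have e2 : wt m e phi M G u = wl + e i x + wr := by
    unfold wt
    rw [sum_split i]
  set c : Ctx m S V W := (i, g, wl, h, wr, v, F (phi u) (wt m e phi M G u) + act v (phi u)) with hc
  have hval : Val act m e F c := by
    intro z
    have := hi g x h e1 z
    have e3 : wt m e phi M G u - e i x + e i z = wl + e i z + wr := by rw [e2]; abel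
    rw [e3] at this
    exact this
  obtain ⟨t, htM, htL, htR⟩ := h2 T (fun k hk hkd => hb (Or.inl ⟨k, hk, hkd⟩)) c
  -- CRT
  have hGi : 0 < G ^ (i : ℕ) := pow_pos hG _
  have hcop : Nat.Coprime (G ^ (i : ℕ)) M := Nat.Coprime.pow_left _ hco
  set A := Bb M G i + G ^ (i : ℕ) with hA
  have hAT : Bb M G (i + 1) ≤ Bb M G m := Bb_mono i.2
  have hBS : Bb M G (i + 1) = Bb M G i + G ^ (i : ℕ) + M * G ^ (i : ℕ) := rfl
  obtain ⟨y, hy1, hy2⟩ := Nat.chineseRemainder hcop (T + (A * (G ^ (i : ℕ)) - A)) (t + (A * M - A))
  set K := G ^ (i : ℕ) * M with hK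
  have hKpos : 0 < K := Nat.mul_pos hGi hM
  have hAG : A ≤ A * G ^ (i : ℕ) := Nat.le_mul_of_pos_right _ hGi
  have hAM : A ≤ A * M := Nat.le_mul_of_pos_right _ hM
  set o := A + y % K with ho
  have hy : y % K < K := Nat.mod_lt _ hKpos
  have hKM : K = M * G ^ (i : ℕ) := Nat.mul_comm _ _
  have ho1 : o ≡ T [MOD G ^ (i : ℕ)] := by
    have s1 : y % K ≡ y [MOD G ^ (i : ℕ)] :=
      (Nat.mod_modEq y K).of_mul_right M
    have s2 : A + y % K ≡ A + (T + (A * (G ^ (i : ℕ)) - A)) [MOD G ^ (i : ℕ)] :=
      Nat.ModEq.add_left A (s1.trans hy1)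
    have s3 : A + (T + (A * (G ^ (i : ℕ)) - A)) = T + G ^ (i : ℕ) * A := by
      rw [mul_comm (G ^ (i : ℕ)) A]; omega
    rw [s3] at s2
    exact s2.trans (by simp [Nat.ModEq])
  have ho2 : o ≡ t [MOD M] := by
    have s1 : y % K ≡ y [MOD M] :=
      (Nat.mod_modEq y K).of_mul_left (G ^ (i : ℕ))
    have s2 : A + y % K ≡ A + (t + (A * M - A)) [MOD M] :=
      Nat.ModEq.add_left A (s1.trans hy2)
    have s3 : A + (t + (A * M - A)) = t + M * A := by
      rw [mul_comm M A]; omega
    rw [s3] at s2
    exact s2.trans (by simp [Nat.ModEq])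
  have hoT : o ≤ T := by omega
  have hLL : LL M G i o := ⟨by omega, by rw [hBS, ← hKM]; omega⟩
  have hd : G ^ (i : ℕ) ∣ T - o := (Nat.modEq_iff_dvd' hoT).1 ho1
  have hRR : RL M G m i (T - o) := right_legal Ms hG i.2 (by omega) hb hLL hd
  have hper : ∀ k t, nmL (t + k * M) = nmL t := by
    intro k t
    induction k with
    | zero => simp
    | succ k ih => rw [Nat.succ_mul, ← Nat.add_assoc, hpL, ih]
  have hnL : nmL o = some c := by
    have s1 : o % M = t := by
      have : o % M = t % M := ho2
      rw [this, Nat.mod_eq_of_lt htM]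
    have s2 : o = t + (o / M) * M := by
      have := Nat.mod_add_div o M
      rw [s1] at this
      rw [mul_comm (o / M) M]
      omega
    rw [s2, hper, htL]
  have hnR : nmR (T - o) = some c := by
    apply htR
    have : t + (T - o) ≡ o + (T - o) [MOD M] := Nat.ModEq.add_right _ ho2.symm
    rwa [Nat.add_sub_cancel' hoT] at this
  have hpq : u.take o ++ u.drop o = u := List.take_append_drop o u
  have hlp : (u.take o).length = o := by rw [List.length_take]; omega
  have hlq : (u.drop o).length = T - o := by rw [List.length_drop]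
  have hLL' : LL M G i (u.take o).length := by rw [hlp]; exact hLL
  have hRR' : RL M G m i (u.drop o).length := by rw [hlq]; exact hRR
  refine ⟨u.take o, u.drop o, hpq, ?_, ?_⟩
  · refine (lam_eq_some act m e F phi M G).2 ⟨c, by rw [hlp]; exact hnL, ?_, rfl⟩
    refine ⟨hval, hLL', ?_, ?_⟩
    · have := left_take hG (p := u.take o) (q := u.drop o) hLL' hRR'.1
      rw [hpq] at this
      rw [← this]
    · show _ = wl
      rw [hwl]
      refine Finset.sum_congr rfl ?_
      intro l hl
      have hl' : l < i := (Finset.mem_filter.1 hl).2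
      have := left_seg hG (l := l) (p := u.take o) (q := u.drop o) hl' hLL' hRR'.1
      rw [hpq] at this
      rw [← this]
  · rw [Option.isSome_iff_exists]
    refine ⟨c.2.2.2.2.2.2, (rho_eq_some m e phi M G).2 ⟨c, by rw [hlq]; exact hnR, ?_, rfl⟩⟩
    refine ⟨hRR', ?_, ?_⟩
    · have := right_drop (p := u.take o) (q := u.drop o) hLL' hRR' (Nat.lt_succ_self _) i.2
      rw [hpq] at this
      rw [← this]
    · show _ = wr
      rw [hwr]
      refine Finset.sum_congr rfl ?_
      intro l hl
      have hl' : i < l := (Finset.mem_filter.1 hl).2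
      have := right_seg (l := l) (p := u.take o) (q := u.drop o) hLL' hRR' hl' l.2
      rw [hpq] at this
      rw [← this]

end main

end Crest.Agent.R320.UGrid77
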