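import Crest.Agent.R320.UGrid_77
import Crest.Agent.R320.Golomb2_68

/-!
Row 320, gadget of scheme 1 on all words (693 #13203): the ruler and the thin set.
-/

set_option autoImplicit false

namespace Crest.Agent.R320.UGrid77

open Finset Crest.Agent.R320.Golomb68

/-- the factor of the ruler -/
def Yy (M G m : ℕ) : ℕ := 1 + 4 * ∑ j ∈ range m, M * G ^ j

theorem Yy_split {M G m l : ℕ} (hl : l < m) : ∃ w, Yy M G m = Yy M G (l + 1) + G ^ (l + 1) * w := by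
  obtain ⟨n, rfl⟩ : ∃ n, m = (l + 1) + n := ⟨m - (l + 1), by omega⟩
  refine ⟨4 * ∑ j ∈ range n, M * G ^ j, ?_⟩
  unfold Yy
  rw [Finset.sum_range_add]
  have : ∑ x ∈ range n, M * G ^ (l + 1 + x) = G ^ (l + 1) * ∑ j ∈ range n, M * G ^ j := by
    rw [Finset.mul_sum]
    refine Finset.sum_congr rfl ?_
    intro x _
    rw [pow_add]; ring
  rw [this]
  ring

theorem Yy_ge {M G l : ℕ} : 1 + 4 * (M * G ^ l) ≤ Yy M G (l + 1) := by
  unfold Yy
  have : M * G ^ l ≤ ∑ j ∈ range (l + 1), M * G ^ j :=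
    Finset.single_le_sum (f := fun j => M * G ^ j) (fun _ _ => Nat.zero_le _)
      (Finset.mem_range.2 (Nat.lt_succ_self l))
  omega

theorem Yy_le {M G m l : ℕ} (hG : 0 < G) (hl : l < m) : Yy M G (l + 1) ≤ (1 + 4 * m * M) * G ^ l := by
  unfold Yy
  have h1 : ∑ j ∈ range (l + 1), M * G ^ j ≤ (range (l + 1)).card • (M * G ^ l) := by
    apply Finset.sum_le_card_nsmul
    intro j hj
    exact Nat.mul_le_mul_left _ (Nat.pow_le_pow_right hG (by have := Finset.mem_range.1 hj; omega))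
  rw [Finset.card_range, smul_eq_mul] at h1
  have h2 : (l + 1) * (M * G ^ l) ≤ m * (M * G ^ l) := Nat.mul_le_mul_right _ hl
  have h3 : 1 ≤ G ^ l := Nat.one_le_pow _ _ hG
  have h4 : (1 + 4 * m * M) * G ^ l = G ^ l + 4 * (m * (M * G ^ l)) := by ring
  rw [h4]
  omega

theorem Yy_mod {M G m k : ℕ} (hk : k ∣ M) : ∃ w, Yy M G m = 1 + k * w := by
  obtain ⟨t, rfl⟩ := hk
  refine ⟨4 * ∑ j ∈ range m, t * G ^ j, ?_⟩
  unfold Yy
  have : ∑ x ∈ range m, k * t * G ^ x = k * ∑ j ∈ range m, t * G ^ j := by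
    rw [Finset.mul_sum]
    exact Finset.sum_congr rfl fun x _ => by ring
  rw [this]
  ring

/-- the ruler -/
def xx (M G m a : ℕ) : ℕ := Yy M G m * 2 ^ a

theorem near {g c Z : ℕ} (h : Z % g < c ∨ g ≤ Z % g + c) (hg : 0 < g) :
    ∃ n : ℤ, -(c : ℤ) ≤ (Z : ℤ) - g * n ∧ (Z : ℤ) - g * n ≤ c := by
  have h1 := Nat.mod_add_div Z g
  have h1' : ((Z % g : ℕ) : ℤ) + (g : ℤ) * ((Z / g : ℕ) : ℤ) = (Z : ℤ) := by exact_mod_cast h1
  have h2 : Z % g < g := Nat.mod_lt _ hg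
  rcases h with h | h
  · refine ⟨((Z / g : ℕ) : ℤ), ?_, ?_⟩
    · have : (0 : ℤ) ≤ ((Z % g : ℕ) : ℤ) := by positivity
      have h3 : (0 : ℤ) ≤ c := by positivity
      linarith
    · have : ((Z % g : ℕ) : ℤ) < c := by exact_mod_cast h
      linarith
  · refine ⟨((Z / g : ℕ) : ℤ) + 1, ?_, ?_⟩
    · have : (g : ℤ) ≤ ((Z % g : ℕ) : ℤ) + c := by exact_mod_cast h
      linarith
    · have : ((Z % g : ℕ) : ℤ) < g := by exact_mod_cast h2
      have h3 : (0 : ℤ) ≤ c := by positivity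
      linarith

theorem far {g y c : ℤ} {K a b c' d : ℕ} (ha : a < K) (hb : b < K) (hc : c' < K) (hd : d < K)
    (hy : 1 + 4 * c ≤ y) (hc0 : 0 ≤ c) (hg : y * (2 * 2 ^ K) + 2 * c + 1 ≤ g) (n : ℤ)
    (h : |y * dl a b c' d - g * n| ≤ 2 * c) : dl a b c' d = 0 := by
  by_contra hne
  have hb1 := dl_bound ha hb hc hd
  have h1 : 1 ≤ |dl a b c' d| := Int.one_le_abs hne
  have hy0 : 0 < y := by linarith
  have e1 : |y * dl a b c' d| = y * |dl a b c' d| := by rw [abs_mul, abs_of_pos hy0]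
  have e2 : y ≤ |y * dl a b c' d| := by rw [e1]; nlinarith
  have e3 : |y * dl a b c' d| ≤ y * (2 * 2 ^ K) := by
    rw [e1]; exact mul_le_mul_of_nonneg_left hb1.le hy0.le
  by_cases hn : n = 0
  · subst hn
    rw [mul_zero, sub_zero] at h
    linarith
  · have h2 : 1 ≤ |n| := Int.one_le_abs hn
    have hg0 : 0 < g := by nlinarith [pow_pos (show (0 : ℤ) < 2 by norm_num) K]
    have e4 : g ≤ |g * n| := by rw [abs_mul, abs_of_pos hg0]; nlinarith
    have e5 : |g * n| ≤ |y * dl a b c' d - g * n| + |y * dl a b c' d| := by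
      have := abs_sub_abs_le_abs_sub (g * n) (y * dl a b c' d)
      rw [abs_sub_comm] at this
      linarith
    linarith

open Classical in
theorem thin {M G m K : ℕ} {Ms : Finset ℕ} (hG : 0 < G) (hMs : ∀ k ∈ Ms, 2 * 2 ^ K ≤ k ∧ k ∣ M)
    (hGb : (1 + 4 * m * M) * (2 * 2 ^ K) + 2 * M + 1 ≤ G) (T : ℕ)
    (hT : ∀ k < K, xx M G m k ≤ T) :
    ((range K ×ˢ range K).filter (fun ab : ℕ × ℕ => ab.1 ≠ ab.2 ∧
      Bad M G m Ms (T + xx M G m ab.1 - xx M G m ab.2))).card ≤ Ms.card + m := by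
  classical
  set PP : Finset (ℕ × ℕ) := (range K ×ˢ range K).filter (fun ab : ℕ × ℕ => ab.1 ≠ ab.2) with hPP
  let P : ℕ → Finset (ℕ × ℕ) := fun k => PP.filter
    (fun ab => k ∣ T + xx M G m ab.1 - xx M G m ab.2)
  let Q : ℕ → Finset (ℕ × ℕ) := fun l => PP.filter (fun ab =>
    (T + xx M G m ab.1 - xx M G m ab.2 + Bb M G (l + 1) * (G ^ (l + 1) - 1)) % G ^ (l + 1) < M * G ^ l ∨
    G ^ (l + 1) ≤ (T + xx M G m ab.1 - xx M G m ab.2 + Bb M G (l + 1) * (G ^ (l + 1) - 1)) %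
      G ^ (l + 1) + M * G ^ l)
  have hsub : ((range K ×ˢ range K).filter (fun ab : ℕ × ℕ => ab.1 ≠ ab.2 ∧
      Bad M G m Ms (T + xx M G m ab.1 - xx M G m ab.2))) ⊆ (Ms.biUnion P) ∪ ((range m).biUnion Q) := by
    intro ab hab
    rw [Finset.mem_filter] at hab
    obtain ⟨h1, h2, h3⟩ := hab
    have hP : ab ∈ PP := Finset.mem_filter.2 ⟨h1, h2⟩
    rcases h3 with ⟨k, hk, hkd⟩ | ⟨l, hl, hld⟩
    · exact Finset.mem_union_left _ (Finset.mem_biUnion.2 ⟨k, hk, Finset.mem_filter.2 ⟨hP, hkd⟩⟩)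
    · exact Finset.mem_union_right _
        (Finset.mem_biUnion.2 ⟨l, Finset.mem_range.2 hl, Finset.mem_filter.2 ⟨hP, hld⟩⟩)
  have key : ∀ ab ∈ PP, ∀ cd ∈ PP, dl ab.1 ab.2 cd.1 cd.2 = 0 → ab = cd := by
    intro ab hab cd hcd h
    rcases dl_zero h with ⟨r1, r2⟩ | ⟨r1, -⟩
    · exact Prod.ext r1 r2
    · exact absurd r1 (Finset.mem_filter.1 hab).2
  have mem : ∀ ab ∈ PP, ab.1 < K ∧ ab.2 < K := by
    intro ab hab
    have := (Finset.mem_filter.1 hab).1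
    rw [Finset.mem_product, Finset.mem_range, Finset.mem_range] at this
    exact this
  have cast1 : ∀ ab ∈ PP, ((T + xx M G m ab.1 - xx M G m ab.2 : ℕ) : ℤ) =
      (T : ℤ) + (Yy M G m : ℤ) * (2 ^ ab.1 - 2 ^ ab.2) := by
    intro ab hab
    have h1 := hT _ (mem ab hab).2
    rw [Nat.cast_sub (by omega)]
    unfold xx
    push_cast
    ring
  refine (Finset.card_le_card hsub).trans ((Finset.card_union_le _ _).trans (Nat.add_le_add ?_ ?_))
  · refine (Finset.card_biUnion_le_card_mul _ _ 1 ?_).trans (by simp)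
    intro k hk
    rw [Finset.card_le_one]
    intro ab hab cd hcd
    obtain ⟨hab1, hab2⟩ := Finset.mem_filter.1 hab
    obtain ⟨hcd1, hcd2⟩ := Finset.mem_filter.1 hcd
    apply key ab hab1 cd hcd1
    obtain ⟨w, hw⟩ := Yy_mod (M := M) (G := G) (m := m) (hMs k hk).2
    have d1 : (k : ℤ) ∣ (T : ℤ) + (Yy M G m : ℤ) * (2 ^ ab.1 - 2 ^ ab.2) := by
      rw [← cast1 ab hab1]; exact_mod_cast hab2
    have d2 : (k : ℤ) ∣ (T : ℤ) + (Yy M G m : ℤ) * (2 ^ cd.1 - 2 ^ cd.2) := by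
      rw [← cast1 cd hcd1]; exact_mod_cast hcd2
    have d3 : (k : ℤ) ∣ (Yy M G m : ℤ) * dl ab.1 ab.2 cd.1 cd.2 := by
      have := dvd_sub d1 d2
      have e : (T : ℤ) + (Yy M G m : ℤ) * (2 ^ ab.1 - 2 ^ ab.2) -
          ((T : ℤ) + (Yy M G m : ℤ) * (2 ^ cd.1 - 2 ^ cd.2)) =
          (Yy M G m : ℤ) * dl ab.1 ab.2 cd.1 cd.2 := by unfold dl; ring
      rwa [e] at this
    have d4 : (k : ℤ) ∣ dl ab.1 ab.2 cd.1 cd.2 := by
      have e : dl ab.1 ab.2 cd.1 cd.2 = (Yy M G m : ℤ) * dl ab.1 ab.2 cd.1 cd.2 -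
          (k : ℤ) * ((w : ℤ) * dl ab.1 ab.2 cd.1 cd.2) := by
        rw [hw]; push_cast; ring
      rw [e]
      exact dvd_sub d3 (dvd_mul_right _ _)
    exact dl_dvd (mem ab hab1).1 (mem ab hab1).2 (mem cd hcd1).1 (mem cd hcd1).2 (hMs k hk).1 d4
  · refine (Finset.card_biUnion_le_card_mul _ _ 1 ?_).trans (by simp)
    intro l hl
    have hl' : l < m := Finset.mem_range.1 hl
    rw [Finset.card_le_one]
    intro ab hab cd hcd
    obtain ⟨hab1, hab2⟩ := Finset.mem_filter.1 hab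
    obtain ⟨hcd1, hcd2⟩ := Finset.mem_filter.1 hcd
    apply key ab hab1 cd hcd1
    have hgl : 0 < G ^ (l + 1) := pow_pos hG _
    obtain ⟨n1, h1a, h1b⟩ := near hab2 hgl
    obtain ⟨n2, h2a, h2b⟩ := near hcd2 hgl
    obtain ⟨w, hw⟩ := Yy_split (M := M) (G := G) hl'
    have hyl := Yy_ge (M := M) (G := G) (l := l)
    have hyu := Yy_le (M := M) hG hl'
    rw [Nat.cast_add, cast1 ab hab1] at h1a h1b
    rw [Nat.cast_add, cast1 cd hcd1] at h2a h2b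
    refine far (g := ((G ^ (l + 1) : ℕ) : ℤ)) (y := ((Yy M G (l + 1) : ℕ) : ℤ))
      (c := ((M * G ^ l : ℕ) : ℤ)) (K := K) (mem ab hab1).1 (mem ab hab1).2 (mem cd hcd1).1
      (mem cd hcd1).2 (by exact_mod_cast hyl) (by positivity) ?_
      (n1 - n2 - w * dl ab.1 ab.2 cd.1 cd.2) ?_
    · have : Yy M G (l + 1) * (2 * 2 ^ K) + 2 * (M * G ^ l) + 1 ≤ G ^ (l + 1) := by
        have h3 : 1 ≤ G ^ l := Nat.one_le_pow _ _ hG
        calc Yy M G (l + 1) * (2 * 2 ^ K) + 2 * (M * G ^ l) + 1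
            ≤ (1 + 4 * m * M) * G ^ l * (2 * 2 ^ K) + 2 * (M * G ^ l) + G ^ l := by
              have := Nat.mul_le_mul_right (2 * 2 ^ K) hyu
              omega
          _ = ((1 + 4 * m * M) * (2 * 2 ^ K) + 2 * M + 1) * G ^ l := by ring
          _ ≤ G * G ^ l := Nat.mul_le_mul_right _ hGb
          _ = G ^ (l + 1) := by rw [pow_succ]; ring
      exact_mod_cast this
    · have e : ((Yy M G (l + 1) : ℕ) : ℤ) * dl ab.1 ab.2 cd.1 cd.2 - ((G ^ (l + 1) : ℕ) : ℤ) *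
          (n1 - n2 - w * dl ab.1 ab.2 cd.1 cd.2) =
          ((T : ℤ) + (Yy M G m : ℤ) * (2 ^ ab.1 - 2 ^ ab.2) +
            ((Bb M G (l + 1) * (G ^ (l + 1) - 1) : ℕ) : ℤ) - ((G ^ (l + 1) : ℕ) : ℤ) * n1) -
          ((T : ℤ) + (Yy M G m : ℤ) * (2 ^ cd.1 - 2 ^ cd.2) +
            ((Bb M G (l + 1) * (G ^ (l + 1) - 1) : ℕ) : ℤ) - ((G ^ (l + 1) : ℕ) : ℤ) * n2) := by
        have hw' : (Yy M G m : ℤ) = (Yy M G (l + 1) : ℤ) + ((G ^ (l + 1) : ℕ) : ℤ) * (w : ℤ) := by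
          exact_mod_cast hw
        rw [hw']
        unfold dl
        ring
      rw [e, abs_le]
      constructor <;> linarith

theorem Bad_period {M G m : ℕ} {Ms : Finset ℕ} (hMs : ∀ k ∈ Ms, k ∣ M) (T : ℕ) :
    Bad M G m Ms (T + M * G ^ m) ↔ Bad M G m Ms T := by
  unfold Bad
  have h1 : (∃ k ∈ Ms, k ∣ T + M * G ^ m) ↔ ∃ k ∈ Ms, k ∣ T := by
    refine exists_congr fun k => and_congr_right fun hk => ?_
    exact (Nat.dvd_add_left ((hMs k hk).mul_right _))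
  rw [h1]
  refine or_congr_right (exists_congr fun l => and_congr_right fun hl => ?_)
  have h2 : (T + M * G ^ m + Bb M G (l + 1) * (G ^ (l + 1) - 1)) % G ^ (l + 1) =
      (T + Bb M G (l + 1) * (G ^ (l + 1) - 1)) % G ^ (l + 1) := by
    obtain ⟨w, hw⟩ : G ^ (l + 1) ∣ M * G ^ m := (pow_dvd_pow G hl).mul_left _
    rw [hw, show T + G ^ (l + 1) * w + Bb M G (l + 1) * (G ^ (l + 1) - 1) =
      (T + Bb M G (l + 1) * (G ^ (l + 1) - 1)) + G ^ (l + 1) * w by omega,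
      Nat.add_mul_mod_self_left]
  rw [h2]

end Crest.Agent.R320.UGrid77
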