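import Mathlib

/-!
Row 320, gadget of scheme 1 on all words (693 #13203): arithmetic of the nested grids.
-/

set_option autoImplicit false

namespace Crest.Agent.R320.UGrid77

/-- lower end of the window in which the boundary `l` is searched -/
def Bb (M G : ℕ) : ℕ → ℕ
  | 0 => 0
  | l + 1 => Bb M G l + G ^ l + M * G ^ l

/-- boundary `l` in a zone of length `T` -/
def be (M G l T : ℕ) : ℕ := Bb M G l + (T - Bb M G l) % G ^ l

/-- distance from the boundary `l` to the end, as known on the right of a cut of level `i` -/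
def Rr (M G i l o' : ℕ) : ℕ := G ^ l * ((o' + (Bb M G i + G ^ i) - Bb M G l) / G ^ l)

/-- left legality -/
def LL (M G i o : ℕ) : Prop := Bb M G i + G ^ i ≤ o ∧ o < Bb M G (i + 1)

/-- right legality -/
def RL (M G m i o' : ℕ) : Prop := G ^ i ∣ o' ∧ Bb M G m ≤ o' ∧ ∀ l, i < l → l ≤ m →
  (o' + (Bb M G i + G ^ i) - Bb M G l) / G ^ l = (o' + (Bb M G (i + 1) - 1) - Bb M G l) / G ^ l

/-- thin set of zone lengths -/
def Bad (M G m : ℕ) (Ms : Finset ℕ) (T : ℕ) : Prop :=
  (∃ k ∈ Ms, k ∣ T) ∨ ∃ l < m, (T + Bb M G (l + 1) * (G ^ (l + 1) - 1)) % G ^ (l + 1) < M * G ^ l ∨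
    G ^ (l + 1) ≤ (T + Bb M G (l + 1) * (G ^ (l + 1) - 1)) % G ^ (l + 1) + M * G ^ l

variable {M G : ℕ}

theorem Bb_mono {l l' : ℕ} (h : l ≤ l') : Bb M G l ≤ Bb M G l' := by
  induction h with
  | refl => exact le_rfl
  | step _ ih => exact le_trans ih (by simp only [Bb]; omega)

theorem be_ge (l T : ℕ) : Bb M G l ≤ be M G l T := Nat.le_add_right _ _

theorem be_lt (hG : 0 < G) (l T : ℕ) : be M G l T < Bb M G l + G ^ l :=
  Nat.add_lt_add_left (Nat.mod_lt _ (pow_pos hG l)) _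

theorem be_succ_ge (l T : ℕ) : Bb M G l + G ^ l + M * G ^ l ≤ be M G (l + 1) T := be_ge (l + 1) T

theorem be_le_succ (hG : 0 < G) (l T T' : ℕ) : be M G l T ≤ be M G (l + 1) T' := by
  have h1 := be_lt (M := M) hG l T
  have h2 := be_succ_ge (M := M) (G := G) l T'
  omega

theorem be_mono (hG : 0 < G) {l l' : ℕ} (h : l ≤ l') (T : ℕ) : be M G l T ≤ be M G l' T := by
  induction h with
  | refl => exact le_rfl
  | step _ ih => exact le_trans ih (be_le_succ hG _ _ _)

theorem be_left {l i o o' : ℕ} (hl : l ≤ i) (hd : G ^ i ∣ o') (ho : Bb M G l ≤ o) :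
    be M G l (o + o') = be M G l o := by
  unfold be
  have h1 : o + o' - Bb M G l = (o - Bb M G l) + o' := by omega
  obtain ⟨k, hk⟩ := (pow_dvd_pow G hl).trans hd
  rw [h1, hk, Nat.add_mul_mod_self_left]

theorem sub_be {l T : ℕ} (hT : Bb M G l ≤ T) :
    be M G l T + G ^ l * ((T - Bb M G l) / G ^ l) = T := by
  unfold be
  have := Nat.mod_add_div (T - Bb M G l) (G ^ l)
  omega

theorem be_le {l T : ℕ} (hT : Bb M G l ≤ T) : be M G l T ≤ T := by
  have := sub_be (M := M) (G := G) hT; omega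

theorem be_right {m i l o o' : ℕ} (hL : LL M G i o) (hR : RL M G m i o') (hil : i < l) (hlm : l ≤ m) :
    be M G l (o + o') + Rr M G i l o' = o + o' := by
  have hB : Bb M G l ≤ o' := le_trans (Bb_mono hlm) hR.2.1
  have h1 := hR.2.2 l hil hlm
  have hL1 := hL.1
  have hL2 := hL.2
  have h2 : (o' + (Bb M G i + G ^ i) - Bb M G l) / G ^ l ≤ (o + o' - Bb M G l) / G ^ l :=
    Nat.div_le_div_right (by omega)
  have h3 : (o + o' - Bb M G l) / G ^ l ≤ (o' + (Bb M G (i + 1) - 1) - Bb M G l) / G ^ l :=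
    Nat.div_le_div_right (by omega)
  have h4 : (o + o' - Bb M G l) / G ^ l = (o' + (Bb M G i + G ^ i) - Bb M G l) / G ^ l := by
    apply le_antisymm
    · rw [h1]; exact h3
    · exact h2
  have h5 := sub_be (M := M) (G := G) (l := l) (T := o + o') (by omega)
  unfold Rr
  rw [← h4]
  exact h5

theorem div_eq_of_mod {a b g c : ℕ} (hg : 0 < g) (hab : a ≤ b) (hb : b ≤ a + c)
    (h : a % g + c < g) : a / g = b / g := by
  apply le_antisymm (Nat.div_le_div_right hab)
  rw [← Nat.lt_succ_iff, Nat.div_lt_iff_lt_mul hg]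
  have := Nat.mod_add_div a g
  rw [Nat.succ_mul, mul_comm (a / g) g]
  omega

/-- completeness of the right legality off the bad set -/
theorem right_legal {m i T o : ℕ} (Ms : Finset ℕ) (hG : 0 < G) (him : i < m)
    (hT : 2 * Bb M G m ≤ T) (hb : ¬ Bad M G m Ms T)
    (hL : LL M G i o) (hd : G ^ i ∣ T - o) : RL M G m i (T - o) := by
  have hL1 := hL.1
  have hL2 := hL.2
  have hi1 : Bb M G (i + 1) ≤ Bb M G m := Bb_mono him
  refine ⟨hd, by omega, ?_⟩
  intro l hil hlm
  obtain ⟨l, rfl⟩ : ∃ l', l = l' + 1 := ⟨l - 1, by omega⟩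
  have hBl : Bb M G (l + 1) ≤ Bb M G m := Bb_mono hlm
  have hgl : 0 < G ^ (l + 1) := pow_pos hG _
  have hbl : ¬ ((T + Bb M G (l + 1) * (G ^ (l + 1) - 1)) % G ^ (l + 1) < M * G ^ l ∨
    G ^ (l + 1) ≤ (T + Bb M G (l + 1) * (G ^ (l + 1) - 1)) % G ^ (l + 1) + M * G ^ l) :=
    fun h => hb (Or.inr ⟨l, by omega, h⟩)
  have hmod : (T + Bb M G (l + 1) * (G ^ (l + 1) - 1)) % G ^ (l + 1) =
      (T - Bb M G (l + 1)) % G ^ (l + 1) := by
    have : T + Bb M G (l + 1) * (G ^ (l + 1) - 1) =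
        (T - Bb M G (l + 1)) + G ^ (l + 1) * Bb M G (l + 1) := by
      obtain ⟨g, hg⟩ : ∃ g, G ^ (l + 1) = g + 1 := ⟨G ^ (l + 1) - 1, by omega⟩
      rw [hg]
      have h2 : (g + 1) * Bb M G (l + 1) = Bb M G (l + 1) * g + Bb M G (l + 1) := by ring
      rw [h2, Nat.add_sub_cancel]
      omega
    rw [this, Nat.add_mul_mod_self_left]
  rw [hmod] at hbl
  push Not at hbl
  obtain ⟨hb1, hb2⟩ := hbl
  have hc : M * G ^ i ≤ M * G ^ l := Nat.mul_le_mul_left _ (Nat.pow_le_pow_right hG (by omega))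
  have hS : Bb M G (i + 1) = Bb M G i + G ^ i + M * G ^ i := rfl
  -- both windows are near `T - B`
  set y := T - Bb M G (l + 1) with hy
  have hB1 : Bb M G (i + 1) ≤ Bb M G (l + 1) := Bb_mono (by omega)
  have hyl : M * G ^ i ≤ y := by
    have : y % G ^ (l + 1) ≤ y := Nat.mod_le _ _
    omega
  have e1 : (T - o + (Bb M G i + G ^ i) - Bb M G (l + 1)) / G ^ (l + 1) = y / G ^ (l + 1) := by
    -- lower point
    have hlow : T - o + (Bb M G i + G ^ i) - Bb M G (l + 1) = y - (o - (Bb M G i + G ^ i)) := by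
      omega
    rw [hlow]
    have hdd : o - (Bb M G i + G ^ i) ≤ y % G ^ (l + 1) := by omega
    generalize o - (Bb M G i + G ^ i) = d at hdd
    apply le_antisymm (Nat.div_le_div_right (by omega))
    rw [Nat.le_div_iff_mul_le hgl]
    have := Nat.mod_add_div y (G ^ (l + 1))
    rw [mul_comm]
    omega
  have e2 : y / G ^ (l + 1) = (T - o + (Bb M G (i + 1) - 1) - Bb M G (l + 1)) / G ^ (l + 1) := by
    apply div_eq_of_mod (c := M * G ^ i) hgl (by omega) (by omega)
    omega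
  rw [e1, e2]

end Crest.Agent.R320.UGrid77
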