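import Crest.Agent.R320.UG2_219
import Crest.Agent.R320.UGb_252

/-!
# Row 320: the U-gadget on words (helper252)
-/

set_option autoImplicit false

namespace Crest.Agent.R320.UGb_252

open Finset

/-! ### Words -/

section words

universe u

variable {α : Type*} {S V : Type*} [Monoid S] (f : α → S) (M Γ m : ℕ)

/-- value of a word -/
def ph (w : List α) : S := (w.map f).prod

/-- value of a segment -/
def sg (w : List α) (a b : ℕ) : S := ph f ((w.take b).drop a)

variable {f}

theorem ph_append (u v : List α) : ph f (u ++ v) = ph f u * ph f v := by simp [ph]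

theorem sg_left {p q : List α} {a b : ℕ} (h : b ≤ p.length) : sg f (p ++ q) a b = sg f p a b := by
  unfold sg
  rw [List.take_append_of_le_length h]

theorem sg_right {p q : List α} {a b : ℕ} (h1 : p.length ≤ a) (h2 : a ≤ b) :
    sg f (p ++ q) a b = sg f q (a - p.length) (b - p.length) := by
  unfold sg
  rw [List.take_append, List.drop_append, List.take_of_length_le (h1.trans h2),
    List.drop_eq_nil_of_le h1, List.nil_append]

theorem take_sg (w : List α) {a b : ℕ} (hab : a ≤ b) :
    ph f (w.take b) = ph f (w.take a) * sg f w a b := by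
  unfold sg
  rw [← ph_append]
  congr 1
  have : w.take a = (w.take b).take a := by rw [List.take_take, Nat.min_eq_left hab]
  rw [this, List.take_append_drop]

theorem prod_sg (w : List α) (H : ℕ → ℕ) (hH : ∀ j, H j ≤ H (j + 1)) (n : ℕ) :
    ph f (w.take (H 0)) * ((List.range n).map fun j => sg f w (H j) (H (j + 1))).prod =
      ph f (w.take (H n)) := by
  induction n with
  | zero => simp
  | succ n ih =>
    rw [List.range_succ, List.map_append, List.prod_append, ← mul_assoc, ih]
    simp only [List.map_cons, List.map_nil, List.prod_cons, List.prod_nil, mul_one]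
    exact (take_sg w (hH n)).symm

variable (f)

/-- contents of the word for the clock value `T` -/
def zs (w : List α) (T n : ℕ) : List S :=
  (List.range n).map fun j => sg f w (bt M Γ T j) (bt M Γ T (j + 1))

/-- place of the boundary `j` in a right word of level `i` -/
def ps (o' i j : ℕ) : ℕ :=
  (Am M Γ j - (Am M Γ i + Γ ^ i)) + (o' + (Am M Γ i + Γ ^ i) - Am M Γ j) % Γ ^ j

/-- legality of a right word of level `i` -/
def leg (o' i : ℕ) : Prop :=
  Am M Γ (m + 1) ≤ o' ∧ Γ ^ i ∣ o' ∧ ∀ j, i < j → j ≤ m →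
    (o' + (Am M Γ i + Γ ^ i) - Am M Γ j) % Γ ^ j + M * Γ ^ i ≤ Γ ^ j

open Classical in
/-- view of a right word at level `i` -/
noncomputable def vw (q : List α) (i : ℕ) : Option (List S × S) :=
  if i < m ∧ leg M Γ m q.length i then
    some ((List.range' (i + 1) (m - (i + 1))).map
      (fun j => sg f q (ps M Γ q.length i j) (ps M Γ q.length i (j + 1))),
      ph f (q.drop (ps M Γ q.length i m)))
  else none

/-- cell of level `i` -/
def cell (o i : ℕ) : Prop :=
  i < m ∧ Am M Γ i + Γ ^ i ≤ o ∧ o < Am M Γ i + Γ ^ i + M * Γ ^ i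

variable {M Γ m}

theorem cell_unique {o i i' : ℕ} (h : cell M Γ m o i) (h' : cell M Γ m o i') : i = i' := by
  have key : ∀ {i i' : ℕ}, cell M Γ m o i → cell M Γ m o i' → ¬ i < i' := by
    intro i i' h h' hlt
    have := Am_mono (M := M) (Γ := Γ) (show i + 1 ≤ i' from hlt)
    rw [Am_succ] at this
    have h2 := h.2.2
    have h3 := h'.2.1
    omega
  rcases lt_trichotomy i i' with h1 | h1 | h1
  · exact absurd h1 (key h h')
  · exact h1
  · exact absurd h1 (key h' h)

/-- the view of a legal right word is the true one -/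
theorem vw_true (hΓ : 0 < Γ) {p q : List α} {i : ℕ} (hc : cell M Γ m p.length i)
    {r : List S × S} (hr : vw f M Γ m q i = some r) :
    ph f (p.take (bt M Γ p.length 0)) = ph f ((p ++ q).take (bt M Γ (p ++ q).length 0)) ∧
    zs f M Γ p p.length i = (zs f M Γ (p ++ q) (p ++ q).length m).take i ∧
    r = ((zs f M Γ (p ++ q) (p ++ q).length m).drop (i + 1),
      ph f ((p ++ q).drop (bt M Γ (p ++ q).length m))) := by
  classical
  unfold vw at hr
  split_ifs at hr with hl
  obtain ⟨him, hN, hd, hj⟩ := hl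
  obtain ⟨-, hc1, hc2⟩ := hc
  have hlen : (p ++ q).length = p.length + q.length := List.length_append
  have hbl : ∀ j, j ≤ i → bt M Γ (p ++ q).length j = bt M Γ p.length j := by
    intro j hji
    rw [hlen]
    exact bt_left hji hd (by omega)
  have hble : ∀ j, j ≤ i → bt M Γ p.length j ≤ p.length := by
    intro j hji
    have h1 := bt_lt (M := M) hΓ p.length j
    have h2 : Am M Γ j + Γ ^ j ≤ Am M Γ i + Γ ^ i := by
      rcases Nat.lt_or_ge j i with h | h
      · have := Am_mono (M := M) (Γ := Γ) (show j + 1 ≤ i from h)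
        rw [Am_succ] at this
        omega
      · have : j = i := le_antisymm hji h
        rw [this]
    omega
  have hbr : ∀ j, i < j → j ≤ m → bt M Γ (p ++ q).length j - p.length = ps M Γ q.length i j ∧
      p.length ≤ bt M Γ (p ++ q).length j := by
    intro j hij hjm
    rw [hlen]
    refine bt_right hij hc1 hc2 ?_ (hj j hij hjm)
    exact (Am_mono (by omega : j ≤ m + 1)).trans hN
  refine ⟨?_, ?_, ?_⟩
  · rw [hbl 0 (Nat.zero_le _), List.take_append_of_le_length (hble 0 (Nat.zero_le _))]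
  · unfold zs
    rw [← List.map_take, List.take_range, Nat.min_eq_left him.le]
    refine List.map_congr_left fun j hj' => ?_
    rw [List.mem_range] at hj'
    rw [hbl j hj'.le, hbl (j + 1) hj', sg_left (hble (j + 1) hj')]
  · simp only [Option.some.injEq] at hr
    rw [← hr]
    refine Prod.ext ?_ ?_
    · show List.map _ _ = _
      unfold zs
      rw [← List.map_drop, List.range_eq_range', List.drop_range']
      simp only [Nat.mul_one, Nat.zero_add]
      refine List.map_congr_left fun j hj' => ?_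
      rw [List.mem_range'_1] at hj'
      obtain ⟨h1, h2⟩ := hbr j (by omega) (by omega)
      obtain ⟨h3, h4⟩ := hbr (j + 1) (by omega) (by omega)
      rw [sg_right h2 (bt_le_succ hΓ _ _), h1, h3]
    · show ph f _ = ph f _
      obtain ⟨h1, h2⟩ := hbr m him le_rfl
      congr 1
      rw [List.drop_append, List.drop_eq_nil_of_le h2, List.nil_append, h1]

end words


section gadget

variable {α : Type*} {S V : Type*} [Monoid S] [AddCommGroup V] (f : α → S) (M Γ m : ℕ)
  (L : ℕ → S → List S → ℕ → Option V) (R : (ℕ → Option (List S × S)) → ℕ → Option V)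
  (D : ℕ → S → List S → S → V)

open Classical in
/-- left labels -/
noncomputable def lam (p : List α) : Option V :=
  if h : ∃ i, cell M Γ m p.length i then
    L h.choose (ph f (p.take (bt M Γ p.length 0))) (zs f M Γ p p.length h.choose) p.length
  else none

/-- right labels -/
noncomputable def rho (q : List α) : Option V := R (vw f M Γ m q) q.length

/-- noise -/
def nu (u : List α) : V :=
  D u.length (ph f (u.take (bt M Γ u.length 0))) (zs f M Γ u u.length m)
    (ph f (u.drop (bt M Γ u.length m)))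

variable {f M Γ m L R D}

theorem lam_some {p : List α} {v : V} (h : lam f M Γ m L p = some v) :
    ∃ i, cell M Γ m p.length i ∧
      L i (ph f (p.take (bt M Γ p.length 0))) (zs f M Γ p p.length i) p.length = some v := by
  classical
  unfold lam at h
  split_ifs at h with hc
  exact ⟨_, hc.choose_spec, h⟩

theorem lam_eq {p : List α} {i : ℕ} (hc : cell M Γ m p.length i) : lam f M Γ m L p =
    L i (ph f (p.take (bt M Γ p.length 0))) (zs f M Γ p p.length i) p.length := by
  classical
  have h : ∃ i, cell M Γ m p.length i := ⟨i, hc⟩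
  have e : h.choose = i := cell_unique h.choose_spec hc
  unfold lam
  rw [dif_pos h, e]

theorem prod_full (hΓ : 0 < Γ) (u : List α) (T : ℕ) :
    ph f (u.take (bt M Γ T 0)) * (zs f M Γ u T m).prod * ph f (u.drop (bt M Γ T m)) = ph f u := by
  unfold zs
  rw [prod_sg u (bt M Γ T) (bt_le_succ hΓ T) m, ← ph_append, List.take_append_drop]

theorem sound (hΓ : 0 < Γ) {act : V → S → V}
    (hex : ∀ (i t t' : ℕ) (xl : S) (zl : List S) (x : S) (zs : List S) (y : S)
        (vw : ℕ → Option (List S × S)) (v b : V), i < m → zs.length = m →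
        (∀ q, vw i = some q → xl = x ∧ zl = zs.take i ∧ q = (zs.drop (i + 1), y)) →
        L i xl zl t = some v → R vw t' = some b →
        b = act v (x * zs.prod * y) + D (t + t') x zs y)
    {p q : List α} {v r : V} (hl : lam f M Γ m L p = some v) (hr : rho f M Γ m R q = some r) :
    r = act v (ph f (p ++ q)) + nu f M Γ m D (p ++ q) := by
  obtain ⟨i, hc, hL⟩ := lam_some hl
  have h := hex i p.length q.length (ph f (p.take (bt M Γ p.length 0))) (zs f M Γ p p.length i)
    (ph f ((p ++ q).take (bt M Γ (p ++ q).length 0))) (zs f M Γ (p ++ q) (p ++ q).length m)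
    (ph f ((p ++ q).drop (bt M Γ (p ++ q).length m))) (vw f M Γ m q) v r hc.1 (by simp [zs])
    (fun q' hq' => vw_true f hΓ hc hq') hL hr
  rw [h, prod_full hΓ]
  unfold nu
  rw [List.length_append]

theorem complete (hΓ : 0 < Γ) (hM : 0 < M) (hco : Nat.Coprime M Γ) {Ms : Finset ℕ}
    (hL : ∀ i x zl t, L i x zl (t + M) = L i x zl t) (hR : ∀ vw t, R vw (t + M) = R vw t)
    (hcp : ∀ (T : ℕ) (x : S) (zs : List S) (y : S) (v : V), zs.length = m →
        (∀ p ∈ Ms, ¬ p ∣ T) → ∃ i < m, ∀ c0 : ℕ, c0 + M ≤ T + 1 →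
          ∃ t, c0 ≤ t ∧ t < c0 + M ∧ t ≤ T ∧ L i x (zs.take i) t = some v ∧
            ∀ vw : ℕ → Option (List S × S), vw i = some (zs.drop (i + 1), y) →
              ∃ b, R vw (T - t) = some b)
    (u : List α) (hu : 2 * Am M Γ (m + 1) ≤ u.length) (hb : ¬ Bad M Γ m Ms u.length) (v : V) :
    ∃ p q, p ++ q = u ∧ lam f M Γ m L p = some v ∧ (rho f M Γ m R q).isSome := by
  classical
  have hLk : ∀ i x zl t k, L i x zl (t + M * k) = L i x zl t := by
    intro i x zl t k
    induction k with
    | zero => rfl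
    | succ k ih => rw [Nat.mul_succ, ← Nat.add_assoc, hL, ih]
  have hRk : ∀ vw t k, R vw (t + M * k) = R vw t := by
    intro vw t k
    induction k with
    | zero => rfl
    | succ k ih => rw [Nat.mul_succ, ← Nat.add_assoc, hR, ih]
  set T := u.length with hTdef
  have hb1 : ∀ p ∈ Ms, ¬ p ∣ T := fun p hp hd => hb (Or.inl ⟨p, hp, hd⟩)
  obtain ⟨i, him, hi⟩ := hcp T (ph f (u.take (bt M Γ T 0))) (zs f M Γ u T m)
    (ph f (u.drop (bt M Γ T m))) v (by simp [zs]) hb1
  have hGi : 0 < Γ ^ i := pow_pos hΓ i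
  have hAi : Am M Γ i + Γ ^ i + M * Γ ^ i ≤ Am M Γ (m + 1) := by
    rw [← Am_succ]
    exact Am_mono (by omega)
  have hMG : M ≤ M * Γ ^ i := Nat.le_mul_of_pos_right _ hGi
  obtain ⟨t0, h1, h2, h3, h4, h5⟩ := hi (Am M Γ i + Γ ^ i) (by omega)
  -- a shift of `t0` that is congruent to `T` modulo the grid step
  have hcoi : Nat.Coprime M (Γ ^ i) := hco.pow_right i
  obtain ⟨t, ht1, ht2, k, hk⟩ : ∃ t, Γ ^ i ∣ T - t ∧ t < t0 + M * Γ ^ i - M + 1 ∧ ∃ k, t = t0 + M * k := by
    obtain ⟨s, hs1, hs2⟩ := Nat.chineseRemainder hcoi 0 (T - t0)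
    have hs3 : M ∣ s := (Nat.modEq_zero_iff_dvd).1 hs1
    set s' := s % (M * Γ ^ i) with hs'
    have hs4 : s' < M * Γ ^ i := Nat.mod_lt _ (Nat.mul_pos hM hGi)
    have hs5 : M ∣ s' := (Nat.dvd_mod_iff (dvd_mul_right M (Γ ^ i))).2 hs3
    have hs6 : s' ≡ T - t0 [MOD Γ ^ i] := by
      refine Nat.ModEq.trans ?_ hs2
      show s % (M * Γ ^ i) % Γ ^ i = s % Γ ^ i
      exact Nat.mod_mod_of_dvd s (dvd_mul_left _ _)
    obtain ⟨k, hk⟩ := hs5
    have hk1 : k < Γ ^ i := by
      rw [hk] at hs4
      exact lt_of_mul_lt_mul_left hs4 (Nat.zero_le _)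
    have hk2 : M * k ≤ M * Γ ^ i - M := by
      have : M * k + M ≤ M * Γ ^ i := by
        calc M * k + M = M * (k + 1) := by ring
          _ ≤ M * Γ ^ i := Nat.mul_le_mul_left _ hk1
      omega
    refine ⟨t0 + M * k, ?_, by omega, k, rfl⟩
    rw [← hk]
    have h6 : (Γ ^ i) ∣ (T - t0) - s' := (Nat.modEq_iff_dvd' (by omega)).1 hs6
    have h7 : T - (t0 + s') = (T - t0) - s' := by omega
    rw [h7]; exact h6
  have htT : t ≤ T := by omega
  have hc : cell M Γ m t i := ⟨him, by omega, by omega⟩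
  have hlp : (u.take t).length = t := by rw [List.length_take]; omega
  have hlq : (u.drop t).length = T - t := by rw [List.length_drop]
  have hleg : leg M Γ m (T - t) i := by
    refine ⟨by omega, ht1, ?_⟩
    intro j hij hjm
    have hbj : ((M * Γ ^ (j - 1) : ℕ) : ℤ) ≤ ((T : ℤ) - (Am M Γ j : ℤ)) % ((Γ ^ j : ℕ) : ℤ) ∧
      ((T : ℤ) - (Am M Γ j : ℤ)) % ((Γ ^ j : ℕ) : ℤ) + ((M * Γ ^ (j - 1) : ℕ) : ℤ) ≤
        ((Γ ^ j : ℕ) : ℤ) := by
      by_contra hcon
      exact hb (Or.inr ⟨j, ⟨by omega, hjm⟩, hcon⟩)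
    have hAj : Am M Γ j ≤ Am M Γ (m + 1) := Am_mono (by omega)
    have hcast : ((T : ℤ) - (Am M Γ j : ℤ)) % ((Γ ^ j : ℕ) : ℤ) =
        (((T - Am M Γ j) % Γ ^ j : ℕ) : ℤ) := by
      rw [← Nat.cast_sub (by omega)]
      push_cast
      rfl
    rw [hcast] at hbj
    obtain ⟨hb2, hb3⟩ := hbj
    have hb2 : M * Γ ^ (j - 1) ≤ (T - Am M Γ j) % Γ ^ j := by exact_mod_cast hb2
    have hb3 : (T - Am M Γ j) % Γ ^ j + M * Γ ^ (j - 1) ≤ Γ ^ j := by exact_mod_cast hb3
    have hcij : M * Γ ^ i ≤ M * Γ ^ (j - 1) :=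
      Nat.mul_le_mul_left _ (Nat.pow_le_pow_right hΓ (by omega))
    have hAij : Am M Γ i + Γ ^ i + M * Γ ^ i ≤ Am M Γ j := by
      rw [← Am_succ]; exact Am_mono hij
    generalize hrr : (T - Am M Γ j) % Γ ^ j = rr at hb2 hb3
    have hdiv := Nat.div_add_mod (T - Am M Γ j) (Γ ^ j)
    rw [hrr] at hdiv
    obtain ⟨-, hc1, hc2⟩ := hc
    have e1 : T - t + (Am M Γ i + Γ ^ i) - Am M Γ j =
        (rr - (t - (Am M Γ i + Γ ^ i))) + Γ ^ j * ((T - Am M Γ j) / Γ ^ j) := by
      omega
    rw [e1, Nat.add_mul_mod_self_left, Nat.mod_eq_of_lt (by omega)]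
    omega
  refine ⟨u.take t, u.drop t, List.take_append_drop _ _, ?_, ?_⟩
  · have hc' : cell M Γ m (u.take t).length i := by rw [hlp]; exact hc
    rw [lam_eq hc', hlp]
    have hv : ∃ r, vw f M Γ m (u.drop t) i = some r := by
      unfold vw
      rw [if_pos ⟨him, by rw [hlq]; exact hleg⟩]
      exact ⟨_, rfl⟩
    obtain ⟨r, hv⟩ := hv
    obtain ⟨e1, e2, -⟩ := vw_true f hΓ hc' hv
    rw [List.take_append_drop] at e1 e2
    rw [hlp, ← hTdef] at e1 e2
    rw [e1, e2, hk, hLk]
    exact h4
  · have hc' : cell M Γ m (u.take t).length i := by rw [hlp]; exact hc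
    have hv : ∃ r, vw f M Γ m (u.drop t) i = some r := by
      unfold vw
      rw [if_pos ⟨him, by rw [hlq]; exact hleg⟩]
      exact ⟨_, rfl⟩
    obtain ⟨r, hv⟩ := hv
    obtain ⟨-, -, e3⟩ := vw_true f hΓ hc' hv
    rw [List.take_append_drop, ← hTdef] at e3
    obtain ⟨b, hb'⟩ := h5 (vw f M Γ m (u.drop t)) (by rw [hv, e3])
    unfold rho
    rw [hlq]
    have e4 : T - t0 = (T - t) + M * k := by omega
    rw [e4, hRk] at hb'
    rw [hb']; rfl

end gadget

/-! ### regularity -/

universe u

theorem reg_of_inv {α S : Type u} [Finite α] [Monoid S] [Finite S] (f : α → S) (N D : ℕ)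
    (hD : 0 < D) (X : Language α)
    (hX : ∀ q q' : List α, q.take N = q'.take N → q.length % D = q'.length % D →
      ph f (q.drop N) = ph f (q'.drop N) → (q ∈ X ↔ q' ∈ X)) : X.IsRegular := by
  classical
  rw [Language.isRegular_iff_finite_range_leftQuotient]
  have : Finite {l : List α // l.length ≤ N} := List.finite_length_le α N
  let F : List α → {l : List α // l.length ≤ N} × Fin D × S := fun x =>
    (⟨x.take N, by rw [List.length_take]; omega⟩, ⟨x.length % D, Nat.mod_lt _ hD⟩, ph f (x.drop N))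
  have hF : ∀ x x', F x = F x' → X.leftQuotient x = X.leftQuotient x' := by
    intro x x' h
    simp only [F, Prod.mk.injEq, Subtype.mk.injEq, Fin.mk.injEq] at h
    obtain ⟨h1, h2, h3⟩ := h
    ext y
    show x ++ y ∈ X ↔ x' ++ y ∈ X
    by_cases hlen : x.length < N
    · have e1 : x.take N = x := List.take_of_length_le hlen.le
      have hlen' : x'.length < N := by
        have := congrArg List.length h1
        rw [List.length_take, List.length_take] at this
        omega
      have e2 : x'.take N = x' := List.take_of_length_le hlen'.le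
      rw [e1, e2] at h1
      rw [h1]
    · have hlen' : N ≤ x'.length := by
        have := congrArg List.length h1
        rw [List.length_take, List.length_take] at this
        omega
      refine hX _ _ ?_ ?_ ?_
      · rw [List.take_append_of_le_length (by omega), List.take_append_of_le_length hlen', h1]
      · rw [List.length_append, List.length_append, Nat.add_mod, h2, ← Nat.add_mod]
      · rw [List.drop_append_of_le_length (by omega), List.drop_append_of_le_length hlen',
          ph_append, ph_append, h3]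
  refine (Set.finite_range (fun t : {l : List α // l.length ≤ N} × Fin D × S =>
    if h : ∃ x, F x = t then X.leftQuotient h.choose else X)).subset ?_
  rintro _ ⟨x, rfl⟩
  refine ⟨F x, ?_⟩
  have h : ∃ x', F x' = F x := ⟨x, rfl⟩
  simp only
  rw [dif_pos h]
  exact hF _ _ h.choose_spec

theorem sg_congr {α S : Type*} [Monoid S] {f : α → S} {q q' : List α} {N a b : ℕ} (hb : b ≤ N)
    (h : q.take N = q'.take N) : sg f q a b = sg f q' a b := by
  unfold sg
  have e : ∀ w : List α, w.take b = (w.take N).take b := fun w => by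
    rw [List.take_take, Nat.min_eq_left hb]
  rw [e q, e q', h]

theorem drop_congr {α S : Type*} [Monoid S] {f : α → S} {q q' : List α} {N a : ℕ} (ha : a ≤ N)
    (h : q.take N = q'.take N) (h2 : ph f (q.drop N) = ph f (q'.drop N)) :
    ph f (q.drop a) = ph f (q'.drop a) := by
  have e : ∀ w : List α, w.drop a = (w.take N).drop a ++ w.drop N := fun w => by
    by_cases hw : N ≤ w.length
    · conv_lhs => rw [← List.take_append_drop N w]
      rw [List.drop_append_of_le_length (by rw [List.length_take]; omega)]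
    · rw [List.take_of_length_le (by omega), List.drop_eq_nil_of_le (by omega : w.length ≤ N),
        List.append_nil]
  rw [e q, e q', ph_append, ph_append, h, h2]

theorem vw_congr {α S : Type*} [Monoid S] {f : α → S} {M Γ m : ℕ} (hΓ : 0 < Γ) {q q' : List α}
    (h1 : q.take (Am M Γ (m + 1)) = q'.take (Am M Γ (m + 1)))
    (h2 : q.length % (M * Γ ^ m) = q'.length % (M * Γ ^ m))
    (h3 : ph f (q.drop (Am M Γ (m + 1))) = ph f (q'.drop (Am M Γ (m + 1)))) (i : ℕ) :
    vw f M Γ m q i = vw f M Γ m q' i := by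
  classical
  by_cases him : i < m
  swap
  · unfold vw
    rw [if_neg (fun h => him h.1), if_neg (fun h => him h.1)]
  have hN : Am M Γ (m + 1) ≤ q.length ↔ Am M Γ (m + 1) ≤ q'.length := by
    have := congrArg List.length h1
    rw [List.length_take, List.length_take] at this
    omega
  by_cases hq : Am M Γ (m + 1) ≤ q.length
  swap
  · unfold vw
    rw [if_neg (fun h => hq h.2.1), if_neg (fun h => hq (hN.2 h.2.1))]
  have hq' := hN.1 hq
  have hmod : ∀ j, j ≤ m → ∀ c ≤ q.length, c ≤ q'.length →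
      (q.length - c) % Γ ^ j = (q'.length - c) % Γ ^ j := by
    intro j hj c hc hc'
    have hd : Γ ^ j ∣ M * Γ ^ m := (pow_dvd_pow Γ hj).mul_left _
    have h4 : q.length ≡ q'.length [MOD Γ ^ j] := Nat.ModEq.of_dvd hd h2
    exact (Nat.ModEq.sub hc hc' h4 rfl)
  have hAj : ∀ j, j ≤ m → Am M Γ j ≤ Am M Γ (m + 1) := fun j hj => Am_mono (by omega)
  have hmod2 : ∀ j, i < j → j ≤ m → (q.length + (Am M Γ i + Γ ^ i) - Am M Γ j) % Γ ^ j =
      (q'.length + (Am M Γ i + Γ ^ i) - Am M Γ j) % Γ ^ j := by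
    intro j hij hj
    have h5 : Am M Γ i + Γ ^ i + M * Γ ^ i ≤ Am M Γ j := by
      rw [← Am_succ]; exact Am_mono hij
    have h6 := hAj j hj
    have e1 : q.length + (Am M Γ i + Γ ^ i) - Am M Γ j =
      q.length - (Am M Γ j - (Am M Γ i + Γ ^ i)) := by omega
    have e2 : q'.length + (Am M Γ i + Γ ^ i) - Am M Γ j =
      q'.length - (Am M Γ j - (Am M Γ i + Γ ^ i)) := by omega
    rw [e1, e2]
    exact hmod j hj _ (by omega) (by omega)
  have hleg : leg M Γ m q.length i ↔ leg M Γ m q'.length i := by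
    unfold leg
    have hdv : Γ ^ i ∣ q.length ↔ Γ ^ i ∣ q'.length := by
      have := hmod i him.le 0 (Nat.zero_le _) (Nat.zero_le _)
      rw [Nat.sub_zero, Nat.sub_zero] at this
      rw [Nat.dvd_iff_mod_eq_zero, Nat.dvd_iff_mod_eq_zero, this]
    rw [hdv]
    refine and_congr hN (and_congr Iff.rfl (forall_congr' fun j => ?_))
    refine forall_congr' fun hij => forall_congr' fun hjm => ?_
    rw [hmod2 j hij hjm]
  have hps : ∀ j, i < j → j ≤ m → ps M Γ q.length i j = ps M Γ q'.length i j ∧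
      ps M Γ q.length i j ≤ Am M Γ (m + 1) := by
    intro j hij hj
    unfold ps
    refine ⟨by rw [hmod2 j hij hj], ?_⟩
    have h5 := Nat.mod_lt (q.length + (Am M Γ i + Γ ^ i) - Am M Γ j) (pow_pos hΓ j)
    have h6 : Am M Γ (j + 1) ≤ Am M Γ (m + 1) := Am_mono (by omega)
    rw [Am_succ] at h6
    omega
  unfold vw
  by_cases hl : leg M Γ m q.length i
  · rw [if_pos ⟨him, hl⟩, if_pos ⟨him, hleg.1 hl⟩]
    congr 2
    · refine List.map_congr_left fun j hj => ?_
      rw [List.mem_range'_1] at hj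
      obtain ⟨e1, e2⟩ := hps j (by omega) (by omega)
      obtain ⟨e3, e4⟩ := hps (j + 1) (by omega) (by omega)
      rw [← e1, ← e3]
      exact sg_congr e4 h1
    · obtain ⟨e1, e2⟩ := hps m him le_rfl
      rw [← e1]
      exact drop_congr e2 h1 h3
  · rw [if_neg (fun h => hl h.2), if_neg (fun h => hl (hleg.2 h.2))]

/-- **helper709's `UG`** -/
theorem UG : ∀ (S V : Type u) [Monoid S] [Finite S] [AddCommGroup V] [Finite V] (act : V → S → V),
    ∃ C0 : ℕ, ∀ K : ℕ, ∃ (N D : ℕ) (x : ℕ → ℕ) (Bad : ℕ → Prop), 0 < D ∧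
      (∀ T, Bad (T + D) ↔ Bad T) ∧
      (∀ T, (∀ k < K, x k ≤ T) →
        (open Classical in (range K ×ˢ range K).filter (fun ab : ℕ × ℕ =>
          ab.1 ≠ ab.2 ∧ Bad (T + x ab.1 - x ab.2))).card ≤ C0) ∧
      ∀ (α : Type u) [Finite α] (f : α → S), ∃ (lam rho : List α → Option V) (nu : List α → V),
        (∀ p v, lam p = some v → p.length ≤ N) ∧
        (∀ r, Language.IsRegular ({q | rho q = some r} : Language α)) ∧
        (∀ p q v r, lam p = some v → rho q = some r →
          r = act v ((p ++ q).map f).prod + nu (p ++ q)) ∧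
        (∀ u : List α, 2 * N ≤ u.length → ¬ Bad u.length →
          ∀ v, ∃ p q, p ++ q = u ∧ lam p = some v ∧ (rho q).isSome) := by
  intro S V _ _ _ _ act
  obtain ⟨m, r, hm, H⟩ := UG219.ugadget2 S V act
  refine ⟨r + m, fun K => ?_⟩
  obtain ⟨Ms, L, R, D, hcard, hp, hL, hR, hRc, hex, hcp⟩ := H (2 ^ (K + 1))
  set M := ∏ p ∈ Ms, p with hMdef
  have hM : 0 < M := Finset.prod_pos fun p h => (hp p h).1.pos
  set Γ := M * 2 ^ (K + 4) + 1 with hΓdef
  have hΓ : 0 < Γ := by omega
  have hco : Nat.Coprime M Γ := by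
    rw [hΓdef]
    simp
  have hdvd : ∀ p ∈ Ms, p ∣ M := fun p h => Finset.dvd_prod_of_mem _ h
  obtain ⟨X, hX1, hX2⟩ := Nat.chineseRemainder (hco.pow_right m) 1 (4 * Cs M Γ m)
  have hX1' : (M : ℤ) ∣ (X : ℤ) - 1 := by
    have := (Nat.modEq_iff_dvd.1 hX1.symm)
    simpa using this
  have hX2' : ((Γ ^ m : ℕ) : ℤ) ∣ (X : ℤ) - 4 * Cs M Γ m := by
    have := (Nat.modEq_iff_dvd.1 hX2.symm)
    simpa using this
  refine ⟨Am M Γ (m + 1), M * Γ ^ m, fun k => X * 2 ^ k, Bad M Γ m Ms,
    Nat.mul_pos hM (pow_pos hΓ m), fun T => bad_period hdvd T, ?_, ?_⟩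
  · intro T hT
    have := thin (K := K) (T := T) hM hΓdef (fun p h => ⟨hdvd p h, (hp p h).2.le⟩) hX1' hX2' hT
    refine le_trans ?_ (this.trans (by omega))
    exact le_of_eq (by congr)
  · intro α _ f
    refine ⟨lam f M Γ m L, rho f M Γ m R, nu f M Γ m D, ?_, ?_, ?_, ?_⟩
    · intro p v h
      obtain ⟨i, hc, -⟩ := lam_some h
      have := Am_mono (M := M) (Γ := Γ) (show i + 1 ≤ m + 1 from by have := hc.1; omega)
      rw [Am_succ] at this
      have := hc.2.2
      omega
    · intro r
      refine reg_of_inv f (Am M Γ (m + 1)) (M * Γ ^ m) (Nat.mul_pos hM (pow_pos hΓ m)) _ ?_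
      intro q q' h1 h2 h3
      show rho f M Γ m R q = some r ↔ rho f M Γ m R q' = some r
      have e1 : vw f M Γ m q = vw f M Γ m q' := funext fun i => vw_congr hΓ h1 h2 h3 i
      have e2 : ∀ vw t k, R vw (t + M * k) = R vw t := by
        intro vw t k
        induction k with
        | zero => rfl
        | succ k ih => rw [Nat.mul_succ, ← Nat.add_assoc, hR, ih]
      have e3 : ∀ vw t, R vw t = R vw (t % (M * Γ ^ m)) := by
        intro vw t
        conv_lhs => rw [← Nat.mod_add_div t (M * Γ ^ m), Nat.mul_assoc]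
        rw [e2]
      unfold rho
      rw [e1, e3 _ q.length, h2, ← e3]
    · intro p q v r h1 h2
      exact sound hΓ hex h1 h2
    · intro u hu hb v
      exact complete hΓ hM hco hL hR hcp u hu hb v

end Crest.Agent.R320.UGb_252
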