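import Mathlib

/-! Row 320, U-gadget: counting lemma. -/

set_option autoImplicit false

namespace Crest.Agent.R320.Ug1_340

open Finset

theorem count_step {X V : Type} [Fintype X] [DecidableEq X] [Fintype V] [DecidableEq V]
    (A : Finset (X → V)) (D : Finset X) (d : (X → V) → X → V)
    (hA : ∀ F ∈ A, ∀ G : X → V, (∀ x, x ∉ D → G x = F x) → G ∈ A)
    (hd : ∀ F G : X → V, (∀ x, x ∉ D → G x = F x) → ∀ x ∈ D, d G x = d F x) :
    A.card ≤ (A.filter (fun F => ∀ x ∈ D, F x = d F x)).card * (Fintype.card V) ^ D.card := by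
  classical
  have hc : Fintype.card (D → V) = (Fintype.card V) ^ D.card := by
    simp
  rw [← hc, ← Finset.card_univ, ← Finset.card_product]
  apply Finset.card_le_card_of_injOn
    (fun F => ((fun x => if x ∈ D then d F x else F x : X → V), (fun x : D => F x.1)))
  · intro F hF
    have hF' : F ∈ A := hF
    simp only [Finset.coe_product, Set.mem_prod, Finset.mem_coe, Finset.mem_filter,
      Finset.mem_univ, and_true]
    have hout : ∀ x, x ∉ D → (fun x => if x ∈ D then d F x else F x : X → V) x = F x := by
      intro x hx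
      simp [hx]
    refine ⟨hA F hF' _ hout, ?_⟩
    intro x hx
    rw [hd F _ hout x hx]
    simp [hx]
  · intro F _ G _ h
    simp only [Prod.mk.injEq] at h
    obtain ⟨h1, h2⟩ := h
    funext x
    by_cases hx : x ∈ D
    · exact congrFun h2 ⟨x, hx⟩
    · have := congrFun h1 x
      simpa [hx] using this

theorem count_all {X V : Type} [Fintype X] [DecidableEq X] [Fintype V] [DecidableEq V]
    (C m : ℕ) (D : ℕ → Finset X) (d : ℕ → (X → V) → X → V)
    (hV : 0 < Fintype.card V)
    (hC : ∀ i < m, (D i).card ≤ C)
    (hdis : ∀ i < m, ∀ j < m, i ≠ j → Disjoint (D i) (D j))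
    (hd : ∀ i < m, ∀ j < m, ∀ F G : X → V, (∀ x, x ∉ D i → G x = F x) → ∀ x ∈ D j, d j G x = d j F x) :
    (Finset.univ.filter (fun F : X → V => ∀ i < m, ¬ ∀ x ∈ D i, F x = d i F x)).card
      * ((Fintype.card V) ^ C) ^ m
      ≤ (Fintype.card (X → V)) * ((Fintype.card V) ^ C - 1) ^ m := by
  classical
  induction m with
  | zero => simp [Finset.card_univ]
  | succ m ih =>
    have ih' := ih (fun i hi => hC i (by omega)) (fun i hi j hj hij => hdis i (by omega) j (by omega) hij)
      (fun i hi j hj => hd i (by omega) j (by omega))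
    set A := (Finset.univ.filter (fun F : X → V => ∀ i < m, ¬ ∀ x ∈ D i, F x = d i F x)) with hAdef
    have hsplit : (Finset.univ.filter (fun F : X → V => ∀ i < m + 1, ¬ ∀ x ∈ D i, F x = d i F x)).card
        + (A.filter (fun F => ∀ x ∈ D m, F x = d m F x)).card = A.card := by
      have h1 : (Finset.univ.filter (fun F : X → V => ∀ i < m + 1, ¬ ∀ x ∈ D i, F x = d i F x))
          = A.filter (fun F => ¬ ∀ x ∈ D m, F x = d m F x) := by
        ext F
        simp only [hAdef, Finset.mem_filter, Finset.mem_univ, true_and]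
        constructor
        · intro h
          exact ⟨fun i hi => h i (by omega), h m (by omega)⟩
        · rintro ⟨h1, h2⟩ i hi
          rcases Nat.lt_succ_iff_lt_or_eq.mp hi with h | h
          · exact h1 i h
          · subst h; exact h2
      rw [h1, add_comm]
      exact Finset.card_filter_add_card_filter_not (s := A) (fun F => ∀ x ∈ D m, F x = d m F x)
    have hstep : A.card ≤ (A.filter (fun F => ∀ x ∈ D m, F x = d m F x)).card * (Fintype.card V) ^ (D m).card := by
      apply count_step
      · intro F hF G hG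
        simp only [hAdef, Finset.mem_filter, Finset.mem_univ, true_and] at hF ⊢
        intro i hi hall
        apply hF i hi
        intro x hx
        have hxm : x ∉ D m := fun hxm => (Finset.disjoint_left.mp (hdis i (by omega) m (by omega) (by omega))) hx hxm
        rw [← hG x hxm, hall x hx]
        exact hd m (by omega) i (by omega) F G hG x hx
      · intro F G hG x hx
        exact hd m (by omega) m (by omega) F G hG x hx
    have hpow : (Fintype.card V) ^ (D m).card ≤ (Fintype.card V) ^ C :=
      Nat.pow_le_pow_right hV (hC m (by omega))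
    set a := A.card
    set b := (A.filter (fun F => ∀ x ∈ D m, F x = d m F x)).card
    set c := (Finset.univ.filter (fun F : X → V => ∀ i < m + 1, ¬ ∀ x ∈ D i, F x = d i F x)).card
    set Q := (Fintype.card V) ^ C
    have hQ : 1 ≤ Q := Nat.one_le_pow _ _ hV
    have hab : a ≤ b * Q := hstep.trans (Nat.mul_le_mul_left _ hpow)
    have hcQ : c * Q ≤ a * (Q - 1) := by
      have e1 : c = a - b := by omega
      have e2 : b ≤ a := by omega
      obtain ⟨Q', hQ'⟩ : ∃ Q', Q = Q' + 1 := ⟨Q - 1, by omega⟩
      rw [hQ'] at hab ⊢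
      simp only [Nat.add_sub_cancel]
      have : c + b = a := hsplit
      nlinarith
    calc c * Q ^ (m + 1) = (c * Q) * Q ^ m := by ring
      _ ≤ (a * (Q - 1)) * Q ^ m := Nat.mul_le_mul_right _ hcQ
      _ = (a * Q ^ m) * (Q - 1) := by ring
      _ ≤ ((Fintype.card (X → V)) * (Q - 1) ^ m) * (Q - 1) := Nat.mul_le_mul_right _ ih'
      _ = (Fintype.card (X → V)) * (Q - 1) ^ (m + 1) := by ring

end Crest.Agent.R320.Ug1_340
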