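import Mathlib

/-! Row 320, U-gadget: generic offsets over a prime field. -/

set_option autoImplicit false

namespace Crest.Agent.R320.Ug2_340

open Finset

theorem exists_generic {ι K : Type} [Fintype ι] [DecidableEq ι] [Field K] [Fintype K]
    [DecidableEq K] (T : Finset (ι → K)) (h0 : ∀ c ∈ T, c ≠ 0)
    (hT : T.card < Fintype.card K) :
    ∃ x : ι → K, ∀ c ∈ T, c ⬝ᵥ x ≠ 0 := by
  classical
  by_contra hcon
  push Not at hcon
  have hone : ∀ c ∈ T, (Finset.univ.filter (fun x : ι → K => c ⬝ᵥ x = 0)).card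
      * Fintype.card K ≤ Fintype.card (ι → K) := by
    intro c hc
    obtain ⟨i0, hi0⟩ := Function.ne_iff.mp (h0 c hc)
    rw [← Finset.card_univ (α := K), ← Finset.card_product, ← Finset.card_univ]
    apply Finset.card_le_card_of_injOn
      (fun y : (ι → K) × K => y.1 + Pi.single i0 y.2)
    · intro _ _
      exact Finset.mem_coe.mpr (Finset.mem_univ _)
    · rintro ⟨x, t⟩ hx ⟨x', t'⟩ hx' h
      have hx1 : c ⬝ᵥ x = 0 := by simpa using hx
      have hx2 : c ⬝ᵥ x' = 0 := by simpa using hx'
      have h' : x + Pi.single i0 t = x' + Pi.single i0 t' := h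
      have hd := congrArg (fun y => c ⬝ᵥ y) h'
      simp only [dotProduct_add, dotProduct_single, hx1, hx2, zero_add] at hd
      have ht : t = t' := mul_left_cancel₀ hi0 hd
      subst ht
      have : x = x' := add_right_cancel h'
      rw [this]
  have hcov : (Finset.univ : Finset (ι → K)) ⊆
      T.biUnion (fun c => Finset.univ.filter (fun x : ι → K => c ⬝ᵥ x = 0)) := by
    intro x _
    obtain ⟨c, hc, hcx⟩ := hcon x
    simp only [Finset.mem_biUnion, Finset.mem_filter, Finset.mem_univ, true_and]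
    exact ⟨c, hc, hcx⟩
  have h1 := (Finset.card_le_card hcov).trans Finset.card_biUnion_le
  have h2 : (∑ c ∈ T, (Finset.univ.filter (fun x : ι → K => c ⬝ᵥ x = 0)).card)
      * Fintype.card K ≤ T.card * Fintype.card (ι → K) := by
    rw [Finset.sum_mul]
    calc _ ≤ ∑ _c ∈ T, Fintype.card (ι → K) := Finset.sum_le_sum hone
      _ = _ := by simp
  have h3 : 0 < Fintype.card (ι → K) := Fintype.card_pos
  rw [Finset.card_univ] at h1
  have h4 : Fintype.card (ι → K) * Fintype.card K ≤ T.card * Fintype.card (ι → K) :=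
    (Nat.mul_le_mul_right _ h1).trans h2
  have h5 : Fintype.card K ≤ T.card := by
    rw [mul_comm] at h4
    exact Nat.le_of_mul_le_mul_right h4 h3
  omega

/-- the vector of `(g, v, z)` -/
def E {S V K : Type} [DecidableEq S] [DecidableEq V] [Field K] (p : (S × V) × S) :
    (S × V) ⊕ S → K :=
  Pi.single (Sum.inl p.1) 1 + Pi.single (Sum.inr p.2) 1

theorem E_inl {S V K : Type} [DecidableEq S] [DecidableEq V] [Field K] (p : (S × V) × S)
    (a : S × V) : (E p : (S × V) ⊕ S → K) (Sum.inl a) = if a = p.1 then 1 else 0 := by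
  simp [E, Pi.single_apply]

theorem E_inr {S V K : Type} [DecidableEq S] [DecidableEq V] [Field K] (p : (S × V) × S)
    (a : S) : (E p : (S × V) ⊕ S → K) (Sum.inr a) = if a = p.2 then 1 else 0 := by
  simp [E, Pi.single_apply]

theorem exists_D (S V : Type) [Fintype S] [Fintype V] [DecidableEq S] [DecidableEq V]
    (m P : ℕ) [Fact P.Prime] (hm : 0 < m)
    (hP : m * (Fintype.card ((S × V) × S)) ^ 4 < P) (hP2 : 2 < P) (τ : ZMod P)
    (hτ : ∀ d, 0 < d → d < m → τ ^ d ≠ 0 ∧ τ ^ d ≠ 1 ∧ τ ^ d ≠ -1) :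
    ∃ (D : (S × V) × S → ZMod P) (o : S × V → ZMod P) (e : S → ZMod P),
      (∀ p, D p = o p.1 + e p.2) ∧
      (∀ p p', D p = D p' → p = p') ∧
      (∀ p1 p p1' p' : (S × V) × S, p.1.2 = p'.1.2 → D p1 - D p = D p1' - D p' →
        p1.1.2 = p1'.1.2) ∧
      (∀ d, 0 < d → d < m → ∀ p1 p p1' p' : (S × V) × S, D p1 ≠ D p →
        τ ^ d * (D p1 - D p) ≠ D p1' - D p') := by
  classical
  set Q := (S × V) × S with hQ
  let vec : Fin m × (Q × Q) × (Q × Q) → ((S × V) ⊕ S → ZMod P) := fun q =>
    τ ^ (q.1 : ℕ) • (E q.2.1.1 - E q.2.1.2) - (E q.2.2.1 - E q.2.2.2)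
  let T : Finset ((S × V) ⊕ S → ZMod P) :=
    (Finset.univ.image vec).filter (fun c => c ≠ 0)
  have hTc : T.card < Fintype.card (ZMod P) := by
    rw [ZMod.card]
    calc T.card ≤ (Finset.univ.image vec).card := Finset.card_filter_le _ _
      _ ≤ (Finset.univ : Finset (Fin m × (Q × Q) × (Q × Q))).card := Finset.card_image_le
      _ = m * (Fintype.card Q) ^ 4 := by
        rw [Finset.card_univ]
        simp only [Fintype.card_prod, Fintype.card_fin]
        ring
      _ < P := hP
  obtain ⟨x, hx⟩ := exists_generic T (by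
    intro c hc
    exact (Finset.mem_filter.mp hc).2) hTc
  have hE : ∀ p : Q, (E p : (S × V) ⊕ S → ZMod P) ⬝ᵥ x = x (Sum.inl p.1) + x (Sum.inr p.2) := by
    intro p
    simp [E, add_dotProduct]
  have key : ∀ (d : ℕ), d < m → ∀ p1 p p1' p' : Q,
      τ ^ d * ((x (Sum.inl p1.1) + x (Sum.inr p1.2)) - (x (Sum.inl p.1) + x (Sum.inr p.2)))
        = (x (Sum.inl p1'.1) + x (Sum.inr p1'.2)) - (x (Sum.inl p'.1) + x (Sum.inr p'.2)) →
      τ ^ d • ((E p1 : (S × V) ⊕ S → ZMod P) - E p) = E p1' - E p' := by
    intro d hd p1 p p1' p' h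
    by_contra hne
    have hmem : vec (⟨d, hd⟩, (p1, p), (p1', p')) ∈ T := by
      simp only [T, Finset.mem_filter, Finset.mem_image, Finset.mem_univ, true_and]
      refine ⟨⟨_, rfl⟩, ?_⟩
      intro h0
      exact hne (sub_eq_zero.mp h0)
    apply hx _ hmem
    simp only [vec, sub_dotProduct, smul_dotProduct, hE, smul_eq_mul]
    rw [h, sub_self]
  have h1ne : (1 : ZMod P) ≠ 0 := one_ne_zero
  have h2ne : (-1 : ZMod P) ≠ 1 := by
    intro h
    have h2 : ((2 : ℕ) : ZMod P) = 0 := by
      push_cast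
      linear_combination -h
    rw [ZMod.natCast_eq_zero_iff] at h2
    exact absurd (Nat.le_of_dvd (by norm_num) h2) (by omega)
  refine ⟨fun p => x (Sum.inl p.1) + x (Sum.inr p.2), fun a => x (Sum.inl a),
    fun z => x (Sum.inr z), fun _ => rfl, ?_, ?_, ?_⟩
  · intro p p' h
    have h' := key 0 hm p p' p' p' (by
      simp only [pow_zero, one_mul]
      simp only [] at h
      rw [h])
    have hl := congrFun h' (Sum.inl p.1)
    have hr := congrFun h' (Sum.inr p.2)
    simp only [pow_zero, one_smul, Pi.sub_apply, E_inl, E_inr, if_true, sub_self] at hl hr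
    have e1 : p.1 = p'.1 := by
      by_contra hh
      simp [hh] at hl
    have e2 : p.2 = p'.2 := by
      by_contra hh
      simp [hh] at hr
    exact Prod.ext e1 e2
  · intro p1 p p1' p' hv h
    have h' := key 0 hm p1 p p1' p' (by
      simp only [pow_zero, one_mul]
      exact h)
    by_cases hab : p1.1 = p.1
    · have hl := congrFun h' (Sum.inl p1'.1)
      simp only [pow_zero, one_smul, Pi.sub_apply, E_inl, if_true, hab, sub_self] at hl
      have e1 : p1'.1 = p'.1 := by
        by_contra hh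
        simp [hh] at hl
      rw [hab, e1, hv]
    · have hl := congrFun h' (Sum.inl p1.1)
      simp only [pow_zero, one_smul, Pi.sub_apply, E_inl, if_true, hab, if_false, sub_zero] at hl
      have e1 : p1.1 = p1'.1 := by
        by_contra hh
        simp only [hh, if_false, zero_sub] at hl
        by_cases h3 : p1.1 = p'.1
        · simp only [h3, if_true] at hl
          exact h2ne hl.symm
        · simp only [h3, if_false, neg_zero] at hl
          exact h1ne hl
      rw [e1]
  · intro d hd0 hdm p1 p p1' p' hne h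
    have h' := key d hdm p1 p p1' p' h
    obtain ⟨t0, t1, t2⟩ := hτ d hd0 hdm
    by_cases hab : p1.1 = p.1
    · by_cases hcd : p1.2 = p.2
      · apply hne
        have : p1 = p := Prod.ext hab hcd
        rw [this]
      · have hl := congrFun h' (Sum.inr p1.2)
        simp only [Pi.smul_apply, Pi.sub_apply, E_inr, if_true, hcd, if_false, sub_zero,
          smul_eq_mul, mul_one] at hl
        split_ifs at hl <;> simp_all
    · have hl := congrFun h' (Sum.inl p1.1)
      simp only [Pi.smul_apply, Pi.sub_apply, E_inl, if_true, hab, if_false, sub_zero,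
          smul_eq_mul, mul_one] at hl
      split_ifs at hl <;> simp_all

end Crest.Agent.R320.Ug2_340
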