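import Crest.Agent.R320.Ug1_340
import Crest.Agent.R320.Ug2_340

/-! Row 320, U-gadget: parameters and the random function. -/

set_option autoImplicit false

namespace Crest.Agent.R320.Ug3_340

open Finset Crest.Agent.R320.Ug1_340 Crest.Agent.R320.Ug2_340

theorem exists_tau (P m : ℕ) [Fact P.Prime] (h : 2 * m < P - 1) :
    ∃ τ : ZMod P, τ ≠ 0 ∧ ∀ d, 0 < d → d < m → τ ^ d ≠ 0 ∧ τ ^ d ≠ 1 ∧ τ ^ d ≠ -1 := by
  obtain ⟨g, hg⟩ := IsCyclic.exists_generator (α := (ZMod P)ˣ)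
  have ho : orderOf g = P - 1 := by
    rw [orderOf_eq_card_of_forall_mem_zpowers hg, Nat.card_eq_fintype_card, ZMod.card_units]
  refine ⟨(g : ZMod P), g.ne_zero, ?_⟩
  intro d hd0 hdm
  have h1 : ∀ k, 0 < k → k < P - 1 → (g : ZMod P) ^ k ≠ 1 := by
    intro k hk0 hk h
    have h3 : g ^ k = 1 := by
      apply Units.ext
      push_cast
      exact h
    have h4 := orderOf_dvd_of_pow_eq_one h3
    rw [ho] at h4
    exact absurd (Nat.le_of_dvd hk0 h4) (by omega)
  refine ⟨pow_ne_zero _ g.ne_zero, h1 d hd0 (by omega), ?_⟩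
  intro h
  apply h1 (2 * d) (by omega) (by omega)
  rw [mul_comm, pow_mul, h]
  ring

theorem exists_params (A B Q : ℕ) (hQ : 1 ≤ Q) :
    ∃ m P : ℕ, 0 < m ∧ P.Prime ∧ 2 < P ∧ m * B < P ∧ 2 * m < P - 1 ∧
      A * P * P * (Q - 1) ^ m < Q ^ m := by
  have hQr : (0 : ℝ) < Q := by exact_mod_cast hQ
  have hr : |(((Q - 1 : ℕ) : ℝ) / Q)| < 1 := by
    rw [abs_of_nonneg (by positivity), div_lt_one hQr]
    exact_mod_cast (by omega : Q - 1 < Q)
  have hlim := tendsto_pow_const_mul_const_pow_of_abs_lt_one 2 hr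
  have hev := (tendsto_order.1 hlim).2 (1 / ((A : ℝ) * ((2 * B + 8 : ℕ) : ℝ) ^ 2 + 1))
    (by positivity)
  obtain ⟨m, hm, hm1⟩ := (hev.and (Filter.eventually_ge_atTop 1)).exists
  obtain ⟨P, hp, h1, h2⟩ := Nat.exists_prime_lt_and_le_two_mul (m * B + 2 * m + 2) (by omega)
  refine ⟨m, P, hm1, hp, by omega, by omega, by omega, ?_⟩
  have hP : P ≤ m * (2 * B + 8) := by nlinarith
  have hPr : (P : ℝ) ≤ m * ((2 * B + 8 : ℕ) : ℝ) := by exact_mod_cast hP
  rw [lt_div_iff₀ (by positivity), div_pow] at hm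
  have hQm : (0 : ℝ) < (Q : ℝ) ^ m := by positivity
  have h5 : ((m : ℝ) ^ 2 * ((Q - 1 : ℕ) : ℝ) ^ m) * ((A : ℝ) * ((2 * B + 8 : ℕ) : ℝ) ^ 2 + 1)
      < (Q : ℝ) ^ m := by
    have h6 : (m : ℝ) ^ 2 * (((Q - 1 : ℕ) : ℝ) ^ m / (Q : ℝ) ^ m)
        * ((A : ℝ) * ((2 * B + 8 : ℕ) : ℝ) ^ 2 + 1) * (Q : ℝ) ^ m < 1 * (Q : ℝ) ^ m :=
      mul_lt_mul_of_pos_right hm hQm
    rw [one_mul] at h6
    calc _ = (m : ℝ) ^ 2 * (((Q - 1 : ℕ) : ℝ) ^ m / (Q : ℝ) ^ m)
        * ((A : ℝ) * ((2 * B + 8 : ℕ) : ℝ) ^ 2 + 1) * (Q : ℝ) ^ m := by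
          field_simp
      _ < _ := h6
  have h7 : (A : ℝ) * P * P * ((Q - 1 : ℕ) : ℝ) ^ m < (Q : ℝ) ^ m := by
    have hPP : (P : ℝ) * P ≤ (m * ((2 * B + 8 : ℕ) : ℝ)) * (m * ((2 * B + 8 : ℕ) : ℝ)) :=
      mul_le_mul hPr hPr (by positivity) (by positivity)
    have hq : (0 : ℝ) ≤ ((Q - 1 : ℕ) : ℝ) ^ m := by positivity
    calc (A : ℝ) * P * P * ((Q - 1 : ℕ) : ℝ) ^ m = (P * P) * (A * ((Q - 1 : ℕ) : ℝ) ^ m) := by ring
      _ ≤ ((m * ((2 * B + 8 : ℕ) : ℝ)) * (m * ((2 * B + 8 : ℕ) : ℝ))) * (A * ((Q - 1 : ℕ) : ℝ) ^ m) :=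
          mul_le_mul_of_nonneg_right hPP (by positivity)
      _ ≤ ((m : ℝ) ^ 2 * ((Q - 1 : ℕ) : ℝ) ^ m) * ((A : ℝ) * ((2 * B + 8 : ℕ) : ℝ) ^ 2 + 1) := by
          nlinarith [mul_nonneg (sq_nonneg (m : ℝ)) hq]
      _ < _ := h5
  exact_mod_cast h7

/-- The random function. `D (( g, v), z) = o (g, v) + e z`. -/
theorem exists_F (S V : Type) [Monoid S] [Fintype S] [DecidableEq S] [AddCommGroup V]
    [Fintype V] [DecidableEq V] (act : S → V → V) :
    ∃ (m P : ℕ) (_ : Fact P.Prime) (τ : ZMod P) (o : S × V → ZMod P) (e : S → ZMod P)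
      (F : S × ZMod P → V), 0 < m ∧ τ ≠ 0 ∧
      (∀ p p' : (S × V) × S, o p.1 + e p.2 = o p'.1 + e p'.2 → p = p') ∧
      ∀ (s : S) (w : ZMod P) (v : V) (t : ZMod P), t ≠ 0 → ∃ i < m,
        ∀ p1 p : (S × V) × S, p.1.2 = v → o p1.1 + e p1.2 ≠ o p.1 + e p.2 → ∀ s1 : S,
          F (s1, w + t * τ ^ i * ((o p1.1 + e p1.2) - (o p.1 + e p.2)))
            = F (s, w) + act s v - act s1 p1.1.2 := by
  classical
  let C := Fintype.card (S × ((S × V) × S) × ((S × V) × S))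
  let Q := (Fintype.card V) ^ C
  let A := Fintype.card (S × V)
  have hV : 0 < Fintype.card V := Fintype.card_pos
  have hQ : 1 ≤ Q := Nat.one_le_pow _ _ hV
  obtain ⟨m, P, hm, hP, hP2, hmB, h2m, hcount⟩ :=
    exists_params A ((Fintype.card ((S × V) × S)) ^ 4) Q hQ
  have : Fact P.Prime := ⟨hP⟩
  obtain ⟨τ, hτ0, hτ⟩ := exists_tau P m h2m
  obtain ⟨D, o, e, hD, hP0, hP1, hPd⟩ := exists_D S V m P hm hmB hP2 τ hτ
  -- the recovered value
  let vv : ZMod P → V → V := fun δ v =>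
    if h : ∃ q : ((S × V) × S) × ((S × V) × S), q.2.1.2 = v ∧ D q.1 - D q.2 = δ
      then h.choose.1.1.2 else 0
  have hvv : ∀ p1 p : (S × V) × S, vv (D p1 - D p) p.1.2 = p1.1.2 := by
    intro p1 p
    have h : ∃ q : ((S × V) × S) × ((S × V) × S), q.2.1.2 = p.1.2 ∧ D q.1 - D q.2 = D p1 - D p :=
      ⟨(p1, p), rfl, rfl⟩
    simp only [vv, dif_pos h]
    obtain ⟨h1, h2⟩ := h.choose_spec
    exact hP1 _ _ _ _ h1 h2
  let Scen := (S × V) × (ZMod P × ZMod P)
  let Dset : Scen → ℕ → Finset (S × ZMod P) := fun c i =>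
    (Finset.univ.filter (fun q : S × ((S × V) × S) × ((S × V) × S) => D q.2.1 ≠ D q.2.2)).image
      (fun q => (q.1, c.2.1 + c.2.2 * τ ^ i * (D q.2.1 - D q.2.2)))
  let dem : Scen → ℕ → (S × ZMod P → V) → S × ZMod P → V := fun c i F x =>
    F (c.1.1, c.2.1) + act c.1.1 c.1.2 - act x.1 (vv ((x.2 - c.2.1) / (c.2.2 * τ ^ i)) c.1.2)
  let bad : Scen → Finset (S × ZMod P → V) := fun c =>
    Finset.univ.filter (fun F => ∀ i < m, ¬ ∀ x ∈ Dset c i, F x = dem c i F x)
  have hbad : ∀ c : Scen, c.2.2 ≠ 0 →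
      (bad c).card * Q ^ m ≤ Fintype.card (S × ZMod P → V) * (Q - 1) ^ m := by
    intro c hc
    have hτi : ∀ i, c.2.2 * τ ^ i ≠ 0 := fun i => mul_ne_zero hc (pow_ne_zero _ hτ0)
    apply count_all C m (Dset c) (dem c) hV
    · intro i _
      calc (Dset c i).card ≤ (Finset.univ.filter (fun q : S × ((S × V) × S) × ((S × V) × S) =>
            D q.2.1 ≠ D q.2.2)).card := Finset.card_image_le
        _ ≤ (Finset.univ : Finset (S × ((S × V) × S) × ((S × V) × S))).card :=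
            Finset.card_filter_le _ _
        _ = C := Finset.card_univ
    · have hlt : ∀ i j, i < j → j < m → Disjoint (Dset c i) (Dset c j) := by
        intro i j hij hj
        rw [Finset.disjoint_left]
        intro x hx hx'
        simp only [Dset, Finset.mem_image, Finset.mem_filter, Finset.mem_univ, true_and] at hx hx'
        obtain ⟨q, hq, hqx⟩ := hx
        obtain ⟨q', hq', hqx'⟩ := hx'
        rw [← hqx'] at hqx
        have h2 := congrArg Prod.snd hqx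
        simp only [add_right_inj] at h2
        have h3 : τ ^ j = τ ^ i * τ ^ (j - i) := by
          rw [← pow_add]; congr 1; omega
        rw [h3] at h2
        have h4 : τ ^ (j - i) * (D q'.2.1 - D q'.2.2) = D q.2.1 - D q.2.2 := by
          apply mul_left_cancel₀ (hτi i)
          rw [h2]; ring
        exact hPd (j - i) (by omega) (by omega) _ _ _ _ hq' h4
      intro i hi j hj hij
      rcases Nat.lt_or_gt_of_ne hij with h | h
      · exact hlt i j h hj
      · exact (hlt j i h hi).symm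
    · intro i hi j hj F G hG x _
      have hnot : (c.1.1, c.2.1) ∉ Dset c i := by
        intro hmem
        simp only [Dset, Finset.mem_image, Finset.mem_filter, Finset.mem_univ, true_and] at hmem
        obtain ⟨q, hq, hqx⟩ := hmem
        have h2 := congrArg Prod.snd hqx
        simp only [add_eq_left, mul_eq_zero, sub_eq_zero] at h2
        rcases h2 with h2 | h2
        · exact hτi i (mul_eq_zero.mpr h2)
        · exact hq h2
      simp only [dem]
      rw [hG _ hnot]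
  let scen : Finset Scen := Finset.univ.filter (fun c => c.2.2 ≠ 0)
  have hex : ∃ F : S × ZMod P → V, ∀ c ∈ scen, F ∉ bad c := by
    by_contra hcon
    push Not at hcon
    have hcov : (Finset.univ : Finset (S × ZMod P → V)) ⊆ scen.biUnion bad := by
      intro F _
      obtain ⟨c, hc, hF⟩ := hcon F
      exact Finset.mem_biUnion.mpr ⟨c, hc, hF⟩
    have h1 := (Finset.card_le_card hcov).trans Finset.card_biUnion_le
    rw [Finset.card_univ] at h1
    have h2 : (∑ c ∈ scen, (bad c).card) * Q ^ m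
        ≤ scen.card * (Fintype.card (S × ZMod P → V) * (Q - 1) ^ m) := by
      rw [Finset.sum_mul]
      calc _ ≤ ∑ _c ∈ scen, (Fintype.card (S × ZMod P → V) * (Q - 1) ^ m) :=
            Finset.sum_le_sum (fun c hc => hbad c (Finset.mem_filter.mp hc).2)
        _ = _ := by simp
    have h3 : scen.card ≤ A * P * P := by
      calc scen.card ≤ (Finset.univ : Finset Scen).card := Finset.card_filter_le _ _
        _ = A * P * P := by
          rw [Finset.card_univ]
          simp only [Scen, A, Fintype.card_prod, ZMod.card]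
          ring
    have h4 : 0 < Fintype.card (S × ZMod P → V) := Fintype.card_pos
    set X := Fintype.card (S × ZMod P → V)
    have h5 : X * Q ^ m ≤ X * (A * P * P * (Q - 1) ^ m) := by
      calc X * Q ^ m ≤ (∑ c ∈ scen, (bad c).card) * Q ^ m := Nat.mul_le_mul_right _ h1
        _ ≤ scen.card * (X * (Q - 1) ^ m) := h2
        _ ≤ (A * P * P) * (X * (Q - 1) ^ m) := Nat.mul_le_mul_right _ h3
        _ = _ := by ring
    have h6 := Nat.le_of_mul_le_mul_left h5 h4
    omega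
  obtain ⟨F, hF⟩ := hex
  refine ⟨m, P, ⟨hP⟩, τ, o, e, F, hm, hτ0, ?_, ?_⟩
  · intro p p' h
    apply hP0
    rw [hD, hD]; exact h
  · intro s w v t ht
    have h1 := hF ((s, v), (w, t)) (by simp [scen, ht])
    simp only [bad, Finset.mem_filter, Finset.mem_univ, true_and] at h1
    rw [not_forall] at h1
    obtain ⟨i, hi0⟩ := h1
    rw [Classical.not_imp, not_not] at hi0
    obtain ⟨hi, h2⟩ := hi0
    refine ⟨i, hi, ?_⟩
    intro p1 p hv hne s1
    rw [← hD, ← hD] at hne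
    rw [← hD, ← hD]
    have hmem : (s1, w + t * τ ^ i * (D p1 - D p)) ∈ Dset ((s, v), (w, t)) i := by
      simp only [Dset, Finset.mem_image, Finset.mem_filter, Finset.mem_univ, true_and]
      exact ⟨(s1, p1, p), hne, rfl⟩
    rw [h2 _ hmem]
    have hti : t * τ ^ i ≠ 0 := mul_ne_zero ht (pow_ne_zero _ hτ0)
    simp only [dem]
    have h3 : (w + t * τ ^ i * (D p1 - D p) - w) / (t * τ ^ i) = D p1 - D p := by
      field_simp
      ring
    rw [h3, ← hv, hvv]

end Crest.Agent.R320.Ug3_340
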