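import Crest.Agent.R320.Ug3_340

/-! Row 320, U-gadget: abstract word form.

Content = list of blocks `(z, l)` (`z` product of the block in `S`, `l` its length).  A junction is a
cut of one block `(z, a + b)` at offset `a`; the left side sees the blocks before and `a`, the right
side sees `b` and the blocks after; `z` is read by nobody, the number of blocks is known to nobody.
Everything is computed by products in one finite monoid `M`. -/

set_option autoImplicit false

namespace Crest.Agent.R320.Ug4_340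

open Crest.Agent.R320.Ug3_340

@[ext] structure Aff (K : Type) where
  t : K
  w : K

instance (K : Type) [CommRing K] : Monoid (Aff K) where
  mul x y := ⟨x.t * y.t, x.w * y.t + y.w⟩
  one := ⟨1, 0⟩
  mul_assoc x y z := by
    apply Aff.ext
    · exact mul_assoc _ _ _
    · change (x.w * y.t + y.w) * z.t + z.w = x.w * (y.t * z.t) + (y.w * z.t + z.w)
      ring
  one_mul x := by
    apply Aff.ext
    · exact one_mul _
    · change (0 : K) * x.t + x.w = x.w
      ring
  mul_one x := by
    apply Aff.ext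
    · exact mul_one _
    · change x.w * (1 : K) + 0 = x.w
      ring

theorem aff_mul_t {K : Type} [CommRing K] (x y : Aff K) : (x * y).t = x.t * y.t := rfl
theorem aff_mul_w {K : Type} [CommRing K] (x y : Aff K) : (x * y).w = x.w * y.t + y.w := rfl
theorem aff_one_t {K : Type} [CommRing K] : (1 : Aff K).t = 1 := rfl
theorem aff_one_w {K : Type} [CommRing K] : (1 : Aff K).w = 0 := rfl

theorem aff_finite (K : Type) [Finite K] : Finite (Aff K) :=
  Finite.of_injective (fun x : Aff K => (x.t, x.w)) (by
    intro x y h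
    exact Aff.ext (congrArg Prod.fst h) (congrArg Prod.snd h))

theorem split_right {α : Type} (l : List α) (i : ℕ) (h : i < l.length) :
    ∃ l1 x l2, l = l1 ++ x :: l2 ∧ l2.length = i := by
  induction l with
  | nil => simp at h
  | cons a l ih =>
    by_cases h1 : i < l.length
    · obtain ⟨l1, x, l2, h2, h3⟩ := ih h1
      exact ⟨a :: l1, x, l2, by rw [h2]; rfl, h3⟩
    · refine ⟨[], a, l, rfl, ?_⟩
      simp only [List.length_cons] at h
      omega

theorem ugadget (S V : Type) [Monoid S] [Fintype S] [AddCommGroup V] [Fintype V]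
    (act : S → V → V) :
    ∃ (M : Type) (_ : Monoid M) (_ : Finite M) (π : M →* S) (θ : S × ℕ → M) (m N : ℕ)
      (lam : M → ℕ → Option V) (rho : ℕ → M → Option V) (nu : M → V),
      0 < m ∧ 0 < N ∧ (∀ x, π (θ x) = x.1) ∧ (∀ z l, θ (z, l + N) = θ (z, l)) ∧
      (∀ μ a, lam μ (a + N) = lam μ a) ∧ (∀ μ b, rho (b + N) μ = rho b μ) ∧
      (∀ (pre : List (S × ℕ)) (a : ℕ) (z : S) (b : ℕ) (post : List (S × ℕ)) (v r : V),
        lam (pre.map θ).prod a = some v → rho b (post.map θ).prod = some r →
        r = act (π ((pre ++ (z, a + b) :: post).map θ).prod) v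
          + nu ((pre ++ (z, a + b) :: post).map θ).prod) ∧
      (∀ (pre mid post : List (S × ℕ)) (v : V), m ≤ mid.length → (∀ x ∈ mid, N ≤ x.2) →
        ∃ (mid1 : List (S × ℕ)) (x : S × ℕ) (mid2 : List (S × ℕ)) (a b : ℕ) (r : V),
          mid = mid1 ++ x :: mid2 ∧ a < N ∧ a + b = x.2 ∧
          lam ((pre ++ mid1).map θ).prod a = some v ∧
          rho b ((mid2 ++ post).map θ).prod = some r) := by
  classical
  obtain ⟨m, P, hPf, τ, o, e, F, hm, hτ0, hinj, hF⟩ := exists_F S V act
  have hP0 : 0 < P := hPf.out.pos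
  have : NeZero P := ⟨hP0.ne'⟩
  let θ : S × ℕ → S × Aff (ZMod P) := fun x => (x.1, ⟨τ, (x.2 : ZMod P) + e x.1⟩)
  let lam : S × Aff (ZMod P) → ℕ → Option V := fun μ a =>
    if h : ∃ v, τ * μ.2.w + (a : ZMod P) = o (μ.1, v) then some h.choose else none
  let rho : ℕ → S × Aff (ZMod P) → Option V := fun b μ =>
    if h : ∃ R : V, ∀ (g : S) (v : V) (z : S),
        F (g * (z * μ.1), μ.2.t * (o (g, v) + e z + (b : ZMod P)) + μ.2.w)
          + act (g * (z * μ.1)) v = R then some h.choose else none
  let nu : S × Aff (ZMod P) → V := fun μ => F (μ.1, μ.2.w)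
  have hlam1 : ∀ μ a v, lam μ a = some v → τ * μ.2.w + (a : ZMod P) = o (μ.1, v) := by
    intro μ a v h
    simp only [lam] at h
    split_ifs at h with h1
    · have h2 := h1.choose_spec
      rw [Option.some.inj h] at h2
      exact h2
  have hlam2 : ∀ (μ : S × Aff (ZMod P)) (a : ℕ) (v : V),
      τ * μ.2.w + (a : ZMod P) = o (μ.1, v) → lam μ a = some v := by
    intro μ a v h
    have h1 : ∃ v, τ * μ.2.w + (a : ZMod P) = o (μ.1, v) := ⟨v, h⟩
    simp only [lam, dif_pos h1]
    have h2 := h1.choose_spec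
    have h3 : o (μ.1, h1.choose) + e 1 = o (μ.1, v) + e 1 := by rw [← h2, h]
    have h4 := hinj ((μ.1, h1.choose), 1) ((μ.1, v), 1) h3
    have h5 : h1.choose = v := congrArg (fun q : (S × V) × S => q.1.2) h4
    rw [h5]
  have hrho1 : ∀ b μ R, rho b μ = some R → ∀ (g : S) (v : V) (z : S),
      F (g * (z * μ.1), μ.2.t * (o (g, v) + e z + (b : ZMod P)) + μ.2.w)
        + act (g * (z * μ.1)) v = R := by
    intro b μ R h
    simp only [rho] at h
    split_ifs at h with h1
    · have h2 := h1.choose_spec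
      rw [Option.some.inj h] at h2
      exact h2
  have hrho2 : ∀ (b : ℕ) (μ : S × Aff (ZMod P)) (R : V), (∀ (g : S) (v : V) (z : S),
      F (g * (z * μ.1), μ.2.t * (o (g, v) + e z + (b : ZMod P)) + μ.2.w)
        + act (g * (z * μ.1)) v = R) → ∃ r, rho b μ = some r := by
    intro b μ R h
    have h1 : ∃ R : V, ∀ (g : S) (v : V) (z : S),
      F (g * (z * μ.1), μ.2.t * (o (g, v) + e z + (b : ZMod P)) + μ.2.w)
        + act (g * (z * μ.1)) v = R := ⟨R, h⟩
    exact ⟨h1.choose, by simp only [rho, dif_pos h1]⟩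
  have hprod : ∀ (pre : List (S × ℕ)) (x : S × ℕ) (post : List (S × ℕ)),
      ((pre ++ x :: post).map θ).prod = (pre.map θ).prod * (θ x * (post.map θ).prod) := by
    intro pre x post
    rw [List.map_append, List.prod_append, List.map_cons, List.prod_cons]
  have hfst : ∀ (pre : List (S × ℕ)) (x : S × ℕ) (post : List (S × ℕ)),
      ((pre ++ x :: post).map θ).prod.1 =
        (pre.map θ).prod.1 * (x.1 * (post.map θ).prod.1) := by
    intro pre x post
    rw [hprod]
    rfl
  have hsnd : ∀ (pre : List (S × ℕ)) (x : S × ℕ) (post : List (S × ℕ)),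
      ((pre ++ x :: post).map θ).prod.2.w =
        (post.map θ).prod.2.t * (τ * (pre.map θ).prod.2.w + ((x.2 : ZMod P) + e x.1))
          + (post.map θ).prod.2.w := by
    intro pre x post
    rw [hprod]
    change (pre.map θ).prod.2.w * (τ * (post.map θ).prod.2.t)
      + (((x.2 : ZMod P) + e x.1) * (post.map θ).prod.2.t + (post.map θ).prod.2.w) = _
    ring
  have ht : ∀ u : List (S × ℕ), (u.map θ).prod.2.t = τ ^ u.length := by
    intro u
    induction u with
    | nil => simp [aff_one_t]
    | cons x u ih =>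
      rw [List.map_cons, List.prod_cons, List.length_cons, pow_succ']
      change τ * (u.map θ).prod.2.t = _
      rw [ih]
  have : Finite (Aff (ZMod P)) := aff_finite _
  refine ⟨S × Aff (ZMod P), inferInstance, inferInstance, MonoidHom.fst S (Aff (ZMod P)), θ, m, P,
    lam, rho, nu, hm, hP0, fun _ => rfl, ?_, ?_, ?_, ?_, ?_⟩
  · intro z l
    simp [θ]
  · intro μ a
    simp [lam]
  · intro μ b
    simp [rho]
  · intro pre a z b post v r hl hr
    have h1 := hlam1 _ _ _ hl
    have h2 := hrho1 _ _ _ hr (pre.map θ).prod.1 v z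
    rw [← h2]
    change _ = act ((pre ++ (z, a + b) :: post).map θ).prod.1 v
      + F (((pre ++ (z, a + b) :: post).map θ).prod.1, ((pre ++ (z, a + b) :: post).map θ).prod.2.w)
    rw [hfst, hsnd, ← h1]
    push_cast
    rw [add_comm]
    congr 3
    ring_nf
  · intro pre mid post v hmid hN
    let s := ((pre ++ mid ++ post).map θ).prod.1
    let w := ((pre ++ mid ++ post).map θ).prod.2.w
    obtain ⟨i, hi, hgood⟩ := hF s w v (τ ^ post.length) (pow_ne_zero _ hτ0)
    obtain ⟨mid1, x, mid2, hsplit, hlen⟩ := split_right mid i (by omega)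
    have hxN : P ≤ x.2 := hN x (by rw [hsplit]; simp)
    set μ := ((pre ++ mid1).map θ).prod with hμ
    set ν := ((mid2 ++ post).map θ).prod with hν
    let a : ℕ := (o (μ.1, v) - τ * μ.2.w).val
    have ha : a < P := ZMod.val_lt _
    have hac : (a : ZMod P) = o (μ.1, v) - τ * μ.2.w := ZMod.natCast_zmod_val _
    have hab : a + (x.2 - a) = x.2 := by omega
    have hword : pre ++ mid ++ post = (pre ++ mid1) ++ x :: (mid2 ++ post) := by
      rw [hsplit]; simp
    have hs : s = μ.1 * (x.1 * ν.1) := by
      simp only [s]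
      rw [hword, hfst]
    have hνt : ν.2.t = τ ^ post.length * τ ^ i := by
      rw [hν, ht, List.length_append, hlen, pow_add, mul_comm]
    have hw : w = ν.2.t * (o (μ.1, v) + e x.1 + ((x.2 - a : ℕ) : ZMod P)) + ν.2.w := by
      simp only [w]
      rw [hword, hsnd, ← hμ, ← hν]
      have hx2 : (x.2 : ZMod P) = (a : ZMod P) + ((x.2 - a : ℕ) : ZMod P) := by
        rw [← Nat.cast_add, hab]
      rw [hx2, hac]
      ring
    obtain ⟨r, hr⟩ := hrho2 (x.2 - a) ν (F (s, w) + act s v) (by
      intro g1 v1 z1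
      by_cases hp : o (g1, v1) + e z1 = o (μ.1, v) + e x.1
      · have hpp := hinj ((g1, v1), z1) ((μ.1, v), x.1) hp
        have e1 : g1 = μ.1 := congrArg (fun q : (S × V) × S => q.1.1) hpp
        have e2 : v1 = v := congrArg (fun q : (S × V) × S => q.1.2) hpp
        have e3 : z1 = x.1 := congrArg (fun q : (S × V) × S => q.2) hpp
        rw [e1, e2, e3, hs, hw]
      · have h3 := hgood ((g1, v1), z1) ((μ.1, v), x.1) rfl hp (g1 * (z1 * ν.1))
        have h4 : w + τ ^ post.length * τ ^ i * (o (g1, v1) + e z1 - (o (μ.1, v) + e x.1))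
            = ν.2.t * (o (g1, v1) + e z1 + ((x.2 - a : ℕ) : ZMod P)) + ν.2.w := by
          rw [hw, hνt]; ring
        rw [h4] at h3
        rw [h3]
        simp)
    refine ⟨mid1, x, mid2, a, x.2 - a, r, hsplit, ha, hab, ?_, hr⟩
    apply hlam2
    rw [hac]
    ring

end Crest.Agent.R320.Ug4_340
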