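import Crest.Agent.R320.Fin_364
import Crest.Agent.R320.GridG_19
import Crest.Agent.R320.GridRuler_896
import Crest.Agent.R320.P4_933
import Crest.Agent.R320.Univ_582

/-!
# Row 320: the gadget `UGI` (helper364) from 19's grid gadget and 896's ruler, and the row
-/

set_option autoImplicit false

namespace Crest.Agent.R320.UgiX364

open Crest.Agent.R320.Hk_851 Crest.Agent.R320.GridG_19

theorem bad_conv {Ms : Finset ℕ} {M kk m n : ℕ}
    (hn : ∀ k ≤ m, Am (fun k => (2 ^ kk) ^ k) M 0 k ≤ n)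
    (h : (∃ q ∈ Ms, q ∣ n) ∨ BadG (fun k => (2 ^ kk) ^ k) M 0 m n) :
    GridRuler_896.BadZ Ms M (2 ^ kk) m (fun j => (Am (fun k => (2 ^ kk) ^ k) M 0 j : ℤ)) (n : ℤ) := by
  rcases h with ⟨q, hq, hd⟩ | ⟨k, hk, h⟩
  · exact Or.inl ⟨q, hq, by exact_mod_cast hd⟩
  · right
    refine ⟨k + 1, by omega, by omega, ?_⟩
    have h0 := hn (k + 1) (by omega)
    simp only at h
    set A := Am (fun k => (2 ^ kk) ^ k) M 0 (k + 1) with hA
    set g := (2 ^ kk) ^ (k + 1) with hg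
    set w := M * (2 ^ kk) ^ k with hw
    have hgp : 0 < g := by rw [hg]; positivity
    have hdm := Nat.div_add_mod (n - A) g
    have hlt := Nat.mod_lt (n - A) hgp
    set q := (n - A) / g with hq
    set r := (n - A) % g with hr
    have e1 : ((M : ℤ) * ((2 ^ kk : ℕ) : ℤ) ^ (k + 1 - 1)) = (w : ℤ) := by
      rw [hw]; push_cast; simp
    have e2 : (((2 ^ kk : ℕ) : ℤ) ^ (k + 1)) = (g : ℤ) := by
      rw [hg]; push_cast; ring
    have e3 : ((n : ℤ) - A) = (g : ℤ) * q + r := by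
      have : (n : ℤ) - A = ((n - A : ℕ) : ℤ) := by omega
      rw [this, ← hdm]; push_cast; ring
    rcases h with h | h
    · refine ⟨(q : ℤ), ?_⟩
      rw [e1, e2]
      have e4 : (n : ℤ) - A - q * g = r := by rw [e3]; ring
      rw [e4, abs_le]
      constructor <;> omega
    · refine ⟨(q : ℤ) + 1, ?_⟩
      rw [e1, e2]
      have e4 : (n : ℤ) - A - (q + 1) * g = r - g := by rw [e3]; ring
      rw [e4, abs_le]
      constructor <;> omega

theorem ugi (S V : Type) [Monoid S] [Finite S] [AddCommGroup V] [Finite V] (act : V → S → V) :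
    Fin364.UGI S V act := by
  classical
  obtain ⟨m, r, hg⟩ := GridG_19.grid.{0} S V act
  refine ⟨r + m, fun K => ?_⟩
  obtain ⟨Ms, hcard, hpr, hgrid⟩ := hg (2 ^ (K + 1))
  obtain ⟨M, hMdef⟩ : ∃ M, M = ∏ q ∈ Ms, q := ⟨_, rfl⟩
  rw [← hMdef] at hgrid
  have hM0 : 0 < M := by
    rw [hMdef]; exact Finset.prod_pos fun q hq => (hpr q hq).1.pos
  let kk : ℕ := K + 6 + M
  have hkk : 2 ^ (K + 6) * M ≤ 2 ^ kk := by
    show 2 ^ (K + 6) * M ≤ 2 ^ (K + 6 + M)
    rw [pow_add 2 (K + 6) M]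
    exact Nat.mul_le_mul_left _ Nat.lt_two_pow_self.le
  let G : ℕ → ℕ := fun k => (2 ^ kk) ^ k
  have hG0 : ∀ k, 0 < G k := fun k => by show 0 < (2 ^ kk) ^ k; positivity
  have hGd : ∀ a b, a ≤ b → G a ∣ G b := fun a b h => pow_dvd_pow _ h
  have hcop : ∀ k, Nat.Coprime M (G k) := by
    intro k
    show Nat.Coprime M ((2 ^ kk) ^ k)
    refine Nat.Coprime.pow_right _ (Nat.Coprime.pow_right _ ?_)
    rw [hMdef]
    refine Nat.Coprime.prod_left fun q hq => ?_
    refine (Nat.coprime_primes (hpr q hq).1 Nat.prime_two).2 ?_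
    have h1 := (hpr q hq).2
    have h2 : 2 ^ 1 ≤ 2 ^ (K + 1) := Nat.pow_le_pow_right (by norm_num) (by omega)
    omega
  let N : ℕ := Am G M 0 m
  obtain ⟨X, hX, hX2⟩ := GridRuler_896.exists_ruler K m Ms hpr M hM0
    (fun p hp => by rw [hMdef]; exact Finset.dvd_prod_of_mem _ hp) kk hkk (2 * N)
  refine ⟨N, 2 * N + M + Ac G M 0 m, fun i => X * 2 ^ i,
    fun T => (∃ q ∈ Ms, q ∣ T) ∨ BadG G M 0 m T, ?_, ?_, ?_, ?_⟩
  · intro i j hij _
    exact Nat.mul_lt_mul_of_pos_left (Nat.pow_lt_pow_right (by norm_num) hij) (by omega)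
  · intro i j k l _ _ _ _ hij hkl habs
    by_contra hne
    have h1 := GridRuler_896.spaced hX hij hkl
      (fun e => hne ⟨(Prod.mk.inj e).1, (Prod.mk.inj e).2⟩)
    simp only [abs_le] at habs
    obtain ⟨ha, hb⟩ := habs
    generalize X * 2 ^ i = a at *
    generalize X * 2 ^ j = b at *
    generalize X * 2 ^ k = c at *
    generalize X * 2 ^ l = d at *
    omega
  · intro T F hT hcT hF
    obtain ⟨hfin, hle⟩ := hX2 (fun j => (Am (fun k => (2 ^ kk) ^ k) M 0 j : ℤ)) (T : ℤ)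
    have hsub : (F : Set (ℕ × ℕ)) ⊆ {ab : ℕ × ℕ | ab.1 < K ∧ ab.2 < K ∧ ab.1 ≠ ab.2 ∧
        GridRuler_896.BadZ Ms M (2 ^ kk) m (fun j => (Am (fun k => (2 ^ kk) ^ k) M 0 j : ℤ))
          (T + X * 2 ^ ab.1 - X * 2 ^ ab.2)} := by
      intro p hp
      obtain ⟨h1, h2, h3, h4⟩ := hF p hp
      refine ⟨h1, h2, h3, ?_⟩
      have h5 : X * 2 ^ p.2 ≤ T := hcT _ h2
      have h6 : X ≤ X * 2 ^ p.1 := Nat.le_mul_of_pos_right _ (by positivity)
      have e : ((T : ℤ) + X * 2 ^ p.1 - X * 2 ^ p.2) = ((T + X * 2 ^ p.1 - X * 2 ^ p.2 : ℕ) : ℤ) := by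
        rw [Nat.cast_sub (by omega)]; push_cast; ring
      rw [e]
      refine bad_conv ?_ h4
      intro k hk
      have h7 := Am_mono G M 0 hk
      have h8 : 2 * Am G M 0 m < X := hX
      show Am G M 0 k ≤ _
      omega
    have h1 := Set.ncard_le_ncard hsub hfin
    rw [Set.ncard_coe_finset] at h1
    omega
  · intro α _ f
    obtain ⟨lam, rho, nu, h1, h2, h3, h4, h5⟩ := hgrid G 0 hG0 hGd hcop α
      (fun w => (w.map f).prod) (by simp)
    refine ⟨lam, rho, nu, fun P v h => (h2 P v h).2.le, h1, ?_, ?_⟩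
    · intro u hu hb v
      refine h4 u ?_ ?_ ?_ ?_ v
      · show 2 * N ≤ _; omega
      · omega
      · intro q hq hd
        exact hb (Or.inl ⟨q, hq, hd⟩)
      · exact fun h => hb (Or.inr h)
    · intro y
      refine P4_933.regular_of_class f (Ac G M 0 m) (M * G m) (Nat.mul_pos hM0 (hG0 m))
        (fun u => nu u = y) ?_
      intro u u' ha hb hc hd he
      rw [h5 u u' ha hb hc hd he]

/-- **the row**, all universes -/
theorem row (α : Type*) [Finite α] (L : Language α) (hL : L.IsRegular) :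
    ∃ e : Crest.RegLang.GRegExp α, e.height ≤ 3 ∧ e.lang = L :=
  Univ_582.final (k := 3)
    (fun β _ S _ _ φ s => Fin364.main S (ugi S (Two_621.Tok S) (fun v s => Two_621.act v s)) β φ s)
    α L hL

end Crest.Agent.R320.UgiX364
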