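import Mathlib

/-!
# Row 320: word form of one outer scheme over an abstract unit gadget (helper63)

`WS` : a right-looking wall rule with window `n`, an 818-chain (`z = p + q + N`), and an abstract
unit gadget (left labels of the partial unit before a junction, right labels of the text from the
junction on, transport through a complete unit) which is exact at every legal junction.
`Kinf` : words from a legal right start to a legal left end whose thread closes.
-/

set_option autoImplicit false

namespace Crest.Agent.R320.Unit_63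

universe u v

/-- first wall at distance `≥ d` from the start of `Q` is at distance `k`, all windows visible -/
def FW {α : Type u} (wl : List α → Prop) (n : ℕ) (Q : List α) (d k : ℕ) : Prop :=
  d ≤ k ∧ k + n ≤ Q.length ∧ wl (Q.drop k) ∧ ∀ k', d ≤ k' → k' < k → ¬ wl (Q.drop k')

section FW

variable {α : Type u} {wl : List α → Prop} {n : ℕ}

theorem FW.unique {Q : List α} {d k k' : ℕ} (h : FW wl n Q d k) (h' : FW wl n Q d k') : k = k' := by
  rcases lt_trichotomy k k' with hlt | he | hgt
  · exact absurd h.2.2.1 (h'.2.2.2 k h.1 hlt)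
  · exact he
  · exact absurd h'.2.2.1 (h.2.2.2 k' h'.1 hgt)

/-- stability of the rule under appending letters -/
def Stable (wl : List α → Prop) (n : ℕ) : Prop :=
  ∀ Q Q' : List α, n ≤ Q.length → (wl (Q ++ Q') ↔ wl Q)

theorem drop_append_le {Q Q' : List α} {k : ℕ} (h : k ≤ Q.length) :
    (Q ++ Q').drop k = Q.drop k ++ Q' := by
  rw [List.drop_append_of_le_length h]

theorem FW.append (hs : Stable wl n) {Q : List α} (Q' : List α) {d k : ℕ} (h : FW wl n Q d k) :
    FW wl n (Q ++ Q') d k := by
  obtain ⟨h1, h2, h3, h4⟩ := h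
  refine ⟨h1, by rw [List.length_append]; omega, ?_, ?_⟩
  · rw [drop_append_le (by omega)]
    exact (hs _ _ (by rw [List.length_drop]; omega)).2 h3
  · intro k' hk hlt
    rw [drop_append_le (by omega)]
    intro hw
    exact h4 k' hk hlt ((hs _ _ (by rw [List.length_drop]; omega)).1 hw)

theorem FW.of_append (hs : Stable wl n) {Q Q' : List α} {d k : ℕ} (h : FW wl n (Q ++ Q') d k)
    (hk : k + n ≤ Q.length) : FW wl n Q d k := by
  obtain ⟨h1, _, h3, h4⟩ := h
  refine ⟨h1, hk, ?_, ?_⟩
  · rw [drop_append_le (by omega)] at h3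
    exact (hs _ _ (by rw [List.length_drop]; omega)).1 h3
  · intro k' hk' hlt hw
    apply h4 k' hk' hlt
    rw [drop_append_le (by omega)]
    exact (hs _ _ (by rw [List.length_drop]; omega)).2 hw

/-- 818's lemma, word form: junction `P | Q`, `p ≤ |P| ≤ p + N`, no wall of `Q` in `[q, q + N)` -/
theorem FW.junction {P Q : List α} {p q N b : ℕ} (hp : p ≤ P.length) (hpN : P.length ≤ p + N)
    (hclear : ∀ k, q ≤ k → k < q + N → ¬ wl (Q.drop k)) (h : FW wl n Q (q + N) b) :
    FW wl n (P ++ Q) (p + q + N) (P.length + b) := by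
  obtain ⟨h1, h2, h3, h4⟩ := h
  refine ⟨by omega, by rw [List.length_append]; omega, ?_, ?_⟩
  · rw [List.drop_append, List.drop_eq_nil_of_le (by omega), List.nil_append]
    rwa [show P.length + b - P.length = b by omega]
  · intro k' hk hlt
    rw [List.drop_append, List.drop_eq_nil_of_le (by omega), List.nil_append]
    by_cases hc : q + N ≤ k' - P.length
    · exact h4 _ hc (by omega)
    · exact hclear _ (by omega) (by omega)

theorem FW.junction_inv {P Q : List α} {p q N b ℓ : ℕ} (hp : p ≤ P.length)
    (hpN : P.length ≤ p + N)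
    (hclear : ∀ k, q ≤ k → k < q + N → ¬ wl (Q.drop k)) (h : FW wl n Q (q + N) b)
    (hl : FW wl n (P ++ Q) (p + q + N) ℓ) : ℓ = P.length + b :=
  hl.unique (FW.junction hp hpN hclear h)

end FW

/-- one outer scheme in word form -/
structure WS (α : Type u) (V : Type v) where
  /-- wall at the head of the word -/
  wl : List α → Prop
  /-- window of the wall rule -/
  n : ℕ
  /-- left offset -/
  p : ℕ
  /-- right offset -/
  q : ℕ
  /-- length of the cut window -/
  N : ℕ
  /-- margin -/
  e : ℕ
  /-- left label of the partial unit before the junction -/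
  L : List α → Option V
  /-- right label of the text from the junction on -/
  R : List α → Option V
  /-- transport through the unit which starts at the head -/
  tr : List α → V → V
  n_le : n ≤ e
  e_le : e ≤ p
  p_pos : 0 < p
  wl_stable : Stable wl n
  R_app : ∀ (Q Q' : List α) (b : ℕ), FW wl n Q (q + N) b → b + e ≤ Q.length →
    R (Q ++ Q') = R Q
  tr_app : ∀ (S S' : List α) (l : ℕ), FW wl n S (p + q + N) l → l + e ≤ S.length →
    tr (S ++ S') = tr S
  exact : ∀ (P Q : List α) (b : ℕ) (x r : V), p ≤ P.length → P.length ≤ p + N →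
    (∀ k, q ≤ k → k < q + N → ¬ wl (Q.drop k)) → FW wl n Q (q + N) b → b + e ≤ Q.length →
    L P = some x → R Q = some r → tr (P ++ Q) x = r

namespace WS

variable {α : Type u} {V : Type v} (W : WS α V)

/-- step of the chain -/
def Step (S : List α) (l : ℕ) : Prop := FW W.wl W.n S (W.p + W.q + W.N) l

/-- right-legal start: clear window, first wall `b` visible with margin, label `r` -/
def RL (Q : List α) (b : ℕ) (r : V) : Prop :=
  (∀ k, W.q ≤ k → k < W.q + W.N → ¬ W.wl (Q.drop k)) ∧ FW W.wl W.n Q (W.q + W.N) b ∧
    b + W.e ≤ Q.length ∧ W.R Q = some r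

theorem RL.unique {Q : List α} {b b' : ℕ} {r r' : V} (h : W.RL Q b r) (h' : W.RL Q b' r') :
    b = b' ∧ r = r' := by
  refine ⟨h.2.1.unique h'.2.1, ?_⟩
  have := h.2.2.2.symm.trans h'.2.2.2
  exact Option.some.inj this

theorem RL.append {Q : List α} {b : ℕ} {r : V} (h : W.RL Q b r) (Q' : List α) :
    W.RL (Q ++ Q') b r := by
  obtain ⟨h1, h2, h3, h4⟩ := h
  have hne := W.n_le
  refine ⟨?_, h2.append W.wl_stable Q', by rw [List.length_append]; omega, ?_⟩
  · intro k hk hlt hw
    have hb := h2.1
    rw [drop_append_le (by omega)] at hw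
    exact h1 k hk hlt ((W.wl_stable _ _ (by rw [List.length_drop]; omega)).1 hw)
  · rw [W.R_app Q Q' b h2 h3, h4]

/-- the thread which has value `x` at the wall at the head of `S` ends legally at the end -/
inductive Ends : List α → V → Prop
  | last (P : List α) (x : V) : W.p ≤ P.length → P.length ≤ W.p + W.N → W.L P = some x →
      Ends P x
  | step (S : List α) (x : V) (l : ℕ) : W.Step S l → l + W.e ≤ S.length →
      Ends (S.drop l) (W.tr S x) → Ends S x

theorem Ends.le {S : List α} {x : V} (h : W.Ends S x) : W.p ≤ S.length := by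
  induction h with
  | last P x h1 _ _ => exact h1
  | step S x l _ h2 _ ih => rw [List.length_drop] at ih; omega

/-- closed words -/
def Kinf (w : List α) : Prop := ∃ b r, W.RL w b r ∧ W.Ends (w.drop b) r

/-- a legal cut of the thread in the unit at the head of `S` -/
def Cut (S : List α) (x : V) (P Q : List α) : Prop :=
  S = P ++ Q ∧ W.p ≤ P.length ∧ P.length ≤ W.p + W.N ∧ W.L P = some x ∧ ∃ b r, W.RL Q b r

theorem Cut.step {S : List α} {x : V} {P Q : List α} (h : W.Cut S x P Q) {b : ℕ} {r : V}
    (hr : W.RL Q b r) : W.Step S (P.length + b) ∧ W.tr S x = r ∧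
      P.length + b + W.e ≤ S.length ∧ S.drop (P.length + b) = Q.drop b := by
  obtain ⟨rfl, h1, h2, h3, -⟩ := h
  refine ⟨FW.junction h1 h2 hr.1 hr.2.1, W.exact P Q b x r h1 h2 hr.1 hr.2.1 hr.2.2.1 h3 hr.2.2.2,
    ?_, ?_⟩
  · have := hr.2.2.1
    rw [List.length_append]; omega
  · rw [List.drop_append, List.drop_eq_nil_of_le (by omega), List.nil_append]
    congr 1; omega

theorem Ends.append {S : List α} {x : V} (h : W.Ends S x) {w : List α} (hw : W.Kinf w) :
    W.Ends (S ++ w) x := by
  induction h with
  | last P x h1 h2 h3 =>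
    obtain ⟨b, r, hr, he⟩ := hw
    have hc : W.Cut (P ++ w) x P w := ⟨rfl, h1, h2, h3, b, r, hr⟩
    obtain ⟨a1, a2, a3, a4⟩ := hc.step W hr
    refine Ends.step _ _ _ a1 a3 ?_
    rw [a2, a4]; exact he
  | step S x l h1 h2 _ ih =>
    have hl : l ≤ S.length := by omega
    refine Ends.step _ _ l (FW.append W.wl_stable w h1) (by rw [List.length_append]; omega) ?_
    rw [drop_append_le hl, W.tr_app S w l h1 h2]
    exact ih

/-- **soundness**: closed words form a semigroup -/
theorem Kinf.mul {w w' : List α} (h : W.Kinf w) (h' : W.Kinf w') : W.Kinf (w ++ w') := by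
  obtain ⟨b, r, hr, he⟩ := h
  refine ⟨b, r, hr.append W w', ?_⟩
  have := hr.2.2.1
  rw [drop_append_le (by omega)]
  exact he.append W h'

theorem Kinf.ne_nil {w : List α} (h : W.Kinf w) : w ≠ [] := by
  rintro rfl
  obtain ⟨b, r, _, he⟩ := h
  have h1 := he.le W
  have h2 := W.p_pos
  rw [List.drop_nil, List.length_nil] at h1
  omega

/-- uncut version of `Ends`: no unit on the way has a legal cut of the thread -/
inductive UEnds : List α → V → Prop
  | last (P : List α) (x : V) : W.p ≤ P.length → P.length ≤ W.p + W.N → W.L P = some x →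
      UEnds P x
  | step (S : List α) (x : V) (l : ℕ) : W.Step S l → l + W.e ≤ S.length →
      (∀ P Q, ¬ W.Cut S x P Q) → UEnds (S.drop l) (W.tr S x) → UEnds S x

theorem UEnds.ends {S : List α} {x : V} (h : W.UEnds S x) : W.Ends S x := by
  induction h with
  | last P x h1 h2 h3 => exact .last P x h1 h2 h3
  | step S x l h1 h2 _ _ ih => exact .step S x l h1 h2 ih

/-- uncut closed words -/
def UK (w : List α) : Prop := ∃ b r, W.RL w b r ∧ W.UEnds (w.drop b) r

theorem UK.kinf {w : List α} (h : W.UK w) : W.Kinf w := by
  obtain ⟨b, r, hr, he⟩ := h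
  exact ⟨b, r, hr, he.ends W⟩

/-- a legal right start stays legal in a prefix which contains the unit end with margin -/
theorem RL.of_append {Q Q' : List α} {b : ℕ} {r : V} (h : W.RL (Q ++ Q') b r)
    (hb : b + W.e ≤ Q.length) : W.RL Q b r := by
  obtain ⟨h1, h2, h3, h4⟩ := h
  have hne := W.n_le
  have h2' := FW.of_append W.wl_stable h2 (by omega)
  refine ⟨?_, h2', hb, ?_⟩
  · intro k hk hlt hw
    have hb := h2.1
    apply h1 k hk hlt
    rw [drop_append_le (by omega)]
    exact (W.wl_stable _ _ (by rw [List.length_drop]; omega)).2 hw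
  · rw [← W.R_app Q Q' b h2' hb, h4]

/-- the thread at `S` either runs uncut to the end, or `S = P ++ Q` where the thread runs (uncut)
to the end of `P` and `Q` is closed -/
theorem Ends.split {S : List α} {x : V} (h : W.Ends S x) :
    W.UEnds S x ∨ ∃ P Q, S = P ++ Q ∧ W.UEnds P x ∧ W.Kinf Q := by
  induction h with
  | last P x h1 h2 h3 => exact Or.inl (.last P x h1 h2 h3)
  | step S x l h1 h2 h3 ih =>
    by_cases hc : ∃ P Q, W.Cut S x P Q
    · obtain ⟨P, Q, hPQ⟩ := hc
      obtain ⟨hS, a1, a2, a3, b, r, hr⟩ := id hPQ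
      obtain ⟨c1, c2, c3, c4⟩ := hPQ.step W hr
      have hl : l = P.length + b := FW.unique h1 c1
      right
      refine ⟨P, Q, hS, .last P x a1 a2 a3, b, r, hr, ?_⟩
      rw [hl, c2, c4] at h3
      exact h3
    · push Not at hc
      rcases ih with ih | ⟨P, Q, hS, hP, hQ⟩
      · exact Or.inl (.step S x l h1 h2 hc ih)
      · right
        have hl : l ≤ S.length := by omega
        have hSe : S = (S.take l ++ P) ++ Q := by
          rw [List.append_assoc, ← hS, List.take_append_drop]
        have hPl := (hP.ends W).le W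
        have hpe := W.e_le
        have hlen : l + W.e ≤ (S.take l ++ P).length := by
          rw [List.length_append, List.length_take, min_eq_left hl]; omega
        have hst : W.Step (S.take l ++ P) l := by
          have h1' := h1
          unfold Step at h1' ⊢
          rw [hSe] at h1'
          exact FW.of_append W.wl_stable h1' (by have := W.n_le; omega)
        have htr : W.tr (S.take l ++ P) = W.tr S := by
          conv_rhs => rw [hSe]
          exact (W.tr_app _ _ l hst hlen).symm
        have hdr : (S.take l ++ P).drop l = P := by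
          rw [List.drop_append, List.drop_eq_nil_of_le (by rw [List.length_take]; omega),
            List.nil_append, List.length_take, min_eq_left hl, Nat.sub_self, List.drop_zero]
        refine ⟨S.take l ++ P, Q, hSe, ?_, hQ⟩
        refine .step _ x l hst hlen ?_ ?_
        · rintro P1 Q1 ⟨e1, e2, e3, e4, b, r, hr⟩
          refine hc P1 (Q1 ++ Q) ⟨?_, e2, e3, e4, b, r, hr.append W Q⟩
          rw [hSe, e1, List.append_assoc]
        · rw [hdr, htr]; exact hP

theorem Kinf.split {w : List α} (h : W.Kinf w) :
    W.UK w ∨ ∃ w1 w2, w = w1 ++ w2 ∧ W.UK w1 ∧ W.Kinf w2 := by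
  obtain ⟨b, r, hr, he⟩ := h
  rcases he.split W with hu | ⟨P, Q, hS, hP, hQ⟩
  · exact Or.inl ⟨b, r, hr, hu⟩
  · right
    have hb : b ≤ w.length := by have := hr.2.2.1; omega
    have hPl := (hP.ends W).le W
    have hpe := W.e_le
    have hwe : w = (w.take b ++ P) ++ Q := by
      rw [List.append_assoc, ← hS, List.take_append_drop]
    have hlen : b + W.e ≤ (w.take b ++ P).length := by
      rw [List.length_append, List.length_take, min_eq_left hb]; omega
    have hdr : (w.take b ++ P).drop b = P := by
      rw [List.drop_append, List.drop_eq_nil_of_le (by rw [List.length_take]; omega),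
        List.nil_append, List.length_take, min_eq_left hb, Nat.sub_self, List.drop_zero]
    refine ⟨w.take b ++ P, Q, hwe, ⟨b, r, ?_, ?_⟩, hQ⟩
    · rw [hwe] at hr
      exact hr.of_append W hlen
    · rw [hdr]; exact hP

/-- **factorization**: closed words are exactly the nonempty products of uncut closed words -/
theorem Kinf.factor (w : List α) (h : W.Kinf w) :
    ∃ ws : List (List α), ws ≠ [] ∧ w = ws.flatten ∧ ∀ u ∈ ws, W.UK u := by
  induction hn : w.length using Nat.strong_induction_on generalizing w with
  | _ m ih =>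
    rcases h.split W with hu | ⟨w1, w2, hw, h1, h2⟩
    · exact ⟨[w], by simp, by simp, by simpa using hu⟩
    · have hne := (h1.kinf W).ne_nil W
      have hlt : w2.length < m := by
        rw [← hn, hw, List.length_append]
        have : 0 < w1.length := List.length_pos_iff.2 hne
        omega
      obtain ⟨ws, a1, a2, a3⟩ := ih _ hlt w2 h2 rfl
      refine ⟨w1 :: ws, by simp, by simp [hw, a2], ?_⟩
      intro u hu
      rcases List.mem_cons.1 hu with rfl | hu
      · exact h1
      · exact a3 u hu

theorem Kinf.of_factor (ws : List (List α)) (hne : ws ≠ []) (h : ∀ u ∈ ws, W.Kinf u) :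
    W.Kinf ws.flatten := by
  induction ws with
  | nil => exact absurd rfl hne
  | cons u ws ih =>
    by_cases hws : ws = []
    · subst hws; simpa using h u (by simp)
    · rw [List.flatten_cons]
      exact (h u (by simp)).mul W (ih hws (fun x hx => h x (by simp [hx])))

/-- the star of every language between `UK` and `Kinf` -/
theorem kstar_eq (K : Language α) (h1 : ∀ w, W.UK w → w ∈ K) (h2 : ∀ w ∈ K, W.Kinf w)
    (w : List α) : w ∈ KStar.kstar K ↔ (w = [] ∨ W.Kinf w) := by
  rw [Language.mem_kstar]
  constructor
  · rintro ⟨ws, rfl, hws⟩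
    by_cases hne : ws = []
    · left; simp [hne]
    · right; exact Kinf.of_factor W ws hne (fun u hu => h2 u (hws u hu))
  · rintro (rfl | hw)
    · exact ⟨[], rfl, by simp⟩
    · obtain ⟨ws, _, a2, a3⟩ := hw.factor W
      exact ⟨ws, a2, fun u hu => h1 u (a3 u hu)⟩

end WS

end Crest.Agent.R320.Unit_63
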