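import Crest.Agent.R320.Main_621
import Crest.Agent.R320.LetMap_922

/-!
# Row 320: universe reduction at the very top (helper181)

`row0` : it is enough to prove `Main_621.Data` in universe `0`.
-/

set_option autoImplicit false

namespace Crest.Agent.R320.Univ_181

open Crest.RegLang Crest.Agent.R320.Main_621

universe u

/-- **The row from the data in universe `0`.** -/
theorem row0
    (hD : ∀ (α : Type) [Finite α] (S : Type) [Monoid S] [Finite S] (f : α → S),
      Data (fun w : List α => (w.map f).prod))
    (α : Type u) [Finite α] (L : Language α) (hL : L.IsRegular) :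
    ∃ e : GRegExp α, e.height ≤ 3 ∧ e.lang = L :=
  Crest.Agent.R320.LetMap_922.of_fin_result
    (fun n L hL => row (fun S _ _ f => hD (Fin n) S f) L hL) α L hL

end Crest.Agent.R320.Univ_181
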