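import Crest.Agent.R320.Fin_963
import Crest.Agent.R320.Grid_219

/-!
# Row 320 (helper963): the view of 219's grid gadget is finite-state
-/

set_option autoImplicit false

namespace Crest.Agent.R320.ViewLoc_963

open Crest.Agent.R320.Grid219

theorem div_iff {g c x x' : ℕ} (hg : 0 < g) (h : x ≡ x' [MOD g]) :
    (x / g = (x + c) / g ↔ x' / g = (x' + c) / g) := by
  have key : ∀ y : ℕ, (y / g = (y + c) / g ↔ (y % g + c) / g = 0) := by
    intro y
    have h1 : (y + c) / g = (y % g + c) / g + y / g := by
      conv_lhs => rw [← Nat.mod_add_div y g]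
      rw [show y % g + g * (y / g) + c = (y % g + c) + g * (y / g) by ring]
      exact Nat.add_mul_div_left _ _ hg
    rw [h1]
    omega
  rw [key, key]
  have : x % g = x' % g := h
  rw [this]

variable {α S : Type} [Monoid S]

theorem pos_eq (P : Par) (i q j : ℕ) (h : P.Am j - P.A i ≤ q) :
    q - P.gaR i q j = (P.Am j - P.A i) + (q - (P.Am j - P.A i)) % P.G j := by
  unfold Par.gaR
  have := Nat.div_add_mod (q - (P.Am j - P.A i)) (P.G j)
  omega

theorem view_loc (f : α → S) (P : Par) (q q' : List α) (h1 : P.A P.m ≤ q.length)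
    (h2 : P.A P.m ≤ q'.length) (h3 : q.take (P.A P.m) = q'.take (P.A P.m))
    (h4 : ((q.drop (P.A P.m)).map f).prod = ((q'.drop (P.A P.m)).map f).prod)
    (h5 : q.length ≡ q'.length [MOD P.G P.m]) (i : ℕ) (hi : i < P.m) :
    view (fun w : List α => (w.map f).prod) P q i =
      view (fun w : List α => (w.map f).prod) P q' i := by
  classical
  have hAm : ∀ j, j ≤ P.m → P.Am j ≤ P.A P.m := by
    intro j hj
    have := P.Am_mono hj
    unfold Par.A; omega
  have hAj : ∀ j, j ≤ P.m → P.Am j + P.G j ≤ P.A P.m := by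
    intro j hj
    have h6 := P.Am_mono hj
    have h7 : P.G j ≤ P.G P.m := Nat.le_of_dvd (P.hG _) (P.G_dvd hj)
    unfold Par.A; omega
  have hG : ∀ j, j ≤ P.m → q.length ≡ q'.length [MOD P.G j] := fun j hj =>
    h5.of_dvd (P.G_dvd hj)
  have hsub : ∀ j, j ≤ P.m → q.length - (P.Am j - P.A i) ≡ q'.length - (P.Am j - P.A i)
      [MOD P.G j] := by
    intro j hj
    have h6 := hAm j hj
    have h7 : (q.length - (P.Am j - P.A i)) + (P.Am j - P.A i) ≡
        (q'.length - (P.Am j - P.A i)) + (P.Am j - P.A i) [MOD P.G j] := by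
      rw [Nat.sub_add_cancel (by omega), Nat.sub_add_cancel (by omega)]
      exact hG j hj
    exact Nat.ModEq.add_right_cancel' _ h7
  have hCl : ∀ j, j ≤ P.m → (P.Cl i q.length j ↔ P.Cl i q'.length j) := fun j hj =>
    div_iff (P.hG j) (hsub j hj)
  have hpos : ∀ j, j ≤ P.m → q.length - P.gaR i q.length j =
      q'.length - P.gaR i q'.length j := by
    intro j hj
    have h6 := hAm j hj
    rw [pos_eq P i _ j (by omega), pos_eq P i _ j (by omega)]
    congr 1
    exact hsub j hj
  have hposle : ∀ j, j ≤ P.m → q.length - P.gaR i q.length j ≤ P.A P.m := by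
    intro j hj
    have h6 := hAm j hj
    have h8 := hAj j hj
    rw [pos_eq P i _ j (by omega)]
    have h7 := Nat.mod_lt (q.length - (P.Am j - P.A i)) (P.hG j)
    omega
  have hcond : (P.G i ∣ q.length ∧ ∀ j, i < j → j ≤ P.m → P.Cl i q.length j) ↔
      (P.G i ∣ q'.length ∧ ∀ j, i < j → j ≤ P.m → P.Cl i q'.length j) := by
    have a1 : P.G i ∣ q.length ↔ P.G i ∣ q'.length := (hG i hi.le).dvd_iff dvd_rfl
    rw [a1]
    exact and_congr_right fun _ => forall_congr' fun j => imp_congr_right fun _ =>
      ⟨fun h hj => (hCl j hj).1 (h hj), fun h hj => (hCl j hj).2 (h hj)⟩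
  unfold view
  by_cases hc : (P.G i ∣ q.length ∧ ∀ j, i < j → j ≤ P.m → P.Cl i q.length j)
  · rw [if_pos hc, if_pos (hcond.1 hc)]
    refine congrArg some (Prod.ext ?_ ?_)
    · refine List.map_congr_left fun j hj => ?_
      obtain ⟨a1, a2⟩ := mem_drop_range hj
      show (((q.take (q.length - P.gaR i q.length (j + 1))).drop
        (q.length - P.gaR i q.length j)).map f).prod =
        (((q'.take (q'.length - P.gaR i q'.length (j + 1))).drop
        (q'.length - P.gaR i q'.length j)).map f).prod
      rw [← hpos j (by omega), ← hpos (j + 1) (by omega),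
        Fin_963.dep_take h3 (hposle (j + 1) (by omega))]
    · show ((q.drop (q.length - P.gaR i q.length P.m)).map f).prod =
        ((q'.drop (q'.length - P.gaR i q'.length P.m)).map f).prod
      rw [← hpos P.m le_rfl]
      exact Fin_963.dep_drop h3 (hposle P.m le_rfl) f h4
  · rw [if_neg hc, if_neg (fun h => hc (hcond.2 h))]

end Crest.Agent.R320.ViewLoc_963
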