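import Crest.Agent.R320.FewVal_228
import Crest.Agent.R320.Hk2_851

/-! # Row 320: language side of the assembly, left-looking walls (helper497) -/

set_option autoImplicit false

namespace Crest.Agent.R320.WD_497

open Crest.RegLang Crest.Agent.R320.Hk_851

variable {α : Type}

/-- left-looking walls -/
structure WS (α : Type) where
  n : ℕ
  W : ℕ
  E : List α → Prop
  hn : 0 < n
  loc : ∀ P Q : List α, n ≤ Q.length → (E (P ++ Q) ↔ E Q)
  len : ∀ Q, E Q → n ≤ Q.length
  gap : ∀ (w : List α) (p p' : ℕ), p < p' → p' ≤ w.length → E (w.take p) → E (w.take p') →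
    p + W ≤ p'
  hE : HL 1 ({w | E w} : Language α)
  hV : ∀ (M : Type) [Monoid M] [Finite M] (g : α → M) (m : ℕ) (μ : M),
    HL 1 ({w | (∀ p, m ≤ p → p < w.length → ¬ E (w.take p)) ∧ (w.map g).prod = μ} : Language α)

variable (w0 : WS α)

def NoW (m : ℕ) (w : List α) : Prop := ∀ p, m ≤ p → p < w.length → ¬ w0.E (w.take p)

def F1 (m : ℕ) (q : List α) : Prop := m ≤ q.length ∧ w0.E q ∧ NoW w0 m q

def NX (q e : List α) : Prop :=
  e ≠ [] ∧ w0.E (q ++ e) ∧ ∀ p, 0 < p → p < e.length → ¬ w0.E (q ++ e.take p)

def F2 (m : ℕ) (z : List α) : Prop := ∃ q e, z = q ++ e ∧ F1 w0 m q ∧ NX w0 q e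

variable {w0}

theorem F1.unique {m : ℕ} {q q' x x' : List α} (h : F1 w0 m q) (h' : F1 w0 m q')
    (e : q ++ x = q' ++ x') : q = q' := by
  have key : ∀ {q q' x x' : List α}, F1 w0 m q → F1 w0 m q' → q ++ x = q' ++ x' →
      ¬ q.length < q'.length := by
    intro q q' x x' h h' e hl
    have h1 : q'.take q.length = q := by
      have := congrArg (List.take q.length) e
      rw [List.take_left, List.take_append_of_le_length (by omega)] at this
      exact this.symm
    exact h'.2.2 q.length h.1 hl (by rw [h1]; exact h.2.1)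
  have h1 : q.length = q'.length := by
    have := key h h' e
    have := key h' h e.symm
    omega
  exact (List.append_inj e h1).1

theorem NX.unique {q e e' x x' : List α} (h : NX w0 q e) (h' : NX w0 q e')
    (he : e ++ x = e' ++ x') : e = e' := by
  have key : ∀ {e e' x x' : List α}, NX w0 q e → NX w0 q e' → e ++ x = e' ++ x' →
      ¬ e.length < e'.length := by
    intro e e' x x' h h' he hl
    have h1 : e'.take e.length = e := by
      have := congrArg (List.take e.length) he
      rw [List.take_left, List.take_append_of_le_length (by omega)] at this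
      exact this.symm
    exact h'.2.2 e.length (List.length_pos_iff.2 h.1) hl (by rw [h1]; exact h.2.1)
  have h1 : e.length = e'.length := by
    have := key h h' he
    have := key h' h he.symm
    omega
  exact (List.append_inj he h1).1

theorem F2.unique {m : ℕ} {z z' x x' : List α} (h : F2 w0 m z) (h' : F2 w0 m z')
    (e : z ++ x = z' ++ x') : z = z' := by
  obtain ⟨q, a, rfl, h1, h2⟩ := h
  obtain ⟨q', a', rfl, h1', h2'⟩ := h'
  rw [List.append_assoc, List.append_assoc] at e
  have := h1.unique h1' e
  subst this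
  have e2 := List.append_cancel_left e
  rw [h2.unique h2' e2]

theorem F2.decomp {m : ℕ} {q e : List α} (h : F2 w0 m (q ++ e)) (hq : F1 w0 m q) :
    NX w0 q e := by
  obtain ⟨q', a', e', h1', h2'⟩ := h
  have := hq.unique h1' e'
  subst this
  rw [List.append_cancel_left e']
  exact h2'

/-! ### heights -/

section H

variable [Finite α]

theorem HL_len (k m : ℕ) : HL k ({w | m ≤ w.length} : Language α) := HL.length_ge m

theorem HL_ne (k : ℕ) : HL k ({w | w ≠ []} : Language α) :=
  (HL.one (α := α) (k := k)).compl.congr fun w => Iff.rfl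

theorem HL_take (k A : ℕ) (κ : List α) : HL k ({w | w.take A = κ} : Language α) := by
  by_cases hκ : κ.length < A
  · refine (HL.word κ).congr fun w => ?_
    constructor
    · intro h
      have h1 : w.take A = κ := h
      have h2 : w.length ≤ A := by
        by_contra hc
        have := congrArg List.length h1
        rw [List.length_take] at this
        omega
      rw [List.take_of_length_le h2] at h1
      exact h1
    · intro h
      have h1 : w = κ := h
      show w.take A = κ
      rw [h1, List.take_of_length_le (by omega)]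
  · by_cases hκ2 : κ.length = A
    · refine ((HL.word κ).mul (HL.top (α := α))).congr fun w => ?_
      constructor
      · intro h
        have h1 : w.take A = κ := h
        refine Language.mem_mul.2 ⟨κ, rfl, w.drop A, trivial, ?_⟩
        rw [← h1, List.take_append_drop]
      · intro h
        obtain ⟨a, ha, b, -, rfl⟩ := Language.mem_mul.1 h
        have ha' : a = κ := ha
        show (a ++ b).take A = κ
        rw [ha', ← hκ2, List.take_left]
    · refine HL.bot.congr fun w => ?_
      constructor
      · intro h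
        have h1 : w.take A = κ := h
        have := congrArg List.length h1
        rw [List.length_take] at this
        omega
      · intro h; exact h.elim

theorem HL_cat {k : ℕ} {L M : Language α} (hL : HL k L) (hM : HL k M) :
    HL k ({w | ∃ a b, w = a ++ b ∧ a ∈ L ∧ b ∈ M} : Language α) :=
  (hL.mul hM).congr fun w => by
    constructor
    · rintro ⟨a, b, rfl, ha, hb⟩; exact Language.mem_mul.2 ⟨a, ha, b, hb, rfl⟩
    · intro h
      obtain ⟨a, ha, b, hb, rfl⟩ := Language.mem_mul.1 h
      exact ⟨a, b, rfl, ha, hb⟩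

/-- words of a fixed length satisfying anything, followed by anything -/
theorem HL_pre (k A : ℕ) (p : List α → Prop) : HL k ({w | p (w.take A)} : Language α) := by
  have hfin : Finite {x : List α // x.length ≤ A} := (List.finite_length_le α A).to_subtype
  refine (HL.iUnion (k := k) fun x : {x : {x : List α // x.length ≤ A} // p x.1} =>
    HL_take k A x.1.1).congr fun w => ?_
  constructor
  · intro h
    exact ⟨⟨⟨w.take A, by rw [List.length_take]; omega⟩, h⟩, rfl⟩
  · rintro ⟨x, hx⟩
    have hx' : w.take A = x.1.1 := hx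
    show p (w.take A)
    rw [hx']; exact x.2

theorem HL_NoW (w0 : WS α) (m : ℕ) : HL 1 ({w | NoW w0 m w} : Language α) := by
  have h := w0.hV Unit (fun _ => ()) m ()
  exact h.congr fun w => ⟨fun h => ⟨h, rfl⟩, fun h => h.1⟩

theorem HL_F1 (w0 : WS α) (m : ℕ) : HL 1 ({w | F1 w0 m w} : Language α) :=
  ((HL_len 1 m).setOf_and (w0.hE.setOf_and (HL_NoW w0 m)))

/-- values on first-wall words -/
theorem HL_F1v (w0 : WS α) (m : ℕ) (M : Type) [Monoid M] [Finite M] (g : α → M) (μ : M) :
    HL 1 ({w | F1 w0 m w ∧ (w.map g).prod = μ} : Language α) := by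
  refine ((HL_F1 w0 m).setOf_and (w0.hV M g m μ)).congr fun w => ?_
  constructor
  · rintro ⟨h1, h2⟩; exact ⟨h1, h1.2.2, h2⟩
  · rintro ⟨h1, -, h2⟩; exact ⟨h1, h2⟩

/-- predicates which depend on a prefix, the length mod `P` and the product -/
theorem HL_F1D (w0 : WS α) (m A Pm : ℕ) (hP : 0 < Pm) {S : Type} [Monoid S] [Finite S]
    (f : α → S) (D : List α → Prop)
    (hD : ∀ q q' : List α, m ≤ q.length → m ≤ q'.length → q.take A = q'.take A →
      q.length % Pm = q'.length % Pm → (q.map f).prod = (q'.map f).prod → D q → D q') :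
    HL 1 ({w | F1 w0 m w ∧ D w} : Language α) := by
  have hfin : Finite {x : List α // x.length ≤ A} := (List.finite_length_le α A).to_subtype
  haveI : NeZero Pm := ⟨by omega⟩
  let M := S × Multiplicative (ZMod Pm)
  let g : α → M := fun a => (f a, Multiplicative.ofAdd 1)
  have hg : ∀ w : List α, (w.map g).prod = ((w.map f).prod, Multiplicative.ofAdd (w.length : ZMod Pm)) := by
    intro w
    induction w with
    | nil => simp; rfl
    | cons a w ih =>
      rw [List.map_cons, List.prod_cons, ih]
      refine Prod.ext ?_ ?_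
      · show f a * (w.map f).prod = ((a :: w).map f).prod
        rw [List.map_cons, List.prod_cons]
      · show Multiplicative.ofAdd (1 : ZMod Pm) * Multiplicative.ofAdd (w.length : ZMod Pm) =
          Multiplicative.ofAdd (((a :: w).length : ℕ) : ZMod Pm)
        rw [List.length_cons, Nat.cast_succ, add_comm, ← ofAdd_add]
  let I := {x : {x : List α // x.length ≤ A} × M //
    ∃ q, F1 w0 m q ∧ D q ∧ q.take A = x.1.1 ∧ (q.map g).prod = x.2}
  refine (HL.iUnion (k := 1) fun x : I =>
    (HL_take 1 A x.1.1.1).setOf_and (HL_F1v w0 m M g x.1.2)).congr fun w => ?_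
  constructor
  · rintro ⟨h1, h2⟩
    exact ⟨⟨(⟨w.take A, by rw [List.length_take]; omega⟩, (w.map g).prod), w, h1, h2, rfl, rfl⟩,
      rfl, h1, rfl⟩
  · rintro ⟨⟨x, q, h1, h2, h3, h4⟩, h5, h6, h7⟩
    refine ⟨h6, ?_⟩
    have h5' : w.take A = x.1.1 := h5
    have h7' : (w.map g).prod = x.2 := h7
    have h8 : (q.map g).prod = (w.map g).prod := by rw [h4, h7']
    rw [hg, hg, Prod.mk.injEq] at h8
    have h9 : (q.length : ZMod Pm) = (w.length : ZMod Pm) := h8.2
    exact hD q w h1.1 h6.1 (by rw [h3, h5']) ((ZMod.natCast_eq_natCast_iff' _ _ _).1 h9) h8.1 h2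

theorem HL_A2 (w0 : WS α) (m : ℕ) :
    HL 1 ({z | ∃ q e, z = q ++ e ∧ F1 w0 m q ∧ e ≠ [] ∧ w0.E z} : Language α) := by
  refine ((HL_cat (HL_F1 w0 m) (HL_ne 1)).setOf_and w0.hE).congr fun w => ?_
  constructor
  · rintro ⟨q, e, h1, h2, h3, h4⟩; exact ⟨⟨q, e, h1, h2, h3⟩, h4⟩
  · rintro ⟨⟨q, e, h1, h2, h3⟩, h4⟩; exact ⟨q, e, h1, h2, h3, h4⟩

theorem HL_F2 (w0 : WS α) (m : ℕ) : HL 1 ({z | F2 w0 m z} : Language α) := by
  have h1 := HL_A2 w0 m
  have h2 := HL_cat h1 (HL_ne (α := α) 1)
  refine (h1.setOf_and h2.setOf_not).congr fun z => ?_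
  constructor
  · rintro ⟨q, e, rfl, hq, he⟩
    refine ⟨⟨q, e, rfl, hq, he.1, he.2.1⟩, ?_⟩
    rintro ⟨a, b, hab, ⟨q', e', ha, hq', he', hE⟩, hb⟩
    subst ha
    rw [List.append_assoc] at hab
    have := hq.unique hq' hab
    subst this
    have h3 := List.append_cancel_left hab
    refine he.2.2 e'.length (List.length_pos_iff.2 he') ?_ ?_
    · rw [h3, List.length_append]
      have : 0 < b.length := List.length_pos_iff.2 hb
      omega
    · rw [h3, List.take_left]; exact hE
  · rintro ⟨⟨q, e, rfl, hq, he, hE⟩, hn⟩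
    refine ⟨q, e, rfl, hq, he, hE, ?_⟩
    intro p hp hpe hEp
    refine hn ⟨q ++ e.take p, e.drop p, by rw [List.append_assoc, List.take_append_drop],
      ⟨q, e.take p, rfl, hq, ?_, hEp⟩, ?_⟩
    · intro h
      have := congrArg List.length h
      rw [List.length_take, List.length_nil] at this
      omega
    · intro h
      have := congrArg List.length h
      rw [List.length_drop, List.length_nil] at this
      omega

/-- zone words with a condition on the first part and the value of the second -/
theorem HL_F2v (w0 : WS α) (m : ℕ) {S : Type} [Monoid S] [Finite S] (f : α → S)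
    (D : List α → Prop) (hD : HL 1 ({w | F1 w0 m w ∧ D w} : Language α)) (s : S) :
    HL 1 ({z | ∃ q e, z = q ++ e ∧ F1 w0 m q ∧ NX w0 q e ∧ D q ∧ (e.map f).prod = s} : Language α) := by
  have h1 := HL_cat hD (w0.hV S f 0 s)
  refine (h1.setOf_and (HL_F2 w0 m)).congr fun z => ?_
  constructor
  · rintro ⟨q, e, rfl, hq, he, hd, hs⟩
    refine ⟨⟨q, e, rfl, ⟨hq, hd⟩, ?_, hs⟩, q, e, rfl, hq, he⟩
    intro p _ hp hE
    have hl := w0.len _ hE
    rcases Nat.eq_zero_or_pos p with h0 | h0
    · subst h0
      have h1 := w0.hn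
      simp at hl
      omega
    · exact he.2.2 p h0 hp ((w0.loc q (e.take p) hl).2 hE)
  · rintro ⟨⟨q, e, rfl, ⟨hq, hd⟩, -, hs⟩, hf⟩
    exact ⟨q, e, rfl, hq, hf.decomp hq, hd, hs⟩

end H

end Crest.Agent.R320.WD_497
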