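import Crest.Agent.R320.WD1_497
import Crest.Agent.R320.Main_621
import Crest.Agent.R320.ExactR_237

/-! # Row 320: assembly of the data of `Main_621` from a U-gadget and the exact gadget (helper497) -/

set_option autoImplicit false

namespace Crest.Agent.R320.WD_497

open Crest.RegLang Crest.Agent.R320.Hk_851 Crest.Agent.R320.Star_621 Crest.Agent.R320.Two_621

variable {α : Type}

theorem take_app (P q : List α) (p : ℕ) : (P ++ q).take (P.length + p) = P ++ q.take p := by
  rw [List.take_append]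
  congr 1
  · exact List.take_of_length_le (by omega)
  · congr 1; omega

theorem F1_app {w0 : WS α} {m k : ℕ} {P q : List α} (hk : P.length = k) (hkm : k + w0.n ≤ m) :
    F1 w0 m (P ++ q) ↔ F1 w0 (m - k) q := by
  constructor
  · rintro ⟨h1, h2, h3⟩
    rw [List.length_append] at h1
    refine ⟨by omega, (w0.loc P q (by omega)).1 h2, ?_⟩
    intro p hp hpq hE
    refine h3 (P.length + p) (by omega) (by rw [List.length_append]; omega) ?_
    rw [take_app]
    exact (w0.loc P _ (w0.len _ hE)).2 hE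
  · rintro ⟨h1, h2, h3⟩
    refine ⟨by rw [List.length_append]; omega, (w0.loc P q (by omega)).2 h2, ?_⟩
    intro p hp hpq hE
    rw [List.length_append] at hpq
    obtain ⟨p', rfl⟩ : ∃ p', p = P.length + p' := ⟨p - P.length, by omega⟩
    rw [take_app] at hE
    refine h3 p' (by omega) (by omega) ((w0.loc P _ ?_).1 hE)
    rw [List.length_take]; omega

theorem NX_app {w0 : WS α} {P q e : List α} (h : w0.n ≤ q.length) :
    NX w0 (P ++ q) e ↔ NX w0 q e := by
  unfold NX
  rw [List.append_assoc, w0.loc P (q ++ e) (by rw [List.length_append]; omega)]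
  constructor
  · rintro ⟨h1, h2, h3⟩
    refine ⟨h1, h2, fun p hp hpe hE => h3 p hp hpe ?_⟩
    rw [List.append_assoc]
    exact (w0.loc P _ (by rw [List.length_append]; omega)).2 hE
  · rintro ⟨h1, h2, h3⟩
    refine ⟨h1, h2, fun p hp hpe hE => h3 p hp hpe ?_⟩
    rw [List.append_assoc] at hE
    exact (w0.loc P _ (by rw [List.length_append]; omega)).1 hE

theorem F2_app {w0 : WS α} {m k : ℕ} {P Q : List α} (hk : P.length = k) (hkm : k + w0.n ≤ m) :
    F2 w0 m (P ++ Q) ↔ F2 w0 (m - k) Q := by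
  constructor
  · rintro ⟨q, e, he, h1, h2⟩
    have hq : P.length ≤ q.length := by have := h1.1; omega
    obtain ⟨q', rfl⟩ : ∃ q', q = P ++ q' := by
      refine ⟨q.drop P.length, ?_⟩
      have h3 : (P ++ Q).take P.length = (q ++ e).take P.length := by rw [he]
      rw [List.take_left, List.take_append_of_le_length hq] at h3
      conv_lhs => rw [← List.take_append_drop P.length q, ← h3]
    rw [List.append_assoc] at he
    have h4 := (F1_app hk hkm).1 h1
    exact ⟨q', e, List.append_cancel_left he, h4,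
      (NX_app (by have := h4.1; omega)).1 h2⟩
  · rintro ⟨q, e, rfl, h1, h2⟩
    exact ⟨P ++ q, e, by rw [List.append_assoc], (F1_app hk hkm).2 h1,
      (NX_app (by have := h1.1; omega)).2 h2⟩

/-- monoid of the inner scheme -/
abbrev MB (S : Type) := (Function.End (Option (Tok S)))ᵐᵒᵖ

/-- all the data -/
structure Par (α S : Type) [Monoid S] where
  w0 : WS α
  f : α → S
  p0 : ℕ
  zz : ℕ
  N1 : ℕ
  La : ℕ
  Pm : ℕ
  K : ℕ
  C0 : ℕ
  Bad : ℕ → Prop
  d : ℕ → ℕ
  lam : List α → Option (Tok S)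
  rho : List α → Option (Tok S)
  nu : List α → Tok S
  lamB : ℕ → List α → Option (Tok (MB S))
  rhoB : ℕ → List α → MB S → Option (Tok (MB S))
  nuB : List α → MB S → Tok (MB S)
  fB : α → MB S
  hPm : 0 < Pm
  d_pos : ∀ k < K, 1 ≤ d k
  d_le : ∀ k < K, d k ≤ p0
  d_gol : ∀ i j k l, i < K → j < K → k < K → l < K → i ≠ j → k ≠ l → (i, j) ≠ (k, l) →
    d i + d l + 4 * N1 < d k + d j ∨ d k + d j + 4 * N1 < d i + d l
  bad_per : ∀ T, Bad (T + Pm) ↔ Bad T
  count : ∀ T, La ≤ T → ∀ A : Finset (ℕ × ℕ),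
    (∀ x ∈ A, x.1 < K ∧ x.2 < K ∧ x.1 ≠ x.2 ∧ Bad (T + d x.2 - d x.1)) → A.card ≤ C0
  lam_len : ∀ p v, lam p = some v → p.length ≤ N1
  sound : ∀ p q v r, lam p = some v → rho q = some r → La ≤ q.length →
    r = act v ((p ++ q).map f).prod + nu (p ++ q)
  compl : ∀ u, La ≤ u.length → ¬ Bad u.length → ∀ v, ∃ p q, p ++ q = u ∧ lam p = some v ∧
    (rho q).isSome
  inv : ∀ q q' : List α, La ≤ q.length → La ≤ q'.length → q.take La = q'.take La →
    q.length % Pm = q'.length % Pm → (q.map f).prod = (q'.map f).prod →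
    rho q = rho q' ∧ nu q = nu q'
  hz : 3 * p0 + La + N1 + w0.n + 2 ≤ zz
  hW : 4 * (p0 + N1) + 10 ≤ w0.W
  fB_def : ∀ a, fB a = MulOpposite.op (fun o : Option (Tok S) => o.map (fun v => act v (f a)))
  soundB : ∀ k < K, ∀ (P Q : List α) (y : MB S) (v b : Tok (MB S)), P.length = d k →
    lamB k P = some v → rhoB k Q y = some b →
      b = act v (((P ++ Q).map fB).prod * y) + nuB (P ++ Q) y
  complB : ∀ (u : List α) (y : MB S) (v : Tok (MB S)), (∀ k < K, d k ≤ u.length) →
    ∃ I : Finset ℕ, 3 * C0 + 2 ≤ I.card ∧ ∀ k ∈ I, k < K ∧ lamB k (u.take (d k)) = some v ∧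
      (rhoB k (u.drop (d k)) y).isSome

namespace Par

variable {S : Type} [Monoid S] (D : Par α S)

def ph (w : List α) : S := (w.map D.f).prod

theorem ph_app (u v : List α) : D.ph (u ++ v) = D.ph u * D.ph v := by
  simp [ph]

def LA (v : Tok S) : Language α :=
  {P | D.p0 ≤ P.length ∧ D.lam (P.drop D.p0) = some (act v (D.ph (P.take D.p0)))}

def RA (b : Tok S) : Language α :=
  {Q | ∃ q e r, Q = q ++ e ∧ F1 D.w0 (D.zz - D.p0) q ∧ NoW D.w0 (D.zz - D.p0 - D.N1) q ∧
    NX D.w0 q e ∧ D.rho q = some r ∧ b = act r (D.ph e)}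

def Z : Language α := {z | F2 D.w0 D.zz z}

def BadAt (δ : ℕ) (q : List α) : Prop :=
  (∃ p, D.zz - δ - D.N1 ≤ p ∧ p < D.zz - δ + D.N1 ∧ p ≤ q.length ∧ D.w0.E (q.take p)) ∨
    D.Bad (q.length + δ - D.p0)

def Cand (δ : ℕ) (w : List α) : Prop :=
  ∃ q e, w = q ++ e ∧ F1 D.w0 (D.zz - δ) q ∧ D.BadAt δ q

def Zc : Language α := {z | F2 D.w0 D.zz z ∧ D.Cand 0 z}

open Classical in
noncomputable def hd (m : ℕ) (z : List α) : List α :=
  if h : ∃ q e, z = q ++ e ∧ F1 D.w0 m q then h.choose else []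

theorem hd_eq {m : ℕ} {q e : List α} (h : F1 D.w0 m q) : D.hd m (q ++ e) = q := by
  have hex : ∃ q' e', q ++ e = q' ++ e' ∧ F1 D.w0 m q' := ⟨q, e, rfl, h⟩
  unfold hd
  rw [dif_pos hex]
  obtain ⟨e', he, hF⟩ := hex.choose_spec
  exact (h.unique hF he).symm

noncomputable def dY (Y : List α) : Tok S :=
  act (D.nu (D.hd (D.zz - D.p0) Y)) (D.ph (Y.drop (D.hd (D.zz - D.p0) Y).length))

theorem dY_eq {q e : List α} (h : F1 D.w0 (D.zz - D.p0) q) :
    D.dY (q ++ e) = act (D.nu q) (D.ph e) := by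
  unfold dY
  rw [D.hd_eq h, List.drop_left]

noncomputable def dA (z : List α) : Tok S := D.dY (z.drop D.p0)

def CutY (v' : Tok S) (Y : List α) : Prop :=
  ∃ P Q τ, Y = P ++ Q ∧ D.lam P = some v' ∧ Q ∈ D.RA τ

open Classical in
noncomputable def beta (Y : List α) : MB S :=
  MulOpposite.op (fun o : Option (Tok S) => o.bind fun v' =>
    if D.CutY v' Y then none else some (act v' (D.ph Y) + D.dY Y))

def LB (v : Tok (MB S)) : Language α :=
  {P | ∃ k < D.K, P.length = D.d k ∧ D.lamB k P = some v}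

def RB (τ : Tok (MB S)) : Language α :=
  {Q | ∃ k < D.K, D.Cand (D.d k) Q ∧ (∀ k' < D.K, k' ≠ k → ¬ D.Cand (D.d k') Q) ∧
    F2 D.w0 (D.zz - D.d k) Q ∧
    D.rhoB k (Q.take (D.p0 - D.d k)) (D.beta (Q.drop (D.p0 - D.d k))) = some τ}

noncomputable def dB (z : List α) : Tok (MB S) := D.nuB (z.take D.p0) (D.beta (z.drop D.p0))

/-! ### scheme A -/

theorem soundA : Sound D.Z (aff D.ph D.dA) D.LA D.RA := by
  have hz := D.hz
  constructor
  · intro ω h
    have h1 : D.p0 ≤ ([] : List α).length := h.1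
    have h2 : ∀ k, k < D.K → False := by
      intro k hk
      have := D.d_pos k hk
      have := D.d_le k hk
      simp at h1
      omega
    -- K is positive by completeness of the exact gadget
    obtain ⟨I, hI, hI2⟩ := D.complB [] 1 0 (fun k hk => (h2 k hk).elim)
    have hne : I.Nonempty := by
      rw [← Finset.card_pos]; omega
    obtain ⟨k, hk⟩ := hne
    exact h2 k (hI2 k hk).1
  · intro ω τ P Q z x y hP hQ hz' heq
    obtain ⟨hPl, hlam⟩ := hP
    obtain ⟨q, e, r, rfl, hF, hN, hNX, hrho, rfl⟩ := hQ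
    have hPu : P.length ≤ D.p0 + D.N1 := by
      have := D.lam_len _ _ hlam
      rw [List.length_drop] at this
      omega
    have hq1 := hF.1
    have h1 : F1 D.w0 D.zz (P ++ q) := by
      rw [F1_app rfl (by omega)]
      exact ⟨by omega, hF.2.1, fun p hp hpq => hN p (by omega) hpq⟩
    have h2 : NX D.w0 (P ++ q) e := (NX_app (by omega)).2 hNX
    have h3 : F2 D.w0 D.zz (P ++ (q ++ e)) := ⟨P ++ q, e, by rw [List.append_assoc], h1, h2⟩
    have h4 : P ++ (q ++ e) = z := h3.unique hz' heq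
    refine ⟨h4, ?_⟩
    subst h4
    have hX : (P ++ (q ++ e)).take D.p0 = P.take D.p0 := List.take_append_of_le_length hPl
    have hdr : (P ++ (q ++ e)).drop D.p0 = (P.drop D.p0 ++ q) ++ e := by
      rw [List.drop_append_of_le_length hPl, List.append_assoc]
    have hU : F1 D.w0 (D.zz - D.p0) (P.drop D.p0 ++ q) := by
      have h5 : P ++ q = P.take D.p0 ++ (P.drop D.p0 ++ q) := by
        rw [← List.append_assoc, List.take_append_drop]
      rw [h5] at h1
      exact (F1_app (by rw [List.length_take]; omega) (by omega)).1 h1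
    have hs := D.sound _ _ _ _ hlam hrho (by omega)
    unfold aff dA
    rw [hdr, D.dY_eq hU, hs, act_add]
    congr 1
    rw [act_mul, act_mul]
    congr 1
    have h6 : P ++ (q ++ e) = P.take D.p0 ++ ((P.drop D.p0 ++ q) ++ e) := by
      rw [← List.append_assoc, ← List.append_assoc, ← List.append_assoc, List.take_append_drop]
    show D.ph (P.take D.p0) * (D.ph (P.drop D.p0 ++ q) * D.ph e) = D.ph (P ++ (q ++ e))
    conv_rhs => rw [h6, D.ph_app, D.ph_app (P.drop D.p0 ++ q) e]

theorem complA : ∀ z ∈ D.Z, z ∉ D.Zc → ∀ v, Cut D.LA D.RA v z := by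
  have hz := D.hz
  intro z hz1 hz2 v
  obtain ⟨q, e, rfl, hF, hNX⟩ := hz1
  have hnb : ¬ D.BadAt 0 q := fun h => hz2 ⟨⟨q, e, rfl, hF, hNX⟩, q, e, rfl, by simpa using hF, h⟩
  have hql := hF.1
  have hE : ∀ p, D.zz - D.N1 ≤ p → p < D.zz + D.N1 → p ≤ q.length → ¬ D.w0.E (q.take p) := by
    intro p h1 h2 h3 h4
    exact hnb (Or.inl ⟨p, by omega, by omega, h3, h4⟩)
  have hB : ¬ D.Bad (q.length - D.p0) := fun h => hnb (Or.inr (by simpa using h))
  have hq2 : D.zz + D.N1 ≤ q.length := by
    by_contra hc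
    refine hE q.length (by omega) (by omega) le_rfl ?_
    rw [List.take_length]; exact hF.2.1
  have hXl : (q.take D.p0).length = D.p0 := by rw [List.length_take]; omega
  have hUl : (q.drop D.p0).length = q.length - D.p0 := List.length_drop
  obtain ⟨p, q', hpq, hlam, hrho⟩ := D.compl (q.drop D.p0) (by omega) (by rw [hUl]; exact hB)
    (act v (D.ph (q.take D.p0)))
  obtain ⟨r, hr⟩ := Option.isSome_iff_exists.1 hrho
  have hpl := D.lam_len _ _ hlam
  have hlen : p.length + q'.length = q.length - D.p0 := by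
    rw [← hUl, ← hpq, List.length_append]
  have hqe : q = (q.take D.p0 ++ p) ++ q' := by
    rw [List.append_assoc, hpq, List.take_append_drop]
  have hPl : (q.take D.p0 ++ p).length = D.p0 + p.length := by
    rw [List.length_append, hXl]
  refine ⟨q.take D.p0 ++ p, q' ++ e, act r (D.ph e), ?_, ?_, ?_⟩
  · rw [← List.append_assoc, ← hqe]
  · refine ⟨by omega, ?_⟩
    have h1 : (q.take D.p0 ++ p).drop D.p0 = p := List.drop_left' hXl
    have h2 : (q.take D.p0 ++ p).take D.p0 = q.take D.p0 := by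
      rw [List.take_append_of_le_length (by omega), List.take_take, min_self]
    rw [h1, h2]; exact hlam
  · have hN : ∀ p', D.zz - D.N1 ≤ p.length + D.p0 + p' → p' < q'.length →
        ¬ D.w0.E (q'.take p') ∨ D.w0.n > p' := by
      intro p' h1 h2
      by_cases h3 : D.w0.n ≤ p'
      · left
        intro h4
        have h5 : D.w0.E (q.take ((q.take D.p0 ++ p).length + p')) := by
          have h6 := take_app (q.take D.p0 ++ p) q' p'
          rw [← hqe] at h6
          rw [h6]
          exact (D.w0.loc _ _ (D.w0.len _ h4)).2 h4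
        rw [hPl] at h5
        by_cases h7 : D.zz ≤ D.p0 + p.length + p'
        · exact hF.2.2 _ h7 (by omega) h5
        · exact hE _ (by omega) (by omega) (by omega) h5
      · right; omega
    refine ⟨q', e, r, rfl, ?_, ?_, ?_, hr, rfl⟩
    · refine ⟨by omega, ?_, ?_⟩
      · have h1 := hF.2.1
        rw [hqe] at h1
        exact (D.w0.loc _ _ (by omega)).1 h1
      · intro p' h1 h2 h3
        rcases hN p' (by omega) h2 with h4 | h4
        · exact h4 h3
        · omega
    · intro p' h1 h2 h3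
      rcases hN p' (by omega) h2 with h4 | h4
      · exact h4 h3
      · omega
    · rw [hqe] at hNX
      exact (NX_app (by omega)).1 hNX

end Par

end Crest.Agent.R320.WD_497
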