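import Crest.Agent.R320.WD2_497

/-! # Row 320: assembly, inner scheme (helper497) -/

set_option autoImplicit false

namespace Crest.Agent.R320.WD_497

open Crest.RegLang Crest.Agent.R320.Hk_851 Crest.Agent.R320.Star_621 Crest.Agent.R320.Two_621

variable {α : Type}

namespace Par

variable {S : Type} [Monoid S] (D : Par α S)

theorem prodB (X : List α) : (X.map D.fB).prod =
    MulOpposite.op (fun o : Option (Tok S) => o.map (fun v => act v (D.ph X))) := by
  induction X with
  | nil =>
    rw [List.map_nil, List.prod_nil]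
    apply MulOpposite.unop_injective
    funext o
    cases o with
    | none => rfl
    | some v =>
      show some v = some (act v (D.ph []))
      rw [show D.ph [] = 1 from rfl, act_one]
  | cons a X ih =>
    rw [List.map_cons, List.prod_cons, ih, D.fB_def]
    apply MulOpposite.unop_injective
    funext o
    cases o with
    | none => rfl
    | some v =>
      show some (act (act v (D.f a)) (D.ph X)) = some (act v (D.ph (a :: X)))
      rw [act_mul]
      congr 2

theorem cut_iff {z : List α} (hl : D.p0 ≤ z.length) (v : Tok S) :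
    Cut D.LA D.RA v z ↔ D.CutY (act v (D.ph (z.take D.p0))) (z.drop D.p0) := by
  constructor
  · rintro ⟨P, Q, τ, rfl, ⟨h1, h2⟩, h3⟩
    refine ⟨P.drop D.p0, Q, τ, List.drop_append_of_le_length h1, ?_, h3⟩
    rw [List.take_append_of_le_length h1]; exact h2
  · rintro ⟨P, Q, τ, h1, h2, h3⟩
    have hXl : (z.take D.p0).length = D.p0 := by rw [List.length_take]; omega
    refine ⟨z.take D.p0 ++ P, Q, τ, ?_, ⟨?_, ?_⟩, h3⟩
    · rw [List.append_assoc, ← h1, List.take_append_drop]
    · rw [List.length_append]; omega
    · rw [List.drop_left' hXl, List.take_left' hXl]; exact h2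

theorem stepA_eq {z : List α} (hl : D.p0 ≤ z.length) :
    stepA (aff D.ph D.dA) D.LA D.RA z =
      ((z.take D.p0).map D.fB).prod * D.beta (z.drop D.p0) := by
  classical
  rw [D.prodB]
  apply MulOpposite.unop_injective
  funext o
  cases o with
  | none => rfl
  | some v =>
    show (if Cut D.LA D.RA v z then none else some (aff D.ph D.dA z v)) =
      (if D.CutY (act v (D.ph (z.take D.p0))) (z.drop D.p0) then none else
        some (act (act v (D.ph (z.take D.p0))) (D.ph (z.drop D.p0)) + D.dY (z.drop D.p0)))
    by_cases h : Cut D.LA D.RA v z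
    · rw [if_pos h, if_pos ((D.cut_iff hl v).1 h)]
    · rw [if_neg h, if_neg (fun h' => h ((D.cut_iff hl v).2 h'))]
      unfold aff dA
      rw [act_mul, ← D.ph_app, List.take_append_drop]

theorem badAt_app {P q : List α} {k : ℕ} (hk : P.length = k)
    (hkz : k + D.N1 + D.w0.n ≤ D.zz) : D.BadAt 0 (P ++ q) ↔ D.BadAt k q := by
  unfold BadAt
  constructor
  · rintro (⟨p, h1, h2, h3, h4⟩ | h)
    · left
      rw [List.length_append] at h3
      obtain ⟨p', rfl⟩ : ∃ p', p = P.length + p' := ⟨p - P.length, by omega⟩
      rw [take_app] at h4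
      refine ⟨p', by omega, by omega, by omega, (D.w0.loc _ _ ?_).1 h4⟩
      rw [List.length_take]; omega
    · right
      rw [List.length_append] at h
      have : P.length + q.length + 0 - D.p0 = q.length + k - D.p0 := by omega
      rwa [this] at h
  · rintro (⟨p, h1, h2, h3, h4⟩ | h)
    · left
      refine ⟨P.length + p, by omega, by omega, by rw [List.length_append]; omega, ?_⟩
      rw [take_app]
      exact (D.w0.loc _ _ (D.w0.len _ h4)).2 h4
    · right
      rw [List.length_append]
      have : P.length + q.length + 0 - D.p0 = q.length + k - D.p0 := by omega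
      rwa [this]

theorem soundB' : Sound D.Zc (aff (stepA (aff D.ph D.dA) D.LA D.RA) D.dB) D.LB D.RB := by
  have hz := D.hz
  have hW := D.hW
  constructor
  · rintro ω ⟨k, hk, h1, -⟩
    have := D.d_pos k hk
    simp at h1
    omega
  · intro ω τ P Q z x y hP hQ hz' heq
    obtain ⟨k, hk, hPl, hlam⟩ := hP
    obtain ⟨k0, hk0, hc0, huniq, hF2, hval⟩ := hQ
    obtain ⟨hz1, q, e, hze, hF, hbad⟩ := hz'
    have hdk := D.d_le k hk
    have hdk0 := D.d_le k0 hk0
    have hdp := D.d_pos k hk
    rw [Nat.sub_zero] at hF
    have hql := hF.1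
    have heq2 : P ++ Q ++ x = q ++ (e ++ y) := by rw [heq, hze, List.append_assoc]
    have hle : q.length ≤ (P ++ Q).length := by
      by_contra hc
      push Not at hc
      obtain ⟨q0, e0, hQe, hF0, hNX0⟩ := hF2
      have hq0 := hF0.1
      have he0 : 0 < e0.length := List.length_pos_iff.2 hNX0.1
      have l1 : (P ++ Q).length = P.length + q0.length + e0.length := by
        rw [hQe]; simp [List.length_append]; omega
      have E0 : D.w0.E ((P ++ Q ++ x).take (P.length + q0.length)) := by
        have : (P ++ Q ++ x).take (P.length + q0.length) = P ++ q0 := by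
          rw [List.append_assoc, take_app, hQe, List.append_assoc, List.take_left]
        rw [this]
        exact (D.w0.loc _ _ (by omega)).2 hF0.2.1
      have E1 : D.w0.E ((P ++ Q ++ x).take (P ++ Q).length) := by
        rw [List.take_left, hQe]
        exact (D.w0.loc _ _ (by rw [List.length_append]; omega)).2 hNX0.2.1
      have hg := D.w0.gap (P ++ Q ++ x) (P.length + q0.length) (P ++ Q).length (by omega)
        (by rw [List.length_append (as := P ++ Q)]; omega) E0 E1
      refine hF.2.2 (P ++ Q).length (by omega) hc ?_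
      rw [heq2, List.take_append_of_le_length (by omega)] at E1
      exact E1
    have hpre : q <+: P ++ Q :=
      List.prefix_of_prefix_length_le (l₃ := P ++ Q ++ x) ⟨e ++ y, heq2.symm⟩ ⟨x, rfl⟩ hle
    have hpre2 : P <+: q := List.prefix_of_prefix_length_le ⟨Q, rfl⟩ hpre (by omega)
    obtain ⟨q1, rfl⟩ := hpre2
    obtain ⟨r', hr'⟩ := hpre
    have hQ2 : Q = q1 ++ r' := by
      rw [List.append_assoc] at hr'
      exact (List.append_cancel_left hr').symm
    have hcand : D.Cand (D.d k) Q :=
      ⟨q1, r', hQ2, (F1_app hPl (by omega)).1 hF, (D.badAt_app hPl (by omega)).1 hbad⟩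
    have hkk : k = k0 := by
      by_contra h
      exact huniq k hk h hcand
    subst hkk
    have h3 : F2 D.w0 D.zz (P ++ Q) := (F2_app hPl (by omega)).2 hF2
    have h4 : P ++ Q = z := h3.unique hz1 heq
    refine ⟨h4, ?_⟩
    have h5 := D.soundB k hk P (Q.take (D.p0 - D.d k)) _ ω τ hPl hlam hval
    have h6 : P ++ Q.take (D.p0 - D.d k) = z.take D.p0 := by
      rw [← h4]
      have := take_app P Q (D.p0 - D.d k)
      rw [← this]; congr 1; omega
    have h7 : Q.drop (D.p0 - D.d k) = z.drop D.p0 := by
      rw [← h4]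
      have h8 : D.p0 = P.length + (D.p0 - D.d k) := by omega
      conv_rhs => rw [h8]
      rw [← List.drop_drop, List.drop_left]
    rw [h6, h7] at h5
    rw [h5]
    show _ = act ω (stepA (aff D.ph D.dA) D.LA D.RA z) +
      D.nuB (z.take D.p0) (D.beta (z.drop D.p0))
    rw [D.stepA_eq]
    have h8 := congrArg List.length h4
    have h9 := congrArg List.length hze
    rw [List.length_append] at h9
    omega

theorem complB' : ∀ z ∈ D.Zc, ∀ v, Cut D.LB D.RB v z := by
  classical
  have hz := D.hz
  have hW := D.hW
  rintro z ⟨hz1, q, e, hze, hF, hbad⟩ v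
  rw [Nat.sub_zero] at hF
  have hql := hF.1
  have hzl : z.length = q.length + e.length := by rw [hze, List.length_append]
  have hNX : NX D.w0 q e := by rw [hze] at hz1; exact hz1.decomp hF
  obtain ⟨I, hI, hI2⟩ := D.complB (z.take D.p0) (D.beta (z.drop D.p0)) v (by
    intro k hk
    have := D.d_le k hk
    rw [List.length_take]; omega)
  let Amb := (Finset.range D.K).filter
    (fun k => ∃ k' < D.K, k' ≠ k ∧ D.Cand (D.d k') (z.drop (D.d k)))
  let sA : ℕ := if h : ∃ s, D.zz - D.p0 ≤ s ∧ s < D.zz ∧ D.w0.E (z.take s) then h.choose else q.length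
  have hsA : D.zz - D.p0 ≤ sA := by
    show D.zz - D.p0 ≤ (if h : ∃ s, D.zz - D.p0 ≤ s ∧ s < D.zz ∧ D.w0.E (z.take s) then h.choose else q.length)
    split_ifs with h
    · exact h.choose_spec.1
    · omega
  let PP := (Finset.range D.K) ×ˢ (Finset.range D.K)
  let PE := PP.filter (fun x => x.1 ≠ x.2 ∧ ∃ p, p ≤ z.length ∧ D.w0.E (z.take p) ∧
    D.zz + D.d x.1 ≤ p + D.d x.2 + D.N1 ∧ p + D.d x.2 < D.zz + D.d x.1 + D.N1)
  let PB : ℕ → Finset (ℕ × ℕ) := fun t => PP.filter (fun x => x.1 ≠ x.2 ∧ D.Bad (t + D.d x.2 - D.d x.1))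
  have hPB : ∀ t, D.La ≤ t → (PB t).card ≤ D.C0 := by
    intro t ht
    refine D.count t ht _ ?_
    intro x hx
    rw [Finset.mem_filter, Finset.mem_product, Finset.mem_range, Finset.mem_range] at hx
    exact ⟨hx.1.1, hx.1.2, hx.2.1, hx.2.2⟩
  have hPE : PE.card ≤ 1 := by
    rw [Finset.card_le_one]
    intro a ha b hb
    rw [Finset.mem_filter, Finset.mem_product, Finset.mem_range, Finset.mem_range] at ha hb
    obtain ⟨⟨ha1, ha2⟩, ha3, p, hp1, hp2, hp3, hp4⟩ := ha
    obtain ⟨⟨hb1, hb2⟩, hb3, p', hp1', hp2', hp3', hp4'⟩ := hb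
    have e1 := D.d_le _ ha1
    have e2 := D.d_le _ ha2
    have e3 := D.d_le _ hb1
    have e4 := D.d_le _ hb2
    have hpp : p = p' := by
      rcases lt_trichotomy p p' with h | h | h
      · have := D.w0.gap z p p' h hp1' hp2 hp2'; omega
      · exact h
      · have := D.w0.gap z p' p h hp1 hp2' hp2; omega
    subst hpp
    by_contra hne
    have := D.d_gol a.1 a.2 b.1 b.2 ha1 ha2 hb1 hb2 ha3 hb3 hne
    omega
  have hsub : Amb ⊆ (((PE ∪ PB (sA - D.p0)) ∪ PB (q.length - D.p0)) ∪ PB (z.length - D.p0)).image Prod.fst := by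
    intro k hk
    rw [Finset.mem_filter, Finset.mem_range] at hk
    obtain ⟨hkK, k', hk', hne, q1, e1, hqe, hF1, hb⟩ := hk
    have hdk := D.d_le k hkK
    have hdk' := D.d_le k' hk'
    have hq1 := hF1.1
    have hlz : q1.length + e1.length = z.length - D.d k := by
      rw [← List.length_append, ← hqe, List.length_drop]
    have hTk : (z.take (D.d k)).length = D.d k := by rw [List.length_take]; omega
    have hzz : z = z.take (D.d k) ++ (q1 ++ e1) := by rw [← hqe, List.take_append_drop]
    have hpp : ((k, k') : ℕ × ℕ) ∈ PP := Finset.mem_product.2 ⟨Finset.mem_range.2 hkK, Finset.mem_range.2 hk'⟩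
    have htk : ∀ j, j ≤ q1.length → z.take (D.d k + j) = z.take (D.d k) ++ q1.take j := by
      intro j hj
      have h1 := take_app (z.take (D.d k)) (q1 ++ e1) j
      rw [← hzz, hTk, List.take_append_of_le_length hj] at h1
      exact h1
    refine Finset.mem_image.2 ⟨(k, k'), ?_, rfl⟩
    rcases hb with ⟨p, h1, h2, h3, h4⟩ | h
    · refine Finset.mem_union_left _ (Finset.mem_union_left _ (Finset.mem_union_left _ ?_))
      refine Finset.mem_filter.2 ⟨hpp, hne.symm, D.d k + p, by omega, ?_,
        (by show D.zz + D.d k ≤ D.d k + p + D.d k' + D.N1; omega),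
        (by show D.d k + p + D.d k' < D.zz + D.d k + D.N1; omega)⟩
      rw [htk p h3]
      exact (D.w0.loc _ _ (D.w0.len _ h4)).2 h4
    · -- the wall of the candidate
      have hEs : D.w0.E (z.take (D.d k + q1.length)) := by
        rw [htk _ le_rfl, List.take_length]
        exact (D.w0.loc _ _ (by omega)).2 hF1.2.1
      by_cases hs : D.d k + q1.length < D.zz
      · have hex : ∃ s, D.zz - D.p0 ≤ s ∧ s < D.zz ∧ D.w0.E (z.take s) :=
          ⟨D.d k + q1.length, by omega, hs, hEs⟩
        have hsAe : sA = D.d k + q1.length := by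
          have h5 : sA = hex.choose := by
            show (if h : ∃ s, D.zz - D.p0 ≤ s ∧ s < D.zz ∧ D.w0.E (z.take s) then h.choose else q.length) = _
            rw [dif_pos hex]
          obtain ⟨h6, h7, h8⟩ := hex.choose_spec
          rw [← h5] at h6 h7 h8
          rcases lt_trichotomy sA (D.d k + q1.length) with h9 | h9 | h9
          · have := D.w0.gap z _ _ h9 (by omega) h8 hEs; omega
          · exact h9
          · have := D.w0.gap z _ _ h9 (by omega) hEs h8; omega
        refine Finset.mem_union_left _ (Finset.mem_union_left _ (Finset.mem_union_right _ ?_))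
        refine Finset.mem_filter.2 ⟨hpp, hne.symm, ?_⟩
        have : sA - D.p0 + D.d k' - D.d k = q1.length + D.d k' - D.p0 := by omega
        show D.Bad (sA - D.p0 + D.d k' - D.d k)
        rw [this]; exact h
      · have hge : q.length ≤ D.d k + q1.length := by
          by_contra hc
          push Not at hc
          refine hF.2.2 _ (not_lt.1 hs) hc ?_
          rw [hze, List.take_append_of_le_length (by omega)] at hEs
          exact hEs
        rcases Nat.eq_or_lt_of_le hge with h9 | h9
        · refine Finset.mem_union_left _ (Finset.mem_union_right _ ?_)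
          refine Finset.mem_filter.2 ⟨hpp, hne.symm, ?_⟩
          have : q.length - D.p0 + D.d k' - D.d k = q1.length + D.d k' - D.p0 := by omega
          show D.Bad (q.length - D.p0 + D.d k' - D.d k)
          rw [this]; exact h
        · have hzs : D.d k + q1.length = z.length := by
            by_contra hc
            obtain ⟨j, hj⟩ : ∃ j, D.d k + q1.length = q.length + j := ⟨_, (Nat.add_sub_cancel' hge).symm⟩
            refine hNX.2.2 j (by omega) (by omega) ?_
            rw [hj, hze, take_app] at hEs
            exact hEs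
          refine Finset.mem_union_right _ ?_
          refine Finset.mem_filter.2 ⟨hpp, hne.symm, ?_⟩
          have : z.length - D.p0 + D.d k' - D.d k = q1.length + D.d k' - D.p0 := by omega
          show D.Bad (z.length - D.p0 + D.d k' - D.d k)
          rw [this]; exact h
  have hcard : Amb.card < I.card := by
    have h1 := Finset.card_le_card hsub
    have h2 := Finset.card_image_le (f := Prod.fst)
      (s := ((PE ∪ PB (sA - D.p0)) ∪ PB (q.length - D.p0)) ∪ PB (z.length - D.p0))
    have h3 := Finset.card_union_le ((PE ∪ PB (sA - D.p0)) ∪ PB (q.length - D.p0)) (PB (z.length - D.p0))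
    have h4 := Finset.card_union_le (PE ∪ PB (sA - D.p0)) (PB (q.length - D.p0))
    have h5 := Finset.card_union_le PE (PB (sA - D.p0))
    have h6 := hPB (sA - D.p0) (by omega)
    have h7 := hPB (q.length - D.p0) (by omega)
    have h8 := hPB (z.length - D.p0) (by omega)
    omega
  obtain ⟨k, hkI, hkA⟩ := Finset.exists_mem_notMem_of_card_lt_card hcard
  obtain ⟨hkK, hlam, hrho⟩ := hI2 k hkI
  obtain ⟨τ, hτ⟩ := Option.isSome_iff_exists.1 hrho
  have hdk := D.d_le k hkK
  have hTk : (z.take (D.d k)).length = D.d k := by rw [List.length_take]; omega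
  have hzz : z = z.take (D.d k) ++ z.drop (D.d k) := (List.take_append_drop _ _).symm
  have hqq : q = q.take (D.d k) ++ q.drop (D.d k) := (List.take_append_drop _ _).symm
  have hTq : (q.take (D.d k)).length = D.d k := by rw [List.length_take]; omega
  refine ⟨z.take (D.d k), z.drop (D.d k), τ, hzz, ⟨k, hkK, hTk, ?_⟩, k, hkK, ?_, ?_, ?_, ?_⟩
  · rw [List.take_take, min_eq_left hdk] at hlam; exact hlam
  · refine ⟨q.drop (D.d k), e, ?_, ?_, ?_⟩
    · rw [hze, List.drop_append_of_le_length (by omega)]
    · rw [hqq] at hF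
      exact (F1_app hTq (by omega)).1 hF
    · rw [hqq] at hbad
      exact (D.badAt_app hTq (by omega)).1 hbad
  · intro k' hk' hne hc
    exact hkA (Finset.mem_filter.2 ⟨Finset.mem_range.2 hkK, k', hk', hne, hc⟩)
  · rw [hzz] at hz1
    exact (F2_app hTk (by omega)).1 hz1
  · have h1 : (z.drop (D.d k)).take (D.p0 - D.d k) = (z.take D.p0).drop (D.d k) := by
      rw [List.drop_take]
    have h2 : (z.drop (D.d k)).drop (D.p0 - D.d k) = z.drop D.p0 := by
      rw [List.drop_drop]; congr 1; omega
    rw [h1, h2]; exact hτ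

end Par

end Crest.Agent.R320.WD_497
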