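import Crest.Agent.R320.Main_621

/-!
Row 320 (helper316): walls on words by position, first wall behind a position, zones of the natural
chain rule (`t` = first wall at distance `≥ zz`, zone end = next wall), prefix code.
-/

set_option autoImplicit false

namespace Crest.Agent.R320.WZ_316

open Crest.Agent.R320.Hk_851 Crest.Agent.R320.Star_621 Crest.Agent.R320.Two_621

universe u

variable {α : Type u} (Wo : List α → Prop)

/-- wall at position `t` of `w` -/
def Wt (w : List α) (t : ℕ) : Prop := t ≤ w.length ∧ Wo (w.take t)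

/-- `t` = first wall of `w` at a position `≥ c` -/
def FW (c : ℕ) (w : List α) (t : ℕ) : Prop :=
  Wt Wo w t ∧ c ≤ t ∧ ∀ s, c ≤ s → s < t → ¬ Wt Wo w s

/-- zone: second wall at a position `≥ zz` is the end -/
def Zn (zz : ℕ) (z : List α) : Prop := ∃ t, FW Wo zz z t ∧ FW Wo (t + 1) z z.length

variable {Wo}

theorem FW.unique {c : ℕ} {w : List α} {t t' : ℕ} (h : FW Wo c w t) (h' : FW Wo c w t') :
    t = t' := by
  rcases lt_trichotomy t t' with h1 | h1 | h1
  · exact absurd h.1 (h'.2.2 t h.2.1 h1)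
  · exact h1
  · exact absurd h'.1 (h.2.2 t' h'.2.1 h1)

theorem Wt.le {w : List α} {t : ℕ} (h : Wt Wo w t) : t ≤ w.length := h.1

theorem wt_app {w x : List α} {t : ℕ} (h : t ≤ w.length) : Wt Wo (w ++ x) t ↔ Wt Wo w t := by
  unfold Wt
  rw [List.take_append_of_le_length h, List.length_append]
  constructor
  · rintro ⟨_, h2⟩; exact ⟨h, h2⟩
  · rintro ⟨_, h2⟩; exact ⟨by omega, h2⟩

theorem fw_app {c : ℕ} {w x : List α} {t : ℕ} (h : t ≤ w.length) :
    FW Wo c (w ++ x) t ↔ FW Wo c w t := by
  unfold FW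
  rw [wt_app h]
  constructor
  · rintro ⟨h1, h2, h3⟩
    exact ⟨h1, h2, fun s hs hst => by rw [← wt_app (x := x) (by omega)]; exact h3 s hs hst⟩
  · rintro ⟨h1, h2, h3⟩
    exact ⟨h1, h2, fun s hs hst => by rw [wt_app (by omega)]; exact h3 s hs hst⟩

section loc

variable {n : ℕ} (loc : ∀ P Q : List α, n ≤ Q.length → (Wo (P ++ Q) ↔ Wo Q))

include loc

theorem wt_shift {P Q : List α} {t : ℕ} (ht : n ≤ t) :
    Wt Wo (P ++ Q) (P.length + t) ↔ Wt Wo Q t := by
  unfold Wt
  rw [List.length_append]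
  constructor
  · rintro ⟨h1, h2⟩
    have h3 : t ≤ Q.length := by omega
    refine ⟨h3, ?_⟩
    rw [List.take_append, List.take_of_length_le (by omega), Nat.add_sub_cancel_left] at h2
    exact (loc P (Q.take t) (by rw [List.length_take]; omega)).1 h2
  · rintro ⟨h1, h2⟩
    refine ⟨by omega, ?_⟩
    rw [List.take_append, List.take_of_length_le (by omega), Nat.add_sub_cancel_left]
    exact (loc P (Q.take t) (by rw [List.length_take]; omega)).2 h2

/-- from the right word to the text -/
theorem fw_shift {P Q : List α} {c c' t : ℕ} (hc : n ≤ c) (h : FW Wo c Q t)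
    (h1 : P.length + c ≤ c') (h2 : c' ≤ P.length + t) :
    FW Wo c' (P ++ Q) (P.length + t) := by
  obtain ⟨a1, a2, a3⟩ := h
  refine ⟨(wt_shift loc (by omega)).2 a1, h2, fun s hs hst => ?_⟩
  have e : s = P.length + (s - P.length) := by omega
  rw [e, wt_shift loc (by omega)]
  exact a3 _ (by omega) (by omega)

/-- from the text to the right word -/
theorem fw_unshift {P Q : List α} {c c' t : ℕ} (hc : n ≤ c')
    (h : FW Wo c (P ++ Q) (P.length + t)) (h2 : c' ≤ t)
    (h3 : ∀ s, c' ≤ s → s < t → P.length + s < c → ¬ Wt Wo (P ++ Q) (P.length + s)) :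
    FW Wo c' Q t := by
  obtain ⟨a1, a2, a3⟩ := h
  refine ⟨(wt_shift loc (by omega)).1 a1, h2, fun s hs hst hw => ?_⟩
  have hw' := (wt_shift loc (P := P) (Q := Q) (t := s) (by omega)).2 hw
  by_cases h4 : P.length + s < c
  · exact h3 s hs hst h4 hw'
  · exact a3 _ (by omega) (by omega) hw'

end loc

theorem code (zz : ℕ) : Code ({z | Zn Wo zz z} : Language α) := by
  constructor
  · rintro ⟨t, h1, h2⟩
    have := h2.2.1
    simp at this
  · rintro z z' x x' ⟨t, h1, h2⟩ ⟨t', h1', h2'⟩ h
    have a1 := (fw_app (x := x) h1.1.1).2 h1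
    have a1' := (fw_app (x := x') h1'.1.1).2 h1'
    rw [← h] at a1'
    have e := a1.unique a1'
    subst e
    have a2 := (fw_app (x := x) h2.1.1).2 h2
    have a2' := (fw_app (x := x') h2'.1.1).2 h2'
    rw [← h] at a2'
    have e := a2.unique a2'
    exact (List.append_inj h e).1

open Classical in
/-- the first wall at a position `≥ c` (0 if none) -/
noncomputable def tt (Wo : List α → Prop) (c : ℕ) (w : List α) : ℕ :=
  if h : ∃ t, FW Wo c w t then h.choose else 0

theorem tt_eq {c : ℕ} {w : List α} {t : ℕ} (h : FW Wo c w t) : tt Wo c w = t := by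
  have hx : ∃ t, FW Wo c w t := ⟨t, h⟩
  unfold tt
  rw [dif_pos hx]
  exact hx.choose_spec.unique h

end Crest.Agent.R320.WZ_316
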