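import Crest.Agent.R320.FewVal_228
import Crest.Agent.R320.Asm_505

/-!
# Row 320: left-looking walls, two-wall blocks, and height one of the one-block families (helper529)
-/

set_option autoImplicit false

namespace Crest.Agent.R320.W_529

open Crest.RegLang Crest.Agent.R320.Hk_851 Crest.Agent.R320.FewWalls_228
  Crest.Agent.R320.FewVal_228 Crest.Agent.R320.Asm_505

variable {α : Type}

/-- the word ends with a wall -/
def E (n : ℕ) (Ss : Set (List α)) (w : List α) : Prop := lastn n w ∈ Ss

/-- `t` is the first wall `≥ z` -/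
def F (n : ℕ) (Ss : Set (List α)) (z : ℕ) (w : List α) (t : ℕ) : Prop :=
  z ≤ t ∧ t ≤ w.length ∧ E n Ss (w.take t) ∧ ∀ j, z ≤ j → j < t → ¬ E n Ss (w.take j)

variable {n : ℕ} {Ss : Set (List α)}

theorem E_append {P Q : List α} (h : n ≤ Q.length) : E n Ss (P ++ Q) ↔ E n Ss Q := by
  have : lastn n (P ++ Q) = lastn n Q := by
    unfold lastn
    rw [List.length_append, List.drop_append, List.drop_eq_nil_of_le (by omega), List.nil_append]
    congr 1; omega
  unfold E; rw [this]

theorem E_shift {A q : List α} {j : ℕ} (hj : n ≤ j) (hq : j ≤ q.length) :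
    E n Ss ((A ++ q).take (A.length + j)) ↔ E n Ss (q.take j) := by
  rw [List.take_length_add_append]
  exact E_append (by rw [List.length_take]; omega)

theorem F_unique {z : ℕ} {w : List α} {t t' : ℕ} (h : F n Ss z w t) (h' : F n Ss z w t') :
    t = t' := by
  rcases lt_trichotomy t t' with hl | hl | hl
  · exact absurd h.2.2.1 (h'.2.2.2 t h.1 hl)
  · exact hl
  · exact absurd h'.2.2.1 (h.2.2.2 t' h'.1 hl)

theorem F_ext {z : ℕ} {w w' : List α} {t : ℕ} (h : F n Ss z w t) : F n Ss z (w ++ w') t := by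
  obtain ⟨h1, h2, h3, h4⟩ := h
  refine ⟨h1, by rw [List.length_append]; omega, ?_, fun j hj hjt => ?_⟩
  · rw [List.take_append_of_le_length h2]; exact h3
  · rw [List.take_append_of_le_length (by omega)]; exact h4 j hj hjt

theorem F_res {z : ℕ} {w w' : List α} {t : ℕ} (h : F n Ss z (w ++ w') t) (ht : t ≤ w.length) :
    F n Ss z w t := by
  obtain ⟨h1, h2, h3, h4⟩ := h
  refine ⟨h1, ht, ?_, fun j hj hjt => ?_⟩
  · rw [List.take_append_of_le_length ht] at h3; exact h3
  · have := h4 j hj hjt
    rw [List.take_append_of_le_length (by omega)] at this; exact this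

theorem F_take {z : ℕ} {w : List α} {t : ℕ} (h : F n Ss z w t) :
    F n Ss z (w.take t) (w.take t).length := by
  have hl : (w.take t).length = t := by rw [List.length_take]; exact min_eq_left h.2.1
  rw [hl]
  have h' := h
  rw [← List.take_append_drop t w] at h'
  exact F_res h' (by rw [hl])

theorem F_exists {z : ℕ} {w : List α} {j : ℕ} (hz : z ≤ j) (hj : j ≤ w.length)
    (hE : E n Ss (w.take j)) : ∃ t, t ≤ j ∧ F n Ss z w t := by
  classical
  have hex : ∃ t, z ≤ t ∧ E n Ss (w.take t) := ⟨j, hz, hE⟩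
  have hle : Nat.find hex ≤ j := Nat.find_min' hex ⟨hz, hE⟩
  refine ⟨Nat.find hex, hle, (Nat.find_spec hex).1, by omega, (Nat.find_spec hex).2, ?_⟩
  intro i hi hit hEi
  exact Nat.find_min hex hit ⟨hi, hEi⟩

theorem F_shift {A A' q : List α} {z z' t : ℕ} (hF : F n Ss z (A ++ q) (A.length + t))
    (h1 : z' ≤ A'.length + t) (hn : n ≤ t)
    (h2 : ∀ j, n ≤ j → j < t → z' ≤ A'.length + j → A.length + j < z →
      ¬ E n Ss ((A ++ q).take (A.length + j)))
    (h3 : A'.length + n ≤ z') : F n Ss z' (A' ++ q) (A'.length + t) := by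
  obtain ⟨g1, g2, g3, g4⟩ := hF
  rw [List.length_append] at g2
  have htq : t ≤ q.length := by omega
  refine ⟨h1, by rw [List.length_append]; omega, ?_, ?_⟩
  · rw [E_shift hn htq]; rw [E_shift hn htq] at g3; exact g3
  · intro j hj hjt hE
    obtain ⟨i, rfl⟩ : ∃ i, j = A'.length + i := ⟨j - A'.length, by omega⟩
    have hni : n ≤ i := by omega
    have hiq : i ≤ q.length := by omega
    rw [E_shift hni hiq] at hE
    rw [← E_shift (A := A) hni hiq] at hE
    by_cases hz : z ≤ A.length + i
    · exact g4 _ hz (by omega) hE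
    · exact h2 i hni (by omega) hj (by omega) hE

/-- the blocks -/
def U (n : ℕ) (Ss : Set (List α)) (z : ℕ) : Language α :=
  {X | ∃ t, F n Ss z X t ∧ F n Ss (t + 1) X X.length}

theorem U_pc {z : ℕ} : PC (U n Ss z) := by
  constructor
  · rintro ⟨t, h1, h2⟩
    have := h2.1
    simp at this
  · rintro X ⟨t, h1, h2⟩ X' ⟨t', h1', h2'⟩ ⟨r, rfl⟩
    have e : t = t' := F_unique (F_ext h1) h1'
    subst e
    have e2 := F_unique (F_ext (w' := r) h2) h2'
    rw [List.length_append] at e2
    have : r = [] := List.length_eq_zero_iff.1 (by omega)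
    rw [this, List.append_nil]

/-! ### regularity from a finite right congruence -/

theorem reg_sat {σ : Type*} [Finite σ] (st : List α → σ)
    (hst : ∀ w w' a, st w = st w' → st (w ++ [a]) = st (w' ++ [a]))
    (L : Language α) (hL : ∀ w w', st w = st w' → w ∈ L → w' ∈ L) : L.IsRegular := by
  classical
  haveI := Fintype.ofFinite σ
  let M : DFA α σ := ⟨fun s a => if h : ∃ w, st w = s then st (h.choose ++ [a]) else s, st [],
    {s | ∃ w ∈ L, st w = s}⟩
  have hev : ∀ w, M.eval w = st w := by
    intro w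
    induction w using List.reverseRecOn with
    | nil => rfl
    | append_singleton w a ih =>
      rw [DFA.eval_append_singleton, ih]
      have h : ∃ w', st w' = st w := ⟨w, rfl⟩
      show (if h : ∃ w', st w' = st w then st (h.choose ++ [a]) else st w) = _
      rw [dif_pos h]
      exact hst _ _ a h.choose_spec
  refine Language.isRegular_iff.2 ⟨σ, inferInstance, M, ?_⟩
  ext w
  rw [DFA.mem_accepts]
  show M.eval w ∈ _ ↔ _
  rw [hev]
  constructor
  · rintro ⟨w', hw', he⟩
    exact hL _ _ he hw'
  · intro hw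
    exact ⟨w, hw, rfl⟩

variable {S : Type} [Monoid S]

/-- product of the labels -/
def ph (f : α → S) (w : List α) : S := (w.map f).prod

theorem ph_append (f : α → S) (u v : List α) : ph f (u ++ v) = ph f u * ph f v := by
  simp [ph]

theorem ph_nil (f : α → S) : ph f ([] : List α) = 1 := by simp [ph]

/-- finite summary of a word -/
def stA (B n D : ℕ) (f : α → S) (w : List α) : List α × List α × ZMod D × S :=
  (w.take B, lastn n w, (w.length : ZMod D), ph f (w.drop B))

theorem stA_snoc {B D : ℕ} {f : α → S} {w w' : List α} (a : α)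
    (h : stA B n D f w = stA B n D f w') :
    stA B n D f (w ++ [a]) = stA B n D f (w' ++ [a]) := by
  unfold stA at h ⊢
  simp only [Prod.mk.injEq] at h ⊢
  obtain ⟨h1, h2, h3, h4⟩ := h
  have hlen : min B w.length = min B w'.length := by
    have := congrArg List.length h1
    rwa [List.length_take, List.length_take] at this
  have key : ∀ v : List α, (v ++ [a]).take B = ((v.take B) ++ [a]).take B := by
    intro v
    by_cases hv : v.length ≤ B
    · rw [List.take_of_length_le hv]
    · rw [List.take_append_of_le_length (by omega),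
        List.take_append_of_le_length (by rw [List.length_take]; omega), List.take_take, min_self]
  refine ⟨?_, ?_, ?_, ?_⟩
  · rw [key w, key w', h1]
  · rw [lastn_snoc n w, lastn_snoc n w', h2]
  · simp only [List.length_append, List.length_singleton, Nat.cast_add, Nat.cast_one]
    rw [h3]
  · by_cases hv : w.length < B
    · have e : w.length = w'.length := by omega
      have e1 : w = w' := by
        rw [List.take_of_length_le (by omega), List.take_of_length_le (by omega)] at h1
        exact h1
      rw [e1]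
    · have hv' : B ≤ w'.length := by omega
      rw [List.drop_append_of_le_length (by omega), List.drop_append_of_le_length hv',
        ph_append, ph_append, h4]

theorem stA_len {B D : ℕ} {f : α → S} {w w' : List α} (h : stA B n D f w = stA B n D f w')
    {z : ℕ} (hz : z ≤ B) (hw : z ≤ w.length) : z ≤ w'.length := by
  have h1 : w.take B = w'.take B := congrArg Prod.fst h
  have := congrArg List.length h1
  rw [List.length_take, List.length_take] at this
  omega

theorem stA_take {B D : ℕ} {f : α → S} {w w' : List α} (h : stA B n D f w = stA B n D f w')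
    {z : ℕ} (hz : z ≤ B) : w.take z = w'.take z := by
  have h1 : w.take B = w'.take B := congrArg Prod.fst h
  have h2 := congrArg (List.take z) h1
  rwa [List.take_take, List.take_take, min_eq_left hz] at h2

theorem stA_E {B D : ℕ} {f : α → S} {w w' : List α} (h : stA B n D f w = stA B n D f w')
    (hE : E n Ss w) : E n Ss w' := by
  have h1 : lastn n w = lastn n w' := congrArg (fun x => x.2.1) h
  unfold E at hE ⊢; rwa [← h1]

theorem stA_ph {B D : ℕ} {f : α → S} {w w' : List α} (h : stA B n D f w = stA B n D f w')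
    {z : ℕ} (hz : z ≤ B) : ph f (w.drop z) = ph f (w'.drop z) := by
  have h4 : ph f (w.drop B) = ph f (w'.drop B) := congrArg (fun x => x.2.2.2) h
  have h1 : w.take B = w'.take B := congrArg Prod.fst h
  have key : ∀ v : List α, v.drop z = (v.take B).drop z ++ v.drop B := by
    intro v
    by_cases hv : z ≤ v.length
    · conv_lhs => rw [← List.take_append_drop B v]
      rw [List.drop_append_of_le_length (by rw [List.length_take]; omega)]
    · rw [List.drop_eq_nil_of_le (by omega), List.drop_eq_nil_of_le (by rw [List.length_take]; omega),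
        List.drop_eq_nil_of_le (by omega)]
      rfl
  rw [key w, key w', ph_append, ph_append, h1, h4]

theorem stA_mod {B D : ℕ} {f : α → S} {w w' : List α} (h : stA B n D f w = stA B n D f w') :
    (w.length : ZMod D) = w'.length := congrArg (fun x => x.2.2.1) h

/-- a wall strictly before the end -/
def Fl (n : ℕ) (Ss : Set (List α)) (z : ℕ) (w : List α) : Prop :=
  ∃ j, z ≤ j ∧ j < w.length ∧ E n Ss (w.take j)

theorem Fl_snoc {z : ℕ} (w : List α) (a : α) :
    Fl n Ss z (w ++ [a]) ↔ Fl n Ss z w ∨ (z ≤ w.length ∧ E n Ss w) := by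
  unfold Fl
  constructor
  · rintro ⟨j, h1, h2, h3⟩
    rw [List.length_append, List.length_singleton] at h2
    by_cases hj : j < w.length
    · left
      refine ⟨j, h1, hj, ?_⟩
      rwa [List.take_append_of_le_length (by omega)] at h3
    · right
      have : j = w.length := by omega
      subst this
      refine ⟨h1, ?_⟩
      rwa [List.take_append_of_le_length le_rfl, List.take_length] at h3
  · rintro (⟨j, h1, h2, h3⟩ | ⟨h1, h2⟩)
    · refine ⟨j, h1, by rw [List.length_append]; omega, ?_⟩
      rwa [List.take_append_of_le_length (by omega)]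
    · refine ⟨w.length, h1, by rw [List.length_append, List.length_singleton]; omega, ?_⟩
      rwa [List.take_append_of_le_length le_rfl, List.take_length]

theorem reg_gen [Finite α] [Finite S] {B D z0 : ℕ} (hD : 0 < D) (f : α → S) (hz : z0 ≤ B)
    (L : Language α)
    (hL : ∀ w w', stA B n D f w = stA B n D f w' → (Fl n Ss z0 w ↔ Fl n Ss z0 w') →
      w ∈ L → w' ∈ L) : L.IsRegular := by
  classical
  haveI : NeZero D := ⟨hD.ne'⟩
  have h1 : Finite {l : List α // l.length ≤ B} := (List.finite_length_le α B).to_subtype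
  have h2 : Finite {l : List α // l.length ≤ n} := (List.finite_length_le α n).to_subtype
  let st : List α → {l : List α // l.length ≤ B} × {l : List α // l.length ≤ n} × ZMod D × S × Prop :=
    fun w => (⟨w.take B, by rw [List.length_take]; omega⟩, ⟨lastn n w, lastn_length n w⟩,
      (w.length : ZMod D), ph f (w.drop B), Fl n Ss z0 w)
  have hst : ∀ w w', st w = st w' ↔ (stA B n D f w = stA B n D f w' ∧
      (Fl n Ss z0 w ↔ Fl n Ss z0 w')) := by
    intro w w'
    simp only [st, stA, Prod.mk.injEq, Subtype.mk.injEq, eq_iff_iff]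
    tauto
  refine reg_sat st ?_ L ?_
  · intro w w' a h
    rw [hst] at h ⊢
    refine ⟨stA_snoc a h.1, ?_⟩
    rw [Fl_snoc, Fl_snoc, h.2]
    have e1 : z0 ≤ w.length ↔ z0 ≤ w'.length :=
      ⟨fun hh => stA_len h.1 hz hh, fun hh => stA_len h.1.symm hz hh⟩
    have e2 : E n Ss w ↔ E n Ss w' := ⟨fun hh => stA_E h.1 hh, fun hh => stA_E h.1.symm hh⟩
    rw [e1, e2]
  · intro w w' h hw
    rw [hst] at h
    exact hL w w' h.1 h.2 hw

theorem F_end {z : ℕ} {w : List α} :
    F n Ss z w w.length ↔ z ≤ w.length ∧ E n Ss w ∧ ¬ Fl n Ss z w := by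
  unfold F Fl
  rw [List.take_length]
  constructor
  · rintro ⟨h1, _, h3, h4⟩
    exact ⟨h1, h3, fun ⟨j, g1, g2, g3⟩ => h4 j g1 g2 g3⟩
  · rintro ⟨h1, h3, h4⟩
    exact ⟨h1, le_rfl, h3, fun j g1 g2 g3 => h4 ⟨j, g1, g2, g3⟩⟩

theorem wl_E {w : List α} {x : ℕ} (h : Wl n Ss w x) : E n Ss (w.take (x + n)) := by
  obtain ⟨h1, h2⟩ := h
  unfold E lastn
  rw [List.length_take, min_eq_left h1, Nat.add_sub_cancel, List.drop_take, Nat.add_sub_cancel_left]
  exact h2

theorem nw_F {z : ℕ} {w : List α} (h : ∀ j, z ≤ j → j < w.length → ¬ E n Ss (w.take j)) :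
    nw n Ss w ≤ z + 1 := by
  classical
  unfold nw
  have : ((Finset.range (w.length + 1)).filter (fun x => Wl n Ss w x)) ⊆
      Finset.range z ∪ {w.length - n} := by
    intro x hx
    rw [Finset.mem_filter] at hx
    have h1 := wl_E hx.2
    have h2 := hx.2.1
    rw [Finset.mem_union, Finset.mem_range, Finset.mem_singleton]
    by_cases hz : z ≤ x + n
    · right
      by_contra hne
      exact h _ hz (by omega) h1
    · left; omega
  refine (Finset.card_le_card this).trans ((Finset.card_union_le _ _).trans ?_)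
  simp

/-- languages of words ending at the first wall `≥ z0` -/
theorem HL_F [Finite α] [Finite S]
    (hHL : ∀ (L : Language α), L.IsRegular → ∀ r, HL 1 ({w | w ∈ L ∧ nw n Ss w ≤ r} : Language α))
    {B D z0 : ℕ} (hD : 0 < D) (f : α → S) (hz : z0 ≤ B) (Ψ : List α → Prop)
    (hΨ : ∀ w w', z0 ≤ w.length → z0 ≤ w'.length → stA B n D f w = stA B n D f w' → Ψ w → Ψ w') :
    HL 1 ({g | F n Ss z0 g g.length ∧ Ψ g} : Language α) := by
  have hreg : Language.IsRegular ({g | F n Ss z0 g g.length ∧ Ψ g} : Language α) := by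
    refine reg_gen (Ss := Ss) (n := n) hD f hz _ ?_
    rintro w w' h hF ⟨h1, h2⟩
    rw [F_end] at h1
    have hl := stA_len h hz h1.1
    refine ⟨F_end.2 ⟨hl, stA_E h h1.2.1, fun hh => h1.2.2 (hF.2 hh)⟩, hΨ _ _ h1.1 hl h h2⟩
  refine (hHL _ hreg (z0 + 1)).congr fun w => ⟨fun h => ⟨h, ?_⟩, fun h => h.1⟩
  exact nw_F h.1.2.2.2

/-- languages of words without wall `≥ z0` -/
theorem HL_N [Finite α] [Finite S]
    (hHL : ∀ (L : Language α), L.IsRegular → ∀ r, HL 1 ({w | w ∈ L ∧ nw n Ss w ≤ r} : Language α))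
    {B D z0 : ℕ} (hD : 0 < D) (f : α → S) (hz : z0 ≤ B) (Ψ : List α → Prop)
    (hΨ : ∀ w w', stA B n D f w = stA B n D f w' → Ψ w → Ψ w') :
    HL 1 ({g | (∀ j, z0 ≤ j → j ≤ g.length → ¬ E n Ss (g.take j)) ∧ Ψ g} : Language α) := by
  have hiff : ∀ g : List α, (∀ j, z0 ≤ j → j ≤ g.length → ¬ E n Ss (g.take j)) ↔
      (¬ Fl n Ss z0 g ∧ ¬ (z0 ≤ g.length ∧ E n Ss g)) := by
    intro g
    constructor
    · intro h
      refine ⟨fun ⟨j, h1, h2, h3⟩ => h j h1 h2.le h3, fun ⟨h1, h2⟩ => ?_⟩
      exact h _ h1 le_rfl (by rwa [List.take_length])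
    · rintro ⟨h1, h2⟩ j hj hjl hE
      rcases hjl.lt_or_eq with hl | hl
      · exact h1 ⟨j, hj, hl, hE⟩
      · subst hl
        exact h2 ⟨hj, by rwa [List.take_length] at hE⟩
  have hreg : Language.IsRegular
      ({g | (∀ j, z0 ≤ j → j ≤ g.length → ¬ E n Ss (g.take j)) ∧ Ψ g} : Language α) := by
    refine reg_gen (Ss := Ss) (n := n) hD f hz _ ?_
    rintro w w' h hF ⟨h1, h2⟩
    rw [hiff] at h1
    refine ⟨(hiff w').2 ⟨fun hh => h1.1 (hF.2 hh), fun hh => h1.2 ⟨stA_len h.symm hz hh.1,
      stA_E h.symm hh.2⟩⟩, hΨ _ _ h h2⟩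
  refine (hHL _ hreg (z0 + 1)).congr fun w => ⟨fun h => ⟨h, ?_⟩, fun h => h.1⟩
  exact nw_F fun j h1 h2 => h.1 j h1 h2.le

end Crest.Agent.R320.W_529
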