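import Crest.Agent.R320.GridI_646
import Crest.Agent.R320.Spoil_56

/-!
Row 320, helper56: master black box from the grid gadget of 646: thin periodic bad set, ruler, finite state.
-/

set_option autoImplicit false

namespace Crest.Agent.R320.W_56

open Finset
open Crest.Agent.R320.Grid_646
open Crest.Agent.R320.Gad1_420 (seg)

section FS

variable {α S V W : Type*} [Monoid S] [AddCommGroup V] [AddCommGroup W] (D : Grid S V W)

/-- label of a predicate on names -/
noncomputable def lab (D : Grid S V W) (p : Fin D.m × S × W × S × W × V → Prop) : Option V :=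
  open Classical in
  if h : ∃ c : Fin D.m × S × W × S × W × V, p c then
    some (D.bb h.choose.1 h.choose.2.1 h.choose.2.2.1 h.choose.2.2.2.1 h.choose.2.2.2.2.1
      h.choose.2.2.2.2.2) else none

theorem Rf_eq (φ : List α → S) (Q : List α) : D.Rf φ Q =
    lab D (fun c => D.RR φ c.1 c.2.1 c.2.2.1 c.2.2.2.1 c.2.2.2.2.1 c.2.2.2.2.2 Q) := rfl

variable {D}

theorem div_per {a G q : ℕ} (hG : 0 < G) : (a + G * q) / G = a / G + q := by
  rw [Nat.add_mul_div_left _ _ hG]

/-- `rq` under a change of the length by a multiple of the period. -/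
theorem rq_add (hD : Geo D) {i k n q : ℕ} (hik : i < k) (hkm : k ≤ D.m) (hn : D.Am D.m ≤ n) :
    D.rq i (n + D.G k * q) k = D.rq i n k + D.G k * q := by
  have h5 := hD.mono hkm
  unfold Grid.rq
  have : D.Am i + D.G i + (n + D.G k * q) - D.Am k = (D.Am i + D.G i + n - D.Am k) + D.G k * q := by omega
  rw [this, div_per (hD.Gpos k)]
  ring

theorem rq_le (hD : Geo D) {i k n : ℕ} (hik : i < k) (hkm : k ≤ D.m) (hn : D.Am D.m ≤ n) :
    D.rq i n k ≤ n ∧ n - D.rq i n k ≤ D.Am k + D.G k := by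
  have h4 := hD.lt hik
  have h5 := hD.mono hkm
  have h6 := Nat.mod_add_div (D.Am i + D.G i + n - D.Am k) (D.G k)
  have h7 := Nat.mod_lt (D.Am i + D.G i + n - D.Am k) (hD.Gpos k)
  have h8 := hD.Mpos
  have h9 := hD.Gpos i
  have h10 : 0 < D.M * D.G i := by positivity
  unfold Grid.rq
  omega

theorem vis_add (hD : Geo D) {i n q : ℕ} (hn : D.Am D.m ≤ n) :
    D.Vis i (n + D.G D.m * q) ↔ D.Vis i n := by
  unfold Grid.Vis
  refine forall_congr' fun k => ?_
  refine forall_congr' fun hik => ?_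
  refine forall_congr' fun hkm => ?_
  refine forall_congr' fun t => ?_
  refine forall_congr' fun ht => ?_
  obtain ⟨w, hw⟩ := hD.dvd hkm
  have h5 := hD.mono hkm
  have e1 : D.Am i + D.G i + t + (n + D.G D.m * q) - D.Am k =
      (D.Am i + D.G i + t + n - D.Am k) + D.G k * (w * q) := by
    rw [hw, mul_assoc]; omega
  have e2 : D.Am i + D.G i + (n + D.G D.m * q) - D.Am k =
      (D.Am i + D.G i + n - D.Am k) + D.G k * (w * q) := by
    rw [hw, mul_assoc]; omega
  rw [e1, e2, div_per (hD.Gpos k), div_per (hD.Gpos k)]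
  omega

theorem phi_drop {φ : List α → S} (hφ : ∀ u v, φ (u ++ v) = φ u * φ v) {Q : List α} {L p : ℕ}
    (hp : p ≤ L) : φ (Q.drop p) = φ ((Q.take L).drop p) * φ (Q.drop L) := by
  rw [← hφ]
  congr 1
  conv_lhs => rw [← List.take_append_drop L Q]
  by_cases h : L ≤ Q.length
  · rw [List.drop_append_of_le_length (by rw [List.length_take]; omega)]
  · have h1 : Q.drop L = [] := List.drop_eq_nil_of_le (by omega)
    rw [h1]; simp

theorem seg_take {Q : List α} {L p q : ℕ} (hq : q ≤ L) : seg Q p q = seg (Q.take L) p q := by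
  unfold seg
  rw [List.drop_take, List.take_take, min_eq_left (by omega)]

theorem RR_congr (hD : Geo D) {good : ℕ → Prop} (hN : Names D good) {φ : List α → S}
    (hφ : ∀ u v, φ (u ++ v) = φ u * φ v) {L q : ℕ} (hL : D.Am D.m + D.G D.m ≤ L) {Q1 Q2 : List α}
    (h1 : L ≤ Q1.length) (hle : Q2.length = Q1.length + D.G D.m * (D.M * q))
    (ht : Q1.take L = Q2.take L) (hp : φ (Q1.drop L) = φ (Q2.drop L))
    (i : Fin D.m) (g : S) (wl : W) (h : S) (wr : W) (v : V) :
    D.RR φ i g wl h wr v Q1 ↔ D.RR φ i g wl h wr v Q2 := by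
  have hAm : D.Am D.m ≤ Q1.length := by omega
  have hk : ∀ k, (i:ℕ) < k → k ≤ D.m →
      Q2.length - D.rq i Q2.length k = Q1.length - D.rq i Q1.length k ∧
      Q1.length - D.rq i Q1.length k ≤ L := by
    intro k hik hkm
    obtain ⟨w, hw⟩ := hD.dvd hkm
    have e1 : Q2.length = Q1.length + D.G k * (w * (D.M * q)) := by
      rw [hle, hw, mul_assoc]
    have e2 := rq_add hD (q := w * (D.M * q)) hik hkm hAm
    have e3 := rq_le hD hik hkm hAm
    have e4 := hD.mono hkm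
    have e5 := hD.Gle hkm
    rw [e1, e2]
    omega
  have hG : D.G i ∣ Q1.length ↔ D.G i ∣ Q2.length := by
    rw [hle]
    have : D.G i ∣ D.G D.m * (D.M * q) := Dvd.dvd.mul_right (hD.dvd i.2.le) _
    exact (Nat.dvd_add_left this).symm
  have hRN : D.RN Q1.length (i, g, wl, h, wr, v) ↔ D.RN Q2.length (i, g, wl, h, wr, v) := by
    refine per_iff (p := fun t => D.RN t (i, g, wl, h, wr, v)) (fun t => hN.perR t _) ?_
    rw [hle]
    have : D.G D.m * (D.M * q) = D.M * (D.G D.m * q) := by ring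
    rw [this]
    unfold Nat.ModEq
    rw [Nat.add_mul_mod_self_left]
  have hV : D.Vis i Q1.length ↔ D.Vis i Q2.length := by
    rw [hle, vis_add hD hAm]
  have hh : φ (Q1.drop (Q1.length - D.rq i Q1.length (i + 1))) =
      φ (Q2.drop (Q2.length - D.rq i Q2.length (i + 1))) := by
    obtain ⟨e1, e2⟩ := hk (i + 1) (Nat.lt_succ_self _) i.2
    rw [e1, phi_drop hφ e2, phi_drop hφ (Q := Q2) e2, ht, hp]
  have hs : (∑ k ∈ Ico ((i : ℕ) + 1) D.m, D.e k (φ (seg Q1 (Q1.length - D.rq i Q1.length k)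
    (Q1.length - D.rq i Q1.length (k + 1))))) = ∑ k ∈ Ico ((i : ℕ) + 1) D.m, D.e k (φ (seg Q2 (Q2.length - D.rq i Q2.length k)
    (Q2.length - D.rq i Q2.length (k + 1)))) := by
    refine Finset.sum_congr rfl fun k hk' => ?_
    obtain ⟨hk1, hk2⟩ := Finset.mem_Ico.1 hk'
    obtain ⟨e1, e2⟩ := hk k (by omega) (by omega)
    obtain ⟨e3, e4⟩ := hk (k + 1) (by omega) (by omega)
    rw [e1, e3, seg_take e4, ht, ← seg_take e4]
  unfold Grid.RR
  rw [hG, hRN, hV, hh, hs]
  constructor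
  · rintro ⟨a1, a2, a3, a4, a5, a6⟩
    exact ⟨a1, a2, by omega, a4, a5, a6⟩
  · rintro ⟨a1, a2, a3, a4, a5, a6⟩
    exact ⟨a1, a2, by omega, a4, a5, a6⟩

theorem Rf_congr (hD : Geo D) {good : ℕ → Prop} (hN : Names D good) {φ : List α → S}
    (hφ : ∀ u v, φ (u ++ v) = φ u * φ v) {L : ℕ} (hL : D.Am D.m + D.G D.m ≤ L) {Q1 Q2 : List α}
    (h1 : L ≤ Q1.length) (h2 : L ≤ Q2.length) (ht : Q1.take L = Q2.take L)
    (hm : Q1.length % (D.M * D.G D.m) = Q2.length % (D.M * D.G D.m))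
    (hp : φ (Q1.drop L) = φ (Q2.drop L)) : D.Rf φ Q1 = D.Rf φ Q2 := by
  have key : ∀ Q1 Q2 : List α, L ≤ Q1.length → Q1.take L = Q2.take L →
      Q1.length % (D.M * D.G D.m) = Q2.length % (D.M * D.G D.m) → φ (Q1.drop L) = φ (Q2.drop L) →
      Q1.length ≤ Q2.length → D.Rf φ Q1 = D.Rf φ Q2 := by
    intro Q1 Q2 h1 ht hm hp hle
    obtain ⟨q, hq⟩ := (Nat.modEq_iff_dvd' hle).1 hm
    have hle' : Q2.length = Q1.length + D.G D.m * (D.M * q) := by
      have : D.M * D.G D.m * q = D.G D.m * (D.M * q) := by ring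
      rw [← this]; omega
    rw [Rf_eq, Rf_eq]
    congr 1
    funext c
    exact propext (RR_congr hD hN hφ hL h1 hle' ht hp _ _ _ _ _ _)
  rcases le_total Q1.length Q2.length with h | h
  · exact key Q1 Q2 h1 ht hm hp h
  · exact (key Q2 Q1 h2 ht.symm hm.symm hp.symm h).symm

end FS

/-- finite-state property of a function on words -/
def FS {α S X : Type*} (φ : List α → S) (L Pm : ℕ) (f : List α → X) : Prop :=
  ∀ Q1 Q2 : List α, L ≤ Q1.length → L ≤ Q2.length → Q1.take L = Q2.take L →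
    Q1.length % Pm = Q2.length % Pm → φ (Q1.drop L) = φ (Q2.drop L) → f Q1 = f Q2

/-- 646's closed form with the finite-state property. -/
theorem gadget {S V : Type*} [Monoid S] [Finite S] [AddCommGroup V] [Finite V]
    (act : V → S → V) :
    ∃ m r : ℕ, 0 < m ∧ ∀ B : ℕ, ∃ (Ms : Finset ℕ) (M : ℕ), Ms.card ≤ r ∧
      (∀ k ∈ Ms, k.Prime ∧ B < k) ∧ M = ∏ k ∈ Ms, k ∧
      ∀ (G Am : ℕ → ℕ), (∀ j, 0 < G j) → (∀ j, G j ∣ G (j + 1)) → (∀ j, Nat.Coprime (G j) M) →
        (∀ j, Am j + G j + M * G j ≤ Am (j + 1)) →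
        ∀ {α : Type*} (φ : List α → S), (∀ u v, φ (u ++ v) = φ u * φ v) →
          ∃ (lam rho : List α → Option V) (nu : List α → V),
            (∀ P Q v r, lam P = some v → rho Q = some r → r = act v (φ (P ++ Q)) + nu (P ++ Q)) ∧
            (∀ P v, lam P = some v → P.length < Am m) ∧
            (∀ Q r, rho Q = some r → Am m ≤ Q.length) ∧
            (∀ Y : List α, (∀ k ∈ Ms, ¬ k ∣ Y.length) → 2 * Am m ≤ Y.length →
              (∀ k, k < m → M * G k ≤ (Y.length - Am (k + 1)) % G (k + 1) ∧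
                (Y.length - Am (k + 1)) % G (k + 1) + M * G k ≤ G (k + 1)) →
              ∀ v, ∃ P Q, P ++ Q = Y ∧ lam P = some v ∧ (rho Q).isSome) ∧
            (∀ L, Am m + G m ≤ L → FS φ L (M * G m) rho) := by
  classical
  have := Fintype.ofFinite S
  have := Fintype.ofFinite V
  obtain ⟨m, N, e, F, hN, hF⟩ := RandF808.exists_noise S V act
  have hm : 0 < m := by
    obtain ⟨i, hi, -⟩ := hF 1 0 0
    omega
  have : NeZero N := ⟨by omega⟩
  obtain ⟨r, hr⟩ := Names_570.exists_names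
    (N := Fin m × S × (ZMod N × ZMod N) × S × (ZMod N × ZMod N) × V) (C := V × V)
    (GridI_646.colour act e F)
  refine ⟨m, r, hm, fun B => ?_⟩
  obtain ⟨Ms, nmL, nmR, h1, h2, h3, h4, h5, h6, h7⟩ := hr B
  refine ⟨Ms, ∏ k ∈ Ms, k, h1, h2, rfl, ?_⟩
  intro G Am hG1 hG2 hG3 hG4 α φ hφ
  let D : Grid S V (ZMod N × ZMod N) :=
    ⟨act, m, e, F, G, Am, ∏ k ∈ Ms, k, fun o c => nmL o = some c, fun o c => nmR o = some c⟩
  have hD : Geo D := ⟨hG1, hG2, hG3, Finset.prod_pos fun k hk => (h2 k hk).1.pos, hG4⟩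
  have hNm : Names D (fun T => ∀ k ∈ Ms, ¬ k ∣ T) := by
    refine ⟨?_, ?_, ?_, ?_, ?_⟩
    · intro t c
      show nmL (t + ∏ k ∈ Ms, k) = some c ↔ nmL t = some c
      rw [h3]
    · intro t c
      show nmR (t + ∏ k ∈ Ms, k) = some c ↔ nmR t = some c
      rw [h4]
    · intro T hT o o' c c' ho hL hR
      exact h5 o o' c c' (by rw [ho]; exact hT) hL hR
    · intro T hT c s hs
      obtain ⟨t, t1, t2, t3, t4, t5⟩ := h6 T c s hT (by exact hs.trans (Nat.le_succ _))
      exact ⟨t, t1, t2, t4, t5⟩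
    · intro T hT
      have hT' : ∃ k ∈ Ms, k ∣ T := by
        by_contra hcon
        exact hT fun k hk hd => hcon ⟨k, hk, hd⟩
      by_cases hex : ∃ o o' c c', o + o' = T ∧ nmL o = some c ∧ nmR o' = some c'
      · obtain ⟨o, o', c, c', ho, hL, hR⟩ := hex
        refine ⟨(GridI_646.colour act e F c).1, (GridI_646.colour act e F c').2, ?_⟩
        intro o2 o2' c2 c2' ho2 hL2 hR2
        rcases h7 o o' o2 o2' c c' c2 c2' (by rw [ho, ho2]) (by rw [ho]; exact hT') hL hR hL2 hR2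
          with ⟨q1, q2⟩ | ⟨q1, q2, q3⟩
        · subst q1 q2
          exact ⟨rfl, rfl⟩
        · subst q1 q2
          have e1 := congrArg Prod.fst q3
          have e2 := congrArg Prod.snd q3
          exact ⟨e1.symm, e2⟩
      · refine ⟨0, 0, ?_⟩
        intro o o' c c' ho hL hR
        exact absurd ⟨o, o', c, c', ho, hL, hR⟩ hex
  obtain ⟨nu, k1, k2, k3, k4⟩ := gadget0 D (fun T => ∀ k ∈ Ms, ¬ k ∣ T) hD hNm hF φ hφ
  refine ⟨D.Lf φ, D.Rf φ, nu, k1, k2, k3, k4, ?_⟩
  intro L hL Q1 Q2 q1 q2 ht hmd hp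
  exact Rf_congr hD hNm hφ hL q1 q2 ht hmd hp

/-- the semantic noise -/
noncomputable def nuS {α S V : Type*} [AddCommGroup V] (act : V → S → V) (φ : List α → S)
    (lam rho : List α → Option V) (Y : List α) : V :=
  open Classical in
  if h : ∃ x : V, ∃ P Q v r, P ++ Q = Y ∧ lam P = some v ∧ rho Q = some r ∧ x = r - act v (φ Y) then
    h.choose else 0

theorem nuS_eq {α S V : Type*} [AddCommGroup V] (act : V → S → V) (φ : List α → S)
    (lam rho : List α → Option V) (nu : List α → V)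
    (hs : ∀ P Q v r, lam P = some v → rho Q = some r → r = act v (φ (P ++ Q)) + nu (P ++ Q))
    {P Q : List α} {v r : V} (h1 : lam P = some v) (h2 : rho Q = some r) :
    r = act v (φ (P ++ Q)) + nuS act φ lam rho (P ++ Q) := by
  have h : ∃ x : V, ∃ P' Q' v r, P' ++ Q' = P ++ Q ∧ lam P' = some v ∧ rho Q' = some r ∧
      x = r - act v (φ (P ++ Q)) := ⟨_, P, Q, v, r, rfl, h1, h2, rfl⟩
  have h3 : nuS act φ lam rho (P ++ Q) = h.choose := by
    unfold nuS; rw [dif_pos h]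
  obtain ⟨P', Q', v', r', e1, e2, e3, e4⟩ := h.choose_spec
  rw [h3, e4]
  have e5 := hs P Q v r h1 h2
  have e6 := hs P' Q' v' r' e2 e3
  rw [e1] at e6
  rw [e5, e6]; abel

theorem nuS_FS {α S V : Type*} [Monoid S] [AddCommGroup V] (act : V → S → V) (φ : List α → S)
    (hφ : ∀ u v, φ (u ++ v) = φ u * φ v)
    (lam rho : List α → Option V) {N L Pm : ℕ} (hlam : ∀ P v, lam P = some v → P.length < N)
    (hrho : FS φ L Pm rho) {L' : ℕ} (hL' : N + L ≤ L') : FS φ L' Pm (nuS act φ lam rho) := by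
  have one : ∀ Y1 Y2 : List α, L' ≤ Y1.length → L' ≤ Y2.length → Y1.take L' = Y2.take L' →
      Y1.length % Pm = Y2.length % Pm → φ (Y1.drop L') = φ (Y2.drop L') → ∀ x : V,
      (∃ P Q v r, P ++ Q = Y1 ∧ lam P = some v ∧ rho Q = some r ∧ x = r - act v (φ Y1)) →
      (∃ P Q v r, P ++ Q = Y2 ∧ lam P = some v ∧ rho Q = some r ∧ x = r - act v (φ Y2)) := by
    intro Y1 Y2 h1 h2 ht hm hp x
    rintro ⟨P, Q, v, r, e1, e2, e3, e4⟩
    have hP := hlam P v e2
    have hφY : φ Y1 = φ Y2 := by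
      rw [← List.take_append_drop L' Y1, ← List.take_append_drop L' Y2, hφ, hφ, ht, hp]
    have hQ : Q = Y1.drop P.length := by rw [← e1, List.drop_left]
    have hP2 : P = Y2.take P.length := by
      have h3 : P = Y1.take P.length := by rw [← e1, List.take_left]
      have h4 : Y1.take P.length = (Y1.take L').take P.length := by
        rw [List.take_take, min_eq_left (by omega)]
      have h5 : Y2.take P.length = (Y2.take L').take P.length := by
        rw [List.take_take, min_eq_left (by omega)]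
      rw [h5, ← ht, ← h4]; exact h3
    refine ⟨P, Y2.drop P.length, v, r, ?_, e2, ?_, by rw [← hφY]; exact e4⟩
    · conv_lhs => rw [hP2]
      rw [List.length_take, min_eq_left (by omega)]
      exact List.take_append_drop _ _
    · rw [← e3, hQ]
      refine hrho _ _ ?_ ?_ ?_ ?_ ?_
      · rw [List.length_drop]; omega
      · rw [List.length_drop]; omega
      · have s1 : ∀ Y : List α, (Y.drop P.length).take L = seg (Y.take L') P.length (P.length + L) := by
          intro Y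
          rw [← seg_take (Q := Y) (by omega)]
          unfold seg
          rw [Nat.add_sub_cancel_left]
        rw [s1, s1, ht]
      · rw [List.length_drop, List.length_drop]
        have h6 : (Y2.length - P.length) + P.length ≡ (Y1.length - P.length) + P.length [MOD Pm] := by
          rw [Nat.sub_add_cancel (by omega), Nat.sub_add_cancel (by omega)]
          exact hm.symm
        exact Nat.ModEq.add_right_cancel' _ h6
      · rw [List.drop_drop, List.drop_drop, phi_drop hφ (L := L') (by omega),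
          phi_drop hφ (Q := Y1) (L := L') (by omega), ht, hp]
  intro Y1 Y2 h1 h2 ht hm hp
  have hpred : (fun x : V => ∃ P Q v r, P ++ Q = Y1 ∧ lam P = some v ∧ rho Q = some r ∧ x = r - act v (φ Y1)) =
      (fun x : V => ∃ P Q v r, P ++ Q = Y2 ∧ lam P = some v ∧ rho Q = some r ∧ x = r - act v (φ Y2)) := by
    funext x
    exact propext ⟨one Y1 Y2 h1 h2 ht hm hp x, one Y2 Y1 h2 h1 ht.symm hm.symm hp.symm x⟩
  have hgen : ∀ p q : V → Prop, p = q →
      (open Classical in (if h : ∃ x : V, p x then h.choose else 0)) =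
      (open Classical in (if h : ∃ x : V, q x then h.choose else (0:V))) := by
    intro p q hpq; subst hpq; rfl
  exact hgen _ _ hpred

/-- the thin bad set -/
def BadT (G Am : ℕ → ℕ) (M m : ℕ) (Ms : Finset ℕ) (T : ℕ) : Prop :=
  (∃ k ∈ Ms, k ∣ T) ∨ ∃ k < m, ((T + (G (k+1) * Am (k+1) - Am (k+1))) % G (k+1) < M * G k ∨
    G (k+1) < (T + (G (k+1) * Am (k+1) - Am (k+1))) % G (k+1) + M * G k)

theorem badT_per {G Am : ℕ → ℕ} {M m : ℕ} {Ms : Finset ℕ} (hk : ∀ k ∈ Ms, k ∣ M)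
    (hG : ∀ k < m, G (k+1) ∣ G m) (T : ℕ) : BadT G Am M m Ms (T + M * G m) ↔ BadT G Am M m Ms T := by
  unfold BadT
  refine or_congr ?_ ?_
  · refine exists_congr fun k => and_congr_right fun hk' => ?_
    exact Nat.dvd_add_left (Dvd.dvd.mul_right (hk k hk') _)
  · refine exists_congr fun k => and_congr_right fun hk' => ?_
    obtain ⟨w, hw⟩ := hG k hk'
    have e : T + M * G m + (G (k+1) * Am (k+1) - Am (k+1)) =
        (T + (G (k+1) * Am (k+1) - Am (k+1))) + G (k+1) * (M * w) := by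
      rw [hw]; ring
    rw [e, Nat.add_mul_mod_self_left]

theorem badT_not {G Am : ℕ → ℕ} {M m : ℕ} {Ms : Finset ℕ} (hG : ∀ k, 0 < G k) {T : ℕ}
    (hT : ∀ k < m, Am (k+1) ≤ T) (h : ¬ BadT G Am M m Ms T) :
    (∀ k ∈ Ms, ¬ k ∣ T) ∧ (∀ k, k < m → M * G k ≤ (T - Am (k + 1)) % G (k + 1) ∧
                (T - Am (k + 1)) % G (k + 1) + M * G k ≤ G (k + 1)) := by
  unfold BadT at h
  push Not at h
  refine ⟨h.1, fun k hk => ?_⟩
  have h2 := h.2 k hk
  have h3 : Am (k+1) ≤ G (k+1) * Am (k+1) := Nat.le_mul_of_pos_left _ (hG _)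
  have h4 := hT k hk
  have e : T + (G (k+1) * Am (k+1) - Am (k+1)) = (T - Am (k+1)) + G (k+1) * Am (k+1) := by omega
  rw [e, Nat.add_mul_mod_self_left] at h2
  exact h2

/-- sum of scales -/
def ZG (G : ℕ → ℕ) (M : ℕ) : ℕ → ℕ
  | 0 => 1
  | j + 1 => ZG G M j + M * G j

theorem ZG_congr {G : ℕ → ℕ} {M : ℕ} (hG : ∀ i j, i ≤ j → G i ∣ G j) {l j : ℕ} (h : l ≤ j) :
    ∃ z, ZG G M j = ZG G M l + G l * z := by
  induction j, h using Nat.le_induction with
  | base => exact ⟨0, by ring⟩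
  | succ j hj ih =>
    obtain ⟨z, hz⟩ := ih
    obtain ⟨w, hw⟩ := hG l j hj
    exact ⟨z + M * w, by simp only [ZG]; rw [hz, hw]; ring⟩

theorem ZG_mod {G : ℕ → ℕ} {M k : ℕ} (hk : k ∣ M) (j : ℕ) : ∃ z, ZG G M j = 1 + k * z := by
  obtain ⟨w, rfl⟩ := hk
  induction j with
  | zero => exact ⟨0, rfl⟩
  | succ j ih =>
    obtain ⟨z, hz⟩ := ih
    exact ⟨z + w * G j, by simp only [ZG]; rw [hz]; ring⟩

theorem ZG_le {G : ℕ → ℕ} {M : ℕ} (hM : 0 < M) (hG0 : 0 < G 0) (h2 : ∀ j, 2 * G j ≤ G (j+1)) (j : ℕ) :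
    ZG G M j ≤ M * G j := by
  induction j with
  | zero => simp only [ZG]; exact Nat.mul_pos hM hG0
  | succ j ih =>
    simp only [ZG]
    have : M * (2 * G j) ≤ M * G (j+1) := Nat.mul_le_mul_left _ (h2 j)
    have e : M * (2 * G j) = M * G j + M * G j := by ring
    omega

open Classical in
theorem thin {K m M : ℕ} {G Am : ℕ → ℕ} {Ms : Finset ℕ} (hM : 0 < M) (hG : ∀ j, 0 < G j)
    (hGd : ∀ i j, i ≤ j → G i ∣ G j) (hGb : ∀ j, 2^(K+10) * (M * G j) ≤ G (j+1))
    (hMs : ∀ k ∈ Ms, 2^(K+10) ≤ k ∧ k ∣ M) (L : ℕ) :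
    ∀ T, (∀ a < K, 2^a * (16 * (ZG G M m + M * G m * L)) ≤ T) →
      (((range K ×ˢ range K).filter (fun ab : ℕ × ℕ => ab.1 ≠ ab.2 ∧
        BadT G Am M m Ms (T + 2^ab.1 * (16 * (ZG G M m + M * G m * L)) -
          2^ab.2 * (16 * (ZG G M m + M * G m * L))))).card ≤ Ms.card + m) := by
  intro T hT
  set Z : ℕ := ZG G M m + M * G m * L with hZdef
  set D := (range K ×ˢ range K).filter (fun ab : ℕ × ℕ => ab.1 ≠ ab.2) with hD
  let Y : ℕ × ℕ → ℕ := fun ab => T + 2^ab.1 * (16 * Z) - 2^ab.2 * (16 * Z)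
  have hY : ∀ ab ∈ D, ((Y ab : ℕ) : ℤ) = (T:ℤ) + 16 * 2^ab.1 * Z - 16 * 2^ab.2 * Z := by
    intro ab hab
    rw [hD, Finset.mem_filter, Finset.mem_product, Finset.mem_range, Finset.mem_range] at hab
    have h2 := hT ab.2 hab.1.2
    have h3 : 2^ab.2 * (16 * Z) ≤ T + 2^ab.1 * (16 * Z) := by omega
    simp only [Y]
    rw [Nat.cast_sub h3]; push_cast; ring
  have h1024 : 1024 ≤ 2^(K+10) := by
    have : (2:ℕ)^10 ≤ 2^(K+10) := Nat.pow_le_pow_right (by norm_num) (by omega)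
    simpa using this
  have h2G : ∀ j, 2 * G j ≤ G (j+1) := by
    intro j
    refine le_trans ?_ (hGb j)
    have h3 : 1 * G j ≤ M * G j := Nat.mul_le_mul_right _ hM
    have h4 : 1024 * (M * G j) ≤ 2^(K+10) * (M * G j) := Nat.mul_le_mul_right _ h1024
    omega
  have one : ∀ (c s P t : ℕ) (C : ℕ → Prop) (inst : DecidablePred (fun ab : ℕ × ℕ => C (Y ab))), 0 < s →
      2^(K+10) * s ≤ P → s ≤ t → t ≤ 2 * s →
      (∃ z : ℤ, (Z : ℤ) = t + P * z) →
      (∀ y, C y → ∃ q : ℤ, -(s:ℤ) ≤ ((y:ℤ) + c) - P * q ∧ ((y:ℤ) + c) - P * q ≤ s) →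
      (@Finset.filter _ (fun ab => C (Y ab)) inst D).card ≤ 1 := by
    intro c s P t C inst hs hP ht1 ht2 hz hC
    rw [Finset.card_le_one]
    intro p hp q hq
    rw [Finset.mem_filter] at hp hq
    have hp1 := hY p hp.1
    have hq1 := hY q hq.1
    obtain ⟨u1, hp2, hp3⟩ := hC _ hp.2
    obtain ⟨u2, hq2, hq3⟩ := hC _ hq.2
    have hpD := hp.1
    have hqD := hq.1
    rw [hD, Finset.mem_filter, Finset.mem_product, Finset.mem_range, Finset.mem_range] at hpD hqD
    rw [hp1] at hp2 hp3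
    rw [hq1] at hq2 hq3
    obtain ⟨h3, h4⟩ := Spoil_56.key K s P t Z (T + c) hs hP ht1 ht2 hz hpD.1.1 hpD.1.2 hqD.1.1 hqD.1.2 hpD.2
      ⟨u1, by push_cast; linarith, by push_cast; linarith⟩ ⟨u2, by push_cast; linarith, by push_cast; linarith⟩
    exact Prod.ext h3 h4
  have cii : ∀ k ∈ Ms, (D.filter (fun ab => k ∣ Y ab)).card ≤ 1 := by
    intro k hk
    obtain ⟨hk1, hk2⟩ := hMs k hk
    refine one 0 1 k 1 (fun y => k ∣ y) _ one_pos (by omega) (by omega) (by omega) ?_ ?_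
    · obtain ⟨z, hz⟩ := ZG_mod (G := G) hk2 m
      obtain ⟨w, hw⟩ := hk2
      refine ⟨z + w * G m * L, ?_⟩
      rw [hZdef, hz, hw]; push_cast; ring
    · intro y hy
      obtain ⟨w, rfl⟩ := hy
      exact ⟨w, by push_cast; linarith, by push_cast; linarith⟩
  have ciii : ∀ j < m, (D.filter (fun ab => ((Y ab + (G (j+1) * Am (j+1) - Am (j+1))) % G (j+1) < M * G j ∨
    G (j+1) < (Y ab + (G (j+1) * Am (j+1) - Am (j+1))) % G (j+1) + M * G j))).card ≤ 1 := by
    intro j hj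
    have hMG : 0 < M * G j := Nat.mul_pos hM (hG j)
    refine one (G (j+1) * Am (j+1) - Am (j+1)) (M * G j) (G (j+1)) (ZG G M (j+1))
      (fun y => ((y + (G (j+1) * Am (j+1) - Am (j+1))) % G (j+1) < M * G j ∨
        G (j+1) < (y + (G (j+1) * Am (j+1) - Am (j+1))) % G (j+1) + M * G j)) _ hMG (hGb j) ?_ ?_ ?_ ?_
    · simp only [ZG]; omega
    · simp only [ZG]
      have := ZG_le hM (hG 0) h2G j
      omega
    · obtain ⟨z, hz⟩ := ZG_congr (M := M) hGd (show j + 1 ≤ m from hj)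
      obtain ⟨w, hw⟩ := hGd (j+1) m hj
      refine ⟨z + M * w * L, ?_⟩
      rw [hZdef, hz, hw]; push_cast; ring
    · intro y hy
      generalize G (j+1) * Am (j+1) - Am (j+1) = c at hy ⊢
      have hmod := Nat.div_add_mod (y + c) (G (j+1))
      have hlt := Nat.mod_lt (y + c) (hG (j+1))
      generalize (y + c) % G (j+1) = σ at *
      generalize (y + c) / G (j+1) = u at *
      have h3 : (G (j+1):ℤ) * u + σ = (y:ℤ) + c := by exact_mod_cast hmod
      rcases hy with hy | hy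
      · refine ⟨u, ?_, ?_⟩
        · rw [← h3]
          have : (0:ℤ) ≤ ((M * G j : ℕ):ℤ) := by positivity
          have : (0:ℤ) ≤ σ := by positivity
          linarith
        · rw [← h3]
          have : (σ:ℤ) < ((M * G j : ℕ):ℤ) := by exact_mod_cast hy
          linarith
      · refine ⟨u + 1, ?_, ?_⟩
        · rw [← h3, mul_add]
          have : ((G (j+1) : ℕ):ℤ) < σ + ((M * G j : ℕ):ℤ) := by exact_mod_cast hy
          linarith
        · rw [← h3, mul_add]
          have h5 : (0:ℤ) ≤ ((M * G j : ℕ):ℤ) := by positivity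
          have : (σ:ℤ) < (G (j+1) : ℕ) := by exact_mod_cast hlt
          linarith
  have hsub : ((range K ×ˢ range K).filter (fun ab : ℕ × ℕ => ab.1 ≠ ab.2 ∧
        BadT G Am M m Ms (T + 2^ab.1 * (16 * Z) - 2^ab.2 * (16 * Z)))) ⊆
      (Ms.biUnion (fun k => D.filter (fun ab => k ∣ Y ab))) ∪
      ((range m).biUnion (fun j => D.filter (fun ab =>
        ((Y ab + (G (j+1) * Am (j+1) - Am (j+1))) % G (j+1) < M * G j ∨
        G (j+1) < (Y ab + (G (j+1) * Am (j+1) - Am (j+1))) % G (j+1) + M * G j)))) := by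
    intro ab hab
    rw [Finset.mem_filter] at hab
    obtain ⟨hab1, hab2, hab3⟩ := hab
    have habD : ab ∈ D := by rw [hD, Finset.mem_filter]; exact ⟨hab1, hab2⟩
    simp only [Finset.mem_union, Finset.mem_biUnion, Finset.mem_filter, Finset.mem_range]
    rcases hab3 with ⟨k, hk, h⟩ | ⟨j, hj, h⟩
    · left; exact ⟨k, hk, habD, h⟩
    · right; exact ⟨j, hj, habD, h⟩
  refine le_trans (Finset.card_le_card hsub) (le_trans (Finset.card_union_le _ _) ?_)
  refine Nat.add_le_add ?_ ?_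
  · refine le_trans Finset.card_biUnion_le (le_trans (Finset.sum_le_sum cii) ?_)
    simp
  · refine le_trans Finset.card_biUnion_le ?_
    refine le_trans (Finset.sum_le_sum (g := fun _ => 1) fun j hj => ciii j (Finset.mem_range.1 hj)) ?_
    simp

/-- the grid -/
def AmG (G : ℕ → ℕ) (M : ℕ) : ℕ → ℕ
  | 0 => 0
  | j + 1 => AmG G M j + G j + M * G j

open Classical in
/-- **MASTER BLACK BOX.** -/
theorem master {S V : Type*} [Monoid S] [Finite S] [AddCommGroup V] [Finite V] (act : V → S → V) :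
    ∃ C0 : ℕ, ∀ K : ℕ, ∃ (N La Pm : ℕ) (Bad : ℕ → Prop), 0 < N ∧ 2 * N ≤ La ∧ 0 < Pm ∧
      (∀ T, Bad (T + Pm) ↔ Bad T) ∧
      (∀ X0 : ℕ, ∃ X : ℕ, X0 ≤ X ∧ ∀ T, (∀ a < K, 2^a * X ≤ T) →
        ((range K ×ˢ range K).filter (fun ab : ℕ × ℕ => ab.1 ≠ ab.2 ∧
          Bad (T + 2^ab.1 * X - 2^ab.2 * X))).card ≤ C0) ∧
      ∀ {α : Type*} (φ : List α → S), (∀ u v, φ (u ++ v) = φ u * φ v) →
        ∃ (lam rho : List α → Option V) (nu : List α → V),
          (∀ P v, lam P = some v → P.length < N) ∧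
          (∀ Q r, rho Q = some r → N ≤ Q.length) ∧
          (∀ P Q v r, lam P = some v → rho Q = some r → r = act v (φ (P ++ Q)) + nu (P ++ Q)) ∧
          (∀ Y : List α, La ≤ Y.length → ¬ Bad Y.length →
            ∀ v, ∃ P Q, P ++ Q = Y ∧ lam P = some v ∧ (rho Q).isSome) ∧
          FS φ La Pm rho ∧ FS φ La Pm nu := by
  obtain ⟨m, r, hm, hB⟩ := gadget act
  refine ⟨r + m, fun K => ?_⟩
  obtain ⟨Ms, M, hcard, hprime, hM, hG⟩ := hB (2^(K+10))
  have hMpos : 0 < M := by rw [hM]; exact Finset.prod_pos fun k hk => (hprime k hk).1.pos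
  have hdvd : ∀ k ∈ Ms, k ∣ M := fun k hk => by rw [hM]; exact Finset.dvd_prod_of_mem _ hk
  have h1024 : 1024 ≤ 2^(K+10) := by
    have : (2:ℕ)^10 ≤ 2^(K+10) := Nat.pow_le_pow_right (by norm_num) (by omega)
    simpa using this
  have hcop : Nat.Coprime 2 M := by
    rw [hM]
    refine Nat.Coprime.prod_right fun k hk => ?_
    rw [Nat.coprime_primes Nat.prime_two (hprime k hk).1]
    have := (hprime k hk).2
    omega
  let G : ℕ → ℕ := fun j => (2^(K+10+M))^j
  have hGpos : ∀ j, 0 < G j := fun j => by positivity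
  have hGd : ∀ i j, i ≤ j → G i ∣ G j := fun i j h => pow_dvd_pow _ h
  have hGc : ∀ j, Nat.Coprime (G j) M := fun j => Nat.Coprime.pow_left _ (Nat.Coprime.pow_left _ hcop)
  have hGb : ∀ j, 2^(K+10) * (M * G j) ≤ G (j+1) := by
    intro j
    have h1 : M ≤ 2^M := Nat.lt_two_pow_self.le
    have h2 : G (j+1) = 2^(K+10) * (2^M * G j) := by
      simp only [G]; rw [pow_succ, pow_add 2 (K+10) M]; ring
    rw [h2]
    exact Nat.mul_le_mul_left _ (Nat.mul_le_mul_right _ h1)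
  let Am : ℕ → ℕ := AmG G M
  have hAm : ∀ j, Am j + G j + M * G j ≤ Am (j+1) := fun j => le_rfl
  have hmono : ∀ i j, i ≤ j → Am i ≤ Am j := fun i j h =>
    monotone_nat_of_le_succ (fun k => by have := hAm k; omega) h
  have hAmpos : 0 < Am m := by
    obtain ⟨m', rfl⟩ : ∃ m', m = m' + 1 := ⟨m - 1, by omega⟩
    have := hAm m'
    have := hGpos m'
    omega
  refine ⟨Am m, 2 * Am m + G m, M * G m, BadT G Am M m Ms, hAmpos, by omega,
    Nat.mul_pos hMpos (hGpos m), badT_per hdvd (fun k hk => hGd _ _ hk), ?_, ?_⟩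
  · intro X0
    refine ⟨16 * (ZG G M m + M * G m * X0), ?_, ?_⟩
    · have h1 : 0 < M * G m := Nat.mul_pos hMpos (hGpos m)
      have h2 : 1 * X0 ≤ M * G m * X0 := Nat.mul_le_mul_right _ h1
      omega
    · intro T hT
      refine le_trans (thin hMpos hGpos hGd hGb (fun k hk => ⟨(hprime k hk).2.le, hdvd k hk⟩) X0 T hT) ?_
      omega
  · intro α φ hφ
    obtain ⟨lam, rho, nu, h1, h2, h3, h4, h5⟩ := hG G Am hGpos (fun j => hGd _ _ (Nat.le_succ j)) hGc hAm φ hφ
    refine ⟨lam, rho, nuS act φ lam rho, h2, h3, ?_, ?_, h5 _ (by omega), ?_⟩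
    · intro P Q v r hP hQ
      exact nuS_eq act φ lam rho nu h1 hP hQ
    · intro Y hY hbad v
      obtain ⟨b1, b2⟩ := badT_not hGpos (T := Y.length) (fun k hk => by
        have := hmono (k+1) m hk; omega) hbad
      exact h4 Y b1 (by omega) b2 v
    · exact nuS_FS act φ hφ lam rho h2 (h5 (Am m + G m) le_rfl) (by omega)

end Crest.Agent.R320.W_56
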