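import Mathlib

/-!
# Row 320, leaves (3) and (4): 818's junction lemma and 860's two-chain lemma

Pure statements on sets of integers.  `W` is the set of walls, `nextWall W y` the first wall
`≥ y`.  `junction` is 818's lemma: the next anchor `N(a) = first wall ≥ a + z` is read off
correctly by the right side at every legal junction.  `not_both` is 860's lemma: on rigid walls
(all gaps `L` or `L + 1`) a critical chain with jump `z₁` and a critical chain with jump
`z₂ = z₁ + 2 L + L / 2` cannot run together.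
-/

set_option autoImplicit false

namespace Crest.Agent.R320.Wall_913

/-- `b` is the first wall `≥ y`. -/
def FirstWall (W : Set ℤ) (y b : ℤ) : Prop := b ∈ W ∧ y ≤ b ∧ ∀ t ∈ W, y ≤ t → b ≤ t

theorem FirstWall.unique {W : Set ℤ} {y b b' : ℤ} (h : FirstWall W y b) (h' : FirstWall W y b') :
    b = b' := le_antisymm (h.2.2 b' h'.1 h'.2.1) (h'.2.2 b h.1 h.2.1)

/-- 818's lemma: if there is no wall in `[x + q, x + q + M)`, then for every anchor `a` with
`x = a + p + j`, `0 ≤ j ≤ M`, and `z = p + q + M` the first wall `≥ a + z` is the first wall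
`≥ x + q + M`. -/
theorem junction {W : Set ℤ} {a x p q M j z b : ℤ} (hx : x = a + p + j) (hj : 0 ≤ j) (hjM : j ≤ M)
    (hz : z = p + q + M) (hno : ∀ t ∈ W, ¬ (x + q ≤ t ∧ t < x + q + M)) :
    FirstWall W (x + q + M) b ↔ FirstWall W (a + z) b := by
  constructor
  · rintro ⟨hb, hb1, hb2⟩
    refine ⟨hb, by omega, fun t ht hat => ?_⟩
    by_cases h : x + q + M ≤ t
    · exact hb2 t ht h
    · exact absurd ⟨by omega, by omega⟩ (hno t ht)
  · rintro ⟨hb, hb1, hb2⟩
    refine ⟨hb, ?_, fun t ht hat => hb2 t ht (by omega)⟩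
    by_contra h
    exact hno b hb ⟨by omega, by omega⟩

/-- If no wall lies strictly between `t₁` and `t₂`, then all offsets `j` with
`t₁ < a + z - (M - j)` and `a + z + j ≤ t₂` are usable. -/
theorem usable {W : Set ℤ} {a p q M z t₁ t₂ : ℤ} (hz : z = p + q + M)
    (h : ∀ t ∈ W, ¬ (t₁ < t ∧ t < t₂)) {j : ℤ} (h1 : t₁ < a + z - (M - j))
    (h2 : a + z + j ≤ t₂) : ∀ t ∈ W, ¬ (a + p + j + q ≤ t ∧ t < a + p + j + q + M) := by
  intro t ht hh
  exact h t ht ⟨by omega, by omega⟩

/-- If `a + z` is at distance `≥ n` from every wall, `n ≤ M`, there is an interval of `n - 1`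
consecutive usable offsets in `[0, M]`. -/
theorem exists_usable {W : Set ℤ} {a p q M z n : ℤ} (hz : z = p + q + M)
    (hn : n ≤ M) (hgap : ∀ s ∈ W, ∀ t ∈ W, s < t → s + M + n ≤ t)
    (hfree : ∀ t ∈ W, ¬ (a + z - n < t ∧ t < a + z + n)) :
    ∃ j₀ : ℤ, 0 ≤ j₀ ∧ j₀ + n ≤ M + 1 ∧ ∀ j, j₀ ≤ j → j < j₀ + n →
      ∀ t ∈ W, ¬ (a + p + j + q ≤ t ∧ t < a + p + j + q + M) := by
  by_cases hc : ∃ t ∈ W, a + z - M ≤ t ∧ t < a + z
  · obtain ⟨t, ht, ht1, ht2⟩ := hc
    have h3 := hfree t ht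
    refine ⟨t - (a + z) + M + 1, by omega, by omega, ?_⟩
    intro j hj1 hj2 s hs hh
    rcases lt_trichotomy s t with h | h | h
    · have := hgap s hs t ht h
      omega
    · subst h
      omega
    · have := hgap t ht s hs h
      omega
  · push Not at hc
    refine ⟨0, by omega, by omega, ?_⟩
    intro j hj1 hj2 s hs hh
    have h1 := hc s hs
    have h2 := hfree s hs
    by_cases h3 : s < a + z
    · have := h1 (by omega)
      omega
    · omega

/-- All gaps between walls of `[lo, hi]` are `L` or `L + 1`. -/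
def Rigid (W : Set ℤ) (L lo hi : ℤ) : Prop :=
  ∀ s ∈ W, lo ≤ s → ∀ t ∈ W, s < t → t ≤ hi → (s + L ∈ W ∨ s + L + 1 ∈ W) ∧ s + L ≤ t

/-- Two walls have distance in `[i L, i L + i]`. -/
theorem Rigid.dist {W : Set ℤ} {L lo hi : ℤ} (hR : Rigid W L lo hi) (hL : 2 ≤ L) :
    ∀ (n : ℕ) (s t : ℤ), s ∈ W → t ∈ W → lo ≤ s → s ≤ t → t ≤ hi → t - s < n →
      ∃ i : ℤ, 0 ≤ i ∧ i * L ≤ t - s ∧ t - s ≤ i * L + i := by
  intro n
  induction n with
  | zero => intro s t _ _ _ h1 _ h2; exact absurd h2 (by push_cast; omega)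
  | succ n ih =>
    intro s t hs ht hlo hst hhi hn
    rcases eq_or_lt_of_le hst with h | h
    · exact ⟨0, le_refl _, by simp [h], by simp [h]⟩
    · obtain ⟨h1, h2⟩ := hR s hs hlo t ht h hhi
      push_cast at hn
      by_cases hw : s + L ∈ W
      · obtain ⟨i, hi0, hi1, hi2⟩ := ih (s + L) t hw ht (by omega) h2 hhi (by omega)
        refine ⟨i + 1, by omega, ?_, ?_⟩
        · have : (i + 1) * L = i * L + L := by ring
          omega
        · have : (i + 1) * L = i * L + L := by ring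
          omega
      · have hw' : s + L + 1 ∈ W := h1.resolve_left hw
        have h3 : s + L + 1 ≤ t := by
          rcases eq_or_lt_of_le h2 with h4 | h4
          · exact absurd (h4 ▸ ht) hw
          · omega
        obtain ⟨i, hi0, hi1, hi2⟩ := ih (s + L + 1) t hw' ht (by omega) h3 hhi (by omega)
        refine ⟨i + 1, by omega, ?_, ?_⟩
        · have : (i + 1) * L = i * L + L := by ring
          omega
        · have : (i + 1) * L = i * L + L := by ring
          omega

theorem Rigid.dist' {W : Set ℤ} {L lo hi : ℤ} (hR : Rigid W L lo hi) (hL : 2 ≤ L) {s t : ℤ}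
    (hs : s ∈ W) (ht : t ∈ W) (hlo : lo ≤ s) (hst : s ≤ t) (hhi : t ≤ hi) :
    ∃ i : ℤ, 0 ≤ i ∧ i * L ≤ t - s ∧ t - s ≤ i * L + i :=
  hR.dist hL ((t - s).toNat + 1) s t hs ht hlo hst hhi (by push_cast; omega)

/-- Signed version for walls at distance `< 6 L`: the difference is `i L + r`, `|i|, |r| ≤ 5`. -/
theorem Rigid.sdist {W : Set ℤ} {L lo hi : ℤ} (hR : Rigid W L lo hi) (hL : 2 ≤ L) {s t : ℤ}
    (hs : s ∈ W) (ht : t ∈ W) (hs1 : lo ≤ s) (hs2 : s ≤ hi) (ht1 : lo ≤ t) (ht2 : t ≤ hi)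
    (hd : |t - s| < 6 * L) :
    ∃ i r : ℤ, t - s = i * L + r ∧ |i| ≤ 5 ∧ |r| ≤ 5 := by
  rw [abs_lt] at hd
  rcases le_total s t with h | h
  · obtain ⟨i, hi0, hi1, hi2⟩ := hR.dist' hL hs ht hs1 h ht2
    have hi5 : i ≤ 5 := by
      by_contra hc
      have : 6 ≤ i := by omega
      have : 6 * L ≤ i * L := by nlinarith
      omega
    refine ⟨i, t - s - i * L, by ring, abs_le.2 ⟨by omega, by omega⟩, abs_le.2 ⟨by omega, by omega⟩⟩
  · obtain ⟨i, hi0, hi1, hi2⟩ := hR.dist' hL ht hs ht1 h hs2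
    have hi5 : i ≤ 5 := by
      by_contra hc
      have : 6 ≤ i := by omega
      have : 6 * L ≤ i * L := by nlinarith
      omega
    refine ⟨-i, t - s + i * L, by ring, abs_le.2 ⟨by omega, by omega⟩,
      abs_le.2 ⟨by omega, by omega⟩⟩

/-- A critical step `a → a'` of the chain with jump `z`: some wall `w` within `N` of `a + z`, and
`a'` is `w` or the next wall (only `w ≤ a' ≤ w + L + 1` is used). -/
def BadStep (W : Set ℤ) (L N z a a' : ℤ) : Prop :=
  a' ∈ W ∧ ∃ w ∈ W, |w - (a + z)| ≤ N ∧ w ≤ a' ∧ a' ≤ w + L + 1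

/-- The local contradiction: a `z₁`-critical anchor `a` and a `z₂`-critical anchor `b`,
`z₂ = z₁ + 2 L + L / 2`, are at distance `> 3 L`. -/
theorem far {W : Set ℤ} {L N z₁ z₂ lo hi a b wa wb : ℤ} (hN : 0 ≤ N) (hL : 4 * N + 30 ≤ L)
    (hz : z₂ = z₁ + 2 * L + L / 2) (hR : Rigid W L lo hi) (ha : a ∈ W) (hb : b ∈ W)
    (hwa : wa ∈ W) (hwb : wb ∈ W) (ha1 : lo ≤ a) (ha2 : a ≤ hi) (hb1 : lo ≤ b) (hb2 : b ≤ hi)
    (hwa1 : lo ≤ wa) (hwa2 : wa ≤ hi) (hwb1 : lo ≤ wb) (hwb2 : wb ≤ hi)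
    (h1 : |wa - (a + z₁)| ≤ N) (h2 : |wb - (b + z₂)| ≤ N) : 3 * L < |b - a| := by
  by_contra hc
  push Not at hc
  rw [abs_le] at h1 h2 hc
  obtain ⟨i, r, hir, hi5, hr5⟩ := hR.sdist (by omega) ha hb ha1 ha2 hb1 hb2
    (abs_lt.2 ⟨by omega, by omega⟩)
  obtain ⟨k, s, hks, hk5, hs5⟩ := hR.sdist (by omega) hwa hwb hwa1 hwa2 hwb1 hwb2
    (abs_lt.2 ⟨by omega, by omega⟩)
  rw [abs_le] at hi5 hr5 hk5 hs5
  -- wb - wa = b - a + (z₂ - z₁) + e
  have key : (k - i - 2) * L = L / 2 + (wb - (b + z₂) - (wa - (a + z₁))) + r - s := by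
    have : (k - i - 2) * L = k * L - i * L - 2 * L := by ring
    omega
  have hlow : 0 < (k - i - 2) * L := by omega
  have hhigh : (k - i - 2) * L < 1 * L := by omega
  have hLpos : 0 < L := by omega
  have h3 : 0 < k - i - 2 := by
    by_contra hcc
    have : (k - i - 2) * L ≤ 0 := by nlinarith
    omega
  have h4 : k - i - 2 < 1 := lt_of_mul_lt_mul_right hhigh hLpos.le
  omega

/-- 860's lemma, index form.  Two critical chains `a` (jump `z₁`) and `b` (jump `z₂`) that start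
with `-3 L - K L ≤ b 0 - a 0 ≤ 3 L` cannot both have `K + 1` critical steps. -/
theorem not_both {W : Set ℤ} {L N z₁ z₂ lo hi : ℤ} (hN : 0 ≤ N) (hL : 4 * N + 30 ≤ L)
    (hz : z₂ = z₁ + 2 * L + L / 2) (hR : Rigid W L lo hi) (hNz : N ≤ z₁) (a b : ℕ → ℤ) (K : ℕ)
    (ha0 : a 0 ∈ W) (hb0 : b 0 ∈ W) (hlo : lo ≤ a 0) (hlo' : lo ≤ b 0)
    (hsa : ∀ k ≤ K, BadStep W L N z₁ (a k) (a (k + 1)))
    (hsb : ∀ k ≤ K, BadStep W L N z₂ (b k) (b (k + 1)))
    (hhia : a (K + 1) ≤ hi) (hhib : b (K + 1) ≤ hi)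
    (hd1 : -3 * L - K * L ≤ b 0 - a 0) (hd2 : b 0 - a 0 ≤ 3 * L) : False := by
  have mono : ∀ (c : ℕ → ℤ) (z : ℤ), N ≤ z → (∀ k ≤ K, BadStep W L N z (c k) (c (k + 1))) →
      ∀ k ≤ K, c k ≤ c (k + 1) := by
    intro c z hz' hc k hk
    obtain ⟨_, w, _, h1, h2, _⟩ := hc k hk
    rw [abs_le] at h1
    omega
  have mono0 : ∀ (c : ℕ → ℤ) (z : ℤ), N ≤ z → (∀ k ≤ K, BadStep W L N z (c k) (c (k + 1))) →
      ∀ k ≤ K + 1, c 0 ≤ c k ∧ c k ≤ c (K + 1) := by
    intro c z hz' hc k hk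
    have hm := mono c z hz' hc
    constructor
    · have : ∀ l, l ≤ K + 1 → c 0 ≤ c l := by
        intro l
        induction l with
        | zero => intro _; exact le_refl _
        | succ l ih => intro h; exact (ih (by omega)).trans (hm l (by omega))
      exact this k hk
    · obtain ⟨l, hl⟩ : ∃ l, K + 1 = k + l := ⟨K + 1 - k, by omega⟩
      rw [hl]
      have : ∀ l, k + l ≤ K + 1 → c k ≤ c (k + l) := by
        intro l
        induction l with
        | zero => intro _; exact le_refl _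
        | succ l ih => intro h; exact (ih (by omega)).trans (hm (k + l) (by omega))
      exact this l (by omega)
  have hNz2 : N ≤ z₂ := by omega
  have hmemA : ∀ k ≤ K + 1, a k ∈ W := by
    intro k hk
    cases k with
    | zero => exact ha0
    | succ k => exact (hsa k (by omega)).1
  have hmemB : ∀ k ≤ K + 1, b k ∈ W := by
    intro k hk
    cases k with
    | zero => exact hb0
    | succ k => exact (hsb k (by omega)).1
  -- no index `k ≤ K` with `|b k - a k| ≤ 3 L`
  have hfar : ∀ k ≤ K, ¬ |b k - a k| ≤ 3 * L := by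
    intro k hk hc
    obtain ⟨_, wa, hwa, h1, h2, _⟩ := hsa k hk
    obtain ⟨_, wb, hwb, h3, h4, _⟩ := hsb k hk
    have A := mono0 a z₁ hNz hsa
    have B := mono0 b z₂ hNz2 hsb
    have A1 := A k (by omega)
    have A2 := A (k + 1) (by omega)
    have B1 := B k (by omega)
    have B2 := B (k + 1) (by omega)
    have h1' := abs_le.1 h1
    have h3' := abs_le.1 h3
    have := far hN hL hz hR (hmemA k (by omega)) (hmemB k (by omega)) hwa hwb (by omega)
      (by omega) (by omega) (by omega) (by omega) (by omega) (by omega) (by omega) h1 h3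
    omega
  -- the drift
  have hdrift : ∀ k ≤ K, b k - a k + L ≤ b (k + 1) - a (k + 1) ∧
      b (k + 1) - a (k + 1) ≤ b k - a k + 4 * L := by
    intro k hk
    obtain ⟨_, wa, _, h1, h2, h2'⟩ := hsa k hk
    obtain ⟨_, wb, _, h3, h4, h4'⟩ := hsb k hk
    rw [abs_le] at h1 h3
    omega
  have hall : ∀ k ≤ K, b k - a k < -3 * L := by
    intro k
    induction k with
    | zero =>
      intro _
      have := hfar 0 (by omega)
      rw [abs_le] at this
      omega
    | succ k ih =>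
      intro hk
      have h1 := ih (by omega)
      have h2 := hdrift k (by omega)
      have h3 := hfar (k + 1) hk
      rw [abs_le] at h3
      omega
  have hlow : ∀ k : ℕ, k ≤ K → b 0 - a 0 + k * L ≤ b k - a k := by
    intro k
    induction k with
    | zero => intro _; simp
    | succ k ih =>
      intro hk
      have h1 := ih (by omega)
      have h2 := hdrift k (by omega)
      have : ((k + 1 : ℕ) : ℤ) * L = k * L + L := by push_cast; ring
      omega
  have h1 := hlow K le_rfl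
  have h2 := hall K le_rfl
  omega

end Crest.Agent.R320.Wall_913
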