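import Mathlib

/-!
# A marker rule on all words (row 320, form of 813's #12712 (1))

`marker_rule`: for a finite alphabet and a width `W > 0` there are a window `n`, a depth `D` and a
rule `R` on words which reads only the first `n` letters, never fires twice within distance `W`,
and such that a stretch where it never fires is, away from its two ends, of one period `p ≤ W`.
-/

namespace Crest.Agent.R320.WallAll_615

variable {β : Type*}

/-- The window of length `l` of `w` at `c` has no period in `(0, W]`. -/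
def NonPer (l W : ℕ) (w : ℕ → β) (c : ℕ) : Prop :=
  ∀ p, 0 < p → p ≤ W → ∃ k, k + p < l ∧ w (c + k) ≠ w (c + k + p)

/-- The window of length `l` of `w` at `c`. -/
def nm (l : ℕ) (w : ℕ → β) (c : ℕ) : Fin l → β := fun k => w (c + k)

theorem nm_congr {l : ℕ} {w w' : ℕ → β} {c c' : ℕ} (h : ∀ i, i < l → w (c + i) = w' (c' + i)) :
    nm l w c = nm l w' c' := by
  funext k
  exact h k k.2

theorem nonPer_of {l W : ℕ} {w w' : ℕ → β} {c c' : ℕ}
    (h : ∀ i, i < l → w (c + i) = w' (c' + i)) (hP : NonPer l W w c) : NonPer l W w' c' := by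
  intro p hp hpW
  obtain ⟨k, hk, hne⟩ := hP p hp hpW
  refine ⟨k, hk, ?_⟩
  rw [← h k (by omega), Nat.add_assoc, ← h (k + p) hk, ← Nat.add_assoc]
  exact hne

theorem nonPer_congr {l W : ℕ} {w w' : ℕ → β} {c c' : ℕ}
    (h : ∀ i, i < l → w (c + i) = w' (c' + i)) : NonPer l W w c ↔ NonPer l W w' c' :=
  ⟨nonPer_of h, nonPer_of fun i hi => (h i hi).symm⟩

/-- Two nonperiodic windows at distance in `(0, W]` are different. -/
theorem nm_ne {l W : ℕ} {w : ℕ → β} {c d : ℕ} (hP : NonPer l W w c) (hd : 0 < d) (hdW : d ≤ W) :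
    nm l w c ≠ nm l w (c + d) := by
  intro h
  obtain ⟨k, hk, hne⟩ := hP d hd hdW
  apply hne
  have := congrFun h ⟨k, by omega⟩
  simp only [nm] at this
  rw [this]
  congr 1
  omega

/-- Descent: no nonperiodic centre deep inside a stretch without walls. -/
theorem descent {l W L : ℕ} {w : ℕ → β} (f : (Fin l → β) → ℕ) (hf : Function.Injective f)
    (hyp : ∀ c, W ≤ c → c < L + W → NonPer l W w c →
      ∃ c', c' ≤ c + W ∧ c ≤ c' + W ∧ c' ≠ c ∧ NonPer l W w c' ∧ f (nm l w c') ≤ f (nm l w c)) :
    ∀ m c, W + W * m ≤ c → c + W * m < L + W → NonPer l W w c → m ≤ f (nm l w c) := by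
  intro m
  induction m with
  | zero => intro c _ _ _; exact Nat.zero_le _
  | succ m ih =>
    intro c h1 h2 hP
    have e : W * (m + 1) = W * m + W := by ring
    rw [e] at h1 h2
    obtain ⟨c', ha, hb, hne, hP', hle⟩ := hyp c (by omega) (by omega) hP
    have h3 := ih c' (by omega) (by omega) hP'
    have h4 : f (nm l w c') ≠ f (nm l w c) := by
      intro heq
      have heq' := hf heq
      rcases Nat.lt_or_gt_of_ne hne with hlt | hgt
      · obtain ⟨d, rfl⟩ : ∃ d, c = c' + d := ⟨c - c', by omega⟩
        exact nm_ne hP' (by omega) (by omega) heq'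
      · obtain ⟨d, rfl⟩ : ∃ d, c' = c + d := ⟨c' - c, by omega⟩
        exact nm_ne hP (by omega) (by omega) heq'.symm
    omega

/-- A period propagates along consecutive periodic centres. -/
theorem propagate {l W A B : ℕ} {w : ℕ → β} (hl : 2 * W + 1 ≤ l)
    (hper : ∀ c, A ≤ c → c < B → ¬ NonPer l W w c) {p : ℕ} (hp : 0 < p) (hpW : p ≤ W)
    (h0 : ∀ k, k + p < l → w (A + k) = w (A + k + p)) :
    ∀ m, A + m < B → ∀ k, k + p < l → w (A + m + k) = w (A + m + k + p) := by
  intro m
  induction m with
  | zero => intro _ k hk; simpa using h0 k hk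
  | succ m ih =>
    intro hm k hk
    have ih' := ih (by omega)
    by_cases hk' : k + 1 + p < l
    · have := ih' (k + 1) hk'
      have e1 : A + (m + 1) + k = A + m + (k + 1) := by omega
      rw [e1]
      exact this
    · have hq := hper (A + (m + 1)) (by omega) hm
      unfold NonPer at hq
      push Not at hq
      obtain ⟨q, hq0, hqW, hq⟩ := hq
      have a1 := hq (l - 1 - q) (by omega)
      have a2 := hq (l - 1 - q - p) (by omega)
      have a3 := ih' (l - q - p) (by omega)
      have e1 : A + (m + 1) + k = A + m + l - p := by omega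
      have e2 : A + (m + 1) + k + p = A + m + l := by omega
      have e3 : A + (m + 1) + (l - 1 - q) = A + m + l - q := by omega
      have e4 : A + (m + 1) + (l - 1 - q) + q = A + m + l := by omega
      have e5 : A + (m + 1) + (l - 1 - q - p) = A + m + l - q - p := by omega
      have e6 : A + (m + 1) + (l - 1 - q - p) + q = A + m + l - p := by omega
      have e7 : A + m + (l - q - p) = A + m + l - q - p := by omega
      have e8 : A + m + (l - q - p) + p = A + m + l - q := by omega
      rw [e4, e3] at a1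
      rw [e6, e5] at a2
      rw [e8, e7] at a3
      rw [e2, e1, ← a1, ← a3, ← a2]

/-- The letters of a word. -/
def wd {α : Type*} (Q : List α) (i : ℕ) : Option α := Q[i]?

theorem wd_drop {α : Type*} (Q : List α) (d i : ℕ) : wd (Q.drop d) i = wd Q (d + i) :=
  List.getElem?_drop

theorem wd_take {α : Type*} (Q : List α) {n i : ℕ} (h : i < n) : wd (Q.take n) i = wd Q i :=
  List.getElem?_take_of_lt h

/-- The rule. -/
def Rule {α : Type*} (n l W : ℕ) (f : (Fin l → Option α) → ℕ) (Q : List α) : Prop :=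
  n ≤ Q.length ∧ NonPer l W (wd Q) W ∧
    ∀ e, e ≤ 2 * W → e ≠ W → NonPer l W (wd Q) e → f (nm l (wd Q) W) < f (nm l (wd Q) e)

/-- **Marker rule on all words.** -/
theorem marker_rule (α : Type*) [Finite α] (W : ℕ) (hW : 0 < W) :
    ∃ n D : ℕ, ∃ R : List α → Prop,
      (∀ Q : List α, R Q ↔ R (Q.take n)) ∧ (∀ Q : List α, R Q → n ≤ Q.length) ∧
      (∀ (Q : List α) (d : ℕ), R Q → 0 < d → d ≤ W → ¬ R (Q.drop d)) ∧
      (∀ (Q : List α) (L : ℕ), L + n ≤ Q.length → (∀ i, i < L → ¬ R (Q.drop i)) →
        ∃ p, 0 < p ∧ p ≤ W ∧ ∀ i, D ≤ i → i + p + D ≤ L → Q[i]? = Q[i + p]?) := by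
  classical
  obtain ⟨l, hl⟩ : ∃ l, l = 2 * W + 1 := ⟨_, rfl⟩
  obtain ⟨N, ⟨g⟩⟩ := Finite.exists_equiv_fin (Fin l → Option α)
  obtain ⟨f, hf, hfN⟩ : ∃ f : (Fin l → Option α) → ℕ, Function.Injective f ∧ ∀ u, f u < N :=
    ⟨fun u => (g u : ℕ), fun u v h => g.injective (Fin.ext h), fun u => (g u).2⟩
  refine ⟨2 * W + l, W + W * N, Rule (2 * W + l) l W f, ?_, fun Q h => h.1, ?_, ?_⟩
  · intro Q
    have key : ∀ e, e ≤ 2 * W → ∀ i, i < l → wd Q (e + i) = wd (Q.take (2 * W + l)) (e + i) := by
      intro e he i hi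
      rw [wd_take Q (by omega)]
    unfold Rule
    refine and_congr (by simp [List.length_take]) (and_congr (nonPer_congr (key W (by omega))) ?_)
    refine forall_congr' fun e => forall_congr' fun he => forall_congr' fun _ => ?_
    rw [nonPer_congr (key e he), nm_congr (key W (by omega)), nm_congr (key e he)]
  · rintro Q d ⟨h1, h2, h3⟩ hd hdW ⟨h1', h2', h3'⟩
    have key : ∀ e e', e' = d + e → ∀ i, i < l → wd (Q.drop d) (e + i) = wd Q (e' + i) := by
      intro e e' he i hi
      rw [wd_drop]
      congr 1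
      omega
    have a1 := h3 (W + d) (by omega) (by omega) ((nonPer_congr (key W (W + d) (by omega))).1 h2')
    have a2 := h3' (W - d) (by omega) (by omega) ((nonPer_congr (key (W - d) W (by omega))).2 h2)
    rw [nm_congr (key W (W + d) (by omega)), nm_congr (key (W - d) W (by omega))] at a2
    omega
  · intro Q L hL hR
    have hyp : ∀ c, W ≤ c → c < L + W → NonPer l W (wd Q) c →
        ∃ c', c' ≤ c + W ∧ c ≤ c' + W ∧ c' ≠ c ∧ NonPer l W (wd Q) c' ∧
          f (nm l (wd Q) c') ≤ f (nm l (wd Q) c) := by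
      intro c hc1 hc2 hP
      obtain ⟨i, rfl⟩ : ∃ i, c = i + W := ⟨c - W, by omega⟩
      have key : ∀ e, ∀ k, k < l → wd (Q.drop i) (e + k) = wd Q (i + e + k) := by
        intro e k _
        rw [wd_drop, Nat.add_assoc]
      have hn := hR i (by omega)
      unfold Rule at hn
      have hlen : 2 * W + l ≤ (Q.drop i).length := by
        rw [List.length_drop]; omega
      have hP' : NonPer l W (wd (Q.drop i)) W := (nonPer_congr (key W)).2 hP
      by_contra hcon
      apply hn
      refine ⟨hlen, hP', ?_⟩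
      intro e he hne hPe
      by_contra hlt
      apply hcon
      refine ⟨i + e, by omega, by omega, by omega, (nonPer_congr (key e)).1 hPe, ?_⟩
      rw [nm_congr (key W), nm_congr (key e)] at hlt
      omega
    have hdesc := descent f hf hyp N
    have hper : ∀ c, W + W * N ≤ c → c < L + W - W * N → ¬ NonPer l W (wd Q) c := by
      intro c h1 h2 hP
      have := hdesc c h1 (by omega) hP
      have := hfN (nm l (wd Q) c)
      omega
    by_cases hB : W + W * N < L + W - W * N
    · have h0 := hper (W + W * N) le_rfl hB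
      unfold NonPer at h0
      push Not at h0
      obtain ⟨p, hp, hpW, h0⟩ := h0
      refine ⟨p, hp, hpW, ?_⟩
      intro i hi1 hi2
      obtain ⟨m, rfl⟩ : ∃ m, i = W + W * N + m := ⟨i - (W + W * N), by omega⟩
      have := propagate (by omega) hper hp hpW h0 m (by omega) 0 (by omega)
      simpa [wd] using this
    · refine ⟨1, Nat.one_pos, hW, ?_⟩
      intro i hi1 hi2
      omega

end Crest.Agent.R320.WallAll_615
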