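import Mathlib

/-!
# Row 320 (S0495), pieces (3) and (5) of the plan #12647 (helper128)

Walls are an arbitrary set `Wl` of integers.  `IsFirst Wl y t` : `t` is the first wall `≥ y`.

* `isFirst_unique`, `isFirst_exists` : basic facts.
* **818's lemma** (#12250), `first_iff` : `x = a + p + j`, `0 ≤ j ≤ N`, `z = p + q + N`, no wall in
  `[x+q, x+q+N)`; then the first wall `≥ a + z` (known to the left side) is the first wall
  `≥ x + q + N` (known to the right side).  `legal_of_clean` : if no wall lies in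
  `[a+z-N, a+z+N)` then all `j` in `[0, N]` are right-legal.  `critical_of_not_legal` : the converse
  form, an illegal place gives a wall `t = a + z + s` with `-N ≤ s < N`.
* **364's scheme 2** (#12525): cut places `x = a + p + M j`, `0 ≤ j < k`, `M = 2 N0`, walls `> 2 M k`
  apart; `rep N0 n` = representative of `n` mod `M` in `[-N0, N0)`; `Jump` = the map determined by
  the wall `t` near `a + z` and the sign of `rep`.  `rep_right` : the right side computes the same
  `sigma`; `jump_right` : at EVERY right-legal place the right side names the same next wall as the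
  left side; `all_legal` and `jump_eq_first` : if `-N0 ≤ t - a - z < N0` then all `k` places are
  legal and the next wall is the first wall `≥ a + z` (complementarity with scheme 1).
-/

set_option autoImplicit false

namespace Crest.Agent.R320.WallMap128

/-- `t` is the first wall at or after `y`. -/
def IsFirst (Wl : Set ℤ) (y t : ℤ) : Prop := t ∈ Wl ∧ y ≤ t ∧ ∀ s ∈ Wl, y ≤ s → t ≤ s

theorem isFirst_unique {Wl : Set ℤ} {y t t' : ℤ} (h : IsFirst Wl y t) (h' : IsFirst Wl y t') :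
    t = t' :=
  le_antisymm (h.2.2 t' h'.1 h'.2.1) (h'.2.2 t h.1 h.2.1)

theorem isFirst_exists {Wl : Set ℤ} {y : ℤ} (h : ∃ s ∈ Wl, y ≤ s) : ∃ t, IsFirst Wl y t := by
  classical
  obtain ⟨s, hs, hys⟩ := h
  have hex : ∃ n : ℕ, y + (n : ℤ) ∈ Wl := ⟨(s - y).toNat, by
    have : y + ((s - y).toNat : ℤ) = s := by
      have := Int.toNat_of_nonneg (sub_nonneg.2 hys); omega
    rw [this]; exact hs⟩
  refine ⟨y + (Nat.find hex : ℤ), Nat.find_spec hex, by omega, ?_⟩
  intro u hu hyu
  have hn : y + ((u - y).toNat : ℤ) = u := by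
    have := Int.toNat_of_nonneg (sub_nonneg.2 hyu); omega
  have : Nat.find hex ≤ (u - y).toNat := Nat.find_min' hex (by rw [hn]; exact hu)
  omega

/-- Moving the threshold over an interval without walls does not change the first wall. -/
theorem isFirst_congr {Wl : Set ℤ} {y y' t : ℤ} (hyy : y ≤ y')
    (hno : ∀ s ∈ Wl, ¬(y ≤ s ∧ s < y')) : IsFirst Wl y t ↔ IsFirst Wl y' t := by
  constructor
  · rintro ⟨ht, hy, hmin⟩
    refine ⟨ht, ?_, fun s hs hs' => hmin s hs (hyy.trans hs')⟩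
    by_contra hlt
    exact hno t ht ⟨hy, not_le.1 hlt⟩
  · rintro ⟨ht, hy, hmin⟩
    refine ⟨ht, hyy.trans hy, fun s hs hs' => ?_⟩
    by_contra hlt
    have hs2 : s < y' := by
      by_contra hge
      exact hlt (hmin s hs (not_lt.1 hge))
    exact hno s hs ⟨hs', hs2⟩

/-! ## 818's lemma -/

/-- **818's lemma.**  At a legal junction the left map `N(a)` is the right map `b(x)`. -/
theorem first_iff {Wl : Set ℤ} {a x t j p q N z : ℤ} (hj0 : 0 ≤ j) (hj : j ≤ N)
    (hx : x = a + p + j) (hz : z = p + q + N)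
    (hno : ∀ s ∈ Wl, ¬(x + q ≤ s ∧ s < x + q + N)) :
    IsFirst Wl (a + z) t ↔ IsFirst Wl (x + q + N) t := by
  refine isFirst_congr (by omega) ?_
  rintro s hs ⟨h1, h2⟩
  exact hno s hs ⟨by omega, h2⟩

/-- If no wall is within `N` of `a + z`, every place of the window is right-legal. -/
theorem legal_of_clean {Wl : Set ℤ} {a x j p q N z : ℤ} (hj0 : 0 ≤ j) (hj : j ≤ N)
    (hx : x = a + p + j) (hz : z = p + q + N)
    (hclean : ∀ s ∈ Wl, ¬(a + z - N ≤ s ∧ s < a + z + N)) :
    ∀ s ∈ Wl, ¬(x + q ≤ s ∧ s < x + q + N) := by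
  rintro s hs ⟨h1, h2⟩
  exact hclean s hs ⟨by omega, by omega⟩

/-- An illegal place of the window produces a critical wall. -/
theorem critical_of_not_legal {Wl : Set ℤ} {a x j p q N z : ℤ} (hj0 : 0 ≤ j) (hj : j ≤ N)
    (hx : x = a + p + j) (hz : z = p + q + N)
    (h : ¬ ∀ s ∈ Wl, ¬(x + q ≤ s ∧ s < x + q + N)) :
    ∃ t ∈ Wl, ∃ s : ℤ, t = a + z + s ∧ -N ≤ s ∧ s < N := by
  by_contra hcon
  refine h (legal_of_clean hj0 hj hx hz ?_)
  rintro s hs ⟨h1, h2⟩
  exact hcon ⟨s, hs, s - a - z, by ring, by omega, by omega⟩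

/-- On a critical zone the next wall is the critical wall or the wall behind it. -/
theorem next_of_critical {Wl : Set ℤ} {G : ℤ} (hgap : ∀ s ∈ Wl, ∀ t ∈ Wl, s < t → s + G ≤ t)
    {a z s t b : ℤ} (ht : t ∈ Wl) (hts : t = a + z + s) (h1 : -G < s) (h2 : s < G)
    (hb : IsFirst Wl (a + z) b) :
    (0 ≤ s → b = t) ∧ (s < 0 → IsFirst Wl (t + 1) b) := by
  constructor
  · intro hs
    have hle : b ≤ t := hb.2.2 t ht (by omega)
    rcases eq_or_lt_of_le hle with h | h
    · exact h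
    · have := hgap b hb.1 t ht h
      have := hb.2.1
      omega
  · intro hs
    refine ⟨hb.1, by have := hb.2.1; omega, fun u hu hut => hb.2.2 u hu ?_⟩
    have := hgap t ht u hu (by omega)
    omega

/-! ## 364's scheme 2 -/

/-- Representative of `n` modulo `2 * N0` in `[-N0, N0)`. -/
def rep (N0 n : ℤ) : ℤ := (n + N0) % (2 * N0) - N0

theorem rep_lb {N0 : ℤ} (h : 0 < N0) (n : ℤ) : -N0 ≤ rep N0 n := by
  have := Int.emod_nonneg (n + N0) (show (2 * N0) ≠ 0 by omega)
  unfold rep; omega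

theorem rep_ub {N0 : ℤ} (h : 0 < N0) (n : ℤ) : rep N0 n < N0 := by
  have := Int.emod_lt_of_pos (n + N0) (show 0 < 2 * N0 by omega)
  unfold rep; omega

theorem rep_eq_self {N0 n : ℤ} (h1 : -N0 ≤ n) (h2 : n < N0) : rep N0 n = n := by
  unfold rep
  rw [Int.emod_eq_of_lt (by omega) (by omega)]
  ring

theorem rep_add_mul (N0 n j : ℤ) : rep N0 (n + 2 * N0 * j) = rep N0 n := by
  unfold rep
  rw [show n + 2 * N0 * j + N0 = (n + N0) + (2 * N0) * j by ring, Int.add_mul_emod_self_left]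

theorem rep_sub_mul (N0 n j : ℤ) : rep N0 (n - 2 * N0 * j) = rep N0 n := by
  have := rep_add_mul N0 n (-j)
  rw [show n + 2 * N0 * (-j) = n - 2 * N0 * j by ring] at this
  exact this

/-- The next wall of scheme 2: `t` if `sigma ≥ 0`, the wall behind `t` if `sigma < 0`. -/
def Jump (Wl : Set ℤ) (sigma t b : ℤ) : Prop := (0 ≤ sigma ∧ b = t) ∨ (sigma < 0 ∧ IsFirst Wl (t + 1) b)

theorem jump_unique {Wl : Set ℤ} {sigma t b b' : ℤ} (h : Jump Wl sigma t b)
    (h' : Jump Wl sigma t b') : b = b' := by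
  rcases h with ⟨h1, h2⟩ | ⟨h1, h2⟩ <;> rcases h' with ⟨h3, h4⟩ | ⟨h3, h4⟩
  · rw [h2, h4]
  · omega
  · omega
  · exact isFirst_unique h2 h4

/-- Left map of scheme 2 at the anchor `a`: a wall `t` in `a + z + (-M k, M k)` and its jump. -/
def LeftMap (Wl : Set ℤ) (N0 k z a b : ℤ) : Prop :=
  ∃ t ∈ Wl, a + z - 2 * N0 * k < t ∧ t < a + z + 2 * N0 * k ∧ Jump Wl (rep N0 (t - a - z)) t b

/-- Right map of scheme 2 at the place `x` (a wall `t` in `I(x)` and its jump). -/
def RightMap (Wl : Set ℤ) (N0 k z p x b : ℤ) : Prop :=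
  ∃ t ∈ Wl, x + z - p - 2 * N0 * (k - 1) - N0 ≤ t ∧ t < x + z - p + N0 ∧
    Jump Wl (rep N0 (t - x + p - z)) t b

/-- The right side computes the same residue `sigma` without knowing `a` or `j`. -/
theorem rep_right {N0 a x p j z t : ℤ} (hx : x = a + p + 2 * N0 * j) :
    rep N0 (t - x + p - z) = rep N0 (t - a - z) := by
  rw [hx, show t - (a + p + 2 * N0 * j) + p - z = (t - a - z) - 2 * N0 * j by ring, rep_sub_mul]

/-- `I(x)` lies in the interval of the left side. -/
theorem window_sub {N0 a x p j k z t : ℤ} (h0 : 0 < N0) (hj0 : 0 ≤ j) (hj : j < k)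
    (hx : x = a + p + 2 * N0 * j) (h1 : x + z - p - 2 * N0 * (k - 1) - N0 ≤ t)
    (h2 : t < x + z - p + N0) :
    a + z - 2 * N0 * k < t ∧ t < a + z + 2 * N0 * k := by
  have hA : 0 ≤ 2 * N0 * j := by positivity
  have hB : 2 * N0 * (j + 1) ≤ 2 * N0 * k := by
    apply mul_le_mul_of_nonneg_left _ (by omega); omega
  have e1 : 2 * N0 * (j + 1) = 2 * N0 * j + 2 * N0 := by ring
  have e2 : 2 * N0 * (k - 1) = 2 * N0 * k - 2 * N0 := by ring
  constructor <;> omega

/-- **Consistency of scheme 2**: at every right-legal place the right side names a wall `b` iff the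
left side does. -/
theorem jump_right {Wl : Set ℤ} {G : ℤ} (hgap : ∀ s ∈ Wl, ∀ t ∈ Wl, s < t → s + G ≤ t)
    {N0 a x p j k z b b' : ℤ} (h0 : 0 < N0) (hj0 : 0 ≤ j) (hj : j < k)
    (hG : 2 * (2 * N0 * k) ≤ G) (hx : x = a + p + 2 * N0 * j)
    (hR : RightMap Wl N0 k z p x b) (hL : LeftMap Wl N0 k z a b') : b = b' := by
  obtain ⟨t, ht, h1, h2, hJ⟩ := hR
  obtain ⟨t', ht', h1', h2', hJ'⟩ := hL
  obtain ⟨h3, h4⟩ := window_sub (t := t) h0 hj0 hj hx h1 h2
  have htt : t = t' := by
    rcases lt_trichotomy t t' with h | h | h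
    · have := hgap t ht t' ht' h; omega
    · exact h
    · have := hgap t' ht' t ht h; omega
  subst htt
  rw [rep_right hx] at hJ
  exact jump_unique hJ hJ'

/-- A right-legal place gives the left map. -/
theorem left_of_right {Wl : Set ℤ} {N0 a x p j k z b : ℤ} (h0 : 0 < N0) (hj0 : 0 ≤ j) (hj : j < k)
    (hx : x = a + p + 2 * N0 * j) (hR : RightMap Wl N0 k z p x b) : LeftMap Wl N0 k z a b := by
  obtain ⟨t, ht, h1, h2, hJ⟩ := hR
  obtain ⟨h3, h4⟩ := window_sub (t := t) h0 hj0 hj hx h1 h2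
  rw [rep_right hx] at hJ
  exact ⟨t, ht, h3, h4, hJ⟩

/-- **Complementarity, part 1**: at a critical anchor all `k` places are right-legal. -/
theorem all_legal {Wl : Set ℤ} {N0 a x p j k z s t b : ℤ} (h0 : 0 < N0) (hj0 : 0 ≤ j) (hj : j < k)
    (hx : x = a + p + 2 * N0 * j) (ht : t ∈ Wl) (hts : t = a + z + s) (h1 : -N0 ≤ s)
    (h2 : s < N0) (hJ : Jump Wl s t b) : RightMap Wl N0 k z p x b := by
  have hA : 0 ≤ 2 * N0 * j := by positivity
  have hB : 2 * N0 * (j + 1) ≤ 2 * N0 * k := by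
    apply mul_le_mul_of_nonneg_left _ (by omega); omega
  have e1 : 2 * N0 * (j + 1) = 2 * N0 * j + 2 * N0 := by ring
  have e2 : 2 * N0 * (k - 1) = 2 * N0 * k - 2 * N0 := by ring
  refine ⟨t, ht, by omega, by omega, ?_⟩
  rw [rep_right hx, show t - a - z = s by omega, rep_eq_self h1 h2]
  exact hJ

/-- **Complementarity, part 2**: at a critical anchor the map of scheme 2 is the map of scheme 1. -/
theorem jump_eq_first {Wl : Set ℤ} {G : ℤ} (hgap : ∀ s ∈ Wl, ∀ t ∈ Wl, s < t → s + G ≤ t)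
    {N0 a z s t b : ℤ} (hG : N0 ≤ G) (ht : t ∈ Wl) (hts : t = a + z + s)
    (h1 : -N0 ≤ s) (h2 : s < N0) (hb : IsFirst Wl (a + z) b) (hG0 : -G < s) :
    Jump Wl (rep N0 (t - a - z)) t b := by
  have hs : t - a - z = s := by omega
  rw [hs, rep_eq_self h1 h2]
  obtain ⟨hA, hB⟩ := next_of_critical hgap ht hts hG0 (by omega) hb
  by_cases h : 0 ≤ s
  · exact Or.inl ⟨h, hA h⟩
  · exact Or.inr ⟨not_le.1 h, hB (not_le.1 h)⟩

/-- Both complementarity statements together: at a critical anchor with next wall `b` (scheme 1) every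
place of scheme 2 is right-legal with the same next wall `b`. -/
theorem scheme2_complete {Wl : Set ℤ} {G : ℤ} (hgap : ∀ s ∈ Wl, ∀ t ∈ Wl, s < t → s + G ≤ t)
    {N0 a x p j k z s t b : ℤ} (h0 : 0 < N0) (hj0 : 0 ≤ j) (hj : j < k) (hG : N0 < G)
    (hx : x = a + p + 2 * N0 * j) (ht : t ∈ Wl) (hts : t = a + z + s) (h1 : -N0 ≤ s) (h2 : s < N0)
    (hb : IsFirst Wl (a + z) b) : RightMap Wl N0 k z p x b := by
  have hJ := jump_eq_first hgap hG.le ht hts h1 h2 hb (by omega)
  rw [show t - a - z = s by omega, rep_eq_self h1 h2] at hJ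
  exact all_legal h0 hj0 hj hx ht hts h1 h2 hJ

end Crest.Agent.R320.WallMap128
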