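import Crest.Agent.R320.FewVal_228

/-!
# Row 320: blocks of left-looking walls on all words (helper515)

`XO W z o` : right words `Q` such that the block which starts `o` letters before `Q` ends at the
end of `Q`.  `BO` : the block is bad (wall in the end band, or bad total).
`spoil` : the number of places of the ruler spoiled by another bad candidate.
-/

set_option autoImplicit false

namespace Crest.Agent.R320.Wd_515

open Crest.RegLang Crest.Agent.R320.Hk_851 Crest.Agent.R320.FewWalls_228

universe u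

variable {α : Type u}

/-- left-looking walls -/
def Wo (n : ℕ) (S : Set (List α)) (X : List α) : Prop := n ≤ X.length ∧ X.drop (X.length - n) ∈ S

theorem Wo_append {n : ℕ} {S : Set (List α)} (P Q : List α) (h : n ≤ Q.length) :
    Wo n S (P ++ Q) ↔ Wo n S Q := by
  unfold Wo
  have e : (P ++ Q).drop ((P ++ Q).length - n) = Q.drop (Q.length - n) := by
    rw [List.drop_append, List.length_append, List.drop_eq_nil_of_le (by omega), List.nil_append]
    congr 1
    omega
  rw [e, List.length_append]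
  constructor
  · rintro ⟨_, h2⟩; exact ⟨h, h2⟩
  · rintro ⟨_, h2⟩; exact ⟨by omega, h2⟩

theorem Wo_take {n : ℕ} {S : Set (List α)} {X : List α} {t : ℕ} (ht : t ≤ X.length) :
    Wo n S (X.take t) ↔ n ≤ t ∧ Wl n S X (t - n) := by
  unfold Wo Wl
  rw [List.length_take, Nat.min_eq_left ht]
  constructor
  · rintro ⟨h1, h2⟩
    rw [List.drop_take] at h2
    have e : t - (t - n) = n := by omega
    rw [e] at h2
    exact ⟨h1, by omega, h2⟩
  · rintro ⟨h1, _, h2⟩
    refine ⟨h1, ?_⟩
    rw [List.drop_take]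
    have e : t - (t - n) = n := by omega
    rw [e]
    exact h2

section blocks

variable (W : List α → Prop) (z : ℕ)

def XO (o : ℕ) : Set (List α) :=
  {Q | W Q ∧ z ≤ o + Q.length ∧ ∀ t < Q.length, z ≤ o + t → ¬ W (Q.take t)}

variable {W z} {n : ℕ}

theorem take_add (P Q : List α) (t : ℕ) : (P ++ Q).take (P.length + t) = P ++ Q.take t := by
  rw [List.take_append]
  simp [List.take_of_length_le]

theorem XO_append (hloc : ∀ P Q, n ≤ Q.length → (W (P ++ Q) ↔ W Q)) {o : ℕ} {P Q : List α}
    (h : o + P.length + n ≤ z) : P ++ Q ∈ XO W z o ↔ Q ∈ XO W z (o + P.length) := by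
  unfold XO
  simp only [Set.mem_setOf_eq, List.length_append]
  constructor
  · rintro ⟨h1, h2, h3⟩
    refine ⟨(hloc P Q (by omega)).1 h1, by omega, fun t ht hz hW => ?_⟩
    refine h3 (P.length + t) (by omega) (by omega) ?_
    rw [take_add]
    exact (hloc P _ (by rw [List.length_take]; omega)).2 hW
  · rintro ⟨h1, h2, h3⟩
    refine ⟨(hloc P Q (by omega)).2 h1, by omega, fun t ht hz hW => ?_⟩
    obtain ⟨s, rfl⟩ : ∃ s, t = P.length + s := ⟨t - P.length, by omega⟩
    rw [take_add] at hW
    exact h3 s (by omega) (by omega) ((hloc P _ (by rw [List.length_take]; omega)).1 hW)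

theorem XO_pf {o : ℕ} {Q Q' : List α} (h : Q ∈ XO W z o) (h' : Q' ∈ XO W z o) (hp : Q <+: Q') :
    Q = Q' := by
  rcases Nat.lt_or_ge Q.length Q'.length with hl | hl
  · exfalso
    refine h'.2.2 Q.length hl h.2.1 ?_
    rw [← List.prefix_iff_eq_take.1 hp]
    exact h.1
  · exact hp.eq_of_length (le_antisymm hp.length_le hl)

theorem exists_XO {o : ℕ} {R : List α} {t : ℕ} (ht : t ≤ R.length) (hW : W (R.take t))
    (hz : z ≤ o + t) : ∃ t0 ≤ t, R.take t0 ∈ XO W z o := by
  classical
  have hex : ∃ s, z ≤ o + s ∧ s ≤ R.length ∧ W (R.take s) := ⟨t, hz, ht, hW⟩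
  obtain ⟨h1, h2, h3⟩ := Nat.find_spec hex
  refine ⟨Nat.find hex, Nat.find_min' hex ⟨hz, ht, hW⟩, h3, ?_, ?_⟩
  · rw [List.length_take]; omega
  · intro s hs hzs hWs
    rw [List.length_take] at hs
    rw [List.take_take, Nat.min_eq_left (by omega)] at hWs
    exact Nat.find_min hex (m := s) (by omega) ⟨hzs, by omega, hWs⟩

variable (W z)

/-- the block which starts `o` letters before `Q` is bad -/
def BO (N1 p0 : ℕ) (Bd : ℕ → Prop) (o : ℕ) (Q : List α) : Prop :=
  (∃ t ≤ Q.length, W (Q.take t) ∧ z ≤ o + t + N1 ∧ o + t < z + N1) ∨ Bd (o + Q.length - p0)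

variable {W z}

theorem BO_append (hloc : ∀ P Q, n ≤ Q.length → (W (P ++ Q) ↔ W Q)) {N1 p0 : ℕ} {Bd : ℕ → Prop}
    {P Q : List α} (h : P.length + n + N1 ≤ z) :
    BO W z N1 p0 Bd 0 (P ++ Q) ↔ BO W z N1 p0 Bd P.length Q := by
  unfold BO
  rw [List.length_append, Nat.zero_add]
  constructor
  · rintro (⟨t, ht, hW, h1, h2⟩ | hB)
    · left
      obtain ⟨s, rfl⟩ : ∃ s, t = P.length + s := ⟨t - P.length, by omega⟩
      rw [take_add] at hW
      exact ⟨s, by omega, (hloc P _ (by rw [List.length_take]; omega)).1 hW, by omega, by omega⟩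
    · exact Or.inr hB
  · rintro (⟨t, ht, hW, h1, h2⟩ | hB)
    · left
      refine ⟨P.length + t, by omega, ?_, by omega, by omega⟩
      rw [take_add]
      exact (hloc P _ (by rw [List.length_take]; omega)).2 hW
    · exact Or.inr hB

open Classical in
/-- **spoiled places of the ruler** -/
theorem spoil (hloc : ∀ P Q, n ≤ Q.length → (W (P ++ Q) ↔ W Q)) {Wg : ℕ}
    (hsep : ∀ (X : List α) (t t' : ℕ), t < t' → t' ≤ X.length → W (X.take t) → W (X.take t') →
      t + Wg ≤ t')
    {N1 p0 K C0 La Lam : ℕ} {Bd : ℕ → Prop} {c : ℕ → ℕ}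
    (hcL : ∀ k < K, c k ≤ Lam) (hcp : Lam ≤ p0)
    (hz : p0 + Lam + La + n + N1 ≤ z) (hWg : 2 * Lam + 2 * N1 < Wg)
    (hdiff : ∀ i j k l, i < K → j < K → k < K → l < K → i ≠ j → k ≠ l → (i, j) ≠ (k, l) →
      c i + c l + 2 * N1 < c k + c j ∨ c k + c j + 2 * N1 < c i + c l)
    (hthin : ∀ T, La ≤ T → (((Finset.range K ×ˢ Finset.range K).filter
      (fun q => q.1 ≠ q.2 ∧ Bd (T + c q.2 - c q.1))).card ≤ C0))
    (A : List α) :
    ((Finset.range K).filter (fun k => ∃ k' < K, k' ≠ k ∧ ∃ Q1 ∈ XO W z (c k'),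
      Q1 <+: A.drop (c k) ∧ BO W z N1 p0 Bd (c k') Q1)).card ≤ 2 * C0 + 1 := by
  -- first wall `e1` after `z - Lam`, second wall `e2`
  set p1 : ℕ → Prop := fun t => z ≤ t + Lam ∧ t ≤ A.length ∧ W (A.take t) with hp1
  set e1 : ℕ := if h : ∃ t, p1 t then Nat.find h else z with he1
  set p2 : ℕ → Prop := fun t => e1 < t ∧ t ≤ A.length ∧ W (A.take t) with hp2
  set e2 : ℕ := if h : ∃ t, p2 t then Nat.find h else z with he2
  have hge1 : z ≤ e1 + Lam := by
    rw [he1]; split_ifs with h
    · exact (Nat.find_spec h).1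
    · omega
  have hge2 : z ≤ e2 + Lam := by
    rw [he2]; split_ifs with h
    · have := (Nat.find_spec h).1; omega
    · omega
  set PE := (Finset.range K ×ˢ Finset.range K).filter (fun q : ℕ × ℕ => q.1 ≠ q.2 ∧
    ∃ t ≤ A.length, W (A.take t) ∧ z + c q.1 ≤ t + c q.2 + N1 ∧ t + c q.2 < z + c q.1 + N1) with hPE
  have hPEc : PE.card ≤ 1 := by
    rw [Finset.card_le_one]
    rintro ⟨i, j⟩ h1 ⟨k, l⟩ h2
    rw [hPE, Finset.mem_filter, Finset.mem_product, Finset.mem_range, Finset.mem_range] at h1 h2
    obtain ⟨⟨hi, hj⟩, hij, t, ht, hWt, a1, a2⟩ := h1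
    obtain ⟨⟨hk, hl⟩, hkl, s, hs, hWs, b1, b2⟩ := h2
    simp only at hi hj hij a1 a2 hk hl hkl b1 b2
    have g1 := hcL i hi
    have g2 := hcL j hj
    have g3 := hcL k hk
    have g4 := hcL l hl
    have hts : t = s := by
      rcases Nat.lt_trichotomy t s with h | h | h
      · have := hsep A t s h hs hWt hWs; omega
      · exact h
      · have := hsep A s t h ht hWs hWt; omega
    subst hts
    by_contra hne
    rcases hdiff i j k l hi hj hk hl hij hkl hne with h | h <;> omega
  set PB : ℕ → Finset (ℕ × ℕ) := fun T => (Finset.range K ×ˢ Finset.range K).filter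
      (fun q => q.1 ≠ q.2 ∧ Bd (T + c q.2 - c q.1)) with hPB
  have hsub : ((Finset.range K).filter (fun k => ∃ k' < K, k' ≠ k ∧ ∃ Q1 ∈ XO W z (c k'),
      Q1 <+: A.drop (c k) ∧ BO W z N1 p0 Bd (c k') Q1)) ⊆
      (PE ∪ (PB (e1 - p0) ∪ PB (e2 - p0))).image Prod.fst := by
    intro k hk
    rw [Finset.mem_filter, Finset.mem_range] at hk
    obtain ⟨hkK, k', hk', hne, Q1, hQ1, hpre, hB⟩ := hk
    have g1 := hcL k hkK
    have g2 := hcL k' hk'
    rw [Finset.mem_image]
    refine ⟨(k, k'), ?_, rfl⟩
    have hlen : (A.drop (c k)).length = A.length - c k := List.length_drop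
    have hQl : Q1.length ≤ A.length - c k := by rw [← hlen]; exact hpre.length_le
    have hQz : z ≤ c k' + Q1.length := hQ1.2.1
    have hcA : c k ≤ A.length := by omega
    -- walls of `Q1` are walls of `A`
    have hw : ∀ t, t ≤ Q1.length → n ≤ t → (W (Q1.take t) ↔ W (A.take (c k + t))) := by
      intro t ht hn
      have e1 : Q1.take t = (A.drop (c k)).take t := by
        rw [List.prefix_iff_eq_take.1 hpre, List.take_take, Nat.min_eq_left ht]
      have e2 : A.take (c k + t) = A.take (c k) ++ (A.drop (c k)).take t := by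
        rw [List.take_add]
      rw [e1, e2]
      exact (hloc _ _ (by rw [List.length_take, hlen]; omega)).symm
    rw [Finset.mem_union, Finset.mem_union]
    rcases hB with ⟨t, ht, hWt, b1, b2⟩ | hB
    · left
      rw [hPE, Finset.mem_filter, Finset.mem_product, Finset.mem_range, Finset.mem_range]
      refine ⟨⟨hkK, hk'⟩, Ne.symm hne, c k + t, by omega, (hw t ht (by omega)).1 hWt, ?_, ?_⟩
      · show z + c k ≤ c k + t + c k' + N1
        omega
      · show c k + t + c k' < z + c k + N1
        omega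
    · right
      have hWe : W (A.take (c k + Q1.length)) := by
        have := hw Q1.length le_rfl (by omega)
        rw [List.take_length] at this
        exact this.1 hQ1.1
      have hmin : ∀ t, z + c k ≤ t + c k' → t < c k + Q1.length → t ≤ A.length →
          ¬ W (A.take t) := by
        intro t h1 h2 h3 h4
        obtain ⟨s, rfl⟩ : ∃ s, t = c k + s := ⟨t - c k, by omega⟩
        exact hQ1.2.2 s (by omega) (by omega) ((hw s (by omega) (by omega)).2 h4)
      have hex1 : ∃ t, p1 t := ⟨c k + Q1.length, by omega, by omega, hWe⟩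
      have he1' : e1 = Nat.find hex1 := by rw [he1, dif_pos hex1]
      obtain ⟨f1, f2, f3⟩ : p1 e1 := by rw [he1']; exact Nat.find_spec hex1
      have hle : e1 ≤ c k + Q1.length := by
        rw [he1']; exact Nat.find_min' hex1 ⟨by omega, by omega, hWe⟩
      have hkey : c k + Q1.length = e1 ∨ c k + Q1.length = e2 := by
        rcases Nat.eq_or_lt_of_le hle with h | h
        · exact Or.inl h.symm
        · right
          have hex2 : ∃ t, p2 t := ⟨c k + Q1.length, h, by omega, hWe⟩
          have he2' : e2 = Nat.find hex2 := by rw [he2, dif_pos hex2]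
          obtain ⟨k1, k2, k3⟩ : p2 e2 := by rw [he2']; exact Nat.find_spec hex2
          have hle2 : e2 ≤ c k + Q1.length := by
            rw [he2']; exact Nat.find_min' hex2 ⟨h, by omega, hWe⟩
          rcases Nat.eq_or_lt_of_le hle2 with h' | h'
          · exact h'.symm
          · exfalso
            have := hsep A e1 e2 k1 k2 f3 k3
            exact hmin e2 (by omega) h' k2 k3
      rcases hkey with h | h
      · left
        rw [hPB]
        simp only [Finset.mem_filter, Finset.mem_product, Finset.mem_range]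
        refine ⟨⟨hkK, hk'⟩, Ne.symm hne, ?_⟩
        have : e1 - p0 + c k' - c k = c k' + Q1.length - p0 := by omega
        rw [this]; exact hB
      · right
        rw [hPB]
        simp only [Finset.mem_filter, Finset.mem_product, Finset.mem_range]
        refine ⟨⟨hkK, hk'⟩, Ne.symm hne, ?_⟩
        have : e2 - p0 + c k' - c k = c k' + Q1.length - p0 := by omega
        rw [this]; exact hB
  have h1 := hthin (e1 - p0) (by omega)
  have h2 := hthin (e2 - p0) (by omega)
  calc _ ≤ _ := Finset.card_le_card hsub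
    _ ≤ _ := Finset.card_image_le
    _ ≤ PE.card + (PB (e1 - p0) ∪ PB (e2 - p0)).card := Finset.card_union_le _ _
    _ ≤ PE.card + ((PB (e1 - p0)).card + (PB (e2 - p0)).card) := by
        have := Finset.card_union_le (PB (e1 - p0)) (PB (e2 - p0)); omega
    _ ≤ _ := by
        have h1' : (PB (e1 - p0)).card ≤ C0 := h1
        have h2' : (PB (e2 - p0)).card ≤ C0 := h2
        omega

end blocks

end Crest.Agent.R320.Wd_515
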