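import Crest.Agent.R320.Main_621

set_option autoImplicit false

namespace Crest.Agent.R320.WhA_281

open Crest.Agent.R320.Hk_851 Crest.Agent.R320.Star_621 Crest.Agent.R320.Two_621

variable {α : Type}

/-- wall of `w` at `t`, looking left -/
def A (n : ℕ) (Sw : Set (List α)) (w : List α) (t : ℕ) : Prop :=
  n ≤ t ∧ t ≤ w.length ∧ (w.drop (t - n)).take n ∈ Sw

theorem A_left {n : ℕ} {Sw : Set (List α)} {P Q : List α} {t : ℕ} (h : P.length + n ≤ t) :
    A n Sw (P ++ Q) t ↔ A n Sw Q (t - P.length) := by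
  unfold A
  have e : (P ++ Q).drop (t - n) = Q.drop (t - P.length - n) := by
    rw [List.drop_append, List.drop_eq_nil_of_le (by omega), List.nil_append]
    congr 1; omega
  rw [e, List.length_append]
  constructor
  · rintro ⟨h1, h2, h3⟩
    exact ⟨by omega, by omega, h3⟩
  · rintro ⟨h1, h2, h3⟩
    exact ⟨by omega, by omega, h3⟩

theorem A_right {n : ℕ} {Sw : Set (List α)} {w x : List α} {t : ℕ} (h : t ≤ w.length) :
    A n Sw (w ++ x) t ↔ A n Sw w t := by
  unfold A
  constructor
  · rintro ⟨h1, h2, h3⟩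
    refine ⟨h1, h, ?_⟩
    rw [List.drop_append_of_le_length (by omega), List.take_append_of_le_length
      (by rw [List.length_drop]; omega)] at h3
    exact h3
  · rintro ⟨h1, h2, h3⟩
    refine ⟨h1, by rw [List.length_append]; omega, ?_⟩
    rw [List.drop_append_of_le_length (by omega), List.take_append_of_le_length
      (by rw [List.length_drop]; omega)]
    exact h3

/-- two words with the same tail have the same walls there -/
theorem A_tail {n : ℕ} {Sw : Set (List α)} {P P' Q : List α} {t t' : ℕ}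
    (h : P.length + n ≤ t) (h' : P'.length + n ≤ t') (e : t - P.length = t' - P'.length) :
    A n Sw (P ++ Q) t ↔ A n Sw (P' ++ Q) t' := by
  rw [A_left h, A_left h', e]

open Classical in
/-- first wall at or after `a` -/
noncomputable def tz (n : ℕ) (Sw : Set (List α)) (a : ℕ) (w : List α) : ℕ :=
  if h : ∃ t, a ≤ t ∧ A n Sw w t then Nat.find h else 0

theorem tz_eq {n : ℕ} {Sw : Set (List α)} {a : ℕ} {w : List α} {t : ℕ} (h1 : a ≤ t)
    (h2 : A n Sw w t) (h3 : ∀ s, a ≤ s → s < t → ¬ A n Sw w s) : tz n Sw a w = t := by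
  classical
  have h : ∃ t, a ≤ t ∧ A n Sw w t := ⟨t, h1, h2⟩
  unfold tz
  rw [dif_pos h]
  apply le_antisymm
  · exact Nat.find_min' h ⟨h1, h2⟩
  · by_contra hlt
    push Not at hlt
    have := Nat.find_spec h
    exact h3 _ this.1 hlt this.2

/-- zone with inner wall `t` -/
def Zt (n : ℕ) (Sw : Set (List α)) (zz : ℕ) (w : List α) (t : ℕ) : Prop :=
  zz ≤ t ∧ t < w.length ∧ A n Sw w t ∧ A n Sw w w.length ∧
    ∀ s, zz ≤ s → s < w.length → A n Sw w s → s = t

/-- zones -/
def Z (n : ℕ) (Sw : Set (List α)) (zz : ℕ) : Language α := {w | ∃ t, Zt n Sw zz w t}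

theorem Zt.tz {n : ℕ} {Sw : Set (List α)} {zz : ℕ} {w : List α} {t : ℕ}
    (h : Zt n Sw zz w t) : tz n Sw zz w = t :=
  tz_eq h.1 h.2.2.1 fun s h1 h2 h3 => by
    have h4 := h.2.1
    have := h.2.2.2.2 s h1 (by omega) h3
    omega

theorem code_aux {n : ℕ} {Sw : Set (List α)} {zz : ℕ} {z z' x x' : List α}
    (h : z ∈ Z n Sw zz) (h' : z' ∈ Z n Sw zz) (e : z ++ x = z' ++ x')
    (hl : z.length ≤ z'.length) : z = z' := by
  obtain ⟨t, h1, h2, h3, h4, h5⟩ := h
  obtain ⟨t', k1, k2, k3, k4, k5⟩ := h'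
  rcases Nat.lt_or_ge z.length z'.length with hlt | hge
  · exfalso
    have a1 : A n Sw z' t := by
      rw [← A_right (x := x') (by omega), ← e, A_right (by omega)]; exact h3
    have a2 : A n Sw z' z.length := by
      rw [← A_right (x := x') (by omega), ← e, A_right (by omega)]; exact h4
    have b1 := k5 t h1 (by omega) a1
    have b2 := k5 z.length (by omega) hlt a2
    omega
  · exact (List.append_inj e (by omega)).1

theorem code (n : ℕ) (Sw : Set (List α)) (zz : ℕ) : Code (Z n Sw zz) := by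
  refine ⟨?_, ?_⟩
  · rintro ⟨t, h1, h2, -⟩
    simp at h2
  · intro z z' x x' h h' e
    rcases Nat.le_total z.length z'.length with hl | hl
    · exact code_aux h h' e hl
    · exact (code_aux h' h e.symm hl).symm

/-- if a prefix has a first wall `t ≥ zz` and the zone is comparable then it is the wall of the zone -/
theorem Zt_of_comparable {n : ℕ} {Sw : Set (List α)} {zz : ℕ} {z y u x : List α} {t t' : ℕ}
    (h : Zt n Sw zz z t) (h1 : zz ≤ t') (h2 : A n Sw u t')
    (h3 : ∀ s, zz ≤ s → s < t' → ¬ A n Sw u s) (e : u ++ x = z ++ y) : t' = t := by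
  obtain ⟨a1, a2, a3, a4, a5⟩ := h
  have hu : t' ≤ u.length := h2.2.1
  have key : ∀ s, s ≤ u.length → s ≤ z.length → (A n Sw u s ↔ A n Sw z s) := by
    intro s hs hs'
    rw [← A_right (x := x) hs, e, A_right hs']
  rcases Nat.lt_or_ge t t' with hlt | hge
  · exact absurd ((key t (by omega) (by omega)).2 a3) (h3 t a1 hlt)
  · exact a5 t' h1 (by omega) ((key t' hu (by omega)).1 h2)

/-! ### the data of a configuration -/

/-- everything -/
structure Cfg (α S V : Type) [Monoid S] [AddCommGroup V] where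
  ph : List α → S
  ph_app : ∀ u v, ph (u ++ v) = ph u * ph v
  act : V → S → V
  act_mul : ∀ v s t, act (act v s) t = act v (s * t)
  act_add : ∀ v w s, act (v + w) s = act v s + act w s
  n : ℕ
  Sw : Set (List α)
  W : ℕ
  sep : ∀ (w : List α) (x y : ℕ), x < y → A n Sw w x → A n Sw w y → x + W ≤ y
  p0 : ℕ
  N1 : ℕ
  zz : ℕ
  lam : List α → Option V
  rho : List α → Option V
  nu : List α → V
  BadT : ℕ → Prop
  lam_len : ∀ p v, lam p = some v → p.length ≤ N1
  snd : ∀ p q v b, lam p = some v → rho q = some b → b = act v (ph (p ++ q)) + nu (p ++ q)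
  cpl : ∀ Y, N1 ≤ Y.length → ¬ BadT Y.length → ∀ v, ∃ p q, Y = p ++ q ∧ lam p = some v ∧
    (rho q).isSome
  hp0 : 0 < p0
  hW : 2 * (p0 + N1) + 1 < W
  hzz : 3 * p0 + N1 + n + 1 ≤ zz

variable {S V : Type} [Monoid S] [AddCommGroup V] (D : Cfg α S V)

namespace Cfg

/-- noise on the part after `p0` -/
noncomputable def dY (Y : List α) : V :=
  D.act (D.nu (Y.take (tz D.n D.Sw (D.zz - D.p0) Y))) (D.ph (Y.drop (tz D.n D.Sw (D.zz - D.p0) Y)))

noncomputable def psi (z : List α) (v : V) : V := D.act v (D.ph z) + D.dY (z.drop D.p0)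

def LA (v : V) : Language α :=
  {P | D.p0 ≤ P.length ∧ D.lam (P.drop D.p0) = some (D.act v (D.ph (P.take D.p0)))}

def ZZ : Language α := Z D.n D.Sw D.zz

def RA (τ : V) : Language α :=
  {Q | (∃ v P, P ∈ D.LA v ∧ P ++ Q ∈ D.ZZ) ∧
    ∀ v P, P ∈ D.LA v → P ++ Q ∈ D.ZZ ∧ D.psi (P ++ Q) v = τ}

def Bad (z : List α) (t : ℕ) : Prop :=
  (∃ s, D.zz ≤ s + D.N1 ∧ s ≤ D.zz + D.N1 ∧ s ≤ t ∧ A D.n D.Sw z s) ∨ D.BadT (t - D.p0)

def Zc : Language α := {z | ∃ t, Zt D.n D.Sw D.zz z t ∧ D.Bad z t}

theorem soundA : Sound D.ZZ D.psi D.LA D.RA := by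
  refine ⟨fun v h => ?_, ?_⟩
  · have := h.1
    have := D.hp0
    simp at *; omega
  · intro v τ P Q z x y hP hQ hz e
    obtain ⟨h1, h2⟩ := hQ.2 v P hP
    have : P ++ Q = z := (code D.n D.Sw D.zz).2 _ _ _ _ h1 hz e
    exact ⟨this, by rw [← this]; exact h2.symm⟩

/-- shape of the noise -/
theorem dY_eq {X Y : List α} (hX : X.length = D.p0) {t : ℕ} (h : Zt D.n D.Sw D.zz (X ++ Y) t) :
    D.dY Y = D.act (D.nu (Y.take (t - D.p0))) (D.ph (Y.drop (t - D.p0))) := by
  have hz := D.hzz
  obtain ⟨h1, h2, h3, h4, h5⟩ := h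
  have : tz D.n D.Sw (D.zz - D.p0) Y = t - D.p0 := by
    apply tz_eq (by omega)
    · have := (A_left (P := X) (Q := Y) (n := D.n) (Sw := D.Sw) (t := t) (by omega)).1 h3
      rwa [hX] at this
    · intro s hs hs' hA
      have hs2 : s + D.p0 = t := by
        apply h5 _ (by omega) (by omega)
        rw [A_left (by omega), hX]
        simpa using hA
      omega
  unfold dY
  rw [this]

theorem cutA {z : List α} {t : ℕ} (h : Zt D.n D.Sw D.zz z t) (hb : ¬ D.Bad z t) (v : V) :
    Cut D.LA D.RA v z := by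
  have hz := D.hzz
  have hW := D.hW
  have hZ := h
  obtain ⟨h1, h2, h3, h4, h5⟩ := h
  have hE : ∀ s, D.zz ≤ s + D.N1 → s ≤ D.zz + D.N1 → s ≤ t → ¬ A D.n D.Sw z s :=
    fun s a b c d => hb (Or.inl ⟨s, a, b, c, d⟩)
  have hB : ¬ D.BadT (t - D.p0) := fun a => hb (Or.inr a)
  have ht : D.zz + D.N1 < t := by
    by_contra hle
    exact hE t (by omega) (by omega) le_rfl h3
  -- the middle part
  set X := z.take D.p0 with hX
  set Y := (z.drop D.p0).take (t - D.p0) with hY
  set R := z.drop t with hR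
  have hXl : X.length = D.p0 := by rw [hX, List.length_take]; omega
  have hYl : Y.length = t - D.p0 := by rw [hY, List.length_take, List.length_drop]; omega
  have hzXYR : z = X ++ (Y ++ R) := by
    have : z.drop D.p0 = Y ++ R := by
      rw [hY, hR]
      conv_lhs => rw [← List.take_append_drop (t - D.p0) (z.drop D.p0)]
      rw [List.drop_drop]
      congr 2; omega
    rw [← this, hX, List.take_append_drop]
  obtain ⟨p, q, hpq, hp, hq⟩ := D.cpl Y (by omega) (by rw [hYl]; exact hB) (D.act v (D.ph X))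
  obtain ⟨b, hb'⟩ := Option.isSome_iff_exists.1 hq
  have hpl := D.lam_len _ _ hp
  have hYpq : Y.length = p.length + q.length := by rw [hpq, List.length_append]
  refine ⟨X ++ p, q ++ R, D.act b (D.ph R), ?_, ?_, ?_⟩
  · rw [hzXYR, hpq]; simp
  · refine ⟨by rw [List.length_append]; omega, ?_⟩
    rw [List.drop_left' hXl, List.take_left' hXl]
    exact hp
  · -- all left words
    have main : ∀ v' P', P' ∈ D.LA v' → Zt D.n D.Sw D.zz (P' ++ (q ++ R)) (P'.length + q.length) ∧
        D.psi (P' ++ (q ++ R)) v' = D.act b (D.ph R) := by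
      rintro v' P' ⟨hP0, hP1⟩
      set X' := P'.take D.p0 with hX'
      set p' := P'.drop D.p0 with hp'
      have hX'l : X'.length = D.p0 := by rw [hX', List.length_take]; omega
      have hp'l := D.lam_len _ _ hP1
      have hP'e : P' = X' ++ p' := by rw [hX', hp', List.take_append_drop]
      have hP'l : P'.length = D.p0 + p'.length := by rw [hP'e, List.length_append, hX'l]
      have hzl : z.length = D.p0 + Y.length + R.length := by
        rw [hzXYR]; simp only [List.length_append]; omega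
      have tail : ∀ s, P'.length + D.n ≤ s →
          (A D.n D.Sw (P' ++ (q ++ R)) s ↔ A D.n D.Sw z (s - P'.length + (D.p0 + p.length))) := by
        intro s hs
        have e1 : z = (X ++ p) ++ (q ++ R) := by rw [hzXYR, hpq]; simp
        have e2 : (X ++ p).length = D.p0 + p.length := by rw [List.length_append, hXl]
        rw [e1]
        exact A_tail hs (by rw [e2]; omega) (by rw [e2]; omega)
      have hlen : (P' ++ (q ++ R)).length = P'.length + q.length + R.length := by
        simp only [List.length_append]; omega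
      have hZt : Zt D.n D.Sw D.zz (P' ++ (q ++ R)) (P'.length + q.length) := by
        refine ⟨by omega, by rw [hlen]; omega, ?_, ?_, ?_⟩
        · rw [tail _ (by omega)]
          convert h3 using 1; omega
        · rw [tail _ (by omega), hlen]
          convert h4 using 1; omega
        · intro s hs1 hs2 hs3
          rw [tail _ (by omega)] at hs3
          rw [hlen] at hs2
          have := hs3
          by_cases hlt : s - P'.length + (D.p0 + p.length) < D.zz
          · exact absurd hs3 (hE _ (by omega) (by omega) (by omega))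
          · have := h5 _ (by omega) (by omega) hs3
            omega
      refine ⟨hZt, ?_⟩
      have e3 : P' ++ (q ++ R) = X' ++ (p' ++ q ++ R) := by
        conv_lhs => rw [hP'e]
        simp
      have hdY : D.dY (p' ++ q ++ R) = D.act (D.nu (p' ++ q)) (D.ph R) := by
        rw [e3] at hZt
        rw [D.dY_eq hX'l hZt]
        have e4 : P'.length + q.length - D.p0 = (p' ++ q).length := by
          rw [List.length_append]; omega
        rw [e4, List.take_left, List.drop_left]
      show D.act v' (D.ph (P' ++ (q ++ R))) + D.dY ((P' ++ (q ++ R)).drop D.p0) = _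
      rw [e3, List.drop_left' hX'l, hdY, D.ph_app, ← D.act_mul, D.ph_app, ← D.act_mul,
        ← D.act_add, D.snd _ _ _ _ hP1 hb']
    refine ⟨⟨v, X ++ p, ⟨by rw [List.length_append]; omega, ?_⟩, ?_⟩, fun v' P' hP' =>
      ⟨⟨_, (main v' P' hP').1⟩, (main v' P' hP').2⟩⟩
    · rw [List.drop_left' hXl, List.take_left' hXl]
      exact hp
    · have e1 : z = (X ++ p) ++ (q ++ R) := by rw [hzXYR, hpq]; simp
      rw [← e1]
      exact ⟨t, hZ⟩

theorem complA : ∀ z ∈ D.ZZ, z ∉ D.Zc → ∀ v, Cut D.LA D.RA v z := by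
  rintro z ⟨t, ht⟩ hn v
  exact D.cutA ht (fun hb => hn ⟨t, ht, hb⟩) v

end Cfg

end Crest.Agent.R320.WhA_281
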