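import Crest.Agent.R320.WhA_281
import Crest.Agent.R320.ExactR_237

set_option autoImplicit false

namespace Crest.Agent.R320.WhA_281

open Crest.Agent.R320.Hk_851 Crest.Agent.R320.Star_621 Crest.Agent.R320.Two_621

variable {α : Type} {S V : Type} [Monoid S] [AddCommGroup V]

namespace Cfg

variable (D : Cfg α S V)

/-- the map of `Option V` given by the content -/
def g (s : S) : (Function.End (Option V))ᵐᵒᵖ :=
  MulOpposite.op fun o => o.map fun v => D.act v s

theorem g_mul (s t : S) : D.g (s * t) = D.g s * D.g t := by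
  apply MulOpposite.unop_injective
  funext o
  show o.map (fun v => D.act v (s * t)) = (o.map fun v => D.act v s).map fun v => D.act v t
  cases o with
  | none => rfl
  | some v => simp [D.act_mul]

def fB (a : α) : (Function.End (Option V))ᵐᵒᵖ := D.g (D.ph [a])

theorem pr_fB (h1 : D.ph [] = 1) (ha : ∀ v, D.act v 1 = v) (u : List α) :
    ExactR_237.pr D.fB u = D.g (D.ph u) := by
  induction u with
  | nil =>
    show (1 : (Function.End (Option V))ᵐᵒᵖ) = _
    apply MulOpposite.unop_injective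
    funext o
    show o = o.map fun v => D.act v (D.ph [])
    rw [h1]
    cases o with
    | none => rfl
    | some v => simp [ha]
  | cons a u ih =>
    have e : D.ph (a :: u) = D.ph [a] * D.ph u := by rw [← D.ph_app]; rfl
    rw [e, D.g_mul, ← ih]
    rfl

/-- cut seen from `p0` -/
def CutY (v : V) (Y : List α) : Prop :=
  ∃ p Q τ, Y = p ++ Q ∧ D.lam p = some v ∧ Q ∈ D.RA τ

open Classical in
noncomputable def hY (Y : List α) : (Function.End (Option V))ᵐᵒᵖ :=
  MulOpposite.op fun o => o.bind fun v =>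
    if D.CutY v Y then none else some (D.act v (D.ph Y) + D.dY Y)

theorem cut_iff {X Y : List α} (hX : X.length = D.p0) (v : V) :
    Cut D.LA D.RA v (X ++ Y) ↔ D.CutY (D.act v (D.ph X)) Y := by
  constructor
  · rintro ⟨P, Q, τ, e, ⟨hP, hl⟩, hQ⟩
    have e1 : P = X ++ P.drop D.p0 := by
      have : P.take D.p0 = X := by
        have := congrArg (List.take D.p0) e
        rw [List.take_left' hX, List.take_append_of_le_length hP] at this
        exact this.symm
      rw [← this, List.take_append_drop]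
    refine ⟨P.drop D.p0, Q, τ, ?_, ?_, hQ⟩
    · rw [e1, List.append_assoc] at e
      exact List.append_cancel_left e
    · have : P.take D.p0 = X := by rw [e1, List.take_left' hX]
      rw [this] at hl
      exact hl
  · rintro ⟨p, Q, τ, e, hl, hQ⟩
    refine ⟨X ++ p, Q, τ, by rw [e]; simp, ⟨by rw [List.length_append]; omega, ?_⟩, hQ⟩
    rw [List.drop_left' hX, List.take_left' hX]
    exact hl

theorem step_fac (h1 : D.ph [] = 1) (ha : ∀ v, D.act v 1 = v) {X Y : List α}
    (hX : X.length = D.p0) :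
    stepA D.psi D.LA D.RA (X ++ Y) = ExactR_237.pr D.fB X * D.hY Y := by
  classical
  rw [D.pr_fB h1 ha]
  apply MulOpposite.unop_injective
  funext o
  cases o with
  | none => rfl
  | some v =>
    show (if Cut D.LA D.RA v (X ++ Y) then none else some (D.psi (X ++ Y) v)) =
      (if D.CutY (D.act v (D.ph X)) Y then none
        else some (D.act (D.act v (D.ph X)) (D.ph Y) + D.dY Y))
    have e : D.psi (X ++ Y) v = D.act (D.act v (D.ph X)) (D.ph Y) + D.dY Y := by
      show D.act v (D.ph (X ++ Y)) + D.dY ((X ++ Y).drop D.p0) = _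
      rw [List.drop_left' hX, D.ph_app, D.act_mul]
    rw [e]
    by_cases hc : Cut D.LA D.RA v (X ++ Y)
    · rw [if_pos hc, if_pos ((D.cut_iff hX v).1 hc)]
    · rw [if_neg hc, if_neg fun h => hc ((D.cut_iff hX v).2 h)]

end Cfg

/-- the inner scheme -/
structure Cfg2 (D : Cfg α S V) (V2 : Type) [AddCommGroup V2] where
  h1 : D.ph [] = 1
  ha : ∀ v, D.act v 1 = v
  act2 : V2 → (Function.End (Option V))ᵐᵒᵖ → V2
  K : ℕ
  R : ℕ
  C0 : ℕ
  T0 : ℕ
  c : ℕ → ℕ
  lam2 : ℕ → List α → Option V2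
  rho2 : ℕ → List α → (Function.End (Option V))ᵐᵒᵖ → Option V2
  nu2 : List α → (Function.End (Option V))ᵐᵒᵖ → V2
  snd2 : ∀ k < K, ∀ (P Q : List α) (y : (Function.End (Option V))ᵐᵒᵖ) (v b : V2),
    P.length = c k → lam2 k P = some v → rho2 k Q y = some b →
    b = act2 v (ExactR_237.pr D.fB (P ++ Q) * y) + nu2 (P ++ Q) y
  cpl2 : ∀ (u : List α) (y : (Function.End (Option V))ᵐᵒᵖ) (v : V2), (∀ k < K, c k ≤ u.length) →
    ∃ I : Finset ℕ, R ≤ I.card ∧ ∀ k ∈ I, k < K ∧ lam2 k (u.take (c k)) = some v ∧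
      (rho2 k (u.drop (c k)) y).isSome
  hR : 2 * C0 + 2 ≤ R
  hc0 : ∀ k < K, 0 < c k
  hc : ∀ k < K, c k ≤ D.p0
  sid : ∀ a b a' b', a < K → b < K → a' < K → b' < K → a ≠ b → a' ≠ b' →
    c a + c b' ≤ c a' + c b + 2 * D.N1 → c a' + c b ≤ c a + c b' + 2 * D.N1 → a = a' ∧ b = b'
  inj : ∀ a b, a < K → b < K → c a = c b → a = b
  spoil : ∀ T, T0 ≤ T → ∀ B : Finset (ℕ × ℕ), (∀ p ∈ B, p.1 < K ∧ p.2 < K ∧ p.1 ≠ p.2 ∧
    D.BadT (T + c p.2 - c p.1)) → B.card ≤ C0
  hT0 : T0 + 2 * D.p0 ≤ D.zz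

namespace Cfg2

variable {D : Cfg α S V} {V2 : Type} [AddCommGroup V2] (E : Cfg2 D V2)

noncomputable def psi2 (z : List α) (w : V2) : V2 :=
  E.act2 w (stepA D.psi D.LA D.RA z) + E.nu2 (z.take D.p0) (D.hY (z.drop D.p0))

def LB (w : V2) : Language α := {P | ∃ k < E.K, P.length = E.c k ∧ E.lam2 k P = some w}

def Nice (D : Cfg α S V) (U : List α) : Prop :=
  ∃ t, D.zz ≤ t ∧ A D.n D.Sw U t ∧ (∀ s, D.zz ≤ s → s < t → ¬ A D.n D.Sw U s) ∧
    (∀ s, D.zz ≤ s + D.N1 → s ≤ D.zz + D.N1 → s ≤ t → ¬ A D.n D.Sw U s) ∧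
    ¬ D.BadT (t - D.p0)

def RB (τ : V2) : Language α :=
  {Q | (∃ w P, P ∈ E.LB w ∧ P ++ Q ∈ D.Zc) ∧
    ∀ w P, P ∈ E.LB w → (P ++ Q ∈ D.Zc ∧ E.psi2 (P ++ Q) w = τ) ∨ Nice D (P ++ Q)}

theorem Zc_sub {z : List α} (h : z ∈ D.Zc) : z ∈ D.ZZ := by
  obtain ⟨t, ht, -⟩ := h
  exact ⟨t, ht⟩

theorem soundB : Sound D.Zc E.psi2 E.LB E.RB := by
  refine ⟨fun w h => ?_, ?_⟩
  · obtain ⟨k, hk, hl, -⟩ := h
    have := E.hc0 k hk
    simp at hl; omega
  · intro w τ P Q z x y hP hQ hz e
    rcases hQ.2 w P hP with ⟨h1, h2⟩ | h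
    · have : P ++ Q = z := (code D.n D.Sw D.zz).2 _ _ _ _ (Zc_sub h1) (Zc_sub hz) e
      exact ⟨this, by rw [← this]; exact h2.symm⟩
    · exfalso
      obtain ⟨t, t1, t2, t3, t4, t5⟩ := h
      obtain ⟨tz, hz1, hz2⟩ := hz
      have et : t = tz := Zt_of_comparable hz1 t1 t2 t3 e
      rcases hz2 with ⟨s, s1, s2, s3, s4⟩ | h
      · apply t4 s s1 s2 (by omega)
        have hz3 := hz1.2.1
        rw [← A_right (x := x) (by have := t2.2.1; omega), e, A_right (by omega)]
        exact s4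
      · exact t5 (by rw [et]; exact h)

/-- candidate `j` is spoiled when the true place is `k` -/
def BadKJ (z : List α) (k j : ℕ) : Prop :=
  (∃ s, A D.n D.Sw z s ∧ D.zz + E.c k ≤ s + E.c j + D.N1 ∧ s + E.c j ≤ D.zz + E.c k + D.N1) ∨
    D.BadT (tz D.n D.Sw (D.zz + E.c k - E.c j) z + E.c j - E.c k - D.p0)

theorem tz_spec {n : ℕ} {Sw : Set (List α)} {a : ℕ} {w : List α} {t : ℕ} (h1 : a ≤ t)
    (h2 : A n Sw w t) : a ≤ tz n Sw a w ∧ A n Sw w (tz n Sw a w) ∧
      ∀ s, a ≤ s → A n Sw w s → tz n Sw a w ≤ s := by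
  classical
  have h : ∃ t, a ≤ t ∧ A n Sw w t := ⟨t, h1, h2⟩
  have e : tz n Sw a w = Nat.find h := by unfold tz; rw [dif_pos h]
  rw [e]
  exact ⟨(Nat.find_spec h).1, (Nat.find_spec h).2, fun s a b => Nat.find_min' h ⟨a, b⟩⟩

theorem zt_gap {z : List α} {t : ℕ} (h : Zt D.n D.Sw D.zz z t) : t + D.W ≤ z.length :=
  D.sep z t z.length h.2.1 h.2.2.1 h.2.2.2.1

/-- the first wall of candidate `j` -/
theorem first_spec {z : List α} {t : ℕ} (h : Zt D.n D.Sw D.zz z t) {k j : ℕ} (hk : k < E.K)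
    (hj : j < E.K) :
    D.zz + E.c k - E.c j ≤ tz D.n D.Sw (D.zz + E.c k - E.c j) z ∧
      A D.n D.Sw z (tz D.n D.Sw (D.zz + E.c k - E.c j) z) ∧
      ∀ s, D.zz + E.c k - E.c j ≤ s → A D.n D.Sw z s →
        tz D.n D.Sw (D.zz + E.c k - E.c j) z ≤ s := by
  have h3 := zt_gap h
  have h4 := D.hW
  have h5 := E.hc k hk
  exact tz_spec (t := z.length) (by have := h.1; omega) h.2.2.2.1

theorem count {z : List α} {t : ℕ} (h : Zt D.n D.Sw D.zz z t) (I : Finset ℕ)
    (hI : ∀ k ∈ I, k < E.K) (hcard : 2 * E.C0 + 2 ≤ I.card) :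
    ∃ k ∈ I, ∀ j < E.K, j ≠ k → ¬ E.BadKJ z k j := by
  classical
  by_contra hno
  push Not at hno
  choose! J hJ using hno
  have hzz := D.hzz
  have hWW := D.hW
  have hT0 := E.hT0
  have hgap := zt_gap h
  -- the two walls
  set a := tz D.n D.Sw (D.zz - D.p0) z with ha
  obtain ⟨a1, a2, a3⟩ := tz_spec (a := D.zz - D.p0) (by have := h.1; omega) h.2.2.1
  rw [← ha] at a1 a2 a3
  set b := tz D.n D.Sw (a + 1) z with hb
  have hat : a ≤ t := a3 t (by have := h.1; omega) h.2.2.1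
  obtain ⟨b1, b2, b3⟩ := tz_spec (a := a + 1) (w := z) (t := z.length) (by omega) h.2.2.2.1
  rw [← hb] at b1 b2 b3
  have hab : a + D.W ≤ b := D.sep z a b (by omega) a2 b2
  let E1 := I.filter fun k => ∃ s, A D.n D.Sw z s ∧ D.zz + E.c k ≤ s + E.c (J k) + D.N1 ∧
    s + E.c (J k) ≤ D.zz + E.c k + D.N1
  let E2 := I.filter fun k => D.BadT ((a - D.p0) + E.c (J k) - E.c k)
  let E3 := I.filter fun k => D.BadT ((b - D.p0) + E.c (J k) - E.c k)
  have hsub : I ⊆ E1 ∪ (E2 ∪ E3) := by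
    intro k hk
    obtain ⟨j1, j2, j3⟩ := hJ k hk
    have hkK := hI k hk
    have q1 := E.hc k hkK
    have q2 := E.hc _ j1
    rw [Finset.mem_union, Finset.mem_union]
    rcases j3 with h' | h'
    · exact Or.inl (Finset.mem_filter.2 ⟨hk, h'⟩)
    · right
      obtain ⟨f1, f2, f3⟩ := E.first_spec h hkK j1
      set s := tz D.n D.Sw (D.zz + E.c k - E.c (J k)) z with hs
      have s1 : a ≤ s := a3 s (by omega) f2
      rcases Nat.lt_or_ge a (D.zz + E.c k - E.c (J k)) with hlt | hge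
      · have : s = b := by
          apply le_antisymm
          · exact f3 b (by omega) b2
          · exact b3 s (by omega) f2
        right
        refine Finset.mem_filter.2 ⟨hk, ?_⟩
        rw [this] at h'
        convert h' using 1
        omega
      · have : s = a := le_antisymm (f3 a hge a2) s1
        left
        refine Finset.mem_filter.2 ⟨hk, ?_⟩
        rw [this] at h'
        convert h' using 1
        omega
  have c1 : E1.card ≤ 1 := by
    rw [Finset.card_le_one]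
    intro k hk k' hk'
    obtain ⟨hkI, s, s1, s2, s3⟩ := Finset.mem_filter.1 hk
    obtain ⟨hkI', s', s1', s2', s3'⟩ := Finset.mem_filter.1 hk'
    obtain ⟨j1, j2, -⟩ := hJ k hkI
    obtain ⟨j1', j2', -⟩ := hJ k' hkI'
    have q1 := E.hc k (hI k hkI)
    have q2 := E.hc _ j1
    have q1' := E.hc k' (hI k' hkI')
    have q2' := E.hc _ j1'
    have es : s = s' := by
      rcases Nat.lt_trichotomy s s' with hlt | heq | hgt
      · have := D.sep z s s' hlt s1 s1'
        omega
      · exact heq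
      · have := D.sep z s' s hgt s1' s1
        omega
    subst es
    exact (E.sid k (J k) k' (J k') (hI k hkI) j1 (hI k' hkI') j1' (Ne.symm j2) (Ne.symm j2')
      (by omega) (by omega)).1
  have c23 : ∀ T, E.T0 ≤ T → (I.filter fun k => D.BadT (T + E.c (J k) - E.c k)).card ≤ E.C0 := by
    intro T hT
    have := E.spoil T hT ((I.filter fun k => D.BadT (T + E.c (J k) - E.c k)).image
      fun k => (k, J k)) (by
        intro p hp
        obtain ⟨k, hk, rfl⟩ := Finset.mem_image.1 hp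
        obtain ⟨hkI, hb'⟩ := Finset.mem_filter.1 hk
        obtain ⟨j1, j2, -⟩ := hJ k hkI
        exact ⟨hI k hkI, j1, Ne.symm j2, hb'⟩)
    rwa [Finset.card_image_of_injective _ (fun x y hxy => (Prod.mk.inj hxy).1)] at this
  have c2 : E2.card ≤ E.C0 := c23 _ (by omega)
  have c3 : E3.card ≤ E.C0 := c23 _ (by omega)
  have h5 := Finset.card_le_card hsub
  have h6 := Finset.card_union_le E1 (E2 ∪ E3)
  have h7 := Finset.card_union_le E2 E3
  omega

theorem complB : ∀ z ∈ D.Zc, ∀ w, Cut E.LB E.RB w z := by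
  rintro z ⟨t, ht, hbad⟩ w
  have hzz := D.hzz
  have hWW := D.hW
  have hgap := zt_gap ht
  have ht1 := ht.1
  set X := z.take D.p0 with hX
  set Y := z.drop D.p0 with hY
  have hzXY : z = X ++ Y := (List.take_append_drop _ _).symm
  have hXl : X.length = D.p0 := by rw [hX, List.length_take]; omega
  obtain ⟨I, hI1, hI2⟩ := E.cpl2 X (D.hY Y) w (fun k hk => by rw [hXl]; exact E.hc k hk)
  obtain ⟨k, hkI, hk⟩ := E.count ht I (fun k hk => (hI2 k hk).1) (le_trans E.hR hI1)
  obtain ⟨hkK, hl, hr⟩ := hI2 k hkI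
  obtain ⟨b, hb⟩ := Option.isSome_iff_exists.1 hr
  have hck := E.hc k hkK
  set X2 := X.drop (E.c k) with hX2
  have hX2l : X2.length = D.p0 - E.c k := by rw [hX2, List.length_drop, hXl]
  have hPl : (X.take (E.c k)).length = E.c k := by rw [List.length_take]; omega
  have hzP : z = X.take (E.c k) ++ (X2 ++ Y) := by
    rw [← List.append_assoc, hX2, List.take_append_drop, ← hzXY]
  have hQl : (X2 ++ Y).length + E.c k = z.length := by
    have := congrArg List.length hzP
    rw [List.length_append, hPl] at this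
    omega
  -- walls of P' ++ Q
  have tail : ∀ (P' : List α) s, P'.length + D.n ≤ s →
      E.c k + D.n ≤ s - P'.length + E.c k →
      (A D.n D.Sw (P' ++ (X2 ++ Y)) s ↔ A D.n D.Sw z (s - P'.length + E.c k)) := by
    intro P' s hs hs2
    conv_rhs => rw [hzP]
    exact A_tail hs (by rw [hPl]; omega) (by rw [hPl]; omega)
  -- value on words with the same place
  have same : ∀ w' P', P'.length = E.c k → E.lam2 k P' = some w' →
      P' ++ (X2 ++ Y) ∈ D.Zc ∧ E.psi2 (P' ++ (X2 ++ Y)) w' = b := by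
    intro w' P' hP' hl'
    have hlen : (P' ++ (X2 ++ Y)).length = z.length := by
      rw [List.length_append]; omega
    have key : ∀ s, E.c k + D.n ≤ s →
        (A D.n D.Sw (P' ++ (X2 ++ Y)) s ↔ A D.n D.Sw z s) := by
      intro s hs
      rw [tail P' s (by omega) (by omega)]
      have : s - P'.length + E.c k = s := by omega
      rw [this]
    refine ⟨⟨t, ⟨ht1, by rw [hlen]; exact ht.2.1, (key t (by omega)).2 ht.2.2.1, ?_, ?_⟩, ?_⟩, ?_⟩
    · rw [hlen]; exact (key _ (by omega)).2 ht.2.2.2.1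
    · intro s s1 s2 s3
      rw [hlen] at s2
      exact ht.2.2.2.2 s s1 s2 ((key s (by omega)).1 s3)
    · rcases hbad with ⟨s, s1, s2, s3, s4⟩ | h
      · exact Or.inl ⟨s, s1, s2, s3, (key s (by omega)).2 s4⟩
      · exact Or.inr h
    · have hX' : (P' ++ X2).length = D.p0 := by rw [List.length_append]; omega
      have e1 : P' ++ (X2 ++ Y) = (P' ++ X2) ++ Y := by simp
      show E.act2 w' (stepA D.psi D.LA D.RA (P' ++ (X2 ++ Y))) +
        E.nu2 ((P' ++ (X2 ++ Y)).take D.p0) (D.hY ((P' ++ (X2 ++ Y)).drop D.p0)) = b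
      rw [e1, D.step_fac E.h1 E.ha hX', List.take_left' hX', List.drop_left' hX']
      exact (E.snd2 k hkK P' X2 (D.hY Y) w' b hP' hl' hb).symm
  refine ⟨X.take (E.c k), X2 ++ Y, b, hzP, ⟨k, hkK, hPl, hl⟩, ?_, ?_⟩
  · exact ⟨w, X.take (E.c k), ⟨k, hkK, hPl, hl⟩, (same w _ hPl hl).1⟩
  · rintro w' P' ⟨j, hjK, hP', hl'⟩
    by_cases hjk : j = k
    · subst hjk
      exact Or.inl (same w' P' hP' hl')
    · right
      have hn := hk j hjK hjk
      have hcj := E.hc j hjK
      obtain ⟨f1, f2, f3⟩ := E.first_spec ht hkK hjK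
      set s := tz D.n D.Sw (D.zz + E.c k - E.c j) z with hs
      have n1 : ∀ r, A D.n D.Sw z r → ¬ (D.zz + E.c k ≤ r + E.c j + D.N1 ∧
          r + E.c j ≤ D.zz + E.c k + D.N1) := fun r a c => hn (Or.inl ⟨r, a, c⟩)
      have n2 : ¬ D.BadT (s + E.c j - E.c k - D.p0) := fun c => hn (Or.inr c)
      refine ⟨s + E.c j - E.c k, by omega, ?_, ?_, ?_, n2⟩
      · rw [tail P' _ (by omega) (by omega)]
        have : s + E.c j - E.c k - P'.length + E.c k = s := by omega
        rw [this]; exact f2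
      · intro r r1 r2 r3
        rw [tail P' _ (by omega) (by omega)] at r3
        have := f3 _ (by omega) r3
        omega
      · intro r r1 r2 r3 r4
        rw [tail P' _ (by omega) (by omega)] at r4
        exact n1 _ r4 ⟨by omega, by omega⟩

end Cfg2

end Crest.Agent.R320.WhA_281
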