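import Crest.Agent.R320.Fin_656

/-!
Row 320: transfer along a bijection of alphabets, final form (helper656).
-/

set_option autoImplicit false

namespace Crest.Agent.R320.Xfer_656

open Crest.RegLang

universe u

variable {α : Type u} {β : Type}

/-- renaming of letters -/
def mp (f : β → α) : GRegExp β → GRegExp α
  | .zero => .zero
  | .eps => .eps
  | .char a => .char (f a)
  | .union P Q => .union (mp f P) (mp f Q)
  | .cat P Q => .cat (mp f P) (mp f Q)
  | .not P => .not (mp f P)
  | .star P => .star (mp f P)

theorem mp_height (f : β → α) (r : GRegExp β) : (mp f r).height = r.height := by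
  induction r with
  | zero => rfl
  | eps => rfl
  | char a => rfl
  | union P Q h1 h2 => simp only [mp, GRegExp.height, h1, h2]
  | cat P Q h1 h2 => simp only [mp, GRegExp.height, h1, h2]
  | not P h1 => simp only [mp, GRegExp.height, h1]
  | star P h1 => simp only [mp, GRegExp.height, h1]

theorem mp_lang (e : β ≃ α) (r : GRegExp β) :
    ∀ w : List β, w.map e ∈ (mp e r).lang ↔ w ∈ r.lang := by
  have hinj : Function.Injective (List.map e) := List.map_injective_iff.2 e.injective
  have hback : ∀ a : List α, (a.map e.symm).map e = a := by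
    intro a
    rw [List.map_map]
    simp
  induction r with
  | zero => intro w; exact Iff.rfl
  | eps =>
    intro w
    show w.map e = [] ↔ w = []
    exact List.map_eq_nil_iff
  | char a =>
    intro w
    show w.map e = [e a] ↔ w = [a]
    constructor
    · intro h
      exact hinj (by simpa using h)
    · rintro rfl; rfl
  | union P Q h1 h2 =>
    intro w
    show (w.map e ∈ (mp e P).lang ∨ w.map e ∈ (mp e Q).lang) ↔ (w ∈ P.lang ∨ w ∈ Q.lang)
    rw [h1, h2]
  | cat P Q h1 h2 =>
    intro w
    show w.map e ∈ (mp e P).lang * (mp e Q).lang ↔ w ∈ P.lang * Q.lang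
    rw [Language.mem_mul, Language.mem_mul]
    constructor
    · rintro ⟨a, ha, b, hb, hab⟩
      refine ⟨a.map e.symm, (h1 _).1 (by rw [hback]; exact ha), b.map e.symm,
        (h2 _).1 (by rw [hback]; exact hb), ?_⟩
      apply hinj
      rw [List.map_append, hback, hback, hab]
    · rintro ⟨a, ha, b, hb, rfl⟩
      exact ⟨a.map e, (h1 a).2 ha, b.map e, (h2 b).2 hb, by rw [List.map_append]⟩
  | not P h1 =>
    intro w
    show (¬ w.map e ∈ (mp e P).lang) ↔ ¬ w ∈ P.lang
    rw [h1]
  | star P h1 =>
    intro w
    show w.map e ∈ KStar.kstar (mp e P).lang ↔ w ∈ KStar.kstar P.lang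
    rw [Language.mem_kstar, Language.mem_kstar]
    constructor
    · rintro ⟨l, h2, h3⟩
      refine ⟨l.map (List.map e.symm), ?_, ?_⟩
      · apply hinj
        rw [h2, List.map_flatten, List.map_map]
        congr 1
        have : (List.map e ∘ List.map e.symm : List α → List α) = id := by
          funext a; exact hback a
        rw [this, List.map_id]
      · intro y hy
        obtain ⟨a, ha, rfl⟩ := List.mem_map.1 hy
        exact (h1 _).1 (by rw [hback]; exact h3 a ha)
    · rintro ⟨l, rfl, h3⟩
      refine ⟨l.map (List.map e), by rw [List.map_flatten], ?_⟩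
      intro y hy
      obtain ⟨a, ha, rfl⟩ := List.mem_map.1 hy
      exact (h1 a).2 (h3 a ha)

/-- **the row** -/
theorem row {α : Type u} [Finite α] (L : Language α) (hL : L.IsRegular) :
    ∃ e : GRegExp α, e.height ≤ 3 ∧ e.lang = L := by
  obtain ⟨n, ⟨e0⟩⟩ := Finite.exists_equiv_fin α
  let e : Fin n ≃ α := e0.symm
  let L' : Language (Fin n) := {w | w.map e ∈ L}
  have hL' : L'.IsRegular := by
    obtain ⟨σ, hσ, M, hM⟩ := hL
    refine ⟨σ, hσ, M.comap e, ?_⟩
    ext w
    rw [DFA.accepts_comap]
    show w.map e ∈ M.accepts ↔ w.map e ∈ L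
    rw [hM]
  obtain ⟨r, h1, h2⟩ := Crest.Agent.R320.Fin_656.regular_hl3 L' hL'
  refine ⟨mp e r, by rw [mp_height]; exact h1, ?_⟩
  ext w
  have h3 := mp_lang e r (w.map e.symm)
  have h4 : (w.map e.symm).map e = w := by
    rw [List.map_map]; simp
  rw [h4, h2] at h3
  rw [h3]
  show (w.map e.symm).map e ∈ L ↔ w ∈ L
  rw [h4]

end Crest.Agent.R320.Xfer_656
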