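import Mathlib

/-!
# Row 320, scheme 1: the zone gadget on words (helper478)

From the abstract gadget interface `UG` (219 #12976: names + random noise) and a right-looking wall
rule `R` this file builds left labels `L1`, right labels `R1` and a zone noise `nu1` on words.
-/

set_option autoImplicit false

namespace Crest.Agent.R320.ZG1_478

open Classical

/-- right-looking rule of window `n` -/
structure IsRule {α : Type*} (R : List α → Prop) (n : ℕ) : Prop where
  pos : 0 < n
  take_iff : ∀ Q, R Q ↔ R (Q.take n)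
  len : ∀ Q, R Q → n ≤ Q.length

/-- `t` is the first wall of `Y` at a position `≥ A` -/
def FW {α : Type*} (R : List α → Prop) (A : ℕ) (Y : List α) (t : ℕ) : Prop :=
  A ≤ t ∧ R (Y.drop t) ∧ ∀ s, A ≤ s → s < t → ¬ R (Y.drop s)

/-- position of the first wall `≥ A`, the length of `Y` if there is none -/
noncomputable def fw {α : Type*} (R : List α → Prop) (A : ℕ) (Y : List α) : ℕ :=
  if h : ∃ t, FW R A Y t then choose h else Y.length

section basic

variable {α : Type*} {R : List α → Prop} {n : ℕ}

theorem rule_append (hR : IsRule R n) {Q X : List α} (h : n ≤ Q.length) :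
    R (Q ++ X) ↔ R Q := by
  rw [hR.take_iff (Q ++ X), hR.take_iff Q, List.take_append_of_le_length h]

theorem FW.uniq {A : ℕ} {Y : List α} {s t : ℕ} (hs : FW R A Y s) (ht : FW R A Y t) : s = t := by
  rcases Nat.lt_trichotomy s t with h | h | h
  · exact absurd hs.2.1 (ht.2.2 s hs.1 h)
  · exact h
  · exact absurd ht.2.1 (hs.2.2 t ht.1 h)

theorem FW.le (hR : IsRule R n) {A : ℕ} {Y : List α} {t : ℕ} (h : FW R A Y t) :
    t + n ≤ Y.length := by
  have := hR.len _ h.2.1
  have hp := hR.pos
  rw [List.length_drop] at this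
  omega

theorem fw_eq {A : ℕ} {Y : List α} {t : ℕ} (h : FW R A Y t) : fw R A Y = t := by
  unfold fw
  rw [dif_pos ⟨t, h⟩]
  exact (choose_spec (⟨t, h⟩ : ∃ t, FW R A Y t)).uniq h

theorem fw_spec {A : ℕ} {Y : List α} (h : ∃ t, FW R A Y t) : FW R A Y (fw R A Y) := by
  obtain ⟨t, ht⟩ := h
  rw [fw_eq ht]; exact ht

theorem exists_FW {A : ℕ} {Y : List α} {s : ℕ} (h1 : A ≤ s) (h2 : R (Y.drop s)) :
    ∃ t, FW R A Y t ∧ t ≤ s := by
  have hex : ∃ t, A ≤ t ∧ R (Y.drop t) := ⟨s, h1, h2⟩
  refine ⟨Nat.find hex, ⟨(Nat.find_spec hex).1, (Nat.find_spec hex).2, ?_⟩,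
    Nat.find_min' hex ⟨h1, h2⟩⟩
  intro u hu1 hu2 hu3
  exact Nat.find_min hex hu2 ⟨hu1, hu3⟩

theorem fw_le (hR : IsRule R n) (A : ℕ) (Y : List α) : fw R A Y ≤ Y.length := by
  by_cases h : ∃ t, FW R A Y t
  · have := (fw_spec h).le hR
    omega
  · unfold fw; rw [dif_neg h]

theorem fw_mono (hR : IsRule R n) {A B : ℕ} (hAB : A ≤ B) (Y : List α) :
    fw R A Y ≤ fw R B Y := by
  by_cases h : ∃ t, FW R B Y t
  · have h1 := fw_spec h
    obtain ⟨t, ht, htle⟩ := exists_FW (R := R) (le_trans hAB h1.1) h1.2.1
    rw [fw_eq ht]; exact htle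
  · have : fw R B Y = Y.length := by unfold fw; rw [dif_neg h]
    rw [this]; exact fw_le hR A Y

theorem FW.app (hR : IsRule R n) {A : ℕ} {P : List α} (Q : List α) {t : ℕ} (h : FW R A P t) :
    FW R A (P ++ Q) t := by
  have hl := h.le hR
  have key : ∀ s, s ≤ t → (R ((P ++ Q).drop s) ↔ R (P.drop s)) := by
    intro s hs
    rw [List.drop_append_of_le_length (by omega)]
    exact rule_append hR (by rw [List.length_drop]; omega)
  refine ⟨h.1, (key t le_rfl).2 h.2.1, fun s h1 h2 => ?_⟩
  rw [key s h2.le]
  exact h.2.2 s h1 h2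

theorem FW.of_app (hR : IsRule R n) {A : ℕ} {P Q : List α} {t : ℕ} (h : FW R A (P ++ Q) t)
    (hl : t + n ≤ P.length) : FW R A P t := by
  have key : ∀ s, s ≤ t → (R ((P ++ Q).drop s) ↔ R (P.drop s)) := by
    intro s hs
    rw [List.drop_append_of_le_length (by omega)]
    exact rule_append hR (by rw [List.length_drop]; omega)
  refine ⟨h.1, (key t le_rfl).1 h.2.1, fun s h1 h2 => ?_⟩
  rw [← key s h2.le]
  exact h.2.2 s h1 h2

theorem drop_app_ge {P Q : List α} {s : ℕ} (h : P.length ≤ s) :
    (P ++ Q).drop s = Q.drop (s - P.length) := by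
  rw [List.drop_append, List.drop_eq_nil_of_le h, List.nil_append]

theorem FW.right {A : ℕ} {P Q : List α} (hA : P.length ≤ A) {t : ℕ}
    (h : FW R (A - P.length) Q t) : FW R A (P ++ Q) (P.length + t) := by
  refine ⟨by have := h.1; omega, ?_, fun s h1 h2 => ?_⟩
  · rw [drop_app_ge (by omega)]
    have : P.length + t - P.length = t := by omega
    rw [this]; exact h.2.1
  · rw [drop_app_ge (by omega)]
    exact h.2.2 _ (by omega) (by omega)

theorem FW.doubt {lo hi c : ℕ} {Q : List α} {t : ℕ} (h : FW R lo Q t)
    (hno : ∀ s, lo ≤ s → s < hi → ¬ R (Q.drop s)) (h1 : lo ≤ c) (h2 : c ≤ hi) :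
    FW R c Q t := by
  have ht : hi ≤ t := by
    by_contra hc
    exact hno t h.1 (by omega) h.2.1
  exact ⟨by omega, h.2.1, fun s hs1 hs2 => h.2.2 s (by omega) hs2⟩

end basic

section seg

variable {α S : Type*} [Monoid S]

/-- value of the segment `[s, t)` -/
def sg (ψ : List α → S) (Y : List α) (s t : ℕ) : S := ψ ((Y.drop s).take (t - s))

omit [Monoid S] in
theorem sg_left (ψ : List α → S) {P Q : List α} {s t : ℕ} (hst : s ≤ t) (ht : t ≤ P.length) :
    sg ψ (P ++ Q) s t = sg ψ P s t := by
  unfold sg
  rw [List.drop_append_of_le_length (by omega), List.take_append_of_le_length]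
  rw [List.length_drop]; omega

omit [Monoid S] in
theorem sg_right (ψ : List α → S) {P Q : List α} {s t : ℕ} (hs : P.length ≤ s) :
    sg ψ (P ++ Q) s t = sg ψ Q (s - P.length) (t - P.length) := by
  unfold sg
  rw [drop_app_ge hs]
  congr 2
  omega

theorem take_step (ψ : List α → S) (hψ : ∀ p q, ψ (p ++ q) = ψ p * ψ q) (Y : List α) {a b : ℕ}
    (h : a ≤ b) : ψ (Y.take a) * sg ψ Y a b = ψ (Y.take b) := by
  unfold sg
  rw [← hψ]
  congr 1
  obtain ⟨c, rfl⟩ := Nat.exists_eq_add_of_le h
  rw [List.take_add]
  congr 2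
  omega

theorem tele (ψ : List α → S) (hψ : ∀ p q, ψ (p ++ q) = ψ p * ψ q) (Y : List α) (H : ℕ → ℕ)
    (hH : ∀ i, H i ≤ H (i + 1)) (j : ℕ) :
    ψ (Y.take (H 0)) * ((List.range j).map fun i => sg ψ Y (H i) (H (i + 1))).prod
      = ψ (Y.take (H j)) := by
  induction j with
  | zero => simp
  | succ j ih =>
    rw [List.range_succ, List.map_append, List.prod_append, ← mul_assoc, ih]
    simp only [List.map_cons, List.map_nil, List.prod_cons, List.prod_nil, mul_one]
    exact take_step ψ hψ Y (hH j)

theorem tele_full (ψ : List α → S) (hψ : ∀ p q, ψ (p ++ q) = ψ p * ψ q) (Y : List α) (H : ℕ → ℕ)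
    (hH : ∀ i, H i ≤ H (i + 1)) (m : ℕ) :
    ψ (Y.take (H 0)) * ((List.range m).map fun i => sg ψ Y (H i) (H (i + 1))).prod
      * ψ (Y.drop (H m)) = ψ Y := by
  rw [tele ψ hψ Y H hH m, ← hψ, List.take_append_drop]

theorem split_range {β : Type*} (f : ℕ → β) (k r : ℕ) :
    (List.range (k + (r + 1))).map f =
      (List.range k).map f ++ f k :: (List.range r).map (fun i => f (k + 1 + i)) := by
  rw [List.range_add, List.map_append, List.range_succ_eq_map]
  simp only [List.map_cons, List.map_map, Nat.add_zero]
  congr 2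
  apply List.map_congr_left
  intro i _
  simp only [Function.comp]
  congr 1
  omega

end seg

/-- 219's abstract gadget of scheme 1 at fixed moduli -/
structure UG {S V : Type*} [Monoid S] [AddCommGroup V] (act : V → S → V) (m M : ℕ)
    (Bad : ℕ → Prop) (Lb : ℕ → S → List S → ℕ → Option V)
    (Rb : (ℕ → Option (List S × S)) → ℕ → Option V) (D : ℕ → S → List S → S → V) : Prop where
  sound : ∀ (zl : List S) (z : S) (zr : List S) (x y : S) (v b : V) (t t' : ℕ)
    (vw : ℕ → Option (List S × S)), (zl ++ z :: zr).length = m →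
    (∀ q, vw zl.length = some q → q = (zr, y)) → Lb zl.length x zl t = some v →
    Rb vw t' = some b → b = act v (x * zl.prod * z * zr.prod * y) + D (t + t') x (zl ++ z :: zr) y
  complete : ∀ (T : ℕ) (x : S) (zs : List S) (y : S) (v : V), ¬ Bad T → zs.length = m →
    ∃ i < m, ∀ c0, c0 + M ≤ T + 1 → ∃ t, c0 ≤ t ∧ t < c0 + M ∧ t ≤ T ∧
      Lb i x (zs.take i) t = some v ∧
      ∀ vw : ℕ → Option (List S × S), vw i = some (zs.drop (i + 1), y) → (Rb vw (T - t)).isSome

section gadget

variable {α S V : Type*} [Monoid S] [AddCommGroup V]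
variable (R : List α → Prop) (ψ : List α → S)
variable (Lb : ℕ → S → List S → ℕ → Option V) (Rb : (ℕ → Option (List S × S)) → ℕ → Option V)
variable (D : ℕ → S → List S → S → V)
variable (m M M' ga la : ℕ)

/-- anchor of level `j` -/
def An (M' la j : ℕ) : ℕ := M' * (la * j)

/-- hole end number `j` of a zone content `Y` -/
noncomputable def Hp (Y : List α) (j : ℕ) : ℕ := fw R (An M' la j) Y

/-- contents of the holes `k, .., k + r - 1` -/
noncomputable def holes (Y : List α) (k r : ℕ) : List S :=
  (List.range r).map fun i => sg ψ Y (Hp R M' la Y (k + i)) (Hp R M' la Y (k + i + 1))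

/-- left condition: the clock of `P` is in the cell of its level, the hole ends are visible -/
def LC (P : List α) : Prop :=
  P.length = M' * (P.length / M') ∧ (P.length / M') / la < m ∧
  la * ((P.length / M') / la) + ga ≤ P.length / M' ∧
  P.length / M' < la * ((P.length / M') / la) + ga + M ∧
  ∀ j ≤ (P.length / M') / la, ∃ t, FW R (An M' la j) P t

noncomputable def L1 (P : List α) : Option V :=
  if LC R m M M' ga la P then
    Lb ((P.length / M') / la) (ψ (P.take (Hp R M' la P 0)))
      (holes R ψ M' la P 0 ((P.length / M') / la)) (P.length / M')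
  else none

/-- interval of doubt of level `j` seen from a place of level `k` -/
def lo (M M' ga la k j : ℕ) : ℕ := An M' la j - M' * (la * k + ga + M - 1)
def hi (M' ga la k j : ℕ) : ℕ := An M' la j - M' * (la * k + ga)

def RC (Q : List α) (k : ℕ) : Prop :=
  k < m ∧ ∀ j, k < j → j ≤ m →
    (∃ t, FW R (lo M M' ga la k j) Q t) ∧
    ∀ s, lo M M' ga la k j ≤ s → s < hi M' ga la k j → ¬ R (Q.drop s)

noncomputable def vw (Q : List α) (k : ℕ) : Option (List S × S) :=
  if RC R m M M' ga la Q k then
    some ((List.range (m - (k + 1))).map fun i =>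
        sg ψ Q (fw R (lo M M' ga la k (k + 1 + i)) Q) (fw R (lo M M' ga la k (k + 1 + i + 1)) Q),
      ψ (Q.drop (fw R (lo M M' ga la k m) Q)))
  else none

noncomputable def R1 (Q : List α) : Option V := Rb (vw R ψ m M M' ga la Q) (Q.length / M')

noncomputable def nu1 (Y : List α) : V :=
  D (Y.length / M') (ψ (Y.take (Hp R M' la Y 0))) (holes R ψ M' la Y 0 m)
    (ψ (Y.drop (Hp R M' la Y m)))

variable {R ψ Lb Rb D m M M' ga la} {n : ℕ}

theorem An_mono {M' la i j : ℕ} (h : i ≤ j) : An M' la i ≤ An M' la j := by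
  unfold An
  exact Nat.mul_le_mul_left _ (Nat.mul_le_mul_left _ h)

theorem Hp_mono (hR : IsRule R n) (Y : List α) (i : ℕ) :
    Hp R M' la Y i ≤ Hp R M' la Y (i + 1) :=
  fw_mono hR (An_mono (Nat.le_succ i)) Y

theorem Hp_left (hR : IsRule R n) {P : List α} (Q : List α) {j : ℕ}
    (h : ∃ t, FW R (An M' la j) P t) :
    Hp R M' la (P ++ Q) j = Hp R M' la P j ∧ Hp R M' la P j + n ≤ P.length := by
  have h1 := fw_spec h
  refine ⟨?_, h1.le hR⟩
  exact fw_eq (h1.app hR Q)

/-- position seen from the right -/
theorem Hp_right {P Q : List α} {k j om : ℕ} (hP : P.length = M' * om)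
    (h1 : la * k + ga ≤ om) (h2 : om < la * k + ga + M) (h3 : om ≤ la * j)
    (hfw : ∃ t, FW R (lo M M' ga la k j) Q t)
    (hno : ∀ s, lo M M' ga la k j ≤ s → s < hi M' ga la k j → ¬ R (Q.drop s)) :
    Hp R M' la (P ++ Q) j = P.length + fw R (lo M M' ga la k j) Q := by
  have hs := fw_spec hfw
  have e1 : M' * om ≤ An M' la j := Nat.mul_le_mul_left _ h3
  have e2 : M' * (la * k + ga) ≤ M' * om := Nat.mul_le_mul_left _ h1
  have e3 : M' * om ≤ M' * (la * k + ga + M - 1) := Nat.mul_le_mul_left _ (by omega)
  have hd : FW R (An M' la j - P.length) Q (fw R (lo M M' ga la k j) Q) := by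
    apply hs.doubt hno
    · unfold lo; omega
    · unfold hi; omega
  exact fw_eq (hd.right (by omega))

theorem sound (hR : IsRule R n) (hψ : ∀ p q, ψ (p ++ q) = ψ p * ψ q) {act : V → S → V}
    {Bad : ℕ → Prop} (hU : UG act m M Bad Lb Rb D) (hM' : 0 < M') (hla : ga + M ≤ la)
    {P Q : List α} {v r : V} (hL : L1 R ψ Lb m M M' ga la P = some v)
    (hr : R1 R ψ Rb m M M' ga la Q = some r) :
    r = act v (ψ (P ++ Q)) + nu1 R ψ D m M' la (P ++ Q) := by
  unfold L1 at hL
  split_ifs at hL with hc
  obtain ⟨c1, c2, c3, c4, c5⟩ := hc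
  set om := P.length / M' with hom
  set k := om / la with hk
  set Y := P ++ Q with hY
  have hmono : ∀ i, Hp R M' la Y i ≤ Hp R M' la Y (i + 1) := Hp_mono hR Y
  -- holes as lists
  set f : ℕ → S := fun i => sg ψ Y (Hp R M' la Y i) (Hp R M' la Y (i + 1)) with hf
  have hleft : ∀ j ≤ k, Hp R M' la Y j = Hp R M' la P j ∧ Hp R M' la P j + n ≤ P.length :=
    fun j hj => Hp_left hR Q (c5 j hj)
  have hx : ψ (P.take (Hp R M' la P 0)) = ψ (Y.take (Hp R M' la Y 0)) := by
    have h0 := hleft 0 (Nat.zero_le _)
    rw [h0.1, hY, List.take_append_of_le_length (by omega)]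
  have hzl : holes R ψ M' la P 0 k = (List.range k).map f := by
    unfold holes
    apply List.map_congr_left
    intro i hi
    rw [List.mem_range] at hi
    simp only [Nat.zero_add, hf]
    have a1 := hleft i (by omega)
    have a2 := hleft (i + 1) (by omega)
    rw [a1.1, a2.1, hY]
    rw [sg_left ψ ?_ (by omega)]
    have := hmono i
    omega
  have hlen : ((List.range k).map f ++ f k :: (List.range (m - (k + 1))).map
      (fun i => f (k + 1 + i))).length = m := by
    simp only [List.length_append, List.length_map, List.length_range, List.length_cons]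
    omega
  have hsplit : (List.range m).map f = (List.range k).map f ++ f k ::
      (List.range (m - (k + 1))).map (fun i => f (k + 1 + i)) := by
    have := split_range f k (m - (k + 1))
    have e : k + (m - (k + 1) + 1) = m := by omega
    rw [e] at this
    exact this
  have hholes : holes R ψ M' la Y 0 m = (List.range m).map f := by
    unfold holes
    apply List.map_congr_left
    intro i _
    simp only [Nat.zero_add, hf]
  have hk1 : la * k ≤ om := Nat.mul_div_le om la
  have hview : ∀ q, vw R ψ m M M' ga la Q ((List.range k).map f).length = some q →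
      q = ((List.range (m - (k + 1))).map (fun i => f (k + 1 + i)),
        ψ (Y.drop (Hp R M' la Y m))) := by
    intro q hq
    rw [List.length_map, List.length_range] at hq
    unfold vw at hq
    split_ifs at hq with hrc
    obtain ⟨_, hrc⟩ := hrc
    have hright : ∀ j, k < j → j ≤ m →
        Hp R M' la Y j = P.length + fw R (lo M M' ga la k j) Q := by
      intro j h1 h2
      obtain ⟨a1, a2⟩ := hrc j h1 h2
      refine Hp_right (om := om) c1 c3 c4 ?_ a1 a2
      have : la * (k + 1) ≤ la * j := Nat.mul_le_mul_left _ h1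
      have e : la * (k + 1) = la * k + la := by ring
      omega
    rw [← Option.some.inj hq]
    congr 1
    · apply List.map_congr_left
      intro i hi
      rw [List.mem_range] at hi
      simp only [hf]
      rw [hright (k + 1 + i) (by omega) (by omega), hright (k + 1 + i + 1) (by omega) (by omega),
        hY, sg_right ψ (by omega)]
      congr 1 <;> omega
    · rw [hright m (by omega) le_rfl, hY, drop_app_ge (by omega)]
      congr 2
      omega
  have hLb : Lb ((List.range k).map f).length (ψ (Y.take (Hp R M' la Y 0)))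
      ((List.range k).map f) om = some v := by
    rw [List.length_map, List.length_range, ← hx, ← hzl]
    exact hL
  have key := hU.sound ((List.range k).map f) (f k)
    ((List.range (m - (k + 1))).map (fun i => f (k + 1 + i)))
    (ψ (Y.take (Hp R M' la Y 0))) (ψ (Y.drop (Hp R M' la Y m))) v r om (Q.length / M')
    (vw R ψ m M M' ga la Q) hlen hview hLb hr
  rw [key]
  congr 1
  · congr 1
    rw [← tele_full ψ hψ Y (fun i => Hp R M' la Y i) hmono m]
    have : ((List.range m).map fun i => sg ψ Y (Hp R M' la Y i) (Hp R M' la Y (i + 1)))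
        = (List.range m).map f := rfl
    rw [this, hsplit, List.prod_append, List.prod_cons]
    simp only [mul_assoc]
  · unfold nu1
    rw [hholes, hsplit]
    congr 1
    rw [hY, List.length_append, c1]
    rw [Nat.mul_add_div hM']

theorem complete (hR : IsRule R n) {act : V → S → V}
    {Bad : ℕ → Prop} (hU : UG act m M Bad Lb Rb D) (hM' : 0 < M')
    (hla : ga + M ≤ la) {G : ℕ} (hga : G + n ≤ M' * ga)
    {Y : List α} (hlen : M' * (la * (m + 1)) ≤ Y.length)
    (hwall : ∀ j ≤ m, ∃ s, An M' la j ≤ s ∧ s < An M' la j + G ∧ R (Y.drop s))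
    (hbad : ¬ Bad (Y.length / M'))
    (hD : ∀ j, 1 ≤ j → j ≤ m → ∀ s, An M' la j < s + M' * M → s < An M' la j + M' * M →
      ¬ R (Y.drop s)) (v : V) :
    ∃ om, om < la * m ∧ M' * om ≤ Y.length ∧
      L1 R ψ Lb m M M' ga la (Y.take (M' * om)) = some v ∧
      (R1 R ψ Rb m M M' ga la (Y.drop (M' * om))).isSome := by
  set f : ℕ → S := fun i => sg ψ Y (Hp R M' la Y i) (Hp R M' la Y (i + 1)) with hf
  have hholes : holes R ψ M' la Y 0 m = (List.range m).map f := by
    unfold holes
    apply List.map_congr_left
    intro i _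
    simp only [Nat.zero_add, hf]
  obtain ⟨i, him, hc⟩ := hU.complete (Y.length / M') (ψ (Y.take (Hp R M' la Y 0)))
    ((List.range m).map f) (ψ (Y.drop (Hp R M' la Y m))) v hbad (by simp)
  have hT : la * (m + 1) ≤ Y.length / M' := by
    rw [Nat.le_div_iff_mul_le hM', Nat.mul_comm]; exact hlen
  have hi1 : la * (i + 1) ≤ la * (m + 1) := Nat.mul_le_mul_left _ (by omega)
  have hi2 : la * (i + 1) = la * i + la := by ring
  obtain ⟨t, ht1, ht2, ht3, hLb, hRb⟩ := hc (la * i + ga) (by omega)
  have hi3 : la * (i + 1) ≤ la * m := Nat.mul_le_mul_left _ (by omega)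
  have hMt : M' * t ≤ Y.length :=
    le_trans (Nat.mul_le_mul_left _ ht3) (Nat.mul_div_le _ _)
  refine ⟨t, by omega, hMt, ?_, ?_⟩
  all_goals
    set P := Y.take (M' * t) with hP
    set Q := Y.drop (M' * t) with hQ
    have hPQ : P ++ Q = Y := List.take_append_drop _ _
    have hPl : P.length = M' * t := by rw [hP, List.length_take]; omega
    have e1 : P.length / M' = t := by rw [hPl, Nat.mul_div_cancel_left _ hM']
    have e2 : t / la = i := by
      apply Nat.div_eq_of_lt_le
      · rw [Nat.mul_comm]; omega
      · rw [Nat.mul_comm]; omega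
    have b1 : M' * (la * i + ga) ≤ M' * t := Nat.mul_le_mul_left _ ht1
    have b2 : M' * (la * i + ga) = An M' la i + M' * ga := by unfold An; ring
    have hex : ∀ j ≤ i, ∃ u, FW R (An M' la j) P u := by
      intro j hj
      obtain ⟨s, s1, s2, s3⟩ := hwall j (by omega)
      obtain ⟨u, hu, hus⟩ := exists_FW s1 s3
      have b3 : An M' la j ≤ An M' la i := An_mono hj
      refine ⟨u, FW.of_app (Q := Q) hR (by rw [hPQ]; exact hu) ?_⟩
      omega
    have hleft : ∀ j ≤ i, Hp R M' la Y j = Hp R M' la P j ∧ Hp R M' la P j + n ≤ P.length := by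
      intro j hj
      have := Hp_left (M' := M') (la := la) hR Q (hex j hj)
      rw [hPQ] at this
      exact this
    have hmono : ∀ i, Hp R M' la Y i ≤ Hp R M' la Y (i + 1) := Hp_mono hR Y
  · have hLC : LC R m M M' ga la P := by
      unfold LC
      rw [e1, e2]
      exact ⟨hPl, him, ht1, ht2, hex⟩
    unfold L1
    rw [if_pos hLC, e1, e2]
    have h0 := hleft 0 (Nat.zero_le _)
    have hx : ψ (P.take (Hp R M' la P 0)) = ψ (Y.take (Hp R M' la Y 0)) := by
      rw [h0.1, ← hPQ, List.take_append_of_le_length (by omega)]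
    have hz : holes R ψ M' la P 0 i = ((List.range m).map f).take i := by
      rw [← List.map_take, List.take_range, Nat.min_eq_left him.le]
      unfold holes
      apply List.map_congr_left
      intro j hj
      rw [List.mem_range] at hj
      simp only [Nat.zero_add, hf]
      have a1 := hleft j (by omega)
      have a2 := hleft (j + 1) (by omega)
      rw [a1.1, a2.1, ← hPQ, sg_left ψ ?_ (by omega)]
      have := hmono j
      omega
    rw [hx, hz]
    exact hLb
  · have hRC : RC R m M M' ga la Q i := by
      refine ⟨him, fun j hj1 hj2 => ?_⟩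
      have c1 : la * (i + 1) ≤ la * j := Nat.mul_le_mul_left _ hj1
      have c2 : M' * t ≤ An M' la j := by
        unfold An
        exact Nat.mul_le_mul_left _ (by omega)
      have c3 : M' * t ≤ M' * (la * i + ga + M - 1) := Nat.mul_le_mul_left _ (by omega)
      have c4 : M' * (la * i + ga + M - 1) + M' ≤ M' * t + M' * M := by
        have : M' * (la * i + ga + M - 1) + M' = M' * (la * i + ga + M - 1 + 1) := by ring
        rw [this, ← Nat.mul_add]
        exact Nat.mul_le_mul_left _ (by omega)
      have c5 : M' * t ≤ M' * (la * i + ga) + M' * M := by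
        rw [← Nat.mul_add]
        exact Nat.mul_le_mul_left _ (by omega)
      constructor
      · obtain ⟨s, s1, s2, s3⟩ := hwall j hj2
        have hw : R (Q.drop (s - M' * t)) := by
          rw [hQ, List.drop_drop]
          have : M' * t + (s - M' * t) = s := by omega
          rw [this]; exact s3
        have hlo : lo M M' ga la i j ≤ s - M' * t := by unfold lo; omega
        obtain ⟨u, hu, _⟩ := exists_FW hlo hw
        exact ⟨u, hu⟩
      · intro s s1 s2
        rw [hQ, List.drop_drop]
        apply hD j (by omega) hj2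
        · unfold lo at s1; omega
        · unfold hi at s2; omega
    have hright : ∀ j, i < j → j ≤ m →
        Hp R M' la Y j = P.length + fw R (lo M M' ga la i j) Q := by
      intro j h1 h2
      obtain ⟨a1, a2⟩ := hRC.2 j h1 h2
      rw [← hPQ]
      refine Hp_right (om := t) hPl ht1 ht2 ?_ a1 a2
      have : la * (i + 1) ≤ la * j := Nat.mul_le_mul_left _ h1
      omega
    have hview : vw R ψ m M M' ga la Q i =
        some (((List.range m).map f).drop (i + 1), ψ (Y.drop (Hp R M' la Y m))) := by
      unfold vw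
      rw [if_pos hRC]
      congr 2
      · have hsplit : (List.range m).map f = (List.range i).map f ++ f i ::
            (List.range (m - (i + 1))).map (fun l => f (i + 1 + l)) := by
          have := split_range f i (m - (i + 1))
          have e : i + (m - (i + 1) + 1) = m := by omega
          rw [e] at this
          exact this
        rw [hsplit]
        have e3 : (List.range i).map f ++ f i ::
            (List.range (m - (i + 1))).map (fun l => f (i + 1 + l)) =
            ((List.range i).map f ++ [f i]) ++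
            (List.range (m - (i + 1))).map (fun l => f (i + 1 + l)) := by simp
        rw [e3, List.drop_left' (by simp)]
        apply List.map_congr_left
        intro l hl
        rw [List.mem_range] at hl
        simp only [hf]
        rw [hright (i + 1 + l) (by omega) (by omega),
          hright (i + 1 + l + 1) (by omega) (by omega), ← hPQ, sg_right ψ (by omega)]
        congr 1 <;> omega
      · rw [hright m him le_rfl, ← hPQ, drop_app_ge (by omega)]
        congr 2
        omega
    unfold R1
    have hQl : Q.length / M' = Y.length / M' - t := by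
      rw [hQ, List.length_drop, Nat.sub_mul_div]
    rw [hQl]
    exact hRb _ hview

/-- the left label is defined only at places `M' * om` of the window -/
theorem L1_window {P : List α} {v : V} (hla : ga + M ≤ la)
    (h : L1 R ψ Lb m M M' ga la P = some v) :
    ∃ om, P.length = M' * om ∧ om < la * m := by
  unfold L1 at h
  split_ifs at h with hc
  obtain ⟨c1, c2, c3, c4, -⟩ := hc
  refine ⟨_, c1, ?_⟩
  have h1 : la * (P.length / M' / la + 1) ≤ la * m := Nat.mul_le_mul_left _ c2
  have h2 : la * (P.length / M' / la + 1) = la * (P.length / M' / la) + la := by ring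
  omega

end gadget

end Crest.Agent.R320.ZG1_478
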