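import Crest.Agent.R320.Hk1_851
import Mathlib

/-!
# Row 320: the word-level reduction of HALF 1 (255) to a finite zone-level statement (helper608)

Zones are the words of a finite prefix code `U` (left-looking walls).
-/

set_option autoImplicit false
set_option linter.unusedVariables false

namespace Crest.Agent.R320.ZRed_608

open Crest.Agent.R320.Hk_851

universe u

variable {α : Type u}

/-- `Run U e w v v'` : `w` is a product of zones of `U`, the state `v` is moved to `v'`. -/
inductive Run {V : Type} (U : Set (List α)) (e : List α → V → V) : List α → V → V → Prop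
  | nil (v : V) : Run U e [] v v
  | cons {u w : List α} {v v' : V} (hu : u ∈ U) (h : Run U e w (e u v) v') :
      Run U e (u ++ w) v v'

/-- prefix code -/
def PC (U : Set (List α)) : Prop :=
  [] ∉ U ∧ ∀ u ∈ U, ∀ u' ∈ U, u <+: u' → u = u'

theorem comparable {u v x y : List α} (h : u ++ x = v ++ y) : u <+: v ∨ v <+: u := by
  rcases List.append_eq_append_iff.1 h with ⟨a, h1, _⟩ | ⟨a, h1, _⟩
  · exact Or.inl ⟨a, h1.symm⟩
  · exact Or.inr ⟨a, h1.symm⟩

theorem PC.eq {U : Set (List α)} (h : PC U) {u v x y : List α} (hu : u ∈ U) (hv : v ∈ U)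
    (e : u ++ x = v ++ y) : u = v ∧ x = y := by
  have : u = v := by
    rcases comparable e with h1 | h1
    · exact h.2 u hu v hv h1
    · exact (h.2 v hv u hu h1).symm
  subst this
  exact ⟨rfl, List.append_cancel_left e⟩

theorem PC.mono {U B : Set (List α)} (h : PC U) (hB : B ⊆ U) : PC B :=
  ⟨fun h0 => h.1 (hB h0), fun u hu v hv => h.2 u (hB hu) v (hB hv)⟩

section run

variable {V : Type} {U B : Set (List α)} {e : List α → V → V}

theorem Run.mono (hB : B ⊆ U) {w : List α} {v v' : V} (h : Run B e w v v') :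
    Run U e w v v' := by
  induction h with
  | nil v => exact Run.nil v
  | cons hu _ ih => exact Run.cons (hB hu) ih

theorem Run.append {x y : List α} {v v1 v2 : V} (h : Run U e x v v1) (h' : Run U e y v1 v2) :
    Run U e (x ++ y) v v2 := by
  induction h with
  | nil v => exact h'
  | cons hu _ ih => rw [List.append_assoc]; exact Run.cons hu (ih h')

theorem Run.star {w : List α} {v v' : V} (h : Run U e w v v') :
    ∃ L : List (List α), w = L.flatten ∧ ∀ y ∈ L, y ∈ U := by
  induction h with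
  | nil v => exact ⟨[], rfl, by simp⟩
  | @cons u w v v' hu _ ih =>
    obtain ⟨L, rfl, hL⟩ := ih
    refine ⟨u :: L, by simp, ?_⟩
    intro y hy
    rcases List.mem_cons.1 hy with rfl | hy
    · exact hu
    · exact hL y hy

theorem exists_run (L : List (List α)) (hL : ∀ y ∈ L, y ∈ U) (v : V) :
    ∃ v', Run U e L.flatten v v' := by
  induction L generalizing v with
  | nil => exact ⟨v, Run.nil v⟩
  | cons u L ih =>
    obtain ⟨v', h⟩ := ih (fun y hy => hL y (List.mem_cons_of_mem _ hy)) (e u v)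
    exact ⟨v', by rw [List.flatten_cons]; exact Run.cons (hL u (by simp)) h⟩

theorem Run.inv_nil {v v' : V} (hP : PC U) {w : List α} (hw : w = []) (h : Run U e w v v') :
    v = v' := by
  induction h with
  | nil v => rfl
  | @cons u w v v' hu _ ih =>
    have h1 := (List.append_eq_nil_iff.1 hw).1
    exact absurd (h1 ▸ hu) hP.1

theorem Run.cancel (hP : PC U) {x y : List α} {v v1 v2 : V} (h : Run U e x v v1)
    (h' : Run U e (x ++ y) v v2) : Run U e y v1 v2 := by
  induction h with
  | nil v => exact h'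
  | @cons u w v v' hu _ ih =>
    rw [List.append_assoc] at h'
    generalize hz : u ++ (w ++ y) = z at h'
    cases h' with
    | nil =>
      have h1 := (List.append_eq_nil_iff.1 hz).1
      exact absurd (h1 ▸ hu) hP.1
    | @cons u' w' _ _ hu' h'' =>
      obtain ⟨rfl, rfl⟩ := hP.eq hu hu' hz
      exact ih h''

theorem Run.unique (hP : PC U) {x : List α} {v v1 v2 : V} (h : Run U e x v v1)
    (h' : Run U e x v v2) : v1 = v2 := by
  have := Run.cancel (y := []) hP h (by simpa using h')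
  exact Run.inv_nil hP rfl this

theorem star_cancel (hP : PC U) {x y : List α}
    (hx : ∃ L : List (List α), x = L.flatten ∧ ∀ y ∈ L, y ∈ U)
    (hxy : ∃ L : List (List α), x ++ y = L.flatten ∧ ∀ y ∈ L, y ∈ U) :
    ∃ L : List (List α), y = L.flatten ∧ ∀ y ∈ L, y ∈ U := by
  obtain ⟨L, rfl, hL⟩ := hx
  obtain ⟨L', h', hL'⟩ := hxy
  obtain ⟨v1, h1⟩ := exists_run (U := U) (e := fun _ (v : Unit) => v) L hL ()
  obtain ⟨v2, h2⟩ := exists_run (U := U) (e := fun _ (v : Unit) => v) L' hL' ()
  rw [← h'] at h2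
  exact (Run.cancel hP h1 h2).star

end run

/-- The level lemma (189 / 467): `Run U` from `Run B` by one star. -/
theorem level {V : Type} (U B : Set (List α)) (hB : B ⊆ U) (hP : PC U)
    (e : List α → V → V) (P R : V → Set (List α)) (hP0 : ∀ v, [] ∉ P v)
    (S : ∀ u ∈ U, ∀ v v', ∀ p ∈ P v, ∀ q ∈ R v', (u <+: p ++ q ∨ p ++ q <+: u) →
      u = p ++ q ∧ e u v = v')
    (C : ∀ u ∈ U, u ∉ B → ∀ v, ∃ p ∈ P v, ∃ q ∈ R (e u v), u = p ++ q)
    (K : Set (List α))
    (hK : ∀ k, k ∈ K ↔ ∃ v1 v2 r b p, r ∈ R v1 ∧ Run B e b v1 v2 ∧ p ∈ P v2 ∧ k = r ++ b ++ p)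
    (w : List α) (v v' : V) :
    Run U e w v v' ↔ (∃ L : List (List α), w = L.flatten ∧ ∀ y ∈ L, y ∈ U) ∧
      (Run B e w v v' ∨ ∃ v1 v2 x p q z, ∃ ks : List (List α), (∀ k ∈ ks, k ∈ K) ∧
        Run B e x v v1 ∧ p ∈ P v1 ∧ q ∈ R v2 ∧ Run B e z v2 v' ∧
        w = x ++ (p ++ (ks.flatten ++ (q ++ z)))) := by
  constructor
  · intro h
    refine ⟨h.star, ?_⟩
    induction h with
    | nil v => exact Or.inl (Run.nil v)
    | @cons u w v v' hu _ ih =>
      by_cases hb : u ∈ B
      · rcases ih with h1 | ⟨v1, v2, x, p, q, z, ks, hks, h1, h2, h3, h4, rfl⟩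
        · exact Or.inl (Run.cons hb h1)
        · exact Or.inr ⟨v1, v2, u ++ x, p, q, z, ks, hks, Run.cons hb h1, h2, h3, h4, by simp⟩
      · obtain ⟨p, hp, q, hq, rfl⟩ := C u hu hb v
        rcases ih with h1 | ⟨v1, v2, x, p1, q1, z, ks, hks, h1, h2, h3, h4, rfl⟩
        · exact Or.inr ⟨v, _, [], p, q, w, [], by simp, Run.nil v, hp, hq, h1, by simp⟩
        · refine Or.inr ⟨v, v2, [], p, q1, z, (q ++ x ++ p1) :: ks, ?_, Run.nil v, hp, h3, h4,
            by simp⟩
          intro k hk
          rcases List.mem_cons.1 hk with rfl | hk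
          · exact (hK _).2 ⟨_, _, q, x, p1, hq, h1, h2, rfl⟩
          · exact hks k hk
  · rintro ⟨hst, h | ⟨v1, v2, x, p, q, z, ks, hks, hx, hp, hq, hz, rfl⟩⟩
    · exact h.mono hB
    · have key : ∀ (ks : List (List α)), (∀ k ∈ ks, k ∈ K) → ∀ v1, ∀ p ∈ P v1,
          (∃ L : List (List α), p ++ (ks.flatten ++ (q ++ z)) = L.flatten ∧ ∀ y ∈ L, y ∈ U) →
          Run U e (p ++ (ks.flatten ++ (q ++ z))) v1 v' := by
        intro ks
        induction ks with
        | nil =>
          rintro - v1 p hp ⟨L, hL, hLU⟩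
          cases L with
          | nil =>
            have : p = [] := by
              have h1 : p ++ (([] : List (List α)).flatten ++ (q ++ z)) = [] := by
                rw [hL]; rfl
              exact (List.append_eq_nil_iff.1 h1).1
            exact absurd (this ▸ hp) (hP0 _)
          | cons u L =>
            have h1 : u ++ L.flatten = (p ++ q) ++ z := by
              rw [List.flatten_cons] at hL
              rw [← hL]; simp
            obtain ⟨h2, h3⟩ := S u (hLU u (by simp)) v1 v2 p hp q hq (comparable h1)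
            subst h2
            have h4 : L.flatten = z := List.append_cancel_left h1
            have h5 : Run U e (p ++ q ++ z) v1 v' :=
              Run.cons (hLU _ (by simp)) (by rw [h3]; exact hz.mono hB)
            simpa using h5
        | cons k ks ih =>
          rintro hks v1 p hp ⟨L, hL, hLU⟩
          obtain ⟨v3, v4, r, b, p', hr, hb, hp', rfl⟩ := (hK k).1 (hks k (by simp))
          cases L with
          | nil =>
            have : p = [] := by
              have h1 := hL
              rw [List.flatten_nil] at h1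
              exact (List.append_eq_nil_iff.1 h1).1
            exact absurd (this ▸ hp) (hP0 _)
          | cons u L =>
            have h1 : u ++ L.flatten = (p ++ r) ++ (b ++ (p' ++ (ks.flatten ++ (q ++ z)))) := by
              simp only [List.flatten_cons] at hL
              rw [← hL]; simp
            obtain ⟨h2, h3⟩ := S u (hLU u (by simp)) v1 v3 p hp r hr (comparable h1)
            subst h2
            have h4 : L.flatten = b ++ (p' ++ (ks.flatten ++ (q ++ z))) :=
              List.append_cancel_left h1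
            have hbU := hb.mono hB
            have h5 := star_cancel hP hbU.star
              ⟨L, h4.symm, fun y hy => hLU y (List.mem_cons_of_mem _ hy)⟩
            have h6 := ih (fun k hk => hks k (List.mem_cons_of_mem _ hk)) v4 p' hp' h5
            have h7 : Run U e ((p ++ r) ++ (b ++ (p' ++ (ks.flatten ++ (q ++ z))))) v1 v' :=
              Run.cons (hLU (p ++ r) (by simp)) (by rw [h3]; exact hbU.append h6)
            simpa using h7
      have hxU := hx.mono hB
      exact hxU.append (key ks hks v1 p hp (star_cancel hP hxU.star hst))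


/-- height of the level lemma -/
theorem level_HL {V : Type} [Finite V] {h : ℕ} (U B : Set (List α)) (hB : B ⊆ U) (hP : PC U)
    (e : List α → V → V) (P R : V → Set (List α)) (hP0 : ∀ v, [] ∉ P v)
    (S : ∀ u ∈ U, ∀ v v', ∀ p ∈ P v, ∀ q ∈ R v', (u <+: p ++ q ∨ p ++ q <+: u) →
      u = p ++ q ∧ e u v = v')
    (C : ∀ u ∈ U, u ∉ B → ∀ v, ∃ p ∈ P v, ∃ q ∈ R (e u v), u = p ++ q)
    (hU : HL h (U : Language α)) (hPh : ∀ v, HL h (P v : Language α))
    (hRh : ∀ v, HL h (R v : Language α))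
    (hBh : ∀ v v', HL h ({w | Run B e w v v'} : Language α)) (v v' : V) :
    HL (h + 1) ({w | Run U e w v v'} : Language α) := by
  let LB : V → V → Language α := fun v v' => {w | Run B e w v v'}
  let PL : V → Language α := fun v => P v
  let RL : V → Language α := fun v => R v
  let K : Language α := {k | ∃ x : V × V, k ∈ RL x.1 * (LB x.1 x.2 * PL x.2)}
  have hKh : HL h K := HL.iUnion fun x => (hRh x.1).mul ((hBh x.1 x.2).mul (hPh x.2))
  have hKs : HL (h + 1) (KStar.kstar K) := hKh.star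
  have hUs : HL (h + 1) (KStar.kstar (U : Language α)) := hU.star
  have hm : h ≤ h + 1 := Nat.le_succ h
  have hbig : HL (h + 1) ({w | ∃ x : V × V, w ∈ LB v x.1 * (PL x.1 * (KStar.kstar K *
      (RL x.2 * LB x.2 v')))} : Language α) :=
    HL.iUnion fun x => ((hBh v x.1).mono hm).mul (((hPh x.1).mono hm).mul (hKs.mul
      (((hRh x.2).mono hm).mul ((hBh x.2 v').mono hm))))
  refine (hUs.setOf_and (((hBh v v').mono hm).setOf_or hbig)).congr fun w => ?_
  have hlev := level U B hB hP e P R hP0 S C {k | k ∈ K} (fun k => ?_) w v v'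
  · refine hlev.trans ?_
    constructor
    · rintro ⟨⟨L, h1, h2⟩, h3 | ⟨v1, v2, x, p, q, z, ks, h3, h4, h5, h6, h7, h8⟩⟩
      · exact ⟨Language.mem_kstar.2 ⟨L, h1, h2⟩, Or.inl h3⟩
      · refine ⟨Language.mem_kstar.2 ⟨L, h1, h2⟩, Or.inr ⟨(v1, v2), ?_⟩⟩
        exact Language.mem_mul.2 ⟨x, h4, _, Language.mem_mul.2 ⟨p, h5, _, Language.mem_mul.2
          ⟨ks.flatten, Language.mem_kstar.2 ⟨ks, rfl, h3⟩, _, Language.mem_mul.2
            ⟨q, h6, z, h7, rfl⟩, rfl⟩, rfl⟩, h8.symm⟩
    · rintro ⟨h1, h2 | ⟨⟨v1, v2⟩, h2⟩⟩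
      · exact ⟨Language.mem_kstar.1 h1, Or.inl h2⟩
      · obtain ⟨x, h4, y1, h5, h8⟩ := Language.mem_mul.1 h2
        obtain ⟨p, h6, y2, h7, rfl⟩ := Language.mem_mul.1 h5
        obtain ⟨k, h9, y3, h10, rfl⟩ := Language.mem_mul.1 h7
        obtain ⟨q, h11, z, h12, rfl⟩ := Language.mem_mul.1 h10
        obtain ⟨ks, rfl, hks⟩ := Language.mem_kstar.1 h9
        exact ⟨Language.mem_kstar.1 h1, Or.inr ⟨v1, v2, x, p, q, z, ks, hks, h4, h6, h11, h12,
          h8.symm⟩⟩
  · constructor
    · rintro ⟨⟨v1, v2⟩, h2⟩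
      obtain ⟨r, h4, y1, h5, h8⟩ := Language.mem_mul.1 h2
      obtain ⟨b, h6, p, h7, rfl⟩ := Language.mem_mul.1 h5
      exact ⟨v1, v2, r, b, p, h4, h6, h7, by rw [← h8]; simp⟩
    · rintro ⟨v1, v2, r, b, p, h1, h2, h3, rfl⟩
      exact ⟨(v1, v2), Language.mem_mul.2 ⟨r, h1, b ++ p, Language.mem_mul.2
        ⟨b, h2, p, h3, rfl⟩, by simp⟩⟩

/-- the run of a list of zones -/
def act {V : Type} (e : List α → V → V) : List (List α) → V → V
  | [], v => v
  | u :: L, v => act e L (e u v)

theorem run_act {V : Type} {U : Set (List α)} {e : List α → V → V} (L : List (List α))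
    (hL : ∀ y ∈ L, y ∈ U) (v : V) : Run U e L.flatten v (act e L v) := by
  induction L generalizing v with
  | nil => exact Run.nil v
  | cons u L ih =>
    rw [List.flatten_cons]
    exact Run.cons (hL u (by simp)) (ih (fun y hy => hL y (List.mem_cons_of_mem _ hy)) _)

/-- The finite zone-level data which give HALF 1. `RF` is the set of run-free words. -/
structure ZoneData (α : Type u) {S : Type} [Monoid S] (φ : α → S) (RF : Set (List α)) where
  U : Set (List α)
  T : Set (List α)
  finU : U.Finite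
  finT : T.Finite
  pc : PC U
  cover : ∀ w ∈ RF, ∃ L : List (List α), (∀ y ∈ L, y ∈ U) ∧ ∃ t ∈ T, w = L.flatten ++ t
  -- outer scheme: sound on all zones, complete outside `B`
  V1 : Type
  fin1 : Finite V1
  inh1 : Nonempty V1
  e1 : List α → V1 → V1
  P1 : V1 → Set (List α)
  R1 : V1 → Set (List α)
  finP1 : ∀ v, (P1 v).Finite
  finR1 : ∀ v, (R1 v).Finite
  ne1 : ∀ v, [] ∉ P1 v
  B : Set (List α)
  subB : B ⊆ U
  sound1 : ∀ u ∈ U, ∀ v v', ∀ p ∈ P1 v, ∀ q ∈ R1 v', (u <+: p ++ q ∨ p ++ q <+: u) →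
    u = p ++ q ∧ e1 u v = v'
  compl1 : ∀ u ∈ U, u ∉ B → ∀ v, ∃ p ∈ P1 v, ∃ q ∈ R1 (e1 u v), u = p ++ q
  rec1 : ∀ L L' : List (List α), (∀ y ∈ L, y ∈ U) → (∀ y ∈ L', y ∈ U) →
    (∀ v, act e1 L v = act e1 L' v) → (L.flatten.map φ).prod = (L'.flatten.map φ).prod
  -- inner (promise) scheme: sound and complete on the bad zones only
  V2 : Type
  fin2 : Finite V2
  inh2 : Nonempty V2
  e2 : List α → V2 → V2
  P2 : V2 → Set (List α)
  R2 : V2 → Set (List α)
  finP2 : ∀ v, (P2 v).Finite
  finR2 : ∀ v, (R2 v).Finite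
  ne2 : ∀ v, [] ∉ P2 v
  sound2 : ∀ u ∈ B, ∀ v v', ∀ p ∈ P2 v, ∀ q ∈ R2 v', (u <+: p ++ q ∨ p ++ q <+: u) →
    u = p ++ q ∧ e2 u v = v'
  compl2 : ∀ u ∈ B, ∀ v, ∃ p ∈ P2 v, ∃ q ∈ R2 (e2 u v), u = p ++ q
  rec2 : ∀ L L' : List (List α), (∀ y ∈ L, y ∈ B) → (∀ y ∈ L', y ∈ B) →
    (∀ x, act e2 L x = act e2 L' x) → ∀ v, act e1 L v = act e1 L' v

theorem ZoneData.innerHL {S : Type} [Monoid S] {φ : α → S} {RF : Set (List α)}
    (D : ZoneData α φ RF) (x x' : D.V2) :
    HL 1 ({w | Run D.B D.e2 w x x'} : Language α) := by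
  haveI := D.fin2
  refine level_HL D.B ∅ (Set.empty_subset _) (D.pc.mono D.subB) D.e2 D.P2 D.R2 D.ne2 D.sound2
    (fun u hu _ => D.compl2 u hu) (HL.finite (D.finU.subset D.subB))
    (fun v => HL.finite (D.finP2 v)) (fun v => HL.finite (D.finR2 v)) (fun v v' => ?_) x x'
  by_cases h : v = v'
  · subst h
    refine HL.one.congr fun w => ?_
    constructor
    · intro hw
      generalize hB : (∅ : Set (List α)) = B0 at hw
      change Run B0 D.e2 w v v at hw
      have : w = [] := by
        cases hw with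
        | nil => rfl
        | cons hu _ => rw [← hB] at hu; exact hu.elim
      rw [this]; exact Language.nil_mem_one
    · intro hw
      rw [Language.mem_one] at hw
      subst hw
      exact Run.nil v
  · refine HL.bot.congr fun w => ?_
    constructor
    · intro hw
      exfalso
      generalize hB : (∅ : Set (List α)) = B0 at hw
      change Run B0 D.e2 w v v' at hw
      cases hw with
      | nil => exact h rfl
      | cons hu _ => rw [← hB] at hu; exact hu.elim
    · intro hw; exact hw.elim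

/-- reading off a second action from a first one -/
theorem readoff {V W X : Type} [Finite V] {h : ℕ} {B : Set (List α)} (hPC : PC B)
    (e2 : List α → V → V) (hh : ∀ x x', HL h ({w | Run B e2 w x x'} : Language α))
    (hne : Nonempty V)
    (g : List (List α) → Prop)
    (hg : ∀ L L' : List (List α), (∀ y ∈ L, y ∈ B) → (∀ y ∈ L', y ∈ B) →
      (∀ x, act e2 L x = act e2 L' x) → (g L ↔ g L')) :
    HL h ({w | ∃ L : List (List α), (∀ y ∈ L, y ∈ B) ∧ w = L.flatten ∧ g L} : Language α) := by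
  have h1 : HL h ({w | ∃ f : V → V, w ∈ ({w | (∃ L : List (List α), (∀ y ∈ L, y ∈ B) ∧ g L ∧
      ∀ x, act e2 L x = f x) ∧ ∀ x, w ∈ ({w | Run B e2 w x (f x)} : Language α)} :
        Language α)} : Language α) :=
    HL.iUnion fun f => (HL.const _).setOf_and (HL.iInter fun x => hh x (f x))
  refine h1.congr fun w => ?_
  constructor
  · rintro ⟨L, hL, rfl, hgL⟩
    exact ⟨act e2 L, ⟨L, hL, hgL, fun _ => rfl⟩, fun x => run_act L hL x⟩
  · rintro ⟨f, ⟨L, hL, hgL, hf⟩, hw⟩
    obtain ⟨x0⟩ := hne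
    obtain ⟨L', rfl, hL'⟩ := (hw x0).star
    refine ⟨L', hL', rfl, (hg L L' hL hL' fun x => ?_).1 hgL⟩
    rw [hf x]
    exact (Run.unique hPC (hw x) (run_act L' hL' x))


theorem ZoneData.badHL {S : Type} [Monoid S] {φ : α → S} {RF : Set (List α)}
    (D : ZoneData α φ RF) (v v' : D.V1) :
    HL 1 ({w | Run D.B D.e1 w v v'} : Language α) := by
  haveI := D.fin2
  have h := readoff (h := 1) (W := Unit) (X := Unit) (D.pc.mono D.subB) D.e2
    (fun x x' => D.innerHL x x') D.inh2 (fun L => act D.e1 L v = v') (fun L L' hL hL' h => by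
      show act D.e1 L v = v' ↔ act D.e1 L' v = v'
      rw [D.rec2 L L' hL hL' h v])
  refine h.congr fun w => ?_
  constructor
  · intro hw
    obtain ⟨L, rfl, hL⟩ := Run.star hw
    exact ⟨L, hL, rfl, (Run.unique (D.pc.mono D.subB) (run_act L hL v) hw)⟩
  · rintro ⟨L, hL, rfl, h1⟩
    have := run_act (e := D.e1) L hL v
    rwa [h1] at this

theorem ZoneData.outerHL {S : Type} [Monoid S] {φ : α → S} {RF : Set (List α)}
    (D : ZoneData α φ RF) (v v' : D.V1) :
    HL 2 ({w | Run D.U D.e1 w v v'} : Language α) := by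
  haveI := D.fin1
  exact level_HL D.U D.B D.subB D.pc D.e1 D.P1 D.R1 D.ne1 D.sound1 D.compl1
    (HL.finite D.finU) (fun v => HL.finite (D.finP1 v)) (fun v => HL.finite (D.finR1 v))
    (fun v v' => D.badHL v v') v v'

/-- **HALF 1 from zone data.** -/
theorem ZoneData.half1 {S : Type} [Monoid S] [Finite S] {φ : α → S} {RF : Set (List α)}
    (hRF : HL 2 (RF : Language α)) (D : ZoneData α φ RF) (s : S) :
    HL 2 ({w | w ∈ RF ∧ (w.map φ).prod = s} : Language α) := by
  haveI := D.fin1
  let LS : S → Language α := fun s1 => {w | ∃ L : List (List α), (∀ y ∈ L, y ∈ D.U) ∧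
      w = L.flatten ∧ (L.flatten.map φ).prod = s1}
  let TS : S → Language α := fun s2 => {t | t ∈ D.T ∧ (t.map φ).prod = s2}
  have hstar : ∀ s1 : S, HL 2 (LS s1) := fun s1 =>
    readoff (h := 2) (W := Unit) (X := Unit) D.pc D.e1 (fun x x' => D.outerHL x x') D.inh1
      (fun L => (L.flatten.map φ).prod = s1) (fun L L' hL hL' h => by
        show (L.flatten.map φ).prod = s1 ↔ (L'.flatten.map φ).prod = s1
        rw [D.rec1 L L' hL hL' h])
  have htail : ∀ s2 : S, HL 2 (TS s2) := fun s2 =>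
    HL.finite (D.finT.subset fun t ht => ht.1)
  have hall : HL 2 ({w | ∃ x : {x : S × S // x.1 * x.2 = s}, w ∈ LS x.1.1 * TS x.1.2} :
      Language α) :=
    HL.iUnion fun x => (hstar x.1.1).mul (htail x.1.2)
  refine (hRF.setOf_and hall).congr fun w => ?_
  constructor
  · rintro ⟨hw, hs⟩
    refine ⟨hw, ?_⟩
    obtain ⟨L, hL, t, ht, rfl⟩ := D.cover w hw
    refine ⟨⟨((L.flatten.map φ).prod, (t.map φ).prod), ?_⟩, Language.mem_mul.2
      ⟨L.flatten, ⟨L, hL, rfl, rfl⟩, t, ⟨ht, rfl⟩, rfl⟩⟩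
    rw [← hs, List.map_append, List.prod_append]
  · rintro ⟨hw, ⟨⟨s1, s2⟩, h12⟩, h⟩
    refine ⟨hw, ?_⟩
    obtain ⟨x, ⟨L, hL, rfl, h1⟩, t, ⟨ht, h2⟩, rfl⟩ := Language.mem_mul.1 h
    rw [List.map_append, List.prod_append, h1, h2]
    exact h12

end Crest.Agent.R320.ZRed_608
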