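import Crest.Agent.R320.Hk2_851

/-!
# Row 320: the zone-level step theorem (helper269)

A chain of zones is given by a partial function `nx` (zone length, look-ahead `D`).  `Path R w F`
says that the chain started at the left end of `w` runs through zones with property `R` and
ends exactly at `|w| - D`, with composite zone map `F : V → V`.  If a cut system (`Lft`, `Rgt`)
is exact on `Q`-zones and complete on `Q`-zones outside `P`, then the languages `Path Q · F`
have height at most `h + 1` as soon as the languages `Path P · F` have height at most `h`.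
-/

set_option autoImplicit false

namespace Crest.Agent.R320.ZStep_269

open Crest.RegLang Crest.Agent.R320.Hk_851

universe u v

/-- zones, zone properties, zone map and a cut system -/
structure Sys (α : Type u) (V : Type v) where
  D : ℕ
  hD : 0 < D
  nx : List α → Option ℕ
  P : List α → Prop
  Q : List α → Prop
  f : List α → V → V
  Lft : List α → Option V
  Rgt : List α → Option (ℕ × V)
  nx_pos : ∀ t l, nx t = some l → 0 < l
  nx_len : ∀ t l, nx t = some l → l + D ≤ t.length
  nx_mono : ∀ t l s, nx t = some l → nx (t ++ s) = some l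
  nx_loc : ∀ t l s, nx (t ++ s) = some l → l + D ≤ t.length → nx t = some l
  P_loc : ∀ t l s, nx t = some l → (P (t ++ s) ↔ P t)
  Q_loc : ∀ t l s, nx t = some l → (Q (t ++ s) ↔ Q t)
  f_loc : ∀ t l s, nx t = some l → f (t ++ s) = f t
  PQ : ∀ t, P t → Q t
  Lft_len : ∀ X v, Lft X = some v → D ≤ X.length
  Rgt_len : ∀ Y b c, Rgt Y = some (b, c) → b + D ≤ Y.length
  Rgt_mono : ∀ Y b c s, Rgt Y = some (b, c) → Rgt (Y ++ s) = some (b, c)
  Rgt_loc : ∀ Y b c s, Rgt (Y ++ s) = some (b, c) → b + D ≤ Y.length → Rgt Y = some (b, c)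
  exact' : ∀ X Y v b c l, Lft X = some v → Rgt Y = some (b, c) → nx (X ++ Y) = some l →
    Q (X ++ Y) → l = X.length + b ∧ f (X ++ Y) v = c
  compl' : ∀ w l, nx w = some l → Q w → ¬ P w → ∀ v, ∃ X Y b c, X ++ Y = w ∧ Lft X = some v ∧
    Rgt Y = some (b, c)

variable {α : Type u} {V : Type v}

namespace Sys

variable (S : Sys α V)

/-- chain of zones with property `R` from the left end to `|w| - D` -/
inductive Path (R : List α → Prop) : List α → (V → V) → Prop
  | nil (w : List α) (h : w.length = S.D) : Path R w id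
  | cons (w : List α) (l : ℕ) (F : V → V) (h : S.nx w = some l) (hR : R w)
      (hp : Path R (w.drop l) F) : Path R w (F ∘ S.f w)

variable {S}

theorem Path.len {R : List α → Prop} {w : List α} {F : V → V} (h : S.Path R w F) :
    S.D ≤ w.length := by
  cases h with
  | nil _ h => exact h.ge
  | cons _ l F h hR hp => have := S.nx_len _ _ h; omega

theorem Path.imp {R R' : List α → Prop} (hRR : ∀ t, R t → R' t) {w : List α} {F : V → V}
    (h : S.Path R w F) : S.Path R' w F := by
  induction h with
  | nil w h => exact .nil w h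
  | cons w l F h hR _ ih => exact .cons w l F h (hRR _ hR) ih

theorem Path.unique {R R' : List α → Prop} {w : List α} {F F' : V → V} (h : S.Path R w F)
    (h' : S.Path R' w F') : F = F' := by
  induction h generalizing F' with
  | nil w h =>
    cases h' with
    | nil _ _ => rfl
    | cons _ l F h1 hR hp =>
      have := S.nx_len _ _ h1
      have := S.nx_pos _ _ h1
      omega
  | cons w l F h hR _ ih =>
    cases h' with
    | nil _ h1 =>
      have := S.nx_len _ _ h
      have := S.nx_pos _ _ h
      omega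
    | cons _ l' F'' h1 hR' hp =>
      have : l = l' := by rw [h] at h1; exact Option.some.inj h1
      subst this
      rw [ih hp]

/-- prepend one zone, the path ends `D` letters inside `t` -/
theorem Path.glue {R : List α → Prop}
    (hRl : ∀ t l s, S.nx t = some l → (R (t ++ s) ↔ R t)) {z y t : List α} {F : V → V}
    (hD : S.D ≤ t.length) (hnx : S.nx (z ++ y ++ t) = some z.length) (hR : R (z ++ y ++ t))
    (hp : S.Path R (y ++ t.take S.D) F) :
    S.Path R (z ++ y ++ t.take S.D) (F ∘ S.f (z ++ y ++ t)) := by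
  have e : z ++ y ++ t = (z ++ y ++ t.take S.D) ++ t.drop S.D := by
    rw [List.append_assoc (z ++ y), List.take_append_drop]
  have hl : z.length + S.D ≤ (z ++ y ++ t.take S.D).length := by
    simp only [List.length_append, List.length_take]; omega
  have h1 : S.nx (z ++ y ++ t.take S.D) = some z.length :=
    S.nx_loc _ _ (t.drop S.D) (by rw [← e]; exact hnx) hl
  have h2 : R (z ++ y ++ t.take S.D) := by
    rw [← hRl _ _ (t.drop S.D) h1, ← e]; exact hR
  have h3 : S.f (z ++ y ++ t) = S.f (z ++ y ++ t.take S.D) := by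
    rw [e]; exact S.f_loc _ _ _ h1
  rw [h3]
  refine .cons _ _ _ h1 h2 ?_
  rw [List.append_assoc, List.drop_left]
  exact hp

/-- a left word: `P`-zones from the left end, then a left-legal remainder -/
def A (S : Sys α V) (v : V) : Language α :=
  {w | ∃ y X F, w = y ++ X ∧ S.Path S.P (y ++ X.take S.D) F ∧ S.Lft X = some (F v)}

/-- words starting right-legal with remainder in `L c` -/
def G (S : Sys α V) (L : V → Language α) : Language α :=
  {w | ∃ b c, S.Rgt w = some (b, c) ∧ w.drop b ∈ L c}

/-- right words -/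
def B (S : Sys α V) (v1 : V) : Language α :=
  S.G fun c => {t | ∃ F, S.Path S.P t F ∧ F c = v1}

/-- middle words -/
def XX (S : Sys α V) : Language α := S.G S.A

def Z (S : Sys α V) (v0 v1 : V) : Language α :=
  {w | (∃ F, S.Path S.P w F ∧ F v0 = v1) ∨
    ∃ w1 x w3, w = w1 ++ x ++ w3 ∧ w1 ∈ S.A v0 ∧ x ∈ KStar.kstar S.XX ∧ w3 ∈ S.B v1}

def NZ (S : Sys α V) (t : List α) : Prop := ¬ ∃ l, S.nx t = some l ∧ S.Q t

def Bad (S : Sys α V) (w : List α) : Prop :=
  ∃ y t F, w = y ++ t ∧ S.D < t.length ∧ S.Path S.Q (y ++ t.take S.D) F ∧ S.NZ t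

theorem A_len {v : V} {w : List α} (h : w ∈ S.A v) : S.D ≤ w.length := by
  obtain ⟨y, X, F, rfl, -, h⟩ := h
  have := S.Lft_len _ _ h
  simp only [List.length_append]; omega

theorem A_cons {w w1 : List α} {l : ℕ} {v0 : V} (rest : List α) (hw : w.drop l = w1 ++ rest)
    (hnx : S.nx w = some l) (hP : S.P w) (h1 : w1 ∈ S.A (S.f w v0)) :
    w.take l ++ w1 ∈ S.A v0 := by
  obtain ⟨y, X, F, rfl, hp, hL⟩ := h1
  have hlen := S.nx_len _ _ hnx
  have hX := S.Lft_len _ _ hL
  have htl : (w.take l).length = l := by rw [List.length_take]; omega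
  have e : w = (w.take l ++ y ++ X) ++ rest := by
    conv_lhs => rw [← List.take_append_drop l w, hw]
    simp
  have h1 : S.nx (w.take l ++ y ++ X) = some (w.take l).length := by
    rw [htl]
    refine S.nx_loc _ _ rest (by rw [← e]; exact hnx) ?_
    simp only [List.length_append, htl]; omega
  have h2 : S.P (w.take l ++ y ++ X) := by
    rw [← S.P_loc _ _ rest h1, ← e]; exact hP
  have h3 : S.f w = S.f (w.take l ++ y ++ X) := by
    conv_lhs => rw [e]
    exact S.f_loc _ _ _ h1
  refine ⟨w.take l ++ y, X, F ∘ S.f (w.take l ++ y ++ X), by simp, ?_, ?_⟩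
  · exact Path.glue (R := S.P) S.P_loc hX h1 h2 hp
  · rw [Function.comp, ← h3]; exact hL

theorem Bad_cons {w : List α} {l : ℕ} (hnx : S.nx w = some l) (hQ : S.Q w)
    (hb : S.Bad (w.drop l)) : S.Bad w := by
  obtain ⟨y, t, F, e, hl, hp, hN⟩ := hb
  have hlen := S.nx_len _ _ hnx
  have htl : (w.take l).length = l := by rw [List.length_take]; omega
  have e' : w = w.take l ++ y ++ t := by
    conv_lhs => rw [← List.take_append_drop l w, e]
    simp
  refine ⟨w.take l ++ y, t, F ∘ S.f (w.take l ++ y ++ t), e', hl, ?_, hN⟩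
  exact Path.glue (R := S.Q) S.Q_loc hl.le (by rw [htl, ← e']; exact hnx) (by rw [← e']; exact hQ) hp

theorem Bad_zero {w : List α} (hl : S.D < w.length) (hN : S.NZ w) : S.Bad w :=
  ⟨[], w, id, rfl, hl, .nil _ (by simp only [List.nil_append, List.length_take]; omega), hN⟩

/-- prepending a `P`-path -/
theorem prep {u : List α} {F : V → V} (hp : S.Path S.P u F) :
    ∀ y X : List α, u = y ++ X.take S.D → S.D ≤ X.length → ∀ (rest s : List α) (v0 v1 : V),
      (S.Bad (X ++ rest ++ s) ∨ ∃ F', S.Path S.Q (X ++ rest) F' ∧ F' (F v0) = v1) →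
      (S.Bad (y ++ X ++ rest ++ s) ∨ ∃ F', S.Path S.Q (y ++ X ++ rest) F' ∧ F' v0 = v1) := by
  induction hp with
  | nil w h =>
    intro y X e hX rest s v0 v1 hh
    have hy : y = [] := by
      have := congrArg List.length e
      simp only [List.length_append, List.length_take] at this
      exact List.length_eq_zero_iff.1 (by omega)
    subst hy
    simpa using hh
  | cons w l F h hR hp ih =>
    intro y X e hX rest s v0 v1 hh
    have hlen := S.nx_len _ _ h
    have hly : l ≤ y.length := by
      have := congrArg List.length e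
      simp only [List.length_append, List.length_take] at this
      omega
    have e1 : w.drop l = y.drop l ++ X.take S.D := by
      rw [e, List.drop_append_of_le_length hly]
    have h1 := ih (y.drop l) X e1 hX rest s (S.f w v0) v1 hh
    have e2 : y ++ X ++ rest = w ++ (X.drop S.D ++ rest) := by
      rw [e]; simp only [List.append_assoc]
      rw [← List.append_assoc (X.take S.D), List.take_append_drop]
    have h2 : S.nx (y ++ X ++ rest) = some l := by rw [e2]; exact S.nx_mono _ _ _ h
    have h3 : S.Q (y ++ X ++ rest) := by rw [e2, S.Q_loc _ _ _ h]; exact S.PQ _ hR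
    have h4 : S.f (y ++ X ++ rest) = S.f w := by rw [e2]; exact S.f_loc _ _ _ h
    have h5 : S.nx (y ++ X ++ rest ++ s) = some l := S.nx_mono _ _ _ h2
    have h6 : S.Q (y ++ X ++ rest ++ s) := (S.Q_loc _ _ _ h2).2 h3
    have d1 : (y ++ X ++ rest).drop l = y.drop l ++ X ++ rest := by
      rw [List.append_assoc, List.drop_append_of_le_length hly, List.append_assoc]
    have d2 : (y ++ X ++ rest ++ s).drop l = y.drop l ++ X ++ rest ++ s := by
      rw [List.drop_append_of_le_length (by simp only [List.length_append]; omega), d1]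
    rcases h1 with h1 | ⟨F', h1, h1'⟩
    · left
      exact Bad_cons h5 h6 (by rw [d2]; exact h1)
    · right
      refine ⟨F' ∘ S.f (y ++ X ++ rest), .cons _ _ _ h2 h3 (by rw [d1]; exact h1), ?_⟩
      rw [Function.comp, h4]; exact h1'

/-- soundness of a sequence of cuts -/
theorem sound_aux (xs : List (List α)) : (∀ x ∈ xs, x ∈ S.XX) → ∀ (w3 : List α) (v1 : V),
    w3 ∈ S.B v1 → ∀ (X : List α) (v : V), S.Lft X = some v → ∀ s : List α,
      (S.Bad (X ++ (xs.flatten ++ w3) ++ s) ∨
        ∃ F', S.Path S.Q (X ++ (xs.flatten ++ w3)) F' ∧ F' v = v1) := by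
  induction xs with
  | nil =>
    intro _ w3 v1 h3 X v hX s
    obtain ⟨b, c, hR, F, hp, hF⟩ := h3
    have hXl := S.Lft_len _ _ hX
    have hRl := S.Rgt_len _ _ _ hR
    have hD := S.hD
    simp only [List.flatten_nil, List.nil_append]
    by_cases hN : S.NZ (X ++ w3 ++ s)
    · left
      exact Bad_zero (by simp only [List.length_append]; omega) hN
    · right
      obtain ⟨l, hnx, hQ⟩ := not_not.1 hN
      have hR' := S.Rgt_mono _ _ _ s hR
      obtain ⟨hl, hf⟩ := S.exact' X (w3 ++ s) v b c l hX hR' (by rw [← List.append_assoc]; exact hnx)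
        (by rw [← List.append_assoc]; exact hQ)
      have h1 : S.nx (X ++ w3) = some l :=
        S.nx_loc _ _ s hnx (by simp only [List.length_append]; omega)
      have h2 : S.Q (X ++ w3) := (S.Q_loc _ _ _ h1).1 hQ
      have h3 : S.f (X ++ w3) v = c := by
        rw [← S.f_loc _ _ s h1, List.append_assoc]; exact hf
      refine ⟨F ∘ S.f (X ++ w3), .cons _ _ _ h1 h2 ?_, ?_⟩
      · rw [hl, List.drop_append, List.drop_eq_nil_of_le (by omega), List.nil_append,
          Nat.add_sub_cancel_left]
        exact hp.imp S.PQ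
      · rw [Function.comp, h3, hF]
  | cons x xs ih =>
    intro hxs w3 v1 h3 X v hX s
    obtain ⟨b, c, hR, y, X', F, e, hp, hL⟩ := hxs x (by simp)
    have hXl := S.Lft_len _ _ hX
    have hX'l := S.Lft_len _ _ hL
    have hRl := S.Rgt_len _ _ _ hR
    have hD := S.hD
    have h1 := ih (fun x hx => hxs x (by simp [hx])) w3 v1 h3 X' (F c) hL s
    have h2 := prep hp y X' rfl hX'l (xs.flatten ++ w3) s c v1 h1
    rw [← e] at h2
    have e0 : X ++ ((x :: xs).flatten ++ w3) = X ++ (x ++ (xs.flatten ++ w3)) := by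
      simp
    rw [e0]
    by_cases hN : S.NZ (X ++ (x ++ (xs.flatten ++ w3)) ++ s)
    · left
      exact Bad_zero (by simp only [List.length_append]; omega) hN
    · obtain ⟨l, hnx, hQ⟩ := not_not.1 hN
      have hR' := S.Rgt_mono _ _ _ ((xs.flatten ++ w3) ++ s) hR
      have e1 : X ++ (x ++ (xs.flatten ++ w3)) ++ s = X ++ (x ++ ((xs.flatten ++ w3) ++ s)) := by
        simp
      obtain ⟨hl, hf⟩ := S.exact' X (x ++ ((xs.flatten ++ w3) ++ s)) v b c l hX hR'
        (by rw [← e1]; exact hnx) (by rw [← e1]; exact hQ)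
      have d1 : (X ++ (x ++ (xs.flatten ++ w3))).drop l = x.drop b ++ (xs.flatten ++ w3) := by
        rw [hl, List.drop_append, List.drop_eq_nil_of_le (by omega), List.nil_append,
          Nat.add_sub_cancel_left, List.drop_append_of_le_length (by omega)]
      have d2 : (X ++ (x ++ (xs.flatten ++ w3)) ++ s).drop l =
          x.drop b ++ (xs.flatten ++ w3) ++ s := by
        rw [List.drop_append_of_le_length (by simp only [List.length_append]; omega), d1]
      rcases h2 with h2 | ⟨F', h2, h2'⟩
      · left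
        exact Bad_cons hnx hQ (by rw [d2]; exact h2)
      · right
        have g1 : S.nx (X ++ (x ++ (xs.flatten ++ w3))) = some l :=
          S.nx_loc _ _ s hnx (by simp only [List.length_append]; omega)
        have g2 : S.Q (X ++ (x ++ (xs.flatten ++ w3))) := (S.Q_loc _ _ _ g1).1 hQ
        have g3 : S.f (X ++ (x ++ (xs.flatten ++ w3))) v = c := by
          rw [← S.f_loc _ _ s g1, e1]; exact hf
        refine ⟨F' ∘ S.f (X ++ (x ++ (xs.flatten ++ w3))), .cons _ _ _ g1 g2 (by rw [d1]; exact h2),
          ?_⟩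
        rw [Function.comp, g3, h2']

theorem sound {w : List α} {v0 v1 : V} (h : w ∈ S.Z v0 v1) (s : List α) :
    S.Bad (w ++ s) ∨ ∃ F, S.Path S.Q w F ∧ F v0 = v1 := by
  rcases h with ⟨F, hp, hF⟩ | ⟨w1, x, w3, rfl, ⟨y, X, F, rfl, hp, hL⟩, hx, h3⟩
  · right; exact ⟨F, hp.imp S.PQ, hF⟩
  · rw [Language.mem_kstar] at hx
    obtain ⟨xs, rfl, hxs⟩ := hx
    have h1 := sound_aux xs hxs w3 v1 h3 X (F v0) hL s
    have h2 := prep hp y X rfl (S.Lft_len _ _ hL) (xs.flatten ++ w3) s v0 v1 h1
    simpa only [List.append_assoc] using h2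

theorem complete {w : List α} {F : V → V} (h : S.Path S.Q w F) (v0 : V) :
    w ∈ S.Z v0 (F v0) := by
  induction h generalizing v0 with
  | nil w h => left; exact ⟨id, .nil w h, rfl⟩
  | cons w l F hnx hQ hp ih =>
    have hlen := S.nx_len _ _ hnx
    by_cases hP : S.P w
    · rcases ih (S.f w v0) with ⟨F', h1, h2⟩ | ⟨w1, x, w3, e, h1, hx, h3⟩
      · left; exact ⟨F' ∘ S.f w, .cons _ _ _ hnx hP h1, h2⟩
      · right
        refine ⟨w.take l ++ w1, x, w3, ?_, A_cons (x ++ w3) (by rw [e, List.append_assoc]) hnx hP h1,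
          hx, h3⟩
        conv_lhs => rw [← List.take_append_drop l w, e]
        simp
    · obtain ⟨X, Y, b, c, rfl, hL, hR⟩ := S.compl' w l hnx hQ hP v0
      obtain ⟨hl, hf⟩ := S.exact' X Y v0 b c l hL hR hnx hQ
      have hXl := S.Lft_len _ _ hL
      have hRl := S.Rgt_len _ _ _ hR
      have d : (X ++ Y).drop l = Y.drop b := by
        rw [hl, List.drop_append, List.drop_eq_nil_of_le (by omega), List.nil_append,
          Nat.add_sub_cancel_left]
      have hA : X ∈ S.A v0 :=
        ⟨[], X, id, rfl, .nil _ (by simp only [List.nil_append, List.length_take]; omega), hL⟩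
      have ih' := ih c
      rw [d] at ih'
      have hF : (F ∘ S.f (X ++ Y)) v0 = F c := by rw [Function.comp, hf]
      rw [hF]
      rcases ih' with ⟨F', h1, h2⟩ | ⟨w1, x, w3, e, h1, hx, h3⟩
      · right
        refine ⟨X, [], Y, by simp, hA, ?_, b, c, hR, F', h1, h2⟩
        rw [Language.mem_kstar]
        exact ⟨[], rfl, by simp⟩
      · right
        have hw1 := A_len h1
        have e1 : Y = (Y.take b ++ w1) ++ (x ++ w3) := by
          conv_lhs => rw [← List.take_append_drop b Y, e]
          simp
        have htb : (Y.take b).length = b := by rw [List.length_take]; omega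
        have hR' : S.Rgt (Y.take b ++ w1) = some (b, c) :=
          S.Rgt_loc _ _ _ (x ++ w3) (by rw [← e1]; exact hR)
            (by simp only [List.length_append, htb]; omega)
        have hxx : Y.take b ++ w1 ∈ S.XX := by
          refine ⟨b, c, hR', ?_⟩
          have : (Y.take b ++ w1).drop b = w1 := by
            conv_lhs => rw [← htb]
            simp
          rw [this]; exact h1
        refine ⟨X, (Y.take b ++ w1) ++ x, w3, ?_, hA, ?_, h3⟩
        · conv_lhs => rw [e1]
          simp
        · rw [Language.mem_kstar] at hx ⊢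
          obtain ⟨xs, rfl, hxs⟩ := hx
          refine ⟨(Y.take b ++ w1) :: xs, by simp, ?_⟩
          intro y hy
          rcases List.mem_cons.1 hy with rfl | hy
          · exact hxx
          · exact hxs y hy

theorem not_bad {w : List α} {F : V → V} (h : S.Path S.Q w F) : ¬ S.Bad w := by
  induction h with
  | nil w h =>
    rintro ⟨y, t, F, rfl, hl, -, -⟩
    simp only [List.length_append] at h; omega
  | cons w l F hnx hQ hp ih =>
    rintro ⟨y, t, F', e, hl, hp', hN⟩
    have e1 : w = (y ++ t.take S.D) ++ t.drop S.D := by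
      rw [List.append_assoc, List.take_append_drop]; exact e
    generalize hu : y ++ t.take S.D = u at hp' e1
    cases hp' with
    | nil _ h1 =>
      have hy : y = [] := by
        have := congrArg List.length hu
        simp only [List.length_append, List.length_take] at this
        exact List.length_eq_zero_iff.1 (by omega)
      subst hy
      apply hN
      rw [List.nil_append] at e
      rw [← e]
      exact ⟨l, hnx, hQ⟩
    | cons _ l' F'' h1 h2 h3 =>
      have h4 : S.nx w = some l' := by rw [e1]; exact S.nx_mono _ _ _ h1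
      have : l = l' := by rw [hnx] at h4; exact Option.some.inj h4
      subst this
      have hlen := S.nx_len _ _ h1
      have hly : l ≤ y.length := by
        have := congrArg List.length hu
        simp only [List.length_append, List.length_take] at this
        omega
      apply ih
      refine ⟨y.drop l, t, F'', ?_, hl, ?_, hN⟩
      · rw [e, List.drop_append_of_le_length hly]
      · rw [← List.drop_append_of_le_length hly, hu]; exact h3

theorem path_or_bad : ∀ (n : ℕ) (w : List α), w.length ≤ n → S.D ≤ w.length →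
    (∃ F, S.Path S.Q w F) ∨ S.Bad w := by
  intro n
  induction n with
  | zero =>
    intro w h1 h2
    have := S.hD
    omega
  | succ n ih =>
    intro w h1 h2
    rcases Nat.eq_or_lt_of_le h2 with h2 | h2
    · left; exact ⟨id, .nil w h2.symm⟩
    · by_cases hN : S.NZ w
      · right; exact Bad_zero h2 hN
      · obtain ⟨l, hnx, hQ⟩ := not_not.1 hN
        have hlen := S.nx_len _ _ hnx
        have hpos := S.nx_pos _ _ hnx
        rcases ih (w.drop l) (by rw [List.length_drop]; omega) (by rw [List.length_drop]; omega)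
          with ⟨F, hF⟩ | hb
        · left; exact ⟨_, .cons w l F hnx hQ hF⟩
        · right; exact Bad_cons hnx hQ hb

/-! ### heights -/

/-- right quotient by a word -/
def RQ (r : List α) (L : Language α) : Language α := {w | w ++ r ∈ L}

/-- words starting with `r` -/
def PX (r : List α) : Language α := {w | ∃ v ∈ ({r} : Language α), v <+: w}

def LE (n : ℕ) : Language α := {t | t.length ≤ n}

/-- left-legal words with label `v` -/
def LF (S : Sys α V) (v : V) : Language α := {X | S.Lft X = some v}

/-- right-legal words with label `c`, cut off at look-ahead distance behind the anchor -/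
def RL (S : Sys α V) (c : V) : Language α := {Y | ∃ b, S.Rgt Y = some (b, c) ∧ Y.length = b + S.D}

/-- paths of `P`-zones with composite map `F` -/
def PL (S : Sys α V) (F : V → V) : Language α := {w | S.Path S.P w F}

/-- words with a `Q`-zone at the left end -/
def OK (S : Sys α V) : Language α := {t | ∃ l, S.nx t = some l ∧ S.Q t}

variable {h : ℕ}

theorem HL_RQ (r : List α) {L : Language α} (hL : HL h L) : HL h (RQ r L) := hL.rquot r

theorem HL_PX (r : List α) : HL h (PX r) := (HL.word r).prefix

variable [Finite α]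

theorem HL_LE (n : ℕ) : HL h (LE n : Language α) := HL.length_le n

theorem HL_G {L : V → Language α} [Finite V] (hR : ∀ c, HL h (S.RL c))
    (hL : ∀ c, HL h (L c)) : HL h (S.G L) := by
  have h1 : ∀ c : V, HL h {w : List α | ∃ r ∈ {r : List α | r.length = S.D},
      w ∈ (RQ r (S.RL c) * (L c ⊓ PX r))} := by
    intro c
    refine HL.biUnion (List.finite_length_eq α S.D)
      (L := fun r => RQ r (S.RL c) * (L c ⊓ PX r)) ?_
    intro r _
    exact (HL_RQ r (hR c)).mul ((hL c).inf (HL_PX r))
  refine (HL.iUnion h1).congr fun w => ?_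
  constructor
  · rintro ⟨b, c, hw, hd⟩
    have hl := S.Rgt_len _ _ _ hw
    have htb : (w.take b).length = b := by rw [List.length_take]; omega
    refine ⟨c, (w.drop b).take S.D, ?_, ?_⟩
    · change ((w.drop b).take S.D).length = S.D
      rw [List.length_take, List.length_drop]; omega
    · refine Language.mem_mul.2 ⟨w.take b, ?_, w.drop b, ⟨hd, ?_⟩, List.take_append_drop b w⟩
      · refine ⟨b, ?_, ?_⟩
        · refine S.Rgt_loc _ _ _ ((w.drop b).drop S.D) ?_ ?_
          · rw [List.append_assoc, List.take_append_drop, List.take_append_drop]; exact hw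
          · simp only [List.length_append, htb, List.length_take, List.length_drop]; omega
        · simp only [List.length_append, htb, List.length_take, List.length_drop]; omega
      · exact ⟨_, rfl, List.take_prefix _ _⟩
  · rintro ⟨c, r, hr, hw⟩
    obtain ⟨Q0, ⟨b, hb, hbl⟩, t, ⟨ht, v, hv, hvt⟩, rfl⟩ := Language.mem_mul.1 hw
    rw [Set.mem_singleton_iff.1 hv] at hvt
    obtain ⟨t', rfl⟩ := hvt
    have hr' : r.length = S.D := hr
    have hQ0 : Q0.length = b := by
      rw [List.length_append] at hbl; omega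
    refine ⟨b, c, ?_, ?_⟩
    · rw [← List.append_assoc]; exact S.Rgt_mono _ _ _ _ hb
    · rw [← hQ0, List.drop_left]; exact ht

theorem HL_A [Finite V] (hP : ∀ F, HL h (S.PL F)) (hLf : ∀ v, HL h (S.LF v))
    (v : V) : HL h (S.A v) := by
  have h1 : ∀ F : V → V, HL h {w : List α | ∃ r ∈ {r : List α | r.length = S.D},
      w ∈ (RQ r (S.PL F) * (S.LF (F v) ⊓ PX r))} := by
    intro F
    refine HL.biUnion (List.finite_length_eq α S.D)
      (L := fun r => RQ r (S.PL F) * (S.LF (F v) ⊓ PX r)) ?_
    intro r _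
    exact (HL_RQ r (hP F)).mul ((hLf (F v)).inf (HL_PX r))
  refine (HL.iUnion h1).congr fun w => ?_
  constructor
  · rintro ⟨y, X, F, rfl, hp, hL⟩
    have hl := S.Lft_len _ _ hL
    refine ⟨F, X.take S.D, ?_, ?_⟩
    · change (X.take S.D).length = S.D
      rw [List.length_take]; omega
    · exact Language.mem_mul.2 ⟨y, hp, X, ⟨hL, _, rfl, List.take_prefix _ _⟩, rfl⟩
  · rintro ⟨F, r, hr, hw⟩
    obtain ⟨y, hy, X, ⟨hX, v', hv, hvt⟩, rfl⟩ := Language.mem_mul.1 hw
    rw [Set.mem_singleton_iff.1 hv] at hvt
    obtain ⟨t', rfl⟩ := hvt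
    have hr' : r.length = S.D := hr
    refine ⟨y, r ++ t', F, rfl, ?_, hX⟩
    rw [← hr', List.take_left]; exact hy

theorem HL_Z [Finite V] (hP : ∀ F, HL h (S.PL F)) (hLf : ∀ v, HL h (S.LF v))
    (hR : ∀ c, HL h (S.RL c)) (v0 v1 : V) : HL (h + 1) (S.Z v0 v1) := by
  have hPv : ∀ c, HL h {t | ∃ F, S.Path S.P t F ∧ F c = v1} := by
    intro c
    refine (HL.biUnion (k := h) (Set.toFinite {F : V → V | F c = v1})
      (L := fun F => S.PL F) fun F _ => hP F).congr fun w => ?_
    constructor
    · rintro ⟨F, h1, h2⟩; exact ⟨F, h2, h1⟩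
    · rintro ⟨F, h1, h2⟩; exact ⟨F, h2, h1⟩
  have hA := HL_A (S := S) hP hLf
  have hB : HL h (S.B v1) := HL_G (S := S) hR hPv
  have hX : HL h S.XX := HL_G (S := S) hR hA
  have h2 := (((hA v0).mono (Nat.le_succ h)).mul hX.star).mul (hB.mono (Nat.le_succ h))
  refine (((hPv v0).mono (Nat.le_succ h)).sup h2).congr fun w => ?_
  constructor
  · rintro (hw | ⟨w1, x, w3, rfl, h1, hx, h3⟩)
    · exact Or.inl hw
    · exact Or.inr (Language.mem_mul.2 ⟨w1 ++ x, Language.mem_mul.2 ⟨w1, h1, x, hx, rfl⟩, w3, h3, rfl⟩)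
  · rintro (hw | hw)
    · exact Or.inl hw
    · obtain ⟨wx, hwx, w3, h3, rfl⟩ := Language.mem_mul.1 hw
      obtain ⟨w1, h1, x, hx, rfl⟩ := Language.mem_mul.1 hwx
      exact Or.inr ⟨w1, x, w3, rfl, h1, hx, h3⟩

/-- all words with some label -/
def ZZ (S : Sys α V) (v0 : V) : Language α := {w | ∃ v1, w ∈ S.Z v0 v1}

/-- **the zone-level step theorem** -/
theorem step [Finite V] [Nonempty V] (S : Sys α V) (hP : ∀ F, HL h {w | S.Path S.P w F})
    (hLf : ∀ v, HL h {X | S.Lft X = some v})
    (hR : ∀ c, HL h {Y | ∃ b, S.Rgt Y = some (b, c) ∧ Y.length = b + S.D})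
    (hnx : HL (h + 1) {t | ∃ l, S.nx t = some l ∧ S.Q t}) (F : V → V) :
    HL (h + 1) {w | S.Path S.Q w F} := by
  classical
  obtain ⟨v0⟩ := (inferInstance : Nonempty V)
  have hZ := HL_Z (S := S) hP hLf hR
  have hZ0 : HL (h + 1) (S.ZZ v0) := HL.iUnion (hZ v0)
  have hOK : HL (h + 1) S.OK := hnx
  have hbadr : HL (h + 1) {w : List α | ∃ r ∈ {r : List α | r.length = S.D},
      w ∈ (RQ r (S.ZZ v0) * ((S.OKᶜ ⊓ (LE S.D)ᶜ) ⊓ PX r))} := by
    refine HL.biUnion (List.finite_length_eq α S.D)
      (L := fun r => RQ r (S.ZZ v0) * ((S.OKᶜ ⊓ (LE S.D)ᶜ) ⊓ PX r)) ?_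
    intro r _
    exact (HL_RQ r hZ0).mul ((hOK.compl.inf (HL_LE S.D).compl).inf (HL_PX r))
  have hgood : HL (h + 1) {w : List α | ∃ F, S.Path S.Q w F} := by
    refine (hbadr.compl.inf (HL.length_ge S.D)).congr fun w => ?_
    constructor
    · rintro ⟨F, hF⟩
      refine ⟨?_, hF.len⟩
      rintro ⟨r, hr, hw⟩
      obtain ⟨y, ⟨v1, hy⟩, t, ⟨⟨ht1, ht2⟩, v', hv, hvt⟩, rfl⟩ := Language.mem_mul.1 hw
      rw [Set.mem_singleton_iff.1 hv] at hvt
      obtain ⟨t', rfl⟩ := hvt
      have hr' : r.length = S.D := hr
      have ht2' : S.D < (r ++ t').length := not_le.1 ht2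
      apply not_bad hF
      rcases sound hy t' with hb | ⟨F', hF', -⟩
      · rw [List.append_assoc] at hb; exact hb
      · exact ⟨y, r ++ t', F', rfl, ht2', by rw [← hr', List.take_left]; exact hF', ht1⟩
    · rintro ⟨hw, hl⟩
      rcases path_or_bad (S := S) w.length w le_rfl hl with h1 | ⟨y, t, F', rfl, h1, h2, h3⟩
      · exact h1
      · exfalso
        apply hw
        refine ⟨t.take S.D, ?_, ?_⟩
        · change (t.take S.D).length = S.D
          rw [List.length_take]; omega
        · exact Language.mem_mul.2 ⟨y, ⟨F' v0, complete h2 v0⟩, t,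
            ⟨⟨h3, not_le.2 h1⟩, _, rfl, List.take_prefix _ _⟩, rfl⟩
  have hall : HL (h + 1) {w : List α | ∀ v : V, w ∈ S.Z v (F v)} :=
    HL.iInter fun v => hZ v (F v)
  refine (hgood.inf hall).congr fun w => ?_
  constructor
  · intro hw
    exact ⟨⟨F, hw⟩, fun v => complete hw v⟩
  · rintro ⟨⟨F', hF'⟩, hw⟩
    have : F' = F := by
      funext v
      rcases sound (hw v) [] with hb | ⟨F'', hF'', e⟩
      · rw [List.append_nil] at hb
        exact (not_bad hF' hb).elim
      · rw [← e, hF'.unique hF'']
    rw [← this]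
    exact hF'

end Sys

end Crest.Agent.R320.ZStep_269
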