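import Crest.Agent.R320.Main_621
import Crest.Agent.R320.FewVal_228
import Crest.Agent.R320.Reg_852
import Crest.Agent.R320.Reg_143

/-!
# Row 320: zones of the natural chain rule, all words (helper437)

`Wt n S w t` : a wall of the marker `S` (words of length `n`) ENDS at `t`.
`FW h w s` : `s` is the first wall `≥ h`; `Two h w s` : moreover `w` ends with the next wall.
-/

set_option autoImplicit false

namespace Crest.Agent.R320.ZZ_437

open Crest.RegLang Crest.Agent.R320.Hk_851 Crest.Agent.R320.FewWalls_228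
open Crest.R320.Reg_143

universe u

variable {α : Type u}

/-! ### regular predicates -/

/-- regular predicate -/
def Rg (P : List α → Prop) : Prop := Language.IsRegular ({w | P w} : Language α)

theorem Rg.congr {P Q : List α → Prop} (h : Rg P) (hPQ : ∀ w, Q w ↔ P w) : Rg Q := by
  have e : ({w | Q w} : Language α) = {w | P w} := by ext w; exact hPQ w
  unfold Rg
  rw [e]; exact h

theorem Rg.not {P : List α → Prop} (h : Rg P) : Rg (fun w => ¬ P w) := by
  have := Language.IsRegular.compl h
  exact this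

theorem Rg.and {P Q : List α → Prop} (h : Rg P) (h' : Rg Q) : Rg (fun w => P w ∧ Q w) :=
  Language.IsRegular.inf h h'

theorem Rg.or {P Q : List α → Prop} (h : Rg P) (h' : Rg Q) : Rg (fun w => P w ∨ Q w) :=
  Language.IsRegular.add h h'

theorem Rg.tru : Rg (fun _ : List α => True) := isRegular_true

theorem Rg.const (p : Prop) : Rg (fun _ : List α => p) := by
  by_cases hp : p
  · exact Rg.tru.congr fun _ => by simp [hp]
  · exact Rg.tru.not.congr fun _ => by simp [hp]

theorem Rg.cat {P Q : List α → Prop} (h : Rg P) (h' : Rg Q) :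
    Rg (fun w => ∃ u x, w = u ++ x ∧ P u ∧ Q x) := by
  have := Crest.Agent.R320.Reg_852.IsRegular.mul h h'
  refine Rg.congr this fun w => ?_
  constructor
  · rintro ⟨u, x, rfl, hu, hx⟩
    exact Language.mem_mul.2 ⟨u, hu, x, hx, rfl⟩
  · intro hw
    obtain ⟨u, hu, x, hx, rfl⟩ := Language.mem_mul.1 hw
    exact ⟨u, x, rfl, hu, hx⟩

theorem Rg.exF {ι : Type*} (s : Finset ι) {P : ι → List α → Prop} (h : ∀ i ∈ s, Rg (P i)) :
    Rg (fun w => ∃ i ∈ s, P i w) := by
  classical
  induction s using Finset.induction_on with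
  | empty => exact (Rg.const False).congr fun w => by simp
  | insert a s ha ih =>
    refine Rg.congr ((h a (Finset.mem_insert_self a s)).or
      (ih fun i hi => h i (Finset.mem_insert_of_mem hi))) fun w => ?_
    simp only [Finset.mem_insert, exists_eq_or_imp]

theorem Rg.ex {ι : Type*} [Finite ι] {P : ι → List α → Prop} (h : ∀ i, Rg (P i)) :
    Rg (fun w => ∃ i, P i w) := by
  classical
  have := Fintype.ofFinite ι
  exact (Rg.exF Finset.univ fun i _ => h i).congr fun w => by simp

theorem Rg.all {ι : Type*} [Finite ι] {P : ι → List α → Prop} (h : ∀ i, Rg (P i)) :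
    Rg (fun w => ∀ i, P i w) :=
  (Rg.ex fun i => (h i).not).not.congr fun w => by simp

theorem Rg.exlt (K : ℕ) {P : ℕ → List α → Prop} (h : ∀ i < K, Rg (P i)) :
    Rg (fun w => ∃ i < K, P i w) :=
  (Rg.exF (Finset.range K) fun i hi => h i (Finset.mem_range.1 hi)).congr fun w => by
    simp only [Finset.mem_range]

theorem Rg.alllt (K : ℕ) {P : ℕ → List α → Prop} (h : ∀ i < K, Rg (P i)) :
    Rg (fun w => ∀ i < K, P i w) :=
  (Rg.exlt K fun i hi => (h i hi).not).not.congr fun w => by
    simp only [not_exists, not_and, not_not]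

theorem Rg.len (P : ℕ → Prop) (N m : ℕ) (hm : 0 < m) (hP : ∀ k, N ≤ k → (P (k + m) ↔ P k)) :
    Rg (fun w : List α => P w.length) := isRegular_length P N m hm hP

theorem Rg.lenb (P : ℕ → Prop) (N : ℕ) (hP : ∀ k, N ≤ k → (P k ↔ P N)) :
    Rg (fun w : List α => P w.length) :=
  Rg.len P N 1 one_pos fun k hk => by rw [hP k hk, hP (k + 1) (by omega)]

theorem Rg.bd [Finite α] (B : ℕ) (P : List α → Prop) : Rg (fun w => w.length ≤ B ∧ P w) := by
  have h1 : Rg (fun w : List α => P (w.take B)) := isRegular_take B P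
  have h2 : Rg (fun w : List α => w.length ≤ B) :=
    Rg.lenb (fun k => k ≤ B) (B + 1) fun k hk => by
      constructor <;> intro h <;> omega
  refine (h2.and h1).congr fun w => ?_
  constructor
  · rintro ⟨h, h'⟩; exact ⟨h, by rwa [List.take_of_length_le h]⟩
  · rintro ⟨h, h'⟩; exact ⟨h, by rwa [List.take_of_length_le h] at h'⟩

theorem Rg.prod {M : Type*} [Monoid M] [Finite M] (f : α → M) (s : M) :
    Rg (fun w : List α => (w.map f).prod = s) :=
  Crest.Agent.R320.Reg_852.isRegular_prod f s

theorem Rg.pre {P : List α → Prop} (h : Rg P) : Rg (fun w => ∃ u x, w = u ++ x ∧ P u) :=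
  (h.cat Rg.tru).congr fun w => by simp

theorem Rg.ppre {P : List α → Prop} (h : Rg P) :
    Rg (fun w => ∃ u x, w = u ++ x ∧ P u ∧ 0 < x.length) := by
  have h2 : Rg (fun w : List α => 0 < w.length) :=
    Rg.lenb (fun k => 0 < k) 1 fun k hk => by constructor <;> intro h <;> omega
  exact h.cat h2

/-! ### walls -/

variable {n : ℕ} {S : Set (List α)}

/-- a wall ends at `t` -/
def Wt (n : ℕ) (S : Set (List α)) (w : List α) (t : ℕ) : Prop := n ≤ t ∧ Wl n S w (t - n)

theorem Wt.le {w : List α} {t : ℕ} (h : Wt n S w t) : t ≤ w.length := by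
  obtain ⟨h1, h2, -⟩ := h; omega

theorem wt_append {u x : List α} {t : ℕ} (ht : t ≤ u.length) :
    Wt n S (u ++ x) t ↔ Wt n S u t := by
  unfold Wt Wl
  constructor
  · rintro ⟨h1, h2, h3⟩
    refine ⟨h1, by omega, ?_⟩
    rwa [List.drop_append_of_le_length (by omega),
      List.take_append_of_le_length (by rw [List.length_drop]; omega)] at h3
  · rintro ⟨h1, h2, h3⟩
    refine ⟨h1, by rw [List.length_append]; omega, ?_⟩
    rwa [List.drop_append_of_le_length (by omega),
      List.take_append_of_le_length (by rw [List.length_drop]; omega)]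

theorem wt_cat {P Q : List α} {t : ℕ} (ht : n ≤ t) :
    Wt n S (P ++ Q) (P.length + t) ↔ Wt n S Q t := by
  unfold Wt Wl
  have e : P.length + t - n = P.length + (t - n) := by omega
  rw [e, List.length_append, List.drop_length_add_append]
  constructor
  · rintro ⟨h1, h2, h3⟩; exact ⟨ht, by omega, h3⟩
  · rintro ⟨h1, h2, h3⟩; exact ⟨by omega, by omega, h3⟩

theorem wt_drop {w : List α} {d t : ℕ} (hd : d ≤ w.length) (ht : n ≤ t) :
    Wt n S (w.drop d) t ↔ Wt n S w (d + t) := by
  have h := wt_cat (n := n) (S := S) (P := w.take d) (Q := w.drop d) ht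
  rw [List.take_append_drop, List.length_take, Nat.min_eq_left hd] at h
  exact h.symm

theorem wt_take {w : List α} {d t : ℕ} (ht : t ≤ d) (hd : d ≤ w.length) :
    Wt n S (w.take d) t ↔ Wt n S w t := by
  have h := wt_append (n := n) (S := S) (u := w.take d) (x := w.drop d) (t := t)
    (by rw [List.length_take, Nat.min_eq_left hd]; exact ht)
  rw [List.take_append_drop] at h
  exact h.symm

/-- gap of the walls -/
def Gap (n W : ℕ) (S : Set (List α)) : Prop :=
  ∀ (w : List α) (s t : ℕ), s < t → Wt n S w s → Wt n S w t → s + W ≤ t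

/-- first wall `≥ h` -/
def FW (n : ℕ) (S : Set (List α)) (h : ℕ) (w : List α) (s : ℕ) : Prop :=
  h ≤ s ∧ Wt n S w s ∧ ∀ t, h ≤ t → t < s → ¬ Wt n S w t

/-- `s` = first wall `≥ h`, `w` ends with the next wall -/
def Two (n : ℕ) (S : Set (List α)) (h : ℕ) (w : List α) (s : ℕ) : Prop :=
  FW n S h w s ∧ s < w.length ∧ Wt n S w w.length ∧ ∀ t, s < t → t < w.length → ¬ Wt n S w t

theorem FW.uniq {h : ℕ} {w : List α} {s s' : ℕ} (h1 : FW n S h w s) (h2 : FW n S h w s') :
    s = s' := by
  rcases Nat.lt_trichotomy s s' with h | h | h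
  · exact absurd h1.2.1 (h2.2.2 s h1.1 h)
  · exact h
  · exact absurd h2.2.1 (h1.2.2 s' h2.1 h)

theorem FW.append {h : ℕ} {u x : List α} {s : ℕ} (h1 : FW n S h u s) : FW n S h (u ++ x) s := by
  have hs := h1.2.1.le
  refine ⟨h1.1, (wt_append hs).2 h1.2.1, fun t h2 h3 h4 => ?_⟩
  exact h1.2.2 t h2 h3 ((wt_append (by omega)).1 h4)

theorem FW.of_append {h : ℕ} {u x : List α} {s : ℕ} (h1 : FW n S h (u ++ x) s)
    (hs : s ≤ u.length) : FW n S h u s :=
  ⟨h1.1, (wt_append hs).1 h1.2.1, fun t h2 h3 h4 =>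
    h1.2.2 t h2 h3 ((wt_append (by omega)).2 h4)⟩

theorem FW.take {h : ℕ} {w : List α} {s : ℕ} (h1 : FW n S h w s) : FW n S h (w.take s) s := by
  have hs := h1.2.1.le
  refine FW.of_append (x := w.drop s) (by rw [List.take_append_drop]; exact h1) ?_
  rw [List.length_take, Nat.min_eq_left hs]

/-- shift: `Q` starts `d` letters after the node -/
theorem FW.cat {h : ℕ} {P Q : List α} {s : ℕ} (hn : n + P.length ≤ h)
    (h1 : FW n S (h - P.length) Q s) : FW n S h (P ++ Q) (P.length + s) := by
  obtain ⟨h2, h3, h4⟩ := h1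
  refine ⟨by omega, (wt_cat (by omega)).2 h3, fun t h5 h6 h7 => ?_⟩
  have e : t = P.length + (t - P.length) := by omega
  rw [e] at h7
  exact h4 (t - P.length) (by omega) (by omega) ((wt_cat (by omega)).1 h7)

theorem FW.of_cat {h : ℕ} {P Q : List α} {s : ℕ} (hn : n + P.length ≤ h)
    (h1 : FW n S h (P ++ Q) s) : FW n S (h - P.length) Q (s - P.length) := by
  obtain ⟨h2, h3, h4⟩ := h1
  have e : s = P.length + (s - P.length) := by omega
  rw [e] at h3
  refine ⟨by omega, (wt_cat (by omega)).1 h3, fun t h5 h6 h7 => ?_⟩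
  exact h4 (P.length + t) (by omega) (by omega) ((wt_cat (by omega)).2 h7)

theorem Two.cat {h : ℕ} {P Q : List α} {s : ℕ} (hn : n + P.length ≤ h)
    (h1 : Two n S (h - P.length) Q s) : Two n S h (P ++ Q) (P.length + s) := by
  obtain ⟨h2, h3, h4, h5⟩ := h1
  have hs := h2.1
  refine ⟨h2.cat hn, by rw [List.length_append]; omega, ?_, fun t h6 h7 h8 => ?_⟩
  · rw [List.length_append]; exact (wt_cat (by omega)).2 h4
  · rw [List.length_append] at h7
    have e : t = P.length + (t - P.length) := by omega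
    rw [e] at h8
    exact h5 (t - P.length) (by omega) (by omega) ((wt_cat (by omega)).1 h8)

theorem Two.of_cat {h : ℕ} {P Q : List α} {s : ℕ} (hn : n + P.length ≤ h)
    (h1 : Two n S h (P ++ Q) s) : Two n S (h - P.length) Q (s - P.length) := by
  obtain ⟨h2, h3, h4, h5⟩ := h1
  have hs := h2.1
  rw [List.length_append] at h3 h4
  refine ⟨h2.of_cat hn, by omega, (wt_cat (by omega)).1 h4, fun t h6 h7 h8 => ?_⟩
  exact h5 (P.length + t) (by omega) (by rw [List.length_append]; omega) ((wt_cat (by omega)).2 h8)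

theorem Two.code {h : ℕ} {z z' x x' : List α} {s s' : ℕ} (h1 : Two n S h z s)
    (h2 : Two n S h z' s') (e : z ++ x = z' ++ x') : z = z' ∧ s = s' := by
  have key : ∀ {z z' x x' : List α} {s s' : ℕ}, Two n S h z s → Two n S h z' s' →
      z ++ x = z' ++ x' → z.length ≤ z'.length → z = z' ∧ s = s' := by
    intro z z' x x' s s' h1 h2 e hle
    obtain ⟨r, rfl⟩ : z <+: z' :=
      List.prefix_of_prefix_length_le ⟨x, rfl⟩ (e ▸ ⟨x', rfl⟩) hle
    have hs : s = s' := (h1.1.append (x := r)).uniq h2.1
    subst hs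
    have hr : r = [] := by
      by_contra hr
      have hl : 0 < r.length := List.length_pos_iff.2 hr
      refine h2.2.2.2 z.length h1.2.1 (by rw [List.length_append]; omega) ?_
      exact (wt_append le_rfl).2 h1.2.2.1
    subst hr
    simp
  rcases Nat.le_total z.length z'.length with hle | hle
  · exact key h1 h2 e hle
  · obtain ⟨h3, h4⟩ := key h2 h1 e.symm hle
    exact ⟨h3.symm, h4.symm⟩

/-! ### regularity of the wall predicates -/

theorem Rg.wend [Finite α] (hS : ∀ s ∈ S, s.length = n) :
    Rg (fun w : List α => Wt n S w w.length) := by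
  have h1 : Rg (fun w : List α => w.length ≤ n ∧ w ∈ S) := Rg.bd n _
  refine (Rg.tru.cat h1).congr fun w => ?_
  constructor
  · rintro ⟨h1, h2, h3⟩
    refine ⟨w.take (w.length - n), w.drop (w.length - n), (List.take_append_drop _ _).symm,
      trivial, ?_, ?_⟩
    · rw [List.length_drop]; omega
    · rwa [List.take_of_length_le (by rw [List.length_drop]; omega)] at h3
  · rintro ⟨u, x, rfl, -, h1, h2⟩
    have hx := hS x h2
    refine ⟨by rw [List.length_append]; omega, by rw [List.length_append]; omega, ?_⟩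
    have e : (u ++ x).length - n = u.length + 0 := by rw [List.length_append]; omega
    rw [e, List.drop_length_add_append, List.drop_zero, List.take_of_length_le (by omega)]
    exact h2

theorem Rg.lw [Finite α] (hS : ∀ s ∈ S, s.length = n) (P : ℕ → Prop) (N : ℕ)
    (hP : ∀ k, N ≤ k → (P k ↔ P N)) :
    Rg (fun w : List α => P w.length ∧ Wt n S w w.length) :=
  (Rg.lenb P N hP).and (Rg.wend hS)

theorem Rg.fw [Finite α] (hS : ∀ s ∈ S, s.length = n) (h : ℕ) :
    Rg (fun w : List α => FW n S h w w.length) := by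
  have hG := Rg.lw (α := α) hS (fun k => h ≤ k) h (fun k hk => by simp [hk])
  refine (hG.and hG.ppre.not).congr fun w => ?_
  constructor
  · rintro ⟨h1, h2, h3⟩
    refine ⟨⟨h1, h2⟩, ?_⟩
    rintro ⟨u, x, rfl, ⟨h4, h5⟩, h6⟩
    exact h3 u.length h4 (by rw [List.length_append]; omega) ((wt_append le_rfl).2 h5)
  · rintro ⟨⟨h1, h2⟩, h3⟩
    refine ⟨h1, h2, fun t h4 h5 h6 => h3 ⟨w.take t, w.drop t, (List.take_append_drop _ _).symm,
      ⟨?_, ?_⟩, ?_⟩⟩
    · rw [List.length_take, Nat.min_eq_left h5.le]; exact h4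
    · rw [List.length_take, Nat.min_eq_left h5.le]; exact (wt_take le_rfl h5.le).2 h6
    · rw [List.length_drop]; omega

theorem Rg.two [Finite α] (hS : ∀ s ∈ S, s.length = n) (h : ℕ) :
    Rg (fun w : List α => ∃ s, Two n S h w s) := by
  have hG := Rg.lw (α := α) hS (fun k => h ≤ k) h (fun k hk => by simp [hk])
  have hF := (Rg.fw (α := α) hS h).ppre
  refine ((hG.and hF).and (hG.and hF).ppre.not).congr fun w => ?_
  constructor
  · rintro ⟨s, h1, h2, h3, h4⟩
    refine ⟨⟨⟨by have := h1.1; omega, h3⟩, w.take s, w.drop s, (List.take_append_drop _ _).symm,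
      ?_, by rw [List.length_drop]; omega⟩, ?_⟩
    · rw [List.length_take, Nat.min_eq_left h2.le]; exact h1.take
    · rintro ⟨u, x, rfl, ⟨⟨h5, h6⟩, ⟨u', x', rfl, h7, h8⟩⟩, h9⟩
      have e : u'.length = s := by
        have := (h7.append (x := x')).append (x := x)
        exact this.uniq h1
      simp only [List.length_append] at h4 h6 h9
      refine h4 (u'.length + x'.length) (by omega) (by omega) ?_
      exact (wt_append (by rw [List.length_append])).2 h6
  · rintro ⟨⟨⟨h1, h2⟩, ⟨u, x, rfl, h3, h4⟩⟩, h5⟩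
    refine ⟨u.length, h3.append, by rw [List.length_append]; omega, h2, fun t h6 h7 h8 => h5 ?_⟩
    refine ⟨(u ++ x).take t, (u ++ x).drop t, (List.take_append_drop _ _).symm, ?_, ?_⟩
    · rw [List.length_take, Nat.min_eq_left h7.le]
      refine ⟨⟨by have := h3.1; omega, (wt_take le_rfl h7.le).2 h8⟩, u, x.take (t - u.length), ?_,
        h3, ?_⟩
      · rw [List.take_append, List.take_of_length_le h6.le]
      · rw [List.length_append] at h7
        rw [List.length_take]; omega
    · rw [List.length_drop]; omega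

/-- first wall with values -/
theorem fw_vals {h : ℕ} {A B : List α → Prop} {w : List α} :
    (∃ s, FW n S h w s ∧ A (w.take s) ∧ B (w.drop s)) ↔
      ∃ u x, w = u ++ x ∧ (FW n S h u u.length ∧ A u) ∧ B x := by
  constructor
  · rintro ⟨s, h1, h2, h3⟩
    have hs := h1.2.1.le
    refine ⟨w.take s, w.drop s, (List.take_append_drop _ _).symm, ⟨?_, h2⟩, h3⟩
    rw [List.length_take, Nat.min_eq_left hs]; exact h1.take
  · rintro ⟨u, x, rfl, ⟨h1, h2⟩, h3⟩
    refine ⟨u.length, h1.append, ?_, ?_⟩
    · rwa [List.take_left]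
    · rwa [List.drop_left]

theorem Rg.fwv [Finite α] (hS : ∀ s ∈ S, s.length = n) (h : ℕ) {A B : List α → Prop}
    (hA : Rg A) (hB : Rg B) :
    Rg (fun w : List α => ∃ s, FW n S h w s ∧ A (w.take s) ∧ B (w.drop s)) :=
  (((Rg.fw hS h).and hA).cat hB).congr fun _ => fw_vals

/-! ### few walls -/

theorem nw_le {h a b : ℕ} {w : List α} (hw : ∀ t, h ≤ t → Wt n S w t → t = a ∨ t = b) :
    nw n S w ≤ h + 2 := by
  classical
  unfold nw
  refine (Finset.card_le_card (t := Finset.range h ∪ {a - n, b - n}) ?_).trans ?_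
  · intro x hx
    rw [Finset.mem_filter] at hx
    rw [Finset.mem_union, Finset.mem_range]
    by_cases hxh : x < h
    · exact Or.inl hxh
    · right
      have := hw (x + n) (by omega) ⟨by omega, by rw [Nat.add_sub_cancel]; exact hx.2⟩
      rw [Finset.mem_insert, Finset.mem_singleton]
      omega
  · refine (Finset.card_union_le _ _).trans ?_
    rw [Finset.card_range]
    have := Finset.card_le_two (a := a - n) (b := b - n)
    omega

theorem nw_le_len {w : List α} : nw n S w ≤ w.length + 1 := by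
  classical
  unfold nw
  exact (Finset.card_filter_le _ _).trans (by rw [Finset.card_range])

theorem Two.few {h s : ℕ} {w : List α} (h1 : Two n S h w s) : nw n S w ≤ h + 2 :=
  nw_le (a := s) (b := w.length) fun t h2 h3 => by
    by_contra hc
    push Not at hc
    have hl := h3.le
    rcases Nat.lt_trichotomy t s with h4 | h4 | h4
    · exact h1.1.2.2 t h2 h4 h3
    · exact hc.1 h4
    · exact h1.2.2.2 t h4 (by omega) h3

end Crest.Agent.R320.ZZ_437
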