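import Crest.Agent.R320.ZZ1_437

/-!
# Row 320: scheme 1 on the zones of the natural chain rule (helper437)
-/

set_option autoImplicit false

namespace Crest.Agent.R320.ZZ_437

open Crest.RegLang Crest.Agent.R320.Hk_851 Crest.Agent.R320.FewWalls_228
open Crest.Agent.R320.Star_621 Crest.Agent.R320.Two_621

universe u

/-- data of scheme 1 -/
structure PA (α : Type u) (G : Type u) [Monoid G] where
  n : ℕ
  W : ℕ
  p0 : ℕ
  z0 : ℕ
  N1 : ℕ
  T0 : ℕ
  S : Set (List α)
  hS : ∀ s ∈ S, s.length = n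
  hgap : Gap n W S
  ph : List α → G
  h1 : ph [] = 1
  hm : ∀ a b, ph (a ++ b) = ph a * ph b
  lam : List α → Option (Tok G)
  rho : List α → Option (Tok G)
  nu : List α → Tok G
  BadT : ℕ → Prop
  sound : ∀ P Q v b, lam P = some v → rho Q = some b → b = act v (ph (P ++ Q)) + nu (P ++ Q)
  left : ∀ P v, lam P = some v → P.length ≤ N1
  compl : ∀ Y, T0 ≤ Y.length → ¬ BadT Y.length → ∀ v, ∃ P Q, Y = P ++ Q ∧ lam P = some v ∧
    (rho Q).isSome
  hz : 2 * p0 + N1 + n + T0 ≤ z0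
  hW : 2 * (p0 + N1) < W
  hp0 : 0 < p0

variable {α : Type u} {G : Type u} [Monoid G]

namespace PA

variable (D : PA α G)

def RA (τ : Tok G) : Language α :=
  {Q | (∀ t, D.z0 - D.p0 - D.N1 ≤ t → t < D.z0 - D.p0 → ¬ Wt D.n D.S Q t) ∧
    ∃ s, Two D.n D.S (D.z0 - D.p0) Q s ∧ ∃ b, D.rho (Q.take s) = some b ∧
      τ = act b (D.ph (Q.drop s))}

def LA (ω : Tok G) : Language α :=
  {P | D.p0 ≤ P.length ∧ D.lam (P.drop D.p0) = some (act ω (D.ph (P.take D.p0)))}

open Classical in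
noncomputable def dY (Y : List α) : Tok G :=
  if h : ∃ s, FW D.n D.S (D.z0 - D.p0) Y s then act (D.nu (Y.take h.choose)) (D.ph (Y.drop h.choose))
  else 0

noncomputable def dA (z : List α) : Tok G := D.dY (z.drop D.p0)

def BU (d : ℕ) (u : List α) : Prop :=
  FW D.n D.S (D.z0 - d) u u.length ∧
    ((∃ t, D.z0 ≤ t + d + D.N1 ∧ t + d ≤ D.z0 + D.N1 ∧ Wt D.n D.S u t) ∨
      D.BadT (u.length + d - D.p0))

def BdC (d : ℕ) (Q : List α) : Prop := ∃ u x, Q = u ++ x ∧ D.BU d u

def Z : Language α := {z | ∃ s, Two D.n D.S D.z0 z s}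

def Zc : Language α := {z | (∃ s, Two D.n D.S D.z0 z s) ∧ D.BdC 0 z}

theorem dY_eq {Y : List α} {s : ℕ} (h : FW D.n D.S (D.z0 - D.p0) Y s) :
    D.dY Y = act (D.nu (Y.take s)) (D.ph (Y.drop s)) := by
  have hex : ∃ s, FW D.n D.S (D.z0 - D.p0) Y s := ⟨s, h⟩
  have e : hex.choose = s := hex.choose_spec.uniq h
  unfold dY
  rw [dif_pos hex, e]

theorem code : Code D.Z := by
  refine ⟨?_, ?_⟩
  · rintro ⟨s, h, h2, -⟩
    simp at h2
  · rintro z z' x x' ⟨s, h⟩ ⟨s', h'⟩ e
    exact (Two.code h h' e).1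

theorem soundA : Sound D.Z (aff D.ph D.dA) D.LA D.RA := by
  have hz := D.hz
  refine ⟨fun ω h => ?_, ?_⟩
  · have := D.hp0
    have h2 : D.p0 ≤ 0 := h.1
    omega
  · rintro ω τ P Q z x y ⟨hP1, hP2⟩ ⟨hwin, s, hs, b, hb, rfl⟩ ⟨s', hz'⟩ e
    have hPl := D.left _ _ hP2
    rw [List.length_drop] at hPl
    have h2 : Two D.n D.S (D.z0 - P.length) Q s := by
      refine ⟨⟨by have := hs.1.1; omega, hs.1.2.1, fun t h3 h4 h5 => ?_⟩, hs.2⟩
      by_cases ht : D.z0 - D.p0 ≤ t
      · exact hs.1.2.2 t ht h4 h5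
      · exact hwin t (by omega) (by omega) h5
    have h3 := h2.cat (by omega)
    obtain ⟨h4, h5⟩ := h3.code hz' e
    refine ⟨h4, ?_⟩
    have hd : (P ++ Q).drop D.p0 = P.drop D.p0 ++ Q := List.drop_append_of_le_length hP1
    have hPd : (P.drop D.p0).length + s = P.length + s - D.p0 := by rw [List.length_drop]; omega
    have h6 : FW D.n D.S (D.z0 - D.p0) (P.drop D.p0 ++ Q) ((P.drop D.p0).length + s) := by
      have h7 := h3.1
      rw [← List.take_append_drop D.p0 P, List.append_assoc] at h7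
      have hl : (P.take D.p0).length = D.p0 := by rw [List.length_take, Nat.min_eq_left hP1]
      have h8 := h7.of_cat (by rw [hl]; omega)
      rw [hl, List.take_append_drop] at h8
      rw [hPd]; exact h8
    have h7 : D.dA (P ++ Q) = act (D.nu (P.drop D.p0 ++ Q.take s)) (D.ph (Q.drop s)) := by
      unfold dA
      rw [hd, D.dY_eq h6, List.take_length_add_append, List.drop_length_add_append]
    have h8 := D.sound _ _ _ _ hP2 hb
    rw [← h4, aff, h7, h8, act_add, act_mul, act_mul, ← D.hm]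
    congr 2
    rw [← D.hm]
    congr 1
    rw [List.append_assoc, List.take_append_drop, ← List.append_assoc, List.take_append_drop]

theorem complA : ∀ z ∈ D.Z, z ∉ D.Zc → ∀ v, Cut D.LA D.RA v z := by
  have hz := D.hz
  rintro z ⟨s, hs⟩ hzc v
  have hsl := hs.2.1
  have hs1 := hs.1.1
  have hnb : ¬ D.BdC 0 z := fun h => hzc ⟨⟨s, hs⟩, h⟩
  have htl : (z.take s).length = s := by rw [List.length_take, Nat.min_eq_left hsl.le]
  have hnu : ¬ ((∃ t, D.z0 ≤ t + 0 + D.N1 ∧ t + 0 ≤ D.z0 + D.N1 ∧ Wt D.n D.S (z.take s) t) ∨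
      D.BadT ((z.take s).length + 0 - D.p0)) := by
    intro h
    refine hnb ⟨z.take s, z.drop s, (List.take_append_drop _ _).symm, ?_, h⟩
    rw [htl]; exact hs.1.take
  rw [not_or, htl, Nat.add_zero] at hnu
  obtain ⟨hE, hB⟩ := hnu
  have hE' : ∀ t, D.z0 ≤ t + D.N1 → t ≤ D.z0 + D.N1 → t ≤ s → ¬ Wt D.n D.S z t :=
    fun t h1 h2 h3 h4 => hE ⟨t, h1, h2, (wt_take h3 hsl.le).2 h4⟩
  have hsN : D.z0 + D.N1 < s := by
    by_contra hc
    exact hE' s (by omega) (by omega) le_rfl hs.1.2.1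
  set Y := (z.drop D.p0).take (s - D.p0) with hY
  have hYl : Y.length = s - D.p0 := by
    rw [hY, List.length_take, List.length_drop]; omega
  obtain ⟨P', Q', e, hl, hr⟩ := D.compl Y (by omega) (by rw [hYl]; exact hB)
    (act v (D.ph (z.take D.p0)))
  obtain ⟨b, hb⟩ := Option.isSome_iff_exists.1 hr
  have ho := D.left _ _ hl
  have hXl : (z.take D.p0).length = D.p0 := by rw [List.length_take]; omega
  have hYs : Y ++ z.drop s = z.drop D.p0 := by
    rw [hY]
    have : z.drop s = (z.drop D.p0).drop (s - D.p0) := by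
      rw [List.drop_drop]; congr 1; omega
    rw [this, List.take_append_drop]
  have hlen : P'.length + Q'.length = s - D.p0 := by rw [← hYl, e, List.length_append]
  have hzz : z = (z.take D.p0 ++ P') ++ (Q' ++ z.drop s) := by
    rw [List.append_assoc, ← List.append_assoc P', ← e, hYs, List.take_append_drop]
  have hPlen : (z.take D.p0 ++ P').length = D.p0 + P'.length := by
    rw [List.length_append, hXl]
  refine ⟨z.take D.p0 ++ P', Q' ++ z.drop s, act b (D.ph (z.drop s)), hzz, ⟨?_, ?_⟩, ?_⟩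
  · rw [hPlen]; omega
  · rw [List.drop_append_of_le_length (by rw [hXl]), List.take_append_of_le_length (by rw [hXl]),
      List.drop_of_length_le (by rw [hXl]), List.nil_append, List.take_take, Nat.min_self]
    exact hl
  · have h2 : Two D.n D.S D.z0 ((z.take D.p0 ++ P') ++ (Q' ++ z.drop s)) s := by
      rw [← hzz]; exact hs
    have h3 := h2.of_cat (by rw [hPlen]; omega)
    rw [hPlen] at h3
    have hQs : s - (D.p0 + P'.length) = Q'.length := by omega
    rw [hQs] at h3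
    refine ⟨fun t h4 h5 h6 => ?_, Q'.length, ⟨⟨by omega, h3.1.2.1, fun t h4 h5 h6 =>
      h3.1.2.2 t (by omega) h5 h6⟩, h3.2⟩, b, ?_, ?_⟩
    · have h7 := (wt_cat (P := z.take D.p0 ++ P') (by omega)).2 h6
      rw [← hzz, hPlen] at h7
      exact hE' _ (by omega) (by omega) (by omega) h7
    · rw [List.take_left]; exact hb
    · rw [List.drop_left]

end PA

end Crest.Agent.R320.ZZ_437
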