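import Crest.Agent.R320.Zon_802

/-!
# Row 320: the inner (promise) scheme in the literal of `Main_621.Data` (helper802)
-/

set_option autoImplicit false

namespace Crest.Agent.R320.Zon_802

open Crest.Agent.R320.Star_621 Crest.Agent.R320.Two_621

universe u

variable {α : Type u} {S : Type u} [Monoid S]

abbrev TT (S : Type u) : Type u := (Function.End (Option (Tok S)))ᵐᵒᵖ

/-- right multiplication on tokens -/
def rr (s : S) : TT S := MulOpposite.op (fun o : Option (Tok S) => o.map fun v => act v s)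

theorem rr_one : rr (1 : S) = 1 := by
  apply MulOpposite.unop_injective
  funext o
  cases o with
  | none => rfl
  | some v =>
    show some (act v 1) = some v
    rw [act_one]

theorem rr_mul (s t : S) : rr (s * t) = rr s * rr t := by
  apply MulOpposite.unop_injective
  funext o
  cases o with
  | none => rfl
  | some v =>
    show some (act v (s * t)) = some (act (act v s) t)
    rw [act_mul]

section B

variable (Wo : List α → Prop) (φ : List α → S) (lam rho : List α → Option (Tok S))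
  (nu : List α → Tok S) (Bad : ℕ → Prop) (N p0 z0 : ℕ)

/-- cut of the outer scheme, read on `Y` -/
def CutY (v : Tok S) (Y : List α) : Prop :=
  ∃ P Q τ, Y = P ++ Q ∧ lam P = some v ∧ Q ∈ RA Wo φ rho N z0 τ

open Classical in
/-- zone map of `Y` -/
noncomputable def FF (Y : List α) : TT S :=
  MulOpposite.op fun o : Option (Tok S) => o.bind fun v =>
    if CutY Wo φ lam rho N z0 v Y then none else some (act v (φ Y) + dY Wo φ nu z0 Y)

/-- zone map of the outer scheme -/
noncomputable abbrev stA (X : List α) : TT S :=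
  stepA (aff φ (dA Wo φ nu p0 z0)) (LA φ lam p0) (RA Wo φ rho N z0) X

theorem cut_iff {X : List α} (hX : p0 ≤ X.length) (v : Tok S) :
    Cut (LA φ lam p0) (RA Wo φ rho N z0) v X ↔
      CutY Wo φ lam rho N z0 (act v (φ (X.take p0))) (X.drop p0) := by
  constructor
  · rintro ⟨P, Q, τ, rfl, ⟨hp, hP⟩, hQ⟩
    refine ⟨P.drop p0, Q, τ, ?_, ?_, hQ⟩
    · rw [List.drop_append_of_le_length hp]
    · rw [List.take_append_of_le_length hp]; exact hP
  · rintro ⟨P, Q, τ, hY, hP, hQ⟩
    have hl : (X.take p0).length = p0 := by rw [List.length_take]; omega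
    refine ⟨X.take p0 ++ P, Q, τ, ?_, ⟨?_, ?_⟩, hQ⟩
    · rw [List.append_assoc, ← hY, List.take_append_drop]
    · rw [List.length_append]; omega
    · rw [List.drop_left' hl, List.take_left' hl]; exact hP

theorem stA_eq (hφ : ∀ a b, φ (a ++ b) = φ a * φ b) {X : List α} (hX : p0 ≤ X.length) :
    stA Wo φ lam rho nu N p0 z0 X =
      rr (φ (X.take p0)) * FF Wo φ lam rho nu N z0 (X.drop p0) := by
  classical
  apply MulOpposite.unop_injective
  funext o
  cases o with
  | none => rfl
  | some v =>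
    show (if Cut (LA φ lam p0) (RA Wo φ rho N z0) v X then none else
        some (aff φ (dA Wo φ nu p0 z0) X v)) =
      (if CutY Wo φ lam rho N z0 (act v (φ (X.take p0))) (X.drop p0) then none else
        some (act (act v (φ (X.take p0))) (φ (X.drop p0)) + dY Wo φ nu z0 (X.drop p0)))
    by_cases h : Cut (LA φ lam p0) (RA Wo φ rho N z0) v X
    · rw [if_pos h, if_pos ((cut_iff Wo φ lam rho N p0 z0 hX v).1 h)]
    · rw [if_neg h, if_neg (fun h' => h ((cut_iff Wo φ lam rho N p0 z0 hX v).2 h'))]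
      unfold aff dA
      rw [act_mul, ← hφ, List.take_append_drop]

variable (m : ℕ) (β : ℕ → ℕ)

/-- content of block `j` of a word which starts at place `l` of the zone -/
noncomputable def blk (U : List α) (l j : ℕ) : TT S :=
  if j + 1 < m then rr (φ ((U.take (β (j + 1) - l)).drop (β j - l)))
  else rr (φ ((U.take (p0 - l)).drop (β j - l))) * FF Wo φ lam rho nu N z0 (U.drop (p0 - l))

/-- all contents -/
noncomputable def uu (X : List α) : List (TT S) :=
  (List.range m).map (blk Wo φ lam rho nu N p0 z0 m β X 0)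

noncomputable def pre (P : List α) (i : ℕ) : List (TT S) :=
  (List.range i).map (blk Wo φ lam rho nu N p0 z0 m β P 0)

noncomputable def post (Q : List α) (l i : ℕ) : List (TT S) :=
  (List.range (m - 1 - i)).map fun j => blk Wo φ lam rho nu N p0 z0 m β Q l (i + 1 + j)

variable {Wo φ lam rho nu Bad N p0 z0 m β}

theorem blk_left (hβ : Monotone β) {P Q : List α} {i j : ℕ} (hj : j < i) (him : i < m)
    (hl : β i ≤ P.length) : blk Wo φ lam rho nu N p0 z0 m β (P ++ Q) 0 j =
      blk Wo φ lam rho nu N p0 z0 m β P 0 j := by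
  unfold blk
  rw [if_pos (by omega), if_pos (by omega), List.take_append_of_le_length]
  have := hβ (show j + 1 ≤ i by omega)
  omega

theorem take_drop_app {P Q : List α} {a b : ℕ} (ha : P.length ≤ a) (hb : P.length ≤ b) :
    ((P ++ Q).take a).drop b = (Q.take (a - P.length)).drop (b - P.length) := by
  rw [List.take_append, List.drop_append]
  rw [List.take_of_length_le ha, List.drop_eq_nil_of_le hb, List.nil_append]

theorem blk_right {P Q : List α} {j : ℕ} (hl : P.length ≤ β j)
    (hl' : P.length ≤ β (j + 1)) (hp : P.length ≤ p0) :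
    blk Wo φ lam rho nu N p0 z0 m β (P ++ Q) 0 j =
      blk Wo φ lam rho nu N p0 z0 m β Q P.length j := by
  unfold blk
  split_ifs with h
  · rw [Nat.sub_zero, Nat.sub_zero, take_drop_app hl' hl]
  · rw [Nat.sub_zero, Nat.sub_zero, take_drop_app hp hl, List.drop_append,
      List.drop_eq_nil_of_le hp, List.nil_append]

theorem uu_split (X : List α) {i : ℕ} (hi : i < m) :
    uu Wo φ lam rho nu N p0 z0 m β X =
      (List.range i).map (blk Wo φ lam rho nu N p0 z0 m β X 0) ++
        blk Wo φ lam rho nu N p0 z0 m β X 0 i ::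
        (List.range (m - 1 - i)).map
          (fun j => blk Wo φ lam rho nu N p0 z0 m β X 0 (i + 1 + j)) := by
  unfold uu
  have er : List.range m = List.range i ++ [i] ++ (List.range (m - 1 - i)).map (i + 1 + ·) := by
    have e : m = (i + 1) + (m - 1 - i) := by omega
    conv_lhs => rw [e]
    rw [List.range_add, List.range_succ]
  rw [er, List.map_append, List.map_append, List.map_map, List.append_assoc]
  rfl

theorem uu_eq (hβ : Monotone β) {P Q : List α} {i : ℕ} (hi : i < m) (hl : β i ≤ P.length)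
    (hr : i + 1 < m → P.length ≤ β (i + 1)) (hp : P.length ≤ p0) :
    uu Wo φ lam rho nu N p0 z0 m β (P ++ Q) =
      pre Wo φ lam rho nu N p0 z0 m β P i ++
        blk Wo φ lam rho nu N p0 z0 m β (P ++ Q) 0 i ::
        post Wo φ lam rho nu N p0 z0 m β Q P.length i := by
  rw [uu_split (P ++ Q) hi]
  unfold pre post
  congr 1
  · apply List.map_congr_left
    intro j hj
    exact blk_left hβ (List.mem_range.1 hj) hi hl
  · congr 1
    apply List.map_congr_left
    intro j hj
    have h1 := List.mem_range.1 hj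
    have h2 := hr (by omega)
    have h3 := hβ (show i + 1 ≤ i + 1 + j by omega)
    have h4 := hβ (show i + 1 ≤ i + 1 + j + 1 by omega)
    exact blk_right (by omega) (by omega) hp

theorem prod_aux (hβ : Monotone β) (hβ0 : β 0 = 0) (h1 : φ [] = 1)
    (hφ : ∀ a b, φ (a ++ b) = φ a * φ b) (X : List α) (k : ℕ) (hk : k < m) :
    ((List.range k).map (blk Wo φ lam rho nu N p0 z0 m β X 0)).prod = rr (φ (X.take (β k))) := by
  induction k with
  | zero => simp [hβ0, h1, rr_one]
  | succ k ih =>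
    rw [List.range_succ, List.map_append, List.prod_append, ih (by omega)]
    simp only [List.map_cons, List.map_nil, List.prod_cons, List.prod_nil, mul_one]
    unfold blk
    rw [if_pos hk, Nat.sub_zero, Nat.sub_zero, ← rr_mul, ← hφ]
    congr 2
    have := hβ (Nat.le_succ k)
    have e : X.take (β k) = (X.take (β (k + 1))).take (β k) := by
      rw [List.take_take, min_eq_left this]
    rw [e, List.take_append_drop]

theorem prod_uu (hβ : Monotone β) (hβ0 : β 0 = 0) (h1 : φ [] = 1)
    (hφ : ∀ a b, φ (a ++ b) = φ a * φ b) (hm : 0 < m) (hβm : β (m - 1) ≤ p0) {X : List α}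
    (hX : p0 ≤ X.length) :
    (uu Wo φ lam rho nu N p0 z0 m β X).prod = stA Wo φ lam rho nu N p0 z0 X := by
  rw [stA_eq Wo φ lam rho nu N p0 z0 hφ hX]
  unfold uu
  have h2 := prod_aux (Wo := Wo) (φ := φ) (lam := lam) (rho := rho) (nu := nu) (N := N) (p0 := p0)
    (z0 := z0) (m := m) hβ hβ0 h1 hφ X (m - 1) (by omega)
  have er : List.range m = List.range (m - 1) ++ [m - 1] := by
    have e : m = (m - 1) + 1 := by omega
    conv_lhs => rw [e]
    rw [List.range_succ]
  rw [er]
  rw [List.map_append, List.prod_append, h2]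
  simp only [List.map_cons, List.map_nil, List.prod_cons, List.prod_nil, mul_one]
  unfold blk
  rw [if_neg (by omega), Nat.sub_zero, Nat.sub_zero, ← mul_assoc, ← rr_mul, ← hφ]
  congr 3
  have e : X.take (β (m - 1)) = (X.take p0).take (β (m - 1)) := by
    rw [List.take_take, min_eq_left hβm]
  rw [e, List.take_append_drop]

/-- names of the exact gadget -/
structure Ex (m : ℕ) {Nm : Type} (idx : Nm → ℕ) (Lf Rt : Nm → List (TT S) → Prop)
    (lab rlab : Nm → Tok (TT S)) (nuB : List (TT S) → Tok (TT S)) : Prop where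
  idx_lt : ∀ c, idx c < m
  sound : ∀ (c : Nm) (pre post : List (TT S)) (z : TT S), pre.length = idx c →
    (pre ++ z :: post).length = m → Lf c pre → Rt c post →
      rlab c = act (lab c) (pre ++ z :: post).prod + nuB (pre ++ z :: post)
  complete : ∀ (u : List (TT S)) (v : Tok (TT S)), u.length = m → ∃ (c : Nm)
    (pre post : List (TT S)) (z : TT S),
    u = pre ++ z :: post ∧ pre.length = idx c ∧ Lf c pre ∧ Rt c post ∧ lab c = v

variable {Nm : Type} (idx : Nm → ℕ) (Lf Rt : Nm → List (TT S) → Prop)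
  (lab rlab : Nm → Tok (TT S)) (nuB : List (TT S) → Tok (TT S)) (K : ℕ) (ℓ : ℕ → ℕ) (nm : ℕ → Nm)

variable (Wo φ lam rho nu Bad N p0 z0 m β)

def LB (v : Tok (TT S)) : Language α :=
  {P | ∃ k < K, P.length = ℓ k ∧ Lf (nm k) (pre Wo φ lam rho nu N p0 z0 m β P (idx (nm k))) ∧
    lab (nm k) = v}

def RB (τ : Tok (TT S)) : Language α :=
  {Q | ∃ k < K, (∀ k' < K, CC Wo Bad N z0 (p0 - ℓ k') Q → k' = k) ∧
    ZZ Wo (p0 - ℓ k + z0) Q ∧
    Rt (nm k) (post Wo φ lam rho nu N p0 z0 m β Q (ℓ k) (idx (nm k))) ∧ rlab (nm k) = τ}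

noncomputable def dB (X : List α) : Tok (TT S) := nuB (uu Wo φ lam rho nu N p0 z0 m β X)

/-- geometry of the ruler -/
structure Rul (W n : ℕ) : Prop where
  loc : ∀ U R : List α, n ≤ R.length → (Wo (U ++ R) ↔ Wo R)
  gap : ∀ (U : List α) (s t : ℕ), Wat Wo U s → Wat Wo U t → s < t → s + W < t
  one : φ [] = 1
  mul : ∀ a b, φ (a ++ b) = φ a * φ b
  hz0 : n + N ≤ z0
  mono : Monotone β
  b0 : β 0 = 0
  bm : β (m - 1) ≤ p0
  hm : 0 < m
  pos : ∀ k < K, 0 < ℓ k
  le : ∀ k < K, ℓ k ≤ p0
  left : ∀ k < K, β (idx (nm k)) ≤ ℓ k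
  right : ∀ k < K, idx (nm k) + 1 < m → ℓ k ≤ β (idx (nm k) + 1)
  span : ∀ k < K, ∀ k' < K, ℓ k + N ≤ ℓ k' + W

variable {Wo φ lam rho nu Bad N p0 z0 m β} {idx Lf Rt lab rlab nuB K ℓ nm}

theorem see {W : ℕ} {n : ℕ} (h : Rul Wo φ N p0 z0 m β idx K ℓ nm W n) {k k0 : ℕ} (hk : k < K)
    (hk0 : k0 < K) {Q Q' x y : List α} (hQ : ZZ Wo (p0 - ℓ k + z0) Q)
    (hQ' : CC Wo Bad N z0 (p0 - ℓ k0) Q') (e : Q ++ x = Q' ++ y) :
    CC Wo Bad N z0 (p0 - ℓ k0) Q := by
  obtain ⟨t, h1, h2⟩ := hQ
  have hg := h.gap Q t Q.length h1.2.1 h2.2.1 (by have := h2.1; omega)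
  have hsp := h.span k hk k0 hk0
  have h3 := h.le k hk
  have h4 := h.le k0 hk0
  have h5 := h1.1
  have hbig : p0 - ℓ k0 + z0 + N < Q.length := by
    have := h.span k hk k0 hk0
    omega
  rcases hQ' with ⟨s, a, b, c⟩ | ⟨r, a, b⟩
  · refine Or.inl ⟨s, a, b, ?_⟩
    have : Wat Wo (Q ++ x) s := by
      rw [e]
      exact (wat_left c.1).2 c
    exact (wat_left (by omega)).1 this
  · refine Or.inr ⟨r, ?_, b⟩
    have h6 : Fst Wo (Q ++ x) (p0 - ℓ k0 + z0) r := by
      rw [e]; exact fst_left a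
    have h7 : r ≤ Q.length := by
      by_contra hlt
      refine h6.2.2 Q.length (by omega) (by omega) ((wat_left le_rfl).2 h2.2.1)
    exact fst_of_left h6 h7

theorem soundB {W n : ℕ} (h : Rul Wo φ N p0 z0 m β idx K ℓ nm W n)
    (hE : Ex m idx Lf Rt lab rlab nuB) :
    Sound (Zc Wo Bad N p0 z0) (aff (stA Wo φ lam rho nu N p0 z0)
      (dB Wo φ lam rho nu N p0 z0 m β nuB))
      (LB Wo φ lam rho nu N p0 z0 m β idx Lf lab K ℓ nm)
      (RB Wo φ lam rho nu Bad N p0 z0 m β idx Rt rlab K ℓ nm) := by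
  constructor
  · rintro ω ⟨k, hk, hl, -⟩
    have := h.pos k hk
    simp at hl
    omega
  · rintro ω τ P Q X x y ⟨k0, hk0, hPl, hLf, hlab⟩ ⟨k, hk, huni, hZZ, hRt, hrlab⟩ ⟨hXZ, hXC⟩ e
    have hp := h.le k0 hk0
    have hz0 := h.hz0
    have hXlen : p0 ≤ X.length := by
      obtain ⟨t, a, -⟩ := hXZ
      have := a.1
      have := a.2.1.1
      omega
    -- X = P ++ Q'
    obtain ⟨Q', rfl⟩ : ∃ Q', X = P ++ Q' := by
      have h1 : P <+: X ++ y := by
        rw [← e, List.append_assoc]; exact List.prefix_append _ _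
      have h2 : X <+: X ++ y := List.prefix_append _ _
      obtain ⟨Q', hQ'⟩ := List.prefix_of_prefix_length_le h1 h2 (by omega)
      exact ⟨Q', hQ'.symm⟩
    have e' : Q ++ x = Q' ++ y := by
      rw [List.append_assoc, List.append_assoc] at e
      exact List.append_cancel_left e
    have hpe : P.length + (p0 - ℓ k0) = p0 := by omega
    have hC0 : CC Wo Bad N z0 (p0 - ℓ k0) Q' := by
      have := cc_right (Bad := Bad) h.loc (P := P) (Q := Q') (a := p0 - ℓ k0) hz0
      rw [hpe] at this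
      exact this.1 hXC
    have hkk : k0 = k := huni k0 hk0 (see h hk hk0 hZZ hC0 e')
    subst hkk
    have hZ : ZZ Wo (p0 + z0) (P ++ Q) := by
      have := zz_right h.loc (P := P) (Q := Q) (k := p0 - ℓ k0 + z0) (by omega)
      rw [← add_assoc, hpe] at this
      exact this.2 hZZ
    have heq : P ++ Q = P ++ Q' := zz_prefix hZ hXZ e
    refine ⟨heq, ?_⟩
    rw [← heq]
    have hu := uu_eq (Wo := Wo) (φ := φ) (lam := lam) (rho := rho) (nu := nu) (N := N) (p0 := p0)
      (z0 := z0) (m := m) h.mono (P := P) (Q := Q) (hE.idx_lt (nm k0))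
      (by rw [hPl]; exact h.left k0 hk0) (fun h1 => by rw [hPl]; exact h.right k0 hk0 h1)
      (by omega)
    have hlen : (pre Wo φ lam rho nu N p0 z0 m β P (idx (nm k0))).length = idx (nm k0) := by
      unfold pre; simp
    have hm : (uu Wo φ lam rho nu N p0 z0 m β (P ++ Q)).length = m := by
      unfold uu; simp
    rw [hPl] at hu
    have := hE.sound (nm k0) _ _ _ hlen (by rw [← hu]; exact hm) hLf hRt
    rw [← hu] at this
    unfold aff dB
    rw [← hrlab, this, hlab]
    congr 2
    exact prod_uu h.mono h.b0 h.one h.mul h.hm h.bm (by rw [heq]; exact hXlen)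

theorem cutB {W n : ℕ} (h : Rul Wo φ N p0 z0 m β idx K ℓ nm W n)
    (hE : Ex m idx Lf Rt lab rlab nuB)
    (hsp : ∀ X, ZZ Wo (p0 + z0) X → ∀ c, ∃ k < K, nm k = c ∧
      ∀ k' < K, CC Wo Bad N z0 (p0 - ℓ k') (X.drop (ℓ k)) → k' = k)
    {X : List α} (hX : X ∈ Zc Wo Bad N p0 z0) (v : Tok (TT S)) :
    Cut (LB Wo φ lam rho nu N p0 z0 m β idx Lf lab K ℓ nm)
      (RB Wo φ lam rho nu Bad N p0 z0 m β idx Rt rlab K ℓ nm) v X := by
  obtain ⟨hXZ, hXC⟩ := hX
  have hz0 := h.hz0
  have hXlen : p0 ≤ X.length := by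
    obtain ⟨t, a, -⟩ := hXZ
    have := a.1
    have := a.2.1.1
    omega
  have hm : (uu Wo φ lam rho nu N p0 z0 m β X).length = m := by
    unfold uu; simp
  obtain ⟨c, pr, po, z, h1, h2, h3, h4, h5⟩ := hE.complete (uu Wo φ lam rho nu N p0 z0 m β X) v hm
  obtain ⟨k, hk, rfl, huni⟩ := hsp X hXZ c
  have hkp := h.le k hk
  have hPl : (X.take (ℓ k)).length = ℓ k := by rw [List.length_take]; omega
  have hu := uu_eq (Wo := Wo) (φ := φ) (lam := lam) (rho := rho) (nu := nu) (N := N) (p0 := p0)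
    (z0 := z0) (m := m) h.mono (P := X.take (ℓ k)) (Q := X.drop (ℓ k)) (hE.idx_lt (nm k))
    (by rw [hPl]; exact h.left k hk) (fun h1 => by rw [hPl]; exact h.right k hk h1)
    (by rw [hPl]; omega)
  rw [List.take_append_drop, h1, hPl] at hu
  have hlen : (pre Wo φ lam rho nu N p0 z0 m β (X.take (ℓ k)) (idx (nm k))).length =
      idx (nm k) := by
    unfold pre; simp
  obtain ⟨e1, e2⟩ := List.append_inj hu (by rw [h2, hlen])
  obtain ⟨-, e3⟩ := List.cons.inj e2
  refine ⟨X.take (ℓ k), X.drop (ℓ k), rlab (nm k), (List.take_append_drop _ _).symm,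
    ⟨k, hk, hPl, by rw [← e1]; exact h3, h5⟩, ⟨k, hk, huni, ?_, by rw [← e3]; exact h4, rfl⟩⟩
  have := zz_right h.loc (P := X.take (ℓ k)) (Q := X.drop (ℓ k)) (k := p0 - ℓ k + z0) (by omega)
  rw [List.take_append_drop, hPl, ← add_assoc, show ℓ k + (p0 - ℓ k) = p0 by omega] at this
  exact this.1 hXZ

end B

end Crest.Agent.R320.Zon_802
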