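import Crest.Agent.R320.Shared_621
import Crest.Agent.R320.FewVal_228

/-!
# Row 320: both schemes in the block code (natural chain, block end = second wall), helper320

Walls `Wl n S w x` (window `[x, x+n)`), all words.  Zone = word which ends with a wall window, whose
walls `x` with `z0 <= x` are exactly two, the second one at the end.  Gadget 1 (`lam rho nu1`, no
condition on the content), gadget 2 (exact gadget on words of length `p0`), one token system.
Soundness and completeness of both schemes (`Shared_621.Data2` without the height clauses).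
-/

set_option autoImplicit false

namespace Crest.Agent.R320.Zon_320

open Crest.Agent.R320.FewWalls_228 Crest.Agent.R320.Star_621 Crest.Agent.R320.Two_621

universe u

variable {α : Type u}

theorem wl_mono {n : ℕ} {S : Set (List α)} {w : List α} (r : List α) {x : ℕ}
    (h : Wl n S w x) : Wl n S (w ++ r) x := by
  obtain ⟨h1, h2⟩ := h
  refine ⟨by rw [List.length_append]; omega, ?_⟩
  rw [List.drop_append_of_le_length (by omega),
    List.take_append_of_le_length (by rw [List.length_drop]; omega)]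
  exact h2

theorem wl_res {n : ℕ} {S : Set (List α)} {w r : List α} {x : ℕ}
    (h : Wl n S (w ++ r) x) (hx : x + n ≤ w.length) : Wl n S w x := by
  obtain ⟨h1, h2⟩ := h
  refine ⟨hx, ?_⟩
  rw [List.drop_append_of_le_length (by omega),
    List.take_append_of_le_length (by rw [List.length_drop]; omega)] at h2
  exact h2

theorem wl_shift {n : ℕ} {S : Set (List α)} (p : List α) {w : List α} {x : ℕ} :
    Wl n S (p ++ w) (p.length + x) ↔ Wl n S w x := by
  unfold Wl
  rw [← List.drop_drop, List.drop_left, List.length_append]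
  constructor
  · rintro ⟨h1, h2⟩; exact ⟨by omega, h2⟩
  · rintro ⟨h1, h2⟩; exact ⟨by omega, h2⟩

/-- `w` ends with its second wall beyond `th` (threshold relative to `w`); `t` is the first one. -/
def End2 (n : ℕ) (S : Set (List α)) (th : ℕ) (w : List α) (t : ℕ) : Prop :=
  th ≤ t ∧ Wl n S w t ∧ ∃ e, t < e ∧ Wl n S w e ∧ e + n = w.length ∧
    ∀ x, th ≤ x → Wl n S w x → x = t ∨ x = e

theorem End2.prefix_eq {n : ℕ} {S : Set (List α)} {th : ℕ} {w w' r r' : List α} {t t' : ℕ}
    (h : End2 n S th w t) (h' : End2 n S th w' t') (e0 : w ++ r = w' ++ r') :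
    w = w' ∧ t = t' := by
  obtain ⟨h1, h2, e, h3, h4, h5, h6⟩ := h
  obtain ⟨g1, g2, e', g3, g4, g5, g6⟩ := h'
  have key : ∀ (a b ra rb : List α) (ta ea tb eb : ℕ), a ++ ra = b ++ rb →
      th ≤ ta → ta < ea → Wl n S a ta → Wl n S a ea → ea + n = a.length →
      (∀ x, th ≤ x → Wl n S b x → x = tb ∨ x = eb) → tb < eb → eb + n = b.length →
      b.length ≤ a.length := by
    intro a b ra rb ta ea tb eb hab k1 k2 k3 k4 k5 k6 k7 k8
    by_contra hlt
    push Not at hlt
    have w1 : Wl n S (b ++ rb) ta := hab ▸ wl_mono ra k3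
    have w2 : Wl n S (b ++ rb) ea := hab ▸ wl_mono ra k4
    have v1 := wl_res w1 (by omega)
    have v2 := wl_res w2 (by omega)
    have u1 := k6 ta k1 v1
    have u2 := k6 ea (by omega) v2
    omega
  have l1 := key w w' r r' t e t' e' e0 h1 h3 h2 h4 h5 g6 g3 g5
  have l2 := key w' w r' r t' e' t e e0.symm g1 g3 g2 g4 g5 h6 h3 h5
  have hl : w.length = w'.length := by omega
  have hw : w = w' := (List.append_inj e0 hl).1
  subst hw
  refine ⟨rfl, ?_⟩
  have u1 := h6 t' g1 g2
  have u2 := g6 t h1 h2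
  omega

/-- the data -/
structure Dt (α : Type u) (S : Type u) [Monoid S] where
  n : ℕ
  St : Set (List α)
  W : ℕ
  npos : 0 < n
  sep : ∀ (w : List α) (x y : ℕ), x < y → Wl n St w x → Wl n St w y → x + W ≤ y
  ph : List α → S
  ph_app : ∀ a b, ph (a ++ b) = ph a * ph b
  p0 : ℕ
  N1 : ℕ
  z0 : ℕ
  p0_pos : 0 < p0
  hz : p0 + 2 * N1 + n ≤ z0
  -- gadget 1
  lam : List α → Option (Tok S)
  rho : List α → Option (Tok S)
  nu1 : List α → Tok S
  BadT : ℕ → Prop
  lam_len : ∀ P v, lam P = some v → P.length < N1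
  sound1 : ∀ P Q v r, N1 ≤ Q.length → lam P = some v → rho Q = some r →
    r = nu1 (P ++ Q) + act v (ph (P ++ Q))
  compl1 : ∀ u : List α, 2 * N1 ≤ u.length → ¬ BadT u.length → ∀ v, ∃ P Q, P ++ Q = u ∧
    lam P = some v ∧ (rho Q).isSome
  -- gadget 2
  K : ℕ
  c : ℕ → ℕ
  c_pos : ∀ k < K, 0 < c k
  c_le : ∀ k < K, c k ≤ p0
  Lam : ℕ
  c_span : ∀ k < K, ∀ k' < K, c k ≤ c k' + Lam
  hW : Lam ≤ W
  hz2 : p0 + Lam + n ≤ z0
  lam2 : ℕ → List α → Option (Tok S)
  rho2 : ℕ → List α → Option (Tok S)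
  nu2 : List α → Tok S
  sound2 : ∀ k < K, ∀ P Q v b, P.length = c k → P.length + Q.length = p0 → lam2 k P = some v →
    rho2 k Q = some b → b = act v (ph (P ++ Q)) + nu2 (P ++ Q)

namespace Dt

variable {S : Type u} [Monoid S] (D : Dt α S)

/-- zones, with the first wall `t` -/
def ZZ (w : List α) (t : ℕ) : Prop := End2 D.n D.St D.z0 w t

def Z : Language α := {w | ∃ t, D.ZZ w t}

/-- status of the candidate anchor `κ` letters to the left of the text `Q` -/
def BV (κ : ℕ) (Q : List α) : Prop :=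
  ∃ q, D.z0 ≤ q + κ ∧ Wl D.n D.St Q q ∧ (∀ x, D.z0 ≤ x + κ → Wl D.n D.St Q x → q ≤ x) ∧
    ((∃ x, x ≤ q ∧ Wl D.n D.St Q x ∧ D.z0 ≤ x + κ + D.N1 ∧ x + κ < D.z0 + D.N1) ∨
      D.BadT (q + κ - D.p0))

def Zc : Language α := {w | w ∈ D.Z ∧ D.BV 0 w}

/-- zone value -/
noncomputable def val (v : Tok S) (w : List α) (t : ℕ) : Tok S :=
  act (act (act v (D.ph (w.take D.p0)) + D.nu2 (w.take D.p0)) (D.ph ((w.take t).drop D.p0)) +
    D.nu1 ((w.take t).drop D.p0)) (D.ph (w.drop t))

open Classical in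
/-- first wall of a zone -/
noncomputable def tt (w : List α) : ℕ := if h : ∃ t, D.ZZ w t then h.choose else 0

theorem tt_eq {w : List α} {t : ℕ} (h : D.ZZ w t) : D.tt w = t := by
  have h' : ∃ t, D.ZZ w t := ⟨t, h⟩
  unfold tt
  rw [dif_pos h']
  exact ((End2.prefix_eq (r := []) (r' := []) h'.choose_spec h rfl).2)

/-- noise of a zone -/
noncomputable def dd (w : List α) : Tok S :=
  act (act (D.nu2 (w.take D.p0)) (D.ph ((w.take (D.tt w)).drop D.p0)) +
    D.nu1 ((w.take (D.tt w)).drop D.p0)) (D.ph (w.drop (D.tt w)))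

theorem split3 {w : List α} {t : ℕ} (h0 : D.p0 ≤ t) (h1 : t ≤ w.length) :
    D.ph w = D.ph (w.take D.p0) * D.ph ((w.take t).drop D.p0) * D.ph (w.drop t) := by
  have e1 : w = w.take t ++ w.drop t := (List.take_append_drop _ _).symm
  have e2 : w.take t = (w.take t).take D.p0 ++ (w.take t).drop D.p0 :=
    (List.take_append_drop _ _).symm
  have e3 : (w.take t).take D.p0 = w.take D.p0 := by
    rw [List.take_take, Nat.min_eq_left h0]
  conv_lhs => rw [e1, D.ph_app, e2, D.ph_app, e3]

theorem val_eq {w : List α} {t : ℕ} (h : D.ZZ w t) (v : Tok S) :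
    aff D.ph D.dd w v = D.val v w t := by
  have ht := D.tt_eq h
  obtain ⟨h1, ⟨h2, -⟩, -⟩ := h
  have hp := D.hz
  unfold aff val dd
  rw [ht, D.split3 (w := w) (t := t) (by omega) (by omega)]
  rw [← act_mul, ← act_mul, act_add, act_add, act_add, act_add, add_assoc]

theorem code : Code D.Z := by
  constructor
  · rintro ⟨t, -, ⟨h, -⟩, -⟩
    have := D.npos
    simp at h
    omega
  · rintro z z' x x' ⟨t, h⟩ ⟨t', h'⟩ e
    exact (End2.prefix_eq h h' e).1

/-- glueing: `Q` seen from a candidate anchor `κ = |P|` -/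
theorem ZZ_append {P Q : List α} {t : ℕ} (h : End2 D.n D.St (D.z0 - P.length) Q t)
    (hP : P.length ≤ D.z0) : D.ZZ (P ++ Q) (P.length + t) := by
  obtain ⟨h1, h2, e, h3, h4, h5, h6⟩ := h
  refine ⟨by omega, (wl_shift P).2 h2, P.length + e, by omega, (wl_shift P).2 h4,
    by rw [List.length_append]; omega, ?_⟩
  intro x hx hw
  obtain ⟨y, rfl⟩ : ∃ y, x = P.length + y := ⟨x - P.length, by omega⟩
  have := h6 y (by omega) ((wl_shift P).1 hw)
  omega

theorem ZZ_drop {P Q : List α} {t : ℕ} (h : D.ZZ (P ++ Q) t) (hP : P.length ≤ D.z0) :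
    P.length ≤ t ∧ End2 D.n D.St (D.z0 - P.length) Q (t - P.length) := by
  obtain ⟨h1, h2, e, h3, h4, h5, h6⟩ := h
  have e1 : t = P.length + (t - P.length) := by omega
  have e2 : e = P.length + (e - P.length) := by omega
  refine ⟨by omega, by omega, ?_, e - P.length, by omega, ?_, ?_, ?_⟩
  · rw [e1] at h2; exact (wl_shift P).1 h2
  · rw [e2] at h4; exact (wl_shift P).1 h4
  · rw [List.length_append] at h5; omega
  · intro x hx hw
    have := h6 (P.length + x) (by omega) ((wl_shift P).2 hw)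
    omega

/-! ### scheme A -/

def LA (v : Tok S) : Language α :=
  {P | D.p0 ≤ P.length ∧ 0 < P.length ∧
    D.lam (P.drop D.p0) = some (act v (D.ph (P.take D.p0)) + D.nu2 (P.take D.p0))}

/-- right words of scheme A: only one wall beyond `z0 - p0 - N1` before the end, at `t` with
`z0 - p0 <= t` -/
def RAt (Q : List α) (t : ℕ) : Prop :=
  End2 D.n D.St (D.z0 - D.p0 - D.N1) Q t ∧ D.z0 ≤ D.p0 + t

def RA (v' : Tok S) : Language α :=
  {Q | ∃ t b, D.RAt Q t ∧ D.rho (Q.take t) = some b ∧ v' = act b (D.ph (Q.drop t))}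

theorem RAt_append {P Q : List α} {t : ℕ} (h : D.RAt Q t) (h0 : D.p0 ≤ P.length)
    (h1 : P.length ≤ D.p0 + D.N1) : D.ZZ (P ++ Q) (P.length + t) := by
  have hz := D.hz
  apply D.ZZ_append _ (by omega)
  obtain ⟨⟨h2, h3, e, h4, h5, h6, h7⟩, h8⟩ := h
  exact ⟨by omega, h3, e, h4, h5, h6, fun x hx hw => h7 x (by omega) hw⟩

theorem soundA : Sound D.Z (aff D.ph D.dd) D.LA D.RA := by
  have hz := D.hz
  refine ⟨?_, ?_⟩
  · rintro v ⟨-, h, -⟩
    simp at h
  · rintro v v' P Q z x y ⟨h1, -, h2⟩ ⟨t, b, h3, h4, rfl⟩ ⟨tz, hzz⟩ he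
    have hl := D.lam_len _ _ h2
    rw [List.length_drop] at hl
    have h5 := D.RAt_append h3 h1 (by omega)
    obtain ⟨e1, e2⟩ := End2.prefix_eq h5 hzz he
    subst e1
    refine ⟨rfl, ?_⟩
    have hQt : t + D.n ≤ Q.length := h3.1.2.1.1
    rw [D.val_eq h5]
    unfold val
    have e3 : (P ++ Q).take D.p0 = P.take D.p0 := List.take_append_of_le_length h1
    have e4 : ((P ++ Q).take (P.length + t)).drop D.p0 = P.drop D.p0 ++ Q.take t := by
      rw [List.take_length_add_append, List.drop_append_of_le_length h1]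
    have e5 : (P ++ Q).drop (P.length + t) = Q.drop t := by
      rw [← List.drop_drop, List.drop_left]
    rw [e3, e4, e5]
    have hs := D.sound1 _ _ _ _ (by
      rw [List.length_take, Nat.min_eq_left (by omega)]
      have := h3.2
      omega) h2 h4
    rw [hs, add_comm]

theorem complA (z : List α) (hz0 : z ∈ D.Z) (hc : z ∉ D.Zc) (v : Tok S) :
    Cut D.LA D.RA v z := by
  obtain ⟨t, hzz⟩ := hz0
  have hz := D.hz
  have hzz' := hzz
  obtain ⟨h1, h2, e, h3, h4, h5, h6⟩ := hzz'
  have hbv : ¬ D.BV 0 z := fun h => hc ⟨⟨t, hzz⟩, h⟩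
  have hfirst : ∀ x, D.z0 ≤ x + 0 → Wl D.n D.St z x → t ≤ x := by
    intro x hx hw
    have := h6 x (by omega) hw
    omega
  have hE : ∀ x, x ≤ t → Wl D.n D.St z x → D.z0 ≤ x + D.N1 → D.z0 + D.N1 ≤ x := by
    intro x hx hw hx2
    by_contra hlt
    exact hbv ⟨t, by omega, h2, hfirst, Or.inl ⟨x, hx, hw, by omega, by omega⟩⟩
  have hT : ¬ D.BadT (t - D.p0) := by
    intro hT
    exact hbv ⟨t, by omega, h2, hfirst, Or.inr (by simpa using hT)⟩
  have hlt : t + D.n ≤ z.length := h2.1
  have ht1 := hE t le_rfl h2 (by omega)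
  have hYl : ((z.take t).drop D.p0).length = t - D.p0 := by
    rw [List.length_drop, List.length_take, Nat.min_eq_left (by omega)]
  obtain ⟨P', Q', hY, hP', hQ'⟩ := D.compl1 ((z.take t).drop D.p0) (by rw [hYl]; omega)
    (by rw [hYl]; exact hT) (act v (D.ph (z.take D.p0)) + D.nu2 (z.take D.p0))
  obtain ⟨b, hb⟩ := Option.isSome_iff_exists.1 hQ'
  have hPl := D.lam_len _ _ hP'
  have ez : z = (z.take D.p0 ++ P') ++ (Q' ++ z.drop t) := by
    have e1 : z.take t = (z.take t).take D.p0 ++ (z.take t).drop D.p0 :=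
      (List.take_append_drop _ _).symm
    have e3 : (z.take t).take D.p0 = z.take D.p0 := by
      rw [List.take_take, Nat.min_eq_left (by omega)]
    rw [e3, ← hY] at e1
    conv_lhs => rw [← List.take_append_drop t z, e1]
    simp
  have htk : (z.take D.p0).length = D.p0 := by
    rw [List.length_take, Nat.min_eq_left (by omega)]
  have hQl : P'.length + Q'.length = t - D.p0 := by
    rw [← hYl, ← hY, List.length_append]
  have hPP : (z.take D.p0 ++ P').length = D.p0 + P'.length := by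
    rw [List.length_append, htk]
  have hend := D.ZZ_drop (P := z.take D.p0 ++ P') (Q := Q' ++ z.drop t) (t := t)
    (by rw [← ez]; exact hzz) (by rw [hPP]; omega)
  rw [hPP] at hend
  have eqt : t - (D.p0 + P'.length) = Q'.length := by omega
  rw [eqt] at hend
  have hne : 0 < D.p0 + P'.length := by have := D.p0_pos; omega
  refine ⟨z.take D.p0 ++ P', Q' ++ z.drop t, _, ez, ?_, ⟨Q'.length, b, ⟨?_, by omega⟩, ?_, rfl⟩⟩
  · refine ⟨by rw [hPP]; omega, by rw [hPP]; exact hne, ?_⟩
    rw [List.drop_left' htk, List.take_left' htk]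
    exact hP'
  · obtain ⟨-, g1, g2, e', g3, g4, g5, g6⟩ := hend
    refine ⟨by omega, g2, e', g3, g4, g5, ?_⟩
    intro x hx hw
    by_cases hx2 : D.z0 - (D.p0 + P'.length) ≤ x
    · exact g6 x hx2 hw
    · exfalso
      have hw' : Wl D.n D.St z (D.p0 + P'.length + x) := by
        rw [ez, ← hPP]; exact (wl_shift _).2 hw
      have := hE (D.p0 + P'.length + x) (by omega) hw' (by omega)
      omega
  · rw [List.take_left]; exact hb

/-! ### scheme B -/

def LB (v : Tok S) : Language α :=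
  {P | ∃ k, k < D.K ∧ P.length = D.c k ∧ D.lam2 k P = some v}

def RB (v' : Tok S) : Language α :=
  {Q | ∃ k, k < D.K ∧ ∃ t b, End2 D.n D.St (D.z0 - D.c k) Q t ∧
    (∀ k', k' < D.K → k' ≠ k → ¬ D.BV (D.c k') Q) ∧
    D.rho2 k (Q.take (D.p0 - D.c k)) = some b ∧
    v' = act (act b (D.ph ((Q.take t).drop (D.p0 - D.c k))) +
      D.nu1 ((Q.take t).drop (D.p0 - D.c k))) (D.ph (Q.drop t))}

theorem BV_first {z : List α} {t : ℕ} (h : D.ZZ z t) (hb : D.BV 0 z) :
    (∃ x, x ≤ t ∧ Wl D.n D.St z x ∧ D.z0 ≤ x + D.N1 ∧ x < D.z0 + D.N1) ∨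
      D.BadT (t - D.p0) := by
  obtain ⟨q, h1, h2, h3, h4⟩ := hb
  obtain ⟨g1, g2, e, g3, g4, g5, g6⟩ := h
  have e1 := h3 t (by omega) g2
  have e2 := g6 q (by omega) h2
  have e3 : q = t := by omega
  subst e3
  rcases h4 with ⟨x, hx1, hx2, hx3, hx4⟩ | h4
  · exact Or.inl ⟨x, hx1, hx2, by omega, by omega⟩
  · exact Or.inr (by simpa using h4)

theorem soundB : Sound D.Zc (aff D.ph D.dd) D.LB D.RB := by
  have hz := D.hz
  have hz2 := D.hz2
  refine ⟨?_, ?_⟩
  · rintro v ⟨k, hk, h, -⟩
    have := D.c_pos k hk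
    simp at h
    omega
  · rintro v v' P Q z x y ⟨k₀, hk₀, hPl, hl2⟩ ⟨k, hk, t, b, h3, huniq, hr2, rfl⟩ ⟨⟨tz, hzz⟩, hbv⟩ he
    have hc0 := D.c_le k₀ hk₀
    have hc1 := D.c_le k hk
    have hsp := D.c_span k hk k₀ hk₀
    have hW := D.hW
    have hzz' := hzz
    obtain ⟨g1, g2, e', g3, g4, g5, g6⟩ := hzz'
    have hvis : tz + D.n ≤ (P ++ Q).length := by
      obtain ⟨f1, f2, e, f3, f4, f5, f6⟩ := h3
      have hs := D.sep _ _ _ f3 f2 f4
      have hw1 : Wl D.n D.St (z ++ y) (P.length + e) := by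
        rw [← he]; exact wl_mono x ((wl_shift P).2 f4)
      have hge : tz ≤ P.length + e := by
        by_contra hlt
        have hw2 := wl_res hw1 (by have := g2.1; omega)
        have := g6 (P.length + e) (by omega) hw2
        omega
      rw [List.length_append]; omega
    have tr : ∀ w, w + D.n ≤ tz + D.n → P.length ≤ w →
        (Wl D.n D.St z w ↔ Wl D.n D.St Q (w - P.length)) := by
      intro w hw hPw
      have e1 : w = P.length + (w - P.length) := by omega
      constructor
      · intro h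
        have h' : Wl D.n D.St (P ++ Q ++ x) w := by rw [he]; exact wl_mono y h
        have h'' := wl_res h' (by omega)
        rw [e1] at h''
        exact (wl_shift P).1 h''
      · intro h
        have h' := wl_mono x ((wl_shift P).2 h)
        rw [← e1, he] at h'
        exact wl_res h' (by have := g2.1; omega)
    have hBV : D.BV (D.c k₀) Q := by
      refine ⟨tz - P.length, by omega, (tr tz le_rfl (by omega)).1 g2, ?_, ?_⟩
      · intro w hw1 hw2
        by_contra hlt
        have h5 := (tr (P.length + w) (by omega) (by omega)).2 (by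
          rw [Nat.add_sub_cancel_left]; exact hw2)
        have := g6 _ (by omega) h5
        omega
      · rcases D.BV_first hzz hbv with ⟨w, hw1, hw2, hw3, hw4⟩ | hT
        · left
          refine ⟨w - P.length, by omega, (tr w (by omega) (by omega)).1 hw2, by omega, by omega⟩
        · right
          have : tz - P.length + D.c k₀ - D.p0 = tz - D.p0 := by omega
          rw [this]; exact hT
    have hkk : k = k₀ := by
      by_contra hne
      exact huniq k₀ hk₀ (fun h => hne h.symm) hBV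
    subst hkk
    rw [← hPl] at h3
    have h5 := D.ZZ_append h3 (by omega)
    obtain ⟨e1, e2⟩ := End2.prefix_eq h5 hzz he
    subst e1
    refine ⟨rfl, ?_⟩
    have ht : t + D.n ≤ Q.length := h3.2.1.1
    have ht0 := h3.1
    rw [D.val_eq h5]
    unfold val
    have e3 : (P ++ Q).take D.p0 = P ++ Q.take (D.p0 - D.c k) := by
      have : D.p0 = P.length + (D.p0 - D.c k) := by omega
      conv_lhs => rw [this]
      rw [List.take_length_add_append]
    have e4 : ((P ++ Q).take (P.length + t)).drop D.p0 = (Q.take t).drop (D.p0 - D.c k) := by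
      have : D.p0 = P.length + (D.p0 - D.c k) := by omega
      conv_lhs => rw [this]
      rw [List.take_length_add_append, ← List.drop_drop, List.drop_left]
    have e5 : (P ++ Q).drop (P.length + t) = Q.drop t := by
      rw [← List.drop_drop, List.drop_left]
    rw [e3, e4, e5]
    have hs := D.sound2 k hk P (Q.take (D.p0 - D.c k)) v b hPl (by
      rw [List.length_take, Nat.min_eq_left (by omega)]; omega) hl2 hr2
    rw [hs]

/-- what is wanted from the ruler and the redundancy of gadget 2 -/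
def Spoil : Prop := ∀ z ∈ D.Zc, ∀ v, ∃ k, k < D.K ∧ D.lam2 k (z.take (D.c k)) = some v ∧
  (D.rho2 k ((z.take D.p0).drop (D.c k))).isSome ∧
  ∀ k', k' < D.K → k' ≠ k → ¬ D.BV (D.c k') (z.drop (D.c k))

theorem complB (hsp : D.Spoil) (z : List α) (hz0 : z ∈ D.Zc) (v : Tok S) :
    Cut D.LB D.RB v z := by
  obtain ⟨k, hk, h1, h2, h3⟩ := hsp z hz0 v
  obtain ⟨⟨t, hzz⟩, -⟩ := hz0
  have hz := D.hz
  have hc0 := D.c_le k hk
  obtain ⟨b, hb⟩ := Option.isSome_iff_exists.1 h2
  have hlt : t + D.n ≤ z.length := hzz.2.1.1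
  have ht0 : D.z0 ≤ t := hzz.1
  have hPl : (z.take (D.c k)).length = D.c k := by
    rw [List.length_take, Nat.min_eq_left (by omega)]
  have hend := D.ZZ_drop (P := z.take (D.c k)) (Q := z.drop (D.c k)) (t := t)
    (by rw [List.take_append_drop]; exact hzz) (by rw [hPl]; omega)
  rw [hPl] at hend
  refine ⟨z.take (D.c k), z.drop (D.c k), _, (List.take_append_drop _ _).symm,
    ⟨k, hk, hPl, h1⟩, ⟨k, hk, t - D.c k, b, hend.2, h3, ?_, rfl⟩⟩
  rw [List.take_drop, Nat.add_sub_cancel' hc0]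
  exact hb

end Dt

end Crest.Agent.R320.Zon_320
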