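import Crest.Agent.R320.Main_621

/-!
# Row 320: two nested wall schemes on all words, in the literal of `Main_621.Data` (helper802)

Left-looking outer walls; a zone ends at the second wall `≥ p0 + z0`.
-/

set_option autoImplicit false

namespace Crest.Agent.R320.Zon_802

open Crest.Agent.R320.Star_621 Crest.Agent.R320.Two_621

universe u

variable {α : Type u}

/-- wall at place `t` of `U` -/
def Wat (Wo : List α → Prop) (U : List α) (t : ℕ) : Prop := t ≤ U.length ∧ Wo (U.take t)

/-- `t` is the first wall `≥ k` of `U`. -/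
def Fst (Wo : List α → Prop) (U : List α) (k t : ℕ) : Prop :=
  k ≤ t ∧ Wat Wo U t ∧ ∀ s, k ≤ s → s < t → ¬ Wat Wo U s

variable {Wo : List α → Prop} {n : ℕ}

theorem Fst.unique {U : List α} {k t t' : ℕ} (h : Fst Wo U k t) (h' : Fst Wo U k t') : t = t' := by
  rcases lt_trichotomy t t' with hl | he | hl
  · exact absurd h.2.1 (h'.2.2 t h.1 hl)
  · exact he
  · exact absurd h'.2.1 (h.2.2 t' h'.1 hl)

theorem Fst.exists {U : List α} {k s : ℕ} (h : Wat Wo U s) (hk : k ≤ s) :
    ∃ t, t ≤ s ∧ Fst Wo U k t := by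
  classical
  have hex : ∃ t, k ≤ t ∧ Wat Wo U t := ⟨s, hk, h⟩
  refine ⟨Nat.find hex, Nat.find_min' hex ⟨hk, h⟩, (Nat.find_spec hex).1, (Nat.find_spec hex).2, ?_⟩
  intro r hr hlt hw
  exact Nat.find_min hex hlt ⟨hr, hw⟩

theorem wat_left {P Q : List α} {t : ℕ} (ht : t ≤ P.length) :
    Wat Wo (P ++ Q) t ↔ Wat Wo P t := by
  unfold Wat
  rw [List.take_append_of_le_length ht, List.length_append]
  constructor
  · rintro ⟨_, h⟩; exact ⟨ht, h⟩
  · rintro ⟨_, h⟩; exact ⟨by omega, h⟩

theorem wat_right (loc : ∀ U R : List α, n ≤ R.length → (Wo (U ++ R) ↔ Wo R)) {P Q : List α}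
    {s : ℕ} (hs : n ≤ s) : Wat Wo (P ++ Q) (P.length + s) ↔ Wat Wo Q s := by
  unfold Wat
  have e : (P ++ Q).take (P.length + s) = P ++ Q.take s := by
    rw [List.take_append]
    simp [List.take_of_length_le]
  rw [e, List.length_append]
  constructor
  · rintro ⟨h2, h3⟩
    refine ⟨by omega, (loc _ _ ?_).1 h3⟩
    rw [List.length_take]; omega
  · rintro ⟨h2, h3⟩
    refine ⟨by omega, (loc _ _ ?_).2 h3⟩
    rw [List.length_take]; omega

theorem fst_left {P Q : List α} {k t : ℕ} (h : Fst Wo P k t) : Fst Wo (P ++ Q) k t := by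
  refine ⟨h.1, (wat_left h.2.1.1).2 h.2.1, fun s h1 h2 h3 => h.2.2 s h1 h2 ?_⟩
  exact (wat_left (by have := h.2.1.1; omega)).1 h3

theorem fst_of_left {P Q : List α} {k t : ℕ} (h : Fst Wo (P ++ Q) k t) (ht : t ≤ P.length) :
    Fst Wo P k t := by
  refine ⟨h.1, (wat_left ht).1 h.2.1, fun s h1 h2 h3 => h.2.2 s h1 h2 ?_⟩
  exact (wat_left (by omega)).2 h3

theorem fst_right (loc : ∀ U R : List α, n ≤ R.length → (Wo (U ++ R) ↔ Wo R)) {P Q : List α}
    {k t : ℕ} (hk : n ≤ k) :
    Fst Wo (P ++ Q) (P.length + k) (P.length + t) ↔ Fst Wo Q k t := by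
  constructor
  · rintro ⟨h1, h2, h3⟩
    have h1' : k ≤ t := by omega
    refine ⟨h1', (wat_right loc (by omega)).1 h2, fun s hs hst hw => ?_⟩
    exact h3 (P.length + s) (by omega) (by omega) ((wat_right loc (by omega)).2 hw)
  · rintro ⟨h1, h2, h3⟩
    refine ⟨by omega, (wat_right loc (by omega)).2 h2, fun s hs hst hw => ?_⟩
    obtain ⟨r, rfl⟩ : ∃ r, s = P.length + r := ⟨s - P.length, by omega⟩
    exact h3 r (by omega) (by omega) ((wat_right loc (by omega)).1 hw)

/-- rest of a zone: the zone ends at the second wall `≥ k`. -/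
def ZZ (Wo : List α → Prop) (k : ℕ) (U : List α) : Prop :=
  ∃ t, Fst Wo U k t ∧ Fst Wo U (t + 1) U.length

theorem zz_right (loc : ∀ U R : List α, n ≤ R.length → (Wo (U ++ R) ↔ Wo R)) {P Q : List α}
    {k : ℕ} (hk : n ≤ k) : ZZ Wo (P.length + k) (P ++ Q) ↔ ZZ Wo k Q := by
  constructor
  · rintro ⟨t, h1, h2⟩
    obtain ⟨r, rfl⟩ : ∃ r, t = P.length + r := ⟨t - P.length, by have := h1.1; omega⟩
    refine ⟨r, (fst_right loc hk).1 h1, ?_⟩
    have h3 : k ≤ r := by have := h1.1; omega
    rw [List.length_append, add_assoc] at h2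
    exact (fst_right loc (by omega)).1 h2
  · rintro ⟨t, h1, h2⟩
    refine ⟨P.length + t, (fst_right loc hk).2 h1, ?_⟩
    have h3 : k ≤ t := h1.1
    rw [List.length_append, add_assoc]
    exact (fst_right loc (by omega)).2 h2

theorem zz_prefix {k : ℕ} {X X' V V' : List α} (h : ZZ Wo k X) (h' : ZZ Wo k X')
    (e : X ++ V = X' ++ V') : X = X' := by
  have key : ∀ {X X' V V' : List α}, ZZ Wo k X → ZZ Wo k X' → X ++ V = X' ++ V' →
      X.length = X'.length := by
    intro X X' V V' h h' e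
    obtain ⟨t, h1, h2⟩ := h
    obtain ⟨t', h1', h2'⟩ := h'
    have a1 : Fst Wo (X ++ V) k t := fst_left h1
    have a2 : Fst Wo (X ++ V) k t' := by rw [e]; exact fst_left h1'
    have ht := a1.unique a2
    subst ht
    have b1 : Fst Wo (X ++ V) (t + 1) X.length := fst_left h2
    have b2 : Fst Wo (X ++ V) (t + 1) X'.length := by rw [e]; exact fst_left h2'
    exact b1.unique b2
  have hl := key h h' e
  exact (List.append_inj e hl).1

theorem code_zz {k : ℕ} (hk : 0 < k) : Code ({X | ZZ Wo k X} : Language α) := by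
  constructor
  · rintro ⟨t, h1, -⟩
    have := h1.1
    have := h1.2.1.1
    simp at this
    omega
  · intro z z' x x' hz hz' e
    exact zz_prefix hz hz' e

section A

variable {S : Type u} [Monoid S]

/-- gadget of scheme 1 on words -/
structure Gad (φ : List α → S) (lam rho : List α → Option (Tok S)) (nu : List α → Tok S)
    (Bad : ℕ → Prop) (N : ℕ) : Prop where
  len : ∀ P v, lam P = some v → P.length ≤ N
  sound : ∀ P Q v r, lam P = some v → rho Q = some r → r = act v (φ (P ++ Q)) + nu (P ++ Q)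
  complete : ∀ u : List α, 2 * N ≤ u.length → ¬ Bad u.length → ∀ v, ∃ P Q, P ++ Q = u ∧
    lam P = some v ∧ (rho Q).isSome

variable (Wo) (φ : List α → S) (lam rho : List α → Option (Tok S)) (nu : List α → Tok S)
  (Bad : ℕ → Prop) (N p0 z0 : ℕ)

def LA (v : Tok S) : Language α :=
  {P | p0 ≤ P.length ∧ lam (P.drop p0) = some (act v (φ (P.take p0)))}

def RA (τ : Tok S) : Language α :=
  {Q | (∀ s, z0 ≤ s + N → s < z0 → ¬ Wat Wo Q s) ∧ ∃ t r, Fst Wo Q z0 t ∧
    Fst Wo Q (t + 1) Q.length ∧ rho (Q.take t) = some r ∧ τ = act r (φ (Q.drop t))}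

open Classical in
/-- noise of the part `Y` of the zone right of `p0` -/
noncomputable def dY (Y : List α) : Tok S :=
  if h : ∃ t, Fst Wo Y z0 t then act (nu (Y.take h.choose)) (φ (Y.drop h.choose)) else 0

noncomputable def dA (X : List α) : Tok S := dY Wo φ nu z0 (X.drop p0)

theorem dY_eq {Y : List α} {t : ℕ} (h : Fst Wo Y z0 t) :
    dY Wo φ nu z0 Y = act (nu (Y.take t)) (φ (Y.drop t)) := by
  have hex : ∃ t, Fst Wo Y z0 t := ⟨t, h⟩
  unfold dY
  rw [dif_pos hex, hex.choose_spec.unique h]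

/-- the zones -/
def Z : Language α := {X | ZZ Wo (p0 + z0) X}

variable {Wo φ lam rho nu Bad N p0 z0}

theorem readY (loc : ∀ U R : List α, n ≤ R.length → (Wo (U ++ R) ↔ Wo R))
    (hφ : ∀ a b, φ (a ++ b) = φ a * φ b) (hG : Gad φ lam rho nu Bad N) (hz0 : n + N ≤ z0)
    {P Q : List α} {v τ : Tok S} (hP : lam P = some v) (hQ : Q ∈ RA Wo φ rho N z0 τ) :
    ZZ Wo z0 (P ++ Q) ∧ τ = act v (φ (P ++ Q)) + dY Wo φ nu z0 (P ++ Q) := by
  obtain ⟨hno, t, r, h1, h2, h3, h4⟩ := hQ
  have hl := hG.len P v hP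
  have hF : Fst Wo (P ++ Q) z0 (P.length + t) := by
    have : Fst Wo (P ++ Q) (P.length + (z0 - P.length)) (P.length + t) := by
      rw [fst_right loc (by omega)]
      refine ⟨by have := h1.1; omega, h1.2.1, fun s hs hst hw => ?_⟩
      by_cases hsz : s < z0
      · exact hno s (by omega) hsz hw
      · exact h1.2.2 s (by omega) hst hw
    rwa [Nat.add_sub_cancel' (by omega : P.length ≤ z0)] at this
  refine ⟨⟨P.length + t, hF, ?_⟩, ?_⟩
  · rw [List.length_append, add_assoc]
    exact (fst_right loc (by have := h1.1; omega)).2 h2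
  · rw [dY_eq Wo φ nu z0 hF]
    have e1 : (P ++ Q).take (P.length + t) = P ++ Q.take t := by
      rw [List.take_append]; simp [List.take_of_length_le]
    have e2 : (P ++ Q).drop (P.length + t) = Q.drop t := by
      rw [List.drop_append]; simp [List.drop_eq_nil_of_le]
    rw [e1, e2, h4, hG.sound P (Q.take t) v r hP h3, act_add, act_mul]
    congr 2
    rw [← hφ, List.append_assoc, List.take_append_drop]

theorem soundA (loc : ∀ U R : List α, n ≤ R.length → (Wo (U ++ R) ↔ Wo R))
    (hφ : ∀ a b, φ (a ++ b) = φ a * φ b) (hG : Gad φ lam rho nu Bad N) (hz0 : n + N ≤ z0)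
    (hp0 : 0 < p0) :
    Sound (Z Wo p0 z0) (aff φ (dA Wo φ nu p0 z0)) (LA φ lam p0) (RA Wo φ rho N z0) := by
  constructor
  · rintro ω ⟨h, -⟩
    simp at h
    omega
  · rintro ω τ P Q z x y ⟨hp, hP⟩ hQ hz e
    obtain ⟨h1, h2⟩ := readY loc hφ hG hz0 hP hQ
    have hPe : P = P.take p0 ++ P.drop p0 := (List.take_append_drop _ _).symm
    have hlen : (P.take p0).length = p0 := by rw [List.length_take]; omega
    have hZ : ZZ Wo (p0 + z0) (P ++ Q) := by
      have := (zz_right loc (P := P.take p0) (Q := P.drop p0 ++ Q) (k := z0) (by omega)).2 h1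
      rw [hlen, ← List.append_assoc, List.take_append_drop] at this
      exact this
    have he : P ++ Q = z := zz_prefix hZ hz e
    refine ⟨he, ?_⟩
    subst he
    unfold aff dA
    have e3 : (P ++ Q).drop p0 = P.drop p0 ++ Q := by
      rw [List.drop_append_of_le_length hp]
    rw [e3, h2, act_mul]
    congr 2
    rw [← hφ, ← List.append_assoc, List.take_append_drop]

/-- wall band -/
def EE (Wo : List α → Prop) (N k : ℕ) (U : List α) : Prop :=
  ∃ s, k ≤ s + N ∧ s < k + N ∧ Wat Wo U s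

/-- critical: wall band, or bad total -/
def CC (Wo : List α → Prop) (Bad : ℕ → Prop) (N z0 a : ℕ) (U : List α) : Prop :=
  EE Wo N (a + z0) U ∨ ∃ t, Fst Wo U (a + z0) t ∧ Bad (t - a)

theorem cc_right (loc : ∀ U R : List α, n ≤ R.length → (Wo (U ++ R) ↔ Wo R)) {P Q : List α}
    {a : ℕ} (hz0 : n + N ≤ z0) :
    CC Wo Bad N z0 (P.length + a) (P ++ Q) ↔ CC Wo Bad N z0 a Q := by
  constructor
  · rintro (⟨s, h1, h2, h3⟩ | ⟨t, h1, h2⟩)
    · obtain ⟨r, rfl⟩ : ∃ r, s = P.length + r := ⟨s - P.length, by omega⟩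
      exact Or.inl ⟨r, by omega, by omega, (wat_right loc (by omega)).1 h3⟩
    · obtain ⟨r, rfl⟩ : ∃ r, t = P.length + r := ⟨t - P.length, by have := h1.1; omega⟩
      refine Or.inr ⟨r, ?_, ?_⟩
      · rw [add_assoc] at h1
        exact (fst_right loc (by omega)).1 h1
      · rwa [show P.length + r - (P.length + a) = r - a by omega] at h2
  · rintro (⟨s, h1, h2, h3⟩ | ⟨t, h1, h2⟩)
    · exact Or.inl ⟨P.length + s, by omega, by omega, (wat_right loc (by omega)).2 h3⟩
    · refine Or.inr ⟨P.length + t, ?_, ?_⟩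
      · rw [add_assoc]
        exact (fst_right loc (by omega)).2 h1
      · rwa [show P.length + t - (P.length + a) = t - a by omega]

/-- the critical zones -/
def Zc (Wo : List α → Prop) (Bad : ℕ → Prop) (N p0 z0 : ℕ) : Language α :=
  {X | ZZ Wo (p0 + z0) X ∧ CC Wo Bad N z0 p0 X}

theorem cutA (loc : ∀ U R : List α, n ≤ R.length → (Wo (U ++ R) ↔ Wo R))
    (hG : Gad φ lam rho nu Bad N) (hz0 : n + N ≤ z0) (hz1 : 2 * N ≤ z0) {X : List α}
    (hX : X ∈ Z Wo p0 z0) (hc : X ∉ Zc Wo Bad N p0 z0) (v : Tok S) :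
    Cut (LA φ lam p0) (RA Wo φ rho N z0) v X := by
  obtain ⟨t, h1, h2⟩ := hX
  have hnc : ¬ CC Wo Bad N z0 p0 X := fun h => hc ⟨⟨t, h1, h2⟩, h⟩
  have hE : ∀ s, p0 + z0 ≤ s + N → s < p0 + z0 + N → ¬ Wat Wo X s := fun s a b c =>
    hnc (Or.inl ⟨s, a, b, c⟩)
  have hB : ¬ Bad (t - p0) := fun h => hnc (Or.inr ⟨t, h1, h⟩)
  have ht : p0 + z0 + N ≤ t := by
    by_contra hlt
    exact hE t (by have := h1.1; omega) (by omega) h1.2.1
  have htl : t ≤ X.length := h1.2.1.1
  have hYl : ((X.take t).drop p0).length = t - p0 := by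
    rw [List.length_drop, List.length_take]; omega
  obtain ⟨P', Q', hPQ, hP', hQ'⟩ := hG.complete ((X.take t).drop p0) (by rw [hYl]; omega)
    (by rw [hYl]; exact hB) (act v (φ (X.take p0)))
  obtain ⟨r, hr⟩ := Option.isSome_iff_exists.1 hQ'
  have hl := hG.len _ _ hP'
  have hQl : P'.length + Q'.length = t - p0 := by
    rw [← hYl, ← hPQ, List.length_append]
  have hXl : (X.take p0).length = p0 := by rw [List.length_take]; omega
  have hXe : X = (X.take p0 ++ P') ++ (Q' ++ X.drop t) := by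
    have e1 : X.take p0 ++ (P' ++ Q') = X.take t := by
      rw [hPQ]
      conv_rhs => rw [← List.take_append_drop p0 (X.take t)]
      rw [List.take_take, min_eq_left (by omega)]
    rw [List.append_assoc, ← List.append_assoc P' Q', ← List.append_assoc, e1,
      List.take_append_drop]
  have hPl : (X.take p0 ++ P').length = p0 + P'.length := by rw [List.length_append, hXl]
  have hw : ∀ s, n ≤ s → (Wat Wo X (p0 + P'.length + s) ↔ Wat Wo (Q' ++ X.drop t) s) := by
    intro s hs
    have := wat_right loc (P := X.take p0 ++ P') (Q := Q' ++ X.drop t) hs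
    rwa [← hXe, hPl] at this
  have hf : ∀ k s, n ≤ k → (Fst Wo X (p0 + P'.length + k) (p0 + P'.length + s) ↔
      Fst Wo (Q' ++ X.drop t) k s) := by
    intro k s hs
    have := fst_right loc (P := X.take p0 ++ P') (Q := Q' ++ X.drop t) (k := k) (t := s) hs
    rwa [← hXe, hPl] at this
  refine ⟨X.take p0 ++ P', Q' ++ X.drop t, act r (φ ((Q' ++ X.drop t).drop Q'.length)), hXe,
    ?_, ?_⟩
  · refine ⟨by rw [hPl]; omega, ?_⟩
    have e1 : (X.take p0 ++ P').drop p0 = P' := by
      conv_lhs => rw [← hXl]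
      rw [hXl]
      have := List.drop_left' (l₁ := X.take p0) (l₂ := P') hXl
      exact this
    have e2 : (X.take p0 ++ P').take p0 = X.take p0 := List.take_left' hXl
    rw [e1, e2]
    exact hP'
  · refine ⟨?_, Q'.length, r, ?_, ?_, ?_, rfl⟩
    · intro s a b c
      exact hE (p0 + P'.length + s) (by omega) (by omega) ((hw s (by omega)).2 c)
    · refine (hf z0 Q'.length (by omega)).1 ?_
      refine ⟨by omega, ?_, ?_⟩
      · have : p0 + P'.length + Q'.length = t := by omega
        rw [this]; exact h1.2.1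
      · intro s hs hst
        exact h1.2.2 s (by omega) (by omega)
    · refine (hf (Q'.length + 1) _ (by omega)).1 ?_
      have e1 : p0 + P'.length + (Q'.length + 1) = t + 1 := by omega
      have e2 : p0 + P'.length + (Q' ++ X.drop t).length = X.length := by
        rw [List.length_append, List.length_drop]; omega
      rw [e1, e2]
      exact h2
    · rw [List.take_left' rfl]
      exact hr

end A

end Crest.Agent.R320.Zon_802
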