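import Crest.Agent.R320.Thr2_851

/-!
# Row 320: zone schemes -> automata (delay automaton) (helper851)

`ZoneData`: a thread carries the content `u` since its last anchor and a value `v : V`; the zone
ends behind `u` iff `End u s`, `s` = the next `n` letters (look-ahead `n`, realised by a buffer of
length `n`); then `v` becomes `T u v` and the content is reset.
`ZoneCut`: partial left labels `lab p` (content from the anchor to the cut), partial right labels
`rl r = (d, v')` (the zone ends `d` letters behind the cut, value `v'` there).
`ZoneCut.toScheme : Scheme α (ZQ ..)`.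
-/

set_option autoImplicit false

namespace Crest.Agent.R320.Zone_851

open Crest.RegLang Crest.Agent.R320.Hk_851 Crest.Agent.R320.Thr_851

universe u v

/-- thread system with anchors -/
structure ZoneData (α : Type u) (V : Type v) where
  /-- look-ahead -/
  n : ℕ
  /-- maximal length of a zone -/
  Z : ℕ
  hZ : 0 < Z
  /-- the zone with content `u` ends here, `s` = the next `n` letters -/
  End : List α → List α → Prop
  hEnd : ∀ u s, Z ≤ u.length → End u s
  /-- the zone map -/
  T : List α → V → V

namespace ZoneData

variable {α : Type u} {V : Type v} (A : ZoneData α V)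

open Classical in
/-- read a text from (content `u`, value `v`) with look-ahead -/
noncomputable def thr : List α → V → List α → List α × V × List α
  | u, v, [] => (u, v, [])
  | u, v, c :: t =>
    if t.length < A.n then (u, v, c :: t)
    else if A.End (u ++ [c]) (t.take A.n) then thr [] (A.T (u ++ [c]) v) t
    else thr (u ++ [c]) v t

theorem thr_short {u : List α} {v : V} {w : List α} (h : w.length ≤ A.n) :
    A.thr u v w = (u, v, w) := by
  cases w with
  | nil => rfl
  | cons c t =>
    rw [thr, if_pos (by simpa using h)]

theorem thr_end {u : List α} {v : V} {c : α} {t : List α} (h : A.n ≤ t.length)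
    (hE : A.End (u ++ [c]) (t.take A.n)) :
    A.thr u v (c :: t) = A.thr [] (A.T (u ++ [c]) v) t := by
  rw [thr, if_neg (by omega), if_pos hE]

theorem thr_go {u : List α} {v : V} {c : α} {t : List α} (h : A.n ≤ t.length)
    (hE : ¬ A.End (u ++ [c]) (t.take A.n)) :
    A.thr u v (c :: t) = A.thr (u ++ [c]) v t := by
  rw [thr, if_neg (by omega), if_neg hE]

/-- bounds on the state -/
theorem thr_bound (w : List α) : ∀ (u : List α) (v : V), u.length < A.Z →
    (A.thr u v w).1.length < A.Z ∧ (A.thr u v w).2.2.length ≤ max A.n 0 := by
  induction w with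
  | nil => intro u v h; exact ⟨h, by simp [thr]⟩
  | cons c t ih =>
    intro u v h
    by_cases h1 : t.length < A.n
    · rw [thr, if_pos h1]; exact ⟨h, by simp; omega⟩
    · by_cases h2 : A.End (u ++ [c]) (t.take A.n)
      · rw [A.thr_end (by omega) h2]; exact ih _ _ (by simpa using A.hZ)
      · rw [A.thr_go (by omega) h2]
        refine ih _ _ ?_
        by_contra h3
        exact h2 (A.hEnd _ _ (by omega))

/-- reading `w` then `y` = reading the rest of `w` together with `y` -/
theorem thr_append (w y : List α) : ∀ (u : List α) (v : V),
    A.thr u v (w ++ y) = A.thr (A.thr u v w).1 (A.thr u v w).2.1 ((A.thr u v w).2.2 ++ y) := by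
  induction w with
  | nil => intro u v; rfl
  | cons c t ih =>
    intro u v
    by_cases h1 : t.length < A.n
    · have : A.thr u v (c :: t) = (u, v, c :: t) := by rw [thr, if_pos h1]
      rw [this]
    · have e : (t ++ y).take A.n = t.take A.n := by
        rw [List.take_append_of_le_length (by omega)]
      by_cases h2 : A.End (u ++ [c]) (t.take A.n)
      · rw [List.cons_append, A.thr_end (by simp; omega) (by rw [e]; exact h2),
          A.thr_end (by omega) h2]
        exact ih _ _
      · rw [List.cons_append, A.thr_go (by simp; omega) (by rw [e]; exact h2),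
          A.thr_go (by omega) h2]
        exact ih _ _

/-- the finite state space -/
def ZQ : Type (max u v) := {x : List α × V × List α // x.1.length < A.Z ∧ x.2.2.length ≤ A.n}

instance [Finite α] [Finite V] : Finite A.ZQ := by
  have h1 : Finite {l : List α // l.length < A.Z} := (List.finite_length_lt α A.Z).to_subtype
  have h2 : Finite {l : List α // l.length ≤ A.n} := (List.finite_length_le α A.n).to_subtype
  refine Finite.of_injective (β := {l : List α // l.length < A.Z} × V × {l : List α // l.length ≤ A.n})
    (fun x => (⟨x.1.1, x.2.1⟩, x.1.2.1, ⟨x.1.2.2, x.2.2⟩)) ?_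
  rintro ⟨⟨a, b, c⟩, h⟩ ⟨⟨a', b', c'⟩, h'⟩ e
  simp only [Prod.mk.injEq, Subtype.mk.injEq] at e
  obtain ⟨rfl, rfl, rfl⟩ := e
  rfl

/-- the state after the text `w` -/
noncomputable def st (u : List α) (v : V) (w : List α) (h : u.length < A.Z) : A.ZQ :=
  ⟨A.thr u v w, (A.thr_bound w u v h).1, by simpa using (A.thr_bound w u v h).2⟩

/-- the automaton -/
noncomputable def δ (q : A.ZQ) (a : α) : A.ZQ :=
  A.st q.1.1 q.1.2.1 (q.1.2.2 ++ [a]) q.2.1

theorem run_δ (w : List α) : ∀ q : A.ZQ,
    run A.δ q w = A.st q.1.1 q.1.2.1 (q.1.2.2 ++ w) q.2.1 := by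
  induction w with
  | nil =>
    intro q
    apply Subtype.ext
    rw [run_nil]
    change q.1 = A.thr _ _ (_ ++ [])
    rw [List.append_nil, A.thr_short q.2.2]
  | cons a w ih =>
    intro q
    change run A.δ (A.δ q a) w = _
    rw [ih]
    apply Subtype.ext
    change A.thr (A.thr _ _ (_ ++ [a])).1 (A.thr _ _ (_ ++ [a])).2.1
      ((A.thr _ _ (_ ++ [a])).2.2 ++ w) = A.thr _ _ (_ ++ a :: w)
    rw [← A.thr_append]
    simp

/-- **crossing**: no end strictly before the letter number `k` of `w`, an end there -/
theorem thr_cross : ∀ (k : ℕ) (w u : List α) (v : V), 0 < k → k + A.n ≤ w.length →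
    (∀ j, 0 < j → j < k → ¬ A.End (u ++ w.take j) ((w.drop j).take A.n)) →
    A.End (u ++ w.take k) ((w.drop k).take A.n) →
    A.thr u v w = A.thr [] (A.T (u ++ w.take k) v) (w.drop k) := by
  intro k
  induction k with
  | zero => intro w u v h; omega
  | succ k ih =>
    intro w u v _ hl h1 h2
    cases w with
    | nil => simp at hl
    | cons c t =>
      simp only [List.length_cons] at hl
      by_cases hk : k = 0
      · subst hk
        simp only [Nat.zero_add, List.take_succ_cons, List.take_zero, List.drop_succ_cons,
          List.drop_zero] at h2 ⊢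
        exact A.thr_end (by omega) h2
      · have h3 : ¬ A.End (u ++ [c]) (t.take A.n) := by
          have := h1 1 (by omega) (by omega)
          simpa using this
        rw [A.thr_go (by omega) h3, ih t (u ++ [c]) v (by omega) (by omega)]
        · simp
        · intro j hj hjk
          have := h1 (j + 1) (by omega) (by omega)
          simpa using this
        · simpa using h2

end ZoneData

/-- labels -/
structure ZoneCut {α : Type u} {V : Type v} (A : ZoneData α V) where
  /-- length of the right contexts -/
  Dr : ℕ
  hDr : 0 < Dr
  lab : List α → Option V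
  rl : List α → Option (ℕ × V)
  /-- at every legal junction: the next anchor is where the right side says, and the value is
  right -/
  ok : ∀ p v r d v', lab p = some v → r.length = Dr → rl r = some (d, v') →
    A.n ≤ p.length ∧ 0 < d ∧ d + A.n ≤ Dr ∧
    (∀ j, p.length - A.n < j → j < p.length + d →
      ¬ A.End ((p ++ r).take j) (((p ++ r).drop j).take A.n)) ∧
    A.End (p ++ r.take d) ((r.drop d).take A.n) ∧ A.T (p ++ r.take d) v = v'

namespace ZoneCut

variable {α : Type u} {V : Type v} {A : ZoneData α V} (B : ZoneCut A)

open Classical in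
/-- the state behind a right context -/
noncomputable def rho (q0 : A.ZQ) (r : List α) : A.ZQ :=
  match B.rl r with
  | some (d, v') => A.st [] v' (r.drop d) (by simpa using A.hZ)
  | none => q0

/-- the scheme of a zone cut -/
noncomputable def toScheme (q0 : A.ZQ) : Scheme α A.ZQ where
  δ := A.δ
  D := B.Dr
  PL := {q | q.1.2.2.length = A.n ∧ B.lab (q.1.1 ++ q.1.2.2) = some q.1.2.1}
  R := {r | r.length = B.Dr ∧ ∃ d v', B.rl r = some (d, v')}
  ρ := B.rho q0
  hR := fun r h => h.1
  sound := by
    rintro ⟨⟨u, v, b⟩, hu, hb⟩ ⟨h1, h2⟩ r ⟨hr, d, v', hrl⟩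
    simp only at h1 h2 hu hb
    obtain ⟨ha, hd, hdn, hne, he, hT⟩ := B.ok (u ++ b) v r d v' h2 hr hrl
    have hr' := A.run_δ r (⟨(u, v, b), hu, hb⟩ : A.ZQ)
    refine Eq.trans (b := A.st u v (b ++ r) hu) hr' ?_
    apply Subtype.ext
    have hrho : (B.rho q0 r).1 = A.thr [] v' (r.drop d) := by
      unfold rho; rw [hrl]; rfl
    rw [hrho]
    change A.thr u v (b ++ r) = _
    have hx := A.thr_cross (b.length + d) (b ++ r) u v (by omega)
      (by simp; omega) ?_ ?_
    · rw [hx]
      have e1 : (b ++ r).drop (b.length + d) = r.drop d := by
        rw [List.drop_append, List.drop_of_length_le (by omega)]; simp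
      have e2 : (b ++ r).take (b.length + d) = b ++ r.take d := by
        rw [List.take_append, List.take_of_length_le (by omega)]; simp
      rw [e1, e2, ← List.append_assoc, hT]
    · intro j hj hjk
      have := hne (u.length + j) (by simp; omega) (by simp; omega)
      have e1 : (u ++ b ++ r).take (u.length + j) = u ++ (b ++ r).take j := by
        rw [List.append_assoc, List.take_append, List.take_of_length_le (by omega)]; simp
      have e2 : (u ++ b ++ r).drop (u.length + j) = (b ++ r).drop j := by
        rw [List.append_assoc, List.drop_append, List.drop_of_length_le (by omega)]; simp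
      rwa [e1, e2] at this
    · have e1 : (b ++ r).drop (b.length + d) = r.drop d := by
        rw [List.drop_append, List.drop_of_length_le (by omega)]; simp
      have e2 : (b ++ r).take (b.length + d) = b ++ r.take d := by
        rw [List.take_append, List.take_of_length_le (by omega)]; simp
      rw [e1, e2, ← List.append_assoc]
      exact he

end ZoneCut

end Crest.Agent.R320.Zone_851
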