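import Mathlib
import Crest.Agent.R320.GridA_706

/-!
# Row 320: zones from left-looking walls (block end = the wall after the first wall `≥ ζ`), helper706
-/

set_option autoImplicit false

namespace Crest.Agent.R320.ZoneB_706

open Finset Crest.Agent.R320.GridA_706

variable {α : Type}

structure Wal (α : Type) where
  Wo : List α → Prop
  n : ℕ
  W : ℕ
  loc : ∀ P Q : List α, n ≤ Q.length → (Wo (P ++ Q) ↔ Wo Q)
  gap : ∀ (w : List α) (s t : ℕ), s < t → t ≤ w.length → Wo (w.take s) → Wo (w.take t) → s + W ≤ t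

variable (U : Wal α) (ζ : ℕ)

/-- first wall at distance at least `ζ` -/
def FW (R : List α) (t : ℕ) : Prop :=
  ζ ≤ t ∧ t ≤ R.length ∧ U.Wo (R.take t) ∧ ∀ s, ζ ≤ s → s < t → ¬ U.Wo (R.take s)

/-- zones (measured from `a + p0`) -/
def ZR : Set (List α) :=
  {R | ∃ t, FW U ζ R t ∧ t < R.length ∧ U.Wo R ∧ ∀ s, t < s → s < R.length → ¬ U.Wo (R.take s)}

variable {U ζ}

theorem FW.uniq {R : List α} {t t' : ℕ} (h : FW U ζ R t) (h' : FW U ζ R t') : t = t' := by
  rcases lt_trichotomy t t' with h1 | h1 | h1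
  · exact absurd h.2.2.1 (h'.2.2.2 _ h.1 h1)
  · exact h1
  · exact absurd h'.2.2.1 (h.2.2.2 _ h'.1 h1)

theorem FW.append {R : List α} {t : ℕ} (h : FW U ζ R t) (x : List α) : FW U ζ (R ++ x) t := by
  obtain ⟨h1, h2, h3, h4⟩ := h
  refine ⟨h1, by rw [List.length_append]; omega, ?_, ?_⟩
  · rw [List.take_append_of_le_length h2]; exact h3
  · intro s hs1 hs2
    rw [List.take_append_of_le_length (by omega)]
    exact h4 s hs1 hs2

theorem FW.of_append {R x : List α} {t : ℕ} (h : FW U ζ (R ++ x) t) (ht : t ≤ R.length) :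
    FW U ζ R t := by
  obtain ⟨h1, h2, h3, h4⟩ := h
  refine ⟨h1, ht, ?_, ?_⟩
  · rwa [List.take_append_of_le_length ht] at h3
  · intro s hs1 hs2
    have := h4 s hs1 hs2
    rwa [List.take_append_of_le_length (by omega)] at this

theorem code {R R' x x' : List α} (h : R ∈ ZR U ζ) (h' : R' ∈ ZR U ζ) (he : R ++ x = R' ++ x') :
    R = R' := by
  obtain ⟨t, h1, h2, h3, h4⟩ := h
  obtain ⟨t', h1', h2', h3', h4'⟩ := h'
  have ht : t = t' := (h1.append x).uniq (he ▸ h1'.append x')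
  subst ht
  have hlen : R.length = R'.length := by
    rcases lt_trichotomy R.length R'.length with h | h | h
    · exfalso
      refine h4' R.length h2 h ?_
      have : R'.take R.length = R := by
        rw [← List.take_append_of_le_length (l₂ := x') h.le, ← he, List.take_left']
        rfl
      rw [this]; exact h3
    · exact h
    · exfalso
      refine h4 R'.length h2' h ?_
      have : R.take R'.length = R' := by
        rw [← List.take_append_of_le_length (l₂ := x) h.le, he, List.take_left']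
        rfl
      rw [this]; exact h3'
  exact (List.append_inj he hlen).1

open Classical in
/-- the clock of a zone -/
noncomputable def TT (U : Wal α) (ζ : ℕ) (R : List α) : ℕ :=
  if h : ∃ t, FW U ζ R t then h.choose else 0

theorem TT_eq {R : List α} {t : ℕ} (h : FW U ζ R t) : TT U ζ R = t := by
  have hex : ∃ t, FW U ζ R t := ⟨t, h⟩
  unfold TT
  rw [dif_pos hex]
  exact hex.choose_spec.uniq h

theorem TT_fw {R : List α} (h : R ∈ ZR U ζ) : FW U ζ R (TT U ζ R) := by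
  obtain ⟨t, ht, -⟩ := h
  rw [TT_eq ht]; exact ht

/-- walls of `P ++ Q` well inside `Q` -/
theorem wo_right {P Q : List α} {s : ℕ} (h : P.length + U.n ≤ s) (hs : s ≤ (P ++ Q).length) :
    U.Wo ((P ++ Q).take s) ↔ U.Wo (Q.take (s - P.length)) := by
  rw [List.take_append, List.take_of_length_le (by omega)]
  apply U.loc
  rw [List.length_take]
  rw [List.length_append] at hs
  omega

theorem wo_drop {z : List α} {s x : ℕ} (h : U.n ≤ x) (hs : s + x ≤ z.length) :
    U.Wo ((z.drop s).take x) ↔ U.Wo (z.take (s + x)) := by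
  have e : z = z.take s ++ z.drop s := (List.take_append_drop s z).symm
  have hl : (z.take s).length = s := by rw [List.length_take]; omega
  conv_rhs => rw [e]
  rw [wo_right (by rw [hl]; omega) (by rw [← e]; exact hs), hl, Nat.add_sub_cancel_left]

/-- changing the first letters moves the walls, if there is no wall in the end band -/
theorem shift {N1 : ℕ} (hζ : 2 * N1 + U.n ≤ ζ) {P Q P' : List α} (hz : P ++ Q ∈ ZR U ζ)
    (hP : P.length ≤ N1) (hP' : P'.length ≤ N1)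
    (hE : ∀ s, ζ ≤ s + N1 → s ≤ ζ + N1 → s ≤ TT U ζ (P ++ Q) → ¬ U.Wo ((P ++ Q).take s)) :
    P' ++ Q ∈ ZR U ζ ∧ TT U ζ (P' ++ Q) + P.length = TT U ζ (P ++ Q) + P'.length := by
  obtain ⟨t, ht, htl, hw, hb⟩ := hz
  rw [TT_eq ht] at hE ⊢
  obtain ⟨h1, h2, h3, h4⟩ := ht
  have ht2 : ζ + N1 < t := by
    by_contra hcon
    exact hE t (by omega) (by omega) le_rfl h3
  have hl1 : (P ++ Q).length = P.length + Q.length := List.length_append
  have hl2 : (P' ++ Q).length = P'.length + Q.length := List.length_append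
  have key : ∀ s', P'.length + U.n ≤ s' → s' ≤ (P' ++ Q).length → P.length + U.n ≤ s' - P'.length + P.length →
      (U.Wo ((P' ++ Q).take s') ↔ U.Wo ((P ++ Q).take (s' - P'.length + P.length))) := by
    intro s' ha hb' hc
    rw [wo_right ha hb', wo_right hc (by omega)]
    rw [Nat.add_sub_cancel]
  have hfw : FW U ζ (P' ++ Q) (t - P.length + P'.length) := by
    refine ⟨by omega, by omega, ?_, ?_⟩
    · rw [key _ (by omega) (by omega) (by omega)]
      have : t - P.length + P'.length - P'.length + P.length = t := by omega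
      rw [this]; exact h3
    · intro s' hs1 hs2
      rw [key _ (by omega) (by omega) (by omega)]
      by_cases hs3 : ζ ≤ s' - P'.length + P.length
      · exact h4 _ hs3 (by omega)
      · exact hE _ (by omega) (by omega) (by omega)
  refine ⟨⟨_, hfw, by omega, ?_, ?_⟩, ?_⟩
  · rw [U.loc _ _ (by omega)] at hw ⊢
    exact hw
  · intro s' hs1 hs2
    rw [key _ (by omega) (by omega) (by omega)]
    exact hb _ (by omega) (by omega)
  · rw [TT_eq hfw]; omega

/-- bad anchors; `BT t` = bad clock values -/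
def Bd (U : Wal α) (ζ N1 : ℕ) (BT : ℕ → Prop) (R : List α) : Prop :=
  ∃ t, FW U ζ R t ∧ (BT t ∨ ∃ s, ζ ≤ s + N1 ∧ s ≤ ζ + N1 ∧ s ≤ t ∧ U.Wo (R.take s))

/-- badness is decided at the first wall -/
theorem Bd.of_prefix {N1 : ℕ} {BT : ℕ → Prop} {R Rk x y : List α} (h : Bd U ζ N1 BT R)
    (he : Rk ++ x = R ++ y) (ht : TT U ζ R ≤ Rk.length) : Bd U ζ N1 BT Rk := by
  obtain ⟨t, h1, h2⟩ := h
  rw [TT_eq h1] at ht
  refine ⟨t, (he ▸ h1.append y : FW U ζ (Rk ++ x) t).of_append ht, ?_⟩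
  rcases h2 with h2 | ⟨s, a1, a2, a3, a4⟩
  · exact Or.inl h2
  · refine Or.inr ⟨s, a1, a2, a3, ?_⟩
    have e1 : R.take s = (R ++ y).take s := by
      rw [List.take_append_of_le_length (by have := h1.2.1; omega)]
    have e2 : Rk.take s = (Rk ++ x).take s := by
      rw [List.take_append_of_le_length (by omega)]
    rw [e2, he, ← e1]; exact a4

/-- **the true candidate is seen bad in every claimed right word** -/
theorem bad_visible {N1 p0 : ℕ} {BT : ℕ → Prop} (hW : p0 ≤ U.W) (hn : U.n + p0 ≤ ζ)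
    {z x y P Q : List α} {ck ck' : ℕ} (_hk : ck ≤ p0) (hk' : ck' ≤ p0) (hP : P.length = ck)
    (he : P ++ Q ++ x = z ++ y) (hpz : p0 ≤ z.length) (hbad : Bd U ζ N1 BT (z.drop p0))
    (hR' : Q.drop (p0 - ck') ∈ ZR U ζ) :
    p0 ≤ (P ++ Q).length ∧ (P ++ Q).drop p0 ++ x = z.drop p0 ++ y ∧
      Bd U ζ N1 BT ((P ++ Q).drop p0) := by
  obtain ⟨t', ht', htl', hw', hb'⟩ := hR'
  have hgap := U.gap (Q.drop (p0 - ck')) t' _ htl' le_rfl ht'.2.2.1
    (by rw [List.take_length]; exact hw')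
  have hl' : (Q.drop (p0 - ck')).length = Q.length - (p0 - ck') := List.length_drop
  have hζt := ht'.1
  have hlPQ : (P ++ Q).length = P.length + Q.length := List.length_append
  have h1 : p0 ≤ (P ++ Q).length := by omega
  have h2 : (P ++ Q).drop p0 ++ x = z.drop p0 ++ y := by
    rw [← List.drop_append_of_le_length h1, he, List.drop_append_of_le_length hpz]
  refine ⟨h1, h2, hbad.of_prefix h2 ?_⟩
  obtain ⟨t, ht, -⟩ := hbad
  rw [TT_eq ht]
  by_contra hcon
  push Not at hcon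
  have hlk : ((P ++ Q).drop p0).length = P.length + Q.length - p0 := by
    rw [List.length_drop, hlPQ]
  have hwPQ : U.Wo (P ++ Q) := by
    have e : P ++ Q = (P ++ Q.take (p0 - ck')) ++ Q.drop (p0 - ck') := by
      rw [List.append_assoc, List.take_append_drop]
    rw [e, U.loc _ _ (by omega)]; exact hw'
  have hwk : U.Wo ((P ++ Q).drop p0) := by
    have e : P ++ Q = (P ++ Q).take p0 ++ (P ++ Q).drop p0 := (List.take_append_drop _ _).symm
    rw [e, U.loc _ _ (by omega)] at hwPQ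
    exact hwPQ
  refine ht.2.2.2 ((P ++ Q).drop p0).length (by omega) hcon ?_
  have e3 : (z.drop p0).take ((P ++ Q).drop p0).length = (P ++ Q).drop p0 := by
    rw [← List.take_append_of_le_length (l₂ := y) (by have := ht.2.1; omega), ← h2,
      List.take_left']
    rfl
  rw [e3]; exact hwk

/-- absolute form of `FW` -/
theorem FW.abs {z : List α} {s t : ℕ} (hn : U.n ≤ ζ) (hζ : 0 < ζ) (h : FW U ζ (z.drop s) t) :
    s + t ≤ z.length ∧ U.Wo (z.take (s + t)) ∧ s + ζ ≤ s + t ∧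
      ∀ r, s + ζ ≤ r → r < s + t → ¬ U.Wo (z.take r) := by
  obtain ⟨h1, h2, h3, h4⟩ := h
  rw [List.length_drop] at h2
  have h5 : s + t ≤ z.length := by omega
  refine ⟨h5, (wo_drop (by omega) h5).1 h3, by omega, fun r hr1 hr2 hr => ?_⟩
  refine h4 (r - s) (by omega) (by omega) ?_
  rw [wo_drop (by omega) (by omega)]
  have : s + (r - s) = r := by omega
  rw [this]; exact hr

/-- at most two places are the first wall of some candidate -/
theorem two_places {p : ℕ} (hn : U.n ≤ ζ) (hζ : 0 < ζ) (hW : p < U.W) (z : List α) :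
    ∃ τ1 τ2 : ℕ, ∀ s ≤ p, ∀ t, FW U ζ (z.drop s) t → s + t = τ1 ∨ s + t = τ2 := by
  classical
  let X : ℕ → Prop := fun τ => ∃ s ≤ p, ∃ t, FW U ζ (z.drop s) t ∧ s + t = τ
  by_cases h1 : ∃ τ, X τ
  · set τ1 := Nat.find h1 with hτ1
    have hX1 : X τ1 := Nat.find_spec h1
    by_cases h2 : ∃ τ, X τ ∧ τ ≠ τ1
    · set τ2 := Nat.find h2 with hτ2
      have hX2 : X τ2 ∧ τ2 ≠ τ1 := Nat.find_spec h2
      refine ⟨τ1, τ2, fun s hs t ht => ?_⟩
      by_contra hcon
      push Not at hcon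
      have hXt : X (s + t) := ⟨s, hs, t, ht, rfl⟩
      have l1 : τ1 ≤ τ2 := Nat.find_min' h1 hX2.1
      have l2 : τ2 ≤ s + t := Nat.find_min' h2 ⟨hXt, hcon.1⟩
      obtain ⟨s1, hs1, t1, ht1, e1⟩ := hX1
      obtain ⟨s2, hs2, t2, ht2, e2⟩ := hX2.1
      have a1 := ht1.abs hn hζ
      have a2 := ht2.abs hn hζ
      have a3 := ht.abs hn hζ
      rw [e1] at a1
      rw [e2] at a2
      have hne := hX2.2
      have g := U.gap z τ1 τ2 (by omega) a2.1 a1.2.1 a2.2.1
      have g2 := hcon.2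
      by_cases hc : s + ζ ≤ τ2
      · exact a3.2.2.2 τ2 hc (by omega) a2.2.1
      · have := a1.2.2.1
        omega
    · push Not at h2
      exact ⟨τ1, τ1, fun s hs t ht => Or.inl (h2 _ ⟨s, hs, t, ht, rfl⟩)⟩
  · push Not at h1
    exact ⟨0, 0, fun s hs t ht => absurd ⟨s, hs, t, ht, rfl⟩ (h1 (s + t))⟩

/-- one condition spoils at most one place -/
theorem card_one {K : ℕ} (sh : ℕ → ℕ → ℕ) (X : ℕ → Prop)
    [DecidablePred fun k => ∃ j < K, j ≠ k ∧ X (sh k j)]
    (h : ∀ k < K, ∀ j < K, ∀ k' < K, ∀ j' < K, k ≠ j → k' ≠ j' → k ≠ k' →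
      X (sh k j) → X (sh k' j') → False) :
    ((range K).filter fun k => ∃ j < K, j ≠ k ∧ X (sh k j)).card ≤ 1 := by
  rw [Finset.card_le_one]
  intro a ha b hb
  simp only [Finset.mem_filter, Finset.mem_range] at ha hb
  obtain ⟨ha, j, hj, hja, hXa⟩ := ha
  obtain ⟨hb, j', hj', hjb, hXb⟩ := hb
  by_contra hne
  exact h a ha j hj b hb j' hj' (Ne.symm hja) (Ne.symm hjb) hne hXa hXb

/-- **Spoil count.** -/
theorem spoil {K p0 N1 m : ℕ} {c : ℕ → ℕ} {Ms : Finset ℕ} {Bn : ℕ → ℕ → Prop}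
    (hn : U.n ≤ ζ) (hn1 : U.n + N1 ≤ ζ) (hζ : 0 < ζ) (hW : 2 * p0 < U.W) (hW2 : 2 * p0 + 2 * N1 < U.W)
    (hc : ∀ k < K, c k ≤ p0)
    (hr1 : ∀ q ∈ Ms, ∀ k < K, ∀ j < K, ∀ k' < K, ∀ j' < K, k ≠ j → k' ≠ j' → k ≠ k' → ∀ τ,
      c k + (p0 - c j) + ζ ≤ τ → c k' + (p0 - c j') + ζ ≤ τ →
      q ∣ τ - (c k + (p0 - c j)) → q ∣ τ - (c k' + (p0 - c j')) → False)
    (hr2 : ∀ i < m, ∀ k < K, ∀ j < K, ∀ k' < K, ∀ j' < K, k ≠ j → k' ≠ j' → k ≠ k' → ∀ τ,
      c k + (p0 - c j) + ζ ≤ τ → c k' + (p0 - c j') + ζ ≤ τ →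
      ¬ Bn i (τ - (c k + (p0 - c j))) → ¬ Bn i (τ - (c k' + (p0 - c j'))) → False)
    (hr3 : ∀ k < K, ∀ j < K, ∀ k' < K, ∀ j' < K, k ≠ j → k' ≠ j' → k ≠ k' →
      c k + (p0 - c j) + 2 * N1 < c k' + (p0 - c j') ∨ c k' + (p0 - c j') + 2 * N1 < c k + (p0 - c j))
    (z : List α) :
    ∃ J : Finset ℕ, J.card ≤ 2 * (Ms.card + m) + 1 ∧ ∀ k < K,
      (∃ j < K, j ≠ k ∧ Bd U ζ N1 (fun t => (∃ q ∈ Ms, q ∣ t) ∨ ∃ i < m, ¬ Bn i t)
        (z.drop (c k + (p0 - c j)))) → k ∈ J := by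
  classical
  obtain ⟨τ1, τ2, hτ⟩ := two_places (p := 2 * p0) hn hζ hW z
  let sh : ℕ → ℕ → ℕ := fun k j => c k + (p0 - c j)
  let Jq : ℕ → Finset ℕ := fun τ => Ms.biUnion fun q =>
    (range K).filter fun k => ∃ j < K, j ≠ k ∧ (fun s => s + ζ ≤ τ ∧ q ∣ τ - s) (sh k j)
  let Ji : ℕ → Finset ℕ := fun τ => (range m).biUnion fun i =>
    (range K).filter fun k => ∃ j < K, j ≠ k ∧ (fun s => s + ζ ≤ τ ∧ ¬ Bn i (τ - s)) (sh k j)
  let JE : Finset ℕ := (range K).filter fun k => ∃ j < K, j ≠ k ∧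
    (fun s => ∃ ω, s + ζ ≤ ω + N1 ∧ ω ≤ s + ζ + N1 ∧ ω ≤ z.length ∧ U.Wo (z.take ω)) (sh k j)
  have cq : ∀ τ, (Jq τ).card ≤ Ms.card * 1 := fun τ => by
    refine Finset.card_biUnion_le_card_mul _ _ _ fun q hq => ?_
    refine card_one sh (fun s => s + ζ ≤ τ ∧ q ∣ τ - s) ?_
    intro k hk j hj k' hk' j' hj' h1 h2 h3 hX hX'
    exact hr1 q hq k hk j hj k' hk' j' hj' h1 h2 h3 τ hX.1 hX'.1 hX.2 hX'.2
  have ci : ∀ τ, (Ji τ).card ≤ (range m).card * 1 := fun τ => by
    refine Finset.card_biUnion_le_card_mul _ _ _ fun i hi => ?_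
    refine card_one sh (fun s => s + ζ ≤ τ ∧ ¬ Bn i (τ - s)) ?_
    intro k hk j hj k' hk' j' hj' h1 h2 h3 hX hX'
    exact hr2 i (Finset.mem_range.1 hi) k hk j hj k' hk' j' hj' h1 h2 h3 τ hX.1 hX'.1 hX.2 hX'.2
  have cE : JE.card ≤ 1 := by
    refine card_one sh (fun s => ∃ ω, s + ζ ≤ ω + N1 ∧ ω ≤ s + ζ + N1 ∧ ω ≤ z.length ∧
      U.Wo (z.take ω)) ?_
    rintro k hk j hj k' hk' j' hj' h1 h2 h3 ⟨ω, a1, a2, a3, a4⟩ ⟨ω', b1, b2, b3, b4⟩
    have e1 := hc k hk
    have e2 := hc j hj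
    have e3 := hc k' hk'
    have e4 := hc j' hj'
    have hωω : ω = ω' := by
      rcases lt_trichotomy ω ω' with h | h | h
      · have := U.gap z ω ω' h b3 a4 b4
        simp only [sh] at *
        omega
      · exact h
      · have := U.gap z ω' ω h a3 b4 a4
        simp only [sh] at *
        omega
    subst hωω
    have := hr3 k hk j hj k' hk' j' hj' h1 h2 h3
    simp only [sh] at *
    omega
  refine ⟨(Jq τ1 ∪ Ji τ1) ∪ (Jq τ2 ∪ Ji τ2) ∪ JE, ?_, ?_⟩
  · have u1 := Finset.card_union_le (Jq τ1 ∪ Ji τ1 ∪ (Jq τ2 ∪ Ji τ2)) JE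
    have u2 := Finset.card_union_le (Jq τ1 ∪ Ji τ1) (Jq τ2 ∪ Ji τ2)
    have u3 := Finset.card_union_le (Jq τ1) (Ji τ1)
    have u4 := Finset.card_union_le (Jq τ2) (Ji τ2)
    have v1 := cq τ1
    have v2 := cq τ2
    have v3 := ci τ1
    have v4 := ci τ2
    rw [Finset.card_range] at v3 v4
    omega
  · rintro k hk ⟨j, hj, hjk, t, ht, hbad⟩
    have e1 := hc k hk
    have e2 := hc j hj
    have hs : sh k j ≤ 2 * p0 := by simp only [sh]; omega
    have hab := ht.abs hn hζ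
    have hmem : ∀ τ, sh k j + t = τ → k ∈ Jq τ ∪ Ji τ ∪ JE := by
      rintro τ rfl
      rcases hbad with (⟨q, hq, hqt⟩ | ⟨i, hi, hit⟩) | ⟨s, a1, a2, a3, a4⟩
      · refine Finset.mem_union_left _ (Finset.mem_union_left _ ?_)
        refine Finset.mem_biUnion.2 ⟨q, hq, Finset.mem_filter.2 ⟨Finset.mem_range.2 hk, j, hj, hjk,
          hab.2.2.1, ?_⟩⟩
        rw [Nat.add_sub_cancel_left]; exact hqt
      · refine Finset.mem_union_left _ (Finset.mem_union_right _ ?_)
        refine Finset.mem_biUnion.2 ⟨i, Finset.mem_range.2 hi, Finset.mem_filter.2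
          ⟨Finset.mem_range.2 hk, j, hj, hjk, hab.2.2.1, ?_⟩⟩
        rw [Nat.add_sub_cancel_left]; exact hit
      · refine Finset.mem_union_right _ (Finset.mem_filter.2 ⟨Finset.mem_range.2 hk, j, hj, hjk,
          sh k j + s, by omega, by omega, ?_, ?_⟩)
        · have := hab.1
          simp only [sh]
          omega
        · have := hab.1
          exact (wo_drop (by omega) (by simp only [sh]; omega)).1 a4
    rcases hτ (sh k j) hs t ht with h | h
    · have := hmem _ h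
      simp only [Finset.mem_union] at this ⊢
      tauto
    · have := hmem _ h
      simp only [Finset.mem_union] at this ⊢
      tauto

end Crest.Agent.R320.ZoneB_706
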