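import Crest.Agent.R320.Zone132_898

/-!
# Row 320, zone gadget of scheme 1 with run-robust hole ends (5 #13047 (1)), helper930

898's gadget (`Zone132_898.Data`: names, levels, cells, noise) on ALL texts.  The hole end of the
level `y` is the first small wall in `[y, y + G]` if there is one, otherwise `y + Dd`.  In a wall
free stretch the text has one period `Pi` (712's `PerGap`), so the products do not change when `y`
is moved by a multiple of `e * Pi` (`e` an exponent of the monoid): no run mode at all.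

* `sound'` : left legal meets right legal => the values agree with the noise, no hypothesis on
  the zone;
* `completeR` : outside `B`, if no small wall is within `q * M` of `A k` or of `A k + G`, every
  vector is cut.
-/

set_option autoImplicit false

namespace Crest.Agent.R320.ZoneRun_930

open Finset Crest.Agent.R320.Zone132_898

/-! ### periodic stretches -/

section Run

variable {α S : Type*}

/-- `Z` has the period `p` on `[a, b)` -/
def RunReg (Z : List α) (p a b : ℕ) : Prop := ∀ t, a ≤ t → t + p < b → Z[t]? = Z[t + p]?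

theorem RunReg.mono {Z : List α} {p a b a' b' : ℕ} (h : RunReg Z p a b) (h1 : a ≤ a')
    (h2 : b' ≤ b) : RunReg Z p a' b' := fun t h3 h4 => h t (by omega) (by omega)

theorem RunReg.mul {Z : List α} {p a b : ℕ} (h : RunReg Z p a b) :
    ∀ (j t : ℕ), a ≤ t → t + j * p < b → Z[t]? = Z[t + j * p]? := by
  intro j
  induction j with
  | zero => intro t _ _; simp
  | succ j ih =>
    intro t h1 h2
    have e : (j + 1) * p = j * p + p := Nat.succ_mul j p
    rw [e] at h2 ⊢
    rw [ih t h1 (by omega), h (t + j * p) (by omega) (by omega), Nat.add_assoc]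

/-- the segment `[u, u + l)` of `Z` -/
def seg (Z : List α) (u l : ℕ) : List α := (Z.drop u).take l

theorem seg_add (Z : List α) (u l l' : ℕ) : seg Z u (l + l') = seg Z u l ++ seg Z (u + l) l' := by
  unfold seg
  rw [List.take_add, List.drop_drop]

theorem seg_shift {Z : List α} {p a b : ℕ} (h : RunReg Z p a b) (j u l : ℕ) (h1 : a ≤ u)
    (h2 : u + l + j * p ≤ b) : seg Z (u + j * p) l = seg Z u l := by
  unfold seg
  apply List.ext_getElem?
  intro t
  rw [List.getElem?_take, List.getElem?_take]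
  by_cases ht : t < l
  · rw [if_pos ht, if_pos ht, List.getElem?_drop, List.getElem?_drop]
    have := h.mul j (u + t) (by omega) (by omega)
    rw [this]
    congr 1
    omega
  · rw [if_neg ht, if_neg ht]

variable [Monoid S] {phi : List α → S}

theorem seg_pow (hphi : ∀ u v, phi (u ++ v) = phi u * phi v) {Z : List α} {p a b : ℕ}
    (h : RunReg Z p a b) :
    ∀ (k u : ℕ), a ≤ u → u + (k + 1) * p ≤ b → phi (seg Z u ((k + 1) * p)) = phi (seg Z u p) ^ (k + 1) := by
  intro k
  induction k with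
  | zero => intro u _ _; simp
  | succ k ih =>
    intro u h1 h2
    have e : (k + 1 + 1) * p = p + (k + 1) * p := by ring
    rw [e] at h2 ⊢
    rw [seg_add, hphi, ih (u + p) (by omega) (by omega)]
    have h3 := seg_shift h 1 u p h1 (by have : (k + 1) * p = k * p + p := Nat.succ_mul k p
                                        omega)
    rw [Nat.one_mul] at h3
    rw [h3, ← pow_succ']

/-- exponent `e` and threshold `K` of the monoid -/
def ExpK (S : Type*) [Monoid S] (e K : ℕ) : Prop := ∀ (g : S) (k : ℕ), K ≤ k → g ^ (k + e) = g ^ k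

theorem ExpK.mul {e K : ℕ} (h : ExpK S e K) (g : S) (k : ℕ) (hk : K ≤ k) (j : ℕ) :
    g ^ (k + j * e) = g ^ k := by
  induction j with
  | zero => simp
  | succ j ih =>
    have e1 : k + (j + 1) * e = k + j * e + e := by ring
    rw [e1, h _ _ (by omega), ih]

theorem exists_expK (S : Type*) [Monoid S] [Finite S] : ∃ e K : ℕ, 0 < e ∧ ExpK S e K := by
  classical
  have h1 : ∀ g : S, ∃ N m : ℕ, 0 < m ∧ ∀ k, N ≤ k → g ^ (k + m) = g ^ k := by
    intro g
    obtain ⟨a, b, hne, hab⟩ := Finite.exists_ne_map_eq_of_infinite (fun k : ℕ => g ^ k)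
    change g ^ a = g ^ b at hab
    rcases lt_or_gt_of_ne hne with h | h
    · refine ⟨a, b - a, Nat.sub_pos_of_lt h, fun k hk => ?_⟩
      obtain ⟨c, rfl⟩ := Nat.exists_eq_add_of_le hk
      have e : a + c + (b - a) = b + c := by omega
      rw [e, pow_add, ← hab, ← pow_add]
    · refine ⟨b, a - b, Nat.sub_pos_of_lt h, fun k hk => ?_⟩
      obtain ⟨c, rfl⟩ := Nat.exists_eq_add_of_le hk
      have e : b + c + (a - b) = a + c := by omega
      rw [e, pow_add, hab, ← pow_add]
  choose N m hm hN using h1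
  have := Fintype.ofFinite S
  refine ⟨∏ g, m g, ∑ g, N g, Finset.prod_pos fun g _ => hm g, ?_⟩
  intro g k hk
  have h2 : N g ≤ k := le_trans (Finset.single_le_sum (fun _ _ => Nat.zero_le _) (mem_univ g)) hk
  obtain ⟨c, hc⟩ := Finset.dvd_prod_of_mem m (mem_univ g)
  rw [hc]
  have h3 : ∀ j, g ^ (k + m g * j) = g ^ k := by
    intro j
    induction j with
    | zero => simp
    | succ j ih =>
      rw [Nat.mul_succ, ← Nat.add_assoc, hN g _ (by omega), ih]
  exact h3 c

/-- two runs of the same phase and lengths `≡` mod `e` have the same value -/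
theorem seg_run_eq (hphi : ∀ u v, phi (u ++ v) = phi u * phi v) {e K : ℕ} (hE : ExpK S e K)
    {Z : List α} {p a b : ℕ} (h : RunReg Z p a b) (u j : ℕ) (h1 : a ≤ u)
    (h2 : u + (K + 1 + j * e) * p ≤ b) :
    phi (seg Z u ((K + 1 + j * e) * p)) = phi (seg Z u ((K + 1) * p)) := by
  have e1 : K + 1 + j * e = (K + j * e) + 1 := by ring
  have h3 : (K + 1) * p ≤ (K + 1 + j * e) * p := Nat.mul_le_mul_right _ (by omega)
  rw [e1] at h2 ⊢
  rw [seg_pow hphi h _ u h1 h2, seg_pow hphi h K u h1 (by rw [e1] at h3; omega)]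
  rw [← e1, hE.mul _ _ (by omega)]

/-- moving the left border inside a run, to the right -/
theorem left_border (hphi : ∀ u v, phi (u ++ v) = phi u * phi v) {e K : ℕ} (hE : ExpK S e K)
    {Z : List α} {p a b : ℕ} (h : RunReg Z p a b) (u j w : ℕ) (h1 : a ≤ u)
    (h2 : u + j * (e * p) + (K + 1) * p ≤ b) (h3 : u + j * (e * p) + (K + 1) * p ≤ w) :
    zt phi Z u w = zt phi Z (u + j * (e * p)) w := by
  have e1 : (K + 1 + j * e) * p = (K + 1) * p + j * (e * p) := by ring
  unfold zt
  change phi (seg Z u (w - u)) = phi (seg Z (u + j * (e * p)) (w - (u + j * (e * p))))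
  have e2 : w - u = (K + 1 + j * e) * p + (w - (u + j * (e * p) + (K + 1) * p)) := by
    rw [e1]; omega
  have e3 : w - (u + j * (e * p)) = (K + 1) * p + (w - (u + j * (e * p) + (K + 1) * p)) := by
    omega
  rw [e2, e3, seg_add, seg_add, hphi, hphi, seg_run_eq hphi hE h u j h1 (by rw [e1]; omega)]
  have e4 : j * (e * p) = (j * e) * p := by ring
  have h4 := seg_shift h (j * e) u ((K + 1) * p) h1 (by rw [← e4]; omega)
  rw [← e4] at h4
  rw [h4]
  congr 3
  rw [e1]
  omega

omit [Monoid S] in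
theorem zt_big (phi : List α → S) (Z : List α) (u w : ℕ) (h : Z.length ≤ w) :
    zt phi Z u w = phi (Z.drop u) := by
  unfold zt
  rw [List.take_of_length_le]
  rw [List.length_drop]; omega

/-- the same for the whole suffix -/
theorem left_border_drop (hphi : ∀ u v, phi (u ++ v) = phi u * phi v) {e K : ℕ}
    (hE : ExpK S e K) {Z : List α} {p a b : ℕ} (h : RunReg Z p a b) (u j : ℕ) (h1 : a ≤ u)
    (h2 : u + j * (e * p) + (K + 1) * p ≤ b) :
    phi (Z.drop u) = phi (Z.drop (u + j * (e * p))) := by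
  have h3 := left_border hphi hE h u j (Z.length + (u + j * (e * p) + (K + 1) * p)) h1 h2
    (by omega)
  rwa [zt_big phi Z _ _ (by omega), zt_big phi Z _ _ (by omega)] at h3

/-- moving the right border inside a run, to the right -/
theorem right_border (hphi : ∀ u v, phi (u ++ v) = phi u * phi v) {e K : ℕ} (hE : ExpK S e K)
    {Z : List α} {p a b : ℕ} (h : RunReg Z p a b) (s u j : ℕ) (h0 : s + (K + 1) * p ≤ u)
    (h1 : a + (K + 1) * p ≤ u) (h2 : u + j * (e * p) ≤ b) :
    zt phi Z s (u + j * (e * p)) = zt phi Z s u := by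
  have e1 : (K + 1 + j * e) * p = (K + 1) * p + j * (e * p) := by ring
  unfold zt
  change phi (seg Z s (u + j * (e * p) - s)) = phi (seg Z s (u - s))
  have e2 : u + j * (e * p) - s = (u - (K + 1) * p - s) + (K + 1 + j * e) * p := by
    rw [e1]; omega
  have e3 : u - s = (u - (K + 1) * p - s) + (K + 1) * p := by omega
  rw [e2, e3, seg_add, seg_add, hphi, hphi]
  rw [seg_run_eq hphi hE h _ j (by omega) (by rw [e1]; omega)]

end Run

/-! ### hole ends -/

section HoleEnd

variable {α S : Type*}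

open Classical in
/-- the hole end of the level `y` -/
noncomputable def he (r : Rule α) (G Dd : ℕ) (Z : List α) (y : ℕ) : ℕ :=
  if h : ∃ t, y ≤ t ∧ t ≤ y + G ∧ r.R (Z.drop t) then Nat.find h else y + Dd

variable {r : Rule α} {G Dd : ℕ}

theorem he_of {Z : List α} {y t : ℕ} (h1 : y ≤ t) (h2 : t ≤ y + G) (h3 : r.R (Z.drop t))
    (h4 : ∀ t', y ≤ t' → t' < t → ¬ r.R (Z.drop t')) : he r G Dd Z y = t := by
  classical
  have h : ∃ t, y ≤ t ∧ t ≤ y + G ∧ r.R (Z.drop t) := ⟨t, h1, h2, h3⟩
  unfold he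
  rw [dif_pos h]
  apply le_antisymm
  · exact Nat.find_min' h ⟨h1, h2, h3⟩
  · by_contra hlt
    push Not at hlt
    have h5 := Nat.find_spec h
    exact h4 _ h5.1 hlt h5.2.2

theorem he_none {Z : List α} {y : ℕ} (h : ∀ t, y ≤ t → t ≤ y + G → ¬ r.R (Z.drop t)) :
    he r G Dd Z y = y + Dd := by
  classical
  unfold he
  rw [dif_neg]
  rintro ⟨t, h1, h2, h3⟩
  exact h t h1 h2 h3

theorem he_cases (r : Rule α) (G Dd : ℕ) (Z : List α) (y : ℕ) :
    (y ≤ he r G Dd Z y ∧ he r G Dd Z y ≤ y + G ∧ r.R (Z.drop (he r G Dd Z y)) ∧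
      ∀ t', y ≤ t' → t' < he r G Dd Z y → ¬ r.R (Z.drop t')) ∨
    (he r G Dd Z y = y + Dd ∧ ∀ t, y ≤ t → t ≤ y + G → ¬ r.R (Z.drop t)) := by
  classical
  by_cases h : ∃ t, y ≤ t ∧ t ≤ y + G ∧ r.R (Z.drop t)
  · left
    have h1 : he r G Dd Z y = Nat.find h := by unfold he; rw [dif_pos h]
    have h5 := Nat.find_spec h
    rw [h1]
    refine ⟨h5.1, h5.2.1, h5.2.2, fun t' h6 h7 h8 => ?_⟩
    exact Nat.find_min h h7 ⟨h6, by omega, h8⟩
  · right
    have h' : ∀ t, y ≤ t → t ≤ y + G → ¬ r.R (Z.drop t) := fun t h1 h2 h3 => h ⟨t, h1, h2, h3⟩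
    exact ⟨he_none h', h'⟩

theorem he_ge (r : Rule α) (G Dd : ℕ) (Z : List α) (y : ℕ) : y ≤ he r G Dd Z y := by
  rcases he_cases r G Dd Z y with h | h
  · exact h.1
  · omega

theorem he_le (r : Rule α) {G Dd : ℕ} (hD : Dd ≤ G) (Z : List α) (y : ℕ) :
    he r G Dd Z y ≤ y + G := by
  rcases he_cases r G Dd Z y with h | h
  · exact h.2.1
  · omega

theorem he_left (P Q : List α) (y : ℕ) (h : y + G + r.n ≤ P.length) :
    he r G Dd (P ++ Q) y = he r G Dd P y := by
  have key : ∀ t, t ≤ y + G → (r.R ((P ++ Q).drop t) ↔ r.R (P.drop t)) :=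
    fun t ht => R_left r (by omega)
  rcases he_cases r G Dd P y with h1 | h1
  · exact he_of h1.1 h1.2.1 ((key _ h1.2.1).2 h1.2.2.1)
      fun t' h2 h3 h4 => h1.2.2.2 t' h2 h3 ((key t' (by omega)).1 h4)
  · rw [h1.1]
    exact he_none fun t h2 h3 h4 => h1.2 t h2 h3 ((key t h3).1 h4)

theorem he_right (P Q : List α) (y : ℕ) :
    he r G Dd (P ++ Q) (P.length + y) = P.length + he r G Dd Q y := by
  rcases he_cases r G Dd Q y with h1 | h1
  · refine he_of (by omega) (by omega) (by rw [drop_add]; exact h1.2.2.1) ?_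
    intro t' h2 h3 h4
    obtain ⟨x, rfl⟩ : ∃ x, t' = P.length + x := ⟨t' - P.length, by omega⟩
    rw [drop_add] at h4
    exact h1.2.2.2 x (by omega) (by omega) h4
  · rw [h1.1, he_none, Nat.add_assoc]
    intro t h2 h3 h4
    obtain ⟨x, rfl⟩ : ∃ x, t = P.length + x := ⟨t - P.length, by omega⟩
    rw [drop_add] at h4
    exact h1.2 x (by omega) (by omega) h4

/-- no wall within `ρ` of `y` and of `y + G` -/
def Calm (r : Rule α) (G ρ : ℕ) (Z : List α) (y : ℕ) : Prop :=
  (∀ t, y ≤ t + ρ → t ≤ y + ρ → ¬ r.R (Z.drop t)) ∧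
  (∀ t, y + G ≤ t + ρ → t ≤ y + G + ρ → ¬ r.R (Z.drop t))

/-- the two modes of a calm level -/
theorem calm_modes {ρ : ℕ} {Z : List α} {y : ℕ} (h : Calm r G ρ Z y) :
    (∃ t, y + ρ < t ∧ t + ρ < y + G ∧ ∀ y', y ≤ y' + ρ → y' ≤ y + ρ → he r G Dd Z y' = t) ∨
    ((∀ t, y ≤ t + ρ → t ≤ y + G + ρ → ¬ r.R (Z.drop t)) ∧
      ∀ y', y ≤ y' + ρ → y' ≤ y + ρ → he r G Dd Z y' = y' + Dd) := by
  rcases he_cases r G Dd Z y with h1 | h1
  · left
    set t := he r G Dd Z y with ht
    obtain ⟨h2, h3, h4, h5⟩ := h1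
    have h6 : y + ρ < t := by
      by_contra hlt
      exact h.1 t (by omega) (by omega) h4
    have h7 : t + ρ < y + G := by
      by_contra hlt
      exact h.2 t (by omega) (by omega) h4
    refine ⟨t, h6, h7, fun y' h8 h9 => he_of (by omega) (by omega) h4 ?_⟩
    intro t' h10 h11 h12
    by_cases h13 : y ≤ t'
    · exact h5 t' h13 h11 h12
    · exact h.1 t' (by omega) (by omega) h12
  · right
    have h2 : ∀ t, y ≤ t + ρ → t ≤ y + G + ρ → ¬ r.R (Z.drop t) := by
      intro t h3 h4
      by_cases h5 : t ≤ y + ρ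
      · exact h.1 t h3 h5
      · by_cases h6 : t ≤ y + G
        · exact h1.2 t (by omega) h6
        · exact h.2 t (by omega) h4
    exact ⟨h2, fun y' h3 h4 => he_none fun t h5 h6 => h2 t (by omega) (by omega)⟩

/-- 712's `PerGap` (same text) -/
def PerGap (R : List α → Prop) (G n o D : ℕ) : Prop :=
  ∀ Q : List α, (∀ i < G, ¬ R (Q.drop i)) → G + n ≤ Q.length → Q[o]? = Q[o + D]?

/-- a wall-free stretch is a run -/
theorem run_of_free {GG o p : ℕ} (hper : PerGap r.R GG r.n o p) {Z : List α} {a b : ℕ}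
    (h : ∀ t, a ≤ t → t ≤ b → ¬ r.R (Z.drop t)) (hb : b + r.n ≤ Z.length) (_hab : a + GG ≤ b) :
    RunReg Z p (a + o) (b + o + p - GG) := by
  intro t h1 h2
  have h3 := hper (Z.drop (t - o)) (fun i hi => by
    rw [List.drop_drop]
    exact h _ (by omega) (by omega)) (by rw [List.length_drop]; omega)
  rw [List.getElem?_drop, List.getElem?_drop] at h3
  rw [show t - o + o = t by omega, show t - o + (o + p) = t + p by omega] at h3
  exact h3

/-- congruent places, in both directions -/
def Cong (q y y' : ℕ) : Prop := ∃ j, y' = y + j * q ∨ y = y' + j * q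

variable [Monoid S] {phi : List α → S}

/-- constants: `Dd`, `G` large against the run data -/
structure Consts (r : Rule α) (G Dd GG o p e K : ℕ) : Prop where
  per : PerGap r.R GG r.n o p
  d1 : o + (K + 1) * p ≤ Dd
  d2 : Dd + (K + 1) * p + GG ≤ G

variable {GG o p e K : ℕ}

/-- the suffix behind a calm level does not depend on the candidate -/
theorem drop_calm (hphi : ∀ u v, phi (u ++ v) = phi u * phi v) (hE : ExpK S e K)
    (hc : Consts r G Dd GG o p e K) {ρ : ℕ} {Z : List α} {y y' : ℕ} (h : Calm r G ρ Z y)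
    (h1 : y ≤ y' + ρ) (h2 : y' ≤ y + ρ) (hcg : Cong (e * p) y y')
    (hZ : y + G + ρ + r.n ≤ Z.length) :
    phi (Z.drop (he r G Dd Z y')) = phi (Z.drop (he r G Dd Z y)) := by
  rcases calm_modes (Dd := Dd) h with ⟨t, -, -, h4⟩ | ⟨h3, h4⟩
  · rw [h4 y' h1 h2, h4 y (by omega) (by omega)]
  · rw [h4 y' h1 h2, h4 y (by omega) (by omega)]
    have hd1 := hc.d1
    have hd2 := hc.d2
    have hrun := run_of_free hc.per (a := y - ρ) (b := y + G + ρ)
      (fun t h5 h6 => h3 t (by omega) h6) hZ (by omega)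
    obtain ⟨j, rfl | rfl⟩ := hcg
    · have h5 := left_border_drop hphi hE hrun (y + Dd) j (by omega) (by omega)
      rw [h5]
      congr 2
      omega
    · have h5 := left_border_drop hphi hE hrun (y' + Dd) j (by omega) (by omega)
      rw [h5]
      congr 2
      omega

theorem zt_calm_left (hphi : ∀ u v, phi (u ++ v) = phi u * phi v) (hE : ExpK S e K)
    (hc : Consts r G Dd GG o p e K) {ρ : ℕ} {Z : List α} {y y' w : ℕ} (h : Calm r G ρ Z y)
    (h1 : y ≤ y' + ρ) (h2 : y' ≤ y + ρ) (hcg : Cong (e * p) y y')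
    (hZ : y + G + ρ + r.n ≤ Z.length) (hw : y + G + ρ ≤ w) :
    zt phi Z (he r G Dd Z y') w = zt phi Z (he r G Dd Z y) w := by
  rcases calm_modes (Dd := Dd) h with ⟨t, -, -, h4⟩ | ⟨h3, h4⟩
  · rw [h4 y' h1 h2, h4 y (by omega) (by omega)]
  · rw [h4 y' h1 h2, h4 y (by omega) (by omega)]
    have hd1 := hc.d1
    have hd2 := hc.d2
    have hrun := run_of_free hc.per (a := y - ρ) (b := y + G + ρ)
      (fun t h5 h6 => h3 t (by omega) h6) hZ (by omega)
    obtain ⟨j, rfl | rfl⟩ := hcg
    · have h5 := left_border hphi hE hrun (y + Dd) j w (by omega) (by omega) (by omega)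
      rw [h5]
      congr 1
      omega
    · have h5 := left_border hphi hE hrun (y' + Dd) j w (by omega) (by omega) (by omega)
      rw [h5]
      congr 1
      omega

theorem zt_calm_right (hphi : ∀ u v, phi (u ++ v) = phi u * phi v) (hE : ExpK S e K)
    (hc : Consts r G Dd GG o p e K) {ρ : ℕ} {Z : List α} {s y y' : ℕ} (h : Calm r G ρ Z y)
    (h1 : y ≤ y' + ρ) (h2 : y' ≤ y + ρ) (hcg : Cong (e * p) y y')
    (hZ : y + G + ρ + r.n ≤ Z.length) (hs : s + ρ ≤ y) :
    zt phi Z s (he r G Dd Z y') = zt phi Z s (he r G Dd Z y) := by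
  rcases calm_modes (Dd := Dd) h with ⟨t, -, -, h4⟩ | ⟨h3, h4⟩
  · rw [h4 y' h1 h2, h4 y (by omega) (by omega)]
  · rw [h4 y' h1 h2, h4 y (by omega) (by omega)]
    have hd1 := hc.d1
    have hd2 := hc.d2
    have hrun := run_of_free hc.per (a := y - ρ) (b := y + G + ρ)
      (fun t h5 h6 => h3 t (by omega) h6) hZ (by omega)
    obtain ⟨j, rfl | rfl⟩ := hcg
    · have h5 := right_border hphi hE hrun s (y + Dd) j (by omega) (by omega) (by omega)
      rw [← h5]
      congr 1
      omega
    · have h5 := right_border hphi hE hrun s (y' + Dd) j (by omega) (by omega) (by omega)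
      rw [← h5]
      congr 1
      omega

end HoleEnd

/-! ### the gadget -/

section Gadget

variable {α S V W : Type*} [Monoid S] [AddCommGroup V] [AddCommGroup W]

variable (D : Data α S V W) (G Dd : ℕ)

/-- the left part is legal with vector `v` -/
def LLr (P : List α) (v : V) : Prop :=
  ∃ (c : Ctx S V W) (om : ℕ), P.length = D.q * om ∧ c.i < D.m ∧ D.lo c.i ≤ om ∧
    om < D.lo c.i + D.M ∧ D.LN om = some c ∧ D.Good c ∧
    c.g = D.phi (P.take (he D.r G Dd P (D.A c.i))) ∧
    c.wl = ∑ k ∈ range c.i,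
      D.e k (zt D.phi P (he D.r G Dd P (D.A k)) (he D.r G Dd P (D.A (k + 1)))) ∧ v = c.v

/-- the right part is legal with value `b`: all candidates of the cell read the same -/
def RRr (Q : List α) (b : V) : Prop :=
  ∃ c : Ctx S V W, c.i < D.m ∧ D.RN (Q.length / D.q) = some c ∧ D.Good c ∧
    (∀ om, D.lo c.i ≤ om → om < D.lo c.i + D.M →
      c.h = D.phi (Q.drop (he D.r G Dd Q (D.A (c.i + 1) - D.q * om))) ∧
      c.wr = ∑ k ∈ Ico (c.i + 1) D.m, D.e k (zt D.phi Q (he D.r G Dd Q (D.A k - D.q * om))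
        (he D.r G Dd Q (D.A (k + 1) - D.q * om)))) ∧ b = D.bval c

/-- the sum of the weights of the zone -/
noncomputable def wsum (Z : List α) : W :=
  ∑ k ∈ range D.m, D.e k (zt D.phi Z (he D.r G Dd Z (D.A k)) (he D.r G Dd Z (D.A (k + 1))))

open Classical in
/-- the noise, a function of the zone word -/
noncomputable def nur (Z : List α) : V :=
  if D.B (Z.length / D.q) then
    (if h : ∃ p : Ctx S V W × Ctx S V W, D.Pair (Z.length / D.q) p then
      D.bval h.choose.2 - D.act h.choose.1.v (D.phi Z) else 0)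
  else D.F (D.phi Z) (wsum D G Dd Z)

variable {D G Dd}

/-- **soundness**, no hypothesis on the zone -/
theorem sound (hDG : Dd ≤ G) (hlo : ∀ i, i < D.m → D.A i + G + D.r.n ≤ D.q * D.lo i)
    (h1 : D.N1) (h2 : D.N2) {P Q : List α} {v b : V} (hL : LLr D G Dd P v)
    (hR : RRr D G Dd Q b) : b = D.act v (D.phi (P ++ Q)) + nur D G Dd (P ++ Q) := by
  classical
  obtain ⟨c, om, hP, hi, hlo1, hhi, hLN, hg, hcg, hcw, rfl⟩ := hL
  obtain ⟨c', hi', hRN, hg', hall, rfl⟩ := hR
  have hdiv : (P ++ Q).length / D.q = om + Q.length / D.q := by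
    rw [List.length_append, hP, Nat.mul_add_div D.hq]
  by_cases hB : D.B ((P ++ Q).length / D.q)
  · have hpair : D.Pair ((P ++ Q).length / D.q) (c, c') :=
      ⟨om, Q.length / D.q, hdiv.symm, hLN, hg, hRN, hg'⟩
    have hex : ∃ p : Ctx S V W × Ctx S V W, D.Pair ((P ++ Q).length / D.q) p := ⟨_, hpair⟩
    unfold nur
    rw [if_pos hB, dif_pos hex]
    obtain ⟨h3, h4⟩ := h2 _ _ _ hB hpair hex.choose_spec
    rw [← h3, ← h4]
    simp
  · have hcc : c = c' := h1 om _ c c' (by rw [← hdiv]; exact hB) hLN hRN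
    subst hcc
    obtain ⟨hch, hcwr⟩ := hall om hlo1 hhi
    have hlen : ∀ k, k ≤ c.i → D.A k + G + D.r.n ≤ P.length := by
      intro k hk
      have h5 := hlo c.i hi
      have h6 := D.monoA hk
      have h7 : D.q * D.lo c.i ≤ D.q * om := Nat.mul_le_mul_left _ hlo1
      omega
    have hA1 : ∀ k, c.i < k → P.length ≤ D.A k := by
      intro k hk
      have h5 := D.cell_le c.i hi
      have h6 := D.monoA (show c.i + 1 ≤ k by omega)
      have h7 : D.q * om ≤ D.q * (D.lo c.i + D.M) := Nat.mul_le_mul_left _ (by omega)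
      omega
    have hleft : ∀ k, k ≤ c.i → he D.r G Dd (P ++ Q) (D.A k) = he D.r G Dd P (D.A k) :=
      fun k hk => he_left P Q _ (hlen k hk)
    have hright : ∀ k, c.i < k → he D.r G Dd (P ++ Q) (D.A k) =
        P.length + he D.r G Dd Q (D.A k - D.q * om) := by
      intro k hk
      have h5 := hA1 k hk
      have h6 := he_right (r := D.r) (G := G) (Dd := Dd) P Q (D.A k - D.q * om)
      rwa [show P.length + (D.A k - D.q * om) = D.A k by omega] at h6
    have hlP : ∀ k, k ≤ c.i → he D.r G Dd P (D.A k) ≤ P.length := by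
      intro k hk
      have h5 := he_le D.r hDG P (D.A k)
      have h6 := hlen k hk
      omega
    unfold nur
    rw [if_neg hB]
    set x : S := zt D.phi (P ++ Q) (he D.r G Dd P (D.A c.i))
      (P.length + he D.r G Dd Q (D.A (c.i + 1) - D.q * om)) with hx
    have hprod : c.g * x * c.h = D.phi (P ++ Q) := by
      have h5 : c.g = D.phi ((P ++ Q).take (he D.r G Dd P (D.A c.i))) := by
        rw [hcg, List.take_append_of_le_length (hlP c.i le_rfl)]
      have h6 : c.h = D.phi ((P ++ Q).drop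
          (P.length + he D.r G Dd Q (D.A (c.i + 1) - D.q * om))) := by
        rw [hch, drop_add]
      rw [h5, h6, hx]
      exact zt_split D.hphi _ (by have := hlP c.i le_rfl; omega)
    have hw : wsum D G Dd (P ++ Q) = c.wl + D.e c.i x + c.wr := by
      unfold wsum
      rw [Data.sum_split hi, hcw, hcwr]
      congr 1
      · congr 1
        · apply Finset.sum_congr rfl
          intro k hk
          rw [Finset.mem_range] at hk
          rw [hleft k (by omega), hleft (k + 1) (by omega),
            zt_left D.phi (hlP (k + 1) (by omega))]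
        · rw [hleft c.i le_rfl, hright (c.i + 1) (by omega)]
      · apply Finset.sum_congr rfl
        intro k hk
        rw [Finset.mem_Ico] at hk
        rw [hright k (by omega), hright (k + 1) (by omega), zt_right]
    rw [hw, ← hg x]
    unfold Data.val
    rw [hprod, add_comm]

/-- **completeness** on all texts: outside `B`, if every level is calm, every vector is cut.
`q` is a multiple of `e * p` (period times exponent). -/
theorem completeR {GG o p e K : ℕ} (hE : ExpK S e K) (hc : Consts D.r G Dd GG o p e K)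
    (hq : e * p ∣ D.q) (h3 : D.N3) (hF : D.Hides) {Z : List α}
    (hB : ¬ D.B (Z.length / D.q))
    (hlo : ∀ i, i < D.m → D.A i + G + D.r.n ≤ D.q * D.lo i)
    (hgap : ∀ k, k < D.m → D.A k + G + 2 * (D.q * D.M) ≤ D.A (k + 1))
    (hcalm : ∀ k, k ≤ D.m → Calm D.r G (D.q * D.M) Z (D.A k))
    (hZ : D.A D.m + G + D.q * D.M + D.r.n ≤ Z.length)
    (v : V) :
    ∃ (P Q : List α) (i om : ℕ), Z = P ++ Q ∧ i < D.m ∧ P.length = D.q * om ∧ D.lo i ≤ om ∧
      om < D.lo i + D.M ∧ LLr D G Dd P v ∧ ∃ b, RRr D G Dd Q b := by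
  classical
  have hDG : Dd ≤ G := by have := hc.d2; omega
  set H : ℕ → ℕ := fun k => he D.r G Dd Z (D.A k) with hHdef
  set w : W := ∑ k ∈ range D.m, D.e k (zt D.phi Z (H k) (H (k + 1))) with hw
  obtain ⟨i, hi, hhide⟩ := hF (D.phi Z) w v
  have hHge : ∀ k, D.A k ≤ H k := fun k => he_ge _ _ _ _ _
  have hHle : ∀ k, H k ≤ D.A k + G := fun k => he_le _ hDG _ _
  have hcell := D.cell_le i hi
  have hloi := hlo i hi
  have hqM : D.q * (D.lo i + D.M) = D.q * D.lo i + D.q * D.M := Nat.mul_add _ _ _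
  have hii : H i ≤ H (i + 1) := by
    have := hHle i
    have := hHge (i + 1)
    omega
  have hAm : ∀ k, k ≤ D.m → D.A k + G + D.q * D.M + D.r.n ≤ Z.length := by
    intro k hk
    have := D.monoA hk
    omega
  have hZi : D.q * (D.lo i + D.M) ≤ Z.length := by
    have := hAm (i + 1) (by omega)
    omega
  let c : Ctx S V W :=
    { i := i
      g := D.phi (Z.take (H i))
      wl := ∑ k ∈ range i, D.e k (zt D.phi Z (H k) (H (k + 1)))
      h := D.phi (Z.drop (H (i + 1)))
      wr := ∑ k ∈ Ico (i + 1) D.m, D.e k (zt D.phi Z (H k) (H (k + 1)))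
      v := v }
  have hprod := zt_split D.hphi Z hii
  have hws : w = c.wl + D.e i (zt D.phi Z (H i) (H (i + 1))) + c.wr := by
    rw [hw, Data.sum_split hi]
  have hval : ∀ z, D.val c z = D.F (D.phi Z) w + D.act v (D.phi Z) := by
    intro z
    have h5 := hhide _ _ _ hprod z
    rw [← h5]
    unfold Data.val
    have h6 : c.wl + D.e c.i z + c.wr
        = w - D.e i (zt D.phi Z (H i) (H (i + 1))) + D.e i z := by
      rw [hws]; abel
    rw [h6]
  have hgood : D.Good c := by
    intro z
    unfold Data.bval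
    rw [hval z, hval 1]
  have hn : D.lo i + D.M ≤ Z.length / D.q := by
    rw [Nat.le_div_iff_mul_le D.hq, Nat.mul_comm]
    exact hZi
  obtain ⟨om, h4, h5, h6, h7, h8⟩ := h3 (Z.length / D.q) c (D.lo i) hB hgood hi (by omega)
  have hom : D.q * om ≤ Z.length :=
    le_trans (Nat.mul_le_mul_left _ (by omega)) hZi
  have homlo : D.q * D.lo i ≤ D.q * om := Nat.mul_le_mul_left _ h4
  have homhi : D.q * om ≤ D.q * (D.lo i + D.M) := Nat.mul_le_mul_left _ (by omega)
  have hPlen : (Z.take (D.q * om)).length = D.q * om := by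
    rw [List.length_take]; omega
  have hZPQ : Z.take (D.q * om) ++ Z.drop (D.q * om) = Z := List.take_append_drop _ _
  have hleft : ∀ k, k ≤ i → he D.r G Dd (Z.take (D.q * om)) (D.A k) = H k := by
    intro k hk
    have h9 := he_left (r := D.r) (G := G) (Dd := Dd) (Z.take (D.q * om)) (Z.drop (D.q * om))
      (D.A k) (by rw [hPlen]; have := D.monoA hk; omega)
    rw [hZPQ] at h9
    exact h9.symm
  have hA1 : ∀ k, i < k → D.q * (D.lo i + D.M) ≤ D.A k := by
    intro k hk
    exact le_trans hcell (D.monoA (by omega))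
  -- the reading of the candidate `om'`
  have hcand : ∀ k om', i < k → D.lo i ≤ om' → om' < D.lo i + D.M →
      D.q * om + he D.r G Dd (Z.drop (D.q * om)) (D.A k - D.q * om')
        = he D.r G Dd Z (D.A k + D.q * om - D.q * om') := by
    intro k om' hk h9 h10
    have h11 : D.q * om' ≤ D.q * (D.lo i + D.M) := Nat.mul_le_mul_left _ (by omega)
    have h12 := hA1 k hk
    have h13 := he_right (r := D.r) (G := G) (Dd := Dd) (Z.take (D.q * om))
      (Z.drop (D.q * om)) (D.A k - D.q * om')
    rw [hZPQ, hPlen] at h13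
    rw [← h13]
    congr 1
    omega
  have hcong : ∀ k om', i < k → D.lo i ≤ om' → om' < D.lo i + D.M →
      Cong (e * p) (D.A k) (D.A k + D.q * om - D.q * om') ∧
      D.A k ≤ D.A k + D.q * om - D.q * om' + D.q * D.M ∧
      D.A k + D.q * om - D.q * om' ≤ D.A k + D.q * D.M := by
    intro k om' hk h9 h10
    obtain ⟨d, hd⟩ := hq
    have h12 := hA1 k hk
    have h11 : D.q * om' ≤ D.q * (D.lo i + D.M) := Nat.mul_le_mul_left _ (by omega)
    have h11' : D.q * D.lo i ≤ D.q * om' := Nat.mul_le_mul_left _ h9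
    refine ⟨?_, by omega, by omega⟩
    rcases le_total om' om with h13 | h13
    · obtain ⟨x, rfl⟩ := Nat.exists_eq_add_of_le h13
      refine ⟨d * x, Or.inl ?_⟩
      have e1 : d * x * (e * p) = D.q * x := by rw [hd]; ring
      rw [e1, Nat.mul_add]
      omega
    · obtain ⟨x, rfl⟩ := Nat.exists_eq_add_of_le h13
      refine ⟨d * x, Or.inr ?_⟩
      have e1 : d * x * (e * p) = D.q * x := by rw [hd]; ring
      have e2 : D.q * (om + x) = D.q * om + D.q * x := Nat.mul_add _ _ _
      rw [e1]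
      omega
  refine ⟨Z.take (D.q * om), Z.drop (D.q * om), i, om, hZPQ.symm, hi, hPlen, h4, h5, ?_, ?_⟩
  · refine ⟨c, om, hPlen, hi, h4, h5, h7, hgood, ?_, ?_, rfl⟩
    · change D.phi (Z.take (H i)) =
        D.phi ((Z.take (D.q * om)).take (he D.r G Dd (Z.take (D.q * om)) (D.A i)))
      rw [hleft i le_rfl, List.take_take, min_eq_left (by have := hHle i; omega)]
    · change ∑ k ∈ range i, D.e k (zt D.phi Z (H k) (H (k + 1)))
        = ∑ k ∈ range i, D.e k (zt D.phi (Z.take (D.q * om))
          (he D.r G Dd (Z.take (D.q * om)) (D.A k))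
          (he D.r G Dd (Z.take (D.q * om)) (D.A (k + 1))))
      apply Finset.sum_congr rfl
      intro k hk
      rw [Finset.mem_range] at hk
      rw [hleft k (by omega), hleft (k + 1) (by omega)]
      have h9 := zt_left D.phi (P := Z.take (D.q * om)) (Q := Z.drop (D.q * om)) (a := H k)
        (b := H (k + 1)) (by
          rw [hPlen]
          have h10 := hHle (k + 1)
          have h11 := D.monoA (show k + 1 ≤ i by omega)
          omega)
      rw [hZPQ] at h9
      rw [h9]
  · refine ⟨D.bval c, c, hi, ?_, hgood, ?_, rfl⟩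
    · have h9 : (Z.drop (D.q * om)).length / D.q = Z.length / D.q - om := by
        rw [List.length_drop, Nat.sub_mul_div_of_le]
        exact hom
      rw [h9]
      exact h8
    · intro om' h9 h10
      constructor
      · change D.phi (Z.drop (H (i + 1)))
          = D.phi ((Z.drop (D.q * om)).drop
            (he D.r G Dd (Z.drop (D.q * om)) (D.A (i + 1) - D.q * om')))
        rw [List.drop_drop, hcand (i + 1) om' (by omega) h9 h10]
        obtain ⟨h11, h12, h13⟩ := hcong (i + 1) om' (by omega) h9 h10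
        exact (drop_calm D.hphi hE hc (hcalm (i + 1) (by omega)) h12 h13 h11
          (hAm (i + 1) (by omega))).symm
      · change ∑ k ∈ Ico (i + 1) D.m, D.e k (zt D.phi Z (H k) (H (k + 1)))
          = ∑ k ∈ Ico (i + 1) D.m, D.e k (zt D.phi (Z.drop (D.q * om))
            (he D.r G Dd (Z.drop (D.q * om)) (D.A k - D.q * om'))
            (he D.r G Dd (Z.drop (D.q * om)) (D.A (k + 1) - D.q * om')))
        apply Finset.sum_congr rfl
        intro k hk
        rw [Finset.mem_Ico] at hk
        have h14 := zt_right D.phi (P := Z.take (D.q * om)) (Q := Z.drop (D.q * om))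
          (a := he D.r G Dd (Z.drop (D.q * om)) (D.A k - D.q * om'))
          (b := he D.r G Dd (Z.drop (D.q * om)) (D.A (k + 1) - D.q * om'))
        rw [hZPQ, hPlen, hcand k om' (by omega) h9 h10,
          hcand (k + 1) om' (by omega) h9 h10] at h14
        rw [← h14]
        obtain ⟨h11, h12, h13⟩ := hcong k om' (by omega) h9 h10
        obtain ⟨h11', h12', h13'⟩ := hcong (k + 1) om' (by omega) h9 h10
        have hg := hgap k (by omega)
        have h15 := he_ge D.r G Dd Z (D.A (k + 1) + D.q * om - D.q * om')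
        rw [zt_calm_left D.hphi hE hc (hcalm k (by omega)) h12 h13 h11 (hAm k (by omega))
          (w := he D.r G Dd Z (D.A (k + 1) + D.q * om - D.q * om')) (by omega)]
        rw [zt_calm_right D.hphi hE hc (hcalm (k + 1) (by omega)) h12' h13' h11'
          (hAm (k + 1) (by omega)) (s := he D.r G Dd Z (D.A k)) (by
            have := hHle k
            change H k + _ ≤ _
            omega)]

/-- both together -/
theorem completeR' {GG o p e K : ℕ} (hE : ExpK S e K) (hc : Consts D.r G Dd GG o p e K)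
    (hq : e * p ∣ D.q) (h1 : D.N1) (h2 : D.N2) (h3 : D.N3) (hF : D.Hides) {Z : List α}
    (hB : ¬ D.B (Z.length / D.q))
    (hlo : ∀ i, i < D.m → D.A i + G + D.r.n ≤ D.q * D.lo i)
    (hgap : ∀ k, k < D.m → D.A k + G + 2 * (D.q * D.M) ≤ D.A (k + 1))
    (hcalm : ∀ k, k ≤ D.m → Calm D.r G (D.q * D.M) Z (D.A k))
    (hZ : D.A D.m + G + D.q * D.M + D.r.n ≤ Z.length) (v : V) :
    ∃ (P Q : List α) (i om : ℕ), Z = P ++ Q ∧ i < D.m ∧ P.length = D.q * om ∧ D.lo i ≤ om ∧
      om < D.lo i + D.M ∧ LLr D G Dd P v ∧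
      RRr D G Dd Q (D.act v (D.phi Z) + nur D G Dd Z) := by
  have hDG : Dd ≤ G := by have := hc.d2; omega
  obtain ⟨P, Q, i, om, rfl, hi, hP, hl, hu, hL, b, hR⟩ :=
    completeR hE hc hq h3 hF hB hlo hgap hcalm hZ v
  have hb := sound hDG hlo h1 h2 hL hR
  subst hb
  exact ⟨P, Q, i, om, rfl, hi, hP, hl, hu, hL, hR⟩

end Gadget

end Crest.Agent.R320.ZoneRun_930
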