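import Mathlib

/-!
# Row 320: zone gadget of scheme 1, word form (helper539)

`UGd` is the interface of helper219's abstract gadget (post 12976).  From it, a right-looking
small-wall rule, levels `A 0 < A 1 < ..` and cells `C i` (in comb units `M'`) we get labels
`lam`, `rho` and a noise `nu` on words, sound for ALL pairs `P, Q`, and complete for every word
whose comb length is not bad and whose small walls stay away from the levels.
-/

set_option autoImplicit false

namespace Crest.Agent.R320.ZoneUG539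

open Classical

set_option linter.unusedSectionVars false

/-- a right-looking wall rule with window `n` -/
structure Rule (α : Type*) where
  n : ℕ
  R : List α → Prop
  hn : 0 < n
  tk : ∀ Q, R Q ↔ R (Q.take n)
  len : ∀ Q, R Q → n ≤ Q.length

variable {α : Type*}

theorem Rule.congr (W : Rule α) {X Y : List α} (h : X.take W.n = Y.take W.n) : W.R X ↔ W.R Y := by
  rw [W.tk X, W.tk Y, h]

/-- first wall at a place `≥ a`, or the length of the word -/
noncomputable def fw (W : Rule α) (Y : List α) (a : ℕ) : ℕ :=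
  if h : ∃ j, a ≤ j ∧ W.R (Y.drop j) then Nat.find h else Y.length

theorem fw_le (W : Rule α) (Y : List α) (a : ℕ) : fw W Y a ≤ Y.length := by
  unfold fw
  split_ifs with h
  · have h1 := (Nat.find_spec h).2
    have h2 := W.len _ h1
    have h3 := W.hn
    rw [List.length_drop] at h2
    omega
  · exact le_rfl

theorem fw_spec (W : Rule α) {Y : List α} {a j : ℕ} (h1 : a ≤ j) (h2 : W.R (Y.drop j))
    (h3 : ∀ i, a ≤ i → i < j → ¬ W.R (Y.drop i)) : fw W Y a = j := by
  have h : ∃ j, a ≤ j ∧ W.R (Y.drop j) := ⟨j, h1, h2⟩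
  unfold fw
  rw [dif_pos h]
  apply le_antisymm
  · exact Nat.find_min' h ⟨h1, h2⟩
  · by_contra hc
    push Not at hc
    have hs := Nat.find_spec h
    exact h3 _ hs.1 hc hs.2

theorem fw_none (W : Rule α) {Y : List α} {a : ℕ} (h : ∀ i, a ≤ i → ¬ W.R (Y.drop i)) :
    fw W Y a = Y.length := by
  unfold fw
  rw [dif_neg]
  rintro ⟨j, h1, h2⟩
  exact h j h1 h2

theorem fw_cases (W : Rule α) (Y : List α) (a : ℕ) :
    (a ≤ fw W Y a ∧ W.R (Y.drop (fw W Y a)) ∧ ∀ i, a ≤ i → i < fw W Y a → ¬ W.R (Y.drop i)) ∨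
      (fw W Y a = Y.length ∧ ∀ i, a ≤ i → ¬ W.R (Y.drop i)) := by
  by_cases h : ∃ j, a ≤ j ∧ W.R (Y.drop j)
  · left
    have e : fw W Y a = Nat.find h := by unfold fw; rw [dif_pos h]
    rw [e]
    refine ⟨(Nat.find_spec h).1, (Nat.find_spec h).2, fun i h1 h2 h3 => ?_⟩
    exact Nat.find_min h h2 ⟨h1, h3⟩
  · right
    push Not at h
    exact ⟨fw_none W h, h⟩

theorem fw_mono (W : Rule α) (Y : List α) {a b : ℕ} (hab : a ≤ b) : fw W Y a ≤ fw W Y b := by
  rcases fw_cases W Y b with ⟨h1, h2, _⟩ | ⟨h1, _⟩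
  · have h : ∃ j, a ≤ j ∧ W.R (Y.drop j) := ⟨_, hab.trans h1, h2⟩
    have e : fw W Y a = Nat.find h := by unfold fw; rw [dif_pos h]
    rw [e]
    exact Nat.find_min' h ⟨hab.trans h1, h2⟩
  · rw [h1]; exact fw_le W Y a

theorem fw_congr (W : Rule α) (Y : List α) {a b : ℕ} (hab : a ≤ b)
    (h : ∀ j, a ≤ j → j < b → ¬ W.R (Y.drop j)) : fw W Y a = fw W Y b := by
  rcases fw_cases W Y b with ⟨h1, h2, h3⟩ | ⟨h1, h2⟩
  · refine fw_spec W (hab.trans h1) h2 fun i hi1 hi2 => ?_
    by_cases hib : i < b
    · exact h i hi1 hib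
    · exact h3 i (by omega) hi2
  · rw [h1]
    refine fw_none W fun i hi => ?_
    by_cases hib : i < b
    · exact h i hi hib
    · exact h2 i (by omega)

/-- walls read in a suffix -/
theorem fw_drop (W : Rule α) (Y : List α) {s : ℕ} (a : ℕ) (hs : s ≤ Y.length) :
    fw W Y (s + a) = s + fw W (Y.drop s) a := by
  rcases fw_cases W (Y.drop s) a with ⟨h1, h2, h3⟩ | ⟨h1, h2⟩
  · refine fw_spec W (by omega) ?_ fun i hi1 hi2 => ?_
    · rw [← List.drop_drop]; exact h2
    · have h4 := h3 (i - s) (by omega) (by omega)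
      rw [List.drop_drop] at h4
      have e : s + (i - s) = i := by omega
      rw [e] at h4
      exact h4
  · rw [h1, List.length_drop, fw_none W, Nat.add_sub_cancel' hs]
    intro i hi
    have h4 := h2 (i - s) (by omega)
    rw [List.drop_drop] at h4
    have e : s + (i - s) = i := by omega
    rw [e] at h4
    exact h4

theorem R_append (W : Rule α) (P Q : List α) {j : ℕ} (hj : j + W.n ≤ P.length) :
    W.R ((P ++ Q).drop j) ↔ W.R (P.drop j) := by
  apply W.congr
  rw [List.drop_append_of_le_length (by omega), List.take_append_of_le_length]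
  rw [List.length_drop]
  omega

/-- walls seen in a prefix -/
theorem fw_append (W : Rule α) (P Q : List α) {a : ℕ} (h : ∃ j, a ≤ j ∧ W.R (P.drop j)) :
    fw W (P ++ Q) a = fw W P a := by
  rcases fw_cases W P a with ⟨h1, h2, h3⟩ | ⟨_, h2⟩
  · have hl := W.len _ h2
    rw [List.length_drop] at hl
    have hn := W.hn
    refine fw_spec W h1 ((R_append W P Q (by omega)).2 h2) fun i hi1 hi2 hR => ?_
    exact h3 i hi1 hi2 ((R_append W P Q (by omega)).1 hR)
  · obtain ⟨j, hj1, hj2⟩ := h
    exact (h2 j hj1 hj2).elim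

variable {S : Type*} [Monoid S]

/-- product of the segment `[a, b)` -/
def seg (φ : List α → S) (Y : List α) (a b : ℕ) : S := φ ((Y.drop a).take (b - a))

theorem seg_append (φ : List α → S) (P Q : List α) {a b : ℕ} (hb : b ≤ P.length) (hab : a ≤ b) :
    seg φ (P ++ Q) a b = seg φ P a b := by
  unfold seg
  rw [List.drop_append_of_le_length (by omega), List.take_append_of_le_length]
  rw [List.length_drop]
  omega

theorem seg_drop (φ : List α → S) (Y : List α) (s a b : ℕ) :
    seg φ Y (s + a) (s + b) = seg φ (Y.drop s) a b := by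
  unfold seg
  rw [List.drop_drop, Nat.add_sub_add_left]

theorem take_seg (φ : List α → S) (hφ : ∀ u v, φ (u ++ v) = φ u * φ v) (Y : List α) {a b : ℕ}
    (hab : a ≤ b) : φ (Y.take a) * seg φ Y a b = φ (Y.take b) := by
  unfold seg
  rw [← hφ]
  congr 1
  have e : b = a + (b - a) := by omega
  conv_rhs => rw [e]
  rw [List.take_add]

/-- the list of the hole products with indices `i, .., j - 1` -/
def zl (φ : List α → S) (H : ℕ → ℕ) (Y : List α) (i j : ℕ) : List S :=
  (List.range' i (j - i)).map fun k => seg φ Y (H k) (H (k + 1))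

theorem zl_length (φ : List α → S) (H : ℕ → ℕ) (Y : List α) (i j : ℕ) :
    (zl φ H Y i j).length = j - i := by
  simp [zl]

theorem zl_split (φ : List α → S) (H : ℕ → ℕ) (Y : List α) {i m : ℕ} (hi : i < m) :
    zl φ H Y 0 m = zl φ H Y 0 i ++ seg φ Y (H i) (H (i + 1)) :: zl φ H Y (i + 1) m := by
  unfold zl
  have e1 : m - 0 = i + (1 + (m - (i + 1))) := by omega
  rw [e1, ← List.range'_append_1, ← List.range'_append_1]
  simp

theorem zl_take (φ : List α → S) (H : ℕ → ℕ) (Y : List α) {i m : ℕ} (hi : i < m) :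
    (zl φ H Y 0 m).take i = zl φ H Y 0 i := by
  rw [zl_split φ H Y hi, List.take_append_of_le_length (by rw [zl_length]; omega),
    List.take_of_length_le (by rw [zl_length]; omega)]

theorem zl_drop (φ : List α → S) (H : ℕ → ℕ) (Y : List α) {i m : ℕ} (hi : i < m) :
    (zl φ H Y 0 m).drop (i + 1) = zl φ H Y (i + 1) m := by
  have e : zl φ H Y 0 i ++ seg φ Y (H i) (H (i + 1)) :: zl φ H Y (i + 1) m =
      (zl φ H Y 0 i ++ [seg φ Y (H i) (H (i + 1))]) ++ zl φ H Y (i + 1) m := by simp
  rw [zl_split φ H Y hi, e]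
  apply List.drop_left'
  rw [List.length_append, zl_length, List.length_singleton]
  omega

theorem zl_congr (φ : List α → S) {H H' : ℕ → ℕ} {Y Y' : List α} {i j : ℕ}
    (h : ∀ k, i ≤ k → k < j → seg φ Y (H k) (H (k + 1)) = seg φ Y' (H' k) (H' (k + 1))) :
    zl φ H Y i j = zl φ H' Y' i j := by
  unfold zl
  apply List.map_congr_left
  intro k hk
  rw [List.mem_range'_1] at hk
  exact h k hk.1 (by omega)

theorem prod_zl (φ : List α → S) (hφ : ∀ u v, φ (u ++ v) = φ u * φ v) (H : ℕ → ℕ) (Y : List α)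
    (hH : ∀ k, H k ≤ H (k + 1)) (i : ℕ) :
    φ (Y.take (H 0)) * (zl φ H Y 0 i).prod = φ (Y.take (H i)) := by
  induction i with
  | zero => simp [zl]
  | succ i ih =>
    have e : zl φ H Y 0 (i + 1) = zl φ H Y 0 i ++ [seg φ Y (H i) (H (i + 1))] := by
      rw [zl_split φ H Y (Nat.lt_succ_self i)]
      simp [zl]
    rw [e, List.prod_append, ← mul_assoc, ih, List.prod_singleton]
    exact take_seg φ hφ Y (hH i)

theorem prod_all (φ : List α → S) (hφ : ∀ u v, φ (u ++ v) = φ u * φ v) (H : ℕ → ℕ) (Y : List α)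
    (hH : ∀ k, H k ≤ H (k + 1)) (m : ℕ) :
    φ (Y.take (H 0)) * (zl φ H Y 0 m).prod * φ (Y.drop (H m)) = φ Y := by
  rw [prod_zl φ hφ H Y hH m, ← hφ, List.take_append_drop]

variable {V : Type*} [AddCommGroup V]

/-- helper219's interface (post 12976) -/
structure UGd (act : V → S → V) (m M : ℕ) (Bad : ℕ → Prop)
    (Lb : ℕ → S → List S → ℕ → Option V) (Rb : (ℕ → Option (List S × S)) → ℕ → Option V)
    (D : ℕ → S → List S → S → V) : Prop where
  sound : ∀ (l : List S) (z : S) (r : List S) (x y : S) (vw : ℕ → Option (List S × S))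
    (t t' : ℕ) (v b : V), (l ++ z :: r).length = m →
    (∀ q, vw l.length = some q → q = (r, y)) → Lb l.length x l t = some v →
    Rb vw t' = some b → b = act v (x * l.prod * z * r.prod * y) + D (t + t') x (l ++ z :: r) y
  complete : ∀ T, ¬ Bad T → ∀ (zs : List S) (x y : S) (v : V), zs.length = m →
    ∃ i < m, ∀ c0, c0 + M ≤ T + 1 → ∃ t, c0 ≤ t ∧ t < c0 + M ∧ t ≤ T ∧
      Lb i x (zs.take i) t = some v ∧
      ∀ vw : ℕ → Option (List S × S), vw i = some (zs.drop (i + 1), y) → (Rb vw (T - t)).isSome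

section zone

variable (W : Rule α) (φ : List α → S) (m M M' : ℕ) (A C : ℕ → ℕ)
  (Lb : ℕ → S → List S → ℕ → Option V) (Rb : (ℕ → Option (List S × S)) → ℕ → Option V)
  (D : ℕ → S → List S → S → V)

/-- hole ends -/
noncomputable def HH (Y : List α) (k : ℕ) : ℕ := fw W Y (A k)

/-- hole ends as read by the right side which assumes clock `t` -/
noncomputable def HR (Q : List α) (t k : ℕ) : ℕ := fw W Q (A k - M' * t)

/-- left-legal level -/
def LOK (P : List α) (i : ℕ) : Prop :=
  i < m ∧ M' ∣ P.length ∧ C i ≤ P.length / M' ∧ P.length / M' < C i + M ∧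
    ∃ j, A i ≤ j ∧ W.R (P.drop j)

noncomputable def lam (P : List α) : Option V :=
  if h : ∃ i, LOK W m M M' A C P i then
    Lb h.choose (φ (P.take (HH W A P 0))) (zl φ (HH W A P) P 0 h.choose) (P.length / M')
  else none

/-- view of the right side at level `i` if the clock is `t` -/
noncomputable def view (Q : List α) (i t : ℕ) : List S × S :=
  (zl φ (HR W M' A Q t) Q (i + 1) m, φ (Q.drop (HR W M' A Q t m)))

noncomputable def vw (Q : List α) (i : ℕ) : Option (List S × S) :=
  if h : ∃ q : List S × S, ∀ t, C i ≤ t → t < C i + M → view W φ m M' A Q i t = q then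
    some h.choose else none

noncomputable def rho (Q : List α) : Option V := Rb (vw W φ m M M' A C Q) (Q.length / M')

noncomputable def nu (Y : List α) : V :=
  D (Y.length / M') (φ (Y.take (HH W A Y 0))) (zl φ (HH W A Y) Y 0 m) (φ (Y.drop (HH W A Y m)))

variable {W φ m M M' A C Lb Rb D}

theorem vw_eq {Q : List α} {i t : ℕ} {q : List S × S} (h : vw W φ m M M' A C Q i = some q)
    (h1 : C i ≤ t) (h2 : t < C i + M) : q = view W φ m M' A Q i t := by
  unfold vw at h
  split_ifs at h with hq
  have h3 := Option.some.inj h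
  rw [← h3]
  exact (hq.choose_spec t h1 h2).symm

theorem HH_mono (hA : ∀ k, A k ≤ A (k + 1)) (Y : List α) (k : ℕ) :
    HH W A Y k ≤ HH W A Y (k + 1) := fw_mono W Y (hA k)

/-- the truth of the right view -/
theorem view_true (hA : ∀ k, A k ≤ A (k + 1)) {P Q : List α} {i t : ℕ} (hi : i < m)
    (hP : P.length = M' * t) (h : M' * t ≤ A (i + 1)) :
    view W φ m M' A Q i t =
      (zl φ (HH W A (P ++ Q)) (P ++ Q) (i + 1) m, φ ((P ++ Q).drop (HH W A (P ++ Q) m))) := by
  have hAm : Monotone A := monotone_nat_of_le_succ hA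
  have key : ∀ k, i + 1 ≤ k → HH W A (P ++ Q) k = M' * t + HR W M' A Q t k := by
    intro k hk
    unfold HH HR
    have h1 : A (i + 1) ≤ A k := hAm hk
    have e : A k = M' * t + (A k - M' * t) := by omega
    conv_lhs => rw [e]
    rw [fw_drop W (P ++ Q) (A k - M' * t) (by rw [List.length_append]; omega), ← hP,
      List.drop_left]
  unfold view
  congr 1
  · apply zl_congr
    intro k hk1 hk2
    rw [key k hk1, key (k + 1) (by omega), seg_drop, ← hP, List.drop_left]
  · rw [key m (by omega), ← List.drop_drop, ← hP, List.drop_left]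

/-- SOUNDNESS for all pairs of words -/
theorem sound {act : V → S → V} {Bad : ℕ → Prop} (hφ : ∀ u v, φ (u ++ v) = φ u * φ v)
    (hU : UGd act m M Bad Lb Rb D) (hM' : 0 < M') (hA : ∀ k, A k ≤ A (k + 1))
    (hC : ∀ i < m, M' * (C i + M) ≤ A (i + 1)) (P Q : List α) (v c : V)
    (h1 : lam W φ m M M' A C Lb P = some v) (h2 : rho W φ m M M' A C Rb Q = some c) :
    c = act v (φ (P ++ Q)) + nu W φ m M' A D (P ++ Q) := by
  unfold lam at h1
  split_ifs at h1 with hL
  obtain ⟨hi, hd, hc1, hc2, hw⟩ := hL.choose_spec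
  set i := hL.choose with hidef
  obtain ⟨t, ht⟩ := hd
  have htt : P.length / M' = t := by rw [ht]; exact Nat.mul_div_cancel_left t hM'
  rw [htt] at hc1 hc2 h1
  have hAm : Monotone A := monotone_nat_of_le_succ hA
  have hHH : ∀ k, k ≤ i → HH W A (P ++ Q) k = HH W A P k := by
    intro k hk
    obtain ⟨j, hj1, hj2⟩ := hw
    exact fw_append W P Q ⟨j, (hAm hk).trans hj1, hj2⟩
  have hx : φ (P.take (HH W A P 0)) = φ ((P ++ Q).take (HH W A (P ++ Q) 0)) := by
    rw [hHH 0 (Nat.zero_le _), List.take_append_of_le_length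
      (show HH W A P 0 ≤ P.length from fw_le W P _)]
  have hzl : zl φ (HH W A P) P 0 i = zl φ (HH W A (P ++ Q)) (P ++ Q) 0 i := by
    apply zl_congr
    intro k hk1 hk2
    rw [hHH k (by omega), hHH (k + 1) (by omega)]
    exact (seg_append φ P Q (show HH W A P (k + 1) ≤ P.length from fw_le W P _)
      (HH_mono hA P k)).symm
  have hcell : M' * t ≤ A (i + 1) :=
    (Nat.mul_le_mul_left M' (by omega)).trans (hC i hi)
  rw [hx, hzl] at h1
  unfold rho at h2
  have hlen : (zl φ (HH W A (P ++ Q)) (P ++ Q) 0 i).length = i := by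
    rw [zl_length]; omega
  have hs := hU.sound (zl φ (HH W A (P ++ Q)) (P ++ Q) 0 i)
    (seg φ (P ++ Q) (HH W A (P ++ Q) i) (HH W A (P ++ Q) (i + 1)))
    (zl φ (HH W A (P ++ Q)) (P ++ Q) (i + 1) m) (φ ((P ++ Q).take (HH W A (P ++ Q) 0)))
    (φ ((P ++ Q).drop (HH W A (P ++ Q) m))) (vw W φ m M M' A C Q) t (Q.length / M') v c
    (by rw [← zl_split φ _ _ hi, zl_length]; omega)
    (by
      rw [hlen]
      intro q hq
      rw [vw_eq hq hc1 hc2]
      exact view_true hA hi ht hcell)
    (by rw [hlen]; exact h1) h2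
  rw [hs, ← zl_split φ _ _ hi]
  have hp := prod_all φ hφ (HH W A (P ++ Q)) (P ++ Q) (HH_mono hA _) m
  rw [zl_split φ _ _ hi, List.prod_append, List.prod_cons] at hp
  have hT : (P ++ Q).length / M' = t + Q.length / M' := by
    rw [List.length_append, ht, Nat.mul_add_div hM']
  unfold nu
  rw [hT]
  congr 2
  conv_rhs => rw [← hp]
  simp only [mul_assoc]

/-- COMPLETENESS -/
theorem complete {act : V → S → V} {Bad : ℕ → Prop}
    (hU : UGd act m M Bad Lb Rb D) (hM' : 0 < M') (hA : ∀ k, A k ≤ A (k + 1))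
    (hC : ∀ i < m, M' * (C i + M) ≤ A (i + 1)) {G : ℕ}
    (hG : ∀ i < m, A i + G + W.n ≤ M' * C i) (Y : List α) (hT : ¬ Bad (Y.length / M'))
    (hlen : ∀ i < m, M' * (C i + M) ≤ Y.length)
    (hwall : ∀ i < m, ∃ j, A i ≤ j ∧ j ≤ A i + G ∧ W.R (Y.drop j))
    (hband : ∀ k ≤ m, ∀ j, A k ≤ j + M' * M → j < A k + M' * M → ¬ W.R (Y.drop j)) (v : V) :
    ∃ t i, i < m ∧ C i ≤ t ∧ t < C i + M ∧ M' * t ≤ Y.length ∧
      lam W φ m M M' A C Lb (Y.take (M' * t)) = some v ∧
      (rho W φ m M M' A C Rb (Y.drop (M' * t))).isSome := by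
  obtain ⟨i, hi, hci⟩ := hU.complete (Y.length / M') hT (zl φ (HH W A Y) Y 0 m)
    (φ (Y.take (HH W A Y 0))) (φ (Y.drop (HH W A Y m))) v (by rw [zl_length]; omega)
  have hlen' : C i + M ≤ Y.length / M' := by
    rw [Nat.le_div_iff_mul_le hM', mul_comm]
    exact hlen i hi
  obtain ⟨t, ht1, ht2, ht3, hL, hR⟩ := hci (C i) (by omega)
  have htY : M' * t ≤ Y.length := (Nat.mul_le_mul_left M' (by omega)).trans (hlen i hi)
  have hAm : Monotone A := monotone_nat_of_le_succ hA
  refine ⟨t, i, hi, ht1, ht2, htY, ?_, ?_⟩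
  · -- left
    have hPl : (Y.take (M' * t)).length = M' * t := by
      rw [List.length_take]; omega
    have hPd : (Y.take (M' * t)).length / M' = t := by
      rw [hPl]; exact Nat.mul_div_cancel_left t hM'
    have hCt : M' * C i ≤ M' * t := Nat.mul_le_mul_left M' ht1
    obtain ⟨j, hj1, hj2, hj3⟩ := hwall i hi
    have hGi := hG i hi
    have hseen : W.R ((Y.take (M' * t)).drop j) := by
      have h5 : W.R ((Y.take (M' * t) ++ Y.drop (M' * t)).drop j) := by
        rw [List.take_append_drop]; exact hj3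
      exact (R_append W _ _ (by rw [hPl]; omega)).1 h5
    have hok : LOK W m M M' A C (Y.take (M' * t)) i :=
      ⟨hi, by rw [hPl]; exact Dvd.intro t rfl, by rw [hPd]; exact ht1, by rw [hPd]; exact ht2,
        j, hj1, hseen⟩
    have hex : ∃ i, LOK W m M M' A C (Y.take (M' * t)) i := ⟨i, hok⟩
    have hch : hex.choose = i := by
      obtain ⟨h1, _, h3, h4, _⟩ := hex.choose_spec
      rw [hPd] at h3 h4
      set i' := hex.choose with hi'
      by_contra hne
      rcases lt_or_gt_of_ne hne with hlt | hlt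
      · -- i' < i : t < C i' + M, M'(C i' + M) ≤ A (i'+1) ≤ A i ≤ M' C i
        have e1 := hC i' h1
        have e2 : A (i' + 1) ≤ A i := hAm hlt
        have e3 : M' * (t + 1) ≤ M' * (C i' + M) := Nat.mul_le_mul_left M' (by omega)
        have e4 : M' * (t + 1) ≤ M' * C i := by omega
        have e5 := Nat.le_of_mul_le_mul_left e4 hM'
        omega
      · have e1 := hC i hi
        have e2 : A (i + 1) ≤ A i' := hAm hlt
        have e3 : M' * (t + 1) ≤ M' * (C i + M) := Nat.mul_le_mul_left M' (by omega)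
        have e0 := hG i' h1
        have e4 : M' * (t + 1) ≤ M' * C i' := by omega
        have e5 := Nat.le_of_mul_le_mul_left e4 hM'
        omega
    unfold lam
    rw [dif_pos hex, hch, hPd]
    have hHH : ∀ k, k ≤ i → HH W A (Y.take (M' * t)) k = HH W A Y k := by
      intro k hk
      have := fw_append W (Y.take (M' * t)) (Y.drop (M' * t)) (a := A k)
        ⟨j, (hAm hk).trans hj1, hseen⟩
      rw [List.take_append_drop] at this
      exact this.symm
    have hx : φ ((Y.take (M' * t)).take (HH W A (Y.take (M' * t)) 0)) =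
        φ (Y.take (HH W A Y 0)) := by
      have h6 := fw_le W (Y.take (M' * t)) (A 0)
      have h7 := hHH 0 (Nat.zero_le _)
      rw [hPl] at h6
      rw [h7, List.take_take, min_eq_left]
      have : HH W A Y 0 ≤ M' * t := by rw [← h7]; exact h6
      exact this
    have hzl : zl φ (HH W A (Y.take (M' * t))) (Y.take (M' * t)) 0 i =
        zl φ (HH W A Y) Y 0 i := by
      apply zl_congr
      intro k hk1 hk2
      rw [hHH k (by omega), hHH (k + 1) (by omega)]
      have h8 := seg_append φ (Y.take (M' * t)) (Y.drop (M' * t)) (a := HH W A Y k)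
        (b := HH W A Y (k + 1)) (by
          rw [← hHH (k + 1) (by omega)]; exact fw_le W _ _) (HH_mono hA Y k)
      rw [List.take_append_drop] at h8
      exact h8.symm
    rw [hx, hzl, ← zl_take φ (HH W A Y) Y hi]
    exact hL
  · -- right
    have hQl : (Y.drop (M' * t)).length / M' = Y.length / M' - t := by
      rw [List.length_drop]
      exact Nat.sub_mul_div _ _ _
    unfold rho
    rw [hQl]
    apply hR
    have hPl : (Y.take (M' * t)).length = M' * t := by
      rw [List.length_take]; omega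
    have htrue := view_true (W := W) (φ := φ) (m := m) (M' := M') hA (P := Y.take (M' * t))
      (Q := Y.drop (M' * t)) hi hPl
      ((Nat.mul_le_mul_left M' (by omega)).trans (hC i hi))
    rw [List.take_append_drop] at htrue
    have hconst : ∀ t1, C i ≤ t1 → t1 < C i + M →
        view W φ m M' A (Y.drop (M' * t)) i t1 = view W φ m M' A (Y.drop (M' * t)) i t := by
      intro t1 h1 h2
      have hHR : ∀ k, i + 1 ≤ k → k ≤ m →
          HR W M' A (Y.drop (M' * t)) t1 k = HR W M' A (Y.drop (M' * t)) t k := by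
        intro k hk hkm
        have hAk : A (i + 1) ≤ A k := hAm hk
        have hc := hC i hi
        have hb1 : M' * t1 ≤ M' * (C i + M) := Nat.mul_le_mul_left M' (by omega)
        have hb2 : M' * t ≤ M' * (C i + M) := Nat.mul_le_mul_left M' (by omega)
        have hb3 : M' * (C i + M) = M' * C i + M' * M := Nat.mul_add _ _ _
        have hb4 : M' * C i ≤ M' * t := Nat.mul_le_mul_left M' ht1
        have hb5 : M' * C i ≤ M' * t1 := Nat.mul_le_mul_left M' h1
        unfold HR
        rcases le_total t t1 with hle | hle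
        · have hb6 : M' * t ≤ M' * t1 := Nat.mul_le_mul_left M' hle
          apply fw_congr
          · omega
          · intro j hj1 hj2
            rw [List.drop_drop]
            apply hband k hkm
            · omega
            · omega
        · have hb6 : M' * t1 ≤ M' * t := Nat.mul_le_mul_left M' hle
          symm
          apply fw_congr
          · omega
          · intro j hj1 hj2
            rw [List.drop_drop]
            apply hband k hkm
            · omega
            · omega
      unfold view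
      congr 1
      · apply zl_congr
        intro k hk1 hk2
        rw [hHR k hk1 (by omega), hHR (k + 1) (by omega) (by omega)]
      · rw [hHR m (by omega) le_rfl]
    unfold vw
    have hex : ∃ q : List S × S, ∀ t1, C i ≤ t1 → t1 < C i + M →
        view W φ m M' A (Y.drop (M' * t)) i t1 = q := ⟨_, hconst⟩
    rw [dif_pos hex, ← hex.choose_spec t ht1 ht2, htrue, zl_drop φ _ _ hi]

end zone

end Crest.Agent.R320.ZoneUG539
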