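import Crest.Agent.R320.Wall_291

/-!
# Row 320, CORE-1: left-looking walls, threshold zones, junction lemma
-/

set_option autoImplicit false

namespace Crest.Agent.R320.Zone28

open Crest.Agent.R320.Wall_291

variable {α : Type*}

/-- A left-looking wall rule with window `n`, gaps `> W`, and a wall in every `G` places of
words without `x ^ e`, `|x| ≤ W`. -/
structure LWall (e n W G : ℕ) (LW : List α → Prop) : Prop where
  loc : ∀ P Q, n ≤ Q.length → (LW (P ++ Q) ↔ LW Q)
  len : ∀ Q, LW Q → n ≤ Q.length
  sep : ∀ P D, LW P → LW (P ++ D) → D ≠ [] → W < D.length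
  cov : ∀ P, RF e W P → G + n ≤ P.length → ∃ P' D, P = P' ++ D ∧ D.length < G ∧ LW P'

theorem RF_reverse {e W : ℕ} {P : List α} (h : RF e W P) : RF e W P.reverse := by
  intro x hx hl hinf
  apply h x.reverse (by simpa using hx) (by simpa using hl)
  have h1 : ((List.replicate e x).flatten).reverse <:+: P := by
    have := (List.reverse_infix (l₁ := (List.replicate e x).flatten) (l₂ := P.reverse)).2 hinf
    simpa using this
  rw [List.reverse_flatten] at h1
  simpa using h1

theorem exists_lwall (α : Type*) [Finite α] (e W : ℕ) :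
    ∃ (n G : ℕ) (LW : List α → Prop), LWall e n W G LW := by
  obtain ⟨n, G, R, h1, h2, h3, h4⟩ := exists_walls α e W
  refine ⟨n, G, fun P => R P.reverse, ⟨?_, ?_, ?_, ?_⟩⟩
  · intro P Q hn
    show R (P ++ Q).reverse ↔ R Q.reverse
    rw [List.reverse_append, h1, h1 Q.reverse, List.take_append_of_le_length (by simpa using hn)]
  · intro Q h
    have := h2 _ h
    simpa using this
  · intro P D hP hPD hD
    by_contra hcon
    have hd : 0 < D.length := List.length_pos_iff.2 hD
    apply h3 (P ++ D).reverse D.length hPD hd (by omega)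
    rw [List.reverse_append]
    have : (D.reverse ++ P.reverse).drop D.length = P.reverse := by
      rw [show D.length = D.reverse.length by simp, List.drop_left]
    rw [this]
    exact hP
  · intro P hP hl
    obtain ⟨i, hi, hR⟩ := h4 P.reverse (RF_reverse hP) (by simpa using hl)
    refine ⟨P.take (P.length - i), P.drop (P.length - i), (List.take_append_drop _ _).symm, ?_, ?_⟩
    · rw [List.length_drop]; omega
    · show R (P.take (P.length - i)).reverse
      rwa [List.drop_reverse] at hR

section
variable (LW : List α → Prop) (th : ℤ → ℤ) (z : ℕ)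

/-- `X` ends in a wall which qualifies as end of the zone. -/
def Qual (X : List α) : Prop :=
  LW X ∧ z ≤ X.length ∧ th ((X.length : ℤ) - z) ≤ (X.length : ℤ) - z

/-- The zone code. -/
def XX : Set (List α) := {X | Qual LW th z X ∧ ∀ Y D, X = Y ++ D → D ≠ [] → ¬ Qual LW th z Y}

variable {LW th z}

theorem XX_prefix {X Y : List α} (hX : X ∈ XX LW th z) (hY : Y ∈ XX LW th z) {D : List α}
    (h : X = Y ++ D) : D = [] := by
  by_contra hD
  exact hX.2 Y D h hD hY.1

theorem exists_zone_prefix {e n W G S : ℕ} (hLW : LWall e n W G LW)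
    (hS : ∀ δ, th δ ≤ S) (hn : n ≤ z) {w : List α} (hRF : RF e W w)
    (hl : z + S + G ≤ w.length) (hG : 0 < G) :
    ∃ X E, w = X ++ E ∧ X ∈ XX LW th z ∧ X.length ≤ z + S + G := by
  classical
  -- a qualifying prefix exists
  have hex : ∃ m, m ≤ z + S + G ∧ Qual LW th z (w.take m) := by
    obtain ⟨P', D, hP, hD, hLP⟩ := hLW.cov (w.take (z + S + G)) (hRF.take _)
      (by rw [List.length_take]; omega)
    have hlen := congrArg List.length hP
    rw [List.length_take, List.length_append] at hlen
    refine ⟨P'.length, by omega, ?_⟩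
    have : w.take P'.length = P' := by
      have h1 : (w.take (z + S + G)).take P'.length = P' := by
        rw [hP, List.take_left]
      rw [List.take_take] at h1
      rwa [min_eq_left (by omega)] at h1
    rw [this]
    refine ⟨hLP, by omega, ?_⟩
    have := hS ((P'.length : ℤ) - z)
    omega
  obtain ⟨hm1, hm2⟩ := Nat.find_spec hex
  have hmin := fun k (hk : k < Nat.find hex) => Nat.find_min hex hk
  refine ⟨w.take (Nat.find hex), w.drop (Nat.find hex), (List.take_append_drop _ _).symm,
    ⟨hm2, ?_⟩, ?_⟩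
  · intro Y D hYD hD hY
    have hDl : 0 < D.length := List.length_pos_iff.2 hD
    have hlen := congrArg List.length hYD
    rw [List.length_take, List.length_append] at hlen
    refine hmin Y.length (by omega) ⟨by omega, ?_⟩
    have h1 : (w.take (Nat.find hex)).take Y.length = Y := by rw [hYD, List.take_left]
    rw [List.take_take, min_eq_left (by omega)] at h1
    rw [h1]
    exact hY
  · rw [List.length_take]; omega

/-- The right words of junctions: `q` = distance, `N1` = length of the window. -/
def QQ (LW : List α → Prop) (th : ℤ → ℤ) (q N1 : ℕ) : Set (List α) :=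
  {Q | LW Q ∧ q + N1 ≤ Q.length ∧ th ((Q.length : ℤ) - q - N1) ≤ (Q.length : ℤ) - q - N1 ∧
    ∀ Q' D, Q = Q' ++ D → D ≠ [] → LW Q' → q ≤ Q'.length →
      (Q'.length : ℤ) - q < th ((Q'.length : ℤ) - q - N1)}

/-- **Junction lemma** (818 / 132 in block form). -/
theorem junction {e n W G p0 q N1 M' om : ℕ} (hLW : LWall e n W G LW)
    (hper : ∀ δ (j : ℤ), th (δ + M' * j) = th δ) (hz : z = p0 + N1 + q) (hq : n ≤ q)
    {P Q : List α} (hP : P.length = p0 + M' * om) (hom : M' * om ≤ N1)
    (hQ : Q ∈ QQ LW th q N1) : P ++ Q ∈ XX LW th z := by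
  obtain ⟨h1, h2, h3, h4⟩ := hQ
  have hnQ : n ≤ Q.length := hLW.len Q h1
  have hcast : ((M' * om : ℕ) : ℤ) = (M' : ℤ) * om := by push_cast; ring
  have hres : ∀ L : ℤ, th (L - q - N1) = th (L + (p0 + M' * om) - z) := by
    intro L
    have : L + (p0 + M' * om) - z = (L - q - N1) + M' * (om : ℤ) := by
      rw [hz]; push_cast; ring
    rw [this, hper]
  refine ⟨⟨(hLW.loc P Q hnQ).2 h1, ?_, ?_⟩, ?_⟩
  · rw [List.length_append]; omega
  · have e1 : (((P ++ Q).length : ℕ) : ℤ) - z = (Q.length : ℤ) + (p0 + M' * om) - z := by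
      rw [List.length_append]; push_cast [hP]; ring
    rw [e1, ← hres]
    have : (0 : ℤ) ≤ (M' : ℤ) * om := by positivity
    have e2 : (z : ℤ) = p0 + N1 + q := by rw [hz]; push_cast; ring
    linarith
  · rintro Y D hYD hD ⟨hY1, hY2, hY3⟩
    -- Y is longer than P
    have hPY : P.length ≤ Y.length := by omega
    obtain ⟨Q', hQ'⟩ : ∃ Q', Y = P ++ Q' := by
      have hpre : P <+: Y := by
        apply List.prefix_of_prefix_length_le (l₃ := P ++ Q)
        · exact ⟨Q, rfl⟩
        · exact ⟨D, hYD.symm⟩
        · exact hPY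
      obtain ⟨Q', hQ'⟩ := hpre
      exact ⟨Q', hQ'.symm⟩
    subst hQ'
    have hQD : Q = Q' ++ D := by
      rw [List.append_assoc] at hYD
      exact List.append_cancel_left hYD
    rw [List.length_append] at hY2 hY3
    have hQ'l : q ≤ Q'.length := by omega
    have hLQ' : LW Q' := (hLW.loc P Q' (by omega)).1 hY1
    have h5 := h4 Q' D hQD hD hLQ' hQ'l
    have e1 : (((P.length + Q'.length : ℕ)) : ℤ) - z = (Q'.length : ℤ) + (p0 + M' * om) - z := by
      push_cast [hP]; ring
    rw [e1, ← hres] at hY3
    have e2 : (z : ℤ) = p0 + N1 + q := by rw [hz]; push_cast; ring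
    have e3 : (M' : ℤ) * om ≤ N1 := by rw [← hcast]; exact_mod_cast hom
    linarith

/-- **(E)-completeness**: a zone all of whose walls are far from the thresholds allows every
place of the window. -/
theorem complete_E {e n W G p0 q N1 M' om : ℕ} (hLW : LWall e n W G LW)
    (hper : ∀ δ (j : ℤ), th (δ + M' * j) = th δ) (hz : z = p0 + N1 + q) (hq : n ≤ q)
    (hth : ∀ δ, (N1 : ℤ) ≤ th δ)
    (hom : M' * om ≤ N1) {X : List α} (hX : X ∈ XX LW th z)
    (hE : ∀ Y D, X = Y ++ D → LW Y →
      ¬ (|((Y.length : ℤ) - z) - th ((Y.length : ℤ) - z)| ≤ N1)) :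
    X.drop (p0 + M' * om) ∈ QQ LW th q N1 := by
  obtain ⟨⟨h1, h2, h3⟩, h4⟩ := hX
  have hcast : ((M' * om : ℕ) : ℤ) = (M' : ℤ) * om := by push_cast; ring
  have e2 : (z : ℤ) = p0 + N1 + q := by rw [hz]; push_cast; ring
  have e3 : (M' : ℤ) * om ≤ N1 := by rw [← hcast]; exact_mod_cast hom
  have e4 : (0 : ℤ) ≤ (M' : ℤ) * om := by positivity
  set P := X.take (p0 + M' * om) with hPdef
  set Q := X.drop (p0 + M' * om) with hQdef
  have hXPQ : X = P ++ Q := (List.take_append_drop _ _).symm
  have hPl : P.length = p0 + M' * om := by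
    rw [hPdef, List.length_take]; omega
  have hQl : Q.length + (p0 + M' * om) = X.length := by
    rw [hQdef, List.length_drop]; omega
  have hQlz : (Q.length : ℤ) + (p0 + M' * om) = X.length := by exact_mod_cast hQl
  have hEX := hE X [] (by simp) h1
  have hδX : (N1 : ℤ) < ((X.length : ℤ) - z) - th ((X.length : ℤ) - z) := by
    rw [abs_le, not_and_or] at hEX
    rcases hEX with h | h
    · exfalso; have := hth ((X.length : ℤ) - z); linarith
    · linarith
  have hres : ∀ L : ℤ, th (L - q - N1) = th (L + (p0 + M' * om) - z) := by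
    intro L
    have : L + (p0 + M' * om) - z = (L - q - N1) + M' * (om : ℤ) := by
      rw [hz]; push_cast; ring
    rw [this, hper]
  have hlen1 : q + N1 ≤ Q.length := by
    have := hth ((X.length : ℤ) - z)
    have : (q : ℤ) + N1 ≤ Q.length := by linarith
    exact_mod_cast this
  refine ⟨?_, hlen1, ?_, ?_⟩
  · rw [hXPQ] at h1
    exact (hLW.loc P Q (by omega)).1 h1
  · rw [hres, hQlz]; linarith
  · intro Q' D hQD hD hLQ' hq'
    by_contra hcon
    push Not at hcon
    have hY : X = (P ++ Q') ++ D := by rw [List.append_assoc, ← hQD]; exact hXPQ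
    have hLY : LW (P ++ Q') := (hLW.loc P Q' (by omega)).2 hLQ'
    have hYl : (((P ++ Q').length : ℕ) : ℤ) = (Q'.length : ℤ) + (p0 + M' * om) := by
      rw [List.length_append]; push_cast [hPl]; ring
    have hEY := hE (P ++ Q') D hY hLY
    rw [hres] at hcon
    rw [hYl] at hEY
    have hnq := h4 (P ++ Q') D hY hD
    rw [abs_le, not_and_or] at hEY
    rcases hEY with h | h
    · linarith
    · apply hnq
      have hpos := hth ((Q'.length : ℤ) + (p0 + M' * om) - z)
      refine ⟨hLY, ?_, ?_⟩
      · have : (z : ℤ) ≤ ((P ++ Q').length : ℕ) := by rw [hYl]; linarith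
        exact_mod_cast this
      · rw [hYl]; linarith

end

end Crest.Agent.R320.Zone28
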