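import Mathlib.Tactic
import Mathlib.Data.List.TakeDrop

/-!
Row 320 (S0495), joint of the wall calculus (818), an exact gadget and the semigroup form of the
thread calculus (261 / 360): the SCHEME LANGUAGE of a right-looking wall rule `R`, a chain map
`N(a) = first wall >= a + z`, `z = p + q + N1`, `n <= p`, and a gadget
`al P = some v -> be Q = some r -> r = zeta (P ++ Q) v`.
-/

set_option autoImplicit false

namespace Crest.Agent.R320.Zone_688

variable {α V : Type*}

/-- Data of a scheme. -/
structure Sch (α V : Type*) where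
  /-- right-looking wall rule -/
  R : List α → Prop
  n : ℕ
  hR : ∀ Q, R Q ↔ R (Q.take n)
  hn : ∀ Q, R Q → n ≤ Q.length
  hn0 : 0 < n
  p : ℕ
  q : ℕ
  N1 : ℕ
  hp : n ≤ p
  /-- zone map -/
  zeta : List α → V → V
  al : List α → Option V
  be : List α → Option V
  hal : ∀ P v, al P = some v → p ≤ P.length ∧ P.length < p + N1
  hex : ∀ P Q v r, al P = some v → be Q = some r → r = zeta (P ++ Q) v

namespace Sch

variable (S : Sch α V)

/-- chain step -/
def z : ℕ := S.p + S.q + S.N1

/-- wall at position `i` of `w` -/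
def Wl (w : List α) (i : ℕ) : Prop := S.R (w.drop i)

/-- `b` is the first wall `>= y` -/
def Nxt (w : List α) (y b : ℕ) : Prop :=
  y ≤ b ∧ S.Wl w b ∧ ∀ i, y ≤ i → i < b → ¬ S.Wl w i

/-- the factor `w[a, c)` -/
def slc (w : List α) (a c : ℕ) : List α := (w.drop a).take (c - a)

/-- chain run with values -/
inductive Run (w : List α) : ℕ → V → ℕ → V → Prop
  | nil (a : ℕ) (v : V) : Run w a v a v
  | cons (a : ℕ) (v : V) (c b : ℕ) (v' : V) :
      S.Nxt w (a + S.z) c → Run w c (S.zeta (slc w a c) v) b v' → Run w a v b v'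

/-- The full language of the scheme. -/
def K : Set (List α) :=
  {u | ∃ b0 v0 a v, S.Nxt u S.q b0 ∧ S.q + S.N1 ≤ b0 ∧ S.be (u.take b0) = some v0 ∧
      S.Run u b0 v0 a v ∧ a ≤ u.length ∧ S.al (u.drop a) = some v}

variable {S}

theorem R_congr {Q Q' : List α} (h : Q.take S.n = Q'.take S.n) : S.R Q ↔ S.R Q' := by
  rw [S.hR Q, S.hR Q', h]

theorem Wl.le {w : List α} {i : ℕ} (h : S.Wl w i) : i + S.n ≤ w.length := by
  have h1 := S.hn _ h
  have h0 := S.hn0
  rw [List.length_drop] at h1
  omega

/-- walls of `u ++ v` visible in `u` -/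
theorem Wl_append_left {u v : List α} {i : ℕ} (hi : i + S.n ≤ u.length) :
    S.Wl (u ++ v) i ↔ S.Wl u i := by
  unfold Wl
  apply R_congr
  rw [List.drop_append_of_le_length (by omega), List.take_append_of_le_length]
  rw [List.length_drop]; omega

theorem Wl_append_right {u v : List α} {i : ℕ} :
    S.Wl (u ++ v) (u.length + i) ↔ S.Wl v i := by
  unfold Wl
  rw [List.drop_append, List.drop_eq_nil_of_le (by omega : u.length ≤ u.length + i)]
  simp

theorem Wl_drop {w : List α} {y i : ℕ} : S.Wl (w.drop y) i ↔ S.Wl w (y + i) := by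
  unfold Wl
  rw [List.drop_drop]

theorem Wl_take {w : List α} {y i : ℕ} (hi : i + S.n ≤ y) :
    S.Wl (w.take y) i ↔ S.Wl w i := by
  unfold Wl
  apply R_congr
  rw [List.drop_take, List.take_take, min_eq_left (by omega)]

theorem slc_append_left {u v : List α} {a c : ℕ} (ha : a ≤ c) (hc : c ≤ u.length) :
    slc (u ++ v) a c = slc u a c := by
  unfold slc
  rw [List.drop_append_of_le_length (by omega), List.take_append_of_le_length]
  rw [List.length_drop]; omega

theorem slc_append_right {u v : List α} {a c : ℕ} :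
    slc (u ++ v) (u.length + a) (u.length + c) = slc v a c := by
  unfold slc
  rw [List.drop_append]
  have h1 : List.drop (u.length + a) u = [] := List.drop_eq_nil_of_le (by omega)
  rw [h1, List.nil_append]
  congr 1
  · omega
  · congr 1; omega

theorem slc_drop {w : List α} {y a c : ℕ} : slc (w.drop y) a c = slc w (y + a) (y + c) := by
  unfold slc
  rw [List.drop_drop]
  congr 1
  omega

theorem slc_take {w : List α} {y a c : ℕ} (hc : c ≤ y) :
    slc (w.take y) a c = slc w a c := by
  unfold slc
  rw [List.drop_take, List.take_take, min_eq_left (by omega)]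

theorem Nxt.append_left {u t : List α} {y b : ℕ} (h : S.Nxt u y b) : S.Nxt (u ++ t) y b := by
  obtain ⟨h1, h2, h3⟩ := h
  have h4 := h2.le
  refine ⟨h1, (Wl_append_left h4).2 h2, fun i hi hib hw => h3 i hi hib ?_⟩
  exact (Wl_append_left (by omega)).1 hw

theorem Nxt.append_right {u v : List α} {y b : ℕ} (h : S.Nxt v y b) :
    S.Nxt (u ++ v) (u.length + y) (u.length + b) := by
  obtain ⟨h1, h2, h3⟩ := h
  refine ⟨by omega, Wl_append_right.2 h2, fun i hi hib hw => ?_⟩
  obtain ⟨j, rfl⟩ : ∃ j, i = u.length + j := ⟨i - u.length, by omega⟩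
  exact h3 j (by omega) (by omega) (Wl_append_right.1 hw)

theorem Nxt.take {w : List α} {y b t : ℕ} (h : S.Nxt w y b) (hb : b + S.n ≤ t) :
    S.Nxt (w.take t) y b := by
  obtain ⟨h1, h2, h3⟩ := h
  refine ⟨h1, (Wl_take hb).2 h2, fun i hi hib hw => h3 i hi hib ?_⟩
  exact (Wl_take (by omega)).1 hw

theorem Nxt.drop {w : List α} {y b t : ℕ} (h : S.Nxt w y b) (ht : t ≤ y) :
    S.Nxt (w.drop t) (y - t) (b - t) := by
  obtain ⟨h1, h2, h3⟩ := h
  refine ⟨by omega, ?_, fun i hi hib hw => h3 (t + i) (by omega) (by omega) (Wl_drop.1 hw)⟩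
  rw [Wl_drop, show t + (b - t) = b by omega]
  exact h2

theorem Nxt.unique {w : List α} {y b b' : ℕ} (h : S.Nxt w y b) (h' : S.Nxt w y b') : b = b' := by
  obtain ⟨h1, h2, h3⟩ := h
  obtain ⟨k1, k2, k3⟩ := h'
  rcases lt_trichotomy b b' with h | h | h
  · exact absurd h2 (k3 b h1 h)
  · exact h
  · exact absurd k2 (h3 b' k1 h)

theorem Run.le {w : List α} {a b : ℕ} {v v' : V} (h : S.Run w a v b v') : a ≤ b := by
  induction h with
  | nil a v => exact le_rfl
  | cons a v c b v' h1 _ ih =>
    have := h1.1
    omega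

theorem Run.trans {w : List α} {a b c : ℕ} {v v' v'' : V} (h : S.Run w a v b v')
    (h' : S.Run w b v' c v'') : S.Run w a v c v'' := by
  induction h with
  | nil a v => exact h'
  | cons a v d b v' h1 _ ih => exact Run.cons _ _ _ _ _ h1 (ih h')

theorem Run.append_left {u t : List α} {a b : ℕ} {v v' : V} (h : S.Run u a v b v') :
    S.Run (u ++ t) a v b v' := by
  induction h with
  | nil a v => exact Run.nil _ _
  | cons a v c b v' h1 _ ih =>
    refine Run.cons _ _ c _ _ h1.append_left ?_
    have h4 := h1.2.1.le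
    rw [slc_append_left (by have := h1.1; omega) (by omega)]
    exact ih

theorem Run.append_right {u t : List α} {a b : ℕ} {v v' : V} (h : S.Run t a v b v') :
    S.Run (u ++ t) (u.length + a) v (u.length + b) v' := by
  induction h with
  | nil a v => exact Run.nil _ _
  | cons a v c b v' h1 _ ih =>
    have h5 := Nxt.append_right (u := u) h1
    rw [← add_assoc] at h5
    refine Run.cons _ _ (u.length + c) _ _ h5 ?_
    rw [slc_append_right]
    exact ih

theorem Run.take {w : List α} {a b t : ℕ} {v v' : V} (h : S.Run w a v b v')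
    (hb : b + S.n ≤ t) : S.Run (w.take t) a v b v' := by
  induction h with
  | nil a v => exact Run.nil _ _
  | cons a v c b v' h1 h2 ih =>
    have h3 := h2.le
    refine Run.cons _ _ c _ _ (h1.take (by omega)) ?_
    rw [slc_take (by omega)]
    exact ih hb

theorem Run.drop {w : List α} {a b t : ℕ} {v v' : V} (h : S.Run w a v b v')
    (ht : t ≤ a) : S.Run (w.drop t) (a - t) v (b - t) v' := by
  induction h with
  | nil a v => exact Run.nil _ _
  | cons a v c b v' h1 h2 ih =>
    have h3 := h1.1
    have h4 := h1.drop (t := t) (by omega)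
    rw [show a + S.z - t = a - t + S.z by omega] at h4
    refine Run.cons _ _ (c - t) _ _ h4 ?_
    rw [slc_drop, show t + (a - t) = a by omega, show t + (c - t) = c by omega]
    exact ih (by omega)

/-- the run is deterministic -/
theorem Run.unique {w : List α} {a b : ℕ} {v v' v'' : V} (hz : 0 < S.z) (h : S.Run w a v b v')
    (h' : S.Run w a v b v'') : v' = v'' := by
  induction h with
  | nil a v =>
    cases h' with
    | nil => rfl
    | cons _ _ c _ _ h1 h2 =>
      have := h2.le; have := h1.1; omega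
  | cons a v c b v' h1 h2 ih =>
    cases h' with
    | nil => have := h2.le; have := h1.1; omega
    | cons _ _ c' _ _ h3 h4 =>
      have := h1.unique h3
      subst this
      exact ih h4

/-- **Soundness**: the scheme language is closed under concatenation. -/
theorem K_append {u v : List α} (hu : u ∈ S.K) (hv : v ∈ S.K) : u ++ v ∈ S.K := by
  obtain ⟨b0, v0, a, x, h1, h2, h3, h4, h5, h6⟩ := hu
  obtain ⟨c0, w0, d, y, k1, k2, k3, k4, k5, k6⟩ := hv
  have hl := S.hal _ _ h6
  rw [List.length_drop] at hl
  have hb0 := h1.2.1.le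
  refine ⟨b0, v0, u.length + d, y, h1.append_left, h2, ?_, ?_, ?_, ?_⟩
  · rw [List.take_append_of_le_length (by omega)]; exact h3
  · refine Run.trans h4.append_left ?_
    have hz : S.z = S.p + S.q + S.N1 := rfl
    have hc : S.Nxt (u ++ v) (a + S.z) (u.length + c0) := by
      refine ⟨by omega, Wl_append_right.2 k1.2.1, fun i hi hib hw => ?_⟩
      obtain ⟨j, rfl⟩ : ∃ j, i = u.length + j := ⟨i - u.length, by omega⟩
      exact k1.2.2 j (by omega) (by omega) (Wl_append_right.1 hw)
    refine Run.cons _ _ (u.length + c0) _ _ hc ?_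
    have hs : slc (u ++ v) a (u.length + c0) = u.drop a ++ v.take c0 := by
      unfold slc
      rw [List.drop_append_of_le_length (by omega), List.take_append,
        List.take_of_length_le (by rw [List.length_drop]; omega)]
      congr 2
      rw [List.length_drop]; omega
    rw [hs, ← S.hex _ _ _ _ h6 k3]
    exact k4.append_right
  · rw [List.length_append]; omega
  · rw [List.drop_append, List.drop_eq_nil_of_le (by omega : u.length ≤ u.length + d)]
    simpa using k6

theorem nil_not_mem_K : ([] : List α) ∉ S.K := by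
  rintro ⟨b0, v0, a, x, h1, -, -, -, -, -⟩
  have := h1.2.1.le
  have := S.hn0
  simp at *
  omega

/-- **Splitting**: a zone `[c, d)` of the chain of `u` which is cut by the gadget at `y` splits
`u` into two words of the language. -/
theorem split {u : List α} {b0 a c d y : ℕ} {v0 v x r : V}
    (h1 : S.Nxt u S.q b0) (h2 : S.q + S.N1 ≤ b0) (h3 : S.be (u.take b0) = some v0)
    (h4 : S.Run u b0 v0 c x) (h5 : S.Nxt u (c + S.z) d)
    (h6 : S.Run u d (S.zeta (slc u c d) x) a v) (ha : a ≤ u.length)
    (h7 : S.al (u.drop a) = some v)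
    (hc : c ≤ y) (hy : y ≤ u.length)
    (hnow : ∀ i, y + S.q ≤ i → i < y + S.q + S.N1 → ¬ S.Wl u i)
    (hP : S.al (slc u c y) = some x) (hQ : S.be (slc u y d) = some r) :
    u.take y ∈ S.K ∧ u.drop y ∈ S.K ∧ y < u.length := by
  have hz : S.z = S.p + S.q + S.N1 := rfl
  have hl := S.hal _ _ hP
  have hlen : (slc u c y).length = y - c := by
    unfold slc
    rw [List.length_take, List.length_drop]; omega
  rw [hlen] at hl
  have hp := S.hp
  have hbc := h4.le
  have hda := h6.le
  have hd := h5.1
  have hdl := h5.2.1.le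
  have hd2 : y + S.q + S.N1 ≤ d := by
    by_contra hcon
    exact hnow d (by omega) (by omega) h5.2.1
  have h0 := S.hn0
  refine ⟨⟨b0, v0, c, x, h1.take (by omega), h2, ?_, h4.take (by omega), ?_, ?_⟩,
    ⟨d - y, r, a - y, v, ?_, by omega, ?_, ?_, ?_, ?_⟩, by omega⟩
  · rw [List.take_take, min_eq_left (by omega)]; exact h3
  · rw [List.length_take]; omega
  · rw [List.drop_take]; exact hP
  · refine ⟨by omega, ?_, fun i hi hid hw => ?_⟩
    · rw [Wl_drop, show y + (d - y) = d by omega]; exact h5.2.1
    · rw [Wl_drop] at hw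
      by_cases hi2 : y + i < y + S.q + S.N1
      · exact hnow _ (by omega) hi2 hw
      · exact h5.2.2 _ (by omega) (by omega) hw
  · exact hQ
  · have e1 : slc u c y ++ slc u y d = slc u c d := by
      unfold slc
      have : List.drop y u = List.drop (y - c) (List.drop c u) := by
        rw [List.drop_drop]; congr 1; omega
      rw [this, show d - c = (y - c) + (d - y) by omega, List.take_add]
    have e2 := S.hex _ _ _ _ hP hQ
    rw [e1] at e2
    rw [e2]
    exact h6.drop (by omega)
  · rw [List.length_drop]; omega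
  · rw [List.drop_drop, show y + (a - y) = a by omega]; exact h7

/-- **Irreducible words**: no interior zone of an irreducible word of `K` is cut by the gadget. -/
theorem irreducible {u : List α} (hirr : ∀ s ∈ S.K, ∀ t ∈ S.K, s ++ t ≠ u)
    {b0 a c d y : ℕ} {v0 v x r : V}
    (h1 : S.Nxt u S.q b0) (h2 : S.q + S.N1 ≤ b0) (h3 : S.be (u.take b0) = some v0)
    (h4 : S.Run u b0 v0 c x) (h5 : S.Nxt u (c + S.z) d)
    (h6 : S.Run u d (S.zeta (slc u c d) x) a v) (ha : a ≤ u.length)
    (h7 : S.al (u.drop a) = some v)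
    (hc : c ≤ y) (hy : y ≤ u.length)
    (hnow : ∀ i, y + S.q ≤ i → i < y + S.q + S.N1 → ¬ S.Wl u i)
    (hP : S.al (slc u c y) = some x) (hQ : S.be (slc u y d) = some r) : False := by
  obtain ⟨k1, k2, -⟩ := split h1 h2 h3 h4 h5 h6 ha h7 hc hy hnow hP hQ
  exact hirr _ k1 _ k2 (List.take_append_drop y u)

end Sch

end Crest.Agent.R320.Zone_688
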